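import Mathlib

/-!
Row 257 (S0395), part C (Jung route), leaf C-AJ: continuous families of monic polynomials with
simple roots; over a simply connected base they split into continuous root functions (helper387).
-/

set_option autoImplicit false

open Polynomial Set Filter Topology Metric

noncomputable section

namespace Crest.Agent.R257.AJ387

/-- a continuous family of monic polynomials of degree `d` with `d` distinct roots -/
structure Fam (S : Type*) [TopologicalSpace S] (d : ℕ) where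
  Q : S → ℂ[X]
  monic : ∀ s, (Q s).Monic
  deg : ∀ s, (Q s).natDegree = d
  cont : ∀ i, Continuous fun s => (Q s).coeff i
  nodup : ∀ s, (Q s).roots.Nodup

variable {S : Type*} [TopologicalSpace S] {d : ℕ}

namespace Fam

variable (P : Fam S d)

lemma ne_zero (s : S) : P.Q s ≠ 0 := (P.monic s).ne_zero

lemma card_roots (s : S) : (P.Q s).roots.card = d := by
  rw [← (IsAlgClosed.splits (P.Q s)).natDegree_eq_card_roots, P.deg s]

lemma card_roots' (s : S) : (P.Q s).roots.toFinset.card = d := by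
  rw [Multiset.toFinset_card_of_nodup (P.nodup s), P.card_roots]

lemma eval_eq (s : S) (z : ℂ) : (P.Q s).eval z = ((P.Q s).roots.map (z - ·)).prod := by
  exact (IsAlgClosed.splits (P.Q s)).eval_eq_prod_roots_of_monic (P.monic s) z

lemma eval_sum (s : S) (z : ℂ) :
    (P.Q s).eval z = ∑ i ∈ Finset.range (d + 1), (P.Q s).coeff i * z ^ i := by
  rw [eval_eq_sum_range, P.deg s]

lemma cont_eval : Continuous fun p : S × ℂ => (P.Q p.1).eval p.2 := by
  simp_rw [P.eval_sum]
  exact continuous_finsetSum _ fun i _ =>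
    ((P.cont i).comp continuous_fst).mul (continuous_snd.pow i)

lemma cont_eval' (z : ℂ) : Continuous fun s : S => (P.Q s).eval z :=
  P.cont_eval.comp (by fun_prop : Continuous fun s : S => (s, z))

lemma norm_le_of_far {s : S} {z : ℂ} {ε : ℝ} (hε : 0 ≤ ε)
    (h : ∀ w, (P.Q s).eval w = 0 → ε ≤ ‖z - w‖) : ε ^ d ≤ ‖(P.Q s).eval z‖ := by
  have h1 : ∀ m : Multiset ℂ, (∀ w ∈ m, ε ≤ ‖z - w‖) → ε ^ m.card ≤ ‖(m.map (z - ·)).prod‖ := by
    intro m
    induction m using Multiset.induction with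
    | empty => intro _; simp
    | cons a m ih =>
      intro hm
      have h2 := ih fun w hw => hm w (Multiset.mem_cons_of_mem hw)
      have h3 := hm a (Multiset.mem_cons_self a m)
      rw [Multiset.card_cons, Multiset.map_cons, Multiset.prod_cons, norm_mul, pow_succ, mul_comm]
      exact mul_le_mul h3 h2 (pow_nonneg hε _) (norm_nonneg _)
  rw [P.eval_eq]
  have := h1 (P.Q s).roots fun w hw => h w ((mem_roots (P.ne_zero s)).1 hw)
  rwa [P.card_roots] at this

/-- roots vary continuously: a nearby polynomial has a nearby root -/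
lemma root_near {s : S} {z : ℂ} (hz : (P.Q s).eval z = 0) {ε : ℝ} (hε : 0 < ε) :
    ∀ᶠ s' in 𝓝 s, ∃ w, (P.Q s').eval w = 0 ∧ ‖z - w‖ < ε := by
  have h1 : Tendsto (fun s' => ‖(P.Q s').eval z‖) (𝓝 s) (𝓝 0) := by
    have := (P.cont_eval' z).norm.tendsto s
    simpa [hz] using this
  have h2 : 0 < ε ^ d := pow_pos hε d
  filter_upwards [h1.eventually (gt_mem_nhds h2)] with s' hs'
  by_contra hcon
  push Not at hcon
  exact absurd (P.norm_le_of_far hε.le hcon) (not_le.2 hs')

/-- the finite set of roots -/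
def rts (s : S) : Finset ℂ := (P.Q s).roots.toFinset

lemma mem_rts {s : S} {z : ℂ} : z ∈ P.rts s ↔ (P.Q s).eval z = 0 := by
  rw [rts, Multiset.mem_toFinset, mem_roots (P.ne_zero s)]; rfl

/-- separation radius of the roots at `s` -/
lemma exists_sep (s : S) : ∃ ε > 0, ∀ z ∈ P.rts s, ∀ w ∈ P.rts s, z ≠ w → 2 * ε ≤ ‖z - w‖ := by
  classical
  set T := ((P.rts s ×ˢ P.rts s).filter fun p => p.1 ≠ p.2) with hT
  rcases T.eq_empty_or_nonempty with h | h
  · refine ⟨1, one_pos, fun z hz w hw hzw => ?_⟩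
    have : (z, w) ∈ T := by simp [hT, hz, hw, hzw]
    rw [h] at this; simp at this
  · obtain ⟨p, hp, hmin⟩ := T.exists_min_image (fun p => ‖p.1 - p.2‖) h
    have hp' := (Finset.mem_filter.1 hp).2
    have h0 : 0 < ‖p.1 - p.2‖ := norm_pos_iff.2 (sub_ne_zero.2 hp')
    refine ⟨‖p.1 - p.2‖ / 2, by positivity, fun z hz w hw hzw => ?_⟩
    have := hmin (z, w) (by simp [hT, hz, hw, hzw])
    simp only at this
    linarith

/-- **local structure of the roots**: for all small `ε`, near `s` every root lies in exactly one of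
the `ε`-balls around the roots at `s`, and each ball contains exactly one. -/
lemma local_str (s : S) : ∃ ε₀ > 0, ∀ ε, 0 < ε → ε ≤ ε₀ → ∀ᶠ s' in 𝓝 s,
    (∀ z ∈ P.rts s, ∃! w, (P.Q s').eval w = 0 ∧ ‖z - w‖ < ε) ∧
    (∀ w, (P.Q s').eval w = 0 → ∃ z ∈ P.rts s, ‖z - w‖ < ε) := by
  classical
  obtain ⟨ε₀, hε₀, hsep⟩ := P.exists_sep s
  refine ⟨ε₀, hε₀, fun ε hε hεε => ?_⟩
  have h1 : ∀ᶠ s' in 𝓝 s, ∀ z ∈ P.rts s, ∃ w, (P.Q s').eval w = 0 ∧ ‖z - w‖ < ε := by
    rw [Filter.eventually_all_finset]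
    intro z hz
    exact P.root_near (P.mem_rts.1 hz) hε
  filter_upwards [h1] with s' hs'
  choose! φ hφ using hs'
  have hinj : Set.InjOn φ (P.rts s) := by
    intro z hz w hw hzw
    by_contra hne
    have h2 := hsep z hz w hw hne
    have h3 := (hφ z hz).2
    have h4 := (hφ w hw).2
    rw [← hzw] at h4
    have h5 : ‖z - w‖ ≤ ‖z - φ z‖ + ‖w - φ z‖ := by
      have := norm_sub_le (z - φ z) (w - φ z)
      simpa using this
    linarith
  have hsub : (P.rts s).image φ ⊆ P.rts s' := by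
    intro w hw
    obtain ⟨z, hz, rfl⟩ := Finset.mem_image.1 hw
    exact P.mem_rts.2 (hφ z hz).1
  have hcard : ((P.rts s).image φ).card = (P.rts s').card := by
    rw [Finset.card_image_of_injOn hinj, rts, rts, P.card_roots', P.card_roots']
  have himg : (P.rts s).image φ = P.rts s' := Finset.eq_of_subset_of_card_le hsub hcard.ge
  have hall : ∀ w, (P.Q s').eval w = 0 → ∃ z ∈ P.rts s, φ z = w := by
    intro w hw
    have : w ∈ (P.rts s).image φ := by rw [himg]; exact P.mem_rts.2 hw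
    simpa using this
  refine ⟨fun z hz => ⟨φ z, hφ z hz, ?_⟩, ?_⟩
  · rintro w ⟨hw, hzw⟩
    obtain ⟨z', hz', rfl⟩ := hall w hw
    by_contra hne
    have hne' : z' ≠ z := fun h => hne (by rw [h])
    have h2 := hsep z' hz' z hz hne'
    have h3 := (hφ z' hz').2
    have h5 : ‖z' - z‖ ≤ ‖z' - φ z'‖ + ‖z - φ z'‖ := by
      have := norm_sub_le (z' - φ z') (z - φ z')
      simpa using this
    linarith
  · intro w hw
    obtain ⟨z, hz, rfl⟩ := hall w hw
    exact ⟨z, hz, (hφ z hz).2⟩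

/-- total space -/
abbrev E : Type _ := {p : S × ℂ // (P.Q p.1).eval p.2 = 0}

/-- projection -/
def pr (e : P.E) : S := e.1.1

lemma continuous_pr : Continuous P.pr := continuous_fst.comp continuous_subtype_val

lemma pr_closed [T2Space S] : IsClosedMap P.pr := by
  rw [isClosedMap_iff_comap_nhds_le]
  intro s O hO
  rw [mem_nhdsSet_iff_forall] at hO
  -- for each root a product neighbourhood
  have h1 : ∀ z ∈ P.rts s, ∃ N ∈ 𝓝 s, ∃ ε > 0, ∀ e : P.E, e.1.1 ∈ N → ‖z - e.1.2‖ < ε → e ∈ O := by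
    intro z hz
    have h2 := hO ⟨(s, z), P.mem_rts.1 hz⟩ rfl
    rw [nhds_subtype_eq_comap, mem_comap] at h2
    obtain ⟨V, hV, hVO⟩ := h2
    have hV' : V ∈ 𝓝 ((s, z) : S × ℂ) := hV
    rw [mem_nhds_prod_iff] at hV'
    obtain ⟨N, hN, M, hM, hNM⟩ := hV'
    obtain ⟨ε, hε, hεM⟩ := Metric.mem_nhds_iff.1 hM
    refine ⟨N, hN, ε, hε, fun e he hz' => hVO ?_⟩
    apply hNM
    refine ⟨he, hεM ?_⟩
    rw [mem_ball, dist_comm, dist_eq_norm]; exact hz'
  choose! N hN ε hε hNO using h1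
  obtain ⟨ε₀, hε₀, hloc⟩ := P.local_str s
  obtain ⟨δ, hδ, hδ0, hδε⟩ : ∃ δ > 0, δ ≤ ε₀ ∧ ∀ z ∈ P.rts s, δ ≤ ε z := by
    classical
    rcases (P.rts s).eq_empty_or_nonempty with h | h
    · exact ⟨ε₀, hε₀, le_rfl, by simp [h]⟩
    · obtain ⟨z, hz, hmin⟩ := (P.rts s).exists_min_image ε h
      exact ⟨min ε₀ (ε z), lt_min hε₀ (hε z hz), min_le_left _ _,
        fun w hw => (min_le_right _ _).trans (hmin w hw)⟩
  have h2 := hloc δ hδ hδ0
  have h3 : ∀ᶠ s' in 𝓝 s, ∀ z ∈ P.rts s, s' ∈ N z := by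
    rw [Filter.eventually_all_finset]
    intro z hz
    exact hN z hz
  rw [mem_comap]
  refine ⟨_, h2.and h3, fun e he => ?_⟩
  obtain ⟨⟨-, he2⟩, he3⟩ := he
  obtain ⟨z, hz, hzw⟩ := he2 e.1.2 e.2
  exact hNO z hz e (he3 z hz) (hzw.trans_le (hδε z hz))

/-- local sections through a point of the total space -/
lemma exists_section (e : P.E) : ∃ N : Set S, IsOpen N ∧ e.1.1 ∈ N ∧ ∃ ε > 0, ∃ φ : S → ℂ,
    ContinuousOn φ N ∧ ∀ s ∈ N, (P.Q s).eval (φ s) = 0 ∧ ‖e.1.2 - φ s‖ < ε ∧
      ∀ w, (P.Q s).eval w = 0 → ‖e.1.2 - w‖ < ε → w = φ s := by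
  classical
  obtain ⟨⟨s, z⟩, he⟩ := e
  simp only at he ⊢
  obtain ⟨ε₀, hε₀, hloc⟩ := P.local_str s
  have h1 := hloc ε₀ hε₀ le_rfl
  obtain ⟨N, hNs, hNo, hsN⟩ := eventually_nhds_iff.1 h1
  have hex : ∀ s' ∈ N, ∃! w, (P.Q s').eval w = 0 ∧ ‖z - w‖ < ε₀ := fun s' hs' =>
    (hNs s' hs').1 z (P.mem_rts.2 he)
  let φ : S → ℂ := fun s' => if h : s' ∈ N then (hex s' h).choose else 0
  have hφ : ∀ s' (h : s' ∈ N), ((P.Q s').eval (φ s') = 0 ∧ ‖z - φ s'‖ < ε₀) ∧
      ∀ w, ((P.Q s').eval w = 0 ∧ ‖z - w‖ < ε₀) → w = φ s' := by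
    intro s' h
    have h2 := (hex s' h).choose_spec
    have h3 : φ s' = (hex s' h).choose := dif_pos h
    rw [h3]
    exact h2
  refine ⟨N, hNo, hsN, ε₀, hε₀, φ, ?_, fun s' hs' => ⟨(hφ s' hs').1.1, (hφ s' hs').1.2,
    fun w hw hw' => (hφ s' hs').2 w ⟨hw, hw'⟩⟩⟩
  intro s' hs'
  refine ContinuousAt.continuousWithinAt ?_
  rw [ContinuousAt, Metric.tendsto_nhds]
  intro η hη
  set η' := min η (ε₀ - ‖z - φ s'‖) with hη'
  have hη'0 : 0 < η' := lt_min hη (by linarith [(hφ s' hs').1.2])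
  filter_upwards [P.root_near (hφ s' hs').1.1 hη'0, hNo.mem_nhds hs'] with t ht htN
  obtain ⟨w, hw, hw'⟩ := ht
  have h4 : ‖z - w‖ < ε₀ := by
    have h5 : ‖z - w‖ ≤ ‖z - φ s'‖ + ‖φ s' - w‖ := by
      have := norm_add_le (z - φ s') (φ s' - w)
      simpa using this
    have h6 := hw'.trans_le (min_le_right _ _)
    linarith
  have h7 := (hφ t htN).2 w ⟨hw, h4⟩
  rw [← h7, dist_comm, dist_eq_norm]
  exact hw'.trans_le (min_le_left _ _)

lemma pr_localHomeo : IsLocalHomeomorph P.pr := by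
  classical
  intro e
  obtain ⟨N, hN, heN, ε, hε, φ, hφc, hφ⟩ := P.exists_section e
  let σ : S → P.E := fun s => if h : s ∈ N then ⟨(s, φ s), (hφ s h).1⟩ else e
  have hσ : ∀ s ∈ N, (σ s).1 = (s, φ s) := fun s hs => by
    have : σ s = ⟨(s, φ s), (hφ s hs).1⟩ := dif_pos hs
    rw [this]
  refine ⟨{ toFun := P.pr
            invFun := σ
            source := {x | x.1.1 ∈ N ∧ ‖e.1.2 - x.1.2‖ < ε}
            target := N
            map_source' := fun x hx => hx.1
            map_target' := ?_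
            left_inv' := ?_
            right_inv' := ?_
            open_source := ?_
            open_target := hN
            continuousOn_toFun := P.continuous_pr.continuousOn
            continuousOn_invFun := ?_ }, ⟨heN, by simpa using hε⟩, rfl⟩
  · intro s hs
    change (σ s).1.1 ∈ N ∧ ‖e.1.2 - (σ s).1.2‖ < ε
    rw [hσ s hs]
    exact ⟨hs, (hφ s hs).2.1⟩
  · rintro x ⟨hx1, hx2⟩
    apply Subtype.ext
    rw [hσ _ (show P.pr x ∈ N from hx1)]
    have h2 := (hφ x.1.1 hx1).2.2 x.1.2 x.2 hx2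
    exact Prod.ext rfl h2.symm
  · intro s hs
    change (σ s).1.1 = s
    rw [hσ s hs]
  · rw [continuousOn_iff_continuous_domRestrict]
    have h3 : N.domRestrict σ = fun s : N => (⟨(s.1, φ s.1), (hφ s.1 s.2).1⟩ : P.E) := by
      funext s
      apply Subtype.ext
      exact hσ s.1 s.2
    rw [h3]
    exact Continuous.subtype_mk
      (continuous_subtype_val.prodMk (continuousOn_iff_continuous_domRestrict.1 hφc)) _
  · refine IsOpen.inter (hN.preimage (continuous_fst.comp continuous_subtype_val)) ?_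
    exact isOpen_lt ((continuous_const.sub (continuous_snd.comp continuous_subtype_val)).norm)
      continuous_const

lemma pr_covering [T2Space S] : IsCoveringMap P.pr := by
  rw [isCoveringMap_iff_isCoveringMapOn_univ]
  refine P.pr_closed.isCoveringMapOn_of_isLocalHomeomorphOn (fun s _ => ?_) ?_
  · refine Set.Finite.of_finite_image (f := fun e : P.E => e.1.2)
      ((P.rts s).finite_toSet.subset ?_) ?_
    · rintro _ ⟨e, he, rfl⟩
      have he' : e.1.1 = s := he
      have := e.2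
      rw [he'] at this
      exact P.mem_rts.2 this
    · intro e he e' he' h
      have h1 : e.1.1 = s := he
      have h2 : e'.1.1 = s := he'
      exact Subtype.ext (Prod.ext (h1.trans h2.symm) h)
  · exact fun e _ => P.pr_localHomeo e

/-- root sections over a simply connected base -/
theorem exists_root [T2Space S] [SimplyConnectedSpace S] [LocallyPathConnectedSpace S] (s₀ : S) (z₀ : ℂ)
    (h : (P.Q s₀).eval z₀ = 0) :
    ∃ ζ : S → ℂ, Continuous ζ ∧ ζ s₀ = z₀ ∧ ∀ s, (P.Q s).eval (ζ s) = 0 := by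
  obtain ⟨F, ⟨hF0, hF⟩, -⟩ := P.pr_covering.existsUnique_continuousMap_lifts
    (ContinuousMap.id S) s₀ ⟨(s₀, z₀), h⟩ rfl
  refine ⟨fun s => (F s).1.2, continuous_snd.comp (continuous_subtype_val.comp F.continuous), ?_, ?_⟩
  · change (F s₀).1.2 = z₀
    rw [hF0]
  · intro s
    have h1 : (F s).1.1 = s := congrFun hF s
    have h2 := (F s).2
    rw [h1] at h2
    exact h2

/-- two continuous root functions which agree somewhere agree everywhere -/
theorem root_unique [T2Space S] [PreconnectedSpace S] {ζ ζ' : S → ℂ} (hc : Continuous ζ)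
    (hc' : Continuous ζ') (h : ∀ s, (P.Q s).eval (ζ s) = 0) (h' : ∀ s, (P.Q s).eval (ζ' s) = 0)
    {s₀ : S} (h0 : ζ s₀ = ζ' s₀) : ζ = ζ' := by
  let F : S → P.E := fun s => ⟨(s, ζ s), h s⟩
  let F' : S → P.E := fun s => ⟨(s, ζ' s), h' s⟩
  have h1 : F = F' := P.pr_covering.eq_of_comp_eq
    (Continuous.subtype_mk (continuous_id.prodMk hc) _)
    (Continuous.subtype_mk (continuous_id.prodMk hc') _) rfl s₀
    (Subtype.ext (Prod.ext rfl h0))
  funext s
  exact congrArg (fun e : P.E => e.1.2) (congrFun h1 s)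

/-- **splitting over a simply connected base** -/
theorem exists_split [T2Space S] [SimplyConnectedSpace S] [LocallyPathConnectedSpace S] :
    ∃ ζ : Fin d → S → ℂ, (∀ j, Continuous (ζ j)) ∧ (∀ s, Function.Injective fun j => ζ j s) ∧
      (∀ j s, (P.Q s).eval (ζ j s) = 0) ∧ ∀ s, P.Q s = ∏ j, (X - C (ζ j s)) := by
  classical
  have s₀ : S := Classical.arbitrary S
  obtain ⟨e⟩ : Nonempty (Fin d ≃ P.rts s₀) := by
    refine ⟨(Fintype.equivFinOfCardEq ?_).symm⟩
    rw [Fintype.card_coe]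
    exact P.card_roots' s₀
  have h1 : ∀ j : Fin d, ∃ ζ : S → ℂ, Continuous ζ ∧ ζ s₀ = e j ∧ ∀ s, (P.Q s).eval (ζ s) = 0 :=
    fun j => P.exists_root s₀ (e j) (P.mem_rts.1 (e j).2)
  choose ζ hc h0 hr using h1
  have hinj : ∀ s, Function.Injective fun j => ζ j s := by
    intro s i j hij
    have h2 := P.root_unique (hc i) (hc j) (hr i) (hr j) (s₀ := s) hij
    have h3 := congrFun h2 s₀
    rw [h0, h0] at h3
    exact e.injective (Subtype.ext h3)
  refine ⟨ζ, hc, hinj, hr, fun s => ?_⟩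
  have h4 : (P.Q s).roots.toFinset = Finset.univ.image fun j => ζ j s := by
    symm
    apply Finset.eq_of_subset_of_card_le
    · intro w hw
      obtain ⟨j, -, rfl⟩ := Finset.mem_image.1 hw
      exact P.mem_rts.2 (hr j s)
    · rw [P.card_roots', Finset.card_image_of_injective _ (hinj s)]
      simp
  have h5 : (P.Q s).roots = (Finset.univ.image fun j => ζ j s).val := by
    rw [← h4, Multiset.toFinset_val, Multiset.dedup_eq_self.2 (P.nodup s)]
  have h6 := (IsAlgClosed.splits (P.Q s)).eq_prod_roots_of_monic (P.monic s)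
  rw [h6, h5]
  have h7 : ((Finset.univ.image fun j => ζ j s).val.map fun a => (X - C a : ℂ[X])).prod =
      ∏ a ∈ Finset.univ.image (fun j => ζ j s), (X - C a : ℂ[X]) := rfl
  rw [h7, Finset.prod_image fun i _ j _ hij => hinj s hij]

end Fam

end Crest.Agent.R257.AJ387
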