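import Mathlib
import Crest.Agent.R257.AJ1_387
import Crest.Agent.R266.Osgood
import Crest.Agent.R271.RExt2_747

/-!
Row 257 (S0395), part C (Jung route), leaf C-AJ, file 2: analyticity of simple roots, Riemann
extension across `a * b = 0` in the bidisc (helper387).
-/

set_option autoImplicit false

open Polynomial Set Filter Topology Metric MeasureTheory
open scoped ContDiff ENNReal

noncomputable section

namespace Crest.Agent.R257.AJ387

section analytic

variable {E : Type*} [NormedAddCommGroup E] [NormedSpace ℂ E] [CompleteSpace E]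

lemma isInvertible_of_apply_one_ne {L : ℂ →L[ℂ] ℂ} (h : L 1 ≠ 0) : L.IsInvertible := by
  refine ⟨ContinuousLinearEquiv.unitsEquivAut ℂ (Units.mk0 (L 1) h), ?_⟩
  ext
  simp

/-- a continuous simple root of a polynomial with analytic coefficients is analytic -/
theorem analyticAt_root {Q : E → ℂ[X]} {d : ℕ} {s : E} (hdeg : ∀ᶠ t in 𝓝 s, (Q t).natDegree ≤ d)
    (han : ∀ i, AnalyticAt ℂ (fun t => (Q t).coeff i) s) {ζ : E → ℂ} (hc : ContinuousAt ζ s)
    (hr : ∀ᶠ t in 𝓝 s, (Q t).eval (ζ t) = 0) (hs : (Q s).derivative.eval (ζ s) ≠ 0) :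
    AnalyticAt ℂ ζ s := by
  let f : E × ℂ → ℂ := fun p => ∑ i ∈ Finset.range (d + 1), (Q p.1).coeff i * p.2 ^ i
  have hf : ContDiffAt ℂ ω f (s, ζ s) := by
    refine ContDiffAt.sum fun i _ => ContDiffAt.mul ?_ ?_
    · have h1 : AnalyticAt ℂ (fun p : E × ℂ => (Q p.1).coeff i) (s, ζ s) :=
        AnalyticAt.comp (g := fun t => (Q t).coeff i) (han i) analyticAt_fst
      exact h1.contDiffAt
    · exact contDiffAt_snd.pow i
  have hne : (ω : ℕ∞ω) ≠ 0 := by simp
  have hfe : ∀ t, (Q t).natDegree ≤ d → ∀ z, f (t, z) = (Q t).eval z := by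
    intro t ht z
    rw [eval_eq_sum_range' (Nat.lt_succ_of_le ht)]
  have hds : (Q s).natDegree ≤ d := hdeg.self_of_nhds
  have hinv : (fderiv ℂ f (s, ζ s) ∘L .inr ℂ E ℂ).IsInvertible := by
    apply isInvertible_of_apply_one_ne
    have h1 : HasFDerivAt f (fderiv ℂ f (s, ζ s)) (s, ζ s) :=
      (hf.differentiableAt hne).hasFDerivAt
    have h2 : HasDerivAt (fun z : ℂ => f (s, z)) (fderiv ℂ f (s, ζ s) (0, 1)) (ζ s) := by
      have h3 : HasDerivAt (fun z : ℂ => ((s, z) : E × ℂ)) (0, 1) (ζ s) :=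
        (hasDerivAt_const _ _).prodMk (hasDerivAt_id _)
      exact h1.comp_hasDerivAt (ζ s) h3
    have h4 : (fun z : ℂ => f (s, z)) = fun z => (Q s).eval z := funext fun z => hfe s hds z
    rw [h4] at h2
    have h5 := h2.unique ((Q s).hasDerivAt (ζ s))
    rw [ContinuousLinearMap.comp_apply, ContinuousLinearMap.inr_apply, h5]
    exact hs
  have h6 := hf.eventually_apply_eq_iff_implicitFunction hne hinv
  have h7 : Tendsto (fun t => (t, ζ t)) (𝓝 s) (𝓝 (s, ζ s)) := (continuousAt_id.prodMk hc)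
  have h8 : f (s, ζ s) = 0 := by rw [hfe s hds]; exact hr.self_of_nhds
  have h9 : hf.implicitFunction hne hinv =ᶠ[𝓝 s] ζ := by
    filter_upwards [h7.eventually h6, hr, hdeg] with t ht htr htd
    apply ht.1
    rw [h8, hfe t htd, htr]
  exact ((hf.contDiffAt_implicitFunction hne hinv).analyticAt).congr h9

/-- distinct roots are simple -/
lemma derivative_ne_of_nodup {p : ℂ[X]} (hp : p ≠ 0) (h : p.roots.Nodup) {z : ℂ}
    (hz : p.eval z = 0) : p.derivative.eval z ≠ 0 := by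
  classical
  intro h1
  have h2 : 1 < p.rootMultiplicity z := (one_lt_rootMultiplicity_iff_isRoot hp).2 ⟨hz, h1⟩
  have h3 := Multiset.nodup_iff_count_le_one.1 h z
  rw [count_roots] at h3
  omega

end analytic

/-- Riemann extension across the coordinate cross in `ℂ × ℂ` -/
theorem riemann_cross {U : Set (ℂ × ℂ)} (hU : IsOpen U) {f : ℂ × ℂ → ℂ}
    (hf : DifferentiableOn ℂ f (U ∩ {p | p.1 * p.2 ≠ 0}))
    (hb : ∀ a ∈ U, ∃ C : ℝ, ∀ᶠ p in 𝓝 a, p.1 * p.2 ≠ 0 → ‖f p‖ ≤ C) :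
    ∃ g : ℂ × ℂ → ℂ, AnalyticOnNhd ℂ g U ∧ ∀ p ∈ U, p.1 * p.2 ≠ 0 → g p = f p := by
  let e : (Fin 2 → ℂ) ≃L[ℂ] ℂ × ℂ := ContinuousLinearEquiv.finTwoArrow ℂ ℂ
  have he : ∀ z, e z = (z 0, z 1) := fun z => rfl
  let D : (Fin 2 → ℂ) → ℂ := fun z => z 0 * z 1
  have hD : AnalyticOnNhd ℂ D (e ⁻¹' U) := by
    intro z _
    exact ((ContinuousLinearMap.proj (R := ℂ) (φ := fun _ : Fin 2 => ℂ) 0).analyticAt z).mul
      ((ContinuousLinearMap.proj (R := ℂ) (φ := fun _ : Fin 2 => ℂ) 1).analyticAt z)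
  have hnz : ∀ a ∈ e ⁻¹' U, ¬ (∀ᶠ z in 𝓝 a, D z = 0) := by
    intro a _ hcon
    have h1 : ∀ᶠ t : ℂ in 𝓝 0, D (a + t • fun _ => 1) = 0 := by
      have h2 : Tendsto (fun t : ℂ => a + t • (fun _ => (1 : ℂ))) (𝓝 0) (𝓝 a) := by
        have : Continuous fun t : ℂ => a + t • (fun _ : Fin 2 => (1 : ℂ)) := by fun_prop
        simpa using this.tendsto 0
      exact h2.eventually hcon
    have h3 : ∀ᶠ t : ℂ in 𝓝[≠] 0, t ≠ - a 0 ∧ t ≠ - a 1 := by
      have h4 : ∀ c : ℂ, ∀ᶠ t : ℂ in 𝓝[≠] 0, t ≠ c := by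
        intro c
        by_cases hc : c = 0
        · rw [hc]; exact self_mem_nhdsWithin
        · exact Filter.Eventually.filter_mono nhdsWithin_le_nhds (isOpen_ne.mem_nhds (Ne.symm hc))
      exact (h4 _).and (h4 _)
    obtain ⟨t, ht1, ht2⟩ := (h3.and (h1.filter_mono nhdsWithin_le_nhds)).exists
    simp only [D, Pi.add_apply, Pi.smul_apply, smul_eq_mul, mul_one, mul_eq_zero] at ht2
    rcases ht2 with h | h
    · exact ht1.1 (by linear_combination h)
    · exact ht1.2 (by linear_combination h)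
  have hfd : DifferentiableOn ℂ (fun z => f (e z)) (e ⁻¹' U ∩ {z | D z ≠ 0}) :=
    hf.comp e.differentiable.differentiableOn fun z hz => ⟨hz.1, hz.2⟩
  have hL : ∀ a ∈ e ⁻¹' U, ∃ W ∈ 𝓝 a, ∫⁻ z in W ∩ {z | D z ≠ 0}, ‖f (e z)‖ₑ ^ 2 < ⊤ := by
    intro a ha
    obtain ⟨C, hC⟩ := hb (e a) ha
    have h1 := e.continuous.continuousAt.eventually hC
    obtain ⟨ρ, hρ, hρC⟩ := Metric.eventually_nhds_iff_ball.1 h1
    refine ⟨ball a ρ, ball_mem_nhds a hρ, ?_⟩
    calc ∫⁻ z in ball a ρ ∩ {z | D z ≠ 0}, ‖f (e z)‖ₑ ^ 2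
        ≤ ∫⁻ _ in ball a ρ ∩ {z | D z ≠ 0}, (ENNReal.ofReal (|C| ^ 2)) := by
          refine setLIntegral_mono' ?_ ?_
          · exact measurableSet_ball.inter (by
              have : Continuous D := by fun_prop
              exact (isOpen_ne_fun this continuous_const).measurableSet)
          · rintro z ⟨hz1, hz2⟩
            have h2 : ‖f (e z)‖ ≤ |C| := (hρC z hz1 hz2).trans (le_abs_self C)
            rw [ENNReal.ofReal_pow (abs_nonneg C)]
            gcongr
            rw [← ofReal_norm]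
            exact ENNReal.ofReal_le_ofReal h2
      _ ≤ ENNReal.ofReal (|C| ^ 2) * volume (ball a ρ) := by
          rw [setLIntegral_const]
          gcongr
          exact inter_subset_left
      _ < ⊤ := ENNReal.mul_lt_top ENNReal.ofReal_lt_top measure_ball_lt_top
  obtain ⟨g, hg, hgf⟩ := Crest.Agent.R271.RExt747.riemann_ext (hU.preimage e.continuous) hD
    hnz hfd hL
  refine ⟨fun p => g (e.symm p), ?_, fun p hp hne => ?_⟩
  · refine Crest.Agent.R266.SCV.analyticOnNhd_of_differentiableOn hU ?_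
    exact hg.comp e.symm.differentiable.differentiableOn fun p hp => by
      simpa using hp
  · have := hgf (e.symm p) (by simpa using hp) (by
      have h1 : e (e.symm p) = p := e.apply_symm_apply p
      rw [he] at h1
      have h2 : (e.symm p) 0 = p.1 := congrArg Prod.fst h1
      have h3 : (e.symm p) 1 = p.2 := congrArg Prod.snd h1
      simp only [D, h2, h3]; exact hne)
    simpa using this

end Crest.Agent.R257.AJ387
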