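import Mathlib
import Crest.Agent.R257.AJ2_387

/-!
Row 257 (S0395), part C (Jung route), leaf C-AJ, file 3: the Abhyankar-Jung theorem in Kummer
coordinates (helper387).
-/

set_option autoImplicit false

open Polynomial Set Filter Topology Metric

noncomputable section

namespace Crest.Agent.R257.AJ387

/-- open bidisc -/
def BD (r₁ r₂ : ℝ) : Set (ℂ × ℂ) := {p | ‖p.1‖ < r₁ ∧ ‖p.2‖ < r₂}

lemma isOpen_BD (r₁ r₂ : ℝ) : IsOpen (BD r₁ r₂) :=
  (isOpen_lt continuous_fst.norm continuous_const).inter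
    (isOpen_lt continuous_snd.norm continuous_const)

/-- product of left half planes -/
def HP (r₁ r₂ : ℝ) : Set (ℂ × ℂ) := {s | s.1.re < Real.log r₁ ∧ s.2.re < Real.log r₂}

lemma isOpen_HP (r₁ r₂ : ℝ) : IsOpen (HP r₁ r₂) :=
  (isOpen_lt (Complex.continuous_re.comp continuous_fst) continuous_const).inter
    (isOpen_lt (Complex.continuous_re.comp continuous_snd) continuous_const)

lemma convex_HP (r₁ r₂ : ℝ) : Convex ℝ (HP r₁ r₂) := by
  have h : HP r₁ r₂ = {z : ℂ | z.re < Real.log r₁} ×ˢ {z : ℂ | z.re < Real.log r₂} := rfl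
  rw [h]
  exact (convex_halfSpace_re_lt _).prod (convex_halfSpace_re_lt _)

lemma nonempty_HP (r₁ r₂ : ℝ) : (HP r₁ r₂).Nonempty :=
  ⟨((Real.log r₁ - 1 : ℝ), (Real.log r₂ - 1 : ℝ)), by simp [HP]⟩

/-- the exponential in both variables -/
def ex (s : ℂ × ℂ) : ℂ × ℂ := (Complex.exp s.1, Complex.exp s.2)

lemma continuous_ex : Continuous ex := by unfold ex; fun_prop

lemma analyticAt_ex (s : ℂ × ℂ) : AnalyticAt ℂ ex s :=
  (analyticAt_fst.cexp).prod (analyticAt_snd.cexp)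

lemma ex_mem {r₁ r₂ : ℝ} (h₁ : 0 < r₁) (h₂ : 0 < r₂) {s : ℂ × ℂ} (hs : s ∈ HP r₁ r₂) :
    ex s ∈ BD r₁ r₂ := by
  refine ⟨?_, ?_⟩
  · change ‖Complex.exp s.1‖ < r₁
    rw [Complex.norm_exp, ← Real.exp_log h₁]; exact Real.exp_lt_exp.2 (by simpa using hs.1)
  · change ‖Complex.exp s.2‖ < r₂
    rw [Complex.norm_exp, ← Real.exp_log h₂]; exact Real.exp_lt_exp.2 (by simpa using hs.2)

lemma ex_ne (s : ℂ × ℂ) : (ex s).1 * (ex s).2 ≠ 0 :=
  mul_ne_zero (Complex.exp_ne_zero _) (Complex.exp_ne_zero _)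

/-- the data of an Abhyankar-Jung family -/
structure Data (d : ℕ) (r₁ r₂ : ℝ) where
  P : ℂ × ℂ → ℂ[X]
  h₁ : 0 < r₁
  h₂ : 0 < r₂
  monic : ∀ p ∈ BD r₁ r₂, (P p).Monic
  deg : ∀ p ∈ BD r₁ r₂, (P p).natDegree = d
  an : ∀ i, AnalyticOnNhd ℂ (fun p => (P p).coeff i) (BD r₁ r₂)
  nodup : ∀ p ∈ BD r₁ r₂, p.1 * p.2 ≠ 0 → (P p).roots.Nodup

namespace Data

variable {d : ℕ} {r₁ r₂ : ℝ} (𝒟 : Data d r₁ r₂)

/-- the family over the product of half planes -/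
def fam : Fam (HP r₁ r₂) d where
  Q s := 𝒟.P (ex s)
  monic s := 𝒟.monic _ (ex_mem 𝒟.h₁ 𝒟.h₂ s.2)
  deg s := 𝒟.deg _ (ex_mem 𝒟.h₁ 𝒟.h₂ s.2)
  cont i := by
    have h1 : ContinuousOn (fun p => (𝒟.P p).coeff i) (BD r₁ r₂) := (𝒟.an i).continuousOn
    have h2 : ContinuousOn (fun s => (𝒟.P (ex s)).coeff i) (HP r₁ r₂) :=
      h1.comp continuous_ex.continuousOn fun s hs => ex_mem 𝒟.h₁ 𝒟.h₂ hs
    exact continuousOn_iff_continuous_domRestrict.1 h2
  nodup s := 𝒟.nodup _ (ex_mem 𝒟.h₁ 𝒟.h₂ s.2) (ex_ne _)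

theorem upstairs : ∃ z : Fin d → ℂ × ℂ → ℂ,
    (∀ j, AnalyticOnNhd ℂ (z j) (HP r₁ r₂)) ∧
    (∀ s ∈ HP r₁ r₂, Function.Injective fun j => z j s) ∧
    (∀ s ∈ HP r₁ r₂, 𝒟.P (ex s) = ∏ j, (X - C (z j s))) ∧
    (∀ T : ℂ × ℂ → ℂ × ℂ, Continuous T → (∀ s ∈ HP r₁ r₂, T s ∈ HP r₁ r₂) →
      (∀ s, ex (T s) = ex s) → ∃ σ : Equiv.Perm (Fin d), ∀ j, ∀ s ∈ HP r₁ r₂,
        z j (T s) = z (σ j) s) := by
  classical
  have hne := nonempty_HP r₁ r₂
  have : ContractibleSpace (HP r₁ r₂) := (convex_HP r₁ r₂).contractibleSpace hne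
  have : LocallyPathConnectedSpace (HP r₁ r₂) := (isOpen_HP r₁ r₂).locallyPathConnectedSpace
  have : PreconnectedSpace (HP r₁ r₂) :=
    isPreconnected_iff_preconnectedSpace.1 (convex_HP r₁ r₂).isPreconnected
  obtain ⟨ζ, hc, hinj, hr, hsp⟩ := 𝒟.fam.exists_split
  let z : Fin d → ℂ × ℂ → ℂ := fun j s => if h : s ∈ HP r₁ r₂ then ζ j ⟨s, h⟩ else 0
  have hz : ∀ j (s : HP r₁ r₂), z j s = ζ j s := fun j s => by
    simp only [z]; rw [dif_pos s.2]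
  have hzc : ∀ j, ContinuousOn (z j) (HP r₁ r₂) := fun j => by
    rw [continuousOn_iff_continuous_domRestrict]
    have : (HP r₁ r₂).domRestrict (z j) = ζ j := by funext s; exact hz j s
    rw [this]; exact hc j
  have hzr : ∀ j, ∀ s ∈ HP r₁ r₂, (𝒟.P (ex s)).eval (z j s) = 0 := fun j s hs => by
    have := hr j ⟨s, hs⟩
    rw [← hz j ⟨s, hs⟩] at this
    exact this
  have hzp : ∀ s ∈ HP r₁ r₂, 𝒟.P (ex s) = ∏ j, (X - C (z j s)) := fun s hs => by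
    have := hsp ⟨s, hs⟩
    simp only [← hz] at this
    exact this
  have hzi : ∀ s ∈ HP r₁ r₂, Function.Injective fun j => z j s := fun s hs => by
    have := hinj ⟨s, hs⟩
    simp only [← hz] at this
    exact this
  refine ⟨z, fun j s hs => ?_, hzi, hzp, ?_⟩
  · have hnb : HP r₁ r₂ ∈ 𝓝 s := (isOpen_HP r₁ r₂).mem_nhds hs
    refine analyticAt_root (Q := fun t => 𝒟.P (ex t)) (d := d) ?_ ?_
      ((hzc j).continuousAt hnb) ?_ ?_
    · filter_upwards [hnb] with t ht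
      exact (𝒟.deg _ (ex_mem 𝒟.h₁ 𝒟.h₂ ht)).le
    · intro i
      exact AnalyticAt.comp (g := fun p => (𝒟.P p).coeff i)
        (𝒟.an i _ (ex_mem 𝒟.h₁ 𝒟.h₂ hs)) (analyticAt_ex s)
    · filter_upwards [hnb] with t ht using hzr j t ht
    · exact derivative_ne_of_nodup (𝒟.monic _ (ex_mem 𝒟.h₁ 𝒟.h₂ hs)).ne_zero
        (𝒟.nodup _ (ex_mem 𝒟.h₁ 𝒟.h₂ hs) (ex_ne _)) (hzr j s hs)
  · intro T hT hTm hTe
    obtain ⟨s₀, hs₀⟩ := hne
    have h1 : ∀ j, ∃ i, z j (T s₀) = z i s₀ := by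
      intro j
      have h2 := hzr j _ (hTm s₀ hs₀)
      rw [hTe, hzp s₀ hs₀, eval_prod] at h2
      obtain ⟨i, -, hi⟩ := Finset.prod_eq_zero_iff.1 h2
      refine ⟨i, ?_⟩
      simp only [eval_sub, eval_X, eval_C] at hi
      exact sub_eq_zero.1 hi
    choose σ hσ using h1
    have hσi : Function.Injective σ := by
      intro i j hij
      apply hzi (T s₀) (hTm s₀ hs₀)
      simp only [hσ, hij]
    refine ⟨Equiv.ofBijective σ (Finite.injective_iff_bijective.1 hσi), fun j s hs => ?_⟩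
    have h3 : Continuous fun s : HP r₁ r₂ => z j (T s) := by
      have h4 : ContinuousOn (fun s => z j (T s)) (HP r₁ r₂) :=
        (hzc j).comp hT.continuousOn hTm
      exact continuousOn_iff_continuous_domRestrict.1 h4
    have h5 : Continuous fun s : HP r₁ r₂ => z (σ j) s :=
      continuousOn_iff_continuous_domRestrict.1 (hzc (σ j))
    have key := 𝒟.fam.root_unique h3 h5 (fun s => by
      have := hzr j _ (hTm s s.2)
      rw [hTe] at this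
      exact this) (fun s => hzr (σ j) s s.2) (s₀ := ⟨s₀, hs₀⟩) (hσ j)
    exact congrFun key ⟨s, hs⟩

end Data

end Crest.Agent.R257.AJ387
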