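import Mathlib
import Crest.Agent.R257.AJ3_387

/-!
Row 257 (S0395), part C (Jung route), leaf C-AJ, file 4: **Abhyankar-Jung in Kummer coordinates**
(helper387).

`abhyankar_jung`: `P` monic of degree `d` with coefficients analytic on the bidisc of radii `r₁, r₂`,
with `d` distinct roots at every point with `a * b ≠ 0`.  Then with `N = d!` there are `d` functions
`ζ j` analytic on `{‖α‖ ^ N < r₁, ‖β‖ ^ N < r₂}` with
`P (α ^ N, β ^ N) = ∏ j, (X - C (ζ j (α, β)))`.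
-/

set_option autoImplicit false

open Polynomial Set Filter Topology Metric

noncomputable section

namespace Crest.Agent.R257.AJ387

/-- Cauchy bound for roots of a monic polynomial -/
lemma norm_root_le {p : ℂ[X]} (hp : p.Monic) {z : ℂ} (hz : p.eval z = 0) :
    ‖z‖ ≤ 1 + ∑ i ∈ Finset.range p.natDegree, ‖p.coeff i‖ := by
  by_contra hcon
  push Not at hcon
  have hS : 0 ≤ ∑ i ∈ Finset.range p.natDegree, ‖p.coeff i‖ :=
    Finset.sum_nonneg fun i _ => norm_nonneg _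
  have hz1 : 1 < ‖z‖ := by linarith
  rw [eval_eq_sum_range, Finset.sum_range_succ, hp.coeff_natDegree, one_mul] at hz
  rcases Nat.eq_zero_or_pos p.natDegree with h0 | h0
  · rw [h0] at hz; simp at hz
  have h1 : ‖z‖ ^ p.natDegree ≤ ∑ i ∈ Finset.range p.natDegree, ‖p.coeff i‖ * ‖z‖ ^ i := by
    have h2 : z ^ p.natDegree = - ∑ i ∈ Finset.range p.natDegree, p.coeff i * z ^ i := by
      linear_combination hz
    calc ‖z‖ ^ p.natDegree = ‖z ^ p.natDegree‖ := (norm_pow _ _).symm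
      _ = ‖∑ i ∈ Finset.range p.natDegree, p.coeff i * z ^ i‖ := by rw [h2, norm_neg]
      _ ≤ ∑ i ∈ Finset.range p.natDegree, ‖p.coeff i * z ^ i‖ := norm_sum_le _ _
      _ = _ := by simp_rw [norm_mul, norm_pow]
  have h3 : ∑ i ∈ Finset.range p.natDegree, ‖p.coeff i‖ * ‖z‖ ^ i ≤
      (∑ i ∈ Finset.range p.natDegree, ‖p.coeff i‖) * ‖z‖ ^ (p.natDegree - 1) := by
    rw [Finset.sum_mul]
    refine Finset.sum_le_sum fun i hi => mul_le_mul_of_nonneg_left ?_ (norm_nonneg _)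
    exact pow_le_pow_right₀ hz1.le (by have := Finset.mem_range.1 hi; omega)
  have h4 : ‖z‖ ^ p.natDegree = ‖z‖ * ‖z‖ ^ (p.natDegree - 1) := by
    rw [← pow_succ']; congr 1; omega
  have h5 : 0 < ‖z‖ ^ (p.natDegree - 1) := by positivity
  rw [h4] at h1
  have h6 := h1.trans h3
  have h7 := le_of_mul_le_mul_right h6 h5
  linarith

namespace Data

variable {d : ℕ} {r₁ r₂ : ℝ} (𝒟 : Data d r₁ r₂)

/-- the Kummer bidisc -/
def KD (N : ℕ) (r₁ r₂ : ℝ) : Set (ℂ × ℂ) := {p | ‖p.1‖ ^ N < r₁ ∧ ‖p.2‖ ^ N < r₂}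

lemma isOpen_KD (N : ℕ) (r₁ r₂ : ℝ) : IsOpen (KD N r₁ r₂) :=
  (isOpen_lt (continuous_fst.norm.pow N) continuous_const).inter
    (isOpen_lt (continuous_snd.norm.pow N) continuous_const)

lemma kum_mem {N : ℕ} {p : ℂ × ℂ} (hp : p ∈ KD N r₁ r₂) : (p.1 ^ N, p.2 ^ N) ∈ BD r₁ r₂ := by
  refine ⟨?_, ?_⟩
  · change ‖p.1 ^ N‖ < r₁
    rw [norm_pow]; exact hp.1
  · change ‖p.2 ^ N‖ < r₂
    rw [norm_pow]; exact hp.2

lemma iterate_perm {d : ℕ} {H : Set (ℂ × ℂ)} {z : Fin d → ℂ × ℂ → ℂ} {T : ℂ × ℂ → ℂ × ℂ}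
    (hT : ∀ s ∈ H, T s ∈ H) {σ : Equiv.Perm (Fin d)} (h : ∀ j, ∀ s ∈ H, z j (T s) = z (σ j) s) :
    ∀ (n : ℕ) (j : Fin d), ∀ s ∈ H, z j (T^[n] s) = z ((σ ^ n) j) s := by
  intro n
  induction n with
  | zero => intro j s _; simp
  | succ n ih =>
    intro j s hs
    rw [Function.iterate_succ_apply, ih j (T s) (hT s hs), h _ s hs]
    congr 1
    rw [pow_succ']
    rfl

lemma perm_pow_fact {d : ℕ} (σ : Equiv.Perm (Fin d)) : σ ^ d.factorial = 1 := by
  have := pow_card_eq_one (x := σ)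
  rwa [Fintype.card_perm, Fintype.card_fin] at this

/-- invariance under a lattice translation of `d!` periods -/
lemma transl {z : Fin d → ℂ × ℂ → ℂ} (u : ℂ × ℂ) (hu : u.1.re = 0 ∧ u.2.re = 0)
    (hue : ∀ s, ex (s + u) = ex s)
    (hz : ∀ T : ℂ × ℂ → ℂ × ℂ, Continuous T → (∀ s ∈ HP r₁ r₂, T s ∈ HP r₁ r₂) →
      (∀ s, ex (T s) = ex s) → ∃ σ : Equiv.Perm (Fin d), ∀ j, ∀ s ∈ HP r₁ r₂,
        z j (T s) = z (σ j) s) (j : Fin d) (k : ℤ) {s : ℂ × ℂ} (hs : s ∈ HP r₁ r₂) :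
    z j (s + ((k * d.factorial : ℤ) : ℂ) • u) = z j s := by
  have hsh : ∀ (c : ℤ) (s : ℂ × ℂ), s ∈ HP r₁ r₂ → s + (c : ℂ) • u ∈ HP r₁ r₂ := by
    intro c s hs
    refine ⟨?_, ?_⟩
    · have : (s + (c : ℂ) • u).1.re = s.1.re := by
        simp [hu.1]
      rw [this]; exact hs.1
    · have : (s + (c : ℂ) • u).2.re = s.2.re := by
        simp [hu.2]
      rw [this]; exact hs.2
  -- natural multiples
  have hnat : ∀ (m : ℕ) (s : ℂ × ℂ), s ∈ HP r₁ r₂ →
      z j (s + ((m * d.factorial : ℕ) : ℂ) • u) = z j s := by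
    intro m
    obtain ⟨σ, hσ⟩ := hz (fun s => s + u) (by fun_prop)
      (fun s hs => by simpa using hsh 1 s hs) hue
    have hit : ∀ (n : ℕ) (s : ℂ × ℂ), (fun s : ℂ × ℂ => s + u)^[n] s = s + (n : ℂ) • u := by
      intro n
      induction n with
      | zero => intro s; simp
      | succ n ih =>
        intro s
        rw [Function.iterate_succ_apply, ih]
        push_cast
        rw [add_smul, one_smul, add_assoc, add_comm u]
    intro s hs
    have h1 := iterate_perm (z := z) (H := HP r₁ r₂) (T := fun s => s + u)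
      (fun s hs => by simpa using hsh 1 s hs) hσ (m * d.factorial) j s hs
    rw [hit, mul_comm m, pow_mul, perm_pow_fact, one_pow] at h1
    rw [mul_comm m]
    exact h1
  obtain ⟨m, rfl | rfl⟩ := k.eq_nat_or_neg
  · have := hnat m s hs
    push_cast at this ⊢
    exact this
  · have h1 := hnat m (s + (((-(m : ℤ)) * d.factorial : ℤ) : ℂ) • u) (hsh _ s hs)
    rw [← h1]
    congr 1
    rw [add_assoc, ← add_smul]
    push_cast
    simp

/-- local branch of the logarithm -/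
def lb (c a : ℂ) : ℂ := Complex.log (a / c) + Complex.log c

lemma analyticAt_lb {c : ℂ} (hc : c ≠ 0) : AnalyticAt ℂ (lb c) c := by
  have h1 : AnalyticAt ℂ (fun a : ℂ => a / c) c := analyticAt_id.div analyticAt_const hc
  have h2 : AnalyticAt ℂ (fun a : ℂ => Complex.log (a / c)) c := by
    refine h1.clog ?_
    rw [div_self hc]; exact Complex.one_mem_slitPlane
  exact h2.add analyticAt_const

lemma exp_lb {c a : ℂ} (hc : c ≠ 0) (ha : a ≠ 0) : Complex.exp (lb c a) = a := by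
  rw [lb, Complex.exp_add, Complex.exp_log (div_ne_zero ha hc), Complex.exp_log hc,
    div_mul_cancel₀ _ hc]

lemma log_eq_lb {c a : ℂ} (hc : c ≠ 0) (ha : a ≠ 0) :
    ∃ k : ℤ, Complex.log a = lb c a + k * (2 * Real.pi * Complex.I) := by
  have h1 : Complex.exp (Complex.log a) = Complex.exp (lb c a) := by
    rw [exp_lb hc ha, Complex.exp_log ha]
  exact Complex.exp_eq_exp_iff_exists_int.1 h1

lemma re_lb {c a : ℂ} (hc : c ≠ 0) (ha : a ≠ 0) : (lb c a).re = Real.log ‖a‖ := by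
  have h1 : ‖Complex.exp (lb c a)‖ = ‖a‖ := by rw [exp_lb hc ha]
  rw [Complex.norm_exp] at h1
  rw [← h1, Real.log_exp]

lemma nlog_lt {N : ℕ} {a r : ℝ} (ha : 0 < a) (h : a ^ N < r) :
    (N : ℝ) * Real.log a < Real.log r := by
  rw [← Real.log_pow]
  exact Real.log_lt_log (by positivity) h

theorem abhyankar_jung : ∃ ζ : Fin d → ℂ × ℂ → ℂ,
    (∀ j, AnalyticOnNhd ℂ (ζ j) (KD d.factorial r₁ r₂)) ∧
    ∀ p ∈ KD d.factorial r₁ r₂,
      𝒟.P (p.1 ^ d.factorial, p.2 ^ d.factorial) = ∏ j, (X - C (ζ j p)) := by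
  classical
  obtain ⟨z, hza, hzi, hzp, hzT⟩ := 𝒟.upstairs
  set N := d.factorial with hN
  have hN0 : N ≠ 0 := Nat.factorial_ne_zero d
  have hπ : ∀ k : ℤ, Complex.exp ((k : ℂ) * (2 * Real.pi * Complex.I)) = 1 :=
    Complex.exp_int_mul_two_pi_mul_I
  -- translations
  have ht1 : ∀ j (k : ℤ) (s : ℂ × ℂ), s ∈ HP r₁ r₂ →
      z j (s.1 + N * (k * (2 * Real.pi * Complex.I)), s.2) = z j s := by
    intro j k s hs
    have h1 := transl (r₁ := r₁) (r₂ := r₂) (z := z) ((2 * Real.pi * Complex.I, 0) : ℂ × ℂ)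
      ⟨by simp, by simp⟩ (fun s => by
        simp only [ex, Prod.fst_add, Prod.snd_add, add_zero, Complex.exp_add,
          Complex.exp_two_pi_mul_I, mul_one]) hzT j k hs
    rw [← h1]
    congr 1
    ext <;> simp [hN] <;> ring
  have ht2 : ∀ j (k : ℤ) (s : ℂ × ℂ), s ∈ HP r₁ r₂ →
      z j (s.1, s.2 + N * (k * (2 * Real.pi * Complex.I))) = z j s := by
    intro j k s hs
    have h1 := transl (r₁ := r₁) (r₂ := r₂) (z := z) ((0, 2 * Real.pi * Complex.I) : ℂ × ℂ)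
      ⟨by simp, by simp⟩ (fun s => by
        simp only [ex, Prod.fst_add, Prod.snd_add, add_zero, Complex.exp_add,
          Complex.exp_two_pi_mul_I, mul_one]) hzT j k hs
    rw [← h1]
    congr 1
    ext <;> simp [hN] <;> ring
  let η : Fin d → ℂ × ℂ → ℂ := fun j p => z j (N * Complex.log p.1, N * Complex.log p.2)
  -- the point upstairs
  have hmem : ∀ c p : ℂ × ℂ, c.1 ≠ 0 → c.2 ≠ 0 → p ∈ KD N r₁ r₂ → p.1 ≠ 0 → p.2 ≠ 0 →
      ((N * lb c.1 p.1, N * lb c.2 p.2) : ℂ × ℂ) ∈ HP r₁ r₂ := by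
    intro c p hc1 hc2 hp hp1 hp2
    refine ⟨?_, ?_⟩
    · have : ((N : ℂ) * lb c.1 p.1).re = N * Real.log ‖p.1‖ := by
        rw [← re_lb hc1 hp1]; simp
      change ((N : ℂ) * lb c.1 p.1).re < _
      rw [this]; exact nlog_lt (norm_pos_iff.2 hp1) hp.1
    · have : ((N : ℂ) * lb c.2 p.2).re = N * Real.log ‖p.2‖ := by
        rw [← re_lb hc2 hp2]; simp
      change ((N : ℂ) * lb c.2 p.2).re < _
      rw [this]; exact nlog_lt (norm_pos_iff.2 hp2) hp.2
  have hη : ∀ j, ∀ c p : ℂ × ℂ, c.1 ≠ 0 → c.2 ≠ 0 → p ∈ KD N r₁ r₂ → p.1 ≠ 0 → p.2 ≠ 0 →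
      η j p = z j (N * lb c.1 p.1, N * lb c.2 p.2) := by
    intro j c p hc1 hc2 hp hp1 hp2
    obtain ⟨k, hk⟩ := log_eq_lb hc1 hp1
    obtain ⟨l, hl⟩ := log_eq_lb hc2 hp2
    have h0 := hmem c p hc1 hc2 hp hp1 hp2
    have h1 := ht1 j k _ h0
    have h2 : ((N * lb c.1 p.1 + N * (k * (2 * Real.pi * Complex.I)), N * lb c.2 p.2) : ℂ × ℂ) ∈
        HP r₁ r₂ := by
      refine ⟨?_, h0.2⟩
      have h3 : ((N * lb c.1 p.1 + N * (k * (2 * Real.pi * Complex.I)) : ℂ)).re =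
          (N * lb c.1 p.1 : ℂ).re := by simp
      change ((N * lb c.1 p.1 + N * (k * (2 * Real.pi * Complex.I)) : ℂ)).re < _
      rw [h3]; exact h0.1
    have h4 := ht2 j l _ h2
    simp only at h1 h4
    rw [← h1, ← h4]
    simp only [η]
    rw [hk, hl, mul_add, mul_add]
  -- the identity off the cross
  have hfac : ∀ p ∈ KD N r₁ r₂, p.1 * p.2 ≠ 0 →
      𝒟.P (p.1 ^ N, p.2 ^ N) = ∏ j, (X - C (η j p)) := by
    intro p hp hne
    have hp1 : p.1 ≠ 0 := left_ne_zero_of_mul hne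
    have hp2 : p.2 ≠ 0 := right_ne_zero_of_mul hne
    have h1 := hzp _ (hmem p p hp1 hp2 hp hp1 hp2)
    have h2 : ex (N * lb p.1 p.1, N * lb p.2 p.2) = (p.1 ^ N, p.2 ^ N) := by
      simp only [ex, Complex.exp_nat_mul, exp_lb hp1 hp1, exp_lb hp2 hp2]
    rw [h2] at h1
    rw [h1]
    refine Finset.prod_congr rfl fun j _ => ?_
    rw [hη j p p hp1 hp2 hp hp1 hp2]
  -- analyticity off the cross
  have han : ∀ j, ∀ p ∈ KD N r₁ r₂, p.1 * p.2 ≠ 0 → AnalyticAt ℂ (η j) p := by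
    intro j p hp hne
    have hp1 : p.1 ≠ 0 := left_ne_zero_of_mul hne
    have hp2 : p.2 ≠ 0 := right_ne_zero_of_mul hne
    have h1 : AnalyticAt ℂ (fun q : ℂ × ℂ => ((N * lb p.1 q.1, N * lb p.2 q.2) : ℂ × ℂ)) p := by
      refine AnalyticAt.prod ?_ ?_
      · exact analyticAt_const.mul (AnalyticAt.comp (g := lb p.1) (analyticAt_lb hp1) analyticAt_fst)
      · exact analyticAt_const.mul (AnalyticAt.comp (g := lb p.2) (analyticAt_lb hp2) analyticAt_snd)
    have h2 : AnalyticAt ℂ (fun q : ℂ × ℂ => z j (N * lb p.1 q.1, N * lb p.2 q.2)) p :=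
      AnalyticAt.comp (g := z j) (hza j _ (hmem p p hp1 hp2 hp hp1 hp2)) h1
    refine h2.congr ?_
    have h3 : ∀ᶠ q : ℂ × ℂ in 𝓝 p, q ∈ KD N r₁ r₂ ∧ q.1 ≠ 0 ∧ q.2 ≠ 0 := by
      refine Filter.Eventually.and ((isOpen_KD N r₁ r₂).mem_nhds hp)
        (Filter.Eventually.and ?_ ?_)
      · exact (isOpen_ne.preimage continuous_fst).mem_nhds hp1
      · exact (isOpen_ne.preimage continuous_snd).mem_nhds hp2
    filter_upwards [h3] with q hq
    exact (hη j p q hp1 hp2 hq.1 hq.2.1 hq.2.2).symm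
  -- local boundedness
  have hbd : ∀ j, ∀ a ∈ KD N r₁ r₂, ∃ C : ℝ, ∀ᶠ p in 𝓝 a, p.1 * p.2 ≠ 0 → ‖η j p‖ ≤ C := by
    intro j a ha
    have h1 : ContinuousAt (fun p : ℂ × ℂ => 1 + ∑ i ∈ Finset.range d,
        ‖(𝒟.P (p.1 ^ N, p.2 ^ N)).coeff i‖) a := by
      refine continuousAt_const.add (tendsto_finsetSum _ fun i _ => ?_)
      refine ContinuousAt.norm (f := fun p : ℂ × ℂ => (𝒟.P (p.1 ^ N, p.2 ^ N)).coeff i) ?_
      exact ContinuousAt.comp (g := fun p => (𝒟.P p).coeff i) (f := fun p : ℂ × ℂ =>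
        (p.1 ^ N, p.2 ^ N)) (𝒟.an i _ (kum_mem ha)).continuousAt (by fun_prop)
    refine ⟨(1 + ∑ i ∈ Finset.range d, ‖(𝒟.P (a.1 ^ N, a.2 ^ N)).coeff i‖) + 1, ?_⟩
    have h2 := h1.eventually (gt_mem_nhds (lt_add_one _))
    filter_upwards [h2, (isOpen_KD N r₁ r₂).mem_nhds ha] with p hp hpK hne
    refine le_trans ?_ hp.le
    have h3 := hfac p hpK hne
    have h4 : (𝒟.P (p.1 ^ N, p.2 ^ N)).eval (η j p) = 0 := by
      rw [h3, eval_prod]
      exact Finset.prod_eq_zero (Finset.mem_univ j) (by simp)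
    have h5 := norm_root_le (𝒟.monic _ (kum_mem hpK)) h4
    rwa [𝒟.deg _ (kum_mem hpK)] at h5
  have hext : ∀ j, ∃ g : ℂ × ℂ → ℂ, AnalyticOnNhd ℂ g (KD N r₁ r₂) ∧
      ∀ p ∈ KD N r₁ r₂, p.1 * p.2 ≠ 0 → g p = η j p := by
    intro j
    refine riemann_cross (isOpen_KD N r₁ r₂) ?_ (hbd j)
    rintro p ⟨hp, hne⟩
    exact (han j p hp hne).differentiableAt.differentiableWithinAt
  choose ζ hζ hζη using hext
  refine ⟨ζ, hζ, fun p hp => ?_⟩
  -- density of the complement of the cross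
  have hdense : ∃ᶠ q in 𝓝 p, q.1 * q.2 ≠ 0 := by
    have h1 : Tendsto (fun t : ℂ => p + t • ((1, 1) : ℂ × ℂ)) (𝓝[≠] 0) (𝓝 p) := by
      have : Continuous fun t : ℂ => p + t • ((1, 1) : ℂ × ℂ) := by fun_prop
      have h2 := this.tendsto 0
      rw [zero_smul, add_zero] at h2
      exact h2.mono_left nhdsWithin_le_nhds
    refine h1.frequently (Filter.Eventually.frequently ?_)
    have h4 : ∀ c : ℂ, ∀ᶠ t : ℂ in 𝓝[≠] 0, t ≠ c := by
      intro c
      by_cases hc : c = 0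
      · rw [hc]; exact self_mem_nhdsWithin
      · exact Filter.Eventually.filter_mono nhdsWithin_le_nhds (isOpen_ne.mem_nhds (Ne.symm hc))
    filter_upwards [h4 (-p.1), h4 (-p.2)] with t ht1 ht2
    simp only [Prod.fst_add, Prod.snd_add, Prod.smul_fst, Prod.smul_snd, smul_eq_mul, mul_one]
    refine mul_ne_zero (fun h => ht1 (by linear_combination h)) (fun h => ht2 (by
      linear_combination h))
  ext i
  have hc1 : ContinuousAt (fun q : ℂ × ℂ => (𝒟.P (q.1 ^ N, q.2 ^ N)).coeff i) p :=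
    ContinuousAt.comp (g := fun p => (𝒟.P p).coeff i) (f := fun p : ℂ × ℂ =>
        (p.1 ^ N, p.2 ^ N)) (𝒟.an i _ (kum_mem hp)).continuousAt (by fun_prop)
  have hc2 : ContinuousAt (fun q : ℂ × ℂ => (∏ j, (X - C (ζ j q)) : ℂ[X]).coeff i) p := by
    have h1 : ∀ s : Finset (Fin d), ∀ i, ContinuousAt (fun q : ℂ × ℂ =>
        (∏ j ∈ s, (X - C (ζ j q)) : ℂ[X]).coeff i) p := by
      intro s
      induction s using Finset.induction with
      | empty => intro i; simp only [Finset.prod_empty]; exact continuousAt_const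
      | insert a s ha ih =>
        intro i
        simp only [Finset.prod_insert ha, sub_mul, coeff_sub, coeff_C_mul]
        refine ContinuousAt.sub ?_ ((hζ a p hp).continuousAt.mul (ih i))
        cases i with
        | zero => simp only [coeff_X_mul_zero]; exact continuousAt_const
        | succ i => simp only [coeff_X_mul]; exact ih i
    exact h1 Finset.univ i
  by_contra hne
  have h5 := (hc1.sub hc2).eventually (isOpen_ne.mem_nhds (sub_ne_zero.2 hne))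
  obtain ⟨q, hq1, hq2, hq3⟩ := (hdense.and_eventually
    (h5.and ((isOpen_KD N r₁ r₂).mem_nhds hp))).exists
  apply hq2
  simp only [Pi.sub_apply] at *
  rw [hfac q hq3 hq1]
  rw [sub_eq_zero]
  congr 1
  refine Finset.prod_congr rfl fun j _ => ?_
  rw [hζη j q hq3 hq1]

end Data

end Crest.Agent.R257.AJ387
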