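import Crest.Agent.R257.AYReg_209
import Crest.Agent.R273.YauClose_635
import Crest.Agent.R273.C2f_793

/-!
# R257 (S0395), E-AY (helper209): negative Aubin-Yau, a priori estimates and closedness

* `SolA H F t φ` : smooth solution of `(ω_H + i∂∂̄φ)^n = e^(t F + φ) ω_H^n`
* `abs_le_of_sol` (C0), `c2_of_sol` (C2)
* `close_ay` : the set of solvable parameters is closed
-/

set_option autoImplicit false
set_option linter.unusedSectionVars false

open Set Filter Topology Complex Metric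
open scoped ContDiff Matrix ComplexConjugate ComplexOrder

namespace Crest.Agent.R257.AYClose_209

open Crest.Agent.R275.Geo Crest.Agent.R275.Core144 Crest.Agent.R275.GC293
open Crest.Agent.R273.Defs_333 Crest.Agent.R273.YauDefs_635 Crest.Agent.R273.HM_333
open Crest.Agent.R273.YauCh_635 Crest.Agent.R273.YauMax_635 Crest.Agent.R273.YauLim_635
open Crest.Agent.R273.YauLoc_635 Crest.Agent.R273.YauClose_635
open Crest.Agent.R257.AYLoc_209 Crest.Agent.R257.AYReg_209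

noncomputable section

variable {n : ℕ} {M : Type} [TopologicalSpace M] {A : Atl n M} {L : LB A}

/-- smooth solution of `(ω_H + i∂∂̄φ)^n = e^(t F + φ) ω_H^n` -/
def SolA (H : HM L) (F : M → ℝ) (t : ℝ) (φ : M → ℝ) : Prop :=
  A.Sm φ ∧ KPos H φ ∧ MA H φ (fun x => t * F x + φ x)

/-- compact negative Aubin-Yau theorem -/
def AYStmt : Prop :=
  ∀ (n : ℕ) (M : Type) [TopologicalSpace M] [T2Space M] [CompactSpace M] [ConnectedSpace M]
    (A : Atl n M) [Finite A.ι], GoodA A → Nonempty (Part A) →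
    ∀ (L : LB A) (H : HM L), H.Pos → ∀ F : M → ℝ, A.Sm F →
      ∃ φ : M → ℝ, A.Sm φ ∧ KPos H φ ∧ MA H φ (fun x => F x + φ x)

/-! ### a priori estimates -/

/-- **C0 estimate** -/
theorem abs_le_of_sol [CompactSpace M] {H : HM L} (hH : H.Pos) {F φ : M → ℝ} {t K : ℝ}
    (hF : ∀ x, |F x| ≤ K) (ht0 : 0 ≤ t) (ht1 : t ≤ 1) (hs : SolA H F t φ) (x : M) :
    |φ x| ≤ K := by
  obtain ⟨hφ, hKp, hMA⟩ := hs
  have hne : (univ : Set M).Nonempty := ⟨x, mem_univ x⟩
  have hc := continuous_of_sm hφ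
  obtain ⟨x1, -, hx1⟩ := isCompact_univ.exists_isMinOn hne hc.continuousOn
  obtain ⟨x2, -, hx2⟩ := isCompact_univ.exists_isMaxOn hne hc.continuousOn
  have h1 : IsLocalMin φ x1 := hx1.isLocalMin univ_mem
  have h2 : IsLocalMax φ x2 := hx2.isLocalMax univ_mem
  have h3 := f_nonneg_of_min hH hφ hMA h1
  have h4 := f_nonpos_of_max hH hφ hKp hMA h2
  have hK : 0 ≤ K := (abs_nonneg _).trans (hF x)
  have h5 : ∀ y, |t * F y| ≤ K := fun y => by
    rw [abs_mul, abs_of_nonneg ht0]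
    calc t * |F y| ≤ 1 * K := mul_le_mul ht1 (hF y) (abs_nonneg _) zero_le_one
      _ = K := one_mul K
  have h6 : φ x1 ≤ φ x := hx1 (mem_univ x)
  have h7 : φ x ≤ φ x2 := hx2 (mem_univ x)
  have h8 := (abs_le.1 (h5 x1)).2
  have h9 := (abs_le.1 (h5 x2)).1
  rw [abs_le]
  constructor <;> linarith

theorem lev_pot_eq (H : HM L) {φ : M → ℝ} (hφ : A.Sm φ) {i : A.ι} {z : Cn n}
    (hz : z ∈ (A.e i).target) (v : Cn n) :
    lev (pot H φ i) z v = lev (H.wt i) z v + lev (inC A i φ) z v := by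
  rw [lev333_eq_lev145, lev333_eq_lev145, lev333_eq_lev145]
  have h := Crest.Agent.R273.Levi_145.lev_add (wt_c2 H i hz) (inC_c2 hφ i hz) v
  have e : Crest.Agent.R273.Levi_145.lev (pot H φ i) z v =
      Crest.Agent.R273.Levi_145.lev (H.wt i) z v +
        Crest.Agent.R273.Levi_145.lev (inC A i φ) z v := h
  rw [e]
  ring

theorem lev_wt_nonneg {H : HM L} (hH : H.Pos) {i : A.ι} {z : Cn n}
    (hz : z ∈ (A.e i).target) (v : Cn n) : 0 ≤ lev (H.wt i) z v := by
  rcases eq_or_ne v 0 with rfl | hv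
  · rw [lev_zero]
  · exact (hH i z hz v hv).le

theorem lev_pot_nonneg {H : HM L} {φ : M → ℝ} (hK : KPos H φ) {i : A.ι} {z : Cn n}
    (hz : z ∈ (A.e i).target) (v : Cn n) : 0 ≤ lev (pot H φ i) z v := by
  rcases eq_or_ne v 0 with rfl | hv
  · rw [lev_zero]
  · exact (hK i z hz v hv).le

theorem sm_rhs {F φ : M → ℝ} (hF : A.Sm F) (hφ : A.Sm φ) (t : ℝ) :
    A.Sm (fun x => t * F x + φ x) := fun i =>
  (contDiffOn_const.mul (hF i)).add (hφ i)

/-- **C2 estimate** -/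
theorem c2_of_sol [CompactSpace M] [Nonempty M] {H : HM L} (hH : H.Pos) {F : M → ℝ}
    (hF : A.Sm F) : ∃ C : ℝ, 0 < C ∧ ∀ (t : ℝ) (φ : M → ℝ), 0 ≤ t → t ≤ 1 → SolA H F t φ →
      ∀ i, ∀ z ∈ (A.e i).target, ∀ v,
        lev (pot H φ i) z v ≤ C * lev (H.wt i) z v ∧
          lev (H.wt i) z v ≤ C * lev (pot H φ i) z v := by
  have hFc : Continuous F := continuous_of_sm hF
  obtain ⟨K0, hK0'⟩ := isCompact_univ.exists_bound_of_continuousOn hFc.continuousOn
  have hK0 : ∀ x, |F x| ≤ K0 := fun x => hK0' x (mem_univ x)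
  obtain ⟨K1, hK10, hK1⟩ := exists_lev_bound hH hF
  have hK00 : 0 ≤ K0 := (abs_nonneg _).trans (hK0 (Classical.arbitrary M))
  set K2 : ℝ := max (2 * K0) (K1 + 1) with hK2
  obtain ⟨C, hC0, hC⟩ := Crest.Agent.R273.C2f_793.c2_gen (A := A) hH K2
  refine ⟨C, hC0, fun t φ ht0 ht1 hs => ?_⟩
  have hφb := abs_le_of_sol hH hK0 ht0 ht1 hs
  obtain ⟨hφ, hKp, hMA⟩ := hs
  refine hC φ _ hφ (sm_rhs hF hφ t) hKp hMA (fun x => ?_) (fun i z hz v => ?_) (fun x y => ?_)
  · have h1 : |t * F x| ≤ K0 := by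
      rw [abs_mul, abs_of_nonneg ht0]
      calc t * |F x| ≤ 1 * K0 := mul_le_mul ht1 (hK0 x) (abs_nonneg _) zero_le_one
        _ = K0 := one_mul K0
    calc |t * F x + φ x| ≤ |t * F x| + |φ x| := abs_add_le _ _
      _ ≤ K0 + K0 := add_le_add h1 (hφb x)
      _ = 2 * K0 := by ring
      _ ≤ K2 := le_max_left _ _
  · have hcF := inC_c2 hF i hz
    have hcφ := inC_c2 hφ i hz
    have e1 : inC A i (fun x => t * F x + φ x) = fun w => t * inC A i F w + inC A i φ w := rfl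
    have e2 : lev (fun w => t * inC A i F w + inC A i φ w) z v =
        t * lev (inC A i F) z v + lev (inC A i φ) z v := by
      rw [lev333_eq_lev145, lev333_eq_lev145, lev333_eq_lev145,
        Crest.Agent.R273.Levi_145.lev_add (contDiffAt_const.mul hcF) hcφ,
        Crest.Agent.R273.Levi_145.lev_const_mul t hcF]
      ring
    have h1 := hK1 i z hz v
    have h2 := lev_pot_eq H hφ hz v
    have h3 := lev_pot_nonneg hKp hz v
    have h4 := lev_wt_nonneg hH hz v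
    have h5 : |t * lev (inC A i F) z v| ≤ K1 * lev (H.wt i) z v := by
      rw [abs_mul, abs_of_nonneg ht0]
      calc t * |lev (inC A i F) z v| ≤ 1 * |lev (inC A i F) z v| :=
            mul_le_mul_of_nonneg_right ht1 (abs_nonneg _)
        _ ≤ _ := by rw [one_mul]; exact h1
    have h6 := (abs_le.1 h5).1
    have h7 : (K1 + 1) * lev (H.wt i) z v ≤ K2 * lev (H.wt i) z v :=
      mul_le_mul_of_nonneg_right (le_max_right _ _) h4
    rw [e1, e2]
    linarith
  · have h1 := (abs_le.1 (hφb x)).2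
    have h2 := (abs_le.1 (hφb y)).1
    have : 2 * K0 ≤ K2 := le_max_left _ _
    linarith

/-! ### the local right hand side -/

/-- local right hand side: `det ∂∂̄u = e^(fh + u)` -/
def fhA (H : HM L) (F : M → ℝ) (t : ℝ) (i : A.ι) (z : Cn n) : ℝ :=
  t * inC A i F z + 0 + (ldet H i z - H.wt i z)

theorem fhA_smooth {H : HM L} (hH : H.Pos) {F : M → ℝ} (hF : A.Sm F) (t : ℝ) (i : A.ι) :
    ContDiffOn ℝ ∞ (fhA H F t i) (A.e i).target :=
  ((contDiffOn_const.mul (inC_smooth hF i)).add contDiffOn_const).add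
    ((ldet_smooth hH i).sub (wt_smooth H i))

theorem det_fhA {H : HM L} (hH : H.Pos) {F φ : M → ℝ} {t : ℝ}
    (h : MA H φ (fun x => t * F x + φ x)) {i : A.ι} {z : Cn n} (hz : z ∈ (A.e i).target) :
    (cH (pot H φ i) z).det = (Real.exp (fhA H F t i z + pot H φ i z) : ℂ) := by
  have e : fhA H F t i z + pot H φ i z =
      (t * F ((A.e i).symm z) + φ ((A.e i).symm z)) + ldet H i z := by
    simp only [fhA, pot, inC]
    ring
  rw [h i z hz, ← exp_ldet hH hz, e, Real.exp_add _ (ldet H i z)]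
  simp [inC]

theorem fhA_bound {H : HM L} (hH : H.Pos) {F : M → ℝ} (hF : A.Sm F) (i : A.ι) {K : Set (Cn n)}
    (hK : IsCompact K) (hKt : K ⊆ (A.e i).target) :
    ∃ B : ℝ, ∀ t : ℝ, |t| ≤ 1 → ∀ z ∈ K, ∀ j : ℕ, 1 ≤ j → j ≤ 3 →
      ‖iteratedFDeriv ℝ j (fhA H F t i) z‖ ≤ B := by
  have hl : ContDiffOn ℝ ∞ (fun z => ldet H i z - H.wt i z) (A.e i).target :=
    (ldet_smooth hH i).sub (wt_smooth H i)
  have h1 : ∀ j : ℕ, ∃ B : ℝ, ∀ z ∈ K, ‖iteratedFDeriv ℝ j (inC A i F) z‖ ≤ B := fun j =>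
    hK.exists_bound_of_continuousOn
      ((continuousOn_iter (A.e i).open_target (inC_smooth hF i) j).mono hKt)
  have h2 : ∀ j : ℕ, ∃ B : ℝ, ∀ z ∈ K,
      ‖iteratedFDeriv ℝ j (fun z => ldet H i z - H.wt i z) z‖ ≤ B := fun j =>
    hK.exists_bound_of_continuousOn
      ((continuousOn_iter (A.e i).open_target hl j).mono hKt)
  choose B1 hB1 using h1
  choose B2 hB2 using h2
  refine ⟨∑ j ∈ Finset.range 4, (|B1 j| + |B2 j|), fun t ht z hz j hj1 hj3 => ?_⟩
  have hzt := hKt hz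
  have e1 : iteratedFDeriv ℝ j (fhA H F t i) z =
      t • iteratedFDeriv ℝ j (inC A i F) z +
        iteratedFDeriv ℝ j (fun z => ldet H i z - H.wt i z) z :=
    iter_affine (inC_contDiffAt hF i hzt)
      (hl.contDiffAt ((A.e i).open_target.mem_nhds hzt)) t 0 hj1
  rw [e1]
  calc _ ≤ ‖t • iteratedFDeriv ℝ j (inC A i F) z‖ +
        ‖iteratedFDeriv ℝ j (fun z => ldet H i z - H.wt i z) z‖ := norm_add_le _ _
    _ ≤ |B1 j| + |B2 j| := by
        refine add_le_add ?_ ((hB2 j z hz).trans (le_abs_self _))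
        rw [norm_smul, Real.norm_eq_abs]
        calc |t| * ‖iteratedFDeriv ℝ j (inC A i F) z‖ ≤ 1 * |B1 j| :=
              mul_le_mul ht ((hB1 j z hz).trans (le_abs_self _)) (norm_nonneg _) zero_le_one
          _ = |B1 j| := one_mul _
    _ ≤ _ := Finset.single_le_sum (f := fun j => |B1 j| + |B2 j|)
        (fun j _ => add_nonneg (abs_nonneg _) (abs_nonneg _)) (Finset.mem_range.2 (by omega))

/-- smoothness of `C^{2,1/2}` solutions -/
theorem sm_of_c2a {H : HM L} (hH : H.Pos) {F Φ : M → ℝ} (hF : A.Sm F) {T : ℝ}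
    (hc2 : ∀ i, ContDiffOn ℝ 2 (pot H Φ i) (A.e i).target) (hKP : KPos H Φ)
    (hMA : MA H Φ (fun x => T * F x + Φ x))
    (hh : ∀ i, ∀ z₀ ∈ (A.e i).target, ∃ r > 0, ∃ C, ball z₀ r ⊆ (A.e i).target ∧
      ∀ z ∈ ball z₀ r, ∀ w ∈ ball z₀ r, ‖fderiv ℝ (fderiv ℝ (pot H Φ i)) z -
        fderiv ℝ (fderiv ℝ (pot H Φ i)) w‖ ≤ C * ‖z - w‖ ^ (1 / 2 : ℝ)) : SolA H F T Φ := by
  have hsm : ∀ i, ContDiffOn ℝ ∞ (pot H Φ i) (A.e i).target := fun i =>
    reg_ay (A.e i).open_target (hc2 i) (fhA_smooth hH hF T i) (hh i) (hKP i)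
      (fun z hz => det_fhA hH hMA hz)
  refine ⟨fun i => ?_, hKP, hMA⟩
  have h1 := (hsm i).sub (wt_smooth H i)
  refine h1.congr fun z hz => ?_
  simp [pot, inC]

/-- **closedness** -/
theorem close_ay (h3 : C3Stmt) [T2Space M] [CompactSpace M] [ConnectedSpace M] [Finite A.ι]
    {H : HM L} (hH : H.Pos) {F : M → ℝ} (hF : A.Sm F) {t : ℕ → ℝ} {T : ℝ}
    (ht : ∀ k, 0 ≤ t k ∧ t k ≤ 1) (hT : Tendsto t atTop (𝓝 T))
    (hsol : ∀ k, ∃ φ, SolA H F (t k) φ) : ∃ φ, SolA H F T φ := by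
  choose ψ hψ using hsol
  obtain ⟨x₀⟩ : Nonempty M := inferInstance
  have hFc : Continuous F := continuous_of_sm hF
  obtain ⟨K0, hK0'⟩ := isCompact_univ.exists_bound_of_continuousOn hFc.continuousOn
  have hK0 : ∀ x, |F x| ≤ K0 := fun x => hK0' x (mem_univ x)
  have hψb : ∀ k x, ‖ψ k x‖ ≤ K0 := fun k x => abs_le_of_sol hH hK0 (ht k).1 (ht k).2 (hψ k) x
  obtain ⟨C2, hC20, hC2⟩ := c2_of_sol hH hF
  have hcmp : ∀ k i, ∀ z ∈ (A.e i).target, ∀ v,
      lev (pot H (ψ k) i) z v ≤ C2 * lev (H.wt i) z v ∧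
        lev (H.wt i) z v ≤ C2 * lev (pot H (ψ k) i) z v := fun k =>
    hC2 (t k) (ψ k) (ht k).1 (ht k).2 (hψ k)
  have htabs : ∀ k, |t k| ≤ 1 := fun k => by
    rw [abs_of_nonneg (ht k).1]
    exact (ht k).2
  -- limits
  set U : Ultrafilter ℕ := hyperfilter ℕ with hU
  have hUle : (U : Filter ℕ) ≤ atTop := Nat.hyperfilter_le_atTop
  have htU : Tendsto t U (𝓝 T) := hT.mono_left hUle
  have hlim : ∀ x, ∃ y, Tendsto (fun k => ψ k x) U (𝓝 y) := fun x =>
    exists_lim U (fun k => hψb k x)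
  choose Φ hΦ using hlim
  have hpot : ∀ i z, Tendsto (fun k => pot H (ψ k) i z) U (𝓝 (pot H Φ i z)) := fun i z =>
    tendsto_const_nhds.add (hΦ _)
  -- local analysis
  have hloc : ∀ i, ∀ z₀ ∈ (A.e i).target, ∃ ρ C : ℝ, 0 < ρ ∧ ball z₀ ρ ⊆ (A.e i).target ∧
      ContDiffOn ℝ 2 (pot H Φ i) (ball z₀ ρ) ∧
      (∀ z ∈ ball z₀ ρ, Tendsto (fun k => fderiv ℝ (fderiv ℝ (pot H (ψ k) i)) z) U
        (𝓝 (fderiv ℝ (fderiv ℝ (pot H Φ i)) z))) ∧
      ∀ z ∈ ball z₀ ρ, ∀ w ∈ ball z₀ ρ,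
        ‖fderiv ℝ (fderiv ℝ (pot H Φ i)) z - fderiv ℝ (fderiv ℝ (pot H Φ i)) w‖
          ≤ C * ‖z - w‖ ^ (1 / 2 : ℝ) := by
    intro i z₀ hz₀
    obtain ⟨r, hr, hrs⟩ := Metric.nhds_basis_closedBall.mem_iff.1
      ((A.e i).open_target.mem_nhds hz₀)
    have hKc : IsCompact (closedBall z₀ r) := isCompact_closedBall _ _
    have hbt : ball z₀ r ⊆ (A.e i).target := ball_subset_closedBall.trans hrs
    obtain ⟨hi, hhi0, hhi⟩ := lev_upper (A.e i).open_target
      ((wt_smooth H i).of_le two_le_inf) hKc hrs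
    obtain ⟨lo, hlo0, hlo⟩ := lev_lower (A.e i).open_target
      ((wt_smooth H i).of_le two_le_inf) hKc hrs (fun z hz v hv => hH i z (hrs hz) v hv)
    obtain ⟨B, hB⟩ := fhA_bound hH hF i hKc hrs
    obtain ⟨W, hW⟩ := hKc.exists_bound_of_continuousOn ((wt_smooth H i).continuousOn.mono hrs)
    obtain ⟨ρ, C, hρ0, hρr, g1, g2, g3⟩ := local_limit_ay h3 U (z₀ := z₀) (r := r)
      (lo := lo / C2) (hi := C2 * hi) (K := B) (N := W + K0) hr (by positivity)
      (u := fun k => pot H (ψ k) i) (f := fun k => fhA H F (t k) i) (V := pot H Φ i)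
      (fun k => ((wt_smooth H i).add (inC_smooth (hψ k).1 i)).mono hbt)
      (fun k => (fhA_smooth hH hF (t k) i).mono hbt)
      (fun k z hz v => by
        have hzc := ball_subset_closedBall hz
        obtain ⟨a1, a2⟩ := hcmp k i z (hbt hz) v
        constructor
        · have a3 := (hlo z hzc v).trans a2
          rw [div_mul_eq_mul_div, div_le_iff₀ hC20]
          linarith
        · have a3 := (le_abs_self _).trans (hhi z hzc v)
          calc _ ≤ C2 * lev (H.wt i) z v := a1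
            _ ≤ C2 * (hi * ‖v‖ ^ 2) := mul_le_mul_of_nonneg_left a3 hC20.le
            _ = _ := by ring)
      (fun k z hz => det_fhA hH (hψ k).2.2 (hbt hz))
      (fun k z hz j hj1 hj3 => hB (t k) (htabs k) z (ball_subset_closedBall hz) j hj1 hj3)
      (fun k z hz => by
        have b1 := hW z (ball_subset_closedBall hz)
        have b2 := hψb k ((A.e i).symm z)
        rw [Real.norm_eq_abs] at b1 b2
        exact (abs_add_le _ _).trans (add_le_add b1 b2))
      (fun z _ => hpot i z)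
    exact ⟨ρ, C, hρ0, (ball_subset_ball hρr).trans hbt, g1, g2, g3⟩
  have hc2 : ∀ i, ContDiffOn ℝ 2 (pot H Φ i) (A.e i).target := by
    intro i z hz
    obtain ⟨ρ, C, hρ0, -, g1, -, -⟩ := hloc i z hz
    exact (g1.contDiffAt (isOpen_ball.mem_nhds (mem_ball_self hρ0))).contDiffWithinAt
  have hpt : ∀ i, ∀ z ∈ (A.e i).target,
      Tendsto (fun k => fderiv ℝ (fderiv ℝ (pot H (ψ k) i)) z) U
        (𝓝 (fderiv ℝ (fderiv ℝ (pot H Φ i)) z)) := by
    intro i z hz
    obtain ⟨ρ, C, hρ0, -, -, g2, -⟩ := hloc i z hz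
    exact g2 z (mem_ball_self hρ0)
  have hKP : KPos H Φ := by
    intro i z hz v hv
    have h1 : lev (H.wt i) z v ≤ C2 * lev (pot H Φ i) z v :=
      ge_of_tendsto ((tendsto_lev (hpt i z hz) v).const_mul C2)
        (Eventually.of_forall fun k => (hcmp k i z hz v).2)
    have h2 := hH i z hz v hv
    by_contra hcon
    push Not at hcon
    nlinarith
  have hMA : MA H Φ (fun x => T * F x + Φ x) := by
    intro i z hz
    have h1 := tendsto_det (hpt i z hz)
    have h4 : Tendsto (fun k => t k * F ((A.e i).symm z) + ψ k ((A.e i).symm z)) U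
        (𝓝 (T * F ((A.e i).symm z) + Φ ((A.e i).symm z))) := (htU.mul_const _).add (hΦ _)
    have h5 : Tendsto (fun k =>
        (Real.exp (t k * F ((A.e i).symm z) + ψ k ((A.e i).symm z)) : ℂ)
        * (cH (H.wt i) z).det) U
        (𝓝 ((Real.exp (T * F ((A.e i).symm z) + Φ ((A.e i).symm z)) : ℂ) *
          (cH (H.wt i) z).det)) :=
      (((Complex.continuous_ofReal.tendsto _).comp
        ((Real.continuous_exp.tendsto _).comp h4))).mul_const _
    refine tendsto_nhds_unique h1 (h5.congr fun k => ?_)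
    exact ((hψ k).2.2 i z hz).symm
  refine ⟨Φ, sm_of_c2a hH hF hc2 hKP hMA fun i z₀ hz₀ => ?_⟩
  obtain ⟨ρ, C, hρ0, hρt, -, -, g3⟩ := hloc i z₀ hz₀
  exact ⟨ρ, hρ0, C, hρt, g3⟩

/-- the start of the path -/
theorem solA_zero {H : HM L} (hH : H.Pos) (F : M → ℝ) : SolA H F 0 (fun _ => 0) := by
  obtain ⟨h1, h2, h3⟩ := sol_zero hH F
  refine ⟨h1, h2, ?_⟩
  intro i z hz
  rw [h3 i z hz]

end

end Crest.Agent.R257.AYClose_209
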