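import Mathlib

/-!
# R257 (S0395), E-AY (helper209): the profile function of the cone trick

`g = ((n+1) (e^R - e^(-t)))^(1/(n+1))`, `ψ = ∫ g`, `h = g' = e^(-t) / g^n` on `(-R, ∞)`; so
`g^n h e^t = 1`.
-/

set_option autoImplicit false
set_option linter.unusedSectionVars false

open Set Filter Topology
open scoped ContDiff

namespace Crest.Agent.R257.AYPsi_209

noncomputable section

/-- the base -/
def bs (n : ℕ) (R t : ℝ) : ℝ := (n + 1) * (Real.exp R - Real.exp (-t))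

/-- `ψ'` -/
def g (n : ℕ) (R t : ℝ) : ℝ := (bs n R t) ^ ((1 : ℝ) / (n + 1))

/-- `ψ''` -/
def h (n : ℕ) (R t : ℝ) : ℝ := Real.exp (-t) / (g n R t) ^ n

/-- `ψ` -/
def ψ (n : ℕ) (R t : ℝ) : ℝ := ∫ x in (0 : ℝ)..t, g n R x

variable {n : ℕ} {R t : ℝ}

theorem bs_pos (ht : -R < t) : 0 < bs n R t := by
  have h1 : Real.exp (-t) < Real.exp R := Real.exp_lt_exp.2 (by linarith)
  have h2 : (0 : ℝ) < n + 1 := by positivity
  exact mul_pos h2 (by linarith)

theorem g_pos (ht : -R < t) : 0 < g n R t := Real.rpow_pos_of_pos (bs_pos ht) _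

theorem h_pos (ht : -R < t) : 0 < h n R t := div_pos (Real.exp_pos _) (pow_pos (g_pos ht) _)

theorem g_pow (ht : -R < t) : g n R t ^ (n + 1) = (n + 1) * (Real.exp R - Real.exp (-t)) := by
  rw [g, ← Real.rpow_natCast, ← Real.rpow_mul (bs_pos ht).le]
  have : ((1 : ℝ) / (n + 1)) * ((n + 1 : ℕ) : ℝ) = 1 := by
    push_cast
    have h2 : (n : ℝ) + 1 ≠ 0 := by positivity
    field_simp
  rw [this, Real.rpow_one, bs]

theorem ghe (ht : -R < t) : g n R t ^ n * h n R t * Real.exp t = 1 := by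
  have h1 := (pow_pos (g_pos (n := n) ht) n).ne'
  rw [h, mul_div_cancel₀ _ h1, ← Real.exp_add, neg_add_cancel, Real.exp_zero]

theorem continuous_bs (n : ℕ) (R : ℝ) : Continuous (bs n R) := by
  unfold bs
  fun_prop

theorem continuous_g (n : ℕ) (R : ℝ) : Continuous (g n R) :=
  (continuous_bs n R).rpow_const fun _ => Or.inr (by positivity)

theorem hasDerivAt_psi (n : ℕ) (R t : ℝ) : HasDerivAt (ψ n R) (g n R t) t :=
  intervalIntegral.integral_hasDerivAt_right ((continuous_g n R).intervalIntegrable _ _)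
    ((continuous_g n R).stronglyMeasurableAtFilter _ _) (continuous_g n R).continuousAt

theorem hasDerivAt_bs (n : ℕ) (R t : ℝ) : HasDerivAt (bs n R) ((n + 1) * Real.exp (-t)) t := by
  have h1 : HasDerivAt (fun t : ℝ => Real.exp (-t)) (Real.exp (-t) * -1) t :=
    (hasDerivAt_neg t).exp
  have h2 := (h1.const_sub (Real.exp R)).const_mul ((n : ℝ) + 1)
  refine h2.congr_deriv ?_
  ring

theorem contDiff_bs (n : ℕ) (R : ℝ) : ContDiff ℝ ∞ (bs n R) := by
  unfold bs
  fun_prop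

theorem contDiffOn_g (n : ℕ) (R : ℝ) : ContDiffOn ℝ ∞ (g n R) (Ioi (-R)) :=
  (contDiff_bs n R).contDiffOn.rpow_const_of_ne fun _ hx => (bs_pos hx).ne'

theorem hasDerivAt_g (ht : -R < t) : HasDerivAt (g n R) (h n R t) t := by
  have h1 := (hasDerivAt_bs n R t).rpow_const (p := (1 : ℝ) / (n + 1)) (Or.inl (bs_pos ht).ne')
  refine h1.congr_deriv ?_
  have h2 : (n : ℝ) + 1 ≠ 0 := by positivity
  have h3 : (bs n R t) ^ ((1 : ℝ) / (n + 1) - 1) = ((g n R t) ^ n)⁻¹ := by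
    rw [g, ← Real.rpow_natCast, ← Real.rpow_mul (bs_pos ht).le, ← Real.rpow_neg (bs_pos ht).le]
    congr 1
    field_simp
    ring
  rw [h3, h]
  field_simp

theorem contDiffOn_h (n : ℕ) (R : ℝ) : ContDiffOn ℝ ∞ (h n R) (Ioi (-R)) := by
  have h1 : ContDiff ℝ ∞ (fun t : ℝ => Real.exp (-t)) := by fun_prop
  exact h1.contDiffOn.div ((contDiffOn_g n R).pow n) fun _ hx => (pow_pos (g_pos hx) n).ne'

theorem contDiffOn_psi (n : ℕ) (R : ℝ) : ContDiffOn ℝ ∞ (ψ n R) (Ioi (-R)) := by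
  rw [contDiffOn_infty_iff_deriv_of_isOpen isOpen_Ioi]
  refine ⟨fun t _ => (hasDerivAt_psi n R t).differentiableAt.differentiableWithinAt, ?_⟩
  exact (contDiffOn_g n R).congr fun t _ => (hasDerivAt_psi n R t).deriv

end

end Crest.Agent.R257.AYPsi_209
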