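import Crest.Agent.R257.AYGrad_209
import Crest.Agent.R257.AYPsi_209

/-!
# R257 (S0395), E-AY (helper209): the cone trick (helper835)

`u` on `Cn n`, `S u Z = u (pz Z) + 2 Re (pw Z)` and `Φ = ψ ∘ S u` on `Cn (n+1)`; then
`det ∂∂̄Φ = g(S)^n h(S) det ∂∂̄u`, so `det ∂∂̄u = e^(f+u)` becomes `det ∂∂̄Φ = e^(f - 2 Re w)`.
-/

set_option autoImplicit false
set_option linter.unusedSectionVars false

open Set Filter Topology Complex Metric
open scoped ContDiff Matrix ComplexConjugate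

namespace Crest.Agent.R257.AYCone_209

open Crest.Agent.R275.Geo
open Crest.Agent.R273.Defs_333 Crest.Agent.R273.YauDefs_635 Crest.Agent.R273.YauCh_635
open Crest.Agent.R257.AYGrad_209

noncomputable section

variable {n : ℕ}

/-! ### projections -/

/-- the first `n` coordinates -/
def pz (n : ℕ) : Cn (n + 1) →L[ℂ] Cn n :=
  (EuclideanSpace.equiv (Fin n) ℂ).symm.toContinuousLinearMap.comp
    (ContinuousLinearMap.pi fun a : Fin n => (EuclideanSpace.proj a.castSucc : Cn (n + 1) →L[ℂ] ℂ))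

/-- the last coordinate -/
def pw (n : ℕ) : Cn (n + 1) →L[ℂ] ℂ := EuclideanSpace.proj (Fin.last n)

/-- the inclusion -/
def iz (n : ℕ) : Cn n →L[ℂ] Cn (n + 1) :=
  (EuclideanSpace.equiv (Fin (n + 1)) ℂ).symm.toContinuousLinearMap.comp
    (ContinuousLinearMap.pi fun a : Fin (n + 1) =>
      Fin.lastCases (motive := fun _ => Cn n →L[ℂ] ℂ) 0
        (fun b => (EuclideanSpace.proj b : Cn n →L[ℂ] ℂ)) a)

@[simp] theorem pz_apply (Z : Cn (n + 1)) (a : Fin n) : pz n Z a = Z a.castSucc := rfl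

@[simp] theorem pw_apply (Z : Cn (n + 1)) : pw n Z = Z (Fin.last n) := rfl

@[simp] theorem iz_last (z : Cn n) : iz n z (Fin.last n) = 0 := by
  show (Fin.lastCases (motive := fun _ => Cn n →L[ℂ] ℂ) 0
        (fun b => (EuclideanSpace.proj b : Cn n →L[ℂ] ℂ)) (Fin.last n)) z = 0
  rw [Fin.lastCases_last]
  rfl

@[simp] theorem iz_castSucc (z : Cn n) (a : Fin n) : iz n z a.castSucc = z a := by
  show (Fin.lastCases (motive := fun _ => Cn n →L[ℂ] ℂ) 0
        (fun b => (EuclideanSpace.proj b : Cn n →L[ℂ] ℂ)) a.castSucc) z = z a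
  rw [Fin.lastCases_castSucc]
  rfl

@[simp] theorem pz_iz (z : Cn n) : pz n (iz n z) = z := by
  ext a
  simp

@[simp] theorem pw_iz (z : Cn n) : pw n (iz n z) = 0 := by simp

theorem norm_sq_split (Z : Cn (n + 1)) : ‖Z‖ ^ 2 = ‖pz n Z‖ ^ 2 + ‖pw n Z‖ ^ 2 := by
  rw [EuclideanSpace.norm_sq_eq, EuclideanSpace.norm_sq_eq, Fin.sum_univ_castSucc]
  rfl

theorem norm_pz_le (Z : Cn (n + 1)) : ‖pz n Z‖ ≤ ‖Z‖ := by
  have := norm_sq_split Z
  nlinarith [norm_nonneg Z, norm_nonneg (pz n Z), sq_nonneg ‖pw n Z‖]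

theorem norm_pw_le (Z : Cn (n + 1)) : ‖pw n Z‖ ≤ ‖Z‖ := by
  have := norm_sq_split Z
  nlinarith [norm_nonneg Z, norm_nonneg (pw n Z), sq_nonneg ‖pz n Z‖]

theorem norm_iz (z : Cn n) : ‖iz n z‖ = ‖z‖ := by
  have h := norm_sq_split (iz n z)
  rw [pz_iz, pw_iz, norm_zero] at h
  have h2 : ‖iz n z‖ ^ 2 = ‖z‖ ^ 2 := by rw [h]; ring
  exact (pow_left_inj₀ (norm_nonneg _) (norm_nonneg _) two_ne_zero).1 h2

@[simp] theorem pz_single_castSucc (a : Fin n) (c : ℂ) :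
    pz n (EuclideanSpace.single a.castSucc c) = EuclideanSpace.single a c := by
  ext b
  simp [Pi.single_apply]

@[simp] theorem pz_single_last (c : ℂ) :
    pz n (EuclideanSpace.single (Fin.last n) c) = 0 := by
  ext b
  simp

@[simp] theorem pw_single_castSucc (a : Fin n) (c : ℂ) :
    pw n (EuclideanSpace.single a.castSucc c) = 0 := by
  simp

@[simp] theorem pw_single_last (c : ℂ) :
    pw n (EuclideanSpace.single (Fin.last n) c) = c := by
  simp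

/-! ### the function `S` -/

/-- `S u Z = u (pz Z) + 2 Re (pw Z)` -/
def S (u : Cn n → ℝ) (Z : Cn (n + 1)) : ℝ := u (pz n Z) + 2 * (pw n Z).re

/-- the real-linear maps -/
def pzR (n : ℕ) : Cn (n + 1) →L[ℝ] Cn n := (pz n).restrictScalars ℝ

/-- `2 Re pw` -/
def pwR (n : ℕ) : Cn (n + 1) →L[ℝ] ℝ := (2 : ℝ) • (reCLM.comp ((pw n).restrictScalars ℝ))

@[simp] theorem pzR_apply (Z : Cn (n + 1)) : pzR n Z = pz n Z := rfl

theorem pwR_apply (Z : Cn (n + 1)) : pwR n Z = 2 * (pw n Z).re := rfl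

theorem S_eq (u : Cn n → ℝ) : S u = fun Z => u (0 + pzR n Z) + pwR n Z := by
  funext Z
  rw [zero_add, pwR_apply]
  rfl

theorem S_iz (u : Cn n → ℝ) (z : Cn n) : S u (iz n z) = u z := by
  simp [S]

theorem hasFDerivAt_S {u : Cn n → ℝ} {Z : Cn (n + 1)} (hu : DifferentiableAt ℝ u (pz n Z)) :
    HasFDerivAt (S u) ((fderiv ℝ u (pz n Z)).comp (pzR n) + pwR n) Z := by
  have h1 : HasFDerivAt (fun Z => u (pzR n Z)) ((fderiv ℝ u (pz n Z)).comp (pzR n)) Z :=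
    (hu.hasFDerivAt (x := pz n Z)).comp Z (pzR n).hasFDerivAt
  exact h1.add (pwR n).hasFDerivAt

theorem fd_S {u : Cn n → ℝ} {Z : Cn (n + 1)} (hu : DifferentiableAt ℝ u (pz n Z)) (V : Cn (n + 1)) :
    fderiv ℝ (S u) Z V = fderiv ℝ u (pz n Z) (pz n V) + 2 * (pw n V).re := by
  rw [(hasFDerivAt_S hu).fderiv]
  rfl

theorem S_c2 {u : Cn n → ℝ} {Z : Cn (n + 1)} (hu : ContDiffAt ℝ 2 u (pz n Z)) :
    ContDiffAt ℝ 2 (S u) Z := by
  have h1 : ContDiffAt ℝ 2 (fun Z => u (pzR n Z)) Z :=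
    ContDiffAt.comp Z (g := u) (f := pzR n) hu (pzR n).contDiff.contDiffAt
  exact h1.add (pwR n).contDiff.contDiffAt

theorem fd2_S {u : Cn n → ℝ} {Z : Cn (n + 1)} (hu : ContDiffAt ℝ 2 u (pz n Z))
    (V W : Cn (n + 1)) :
    fderiv ℝ (fderiv ℝ (S u)) Z V W = fderiv ℝ (fderiv ℝ u) (pz n Z) (pz n V) (pz n W) := by
  have hu' : ContDiffAt ℝ 2 u (0 + pzR n Z) := by
    rw [zero_add]
    exact hu
  have h1 := fd2_aff hu' V W
  rw [zero_add] at h1
  have hc : ContinuousAt (fun Z => pz n Z) Z := (pz n).continuous.continuousAt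
  have e : fderiv ℝ (S u) =ᶠ[𝓝 Z] fun Y => fderiv ℝ (fun Y => u (0 + pzR n Y)) Y + pwR n := by
    filter_upwards [hc.eventually (hu.eventually (by simp))] with Y hY
    have hd : DifferentiableAt ℝ u (0 + pzR n Y) := by
      rw [zero_add]
      exact hY.differentiableAt (by norm_num)
    rw [fd_aff hd, zero_add]
    exact (hasFDerivAt_S (hY.differentiableAt (by norm_num))).fderiv
  rw [e.fderiv_eq]
  have h2 : fderiv ℝ (fun Y => fderiv ℝ (fun Y => u (0 + pzR n Y)) Y + pwR n) Z =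
      fderiv ℝ (fderiv ℝ (fun Y => u (0 + pzR n Y))) Z := fderiv_add_const _
  rw [h2, h1]
  rfl

/-! ### composition with a function of one variable -/

section comp

variable {E : Type*} [NormedAddCommGroup E] [NormedSpace ℝ E]

theorem fd_comp1 {p g : ℝ → ℝ} {s : E → ℝ} {x : E} (hp : HasDerivAt p (g (s x)) (s x))
    (hs : DifferentiableAt ℝ s x) :
    fderiv ℝ (fun y => p (s y)) x = g (s x) • fderiv ℝ s x :=
  (hp.comp_hasFDerivAt x hs.hasFDerivAt).fderiv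

theorem fd2_comp1 {p g h : ℝ → ℝ} {s : E → ℝ} {x : E}
    (hp : ∀ᶠ t in 𝓝 (s x), HasDerivAt p (g t) t) (hg : HasDerivAt g (h (s x)) (s x))
    (hs : ContDiffAt ℝ 2 s x) (v w : E) :
    fderiv ℝ (fderiv ℝ (fun y => p (s y))) x v w =
      g (s x) * fderiv ℝ (fderiv ℝ s) x v w + h (s x) * (fderiv ℝ s x v * fderiv ℝ s x w) := by
  have e : fderiv ℝ (fun y => p (s y)) =ᶠ[𝓝 x] fun y => g (s y) • fderiv ℝ s y := by
    filter_upwards [hs.continuousAt.eventually hp, hs.eventually (by simp)] with y hy hy'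
    exact fd_comp1 hy (hy'.differentiableAt (by norm_num))
  have h1 : HasFDerivAt (fun y => g (s y)) (h (s x) • fderiv ℝ s x) x :=
    hg.comp_hasFDerivAt x (hs.differentiableAt (by norm_num)).hasFDerivAt
  have h2 : HasFDerivAt (fderiv ℝ s) (fderiv ℝ (fderiv ℝ s) x) x :=
    ((hs.fderiv_right (m := 1) (by norm_num)).differentiableAt (by norm_num)).hasFDerivAt
  have h3 : fderiv ℝ (fun y => g (s y) • fderiv ℝ s y) x = _ := (h1.smul h2).fderiv
  rw [e.fderiv_eq, h3]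
  simp [ContinuousLinearMap.smulRight_apply]
  ring

end comp

/-- `Φ = ψ ∘ S u` -/
def Ph (n : ℕ) (R : ℝ) (u : Cn n → ℝ) (Z : Cn (n + 1)) : ℝ := AYPsi_209.ψ n R (S u Z)

theorem fd_Ph {R : ℝ} {u : Cn n → ℝ} {Z : Cn (n + 1)} (hu : DifferentiableAt ℝ u (pz n Z))
    (V : Cn (n + 1)) : fderiv ℝ (Ph n R u) Z V =
      AYPsi_209.g n R (S u Z) * (fderiv ℝ u (pz n Z) (pz n V) + 2 * (pw n V).re) := by
  have h1 := fd_comp1 (x := Z) (AYPsi_209.hasDerivAt_psi n R (S u Z))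
    (hasFDerivAt_S hu).differentiableAt
  have h2 : fderiv ℝ (Ph n R u) Z = AYPsi_209.g n R (S u Z) • fderiv ℝ (S u) Z := h1
  rw [h2, _root_.smul_apply, fd_S hu, smul_eq_mul]

theorem fd2_Ph {R : ℝ} {u : Cn n → ℝ} {Z : Cn (n + 1)} (hu : ContDiffAt ℝ 2 u (pz n Z))
    (hR : -R < S u Z) (V W : Cn (n + 1)) : fderiv ℝ (fderiv ℝ (Ph n R u)) Z V W =
      AYPsi_209.g n R (S u Z) * fderiv ℝ (fderiv ℝ u) (pz n Z) (pz n V) (pz n W) +
      AYPsi_209.h n R (S u Z) * ((fderiv ℝ u (pz n Z) (pz n V) + 2 * (pw n V).re) *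
        (fderiv ℝ u (pz n Z) (pz n W) + 2 * (pw n W).re)) := by
  have h1 := fd2_comp1 (x := Z) (s := S u)
    (Eventually.of_forall fun t => AYPsi_209.hasDerivAt_psi n R t)
    (AYPsi_209.hasDerivAt_g (n := n) hR) (S_c2 hu) V W
  have hd := hu.differentiableAt (by norm_num : (2 : WithTop ℕ∞) ≠ 0)
  have h2 : fderiv ℝ (fderiv ℝ (Ph n R u)) Z V W = _ := h1
  rw [h2, fd2_S hu, fd_S hd, fd_S hd]

/-! ### the determinant -/

theorem det_cone (U : Matrix (Fin n) (Fin n) ℂ) (q q' : Fin n → ℂ) (g h : ℂ)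
    (M : Matrix (Fin (n + 1)) (Fin (n + 1)) ℂ)
    (h11 : ∀ a b : Fin n, M a.castSucc b.castSucc = g * U a b + h * (q a * q' b))
    (h12 : ∀ a : Fin n, M a.castSucc (Fin.last n) = h * q a)
    (h21 : ∀ b : Fin n, M (Fin.last n) b.castSucc = h * q' b)
    (h22 : M (Fin.last n) (Fin.last n) = h) : M.det = g ^ n * h * U.det := by
  have e1 : ∀ a : Fin n, (finSumFinEquiv (Sum.inl a) : Fin (n + 1)) = a.castSucc := fun a => rfl
  have e2 : ∀ a : Fin 1, (finSumFinEquiv (Sum.inr a) : Fin (n + 1)) = Fin.last n := fun a => by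
    rw [finSumFinEquiv_apply_right]
    ext
    simp
  have key : M.submatrix (finSumFinEquiv : Fin n ⊕ Fin 1 ≃ Fin (n + 1)) finSumFinEquiv =
      Matrix.fromBlocks (1 : Matrix (Fin n) (Fin n) ℂ) (Matrix.of fun a (_ : Fin 1) => q a) 0 1 *
      Matrix.fromBlocks (g • U) 0 (Matrix.of fun (_ : Fin 1) b => h * q' b)
        (h • (1 : Matrix (Fin 1) (Fin 1) ℂ)) := by
    rw [Matrix.fromBlocks_multiply]
    ext x y
    rcases x with a | a <;> rcases y with b | b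
    · rw [Matrix.submatrix_apply, e1, e1, h11]
      simp [Matrix.mul_apply]
    · rw [Matrix.submatrix_apply, e1, e2, h12]
      have hb : b = 0 := Subsingleton.elim _ _
      subst hb
      simp
    · rw [Matrix.submatrix_apply, e2, e1, h21]
      simp
    · rw [Matrix.submatrix_apply, e2, e2, h22]
      have hb : b = 0 := Subsingleton.elim _ _
      have ha : a = 0 := Subsingleton.elim _ _
      subst hb
      subst ha
      simp
  rw [← Matrix.det_submatrix_equiv_self (finSumFinEquiv : Fin n ⊕ Fin 1 ≃ Fin (n + 1)) M, key,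
    Matrix.det_mul, Matrix.det_fromBlocks_zero₂₁, Matrix.det_fromBlocks_zero₁₂]
  simp
  ring

/-- `∂u/∂z_a` -/
def du (u : Cn n → ℝ) (z : Cn n) (a : Fin n) : ℂ :=
  (1 / 2 : ℂ) * ((fderiv ℝ u z (EuclideanSpace.single a 1) : ℂ) -
    I * (fderiv ℝ u z (EuclideanSpace.single a I) : ℂ))

/-- `∂u/∂z̄_a` -/
def du' (u : Cn n → ℝ) (z : Cn n) (a : Fin n) : ℂ :=
  (1 / 2 : ℂ) * ((fderiv ℝ u z (EuclideanSpace.single a 1) : ℂ) +
    I * (fderiv ℝ u z (EuclideanSpace.single a I) : ℂ))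

theorem det_Ph {R : ℝ} {u : Cn n → ℝ} {Z : Cn (n + 1)} (hu : ContDiffAt ℝ 2 u (pz n Z))
    (hR : -R < S u Z) : (cH (Ph n R u) Z).det =
      (AYPsi_209.g n R (S u Z) : ℂ) ^ n * (AYPsi_209.h n R (S u Z) : ℂ) *
        (cH u (pz n Z)).det := by
  have I2 : I ^ 2 = -1 := Complex.I_sq
  refine det_cone (cH u (pz n Z)) (du u (pz n Z)) (du' u (pz n Z)) _ _ _ ?_ ?_ ?_ ?_
  · intro a b
    simp only [cH, Matrix.of_apply, D2, fd2_Ph hu hR, pz_single_castSucc, pw_single_castSucc,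
      du, du', zero_re, mul_zero, add_zero]
    push_cast
    linear_combination (1 / 4 : ℂ) * (AYPsi_209.h n R (S u Z) : ℂ) *
      (fderiv ℝ u (pz n Z) (EuclideanSpace.single a I) : ℂ) *
      (fderiv ℝ u (pz n Z) (EuclideanSpace.single b I) : ℂ) * I2
  · intro a
    simp only [cH, Matrix.of_apply, D2, fd2_Ph hu hR, pz_single_castSucc, pw_single_castSucc,
      pz_single_last, pw_single_last, map_zero, du, zero_re, mul_zero, add_zero, one_re, I_re]
    push_cast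
    ring
  · intro a
    simp only [cH, Matrix.of_apply, D2, fd2_Ph hu hR, pz_single_castSucc, pw_single_castSucc,
      pz_single_last, pw_single_last, map_zero, _root_.zero_apply, du', zero_re, mul_zero,
      add_zero, one_re, I_re]
    push_cast
    ring
  · simp only [cH, Matrix.of_apply, D2, fd2_Ph hu hR,
      pz_single_last, pw_single_last, map_zero, _root_.zero_apply, zero_re, mul_zero,
      add_zero, one_re, I_re]
    push_cast
    ring

/-- the transformed equation -/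
theorem det_Ph_eq {R : ℝ} {u f : Cn n → ℝ} {Z : Cn (n + 1)} (hu : ContDiffAt ℝ 2 u (pz n Z))
    (hR : -R < S u Z) (he : (cH u (pz n Z)).det = (Real.exp (f (pz n Z) + u (pz n Z)) : ℂ)) :
    (cH (Ph n R u) Z).det = (Real.exp (f (pz n Z) - 2 * (pw n Z).re) : ℂ) := by
  rw [det_Ph hu hR, he]
  have h1 := AYPsi_209.ghe (n := n) hR
  have h2 : f (pz n Z) - 2 * (pw n Z).re = - S u Z + (f (pz n Z) + u (pz n Z)) := by
    simp only [S]
    ring
  have h3 : AYPsi_209.g n R (S u Z) ^ n * AYPsi_209.h n R (S u Z) = Real.exp (- S u Z) := by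
    have h4 := Real.exp_pos (S u Z)
    rw [Real.exp_neg]
    field_simp
    linarith
  rw [h2, Real.exp_add (- S u Z), ← h3]
  push_cast
  ring

/-! ### the Levi form -/

theorem lev_Ph {R : ℝ} {u : Cn n → ℝ} {Z : Cn (n + 1)} (hu : ContDiffAt ℝ 2 u (pz n Z))
    (hR : -R < S u Z) (V : Cn (n + 1)) : lev (Ph n R u) Z V =
      AYPsi_209.g n R (S u Z) * lev u (pz n Z) (pz n V) +
      AYPsi_209.h n R (S u Z) * ((fderiv ℝ u (pz n Z) (pz n V) + 2 * (pw n V).re) ^ 2 +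
        (fderiv ℝ u (pz n Z) (I • pz n V) - 2 * (pw n V).im) ^ 2) := by
  rw [lev_D2, lev_D2]
  simp only [D2, fd2_Ph hu hR, map_smul, smul_eq_mul, I_mul_re]
  ring

theorem lev_Ph_bounds {R G lo hi g0 g1 h0 h1 : ℝ} {u : Cn n → ℝ} {Z : Cn (n + 1)}
    (hu : ContDiffAt ℝ 2 u (pz n Z)) (hR : -R < S u Z) (hlo : 0 ≤ lo)
    (hlev : ∀ v, lo * ‖v‖ ^ 2 ≤ lev u (pz n Z) v ∧ lev u (pz n Z) v ≤ hi * ‖v‖ ^ 2)
    (hG : ∀ v, |fderiv ℝ u (pz n Z) v| ≤ G * ‖v‖) (hg0 : 0 < g0)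
    (hg : g0 ≤ AYPsi_209.g n R (S u Z) ∧ AYPsi_209.g n R (S u Z) ≤ g1) (hh0 : 0 < h0)
    (hh : h0 ≤ AYPsi_209.h n R (S u Z) ∧ AYPsi_209.h n R (S u Z) ≤ h1) (V : Cn (n + 1)) :
    min (g0 * lo / (1 + G ^ 2)) (2 * h0) * ‖V‖ ^ 2 ≤ lev (Ph n R u) Z V ∧
      lev (Ph n R u) Z V ≤ (g1 * |hi| + 4 * h1 * G ^ 2 + 8 * h1) * ‖V‖ ^ 2 := by
  rw [lev_Ph hu hR, norm_sq_split V]
  set g := AYPsi_209.g n R (S u Z)
  set h := AYPsi_209.h n R (S u Z)
  set p := fderiv ℝ u (pz n Z) (pz n V)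
  set q := fderiv ℝ u (pz n Z) (I • pz n V)
  set x := (pw n V).re
  set y := (pw n V).im
  set X := ‖pz n V‖ ^ 2 with hX
  have hX0 : 0 ≤ X := by positivity
  have hY : ‖pw n V‖ ^ 2 = x ^ 2 + y ^ 2 := by
    rw [← Complex.normSq_eq_norm_sq, Complex.normSq_apply]
    ring
  have hp : p ^ 2 ≤ G ^ 2 * X := by
    have := hG (pz n V)
    rw [hX, ← mul_pow]
    exact sq_le_sq' (by linarith [(abs_le.1 this).1]) (abs_le.1 this).2
  have hq : q ^ 2 ≤ G ^ 2 * X := by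
    have := hG (I • pz n V)
    rw [norm_smul, Complex.norm_I, one_mul] at this
    rw [hX, ← mul_pow]
    exact sq_le_sq' (by linarith [(abs_le.1 this).1]) (abs_le.1 this).2
  obtain ⟨l1, l2⟩ := hlev (pz n V)
  rw [hY]
  have hgpos : 0 < g := hg0.trans_le hg.1
  have hhpos : 0 < h := hh0.trans_le hh.1
  set D := (p + 2 * x) ^ 2 + (q - 2 * y) ^ 2 with hD
  have hD0 : 0 ≤ D := by positivity
  have hxy : x ^ 2 + y ^ 2 ≤ D / 2 + G ^ 2 * X := by
    have a1 : 4 * x ^ 2 ≤ 2 * (p + 2 * x) ^ 2 + 2 * p ^ 2 := by nlinarith [sq_nonneg (2 * p + 2 * x)]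
    have a2 : 4 * y ^ 2 ≤ 2 * (q - 2 * y) ^ 2 + 2 * q ^ 2 := by nlinarith [sq_nonneg (2 * q - 2 * y)]
    rw [hD]
    linarith
  have hG1 : 0 < 1 + G ^ 2 := by positivity
  constructor
  · set c := min (g0 * lo / (1 + G ^ 2)) (2 * h0) with hc
    have hc0 : 0 ≤ c := le_min (by positivity) (by positivity)
    have c1 : c * (1 + G ^ 2) ≤ g0 * lo := by
      have := min_le_left (g0 * lo / (1 + G ^ 2)) (2 * h0)
      rw [← hc] at this
      rwa [le_div_iff₀ hG1] at this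
    have c2 : c ≤ 2 * h0 := min_le_right _ _
    calc c * (X + (x ^ 2 + y ^ 2)) ≤ c * (X + (D / 2 + G ^ 2 * X)) :=
          mul_le_mul_of_nonneg_left (by linarith) hc0
      _ = (c * (1 + G ^ 2)) * X + c * (D / 2) := by ring
      _ ≤ (g0 * lo) * X + 2 * h0 * (D / 2) :=
          add_le_add (mul_le_mul_of_nonneg_right c1 hX0)
            (mul_le_mul_of_nonneg_right c2 (by positivity))
      _ = g0 * (lo * X) + h0 * D := by ring
      _ ≤ g * lev u (pz n Z) (pz n V) + h * D :=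
          add_le_add (mul_le_mul hg.1 l1 (by positivity) hgpos.le)
            (mul_le_mul_of_nonneg_right hh.1 hD0)
  · have hDle : D ≤ 4 * G ^ 2 * X + 8 * (x ^ 2 + y ^ 2) := by
      have a1 : (p + 2 * x) ^ 2 ≤ 2 * p ^ 2 + 8 * x ^ 2 := by nlinarith [sq_nonneg (p - 2 * x)]
      have a2 : (q - 2 * y) ^ 2 ≤ 2 * q ^ 2 + 8 * y ^ 2 := by nlinarith [sq_nonneg (q + 2 * y)]
      rw [hD]
      linarith
    have l3 : lev u (pz n Z) (pz n V) ≤ |hi| * X :=
      l2.trans (mul_le_mul_of_nonneg_right (le_abs_self _) hX0)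
    have hxy0 : 0 ≤ x ^ 2 + y ^ 2 := by positivity
    have hlo' : 0 ≤ lev u (pz n Z) (pz n V) := le_trans (by positivity) l1
    have hg1 : 0 ≤ g1 := hgpos.le.trans hg.2
    have hh1 : 0 ≤ h1 := hhpos.le.trans hh.2
    calc g * lev u (pz n Z) (pz n V) + h * D ≤ g1 * (|hi| * X) +
          h1 * (4 * G ^ 2 * X + 8 * (x ^ 2 + y ^ 2)) :=
          add_le_add (mul_le_mul hg.2 l3 hlo' hg1) (mul_le_mul hh.2 hDle hD0 hh1)
      _ = (g1 * |hi| + 4 * h1 * G ^ 2) * X + 8 * h1 * (x ^ 2 + y ^ 2) := by ring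
      _ ≤ (g1 * |hi| + 4 * h1 * G ^ 2 + 8 * h1) * (X + (x ^ 2 + y ^ 2)) := by
          have b1 : 0 ≤ (g1 * |hi| + 4 * h1 * G ^ 2) * (x ^ 2 + y ^ 2) := by positivity
          have b2 : 0 ≤ 8 * h1 * X := by positivity
          nlinarith

/-! ### smoothness -/

theorem contDiffOn_S {u : Cn n → ℝ} {U : Set (Cn n)} {k : WithTop ℕ∞} (hu : ContDiffOn ℝ k u U) :
    ContDiffOn ℝ k (S u) (pz n ⁻¹' U) := by
  have h1 : ContDiffOn ℝ k (fun Z => u (pzR n Z)) (pz n ⁻¹' U) :=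
    hu.comp (pzR n).contDiff.contDiffOn fun Z hZ => hZ
  exact h1.add (pwR n).contDiff.contDiffOn

theorem contDiffOn_Ph {R : ℝ} {u : Cn n → ℝ} {U : Set (Cn n)} {W : Set (Cn (n + 1))}
    {k : WithTop ℕ∞} (hk : k ≤ ∞)
    (hu : ContDiffOn ℝ k u U) (hW : W ⊆ pz n ⁻¹' U) (hR : ∀ Z ∈ W, -R < S u Z) :
    ContDiffOn ℝ k (Ph n R u) W :=
  ((AYPsi_209.contDiffOn_psi n R).of_le hk).comp ((contDiffOn_S hu).mono hW) fun Z hZ => hR Z hZ

end

end Crest.Agent.R257.AYCone_209
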