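import Crest.Agent.R257.KEl_835

/-!
# R257 (S0395), Part E (helper835): Kaehler-Einstein weights on the cone over a hypersurface

* `FF X κ`     : the right hand side of the Monge-Ampere equation, a smooth function on `X.S`;
* `H0 B κ`     : the metric of `O(κ)`, `κ = d - n - 2`;
* `Lift.chart` : lifts in the charts of the atlas;
* `AYStmt`     : negative Aubin-Yau theorem;
* `KEw`        : Kaehler-Einstein weight; `kew_of` : from the solution of the Monge-Ampere equation.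
-/

set_option autoImplicit false
set_option linter.unusedSectionVars false

open Set Filter Topology Complex
open scoped ContDiff Matrix ComplexConjugate Manifold

namespace Crest.Agent.R257.KE_835

open Crest.Agent.R275.Geo Crest.Agent.R275.Core144 Crest.Agent.R275.GC293
open Crest.Agent.R273.Fam_835 Crest.Agent.R273.Sub_835 Crest.Agent.R273.Reg_835
open Crest.Agent.R273.Defs_333 Crest.Agent.R273.Map_835 Crest.Agent.R273.PB_835
open Crest.Agent.R273.FS_333 Crest.Agent.R273.YauDefs_635 Crest.Agent.R273.YauCh_635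
open Crest.Agent.R273.HM_333
open Crest.Agent.R257.PN_835 Crest.Agent.R257.Gram_835 Crest.Agent.R257.Hyp_835
open Crest.Agent.R257.KEl_835
open Crest.Agent.R273.FS_333 (sq)

noncomputable section

/-- the negative Aubin-Yau theorem -/
def AYStmt : Prop :=
  ∀ (n : ℕ) (M : Type) [TopologicalSpace M] [T2Space M] [CompactSpace M]
    (A : Atl n M) [Finite A.ι], GoodA A → Nonempty (Part A) →
    ∀ (L : LB A) (H : HM L), H.Pos → ∀ F : M → ℝ, A.Sm F →
      ∃ φ : M → ℝ, A.Sm φ ∧ KPos H φ ∧ MA H φ (fun x => F x + φ x)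

variable {n d : ℕ} {X : Hyp n d}

/-! ### the right hand side -/

theorem ng_smul' (hd : 0 < d) {c : ℂ} (hc : c ≠ 0) (Z : HC (n + 1)) :
    X.ng (c • Z) = (‖c‖ ^ 2) ^ (d - 1) * X.ng Z := by
  have h1 := X.ng_smul c Z
  have h2 : ‖c‖ ^ (2 * d) = ‖c‖ ^ 2 * (‖c‖ ^ 2) ^ (d - 1) := by
    rw [pow_mul, ← pow_succ', Nat.sub_add_cancel hd]
  rw [h2, mul_assoc] at h1
  have h3 : ‖c‖ ^ 2 ≠ 0 := by positivity
  exact mul_left_cancel₀ h3 h1

variable (X) in
/-- the right hand side on the cone -/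
def FFc (κ : ℕ) (Z : HC (n + 1)) : ℝ :=
  - Real.log (X.ng Z / nsq Z ^ (d - 1)) - n * Real.log κ

theorem FFc_smul (hd : 0 < d) (κ : ℕ) {c : ℂ} (hc : c ≠ 0) (Z : HC (n + 1)) :
    FFc X κ (c • Z) = FFc X κ Z := by
  unfold FFc
  rw [ng_smul' hd hc, nsq_smul, mul_pow, mul_div_mul_left]
  exact pow_ne_zero _ (by positivity)

/-- a representative -/
def rep (x : X.S) : HC (n + 1) := (exists_rep x.1).choose

theorem rep_ne (x : X.S) : rep x ≠ 0 := (exists_rep x.1).choose_spec.choose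

theorem cls_rep (x : X.S) : cls (rep x) (rep_ne x) = x.1 :=
  (exists_rep x.1).choose_spec.choose_spec

/-- the right hand side -/
def FF (κ : ℕ) (x : X.S) : ℝ := FFc X κ (rep x)

theorem FF_eq (hd : 0 < d) (κ : ℕ) {Z : HC (n + 1)} (hZ : Z ≠ 0) {x : X.S} (h : cls Z hZ = x.1) :
    FF κ x = FFc X κ Z := by
  have h1 : cls (rep x) (rep_ne x) = cls Z hZ := (cls_rep x).trans h.symm
  obtain ⟨c, hc⟩ := (cls_eq_iff _ _).1 h1
  have hc0 : c ≠ 0 := by
    rintro rfl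
    rw [zero_smul] at hc
    exact rep_ne x hc
  rw [FF, hc, FFc_smul hd κ hc0]

theorem contDiffAt_ng {F : Cn n → HC (n + 1)} {U : Set (Cn n)} (hU : IsOpen U)
    (hF : DifferentiableOn ℂ F U) {z : Cn n} (hz : z ∈ U) :
    ContDiffAt ℝ ∞ (fun z => X.ng (F z)) z := by
  have hA : Differentiable ℂ (fderiv ℂ X.H) := by
    have h1 := (Crest.Agent.R266.SCV.analyticOnNhd_of_differentiableOn isOpen_univ
      X.diff.differentiableOn).fderiv
    exact fun Z => (h1 Z (mem_univ _)).differentiableAt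
  have h1 : ∀ k, DifferentiableOn ℂ (fun z => X.gr (F z) k) U := by
    intro k
    have h2 : DifferentiableOn ℂ (fun z => fderiv ℂ X.H (F z)) U :=
      hA.comp_differentiableOn hF
    exact h2.clm_apply (differentiableOn_const _)
  refine ContDiffAt.sum fun k _ => ?_
  exact (contDiffAt_of_hol hU (h1 k) hz).norm_sq ℝ

theorem contDiffAt_nsq {F : Cn n → HC (n + 1)} {U : Set (Cn n)} (hU : IsOpen U)
    (hF : DifferentiableOn ℂ F U) {z : Cn n} (hz : z ∈ U) :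
    ContDiffAt ℝ ∞ (fun z => nsq (F z)) z :=
  contDiffAt_sq hU (fun k => differentiableOn_pi.1 hF k) hz

variable {κ : ℕ} (B : HAtl X)

/-- the chart lift -/
def Fi (i : B.A.ι) (z : Cn n) : HC (n + 1) := B.F i ((B.A.e i).symm z)

theorem lift_Fi (i : B.A.ι) : Lift X (Fi B i) (B.A.e i).target := HAtl.lift B i

theorem FF_Fi (hd : 0 < d) (κ : ℕ) {i : B.A.ι} {z : Cn n} (hz : z ∈ (B.A.e i).target) :
    FF κ ((B.A.e i).symm z) = FFc X κ (Fi B i z) :=
  FF_eq hd κ (HAtl.F_ne ((B.A.e i).map_target hz)) (HAtl.cls_F ((B.A.e i).map_target hz))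

theorem FF_sm (hd : 0 < d) (κ : ℕ) : B.A.Sm (FF (X := X) κ) := by
  intro i
  have hL := lift_Fi B i
  have h1 : ContDiffOn ℝ ∞ (fun z => FFc X κ (Fi B i z)) (B.A.e i).target := by
    intro z hz
    refine ContDiffAt.contDiffWithinAt ?_
    have h2 := contDiffAt_ng (X := X) hL.isOpen hL.hol hz
    have h3 := contDiffAt_nsq hL.isOpen hL.hol hz
    have h4 : 0 < nsq (Fi B i z) := nsq_pos (hL.ne z hz)
    have h5 : 0 < X.ng (Fi B i z) := X.ng_pos (hL.ne z hz) (hL.zero z hz)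
    have h6 : ContDiffAt ℝ ∞ (fun z => X.ng (Fi B i z) / nsq (Fi B i z) ^ (d - 1)) z :=
      h2.div (h3.pow _) (pow_pos h4 _).ne'
    exact (h6.log (by positivity)).neg.sub contDiffAt_const
  refine h1.congr fun z hz => ?_
  exact FF_Fi B hd κ hz

/-- the metric of `O(κ)` -/
def H0 (κ : ℕ) : HM ((lb B.P) ^ κ) := pow (fs B.P) κ

theorem wt_H0 (κ : ℕ) (i : B.A.ι) (z : Cn n) :
    (H0 B κ).wt i z = κ * Real.log (sq (Fi B i) z) := by
  rw [H0, wt_pow]
  congr 1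
  simp only [HM.wt, fs, Real.log_inv, neg_neg]
  rfl

theorem H0_pos {κ : ℕ} (hκ : 0 < κ) : (H0 B κ).Pos := by
  intro i z hz v hv
  have h1 := fs_pos B.P i z hz v hv
  have h2 : (H0 B κ).wt i = fun z => (κ : ℝ) * (fs B.P).wt i z := by
    funext w
    rw [H0, wt_pow]
  have h3 : ContDiffAt ℝ 2 ((fs B.P).wt i) z := wt_c2 _ i hz
  rw [h2, lev_mul h3]
  positivity

/-! ### lifts in charts -/

variable {F : Cn n → HC (n + 1)} {U : Set (Cn n)}

theorem _root_.Crest.Agent.R257.Hyp_835.Lift.chart (hF : Lift X F U) {z₀ : Cn n} (hz : z₀ ∈ U) :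
    ∃ (i : B.A.ι) (g : Cn n → Cn n) (c : Cn n → ℂ) (V : Set (Cn n)), IsOpen V ∧ z₀ ∈ V ∧ V ⊆ U ∧
      (∀ w ∈ V, AnalyticAt ℂ g w) ∧ (∀ w ∈ V, AnalyticAt ℂ c w) ∧ (∀ w ∈ V, c w ≠ 0) ∧
      (∀ w ∈ V, g w ∈ (B.A.e i).target) ∧ (∀ w ∈ V, F w = c w • Fi B i (g w)) ∧
      (∀ w ∈ V, ∀ hn : F w ≠ 0, ((B.A.e i).symm (g w)).1 = cls (F w) hn) ∧
      (∀ w ∈ V, ∀ v, fderiv ℂ g w v = 0 → v = 0) := by
  classical
  set x : Cn n → X.S := fun w => if h : w ∈ U then ⟨cls (F w) (hF.ne w h),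
    (X.cls_mem (hF.ne w h)).2 (hF.zero w h)⟩ else ⟨cls (F z₀) (hF.ne z₀ hz),
    (X.cls_mem (hF.ne z₀ hz)).2 (hF.zero z₀ hz)⟩ with hxdef
  have hx : ∀ w (hw : w ∈ U), (x w).1 = cls (F w) (hF.ne w hw) := by
    intro w hw
    simp only [hxdef, dif_pos hw]
  obtain ⟨i, hi⟩ := B.A.cover (x z₀)
  have hcont : ContinuousOn x U := by
    intro w hw
    obtain ⟨j, hj⟩ := B.A.cover (x w)
    exact (lift_diffAt B hF.isOpen hF.hol hF.ne hx hw hj).1.continuousWithinAt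
  set V : Set (Cn n) := U ∩ x ⁻¹' (B.A.e i).source with hV
  have hVo : IsOpen V := hcont.isOpen_inter_preimage hF.isOpen (B.A.e i).open_source
  have hr : ∀ w ∈ V, F w (B.r i) ≠ 0 := by
    intro w hw
    have h1 := B.sub i (x w) hw.2
    rw [hx w hw.1] at h1
    exact (cls_mem_aff (hF.ne w hw.1)).1 h1
  have hgd : DifferentiableOn ℂ (fun w => B.A.e i (x w)) V := fun w hw =>
    (lift_diffAt B hF.isOpen hF.hol hF.ne hx hw.1 hw.2).2.differentiableWithinAt
  have hga : ∀ w ∈ V, AnalyticAt ℂ (fun w => B.A.e i (x w)) w :=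
    Crest.Agent.R266.SCV.analyticOnNhd_of_differentiableOn hVo hgd
  have hca : ∀ w ∈ V, AnalyticAt ℂ (fun w => F w (B.r i)) w :=
    Crest.Agent.R266.SCV.analyticOnNhd_of_differentiableOn hVo
      ((hF.holk (B.r i)).mono inter_subset_left)
  have hmul : ∀ w ∈ V, F w = F w (B.r i) • Fi B i (B.A.e i (x w)) := by
    intro w hw
    show F w = F w (B.r i) • lft (B.r i) ((B.A.e i).symm (B.A.e i (x w))).1
    rw [(B.A.e i).left_inv hw.2, hx w hw.1, lft_cls (hF.ne w hw.1) (hr w hw), smul_smul,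
      mul_inv_cancel₀ (hr w hw), one_smul]
  refine ⟨i, fun w => B.A.e i (x w), fun w => F w (B.r i), V, hVo, ⟨hz, hi⟩, inter_subset_left,
    hga, hca, hr, fun w hw => (B.A.e i).map_source hw.2, hmul, ?_, ?_⟩
  · intro w hw hn
    rw [(B.A.e i).left_inv hw.2, hx w hw.1]
  · intro w hw v hv
    refine hF.imm w hw.1 v ⟨(F w (B.r i))⁻¹ * fderiv ℂ (fun w => F w (B.r i)) w v, ?_⟩
    have ht : B.A.e i (x w) ∈ (B.A.e i).target := (B.A.e i).map_source hw.2
    have h1 : HasFDerivAt (Fi B i) (fderiv ℂ (Fi B i) (B.A.e i (x w))) (B.A.e i (x w)) :=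
      ((lift_Fi B i).diffAt ht).hasFDerivAt
    have h2 := h1.comp w (hga w hw).differentiableAt.hasFDerivAt
    have h3 := (hca w hw).differentiableAt.hasFDerivAt.smul h2
    have h4 : F =ᶠ[𝓝 w] (fun w => F w (B.r i)) • (Fi B i ∘ fun w => B.A.e i (x w)) := by
      filter_upwards [hVo.mem_nhds hw] with y hy
      exact hmul y hy
    have h5 : fderiv ℂ F w v = fderiv ℂ ((fun w => F w (B.r i)) •
        (Fi B i ∘ fun w => B.A.e i (x w))) w v := by rw [h4.fderiv_eq]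
    rw [h5, h3.fderiv]
    have h6 : (fderiv ℂ (Fi B i) (B.A.e i (x w))) ((fderiv ℂ (fun w => B.A.e i (x w)) w) v) = 0 := by
      rw [hv, map_zero]
    have h7 : (F w (B.r i) • (fderiv ℂ (Fi B i) (B.A.e i (x w))).comp
        (fderiv ℂ (fun w => B.A.e i (x w)) w) + (fderiv ℂ (fun w => F w (B.r i)) w).smulRight
        ((Fi B i ∘ fun w => B.A.e i (x w)) w)) v =
        F w (B.r i) • (fderiv ℂ (Fi B i) (B.A.e i (x w)))
          ((fderiv ℂ (fun w => B.A.e i (x w)) w) v) +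
        (fderiv ℂ (fun w => F w (B.r i)) w v) • Fi B i (B.A.e i (x w)) := rfl
    rw [h7, h6, smul_zero, zero_add]
    have hc0 := hr w hw
    refine Eq.symm ?_
    calc ((F w (B.r i))⁻¹ * fderiv ℂ (fun w => F w (B.r i)) w v) • F w
        = ((F w (B.r i))⁻¹ * fderiv ℂ (fun w => F w (B.r i)) w v) •
          (F w (B.r i) • Fi B i (B.A.e i (x w))) := congrArg _ (hmul w hw)
      _ = _ := by
        rw [smul_smul]
        congr 1
        field_simp

/-! ### the Kaehler-Einstein weight -/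

open Classical in
/-- `φ` on the cone -/
def phE (φ : X.S → ℝ) (Z : HC (n + 1)) : ℝ :=
  if h : Z ≠ 0 ∧ X.H Z = 0 then φ ⟨cls Z h.1, (X.cls_mem h.1).2 h.2⟩ else 0

theorem phE_eq (φ : X.S → ℝ) {Z : HC (n + 1)} (hZ : Z ≠ 0) (h0 : X.H Z = 0) {x : X.S}
    (hx : x.1 = cls Z hZ) : phE φ Z = φ x := by
  unfold phE
  rw [dif_pos ⟨hZ, h0⟩]
  congr 1
  exact Subtype.ext hx.symm

theorem phE_smul (φ : X.S → ℝ) {c : ℂ} (hc : c ≠ 0) {Z : HC (n + 1)} (hZ : Z ≠ 0)
    (h0 : X.H Z = 0) : phE φ (c • Z) = phE φ Z := by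
  have h1 : X.H (c • Z) = 0 := by rw [X.hom, h0, mul_zero]
  rw [phE_eq φ (smul_ne_zero hc hZ) h1 (x := ⟨cls Z hZ, (X.cls_mem hZ).2 h0⟩)
    (cls_smul hc hZ).symm, phE_eq φ hZ h0 (x := ⟨cls Z hZ, (X.cls_mem hZ).2 h0⟩) rfl]

/-- the weight on the cone -/
def Wc (κ : ℕ) (φ : X.S → ℝ) (Z : HC (n + 1)) : ℝ := κ * Real.log (nsq Z) + phE φ Z

/-- Kaehler-Einstein weight on the cone -/
structure KEw (X : Hyp n d) (κ : ℕ) (W : HC (n + 1) → ℝ) : Prop where
  hom : ∀ (c : ℂ) (Z : HC (n + 1)), c ≠ 0 → Z ≠ 0 → X.H Z = 0 →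
    W (c • Z) = W Z + κ * Real.log (‖c‖ ^ 2)
  sm : ∀ (F : Cn n → HC (n + 1)) (U : Set (Cn n)), Lift X F U →
    ContDiffOn ℝ ∞ (fun z => W (F z)) U
  pos : ∀ (F : Cn n → HC (n + 1)) (U : Set (Cn n)), Lift X F U → ∀ z ∈ U, ∀ v : Cn n, v ≠ 0 →
    0 < lev (fun z => W (F z)) z v
  ke : ∀ (F : Cn n → HC (n + 1)) (U : Set (Cn n)), Lift X F U → ∀ z ∈ U,
    (cH (fun z => W (F z)) z).det = ((Real.exp (W (F z)) * eta2 X F z : ℝ) : ℂ)

variable {B}

theorem pot_eq (κ : ℕ) (φ : X.S → ℝ) (i : B.A.ι) (z : Cn n) :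
    pot (H0 B κ) φ i z = κ * Real.log (nsq (Fi B i z)) + φ ((B.A.e i).symm z) := by
  rw [pot, wt_H0]
  rfl

theorem pot_sm {φ : X.S → ℝ} (hφ : B.A.Sm φ) (κ : ℕ) {i : B.A.ι} {z : Cn n}
    (hz : z ∈ (B.A.e i).target) : ContDiffAt ℝ ∞ (pot (H0 B κ) φ i) z :=
  (((wt_smooth (H0 B κ) i).add (hφ i)).contDiffAt ((B.A.e i).open_target.mem_nhds hz))

/-- the Monge-Ampere equation in the charts -/
theorem ma_chart (hd : d = n + 2 + κ) (hκ : 0 < κ) {φ : X.S → ℝ}
    (hMA : MA (H0 B κ) φ (fun x => FF κ x + φ x)) {i : B.A.ι} {z : Cn n}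
    (hz : z ∈ (B.A.e i).target) :
    (cH (pot (H0 B κ) φ i) z).det =
      ((Real.exp (pot (H0 B κ) φ i z) * eta2 X (Fi B i) z : ℝ) : ℂ) := by
  have hd0 : 0 < d := by omega
  have hL := lift_Fi B i
  have h1 := hMA i z hz
  have hs : ContDiffAt ℝ ∞ (fun w => Real.log (sq (Fi B i) w)) z := by
    have h2 := contDiffAt_nsq hL.isOpen hL.hol hz
    exact h2.log (nsq_pos (hL.ne z hz)).ne'
  have hwt : (H0 B κ).wt i = fun w => (κ : ℝ) * Real.log (sq (Fi B i) w) := by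
    funext w
    exact wt_H0 B κ i w
  have h2 : (cH ((H0 B κ).wt i) z).det = (κ : ℂ) ^ n *
      (cH (fun w => Real.log (sq (Fi B i) w)) z).det := by
    rw [hwt, cH_mul (hs.of_le two_le_inf), Matrix.det_smul, Fintype.card_fin]
    norm_cast
  have h3 := hL.det_log hz
  have hq : 0 < nsq (Fi B i z) := nsq_pos (hL.ne z hz)
  have hg : 0 < X.ng (Fi B i z) := X.ng_pos (hL.ne z hz) (hL.zero z hz)
  have hqe : sq (Fi B i) z = nsq (Fi B i z) := rfl
  have hκ' : (0 : ℝ) < κ := by exact_mod_cast hκ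
  have h4 : Real.exp (FFc X κ (Fi B i z)) * (κ : ℝ) ^ n * X.ng (Fi B i z) =
      nsq (Fi B i z) ^ (d - 1) := by
    unfold FFc
    rw [sub_eq_add_neg, Real.exp_add, Real.exp_neg, Real.exp_log (by positivity), Real.exp_neg,
      Real.exp_nat_mul, Real.exp_log hκ']
    field_simp
  rw [h1, h2, pot_eq, inC]
  rw [FF_Fi B hd0 κ hz, Real.exp_add, Real.exp_add]
  have h5 : Real.exp (κ * Real.log (nsq (Fi B i z))) = nsq (Fi B i z) ^ κ := by
    rw [Real.exp_nat_mul, Real.exp_log hq]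
  rw [h5]
  have h6 : (((nsq (Fi B i z) : ℝ) : ℂ)) ^ (n + 1) ≠ 0 := by
    refine pow_ne_zero _ ?_
    rw [Ne, ofReal_eq_zero]
    exact hq.ne'
  apply mul_left_cancel₀ h6
  rw [hqe] at h3
  have h7 : d - 1 = n + 1 + κ := by omega
  rw [h7, pow_add] at h4
  have h8 : ((nsq (Fi B i z) : ℝ) : ℂ) ^ (n + 1) * (((Real.exp (FFc X κ (Fi B i z)) *
      Real.exp (φ ((B.A.e i).symm z)) : ℝ) : ℂ) * ((κ : ℂ) ^ n *
        (cH (fun w => Real.log (sq (Fi B i) w)) z).det)) =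
      ((Real.exp (FFc X κ (Fi B i z)) * Real.exp (φ ((B.A.e i).symm z)) : ℝ) : ℂ) * (κ : ℂ) ^ n *
      (((nsq (Fi B i z) : ℝ) : ℂ) ^ (n + 1) *
        (cH (fun w => Real.log (sq (Fi B i) w)) z).det) := by ring
  rw [h8, h3]
  have h9 := congrArg (fun r : ℝ => (r : ℂ)) h4
  push_cast at h9 ⊢
  linear_combination Complex.exp ((φ ((B.A.e i).symm z) : ℝ) : ℂ) *
    ((eta2 X (Fi B i) z : ℝ) : ℂ) * h9

/-- **the weight of the solution** -/
theorem kew_of (hd : d = n + 2 + κ) (hκ : 0 < κ) {φ : X.S → ℝ} (hφ : B.A.Sm φ)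
    (hpos : KPos (H0 B κ) φ) (hMA : MA (H0 B κ) φ (fun x => FF κ x + φ x)) :
    KEw X κ (Wc κ φ) := by
  have hd0 : 0 < d := by omega
  -- the local form
  have key : ∀ (F : Cn n → HC (n + 1)) (U : Set (Cn n)), Lift X F U → ∀ z ∈ U,
      ContDiffAt ℝ ∞ (fun z => Wc κ φ (F z)) z ∧
      (∀ v : Cn n, v ≠ 0 → 0 < lev (fun z => Wc κ φ (F z)) z v) ∧
      (cH (fun z => Wc κ φ (F z)) z).det =
        ((Real.exp (Wc κ φ (F z)) * eta2 X F z : ℝ) : ℂ) := by
    intro F U hF z hz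
    obtain ⟨i, g, c, V, hVo, hzV, hVU, hg, hc, hc0, ht, hm, hcl, him⟩ := hF.chart B hz
    have hn : ∀ w ∈ V, F w ≠ 0 := fun w hw => hF.ne w (hVU hw)
    have hLi := lift_Fi B i
    -- logarithm of the norm
    have e1 : ∀ w ∈ V, Real.log (nsq (F w)) = Real.log (nsq (Fi B i (g w))) +
        1 * Real.log (‖c w‖ ^ 2) := by
      intro w hw
      have h1 : 0 < ‖c w‖ ^ 2 := by
        have := hc0 w hw
        positivity
      have h2 := nsq_pos (hLi.ne _ (ht w hw))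
      rw [hm w hw, nsq_smul, Real.log_mul h1.ne' h2.ne', one_mul, add_comm]
    have e2 : ∀ w ∈ V, Wc κ φ (F w) = pot (H0 B κ) φ i (g w) + κ * Real.log (‖c w‖ ^ 2) := by
      intro w hw
      rw [Wc, e1 w hw, phE_eq φ (hn w hw) (hF.zero w (hVU hw)) (hcl w hw (hn w hw)), pot_eq]
      ring
    have E2 : (fun w => Wc κ φ (F w)) =ᶠ[𝓝 z]
        fun w => pot (H0 B κ) φ i (g w) + κ * Real.log (‖c w‖ ^ 2) := by
      filter_upwards [hVo.mem_nhds hzV] with w hw
      exact e2 w hw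
    have E1 : (fun w => Real.log (nsq (F w))) =ᶠ[𝓝 z]
        fun w => Real.log (nsq (Fi B i (g w))) + 1 * Real.log (‖c w‖ ^ 2) := by
      filter_upwards [hVo.mem_nhds hzV] with w hw
      exact e1 w hw
    have hgz := hg z hzV
    have hcz := hc z hzV
    have hcz0 := hc0 z hzV
    have htz := ht z hzV
    have hps := pot_sm hφ κ htz
    have hgr : ContDiffAt ℝ ∞ g z := hgz.contDiffAt.restrict_scalars ℝ
    have hpg : ContDiffAt ℝ ∞ (fun w => pot (H0 B κ) φ i (g w)) z := hps.comp z hgr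
    have hls : ContDiffAt ℝ ∞ (fun w => Real.log (sq (Fi B i) w)) (g z) :=
      (contDiffAt_nsq hLi.isOpen hLi.hol htz).log (nsq_pos (hLi.ne _ htz)).ne'
    have hlg : ContDiffAt ℝ ∞ (fun w => Real.log (sq (Fi B i) (g w))) z := hls.comp z hgr
    refine ⟨?_, fun v hv => ?_, ?_⟩
    · refine ContDiffAt.congr_of_eventuallyEq ?_ E2
      exact hpg.add (contDiffAt_const.mul (c2_log hcz hcz0 _))
    · rw [lev_congr E2, lev_plh (hpg.of_le two_le_inf) hcz hcz0, lev_comp' hgz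
        (hps.of_le two_le_inf)]
      refine hpos i _ htz _ fun h => hv (him z hzV v h)
    · -- determinants
      have h1 : (cH (fun z => Wc κ φ (F z)) z).det = ((‖(Jm g z).det‖ ^ 2 : ℝ) : ℂ) *
          ((Real.exp (pot (H0 B κ) φ i (g z)) * eta2 X (Fi B i) (g z) : ℝ) : ℂ) := by
        rw [cH_congr E2, cH_plh (hpg.of_le two_le_inf) hcz hcz0,
          det_cH_comp hgz (hps.of_le two_le_inf), ma_chart hd hκ hMA htz]
      have h2 : (cH (fun w => Real.log (sq F w)) z).det = ((‖(Jm g z).det‖ ^ 2 : ℝ) : ℂ) *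
          (cH (fun w => Real.log (sq (Fi B i) w)) (g z)).det := by
        have h3 : (cH (fun w => Real.log (sq F w)) z).det =
            (cH (fun w => Real.log (sq (Fi B i) (g w)) + 1 * Real.log (‖c w‖ ^ 2)) z).det := by
          exact congrArg Matrix.det (cH_congr (u := fun w => Real.log (sq F w))
            (v := fun w => Real.log (sq (Fi B i) (g w)) + 1 * Real.log (‖c w‖ ^ 2)) E1)
        rw [h3, cH_plh (hlg.of_le two_le_inf) hcz hcz0]
        exact det_cH_comp (u := fun w => Real.log (sq (Fi B i) w)) hgz (hls.of_le two_le_inf)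
      have h3 := hF.det_log hz
      have h4 := hLi.det_log htz
      rw [h2] at h3
      have hqe : sq F z = nsq (F z) := rfl
      have hqi : sq (Fi B i) (g z) = nsq (Fi B i (g z)) := rfl
      rw [hqe] at h3
      rw [hqi] at h4
      have hm' := hm z hzV
      have h5 : nsq (F z) = ‖c z‖ ^ 2 * nsq (Fi B i (g z)) := by rw [hm', nsq_smul]
      have h6 : X.ng (F z) = (‖c z‖ ^ 2) ^ (d - 1) * X.ng (Fi B i (g z)) := by
        rw [hm', ng_smul' hd0 hcz0]
      have h7 : 0 < X.ng (Fi B i (g z)) := X.ng_pos (hLi.ne _ htz) (hLi.zero _ htz)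
      have h8 : 0 < ‖c z‖ ^ 2 := by positivity
      -- ratio invariance
      set a : ℝ := ‖c z‖ ^ 2 with ha
      set q : ℝ := nsq (Fi B i (g z)) with hq
      set γ : ℝ := X.ng (Fi B i (g z)) with hγ
      set J : ℝ := ‖(Jm g z).det‖ ^ 2 with hJ
      set D : ℂ := (cH (fun w => Real.log (sq (Fi B i) w)) (g z)).det with hD
      have h9 : (((a : ℝ) : ℂ) ^ (n + 1)) * ((J : ℝ) : ℂ) * ((eta2 X (Fi B i) (g z) * γ : ℝ) : ℂ) =
          ((eta2 X F z * (a ^ (d - 1) * γ) : ℝ) : ℂ) := by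
        rw [← h6, ← h3, ← h4, h5]
        push_cast
        ring
      have h10 : a ^ (n + 1) * J * (eta2 X (Fi B i) (g z) * γ) =
          eta2 X F z * (a ^ (d - 1) * γ) := by
        exact_mod_cast h9
      have h11 : d - 1 = n + 1 + κ := by omega
      have h12 : J * eta2 X (Fi B i) (g z) = eta2 X F z * a ^ κ := by
        have h13 : (a ^ (n + 1) * γ) * (J * eta2 X (Fi B i) (g z)) =
            (a ^ (n + 1) * γ) * (eta2 X F z * a ^ κ) := by
          rw [h11, pow_add] at h10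
          linear_combination h10
        exact mul_left_cancel₀ (by positivity) h13
      have h13 : Real.exp (Wc κ φ (F z)) = Real.exp (pot (H0 B κ) φ i (g z)) * a ^ κ := by
        rw [e2 z hzV, Real.exp_add]
        congr 1
        rw [Real.exp_nat_mul, Real.exp_log h8]
      rw [h1, h13, ← ofReal_mul]
      congr 1
      linear_combination Real.exp (pot (H0 B κ) φ i (g z)) * h12
  refine ⟨fun c Z hc hZ h0 => ?_, fun F U hF z hz => (key F U hF z hz).1.contDiffWithinAt,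
    fun F U hF z hz => (key F U hF z hz).2.1, fun F U hF z hz => (key F U hF z hz).2.2⟩
  have h1 : 0 < ‖c‖ ^ 2 := by positivity
  rw [Wc, Wc, nsq_smul, Real.log_mul h1.ne' (nsq_pos hZ).ne', phE_smul φ hc hZ h0]
  ring

/-- **existence** -/
theorem exists_kew (hAY : AYStmt) (B : HAtl X) {κ : ℕ} (hd : d = n + 2 + κ) (hκ : 0 < κ) :
    ∃ φ : X.S → ℝ, B.A.Sm φ ∧ KPos (H0 B κ) φ ∧ MA (H0 B κ) φ (fun x => FF κ x + φ x) ∧
      KEw X κ (Wc κ φ) := by
  have := B.fin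
  obtain ⟨φ, h1, h2, h3⟩ := hAY n X.S B.A B.good B.part _ (H0 B κ) (H0_pos B hκ) (FF κ)
    (FF_sm B (by omega) κ)
  exact ⟨φ, h1, h2, h3, kew_of hd hκ h1 h2 h3⟩

end

end Crest.Agent.R257.KE_835
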