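import Crest.Agent.R257.AYTop_209
import Crest.Agent.R257.KE_835

/-!
# R257 (S0395), E-AY (helper209): the negative Aubin-Yau theorem without connectedness

* `rA`, `rL`, `rH`, `rP` : restriction of an atlas / line bundle / metric / partition of unity to
  a clopen subset
* `ay_all : Crest.Agent.R257.KE_835.AYStmt`
-/

set_option autoImplicit false
set_option linter.unusedSectionVars false

open Set Filter Topology Complex Metric TopologicalSpace
open scoped ContDiff Matrix ComplexConjugate ComplexOrder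

namespace Crest.Agent.R257.AYDisc_209

open Crest.Agent.R275.Geo Crest.Agent.R275.Core144 Crest.Agent.R275.GC293
open Crest.Agent.R273.Defs_333 Crest.Agent.R273.YauDefs_635 Crest.Agent.R273.HM_333
open Crest.Agent.R273.YauCh_635
open Crest.Agent.R257.AYTop_209

noncomputable section

variable {n : ℕ} {M : Type} [TopologicalSpace M] {A : Atl n M} {U : Opens M}

theorem mem_tgt (hU : Nonempty U) {i : A.ι} {z : Cn n} :
    z ∈ ((A.e i).subtypeRestr hU).target ↔ z ∈ (A.e i).target ∧ (A.e i).symm z ∈ U := by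
  rw [OpenPartialHomeomorph.subtypeRestr_def]
  simp

theorem symm_coe (hU : Nonempty U) {i : A.ι} {z : Cn n}
    (hz : z ∈ ((A.e i).subtypeRestr hU).target) :
    ((((A.e i).subtypeRestr hU).symm z : U) : M) = (A.e i).symm z :=
  OpenPartialHomeomorph.subtypeRestr_symm_apply _ hU hz

theorem mem_src (hU : Nonempty U) {i : A.ι} {x : U} :
    x ∈ ((A.e i).subtypeRestr hU).source ↔ (x : M) ∈ (A.e i).source := by
  rw [OpenPartialHomeomorph.subtypeRestr_source]
  rfl

/-- restriction of the atlas -/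
def rA (A : Atl n M) (hU : Nonempty U) : Atl n U where
  ι := A.ι
  e i := (A.e i).subtypeRestr hU
  cover x := by
    obtain ⟨i, hi⟩ := A.cover x
    exact ⟨i, (mem_src hU).2 hi⟩
  cube i z hz := A.cube i z ((mem_tgt hU).1 hz).1
  holo i j := by
    refine ((A.holo i j).mono ?_).congr ?_
    · rintro z ⟨h1, h2⟩
      have h3 := (mem_src hU).1 h2
      rw [symm_coe hU h1] at h3
      exact ⟨((mem_tgt hU).1 h1).1, h3⟩
    · rintro z ⟨h1, h2⟩
      show (A.e j) ((((A.e i).subtypeRestr hU).symm z : U) : M) = _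
      rw [symm_coe hU h1]

theorem sm_res {hU : Nonempty U} {f : M → ℝ} (hf : A.Sm f) :
    (rA A hU).Sm (fun x : U => f x) := by
  intro i
  refine ((hf i).mono fun z hz => ((mem_tgt hU).1 hz).1).congr ?_
  intro z hz
  show f ((((A.e i).subtypeRestr hU).symm z : U) : M) = _
  rw [symm_coe hU hz]

theorem ov_res (hU : Nonempty U) (i j : A.ι) :
    (rA A hU).ov i j = {z | z ∈ A.ov i j ∧ (A.e i).symm z ∈ U} := by
  ext z
  constructor
  · rintro ⟨h1, h2⟩
    have h3 := (mem_src hU).1 h2
    have h5 := symm_coe hU h1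
    exact ⟨⟨((mem_tgt hU).1 h1).1, h5 ▸ h3⟩, ((mem_tgt hU).1 h1).2⟩
  · rintro ⟨⟨h1, h2⟩, h3⟩
    have h4 : z ∈ ((A.e i).subtypeRestr hU).target := (mem_tgt hU).2 ⟨h1, h3⟩
    have h5 := symm_coe hU h4
    exact ⟨h4, (mem_src hU).2 (h5.symm ▸ h2)⟩

theorem good_res (hG : GoodA A) (hU : Nonempty U) (hc : IsClosed (U : Set M)) :
    GoodA (rA A hU) := by
  intro i j
  rw [ov_res]
  have hcv : Convex ℝ (A.ov i j) := hG i j
  by_cases h : ∃ z ∈ A.ov i j, (A.e i).symm z ∈ U
  · obtain ⟨z0, hz0, hz0U⟩ := h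
    have hpre : IsPreconnected ((A.e i).symm '' A.ov i j) :=
      hcv.isPreconnected.image _ ((A.e i).continuousOn_symm.mono fun z hz => hz.1)
    have hcl : IsClopen (U : Set M) := ⟨hc, U.2⟩
    have hsub : (A.e i).symm '' A.ov i j ⊆ U :=
      hpre.subset_isClopen hcl ⟨_, ⟨z0, hz0, rfl⟩, hz0U⟩
    have e : {z | z ∈ A.ov i j ∧ (A.e i).symm z ∈ U} = A.ov i j := by
      ext z
      exact ⟨fun hz => hz.1, fun hz => ⟨hz, hsub ⟨z, hz, rfl⟩⟩⟩
    rw [e]
    exact hcv
  · have e : {z | z ∈ A.ov i j ∧ (A.e i).symm z ∈ U} = (∅ : Set (Cn n)) := by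
      ext z
      simp only [mem_ofPred_eq, mem_empty_iff_false, iff_false]
      exact fun hz => h ⟨z, hz.1, hz.2⟩
    rw [e]
    exact convex_empty

/-- restriction of a partition of unity -/
def rP [CompactSpace M] [Finite A.ι] (P : Part A) (hU : Nonempty U) (hc : IsClosed (U : Set M)) :
    Part (rA A hU) where
  ψ i x := P.ψ i x
  χ i x := P.χ i x
  ψ_sm i := sm_res (P.ψ_sm i)
  χ_sm i := sm_res (P.χ_sm i)
  χ_cpt i := by
    have : CompactSpace U := isCompact_iff_compactSpace.1 hc.isCompact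
    exact (isClosed_tsupport _).isCompact
  χ_sub i := by
    intro x hx
    exact (mem_src hU).2 (P.χ_sub i (tsupport_comp_subset_preimage (P.χ i)
      continuous_subtype_val hx))
  χ_one i x hx := by
    have h1 := P.χ_one i x (tsupport_comp_subset_preimage (P.ψ i) continuous_subtype_val hx)
    exact continuous_subtype_val.continuousAt.eventually h1
  lf K _ := by
    have : Finite (rA A hU).ι := ‹Finite A.ι›
    exact Set.toFinite _
  sum_one x := P.sum_one x

/-- restriction of a line bundle -/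
def rL (L : LB A) (hU : Nonempty U) : LB (rA A hU) where
  g i j x := L.g i j x
  hol i j := by
    refine (DifferentiableOn.mono (L.hol i j) ?_).congr ?_
    · rintro z ⟨h1, h2⟩
      have h3 := (mem_src hU).1 h2
      have h5 := symm_coe hU h1
      have h6 : (A.e i).symm z ∈ (A.e j).source := h5 ▸ h3
      exact ⟨((mem_tgt hU).1 h1).1, h6⟩
    · rintro z ⟨h1, h2⟩
      show L.g i j ((((A.e i).subtypeRestr hU).symm z : U) : M) = _
      rw [symm_coe hU h1]
  off i j x hx := by
    refine L.off i j x fun h => hx ?_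
    exact ⟨(mem_src hU).2 h.1, (mem_src hU).2 h.2⟩
  self i x := L.self i x
  mul i j k x hx := L.mul i j k x
    ⟨⟨(mem_src hU).1 hx.1.1, (mem_src hU).1 hx.1.2⟩, (mem_src hU).1 hx.2⟩

variable {L : LB A}

/-- restriction of a metric -/
def rH (H : HM L) (hU : Nonempty U) : HM (rL L hU) where
  w i x := H.w i x
  pos i x hx := H.pos i x ((mem_src hU).1 hx)
  sm i := by
    refine ((H.sm i).mono fun z hz => ((mem_tgt hU).1 hz).1).congr ?_
    intro z hz
    show H.w i ((((A.e i).subtypeRestr hU).symm z : U) : M) = _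
    rw [symm_coe hU hz]
  tr i j x hx := H.tr i j x ⟨(mem_src hU).1 hx.1, (mem_src hU).1 hx.2⟩

theorem tgt_nhds (hU : Nonempty U) {i : A.ι} {z : Cn n} (hz : z ∈ (A.e i).target)
    (hzU : (A.e i).symm z ∈ U) : ∀ᶠ w in 𝓝 z, w ∈ ((A.e i).subtypeRestr hU).target :=
  ((A.e i).subtypeRestr hU).open_target.mem_nhds ((mem_tgt hU).2 ⟨hz, hzU⟩)

theorem wt_res (H : HM L) (hU : Nonempty U) {i : A.ι} {z : Cn n} (hz : z ∈ (A.e i).target)
    (hzU : (A.e i).symm z ∈ U) : (rH H hU).wt i =ᶠ[𝓝 z] H.wt i := by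
  filter_upwards [tgt_nhds hU hz hzU] with w hw
  show - Real.log (H.w i ((((A.e i).subtypeRestr hU).symm w : U) : M)) = _
  rw [symm_coe hU hw]
  rfl

theorem lev_congr {u v : Cn n → ℝ} {z : Cn n} (h : u =ᶠ[𝓝 z] v) (w : Cn n) :
    lev u z w = lev v z w := by
  rw [lev_D2, lev_D2, D2_congr h]

/-! ### components -/

theorem comp_open (hG : GoodA A) (x : M) : IsOpen (connectedComponent x) := by
  rw [isOpen_iff_mem_nhds]
  intro y hy
  obtain ⟨i, hi⟩ := A.cover y
  have hcv : Convex ℝ (A.e i).target := by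
    have h1 := hG i i
    have e : A.ov i i = (A.e i).target := by
      ext z
      exact ⟨fun hz => hz.1, fun hz => ⟨hz, (A.e i).map_target hz⟩⟩
    rwa [e] at h1
  have hpre : IsPreconnected (A.e i).source := by
    rw [← (A.e i).symm_image_target_eq_source]
    exact hcv.isPreconnected.image _ (A.e i).continuousOn_symm
  have h2 : (A.e i).source ⊆ connectedComponent y := hpre.subset_connectedComponent hi
  rw [← connectedComponent_eq hy] at h2
  exact mem_of_superset ((A.e i).open_source.mem_nhds hi) h2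

/-- the component of `x` -/
def cmp (hG : GoodA A) (x : M) : Opens M := ⟨connectedComponent x, comp_open hG x⟩

theorem cmp_eq (hG : GoodA A) {x y : M} (h : y ∈ connectedComponent x) :
    cmp hG y = cmp hG x := by
  ext1
  exact (connectedComponent_eq h).symm

/-- **the negative Aubin-Yau theorem**, `M` not necessarily connected -/
theorem ay_all : Crest.Agent.R257.KE_835.AYStmt := by
  intro n M _ _ _ A _ hG hP L H hp F hF
  obtain ⟨P⟩ := hP
  -- solution on one component
  have hsol : ∀ U : Opens M, ∃ φ : U → ℝ, ∀ (hU : Nonempty U), IsClosed (U : Set M) →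
      IsPreconnected (U : Set M) → (rA A hU).Sm φ ∧ KPos (rH H hU) φ ∧
        MA (rH H hU) φ (fun x => F x + φ x) := by
    intro U
    by_cases hU : Nonempty U
    · by_cases hc : IsClosed (U : Set M)
      · by_cases hpc : IsPreconnected (U : Set M)
        · have h1 : CompactSpace U := isCompact_iff_compactSpace.1 hc.isCompact
          have h2 : ConnectedSpace U := by
            refine Subtype.connectedSpace ⟨?_, hpc⟩
            obtain ⟨x⟩ := hU
            exact ⟨x.1, x.2⟩
          have h3 : Finite (rA A hU).ι := ‹Finite A.ι›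
          have hpos : (rH H hU).Pos := by
            intro i z hz v hv
            have hz' := (mem_tgt hU).1 hz
            rw [lev_congr (wt_res H hU hz'.1 hz'.2)]
            exact hp i z hz'.1 v hv
          obtain ⟨φ, a1, a2, a3⟩ := ay_holds n U (rA A hU) (good_res hG hU hc)
            ⟨rP P hU hc⟩ (rL L hU) (rH H hU) hpos (fun x => F x) (sm_res hF)
          exact ⟨φ, fun _ _ _ => ⟨a1, a2, a3⟩⟩
        · exact ⟨fun _ => 0, fun _ _ h => absurd h hpc⟩
      · exact ⟨fun _ => 0, fun _ h => absurd h hc⟩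
    · exact ⟨fun _ => 0, fun h => absurd h hU⟩
  choose sol hsol using hsol
  have hsub : ∀ (V W : Opens M) (x : M) (hV : x ∈ V) (hW : x ∈ W), V = W →
      sol V ⟨x, hV⟩ = sol W ⟨x, hW⟩ := by
    intro V W x hV hW h
    subst h
    rfl
  have hmem : ∀ x, x ∈ cmp hG x := fun x => mem_connectedComponent
  set φ : M → ℝ := fun x => sol (cmp hG x) ⟨x, hmem x⟩ with hφ
  -- local form
  have key : ∀ i, ∀ z ∈ (A.e i).target, ∃ (U : Opens M) (hU : Nonempty U),
      IsClosed (U : Set M) ∧ IsPreconnected (U : Set M) ∧ (A.e i).symm z ∈ U ∧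
      inC A i φ =ᶠ[𝓝 z] inC (rA A hU) i (sol U) := by
    intro i z hz
    refine ⟨cmp hG ((A.e i).symm z), ⟨⟨_, hmem _⟩⟩, isClosed_connectedComponent,
      isPreconnected_connectedComponent, hmem _, ?_⟩
    filter_upwards [tgt_nhds ⟨⟨_, hmem _⟩⟩ hz (hmem ((A.e i).symm z))] with w hw
    have hw' := (mem_tgt _).1 hw
    have h1 : (A.e i).symm w ∈ connectedComponent ((A.e i).symm z) := hw'.2
    show sol (cmp hG ((A.e i).symm w)) ⟨(A.e i).symm w, _⟩ = sol (cmp hG ((A.e i).symm z)) _
    have h2 := hsub (cmp hG ((A.e i).symm w)) (cmp hG ((A.e i).symm z)) ((A.e i).symm w)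
      (hmem _) h1 (cmp_eq hG h1)
    rw [h2]
    congr 1
    ext1
    exact (symm_coe _ hw).symm
  have kpot : ∀ i, ∀ z ∈ (A.e i).target, ∀ (U : Opens M) (hU : Nonempty U),
      (A.e i).symm z ∈ U → inC A i φ =ᶠ[𝓝 z] inC (rA A hU) i (sol U) →
      pot H φ i =ᶠ[𝓝 z] pot (rH H hU) (sol U) i := by
    intro i z hz U hU hzU he
    filter_upwards [he, wt_res H hU hz hzU] with w h1 h2
    simp only [pot]
    rw [h1, h2]
  refine ⟨φ, fun i z hz => ?_, fun i z hz v hv => ?_, fun i z hz => ?_⟩
  · obtain ⟨U, hU, hc, hpc, hzU, he⟩ := key i z hz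
    have hz' : z ∈ ((A.e i).subtypeRestr hU).target := (mem_tgt hU).2 ⟨hz, hzU⟩
    have h1 := ((hsol U hU hc hpc).1 i).contDiffAt
      (((A.e i).subtypeRestr hU).open_target.mem_nhds hz')
    exact (h1.congr_of_eventuallyEq he).contDiffWithinAt
  · obtain ⟨U, hU, hc, hpc, hzU, he⟩ := key i z hz
    have hz' : z ∈ ((A.e i).subtypeRestr hU).target := (mem_tgt hU).2 ⟨hz, hzU⟩
    rw [lev_congr (kpot i z hz U hU hzU he)]
    exact (hsol U hU hc hpc).2.1 i z hz' v hv
  · obtain ⟨U, hU, hc, hpc, hzU, he⟩ := key i z hz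
    have hz' : z ∈ ((A.e i).subtypeRestr hU).target := (mem_tgt hU).2 ⟨hz, hzU⟩
    have h1 := (hsol U hU hc hpc).2.2 i z hz'
    rw [cH_congr (kpot i z hz U hU hzU he), h1, cH_congr (wt_res H hU hz hzU)]
    congr 3
    have h2 := he.self_of_nhds
    show _ = F ((A.e i).symm z) + inC A i φ z
    rw [h2]
    show F ((((A.e i).subtypeRestr hU).symm z : U) : M) + _ = _
    rw [symm_coe hU hz']
    rfl

end

end Crest.Agent.R257.AYDisc_209
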