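import Crest.Agent.R273.YauCh_635
import Crest.Agent.R273.C0a_390

/-!
# R257 (S0395), E-AY (helper209): interior gradient bound from the Levi form

* `fd_aff`, `fd2_aff` : derivatives of `u (c + B x)` with `B` real linear
* `grad_of_lev` : `|u| ≤ N` and `|lev u z v| ≤ K ‖v‖²` on `ball z₀ r` give
  `|fderiv u z₀ v| ≤ (2 N / ρ + (K + 1) ρ / 2) ‖v‖`, `ρ = r / 2` (reflection and an explicit barrier
  on a half square in the complex line through `z₀` in the direction `v`).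
-/

set_option autoImplicit false
set_option linter.unusedSectionVars false

open Set Filter Topology Complex Metric
open scoped ContDiff ComplexConjugate

namespace Crest.Agent.R257.AYGrad_209

open Crest.Agent.R275.Geo
open Crest.Agent.R273.Defs_333 Crest.Agent.R273.YauDefs_635 Crest.Agent.R273.YauCh_635

noncomputable section

section aff

variable {E F : Type*} [NormedAddCommGroup E] [NormedSpace ℝ E] [NormedAddCommGroup F]
  [NormedSpace ℝ F]

theorem fd_aff {u : F → ℝ} {c : F} {B : E →L[ℝ] F} {x : E}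
    (hu : DifferentiableAt ℝ u (c + B x)) :
    fderiv ℝ (fun y => u (c + B y)) x = (fderiv ℝ u (c + B x)).comp B := by
  have h1 : HasFDerivAt (fun y => c + B y) B x := B.hasFDerivAt.const_add c
  exact (hu.hasFDerivAt.comp x h1).fderiv

theorem fd2_aff {u : F → ℝ} {c : F} {B : E →L[ℝ] F} {x : E}
    (hu : ContDiffAt ℝ 2 u (c + B x)) (v w : E) :
    fderiv ℝ (fderiv ℝ (fun y => u (c + B y))) x v w =
      fderiv ℝ (fderiv ℝ u) (c + B x) (B v) (B w) := by
  have hc : ContinuousAt (fun y => c + B y) x := (B.continuous.const_add c).continuousAt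
  have h1 : fderiv ℝ (fun y => u (c + B y)) =ᶠ[𝓝 x] fun y => (fderiv ℝ u (c + B y)).comp B := by
    filter_upwards [hc.eventually (hu.eventually (by simp))] with y hy
    exact fd_aff (hy.differentiableAt (by norm_num))
  have h2 : DifferentiableAt ℝ (fderiv ℝ u) (c + B x) :=
    (hu.fderiv_right (m := 1) (by norm_num)).differentiableAt (by norm_num)
  have h3 : HasFDerivAt (fun y => c + B y) B x := B.hasFDerivAt.const_add c
  have h4 : HasFDerivAt (fun y => fderiv ℝ u (c + B y))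
      ((fderiv ℝ (fderiv ℝ u) (c + B x)).comp B) x := h2.hasFDerivAt.comp x h3
  have h5 : HasFDerivAt (fun y => (fderiv ℝ u (c + B y)).comp B)
      (((ContinuousLinearMap.compL ℝ E F ℝ).flip B).comp
        ((fderiv ℝ (fderiv ℝ u) (c + B x)).comp B)) x :=
    ((ContinuousLinearMap.compL ℝ E F ℝ).flip B).hasFDerivAt.comp x h4
  rw [h1.fderiv_eq, h5.fderiv]
  rfl

end aff

/-! ### one complex variable -/

/-- the closed half square -/
def Q (ρ : ℝ) : Set ℂ := {z | z.re ∈ Icc (0 : ℝ) ρ ∧ z.im ∈ Icc (-ρ) ρ}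

theorem isCompact_Q (ρ : ℝ) : IsCompact (Q ρ) := by
  have : Q ρ = Icc (0 : ℝ) ρ ×ℂ Icc (-ρ) ρ := by
    ext z
    simp [Q, mem_reProdIm]
  rw [this]
  exact isCompact_Icc.reProdIm isCompact_Icc

theorem Q_sub {ρ : ℝ} (hρ : 0 < ρ) {z : ℂ} (hz : z ∈ Q ρ) : ‖z‖ < 2 * ρ := by
  obtain ⟨⟨h1, h2⟩, h3, h4⟩ := hz
  have h5 : ‖z‖ ^ 2 = z.re ^ 2 + z.im ^ 2 := by
    rw [← Complex.normSq_eq_norm_sq, Complex.normSq_apply]
    ring
  have h6 : ‖z‖ ^ 2 < (2 * ρ) ^ 2 := by
    rw [h5]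
    nlinarith
  exact lt_of_pow_lt_pow_left₀ 2 (by linarith) h6

/-- maximum principle on the half square -/
theorem rect_nonneg {g : ℂ → ℝ} {ρ : ℝ} (hρ : 0 < ρ) {U : Set ℂ} (hU : IsOpen U)
    (hQ : Q ρ ⊆ U) (hg : ContDiffOn ℝ 2 g U)
    (hlap : ∀ p ∈ Q ρ,
      fderiv ℝ (fderiv ℝ g) p 1 1 + fderiv ℝ (fderiv ℝ g) p I I < 0)
    (h0 : ∀ p ∈ Q ρ, p.re = 0 → 0 ≤ g p) (h1 : ∀ p ∈ Q ρ, p.re = ρ → 0 ≤ g p)
    (h2 : ∀ p ∈ Q ρ, p.im = ρ → 0 ≤ g p) (h3 : ∀ p ∈ Q ρ, p.im = -ρ → 0 ≤ g p) :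
    ∀ p ∈ Q ρ, 0 ≤ g p := by
  have hne : (Q ρ).Nonempty := ⟨0, by simp [Q, hρ.le]⟩
  obtain ⟨q, hq, hmin⟩ := (isCompact_Q ρ).exists_isMinOn hne (hg.continuousOn.mono hQ)
  intro p hp
  refine le_trans ?_ (hmin hp)
  by_cases c1 : q.re = 0
  · exact h0 q hq c1
  by_cases c2 : q.re = ρ
  · exact h1 q hq c2
  by_cases c3 : q.im = ρ
  · exact h2 q hq c3
  by_cases c4 : q.im = -ρ
  · exact h3 q hq c4
  exfalso
  have e1 : ∀ᶠ w : ℂ in 𝓝 q, w ∈ Q ρ := by
    have a1 : ∀ᶠ w : ℂ in 𝓝 q, w.re ∈ Ioo (0 : ℝ) ρ :=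
      Complex.continuous_re.continuousAt.eventually (isOpen_Ioo.mem_nhds
        ⟨lt_of_le_of_ne hq.1.1 (Ne.symm c1), lt_of_le_of_ne hq.1.2 c2⟩)
    have a2 : ∀ᶠ w : ℂ in 𝓝 q, w.im ∈ Ioo (-ρ) ρ :=
      Complex.continuous_im.continuousAt.eventually (isOpen_Ioo.mem_nhds
        ⟨lt_of_le_of_ne hq.2.1 (Ne.symm c4), lt_of_le_of_ne hq.2.2 c3⟩)
    filter_upwards [a1, a2] with w w1 w2
    exact ⟨Ioo_subset_Icc_self w1, Ioo_subset_Icc_self w2⟩
  have hlm : IsLocalMin g q := by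
    filter_upwards [e1] with w hw
    exact hmin hw
  have hc2 : ContDiffAt ℝ 2 g q := hg.contDiffAt (hU.mem_nhds (hQ hq))
  have a1 := Crest.Agent.R273.C0a_390.fderiv2_nonneg hc2 hlm 1
  have a2 := Crest.Agent.R273.C0a_390.fderiv2_nonneg hc2 hlm I
  have := hlap _ hq
  linarith

/-- the barrier -/
def bar (p α β : ℝ) (z : ℂ) : ℝ := p * z.im ^ 2 + α * z.re - β / 2 * z.re ^ 2

theorem fd_bar (p α β : ℝ) (z : ℂ) : HasFDerivAt (bar p α β)
    ((2 * p * z.im) • imCLM + (α - β * z.re) • reCLM) z := by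
  have h1 : HasFDerivAt (fun z : ℂ => z.re) reCLM z := reCLM.hasFDerivAt
  have h2 : HasFDerivAt (fun z : ℂ => z.im) imCLM z := imCLM.hasFDerivAt
  have h3 := (((h2.pow 2).const_mul p).add (h1.const_mul α)).sub ((h1.pow 2).const_mul (β / 2))
  refine h3.congr_fderiv ?_
  ext1 v
  simp
  ring

theorem fd2_bar (p α β : ℝ) (z v w : ℂ) :
    fderiv ℝ (fderiv ℝ (bar p α β)) z v w = 2 * p * v.im * w.im - β * v.re * w.re := by
  have e : fderiv ℝ (bar p α β) = fun z => (2 * p * z.im) • imCLM + (α - β * z.re) • reCLM := by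
    funext z
    exact (fd_bar p α β z).fderiv
  have h1 : HasFDerivAt (fun z : ℂ => z.re) reCLM z := reCLM.hasFDerivAt
  have h2 : HasFDerivAt (fun z : ℂ => z.im) imCLM z := imCLM.hasFDerivAt
  have h3 := ((h2.const_mul (2 * p)).smul_const imCLM).add
    (((h1.const_mul β).const_sub α).smul_const reCLM)
  have h4 : fderiv ℝ (fun z : ℂ => (2 * p * z.im) • imCLM + (α - β * z.re) • reCLM) z = _ :=
    h3.fderiv
  rw [e, h4]
  simp
  ring

theorem contDiff_bar (p α β : ℝ) : ContDiff ℝ 2 (bar p α β) := by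
  have h1 : ContDiff ℝ 2 (fun z : ℂ => z.re) := reCLM.contDiff
  have h2 : ContDiff ℝ 2 (fun z : ℂ => z.im) := imCLM.contDiff
  exact (((h2.pow 2).const_smul p).add (h1.const_smul α)).sub ((h1.pow 2).const_smul (β / 2))

/-- reflection `x + i y ↦ - x + i y` -/
def Rf : ℂ →L[ℝ] ℂ := -(conjCLE : ℂ →L[ℝ] ℂ)

theorem Rf_apply (z : ℂ) : Rf z = - conj z := rfl

theorem norm_Rf (z : ℂ) : ‖Rf z‖ = ‖z‖ := by
  rw [Rf_apply, norm_neg]
  exact RCLike.norm_conj z

/-- the one-dimensional case -/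
theorem grad_one {w : ℂ → ℝ} {r N K : ℝ} (hr : 0 < r) (hw : ContDiffOn ℝ 2 w (ball 0 r))
    (hN : ∀ z ∈ ball (0 : ℂ) r, |w z| ≤ N)
    (hK : ∀ z ∈ ball (0 : ℂ) r, |fderiv ℝ (fderiv ℝ w) z 1 1 + fderiv ℝ (fderiv ℝ w) z I I| ≤ K) :
    |fderiv ℝ w 0 1| ≤ 2 * N / (r / 2) + (K + 1) * (r / 2) / 2 := by
  set ρ : ℝ := r / 2 with hρd
  have hρ : 0 < ρ := by positivity
  have h2ρ : 2 * ρ = r := by rw [hρd]; ring
  have hN0 : 0 ≤ N := (abs_nonneg _).trans (hN 0 (mem_ball_self hr))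
  have hK0 : 0 ≤ K := (abs_nonneg _).trans (hK 0 (mem_ball_self hr))
  have hopen : IsOpen (ball (0 : ℂ) r) := isOpen_ball
  have hQb : Q ρ ⊆ ball (0 : ℂ) r := fun z hz => by
    rw [mem_ball_zero_iff, ← h2ρ]
    exact Q_sub hρ hz
  have hRb : ∀ z ∈ ball (0 : ℂ) r, Rf z ∈ ball (0 : ℂ) r := fun z hz => by
    rw [mem_ball_zero_iff, norm_Rf]
    exact mem_ball_zero_iff.1 hz
  -- the reflected function
  set wR : ℂ → ℝ := fun z => w (0 + Rf z) with hwR
  have hwRc : ContDiffOn ℝ 2 wR (ball 0 r) := by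
    refine hw.comp ((contDiff_const.add Rf.contDiff).contDiffOn) fun z hz => ?_
    rw [zero_add]
    exact hRb z hz
  set s : ℂ → ℝ := fun z => (1 / 2 : ℝ) * (w z - wR z) with hs
  have hsc : ContDiffOn ℝ 2 s (ball 0 r) := contDiffOn_const.mul (hw.sub hwRc)
  have hwc : ∀ z ∈ ball (0 : ℂ) r, ContDiffAt ℝ 2 w z := fun z hz =>
    hw.contDiffAt (hopen.mem_nhds hz)
  have hwRc' : ∀ z ∈ ball (0 : ℂ) r, ContDiffAt ℝ 2 wR z := fun z hz =>
    hwRc.contDiffAt (hopen.mem_nhds hz)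
  have hfd : ∀ z ∈ ball (0 : ℂ) r,
      HasFDerivAt s ((1 / 2 : ℝ) • (fderiv ℝ w z - fderiv ℝ wR z)) z := fun z hz =>
    (((hwc z hz).differentiableAt (by norm_num)).hasFDerivAt.sub
      ((hwRc' z hz).differentiableAt (by norm_num)).hasFDerivAt).const_mul (1 / 2 : ℝ)
  have hfd2 : ∀ z ∈ ball (0 : ℂ) r, ∀ v v', fderiv ℝ (fderiv ℝ s) z v v' =
      (1 / 2 : ℝ) * (fderiv ℝ (fderiv ℝ w) z v v' - fderiv ℝ (fderiv ℝ wR) z v v') := by
    intro z hz v v'
    have e : fderiv ℝ s =ᶠ[𝓝 z] fun z => (1 / 2 : ℝ) • (fderiv ℝ w z - fderiv ℝ wR z) := by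
      filter_upwards [hopen.mem_nhds hz] with y hy
      exact (hfd y hy).fderiv
    have d1 : DifferentiableAt ℝ (fderiv ℝ w) z :=
      ((hwc z hz).fderiv_right (m := 1) (by norm_num)).differentiableAt (by norm_num)
    have d2 : DifferentiableAt ℝ (fderiv ℝ wR) z :=
      ((hwRc' z hz).fderiv_right (m := 1) (by norm_num)).differentiableAt (by norm_num)
    have h3 := (d1.hasFDerivAt.sub d2.hasFDerivAt).const_smul (1 / 2 : ℝ)
    have h4 : fderiv ℝ (fun z => (1 / 2 : ℝ) • (fderiv ℝ w z - fderiv ℝ wR z)) z = _ := h3.fderiv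
    rw [e.fderiv_eq, h4]
    simp
  have hlapR : ∀ z ∈ ball (0 : ℂ) r,
      |fderiv ℝ (fderiv ℝ wR) z 1 1 + fderiv ℝ (fderiv ℝ wR) z I I| ≤ K := by
    intro z hz
    have h1 : ContDiffAt ℝ 2 w (0 + Rf z) := by
      rw [zero_add]
      exact hwc _ (hRb z hz)
    rw [hwR, fd2_aff h1, fd2_aff h1, zero_add]
    have e1 : Rf 1 = -1 := by simp [Rf_apply]
    have e2 : Rf I = I := by simp [Rf_apply]
    rw [e1, e2]
    have := hK _ (hRb z hz)
    simpa using this
  have hslap : ∀ z ∈ ball (0 : ℂ) r,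
      |fderiv ℝ (fderiv ℝ s) z 1 1 + fderiv ℝ (fderiv ℝ s) z I I| ≤ K := by
    intro z hz
    rw [hfd2 z hz, hfd2 z hz]
    have h1 := hK z hz
    have h2 := hlapR z hz
    rw [abs_le] at h1 h2 ⊢
    constructor <;> linarith [h1.1, h1.2, h2.1, h2.2]
  have hsb : ∀ z ∈ ball (0 : ℂ) r, |s z| ≤ N := by
    intro z hz
    have h1 := hN z hz
    have h2 : |wR z| ≤ N := by
      rw [hwR]
      simp only [zero_add]
      exact hN _ (hRb z hz)
    rw [abs_le] at h1 h2 ⊢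
    simp only [hs]
    constructor <;> linarith [h1.1, h1.2, h2.1, h2.2]
  have hs0 : ∀ z : ℂ, z.re = 0 → s z = 0 := by
    intro z hz
    have e : Rf z = z := by
      rw [Rf_apply]
      apply Complex.ext <;> simp [hz]
    simp only [hs, hwR, zero_add, e, sub_self, mul_zero]
  -- the barrier
  set p : ℝ := N / ρ ^ 2 with hp
  set β : ℝ := K + 1 + 2 * p with hβ
  set α : ℝ := 2 * N / ρ + (K + 1) * ρ / 2 with hα
  have hp0 : 0 ≤ p := by positivity
  have hβ0 : 0 ≤ β := by positivity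
  have hpρ : p * ρ ^ 2 = N := by rw [hp]; field_simp
  have hαβ : α = N / ρ + β * ρ / 2 := by
    rw [hα, hβ, hp]
    field_simp
    ring
  have hNρ : N / ρ * ρ = N := by field_simp
  have hNρ0 : 0 ≤ N / ρ := by positivity
  have hα0 : 0 ≤ α := by rw [hαβ]; positivity
  have key : ∀ ε : ℝ, |ε| = 1 → ∀ z ∈ Q ρ, 0 ≤ bar p α β z - ε * s z := by
    intro ε hε
    have hgc : ContDiffOn ℝ 2 (fun z => bar p α β z - ε * s z) (ball 0 r) :=
      (contDiff_bar p α β).contDiffOn.sub (contDiffOn_const.mul hsc)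
    have hεs : ∀ z ∈ ball (0 : ℂ) r, ε * s z ≤ N := by
      intro z hz
      refine (le_abs_self _).trans ?_
      rw [abs_mul, hε, one_mul]
      exact hsb z hz
    refine rect_nonneg hρ hopen hQb hgc ?_ ?_ ?_ ?_ ?_
    · intro z hz
      have hzb := hQb hz
      have e : fderiv ℝ (fun z => bar p α β z - ε * s z) =ᶠ[𝓝 z]
          fun z => fderiv ℝ (bar p α β) z - ε • fderiv ℝ s z := by
        filter_upwards [hopen.mem_nhds hzb] with y hy
        have h1 := (fd_bar p α β y).differentiableAt.hasFDerivAt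
        have h2 := ((hsc.contDiffAt (hopen.mem_nhds hy)).differentiableAt (by norm_num)).hasFDerivAt
        exact (h1.sub (h2.const_mul ε)).fderiv
      have d1 : DifferentiableAt ℝ (fderiv ℝ (bar p α β)) z :=
        ((contDiff_bar p α β).contDiffAt.fderiv_right (m := 1) (by norm_num)).differentiableAt
          (by norm_num)
      have d2 : DifferentiableAt ℝ (fderiv ℝ s) z :=
        ((hsc.contDiffAt (hopen.mem_nhds hzb)).fderiv_right (m := 1)
          (by norm_num)).differentiableAt (by norm_num)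
      have h3 := d1.hasFDerivAt.sub (d2.hasFDerivAt.const_smul ε)
      have h3' : fderiv ℝ (fun z => fderiv ℝ (bar p α β) z - ε • fderiv ℝ s z) z = _ := h3.fderiv
      rw [e.fderiv_eq, h3']
      have h4 := fd2_bar p α β z 1 1
      have h5 := fd2_bar p α β z I I
      have h6 := hslap z hzb
      have h7 : |ε * (fderiv ℝ (fderiv ℝ s) z 1 1 + fderiv ℝ (fderiv ℝ s) z I I)| ≤ K := by
        rw [abs_mul, hε, one_mul]
        exact h6
      have h8 := (abs_le.1 h7).1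
      simp only [_root_.sub_apply, _root_.smul_apply, smul_eq_mul, h4, h5, one_re, one_im, I_re,
        I_im]
      have : β = K + 1 + 2 * p := hβ
      linarith
    · intro z hz h0
      rw [hs0 z h0, bar, h0]
      simp only [mul_zero, sub_zero, ne_eq, OfNat.ofNat_ne_zero, not_false_eq_true, zero_pow,
        add_zero]
      positivity
    · intro z hz h0
      have h1 := hεs z (hQb hz)
      rw [bar, h0]
      have h2 : 0 ≤ p * z.im ^ 2 := by positivity
      have h3 : α * ρ - β / 2 * ρ ^ 2 = N := by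
        rw [hαβ]
        linear_combination hNρ
      linarith
    · intro z hz h0
      have h1 := hεs z (hQb hz)
      rw [bar, h0, hpρ]
      have h2 : 0 ≤ z.re * (α - β / 2 * z.re) := by
        refine mul_nonneg hz.1.1 ?_
        rw [hαβ]
        have := mul_le_mul_of_nonneg_left hz.1.2 hβ0
        linarith
      nlinarith
    · intro z hz h0
      have h1 := hεs z (hQb hz)
      have hpρ' : p * (-ρ) ^ 2 = N := by rw [neg_sq]; exact hpρ
      rw [bar, h0, hpρ']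
      have h2 : 0 ≤ z.re * (α - β / 2 * z.re) := by
        refine mul_nonneg hz.1.1 ?_
        rw [hαβ]
        have := mul_le_mul_of_nonneg_left hz.1.2 hβ0
        linarith
      nlinarith
  -- the derivative
  have hder : HasDerivAt (fun t : ℝ => s (t : ℂ)) (fderiv ℝ w 0 1) 0 := by
    have h1 := hfd 0 (mem_ball_self hr)
    have h2 : HasDerivAt (fun t : ℝ => (t : ℂ)) 1 0 := Complex.ofRealCLM.hasDerivAt
    have h3 : HasFDerivAt s ((1 / 2 : ℝ) • (fderiv ℝ w 0 - fderiv ℝ wR 0)) ((0 : ℝ) : ℂ) := by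
      simpa using h1
    have h4 := h3.comp_hasDerivAt (0 : ℝ) h2
    refine h4.congr_deriv ?_
    have h5 : fderiv ℝ wR 0 1 = - fderiv ℝ w 0 1 := by
      have h6 : DifferentiableAt ℝ w (0 + Rf 0) := by
        simpa using (hwc 0 (mem_ball_self hr)).differentiableAt (by norm_num)
      rw [hwR, fd_aff h6]
      simp [Rf_apply]
    simp only [_root_.smul_apply, _root_.sub_apply, h5, smul_eq_mul]
    ring
  have hbound : ∀ t : ℝ, 0 ≤ t → t ≤ ρ → |s (t : ℂ)| ≤ α * t := by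
    intro t ht0 htρ
    have hm : (t : ℂ) ∈ Q ρ := by
      simp [Q, ht0, htρ, hρ.le]
    have h1 := key 1 (by simp) _ hm
    have h2 := key (-1) (by simp) _ hm
    have h3 : bar p α β (t : ℂ) = α * t - β / 2 * t ^ 2 := by simp [bar]
    rw [h3] at h1 h2
    have h4 : 0 ≤ β / 2 * t ^ 2 := by positivity
    rw [abs_le]
    constructor <;> linarith
  have hs00 : s ((0 : ℝ) : ℂ) = 0 := hs0 _ (by simp)
  have hslope := hasDerivAt_iff_tendsto_slope.1 hder
  have hslope' : Tendsto (fun t : ℝ => |slope (fun t : ℝ => s (t : ℂ)) 0 t|) (𝓝[>] 0)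
      (𝓝 |fderiv ℝ w 0 1|) :=
    (hslope.mono_left (nhdsWithin_mono _ fun t ht => (ne_of_gt ht))).abs
  refine le_of_tendsto hslope' ?_
  filter_upwards [Ioo_mem_nhdsGT hρ] with t ht
  have h1 := hbound t ht.1.le ht.2.le
  rw [slope_def_field, hs00, sub_zero, sub_zero, abs_div, abs_of_pos ht.1,
    div_le_iff₀ ht.1]
  exact h1

/-- **interior gradient bound** -/
theorem grad_of_lev {n : ℕ} {u : Cn n → ℝ} {z₀ : Cn n} {r N K : ℝ} (hr : 0 < r)
    (hu : ContDiffOn ℝ 2 u (ball z₀ r)) (hN : ∀ z ∈ ball z₀ r, |u z| ≤ N)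
    (hK : ∀ z ∈ ball z₀ r, ∀ v, |lev u z v| ≤ K * ‖v‖ ^ 2) (v : Cn n) :
    |fderiv ℝ u z₀ v| ≤ (2 * N / (r / 2) + (K + 1) * (r / 2) / 2) * ‖v‖ := by
  rcases eq_or_ne v 0 with rfl | hv
  · simp
  have hn : 0 < ‖v‖ := norm_pos_iff.2 hv
  set e : Cn n := (‖v‖⁻¹ : ℝ) • v with he
  have hen : ‖e‖ = 1 := by
    rw [he, norm_smul, norm_inv, norm_norm, inv_mul_cancel₀ hn.ne']
  have hve : v = ‖v‖ • e := by
    rw [he, smul_smul, mul_inv_cancel₀ hn.ne', one_smul]
  set B : ℂ →L[ℝ] Cn n := ((ContinuousLinearMap.toSpanSingleton ℂ e).restrictScalars ℝ) with hB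
  have hBa : ∀ ζ : ℂ, B ζ = ζ • e := fun ζ => rfl
  have hin : ∀ ζ ∈ ball (0 : ℂ) r, z₀ + B ζ ∈ ball z₀ r := by
    intro ζ hζ
    rw [mem_ball, dist_eq_norm, add_sub_cancel_left, hBa, norm_smul, hen, mul_one]
    exact mem_ball_zero_iff.1 hζ
  have h1 := grad_one (w := fun ζ => u (z₀ + B ζ)) (r := r) (N := N) (K := K) hr
    (hu.comp (contDiff_const.add B.contDiff).contDiffOn hin)
    (fun ζ hζ => hN _ (hin ζ hζ))
    (fun ζ hζ => by
      have hc : ContDiffAt ℝ 2 u (z₀ + B ζ) :=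
        hu.contDiffAt (isOpen_ball.mem_nhds (hin ζ hζ))
      rw [fd2_aff hc, fd2_aff hc]
      have h2 := hK _ (hin ζ hζ) e
      rw [lev_D2, hen, one_pow, mul_one] at h2
      have e1 : B 1 = e := by rw [hBa, one_smul]
      have e2 : B I = I • e := hBa I
      rw [e1, e2]
      exact h2)
  have h0 : ContDiffAt ℝ 2 u (z₀ + B 0) := by
    rw [map_zero, add_zero]
    exact hu.contDiffAt (isOpen_ball.mem_nhds (mem_ball_self hr))
  rw [fd_aff (h0.differentiableAt (by norm_num))] at h1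
  have e3 : ((fderiv ℝ u (z₀ + B 0)).comp B) 1 = fderiv ℝ u z₀ e := by
    rw [ContinuousLinearMap.comp_apply, hBa, hBa, zero_smul, add_zero, one_smul]
  rw [e3] at h1
  conv_lhs => rw [hve]
  rw [map_smul, smul_eq_mul, abs_mul, abs_of_pos hn, mul_comm]
  exact mul_le_mul_of_nonneg_right h1 hn.le

end

end Crest.Agent.R257.AYGrad_209
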