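import Crest.Agent.R257.AYLin_209
import Crest.Agent.R273.YauLin_635

/-!
# R257 (S0395), E-AY (helper209): approximate solvability of `Lap w - w = f`

* `AI K B s` : for every `ε > 0` and smooth `f` there is a smooth `w` with
  `|f - (Lap w - s w)|_{1/2} ≤ ε |f|_{1/2}`
* `ai_one` : `AI K B 1` for `K = ω_H + i∂∂̄φ`
* `lin_ay` : the form used by the Newton iteration
-/

set_option autoImplicit false
set_option linter.unusedSectionVars false

open Set Metric Filter MeasureTheory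
open scoped ContDiff Topology Matrix ComplexConjugate ComplexOrder

namespace Crest.Agent.R257.AYLinB_209

open Crest.Agent.R275 Crest.Agent.R275.Geo Crest.Agent.R275.Core144 Crest.Agent.R275.EDR890
open Crest.Agent.R275.GC293
open Crest.Agent.R273.Defs_333 Crest.Agent.R273.Hess_333 Crest.Agent.R273.HessB_333
open Crest.Agent.R273.HM_333 Crest.Agent.R273.Kah_333 Crest.Agent.R273.Vol_333
open Crest.Agent.R273.Vm_333
open Crest.Agent.R273.SchA_152 Crest.Agent.R273.SchD_152 Crest.Agent.R273.SchE_152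
  Crest.Agent.R273.SchF_152 Crest.Agent.R273.SchG_152 Crest.Agent.R273.SchH_152
  Crest.Agent.R273.SchI_152 Crest.Agent.R273.SchJ_152 Crest.Agent.R273.SchK_152
open Crest.Agent.R273.YauDefs_635 Crest.Agent.R273.YauCh_635 Crest.Agent.R273.YauMax_635
open Crest.Agent.R273.YauPf_635 Crest.Agent.R273.YauLin_635
open Crest.Agent.R257.AYLin_209

noncomputable section

variable {n : ℕ} {M : Type} [TopologicalSpace M] {A : Atl n M} {L : LB A}

/-- residual -/
def rs (K : Kah A) (s : ℝ) (f w : M → ℝ) (x : M) : ℝ := f x - (Lap K w x - s * w x)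

/-- approximate solvability -/
def AI (K : Kah A) (B : Cb A) (s : ℝ) : Prop :=
  ∀ ε > 0, ∀ (N : ℝ) (f : M → ℝ), A.Sm f → B.NH (1 / 2) N f →
    ∃ w : M → ℝ, A.Sm w ∧ B.NH (1 / 2) (ε * N) (rs K s f w)

theorem sm_rs (K : Kah A) {s : ℝ} {f w : M → ℝ} (hf : A.Sm f) (hw : A.Sm w) :
    A.Sm (rs K s f w) := fun i =>
  (hf i).sub ((sm_Lap K hw i).sub (contDiffOn_const.mul (hw i)))

theorem Lap_const (K : Kah A) (c : ℝ) : Lap K (fun _ => c) = fun _ => 0 := by
  refine lap_of_isLap K (fun i => contDiffOn_const) fun i z hz => ?_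
  have e1 : cH (inC A i fun _ : M => c) z = 0 := by
    have e2 : fderiv ℝ (inC A i fun _ : M => c) = fun _ => 0 := by
      funext w
      exact fderiv_const_apply _
    have e3 : fderiv ℝ (fderiv ℝ (inC A i fun _ : M => c)) z = 0 := by
      rw [e2]
      exact fderiv_const_apply _
    ext a b
    simp [cH, D2, e3]
  rw [e1]
  simp [inC]

theorem Lap_add_const (K : Kah A) {v : M → ℝ} (hv : A.Sm v) (c : ℝ) :
    Lap K (fun x => v x + c) = Lap K v := by
  have h := Lap_add K hv (w := fun _ => c) (fun i => contDiffOn_const)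
  rw [h, Lap_const]
  funext x
  simp

/-- iteration -/
theorem ai_of_half {K : Kah A} {B : Cb A} {s : ℝ} [Nonempty M]
    (h : ∀ (N : ℝ) (f : M → ℝ), A.Sm f → B.NH (1 / 2) N f →
      ∃ w : M → ℝ, A.Sm w ∧ B.NH (1 / 2) (N / 2) (rs K s f w)) : AI K B s := by
  intro ε hε N f hf hN
  have key : ∀ k : ℕ, ∃ w : M → ℝ, A.Sm w ∧ B.NH (1 / 2) ((1 / 2) ^ k * N) (rs K s f w) := by
    intro k
    induction k with
    | zero =>
      refine ⟨fun _ => 0, fun i => contDiffOn_const, ?_⟩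
      have e : rs K s f (fun _ => 0) = f := by
        funext x
        simp [rs, Lap_const]
      rw [e, pow_zero, one_mul]
      exact hN
    | succ k ih =>
      obtain ⟨w, hw, hr⟩ := ih
      obtain ⟨w', hw', hr'⟩ := h _ _ (sm_rs K hf hw) hr
      refine ⟨fun x => w x + w' x, fun i => (hw i).add (hw' i), ?_⟩
      have e : rs K s f (fun x => w x + w' x) = rs K s (rs K s f w) w' := by
        funext x
        simp only [rs, Lap_add K hw hw']
        ring
      rw [e]
      refine hr'.mono (le_of_eq ?_)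
      rw [pow_succ]
      ring
  obtain ⟨k, hk⟩ := exists_pow_lt_of_lt_one hε (by norm_num : (1 / 2 : ℝ) < 1)
  obtain ⟨w, hw, hr⟩ := key k
  exact ⟨w, hw, hr.mono (mul_le_mul_of_nonneg_right hk.le hN.nonneg)⟩

variable [T2Space M] [CompactSpace M] [ConnectedSpace M] [Finite A.ι]

/-- the step in `s` -/
theorem ai_step {K : Kah A} {B : Cb A} {s0 C : ℝ} (hC : 0 < C)
    (hls : ∀ (s : ℝ) (v f : M → ℝ) (N : ℝ), s0 ≤ s → s ≤ 1 → A.Sm v →
      (∀ x, Lap K v x - s * v x = f x) → B.NH (1 / 2) N f → B.N2 (1 / 2) (C * N) v)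
    {s s' : ℝ} (h0 : s0 ≤ s) (h1 : s ≤ 1) (hss : |s' - s| * (5 * C) ≤ 1) (hs : AI K B s) :
    AI K B s' := by
  refine ai_of_half fun N f hf hN => ?_
  have hN0 : 0 ≤ N := hN.nonneg
  obtain ⟨w, hw, hr⟩ := hs (1 / 4) (by norm_num) N f hf hN
  have hg : B.NH (1 / 2) (N + 1 / 4 * N) (fun x => f x + -1 * rs K s f w x) := by
    refine (NH_add hN (NH_smul (-1) hr)).mono ?_
    rw [abs_neg, abs_one, one_mul]
  have hw2 := hls s w (fun x => f x + -1 * rs K s f w x) (N + 1 / 4 * N) h0 h1 hw (fun x => by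
    simp only [rs]
    ring) hg
  refine ⟨w, hw, ?_⟩
  have e : rs K s' f w = fun x => rs K s f w x + (s' - s) * w x := by
    funext x
    simp only [rs]
    ring
  rw [e]
  refine (NH_add hr (NH_smul (s' - s) hw2.nh)).mono ?_
  have h2 : |s' - s| * (C * (N + 1 / 4 * N)) = (|s' - s| * (5 * C)) * (N / 4) := by ring
  have h3 : (|s' - s| * (5 * C)) * (N / 4) ≤ 1 * (N / 4) :=
    mul_le_mul_of_nonneg_right hss (by positivity)
  rw [h2]
  linarith

/-- the start -/
theorem ai_start (P : Part A) {H : HM L} {φ : M → ℝ} (hφ : A.Sm φ) (hp : KPos H φ) (B : Cb A) :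
    ∃ s0 : ℝ, 0 < s0 ∧ s0 ≤ 1 ∧ AI (kp H hφ hp) B s0 := by
  obtain ⟨x0⟩ : Nonempty M := inferInstance
  obtain ⟨C, hC, hb⟩ := lin_bound P hφ hp B (a := 1 / 2) (by norm_num) (by norm_num)
  refine ⟨min 1 (1 / (2 * C)), lt_min one_pos (by positivity), min_le_left _ _, ?_⟩
  set s0 : ℝ := min 1 (1 / (2 * C)) with hs0
  have hs00 : 0 < s0 := lt_min one_pos (by positivity)
  have hs0C : s0 * C ≤ 1 / 2 := by
    have h1 : s0 ≤ 1 / (2 * C) := min_le_right _ _
    calc s0 * C ≤ 1 / (2 * C) * C := mul_le_mul_of_nonneg_right h1 hC.le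
      _ = 1 / 2 := by field_simp
  refine ai_of_half fun N f hf hN => ?_
  have hN0 : 0 ≤ N := hN.nonneg
  obtain ⟨v, m, hv, hlin⟩ := Crest.Agent.R273.CLin_933.lin_exist P H hφ hp hf
  have hlin' : LinEq H φ v f m := hlin
  have h1 := hb x0 (fun x => v x - v x0) f m N (fun i => (hv i).sub contDiffOn_const)
    (linEq_sub hlin' _) hN (sub_self _)
  have hw : A.Sm (fun x => v x - v x0) := fun i => (hv i).sub contDiffOn_const
  have hL : Lap (kp H hφ hp) (fun x => v x - v x0) = fun x => f x - m :=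
    lap_of_isLap _ hw ((linEq_sub hlin' _).isLap hφ hp)
  refine ⟨fun x => (v x - v x0) + -(m / s0), fun i => (hw i).add contDiffOn_const, ?_⟩
  have e : rs (kp H hφ hp) s0 f (fun x => (v x - v x0) + -(m / s0)) =
      fun x => s0 * (v x - v x0) := by
    funext x
    simp only [rs, Lap_add_const _ hw, hL]
    field_simp
    ring
  rw [e]
  refine (NH_smul s0 h1.nh).mono ?_
  rw [abs_of_pos hs00]
  calc s0 * (C * N) = (s0 * C) * N := by ring
    _ ≤ 1 / 2 * N := mul_le_mul_of_nonneg_right hs0C hN0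
    _ = N / 2 := by ring

/-- **approximate solvability** of `Lap w - w = f` and Schauder estimate -/
theorem ai_one (P : Part A) {H : HM L} {φ : M → ℝ} (hφ : A.Sm φ) (hp : KPos H φ) (B : Cb A) :
    AI (kp H hφ hp) B 1 ∧ ∃ C : ℝ, 0 < C ∧ ∀ (v f : M → ℝ) (N : ℝ), A.Sm v →
      (∀ x, Lap (kp H hφ hp) v x - 1 * v x = f x) → B.NH (1 / 2) N f →
        B.N2 (1 / 2) (C * N) v := by
  obtain ⟨s0, hs00, hs01, hAI⟩ := ai_start P hφ hp B
  obtain ⟨C, hC, hls⟩ := ls_bound P (kp H hφ hp) B (a := 1 / 2) (by norm_num) (by norm_num) hs00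
  refine ⟨?_, C, hC, fun v f N hv he hN => hls 1 v f N hs01 le_rfl hv he hN⟩
  set δ : ℝ := 1 / (5 * C) with hδ
  have hδ0 : 0 < δ := by positivity
  have key : ∀ k : ℕ, AI (kp H hφ hp) B (min (s0 + k * δ) 1) := by
    intro k
    induction k with
    | zero =>
      have e : min (s0 + (0 : ℕ) * δ) 1 = s0 := by
        rw [Nat.cast_zero, zero_mul, add_zero, min_eq_left hs01]
      rw [e]
      exact hAI
    | succ k ih =>
      have hk0 : (0 : ℝ) ≤ k * δ := by positivity
      refine ai_step hC hls (s := min (s0 + k * δ) 1) (le_min (by linarith) hs01)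
        (min_le_right _ _) ?_ ih
      have h1 : |min (s0 + (k + 1 : ℕ) * δ) 1 - min (s0 + k * δ) 1| ≤ δ := by
        have h2 : ((k + 1 : ℕ) : ℝ) = k + 1 := by push_cast; ring
        rw [h2]
        have h3 := abs_min_sub_min_le_max (s0 + (k + 1) * δ) 1 (s0 + k * δ) 1
        refine h3.trans (max_le ?_ ?_)
        · have : s0 + ((k : ℝ) + 1) * δ - (s0 + k * δ) = δ := by ring
          rw [this, abs_of_pos hδ0]
        · rw [sub_self, abs_zero]
          exact hδ0.le
      calc _ ≤ δ * (5 * C) := mul_le_mul_of_nonneg_right h1 (by positivity)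
        _ = 1 := by rw [hδ]; field_simp
  obtain ⟨k, hk⟩ := exists_nat_gt (1 / δ)
  have h1 := key k
  have h2 : 1 ≤ s0 + k * δ := by
    rw [div_lt_iff₀ hδ0] at hk
    linarith
  rwa [min_eq_right h2] at h1

/-- the operator of 635 and the operator of 152 -/
theorem Lf_eq_Lap {H : HM L} {φ w : M → ℝ} (hφ : A.Sm φ) (hp : KPos H φ) (hw : A.Sm w) :
    Lf H φ w = Lap (kp H hφ hp) w := by
  refine (lap_of_isLap (kp H hφ hp) hw fun i z hz => ?_).symm
  rw [Lf_read H hφ hw hz, gi_kp H hφ hp i hz]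
  rfl

/-- **linear theory for the Newton iteration** -/
theorem lin_ay (P : Part A) {H : HM L} {φ : M → ℝ} (hφ : A.Sm φ) (hp : KPos H φ) (B : Cb A) :
    ∃ C : ℝ, 0 < C ∧ ∀ (N : ℝ) (f : M → ℝ), A.Sm f → B.NH (1 / 2) N f →
      ∃ w : M → ℝ, A.Sm w ∧ B.N2 (1 / 2) (C * N) w ∧
        B.NH (1 / 2) (1 / 4 * N) (fun x => f x - (Lf H φ w x - w x)) := by
  obtain ⟨hAI, C, hC, hls⟩ := ai_one P hφ hp B
  refine ⟨C * (5 / 4), by positivity, fun N f hf hN => ?_⟩
  obtain ⟨w, hw, hr⟩ := hAI (1 / 4) (by norm_num) N f hf hN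
  have hg : B.NH (1 / 2) (N + 1 / 4 * N) (fun x => f x + -1 * rs (kp H hφ hp) 1 f w x) := by
    refine (NH_add hN (NH_smul (-1) hr)).mono ?_
    rw [abs_neg, abs_one, one_mul]
  have hw2 := hls w (fun x => f x + -1 * rs (kp H hφ hp) 1 f w x) _ hw (fun x => by
    simp only [rs]
    ring) hg
  refine ⟨w, hw, hw2.mono (le_of_eq (by ring)), ?_⟩
  have e : (fun x => f x - (Lf H φ w x - w x)) = rs (kp H hφ hp) 1 f w := by
    funext x
    simp only [rs, Lf_eq_Lap hφ hp hw, one_mul]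
  rw [e]
  exact hr

end

end Crest.Agent.R257.AYLinB_209
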