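import Crest.Agent.R273.SchK_152
import Crest.Agent.R273.CLinE_933
import Crest.Agent.R273.YauPf_635

/-!
# R257 (S0395), E-AY (helper209): linear theory of `Δ - s` on a compact Kaehler manifold

* `abs_le_of_lap`  : `|v| ≤ |f| / s` for `Lap v - s v = f`
* `ls_bound`       : `|v|_{2,1/2} ≤ C |f|_{1/2}`, uniform for `s ∈ [s0, 1]`
* `approx`         : approximate solvability of `Lap w - w = f` (method of continuity in `s`, all
                     functions stay smooth)
-/

set_option autoImplicit false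
set_option linter.unusedSectionVars false

open Set Metric Filter MeasureTheory
open scoped ContDiff Topology Matrix ComplexConjugate ComplexOrder MatrixOrder

namespace Crest.Agent.R257.AYLin_209

open Crest.Agent.R275 Crest.Agent.R275.Geo Crest.Agent.R275.Core144 Crest.Agent.R275.EDR890
open Crest.Agent.R273.Defs_333 Crest.Agent.R273.Hess_333 Crest.Agent.R273.HessB_333
open Crest.Agent.R273.HM_333 Crest.Agent.R273.Kah_333 Crest.Agent.R273.Vol_333
open Crest.Agent.R273.Vm_333
open Crest.Agent.R273.SchA_152 Crest.Agent.R273.SchD_152 Crest.Agent.R273.SchE_152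
  Crest.Agent.R273.SchF_152 Crest.Agent.R273.SchG_152 Crest.Agent.R273.SchH_152
  Crest.Agent.R273.SchI_152 Crest.Agent.R273.SchJ_152 Crest.Agent.R273.SchK_152
open Crest.Agent.R273.YauDefs_635 Crest.Agent.R273.YauCh_635 Crest.Agent.R273.YauMax_635

noncomputable section

/-! ### maximum principle -/

theorem tr_nonneg {m : Type*} [Fintype m] [DecidableEq m] {G P : Matrix m m ℂ} (hG : G.PosDef)
    (hP : P.PosSemidef) : 0 ≤ ((G * P).trace).re := by
  obtain ⟨C, hC⟩ := CStarAlgebra.nonneg_iff_eq_star_mul_self.mp hG.posSemidef.nonneg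
  rw [Matrix.star_eq_conjTranspose] at hC
  have h1 : (G * P).trace = (C * P * Cᴴ).trace := by
    rw [hC, Matrix.mul_assoc, Matrix.trace_mul_comm]
  rw [h1]
  have h2 := (hP.mul_mul_conjTranspose_same C).trace_nonneg
  exact (Complex.nonneg_iff.1 h2).1

variable {n : ℕ} {M : Type} [TopologicalSpace M] {A : Atl n M} {L : LB A}

theorem Lap_nonneg_of_min (K : Kah A) {v : M → ℝ} (hv : A.Sm v) {x : M} (hm : IsLocalMin v x) :
    0 ≤ Lap K v x := by
  obtain ⟨i, hi⟩ := A.cover x
  have hz := (A.e i).map_source hi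
  have h1 := isLap K hv i _ hz
  have h2 : (hess (inC A i v) (A.e i x)).PosSemidef :=
    posSemidef_hess (inC_contDiffAt hv i hz)
      (lev_nonneg_of_localMin (inC_c2 hv i hz) (inC_localMin hm hi))
  have h3 : inC A i (Lap K v) (A.e i x) = Lap K v x := by
    simp only [inC, (A.e i).left_inv hi]
  rw [h3, cH_eq_hess (inC_contDiffAt hv i hz)] at h1
  rw [← h1]
  exact tr_nonneg ((pg K).pos i _ hz) h2

theorem Lap_add (K : Kah A) {v w : M → ℝ} (hv : A.Sm v) (hw : A.Sm w) :
    Lap K (fun x => v x + w x) = fun x => Lap K v x + Lap K w x := by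
  refine lap_of_isLap K (fun i => (hv i).add (hw i)) fun i z hz => ?_
  have h1 := isLap K hv i z hz
  have h2 := isLap K hw i z hz
  have e1 : cH (inC A i fun x => v x + w x) z = cH (inC A i v) z + cH (inC A i w) z :=
    Crest.Agent.R273.YauPf_635.cH_add' (inC_contDiffAt hv i hz) (inC_contDiffAt hw i hz)
  rw [e1, Matrix.mul_add, Matrix.trace_add, Complex.add_re, h1, h2]
  rfl

theorem Lap_neg (K : Kah A) {v : M → ℝ} (hv : A.Sm v) :
    Lap K (fun x => - v x) = fun x => - Lap K v x := by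
  refine lap_of_isLap K (fun i => (hv i).neg) fun i z hz => ?_
  have h1 := isLap K hv i z hz
  have e1 : cH (inC A i fun x => - v x) z = - cH (inC A i v) z := by
    rw [cH_eq_hess (inC_contDiffAt (fun i => (hv i).neg) i hz), cH_eq_hess (inC_contDiffAt hv i hz)]
    exact hess_neg (inC_contDiffAt hv i hz)
  rw [e1, Matrix.mul_neg, Matrix.trace_neg, Complex.neg_re, h1]
  rfl

theorem Lap_nonpos_of_max (K : Kah A) {v : M → ℝ} (hv : A.Sm v) {x : M} (hm : IsLocalMax v x) :
    Lap K v x ≤ 0 := by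
  have h1 : IsLocalMin (fun y => - v y) x := hm.neg
  have h2 := Lap_nonneg_of_min K (fun i => (hv i).neg) h1
  rw [Lap_neg K hv] at h2
  linarith

/-- **maximum principle** for `Lap v - s v = f` -/
theorem abs_le_of_lap [CompactSpace M] (K : Kah A) {v f : M → ℝ} {s N : ℝ} (hs : 0 < s)
    (hv : A.Sm v) (he : ∀ x, Lap K v x - s * v x = f x) (hf : ∀ x, |f x| ≤ N) (x : M) :
    |v x| ≤ N / s := by
  have hne : (univ : Set M).Nonempty := ⟨x, mem_univ x⟩
  have hc := continuous_of_sm hv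
  obtain ⟨x1, -, hx1⟩ := isCompact_univ.exists_isMinOn hne hc.continuousOn
  obtain ⟨x2, -, hx2⟩ := isCompact_univ.exists_isMaxOn hne hc.continuousOn
  have h3 := Lap_nonneg_of_min K hv (hx1.isLocalMin univ_mem)
  have h4 := Lap_nonpos_of_max K hv (hx2.isLocalMax univ_mem)
  have h5 := he x1
  have h6 := he x2
  have h7 := (abs_le.1 (hf x1)).2
  have h8 := (abs_le.1 (hf x2)).1
  have h9 : v x1 ≤ v x := hx1 (mem_univ x)
  have h10 : v x ≤ v x2 := hx2 (mem_univ x)
  have a1 : -(N / s) ≤ v x1 := by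
    rw [← neg_div, div_le_iff₀ hs]
    linarith
  have a2 : v x2 ≤ N / s := by
    rw [le_div_iff₀ hs]
    linarith
  rw [abs_le]
  constructor <;> linarith

/-! ### algebra of the norms -/

theorem NH_add {B : Cb A} {a N N' : ℝ} {f f' : M → ℝ} (h : B.NH a N f) (h' : B.NH a N' f') :
    B.NH a (N + N') (fun x => f x + f' x) := fun k => (h k).add (h' k)

theorem NH_smul {B : Cb A} {a N : ℝ} {f : M → ℝ} (c : ℝ) (h : B.NH a N f) :
    B.NH a (|c| * N) (fun x => c * f x) := by
  intro k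
  refine ⟨fun z hz => ?_, fun z hz w hw => ?_⟩
  · show ‖c * inC A (B.i k) f z‖ ≤ _
    rw [norm_mul, Real.norm_eq_abs]
    exact mul_le_mul_of_nonneg_left ((h k).bdd z hz) (abs_nonneg _)
  · show ‖c * inC A (B.i k) f z - c * inC A (B.i k) f w‖ ≤ _
    rw [← mul_sub, norm_mul, Real.norm_eq_abs, mul_assoc]
    exact mul_le_mul_of_nonneg_left ((h k).hol z hz w hw) (abs_nonneg _)

theorem NH_const {B : Cb A} {a : ℝ} (c : ℝ) : B.NH a |c| (fun _ => c) := by
  intro k
  refine ⟨fun z hz => ?_, fun z hz w hw => ?_⟩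
  · show ‖c‖ ≤ |c|
    rw [Real.norm_eq_abs]
  · show ‖c - c‖ ≤ _
    rw [sub_self, norm_zero]
    exact mul_nonneg (abs_nonneg _) (Real.rpow_nonneg (norm_nonneg _) _)

variable [T2Space M] [CompactSpace M] [ConnectedSpace M] [Finite A.ι]

/-- **Schauder estimate** for `Lap v - s v = f`, `s0 ≤ s ≤ 1` -/
theorem ls_bound (P : Part A) (K : Kah A) (B : Cb A) {a : ℝ} (ha : 0 < a) (ha1 : a < 1) {s0 : ℝ}
    (hs0 : 0 < s0) :
    ∃ C : ℝ, 0 < C ∧ ∀ (s : ℝ) (v f : M → ℝ) (N : ℝ), s0 ≤ s → s ≤ 1 → A.Sm v →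
      (∀ x, Lap K v x - s * v x = f x) → B.NH a N f → B.N2 a (C * N) v := by
  let _ : MeasurableSpace M := borel M
  have : BorelSpace M := ⟨rfl⟩
  have hfin := B.fin
  set μ := vm (volK K) with hμ
  have hμfin : IsFiniteMeasure μ := isFinite_vm (volK K)
  obtain ⟨Ks, hKs, hsch⟩ := schauder B ha ha1 (pg K)
  have hκ : Nonempty B.κ := by
    obtain ⟨x⟩ : Nonempty M := inferInstance
    exact ⟨(B.cover x).choose⟩
  -- ellipticity
  have hell : ∃ lo : ℝ, 0 < lo ∧ ∀ k, ∀ z ∈ closedBall (B.z k) (B.r k / 2), ∃ hi,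
      EllC lo hi (gi K (B.i k) z) := by
    have h1 : ∀ k, ∃ lo : ℝ, 0 < lo ∧ ∀ z ∈ closedBall (B.z k) (B.r k / 2), ∃ hi,
        EllC lo hi (gi K (B.i k) z) := by
      intro k
      obtain ⟨lo, hi, hlo, -, hell⟩ := exists_ell (G := gi K (B.i k))
        (isCompact_closedBall (B.z k) (B.r k / 2))
        (fun i j => ((pg K).sm _ i j).continuousOn.mono (B.sub' k))
        (fun z hz => (pg K).pos _ z (B.sub' k hz))
      exact ⟨lo, hlo, fun z hz => ⟨hi, hell z hz⟩⟩
    choose lo hlo hell using h1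
    obtain ⟨k0, hk0⟩ := Finite.exists_min lo
    refine ⟨lo k0, hlo k0, fun k z hz => ?_⟩
    obtain ⟨hi, h⟩ := hell k z hz
    exact ⟨hi, EllC.mono h (hk0 k) le_rfl⟩
  obtain ⟨lo, hlo, hell⟩ := hell
  set S : ℝ := 1 / s0 with hS
  have hS0 : 0 < S := by positivity
  -- radius
  obtain ⟨ρ, hρ, -, hρa⟩ := Crest.Agent.R238.Sch.exists_rpow_le (a := a)
    (κ := 1 / (2 * (Ks * (2 + 2 * S)))) ha (by positivity)
  -- measure
  have hmeas : ∃ m : ℝ, 0 < m ∧ ∀ k, ∀ z ∈ closedBall (B.z k) (B.r k / 2), ∃ E : Set M,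
      MeasurableSet E ∧ (∀ x ∈ E, x ∈ (A.e (B.i k)).source ∧ A.e (B.i k) x ∈ ball z ρ ∧
        A.e (B.i k) x ∈ closedBall (B.z k) (B.r k / 2)) ∧ m ≤ μ.real E := by
    choose m hm H using fun k => meas_lb B (volK K) hρ k
    obtain ⟨k0, hk0⟩ := Finite.exists_min m
    refine ⟨m k0, hm k0, fun k z hz => ?_⟩
    obtain ⟨E, h1, h2, h3⟩ := H k z hz
    exact ⟨E, h1, h2, (hk0 k).trans h3⟩
  obtain ⟨m, hm, hmeas⟩ := hmeas
  have hμM : 0 ≤ μ.real univ := measureReal_nonneg
  set Q : ℝ := 1 + 16 * (S * (1 + S)) * μ.real univ / (lo * m) with hQ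
  have hQ0 : 0 < Q := by positivity
  refine ⟨Ks * (1 + 2 * S + Q), by positivity, ?_⟩
  intro s v f N hs hs1 hv he hN
  have hspos : 0 < s := hs0.trans_le hs
  have hN0 : 0 ≤ N := hN.nonneg
  have hvb : ∀ x, |v x| ≤ S * N := by
    intro x
    refine (abs_le_of_lap K hspos hv he (fun x => hN.bdd x) x).trans ?_
    rw [hS, one_div, inv_mul_eq_div]
    exact div_le_div_of_nonneg_left hN0 hs0 hs
  -- the maximum of the gradient
  have hmax : ∃ (k : B.κ) (z : Cn n), z ∈ closedBall (B.z k) (B.r k / 2) ∧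
      ∀ k', ∀ z' ∈ closedBall (B.z k') (B.r k' / 2),
        ‖fderiv ℝ (inC A (B.i k') v) z'‖ ≤ ‖fderiv ℝ (inC A (B.i k) v) z‖ := by
    have h1 : ∀ k : B.κ, ∃ z ∈ closedBall (B.z k) (B.r k / 2),
        ∀ z' ∈ closedBall (B.z k) (B.r k / 2),
        ‖fderiv ℝ (inC A (B.i k) v) z'‖ ≤ ‖fderiv ℝ (inC A (B.i k) v) z‖ := by
      intro k
      have hc : ContinuousOn (fun z => ‖fderiv ℝ (inC A (B.i k) v) z‖)
          (closedBall (B.z k) (B.r k / 2)) := by
        have h2 : ContDiffOn ℝ 2 (inC A (B.i k) v) (A.e (B.i k)).target :=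
          (hv (B.i k)).of_le two_le_inf
        exact ((h2.continuousOn_fderiv_of_isOpen (A.e (B.i k)).open_target
          (by norm_num)).mono (B.sub' k)).norm
      obtain ⟨z, hz, hzm⟩ := (isCompact_closedBall (B.z k) (B.r k / 2)).exists_isMaxOn
        ⟨B.z k, mem_closedBall_self (by linarith [B.r0 k])⟩ hc
      exact ⟨z, hz, fun z' hz' => hzm hz'⟩
    choose zz hzz hzm using h1
    obtain ⟨k0, hk0⟩ := Finite.exists_max fun k => ‖fderiv ℝ (inC A (B.i k) v) (zz k)‖
    exact ⟨k0, zz k0, hzz k0, fun k' z' hz' => (hzm k' z' hz').trans (hk0 k')⟩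
  obtain ⟨k0, z0, hz0, hzmax⟩ := hmax
  set G := ‖fderiv ℝ (inC A (B.i k0) v) z0‖ with hG
  have hG0 : 0 ≤ G := norm_nonneg _
  -- Hoelder bound of `v`
  have hvNH : B.NH a (S * N + G) v := by
    intro k
    refine ⟨fun z hz => ?_, fun z hz w hw => ?_⟩
    · rw [Real.norm_eq_abs]
      exact (hvb _).trans (by linarith)
    · have h1 := (convex_closedBall (B.z k) (B.r k / 2)).norm_image_sub_le_of_norm_fderiv_le
        (𝕜 := ℝ) (f := inC A (B.i k) v) (C := G)
        (fun w hw => (inC_c2 hv (B.i k) (B.sub' k hw)).differentiableAt (by norm_num))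
        (fun w hw => hzmax k w hw) hw hz
      have h2 : ‖z - w‖ ≤ 1 := by
        rw [mem_closedBall, dist_eq_norm] at hz hw
        have e : z - w = (z - B.z k) - (w - B.z k) := by abel
        rw [e]
        refine (norm_sub_le _ _).trans ?_
        linarith [B.r1 k]
      have h3 : ‖z - w‖ ≤ ‖z - w‖ ^ a :=
        Real.self_le_rpow_of_le_one (norm_nonneg _) h2 ha1.le
      have h4 : 0 ≤ S * N * ‖z - w‖ ^ a := by positivity
      calc _ ≤ G * ‖z - w‖ := h1
        _ ≤ G * ‖z - w‖ ^ a := mul_le_mul_of_nonneg_left h3 hG0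
        _ ≤ (S * N + G) * ‖z - w‖ ^ a := by linarith
  have hlap : IsLap (gi K) v (fun x => f x + s * v x) := by
    have h1 := isLap K hv
    have e : Lap K v = fun x => f x + s * v x := by
      funext x
      linarith [he x]
    rwa [e] at h1
  have hFN : B.NH a (N + (S * N + G)) (fun x => f x + s * v x) := by
    have h1 := NH_add hN (NH_smul s hvNH)
    refine h1.mono ?_
    rw [abs_of_pos hspos]
    have : s * (S * N + G) ≤ 1 * (S * N + G) := mul_le_mul_of_nonneg_right hs1 (by positivity)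
    linarith
  have h2 := hsch v _ (N + (S * N + G)) (S * N) (Sm2.of_sm ha ha1.le hv) hlap hFN hvb
  -- the gradient bound
  suffices hfinal : G ≤ Q * N by
    refine h2.mono ?_
    have : N + (S * N + G) + S * N ≤ (1 + 2 * S + Q) * N := by linarith
    calc Ks * (N + (S * N + G) + S * N) ≤ Ks * ((1 + 2 * S + Q) * N) :=
          mul_le_mul_of_nonneg_left this hKs.le
      _ = _ := by ring
  rcases le_or_gt G N with hGN | hGN
  · have hq : 0 ≤ 16 * (S * (1 + S)) * μ.real univ / (lo * m) * N := by positivity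
    rw [hQ]
    linarith
  have hGpos : 0 < G := lt_of_le_of_lt hN0 hGN
  -- the gradient is large near `z0`
  have hgrad : ∀ z ∈ closedBall (B.z k0) (B.r k0 / 2), z ∈ ball z0 ρ →
      G / 2 ≤ ‖fderiv ℝ (inC A (B.i k0) v) z‖ := by
    intro z hz hzρ
    have h3 := (h2 k0).h1.hol z0 hz0 z hz
    have h4 : ‖z0 - z‖ ^ a ≤ 1 / (2 * (Ks * (2 + 2 * S))) := by
      refine le_trans (Real.rpow_le_rpow (norm_nonneg _) ?_ ha.le) hρa
      rw [← dist_eq_norm, dist_comm]
      exact (mem_ball.1 hzρ).le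
    have h5 : Ks * (N + (S * N + G) + S * N) * ‖z0 - z‖ ^ a ≤ G / 2 := by
      have e0 : N + (S * N + G) + S * N ≤ (2 + 2 * S) * G := by nlinarith
      have e1 : Ks * (N + (S * N + G) + S * N) ≤ Ks * (2 + 2 * S) * G := by
        rw [mul_assoc]
        exact mul_le_mul_of_nonneg_left e0 hKs.le
      have e2 : 0 ≤ ‖z0 - z‖ ^ a := Real.rpow_nonneg (norm_nonneg _) _
      calc Ks * (N + (S * N + G) + S * N) * ‖z0 - z‖ ^ a
          ≤ Ks * (2 + 2 * S) * G * ‖z0 - z‖ ^ a := mul_le_mul_of_nonneg_right e1 e2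
        _ ≤ Ks * (2 + 2 * S) * G * (1 / (2 * (Ks * (2 + 2 * S)))) :=
            mul_le_mul_of_nonneg_left h4 (by positivity)
        _ = G / 2 := by field_simp
    have h6 := norm_sub_norm_le (fderiv ℝ (inC A (B.i k0) v) z0) (fderiv ℝ (inC A (B.i k0) v) z)
    linarith
  -- energy
  obtain ⟨E, hEm, hEx, hEμ⟩ := hmeas k0 z0 hz0
  have hDgi : Integrable (Dg K v) μ := by
    obtain ⟨C, hC⟩ := isCompact_univ.exists_bound_of_continuousOn
      (continuous_Dg K hv).continuousOn
    exact Integrable.of_bound (continuous_Dg K hv).measurable.aestronglyMeasurable C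
      (Eventually.of_forall fun x => hC x (mem_univ x))
  have hDgE : ∀ x ∈ E, lo / 4 * (G / 2) ^ 2 ≤ Dg K v x := by
    intro x hx
    obtain ⟨h3, h4, h5⟩ := hEx x hx
    obtain ⟨hi, hell'⟩ := hell k0 _ h5
    have h6 := Dg_lb K hv ((A.e (B.i k0)).map_source h3) hlo.le hell'
    rw [(A.e (B.i k0)).left_inv h3] at h6
    refine le_trans ?_ h6
    have h7 := hgrad _ h5 h4
    gcongr
  have hlow : lo / 4 * (G / 2) ^ 2 * m ≤ ∫ x, Dg K v x ∂μ := by
    calc lo / 4 * (G / 2) ^ 2 * m ≤ lo / 4 * (G / 2) ^ 2 * μ.real E :=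
          mul_le_mul_of_nonneg_left hEμ (by positivity)
      _ ≤ ∫ x in E, Dg K v x ∂μ :=
          setIntegral_ge_of_const_le_real hEm (measure_ne_top _ _) hDgE hDgi.integrableOn
      _ ≤ ∫ x, Dg K v x ∂μ :=
          setIntegral_le_integral hDgi (Eventually.of_forall fun x => Dg_nonneg K hv x)
  have hcv : Continuous v := continuous_of_sm hv
  have hLb : ∀ x, |Lap K v x| ≤ (1 + S) * N := by
    intro x
    have e : Lap K v x = f x + s * v x := by linarith [he x]
    rw [e]
    have h1 := hN.bdd x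
    have h3 : |s * v x| ≤ S * N := by
      rw [abs_mul, abs_of_pos hspos]
      calc s * |v x| ≤ 1 * (S * N) := mul_le_mul hs1 (hvb x) (abs_nonneg _) zero_le_one
        _ = S * N := one_mul _
    calc |f x + s * v x| ≤ |f x| + |s * v x| := abs_add_le _ _
      _ ≤ N + S * N := add_le_add h1 h3
      _ = _ := by ring
  have hup : ∫ x, Dg K v x ∂μ ≤ (S * N) * ((1 + S) * N) * μ.real univ := by
    have h3 : ∫ x, Dg K v x ∂μ = - ∫ x, v x * Lap K v x ∂μ := by
      have hint : ∀ g : M → ℝ, Continuous g → Integrable g μ := fun g hg => by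
        obtain ⟨C, hC⟩ := isCompact_univ.exists_bound_of_continuousOn hg.continuousOn
        exact Integrable.of_bound hg.measurable.aestronglyMeasurable C
          (Eventually.of_forall fun x => hC x (mem_univ x))
      have i1 : Integrable (fun x => (1 / 2) * Lap K (fun y => v y ^ 2) x) μ :=
        hint _ (continuous_const.mul (continuous_of_sm (sm_Lap K (sm_sq hv))))
      have i2 : Integrable (fun x => v x * Lap K v x) μ :=
        hint _ (hcv.mul (continuous_of_sm (sm_Lap K hv)))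
      have e1 : ∫ x, Dg K v x ∂μ =
          ∫ x, (1 / 2) * Lap K (fun y => v y ^ 2) x ∂μ - ∫ x, v x * Lap K v x ∂μ :=
        integral_sub i1 i2
      rw [e1, integral_const_mul, int_Lap P K (sm_sq hv), mul_zero, zero_sub]
    rw [h3]
    have h4 : ‖∫ x, v x * Lap K v x ∂μ‖ ≤ (S * N) * ((1 + S) * N) * μ.real univ := by
      refine norm_integral_le_of_norm_le_const (Eventually.of_forall fun x => ?_)
      rw [norm_mul, Real.norm_eq_abs, Real.norm_eq_abs]
      exact mul_le_mul (hvb x) (hLb x) (abs_nonneg _) (by positivity)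
    have h5 := neg_le_abs (∫ x, v x * Lap K v x ∂μ)
    rw [← Real.norm_eq_abs] at h5
    exact h5.trans h4
  have hlm : 0 < lo * m := by positivity
  have hkey : G * (lo * m) ≤ 16 * (S * (1 + S)) * μ.real univ * N := by
    have h3 := hlow.trans hup
    have h4 : lo / 4 * (G / 2) ^ 2 * m = G * (G * (lo * m) / 16) := by ring
    have h5 : (S * N) * ((1 + S) * N) * μ.real univ ≤
        G * (16 * (S * (1 + S)) * μ.real univ * N / 16) := by
      have h6 : 0 ≤ (S * (1 + S)) * μ.real univ * N := by positivity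
      calc (S * N) * ((1 + S) * N) * μ.real univ = N * ((S * (1 + S)) * μ.real univ * N) := by ring
        _ ≤ G * ((S * (1 + S)) * μ.real univ * N) := mul_le_mul_of_nonneg_right hGN.le h6
        _ = _ := by ring
    rw [h4] at h3
    have h6 := le_of_mul_le_mul_left (h3.trans h5) hGpos
    linarith
  have : G ≤ 16 * (S * (1 + S)) * μ.real univ / (lo * m) * N := by
    rw [div_mul_eq_mul_div, le_div_iff₀ hlm]
    exact hkey
  rw [hQ]
  linarith

end

end Crest.Agent.R257.AYLin_209
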