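import Crest.Agent.R257.AYCone_209
import Crest.Agent.R273.YauQ_635
import Crest.Agent.R273.YauSchF_635
import Crest.Agent.R273.YauOpA_635

/-!
# R257 (S0395), E-AY (helper209): local `C^{2,1/2}` estimate for `det ∂∂̄u = e^(f+u)`

* `transfer` : from `D²Φ` to `D²u`
* `loc_est`  : interior `C^{2,1/2}` estimate, from `C3Stmt`
* `local_limit_ay` : limits of solutions
-/

set_option autoImplicit false
set_option linter.unusedSectionVars false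

open Set Filter Topology Complex Metric
open scoped ContDiff Matrix ComplexConjugate

namespace Crest.Agent.R257.AYLoc_209

open Crest.Agent.R275.Geo
open Crest.Agent.R273.Defs_333 Crest.Agent.R273.YauDefs_635 Crest.Agent.R273.YauCh_635
open Crest.Agent.R273.YauLoc_635 Crest.Agent.R273.YauLim_635 Crest.Agent.R273.YauQ_635
open Crest.Agent.R273.YauSchF_635 Crest.Agent.R273.YauOpA_635
open Crest.Agent.R273.SchA_152
open Crest.Agent.R257.AYGrad_209 Crest.Agent.R257.AYCone_209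

noncomputable section

section ho

variable {X : Type*} [NormedAddCommGroup X]

/-- functions of one variable composed with Hoelder functions -/
theorem ho_comp1 {p : ℝ → ℝ} {J : Set ℝ} (hJ : IsOpen J) (hp : ContDiffOn ℝ 1 p J) {a b : ℝ}
    (hab : Icc a b ⊆ J) : ∃ K : ℝ, 0 ≤ K ∧ ∀ {s : Set X} {u : X → ℝ} {G : ℝ}, 0 ≤ G →
      (∀ z ∈ s, u z ∈ Icc a b) →
      (∀ z ∈ s, ∀ w ∈ s, |u z - u w| ≤ G * ‖z - w‖ ^ (1 / 2 : ℝ)) →
      HO (1 / 2) (K * (1 + G)) s (fun z => p (u z)) := by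
  obtain ⟨K0, hK0⟩ := isCompact_Icc.exists_bound_of_continuousOn (hp.continuousOn.mono hab)
  have hd : ContinuousOn (deriv p) J := hp.continuousOn_deriv_of_isOpen hJ le_rfl
  obtain ⟨K1, hK1⟩ := isCompact_Icc.exists_bound_of_continuousOn (hd.mono hab)
  refine ⟨max K0 0 + max K1 0, by positivity, fun {s u G} hG hu hl => ⟨fun z hz => ?_,
    fun z hz w hw => ?_⟩⟩
  · have h1 := hK0 _ (hu z hz)
    have h2 : 0 ≤ (max K0 0 + max K1 0) * G := by positivity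
    calc ‖p (u z)‖ ≤ K0 := h1
      _ ≤ max K0 0 + max K1 0 := by
          linarith [le_max_left K0 0, le_max_right K1 0]
      _ ≤ (max K0 0 + max K1 0) * (1 + G) := by linarith
  · have h1 : ‖p (u z) - p (u w)‖ ≤ max K1 0 * ‖u z - u w‖ :=
      (convex_Icc a b).norm_image_sub_le_of_norm_deriv_le
        (fun x hx => (hp.contDiffAt (hJ.mem_nhds (hab hx))).differentiableAt (by norm_num))
        (fun x hx => (hK1 x hx).trans (le_max_left _ _)) (hu w hw) (hu z hz)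
    have h2 := hl z hz w hw
    have hτ : 0 ≤ ‖z - w‖ ^ (1 / 2 : ℝ) := Real.rpow_nonneg (norm_nonneg _) _
    calc ‖p (u z) - p (u w)‖ ≤ max K1 0 * (G * ‖z - w‖ ^ (1 / 2 : ℝ)) :=
          h1.trans (mul_le_mul_of_nonneg_left h2 (le_max_right _ _))
      _ = (max K1 0 * G) * ‖z - w‖ ^ (1 / 2 : ℝ) := by ring
      _ ≤ ((max K0 0 + max K1 0) * (1 + G)) * ‖z - w‖ ^ (1 / 2 : ℝ) := by
          refine mul_le_mul_of_nonneg_right ?_ hτ
          have e1 : 0 ≤ max K0 0 * (1 + G) := by positivity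
          have e2 : 0 ≤ max K1 0 := le_max_right _ _
          nlinarith

theorem ho_bilin {E : Type*} [NormedAddCommGroup E] [NormedSpace ℝ E] {s : Set X}
    {Q : X → E →L[ℝ] E →L[ℝ] ℝ} {a K : ℝ} (hK : 0 ≤ K)
    (h : ∀ v w, HO a (K * (‖v‖ * ‖w‖)) s (fun z => Q z v w)) : HO a K s Q := by
  refine ⟨fun z hz => ?_, fun z hz y hy => ?_⟩
  · refine ContinuousLinearMap.opNorm_le_bound₂ _ hK fun v w => ?_
    rw [mul_assoc]
    exact (h v w).bdd z hz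
  · refine ContinuousLinearMap.opNorm_le_bound₂ _
      (mul_nonneg hK (Real.rpow_nonneg (norm_nonneg _) _)) fun v w => ?_
    have h1 := (h v w).hol z hz y hy
    calc ‖(Q z - Q y) v w‖ = ‖Q z v w - Q y v w‖ := rfl
      _ ≤ K * (‖v‖ * ‖w‖) * ‖z - y‖ ^ a := h1
      _ = K * ‖z - y‖ ^ a * ‖v‖ * ‖w‖ := by ring

end ho

variable {n : ℕ}

theorem lip_half {z₀ z w : Cn n} {ρ : ℝ} (hρ : ρ ≤ 1) (hz : z ∈ ball z₀ ρ) (hw : w ∈ ball z₀ ρ) :
    ‖z - w‖ ≤ 2 * ‖z - w‖ ^ (1 / 2 : ℝ) :=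
  le_two_rpow (norm_nonneg _) (norm_sub_le_two hρ (ball_subset_closedBall hz)
    (ball_subset_closedBall hw))

/-- **transfer** of the `C^{2,1/2}` bound from `Φ` to `u` -/
theorem transfer (n : ℕ) {N G C : ℝ} (hG : 0 ≤ G) (hC : 0 ≤ C) :
    ∃ C' : ℝ, 0 ≤ C' ∧ ∀ (z₀ : Cn n) (ρ : ℝ) (u : Cn n → ℝ), 0 < ρ → ρ ≤ 1 →
      ContDiffOn ℝ 2 u (ball z₀ ρ) → (∀ z ∈ ball z₀ ρ, |u z| ≤ N) →
      (∀ z ∈ ball z₀ ρ, ∀ v, |fderiv ℝ u z v| ≤ G * ‖v‖) →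
      (∀ z ∈ ball z₀ ρ, ‖fderiv ℝ (fderiv ℝ (Ph n (N + 3) u)) (iz n z)‖ ≤ C) →
      (∀ z ∈ ball z₀ ρ, ∀ w ∈ ball z₀ ρ, ‖fderiv ℝ (fderiv ℝ (Ph n (N + 3) u)) (iz n z) -
        fderiv ℝ (fderiv ℝ (Ph n (N + 3) u)) (iz n w)‖ ≤ C * ‖z - w‖ ^ (1 / 2 : ℝ)) →
      HO (1 / 2) C' (ball z₀ ρ) (fderiv ℝ (fderiv ℝ u)) := by
  set R : ℝ := N + 3 with hR
  have hsub : Icc (-N) N ⊆ Ioi (-R) := fun t ht => by
    have := ht.1
    rw [mem_Ioi, hR]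
    linarith
  have hginv : ContDiffOn ℝ 1 (fun t => (AYPsi_209.g n R t)⁻¹) (Ioi (-R)) :=
    ((AYPsi_209.contDiffOn_g n R).of_le (by simp)).inv fun t ht => (AYPsi_209.g_pos ht).ne'
  obtain ⟨Ka, hKa0, hKa⟩ := ho_comp1 (X := Cn n) isOpen_Ioi hginv hsub
  obtain ⟨Kb, hKb0, hKb⟩ := ho_comp1 (X := Cn n) isOpen_Ioi
    ((AYPsi_209.contDiffOn_h n R).of_le (by simp)) hsub
  -- constants
  set A0 : ℝ := Ka * (1 + 2 * G) with hA0
  set B0 : ℝ := Kb * (1 + 2 * G) with hB0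
  have hA00 : 0 ≤ A0 := by positivity
  have hB00 : 0 ≤ B0 := by positivity
  set C1 : ℝ := A0 * (C + B0 * (G * G)) with hC1
  have hC10 : 0 ≤ C1 := by positivity
  set P0 : ℝ := G + 2 * C1 with hP0
  have hP00 : 0 ≤ P0 := by positivity
  set C' : ℝ := 2 * A0 * (C + 2 * B0 * (2 * P0 * P0)) with hC'
  refine ⟨C', by positivity, fun z₀ ρ u hρ0 hρ1 hu hN hGr hb hh => ?_⟩
  have hcv := convex_ball z₀ ρ
  have hc2 : ∀ z ∈ ball z₀ ρ, ContDiffAt ℝ 2 u z := fun z hz =>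
    hu.contDiffAt (isOpen_ball.mem_nhds hz)
  have huI : ∀ z ∈ ball z₀ ρ, u z ∈ Icc (-N) N := fun z hz => abs_le.1 (hN z hz)
  have hlip : ∀ z ∈ ball z₀ ρ, ∀ w ∈ ball z₀ ρ, |u z - u w| ≤ 2 * G * ‖z - w‖ ^ (1 / 2 : ℝ) := by
    intro z hz w hw
    have h1 : ‖u z - u w‖ ≤ G * ‖z - w‖ :=
      hcv.norm_image_sub_le_of_norm_fderiv_le (𝕜 := ℝ)
        (fun y hy => (hc2 y hy).differentiableAt (by norm_num))
        (fun y hy => ContinuousLinearMap.opNorm_le_bound _ hG (hGr y hy)) hw hz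
    have h2 := lip_half hρ1 hz hw
    rw [Real.norm_eq_abs] at h1
    calc _ ≤ G * ‖z - w‖ := h1
      _ ≤ G * (2 * ‖z - w‖ ^ (1 / 2 : ℝ)) := mul_le_mul_of_nonneg_left h2 hG
      _ = _ := by ring
  have ha := hKa (by positivity : 0 ≤ 2 * G) huI hlip
  have hbb := hKb (by positivity : 0 ≤ 2 * G) huI hlip
  -- the formula
  have hform : ∀ z ∈ ball z₀ ρ, ∀ v w, fderiv ℝ (fderiv ℝ u) z v w =
      (AYPsi_209.g n R (u z))⁻¹ *
        (fderiv ℝ (fderiv ℝ (Ph n R u)) (iz n z) (iz n v) (iz n w) -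
          AYPsi_209.h n R (u z) * (fderiv ℝ u z v * fderiv ℝ u z w)) := by
    intro z hz v w
    have h1 : ContDiffAt ℝ 2 u (pz n (iz n z)) := by
      rw [pz_iz]
      exact hc2 z hz
    have h2 : -R < S u (iz n z) := by
      rw [S_iz]
      exact hsub (huI z hz)
    rw [fd2_Ph h1 h2, S_iz]
    simp only [pz_iz, pw_iz, zero_re, mul_zero, add_zero]
    have h3 := (AYPsi_209.g_pos (n := n) (hsub (huI z hz))).ne'
    field_simp
    ring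
  -- sup bound
  have hD2 : ∀ z ∈ ball z₀ ρ, ‖fderiv ℝ (fderiv ℝ u) z‖ ≤ C1 := by
    intro z hz
    refine ContinuousLinearMap.opNorm_le_bound₂ _ hC10 fun v w => ?_
    rw [hform z hz v w, norm_mul]
    have e1 : ‖(AYPsi_209.g n R (u z))⁻¹‖ ≤ A0 := ha.bdd z hz
    have e2 : ‖AYPsi_209.h n R (u z)‖ ≤ B0 := hbb.bdd z hz
    have e3 : ‖fderiv ℝ (fderiv ℝ (Ph n R u)) (iz n z) (iz n v) (iz n w)‖ ≤ C * ‖v‖ * ‖w‖ := by
      refine (ContinuousLinearMap.le_opNorm₂ _ _ _).trans ?_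
      rw [norm_iz, norm_iz]
      gcongr
      exact hb z hz
    have e4 : ‖fderiv ℝ u z v * fderiv ℝ u z w‖ ≤ (G * ‖v‖) * (G * ‖w‖) := by
      rw [norm_mul]
      exact mul_le_mul (hGr z hz v) (hGr z hz w) (norm_nonneg _) (by positivity)
    have e5 : ‖fderiv ℝ (fderiv ℝ (Ph n R u)) (iz n z) (iz n v) (iz n w) -
          AYPsi_209.h n R (u z) * (fderiv ℝ u z v * fderiv ℝ u z w)‖ ≤
          C * ‖v‖ * ‖w‖ + B0 * ((G * ‖v‖) * (G * ‖w‖)) := by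
      refine (norm_sub_le _ _).trans (add_le_add e3 ?_)
      rw [norm_mul (AYPsi_209.h n R (u z))]
      exact mul_le_mul e2 e4 (norm_nonneg _) hB00
    calc _ ≤ A0 * (C * ‖v‖ * ‖w‖ + B0 * ((G * ‖v‖) * (G * ‖w‖))) :=
          mul_le_mul e1 e5 (norm_nonneg _) hA00
      _ = C1 * ‖v‖ * ‖w‖ := by rw [hC1]; ring
  -- Hoelder bounds
  have hgrad : ∀ v, HO (1 / 2) (P0 * ‖v‖) (ball z₀ ρ) (fun z => fderiv ℝ u z v) := by
    intro v
    refine ⟨fun z hz => ?_, fun z hz w hw => ?_⟩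
    · rw [Real.norm_eq_abs]
      refine (hGr z hz v).trans (mul_le_mul_of_nonneg_right ?_ (norm_nonneg _))
      rw [hP0]
      linarith
    · have h1 : ‖fderiv ℝ u z - fderiv ℝ u w‖ ≤ C1 * ‖z - w‖ :=
        hcv.norm_image_sub_le_of_norm_fderiv_le (𝕜 := ℝ)
          (fun y hy => ((hc2 y hy).fderiv_right (m := 1) (by norm_num)).differentiableAt
            (by norm_num)) hD2 hw hz
      have h2 := lip_half hρ1 hz hw
      have h3 := (fderiv ℝ u z - fderiv ℝ u w).le_opNorm v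
      calc ‖fderiv ℝ u z v - fderiv ℝ u w v‖ ≤ ‖fderiv ℝ u z - fderiv ℝ u w‖ * ‖v‖ := h3
        _ ≤ (C1 * ‖z - w‖) * ‖v‖ := mul_le_mul_of_nonneg_right h1 (norm_nonneg _)
        _ ≤ (C1 * (2 * ‖z - w‖ ^ (1 / 2 : ℝ))) * ‖v‖ := by gcongr
        _ = (2 * C1) * ‖v‖ * ‖z - w‖ ^ (1 / 2 : ℝ) := by ring
        _ ≤ P0 * ‖v‖ * ‖z - w‖ ^ (1 / 2 : ℝ) := by
            have : 2 * C1 ≤ P0 := by rw [hP0]; linarith
            gcongr
  have hX : ∀ v w, HO (1 / 2) (C * (‖v‖ * ‖w‖)) (ball z₀ ρ)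
      (fun z => fderiv ℝ (fderiv ℝ (Ph n R u)) (iz n z) (iz n v) (iz n w)) := by
    intro v w
    refine ⟨fun z hz => ?_, fun z hz y hy => ?_⟩
    · refine (ContinuousLinearMap.le_opNorm₂ _ _ _).trans ?_
      rw [norm_iz, norm_iz, mul_assoc]
      exact mul_le_mul_of_nonneg_right (hb z hz) (by positivity)
    · have h1 := ContinuousLinearMap.le_opNorm₂ (fderiv ℝ (fderiv ℝ (Ph n R u)) (iz n z) -
        fderiv ℝ (fderiv ℝ (Ph n R u)) (iz n y)) (iz n v) (iz n w)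
      rw [norm_iz, norm_iz, mul_assoc] at h1
      calc _ ≤ _ := h1
        _ ≤ (C * ‖z - y‖ ^ (1 / 2 : ℝ)) * (‖v‖ * ‖w‖) :=
            mul_le_mul_of_nonneg_right (hh z hz y hy) (by positivity)
        _ = _ := by ring
  refine ho_bilin (by positivity) fun v w => ?_
  have h1 := ho_mul (by positivity) (by positivity) (hgrad v) (hgrad w)
  have h2 := ho_mul hB00 (by positivity) hbb h1
  have h3 := (hX v w).add h2.neg
  have h4 := ho_mul hA00 (by positivity) ha h3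
  refine (h4.mono (le_of_eq ?_)).congr fun z hz => ?_
  · rw [hC']
    ring
  · rw [hform z hz v w]
    ring

/-! ### derivatives of the transformed right hand side -/

theorem norm_pzR_le (n : ℕ) : ‖pzR n‖ ≤ 1 :=
  ContinuousLinearMap.opNorm_le_bound _ zero_le_one fun Z => by
    rw [one_mul]
    exact norm_pz_le Z

theorem norm_pwR_le (n : ℕ) : ‖pwR n‖ ≤ 2 :=
  ContinuousLinearMap.opNorm_le_bound _ (by norm_num) fun Z => by
    rw [pwR_apply, norm_mul, Real.norm_eq_abs, abs_two]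
    have h1 := Complex.abs_re_le_norm (pw n Z)
    have h2 := norm_pw_le Z
    rw [Real.norm_eq_abs]
    linarith

theorem iter_pwR (n : ℕ) (Z : Cn (n + 1)) (j : ℕ) (hj : 1 ≤ j) :
    ‖iteratedFDeriv ℝ j (pwR n) Z‖ ≤ 2 := by
  obtain ⟨k, rfl⟩ : ∃ k, j = k + 1 := ⟨j - 1, by omega⟩
  rw [← norm_iteratedFDeriv_fderiv]
  have h1 : fderiv ℝ (pwR n : Cn (n + 1) → ℝ) = fun _ => pwR n := by
    funext Y
    exact (pwR n).fderiv
  rw [h1]
  rcases Nat.eq_zero_or_pos k with rfl | hk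
  · rw [norm_iteratedFDeriv_zero]
    exact norm_pwR_le n
  · rw [iteratedFDeriv_const_of_ne hk.ne']
    simp

theorem iter_comp_pzR {f : Cn n → ℝ} {z₀ : Cn n} {r : ℝ} (hf : ContDiffOn ℝ ∞ f (ball z₀ r))
    {Z : Cn (n + 1)} (hZ : pz n Z ∈ ball z₀ r) (j : ℕ) :
    ‖iteratedFDeriv ℝ j (fun Y => f (pzR n Y)) Z‖ ≤ ‖iteratedFDeriv ℝ j f (pz n Z)‖ := by
  have hop : IsOpen (pzR n ⁻¹' ball z₀ r) := (pzR n).continuous.isOpen_preimage _ isOpen_ball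
  have h1 := (pzR n).iteratedFDerivWithin_comp_right (i := j) hf isOpen_ball.uniqueDiffOn
    hop.uniqueDiffOn (x := Z) hZ (WithTop.coe_le_coe.2 (le_top : (j : ℕ∞) ≤ ⊤))
  have h2 := iteratedFDerivWithin_of_isOpen (𝕜 := ℝ) (f := f ∘ pzR n) j hop
  have h3 := iteratedFDerivWithin_of_isOpen (𝕜 := ℝ) (f := f) j (isOpen_ball (x := z₀) (ε := r))
  have hZ' : pzR n Z ∈ ball z₀ r := hZ
  rw [h2 hZ, h3 hZ'] at h1
  have h4 : iteratedFDeriv ℝ j (fun Y => f (pzR n Y)) Z = _ := h1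
  rw [h4]
  refine (ContinuousMultilinearMap.norm_compContinuousLinearMap_le _ _).trans ?_
  rw [Finset.prod_const]
  have h5 : ‖pzR n‖ ^ (Finset.univ : Finset (Fin j)).card ≤ 1 :=
    pow_le_one₀ (norm_nonneg _) (norm_pzR_le n)
  calc _ ≤ ‖iteratedFDeriv ℝ j f (pzR n Z)‖ * 1 := mul_le_mul_of_nonneg_left h5 (norm_nonneg _)
    _ = _ := mul_one _

/-- **interior estimate** for `det ∂∂̄u = e^(f+u)` -/
theorem loc_est (h3 : C3Stmt) (n : ℕ) {r lo hi K N : ℝ} (hr : 0 < r) (hlo : 0 < lo) :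
    ∃ ρ C : ℝ, 0 < ρ ∧ ρ ≤ r ∧ ρ ≤ 1 ∧ 0 ≤ C ∧
      ∀ (z₀ : Cn n) (u f : Cn n → ℝ), ContDiffOn ℝ ∞ u (ball z₀ r) →
      ContDiffOn ℝ ∞ f (ball z₀ r) →
      (∀ z ∈ ball z₀ r, ∀ v, lo * ‖v‖ ^ 2 ≤ lev u z v ∧ lev u z v ≤ hi * ‖v‖ ^ 2) →
      (∀ z ∈ ball z₀ r, (cH u z).det = (Real.exp (f z + u z) : ℂ)) →
      (∀ z ∈ ball z₀ r, ∀ k : ℕ, 1 ≤ k → k ≤ 3 → ‖iteratedFDeriv ℝ k f z‖ ≤ K) →
      (∀ z ∈ ball z₀ r, |u z| ≤ N) →
      HO (1 / 2) C (ball z₀ ρ) (fderiv ℝ (fderiv ℝ u)) := by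
  -- radii and constants
  set r1 : ℝ := min (r / 2) 1 with hr1
  have hr10 : 0 < r1 := lt_min (by linarith) one_pos
  have hr1r : r1 ≤ r / 2 := min_le_left _ _
  have hr11 : r1 ≤ 1 := min_le_right _ _
  set hi' : ℝ := max |hi| lo with hhi'
  have hhi'0 : 0 < hi' := hlo.trans_le (le_max_right _ _)
  set N' : ℝ := |N| with hN'
  have hN'0 : 0 ≤ N' := abs_nonneg _
  set G : ℝ := 2 * N' / (r / 2 / 2) + (hi' + 1) * (r / 2 / 2) / 2 with hG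
  have hG0 : 0 ≤ G := by positivity
  set R : ℝ := N' + 3 with hR
  have hsub : Icc (-(N' + 2)) (N' + 2) ⊆ Ioi (-R) := fun t ht => by
    have := ht.1
    rw [mem_Ioi, hR]
    linarith
  -- bounds of `ψ`, `g`, `h`
  obtain ⟨P0, hP0⟩ := (isCompact_Icc (a := -(N' + 2)) (b := N' + 2)).exists_bound_of_continuousOn
    ((AYPsi_209.contDiffOn_psi n R).continuousOn.mono hsub)
  obtain ⟨g1, hg1⟩ := (isCompact_Icc (a := -(N' + 2)) (b := N' + 2)).exists_bound_of_continuousOn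
    ((AYPsi_209.contDiffOn_g n R).continuousOn.mono hsub)
  obtain ⟨h1, hh1⟩ := (isCompact_Icc (a := -(N' + 2)) (b := N' + 2)).exists_bound_of_continuousOn
    ((AYPsi_209.contDiffOn_h n R).continuousOn.mono hsub)
  obtain ⟨g0, hg00, hg0⟩ := (isCompact_Icc (a := -(N' + 2)) (b := N' + 2)).exists_forall_le'
    ((AYPsi_209.contDiffOn_g n R).continuousOn.mono hsub) (a := 0)
    (fun t ht => AYPsi_209.g_pos (hsub ht))
  obtain ⟨h0, hh00, hh0⟩ := (isCompact_Icc (a := -(N' + 2)) (b := N' + 2)).exists_forall_le'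
    ((AYPsi_209.contDiffOn_h n R).continuousOn.mono hsub) (a := 0)
    (fun t ht => AYPsi_209.h_pos (hsub ht))
  set lo2 : ℝ := min (g0 * lo / (1 + G ^ 2)) (2 * h0) with hlo2
  have hlo20 : 0 < lo2 := lt_min (by positivity) (by positivity)
  set hi2 : ℝ := g1 * |hi'| + 4 * h1 * G ^ 2 + 8 * h1 with hhi2
  obtain ⟨C3, hC3⟩ := h3 (n + 1) r1 lo2 hi2 (K + 2) hr10 hlo20
  set N2 : ℝ := max P0 (max (((n + 1 : ℕ) : ℝ) * hi2) (((n + 1 : ℕ) : ℝ) * C3)) with hN2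
  obtain ⟨C4, hC4⟩ := schFlat_holds (n + 1) (r1 / 2) N2 (by linarith)
  obtain ⟨C', hC'0, hC'⟩ := transfer n (N := N') (G := G) (C := max C4 0) hG0 (le_max_right _ _)
  refine ⟨r1 / 4, C', by linarith, by linarith, by linarith, hC'0,
    fun z₀ u f hu hf hlev hdet hfK huN => ?_⟩
  have huN' : ∀ z ∈ ball z₀ r, |u z| ≤ N' := fun z hz => (huN z hz).trans (le_abs_self _)
  have hlev' : ∀ z ∈ ball z₀ r, ∀ v, lo * ‖v‖ ^ 2 ≤ lev u z v ∧ lev u z v ≤ hi' * ‖v‖ ^ 2 :=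
    fun z hz v => ⟨(hlev z hz v).1, (hlev z hz v).2.trans
      (mul_le_mul_of_nonneg_right ((le_abs_self _).trans (le_max_left _ _)) (by positivity))⟩
  -- gradient
  have hgr : ∀ z ∈ ball z₀ (r / 2), ∀ v, |fderiv ℝ u z v| ≤ G * ‖v‖ := by
    intro z hz v
    have hs : ball z (r / 2) ⊆ ball z₀ r := ball_subset_ball' (by
      rw [mem_ball] at hz
      linarith)
    refine grad_of_lev (by linarith) ((hu.of_le two_le_inf).mono hs)
      (fun w hw => huN' w (hs hw)) (fun w hw v => ?_) v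
    have h2 := hlev' w (hs hw) v
    rw [abs_of_nonneg (le_trans (by positivity) h2.1)]
    exact h2.2
  -- the big ball
  have hbig : ∀ Z ∈ ball (iz n z₀) r1, pz n Z ∈ ball z₀ (r / 2) ∧ ‖pw n Z‖ < 1 := by
    intro Z hZ
    rw [mem_ball, dist_eq_norm] at hZ
    have e1 : pz n Z - z₀ = pz n (Z - iz n z₀) := by rw [map_sub, pz_iz]
    have e2 : pw n Z = pw n (Z - iz n z₀) := by rw [map_sub, pw_iz, sub_zero]
    constructor
    · rw [mem_ball, dist_eq_norm, e1]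
      exact (norm_pz_le _).trans_lt (hZ.trans_le hr1r)
    · rw [e2]
      exact (norm_pw_le _).trans_lt (hZ.trans_le hr11)
  have hr2 : ball z₀ (r / 2) ⊆ ball z₀ r := ball_subset_ball (by linarith)
  have hSI : ∀ Z ∈ ball (iz n z₀) r1, S u Z ∈ Icc (-(N' + 2)) (N' + 2) := by
    intro Z hZ
    obtain ⟨z1, z2⟩ := hbig Z hZ
    have a1 := abs_le.1 (huN' _ (hr2 z1))
    have a2 := abs_le.1 ((Complex.abs_re_le_norm (pw n Z)).trans z2.le)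
    simp only [S, mem_Icc]
    constructor <;> linarith [a1.1, a1.2, a2.1, a2.2]
  have hSR : ∀ Z ∈ ball (iz n z₀) r1, -R < S u Z := fun Z hZ => hsub (hSI Z hZ)
  have huc : ∀ Z ∈ ball (iz n z₀) r1, ContDiffAt ℝ 2 u (pz n Z) := fun Z hZ =>
    (hu.contDiffAt (isOpen_ball.mem_nhds (hr2 (hbig Z hZ).1))).of_le two_le_inf
  set Φ : Cn (n + 1) → ℝ := Ph n R u with hΦ
  have hΦs : ContDiffOn ℝ ∞ Φ (ball (iz n z₀) r1) :=
    contDiffOn_Ph le_rfl hu (fun Z hZ => hr2 (hbig Z hZ).1) hSR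
  have hΦlev : ∀ Z ∈ ball (iz n z₀) r1, ∀ V, lo2 * ‖V‖ ^ 2 ≤ lev Φ Z V ∧
      lev Φ Z V ≤ hi2 * ‖V‖ ^ 2 := by
    intro Z hZ V
    have hz := (hbig Z hZ).1
    exact lev_Ph_bounds (huc Z hZ) (hSR Z hZ) hlo.le (hlev' _ (hr2 hz)) (hgr _ hz) hg00
      ⟨hg0 _ (hSI Z hZ), (le_abs_self _).trans (hg1 _ (hSI Z hZ))⟩ hh00
      ⟨hh0 _ (hSI Z hZ), (le_abs_self _).trans (hh1 _ (hSI Z hZ))⟩ V
  set F : Cn (n + 1) → ℝ := fun Z => f (pzR n Z) - pwR n Z with hF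
  have hfp : ContDiffOn ℝ ∞ (fun Z => f (pzR n Z)) (ball (iz n z₀) r1) :=
    hf.comp (pzR n).contDiff.contDiffOn fun Z hZ => hr2 (hbig Z hZ).1
  have hFs : ContDiffOn ℝ ∞ F (ball (iz n z₀) r1) := hfp.sub (pwR n).contDiff.contDiffOn
  have hΦdet : ∀ Z ∈ ball (iz n z₀) r1, (cH Φ Z).det = (Real.exp (F Z) : ℂ) := fun Z hZ =>
    det_Ph_eq (huc Z hZ) (hSR Z hZ) (hdet _ (hr2 (hbig Z hZ).1))
  have hFK : ∀ Z ∈ ball (iz n z₀) r1, ∀ k : ℕ, 1 ≤ k → k ≤ 3 →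
      ‖iteratedFDeriv ℝ k F Z‖ ≤ K + 2 := by
    intro Z hZ k hk1 hk3
    have hk' : ((k : ℕ∞) : WithTop ℕ∞) ≤ ∞ := WithTop.coe_le_coe.2 (le_top : (k : ℕ∞) ≤ ⊤)
    have c1 : ContDiffAt ℝ k (fun Z => f (pzR n Z)) Z :=
      (hfp.contDiffAt (isOpen_ball.mem_nhds hZ)).of_le hk'
    have c2 : ContDiffAt ℝ k (pwR n : Cn (n + 1) → ℝ) Z :=
      (pwR n).contDiff.contDiffAt
    have e1 : F = (fun Z => f (pzR n Z)) - (pwR n : Cn (n + 1) → ℝ) := rfl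
    have e2 : iteratedFDeriv ℝ k F Z = iteratedFDeriv ℝ k (fun Z => f (pzR n Z)) Z -
        iteratedFDeriv ℝ k (pwR n : Cn (n + 1) → ℝ) Z := by
      rw [e1, iteratedFDeriv_sub_apply c1 c2]
    rw [e2]
    refine (norm_sub_le _ _).trans (add_le_add ?_ (iter_pwR n Z k hk1))
    exact (iter_comp_pzR hf (hr2 (hbig Z hZ).1) k).trans (hfK _ (hr2 (hbig Z hZ).1) k hk1 hk3)
  have hc := hC3 (iz n z₀) Φ F hΦs hFs hΦlev hΦdet hFK
  have hsub2 : ball (iz n z₀) (r1 / 2) ⊆ ball (iz n z₀) r1 := ball_subset_ball (by linarith)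
  have hfin := hC4 (iz n z₀) Φ (hΦs.mono hsub2)
    (fun Z hZ => (hP0 _ (hSI Z (hsub2 hZ))).trans (le_max_left _ _))
    (fun Z hZ => by
      have hZ' := hsub2 hZ
      have hc2 : ContDiffAt ℝ 2 Φ Z :=
        (hΦs.contDiffAt (isOpen_ball.mem_nhds hZ')).of_le two_le_inf
      refine (trace_le hc2 (hi := hi2) (fun v => ?_) (fun v => (hΦlev Z hZ' v).2)).trans
        ((le_max_left _ _).trans (le_max_right _ _))
      exact le_trans (by positivity) (hΦlev Z hZ' v).1)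
    (fun Z hZ W hW => (trace_lip (hΦs.mono hsub2) hc hZ hW).trans
      (mul_le_mul_of_nonneg_right ((le_max_right _ _).trans (le_max_right _ _))
        (norm_nonneg _)))
  have e4 : r1 / 2 / 2 = r1 / 4 := by ring
  rw [e4] at hfin
  have hiz : ∀ z ∈ ball z₀ (r1 / 4), iz n z ∈ ball (iz n z₀) (r1 / 4) := by
    intro z hz
    rw [mem_ball, dist_eq_norm, ← map_sub, norm_iz, ← dist_eq_norm]
    exact hz
  have hr3 : ball z₀ (r1 / 4) ⊆ ball z₀ (r / 2) := ball_subset_ball (by linarith)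
  refine hC' z₀ (r1 / 4) u (by linarith) (by linarith)
    ((hu.of_le two_le_inf).mono (hr3.trans hr2)) (fun z hz => huN' z (hr2 (hr3 hz)))
    (fun z hz => hgr z (hr3 hz)) (fun z hz => (hfin.1 _ (hiz z hz)).trans (le_max_left _ _))
    (fun z hz w hw => ?_)
  have := hfin.2 _ (hiz z hz) _ (hiz w hw)
  rw [← map_sub, norm_iz] at this
  exact this.trans (mul_le_mul_of_nonneg_right (le_max_left _ _)
    (Real.rpow_nonneg (norm_nonneg _) _))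

theorem local_limit_ay (h3 : C3Stmt) (U : Ultrafilter ℕ) {z₀ : Cn n}
    {r lo hi K N : ℝ} (hr : 0 < r) (hlo : 0 < lo)
    {u f : ℕ → Cn n → ℝ} {V : Cn n → ℝ}
    (hu : ∀ k, ContDiffOn ℝ ∞ (u k) (ball z₀ r)) (hf : ∀ k, ContDiffOn ℝ ∞ (f k) (ball z₀ r))
    (hlev : ∀ k, ∀ z ∈ ball z₀ r, ∀ v, lo * ‖v‖ ^ 2 ≤ lev (u k) z v ∧
      lev (u k) z v ≤ hi * ‖v‖ ^ 2)
    (hdet : ∀ k, ∀ z ∈ ball z₀ r, (cH (u k) z).det = (Real.exp (f k z + u k z) : ℂ))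
    (hfK : ∀ k, ∀ z ∈ ball z₀ r, ∀ j : ℕ, 1 ≤ j → j ≤ 3 → ‖iteratedFDeriv ℝ j (f k) z‖ ≤ K)
    (huN : ∀ k, ∀ z ∈ ball z₀ r, |u k z| ≤ N)
    (hV : ∀ z ∈ ball z₀ r, Tendsto (fun k => u k z) U (𝓝 (V z))) :
    ∃ ρ C : ℝ, 0 < ρ ∧ ρ ≤ r ∧ ContDiffOn ℝ 2 V (ball z₀ ρ) ∧
      (∀ z ∈ ball z₀ ρ, Tendsto (fun k => fderiv ℝ (fderiv ℝ (u k)) z) U
        (𝓝 (fderiv ℝ (fderiv ℝ V) z))) ∧
      ∀ z ∈ ball z₀ ρ, ∀ w ∈ ball z₀ ρ,
        ‖fderiv ℝ (fderiv ℝ V) z - fderiv ℝ (fderiv ℝ V) w‖ ≤ C * ‖z - w‖ ^ (1 / 2 : ℝ) := by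
  obtain ⟨ρ, C, hρ0, hρr, hρ1, hC0, hC⟩ := loc_est h3 n (r := r) (lo := lo) (hi := hi) (K := K)
    (N := N) hr hlo
  have hsub : ball z₀ ρ ⊆ ball z₀ r := ball_subset_ball hρr
  have key : ∀ k, HO (1 / 2) C (ball z₀ ρ) (fderiv ℝ (fderiv ℝ (u k))) := fun k =>
    hC z₀ (u k) (f k) (hu k) (hf k) (hlev k) (hdet k) (hfK k) (huN k)
  obtain ⟨g1, g2, g3⟩ := ball_limit U (z₀ := z₀) (r := ρ) (a := 1 / 2) (S := max (max N C) 0)
    (by norm_num) (le_max_right _ _) (u := u) (V := V)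
    (fun k => ((hu k).mono hsub).of_le two_le_inf)
    (fun k z hz => (huN k z (hsub hz)).trans ((le_max_left _ _).trans (le_max_left _ _)))
    (fun k => (key k).mono ((le_max_right _ _).trans (le_max_left _ _)))
    (fun z hz => hV z (hsub hz))
  exact ⟨ρ, max (max N C) 0, hρ0, hρr, g1, g2, g3.hol⟩

end

end Crest.Agent.R257.AYLoc_209
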