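import Crest.Agent.R273.YauTop_635
import Crest.Agent.R273.C2a_289

/-!
# R257 (S0395), E-AY (helper635): the linear equation `Δ w - w = f`

* `lin_tw` : approximate solvability with uniform `C^{2,a}` bound (dense range + a priori estimate)
-/

set_option autoImplicit false
set_option linter.unusedSectionVars false

open Set Filter Topology Complex Metric
open scoped ContDiff Matrix ComplexConjugate ComplexOrder

namespace Crest.Agent.R257.AYM1_635

open Crest.Agent.R275.Geo Crest.Agent.R275.Core144 Crest.Agent.R275.GC293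
open Crest.Agent.R273.Defs_333 Crest.Agent.R273.YauDefs_635 Crest.Agent.R273.HM_333
open Crest.Agent.R273.YauCh_635 Crest.Agent.R273.Hess_333 Crest.Agent.R273.HessB_333
open Crest.Agent.R273.Kah_333 Crest.Agent.R273.YauMax_635 Crest.Agent.R273.YauLoc_635
open Crest.Agent.R273.SchA_152 Crest.Agent.R273.SchD_152 Crest.Agent.R273.YauQ_635
open Crest.Agent.R273.SchF_152 Crest.Agent.R273.SchG_152 Crest.Agent.R273.SchH_152
open Crest.Agent.R273.SchK_152
open Crest.Agent.R273.YauSchF_635 Crest.Agent.R273.YauClose_635 Crest.Agent.R273.YauPf_635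
open Crest.Agent.R273.YauOpA_635

noncomputable section

variable {n : ℕ} {M : Type} [TopologicalSpace M] {A : Atl n M} {L : LB A}

/-! ### linearity of the Laplacian -/

theorem cH_smul' {u : Cn n → ℝ} {z : Cn n} (hu : ContDiffAt ℝ ∞ u z) (c : ℝ) :
    cH (fun w => c * u w) z = (c : ℂ) • cH u z := by
  rw [cH_eq_hess (contDiffAt_const.mul hu), cH_eq_hess hu]
  exact hess_const_mul c hu

theorem Lf_add (H : HM L) {φ v w : M → ℝ} (hφ : A.Sm φ) (hv : A.Sm v) (hw : A.Sm w) (x : M) :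
    Lf H φ (fun y => v y + w y) x = Lf H φ v x + Lf H φ w x := by
  obtain ⟨i, hi⟩ := A.cover x
  have hz := (A.e i).map_source hi
  rw [Lf_eq H hφ (sm_add hv hw) hi, Lf_eq H hφ hv hi, Lf_eq H hφ hw hi]
  have e1 : cH (inC A i (fun y => v y + w y)) (A.e i x) =
      cH (inC A i v) (A.e i x) + cH (inC A i w) (A.e i x) :=
    cH_add' (inC_contDiffAt hv i hz) (inC_contDiffAt hw i hz)
  rw [lr, e1, Matrix.mul_add, Matrix.trace_add, Complex.add_re]
  rfl

theorem sm_smul {v : M → ℝ} (c : ℝ) (hv : A.Sm v) : A.Sm (fun y => c * v y) :=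
  fun i => contDiffOn_const.mul (hv i)

theorem Lf_smul (H : HM L) {φ v : M → ℝ} (hφ : A.Sm φ) (hv : A.Sm v) (c : ℝ) (x : M) :
    Lf H φ (fun y => c * v y) x = c * Lf H φ v x := by
  obtain ⟨i, hi⟩ := A.cover x
  have hz := (A.e i).map_source hi
  rw [Lf_eq H hφ (sm_smul c hv) hi, Lf_eq H hφ hv hi]
  have e1 : cH (inC A i (fun y => c * v y)) (A.e i x) = (c : ℂ) • cH (inC A i v) (A.e i x) :=
    cH_smul' (inC_contDiffAt hv i hz) c
  rw [lr, e1, Matrix.mul_smul, Matrix.trace_smul, smul_eq_mul, Complex.re_ofReal_mul]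
  rfl

theorem Lf_sub_const (H : HM L) {φ v : M → ℝ} (hφ : A.Sm φ) (hv : A.Sm v) (c : ℝ) (x : M) :
    Lf H φ (fun y => v y - c) x = Lf H φ v x := by
  obtain ⟨i, hi⟩ := A.cover x
  have hv' : A.Sm (fun y => v y - c) := fun i => (hv i).sub contDiffOn_const
  rw [Lf_eq H hφ hv' hi, Lf_eq H hφ hv hi, lr, lr]
  have e : inC A i (fun x => v x - c) = fun w => inC A i v w - c := rfl
  rw [e, cH_sub_const]

/-! ### maximum principle -/

theorem Lf_nonneg_of_localMin (H : HM L) {φ w : M → ℝ} (hφ : A.Sm φ) (hK : KPos H φ)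
    (hw : A.Sm w) {x : M} (hm : IsLocalMin w x) : 0 ≤ Lf H φ w x := by
  obtain ⟨i, hi⟩ := A.cover x
  have hz := (A.e i).map_source hi
  rw [Lf_eq H hφ hw hi, lr]
  have h1 : (cH (inC A i w) (A.e i x)).PosSemidef := by
    rw [cH_eq_hess (inC_contDiffAt hw i hz)]
    exact posSemidef_hess (inC_contDiffAt hw i hz)
      (lev_nonneg_of_localMin (inC_c2 hw i hz) (inC_localMin hm hi))
  have h2 := (posDef_pot hφ hK hz).inv.posSemidef
  exact (Complex.nonneg_iff.1
    (Crest.Agent.R273.C2a_289.trace_mul_nonneg h2 h1)).1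

theorem low_bound [CompactSpace M] [Nonempty M] (H : HM L) {φ w : M → ℝ} (hφ : A.Sm φ)
    (hK : KPos H φ) (hw : A.Sm w) {τ N : ℝ} (hτ : 0 < τ)
    (h : ∀ x, Lf H φ w x - τ * w x ≤ N) (x : M) : -(N / τ) ≤ w x := by
  obtain ⟨y, -, hy⟩ := isCompact_univ.exists_isMinOn univ_nonempty
    (continuous_of_sm hw).continuousOn
  have h1 := Lf_nonneg_of_localMin H hφ hK hw (hy.isLocalMin univ_mem)
  have h2 := h y
  have h3 : w y ≤ w x := hy (mem_univ x)
  have h4 : -(N / τ) ≤ w y := by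
    rw [neg_le, ← neg_div_neg_eq] at *
    rw [div_neg, neg_div, neg_neg] at *
    rw [← mul_le_mul_iff_right₀ hτ]
    have : τ * (N / τ) = N := by field_simp
    nlinarith
  exact h4.trans h3

theorem sup_bound [CompactSpace M] [Nonempty M] (H : HM L) {φ w : M → ℝ} (hφ : A.Sm φ)
    (hK : KPos H φ) (hw : A.Sm w) {τ N : ℝ} (hτ : 0 < τ)
    (h : ∀ x, |Lf H φ w x - τ * w x| ≤ N) (x : M) : |w x| ≤ N / τ := by
  refine abs_le.2 ⟨low_bound H hφ hK hw hτ (fun x => (le_abs_self _).trans (h x)) x, ?_⟩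
  have h1 := low_bound H hφ hK (sm_smul (-1) hw) hτ (N := N) (fun y => by
    rw [Lf_smul H hφ hw]
    have := (abs_le.1 (h y)).1
    linarith) x
  linarith

/-! ### interpolation -/

theorem ho_interp {u : Cn n → ℝ} {z₀ : Cn n} {R Q S θ : ℝ} (hQ : 0 ≤ Q) (hS : 0 ≤ S)
    (hθ : 0 < θ) (hd : ∀ z ∈ closedBall z₀ R, DifferentiableAt ℝ u z)
    (h1 : ∀ z ∈ closedBall z₀ R, ‖fderiv ℝ u z‖ ≤ Q) (h0 : ∀ z ∈ closedBall z₀ R, |u z| ≤ S) :
    HO (1 / 2) (S + Q * θ + 2 * S / θ) (closedBall z₀ R) u := by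
  have hp : 0 ≤ 2 * S / θ := by positivity
  refine ⟨fun z hz => ?_, fun z hz w hw => ?_⟩
  · have := h0 z hz
    rw [Real.norm_eq_abs]
    nlinarith [mul_nonneg hQ hθ.le]
  · set t : ℝ := ‖z - w‖ ^ (1 / 2 : ℝ) with ht
    have ht0 : 0 ≤ t := Real.rpow_nonneg (norm_nonneg _) _
    have htt : t * t = ‖z - w‖ := by
      rw [ht, ← Real.rpow_add_of_nonneg (norm_nonneg _) (by norm_num) (by norm_num)]
      norm_num
    rcases le_total t θ with hle | hle
    · have h2 : ‖u z - u w‖ ≤ Q * ‖z - w‖ :=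
        (convex_closedBall z₀ R).norm_image_sub_le_of_norm_fderiv_le (𝕜 := ℝ) hd h1 hw hz
      calc ‖u z - u w‖ ≤ Q * (t * t) := by rw [htt]; exact h2
        _ ≤ Q * (θ * t) := mul_le_mul_of_nonneg_left (mul_le_mul_of_nonneg_right hle ht0) hQ
        _ = (Q * θ) * t := by ring
        _ ≤ (S + Q * θ + 2 * S / θ) * t := mul_le_mul_of_nonneg_right (by linarith) ht0
    · have h2 : ‖u z - u w‖ ≤ 2 * S := by
        rw [Real.norm_eq_abs]
        have := abs_sub (u z) (u w)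
        linarith [h0 z hz, h0 w hw]
      calc ‖u z - u w‖ ≤ 2 * S := h2
        _ = (2 * S / θ) * θ := by field_simp
        _ ≤ (2 * S / θ) * t := mul_le_mul_of_nonneg_left hle hp
        _ ≤ (S + Q * θ + 2 * S / θ) * t :=
          mul_le_mul_of_nonneg_right (by nlinarith [mul_nonneg hQ hθ.le]) ht0

theorem ho_closed {X F : Type*} [NormedAddCommGroup X] [NormedAddCommGroup F] {a Q : ℝ}
    {s : Set X} {r : X → F} (h : ∀ ε > 0, HO a (Q + ε) s r) : HO a Q s r := by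
  refine ⟨fun x hx => le_of_forall_pos_le_add fun ε hε => (h ε hε).bdd x hx,
    fun x hx y hy => ?_⟩
  set t : ℝ := ‖x - y‖ ^ a with ht
  have ht0 : 0 ≤ t := Real.rpow_nonneg (norm_nonneg _) _
  refine le_of_forall_pos_le_add fun ε hε => ?_
  have h1 := (h (ε / (t + 1)) (by positivity)).hol x hx y hy
  have h2 : (Q + ε / (t + 1)) * t ≤ Q * t + ε := by
    have h3 : ε / (t + 1) * t ≤ ε := by
      rw [div_mul_eq_mul_div, div_le_iff₀ (by positivity)]
      nlinarith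
    nlinarith
  exact h1.trans h2

theorem N2_closed {B : Cb A} {a Q : ℝ} {v : M → ℝ} (h : ∀ ε > 0, B.N2 a (Q + ε) v) :
    B.N2 a Q v := fun k =>
  ⟨ho_closed fun ε hε => (h ε hε k).h0, ho_closed fun ε hε => (h ε hε k).h1,
    ho_closed fun ε hε => (h ε hε k).h2⟩

/-! ### the a priori estimate -/

section glob

variable [T2Space M] [CompactSpace M] [ConnectedSpace M] [Finite A.ι]

theorem exists_NH (B : Cb A) {f : M → ℝ} (hf : A.Sm f) : ∃ N, 0 ≤ N ∧ B.NH (1 / 2) N f := by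
  have := B.fin
  have h1 : ∀ k, ∃ V, HO (1 / 2) V (closedBall (B.z k) (B.r k / 2)) (inC A (B.i k) f) := fun k =>
    ho_c1 (A.e (B.i k)).open_target ((inC_smooth hf _).of_le (by simp))
      (by linarith [B.r1 k, B.r0 k]) (B.sub' k)
  choose V hV using h1
  obtain ⟨K, hK0, hK⟩ := exists_ub V
  exact ⟨K, hK0, fun k => (hV k).mono (hK k)⟩

theorem NH_add {B : Cb A} {a N N' : ℝ} {f g : M → ℝ} (hf : B.NH a N f) (hg : B.NH a N' g) :
    B.NH a (N + N') (fun x => f x + g x) := fun k => (hf k).add (hg k)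

theorem NH_smul {B : Cb A} {a N : ℝ} {f : M → ℝ} (c : ℝ) (hf : B.NH a N f) :
    B.NH a (|c| * N) (fun x => c * f x) := fun k => ho_smul c (hf k)

theorem isLap_Lf (H : HM L) {φ w : M → ℝ} (hφ : A.Sm φ) (hK : KPos H φ) (hw : A.Sm w) :
    IsLap (gi (kp H hφ hK)) w (Lf H φ w) := by
  intro i z hz
  rw [gi_kp H hφ hK i hz, Lf_read H hφ hw hz]
  rfl

/-- **a priori estimate** for `Δ w - τ w` -/
theorem apriori (B : Cb A) {H : HM L} {φ : M → ℝ} (hφ : A.Sm φ) (hK : KPos H φ)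
    {τ₀ : ℝ} (hτ₀ : 0 < τ₀) : ∃ C : ℝ, 0 < C ∧ ∀ (τ N : ℝ) (w : M → ℝ), τ₀ ≤ τ → τ ≤ 1 →
      A.Sm w → B.NH (1 / 2) N (fun x => Lf H φ w x - τ * w x) → B.N2 (1 / 2) (C * N) w := by
  obtain ⟨C, hC, hsch⟩ := schauder B (a := 1 / 2) (by norm_num) (by norm_num) (pg (kp H hφ hK))
  set θ : ℝ := 1 / (2 * C) with hθ
  have hθ0 : 0 < θ := by positivity
  have hCθ : C * θ = 1 / 2 := by rw [hθ]; field_simp
  set c : ℝ := 2 * (C * (1 + 2 / τ₀ + 2 / (θ * τ₀))) with hc
  refine ⟨c, by positivity, fun τ N w h0 h1 hw hN => ?_⟩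
  have hN0 : 0 ≤ N := hN.nonneg
  have hτ : 0 < τ := hτ₀.trans_le h0
  set S : ℝ := N / τ₀ with hS
  have hS0 : 0 ≤ S := by positivity
  have hwS : ∀ x, |w x| ≤ S := fun x =>
    (sup_bound H hφ hK hw hτ (fun x => hN.bdd x) x).trans
      (div_le_div_of_nonneg_left hN0 hτ₀ h0)
  set X : ℝ := C * (N + 2 * S + 2 * S / θ) with hX
  have hX0 : 0 ≤ X := by positivity
  -- improvement of the bound
  have himp : ∀ Q, 0 ≤ Q → B.N2 (1 / 2) Q w → B.N2 (1 / 2) (Q / 2 + X) w := by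
    intro Q hQ0 hQ
    have h2 : B.NH (1 / 2) (S + Q * θ + 2 * S / θ) w := fun k =>
      ho_interp hQ0 hS0 hθ0
        (fun z hz => ((inC_contDiffAt hw (B.i k) (B.sub' k hz)).differentiableAt (by simp)))
        (fun z hz => (hQ k).h1.bdd z hz) (fun z _ => hwS _)
    have h3 := NH_add hN (NH_smul τ h2)
    have h4 : (fun x => Lf H φ w x - τ * w x + τ * w x) = Lf H φ w := by
      funext x
      ring
    rw [h4, abs_of_pos hτ] at h3
    have h5 := hsch w _ _ S (Sm2.of_sm (by norm_num) (by norm_num) hw) (isLap_Lf H hφ hK hw) h3 hwS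
    refine h5.mono ?_
    have h6 : τ * (S + Q * θ + 2 * S / θ) ≤ 1 * (S + Q * θ + 2 * S / θ) :=
      mul_le_mul_of_nonneg_right h1 (by positivity)
    calc C * (N + τ * (S + Q * θ + 2 * S / θ) + S) ≤
          C * (N + 1 * (S + Q * θ + 2 * S / θ) + S) :=
          mul_le_mul_of_nonneg_left (by linarith) hC.le
      _ = Q * (C * θ) + X := by rw [hX]; ring
      _ = Q / 2 + X := by rw [hCθ]; ring
  obtain ⟨N', hN'0, hN'⟩ := exists_NH B (Lf_sm hφ hK hw)
  have hstart := hsch w _ N' S (Sm2.of_sm (by norm_num) (by norm_num) hw)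
    (isLap_Lf H hφ hK hw) hN' hwS
  set Q₀ : ℝ := C * (N' + S) with hQ₀
  have hQ₀0 : 0 ≤ Q₀ := by positivity
  have hiter : ∀ k : ℕ, B.N2 (1 / 2) (Q₀ * (1 / 2) ^ k + 2 * X) w := by
    intro k
    induction k with
    | zero => exact hstart.mono (by simp; positivity)
    | succ k ih =>
      refine (himp _ (by positivity) ih).mono (le_of_eq ?_)
      rw [pow_succ]
      ring
  have hlim : B.N2 (1 / 2) (2 * X) w := by
    refine N2_closed fun ε hε => ?_
    obtain ⟨k, hk⟩ := exists_pow_lt_of_lt_one (show (0 : ℝ) < ε / (Q₀ + 1) by positivity)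
      (show (1 / 2 : ℝ) < 1 by norm_num)
    refine (hiter k).mono ?_
    have h2 : Q₀ * (1 / 2) ^ k ≤ ε := by
      have h3 : (Q₀ + 1) * (1 / 2 : ℝ) ^ k ≤ ε := by
        rw [lt_div_iff₀ (by positivity)] at hk
        nlinarith
      have h4 : (0 : ℝ) ≤ (1 / 2) ^ k := by positivity
      nlinarith
    linarith
  refine hlim.mono (le_of_eq ?_)
  rw [hX, hc, hS]
  field_simp

/-! ### dense range -/

/-- half improvement implies dense range -/
theorem dense_of_half (B : Cb A) {H : HM L} {φ : M → ℝ} (hφ : A.Sm φ) (hK : KPos H φ) {τ : ℝ}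
    (h : ∀ (N : ℝ) (f : M → ℝ), 0 < N → A.Sm f → B.NH (1 / 2) N f → ∃ w, A.Sm w ∧
      B.NH (1 / 2) (N / 2) (fun x => (Lf H φ w x - τ * w x) - f x)) (f : M → ℝ) (hf : A.Sm f)
    {ε : ℝ} (hε : 0 < ε) : ∃ w, A.Sm w ∧
      B.NH (1 / 2) ε (fun x => (Lf H φ w x - τ * w x) - f x) := by
  obtain ⟨N, hN0, hN⟩ := exists_NH B hf
  have hN1 : 0 < N + 1 := by linarith
  have key : ∀ k : ℕ, ∃ w, A.Sm w ∧
      B.NH (1 / 2) ((N + 1) * (1 / 2) ^ k) (fun x => (Lf H φ w x - τ * w x) - f x) := by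
    intro k
    induction k with
    | zero =>
      have hz : A.Sm (fun _ : M => (0 : ℝ)) := fun i => contDiffOn_const
      refine ⟨fun _ => 0, hz, ?_⟩
      have h1 := NH_smul (-1) (hN.mono (by linarith : N ≤ N + 1))
      have e : (fun x => (Lf H φ (fun _ => 0) x - τ * 0) - f x) = fun x => -1 * f x := by
        funext x
        have h2 := Lf_smul H hφ hz 0 x
        have h3 : (fun y : M => (0 : ℝ) * (0 : ℝ)) = fun _ => 0 := by
          funext y
          simp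
        rw [h3] at h2
        rw [h2]
        ring
      rw [e]
      refine h1.mono (le_of_eq ?_)
      simp
    | succ k ih =>
      obtain ⟨w, hw, hwN⟩ := ih
      have hes : A.Sm (fun x => (Lf H φ w x - τ * w x) - f x) := fun i =>
        ((Lf_sm hφ hK hw i).sub (contDiffOn_const.mul (hw i))).sub (hf i)
      have h1 := NH_smul (-1) hwN
      rw [abs_neg, abs_one, one_mul] at h1
      obtain ⟨w', hw', hw'N⟩ := h _ _ (by positivity) (sm_smul (-1) hes) h1
      refine ⟨fun x => w x + w' x, sm_add hw hw', ?_⟩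
      refine Cb.NH.mono ?_ (le_of_eq (by rw [pow_succ]; ring :
        (N + 1) * (1 / 2) ^ k / 2 = (N + 1) * (1 / 2) ^ (k + 1)))
      refine (fun k' => (hw'N k').congr fun z hz => ?_)
      simp only [inC]
      rw [Lf_add H hφ hw hw']
      ring
  obtain ⟨k, hk⟩ := exists_pow_lt_of_lt_one (show (0 : ℝ) < ε / (N + 1) by positivity)
    (show (1 / 2 : ℝ) < 1 by norm_num)
  obtain ⟨w, hw, hwN⟩ := key k
  refine ⟨w, hw, hwN.mono ?_⟩
  rw [lt_div_iff₀ hN1] at hk
  linarith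

/-- dense range at the parameter `τ` -/
def Dn (B : Cb A) (H : HM L) (φ : M → ℝ) (τ : ℝ) : Prop :=
  ∀ f : M → ℝ, A.Sm f → ∀ ε : ℝ, 0 < ε → ∃ w, A.Sm w ∧
    B.NH (1 / 2) ε (fun x => (Lf H φ w x - τ * w x) - f x)

theorem dn_step (B : Cb A) {H : HM L} {φ : M → ℝ} (hφ : A.Sm φ) (hK : KPos H φ) {C : ℝ}
    {τ τ' : ℝ}
    (hap : ∀ (N : ℝ) (w : M → ℝ), A.Sm w → B.NH (1 / 2) N (fun x => Lf H φ w x - τ * w x) →
      B.N2 (1 / 2) (C * N) w) (hτ : |τ - τ'| * C ≤ 1 / 8) (h : Dn B H φ τ) : Dn B H φ τ' := by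
  intro f hf ε hε
  refine dense_of_half B hφ hK (fun N g hN hg hgN => ?_) f hf hε
  obtain ⟨w, hw, hwN⟩ := h g hg (N / 4) (by positivity)
  have h1 : B.NH (1 / 2) (N + N / 4) (fun x => Lf H φ w x - τ * w x) := by
    refine fun k => ((NH_add hgN hwN) k).congr fun z hz => ?_
    simp only [inC]
    ring
  have h2 := hap _ w hw h1
  have h3 := NH_smul (τ - τ') h2.nh
  refine ⟨w, hw, ?_⟩
  have h4 := NH_add hwN h3
  refine Cb.NH.mono (fun k => (h4 k).congr fun z hz => ?_) (?_ :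
    N / 4 + |τ - τ'| * (C * (N + N / 4)) ≤ N / 2)
  · simp only [inC]
    ring
  · nlinarith

theorem dn_start (P : Part A) (B : Cb A) {H : HM L} {φ : M → ℝ} (hφ : A.Sm φ) (hK : KPos H φ) :
    ∃ τ₀ : ℝ, 0 < τ₀ ∧ τ₀ ≤ 1 ∧ Dn B H φ τ₀ := by
  obtain ⟨C, hC, hb⟩ := lin_bound P hφ hK B (a := 1 / 2) (by norm_num) (by norm_num)
  obtain ⟨x₀⟩ : Nonempty M := inferInstance
  refine ⟨min 1 (1 / (2 * C)), lt_min one_pos (by positivity), min_le_left _ _, ?_⟩
  set τ : ℝ := min 1 (1 / (2 * C)) with hτ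
  have hτ0 : 0 < τ := lt_min one_pos (by positivity)
  have hτC : τ * C ≤ 1 / 2 := by
    have h1 : τ ≤ 1 / (2 * C) := min_le_right _ _
    calc τ * C ≤ 1 / (2 * C) * C := mul_le_mul_of_nonneg_right h1 hC.le
      _ = 1 / 2 := by field_simp
  intro f hf ε hε
  refine dense_of_half B hφ hK (fun N g hN hg hgN => ?_) f hf hε
  obtain ⟨v, m, hv, hlin⟩ := Crest.Agent.R273.CLin_933.lin_exist P H hφ hK hg
  have hv' : A.Sm (fun x => v x - v x₀) := fun i => (hv i).sub contDiffOn_const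
  have hlin' : LinEq H φ (fun x => v x - v x₀) g m :=
    Crest.Agent.R273.YauLin_635.linEq_sub hlin _
  have h1 := hb x₀ (fun x => v x - v x₀) g m N hv' hlin' hgN (sub_self _)
  set w : M → ℝ := fun x => (v x - v x₀) - m / τ with hw
  have hws : A.Sm w := fun i => (hv' i).sub contDiffOn_const
  refine ⟨w, hws, ?_⟩
  have h2 := NH_smul (-τ) h1.nh
  refine Cb.NH.mono (fun k => (h2 k).congr fun z hz => ?_) (?_ : |(-τ)| * (C * N) ≤ N / 2)
  · have hzt := B.sub' k hz
    have e1 : Lf H φ w ((A.e (B.i k)).symm z) = g ((A.e (B.i k)).symm z) - m := by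
      rw [hw, Lf_sub_const H hφ hv']
      have h3 := Lf_read H hφ hv' hzt
      simp only [inC] at h3
      rw [h3, lr, hlin' _ _ hzt, Complex.ofReal_re]
    simp only [inC]
    rw [e1, hw]
    field_simp
    ring
  · rw [abs_neg, abs_of_pos hτ0]
    nlinarith

theorem dn_one (P : Part A) (B : Cb A) {H : HM L} {φ : M → ℝ} (hφ : A.Sm φ) (hK : KPos H φ) :
    Dn B H φ 1 := by
  obtain ⟨τ₀, h0, h1, hd⟩ := dn_start P B hφ hK
  obtain ⟨C, hC, hap⟩ := apriori B hφ hK h0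
  obtain ⟨m, hm⟩ := exists_nat_gt (8 * C)
  have hm0 : (0 : ℝ) < m := lt_trans (by positivity) hm
  have key : ∀ k : ℕ, Dn B H φ (min 1 (τ₀ + k / m)) := by
    intro k
    induction k with
    | zero =>
      rw [Nat.cast_zero, zero_div, add_zero, min_eq_right h1]
      exact hd
    | succ k ih =>
      have hk0 : (0 : ℝ) ≤ k / m := by positivity
      refine dn_step B hφ hK (fun N w hw hN => hap _ N w (le_min h1 (by linarith))
        (min_le_left _ _) hw hN) ?_ ih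
      have h2 : |min 1 (τ₀ + (k : ℝ) / m) - min 1 (τ₀ + ((k + 1 : ℕ) : ℝ) / m)| ≤ 1 / m := by
        have h3 := abs_min_sub_min_le_max (1 : ℝ) (τ₀ + (k : ℝ) / m) 1
          (τ₀ + ((k + 1 : ℕ) : ℝ) / m)
        refine h3.trans ?_
        rw [sub_self, abs_zero]
        have h4 : τ₀ + (k : ℝ) / m - (τ₀ + ((k + 1 : ℕ) : ℝ) / m) = -(1 / m) := by
          push_cast
          ring
        rw [h4, abs_neg, abs_of_pos (by positivity)]
        exact max_le (by positivity) le_rfl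
      calc _ ≤ 1 / (m : ℝ) * C := mul_le_mul_of_nonneg_right h2 hC.le
        _ ≤ 1 / 8 := by
          rw [div_mul_eq_mul_div, one_mul, div_le_iff₀ hm0]
          linarith
  have h2 := key m
  rw [div_self hm0.ne', min_eq_left (by linarith)] at h2
  exact h2

/-- **the linear step**: approximate solutions of `Δ w - w = f` with `C^{2,a}` bounds -/
theorem lin_tw (P : Part A) (B : Cb A) {H : HM L} {φ : M → ℝ} (hφ : A.Sm φ) (hK : KPos H φ) :
    ∃ C : ℝ, 0 < C ∧ ∀ (N : ℝ) (f : M → ℝ), 0 < N → A.Sm f → B.NH (1 / 2) N f →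
      ∀ ε : ℝ, 0 < ε → ε ≤ 1 → ∃ w, A.Sm w ∧ B.N2 (1 / 2) (C * N) w ∧
        B.NH (1 / 2) (ε * N) (fun x => (Lf H φ w x - w x) - f x) := by
  obtain ⟨C, hC, hap⟩ := apriori B hφ hK one_pos
  refine ⟨2 * C, by positivity, fun N f hN hf hfN ε hε hε1 => ?_⟩
  obtain ⟨w, hw, hwN⟩ := dn_one P B hφ hK f hf (ε * N) (by positivity)
  refine ⟨w, hw, ?_, ?_⟩
  · have h1 : B.NH (1 / 2) (N + ε * N) (fun x => Lf H φ w x - 1 * w x) := by
      refine fun k => ((NH_add hfN hwN) k).congr fun z hz => ?_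
      simp only [inC]
      ring
    refine (hap 1 _ w le_rfl le_rfl hw h1).mono ?_
    have h2 : ε * N ≤ 1 * N := mul_le_mul_of_nonneg_right hε1 hN.le
    calc C * (N + ε * N) ≤ C * (N + 1 * N) := mul_le_mul_of_nonneg_left (by linarith) hC.le
      _ = 2 * C * N := by ring
  · refine fun k => (hwN k).congr fun z hz => ?_
    simp only [inC]
    ring

end glob

end

end Crest.Agent.R257.AYM1_635
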