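import Crest.Agent.R273.CRegE_933

/-!
# R257 (S0395), E-AY (helper635): regularity of the twisted Monge-Ampere equation
(the proof of `CReg_933.reg_holds` with `f + c u` on the right hand side)
-/

set_option autoImplicit false
set_option linter.unusedSectionVars false

open MeasureTheory Set Filter Metric Complex
open scoped ContDiff Topology ComplexConjugate Matrix ComplexOrder

namespace Crest.Agent.R257.AYM2_635

open Crest.Agent.R238 Crest.Agent.R238.Boot
open Crest.Agent.R273.Defs_333 Crest.Agent.R273.YauDefs_635 Crest.Agent.R273.CReg_933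
open Crest.Agent.R275.Geo Crest.Agent.R275.Core144 Crest.Agent.R275.GC293

noncomputable section

/-- **regularity of the twisted equation**: a `C^{2,a}` solution of `det ∂∂̄u = e^(f + c u)` with
`f` smooth is smooth -/
theorem reg_tw (c : ℝ) (n : ℕ) (U : Set (Cn n)) (u f : Cn n → ℝ) (a : ℝ) (hU : IsOpen U)
    (ha : 0 < a) (ha1 : a < 1) (hu : ContDiffOn ℝ 2 u U) (hf : ContDiffOn ℝ ∞ f U)
    (hH : ∀ z₀ ∈ U, ∃ r > 0, ∃ C, Metric.ball z₀ r ⊆ U ∧ ∀ z ∈ Metric.ball z₀ r,
      ∀ w ∈ Metric.ball z₀ r,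
        ‖fderiv ℝ (fderiv ℝ u) z - fderiv ℝ (fderiv ℝ u) w‖ ≤ C * ‖z - w‖ ^ a)
    (hpos : ∀ z ∈ U, ∀ v : Cn n, v ≠ 0 → 0 < lev u z v)
    (heq : ∀ z ∈ U, (cH u z).det = (Real.exp (f z + c * u z) : ℂ)) :
    ContDiffOn ℝ ∞ u U := by
  set T : E (dC n) →L[ℝ] Cn n := ((TT n).symm : E (dC n) →L[ℝ] Cn n) with hT
  set U' : Set (E (dC n)) := (fun x => T x) ⁻¹' U with hU'
  have hU'o : IsOpen U' := hU.preimage T.continuous
  have hcT : ContDiff ℝ ∞ (fun x : E (dC n) => T x) := T.contDiff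
  set u' : E (dC n) → ℝ := fun x => u ((TT n).symm x) with hu'
  have hcT2 : ContDiff ℝ 2 (fun x : E (dC n) => T x) := T.contDiff
  have hu'c : ContDiffOn ℝ 2 u' U' := hu.comp hcT2.contDiffOn fun x hx => hx
  have hc2 : ∀ x ∈ U', ContDiffAt ℝ 2 u ((TT n).symm x) := fun x hx =>
    hu.contDiffAt (hU.mem_nhds hx)
  have hLH : ∀ i j, LH a U' (fun x => Hs u' x i j) := by
    intro i j x0 hx0
    obtain ⟨r, hr, C, hrU, hC⟩ := hH (T x0) hx0
    have hb : ∃ r' > 0, ∀ x ∈ ball x0 r', T x ∈ ball (T x0) r :=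
      Metric.continuousAt_iff.1 T.continuous.continuousAt r hr
    obtain ⟨r', hr', hb⟩ := hb
    set C' : ℝ := |C| * ‖T‖ ^ a * (‖(TT n).symm (ee i)‖ * ‖(TT n).symm (ee j)‖) with hC'
    have hC'0 : 0 ≤ C' := by positivity
    have key : ∀ x ∈ ball x0 r', ∀ y ∈ ball x0 r', |Hs u' x i j - Hs u' y i j| ≤ C' * ‖x - y‖ ^ a := by
      intro x hx y hy
      have hx' := hb x hx
      have hy' := hb y hy
      simp only [Hs, hu', fd2_comp_equiv (hc2 x (hrU hx')), fd2_comp_equiv (hc2 y (hrU hy')), D2]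
      have h1 := hC _ hx' _ hy'
      have h2 : fderiv ℝ (fderiv ℝ u) ((TT n).symm x) ((TT n).symm (ee i)) ((TT n).symm (ee j))
          - fderiv ℝ (fderiv ℝ u) ((TT n).symm y) ((TT n).symm (ee i)) ((TT n).symm (ee j))
          = (fderiv ℝ (fderiv ℝ u) (T x) - fderiv ℝ (fderiv ℝ u) (T y)) ((TT n).symm (ee i))
            ((TT n).symm (ee j)) := rfl
      rw [h2, ← Real.norm_eq_abs]
      refine (ContinuousLinearMap.le_opNorm₂ _ _ _).trans ?_
      have h3 : ‖T x - T y‖ ^ a ≤ ‖T‖ ^ a * ‖x - y‖ ^ a := by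
        rw [← map_sub, ← Real.mul_rpow (norm_nonneg _) (norm_nonneg _)]
        exact Real.rpow_le_rpow (norm_nonneg _) (T.le_opNorm _) ha.le
      have h4 : ‖fderiv ℝ (fderiv ℝ u) (T x) - fderiv ℝ (fderiv ℝ u) (T y)‖
          ≤ |C| * (‖T‖ ^ a * ‖x - y‖ ^ a) :=
        h1.trans ((mul_le_mul_of_nonneg_right (le_abs_self C)
          (Real.rpow_nonneg (norm_nonneg _) _)).trans
          (mul_le_mul_of_nonneg_left h3 (abs_nonneg _)))
      calc _ = ‖fderiv ℝ (fderiv ℝ u) (T x) - fderiv ℝ (fderiv ℝ u) (T y)‖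
            * (‖(TT n).symm (ee i)‖ * ‖(TT n).symm (ee j)‖) := by ring
        _ ≤ (|C| * (‖T‖ ^ a * ‖x - y‖ ^ a)) * (‖(TT n).symm (ee i)‖ * ‖(TT n).symm (ee j)‖) :=
          mul_le_mul_of_nonneg_right h4 (by positivity)
        _ = _ := by rw [hC']; ring
    refine ⟨r', hr', max C' (|Hs u' x0 i j| + C' * r' ^ a), fun x hx => ?_, fun x hx y hy => ?_⟩
    · have h1 := key x hx x0 (mem_ball_self hr')
      have h2 : ‖x - x0‖ ^ a ≤ r' ^ a :=
        Real.rpow_le_rpow (norm_nonneg _) (by rw [← dist_eq_norm]; exact (mem_ball.1 hx).le) ha.le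
      have h3 : |Hs u' x i j| ≤ |Hs u' x i j - Hs u' x0 i j| + |Hs u' x0 i j| := by
        have := abs_add_le (Hs u' x i j - Hs u' x0 i j) (Hs u' x0 i j)
        simpa using this
      have h4 := mul_le_mul_of_nonneg_left h2 hC'0
      exact (by linarith : |Hs u' x i j| ≤ |Hs u' x0 i j| + C' * r' ^ a).trans (le_max_right _ _)
    · exact (key x hx y hy).trans
        (mul_le_mul_of_nonneg_right (le_max_left _ _) (Real.rpow_nonneg (norm_nonneg _) _))
  have hlck : LCK a 2 U' u' := lck_two ha.le ha1.le hU'o hu'c hLH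
  have hG : ∀ x ∈ U', cHV (HM2 u' x) = cH u ((TT n).symm x) := fun x hx => cHV_HM2 (hc2 x hx)
  have hsm : ContDiffOn ℝ ∞ u' U' := by
    have hfT : ContDiffOn ℝ ∞ (fun x => f (T x)) U' := hf.comp hcT.contDiffOn fun x hx => hx
    have hΘ : ContDiff ℝ ∞ (fun y : Fin 2 → ℝ => Real.exp (y 0 + c * y 1)) :=
      Real.contDiff_exp.comp ((contDiff_apply ℝ ℝ 0).add
        (contDiff_const.mul (contDiff_apply ℝ ℝ 1)))
    have key : ∀ k : ℕ, LCK a (k + 2) U' u' := by
      intro k
      induction k with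
      | zero => exact hlck
      | succ k ih =>
        have h1 : LCK a (k + 1) U' (fun x => Real.exp (f (T x) + c * u' x)) := by
          have h2 := LCK.comp ha (ι := Fin 2) (k := k + 1) hU'o
            (f := fun p x => if p = 0 then f (T x) else u' x) (fun p => by
              by_cases hp : p = 0
              · simp only [hp, if_true]
                exact lck_of_contDiffOn ha.le ha1.le hU'o _ hfT
              · simp only [hp, if_false]
                exact ih.of_succ) hΘ
          refine h2.congr hU'o fun x hx => ?_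
          simp
        refine nonlin_reg ha ha1 hU'o (PhiC_smooth (n := n)) hlck (fun x hx => pd_PhiC ?_)
          (fun x hx => ?_) k h1
        · rw [hG x hx]
          exact posDef_cH (hc2 x hx) (hpos _ hx)
        · unfold PhiC
          have h1 : (cH u ((TT n).symm x)).det = (Real.exp (f (T x) + c * u' x) : ℂ) := heq _ hx
          rw [hG x hx, h1, Complex.ofReal_re]
    rw [contDiffOn_infty]
    intro k
    exact ((key k).contDiffOn ha hU'o).of_le (by exact_mod_cast Nat.le_add_right k 2)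
  have hTT : ContDiff ℝ ∞ (fun z : Cn n => TT n z) := (TT n).contDiff
  have h := hsm.comp hTT.contDiffOn (s := U) fun z hz => by
    show T (TT n z) ∈ U
    have : T (TT n z) = z := (TT n).symm_apply_apply z
    rwa [this]
  refine h.congr fun z hz => ?_
  simp [hu']

end

end Crest.Agent.R257.AYM2_635
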