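import Crest.Agent.R257.AYM1_635
import Crest.Agent.R257.AYM2_635

/-!
# R257 (S0395), E-AY (helper635): openness of the continuity path for the twisted equation

* `newton0`  : simplified Newton iteration with approximate right inverse
* `tw_quad`  : quadratic estimate for `v ↦ (det ratio) e^{-v}`
* `open_tw`  : openness of `det(ω + i∂∂̄φ) = e^(t F + φ) det ω`
-/

set_option autoImplicit false
set_option linter.unusedSectionVars false

open Set Filter Topology Complex Metric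
open scoped ContDiff Matrix ComplexConjugate ComplexOrder

namespace Crest.Agent.R257.AYM3_635

/-! ### Newton -/

theorem newton0 {V : Type*} [AddCommGroup V] [Module ℝ V] (N2 NH : ℝ → V → Prop) (P L : V → V)
    (one : V) {CS CR : ℝ} (hCS : 0 ≤ CS) (hCR : 0 ≤ CR)
    (h20 : N2 0 0) (h2mono : ∀ {a b : ℝ} {v : V}, a ≤ b → N2 a v → N2 b v)
    (h2add : ∀ {a b : ℝ} {v w : V}, N2 a v → N2 b w → N2 (a + b) (v + w))
    (hHmono : ∀ {a b : ℝ} {v : V}, a ≤ b → NH a v → NH b v)
    (hHadd : ∀ {a b : ℝ} {v w : V}, NH a v → NH b w → NH (a + b) (v + w))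
    (hHsmul : ∀ {a : ℝ} {v : V} (m : ℝ), NH a v → NH (|m| * a) (m • v))
    (hP0 : P 0 = one)
    (hlin : ∀ (N : ℝ) (ρ : V), 0 < N → NH N ρ → ∃ w : V, N2 (CS * N) w ∧ NH (N / 8) (L w - ρ))
    (hquad : ∀ (δ d : ℝ) (v w : V), 0 ≤ d → d ≤ δ → δ ≤ 1 → N2 δ v → N2 d w →
      NH (CR * δ * d) (P (v + w) - P v - L w)) :
    ∀ η > 0, ∃ ε > 0, ∀ e, NH ε e → ∀ k : ℕ, ∃ v : V, N2 η v ∧
      NH (ε * (1 / 2) ^ k) ((one + e) - P v) := by
  intro η hη
  set q : ℝ := (CR + 1) * (CS + 1) with hq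
  have hq1 : 0 < q := by positivity
  have hqq : CR * CS ≤ q := by rw [hq]; nlinarith
  set δ : ℝ := min (min η 1) (1 / (4 * q)) with hδ
  have hδ0 : 0 < δ := lt_min (lt_min hη one_pos) (by positivity)
  have hδη : δ ≤ η := (min_le_left _ _).trans (min_le_left _ _)
  have hδ1 : δ ≤ 1 := (min_le_left _ _).trans (min_le_right _ _)
  have hδq : δ ≤ 1 / (4 * q) := min_le_right _ _
  have h1 : CR * δ * CS ≤ 1 / 4 := by
    calc CR * δ * CS = (CR * CS) * δ := by ring
      _ ≤ q * (1 / (4 * q)) := mul_le_mul hqq hδq hδ0.le hq1.le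
      _ = 1 / 4 := by field_simp
  set ε : ℝ := δ / (4 * (CS + 1)) with hε
  have hS1 : 0 < CS + 1 := by positivity
  have hε0 : 0 < ε := by positivity
  have h2 : 4 * (CS * ε) ≤ δ := by
    calc 4 * (CS * ε) ≤ 4 * ((CS + 1) * ε) := by nlinarith
      _ = δ := by rw [hε]; field_simp
  refine ⟨ε, hε0, fun e he => ?_⟩
  have key : ∀ k : ℕ, ∃ v : V, N2 (δ * (1 - (1 / 2) ^ k)) v ∧
      NH (ε * (1 / 2) ^ k) ((one + e) - P v) := by
    intro k
    induction k with
    | zero =>
      refine ⟨0, by simpa using h20, ?_⟩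
      have : (one + e) - P 0 = e := by
        rw [hP0]
        abel
      rw [this]
      simpa using he
    | succ k ih =>
      obtain ⟨v, hv, hρ⟩ := ih
      set t : ℝ := (1 / 2 : ℝ) ^ k with ht
      have ht0 : 0 < t := by positivity
      have ht1 : t ≤ 1 := pow_le_one₀ (by norm_num) (by norm_num)
      obtain ⟨w, hw2, hw3⟩ := hlin _ _ (by positivity) hρ
      have hts : (1 / 2 : ℝ) ^ (k + 1) = t / 2 := by
        rw [pow_succ, ← ht]
        ring
      have hst : 4 * (CS * (ε * t)) ≤ δ * t := by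
        calc 4 * (CS * (ε * t)) = (4 * (CS * ε)) * t := by ring
          _ ≤ δ * t := mul_le_mul_of_nonneg_right h2 ht0.le
      have hnn : 0 ≤ CS * (ε * t) := by positivity
      refine ⟨v + w, ?_, ?_⟩
      · refine h2mono ?_ (h2add hv hw2)
        rw [hts]
        nlinarith
      · have e1 : (one + e) - P (v + w) =
            (-1 : ℝ) • (P (v + w) - P v - L w) + (-1 : ℝ) • (L w - ((one + e) - P v)) := by
          module
        rw [e1]
        have hδv : N2 δ v := h2mono (by nlinarith) hv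
        have hd : CS * (ε * t) ≤ δ := by nlinarith
        have a1 := hHsmul (-1 : ℝ) (hquad δ (CS * (ε * t)) v w hnn hd hδ1 hδv hw2)
        have a2 := hHsmul (-1 : ℝ) hw3
        refine hHmono ?_ (hHadd a1 a2)
        rw [abs_neg, abs_one, one_mul, one_mul, hts]
        have b2 : CR * δ * (CS * (ε * t)) ≤ 1 / 4 * (ε * t) := by
          calc CR * δ * (CS * (ε * t)) = (CR * δ * CS) * (ε * t) := by ring
            _ ≤ 1 / 4 * (ε * t) := mul_le_mul_of_nonneg_right h1 (by positivity)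
        have b3 : 0 < ε * t := by positivity
        linarith
  intro k
  obtain ⟨v, hv, hρ⟩ := key k
  have ht0 : (0 : ℝ) < (1 / 2) ^ k := by positivity
  have hle : δ * (1 - (1 / 2) ^ k) ≤ η := by nlinarith
  exact ⟨v, h2mono hle hv, hρ⟩

open Crest.Agent.R275.Geo Crest.Agent.R275.Core144 Crest.Agent.R275.GC293
open Crest.Agent.R273.Defs_333 Crest.Agent.R273.YauDefs_635 Crest.Agent.R273.HM_333
open Crest.Agent.R273.YauCh_635 Crest.Agent.R273.Hess_333 Crest.Agent.R273.HessB_333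
open Crest.Agent.R273.Kah_333 Crest.Agent.R273.YauMax_635 Crest.Agent.R273.YauLoc_635
open Crest.Agent.R273.SchA_152 Crest.Agent.R273.SchD_152 Crest.Agent.R273.YauQ_635
open Crest.Agent.R273.SchF_152
open Crest.Agent.R273.YauSchF_635 Crest.Agent.R273.YauClose_635 Crest.Agent.R273.YauPf_635
open Crest.Agent.R273.YauLim_635 Crest.Agent.R273.YauOpA_635
open Crest.Agent.R273.CReg_933 (posDef_cH)
open Crest.Agent.R257.AYM1_635 Crest.Agent.R257.AYM2_635

noncomputable section

variable {n : ℕ}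

/-! ### the quadratic estimate -/

/-- `det(1+X) e^{-s} - 1 - tr X + s` -/
def pe (y : VC n × ℝ) : ℝ :=
  (1 + Matrix.of y.1).det.re * Real.exp (-y.2) - 1 - (Matrix.of y.1).trace.re + y.2

/-- `tr` -/
def tre (X : VC n) : ℝ := (Matrix.of X).trace.re

theorem contDiff_tre : ContDiff ℝ ∞ (tre (n := n)) := by
  have h1 : ∀ a b : Fin n, ContDiff ℝ ∞ (fun X : VC n => X a b) := fun a b =>
    contDiff_apply_apply ℝ ℂ a b
  have h3 : ContDiff ℝ ∞ (fun X : VC n => (Matrix.of X).trace) := by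
    simp only [Matrix.trace, Matrix.diag_apply, Matrix.of_apply]
    exact ContDiff.sum fun a _ => h1 a a
  exact Complex.reCLM.contDiff.comp h3

theorem pe_eq (y : VC n × ℝ) : pe y =
    (pd y.1).re * Real.exp (-y.2) + (Real.exp (-y.2) - 1 + y.2) +
      tre y.1 * (Real.exp (-y.2) - 1) := by
  have h1 : (1 + Matrix.of y.1).det = pd y.1 + 1 + (Matrix.of y.1).trace := by
    rw [pd]
    ring
  rw [pe, h1, tre]
  simp only [Complex.add_re, Complex.one_re]
  ring

theorem contDiff_pe : ContDiff ℝ ∞ (pe (n := n)) := by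
  have h1 : ContDiff ℝ ∞ (fun y : VC n × ℝ => (pd y.1).re) :=
    Complex.reCLM.contDiff.comp (contDiff_pd.comp contDiff_fst)
  have h2 : ContDiff ℝ ∞ (fun y : VC n × ℝ => Real.exp (-y.2)) :=
    Real.contDiff_exp.comp contDiff_snd.neg
  have h3 : ContDiff ℝ ∞ (fun y : VC n × ℝ => tre y.1) := contDiff_tre.comp contDiff_fst
  have h4 := ((h1.mul h2).add ((h2.sub (contDiff_const (c := (1 : ℝ)))).add contDiff_snd)).add
    (h3.mul (h2.sub (contDiff_const (c := (1 : ℝ)))))
  have e : pe (n := n) = fun y => (pd y.1).re * Real.exp (-y.2) + (Real.exp (-y.2) - 1 + y.2) +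
      tre y.1 * (Real.exp (-y.2) - 1) := funext pe_eq
  rw [e]
  exact h4

theorem fderiv_pe : fderiv ℝ (pe (n := n)) 0 = 0 := by
  have hp : HasFDerivAt (pd (n := n)) (0 : VC n →L[ℝ] ℂ) 0 := by
    have hd : DifferentiableAt ℝ (pd (n := n)) 0 := (contDiff_pd.differentiable (by simp)) 0
    have := hd.hasFDerivAt
    rwa [fderiv_pd] at this
  have h1 : HasFDerivAt (fun y : VC n × ℝ => (pd y.1).re) (0 : VC n × ℝ →L[ℝ] ℝ) 0 := by
    have h2 : HasFDerivAt (fun y : VC n × ℝ => pd y.1)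
        ((0 : VC n →L[ℝ] ℂ).comp (ContinuousLinearMap.fst ℝ (VC n) ℝ)) 0 :=
      HasFDerivAt.comp (g := pd) (0 : VC n × ℝ) hp hasFDerivAt_fst
    have h3 := (Complex.reCLM.hasFDerivAt (x := pd (0 : VC n × ℝ).1)).comp (0 : VC n × ℝ) h2
    refine h3.congr_fderiv ?_
    ext y <;> simp
  have h2 : HasFDerivAt (fun y : VC n × ℝ => Real.exp (-y.2))
      (-(ContinuousLinearMap.snd ℝ (VC n) ℝ)) 0 := by
    have h3 := (hasFDerivAt_snd (𝕜 := ℝ) (p := (0 : VC n × ℝ))).neg.exp
    refine h3.congr_fderiv ?_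
    simp
  have h3 : HasFDerivAt (fun y : VC n × ℝ => tre y.1)
      (fderiv ℝ (fun y : VC n × ℝ => tre y.1) 0) 0 :=
    (((contDiff_tre.comp contDiff_fst).differentiable (by simp)) 0).hasFDerivAt
  have h4 := ((h1.mul h2).add ((h2.sub_const 1).add hasFDerivAt_snd)).add
    (h3.mul (h2.sub_const 1))
  have h5 : HasFDerivAt (pe (n := n)) _ 0 :=
    h4.congr_of_eventuallyEq (Eventually.of_forall fun y => pe_eq y)
  rw [h5.fderiv]
  have e1 : pd (0 : VC n × ℝ).1 = 0 := pd_zero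
  have e2 : tre (0 : VC n × ℝ).1 = 0 := by
    have : (Matrix.of (0 : VC n)) = (0 : Matrix (Fin n) (Fin n) ℂ) := rfl
    simp [tre, this]
  rw [e1, e2]
  simp

theorem ho_prod {X E F : Type*} [NormedAddCommGroup X] [NormedAddCommGroup E]
    [NormedAddCommGroup F] {a M : ℝ} {s : Set X} {f : X → E} {g : X → F} (hf : HO a M s f)
    (hg : HO a M s g) : HO a M s (fun z => (f z, g z)) :=
  ⟨fun z hz => max_le (hf.bdd z hz) (hg.bdd z hz),
    fun z hz w hw => max_le (hf.hol z hz w hw) (hg.hol z hz w hw)⟩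

variable {M : Type} [TopologicalSpace M] {A : Atl n M} {L : LB A}

theorem tw_quad {H : HM L} {φ : M → ℝ} (hφ : A.Sm φ) (hK : KPos H φ) {i : A.ι} {z₀ : Cn n} {R : ℝ}
    (hR : R ≤ 1) (hRt : closedBall z₀ R ⊆ (A.e i).target) : ∃ C : ℝ, 0 ≤ C ∧
      ∀ (δ d : ℝ) (v w : M → ℝ), 0 ≤ d → d ≤ δ → δ ≤ 1 → A.Sm v → A.Sm w →
        C2A (1 / 2) δ (closedBall z₀ R) (inC A i v) → C2A (1 / 2) d (closedBall z₀ R) (inC A i w) →
        HO (1 / 2) (C * δ * d) (closedBall z₀ R) (fun z =>
          pr H φ (fun y => v y + w y) i z * Real.exp (-(inC A i v z + inC A i w z)) -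
            pr H φ v i z * Real.exp (-(inC A i v z)) - (lr H φ w i z - inC A i w z)) := by
  have hinv : ∀ a b : Fin n, ∃ V, HO (1 / 2) V (closedBall z₀ R)
      (fun z => (cH (pot H φ i) z)⁻¹ a b) := fun a b =>
    ho_c1 (A.e i).open_target ((contDiffOn_inv (cH_pot_smooth H hφ i)
      (fun z hz => det_pot_ne hφ hK hz) a b).of_le (by simp)) hR hRt
  choose V hV using hinv
  set K : ℝ := ∑ a, ∑ b, |V a b| with hKdef
  have hK0 : 0 ≤ K := Finset.sum_nonneg fun a _ => Finset.sum_nonneg fun b _ => abs_nonneg _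
  have hVK : ∀ a b, V a b ≤ K := fun a b =>
    (le_abs_self _).trans ((Finset.single_le_sum (f := fun b => |V a b|)
      (fun b _ => abs_nonneg _) (Finset.mem_univ b)).trans
      (Finset.single_le_sum (f := fun a => ∑ b, |V a b|)
        (fun a _ => Finset.sum_nonneg fun b _ => abs_nonneg _) (Finset.mem_univ a)))
  set c : ℝ := n * (2 * K) + 1 with hc
  have hc0 : 0 ≤ c := by positivity
  have hprod : ∀ (d : ℝ) (w : M → ℝ), 0 ≤ d → C2A (1 / 2) d (closedBall z₀ R) (inC A i w) →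
      HO (1 / 2) (c * d) (closedBall z₀ R) (fun z => ((fun (a b : Fin n) =>
        ((cH (pot H φ i) z)⁻¹ * cH (inC A i w) z) a b : VC n), inC A i w z)) := by
    intro d w hd hw
    refine ho_prod ?_ (hw.h0.mono (by rw [hc]; nlinarith [mul_nonneg (mul_nonneg (Nat.cast_nonneg (α := ℝ) n) hK0) hd]))
    refine ho_pi (by positivity) fun a => ho_pi (by positivity) fun b => ?_
    simp only [Matrix.mul_apply]
    have h1 := ho_sum (Finset.univ : Finset (Fin n)) (a := 1 / 2) (M := 2 * K * d)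
      (s := closedBall z₀ R)
      (f := fun l z => (cH (pot H φ i) z)⁻¹ a l * cH (inC A i w) z l b)
      (fun l _ => ho_mul hK0 hd ((hV a l).mono (hVK a l)) (ho_cH hw.h2 l b))
    rw [Finset.card_univ, Fintype.card_fin] at h1
    exact h1.mono (by rw [hc]; nlinarith)
  obtain ⟨C, hC0, hC⟩ := ho_quad (E := VC n × ℝ) (contDiff_pe.of_le two_le_inf) fderiv_pe c
  refine ⟨C * c * c, by positivity, fun δ d v w hd hdδ hδ hv hw hv2 hw2 => ?_⟩
  have hδ0 : 0 ≤ δ := hd.trans hdδ
  have hX := hprod δ v hδ0 hv2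
  have hY := hprod d w hd hw2
  have hq := hC (α := c * δ) (β := c * d) (by positivity)
    (mul_le_mul_of_nonneg_left hdδ (by positivity)) (by nlinarith) hX hY
  refine (hq.mono (le_of_eq (by ring))).congr fun z hz => ?_
  have hzt := hRt hz
  have hvw : A.Sm (fun y => v y + w y) := sm_add hv hw
  rw [pr_eq hφ hK hvw hzt, pr_eq hφ hK hv hzt, lr]
  have e1 : cH (inC A i (fun y => v y + w y)) z = cH (inC A i v) z + cH (inC A i w) z :=
    cH_add' (inC_contDiffAt hv i hzt) (inC_contDiffAt hw i hzt)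
  rw [e1, Matrix.mul_add]
  set Xv : Matrix (Fin n) (Fin n) ℂ := (cH (pot H φ i) z)⁻¹ * cH (inC A i v) z
  set Xw : Matrix (Fin n) (Fin n) ℂ := (cH (pot H φ i) z)⁻¹ * cH (inC A i w) z
  have e2 : (Matrix.of fun a b => Xv a b) = Xv := rfl
  have e3 : (Matrix.of fun a b => Xw a b) = Xw := rfl
  have e4 : Matrix.of ((fun a b => Xv a b) + fun a b => Xw a b) = Xv + Xw := rfl
  simp only [pe, Prod.fst_add, Prod.snd_add, e2, e4, Matrix.trace_add, Complex.add_re]
  ring

/-- a solution of the twisted equation `(ω_H + i∂∂̄ φ)^n = e^(t F + φ) ω_H^n` -/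
def SolT (H : HM L) (F : M → ℝ) (t : ℝ) (φ : M → ℝ) : Prop :=
  A.Sm φ ∧ KPos H φ ∧ MA H φ (fun x => t * F x + φ x)

/-- **openness** -/
theorem open_tw [T2Space M] [CompactSpace M] [ConnectedSpace M] [Finite A.ι] (P : Part A)
    {H : HM L} (hH : H.Pos) {F : M → ℝ} (hF : A.Sm F) {t₀ : ℝ} {φ₀ : M → ℝ}
    (hsol : SolT H F t₀ φ₀) : ∃ δ > 0, ∀ t, |t - t₀| < δ → ∃ φ, SolT H F t φ := by
  obtain ⟨hφ, hK, hMA₀⟩ := hsol
  obtain ⟨BB⟩ := Cb.nonempty A
  have := BB.fin
  obtain ⟨CS, hCS, hlin⟩ := lin_tw P BB hφ hK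
  set B : BB.κ → Set (Cn n) := fun k => closedBall (BB.z k) (BB.r k / 2) with hB
  have hBt : ∀ k, B k ⊆ (A.e (BB.i k)).target := BB.sub'
  have hcr : ∀ k, BB.r k / 2 ≤ 1 := fun k => by linarith [BB.r1 k, BB.r0 k]
  -- constants
  have hq := fun k => tw_quad hφ hK (hcr k) (hBt k)
  choose Cq hCq0 hCq using hq
  obtain ⟨CR, hCR0, hCR⟩ := exists_ub Cq
  set NN2 : ℝ → (M → ℝ) → Prop := fun d v =>
    A.Sm v ∧ ∀ k, C2A (1 / 2) d (B k) (inC A (BB.i k) v) with hNN2
  set NNH : ℝ → (M → ℝ) → Prop := fun d f =>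
    A.Sm f ∧ ∀ k, HO (1 / 2) d (B k) (inC A (BB.i k) f) with hNNH
  have hsm0 : A.Sm (fun _ : M => (0 : ℝ)) := fun i => contDiffOn_const
  have hsme : ∀ {v : M → ℝ}, A.Sm v → A.Sm (fun x => Real.exp (-(v x))) := fun hv i =>
    (hv i).neg.exp
  have newt := newton0 NN2 NNH (fun v x => Pf H φ₀ v x * Real.exp (-(v x)))
    (fun w x => Lf H φ₀ w x - w x) (fun _ => (1 : ℝ)) hCS.le hCR0
    ⟨hsm0, fun k => c2a_zero⟩
    (fun {a b v} hab hv => ⟨hv.1, fun k => (hv.2 k).mono hab⟩)
    (fun {a b v w} hv hw => ⟨sm_add hv.1 hw.1, fun k => c2a_add (A.e (BB.i k)).open_target (hBt k)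
      (inC_smooth hv.1 _) (inC_smooth hw.1 _) (hv.2 k) (hw.2 k)⟩)
    (fun {a b v} hab hv => ⟨hv.1, fun k => (hv.2 k).mono hab⟩)
    (fun {a b v w} hv hw => ⟨sm_add hv.1 hw.1, fun k => (hv.2 k).add (hw.2 k)⟩)
    (fun {a v} m hv => ⟨fun i => contDiffOn_const.mul (hv.1 i), fun k => ho_smul m (hv.2 k)⟩)
    (by
      have := Pf_zero hφ hK
      funext x
      have h1 := congrFun this x
      have h2 : Pf H φ₀ (0 : M → ℝ) x = 1 := h1
      rw [h2]
      simp)
    (fun N ρ hN hρ => by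
      obtain ⟨w, hw, hw2, hw3⟩ := hlin N ρ hN hρ.1 hρ.2 (1 / 8) (by norm_num) (by norm_num)
      refine ⟨w, ⟨hw, hw2⟩, fun i => ((Lf_sm hφ hK hw i).sub (hw i)).sub (hρ.1 i), fun k => ?_⟩
      exact (hw3 k).mono (by linarith))
    (fun δ d v w hd hdδ hδ hv hw => by
      have hvw : A.Sm (v + w) := sm_add hv.1 hw.1
      refine ⟨fun i => ((((Pf_sm hφ hK hvw i).mul (hsme hvw i))).sub
        ((Pf_sm hφ hK hv.1 i).mul (hsme hv.1 i))).sub ((Lf_sm hφ hK hw.1 i).sub (hw.1 i)),
        fun k => ?_⟩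
      have h1 := hCq k δ d v w hd hdδ hδ hv.1 hw.1 (hv.2 k) (hw.2 k)
      have h2 : Cq k * δ * d ≤ CR * δ * d :=
        mul_le_mul_of_nonneg_right (mul_le_mul_of_nonneg_right (hCR k) (hd.trans hdδ)) hd
      refine (h1.mono h2).congr fun z hz => ?_
      have e1 := Pf_read H hφ hvw (hBt k hz)
      have e2 := Pf_read H hφ hv.1 (hBt k hz)
      have e3 := Lf_read H hφ hw.1 (hBt k hz)
      simp only [inC] at e1 e2 e3
      simp only [inC, Pi.sub_apply, Pi.add_apply, e1, e2, e3]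
      rfl)
  -- positivity threshold
  have hlow : ∀ k, ∃ c : ℝ, 0 < c ∧ ∀ z ∈ B k, ∀ v, c * ‖v‖ ^ 2 ≤ lev (pot H φ₀ (BB.i k)) z v :=
    fun k => lev_lower (A.e (BB.i k)).open_target
      (((wt_smooth H (BB.i k)).add (inC_smooth hφ (BB.i k))).of_le two_le_inf)
      (isCompact_closedBall _ _) (hBt k) (fun z hz v hv => hK (BB.i k) z (hBt k hz) v hv)
  choose lo' hlo'0 hlo' using hlow
  obtain ⟨lo, hlo0, hlo⟩ := exists_pos_lb hlo'0
  set η : ℝ := min (lo / 4) (1 / 2) with hη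
  have hη0 : 0 < η := lt_min (by linarith) (by norm_num)
  have hηlo : η ≤ lo / 4 := min_le_left _ _
  have hηh : η ≤ 1 / 2 := min_le_right _ _
  obtain ⟨ε, hε0, hnewt⟩ := newt η hη0
  -- Hoelder bound of F
  obtain ⟨KF, hKF0, hKF⟩ := exists_NH BB hF
  refine ⟨min (1 / (2 * KF + 1)) (ε / (6 * KF + 1)), lt_min (by positivity) (by positivity),
    fun t ht => ?_⟩
  set s : ℝ := t - t₀ with hs
  have hs1 : |s| * (2 * KF + 1) ≤ 1 := by
    have := (ht.trans_le (min_le_left _ _)).le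
    rwa [le_div_iff₀ (by positivity)] at this
  have hs2 : 6 * |s| * KF ≤ ε := by
    have := (ht.trans_le (min_le_right _ _)).le
    rw [le_div_iff₀ (by positivity)] at this
    nlinarith [abs_nonneg s]
  set e : M → ℝ := fun x => Real.exp (s * F x) - 1 with he
  have heH : NNH ε e := by
    refine ⟨fun i => ((contDiffOn_const.mul (hF i)).exp).sub contDiffOn_const, fun k => ?_⟩
    exact (ho_exp hKF0 (hKF k) hs1).mono hs2
  have hseq := hnewt e heH
  choose v hv hres using hseq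
  -- limits
  set U : Ultrafilter ℕ := hyperfilter ℕ with hU
  have hUle : (U : Filter ℕ) ≤ atTop := Nat.hyperfilter_le_atTop
  have hvb : ∀ j x, ‖v j x‖ ≤ η := by
    intro j x
    obtain ⟨k, hk, hkb⟩ := BB.cover x
    have := ((hv j).2 k).h0.bdd (A.e (BB.i k) x) (ball_subset_closedBall hkb)
    simpa [inC, (A.e (BB.i k)).left_inv hk] using this
  have hlim : ∀ x, ∃ y, Tendsto (fun j => v j x) U (𝓝 y) := fun x =>
    exists_lim U (fun j => hvb j x)
  choose Φ hΦ using hlim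
  set Ψ : M → ℝ := fun y => φ₀ y + Φ y with hΨ
  -- local analysis in a ball
  have hloc : ∀ k, ContDiffOn ℝ ∞ (pot H Ψ (BB.i k)) (ball (BB.z k) (BB.r k / 2)) ∧
      ∀ z ∈ ball (BB.z k) (BB.r k / 2), (cH (pot H Ψ (BB.i k)) z).PosDef ∧
        (cH (pot H Ψ (BB.i k)) z).det =
          (Real.exp (t * F ((A.e (BB.i k)).symm z) + Ψ ((A.e (BB.i k)).symm z)) : ℂ) *
            (cH (H.wt (BB.i k)) z).det := by
    intro k
    set O : Set (Cn n) := ball (BB.z k) (BB.r k / 2) with hO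
    have hOB : O ⊆ B k := ball_subset_closedBall
    have hOt : O ⊆ (A.e (BB.i k)).target := hOB.trans (hBt k)
    have hp0 : ContDiffOn ℝ ∞ (pot H φ₀ (BB.i k)) (A.e (BB.i k)).target :=
      (wt_smooth H (BB.i k)).add (inC_smooth hφ (BB.i k))
    set u : ℕ → Cn n → ℝ := fun j => pot H (fun y => φ₀ y + v j y) (BB.i k) with hu
    have hue : ∀ j, u j = fun w => pot H φ₀ (BB.i k) w + inC A (BB.i k) (v j) w := fun j => by
      funext w
      simp only [hu, pot, inC]
      ring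
    have husm : ∀ j, ContDiffOn ℝ ∞ (u j) (A.e (BB.i k)).target := fun j => by
      rw [hue j]
      exact hp0.add (inC_smooth (hv j).1 _)
    obtain ⟨V1, hV1⟩ := ho_smooth (A.e (BB.i k)).open_target hp0 (hcr k) (hBt k)
    obtain ⟨V0, hV0⟩ := (isCompact_closedBall (BB.z k) (BB.r k / 2)).exists_bound_of_continuousOn
      (hp0.continuousOn.mono (hBt k))
    set S : ℝ := max (max V0 V1) 0 + η with hS
    have hS0 : 0 ≤ S := add_nonneg (le_max_right _ _) hη0.le
    have hV0S : V0 + η ≤ S := add_le_add ((le_max_left _ _).trans (le_max_left _ _)) le_rfl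
    have hV1S : V1 + η ≤ S := add_le_add ((le_max_right _ _).trans (le_max_left _ _)) le_rfl
    obtain ⟨g1, g2, g3⟩ := ball_limit U (z₀ := BB.z k) (r := BB.r k / 2) (a := 1 / 2) (S := S)
      (by norm_num) hS0 (u := u) (V := pot H Ψ (BB.i k))
      (fun j => ((husm j).mono hOt).of_le two_le_inf)
      (fun j z hz => by
        rw [hue j]
        have b1 := hV0 z (hOB hz)
        have b2 := ((hv j).2 k).h0.bdd z (hOB hz)
        rw [Real.norm_eq_abs] at b1 b2
        exact (abs_add_le _ _).trans ((add_le_add b1 b2).trans hV0S))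
      (fun j => by
        have h1 : HO (1 / 2) (V1 + η) (B k) (fderiv ℝ (fderiv ℝ (u j))) := by
          rw [hue j]
          exact (hV1.add ((hv j).2 k).h2).congr fun z hz =>
            fd2_add (A.e (BB.i k)).open_target hp0 (inC_smooth (hv j).1 _) (hBt k hz)
        exact (h1.mono hV1S).subset hOB)
      (fun z hz => by
        have : ∀ j, u j z = H.wt (BB.i k) z +
            (φ₀ ((A.e (BB.i k)).symm z) + v j ((A.e (BB.i k)).symm z)) :=
          fun j => rfl
        simp only [this]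
        exact tendsto_const_nhds.add (tendsto_const_nhds.add (hΦ _)))
    -- positivity
    have hlev : ∀ z ∈ O, ∀ ξ, lo / 2 * ‖ξ‖ ^ 2 ≤ lev (pot H Ψ (BB.i k)) z ξ := by
      intro z hz ξ
      refine ge_of_tendsto (tendsto_lev (g2 z hz) ξ) (Eventually.of_forall fun j => ?_)
      have hzt := hOt hz
      have h1 : lev (u j) z ξ = lev (pot H φ₀ (BB.i k)) z ξ +
          lev (inC A (BB.i k) (v j)) z ξ := by
        rw [lev333_eq_lev145, lev333_eq_lev145, lev333_eq_lev145, hue j,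
          Crest.Agent.R273.Levi_145.lev_add
            ((pot_contDiffAt H hφ (BB.i k) hzt).of_le two_le_inf)
            (inC_c2 (hv j).1 (BB.i k) hzt)]
        ring
      have h2 := abs_lev_le (inC A (BB.i k) (v j)) z ξ
      have h3 := ((hv j).2 k).h2.bdd z (hOB hz)
      have h4 := (hlo' k z (hOB hz) ξ)
      have h5 := hlo k
      have h6 : 0 ≤ ‖ξ‖ ^ 2 := by positivity
      have h7 : 2 * ‖fderiv ℝ (fderiv ℝ (inC A (BB.i k) (v j))) z‖ * ‖ξ‖ ^ 2 ≤
          2 * η * ‖ξ‖ ^ 2 :=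
        mul_le_mul_of_nonneg_right (by linarith) h6
      have h8 : lo * ‖ξ‖ ^ 2 ≤ lo' k * ‖ξ‖ ^ 2 := mul_le_mul_of_nonneg_right h5 h6
      have h9 : 2 * η * ‖ξ‖ ^ 2 ≤ lo / 2 * ‖ξ‖ ^ 2 :=
        mul_le_mul_of_nonneg_right (by linarith) h6
      have h10 := (abs_le.1 (h2.trans h7)).1
      rw [h1]
      linarith
    have hpd : ∀ z ∈ O, (cH (pot H Ψ (BB.i k)) z).PosDef := fun z hz =>
      posDef_cH (g1.contDiffAt (isOpen_ball.mem_nhds hz)) fun ξ hξ => by
        have h1 := hlev z hz ξ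
        have h2 : 0 < ‖ξ‖ ^ 2 := by
          have := norm_pos_iff.2 hξ
          positivity
        nlinarith
    -- equation
    have heq : ∀ z ∈ O, (cH (pot H Ψ (BB.i k)) z).det =
        (Real.exp (t * F ((A.e (BB.i k)).symm z) + Ψ ((A.e (BB.i k)).symm z)) : ℂ) *
          (cH (H.wt (BB.i k)) z).det := by
      intro z hz
      have hzt := hOt hz
      have hx := (A.e (BB.i k)).map_target hzt
      set x : M := (A.e (BB.i k)).symm z with hxd
      have l1 : Tendsto (fun j => pr H φ₀ (v j) (BB.i k) z * Real.exp (-(v j x))) U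
          (𝓝 (((cH (pot H Ψ (BB.i k)) z).det / (cH (pot H φ₀ (BB.i k)) z).det).re *
            Real.exp (-(Φ x)))) :=
        ((Complex.continuous_re.tendsto _).comp ((tendsto_det (g2 z hz)).div_const _)).mul
          ((Real.continuous_exp.tendsto _).comp (hΦ x).neg)
      have l2 : Tendsto (fun j => Real.exp (s * F x) -
          pr H φ₀ (v j) (BB.i k) z * Real.exp (-(v j x))) U (𝓝 0) := by
        have l4 : Tendsto (fun j : ℕ => ε * (1 / 2 : ℝ) ^ j) U (𝓝 0) := by
          have := (tendsto_pow_atTop_nhds_zero_of_lt_one (r := (1 / 2 : ℝ)) (by norm_num)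
            (by norm_num)).const_mul ε
          rw [mul_zero] at this
          exact this.mono_left hUle
        refine squeeze_zero_norm (fun j => ?_) l4
        have h1 := ((hres j).2 k).bdd z (hOB hz)
        have h2 : inC A (BB.i k) (((fun _ => (1 : ℝ)) + e) -
            (fun x => Pf H φ₀ (v j) x * Real.exp (-(v j x)))) z =
            Real.exp (s * F x) - pr H φ₀ (v j) (BB.i k) z * Real.exp (-(v j x)) := by
          have h3 := Pf_read H hφ (hv j).1 hzt
          simp only [inC] at h3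
          simp only [inC, Pi.sub_apply, Pi.add_apply, he, h3]
          ring
        rwa [h2] at h1
      have h0 := tendsto_nhds_unique l2 (tendsto_const_nhds.sub l1)
      have hex : 0 < Real.exp (-(Φ x)) := Real.exp_pos _
      have h1 : ((cH (pot H Ψ (BB.i k)) z).det / (cH (pot H φ₀ (BB.i k)) z).det).re =
          Real.exp (s * F x + Φ x) := by
        have h1' : ((cH (pot H Ψ (BB.i k)) z).det / (cH (pot H φ₀ (BB.i k)) z).det).re *
            Real.exp (-(Φ x)) = Real.exp (s * F x) := by linarith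
        have h2 : Real.exp (s * F x + Φ x) * Real.exp (-(Φ x)) = Real.exp (s * F x) := by
          rw [← Real.exp_add]
          congr 1
          ring
        exact mul_right_cancel₀ hex.ne' (h1'.trans h2.symm)
      have hd0 := (posDef_pot hφ hK hzt).det_pos
      have hd1 := (hpd z hz).det_pos
      have r0 : (cH (pot H φ₀ (BB.i k)) z).det =
          (((cH (pot H φ₀ (BB.i k)) z).det.re : ℝ) : ℂ) := by
        have := (Complex.pos_iff.1 hd0).2
        apply Complex.ext <;> simp [← this]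
      have r1 : (cH (pot H Ψ (BB.i k)) z).det =
          (((cH (pot H Ψ (BB.i k)) z).det.re : ℝ) : ℂ) := by
        have := (Complex.pos_iff.1 hd1).2
        apply Complex.ext <;> simp [← this]
      have p0 : 0 < (cH (pot H φ₀ (BB.i k)) z).det.re := (Complex.pos_iff.1 hd0).1
      have h2 : (cH (pot H Ψ (BB.i k)) z).det.re / (cH (pot H φ₀ (BB.i k)) z).det.re =
          Real.exp (s * F x + Φ x) := by
        rw [← h1]
        conv_rhs => rw [r0, r1]
        rw [← Complex.ofReal_div, Complex.ofReal_re]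
      rw [div_eq_iff p0.ne'] at h2
      have h3 := hMA₀ (BB.i k) z hzt
      simp only [inC] at h3
      rw [r1, h2, Complex.ofReal_mul, ← r0, h3, ← mul_assoc, ← Complex.ofReal_mul,
        ← Real.exp_add]
      congr 3
      rw [hs, hΨ, ← hxd]
      ring
    refine ⟨?_, fun z hz => ⟨hpd z hz, heq z hz⟩⟩
    refine reg_tw 1 n O (pot H Ψ (BB.i k))
      (fun z => fh H F t 0 (BB.i k) z - H.wt (BB.i k) z) (1 / 2) isOpen_ball (by norm_num)
      (by norm_num) g1 (((fh_smooth hH hF t 0 (BB.i k)).sub (wt_smooth H (BB.i k))).mono hOt)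
      (fun z₀ hz₀ => ?_) (fun z hz ξ hξ => ?_) (fun z hz => ?_)
    · obtain ⟨ρ, hρ, hρs⟩ := Metric.isOpen_iff.1 isOpen_ball z₀ hz₀
      exact ⟨ρ, hρ, S, hρs, fun z hz w hw => g3.hol z (hρs hz) w (hρs hw)⟩
    · have h1 := hlev z hz ξ
      have h2 : 0 < ‖ξ‖ ^ 2 := by
        have := norm_pos_iff.2 hξ
        positivity
      nlinarith
    · rw [heq z hz, ← exp_ldet hH (hOt hz), ← Complex.ofReal_mul, ← Real.exp_add]
      congr 2
      simp only [fh, inC, pot]
      ring
  have hΨsm : A.Sm Ψ := by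
    refine sm_of_local fun x => ?_
    obtain ⟨k, hk, hkb⟩ := BB.cover x
    refine ⟨BB.i k, hk, ?_⟩
    have h1 := ((hloc k).1.contDiffAt (isOpen_ball.mem_nhds hkb)).sub
      (wt_contDiffAt H (BB.i k) ((A.e (BB.i k)).map_source hk))
    refine h1.congr_of_eventuallyEq (Eventually.of_forall fun w => ?_)
    simp [pot]
  refine ⟨Ψ, hΨsm, kpos_of_local hΨsm fun x => ?_, ma_of_local hH hΨsm fun x => ?_⟩
  · obtain ⟨k, hk, hkb⟩ := BB.cover x
    exact ⟨BB.i k, hk, ((hloc k).2 _ hkb).1⟩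
  · obtain ⟨k, hk, hkb⟩ := BB.cover x
    refine ⟨BB.i k, hk, ?_⟩
    have := ((hloc k).2 _ hkb).2
    rwa [(A.e (BB.i k)).left_inv hk] at this

end

end Crest.Agent.R257.AYM3_635
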