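import Crest.Agent.R257.AYClose_209
import Crest.Agent.R257.AYLinB_209
import Crest.Agent.R273.YauOpen_635

/-!
# R257 (S0395), E-AY (helper209): openness of the continuity path and the theorem

* `newton_a` : abstract Newton iteration with approximate linear solutions
* `open_ay`  : openness of the continuity path
* `ay_of_c3` : the negative Aubin-Yau theorem from `C3Stmt`
-/

set_option autoImplicit false
set_option linter.unusedSectionVars false

open Set Filter Topology Complex Metric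
open scoped ContDiff Matrix ComplexConjugate ComplexOrder

namespace Crest.Agent.R257.AYOpen_209

open Crest.Agent.R275.Geo Crest.Agent.R275.Core144 Crest.Agent.R275.GC293
open Crest.Agent.R273.Defs_333 Crest.Agent.R273.YauDefs_635 Crest.Agent.R273.HM_333
open Crest.Agent.R273.YauCh_635 Crest.Agent.R273.Hess_333 Crest.Agent.R273.HessB_333
open Crest.Agent.R273.Kah_333 Crest.Agent.R273.YauMax_635 Crest.Agent.R273.YauLoc_635
open Crest.Agent.R273.SchA_152 Crest.Agent.R273.SchD_152 Crest.Agent.R273.SchF_152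
open Crest.Agent.R273.YauQ_635
open Crest.Agent.R273.YauSchF_635 Crest.Agent.R273.YauClose_635 Crest.Agent.R273.YauPf_635
open Crest.Agent.R273.YauLim_635 Crest.Agent.R273.YauOpA_635 Crest.Agent.R273.CReg_933
open Crest.Agent.R257.AYClose_209 Crest.Agent.R257.AYReg_209 Crest.Agent.R257.AYLinB_209

noncomputable section

/-- abstract Newton iteration with approximate linear solutions -/
theorem newton_a {V : Type*} [AddCommGroup V] (N2 NH : ℝ → V → Prop) (L : V → V)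
    {CS CR : ℝ} (hCS : 0 ≤ CS) (hCR : 0 ≤ CR)
    (h20 : N2 0 0) (h2mono : ∀ {a b : ℝ} {v : V}, a ≤ b → N2 a v → N2 b v)
    (h2add : ∀ {a b : ℝ} {v w : V}, N2 a v → N2 b w → N2 (a + b) (v + w))
    (hHmono : ∀ {a b : ℝ} {v : V}, a ≤ b → NH a v → NH b v)
    (hHadd : ∀ {a b : ℝ} {v w : V}, NH a v → NH b w → NH (a + b) (v + w))
    (hlin : ∀ (N : ℝ) (ρ : V), NH N ρ → ∃ w : V, N2 (CS * N) w ∧ NH (1 / 4 * N) (ρ - L w)) :
    ∀ η > 0, ∃ δ ε : ℝ, 0 < δ ∧ δ ≤ η ∧ δ ≤ 1 ∧ 0 < ε ∧ ε ≤ δ ∧ ∀ R : V → V, NH ε (R 0) →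
      (∀ (d : ℝ) (v w : V), 0 ≤ d → d ≤ δ → N2 δ v → N2 d w →
        NH (CR * δ * d) (R (v + w) - R v + L w)) →
      ∀ k : ℕ, ∃ v : V, N2 δ v ∧ NH (ε * (1 / 2) ^ k) (R v) := by
  intro η hη
  set q : ℝ := (CR + 1) * (CS + 1) with hq
  have hq1 : 0 < q := by positivity
  have hqq : CR * CS ≤ q := by rw [hq]; nlinarith
  set δ : ℝ := min (min η 1) (1 / (4 * q)) with hδ
  have hδ0 : 0 < δ := lt_min (lt_min hη one_pos) (by positivity)
  have hδη : δ ≤ η := (min_le_left _ _).trans (min_le_left _ _)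
  have hδ1 : δ ≤ 1 := (min_le_left _ _).trans (min_le_right _ _)
  have hδq : δ ≤ 1 / (4 * q) := min_le_right _ _
  have h1 : CR * δ * CS ≤ 1 / 4 := by
    calc CR * δ * CS = (CR * CS) * δ := by ring
      _ ≤ q * (1 / (4 * q)) := mul_le_mul hqq hδq hδ0.le hq1.le
      _ = 1 / 4 := by field_simp
  set ε : ℝ := δ / (4 * (CS + 1)) with hε
  have hS1 : 0 < CS + 1 := by positivity
  have hε0 : 0 < ε := by positivity
  have hεδ : ε ≤ δ := by
    rw [hε, div_le_iff₀ (by positivity)]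
    nlinarith
  have h2 : 4 * (CS * ε) ≤ δ := by
    calc 4 * (CS * ε) ≤ 4 * ((CS + 1) * ε) := by nlinarith
      _ = δ := by rw [hε]; field_simp
  refine ⟨δ, ε, hδ0, hδη, hδ1, hε0, hεδ, fun R hR0 hquad => ?_⟩
  have key : ∀ k : ℕ, ∃ v : V, N2 (δ * (1 - (1 / 2) ^ k)) v ∧
      NH (ε * (1 / 2) ^ k) (R v) := by
    intro k
    induction k with
    | zero => exact ⟨0, by simpa using h20, by simpa using hR0⟩
    | succ k ih =>
      obtain ⟨v, hv, hρ⟩ := ih
      obtain ⟨w, hw1, hw2⟩ := hlin _ _ hρ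
      set t : ℝ := (1 / 2 : ℝ) ^ k with ht
      have ht0 : 0 < t := by positivity
      have ht1 : t ≤ 1 := pow_le_one₀ (by norm_num) (by norm_num)
      have hts : (1 / 2 : ℝ) ^ (k + 1) = t / 2 := by
        rw [pow_succ, ← ht]
        ring
      have hst : 4 * (CS * (ε * t)) ≤ δ * t := by
        calc 4 * (CS * (ε * t)) = (4 * (CS * ε)) * t := by ring
          _ ≤ δ * t := mul_le_mul_of_nonneg_right h2 ht0.le
      have hnn : 0 ≤ CS * (ε * t) := by positivity
      refine ⟨v + w, ?_, ?_⟩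
      · refine h2mono ?_ (h2add hv hw1)
        rw [hts]
        nlinarith
      · have e1 : R (v + w) = (R v - L w) + (R (v + w) - R v + L w) := by abel
        rw [e1]
        have hδv : N2 δ v := h2mono (by nlinarith) hv
        have hd : CS * (ε * t) ≤ δ := by nlinarith
        refine hHmono ?_ (hHadd hw2 (hquad _ v w hnn hd hδv hw1))
        rw [hts]
        have b2 : CR * δ * (CS * (ε * t)) ≤ 1 / 4 * (ε * t) := by
          calc CR * δ * (CS * (ε * t)) = (CR * δ * CS) * (ε * t) := by ring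
            _ ≤ 1 / 4 * (ε * t) := mul_le_mul_of_nonneg_right h1 (by positivity)
        nlinarith
  intro k
  obtain ⟨v, hv, hρ⟩ := key k
  have ht0 : (0 : ℝ) < (1 / 2) ^ k := by positivity
  exact ⟨v, h2mono (by nlinarith) hv, hρ⟩

/-- the exponential minus its linear part -/
def pe (x : ℝ) : ℝ := Real.exp x - 1 - x

theorem contDiff_pe : ContDiff ℝ 2 pe := by
  unfold pe
  fun_prop

theorem fderiv_pe : fderiv ℝ pe 0 = 0 := by
  have h1 : HasDerivAt pe (Real.exp 0 - 1) 0 := by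
    have h2 := ((Real.hasDerivAt_exp 0).sub_const 1).sub (hasDerivAt_id (0 : ℝ))
    exact h2
  have h2 : HasDerivAt pe 0 0 := by
    refine h1.congr_deriv ?_
    simp
  have h3 := h2.hasFDerivAt.fderiv
  rw [h3]
  ext
  simp

/-- the nonlinear term -/
theorem ho_expq {X : Type*} [NormedAddCommGroup X] :
    ∃ C : ℝ, 0 ≤ C ∧ ∀ {s : Set X} {δ ε d : ℝ} {e v w : X → ℝ}, 0 ≤ d → d ≤ δ → δ ≤ 1 → 0 ≤ ε →
      ε ≤ δ → HO (1 / 2) ε s e → HO (1 / 2) δ s v → HO (1 / 2) d s w →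
      HO (1 / 2) (C * δ * d) s (fun z =>
        (1 + e z) * (Real.exp (v z + w z) - Real.exp (v z)) - w z) := by
  obtain ⟨C1, hC10, hC1⟩ := ho_quad contDiff_pe fderiv_pe 1
  refine ⟨3 * C1 + 2, by positivity, fun {s δ ε d e v w} hd hdδ hδ1 hε hεδ he hv hw => ?_⟩
  have hδ0 : 0 ≤ δ := hd.trans hdδ
  have hq := hC1 (Z := X) (s := s) (a := 1 / 2) hd hdδ hδ1 hv hw
  have hq0 : 0 ≤ C1 * δ * d := by positivity
  have h1 := ho_mul hε hq0 he hq
  have h2 := ho_mul hε hd he hw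
  have h3 := (hq.add h1).add h2
  refine (h3.mono ?_).congr fun z _ => ?_
  · have a1 : ε ≤ 1 := hεδ.trans hδ1
    have a2 : 2 * ε * (C1 * δ * d) ≤ 2 * 1 * (C1 * δ * d) :=
      mul_le_mul_of_nonneg_right (by linarith) hq0
    have a3 : 2 * ε * d ≤ 2 * δ * d := mul_le_mul_of_nonneg_right (by linarith) hd
    nlinarith
  · simp only [pe]
    ring

variable {n : ℕ} {M : Type} [TopologicalSpace M] {A : Atl n M} {L : LB A}

/-- **openness** -/
theorem open_ay [T2Space M] [CompactSpace M] [ConnectedSpace M] [Finite A.ι] (P : Part A)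
    {H : HM L} (hH : H.Pos) {F : M → ℝ} (hF : A.Sm F) {t₀ : ℝ} {φ₀ : M → ℝ}
    (hsol : SolA H F t₀ φ₀) : ∃ δ > 0, ∀ t, |t - t₀| < δ → ∃ φ, SolA H F t φ := by
  obtain ⟨hφ, hK, hMA₀⟩ := hsol
  obtain ⟨Bc⟩ := Cb.nonempty A
  have hκ := Bc.fin
  obtain ⟨CS, hCS, hlin⟩ := lin_ay P hφ hK Bc
  set B : Bc.κ → Set (Cn n) := fun k => closedBall (Bc.z k) (Bc.r k / 2) with hB
  have hBt : ∀ k, B k ⊆ (A.e (Bc.i k)).target := fun k => Bc.sub' k
  have hr1 : ∀ k, Bc.r k / 2 ≤ 1 := fun k => by linarith [Bc.r1 k, Bc.r0 k]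
  -- constants
  have hq := fun k => pr_quad hφ hK (hr1 k) (hBt k)
  choose Cq hCq0 hCq using hq
  obtain ⟨CR, hCR0, hCR⟩ := exists_ub Cq
  obtain ⟨Ce, hCe0, hCe⟩ := ho_expq (X := Cn n)
  set NN2 : ℝ → (M → ℝ) → Prop := fun d v =>
    A.Sm v ∧ ∀ k, C2A (1 / 2) d (B k) (inC A (Bc.i k) v) with hNN2
  set NNH : ℝ → (M → ℝ) → Prop := fun d f =>
    A.Sm f ∧ ∀ k, HO (1 / 2) d (B k) (inC A (Bc.i k) f) with hNNH
  set Lo : (M → ℝ) → M → ℝ := fun w x => Lf H φ₀ w x - w x with hLo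
  have newt := newton_a NN2 NNH Lo (CR := CR + Ce) hCS.le (by positivity)
    ⟨fun i => contDiffOn_const, fun k => c2a_zero⟩
    (fun {a b v} hab hv => ⟨hv.1, fun k => (hv.2 k).mono hab⟩)
    (fun {a b v w} hv hw => ⟨sm_add hv.1 hw.1, fun k => c2a_add (A.e (Bc.i k)).open_target (hBt k)
      (inC_smooth hv.1 _) (inC_smooth hw.1 _) (hv.2 k) (hw.2 k)⟩)
    (fun {a b v} hab hv => ⟨hv.1, fun k => (hv.2 k).mono hab⟩)
    (fun {a b v w} hv hw => ⟨sm_add hv.1 hw.1, fun k => (hv.2 k).add (hw.2 k)⟩)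
    (fun N ρ hρ => by
      obtain ⟨w, hw, hw2, hres⟩ := hlin N ρ hρ.1 hρ.2
      exact ⟨w, ⟨hw, hw2⟩, fun i => (hρ.1 i).sub ((Lf_sm hφ hK hw i).sub (hw i)), hres⟩)
  -- positivity threshold
  have hlow : ∀ k, ∃ c : ℝ, 0 < c ∧ ∀ z ∈ B k, ∀ v, c * ‖v‖ ^ 2 ≤ lev (pot H φ₀ (Bc.i k)) z v :=
    fun k => lev_lower (A.e (Bc.i k)).open_target
      (((wt_smooth H (Bc.i k)).add (inC_smooth hφ (Bc.i k))).of_le two_le_inf)
      (isCompact_closedBall _ _) (hBt k) (fun z hz v hv => hK (Bc.i k) z (hBt k hz) v hv)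
  choose lo' hlo'0 hlo' using hlow
  obtain ⟨lo, hlo0, hlo⟩ := exists_pos_lb hlo'0
  obtain ⟨η, ε, hη0, hηlo, hη1, hε0, hεη, hnewt⟩ := newt (lo / 4) (by positivity)
  -- Hoelder bound of F
  have hFH : ∀ k, ∃ V, HO (1 / 2) V (B k) (inC A (Bc.i k) F) := fun k =>
    ho_c1 (A.e (Bc.i k)).open_target ((inC_smooth hF (Bc.i k)).of_le (by simp)) (hr1 k) (hBt k)
  choose VF hVF using hFH
  obtain ⟨KF, hKF0, hKF⟩ := exists_ub VF
  refine ⟨min (1 / (2 * KF + 1)) (ε / (6 * KF + 1)), lt_min (by positivity) (by positivity),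
    fun t ht => ?_⟩
  set s : ℝ := t - t₀ with hs
  have hs1 : |s| * (2 * KF + 1) ≤ 1 := by
    have := (ht.trans_le (min_le_left _ _)).le
    rwa [le_div_iff₀ (by positivity)] at this
  have hs2 : 6 * |s| * KF ≤ ε := by
    have := (ht.trans_le (min_le_right _ _)).le
    rw [le_div_iff₀ (by positivity)] at this
    nlinarith [abs_nonneg s]
  set e : M → ℝ := fun x => Real.exp (s * F x) - 1 with he
  have heS : A.Sm e := fun i => ((contDiffOn_const.mul (hF i)).exp).sub contDiffOn_const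
  have heH : ∀ k, HO (1 / 2) ε (B k) (inC A (Bc.i k) e) := fun k =>
    (ho_exp hKF0 ((hVF k).mono (hKF k)) hs1).mono hs2
  set Rr : (M → ℝ) → M → ℝ := fun v x => (1 + e x) * Real.exp (v x) - Pf H φ₀ v x with hRr
  have hR0 : NNH ε (Rr 0) := by
    have e0 : Rr 0 = e := by
      funext x
      have h0 : Pf H φ₀ (0 : M → ℝ) = fun _ => (1 : ℝ) := Pf_zero hφ hK
      simp only [hRr, h0, Pi.zero_apply, Real.exp_zero, mul_one]
      ring
    rw [e0]
    exact ⟨heS, heH⟩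
  have hRs : ∀ v, A.Sm v → A.Sm (Rr v) := fun v hv i =>
    ((contDiffOn_const.add (heS i)).mul (hv i).exp).sub (Pf_sm hφ hK hv i)
  have hquad : ∀ (d : ℝ) (v w : M → ℝ), 0 ≤ d → d ≤ η → NN2 η v → NN2 d w →
      NNH ((CR + Ce) * η * d) (Rr (v + w) - Rr v + Lo w) := by
    intro d v w hd hdδ hv hw
    have hvw : A.Sm (v + w) := sm_add hv.1 hw.1
    refine ⟨fun i => ((hRs _ hvw i).sub (hRs _ hv.1 i)).add
      ((Lf_sm hφ hK hw.1 i).sub (hw.1 i)), fun k => ?_⟩
    have h1 := hCq k η d v w hd hdδ hη1 hv.1 hw.1 (hv.2 k) (hw.2 k)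
    have h2 : Cq k * η * d ≤ CR * η * d :=
      mul_le_mul_of_nonneg_right (mul_le_mul_of_nonneg_right (hCR k) (hd.trans hdδ)) hd
    have h3 := hCe (s := B k) (δ := η) (ε := ε) (d := d) hd hdδ hη1 hε0.le hεη (heH k)
      (hv.2 k).h0 (hw.2 k).h0
    have h4 := (h1.mono h2).neg.add h3
    refine (h4.mono (le_of_eq (by ring))).congr fun z hz => ?_
    have e1 := Pf_read H hφ hvw (hBt k hz)
    have e2 := Pf_read H hφ hv.1 (hBt k hz)
    have e3 := Lf_read H hφ hw.1 (hBt k hz)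
    have e4 : pr H φ₀ (v + w) (Bc.i k) z = pr H φ₀ (fun y => v y + w y) (Bc.i k) z := rfl
    simp only [inC] at e1 e2 e3
    simp only [inC, Pi.sub_apply, Pi.add_apply, hRr, hLo, e1, e2, e3, e4]
    ring
  have hseq := hnewt Rr hR0 hquad
  choose v hv hres using hseq
  -- limits
  set U : Ultrafilter ℕ := hyperfilter ℕ with hU
  have hUle : (U : Filter ℕ) ≤ atTop := Nat.hyperfilter_le_atTop
  have hvb : ∀ j x, ‖v j x‖ ≤ η := by
    intro j x
    obtain ⟨k, hk, hkb⟩ := Bc.cover x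
    have := ((hv j).2 k).h0.bdd (A.e (Bc.i k) x) (ball_subset_closedBall hkb)
    simpa [inC, (A.e (Bc.i k)).left_inv hk] using this
  have hlim : ∀ x, ∃ y, Tendsto (fun j => v j x) U (𝓝 y) := fun x =>
    exists_lim U (fun j => hvb j x)
  choose Φ hΦ using hlim
  set Ψ : M → ℝ := fun y => φ₀ y + Φ y with hΨ
  -- local analysis in a ball
  have hloc : ∀ k, ContDiffOn ℝ ∞ (pot H Ψ (Bc.i k)) (ball (Bc.z k) (Bc.r k / 2)) ∧
      ∀ z ∈ ball (Bc.z k) (Bc.r k / 2), (cH (pot H Ψ (Bc.i k)) z).PosDef ∧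
        (cH (pot H Ψ (Bc.i k)) z).det =
          (Real.exp (t * F ((A.e (Bc.i k)).symm z) + Ψ ((A.e (Bc.i k)).symm z)) : ℂ) *
            (cH (H.wt (Bc.i k)) z).det := by
    intro k
    set O : Set (Cn n) := ball (Bc.z k) (Bc.r k / 2) with hO
    have hOB : O ⊆ B k := ball_subset_closedBall
    have hOt : O ⊆ (A.e (Bc.i k)).target := hOB.trans (hBt k)
    have hp0 : ContDiffOn ℝ ∞ (pot H φ₀ (Bc.i k)) (A.e (Bc.i k)).target :=
      (wt_smooth H (Bc.i k)).add (inC_smooth hφ (Bc.i k))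
    set u : ℕ → Cn n → ℝ := fun j => pot H (fun y => φ₀ y + v j y) (Bc.i k) with hu
    have hue : ∀ j, u j = fun w => pot H φ₀ (Bc.i k) w + inC A (Bc.i k) (v j) w := fun j => by
      funext w
      simp only [hu, pot, inC]
      ring
    have husm : ∀ j, ContDiffOn ℝ ∞ (u j) (A.e (Bc.i k)).target := fun j => by
      rw [hue j]
      exact hp0.add (inC_smooth (hv j).1 _)
    obtain ⟨V1, hV1⟩ := ho_smooth (A.e (Bc.i k)).open_target hp0 (hr1 k) (hBt k)
    obtain ⟨V0, hV0⟩ := (isCompact_closedBall (Bc.z k) (Bc.r k / 2)).exists_bound_of_continuousOn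
      (hp0.continuousOn.mono (hBt k))
    set S : ℝ := max (max V0 V1) 0 + η with hS
    have hS0 : 0 ≤ S := add_nonneg (le_max_right _ _) hη0.le
    have hV0S : V0 + η ≤ S := add_le_add ((le_max_left _ _).trans (le_max_left _ _)) le_rfl
    have hV1S : V1 + η ≤ S := add_le_add ((le_max_right _ _).trans (le_max_left _ _)) le_rfl
    obtain ⟨g1, g2, g3⟩ := ball_limit U (z₀ := Bc.z k) (r := Bc.r k / 2) (a := 1 / 2) (S := S)
      (by norm_num) hS0 (u := u) (V := pot H Ψ (Bc.i k))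
      (fun j => ((husm j).mono hOt).of_le two_le_inf)
      (fun j z hz => by
        rw [hue j]
        have b1 := hV0 z (hOB hz)
        have b2 := ((hv j).2 k).h0.bdd z (hOB hz)
        rw [Real.norm_eq_abs] at b1 b2
        exact (abs_add_le _ _).trans ((add_le_add b1 b2).trans hV0S))
      (fun j => by
        have h1 : HO (1 / 2) (V1 + η) (B k) (fderiv ℝ (fderiv ℝ (u j))) := by
          rw [hue j]
          exact (hV1.add ((hv j).2 k).h2).congr fun z hz =>
            fd2_add (A.e (Bc.i k)).open_target hp0 (inC_smooth (hv j).1 _) (hBt k hz)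
        exact (h1.mono hV1S).subset hOB)
      (fun z hz => by
        have : ∀ j, u j z = H.wt (Bc.i k) z +
            (φ₀ ((A.e (Bc.i k)).symm z) + v j ((A.e (Bc.i k)).symm z)) := fun j => rfl
        simp only [this]
        exact tendsto_const_nhds.add (tendsto_const_nhds.add (hΦ _)))
    -- positivity
    have hlev : ∀ z ∈ O, ∀ ξ, lo / 2 * ‖ξ‖ ^ 2 ≤ lev (pot H Ψ (Bc.i k)) z ξ := by
      intro z hz ξ
      refine ge_of_tendsto (tendsto_lev (g2 z hz) ξ) (Eventually.of_forall fun j => ?_)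
      have hzt := hOt hz
      have h1 : lev (u j) z ξ = lev (pot H φ₀ (Bc.i k)) z ξ + lev (inC A (Bc.i k) (v j)) z ξ := by
        rw [lev333_eq_lev145, lev333_eq_lev145, lev333_eq_lev145, hue j,
          Crest.Agent.R273.Levi_145.lev_add
            ((pot_contDiffAt H hφ (Bc.i k) hzt).of_le two_le_inf) (inC_c2 (hv j).1 (Bc.i k) hzt)]
        ring
      have h2 := abs_lev_le (inC A (Bc.i k) (v j)) z ξ
      have h3 := ((hv j).2 k).h2.bdd z (hOB hz)
      have h4 := (hlo' k z (hOB hz) ξ)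
      have h5 := hlo k
      have h6 : 0 ≤ ‖ξ‖ ^ 2 := by positivity
      have h7 : 2 * ‖fderiv ℝ (fderiv ℝ (inC A (Bc.i k) (v j))) z‖ * ‖ξ‖ ^ 2 ≤
          2 * η * ‖ξ‖ ^ 2 :=
        mul_le_mul_of_nonneg_right (by linarith) h6
      have h8 : lo * ‖ξ‖ ^ 2 ≤ lo' k * ‖ξ‖ ^ 2 := mul_le_mul_of_nonneg_right h5 h6
      have h9 : 2 * η * ‖ξ‖ ^ 2 ≤ lo / 2 * ‖ξ‖ ^ 2 :=
        mul_le_mul_of_nonneg_right (by linarith) h6
      have h10 := (abs_le.1 (h2.trans h7)).1
      rw [h1]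
      linarith
    have hpd : ∀ z ∈ O, (cH (pot H Ψ (Bc.i k)) z).PosDef := fun z hz =>
      posDef_cH (g1.contDiffAt (isOpen_ball.mem_nhds hz)) fun ξ hξ => by
        have h1 := hlev z hz ξ
        have h2 : 0 < ‖ξ‖ ^ 2 := by
          have := norm_pos_iff.2 hξ
          positivity
        nlinarith
    -- equation
    have heq : ∀ z ∈ O, (cH (pot H Ψ (Bc.i k)) z).det =
        (Real.exp (t * F ((A.e (Bc.i k)).symm z) + Ψ ((A.e (Bc.i k)).symm z)) : ℂ) *
          (cH (H.wt (Bc.i k)) z).det := by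
      intro z hz
      have hzt := hOt hz
      set x : M := (A.e (Bc.i k)).symm z with hxd
      have l1 : Tendsto (fun j => pr H φ₀ (v j) (Bc.i k) z) U
          (𝓝 ((cH (pot H Ψ (Bc.i k)) z).det / (cH (pot H φ₀ (Bc.i k)) z).det).re) :=
        (Complex.continuous_re.tendsto _).comp ((tendsto_det (g2 z hz)).div_const _)
      have l2 : Tendsto (fun j => Real.exp (s * F x) * Real.exp (v j x)) U
          (𝓝 (Real.exp (s * F x) * Real.exp (Φ x))) :=
        ((Real.continuous_exp.tendsto _).comp (hΦ x)).const_mul _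
      have l3 : Tendsto (fun j => Real.exp (s * F x) * Real.exp (v j x) -
          pr H φ₀ (v j) (Bc.i k) z) U (𝓝 0) := by
        have l4 : Tendsto (fun j : ℕ => ε * (1 / 2 : ℝ) ^ j) U (𝓝 0) := by
          have := (tendsto_pow_atTop_nhds_zero_of_lt_one (r := (1 / 2 : ℝ)) (by norm_num)
            (by norm_num)).const_mul ε
          rw [mul_zero] at this
          exact this.mono_left hUle
        refine squeeze_zero_norm (fun j => ?_) l4
        have h1 := ((hres j).2 k).bdd z (hOB hz)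
        have h2 : inC A (Bc.i k) (Rr (v j)) z =
            Real.exp (s * F x) * Real.exp (v j x) - pr H φ₀ (v j) (Bc.i k) z := by
          have h3 := Pf_read H hφ (hv j).1 hzt
          simp only [inC] at h3
          simp only [inC, hRr, he, h3]
          ring
        rwa [h2] at h1
      have h0 := tendsto_nhds_unique l3 (l2.sub l1)
      have h1 : ((cH (pot H Ψ (Bc.i k)) z).det / (cH (pot H φ₀ (Bc.i k)) z).det).re =
          Real.exp (s * F x) * Real.exp (Φ x) := by linarith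
      have hd0 := (posDef_pot hφ hK hzt).det_pos
      have hd1 := (hpd z hz).det_pos
      have r0 : (cH (pot H φ₀ (Bc.i k)) z).det =
          (((cH (pot H φ₀ (Bc.i k)) z).det.re : ℝ) : ℂ) := by
        have := (Complex.pos_iff.1 hd0).2
        apply Complex.ext <;> simp [← this]
      have r1 : (cH (pot H Ψ (Bc.i k)) z).det = (((cH (pot H Ψ (Bc.i k)) z).det.re : ℝ) : ℂ) := by
        have := (Complex.pos_iff.1 hd1).2
        apply Complex.ext <;> simp [← this]
      have p0 : 0 < (cH (pot H φ₀ (Bc.i k)) z).det.re := (Complex.pos_iff.1 hd0).1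
      have h2 : (cH (pot H Ψ (Bc.i k)) z).det.re / (cH (pot H φ₀ (Bc.i k)) z).det.re =
          Real.exp (s * F x) * Real.exp (Φ x) := by
        rw [← h1]
        conv_rhs => rw [r0, r1]
        rw [← Complex.ofReal_div, Complex.ofReal_re]
      rw [div_eq_iff p0.ne'] at h2
      have h3 := hMA₀ (Bc.i k) z hzt
      simp only [inC] at h3
      rw [← hxd] at h3
      rw [r1, h2, Complex.ofReal_mul, ← r0, h3, ← mul_assoc, ← Complex.ofReal_mul]
      congr 2
      rw [← Real.exp_add, ← Real.exp_add, hs, hΨ]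
      congr 1
      ring
    refine ⟨?_, fun z hz => ⟨hpd z hz, heq z hz⟩⟩
    refine reg_ay isOpen_ball g1 ((fhA_smooth hH hF t (Bc.i k)).mono hOt) (fun z₀ hz₀ => ?_)
      (fun z hz ξ hξ => ?_) (fun z hz => ?_)
    · obtain ⟨ρ, hρ, hρs⟩ := Metric.isOpen_iff.1 isOpen_ball z₀ hz₀
      exact ⟨ρ, hρ, S, hρs, fun z hz w hw => g3.hol z (hρs hz) w (hρs hw)⟩
    · have h1 := hlev z hz ξ
      have h2 : 0 < ‖ξ‖ ^ 2 := by
        have := norm_pos_iff.2 hξ
        positivity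
      nlinarith
    · have e5 : fhA H F t (Bc.i k) z + pot H Ψ (Bc.i k) z =
          (t * F ((A.e (Bc.i k)).symm z) + Ψ ((A.e (Bc.i k)).symm z)) +
            ldet H (Bc.i k) z := by
        simp only [fhA, pot, inC]
        ring
      rw [heq z hz, ← exp_ldet hH (hOt hz), e5, Real.exp_add _ (ldet H (Bc.i k) z)]
      push_cast
      ring
  have hΨsm : A.Sm Ψ := by
    refine sm_of_local fun x => ?_
    obtain ⟨k, hk, hkb⟩ := Bc.cover x
    refine ⟨Bc.i k, hk, ?_⟩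
    have h1 := ((hloc k).1.contDiffAt (isOpen_ball.mem_nhds hkb)).sub
      (wt_contDiffAt H (Bc.i k) ((A.e (Bc.i k)).map_source hk))
    refine h1.congr_of_eventuallyEq (Eventually.of_forall fun w => ?_)
    simp [pot]
  refine ⟨Ψ, hΨsm, kpos_of_local hΨsm fun x => ?_, ma_of_local hH hΨsm fun x => ?_⟩
  · obtain ⟨k, hk, hkb⟩ := Bc.cover x
    exact ⟨Bc.i k, hk, ((hloc k).2 _ hkb).1⟩
  · obtain ⟨k, hk, hkb⟩ := Bc.cover x
    refine ⟨Bc.i k, hk, ?_⟩
    have := ((hloc k).2 _ hkb).2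
    rwa [(A.e (Bc.i k)).left_inv hk] at this

/-- **negative Aubin-Yau theorem** from Calabi's estimate -/
theorem ay_of_c3 (h3 : C3Stmt) : AYStmt := by
  intro n M _ _ _ _ A _ hG hP L H hH F hF
  obtain ⟨P⟩ := hP
  set S : Set ℝ := {t | t ∈ Icc (0 : ℝ) 1 ∧ ∃ φ, SolA H F t φ} with hS
  have h0 : (0 : ℝ) ∈ S := ⟨⟨le_rfl, zero_le_one⟩, _, solA_zero hH F⟩
  have hclosed : IsClosed (S ∩ Icc 0 1) := by
    refine isClosed_of_closure_subset fun T hT => ?_
    obtain ⟨t, ht, hT'⟩ := mem_closure_iff_seq_limit.1 hT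
    have hT1 : T ∈ Icc (0 : ℝ) 1 := isClosed_Icc.mem_of_tendsto hT'
      (Eventually.of_forall fun k => (ht k).2)
    obtain ⟨φ, hs⟩ := close_ay h3 hH hF (fun k => (ht k).2) hT' (fun k => (ht k).1.2)
    exact ⟨⟨hT1, φ, hs⟩, hT1⟩
  have hsub : Icc (0 : ℝ) 1 ⊆ S := by
    refine hclosed.Icc_subset_of_forall_exists_gt h0 fun t ht y hy => ?_
    obtain ⟨⟨_, φ, hs⟩, ht0, ht1⟩ := ht
    obtain ⟨δ, hδ, hop⟩ := open_ay P hH hF hs
    have hmin : t < min y (min (t + δ) 1) := lt_min hy (lt_min (by linarith) ht1)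
    obtain ⟨s, hs1, hs2⟩ := exists_between hmin
    have hsy : s < y := hs2.trans_le (min_le_left _ _)
    have hsδ : s < t + δ := hs2.trans_le ((min_le_right _ _).trans (min_le_left _ _))
    have hs1' : s < 1 := hs2.trans_le ((min_le_right _ _).trans (min_le_right _ _))
    obtain ⟨φ', h'⟩ := hop s (by rw [abs_of_pos (by linarith)]; linarith)
    exact ⟨s, ⟨⟨by linarith, hs1'.le⟩, φ', h'⟩, hs1, hsy.le⟩
  obtain ⟨-, φ, h1, h2, h3'⟩ := hsub (right_mem_Icc.2 zero_le_one)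
  refine ⟨φ, h1, h2, ?_⟩
  simpa using h3'

end

end Crest.Agent.R257.AYOpen_209
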