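import Crest.Agent.R257.AYLoc_209
import Crest.Agent.R273.CRegE_933

/-!
# R257 (S0395), E-AY (helper209): regularity of `C^{2,1/2}` solutions of `det ∂∂̄u = e^(f+u)`
-/

set_option autoImplicit false
set_option linter.unusedSectionVars false

open Set Filter Topology Complex Metric
open scoped ContDiff Matrix ComplexConjugate

namespace Crest.Agent.R257.AYReg_209

open Crest.Agent.R275.Geo
open Crest.Agent.R273.Defs_333 Crest.Agent.R273.YauDefs_635 Crest.Agent.R273.YauCh_635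
open Crest.Agent.R273.YauQ_635 Crest.Agent.R273.YauSchF_635 Crest.Agent.R273.SchA_152
open Crest.Agent.R257.AYGrad_209 Crest.Agent.R257.AYCone_209 Crest.Agent.R257.AYLoc_209

noncomputable section

theorem exists_fd2_bound {E : Type*} [NormedAddCommGroup E] [NormedSpace ℝ E] {u : E → ℝ}
    {U K : Set E} (hU : IsOpen U) (hu : ContDiffOn ℝ 2 u U) (hK : IsCompact K) (hKU : K ⊆ U) :
    ∃ C : ℝ, ∀ z ∈ K, ‖fderiv ℝ (fderiv ℝ u) z‖ ≤ C := by
  have h1 : ContDiffOn ℝ 1 (fderiv ℝ u) U := hu.fderiv_of_isOpen hU (by norm_num)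
  exact hK.exists_bound_of_continuousOn ((h1.continuousOn_fderiv_of_isOpen hU le_rfl).mono hKU)

variable {n : ℕ}

theorem cone_pt {z₀ : Cn n} {ρ : ℝ} {Z : Cn (n + 1)} (hZ : Z ∈ ball (iz n z₀) ρ) :
    pz n Z ∈ ball z₀ ρ ∧ ‖pw n Z‖ < ρ := by
  rw [mem_ball, dist_eq_norm] at hZ
  have e1 : pz n Z - z₀ = pz n (Z - iz n z₀) := by rw [map_sub, pz_iz]
  have e2 : pw n Z = pw n (Z - iz n z₀) := by rw [map_sub, pw_iz, sub_zero]
  constructor
  · rw [mem_ball, dist_eq_norm, e1]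
    exact (norm_pz_le _).trans_lt hZ
  · rw [e2]
    exact (norm_pw_le _).trans_lt hZ

theorem lev_Ph_pos {R : ℝ} {u : Cn n → ℝ} {Z : Cn (n + 1)} (hu : ContDiffAt ℝ 2 u (pz n Z))
    (hR : -R < S u Z) (hp : ∀ v : Cn n, v ≠ 0 → 0 < lev u (pz n Z) v) {V : Cn (n + 1)}
    (hV : V ≠ 0) : 0 < lev (Ph n R u) Z V := by
  rw [lev_Ph hu hR]
  have hg := AYPsi_209.g_pos (n := n) hR
  have hh := AYPsi_209.h_pos (n := n) hR
  rcases eq_or_ne (pz n V) 0 with h0 | h0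
  · have h1 : pw n V ≠ 0 := by
      intro h1
      have h2 := norm_sq_split V
      rw [h0, h1, norm_zero, norm_zero] at h2
      have h3 : ‖V‖ = 0 := by nlinarith [norm_nonneg V]
      exact hV (norm_eq_zero.1 h3)
    have h2 : 0 < ‖pw n V‖ ^ 2 := by
      have := norm_pos_iff.2 h1
      positivity
    have h3 : ‖pw n V‖ ^ 2 = (pw n V).re ^ 2 + (pw n V).im ^ 2 := by
      rw [← Complex.normSq_eq_norm_sq, Complex.normSq_apply]
      ring
    rw [h0, smul_zero, map_zero, lev_zero, mul_zero, zero_add, zero_add, zero_sub]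
    have h4 : (2 * (pw n V).re) ^ 2 + (-(2 * (pw n V).im)) ^ 2 = 4 * ‖pw n V‖ ^ 2 := by
      rw [h3]
      ring
    rw [h4]
    positivity
  · have h1 := hp _ h0
    have h2 : 0 ≤ AYPsi_209.h n R (S u Z) *
        ((fderiv ℝ u (pz n Z) (pz n V) + 2 * (pw n V).re) ^ 2 +
        (fderiv ℝ u (pz n Z) (I • pz n V) - 2 * (pw n V).im) ^ 2) := by positivity
    have h3 := mul_pos hg h1
    linarith

/-- the function is recovered from the derivative of `Φ` -/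
theorem recover {R : ℝ} {u : Cn n → ℝ} {z : Cn n} (hu : DifferentiableAt ℝ u z) (hR : -R < u z) :
    u z = - Real.log (Real.exp R -
      (fderiv ℝ (Ph n R u) (iz n z) (EuclideanSpace.single (Fin.last n) 1) / 2) ^ (n + 1) /
        (n + 1)) := by
  have h1 : DifferentiableAt ℝ u (pz n (iz n z)) := by rwa [pz_iz]
  rw [fd_Ph h1, S_iz, pz_single_last, pw_single_last, map_zero, one_re]
  have h2 : AYPsi_209.g n R (u z) * (0 + 2 * 1) / 2 = AYPsi_209.g n R (u z) := by ring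
  rw [h2, AYPsi_209.g_pow hR]
  have h3 : (n : ℝ) + 1 ≠ 0 := by positivity
  rw [mul_div_cancel_left₀ _ h3, sub_sub_cancel, Real.log_exp, neg_neg]

/-- **regularity** -/
theorem reg_ay {U : Set (Cn n)} {u f : Cn n → ℝ} (hU : IsOpen U) (hu : ContDiffOn ℝ 2 u U)
    (hf : ContDiffOn ℝ ∞ f U)
    (hh : ∀ z₀ ∈ U, ∃ r > 0, ∃ C, Metric.ball z₀ r ⊆ U ∧ ∀ z ∈ Metric.ball z₀ r,
      ∀ w ∈ Metric.ball z₀ r,
        ‖fderiv ℝ (fderiv ℝ u) z - fderiv ℝ (fderiv ℝ u) w‖ ≤ C * ‖z - w‖ ^ (1 / 2 : ℝ))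
    (hp : ∀ z ∈ U, ∀ v : Cn n, v ≠ 0 → 0 < lev u z v)
    (hd : ∀ z ∈ U, (cH u z).det = (Real.exp (f z + u z) : ℂ)) :
    ContDiffOn ℝ ∞ u U := by
  intro z₀ hz₀
  obtain ⟨r, hr, C, hrU, hC⟩ := hh z₀ hz₀
  -- a compact ball
  set ρ : ℝ := min (r / 2) 1 with hρ
  have hρ0 : 0 < ρ := lt_min (by linarith) one_pos
  have hρr : ρ ≤ r / 2 := min_le_left _ _
  have hρ1 : ρ ≤ 1 := min_le_right _ _
  have hcb : closedBall z₀ ρ ⊆ ball z₀ r := closedBall_subset_ball (by linarith)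
  have hcU : closedBall z₀ ρ ⊆ U := hcb.trans hrU
  have hK : IsCompact (closedBall z₀ ρ) := isCompact_closedBall _ _
  obtain ⟨N, hN⟩ := hK.exists_bound_of_continuousOn (hu.continuousOn.mono hcU)
  obtain ⟨G, hG⟩ := hK.exists_bound_of_continuousOn
    ((hu.continuousOn_fderiv_of_isOpen hU (by norm_num)).mono hcU)
  obtain ⟨K, hKb⟩ := exists_fd2_bound hU hu hK hcU
  have hz₀c : z₀ ∈ closedBall z₀ ρ := mem_closedBall_self hρ0.le
  have hN0 : 0 ≤ N := (norm_nonneg _).trans (hN z₀ hz₀c)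
  have hG0 : 0 ≤ G := (norm_nonneg (fderiv ℝ u z₀)).trans (hG z₀ hz₀c)
  have hK0 : 0 ≤ K := (norm_nonneg (fderiv ℝ (fderiv ℝ u) z₀)).trans (hKb z₀ hz₀c)
  have hbU : ball z₀ ρ ⊆ U := ball_subset_closedBall.trans hcU
  set R : ℝ := N + 3 with hR
  set W : Set (Cn (n + 1)) := ball (iz n z₀) ρ with hW
  have hWz : ∀ Z ∈ W, pz n Z ∈ ball z₀ ρ := fun Z hZ => (cone_pt hZ).1
  have hsub : Icc (-(N + 2)) (N + 2) ⊆ Ioi (-R) := fun t ht => by
    have := ht.1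
    rw [mem_Ioi, hR]
    linarith
  have hSI : ∀ Z ∈ W, S u Z ∈ Icc (-(N + 2)) (N + 2) := by
    intro Z hZ
    obtain ⟨z1, z2⟩ := cone_pt hZ
    have h1 := hN _ (ball_subset_closedBall z1)
    rw [Real.norm_eq_abs] at h1
    have a1 := abs_le.1 h1
    have a2 := abs_le.1 ((Complex.abs_re_le_norm (pw n Z)).trans (z2.le.trans hρ1))
    simp only [S, mem_Icc]
    constructor <;> linarith [a1.1, a1.2, a2.1, a2.2]
  have hSR : ∀ Z ∈ W, -R < S u Z := fun Z hZ => hsub (hSI Z hZ)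
  have huc : ∀ z ∈ ball z₀ ρ, ContDiffAt ℝ 2 u z := fun z hz =>
    hu.contDiffAt (hU.mem_nhds (hbU hz))
  set Φ : Cn (n + 1) → ℝ := Ph n R u with hΦ
  have hΦ2 : ContDiffOn ℝ 2 Φ W := contDiffOn_Ph two_le_inf hu (fun Z hZ => hbU (hWz Z hZ)) hSR
  set F : Cn (n + 1) → ℝ := fun Z => f (pzR n Z) - pwR n Z with hF
  have hFs : ContDiffOn ℝ ∞ F W :=
    (hf.comp (pzR n).contDiff.contDiffOn fun Z hZ => hbU (hWz Z hZ)).sub
      (pwR n).contDiff.contDiffOn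
  have hΦd : ∀ Z ∈ W, (cH Φ Z).det = (Real.exp (F Z) : ℂ) := fun Z hZ =>
    det_Ph_eq (huc _ (hWz Z hZ)) (hSR Z hZ) (hd _ (hbU (hWz Z hZ)))
  -- Hoelder bound of `D²Φ`
  have hnz : ∀ {Z Y : Cn (n + 1)}, ‖pz n Z - pz n Y‖ ≤ ‖Z - Y‖ := fun {Z Y} => by
    rw [← map_sub]
    exact norm_pz_le _
  have hhalf : ∀ Z ∈ W, ∀ Y ∈ W, ‖Z - Y‖ ≤ 2 * ‖Z - Y‖ ^ (1 / 2 : ℝ) := fun Z hZ Y hY =>
    lip_half hρ1 hZ hY
  have hSl : ∀ Z ∈ W, ∀ Y ∈ W, |S u Z - S u Y| ≤ 2 * (G + 2) * ‖Z - Y‖ ^ (1 / 2 : ℝ) := by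
    intro Z hZ Y hY
    have h1 : ‖u (pz n Z) - u (pz n Y)‖ ≤ G * ‖pz n Z - pz n Y‖ :=
      (convex_ball z₀ ρ).norm_image_sub_le_of_norm_fderiv_le (𝕜 := ℝ)
        (fun y hy => (huc y hy).differentiableAt (by norm_num))
        (fun y hy => hG y (ball_subset_closedBall hy)) (hWz Y hY) (hWz Z hZ)
    have h2 : |(pw n Z).re - (pw n Y).re| ≤ ‖Z - Y‖ := by
      rw [← Complex.sub_re, ← map_sub]
      exact (Complex.abs_re_le_norm _).trans (norm_pw_le _)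
    have h3 : S u Z - S u Y = (u (pz n Z) - u (pz n Y)) + 2 * ((pw n Z).re - (pw n Y).re) := by
      simp only [S]
      ring
    rw [h3]
    refine (abs_add_le _ _).trans ?_
    rw [abs_mul, abs_two]
    rw [Real.norm_eq_abs] at h1
    have h4 := mul_le_mul_of_nonneg_left (hnz (Z := Z) (Y := Y)) hG0
    have h5 := hhalf Z hZ Y hY
    calc _ ≤ G * ‖Z - Y‖ + 2 * ‖Z - Y‖ := by linarith
      _ = (G + 2) * ‖Z - Y‖ := by ring
      _ ≤ (G + 2) * (2 * ‖Z - Y‖ ^ (1 / 2 : ℝ)) :=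
          mul_le_mul_of_nonneg_left h5 (by positivity)
      _ = _ := by ring
  obtain ⟨Ka, hKa0, hKa⟩ := ho_comp1 (X := Cn (n + 1)) isOpen_Ioi
    ((AYPsi_209.contDiffOn_g n R).of_le (by simp)) hsub
  obtain ⟨Kb', hKb0, hKb'⟩ := ho_comp1 (X := Cn (n + 1)) isOpen_Ioi
    ((AYPsi_209.contDiffOn_h n R).of_le (by simp)) hsub
  have ha := hKa (by positivity : 0 ≤ 2 * (G + 2)) hSI hSl
  have hb := hKb' (by positivity : 0 ≤ 2 * (G + 2)) hSI hSl
  set A0 : ℝ := Ka * (1 + 2 * (G + 2)) with hA0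
  set B0 : ℝ := Kb' * (1 + 2 * (G + 2)) with hB0
  have hA00 : 0 ≤ A0 := by positivity
  have hB00 : 0 ≤ B0 := by positivity
  set P0 : ℝ := (G + 2) + 2 * K with hP0
  have hP00 : 0 ≤ P0 := by positivity
  set C1 : ℝ := max C 0 + K with hC1
  have hC10 : 0 ≤ C1 := by positivity
  have hX : ∀ V V', HO (1 / 2) (C1 * (‖V‖ * ‖V'‖)) W
      (fun Z => fderiv ℝ (fderiv ℝ u) (pz n Z) (pz n V) (pz n V')) := by
    intro V V'
    have hvv : ‖pz n V‖ * ‖pz n V'‖ ≤ ‖V‖ * ‖V'‖ :=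
      mul_le_mul (norm_pz_le _) (norm_pz_le _) (norm_nonneg _) (norm_nonneg _)
    refine ⟨fun Z hZ => ?_, fun Z hZ Y hY => ?_⟩
    · refine (ContinuousLinearMap.le_opNorm₂ _ _ _).trans ?_
      rw [mul_assoc]
      refine mul_le_mul ((hKb _ (ball_subset_closedBall (hWz Z hZ))).trans ?_) hvv
        (by positivity) hC10
      rw [hC1]
      linarith [le_max_right C 0]
    · have h1 := ContinuousLinearMap.le_opNorm₂ (fderiv ℝ (fderiv ℝ u) (pz n Z) -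
        fderiv ℝ (fderiv ℝ u) (pz n Y)) (pz n V) (pz n V')
      have h2 := hC _ (hcb (ball_subset_closedBall (hWz Z hZ))) _
        (hcb (ball_subset_closedBall (hWz Y hY)))
      have h3 : ‖pz n Z - pz n Y‖ ^ (1 / 2 : ℝ) ≤ ‖Z - Y‖ ^ (1 / 2 : ℝ) :=
        Real.rpow_le_rpow (norm_nonneg _) hnz (by norm_num)
      have h4 : ‖fderiv ℝ (fderiv ℝ u) (pz n Z) - fderiv ℝ (fderiv ℝ u) (pz n Y)‖ ≤
          C1 * ‖Z - Y‖ ^ (1 / 2 : ℝ) := by
        refine h2.trans ?_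
        calc C * ‖pz n Z - pz n Y‖ ^ (1 / 2 : ℝ) ≤ max C 0 * ‖pz n Z - pz n Y‖ ^ (1 / 2 : ℝ) :=
              mul_le_mul_of_nonneg_right (le_max_left _ _) (Real.rpow_nonneg (norm_nonneg _) _)
          _ ≤ C1 * ‖Z - Y‖ ^ (1 / 2 : ℝ) :=
              mul_le_mul (by rw [hC1]; linarith) h3 (Real.rpow_nonneg (norm_nonneg _) _) hC10
      rw [mul_assoc] at h1
      calc _ ≤ _ := h1
        _ ≤ (C1 * ‖Z - Y‖ ^ (1 / 2 : ℝ)) * (‖V‖ * ‖V'‖) :=
            mul_le_mul h4 hvv (by positivity)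
              (mul_nonneg hC10 (Real.rpow_nonneg (norm_nonneg _) _))
        _ = _ := by ring
  have hgrad : ∀ V, HO (1 / 2) (P0 * ‖V‖) W
      (fun Z => fderiv ℝ u (pz n Z) (pz n V) + 2 * (pw n V).re) := by
    intro V
    refine ⟨fun Z hZ => ?_, fun Z hZ Y hY => ?_⟩
    · have h1 := (fderiv ℝ u (pz n Z)).le_opNorm (pz n V)
      have h2 := hG _ (ball_subset_closedBall (hWz Z hZ))
      have h3 := (Complex.abs_re_le_norm (pw n V)).trans (norm_pw_le V)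
      have h4 := norm_pz_le V
      refine (norm_add_le _ _).trans ?_
      rw [norm_mul, Real.norm_eq_abs 2, abs_two, Real.norm_eq_abs (pw n V).re]
      have h5 : ‖fderiv ℝ u (pz n Z)‖ * ‖pz n V‖ ≤ G * ‖V‖ :=
        mul_le_mul h2 h4 (norm_nonneg _) hG0
      have h6 : 0 ≤ 2 * K * ‖V‖ := by positivity
      calc _ ≤ G * ‖V‖ + 2 * ‖V‖ := by linarith
        _ ≤ P0 * ‖V‖ := by rw [hP0]; linarith
    · have h1 : ‖fderiv ℝ u (pz n Z) - fderiv ℝ u (pz n Y)‖ ≤ K * ‖pz n Z - pz n Y‖ :=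
        (convex_ball z₀ ρ).norm_image_sub_le_of_norm_fderiv_le (𝕜 := ℝ)
          (fun y hy => ((huc y hy).fderiv_right (m := 1) (by norm_num)).differentiableAt
            (by norm_num)) (fun y hy => hKb y (ball_subset_closedBall hy)) (hWz Y hY) (hWz Z hZ)
      have h2 := hhalf Z hZ Y hY
      have h3 := (fderiv ℝ u (pz n Z) - fderiv ℝ u (pz n Y)).le_opNorm (pz n V)
      have h4 : fderiv ℝ u (pz n Z) (pz n V) + 2 * (pw n V).re -
          (fderiv ℝ u (pz n Y) (pz n V) + 2 * (pw n V).re) =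
          (fderiv ℝ u (pz n Z) - fderiv ℝ u (pz n Y)) (pz n V) := by
        rw [_root_.sub_apply]
        ring
      rw [h4]
      have h5 : ‖fderiv ℝ u (pz n Z) - fderiv ℝ u (pz n Y)‖ ≤ P0 * ‖Z - Y‖ ^ (1 / 2 : ℝ) := by
        calc _ ≤ K * ‖pz n Z - pz n Y‖ := h1
          _ ≤ K * (2 * ‖Z - Y‖ ^ (1 / 2 : ℝ)) :=
              mul_le_mul_of_nonneg_left (hnz.trans h2) hK0
          _ = (2 * K) * ‖Z - Y‖ ^ (1 / 2 : ℝ) := by ring
          _ ≤ _ := mul_le_mul_of_nonneg_right (by rw [hP0]; linarith)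
              (Real.rpow_nonneg (norm_nonneg _) _)
      calc _ ≤ _ := h3
        _ ≤ (P0 * ‖Z - Y‖ ^ (1 / 2 : ℝ)) * ‖V‖ :=
            mul_le_mul h5 (norm_pz_le _) (norm_nonneg _)
              (mul_nonneg hP00 (Real.rpow_nonneg (norm_nonneg _) _))
        _ = _ := by ring
  set C2 : ℝ := 2 * A0 * C1 + 2 * B0 * (2 * P0 * P0) with hC2
  have hC20 : 0 ≤ C2 := by positivity
  have hHO : HO (1 / 2) C2 W (fderiv ℝ (fderiv ℝ Φ)) := by
    refine ho_bilin hC20 fun V V' => ?_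
    have h1 := ho_mul (by positivity) (by positivity) (hgrad V) (hgrad V')
    have h2 := ho_mul hB00 (by positivity) hb h1
    have h3 := ho_mul hA00 (by positivity) ha (hX V V')
    refine ((h3.add h2).mono (le_of_eq ?_)).congr fun Z hZ => ?_
    · rw [hC2]
      ring
    · exact fd2_Ph (huc _ (hWz Z hZ)) (hSR Z hZ) V V'
  have hΦs : ContDiffOn ℝ ∞ Φ W := by
    refine Crest.Agent.R273.CReg_933.reg_holds (n + 1) W Φ F (1 / 2) isOpen_ball (by norm_num)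
      (by norm_num) hΦ2 hFs (fun Z hZ => ?_)
      (fun Z hZ V hV => lev_Ph_pos (huc _ (hWz Z hZ)) (hSR Z hZ) (hp _ (hbU (hWz Z hZ))) hV) hΦd
    obtain ⟨δ, hδ, hδs⟩ := Metric.isOpen_iff.1 isOpen_ball Z hZ
    exact ⟨δ, hδ, C2, hδs, fun y hy w hw => hHO.hol y (hδs hy) w (hδs hw)⟩
  -- recovering `u`
  have hiz : ∀ z ∈ ball z₀ ρ, iz n z ∈ W := by
    intro z hz
    rw [hW, mem_ball, dist_eq_norm, ← map_sub, norm_iz, ← dist_eq_norm]
    exact hz
  have hD : ContDiffOn ℝ ∞ (fderiv ℝ Φ) W := hΦs.fderiv_of_isOpen isOpen_ball (by simp)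
  have hD1 : ContDiffOn ℝ ∞ (fun z : Cn n => fderiv ℝ Φ (iz n z)) (ball z₀ ρ) :=
    hD.comp ((iz n).restrictScalars ℝ).contDiff.contDiffOn fun z hz => hiz z hz
  have hD2 : ContDiffOn ℝ ∞ (fun z : Cn n =>
      fderiv ℝ Φ (iz n z) (EuclideanSpace.single (Fin.last n) 1)) (ball z₀ ρ) :=
    hD1.clm_apply contDiffOn_const
  have hD3 : ContDiffOn ℝ ∞ (fun z : Cn n => Real.exp R -
      (fderiv ℝ Φ (iz n z) (EuclideanSpace.single (Fin.last n) 1) / 2) ^ (n + 1) / (n + 1))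
      (ball z₀ ρ) := contDiffOn_const.sub (((hD2.div_const 2).pow (n + 1)).div_const _)
  have hrec : ∀ z ∈ ball z₀ ρ, u z = - Real.log (Real.exp R -
      (fderiv ℝ Φ (iz n z) (EuclideanSpace.single (Fin.last n) 1) / 2) ^ (n + 1) / (n + 1)) := by
    intro z hz
    have h1 : -R < u z := by
      have := hSR _ (hiz z hz)
      rwa [S_iz] at this
    exact recover ((huc z hz).differentiableAt (by norm_num)) h1
  have hne : ∀ z ∈ ball z₀ ρ, Real.exp R -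
      (fderiv ℝ Φ (iz n z) (EuclideanSpace.single (Fin.last n) 1) / 2) ^ (n + 1) / (n + 1) ≠ 0 := by
    intro z hz
    have h1 : -R < u z := by
      have := hSR _ (hiz z hz)
      rwa [S_iz] at this
    have h2 : DifferentiableAt ℝ u (pz n (iz n z)) := by
      rw [pz_iz]
      exact (huc z hz).differentiableAt (by norm_num)
    rw [hΦ, fd_Ph h2, S_iz, pz_single_last, pw_single_last, map_zero, one_re]
    have h3 : AYPsi_209.g n R (u z) * (0 + 2 * 1) / 2 = AYPsi_209.g n R (u z) := by ring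
    have h4 : (n : ℝ) + 1 ≠ 0 := by positivity
    rw [h3, AYPsi_209.g_pow h1, mul_div_cancel_left₀ _ h4, sub_sub_cancel]
    exact (Real.exp_pos _).ne'
  have hfin : ContDiffOn ℝ ∞ u (ball z₀ ρ) := ((hD3.log hne).neg).congr hrec
  exact (hfin.contDiffAt (isOpen_ball.mem_nhds (mem_ball_self hρ0))).contDiffWithinAt

end

end Crest.Agent.R257.AYReg_209
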