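import Crest.Agent.R257.AYOpen_209
import Crest.Agent.R273.YauC3_812
import Crest.Agent.R273.Vol_333

/-!
# R257 (S0395), E-AY (helper209): compact negative Aubin-Yau theorem, unconditional

* `ay_holds : AYStmt`
* `ma_le_of_max` : comparison principle for two Monge-Ampere equations
* `ay_unique`
* `ay_ke` : Kaehler-Einstein metric in the class of a positive metric `H` of the canonical bundle:
  `det ∂∂̄u = e^u` for the local potentials `u = pot H φ i`
-/

set_option autoImplicit false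
set_option linter.unusedSectionVars false

open Set Filter Topology Complex Metric
open scoped ContDiff Matrix ComplexConjugate ComplexOrder

namespace Crest.Agent.R257.AYTop_209

open Crest.Agent.R275.Geo Crest.Agent.R275.Core144 Crest.Agent.R275.GC293
open Crest.Agent.R273.Defs_333 Crest.Agent.R273.YauDefs_635 Crest.Agent.R273.HM_333
open Crest.Agent.R273.YauCh_635 Crest.Agent.R273.Hess_333 Crest.Agent.R273.HessB_333
open Crest.Agent.R273.Kah_333 Crest.Agent.R273.YauMax_635 Crest.Agent.R273.YauClose_635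
open Crest.Agent.R273.SchK_152 Crest.Agent.R273.Vol_333
open Crest.Agent.R257.AYClose_209 Crest.Agent.R257.AYOpen_209

noncomputable section

/-- **compact negative Aubin-Yau theorem** -/
theorem ay_holds : AYStmt := ay_of_c3 Crest.Agent.R273.YauC3_812.c3Stmt

section Local

variable {n : ℕ}

theorem D2_congr {u v : Cn n → ℝ} {z : Cn n} (h : u =ᶠ[𝓝 z] v) : D2 u z = D2 v z := by
  funext a b
  rw [D2, D2, h.fderiv.fderiv_eq]

theorem cH_congr {u v : Cn n → ℝ} {z : Cn n} (h : u =ᶠ[𝓝 z] v) : cH u z = cH v z := by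
  simp only [cH, D2_congr h]

end Local

variable {n : ℕ} {M : Type} [TopologicalSpace M] {A : Atl n M} {L : LB A}

theorem pot_tw_ev (H : HM L) {φ ψ : M → ℝ} (hφ : A.Sm φ) {i : A.ι} {z : Cn n}
    (hz : z ∈ (A.e i).target) :
    pot (tw H φ hφ) (fun x => ψ x - φ x) i =ᶠ[𝓝 z] pot H ψ i := by
  filter_upwards [(A.e i).open_target.mem_nhds hz] with w hw
  simp only [pot, inC, wt_tw H φ hφ i hw]
  ring

theorem wt_tw_ev (H : HM L) {φ : M → ℝ} (hφ : A.Sm φ) {i : A.ι} {z : Cn n}
    (hz : z ∈ (A.e i).target) : (tw H φ hφ).wt i =ᶠ[𝓝 z] pot H φ i := by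
  filter_upwards [(A.e i).open_target.mem_nhds hz] with w hw
  simp only [pot, inC, wt_tw H φ hφ i hw]

/-- **comparison principle**: at a maximum of `ψ - φ` the right hand sides compare -/
theorem ma_le_of_max {H : HM L} (hH : H.Pos) {φ ψ p q : M → ℝ} (hφ : A.Sm φ) (hψ : A.Sm ψ)
    (hKφ : KPos H φ) (hKψ : KPos H ψ) (hMφ : MA H φ q) (hMψ : MA H ψ p) {y : M}
    (hm : IsLocalMax (fun x => ψ x - φ x) y) : p y ≤ q y := by
  have hpos := pos_tw H hφ hKφ
  have hsm : A.Sm (fun x => ψ x - φ x) := fun i => (hψ i).sub (hφ i)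
  have hK : KPos (tw H φ hφ) (fun x => ψ x - φ x) := by
    intro i z hz v hv
    rw [lev_D2, D2_congr (pot_tw_ev H hφ hz), ← lev_D2]
    exact hKψ i z hz v hv
  have hMA : MA (tw H φ hφ) (fun x => ψ x - φ x) (fun x => p x - q x) := by
    intro i z hz
    rw [cH_congr (pot_tw_ev H hφ hz), cH_congr (wt_tw_ev H hφ hz), hMψ i z hz, hMφ i z hz,
      ← mul_assoc, ← Complex.ofReal_mul, ← Real.exp_add]
    congr 3
    simp only [inC]
    ring
  have h1 := f_nonpos_of_max hpos hsm hK hMA hm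
  linarith

/-- **uniqueness** -/
theorem ay_unique [CompactSpace M] {H : HM L} (hH : H.Pos) {F φ ψ : M → ℝ} (hφ : A.Sm φ)
    (hψ : A.Sm ψ) (hKφ : KPos H φ) (hKψ : KPos H ψ) (hMφ : MA H φ (fun x => F x + φ x))
    (hMψ : MA H ψ (fun x => F x + ψ x)) : φ = ψ := by
  have key : ∀ {φ ψ : M → ℝ}, A.Sm φ → A.Sm ψ → KPos H φ → KPos H ψ →
      MA H φ (fun x => F x + φ x) → MA H ψ (fun x => F x + ψ x) → ∀ x, ψ x ≤ φ x := by
    intro φ ψ hφ hψ hKφ hKψ hMφ hMψ x
    have hc : Continuous (fun x => ψ x - φ x) :=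
      continuous_of_sm (fun i => (hψ i).sub (hφ i))
    obtain ⟨y, -, hy⟩ := isCompact_univ.exists_isMaxOn ⟨x, mem_univ x⟩ hc.continuousOn
    have h1 := ma_le_of_max hH hφ hψ hKφ hKψ hMφ hMψ (hy.isLocalMax univ_mem)
    have h2 : ψ x - φ x ≤ ψ y - φ y := hy (mem_univ x)
    linarith
  funext x
  exact le_antisymm (key hψ hφ hKψ hKφ hMψ hMφ x) (key hφ hψ hKφ hKψ hMφ hMψ x)

/-- **Kaehler-Einstein metrics**: for a positive metric `H` of the canonical bundle there is
`H' = tw H u` positive with volume form `1 / H'` (that is `Ric = - ω`) -/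
theorem ay_ke [T2Space M] [CompactSpace M] [ConnectedSpace M] [Finite A.ι]
    (hG : GoodA A) (hP : Nonempty (Part A)) {H : HM (KB A)} (hp : H.Pos) :
    ∃ (u : M → ℝ) (hu : A.Sm u) (hp' : (tw H u hu).Pos), KPos H u ∧
      (∀ i, ∀ x ∈ (A.e i).source,
        (volK (kah (tw H u hu) hp')).w i x = ((tw H u hu).w i x)⁻¹) ∧
      ∀ i, ∀ z ∈ (A.e i).target,
        (cH (pot H u i) z).det = (Real.exp (pot H u i z) : ℂ) := by
  obtain ⟨u, hu, hK, hMA⟩ := ay_holds n M A hG hP (KB A) H hp _
    (sm_ratio (volK (kah H hp)) (inv H))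
  have hp' := pos_tw H hu hK
  have key : ∀ i, ∀ z ∈ (A.e i).target,
      (cH (pot H u i) z).det = (Real.exp (pot H u i z) : ℂ) := by
    intro i z hz
    have hx := (A.e i).map_target hz
    have h1 := hMA i z hz
    have h2 := w_ratio (volK (kah H hp)) (inv H) hx
    have h3 : (volK (kah H hp)).w i ((A.e i).symm z) = (cH (H.wt i) z).det.re := by
      rw [cH_eq_hess (wt_contDiffAt H i hz), ← cur_read H i hz]
      rfl
    have h4 : (inv H).w i ((A.e i).symm z) = Real.exp (H.wt i z) := by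
      have h5 := H.pos i _ hx
      simp only [HM.wt, Real.exp_neg, Real.exp_log h5]
      rfl
    rw [h3, h4] at h2
    have hd := det_wt_pos hp hz
    have r0 : (cH (H.wt i) z).det = (((cH (H.wt i) z).det.re : ℝ) : ℂ) := by
      have := (Complex.pos_iff.1 hd).2
      apply Complex.ext <;> simp [← this]
    rw [h1, r0, ← Complex.ofReal_mul]
    congr 1
    simp only [inC, pot]
    rw [Real.exp_add _ (u ((A.e i).symm z)), mul_right_comm, ← h2, ← Real.exp_add]
  refine ⟨u, hu, hp', hK, fun i x hx => ?_, key⟩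
  have hz := (A.e i).map_source hx
  have h1 := key i _ hz
  have h2 : (volK (kah (tw H u hu) hp')).w i x = (cH (pot H u i) (A.e i x)).det.re := by
    rw [← cur_pot H hu i hz, (A.e i).left_inv hx]
    rfl
  rw [h2, h1, Complex.ofReal_re]
  have h3 := (tw H u hu).pos i x hx
  have h4 : pot H u i (A.e i x) = - Real.log ((tw H u hu).w i x) := by
    have h5 := wt_tw H u hu i hz
    simp only [HM.wt, (A.e i).left_inv hx] at h5
    simp only [pot, inC, (A.e i).left_inv hx, HM.wt]
    linarith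
  rw [h4, Real.exp_neg, Real.exp_log h3]

end

end Crest.Agent.R257.AYTop_209
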