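import Crest.Agent.R257.KE_835

/-!
# R257 (S0395), Part E (helper835): affine levels

* `Par g s θ U`  : local parametrisations of the level `{g = s}` in `ℂ^(n+1)`;
* `eta2a g θ z`  : `|det (∂_1 θ, …, ∂_n θ, w) / dg(w)|²`;
* `Par.lift`, `Par.eta2_eq` : comparison with the cone;
* `Par.flat`     : `det cH |θ|² = |η|² |∇g|²`;
* `KEw.par`      : the Kaehler-Einstein equation of `u x = W (1, x)` on the levels.
-/

set_option autoImplicit false
set_option linter.unusedSectionVars false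

open Set Filter Topology Complex
open scoped ContDiff Matrix ComplexConjugate Manifold

namespace Crest.Agent.R257.Aff_835

open Crest.Agent.R275.Geo Crest.Agent.R275.Core144 Crest.Agent.R275.GC293
open Crest.Agent.R273.Defs_333 Crest.Agent.R273.YauDefs_635 Crest.Agent.R273.YauCh_635
open Crest.Agent.R257.PN_835 Crest.Agent.R257.Gram_835 Crest.Agent.R257.Hyp_835
open Crest.Agent.R257.KEl_835 Crest.Agent.R257.KE_835
open Crest.Agent.R273.FS_333 (sq)

noncomputable section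

variable {n d : ℕ}

/-- affine space -/
abbrev AC (n : ℕ) : Type := Fin (n + 1) → ℂ

/-- homogeneous coordinates of an affine point -/
def hc (x : AC n) : HC (n + 1) := Fin.cons 1 x

@[simp] theorem hc_zero (x : AC n) : hc x 0 = 1 := rfl

@[simp] theorem hc_succ (x : AC n) (k : Fin (n + 1)) : hc x k.succ = x k := rfl

theorem hc_ne (x : AC n) : hc x ≠ 0 := by
  intro h
  have h1 := congrFun h 0
  rw [hc_zero] at h1
  exact one_ne_zero h1

/-- vectors at infinity -/
def hv (w : AC n) : HC (n + 1) := Fin.cons 0 w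

@[simp] theorem hv_zero (x : AC n) : hv x 0 = 0 := rfl

@[simp] theorem hv_succ (x : AC n) (k : Fin (n + 1)) : hv x k.succ = x k := rfl

theorem hv_of {W : HC (n + 1)} (h : W 0 = 0) : W = hv (fun k => W k.succ) := by
  funext k
  refine Fin.cases ?_ (fun k => ?_) k
  · rw [h, hv_zero]
  · rw [hv_succ]

theorem nsq_hc (x : AC n) : nsq (hc x) = 1 + nsq x := by
  unfold nsq
  rw [Fin.sum_univ_succ]
  simp

/-- `hv` as a continuous linear map -/
def hvL (n : ℕ) : AC n →L[ℂ] HC (n + 1) :=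
  ContinuousLinearMap.pi fun k => Fin.cases (motive := fun _ => AC n →L[ℂ] ℂ) 0
    (fun k => ContinuousLinearMap.proj k) k

@[simp] theorem hvL_apply (w : AC n) : hvL n w = hv w := by
  funext k
  refine Fin.cases ?_ (fun k => ?_) k
  · rfl
  · rfl

theorem hasFDerivAt_hc (x : AC n) : HasFDerivAt (hc (n := n)) (hvL n) x := by
  refine hasFDerivAt_pi'.2 fun k => ?_
  refine Fin.cases ?_ (fun k => ?_) k
  · exact (hasFDerivAt_const (1 : ℂ) x)
  · exact (ContinuousLinearMap.proj (R := ℂ) (φ := fun _ : Fin (n + 1) => ℂ) k).hasFDerivAt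

/-- local parametrisations of a level of `g` -/
structure Par (g : AC n → ℂ) (s : ℂ) (θ : Cn n → AC n) (U : Set (Cn n)) : Prop where
  isOpen : IsOpen U
  hol : DifferentiableOn ℂ θ U
  lvl : ∀ z ∈ U, g (θ z) = s
  imm : ∀ z ∈ U, ∀ v : Cn n, fderiv ℂ θ z v = 0 → v = 0

/-- gradient covector -/
def gra (g : AC n → ℂ) (x : AC n) : AC n := fun k => fderiv ℂ g x (Pi.single k 1)

/-- squared norm of the gradient -/
def nga (g : AC n → ℂ) (x : AC n) : ℝ := nsq (gra g x)

theorem prg_gra (g : AC n → ℂ) (x w : AC n) : prg (gra g x) w = fderiv ℂ g x w := by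
  have h1 : w = ∑ k, w k • (Pi.single k (1 : ℂ) : AC n) := by
    funext j
    simp [Finset.sum_apply, Pi.single_apply]
  conv_rhs => rw [h1, map_sum]
  unfold prg gra
  refine Finset.sum_congr rfl fun k _ => ?_
  rw [map_smul, smul_eq_mul, mul_comm]

theorem gra_ne {g : AC n → ℂ} {x : AC n} (h : fderiv ℂ g x ≠ 0) : gra g x ≠ 0 := by
  intro h0
  apply h
  ext w
  rw [← prg_gra, h0]
  simp [prg]

theorem nga_pos {g : AC n → ℂ} {x : AC n} (h : fderiv ℂ g x ≠ 0) : 0 < nga g x :=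
  nsq_pos (gra_ne h)

/-- `|η|²` -/
def eta2a (g : AC n → ℂ) (θ : Cn n → AC n) (z : Cn n) : ℝ := (gdet (DF θ z)).re / nga g (θ z)

namespace Par

variable {g : AC n → ℂ} {s : ℂ} {θ : Cn n → AC n} {U : Set (Cn n)} (hθ : Par g s θ U)
include hθ

theorem mono {V : Set (Cn n)} (hV : IsOpen V) (h : V ⊆ U) : Par g s θ V :=
  ⟨hV, hθ.hol.mono h, fun z hz => hθ.lvl z (h hz), fun z hz => hθ.imm z (h hz)⟩

theorem diffAt {z : Cn n} (hz : z ∈ U) : DifferentiableAt ℂ θ z :=
  hθ.hol.differentiableAt (hθ.isOpen.mem_nhds hz)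

theorem holk (k : Fin (n + 1)) : DifferentiableOn ℂ (fun z => θ z k) U := fun z hz =>
  (differentiableAt_pi.1 (hθ.diffAt hz) k).differentiableWithinAt

theorem pd_eq {z : Cn n} (hz : z ∈ U) (a : Fin n) :
    pd θ z a = fderiv ℂ θ z (EuclideanSpace.single a 1) := by
  funext k
  have h1 := hasFDerivAt_pi'.1 (hθ.diffAt hz).hasFDerivAt k
  show fderiv ℂ (fun z => θ z k) z _ = _
  rw [h1.fderiv]
  rfl

theorem ker {z : Cn n} (hz : z ∈ U) (hg : DifferentiableAt ℂ g (θ z)) (v : Cn n) :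
    fderiv ℂ g (θ z) (fderiv ℂ θ z v) = 0 := by
  have h1 : HasFDerivAt (fun z => g (θ z)) ((fderiv ℂ g (θ z)).comp (fderiv ℂ θ z)) z :=
    HasFDerivAt.comp z (g := g) hg.hasFDerivAt (hθ.diffAt hz).hasFDerivAt
  have h2 : HasFDerivAt (fun z => g (θ z)) (0 : Cn n →L[ℂ] ℂ) z := by
    refine (hasFDerivAt_const s z).congr_of_eventuallyEq ?_
    filter_upwards [hθ.isOpen.mem_nhds hz] with w hw
    exact hθ.lvl w hw
  exact congrArg (fun T : Cn n →L[ℂ] ℂ => T v) (h1.unique h2)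

theorem ker_DF {z : Cn n} (hz : z ∈ U) (hg : DifferentiableAt ℂ g (θ z)) (a : Fin n) :
    prg (gra g (θ z)) (DF θ z a) = 0 := by
  show prg (gra g (θ z)) (pd θ z a) = 0
  rw [hθ.pd_eq hz, prg_gra]
  exact hθ.ker hz hg _

theorem gdet_eq {z : Cn n} (h0 : fderiv ℂ g (θ z) ≠ 0) :
    gdet (DF θ z) = ((eta2a g θ z * nga g (θ z) : ℝ) : ℂ) := by
  rw [eta2a, div_mul_cancel₀ _ (nga_pos h0).ne', gdet_real]

/-- **residue form** -/
theorem eta2a_spec {z : Cn n} (hz : z ∈ U) (hg : DifferentiableAt ℂ g (θ z))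
    (h0 : fderiv ℂ g (θ z) ≠ 0) (w : AC n) :
    gdet (addRow (DF θ z) w) = ((eta2a g θ z * ‖fderiv ℂ g (θ z) w‖ ^ 2 : ℝ) : ℂ) := by
  have h1 := nga_pos h0
  have e : Fin (n + 1) ≃ Fin n ⊕ Unit := Fintype.equivOfCardEq (by simp)
  have h2 := gdet_row e (gra_ne h0) (hθ.ker_DF hz hg) w
  rw [hθ.gdet_eq h0, prg_gra] at h2
  have h3 : ((∑ k, ‖gra g (θ z) k‖ ^ 2 : ℝ) : ℂ) = ((nga g (θ z) : ℝ) : ℂ) := rfl
  rw [h3] at h2
  have h4 : ((nga g (θ z) : ℝ) : ℂ) ≠ 0 := by rw [Ne, ofReal_eq_zero]; exact h1.ne'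
  apply mul_right_cancel₀ h4
  rw [h2]
  push_cast
  ring

/-- the flat metric -/
theorem flat {z : Cn n} (hz : z ∈ U) (h0 : fderiv ℂ g (θ z) ≠ 0) :
    (cH (sq θ) z).det = ((eta2a g θ z * nga g (θ z) : ℝ) : ℂ) := by
  rw [← gram_flat hθ.isOpen hθ.holk hz, hθ.gdet_eq h0]

end Par

/-! ### comparison with the cone -/

variable {X : Hyp n d} {g : AC n → ℂ} {s : ℂ}

/-- `X` is the projective closure of the level -/
def Cl (X : Hyp n d) (g : AC n → ℂ) (s : ℂ) : Prop := ∀ x, X.H (hc x) = g x - s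

theorem Cl.hasFDerivAt (h : Cl X g s) (x : AC n) :
    HasFDerivAt g ((fderiv ℂ X.H (hc x)).comp (hvL n)) x := by
  have h1 : HasFDerivAt (fun x => X.H (hc x) + s) ((fderiv ℂ X.H (hc x)).comp (hvL n)) x :=
    (HasFDerivAt.comp x (g := X.H) (X.diff _).hasFDerivAt (hasFDerivAt_hc x)).add_const s
  refine h1.congr_of_eventuallyEq (Eventually.of_forall fun x => ?_)
  show g x = X.H (hc x) + s
  rw [h x]
  ring

theorem Cl.fderiv_eq (h : Cl X g s) (x w : AC n) :
    fderiv ℂ g x w = fderiv ℂ X.H (hc x) (hv w) := by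
  rw [(h.hasFDerivAt x).fderiv]
  show fderiv ℂ X.H (hc x) (hvL n w) = _
  rw [hvL_apply]

theorem Cl.diffAt (h : Cl X g s) (x : AC n) : DifferentiableAt ℂ g x :=
  (h.hasFDerivAt x).differentiableAt

theorem Cl.ne (h : Cl X g s) {x : AC n} (hx : g x = s) : fderiv ℂ g x ≠ 0 := by
  have h0 : X.H (hc x) = 0 := by rw [h x, hx, sub_self]
  obtain ⟨W, hW0, hW⟩ := X.exists_dir (hc_ne x) h0 (hc_zero x)
  intro hcon
  apply hW
  rw [hv_of hW0, ← h.fderiv_eq, hcon]
  rfl

/-- block form of the Gram determinant -/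
theorem gdet_block {z : Cn n} {θ : Cn n → AC n} (w : AC n) :
    gdet (addRow (RF (fun z => hc (θ z)) z) (hv w)) = gdet (addRow (DF θ z) w) := by
  -- reindex
  let eR : Unit ⊕ (Fin n ⊕ Unit) ≃ (Unit ⊕ Fin n) ⊕ Unit := (Equiv.sumAssoc Unit (Fin n) Unit).symm
  let eC : Unit ⊕ Fin (n + 1) ≃ Fin (n + 2) :=
    { toFun := Sum.elim (fun _ => 0) Fin.succ
      invFun := fun k => Fin.cases (motive := fun _ => Unit ⊕ Fin (n + 1)) (Sum.inl ()) Sum.inr k
      left_inv := by
        intro x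
        rcases x with x | x
        · rfl
        · rfl
      right_inv := by
        intro k
        refine Fin.cases ?_ (fun k => ?_) k
        · rfl
        · rfl }
  let eA : Fin (n + 1) ≃ Fin n ⊕ Unit := Fintype.equivOfCardEq (by simp)
  set N : Matrix (Fin n ⊕ Unit) (Fin (n + 1)) ℂ := addRow (DF θ z) w with hN
  have hpd0 : ∀ a, pd (fun z => hc (θ z)) z a 0 = 0 := by
    intro a
    show fderiv ℂ (fun z => hc (θ z) 0) z _ = 0
    simp only [hc_zero, fderiv_const_apply]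
    rfl
  have h1 : gdet (addRow (RF (fun z => hc (θ z)) z) (hv w)) =
      gdet (Matrix.fromBlocks (1 : Matrix Unit Unit ℂ) (Matrix.of fun _ k => θ z k) 0
        (N.submatrix eA id)) := by
    rw [← gdet_reindex (addRow (RF (fun z => hc (θ z)) z) (hv w)) eR,
      ← gdet_reindex_col ((addRow (RF (fun z => hc (θ z)) z) (hv w)).submatrix eR id) eC,
      ← gdet_reindex (((addRow (RF (fun z => hc (θ z)) z) (hv w)).submatrix eR id).submatrix id eC)
        (Equiv.sumCongr (Equiv.refl Unit) eA)]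
    congr 1
    ext a b
    rcases a with a | a <;> rcases b with b | b
    · rfl
    · rfl
    · show addRow (RF (fun z => hc (θ z)) z) (hv w) (eR (Sum.inr (eA a))) 0 = 0
      rcases eA a with c | c
      · exact hpd0 c
      · rfl
    · show addRow (RF (fun z => hc (θ z)) z) (hv w) (eR (Sum.inr (eA a))) b.succ = N (eA a) b
      rcases eA a with c | c
      · rfl
      · rfl
  have h2 : gdet N = (N.submatrix eA id).det * conj (N.submatrix eA id).det := gdet_submatrix N eA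
  rw [h1, h2, gdet_submatrix _ (Equiv.sumCongr (Equiv.refl Unit) (Equiv.refl (Fin (n + 1))))]
  have h3 : (Matrix.fromBlocks (1 : Matrix Unit Unit ℂ) (Matrix.of fun _ k => θ z k) 0
        (N.submatrix eA id)).submatrix (Equiv.sumCongr (Equiv.refl Unit)
          (Equiv.refl (Fin (n + 1)))) id = Matrix.fromBlocks (1 : Matrix Unit Unit ℂ)
            (Matrix.of fun _ k => θ z k) 0 (N.submatrix eA id) := by
    ext a b
    rcases a with a | a <;> rfl
  rw [h3, Matrix.det_fromBlocks_zero₂₁, Matrix.det_one, one_mul]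

namespace Par

variable {θ : Cn n → AC n} {U : Set (Cn n)} (hθ : Par g s θ U)
include hθ

/-- a parametrisation is a lift -/
theorem lift (hX : Cl X g s) : Lift X (fun z => hc (θ z)) U where
  isOpen := hθ.isOpen
  hol z hz := ((hasFDerivAt_hc (θ z)).differentiableAt.comp z (hθ.diffAt hz)).differentiableWithinAt
  ne z _ := hc_ne _
  zero z hz := by rw [hX, hθ.lvl z hz, sub_self]
  imm z hz v h := by
    obtain ⟨c, hc'⟩ := h
    have h1 : HasFDerivAt (fun z => hc (θ z)) ((hvL n).comp (fderiv ℂ θ z)) z :=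
      HasFDerivAt.comp z (g := hc) (hasFDerivAt_hc (θ z)) (hθ.diffAt hz).hasFDerivAt
    rw [h1.fderiv] at hc'
    have h2 : hv (fderiv ℂ θ z v) = c • hc (θ z) := by
      rw [← hvL_apply]
      exact hc'
    have h3 := congrFun h2 0
    rw [hv_zero, Pi.smul_apply, hc_zero, smul_eq_mul, mul_one] at h3
    refine hθ.imm z hz v ?_
    funext k
    have h4 := congrFun h2 k.succ
    rw [hv_succ, ← h3, zero_smul] at h4
    exact h4

theorem eta2_eq (hX : Cl X g s) {z : Cn n} (hz : z ∈ U) :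
    eta2 X (fun z => hc (θ z)) z = eta2a g θ z := by
  have hL := hθ.lift hX
  have h0 : X.H (hc (θ z)) = 0 := hL.zero z hz
  obtain ⟨W, hW0, hW⟩ := X.exists_dir (hc_ne (θ z)) h0 (hc_zero (θ z))
  set w : AC n := fun k => W k.succ with hw
  have hWw : W = hv w := hv_of hW0
  have h1 := hL.eta2_spec hz (hv w)
  have h2 := hθ.eta2a_spec hz (hX.diffAt _) (hX.ne (hθ.lvl z hz)) w
  rw [gdet_block, h2, hX.fderiv_eq] at h1
  have h3 : eta2a g θ z * ‖fderiv ℂ X.H (hc (θ z)) (hv w)‖ ^ 2 =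
      eta2 X (fun z => hc (θ z)) z * ‖fderiv ℂ X.H (hc (θ z)) (hv w)‖ ^ 2 := by exact_mod_cast h1
  have h4 : ‖fderiv ℂ X.H (hc (θ z)) (hv w)‖ ^ 2 ≠ 0 := by
    rw [← hWw]
    have := norm_ne_zero_iff.2 hW
    positivity
  exact (mul_right_cancel₀ h4 h3).symm

end Par

/-- **the Kaehler-Einstein equation on the levels** -/
theorem _root_.Crest.Agent.R257.KE_835.KEw.par {κ : ℕ} {W : HC (n + 1) → ℝ} (hW : KEw X κ W)
    (hX : Cl X g s) {θ : Cn n → AC n} {U : Set (Cn n)} (hθ : Par g s θ U) :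
    ContDiffOn ℝ ∞ (fun z => W (hc (θ z))) U ∧
    (∀ z ∈ U, ∀ v : Cn n, v ≠ 0 → 0 < lev (fun z => W (hc (θ z))) z v) ∧
    (∀ z ∈ U, (cH (fun z => W (hc (θ z))) z).det =
      ((Real.exp (W (hc (θ z))) * eta2a g θ z : ℝ) : ℂ)) := by
  have hL := hθ.lift hX
  refine ⟨hW.sm _ _ hL, hW.pos _ _ hL, fun z hz => ?_⟩
  rw [← hθ.eta2_eq hX hz]
  exact hW.ke _ _ hL z hz

end

end Crest.Agent.R257.Aff_835
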