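import Mathlib

/-!
# R257 (S0395), leaf MASS-DEG (helper5), part 1: the area formula with multiplicities

`area` : `∫⁻_U |det f'| g = ∫⁻ (∑_{x ∈ U, f x = y} g x) dy` for `f` of class `C¹` on the open set `U`.
-/

set_option autoImplicit false
set_option linter.unusedSectionVars false

open Set Filter Topology MeasureTheory Metric
open scoped ContDiff ENNReal

namespace Crest.Agent.R257.Area_5

noncomputable section

universe u

variable {E : Type u} [NormedAddCommGroup E] [NormedSpace ℝ E] [FiniteDimensional ℝ E]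
  [MeasurableSpace E] [BorelSpace E]

/-- fibre sum -/
def fs (s : Set E) (f : E → E) (g : E → ℝ≥0∞) (y : E) : ℝ≥0∞ := ∑' x : E, s.indicator g x * ({y} : Set E).indicator 1 (f x)

theorem fs_eq (s : Set E) (f : E → E) (g : E → ℝ≥0∞) (y : E) :
    fs s f g y = ∑' x : {x // x ∈ s ∧ f x = y}, g x := by
  classical
  unfold fs
  have h0 : ∑' x : {x // x ∈ s ∧ f x = y}, g x = ∑' x : E, {x | x ∈ s ∧ f x = y}.indicator g x :=
    tsum_subtype {x | x ∈ s ∧ f x = y} g
  rw [h0]
  refine tsum_congr fun x => ?_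
  by_cases h1 : x ∈ s <;> by_cases h2 : f x = y <;> simp [indicator, h1, h2]

/-- on a set where `f` is injective -/
theorem fs_inj {s : Set E} {f : E → E} (hf : InjOn f s) (g : E → ℝ≥0∞) {x : E} (hx : x ∈ s) :
    fs s f g (f x) = g x := by
  classical
  unfold fs
  rw [tsum_eq_single x]
  · simp [hx]
  · intro y hy
    by_cases h1 : y ∈ s
    · have : f y ≠ f x := fun h => hy (hf h1 hx h)
      simp [indicator, this]
    · simp [indicator, h1]

theorem fs_off {s : Set E} {f : E → E} (g : E → ℝ≥0∞) {y : E} (hy : y ∉ f '' s) :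
    fs s f g y = 0 := by
  classical
  unfold fs
  rw [ENNReal.tsum_eq_zero]
  intro x
  by_cases h1 : x ∈ s
  · have : f x ≠ y := fun h => hy ⟨x, h1, h⟩
    simp [indicator, this]
  · simp [indicator, h1]

variable (μ : Measure E) [μ.IsAddHaarMeasure]

theorem area_inj {s : Set E} (hs : MeasurableSet s) {f : E → E} {f' : E → E →L[ℝ] E}
    (hf' : ∀ x ∈ s, HasFDerivWithinAt f (f' x) s x) (hf : InjOn f s) {g : E → ℝ≥0∞}
    (hg : Measurable g) :
    Measurable (fs s f g) ∧
      ∫⁻ y, fs s f g y ∂μ = ∫⁻ x in s, ENNReal.ofReal |(f' x).det| * g x ∂μ := by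
  classical
  have hemb : MeasurableEmbedding (s.domRestrict f) :=
    measurableEmbedding_of_fderivWithin hs hf' hf
  have himg : MeasurableSet (f '' s) := measurable_image_of_fderivWithin hs hf' hf
  constructor
  · have h1 : fs s f g = Function.extend (s.domRestrict f) (fun x => g x) (fun _ => 0) := by
      funext y
      by_cases hy : y ∈ f '' s
      · obtain ⟨x, hx, rfl⟩ := hy
        rw [fs_inj hf g hx]
        exact (hemb.injective.extend_apply (fun x : s => g x) (fun _ => 0) ⟨x, hx⟩).symm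
      · rw [fs_off g hy, Function.extend_apply']
        rintro ⟨x, hx⟩
        exact hy ⟨x, x.2, hx⟩
    rw [h1]
    exact hemb.measurable_extend (hg.comp measurable_subtype_coe) measurable_const
  · have h2 : ∫⁻ y, fs s f g y ∂μ = ∫⁻ y in f '' s, fs s f g y ∂μ := by
      rw [← lintegral_indicator himg]
      refine lintegral_congr fun y => ?_
      by_cases hy : y ∈ f '' s
      · rw [indicator_of_mem hy]
      · rw [indicator_of_notMem hy, fs_off g hy]
    rw [h2, lintegral_image_eq_lintegral_abs_det_fderiv_mul μ hs hf' hf]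
    refine setLIntegral_congr_fun hs fun x hx => ?_
    rw [fs_inj hf g hx]

theorem fs_iUnion {ι : Type*} [Countable ι] {s : ι → Set E} (hs : Pairwise (Function.onFun Disjoint s))
    (f : E → E) (g : E → ℝ≥0∞) (y : E) : fs (⋃ i, s i) f g y = ∑' i, fs (s i) f g y := by
  classical
  unfold fs
  rw [ENNReal.tsum_comm]
  refine tsum_congr fun x => ?_
  rw [ENNReal.tsum_mul_right]
  congr 1
  by_cases hx : x ∈ ⋃ i, s i
  · obtain ⟨i, hi⟩ := mem_iUnion.1 hx
    rw [tsum_eq_single i]
    · rw [indicator_of_mem hx, indicator_of_mem hi]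
    · intro j hj
      exact indicator_of_notMem (fun h => (disjoint_left.1 (hs hj) h) hi) _
  · rw [indicator_of_notMem hx]
    symm
    rw [ENNReal.tsum_eq_zero]
    intro i
    exact indicator_of_notMem (fun h => hx (mem_iUnion.2 ⟨i, h⟩)) _

/-- **Area formula with multiplicities** -/
theorem area' {U : Set E} (hU : IsOpen U) {f : E → E} (hf : ContDiffOn ℝ 1 f U) {g : E → ℝ≥0∞}
    (hg : Measurable g) : AEMeasurable (fs U f g) μ ∧
    ∫⁻ y, fs U f g y ∂μ = ∫⁻ x in U, ENNReal.ofReal |(fderiv ℝ f x).det| * g x ∂μ := by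
  classical
  set R : Set E := {x | x ∈ U ∧ (fderiv ℝ f x).det ≠ 0} with hR
  have hdiff : ∀ x ∈ U, HasFDerivAt f (fderiv ℝ f x) x := fun x hx =>
    ((hf.differentiableOn (by norm_num)).differentiableAt (hU.mem_nhds hx)).hasFDerivAt
  have hcont : ContinuousOn (fun x => (fderiv ℝ f x).det) U :=
    ContinuousLinearMap.continuous_det.comp_continuousOn (hf.continuousOn_fderiv_of_isOpen hU le_rfl)
  have hRo : IsOpen R := by
    have := hcont.isOpen_inter_preimage hU (isOpen_compl_singleton (x := (0 : ℝ)))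
    exact this
  -- local injectivity
  have hloc : ∀ x ∈ R, ∃ V : Set E, IsOpen V ∧ x ∈ V ∧ V ⊆ R ∧ InjOn f V := by
    intro x hx
    have hst : HasStrictFDerivAt f (fderiv ℝ f x) x := by
      have := (hf.contDiffAt (hU.mem_nhds hx.1)).hasStrictFDerivAt (by norm_num)
      exact this
    set e := ContinuousLinearMap.toContinuousLinearEquivOfDetNeZero (fderiv ℝ f x) hx.2
    have hst' : HasStrictFDerivAt f (e : E →L[ℝ] E) x := by
      have : (e : E →L[ℝ] E) = fderiv ℝ f x := rfl
      rw [this]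
      exact hst
    refine ⟨(hst'.toOpenPartialHomeomorph f).source ∩ R,
      (hst'.toOpenPartialHomeomorph f).open_source.inter hRo,
      ⟨hst'.mem_toOpenPartialHomeomorph_source, hx⟩, inter_subset_right, ?_⟩
    exact ((hst'.toOpenPartialHomeomorph f).injOn.mono inter_subset_left)
  choose! V hVo hxV hVR hVinj using hloc
  -- countable subcover
  obtain ⟨T, hTR, hTc, hTU⟩ : ∃ T ⊆ R, T.Countable ∧ R ⊆ ⋃ x ∈ T, V x :=
    TopologicalSpace.countable_cover_nhdsWithin fun x hx =>
      mem_nhdsWithin_of_mem_nhds ((hVo x hx).mem_nhds (hxV x hx))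
  have hRT : R = ⋃ x ∈ T, V x := by
    refine Subset.antisymm hTU ?_
    intro y hy
    obtain ⟨x, hx, hyx⟩ := mem_iUnion₂.1 hy
    exact hVR x (hTR hx) hyx
  -- disjoint pieces
  obtain ⟨W, hWm, hWd, hWU, hWinj, hWR⟩ : ∃ W : ℕ → Set E, (∀ k, MeasurableSet (W k)) ∧
      Pairwise (Function.onFun Disjoint W) ∧ (⋃ k, W k) = R ∧ (∀ k, InjOn f (W k)) ∧
      ∀ k, W k ⊆ R := by
    rcases T.eq_empty_or_nonempty with hT0 | hT0
    · refine ⟨fun _ => ∅, fun _ => MeasurableSet.empty, fun i j _ => by simp [Function.onFun],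
        ?_, fun _ => by simp, fun _ => by simp⟩
      rw [hRT, hT0]
      simp
    · obtain ⟨a, ha⟩ := hTc.exists_eq_range hT0
      have haT : ∀ k, a k ∈ T := fun k => ha ▸ mem_range_self k
      refine ⟨disjointed (fun k => V (a k)), fun k => ?_, disjoint_disjointed _, ?_, fun k => ?_,
        fun k => ?_⟩
      · exact MeasurableSet.disjointed (fun k => (hVo _ (hTR (haT k))).measurableSet) k
      · rw [iUnion_disjointed, hRT, ha]
        simp
      · exact (hVinj _ (hTR (haT k))).mono (disjointed_subset _ k)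
      · exact (disjointed_subset _ k).trans (hVR _ (hTR (haT k)))
  have hpiece : ∀ k, Measurable (fs (W k) f g) ∧
      ∫⁻ y, fs (W k) f g y ∂μ = ∫⁻ x in W k, ENNReal.ofReal |(fderiv ℝ f x).det| * g x ∂μ :=
    fun k => area_inj μ (hWm k) (fun x hx => (hdiff x (hWR k hx).1).hasFDerivWithinAt) (hWinj k) hg
  have hRmeas : Measurable (fs R f g) := by
    rw [← hWU]
    have : fs (⋃ k, W k) f g = fun y => ∑' k, fs (W k) f g y := funext (fs_iUnion hWd f g)
    rw [this]
    exact Measurable.tsum fun k => (hpiece k).1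
  have hRsum : ∫⁻ y, fs R f g y ∂μ = ∫⁻ x in R, ENNReal.ofReal |(fderiv ℝ f x).det| * g x ∂μ := by
    rw [← hWU, lintegral_iUnion hWm hWd]
    have : ∀ y, fs (⋃ k, W k) f g y = ∑' k, fs (W k) f g y := fs_iUnion hWd f g
    simp only [this]
    rw [lintegral_tsum fun k => (hpiece k).1.aemeasurable]
    exact tsum_congr fun k => (hpiece k).2
  -- critical points
  have hcrit : μ (f '' (U \ R)) = 0 := by
    refine addHaar_image_eq_zero_of_det_fderivWithin_eq_zero μ (f' := fun x => fderiv ℝ f x)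
      (fun x hx => (hdiff x hx.1).hasFDerivWithinAt) fun x hx => ?_
    by_contra h
    exact hx.2 ⟨hx.1, h⟩
  have hae : ∀ᵐ y ∂μ, fs U f g y = fs R f g y := by
    have h1 : ∀ᵐ y ∂μ, y ∉ f '' (U \ R) := by
      rw [ae_iff]
      simpa only [not_not, ofPred_mem_eq] using hcrit
    filter_upwards [h1] with y hy
    unfold fs
    refine tsum_congr fun x => ?_
    by_cases hxU : x ∈ U
    · by_cases hxR : x ∈ R
      · rw [indicator_of_mem hxU, indicator_of_mem hxR]
      · have : f x ≠ y := fun h => hy ⟨x, ⟨hxU, hxR⟩, h⟩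
        have h0 : ({y} : Set E).indicator (1 : E → ℝ≥0∞) (f x) = 0 :=
          indicator_of_notMem (s := ({y} : Set E)) (fun h => this h) _
        rw [h0, mul_zero, mul_zero]
    · rw [indicator_of_notMem hxU, indicator_of_notMem (fun h : x ∈ R => hxU h.1)]
  refine ⟨⟨fs R f g, hRmeas, hae⟩, ?_⟩
  rw [lintegral_congr_ae hae, hRsum]
  have hsub : R ⊆ U := fun x hx => hx.1
  have hsplit := lintegral_inter_add_sdiff (μ := μ)
    (fun x => ENNReal.ofReal |(fderiv ℝ f x).det| * g x) U hRo.measurableSet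
  rw [← hsplit, inter_eq_self_of_subset_right hsub]
  have h0 : ∫⁻ x in U \ R, ENNReal.ofReal |(fderiv ℝ f x).det| * g x ∂μ = 0 := by
    rw [setLIntegral_congr_fun (hU.measurableSet.diff hRo.measurableSet) (g := fun _ => 0)]
    · simp
    · intro x hx
      have : (fderiv ℝ f x).det = 0 := by
        by_contra h
        exact hx.2 ⟨hx.1, h⟩
      simp [this]
  rw [h0, add_zero]

theorem area {U : Set E} (hU : IsOpen U) {f : E → E} (hf : ContDiffOn ℝ 1 f U) {g : E → ℝ≥0∞}
    (hg : Measurable g) :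
    ∫⁻ y, fs U f g y ∂μ = ∫⁻ x in U, ENNReal.ofReal |(fderiv ℝ f x).det| * g x ∂μ :=
  (area' μ hU hf hg).2

end

end Crest.Agent.R257.Area_5
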