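import Crest.Agent.R273.Fam_835

/-!
# R257 (S0395), leaf GB-ATL (helper941): atlases with partition of unity on non-compact manifolds

* `rch e c r`   : rescaled restriction of the chart `e` to the preimage of `ball c r`
* `SubAtl A C`  : every chart of `A` is such a restriction of a chart of the family `C`
* `exists_part_nc` : locally finite atlas by relatively compact charts => `Part A`
* `Fam.exists_atl_nc` : every `Fam n M` on a second countable Hausdorff space has a countable,
  locally finite subordinate atlas with partition of unity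
-/

set_option autoImplicit false
set_option linter.unusedSectionVars false

open Set Filter Topology Complex Metric
open scoped ContDiff Matrix ComplexConjugate Manifold

namespace Crest.Agent.R257.Atl_941

open Crest.Agent.R275.Geo Crest.Agent.R275.Core144 Crest.Agent.R275.GC293
open Crest.Agent.R273.Defs_333 Crest.Agent.R273.Map_835 Crest.Agent.R273.PB_835
open Crest.Agent.R273.Fam_835

noncomputable section

variable {n : ℕ} {M : Type} [TopologicalSpace M]

/-- the rescaled restriction of the chart `e` to the preimage of `ball c r` -/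
def rch (e : OpenPartialHomeomorph M (Cn n)) (c : Cn n) (r : ℝ) (hr : 0 < r) :
    OpenPartialHomeomorph M (Cn n) :=
  (e.restrOpen (e.source ∩ e ⁻¹' ball c r) (e.isOpen_inter_preimage isOpen_ball)).transHomeomorph
    (aff c r hr)

variable {e : OpenPartialHomeomorph M (Cn n)} {c : Cn n} {r : ℝ} {hr : 0 < r}

theorem rch_source : (rch e c r hr).source = e.source ∩ e ⁻¹' ball c r := by
  change (e.restrOpen (e.source ∩ e ⁻¹' ball c r) (e.isOpen_inter_preimage isOpen_ball)).source = _
  rw [OpenPartialHomeomorph.restrOpen_source]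
  exact inter_eq_right.2 inter_subset_left

theorem rch_apply (x : M) : rch e c r hr x = aff c r hr (e x) := rfl

theorem rch_symm_apply (z : Cn n) : (rch e c r hr).symm z = e.symm ((aff c r hr).symm z) := rfl

theorem rch_target (h : ball c r ⊆ e.target) :
    (rch e c r hr).target = (aff c r hr).symm ⁻¹' ball c r := by
  ext z
  constructor
  · intro hz
    have h1 := (rch e c r hr).map_target hz
    rw [rch_source] at h1
    have h2 : rch e c r hr ((rch e c r hr).symm z) = z := (rch e c r hr).right_inv hz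
    rw [rch_apply] at h2
    have h3 := congrArg (aff c r hr).symm h2
    rw [Homeomorph.symm_apply_apply] at h3
    rw [mem_preimage, ← h3]
    exact h1.2
  · intro hz
    have h1 : e.symm ((aff c r hr).symm z) ∈ (rch e c r hr).source := by
      rw [rch_source]
      refine ⟨e.map_target (h hz), ?_⟩
      rw [mem_preimage, e.right_inv (h hz)]
      exact hz
    have h2 := (rch e c r hr).map_source h1
    rw [rch_apply, e.right_inv (h hz), Homeomorph.apply_symm_apply] at h2
    exact h2

/-- every chart of `A` is a rescaled restriction of a chart of `C` -/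
structure SubAtl (A : Atl n M) (C : Fam n M) where
  j : A.ι → C.ι
  c : A.ι → Cn n
  r : A.ι → ℝ
  r_pos : ∀ i, 0 < r i
  sub : ∀ i, closedBall (c i) (r i) ⊆ (C.e (j i)).target
  eq : ∀ i, A.e i = rch (C.e (j i)) (c i) (r i) (r_pos i)

namespace SubAtl

variable {A : Atl n M} {C : Fam n M} (S : SubAtl A C)
include S

theorem ball_sub (i : A.ι) : ball (S.c i) (S.r i) ⊆ (C.e (S.j i)).target :=
  ball_subset_closedBall.trans (S.sub i)

theorem source_eq (i : A.ι) :
    (A.e i).source = (C.e (S.j i)).source ∩ C.e (S.j i) ⁻¹' ball (S.c i) (S.r i) := by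
  rw [S.eq, rch_source]

theorem source_sub (i : A.ι) : (A.e i).source ⊆ (C.e (S.j i)).source := by
  rw [S.source_eq]
  exact inter_subset_left

theorem target_eq (i : A.ι) :
    (A.e i).target = (aff (S.c i) (S.r i) (S.r_pos i)).symm ⁻¹' ball (S.c i) (S.r i) := by
  rw [S.eq, rch_target (S.ball_sub i)]

theorem apply (i : A.ι) (x : M) : A.e i x = aff (S.c i) (S.r i) (S.r_pos i) (C.e (S.j i) x) := by
  rw [S.eq, rch_apply]

theorem symm_apply (i : A.ι) (z : Cn n) :
    (A.e i).symm z = (C.e (S.j i)).symm ((aff (S.c i) (S.r i) (S.r_pos i)).symm z) := by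
  rw [S.eq, rch_symm_apply]

/-- the closure of a chart domain is compact -/
theorem isCompact_closure [T2Space M] (i : A.ι) : IsCompact (closure (A.e i).source) := by
  have h1 : IsCompact ((C.e (S.j i)).symm '' closedBall (S.c i) (S.r i)) :=
    (isCompact_closedBall _ _).image_of_continuousOn
      ((C.e (S.j i)).continuousOn_symm.mono (S.sub i))
  refine h1.closure_of_subset ?_
  rw [S.source_eq]
  rintro x ⟨hx, hx2⟩
  exact ⟨C.e (S.j i) x, ball_subset_closedBall hx2, (C.e (S.j i)).left_inv hx⟩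

theorem hol1 : HolC (fam A) C id := by
  refine holC_of_local continuous_id fun x => ?_
  obtain ⟨i, hi⟩ := A.cover x
  have hx2 := S.source_sub i hi
  refine ⟨i, S.j i, hi, hx2, ?_⟩
  have h5 : DifferentiableAt ℂ (fun z => (aff (S.c i) (S.r i) (S.r_pos i)).symm z)
      (A.e i x) := (differentiable_aff_symm _ _ _).differentiableAt
  refine h5.congr_of_eventuallyEq ?_
  filter_upwards [(A.e i).open_target.mem_nhds ((A.e i).map_source hi)] with z hz
  have h7 : z ∈ (A.e i).target := hz
  rw [S.target_eq] at h7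
  have h8 : (C.e (S.j i)) ((A.e i).symm z) = (aff (S.c i) (S.r i) (S.r_pos i)).symm z := by
    rw [S.symm_apply]
    exact (C.e (S.j i)).right_inv (S.ball_sub i h7)
  exact h8

theorem hol2 : HolC C (fam A) id := by
  refine holC_of_local continuous_id fun x => ?_
  obtain ⟨i, hi⟩ := A.cover x
  have hx2 := S.source_sub i hi
  refine ⟨S.j i, i, hx2, hi, ?_⟩
  have h5 : DifferentiableAt ℂ (fun z => aff (S.c i) (S.r i) (S.r_pos i) z)
      (C.e (S.j i) x) := (differentiable_aff _ _ _).differentiableAt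
  refine h5.congr_of_eventuallyEq ?_
  filter_upwards [(C.e (S.j i)).open_target.mem_nhds ((C.e (S.j i)).map_source hx2)] with z hz
  have h8 : A.e i ((C.e (S.j i)).symm z) = aff (S.c i) (S.r i) (S.r_pos i) z := by
    rw [S.apply, (C.e (S.j i)).right_inv hz]
  exact h8

end SubAtl

/-! ### partition of unity -/

theorem sm_of_contMDiff (A : Atl n M) {W : Type*} [NormedAddCommGroup W] [NormedSpace ℝ W]
    (f : M → W) (hM : letI := (fam A).cs; IsManifold 𝓘(ℝ, Cn n) ∞ M)
    (hf : letI := (fam A).cs; ContMDiff 𝓘(ℝ, Cn n) 𝓘(ℝ, W) ∞ f) : A.Sm f := by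
  let _ := (fam A).cs
  intro i
  have hmem : (A.e i) ∈ atlas (Cn n) M := mem_range_self (f := (fam A).e) i
  have h1 : ContMDiffOn 𝓘(ℝ, Cn n) 𝓘(ℝ, Cn n) ∞ (A.e i).symm (A.e i).target :=
    contMDiffOn_symm_of_mem_maximalAtlas (StructureGroupoid.subset_maximalAtlas _ hmem)
  have h2 : ContMDiffOn 𝓘(ℝ, Cn n) 𝓘(ℝ, W) ∞ (f ∘ (A.e i).symm) (A.e i).target :=
    hf.comp_contMDiffOn h1
  exact contMDiffOn_iff_contDiffOn.1 h2

theorem exists_part_nc [T2Space M] [SigmaCompactSpace M] (A : Atl n M)
    (hlf : LocallyFinite fun i => (A.e i).source)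
    (hc : ∀ i, IsCompact (closure (A.e i).source)) : Nonempty (Part A) := by
  let _ := (fam A).cs
  have _ := (fam A).isManifold
  have hM : IsManifold 𝓘(ℝ, Cn n) ∞ M := Crest.Agent.R275.ZC352.isManifold_real
  have : LocallyCompactSpace M := ChartedSpace.locallyCompactSpace (Cn n) M
  obtain ⟨v, hv1, hv2, hv3⟩ := exists_iUnion_eq_closure_subset
    (u := fun i => (A.e i).source) (fun i => (A.e i).open_source) (fun x => hlf.point_finite x)
    (by
      rw [eq_univ_iff_forall]
      intro x
      obtain ⟨i, hi⟩ := A.cover x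
      exact mem_iUnion.2 ⟨i, hi⟩)
  obtain ⟨f, hf⟩ := SmoothPartitionOfUnity.exists_isSubordinate 𝓘(ℝ, Cn n) (s := (univ : Set M))
    isClosed_univ v hv2 (fun x _ => by rw [hv1]; exact mem_univ x)
  have h1 : ∀ i : A.ι, ∃ χ : C^∞⟮𝓘(ℝ, Cn n), M; 𝓘(ℝ), ℝ⟯,
      (∀ᶠ x in 𝓝ˢ ((A.e i).source)ᶜ, χ x = 0) ∧
      (∀ᶠ x in 𝓝ˢ (tsupport (f i)), χ x = 1) ∧ ∀ x, χ x ∈ Icc (0 : ℝ) 1 := by
    intro i
    apply exists_contMDiffMap_zero_one_nhds_of_isClosed
    · exact (A.e i).open_source.isClosed_compl
    · exact isClosed_tsupport _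
    · rw [disjoint_compl_left_iff_subset]
      exact (hf i).trans (subset_closure.trans (hv3 i))
  choose χ hχ0 hχ1 hχ using h1
  have hsub : ∀ i, tsupport (χ i) ⊆ (A.e i).source := by
    intro i x hx
    by_contra hxs
    have h2 : ∀ᶠ y in 𝓝 x, χ i y = 0 :=
      (hχ0 i).filter_mono (nhds_le_nhdsSet (mem_compl hxs))
    exact (notMem_tsupport_iff_eventuallyEq.2 h2) hx
  refine ⟨⟨fun i x => f i x, fun i x => χ i x, fun i => ?_, fun i => ?_, fun i => ?_, hsub,
    fun i x hx => ?_, fun K hK => ?_, fun x => f.sum_eq_one (mem_univ x)⟩⟩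
  · exact sm_of_contMDiff A _ hM (f i).contMDiff
  · exact sm_of_contMDiff A _ hM (χ i).contMDiff
  · exact (hc i).of_isClosed_subset (isClosed_tsupport _) ((hsub i).trans subset_closure)
  · exact (hχ1 i).filter_mono (nhds_le_nhdsSet hx)
  · refine (hlf.finite_nonempty_inter_compact hK).subset ?_
    rintro i ⟨x, hx1, hx2⟩
    exact ⟨x, hsub i hx1, hx2⟩

/-- the atlas made of rescaled restrictions -/
def mkAtl (C : Fam n M) {α : Type} (j : α → C.ι) (c : α → Cn n) (r : α → ℝ) (hr : ∀ a, 0 < r a)
    (hsub : ∀ a, closedBall (c a) (r a) ⊆ (C.e (j a)).target)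
    (hcov : ∀ x, ∃ a, x ∈ (C.e (j a)).source ∩ C.e (j a) ⁻¹' ball (c a) (r a)) : Atl n M where
  ι := α
  e a := rch (C.e (j a)) (c a) (r a) (hr a)
  cover x := by
    obtain ⟨a, ha⟩ := hcov x
    exact ⟨a, by rw [rch_source]; exact ha⟩
  cube a z hz p := by
    rw [rch_target (ball_subset_closedBall.trans (hsub a))] at hz
    exact rc_mem_of_ball (c a) (r a) (hr a) hz p
  holo a b := by
    intro z hz
    apply DifferentiableAt.differentiableWithinAt
    have hz1 : z ∈ (rch (C.e (j a)) (c a) (r a) (hr a)).target := hz.1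
    have hz2 : (rch (C.e (j a)) (c a) (r a) (hr a)).symm z ∈
      (rch (C.e (j b)) (c b) (r b) (hr b)).source := hz.2
    rw [rch_target (ball_subset_closedBall.trans (hsub a))] at hz1
    rw [rch_source, rch_symm_apply] at hz2
    have hz3 : (aff (c a) (r a) (hr a)).symm z ∈ {z | z ∈ (C.e (j a)).target ∧
        (C.e (j a)).symm z ∈ (C.e (j b)).source} :=
      ⟨(ball_subset_closedBall.trans (hsub a)) hz1, hz2.1⟩
    have hop : IsOpen {z | z ∈ (C.e (j a)).target ∧ (C.e (j a)).symm z ∈ (C.e (j b)).source} :=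
      (C.e (j a)).isOpen_inter_preimage_symm (C.e (j b)).open_source
    have h2 : DifferentiableAt ℂ (fun z => C.e (j b) ((C.e (j a)).symm z))
        ((aff (c a) (r a) (hr a)).symm z) := (C.holo (j a) (j b)).differentiableAt
          (hop.mem_nhds hz3)
    have h3 : DifferentiableAt ℂ (fun z => aff (c b) (r b) (hr b)
        ((fun z => C.e (j b) ((C.e (j a)).symm z)) ((aff (c a) (r a) (hr a)).symm z))) z :=
      (differentiable_aff _ _ _).differentiableAt.comp z
        (h2.comp z (differentiable_aff_symm _ _ _).differentiableAt)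
    exact h3

/-- non-compact version of `Fam.exists_atl` -/
theorem exists_atl_nc [T2Space M] [SecondCountableTopology M] (C : Fam n M) {κ : Type*}
    (O : κ → Set M) (hO : ∀ k, IsOpen (O k)) (hOc : ∀ x, ∃ k, x ∈ O k) :
    ∃ A : Atl n M, Countable A.ι ∧ Nonempty (Part A) ∧ (∀ i, ∃ k, (A.e i).source ⊆ O k) ∧
      (LocallyFinite fun i => (A.e i).source) ∧ Nonempty (SubAtl A C) := by
  let _ := C.cs
  have : LocallyCompactSpace M := ChartedSpace.locallyCompactSpace (Cn n) M
  -- basis of neighbourhoods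
  choose jx hjx using C.cover
  choose kx hkx using hOc
  have hB : ∀ x : M, (𝓝 x).HasBasis
      (fun r : ℝ => 0 < r ∧ closedBall (C.e (jx x) x) r ⊆ (C.e (jx x)).target ∧
        (C.e (jx x)).source ∩ C.e (jx x) ⁻¹' ball (C.e (jx x) x) r ⊆ O (kx x))
      (fun r => (C.e (jx x)).source ∩ C.e (jx x) ⁻¹' ball (C.e (jx x) x) r) := by
    intro x
    set e := C.e (jx x) with he
    have hx : x ∈ e.source := hjx x
    refine ⟨fun t => ⟨fun ht => ?_, fun ⟨r, hr, hrt⟩ => ?_⟩⟩
    · have h1 : e.symm ⁻¹' (t ∩ O (kx x)) ∈ 𝓝 (e x) := by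
        refine (e.continuousAt_symm (e.map_source hx)).preimage_mem_nhds ?_
        rw [e.left_inv hx]
        exact inter_mem ht ((hO _).mem_nhds (hkx x))
      have h2 : e.target ∈ 𝓝 (e x) := e.open_target.mem_nhds (e.map_source hx)
      obtain ⟨r, hr, hrs⟩ := Metric.nhds_basis_closedBall.mem_iff.1 (inter_mem h1 h2)
      refine ⟨r, ⟨hr, fun z hz => (hrs hz).2, ?_⟩, ?_⟩
      · rintro y ⟨hy1, hy2⟩
        have h3 := (hrs (ball_subset_closedBall hy2)).1
        rw [mem_preimage, e.left_inv hy1] at h3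
        exact h3.2
      · rintro y ⟨hy1, hy2⟩
        have h3 := (hrs (ball_subset_closedBall hy2)).1
        rw [mem_preimage, e.left_inv hy1] at h3
        exact h3.1
    · refine mem_of_superset ?_ hrt
      exact (e.isOpen_inter_preimage isOpen_ball).mem_nhds ⟨hx, mem_ball_self hr.1⟩
  obtain ⟨α, c, r, hr, hU, hlf⟩ := refinement_of_locallyCompact_sigmaCompact_of_nhds_basis hB
  set A : Atl n M := mkAtl C (fun a => jx (c a)) (fun a => C.e (jx (c a)) (c a)) r
    (fun a => (hr a).1) (fun a => (hr a).2.1) (fun x => by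
      have h1 : x ∈ ⋃ a, (C.e (jx (c a))).source ∩ C.e (jx (c a)) ⁻¹'
        ball (C.e (jx (c a)) (c a)) (r a) := by rw [hU]; exact mem_univ x
      exact mem_iUnion.1 h1) with hA
  let S : SubAtl A C := ⟨fun a => jx (c a), fun a => C.e (jx (c a)) (c a), r, fun a => (hr a).1,
    fun a => (hr a).2.1, fun a => rfl⟩
  have hlf' : LocallyFinite fun i => (A.e i).source := by
    have h1 : (fun i => (A.e i).source) = fun a => (C.e (jx (c a))).source ∩ C.e (jx (c a)) ⁻¹'
        ball (C.e (jx (c a)) (c a)) (r a) := by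
      funext i
      exact S.source_eq i
    rw [h1]
    exact hlf
  have hne : ∀ i, ((A.e i).source).Nonempty := fun i => ⟨c i, by
    rw [S.source_eq]
    exact ⟨hjx _, mem_ball_self (hr i).1⟩⟩
  refine ⟨A, ?_, exists_part_nc A hlf' S.isCompact_closure, fun i => ⟨kx (c i), ?_⟩, hlf', ⟨S⟩⟩
  · have h1 := hlf'.countable_univ hne
    exact countable_univ_iff.1 h1
  · rw [S.source_eq]
    exact (hr i).2.2

end

end Crest.Agent.R257.Atl_941
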