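import Crest.Agent.R257.Atl1_941
import Crest.Agent.R273.Reg_835

/-!
# R257 (S0395), leaf GB-ATL (helper941): families of level surfaces, adapted charts

`E` = ambient space (dimension `m + 1`, with coordinates `b`), `P` = parameter space.
* `SFam m E P`  : holomorphic `F : E × P → ℂ` on an open `W`, `∂F/∂x ≠ 0` on `{F = 0} ∩ W`
* `X.M τ`       : the level surface `{x | (x, τ) ∈ W, F (x, τ) = 0}` (a subtype of `E`)
* `AdCh X`      : adapted chart `Φ (x, τ) = (pr x, F (x, τ), τ)`, biholomorphic; `exists_adCh`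
* `Ψ.th z τ`    : the parametrisation `z ↦ Θ (z, τ)` of `X.M τ`, on `Ψ.O τ`
* `X.fam τ`     : `Fam m (X.M τ)`
-/

set_option autoImplicit false
set_option linter.unusedSectionVars false

open Set Filter Topology Complex Metric
open scoped ContDiff Matrix ComplexConjugate Manifold

namespace Crest.Agent.R257.Atl_941

open Crest.Agent.R275.Geo Crest.Agent.R275.Core144 Crest.Agent.R275.GC293
open Crest.Agent.R273.Defs_333 Crest.Agent.R273.Map_835 Crest.Agent.R273.PB_835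
open Crest.Agent.R273.Fam_835 Crest.Agent.R273.Sub_835

noncomputable section

/-- holomorphic inverse function theorem, finite dimension -/
theorem exists_invFun' {E₁ E₂ : Type*} [NormedAddCommGroup E₁] [NormedSpace ℂ E₁]
    [FiniteDimensional ℂ E₁] [NormedAddCommGroup E₂] [NormedSpace ℂ E₂] [FiniteDimensional ℂ E₂]
    {Φ : E₁ → E₂} {V : Set E₁} (hV : IsOpen V) (hΦ : DifferentiableOn ℂ Φ V) {z : E₁} (hz : z ∈ V)
    (T : E₁ ≃L[ℂ] E₂) (hT : HasFDerivAt Φ (T : E₁ →L[ℂ] E₂) z) :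
    ∃ R : OpenPartialHomeomorph E₁ E₂, z ∈ R.source ∧ R.source ⊆ V ∧ (⇑R = Φ) ∧
      DifferentiableOn ℂ R.symm R.target := by
  have : CompleteSpace E₁ := FiniteDimensional.complete ℂ E₁
  have : CompleteSpace E₂ := FiniteDimensional.complete ℂ E₂
  have han := Crest.Agent.R266.SCV.analyticOnNhd_of_differentiableOn hV hΦ
  have hs : HasStrictFDerivAt Φ (T : E₁ →L[ℂ] E₂) z := by
    have h1 := (han z hz).hasStrictFDerivAt
    rwa [hT.fderiv] at h1
  set R₀ := hs.toOpenPartialHomeomorph Φ with hR₀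
  have hc : ContinuousOn (fderiv ℂ Φ) V := han.fderiv.continuousOn
  have hW : IsOpen (V ∩ (fderiv ℂ Φ) ⁻¹' (range ((↑) : (E₁ ≃L[ℂ] E₂) → E₁ →L[ℂ] E₂))) :=
    hc.isOpen_inter_preimage hV (ContinuousLinearEquiv.isOpen)
  refine ⟨R₀.restrOpen _ hW, ?_, ?_, ?_, ?_⟩
  · rw [OpenPartialHomeomorph.restrOpen_source]
    exact ⟨hs.mem_toOpenPartialHomeomorph_source, hz, ⟨T, hT.fderiv.symm⟩⟩
  · rw [OpenPartialHomeomorph.restrOpen_source]
    exact fun w hw => hw.2.1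
  · rfl
  · intro w hw
    have h1 := (R₀.restrOpen _ hW).map_target hw
    rw [OpenPartialHomeomorph.restrOpen_source] at h1
    obtain ⟨-, h2, T', hT'⟩ := h1
    have h3 : HasFDerivAt (R₀.restrOpen _ hW) (T' : E₁ →L[ℂ] E₂)
        ((R₀.restrOpen _ hW).symm w) := by
      rw [hT']
      exact (hΦ.differentiableAt (hV.mem_nhds h2)).hasFDerivAt
    exact ((R₀.restrOpen _ hW).hasFDerivAt_symm hw h3).differentiableAt.differentiableWithinAt

variable (m : ℕ) (E P : Type) [NormedAddCommGroup E] [NormedSpace ℂ E] [FiniteDimensional ℂ E]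
  [NormedAddCommGroup P] [NormedSpace ℂ P] [FiniteDimensional ℂ P]

/-- a holomorphic family of smooth hypersurfaces -/
structure SFam where
  b : E ≃L[ℂ] (Fin (m + 1) → ℂ)
  F : E × P → ℂ
  W : Set (E × P)
  isOpen : IsOpen W
  hol : DifferentiableOn ℂ F W
  reg : ∀ q ∈ W, F q = 0 → ∃ v : E, fderiv ℂ F q (v, 0) ≠ 0

variable {m E P}

/-- the level surface of parameter `τ` -/
abbrev SFam.M (X : SFam m E P) (τ : P) : Type := {x : E // (x, τ) ∈ X.W ∧ X.F (x, τ) = 0}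

/-- the level surface as a set -/
def SFam.S (X : SFam m E P) (τ : P) : Set E := {x : E | (x, τ) ∈ X.W ∧ X.F (x, τ) = 0}

/-- adapted charts of the total space -/
structure AdCh (X : SFam m E P) where
  Φ : OpenPartialHomeomorph (E × P) (Cn m × ℂ × P)
  pr : E →L[ℂ] Cn m
  sub : Φ.source ⊆ X.W
  eq : ∀ q ∈ Φ.source, Φ q = (pr q.1, X.F q, q.2)
  hol : DifferentiableOn ℂ Φ.symm Φ.target

variable (X : SFam m E P)

theorem SFam.an : AnalyticOnNhd ℂ X.F X.W :=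
  Crest.Agent.R266.SCV.analyticOnNhd_of_differentiableOn X.isOpen X.hol

theorem SFam.diffAt {q : E × P} (hq : q ∈ X.W) : DifferentiableAt ℂ X.F q :=
  X.hol.differentiableAt (X.isOpen.mem_nhds hq)

/-- the coordinate projection forgetting the coordinate `k` -/
def prk (b : E ≃L[ℂ] (Fin (m + 1) → ℂ)) (k : Fin (m + 1)) : E →L[ℂ] Cn m :=
  ((EuclideanSpace.equiv (Fin m) ℂ).symm : (Fin m → ℂ) →L[ℂ] Cn m).comp
    ((ContinuousLinearMap.pi fun a => ContinuousLinearMap.proj (k.succAbove a)).comp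
      (b : E →L[ℂ] (Fin (m + 1) → ℂ)))

theorem prk_apply (b : E ≃L[ℂ] (Fin (m + 1) → ℂ)) (k : Fin (m + 1)) (x : E) (a : Fin m) :
    prk b k x a = b x (k.succAbove a) := rfl

theorem eq_of_prk (b : E ≃L[ℂ] (Fin (m + 1) → ℂ)) {k : Fin (m + 1)} {v : E} (h : prk b k v = 0) :
    v = b v k • b.symm (Pi.single k 1) := by
  apply b.injective
  rw [map_smul, b.apply_symm_apply]
  funext j
  rcases eq_or_ne j k with rfl | hj
  · simp
  · obtain ⟨a, rfl⟩ := Fin.exists_succAbove_eq hj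
    have h1 := congrArg (fun z : Cn m => z a) h
    simp only [prk_apply] at h1
    rw [h1]
    simp [Fin.succAbove_ne]

theorem exists_adCh {q : E × P} (hq : q ∈ X.W) (h0 : X.F q = 0) :
    ∃ Ψ : AdCh X, q ∈ Ψ.Φ.source := by
  obtain ⟨v, hv⟩ := X.reg q hq h0
  obtain ⟨k, hk⟩ : ∃ k, fderiv ℂ X.F q (X.b.symm (Pi.single k 1), 0) ≠ 0 := by
    by_contra hcon
    push Not at hcon
    apply hv
    have h1 : v = ∑ k, X.b v k • X.b.symm (Pi.single k (1 : ℂ)) := by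
      apply X.b.injective
      rw [map_sum]
      simp only [map_smul, X.b.apply_symm_apply]
      funext j
      simp [Finset.sum_apply, Pi.single_apply]
    have h2 : (v, (0 : P)) = ∑ k, X.b v k • (X.b.symm (Pi.single k (1 : ℂ)), (0 : P)) := by
      refine Prod.ext ?_ ?_
      · rw [Prod.fst_sum]
        simpa using h1
      · rw [Prod.snd_sum]
        simp
    rw [h2, map_sum]
    refine Finset.sum_eq_zero fun k _ => ?_
    rw [map_smul, hcon k, smul_zero]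
  set f : E × P → Cn m × ℂ × P := fun q => (prk X.b k q.1, X.F q, q.2) with hf
  set L : E × P →L[ℂ] Cn m × ℂ × P := ((prk X.b k).comp (ContinuousLinearMap.fst ℂ E P)).prod
    ((fderiv ℂ X.F q).prod (ContinuousLinearMap.snd ℂ E P)) with hL
  have hinj : Function.Injective L := by
    rw [injective_iff_map_eq_zero]
    rintro ⟨v, s⟩ hvs
    have h1 : prk X.b k v = 0 := congrArg Prod.fst hvs
    have h2 : fderiv ℂ X.F q (v, s) = 0 := congrArg (fun t => t.2.1) hvs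
    have h3 : s = 0 := congrArg (fun t => t.2.2) hvs
    subst h3
    have h4 := eq_of_prk X.b h1
    have h5 : (v, (0 : P)) = X.b v k • (X.b.symm (Pi.single k (1 : ℂ)), (0 : P)) := by
      refine Prod.ext h4 ?_
      simp
    rw [h5, map_smul, smul_eq_mul, mul_eq_zero] at h2
    have h6 : X.b v k = 0 := h2.resolve_right hk
    rw [h6, zero_smul] at h5
    exact h5
  have hfr : Module.finrank ℂ (E × P) = Module.finrank ℂ (Cn m × ℂ × P) := by
    have h1 : Module.finrank ℂ E = m + 1 := by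
      rw [X.b.toLinearEquiv.finrank_eq]
      simp
    rw [Module.finrank_prod, Module.finrank_prod, Module.finrank_prod, h1,
      finrank_euclideanSpace_fin, Module.finrank_self]
    ring
  let T : (E × P) ≃L[ℂ] (Cn m × ℂ × P) :=
    (LinearEquiv.ofInjectiveOfFinrankEq L.toLinearMap hinj hfr).toContinuousLinearEquiv
  have hT : (T : E × P →L[ℂ] Cn m × ℂ × P) = L := by
    ext v <;> rfl
  have hd : DifferentiableOn ℂ f X.W := by
    refine DifferentiableOn.prodMk ?_ (X.hol.prodMk differentiable_snd.differentiableOn)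
    exact ((prk X.b k).differentiable.comp differentiable_fst).differentiableOn
  have hfd : HasFDerivAt f (T : E × P →L[ℂ] Cn m × ℂ × P) q := by
    rw [hT]
    exact ((prk X.b k).hasFDerivAt.comp q hasFDerivAt_fst).prodMk
      ((X.diffAt hq).hasFDerivAt.prodMk hasFDerivAt_snd)
  obtain ⟨R, h1, h2, h3, h4⟩ := exists_invFun' X.isOpen hd hq T hfd
  exact ⟨⟨R, prk X.b k, h2, fun q _ => by rw [h3], h4⟩, h1⟩

namespace AdCh

variable {X} (Ψ : AdCh X)

theorem mem_inv {z : Cn m} {s : ℂ} {τ : P} (h : (z, s, τ) ∈ Ψ.Φ.target) :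
    Ψ.pr (Ψ.Φ.symm (z, s, τ)).1 = z ∧ X.F (Ψ.Φ.symm (z, s, τ)) = s ∧
      (Ψ.Φ.symm (z, s, τ)).2 = τ := by
  have h1 := Ψ.Φ.map_target h
  have h2 := Ψ.eq _ h1
  rw [Ψ.Φ.right_inv h] at h2
  simp only [Prod.mk.injEq] at h2
  exact ⟨h2.1.symm, h2.2.1.symm, h2.2.2.symm⟩

/-- the parametrisation -/
def th (z : Cn m) (τ : P) : E := (Ψ.Φ.symm (z, 0, τ)).1

/-- the domain of the parametrisation -/
def O (τ : P) : Set (Cn m) := {z | (z, (0 : ℂ), τ) ∈ Ψ.Φ.target}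

variable {τ : P} {z : Cn m}

theorem isOpen_O : IsOpen (Ψ.O τ) :=
  Ψ.Φ.open_target.preimage (by fun_prop)

theorem symm_eq (hz : z ∈ Ψ.O τ) : Ψ.Φ.symm (z, 0, τ) = (Ψ.th z τ, τ) :=
  Prod.ext rfl (Ψ.mem_inv hz).2.2

theorem th_source (hz : z ∈ Ψ.O τ) : (Ψ.th z τ, τ) ∈ Ψ.Φ.source := by
  rw [← Ψ.symm_eq hz]
  exact Ψ.Φ.map_target hz

theorem th_mem (hz : z ∈ Ψ.O τ) : (Ψ.th z τ, τ) ∈ X.W ∧ X.F (Ψ.th z τ, τ) = 0 := by
  refine ⟨Ψ.sub (Ψ.th_source hz), ?_⟩
  rw [← Ψ.symm_eq hz]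
  exact (Ψ.mem_inv hz).2.1

theorem pr_th (hz : z ∈ Ψ.O τ) : Ψ.pr (Ψ.th z τ) = z := (Ψ.mem_inv hz).1

theorem pr_mem {x : E} (hx : (x, τ) ∈ Ψ.Φ.source) (h0 : X.F (x, τ) = 0) :
    Ψ.pr x ∈ Ψ.O τ ∧ Ψ.th (Ψ.pr x) τ = x := by
  have h1 := Ψ.eq _ hx
  rw [h0] at h1
  have h2 := Ψ.Φ.map_source hx
  rw [h1] at h2
  refine ⟨h2, ?_⟩
  have h3 := Ψ.Φ.left_inv hx
  rw [h1] at h3
  exact congrArg Prod.fst h3

theorem diffOn_th : DifferentiableOn ℂ (fun z => Ψ.th z τ) (Ψ.O τ) := by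
  have h1 : DifferentiableOn ℂ (fun z : Cn m => Ψ.Φ.symm (z, 0, τ)) (Ψ.O τ) :=
    Ψ.hol.comp (by fun_prop) fun z hz => hz
  exact differentiable_fst.comp_differentiableOn h1

theorem diffOn_th' : DifferentiableOn ℂ (fun q : Cn m × P => Ψ.th q.1 q.2)
    {q | (q.1, (0 : ℂ), q.2) ∈ Ψ.Φ.target} := by
  have h1 : DifferentiableOn ℂ (fun q : Cn m × P => Ψ.Φ.symm (q.1, 0, q.2))
      {q | (q.1, (0 : ℂ), q.2) ∈ Ψ.Φ.target} :=
    Ψ.hol.comp (by fun_prop) fun z hz => hz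
  exact differentiable_fst.comp_differentiableOn h1

theorem isOpen_tot : IsOpen {q : Cn m × P | (q.1, (0 : ℂ), q.2) ∈ Ψ.Φ.target} :=
  Ψ.Φ.open_target.preimage (by fun_prop)

open Classical in
/-- the parametrisation with values in the surface -/
def inv (x₀ : X.M τ) (z : Cn m) : X.M τ := if h : z ∈ Ψ.O τ then ⟨Ψ.th z τ, Ψ.th_mem h⟩ else x₀

theorem inv_val {x₀ : X.M τ} (hz : z ∈ Ψ.O τ) : (Ψ.inv x₀ z).1 = Ψ.th z τ := by
  unfold inv
  rw [dif_pos hz]

/-- the chart of the surface `X.M τ` -/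
def ch (x₀ : X.M τ) : OpenPartialHomeomorph (X.M τ) (Cn m) where
  toFun x := Ψ.pr x.1
  invFun := Ψ.inv x₀
  source := {x | (x.1, τ) ∈ Ψ.Φ.source}
  target := Ψ.O τ
  map_source' x hx := (Ψ.pr_mem hx x.2.2).1
  map_target' z hz := by
    change ((Ψ.inv x₀ z).1, τ) ∈ Ψ.Φ.source
    rw [Ψ.inv_val hz]
    exact Ψ.th_source hz
  left_inv' x hx := by
    apply Subtype.ext
    rw [Ψ.inv_val (Ψ.pr_mem hx x.2.2).1]
    exact (Ψ.pr_mem hx x.2.2).2
  right_inv' z hz := by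
    rw [Ψ.inv_val hz]
    exact Ψ.pr_th hz
  open_source := Ψ.Φ.open_source.preimage (by fun_prop)
  open_target := Ψ.isOpen_O
  continuousOn_toFun := (Ψ.pr.continuous.comp continuous_subtype_val).continuousOn
  continuousOn_invFun := by
    refine Topology.IsInducing.subtypeVal.continuousOn_iff.2 ?_
    exact Ψ.diffOn_th.continuousOn.congr fun z hz => Ψ.inv_val hz

theorem ch_apply (x₀ x : X.M τ) : Ψ.ch x₀ x = Ψ.pr x.1 := rfl

theorem ch_symm_val {x₀ : X.M τ} (hz : z ∈ Ψ.O τ) : ((Ψ.ch x₀).symm z).1 = Ψ.th z τ :=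
  Ψ.inv_val hz

theorem mem_ch_source {x₀ x : X.M τ} : x ∈ (Ψ.ch x₀).source ↔ (x.1, τ) ∈ Ψ.Φ.source := Iff.rfl

theorem ch_target (x₀ : X.M τ) : (Ψ.ch x₀).target = Ψ.O τ := rfl

end AdCh

/-- the charts of the surface `X.M τ` -/
def SFam.fam (τ : P) : Fam m (X.M τ) where
  ι := AdCh X × X.M τ
  e i := i.1.ch i.2
  cover x := by
    obtain ⟨Ψ, hΨ⟩ := exists_adCh X x.2.1 x.2.2
    exact ⟨(Ψ, x), hΨ⟩
  holo i j := by
    have h1 : DifferentiableOn ℂ (fun z => j.1.pr (i.1.th z τ)) (i.1.O τ) :=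
      j.1.pr.differentiable.comp_differentiableOn i.1.diffOn_th
    refine (h1.mono fun z hz => hz.1).congr fun z hz => ?_
    rw [AdCh.ch_apply, AdCh.ch_symm_val i.1 (hz.1 : z ∈ i.1.O τ)]

end

end Crest.Agent.R257.Atl_941
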