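import Crest.Agent.R257.Atl2_941
import Mathlib.LinearAlgebra.Determinant

/-!
# R257 (S0395), leaf GB-ATL (helper941): the residue form

* `dX X q`        : `∂F/∂x (q)`
* `om X w`        : the alternating form `v ↦ det (b w, b v_1, ..., b v_m)`
* `e2 X q T`      : `|η(T e_1, ..., T e_m)|²`, `η(v) = det (w, v) / ∂F/∂x (w)`; `e2_eq` (independent
                    of `w`), `e2_comp` (change of variables), `e2_pos`
-/

set_option autoImplicit false
set_option linter.unusedSectionVars false

open Set Filter Topology Complex Metric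
open scoped ContDiff Matrix ComplexConjugate Manifold

namespace Crest.Agent.R257.Atl_941

open Crest.Agent.R275.Geo Crest.Agent.R275.Core144 Crest.Agent.R275.GC293

noncomputable section

variable {m : ℕ} {E P : Type} [NormedAddCommGroup E] [NormedSpace ℂ E] [FiniteDimensional ℂ E]
  [NormedAddCommGroup P] [NormedSpace ℂ P] [FiniteDimensional ℂ P] (X : SFam m E P)

/-- the derivative of `F` in the space direction -/
def dX (q : E × P) : E →L[ℂ] ℂ := (fderiv ℂ X.F q).comp (ContinuousLinearMap.inl ℂ E P)

theorem dX_apply (q : E × P) (v : E) : dX X q v = fderiv ℂ X.F q (v, 0) := rfl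

theorem dX_ne {q : E × P} (hq : q ∈ X.W) (h0 : X.F q = 0) : dX X q ≠ 0 := by
  obtain ⟨v, hv⟩ := X.reg q hq h0
  intro h
  apply hv
  rw [← dX_apply, h]
  rfl

/-- `v ↦ det (w, v_1, ..., v_m)` -/
def om (w : E) : E [⋀^Fin m]→ₗ[ℂ] ℂ :=
  ((Matrix.detRowAlternating (n := Fin (m + 1)) (R := ℂ)).curryLeft (X.b w)).compLinearMap
    X.b.toLinearEquiv.toLinearMap

theorem om_apply (w : E) (v : Fin m → E) :
    om X w v = Matrix.det (Matrix.of (Matrix.vecCons (X.b w) fun a => X.b (v a))) := by
  rfl

theorem om_add (w w' : E) (v : Fin m → E) : om X (w + w') v = om X w v + om X w' v := by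
  simp only [om_apply, map_add]
  exact (Matrix.detRowAlternating (n := Fin (m + 1)) (R := ℂ)).map_vecCons_add _ _ _

theorem om_smul (c : ℂ) (w : E) (v : Fin m → E) : om X (c • w) v = c * om X w v := by
  simp only [om_apply, map_smul]
  exact (Matrix.detRowAlternating (n := Fin (m + 1)) (R := ℂ)).map_vecCons_smul _ _ _

/-- vectors in the kernel of a nonzero functional -/
theorem om_eq_zero {φ : E →L[ℂ] ℂ} (hφ : φ ≠ 0) {w : E} (hw : φ w = 0) {v : Fin m → E}
    (hv : ∀ a, φ (v a) = 0) : om X w v = 0 := by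
  rw [om_apply]
  refine Matrix.exists_mulVec_eq_zero_iff.1
    ⟨fun k => φ (X.b.symm (Pi.single k (1 : ℂ))), ?_, ?_⟩
  · intro h
    apply hφ
    ext u
    have h1 : u = ∑ k, X.b u k • X.b.symm (Pi.single k (1 : ℂ)) := by
      apply X.b.injective
      rw [map_sum]
      simp only [map_smul, X.b.apply_symm_apply]
      funext j
      simp [Finset.sum_apply, Pi.single_apply]
    rw [h1, map_sum]
    simp only [map_smul]
    have h2 : ∀ k, φ (X.b.symm (Pi.single k (1 : ℂ))) = 0 := fun k => congrFun h k
    simp [h2]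
  · have h1 : ∀ u : E, ∑ k, X.b u k * φ (X.b.symm (Pi.single k (1 : ℂ))) = φ u := by
      intro u
      conv_rhs => rw [show u = ∑ k, X.b u k • X.b.symm (Pi.single k (1 : ℂ)) by
        apply X.b.injective
        rw [map_sum]
        simp only [map_smul, X.b.apply_symm_apply]
        funext j
        simp [Finset.sum_apply, Pi.single_apply]]
      rw [map_sum]
      simp only [map_smul, smul_eq_mul]
    funext i
    refine Fin.cases ?_ (fun a => ?_) i
    · change ∑ k, X.b w k * φ (X.b.symm (Pi.single k (1 : ℂ))) = 0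
      rw [h1, hw]
    · change ∑ k, X.b (v a) k * φ (X.b.symm (Pi.single k (1 : ℂ))) = 0
      rw [h1, hv]

theorem om_cross {φ : E →L[ℂ] ℂ} {v : Fin m → E} (hv : ∀ a, φ (v a) = 0) (w w' : E) :
    om X w v * φ w' = om X w' v * φ w := by
  by_cases hφ : φ = 0
  · simp [hφ]
  have h1 : φ (φ w' • w + (-φ w) • w') = 0 := by
    simp only [map_add, map_smul, smul_eq_mul]
    ring
  have h2 := om_eq_zero X hφ h1 hv
  rw [om_add, om_smul, om_smul] at h2
  linear_combination h2

/-- the gradient vector -/
def grd (q : E × P) : E :=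
  X.b.symm (fun k => conj (dX X q (X.b.symm (Pi.single k (1 : ℂ)))))

theorem dX_grd (q : E × P) :
    dX X q (grd X q) = ((∑ k, ‖dX X q (X.b.symm (Pi.single k (1 : ℂ)))‖ ^ 2 : ℝ) : ℂ) := by
  have h1 : grd X q = ∑ k, (conj (dX X q (X.b.symm (Pi.single k (1 : ℂ))))) •
      X.b.symm (Pi.single k (1 : ℂ)) := by
    apply X.b.injective
    rw [map_sum]
    simp only [map_smul, X.b.apply_symm_apply, grd]
    funext j
    simp [Finset.sum_apply, Pi.single_apply]
  conv_lhs => rw [h1]
  rw [map_sum]
  simp only [map_smul, smul_eq_mul]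
  push_cast
  refine Finset.sum_congr rfl fun k _ => ?_
  rw [mul_comm, Complex.mul_conj, Complex.normSq_eq_norm_sq]
  push_cast
  rfl

theorem dX_grd_ne {q : E × P} (h : dX X q ≠ 0) : dX X q (grd X q) ≠ 0 := by
  rw [dX_grd]
  intro h0
  rw [Complex.ofReal_eq_zero, Finset.sum_eq_zero_iff_of_nonneg (fun _ _ => by positivity)] at h0
  apply h
  ext u
  have h1 : u = ∑ k, X.b u k • X.b.symm (Pi.single k (1 : ℂ)) := by
    apply X.b.injective
    rw [map_sum]
    simp only [map_smul, X.b.apply_symm_apply]
    funext j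
    simp [Finset.sum_apply, Pi.single_apply]
  rw [h1, map_sum]
  simp only [map_smul]
  have h2 : ∀ k, dX X q (X.b.symm (Pi.single k (1 : ℂ))) = 0 := fun k => by
    have := h0 k (Finset.mem_univ k)
    simpa using this
  simp [h2]

/-- the vectors `T e_a` -/
def fr (T : Cn m →L[ℂ] E) (a : Fin m) : E := T (EuclideanSpace.single a 1)

/-- `|η|²` at `q` on the frame `T e_1, ..., T e_m` -/
def e2 (q : E × P) (T : Cn m →L[ℂ] E) : ℝ := ‖om X (grd X q) (fr T) / dX X q (grd X q)‖ ^ 2

theorem e2_eq {q : E × P} {T : Cn m →L[ℂ] E} (hT : ∀ v, dX X q (T v) = 0) {w : E}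
    (hw : dX X q w ≠ 0) : e2 X q T = ‖om X w (fr T) / dX X q w‖ ^ 2 := by
  have h0 : dX X q ≠ 0 := by
    intro h
    rw [h] at hw
    exact hw rfl
  have h1 := dX_grd_ne X h0
  have h2 := om_cross X (φ := dX X q) (v := fr T) (fun a => hT _) (grd X q) w
  have h3 : om X (grd X q) (fr T) / dX X q (grd X q) = om X w (fr T) / dX X q w := by
    rw [div_eq_div_iff h1 hw]
    exact h2
  unfold e2
  rw [h3]

theorem e2_nonneg (q : E × P) (T : Cn m →L[ℂ] E) : 0 ≤ e2 X q T := by
  unfold e2
  positivity

/-- the matrix of a linear endomorphism of `Cn m` -/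
theorem om_comp (w : E) (T : Cn m →L[ℂ] E) (R : Cn m →L[ℂ] Cn m) :
    om X w (fr (T.comp R)) =
      (Matrix.of fun b a => (R (EuclideanSpace.single a 1)) b).det * om X w (fr T) := by
  set B : Module.Basis (Fin m) ℂ (Cn m) := (EuclideanSpace.basisFun (Fin m) ℂ).toBasis with hB
  have hBa : ∀ a, B a = EuclideanSpace.single a 1 := fun a => by
    rw [hB, OrthonormalBasis.coe_toBasis, EuclideanSpace.basisFun_apply]
  set g : (Cn m) [⋀^Fin m]→ₗ[ℂ] ℂ := (om X w).compLinearMap T.toLinearMap with hg
  have h1 : g = g B • B.det := AlternatingMap.eq_smul_basis_det B g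
  have h2 : om X w (fr (T.comp R)) = g (fun a => R (B a)) := by
    rw [hg, AlternatingMap.compLinearMap_apply]
    congr 1
    funext a
    simp only [fr, hBa]
    rfl
  have h3 : g B = om X w (fr T) := by
    rw [hg, AlternatingMap.compLinearMap_apply]
    congr 1
    funext a
    simp only [fr, hBa]
    rfl
  have h4 : B.det (fun a => R (B a)) =
      (Matrix.of fun b a => (R (EuclideanSpace.single a 1)) b).det := by
    rw [Module.Basis.det_apply]
    congr 1
    ext b a
    rw [Module.Basis.toMatrix_apply, Matrix.of_apply, hBa]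
    simp [hB]
  rw [h2, h1, AlternatingMap.smul_apply, h3, h4, smul_eq_mul, mul_comm]

theorem e2_comp (q : E × P) (T : Cn m →L[ℂ] E) (R : Cn m →L[ℂ] Cn m) :
    e2 X q (T.comp R) =
      ‖(Matrix.of fun b a => (R (EuclideanSpace.single a 1)) b).det‖ ^ 2 * e2 X q T := by
  unfold e2
  rw [om_comp, mul_div_assoc, norm_mul, mul_pow]

theorem e2_pos {q : E × P} (hq : dX X q ≠ 0) {T : Cn m →L[ℂ] E} (hT : ∀ v, dX X q (T v) = 0)
    (hi : Function.Injective T) : 0 < e2 X q T := by
  have h1 := dX_grd_ne X hq
  have h2 : om X (grd X q) (fr T) ≠ 0 := by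
    rw [om_apply]
    have hli : LinearIndependent ℂ (Matrix.vecCons (X.b (grd X q)) fun a => X.b (fr T a)) := by
      have h3 : LinearIndependent ℂ (Matrix.vecCons (grd X q) (fr T)) := by
        refine LinearIndependent.finCons ?_ ?_
        · have h4 : LinearIndependent ℂ (fun a : Fin m =>
              (EuclideanSpace.single a (1 : ℂ) : Cn m)) := by
            have h9 : (fun a : Fin m => (EuclideanSpace.single a (1 : ℂ) : Cn m)) =
                ⇑((EuclideanSpace.basisFun (Fin m) ℂ).toBasis) := by
              funext a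
              rw [OrthonormalBasis.coe_toBasis, EuclideanSpace.basisFun_apply]
            rw [h9]
            exact (EuclideanSpace.basisFun (Fin m) ℂ).toBasis.linearIndependent
          exact h4.map' T.toLinearMap (LinearMap.ker_eq_bot.2 hi)
        · intro hmem
          apply h1
          have h5 : Submodule.span ℂ (range (fr T)) ≤ LinearMap.ker (dX X q).toLinearMap := by
            rw [Submodule.span_le]
            rintro _ ⟨a, rfl⟩
            exact hT _
          exact h5 hmem
      have h6 : (Matrix.vecCons (X.b (grd X q)) fun a => X.b (fr T a)) =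
          fun i => X.b (Matrix.vecCons (grd X q) (fr T) i) := by
        funext i
        refine Fin.cases ?_ (fun a => ?_) i <;> simp
      rw [h6]
      exact h3.map' X.b.toLinearEquiv.toLinearMap X.b.toLinearEquiv.ker
    have h7 := Matrix.linearIndependent_rows_iff_isUnit.1
      (show LinearIndependent ℂ (Matrix.of (Matrix.vecCons (X.b (grd X q))
        fun a => X.b (fr T a))).row from hli)
    exact ((Matrix.isUnit_iff_isUnit_det _).1 h7).ne_zero
  unfold e2
  have h8 : om X (grd X q) (fr T) / dX X q (grd X q) ≠ 0 := div_ne_zero h2 h1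
  positivity

end

end Crest.Agent.R257.Atl_941
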