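import Crest.Agent.R257.Atl3_941

/-!
# R257 (S0395), leaf GB-ATL (helper941): the atlas of a level surface, parametrisations

* `X.A τ`          : a countable, locally finite `Atl m (X.M τ)`; `X.part τ : Part (X.A τ)`
* `Par X τ θ O`    : `θ : Cn k → X.M τ` holomorphic on the open set `O ⊆ Cn k`
* `par_chart`      : inverse charts of `X.A τ` are parametrisations, `inj_chart` : immersive
* `sm_iff_par`     : smooth = smooth along all parametrisations; `sm_val`
* `Par.tangent`    : `∂F/∂x ∘ dθ = 0`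
* `X.eta τ : HM (KB (X.A τ))⁻¹`, the volume form `|η|²`; `Par.e2_eq`
-/

set_option autoImplicit false
set_option linter.unusedSectionVars false

open Set Filter Topology Complex Metric
open scoped ContDiff Matrix ComplexConjugate Manifold

namespace Crest.Agent.R257.Atl_941

open Crest.Agent.R275.Geo Crest.Agent.R275.Core144 Crest.Agent.R275.GC293
open Crest.Agent.R273.Defs_333 Crest.Agent.R273.Map_835 Crest.Agent.R273.PB_835
open Crest.Agent.R273.Fam_835

noncomputable section

variable {m : ℕ} {E P : Type} [NormedAddCommGroup E] [NormedSpace ℂ E] [FiniteDimensional ℂ E]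
  [NormedAddCommGroup P] [NormedSpace ℂ P] [FiniteDimensional ℂ P] (X : SFam m E P) (τ : P)

theorem scE (E : Type) [NormedAddCommGroup E] [NormedSpace ℂ E] [FiniteDimensional ℂ E] :
    SecondCountableTopology E := by
  have : ProperSpace E := FiniteDimensional.proper ℂ E
  infer_instance

theorem scM : SecondCountableTopology (X.M τ) := by
  have := scE E
  infer_instance

theorem SFam.exists_A : ∃ A : Atl m (X.M τ), Countable A.ι ∧ Nonempty (Part A) ∧
    (LocallyFinite fun i => (A.e i).source) ∧ Nonempty (SubAtl A (X.fam τ)) := by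
  have := scM X τ
  obtain ⟨A, h1, h2, -, h3, h4⟩ := exists_atl_nc (X.fam τ) (fun _ : Unit => (univ : Set (X.M τ)))
    (fun _ => isOpen_univ) (fun x => ⟨(), mem_univ x⟩)
  exact ⟨A, h1, h2, h3, h4⟩

/-- the atlas of the level surface -/
def SFam.A : Atl m (X.M τ) := (SFam.exists_A X τ).choose

theorem SFam.countable : Countable (X.A τ).ι := (SFam.exists_A X τ).choose_spec.1

/-- a partition of unity -/
def SFam.part : Part (X.A τ) := (SFam.exists_A X τ).choose_spec.2.1.some

theorem SFam.lf : LocallyFinite fun i => ((X.A τ).e i).source :=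
  (SFam.exists_A X τ).choose_spec.2.2.1

/-- the charts are restrictions of adapted charts -/
def SFam.sb : SubAtl (X.A τ) (X.fam τ) := (SFam.exists_A X τ).choose_spec.2.2.2.some

/-- the adapted chart behind the chart `i` -/
def SFam.ad (i : (X.A τ).ι) : AdCh X := ((X.sb τ).j i).1

variable {X τ}

/-- holomorphic maps with values in the level surface -/
structure Par (X : SFam m E P) (τ : P) {k : ℕ} (θ : Cn k → X.M τ) (O : Set (Cn k)) : Prop where
  isOpen : IsOpen O
  hol : DifferentiableOn ℂ (fun z => (θ z).1) O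

theorem apply_eq (i : (X.A τ).ι) (x : X.M τ) :
    (X.A τ).e i x = aff ((X.sb τ).c i) ((X.sb τ).r i) ((X.sb τ).r_pos i) ((X.ad τ i).pr x.1) :=
  (X.sb τ).apply i x

theorem symm_val (i : (X.A τ).ι) {z : Cn m} (hz : z ∈ ((X.A τ).e i).target) :
    (((X.A τ).e i).symm z).1 =
      (X.ad τ i).th ((aff ((X.sb τ).c i) ((X.sb τ).r i) ((X.sb τ).r_pos i)).symm z) τ := by
  rw [(X.sb τ).symm_apply]
  rw [(X.sb τ).target_eq] at hz
  exact (X.ad τ i).ch_symm_val ((X.sb τ).ball_sub i hz)

theorem aff_mem_O (i : (X.A τ).ι) {z : Cn m} (hz : z ∈ ((X.A τ).e i).target) :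
    (aff ((X.sb τ).c i) ((X.sb τ).r i) ((X.sb τ).r_pos i)).symm z ∈ (X.ad τ i).O τ := by
  rw [(X.sb τ).target_eq] at hz
  exact (X.sb τ).ball_sub i hz

theorem par_chart (i : (X.A τ).ι) : Par X τ ((X.A τ).e i).symm ((X.A τ).e i).target where
  isOpen := ((X.A τ).e i).open_target
  hol := by
    have h1 : DifferentiableOn ℂ (fun z => (X.ad τ i).th
        ((aff ((X.sb τ).c i) ((X.sb τ).r i) ((X.sb τ).r_pos i)).symm z) τ)
        ((X.A τ).e i).target :=
      (X.ad τ i).diffOn_th.comp (differentiable_aff_symm _ _ _).differentiableOn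
        fun z hz => aff_mem_O i hz
    exact h1.congr fun z hz => symm_val i hz

/-- the inverse charts are immersions -/
theorem inj_chart (i : (X.A τ).ι) {z : Cn m} (hz : z ∈ ((X.A τ).e i).target) :
    Function.Injective (fderiv ℂ (fun z => (((X.A τ).e i).symm z).1) z) := by
  set T := fderiv ℂ (fun z => (((X.A τ).e i).symm z).1) z with hT
  have hd : HasFDerivAt (fun z => (((X.A τ).e i).symm z).1) T z :=
    ((par_chart i).hol.differentiableAt (((X.A τ).e i).open_target.mem_nhds hz)).hasFDerivAt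
  have h1 : HasFDerivAt (fun z => (X.ad τ i).pr (((X.A τ).e i).symm z).1)
      ((X.ad τ i).pr.comp T) z := (X.ad τ i).pr.hasFDerivAt.comp z hd
  have h2 : (fun z => (X.ad τ i).pr (((X.A τ).e i).symm z).1) =ᶠ[𝓝 z]
      fun z => ((2 * (X.sb τ).r i : ℝ) : ℂ) • (z - ctr m) + (X.sb τ).c i := by
    filter_upwards [((X.A τ).e i).open_target.mem_nhds hz] with w hw
    rw [symm_val i hw, (X.ad τ i).pr_th (aff_mem_O i hw)]
    rfl
  have h3 : HasFDerivAt (fun z : Cn m => ((2 * (X.sb τ).r i : ℝ) : ℂ) • (z - ctr m) +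
      (X.sb τ).c i) (((2 * (X.sb τ).r i : ℝ) : ℂ) • ContinuousLinearMap.id ℂ (Cn m)) z :=
    (((hasFDerivAt_id (𝕜 := ℂ) z).sub_const (ctr m)).const_smul
      ((2 * (X.sb τ).r i : ℝ) : ℂ)).add_const ((X.sb τ).c i)
  have h4 := h1.unique (h3.congr_of_eventuallyEq h2)
  intro v w hvw
  have h5 := congrArg (fun S : Cn m →L[ℂ] Cn m => S v) h4
  have h6 := congrArg (fun S : Cn m →L[ℂ] Cn m => S w) h4
  simp only [ContinuousLinearMap.coe_comp, Function.comp_apply, smul_apply,
    ContinuousLinearMap.coe_id', id_eq] at h5 h6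
  rw [hvw, h6] at h5
  have h7 : ((2 * (X.sb τ).r i : ℝ) : ℂ) ≠ 0 := by
    exact_mod_cast (mul_pos two_pos ((X.sb τ).r_pos i)).ne'
  exact (smul_right_injective (Cn m) h7 h5).symm

namespace Par

variable {k l : ℕ} {θ : Cn k → X.M τ} {O : Set (Cn k)} (h : Par X τ θ O)
include h

theorem diffAt {z : Cn k} (hz : z ∈ O) : DifferentiableAt ℂ (fun z => (θ z).1) z :=
  h.hol.differentiableAt (h.isOpen.mem_nhds hz)

theorem contOn : ContinuousOn θ O :=
  Topology.IsInducing.subtypeVal.continuousOn_iff.2 h.hol.continuousOn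

theorem contAt {z : Cn k} (hz : z ∈ O) : ContinuousAt θ z :=
  h.contOn.continuousAt (h.isOpen.mem_nhds hz)

theorem diffAt_e {z : Cn k} (hz : z ∈ O) (i : (X.A τ).ι) :
    DifferentiableAt ℂ (fun z => (X.A τ).e i (θ z)) z := by
  have h1 : DifferentiableAt ℂ (fun z => aff ((X.sb τ).c i) ((X.sb τ).r i) ((X.sb τ).r_pos i)
      ((X.ad τ i).pr (θ z).1)) z :=
    (differentiable_aff _ _ _).differentiableAt.comp z
      ((X.ad τ i).pr.differentiableAt.comp z (h.diffAt hz))
  exact h1.congr_of_eventuallyEq (Eventually.of_forall fun w => apply_eq i (θ w))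

theorem comp {ψ : Cn l → Cn k} {U : Set (Cn l)} (hU : IsOpen U) (hψ : DifferentiableOn ℂ ψ U)
    (hm : MapsTo ψ U O) : Par X τ (fun z => θ (ψ z)) U where
  isOpen := hU
  hol := h.hol.comp hψ hm

theorem mono {O' : Set (Cn k)} (hO' : IsOpen O') (hs : O' ⊆ O) : Par X τ θ O' :=
  ⟨hO', h.hol.mono hs⟩

/-- the derivative is tangent to the level surface -/
theorem tangent {z : Cn k} (hz : z ∈ O) (v : Cn k) :
    dX X ((θ z).1, τ) (fderiv ℂ (fun z => (θ z).1) z v) = 0 := by
  have h1 : HasFDerivAt (fun z => X.F ((θ z).1, τ))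
      ((fderiv ℂ X.F ((θ z).1, τ)).comp ((fderiv ℂ (fun z => (θ z).1) z).prod 0)) z :=
    (X.diffAt (θ z).2.1).hasFDerivAt.comp z ((h.diffAt hz).hasFDerivAt.prodMk
      (hasFDerivAt_const τ z))
  have h2 : HasFDerivAt (fun z => X.F ((θ z).1, τ)) (0 : Cn k →L[ℂ] ℂ) z := by
    have h3 : (fun z => X.F ((θ z).1, τ)) = fun _ => 0 := funext fun z => (θ z).2.2
    rw [h3]
    exact hasFDerivAt_const _ _
  have h4 := congrArg (fun S : Cn k →L[ℂ] ℂ => S v) (h1.unique h2)
  exact h4

/-- smooth functions are smooth along parametrisations -/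
theorem contDiffOn {W : Type*} [NormedAddCommGroup W] [NormedSpace ℝ W] {f : X.M τ → W}
    (hf : (X.A τ).Sm f) : ContDiffOn ℝ ∞ (fun z => f (θ z)) O := by
  intro z hz
  obtain ⟨i, hi⟩ := (X.A τ).cover (θ z)
  have hU : IsOpen (O ∩ θ ⁻¹' ((X.A τ).e i).source) :=
    h.contOn.isOpen_inter_preimage h.isOpen ((X.A τ).e i).open_source
  have h1 : DifferentiableOn ℂ (fun z => (X.A τ).e i (θ z)) (O ∩ θ ⁻¹' ((X.A τ).e i).source) :=
    fun w hw => (h.diffAt_e hw.1 i).differentiableWithinAt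
  have h2 : ContDiffOn ℝ ∞ (fun z => (X.A τ).e i (θ z)) (O ∩ θ ⁻¹' ((X.A τ).e i).source) :=
    ((Crest.Agent.R266.SCV.contDiffOn_omega_of_differentiableOn hU h1).of_le
      (show (∞ : WithTop ℕ∞) ≤ ω from le_top)).restrict_scalars ℝ
  have h3 : ContDiffOn ℝ ∞ ((fun z => f (((X.A τ).e i).symm z)) ∘ fun z => (X.A τ).e i (θ z))
      (O ∩ θ ⁻¹' ((X.A τ).e i).source) :=
    (hf i).comp h2 fun w hw => ((X.A τ).e i).map_source hw.2
  have h4 := h3.contDiffAt (hU.mem_nhds ⟨hz, hi⟩)
  refine (h4.congr_of_eventuallyEq ?_).contDiffWithinAt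
  filter_upwards [hU.mem_nhds ⟨hz, hi⟩] with w hw
  simp only [Function.comp]
  rw [((X.A τ).e i).left_inv hw.2]

end Par

/-- smoothness can be tested on parametrisations -/
theorem sm_iff_par {W : Type*} [NormedAddCommGroup W] [NormedSpace ℝ W] {f : X.M τ → W} :
    (X.A τ).Sm f ↔ ∀ (θ : Cn m → X.M τ) (O : Set (Cn m)), Par X τ θ O →
      ContDiffOn ℝ ∞ (fun z => f (θ z)) O :=
  ⟨fun hf _ _ h => h.contDiffOn hf, fun hf i => hf _ _ (par_chart i)⟩

/-- ambient smooth functions are smooth on the surface -/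
theorem sm_comp_val {W : Type*} [NormedAddCommGroup W] [NormedSpace ℝ W] [NormedSpace ℝ E]
    [IsScalarTower ℝ ℂ E] {f : E → W} {U : Set E} (hf : ContDiffOn ℝ ∞ f U)
    (hU : ∀ x : X.M τ, x.1 ∈ U) : (X.A τ).Sm (fun x : X.M τ => f x.1) := by
  rw [sm_iff_par]
  intro θ O h
  have : CompleteSpace E := FiniteDimensional.complete ℂ E
  have h2 : ContDiffOn ℝ ∞ (fun z => (θ z).1) O :=
    ((Crest.Agent.R266.SCV.contDiffOn_omega_of_differentiableOn h.isOpen h.hol).of_le
      (show (∞ : WithTop ℕ∞) ≤ ω from le_top)).restrict_scalars ℝ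
  exact hf.comp h2 fun z _ => hU (θ z)

/-! ### the volume form -/

/-- the derivative of the inverse chart -/
def dch (X : SFam m E P) (τ : P) (i : (X.A τ).ι) (x : X.M τ) : Cn m →L[ℂ] E :=
  fderiv ℂ (fun z => (((X.A τ).e i).symm z).1) ((X.A τ).e i x)

theorem dch_tangent (i : (X.A τ).ι) {x : X.M τ} (hx : x ∈ ((X.A τ).e i).source) (v : Cn m) :
    dX X (x.1, τ) (dch X τ i x v) = 0 := by
  have h := (par_chart i).tangent (((X.A τ).e i).map_source hx) v
  rwa [((X.A τ).e i).left_inv hx] at h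

theorem dX_ne' (x : X.M τ) : dX X (x.1, τ) ≠ 0 := dX_ne X x.2.1 x.2.2

/-- chain rule for parametrisations -/
theorem Par.fderiv_eq {k : ℕ} {θ : Cn k → X.M τ} {O : Set (Cn k)} (h : Par X τ θ O) {z : Cn k}
    (hz : z ∈ O) {i : (X.A τ).ι} (hi : θ z ∈ ((X.A τ).e i).source) :
    fderiv ℂ (fun z => (θ z).1) z =
      (dch X τ i (θ z)).comp (fderiv ℂ (fun z => (X.A τ).e i (θ z)) z) := by
  have h1 := (h.diffAt_e hz i).hasFDerivAt
  have h2 : HasFDerivAt (fun z => (((X.A τ).e i).symm z).1) (dch X τ i (θ z))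
      ((X.A τ).e i (θ z)) :=
    ((par_chart i).diffAt (((X.A τ).e i).map_source hi)).hasFDerivAt
  have h3 := h2.comp z h1
  have h4 : (fun z => (θ z).1) =ᶠ[𝓝 z]
      ((fun z => (((X.A τ).e i).symm z).1) ∘ fun z => (X.A τ).e i (θ z)) := by
    filter_upwards [(h.contAt hz).preimage_mem_nhds (((X.A τ).e i).open_source.mem_nhds hi)]
      with w hw
    simp only [Function.comp]
    rw [((X.A τ).e i).left_inv hw]
  rw [h4.fderiv_eq]
  exact h3.fderiv

theorem dch_change {i j : (X.A τ).ι} {x : X.M τ}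
    (hx : x ∈ ((X.A τ).e i).source ∩ ((X.A τ).e j).source) :
    dch X τ i x = (dch X τ j x).comp
      (fderiv ℂ (fun z => (X.A τ).e j (((X.A τ).e i).symm z)) ((X.A τ).e i x)) := by
  have h := (par_chart i).fderiv_eq (((X.A τ).e i).map_source hx.1) (i := j)
    (by rw [((X.A τ).e i).left_inv hx.1]; exact hx.2)
  rw [((X.A τ).e i).left_inv hx.1] at h
  exact h

theorem diffOn_prod {V : Type*} [NormedAddCommGroup V] [NormedSpace ℂ V] {ι : Type*}
    (s : Finset ι) {F : ι → V → ℂ} {U : Set V} (h : ∀ k ∈ s, DifferentiableOn ℂ (F k) U) :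
    DifferentiableOn ℂ (fun x => ∏ k ∈ s, F k x) U := by
  classical
  induction s using Finset.induction_on with
  | empty => simp
  | insert k s hk ih =>
    simp only [Finset.prod_insert hk]
    exact (h k (by simp)).mul (ih fun l hl => h l (by simp [hl]))

theorem smAt_e2 (i : (X.A τ).ι) :
    (X.A τ).SmAt i (fun x => e2 X (x.1, τ) (dch X τ i x)) := by
  intro z₀ hz₀
  set e := (X.A τ).e i with he
  set q₀ : E × P := ((e.symm z₀).1, τ) with hq₀
  set w := grd X q₀ with hw
  have hw0 : dX X q₀ w ≠ 0 := dX_grd_ne X (dX_ne' (e.symm z₀))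
  have hpar := par_chart (X := X) (τ := τ) i
  -- `dX` along the chart is holomorphic
  have h1 : DifferentiableOn ℂ (fun z => dX X ((e.symm z).1, τ) w) e.target := by
    have h2 : DifferentiableOn ℂ (fderiv ℂ X.F) X.W := X.an.fderiv.differentiableOn
    have h3 : DifferentiableOn ℂ (fun z => fderiv ℂ X.F ((e.symm z).1, τ)) e.target :=
      h2.comp (hpar.hol.prodMk (differentiableOn_const _)) fun z _ => (e.symm z).2.1
    exact h3.clm_apply (differentiableOn_const _)
  have h4 : DifferentiableOn ℂ (fderiv ℂ fun z => (e.symm z).1) e.target :=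
    ((Crest.Agent.R266.SCV.analyticOnNhd_of_differentiableOn hpar.isOpen
      hpar.hol).fderiv).differentiableOn
  have h5 : DifferentiableOn ℂ (fun z => om X w (fr (fderiv ℂ (fun z => (e.symm z).1) z)))
      e.target := by
    simp only [om_apply, Matrix.det_apply]
    refine DifferentiableOn.fun_sum fun σ _ => ?_
    simp only [Units.smul_def, zsmul_eq_mul]
    refine (differentiableOn_const _).mul ?_
    refine diffOn_prod _ fun a _ => ?_
    have h6 : ∀ (r : Fin (m + 1)) (c : Fin (m + 1)), DifferentiableOn ℂ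
        (fun z => (Matrix.vecCons (X.b w) fun a => X.b (fr (fderiv ℂ
          (fun z => (e.symm z).1) z) a)) r c) e.target := by
      intro r c
      refine Fin.cases ?_ (fun a => ?_) r
      · exact differentiableOn_const _
      · have h7 : DifferentiableOn ℂ (fun z => fderiv ℂ (fun z => (e.symm z).1) z
            (EuclideanSpace.single a (1 : ℂ))) e.target := h4.clm_apply (differentiableOn_const _)
        have h8 : DifferentiableOn ℂ (fun z => X.b (fderiv ℂ (fun z => (e.symm z).1) z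
            (EuclideanSpace.single a (1 : ℂ)))) e.target :=
          X.b.toContinuousLinearMap.differentiable.comp_differentiableOn h7
        exact differentiableOn_pi.1 h8 c
    exact h6 (σ a) a
  set U : Set (Cn m) := e.target ∩ (fun z => dX X ((e.symm z).1, τ) w) ⁻¹' {0}ᶜ with hU
  have hUo : IsOpen U := h1.continuousOn.isOpen_inter_preimage e.open_target isOpen_compl_singleton
  have h9 : DifferentiableOn ℂ (fun z => om X w (fr (fderiv ℂ (fun z => (e.symm z).1) z)) /
      dX X ((e.symm z).1, τ) w) U :=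
    (h5.mono inter_subset_left).mul ((h1.mono inter_subset_left).inv fun z hz => hz.2)
  have h10 : ContDiffOn ℝ ∞ (fun z => om X w (fr (fderiv ℂ (fun z => (e.symm z).1) z)) /
      dX X ((e.symm z).1, τ) w) U :=
    ((Crest.Agent.R266.SCV.contDiffOn_omega_of_differentiableOn hUo h9).of_le
      (show (∞ : WithTop ℕ∞) ≤ ω from le_top)).restrict_scalars ℝ
  have h11 : ContDiffAt ℝ ∞ (fun z => ‖om X w (fr (fderiv ℂ (fun z => (e.symm z).1) z)) /
      dX X ((e.symm z).1, τ) w‖ ^ 2) z₀ := (h10.contDiffAt (hUo.mem_nhds ⟨hz₀, hw0⟩)).norm_sq ℝ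
  refine (h11.congr_of_eventuallyEq ?_).contDiffWithinAt
  filter_upwards [hUo.mem_nhds ⟨hz₀, hw0⟩] with z hz
  have h12 : dch X τ i (e.symm z) = fderiv ℂ (fun z => (e.symm z).1) z := by
    unfold dch
    rw [← he, e.right_inv hz.1]
  rw [h12]
  exact e2_eq X (fun v => hpar.tangent hz.1 v) hz.2

/-- **the volume form `|η|²`** -/
def SFam.eta (X : SFam m E P) (τ : P) : HM (KB (X.A τ))⁻¹ where
  w i x := e2 X (x.1, τ) (dch X τ i x)
  pos i x hx := by
    refine e2_pos X (dX_ne' x) (fun v => dch_tangent i hx v) ?_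
    exact inj_chart i (((X.A τ).e i).map_source hx)
  sm i := smAt_e2 i
  tr i j x hx := by
    rw [LB.inv_g, KB_g hx, dch_change hx, e2_comp, norm_inv, inv_pow]
    have h1 : (Matrix.of fun b a => (fderiv ℂ (fun z => (X.A τ).e j (((X.A τ).e i).symm z))
        ((X.A τ).e i x) (EuclideanSpace.single a 1)) b) = Jm (X.A τ) i j x := rfl
    rw [h1]
    have h2 : (Jm (X.A τ) i j x).det ≠ 0 := by
      rw [← KB_g hx]
      exact (KB (X.A τ)).ne_zero i j x
    have h3 : ‖(Jm (X.A τ) i j x).det‖ ≠ 0 := norm_ne_zero_iff.2 h2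
    field_simp

theorem eta_w (i : (X.A τ).ι) (x : X.M τ) :
    (X.eta τ).w i x = e2 X (x.1, τ) (dch X τ i x) := rfl

/-- `|η|²` along a parametrisation -/
theorem Par.e2_eq {θ : Cn m → X.M τ} {O : Set (Cn m)} (h : Par X τ θ O) {z : Cn m}
    (hz : z ∈ O) {i : (X.A τ).ι} (hi : θ z ∈ ((X.A τ).e i).source) :
    e2 X ((θ z).1, τ) (fderiv ℂ (fun z => (θ z).1) z) =
      ‖(mt (fderiv ℂ (fun z => (X.A τ).e i (θ z)) z)).det‖ ^ 2 * (X.eta τ).w i (θ z) := by
  rw [h.fderiv_eq hz hi, e2_comp]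
  rfl

end

end Crest.Agent.R257.Atl_941
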