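import Crest.Agent.R257.Atl4_941
import Crest.Agent.R273.Vm_333

/-!
# R257 (S0395), leaf GB-ATL (helper941): the measure `|η|²` on a level surface

* `X.vol τ : Measure (X.M τ)`  := `vm (X.eta τ)`, `X.nu τ : Measure E` := its image in `E`
* `ed X θ y`                    : `|η_θ|²` at the point with real coordinates `y`
* `vol_restrict_par`            : `vol|_{θ(O)} = θ_* (|η_θ|² dλ)` for an injective parametrisation
* `lintegral_par`, `integral_par`
* `isLocallyFinite_vol`, `vol_lt_top` (compact sets)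
-/

set_option autoImplicit false
set_option linter.unusedSectionVars false

open Set Filter Topology Complex Metric MeasureTheory
open scoped ContDiff Matrix ComplexConjugate Manifold ENNReal

namespace Crest.Agent.R257.Atl_941

open Crest.Agent.R275.Geo Crest.Agent.R275.Core144 Crest.Agent.R275.EDR890
open Crest.Agent.R273.Defs_333 Crest.Agent.R273.Map_835 Crest.Agent.R273.Vm_333
open Crest.Agent.R275.Pai323 Crest.Agent.R275.C1d194

noncomputable section

variable {m : ℕ} {E P : Type} [NormedAddCommGroup E] [NormedSpace ℂ E] [FiniteDimensional ℂ E]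
  [NormedAddCommGroup P] [NormedSpace ℂ P] [FiniteDimensional ℂ P] (X : SFam m E P) (τ : P)

theorem det_mt (D : Cn m →L[ℂ] Cn m) : (mt D).det = LinearMap.det (D : Cn m →ₗ[ℂ] Cn m) := by
  rw [← LinearMap.det_toMatrix (EuclideanSpace.basisFun (Fin m) ℂ).toBasis]
  congr 1

/-- real coordinates of a holomorphic map -/
theorem hasFDerivAt_rc {ψ : Cn m → Cn m} {y : RI m → ℝ} (h : DifferentiableAt ℂ ψ (cc y)) :
    ∃ L : (RI m → ℝ) →L[ℝ] (RI m → ℝ), HasFDerivAt (fun y => rc (ψ (cc y))) L y ∧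
      |L.det| = ‖(mt (fderiv ℂ ψ (cc y))).det‖ ^ 2 := by
  set D := fderiv ℂ ψ (cc y) with hD
  have h1 : HasFDerivAt ψ (D.restrictScalars ℝ) (cc y) := h.hasFDerivAt.restrictScalars ℝ
  let ccL : (RI m → ℝ) →L[ℝ] Cn m := ((rcE m).symm.toContinuousLinearEquiv : (RI m → ℝ) →L[ℝ] Cn m)
  have h2 : HasFDerivAt (cc : (RI m → ℝ) → Cn m) ccL y :=
    ((rcE m).symm.toContinuousLinearEquiv).hasFDerivAt
  have h3 : HasFDerivAt (rc : Cn m → RI m → ℝ) (rcL m) (ψ (cc y)) := by
    rw [rc_eq]; exact (rcL m).hasFDerivAt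
  have h4 := h3.comp y (h1.comp y h2)
  refine ⟨_, h4, ?_⟩
  have h5 : ((((rcL m).comp ((D.restrictScalars ℝ).comp ccL)) : (RI m → ℝ) →L[ℝ] (RI m → ℝ)) :
      (RI m → ℝ) →ₗ[ℝ] (RI m → ℝ)) = ((rcE m : Cn m →ₗ[ℝ] (RI m → ℝ)) ∘ₗ
        ((D : Cn m →ₗ[ℂ] Cn m).restrictScalars ℝ)) ∘ₗ ((rcE m).symm : (RI m → ℝ) →ₗ[ℝ] Cn m) := by
    ext v p
    rfl
  have h6 : ((rcL m).comp ((D.restrictScalars ℝ).comp ccL)).det =
      ‖LinearMap.det (D : Cn m →ₗ[ℂ] Cn m)‖ ^ 2 := by
    rw [← det_real D, ← h5]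
  rw [h6, det_mt, abs_of_nonneg (by positivity)]

variable {X τ}

/-- `|η_θ|²` at the point with real coordinates `y` -/
def ed (θ : Cn m → X.M τ) (y : RI m → ℝ) : ℝ :=
  e2 X ((θ (cc y)).1, τ) (fderiv ℂ (fun z => (θ z).1) (cc y))

/-- the domain in real coordinates -/
def dom (O : Set (Cn m)) : Set (RI m → ℝ) := {y | cc y ∈ O}

theorem isOpen_dom {O : Set (Cn m)} (hO : IsOpen O) : IsOpen (dom O) := hO.preimage continuous_cc

variable [MeasurableSpace E] [BorelSpace E]

/-- the measure `|η|²` -/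
def SFam.vol (X : SFam m E P) (τ : P) : Measure (X.M τ) :=
  haveI := X.countable τ
  vm (X.eta τ)

/-- the measure `|η|²` as a measure on the ambient space -/
def SFam.nu (X : SFam m E P) (τ : P) : Measure E := (X.vol τ).map Subtype.val

section par

variable {θ : Cn m → X.M τ} {O : Set (Cn m)} (h : Par X τ θ O)
include h

theorem Par.contOn_dom : ContinuousOn (fun y : RI m → ℝ => θ (cc y)) (dom O) :=
  h.contOn.comp continuous_cc.continuousOn fun _ hy => hy

theorem Par.meas_pre {B : Set (X.M τ)} (hB : MeasurableSet B) :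
    MeasurableSet {y : RI m → ℝ | y ∈ dom O ∧ θ (cc y) ∈ B} := by
  have h1 : Measurable ((dom O).domRestrict fun y : RI m → ℝ => θ (cc y)) :=
    (continuousOn_iff_continuous_domRestrict.1 h.contOn_dom).measurable
  have h2 := (isOpen_dom h.isOpen).measurableSet.subtype_image (h1 hB)
  convert h2 using 1
  ext y
  constructor
  · rintro ⟨hy, hyB⟩
    exact ⟨⟨y, hy⟩, hyB, rfl⟩
  · rintro ⟨⟨a, ha⟩, haB, rfl⟩
    exact ⟨ha, haB⟩

theorem Par.meas_image (hinj : InjOn θ O) {S : Set (RI m → ℝ)} (hS : MeasurableSet S)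
    (hSO : S ⊆ dom O) : MeasurableSet ((fun y : RI m → ℝ => θ (cc y)) '' S) := by
  have h2 : InjOn (fun y : RI m → ℝ => θ (cc y)) S := by
    intro a ha b hb hab
    have h3 := hinj (hSO ha) (hSO hb) hab
    have h4 := congrArg (rc : Cn m → RI m → ℝ) h3
    rwa [rc_cc, rc_cc] at h4
  have := scM X τ
  exact hS.image_of_continuousOn_injOn (h.contOn_dom.mono hSO) h2

theorem Par.ed_eq {y : RI m → ℝ} (hy : y ∈ dom O) {i : (X.A τ).ι}
    (hi : θ (cc y) ∈ ((X.A τ).e i).source) :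
    ed θ y = ‖(mt (fderiv ℂ (fun z => (X.A τ).e i (θ z)) (cc y))).det‖ ^ 2 *
      (X.eta τ).w i (θ (cc y)) := h.e2_eq hy hi

/-- the change of variables in one chart -/
theorem Par.vol_apply (hinj : InjOn θ O) (i : (X.A τ).ι) {B : Set (X.M τ)} (hB : MeasurableSet B)
    (hBs : B ⊆ ((X.A τ).e i).source) (hBO : B ⊆ θ '' O) :
    X.vol τ B = ∫⁻ y in {y : RI m → ℝ | y ∈ dom O ∧ θ (cc y) ∈ B}, ENNReal.ofReal (ed θ y) := by
  have := X.countable τ
  change vm (X.eta τ) B = _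
  rw [vm_apply_chart (X.eta τ) hB hBs, chm_apply _ i hB]
  set S : Set (RI m → ℝ) := {y | y ∈ dom O ∧ θ (cc y) ∈ B} with hS
  set ψ : (RI m → ℝ) → (RI m → ℝ) := fun y => rc ((X.A τ).e i (θ (cc y))) with hψ
  have hsg : ∀ y ∈ S, sg (X.A τ) i (ψ y) = θ (cc y) := fun y hy => sg_rc (hBs hy.2)
  have himg : {y | y ∈ Ui (X.A τ) i ∧ sg (X.A τ) i y ∈ B} = ψ '' S := by
    ext y
    constructor
    · rintro ⟨hy, hyB⟩
      obtain ⟨z, hz, hzy⟩ := hBO hyB
      have h1 : θ (cc (rc z)) = sg (X.A τ) i y := by rw [cc_rc]; exact hzy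
      refine ⟨rc z, ⟨?_, ?_⟩, ?_⟩
      · change cc (rc z) ∈ O
        rw [cc_rc]; exact hz
      · rw [h1]; exact hyB
      · change rc ((X.A τ).e i (θ (cc (rc z)))) = y
        rw [h1]
        change rc ((X.A τ).e i (((X.A τ).e i).symm (cc y))) = y
        rw [((X.A τ).e i).right_inv hy, rc_cc]
    · rintro ⟨z, hz, rfl⟩
      exact ⟨mem_Ui (hBs hz.2), by rw [hsg z hz]; exact hz.2⟩
  have hL : ∀ y : RI m → ℝ, ∃ L : (RI m → ℝ) →L[ℝ] (RI m → ℝ), y ∈ dom O →
      (HasFDerivAt ψ L y ∧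
        |L.det| = ‖(mt (fderiv ℂ (fun z => (X.A τ).e i (θ z)) (cc y))).det‖ ^ 2) := by
    intro y
    by_cases hy : y ∈ dom O
    · obtain ⟨L, hL⟩ := hasFDerivAt_rc (h.diffAt_e hy i)
      exact ⟨L, fun _ => hL⟩
    · exact ⟨0, fun h => absurd h hy⟩
  choose L hL using hL
  have hinj' : InjOn ψ S := by
    intro a ha b hb hab
    have h1 := congrArg (sg (X.A τ) i) hab
    rw [hsg a ha, hsg b hb] at h1
    have h3 := hinj ha.1 hb.1 h1
    have h4 := congrArg (rc : Cn m → RI m → ℝ) h3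
    rwa [rc_cc, rc_cc] at h4
  rw [himg, lintegral_image_eq_lintegral_abs_det_fderiv_mul volume (h.meas_pre hB)
    (fun y hy => (hL y hy.1).1.hasFDerivWithinAt) hinj' (Crest.Agent.R273.Vm_333.dn (X.eta τ) i)]
  refine setLIntegral_congr_fun (h.meas_pre hB) fun y hy => ?_
  rw [(hL y hy.1).2]
  unfold Crest.Agent.R273.Vm_333.dn
  rw [hsg y hy, h.ed_eq hy.1 (hBs hy.2), ENNReal.ofReal_mul (by positivity)]

theorem Par.ed_continuousOn : ContinuousOn (ed θ) (dom O) := by
  intro y hy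
  obtain ⟨i, hi⟩ := (X.A τ).cover (θ (cc y))
  have hU : IsOpen (O ∩ θ ⁻¹' ((X.A τ).e i).source) :=
    h.contOn.isOpen_inter_preimage h.isOpen ((X.A τ).e i).open_source
  have hD : DifferentiableOn ℂ (fun z => (X.A τ).e i (θ z)) (O ∩ θ ⁻¹' ((X.A τ).e i).source) :=
    fun w hw => (h.diffAt_e hw.1 i).differentiableWithinAt
  have h1 : ContinuousOn (fderiv ℂ (fun z => (X.A τ).e i (θ z)))
      (O ∩ θ ⁻¹' ((X.A τ).e i).source) :=
    (Crest.Agent.R266.SCV.analyticOnNhd_of_differentiableOn hU hD).fderiv.continuousOn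
  have h2 : ContinuousOn (fun z => (mt (fderiv ℂ (fun z => (X.A τ).e i (θ z)) z)).det)
      (O ∩ θ ⁻¹' ((X.A τ).e i).source) := by
    refine Continuous.comp_continuousOn (g := Matrix.det) (continuous_id.matrix_det) ?_
    refine continuousOn_pi.2 fun b => continuousOn_pi.2 fun a => ?_
    have h3 : ContinuousOn (fun z => fderiv ℂ (fun z => (X.A τ).e i (θ z)) z
        (EuclideanSpace.single a (1 : ℂ))) (O ∩ θ ⁻¹' ((X.A τ).e i).source) :=
      h1.clm_apply continuousOn_const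
    exact (EuclideanSpace.proj b : Cn m →L[ℂ] ℂ).continuous.comp_continuousOn h3
  have h4 : ContinuousOn (fun z => (X.eta τ).w i (θ z)) (O ∩ θ ⁻¹' ((X.A τ).e i).source) := by
    have h5 : ContinuousOn (fun z => (X.eta τ).w i (((X.A τ).e i).symm z))
      ((X.A τ).e i).target := ((X.eta τ).sm i).continuousOn
    have h6 : ContinuousOn (fun z => (X.eta τ).w i (((X.A τ).e i).symm ((X.A τ).e i (θ z))))
      (O ∩ θ ⁻¹' ((X.A τ).e i).source) :=
      h5.comp hD.continuousOn fun w hw => ((X.A τ).e i).map_source hw.2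
    refine h6.congr fun w hw => ?_
    change (X.eta τ).w i (θ w) = (X.eta τ).w i (((X.A τ).e i).symm ((X.A τ).e i (θ w)))
    rw [((X.A τ).e i).left_inv hw.2]
  have h7 : ContinuousOn (fun y : RI m → ℝ =>
      ‖(mt (fderiv ℂ (fun z => (X.A τ).e i (θ z)) (cc y))).det‖ ^ 2 *
      (X.eta τ).w i (θ (cc y))) (dom (O ∩ θ ⁻¹' ((X.A τ).e i).source)) :=
    ((h2.norm.pow 2).mul h4).comp continuous_cc.continuousOn fun _ hy => hy
  have h8 : dom (O ∩ θ ⁻¹' ((X.A τ).e i).source) ∈ 𝓝 y := (isOpen_dom hU).mem_nhds ⟨hy, hi⟩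
  refine ((h7.continuousAt h8).congr ?_).continuousWithinAt
  filter_upwards [h8] with w hw
  exact (h.ed_eq (y := w) hw.1 hw.2).symm

theorem Par.aemeas_ed :
    AEMeasurable (fun y => ENNReal.ofReal (ed θ y)) (volume.restrict (dom O)) :=
  (h.ed_continuousOn.aemeasurable (isOpen_dom h.isOpen).measurableSet).ennreal_ofReal

theorem Par.aemeas_th : AEMeasurable (fun y : RI m → ℝ => θ (cc y)) (volume.restrict (dom O)) :=
  h.contOn_dom.aemeasurable (isOpen_dom h.isOpen).measurableSet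

theorem Par.meas_range (hinj : InjOn θ O) : MeasurableSet (θ '' O) := by
  have h1 := h.meas_image hinj (isOpen_dom h.isOpen).measurableSet Subset.rfl
  convert h1 using 1
  ext x
  constructor
  · rintro ⟨z, hz, rfl⟩
    refine ⟨rc z, ?_, ?_⟩
    · change cc (rc z) ∈ O
      rw [cc_rc]; exact hz
    · change θ (cc (rc z)) = _
      rw [cc_rc]
  · rintro ⟨y, hy, rfl⟩
    exact ⟨cc y, hy, rfl⟩

/-- **the measure in a parametrisation** -/
theorem Par.vol_restrict (hinj : InjOn θ O) :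
    (X.vol τ).restrict (θ '' O) =
      ((volume.restrict (dom O)).withDensity (fun y => ENNReal.ofReal (ed θ y))).map
        (fun y : RI m → ℝ => θ (cc y)) := by
  have := X.countable τ
  ext B hB
  have haem : AEMeasurable (fun y : RI m → ℝ => θ (cc y))
      ((volume.restrict (dom O)).withDensity (fun y => ENNReal.ofReal (ed θ y))) :=
    h.aemeas_th.mono_ac (withDensity_absolutelyContinuous _ _)
  have h0 : NullMeasurableSet ((fun y : RI m → ℝ => θ (cc y)) ⁻¹' B) (volume.restrict (dom O)) :=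
    h.aemeas_th.nullMeasurable hB
  rw [Measure.restrict_apply hB, Measure.map_apply_of_aemeasurable haem hB, withDensity_apply₀ _ h0,
    Measure.restrict_restrict₀ h0]
  -- split into the pieces
  have hBO : MeasurableSet (B ∩ θ '' O) := hB.inter (h.meas_range hinj)
  have h1 : X.vol τ (B ∩ θ '' O) = ∑' i, X.vol τ (B ∩ θ '' O ∩ Dj (X.A τ) i) := by
    rw [← measure_iUnion]
    · rw [← inter_iUnion, iUnion_Dj, inter_univ]
    · intro a b hab
      exact (Dj_disjoint hab).mono inter_subset_right inter_subset_right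
    · exact fun j => hBO.inter (meas_Dj j)
  have h2 : ∀ i, X.vol τ (B ∩ θ '' O ∩ Dj (X.A τ) i) =
      ∫⁻ y in {y : RI m → ℝ | y ∈ dom O ∧ θ (cc y) ∈ B ∩ θ '' O ∩ Dj (X.A τ) i},
        ENNReal.ofReal (ed θ y) := fun i =>
    h.vol_apply hinj i (hBO.inter (meas_Dj i)) (fun x hx => hx.2.1) fun x hx => hx.1.2
  rw [h1]
  simp only [h2]
  rw [← lintegral_iUnion]
  · congr 2
    ext y
    simp only [mem_iUnion, mem_inter_iff, mem_preimage]
    constructor
    · rintro ⟨i, hy, h3⟩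
      exact ⟨h3.1.1, hy⟩
    · rintro ⟨h3, hy⟩
      obtain ⟨i, hi⟩ := exists_Dj (A := X.A τ) (θ (cc y))
      exact ⟨i, hy, ⟨h3, ⟨cc y, hy, rfl⟩⟩, hi⟩
  · exact fun i => h.meas_pre (hBO.inter (meas_Dj i))
  · intro a b hab
    rw [Function.onFun, Set.disjoint_left]
    rintro y ⟨-, h3⟩ ⟨-, h4⟩
    exact Set.disjoint_left.1 (Dj_disjoint hab) h3.2 h4.2

theorem Par.lintegral_eq (hinj : InjOn θ O) {φ : X.M τ → ℝ≥0∞} (hφ : Measurable φ) :
    ∫⁻ x in θ '' O, φ x ∂(X.vol τ) =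
      ∫⁻ y in dom O, ENNReal.ofReal (ed θ y) * φ (θ (cc y)) := by
  rw [h.vol_restrict hinj, lintegral_map' hφ.aemeasurable
    (h.aemeas_th.mono_ac (withDensity_absolutelyContinuous _ _)),
    lintegral_withDensity_eq_lintegral_mul₀ h.aemeas_ed]
  · rfl
  · exact hφ.comp_aemeasurable h.aemeas_th

theorem Par.ed_nonneg (y : RI m → ℝ) : 0 ≤ ed θ y := e2_nonneg X _ _

theorem Par.integral_eq (hinj : InjOn θ O) {W : Type*} [NormedAddCommGroup W] [NormedSpace ℝ W]
    {φ : X.M τ → W} (hφ : AEStronglyMeasurable φ (X.vol τ)) :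
    ∫ x in θ '' O, φ x ∂(X.vol τ) = ∫ y in dom O, ed θ y • φ (θ (cc y)) := by
  have hφ' : AEStronglyMeasurable φ
      (((volume.restrict (dom O)).withDensity (fun y => ENNReal.ofReal (ed θ y))).map
        (fun y : RI m → ℝ => θ (cc y))) := by
    rw [← h.vol_restrict hinj]
    exact hφ.restrict
  rw [h.vol_restrict hinj, integral_map
    (h.aemeas_th.mono_ac (withDensity_absolutelyContinuous _ _)) hφ']
  have h1 : (volume.restrict (dom O)).withDensity (fun y => ENNReal.ofReal (ed θ y)) =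
      (volume.restrict (dom O)).withDensity (fun y => ((ed θ y).toNNReal : ℝ≥0∞)) := rfl
  rw [h1, integral_withDensity_eq_integral_smul₀]
  · refine setIntegral_congr_fun (isOpen_dom h.isOpen).measurableSet fun y _ => ?_
    have h2 : (ed θ y).toNNReal • φ (θ (cc y)) = ((ed θ y).toNNReal : ℝ) • φ (θ (cc y)) := rfl
    simp only [h2, Real.coe_toNNReal _ (h.ed_nonneg y)]
  · exact (h.ed_continuousOn.aemeasurable (isOpen_dom h.isOpen).measurableSet).real_toNNReal

end par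

theorem isLocallyFinite_vol : IsLocallyFiniteMeasure (X.vol τ) := by
  have := X.countable τ
  exact isLocallyFinite_vm (X.eta τ)

theorem vol_lt_top {K : Set (X.M τ)} (hK : IsCompact K) : X.vol τ K < ⊤ := by
  have := isLocallyFinite_vol (X := X) (τ := τ)
  exact hK.measure_lt_top

/-- the ambient measure -/
theorem lintegral_nu {φ : E → ℝ≥0∞} (hφ : Measurable φ) :
    ∫⁻ x, φ x ∂(X.nu τ) = ∫⁻ x, φ x.1 ∂(X.vol τ) := by
  unfold SFam.nu
  rw [lintegral_map hφ measurable_subtype_coe]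

end

end Crest.Agent.R257.Atl_941
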