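import Crest.Agent.R257.CLG_39

/-!
# Row 257 (S0395), leaf E-CL (helper39), part H: reduction of the hypotheses, transfer to
parametrisations, ellipticity

* `f_of_eta`        : `det ∂∂̄u = e^u |η|²` gives the hypotheses on `f` with `K = 1`
* `lev_transfer`    : Levi forms along a holomorphic map into `M`
* `lev_theta_le`    : `ω_eucl ≤ C ω` in an arbitrary holomorphic parametrisation `θ`
* `ell_of_det`      : `p ≤ C u`, `det u = κ det p` imply `u ≤ κ C^(n-1) p`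
* `ell_theta`       : ellipticity in graph-like parametrisations
-/

set_option autoImplicit false
set_option linter.unusedSectionVars false

open Set Filter Topology Complex
open scoped ContDiff ComplexConjugate Matrix ComplexOrder

namespace Crest.Agent.R257.CLH_39

open Crest.Agent.R275.Geo Crest.Agent.R275.Core144 Crest.Agent.R275.GC293
open Crest.Agent.R273 Crest.Agent.R273.Defs_333 Crest.Agent.R273.YauDefs_635
open Crest.Agent.R273.YauMax_635 Crest.Agent.R273.HM_333 Crest.Agent.R273.Kah_333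
open Crest.Agent.R273.Hess_333 Crest.Agent.R273.HessB_333 Crest.Agent.R273.FS_333
open Crest.Agent.R257.CLC_39 Crest.Agent.R257.CLD_39 Crest.Agent.R257.CLE_39
open Crest.Agent.R257.CLF_39 Crest.Agent.R257.CLG_39

noncomputable section

variable {n : ℕ}

section eta

variable {U : Set (Cn n)} (hU : IsOpen U) {u e : Cn n → ℝ} (hu : ContDiffOn ℝ ∞ u U)
  (he : ContDiffOn ℝ ∞ e U) (hep : ∀ z ∈ U, 0 < e z)

include he hep hu in
theorem f_sm : ContDiffOn ℝ ∞ (fun z => u z + Real.log (e z)) U :=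
  hu.add (he.log fun z hz => (hep z hz).ne')

include hep in
theorem f_det (hdet : ∀ z ∈ U, (cH u z).det = ((Real.exp (u z) * e z : ℝ) : ℂ)) :
    ∀ z ∈ U, (cH u z).det = (Real.exp (u z + Real.log (e z)) : ℂ) := by
  intro z hz
  rw [hdet z hz, Real.exp_add, Real.exp_log (hep z hz)]

include hU hu he hep in
theorem f_lev (heh : ∀ z ∈ U, hess (fun w => Real.log (e w)) z = 0) :
    ∀ z ∈ U, ∀ v : Cn n, lev (fun z => u z + Real.log (e z)) z v ≤ 1 * lev u z v := by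
  intro z hz v
  have hn := hU.mem_nhds hz
  have c1 : ContDiffAt ℝ ∞ u z := hu.contDiffAt hn
  have c2 : ContDiffAt ℝ ∞ (fun w => Real.log (e w)) z :=
    (he.contDiffAt hn).log (hep z hz).ne'
  rw [one_mul]
  refine le_of_eq (lev_of_hess (c1.add c2) c1 ?_ v)
  rw [hess_add c1 c2, heh z hz, add_zero]

end eta

section transfer

variable {U : Set (Cn n)}

/-- Levi forms under a holomorphic map, up to pluriharmonic functions -/
theorem lev_transfer {p q : Cn n → ℝ} {T : Cn n → Cn n} {c : Cn n → ℂ} {z : Cn n}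
    (hT : ∀ᶠ w in 𝓝 z, DifferentiableAt ℂ T w) (hp : ContDiffAt ℝ ∞ p (T z))
    (hc : ∀ᶠ w in 𝓝 z, DifferentiableAt ℂ c w) (hc0 : c z ≠ 0)
    (hq' : ∀ᶠ w in 𝓝 z, q w = p (T w) + Real.log (‖c w‖ ^ 2)) (v : Cn n) :
    lev q z v = lev p (T z) (fderiv ℂ T z v) := by
  have hTa : AnalyticAt ℂ T z := by
    obtain ⟨V, hV, hVo, hVz⟩ := eventually_nhds_iff.1 hT
    exact Crest.Agent.R266.SCV.analyticOnNhd_of_differentiableOn hVo
      (fun w hw => (hV w hw).differentiableWithinAt) z hVz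
  have hTc : ContDiffAt ℝ ∞ T z := by
    obtain ⟨V, hV, hVo, hVz⟩ := eventually_nhds_iff.1 hT
    exact contDiffAt_of_hol hVo (fun w hw => (hV w hw).differentiableWithinAt) hVz
  have hcc : ContDiffAt ℝ ∞ c z := by
    obtain ⟨V, hV, hVo, hVz⟩ := eventually_nhds_iff.1 hc
    exact contDiffAt_of_hol hVo (fun w hw => (hV w hw).differentiableWithinAt) hVz
  have hpT : ContDiffAt ℝ ∞ (fun w => p (T w)) z := hp.comp z hTc
  have hlog : ContDiffAt ℝ ∞ (fun w => Real.log (‖c w‖ ^ 2)) z :=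
    (hcc.norm_sq ℝ).log (by positivity)
  have hqc : ContDiffAt ℝ ∞ q z := (hpT.add hlog).congr_of_eventuallyEq hq'
  have h1 : lev q z v = lev (fun w => p (T w)) z v := by
    refine lev_of_hess hqc hpT ?_ v
    rw [hess_congr hq', hess_add hpT hlog, hess_log_norm hc hc0, add_zero]
  rw [h1, lev333_eq_lev145, lev333_eq_lev145, Levi_145.lev_comp hTa (two_le' hp)]

end transfer

section ke

variable {M : Type} [TopologicalSpace M] {A : Atl n M} (P : ProjD A) {L : LB A} (H : HM L)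
  {φ ρ : M → ℝ} (hφ : A.Sm φ) (hρ : A.Sm ρ) (hKP : KPos H φ) {e : A.ι → Cn n → ℝ}
  (he : ∀ i, ContDiffOn ℝ ∞ (e i) (A.e i).target)
  (hep : ∀ i, ∀ z ∈ (A.e i).target, 0 < e i z)
  (heh : ∀ i, ∀ z ∈ (A.e i).target, hess (fun w => Real.log (e i w)) z = 0)
  (hdet : ∀ i, ∀ z ∈ (A.e i).target,
    (cH (pot H φ i) z).det = ((Real.exp (pot H φ i z) * e i z : ℝ) : ℂ))
  {κ : ℝ} (hκ : 0 < κ)
  (hρκ : ∀ i, ∀ z ∈ (A.e i).target, ∀ v : Cn n,
    κ * lev ((fs P).wt i) z v ≤ lev (pot H ρ i) z v)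

include hφ hρ hKP he hep heh hdet hκ hρκ in
/-- **Kähler-Einstein case of (4a)**: `det ∂∂̄u = e^u |η|²` -/
theorem ke_global [CompactSpace M] {m : ℝ} (hm : ∀ x, m ≤ φ x - ρ x) :
    ∀ x, trM A (pot H φ) (fs P).wt x
      ≤ (1 + 3 * n / κ) * Real.exp (3 / κ * (φ x - ρ x - m)) :=
  cl_global H P hφ hρ hKP (f := fun i z => pot H φ i z + Real.log (e i z))
    (fun i => f_sm (fun z hz => (pot_contDiffAt H hφ i hz).contDiffWithinAt) (he i) (hep i))
    (fun i => f_det (hep i) (hdet i)) zero_le_one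
    (fun i => f_lev (A.e i).open_target
      (fun z hz => (pot_contDiffAt H hφ i hz).contDiffWithinAt) (he i) (hep i) (heh i))
    hκ hρκ hm

include hφ hρ hKP he hep heh hdet hκ hρκ in
/-- **Kähler-Einstein case of (4b)**: `ω_eucl ≤ C ω` on `|x|² ≤ R` -/
theorem ke_eucl_le [CompactSpace M] {m : ℝ} (hm : ∀ x, m ≤ φ x - ρ x) {R E : ℝ} (hR : 0 < R)
    (hE : ∀ x ∈ D0 P, sqM (Yc P) x = R → φ x - ρ x - m ≤ E) {x : M} (hx : x ∈ KR P R)
    {i : A.ι} (hi : x ∈ (A.e i).source) (v : Cn n) :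
    lev (inC A i (sqM (Yc P))) (A.e i x) v
      ≤ CB n 1 κ R E * lev (pot H φ i) (A.e i x) v :=
  lev_eucl_le P H hφ hρ hKP (f := fun i z => pot H φ i z + Real.log (e i z))
    (fun i => f_sm (fun z hz => (pot_contDiffAt H hφ i hz).contDiffWithinAt) (he i) (hep i))
    (fun i => f_det (hep i) (hdet i)) zero_le_one
    (fun i => f_lev (A.e i).open_target
      (fun z hz => (pot_contDiffAt H hφ i hz).contDiffWithinAt) (he i) (hep i) (heh i))
    hκ hρκ hm hR hE hx hi v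

end ke

section theta

variable {M : Type} [TopologicalSpace M] {A : Atl n M} (P : ProjD A) {L : LB A} (H : HM L)
  {φ : M → ℝ} (hφ : A.Sm φ)

include hφ in
/-- the inequality `ω_eucl ≤ C ω` in a parametrisation `x : Cn n → M`, `θ = ` affine coordinates -/
theorem lev_theta_le {x : Cn n → M} {z : Cn n} {i : A.ι} (hx : ContinuousAt x z)
    (hi : x z ∈ (A.e i).source)
    (hT : ∀ᶠ w in 𝓝 z, DifferentiableAt ℂ (fun w => A.e i (x w)) w)
    {θ : Cn n → Fin P.N → ℂ} (hθ : ∀ᶠ w in 𝓝 z, Yc P (x w) = θ w)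
    {c : Cn n → ℂ} (hc : ∀ᶠ w in 𝓝 z, DifferentiableAt ℂ c w) (hc0 : c z ≠ 0) {u : Cn n → ℝ}
    (hu : ∀ᶠ w in 𝓝 z, u w = pot H φ i (A.e i (x w)) + Real.log (‖c w‖ ^ 2)) {C : ℝ}
    (hD : x z ∈ D0 P)
    (hle : ∀ v, lev (inC A i (sqM (Yc P))) (A.e i (x z)) v
      ≤ C * lev (pot H φ i) (A.e i (x z)) v) (v : Cn n) :
    lev (FS_333.sq θ) z v ≤ C * lev u z v := by
  have hz := (A.e i).map_source hi
  have hsrc : ∀ᶠ w in 𝓝 z, x w ∈ (A.e i).source := hx.eventually ((A.e i).open_source.mem_nhds hi)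
  have h1 : ∀ᶠ w in 𝓝 z, FS_333.sq θ w
      = inC A i (sqM (Yc P)) (A.e i (x w)) + Real.log (‖(1 : ℂ)‖ ^ 2) := by
    filter_upwards [hθ, hsrc] with w hw hws
    show ∑ k, ‖θ w k‖ ^ 2 = (∑ k, ‖Yc P ((A.e i).symm (A.e i (x w))) k‖ ^ 2) + _
    rw [(A.e i).left_inv hws, ← hw]
    simp
  have hps : ContDiffAt ℝ ∞ (inC A i (sqM (Yc P))) (A.e i (x z)) :=
    (sm_sqM (isOpen_D0 P) (hol_Yc P) i).contDiffAt
      ((isOpen_dom (isOpen_D0 P) i).mem_nhds (mem_dom hi hD))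
  rw [lev_transfer (T := fun w => A.e i (x w)) (c := fun _ => 1) hT hps
    (Eventually.of_forall fun w => differentiableAt_const _) one_ne_zero h1 v,
    lev_transfer (T := fun w => A.e i (x w)) hT (pot_contDiffAt H hφ i hz) hc hc0 hu v]
  exact hle _

end theta

section ell

/-- `p ≤ C u`, `det u = κ det p` imply `u ≤ κ C^(n-1) p` -/
theorem ell_of_det {u p : Cn n → ℝ} {z : Cn n} (hu : ContDiffAt ℝ ∞ u z)
    (hp : ContDiffAt ℝ ∞ p z) (hppos : ∀ v : Cn n, v ≠ 0 → 0 < lev p z v) {C κ : ℝ} (hC : 0 < C)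
    (hle : ∀ v, lev p z v ≤ C * lev u z v) (hd : (cH u z).det = (κ : ℂ) * (cH p z).det)
    (v : Cn n) : lev u z v ≤ κ * C ^ (n - 1) * lev p z v := by
  have e1 : C2a_793.Um u z = cH u z := by
    ext a b
    rw [cH_eq_hs (two_le' hu)]
    rfl
  have e2 : C2a_793.Um p z = cH p z := by
    ext a b
    rw [cH_eq_hs (two_le' hp)]
    rfl
  have hpd : (C2a_793.Um p z).PosDef := C2c_793.Um_posDef (two_le' hp) fun v hv => by
    have := hppos v hv
    rw [lev333_eq_lev145] at this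
    linarith
  have h1 := C2d_793.lev_le_of_det hu hp hpd hC (fun v => by
    have h3 := hle v
    rw [lev333_eq_lev145, lev333_eq_lev145] at h3
    linarith) (by rw [e1, e2]; exact hd) v
  rw [lev333_eq_lev145, lev333_eq_lev145]
  linarith

/-- ellipticity in a graph-like parametrisation `θ` : the hypothesis `hell` of the local
estimates -/
theorem ell_theta {N : ℕ} {U : Set (Cn n)} (hU : IsOpen U) {θ : Cn n → Fin N → ℂ}
    (hθ : ∀ k, DifferentiableOn ℂ (fun z => θ z k) U) {z : Cn n} (hz : z ∈ U) {u : Cn n → ℝ}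
    (hu : ContDiffAt ℝ ∞ u z) {C κ κ₁ l : ℝ} (hC : 0 < C) (hκ : κ ≤ κ₁) (hκ0 : 0 ≤ κ₁)
    (hlow : ∀ v : Cn n, ‖v‖ ^ 2 ≤ ∑ k, ‖fderiv ℂ (fun z => θ z k) z v‖ ^ 2)
    (hup : ∀ v : Cn n, ∑ k, ‖fderiv ℂ (fun z => θ z k) z v‖ ^ 2 ≤ l * ‖v‖ ^ 2)
    (hle : ∀ v, lev (FS_333.sq θ) z v ≤ C * lev u z v)
    (hd : (cH u z).det = (κ : ℂ) * (cH (FS_333.sq θ) z).det) (v : Cn n) :
    4 / C * ‖v‖ ^ 2 ≤ lev u z v ∧ lev u z v ≤ κ₁ * C ^ (n - 1) * (4 * l) * ‖v‖ ^ 2 := by
  have hps : ContDiffAt ℝ ∞ (FS_333.sq θ) z := (contDiffOn_sq hU hθ).contDiffAt (hU.mem_nhds hz)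
  have hlev := fun v => lev_sq hU hθ hz v
  have hp0 : ∀ v, 0 ≤ lev (FS_333.sq θ) z v := fun v => by
    rw [hlev]
    exact mul_nonneg (by norm_num) (Finset.sum_nonneg fun _ _ => by positivity)
  constructor
  · have h1 := hle v
    rw [hlev] at h1
    have h2 := hlow v
    rw [div_mul_eq_mul_div, div_le_iff₀ hC]
    linarith
  · have h1 := ell_of_det hu hps (fun v hv => by
      rw [hlev]
      have h2 := hlow v
      have h3 : 0 < ‖v‖ ^ 2 := by positivity
      linarith) hC hle hd v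
    have h2 : κ * C ^ (n - 1) * lev (FS_333.sq θ) z v
        ≤ κ₁ * C ^ (n - 1) * lev (FS_333.sq θ) z v := by
      refine mul_le_mul_of_nonneg_right ?_ (hp0 v)
      exact mul_le_mul_of_nonneg_right hκ (by positivity)
    refine h1.trans (h2.trans ?_)
    rw [hlev, mul_assoc (κ₁ * C ^ (n - 1)), mul_assoc 4 l]
    refine mul_le_mul_of_nonneg_left ?_ (by positivity)
    have := hup v
    linarith

end ell

end

end Crest.Agent.R257.CLH_39
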