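import Crest.Agent.R257.KED_952
import Crest.Agent.R257.CLH_39

/-!
# Row 257 (S0395), (helper39): the Jacobian of two functions on a level surface

* `jc g h z`  : `∂_0 g ∂_1 h - ∂_1 g ∂_0 h` for functions on `Cn 2`
* `jac`       : `|jc (g ∘ θ) (h ∘ θ)|² = |Dt f g h|² |η|²`
* `jc_le`     : `|jc g h|² ≤ det ∂∂̄u * |∂g|²_u |∂h|²_u`
* `dt_le`     : `|Dt f g h|² ≤ e^u |∂g|²_ω |∂h|²_ω` for Kaehler-Einstein weights
-/

set_option autoImplicit false
set_option linter.unusedSectionVars false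

open Set Filter Topology Complex
open scoped ContDiff ComplexConjugate Matrix ComplexOrder

namespace Crest.Agent.R257.Jac_39

open Crest.Agent.R275.Geo Crest.Agent.R275.Core144 Crest.Agent.R275.GC293
open Crest.Agent.R273 Crest.Agent.R273.Defs_333 Crest.Agent.R273.YauDefs_635
open Crest.Agent.R273.Hess_333 Crest.Agent.R273.HessB_333 Crest.Agent.R273.YauMax_635
open Crest.Agent.R257.CLC_39 Crest.Agent.R257.CLD_39
open Crest.Agent.R257.PN_835 Crest.Agent.R257.Gram_835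
open Crest.Agent.R257.Aff_835 (Par eta2a nga gra)
open Crest.Agent.R257.Defs_219 (E3 Dt)

noncomputable section

/-- coordinate vectors -/
abbrev ee (a : Fin 2) : Cn 2 := EuclideanSpace.single a 1

/-- Jacobian determinant of two functions -/
def jc (g h : Cn 2 → ℂ) (z : Cn 2) : ℂ :=
  fderiv ℂ g z (ee 0) * fderiv ℂ h z (ee 1) - fderiv ℂ g z (ee 1) * fderiv ℂ h z (ee 0)

theorem gr_dot (g : E3 → ℂ) (x w : E3) :
    ∑ k, w k * Defs_219.gr g x k = fderiv ℂ g x w := by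
  have h1 : w = ∑ k, w k • (Pi.single k (1 : ℂ) : E3) := by
    funext j
    simp [Finset.sum_apply, Pi.single_apply]
  conv_rhs => rw [h1, map_sum]
  refine Finset.sum_congr rfl fun k _ => ?_
  rw [map_smul, smul_eq_mul]
  rfl

/-- the rows `∂_0 θ, ∂_1 θ, w` -/
def TT (θ : Cn 2 → E3) (w : E3) (z : Cn 2) : Matrix (Fin 3) (Fin 3) ℂ :=
  Matrix.of ![fderiv ℂ θ z (ee 0), fderiv ℂ θ z (ee 1), w]

/-- order of the rows -/
def eR : Fin 3 ≃ Fin 2 ⊕ Unit where
  toFun := ![Sum.inl 0, Sum.inl 1, Sum.inr ()]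
  invFun := Sum.elim ![0, 1] fun _ => 2
  left_inv := by
    intro x
    fin_cases x <;> rfl
  right_inv := by
    intro x
    rcases x with x | x
    · fin_cases x <;> rfl
    · rfl

variable {f : E3 → ℂ} {s : ℂ} {θ : Cn 2 → E3} {O : Set (Cn 2)}

theorem det_TT (hθ : Par (n := 2) f s θ O) {z : Cn 2} (hz : z ∈ O)
    (hf : DifferentiableAt ℂ f (θ z)) (h0 : fderiv ℂ f (θ z) ≠ 0) (w : E3) :
    ‖(TT θ w z).det‖ ^ 2 = eta2a (n := 2) f θ z * ‖fderiv ℂ f (θ z) w‖ ^ 2 := by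
  have h1 := hθ.eta2a_spec hz hf h0 w
  rw [gdet_submatrix _ eR, Complex.mul_conj, Complex.normSq_eq_norm_sq] at h1
  have h2 : (addRow (DF θ z) w).submatrix eR id = TT θ w z := by
    ext a b
    fin_cases a
    · show pd θ z 0 b = _
      rw [hθ.pd_eq hz]
      rfl
    · show pd θ z 1 b = _
      rw [hθ.pd_eq hz]
      rfl
    · rfl
  rw [h2] at h1
  exact_mod_cast h1

theorem fderiv_comp_par (hθ : Par (n := 2) f s θ O) {z : Cn 2} (hz : z ∈ O) {g : E3 → ℂ}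
    (hg : DifferentiableAt ℂ g (θ z)) (v : Cn 2) :
    fderiv ℂ (fun z => g (θ z)) z v = fderiv ℂ g (θ z) (fderiv ℂ θ z v) := by
  have h1 : HasFDerivAt (fun z => g (θ z)) ((fderiv ℂ g (θ z)).comp (fderiv ℂ θ z)) z :=
    HasFDerivAt.comp z (g := g) hg.hasFDerivAt (hθ.diffAt hz).hasFDerivAt
  rw [h1.fderiv]
  rfl

/-- **the Jacobian on a level** -/
theorem jac (hθ : Par (n := 2) f s θ O) {z : Cn 2} (hz : z ∈ O)
    (hf : DifferentiableAt ℂ f (θ z)) (h0 : fderiv ℂ f (θ z) ≠ 0) {g h : E3 → ℂ}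
    (hg : DifferentiableAt ℂ g (θ z)) (hh : DifferentiableAt ℂ h (θ z)) :
    ‖jc (fun z => g (θ z)) (fun z => h (θ z)) z‖ ^ 2 =
      ‖Dt f g h (θ z)‖ ^ 2 * eta2a (n := 2) f θ z := by
  obtain ⟨w, hw⟩ : ∃ w, fderiv ℂ f (θ z) w ≠ 0 := by
    by_contra hcon
    push Not at hcon
    exact h0 (by ext w; rw [hcon w]; rfl)
  set G : Matrix (Fin 3) (Fin 3) ℂ :=
    Matrix.of ![Defs_219.gr f (θ z), Defs_219.gr g (θ z), Defs_219.gr h (θ z)] with hG
  have hGd : G.det = Dt f g h (θ z) := rfl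
  have hmul : ∀ a b, (TT θ w z * Gᵀ) a b = ∑ k, TT θ w z a k * G b k := fun a b => by
    rw [Matrix.mul_apply]
    rfl
  have e0 : ∀ b k, G b k = (![Defs_219.gr f (θ z), Defs_219.gr g (θ z), Defs_219.gr h (θ z)] b) k :=
    fun b k => rfl
  have m00 : (TT θ w z * Gᵀ) 0 0 = 0 := by
    rw [hmul]
    show ∑ k, (fderiv ℂ θ z (ee 0)) k * Defs_219.gr f (θ z) k = 0
    rw [gr_dot]
    exact hθ.ker hz hf _
  have m10 : (TT θ w z * Gᵀ) 1 0 = 0 := by
    rw [hmul]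
    show ∑ k, (fderiv ℂ θ z (ee 1)) k * Defs_219.gr f (θ z) k = 0
    rw [gr_dot]
    exact hθ.ker hz hf _
  have m20 : (TT θ w z * Gᵀ) 2 0 = fderiv ℂ f (θ z) w := by
    rw [hmul]
    exact gr_dot f (θ z) w
  have m01 : (TT θ w z * Gᵀ) 0 1 = fderiv ℂ (fun z => g (θ z)) z (ee 0) := by
    rw [hmul, fderiv_comp_par hθ hz hg]
    exact gr_dot g (θ z) _
  have m11 : (TT θ w z * Gᵀ) 1 1 = fderiv ℂ (fun z => g (θ z)) z (ee 1) := by
    rw [hmul, fderiv_comp_par hθ hz hg]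
    exact gr_dot g (θ z) _
  have m02 : (TT θ w z * Gᵀ) 0 2 = fderiv ℂ (fun z => h (θ z)) z (ee 0) := by
    rw [hmul, fderiv_comp_par hθ hz hh]
    exact gr_dot h (θ z) _
  have m12 : (TT θ w z * Gᵀ) 1 2 = fderiv ℂ (fun z => h (θ z)) z (ee 1) := by
    rw [hmul, fderiv_comp_par hθ hz hh]
    exact gr_dot h (θ z) _
  have h1 : (TT θ w z).det * Dt f g h (θ z) =
      fderiv ℂ f (θ z) w * jc (fun z => g (θ z)) (fun z => h (θ z)) z := by
    have h2 : (TT θ w z * Gᵀ).det = (TT θ w z).det * Dt f g h (θ z) := by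
      rw [Matrix.det_mul, Matrix.det_transpose, hGd]
    rw [← h2, Matrix.det_fin_three, m00, m10, m20, m01, m11, m02, m12, jc]
    ring
  have h2 := congrArg (fun c : ℂ => ‖c‖ ^ 2) h1
  simp only [norm_mul, mul_pow] at h2
  rw [det_TT hθ hz hf h0 w] at h2
  have h3 : ‖fderiv ℂ f (θ z) w‖ ^ 2 ≠ 0 := by
    have := norm_ne_zero_iff.2 hw
    positivity
  apply mul_left_cancel₀ h3
  linarith

/-! ### the pointwise inequality -/

/-- Hadamard's inequality -/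
theorem had {P : Matrix (Fin 2) (Fin 2) ℂ} (hP : P.PosDef) (a b : Fin 2 → ℂ) :
    ‖a 0 * b 1 - a 1 * b 0‖ ^ 2 ≤ P.det.re *
      ((P⁻¹ * Matrix.of fun i j => a i * conj (a j)).trace).re *
      ((P⁻¹ * Matrix.of fun i j => b i * conj (b j)).trace).re := by
  set Q := P⁻¹ with hQ
  have hQp : Q.PosDef := hP.inv
  have hQh : Qᴴ = Q := hQp.isHermitian
  set B : Matrix (Fin 2) (Fin 2) ℂ := Matrix.of fun i j => ![a i, b i] j with hB
  set G := Bᴴ * Q * B with hG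
  have hGh : Gᴴ = G := by
    rw [hG, Matrix.conjTranspose_mul, Matrix.conjTranspose_mul, Matrix.conjTranspose_conjTranspose,
      hQh, Matrix.mul_assoc]
  have hdB : B.det = a 0 * b 1 - b 0 * a 1 := by
    rw [Matrix.det_fin_two]
    rfl
  have hdG : G.det = ((‖a 0 * b 1 - a 1 * b 0‖ ^ 2 : ℝ) : ℂ) * Q.det := by
    rw [hG, Matrix.det_mul, Matrix.det_mul, Matrix.det_conjTranspose, hdB]
    have h1 : ((‖a 0 * b 1 - a 1 * b 0‖ ^ 2 : ℝ) : ℂ) =
        (a 0 * b 1 - a 1 * b 0) * star (a 0 * b 1 - a 1 * b 0) := by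
      show _ = _ * (starRingEnd ℂ) _
      rw [Complex.mul_conj, Complex.normSq_eq_norm_sq]
    rw [h1, mul_comm (b 0) (a 1)]
    ring
  have g00 : G 0 0 = (Q * Matrix.of fun i j => a i * conj (a j)).trace := by
    simp only [hG, Matrix.mul_apply, Matrix.trace, Matrix.diag_apply, Fin.sum_univ_two,
      Matrix.conjTranspose_apply, hB, Matrix.of_apply, RCLike.star_def]
    simp only [Matrix.cons_val_zero]
    ring
  have g11 : G 1 1 = (Q * Matrix.of fun i j => b i * conj (b j)).trace := by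
    simp only [hG, Matrix.mul_apply, Matrix.trace, Matrix.diag_apply, Fin.sum_univ_two,
      Matrix.conjTranspose_apply, hB, Matrix.of_apply, RCLike.star_def]
    simp only [Matrix.cons_val_one, Matrix.cons_val_fin_one]
    ring
  have hgr : ∀ i, (G i i).im = 0 := fun i => by
    have h1 := congrFun (congrFun hGh i) i
    rw [Matrix.conjTranspose_apply, RCLike.star_def] at h1
    exact Complex.conj_eq_iff_im.1 h1
  have h10 : G 1 0 = conj (G 0 1) := by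
    have h1 := congrFun (congrFun hGh 1) 0
    rw [Matrix.conjTranspose_apply] at h1
    exact h1.symm
  have h2 : G.det.re ≤ (G 0 0).re * (G 1 1).re := by
    rw [Matrix.det_fin_two, h10, Complex.mul_conj, Complex.sub_re, Complex.mul_re, hgr 0, hgr 1,
      Complex.ofReal_re]
    have := Complex.normSq_nonneg (G 0 1)
    nlinarith
  have hPd := hP.det_pos
  have hPd' : P.det = (P.det.re : ℂ) := by
    apply Complex.ext
    · rfl
    · rw [Complex.ofReal_im]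
      exact (Complex.lt_def.1 hPd).2.symm
  have hPr : 0 < P.det.re := (Complex.lt_def.1 hPd).1
  have hQd : Q.det = ((P.det.re)⁻¹ : ℝ) := by
    rw [hQ, Matrix.det_nonsing_inv, Ring.inverse_eq_inv', hPd', Complex.ofReal_re]
    push_cast
    rfl
  rw [hdG, hQd, ← Complex.ofReal_mul, Complex.ofReal_re, g00, g11] at h2
  rw [mul_inv_le_iff₀ hPr] at h2
  linarith

theorem cH_normSq {U : Set (Cn 2)} (hU : IsOpen U) {g : Cn 2 → ℂ}
    (hg : DifferentiableOn ℂ g U) {z : Cn 2} (hz : z ∈ U) :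
    cH (fun w => ‖g w‖ ^ 2) z = Matrix.of fun i j =>
      fderiv ℂ g z (ee i) * conj (fderiv ℂ g z (ee j)) := by
  have e : (fun w => ‖g w‖ ^ 2) = FS_333.sq (fun w (_ : Fin 1) => g w) := by
    funext w
    simp [FS_333.sq]
  have hs : ContDiffAt ℝ ∞ (fun w => ‖g w‖ ^ 2) z := by
    rw [e]
    exact (contDiffOn_sq hU (F := fun w (_ : Fin 1) => g w) fun _ => hg).contDiffAt
      (hU.mem_nhds hz)
  rw [cH_eq_hess hs, e]
  ext i j
  rw [FS_333.hess_sq hU (F := fun w (_ : Fin 1) => g w) (fun _ => hg) hz]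
  simp

/-- `|jc g h|² ≤ det ∂∂̄u |∂g|²_u |∂h|²_u` -/
theorem jc_le {U : Set (Cn 2)} (hU : IsOpen U) {u : Cn 2 → ℝ} {g h : Cn 2 → ℂ}
    (hg : DifferentiableOn ℂ g U) (hh : DifferentiableOn ℂ h U) {z : Cn 2} (hz : z ∈ U)
    (hu : ContDiffAt ℝ ∞ u z) (hpos : ∀ v, v ≠ 0 → 0 < lev u z v) :
    ‖jc g h z‖ ^ 2 ≤ (cH u z).det.re * trH u (fun w => ‖g w‖ ^ 2) z *
      trH u (fun w => ‖h w‖ ^ 2) z := by
  have hP : (cH u z).PosDef := by
    rw [cH_eq_hess hu]
    exact posDef_hess hu hpos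
  have h1 := had hP (fun i => fderiv ℂ g z (ee i)) (fun i => fderiv ℂ h z (ee i))
  unfold trH
  rw [cH_normSq hU hg hz, cH_normSq hU hh hz]
  exact h1

/-- **`|Dt f g h|² ≤ e^u |∂g|²_ω |∂h|²_ω`** -/
theorem dt_le (hθ : Par (n := 2) f s θ O) {z : Cn 2} (hz : z ∈ O)
    (hf : DifferentiableAt ℂ f (θ z)) (h0 : fderiv ℂ f (θ z) ≠ 0) {g h : E3 → ℂ}
    (hg : ∀ᶠ w in 𝓝 z, DifferentiableAt ℂ g (θ w)) (hh : ∀ᶠ w in 𝓝 z, DifferentiableAt ℂ h (θ w))
    {u : E3 → ℝ} (hu : ContDiffAt ℝ ∞ (fun z => u (θ z)) z)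
    (hpos : ∀ v, v ≠ 0 → 0 < lev (fun z => u (θ z)) z v)
    (hdet : (cH (fun z => u (θ z)) z).det = ((Real.exp (u (θ z)) * eta2a (n := 2) f θ z : ℝ) : ℂ)) :
    ‖Dt f g h (θ z)‖ ^ 2 ≤ Real.exp (u (θ z)) *
      trH (fun z => u (θ z)) (fun z => ‖g (θ z)‖ ^ 2) z *
      trH (fun z => u (θ z)) (fun z => ‖h (θ z)‖ ^ 2) z := by
  obtain ⟨V, hV, hVo, hzV⟩ := eventually_nhds_iff.1 (hg.and hh)
  have hgU : DifferentiableOn ℂ (fun z => g (θ z)) (O ∩ V) := fun w hw =>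
    ((hV w hw.2).1.comp w (hθ.diffAt hw.1)).differentiableWithinAt
  have hhU : DifferentiableOn ℂ (fun z => h (θ z)) (O ∩ V) := fun w hw =>
    ((hV w hw.2).2.comp w (hθ.diffAt hw.1)).differentiableWithinAt
  have h1 := jc_le (hθ.isOpen.inter hVo) hgU hhU ⟨hz, hzV⟩ hu hpos
  rw [jac hθ hz hf h0 (hV z hzV).1 (hV z hzV).2, hdet, Complex.ofReal_re] at h1
  have h2 : 0 < eta2a (n := 2) f θ z := by
    have hP : (cH (fun z => u (θ z)) z).PosDef := by
      rw [cH_eq_hess hu]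
      exact posDef_hess hu hpos
    have h3 := hP.det_pos
    rw [hdet] at h3
    have h4 : 0 < Real.exp (u (θ z)) * eta2a (n := 2) f θ z := by exact_mod_cast h3
    exact (mul_pos_iff_of_pos_left (Real.exp_pos _)).1 h4
  refine le_of_mul_le_mul_right (h1.trans (le_of_eq ?_)) h2
  ring

end

end Crest.Agent.R257.Jac_39
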