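import Crest.Agent.R257.KED_952

/-!
R257 / V1Defs_822 (helper822): the leaves of `V1Stmt` (lower bound `mstar f ≤` residual mass).

* `SmL`      : smooth functions on a level
* `LvlOK`    : the level is smooth away from `0`
* `XUStmt`   : exact pair with the pointwise inequality (JU)   [part C]
* `UPStmt`   : upper bound of the Kaehler-Einstein weight       [938]
* `VolStmt`  : finite volume                                     [397]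
* `StkStmt`  : Stokes' theorem on a level                        [941]
* `CmpStmt`  : comparison of residual masses                     [101 + 822]
* `M3Stmt`   : mass of `log (|g|² + |h|²)`                       [5 + 889 + 822]
-/

set_option autoImplicit false

open Topology Filter MeasureTheory Set
open scoped ENNReal ContDiff Matrix

noncomputable section

namespace Crest.Agent.R257.V1Defs_822

open Crest.Agent.R275.Geo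
open Crest.Agent.R257.Defs_219
open Crest.Agent.R257.KED_952
open Crest.Agent.R273.Defs_333 (lev)
open Crest.Agent.R273.YauDefs_635 (cH)
open Crest.Agent.R257.PN_835 (nsq)
open Crest.Agent.R257.Aff_835 (eta2a nga)

/-- smooth functions on the level -/
def SmL (f : E3 → ℂ) (s : ℂ) (r : ℝ) (a : E3 → ℝ) : Prop :=
  ∀ θ O, PE f s r θ O → ContDiffOn ℝ ∞ (fun z => a (θ z)) O

/-- `f` is analytic in the ball and the level `{f = s}` is smooth away from `0` -/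
structure LvlOK (f : E3 → ℂ) (s : ℂ) (r : ℝ) : Prop where
  pos : 0 < r
  an : ∀ x, nsq x < r ^ 2 → AnalyticAt ℂ f x
  sm : ∀ x, x ≠ 0 → nsq x < r ^ 2 → f x = s → fderiv ℂ f x ≠ 0

/-- `log (|g|² + |h|²)` -/
def lgh (g h : E3 → ℂ) (x : E3) : ℝ := Real.log (‖g x‖ ^ 2 + ‖h x‖ ^ 2)

/-- exact pair with (JU) [part C: 808 / 157] -/
def XUStmt : Prop := ∀ f : E3 → ℂ, Iso f → 0 < mstar f →
  ∃ (k : ℕ) (g h : E3 → ℂ), 2 ≤ k ∧ AnalyticAt ℂ g 0 ∧ AnalyticAt ℂ h 0 ∧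
    ColFin ![f, g, h] ∧ (col ![f, g, h] : ℝ) = (k : ℝ) ^ 2 * mstar f ∧
    ∃ C r : ℝ, 0 < r ∧ ∀ x, ‖x‖ < r → f x = 0 →
      ‖Dt f g h x‖ ^ 2 ≤ C * (‖g x‖ ^ 2 + ‖h x‖ ^ 2) ^ (2 + 1 / (k : ℝ))

/-- upper bound of the Kaehler-Einstein weight [938] -/
def UPStmt : Prop := ∀ (f : E3 → ℂ) (r : ℝ) (u : E3 → ℝ) (ν : Measure E3) (χ : E3 → ℝ) (k : ℕ)
  (g h : E3 → ℂ), Iso f → LvlOK f 0 r → KEon f 0 r u → IsNu f 0 r ν → Cut r χ → VOL ν u χ < ⊤ →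
  2 ≤ k → AnalyticAt ℂ g 0 → AnalyticAt ℂ h 0 → g 0 = 0 → h 0 = 0 → ColFin ![f, g, h] →
  (∃ C r : ℝ, 0 < r ∧ ∀ x, ‖x‖ < r → f x = 0 →
      ‖Dt f g h x‖ ^ 2 ≤ C * (‖g x‖ ^ 2 + ‖h x‖ ^ 2) ^ (2 + 1 / (k : ℝ))) →
  ∃ C r' : ℝ, 0 < r' ∧ ∀ x, f x = 0 → x ≠ 0 → nsq x < r' ^ 2 → u x ≤ 1 / (k : ℝ) * lgh g h x + C

/-- finite volume [397] -/
def VolStmt : Prop := ∀ (Φ : E3 × PP → ℂ) (τ₀ : PP) (l : Filter PP) (r C : ℝ)
  (w : PP → E3 → ℝ) (u : E3 → ℝ), SmD Φ τ₀ l r C w u → ∀ f, f = (fun x => Φ (x, τ₀)) →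
  ∀ χ, Cut r χ → ∀ ν, IsNu f 0 r ν → VOL ν u χ < ⊤

/-- Stokes' theorem on a level [941] -/
def StkStmt : Prop := ∀ (f : E3 → ℂ) (s : ℂ) (r : ℝ), LvlOK f s r → ∀ ν, IsNu f s r ν →
  ∀ a b c : E3 → ℝ, SmL f s r a → SmL f s r b → SmL f s r c →
  (∃ r₁ r₂ : ℝ, 0 < r₁ ∧ r₂ < r ∧ ∀ x, nsq x ≤ r₁ ^ 2 ∨ r₂ ^ 2 ≤ nsq x → c x = 0) →
  Integrable (fun x => a x * mxd f b c x) ν ∧ Integrable (fun x => c x * mxd f a b x) ν ∧
  ∫ x, a x * mxd f b c x ∂ν = ∫ x, c x * mxd f a b x ∂ν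

/-- continuous functions with compact support are integrable [941] -/
def IntStmt : Prop := ∀ (f : E3 → ℂ) (s : ℂ) (r : ℝ), LvlOK f s r → ∀ ν, IsNu f s r ν →
  ∀ φ : E3 → ℝ, CtL f s r φ →
  (∃ r₁ r₂ : ℝ, 0 < r₁ ∧ r₂ < r ∧ ∀ x, nsq x ≤ r₁ ^ 2 ∨ r₂ ^ 2 ≤ nsq x → φ x = 0) →
  Integrable φ ν

/-- comparison of residual masses [101 + 822] -/
def CmpStmt : Prop := ∀ (f : E3 → ℂ) (s : ℂ) (r : ℝ) (ν : Measure E3) (χ u w : E3 → ℝ) (C : ℝ),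
  LvlOK f s r → IsNu f s r ν → Cut r χ → KEon f s r u → SmL f s r w →
  (∀ θ O, PE f s r θ O → ∀ z ∈ O, ∀ v, 0 ≤ lev (fun z => w (θ z)) z v) →
  (∀ θ O, PE f s r θ O → ∀ z ∈ O, (cH (fun z => w (θ z)) z).det = 0) →
  (∀ c : ℝ, ∃ ρ : ℝ, 0 < ρ ∧ ∀ x, f x = s → x ≠ 0 → nsq x < ρ ^ 2 → w x < c) →
  (∀ x, f x = s → x ≠ 0 → nsq x < r ^ 2 → u x ≤ w x + C) → VOL ν u χ < ⊤ →
  TOT ν f w χ + 2 * (VOL ν u χ).toReal ≤ TOT ν f u χ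

/-- mass of `log (|g|² + |h|²)` [5 + 889 + 822] -/
def M3Stmt : Prop := ∀ f g h : E3 → ℂ, Iso f → AnalyticAt ℂ g 0 → AnalyticAt ℂ h 0 →
  g 0 = 0 → h 0 = 0 → ColFin ![f, g, h] →
  ∃ r₁ : ℝ, 0 < r₁ ∧ ∀ r, r ≤ r₁ → LvlOK f 0 r → ∀ ν, IsNu f 0 r ν → ∀ χ, Cut r χ →
    TOT ν f (lgh g h) χ = Real.pi ^ 2 * col ![f, g, h]

end Crest.Agent.R257.V1Defs_822
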