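import Crest.Agent.R257.KED_952
import Crest.Agent.R257.V1Defs_822

/-!
R257 / KEG_952: the interface of part (GB) (losses of the second Chern form).

* `Esc f r u A`        : `u → -∞` at the puncture, `|du|²_ω ≤ A (A - u)²`
* `UpB`, `LoB`         : `|dh|²_ω ≤ A (A-u)^N e^φ`, `e^φ ≤ A (A-u)^N |dh|²_ω`
* `mss ν f a b χ`      : mixed residual mass (`mas = mss u u`)
* `LossStmt`           : loss of `c₂` `≤` (`=`) `L(h) - mss u φ - mss φ φ`   [309, 625, 759]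
* `PairStmt`           : the pair at a germ with `0 < mstar f`               [757, 39, 79, part C]
* `EscStmt`, `Up0Stmt` : completeness and gradient; upper bound of `|dg|²` at level `κ < k`
* `GenStmt`            : generic third function                              [488, 827, 812]
* `PosStmt`            : `0 < mstar (F_0) ⟹ 0 < mstar (F_t)`                 [759 LCX, 540, 980]
* `GB1Stmt`            : `GBtStmt` with `0 < mstar f` instead of `¬ Klt f`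
-/

set_option autoImplicit false

open Topology Filter MeasureTheory Set
open scoped ENNReal ContDiff Matrix

noncomputable section

namespace Crest.Agent.R257.KEG_952

open Crest.Agent.R275.Geo
open Crest.Agent.R257.Defs_219
open Crest.Agent.R257.KED_952
open Crest.Agent.R257.V1Defs_822 (SmL LvlOK lgh)
open Crest.Agent.R273.Defs_333 (lev)
open Crest.Agent.R273.YauDefs_635 (cH)
open Crest.Agent.R257.PN_835 (nsq)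
open Crest.Agent.R257.Aff_835 (eta2a nga)

/-- behaviour of the weight at the puncture -/
structure Esc (f : E3 → ℂ) (r : ℝ) (u : E3 → ℝ) (A : ℝ) : Prop where
  pos : 0 < A
  one : ∀ x, f x = 0 → x ≠ 0 → nsq x < r ^ 2 → 1 ≤ A - u x
  inf : ∀ c : ℝ, ∃ δ : ℝ, 0 < δ ∧ ∀ x, f x = 0 → x ≠ 0 → nsq x < δ ^ 2 → u x < c
  grad : ∀ θ O, PE f 0 r θ O → ∀ z ∈ O, ∀ v : Cn 2,
    (fderiv ℝ (fun z => u (θ z)) z v) ^ 2 ≤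
      A * (A - u (θ z)) ^ 2 * lev (fun z => u (θ z)) z v

/-- `|dh|²_ω ≤ A (A - u)^N e^φ` -/
def UpB (f : E3 → ℂ) (r : ℝ) (u : E3 → ℝ) (A : ℝ) (N : ℕ) (φ : E3 → ℝ) (h : E3 → ℂ) : Prop :=
  ∀ θ O, PE f 0 r θ O → ∀ z ∈ O, ∀ v : Cn 2,
    ‖fderiv ℂ (fun z => h (θ z)) z v‖ ^ 2 ≤
      A * (A - u (θ z)) ^ N * Real.exp (φ (θ z)) * lev (fun z => u (θ z)) z v

/-- `e^φ ≤ A (A - u)^N |dh|²_ω` -/
def LoB (f : E3 → ℂ) (r : ℝ) (u : E3 → ℝ) (A : ℝ) (N : ℕ) (φ : E3 → ℝ) (h : E3 → ℂ) : Prop :=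
  ∀ θ O, PE f 0 r θ O → ∀ z ∈ O, ∃ v : Cn 2, v ≠ 0 ∧
    Real.exp (φ (θ z)) * lev (fun z => u (θ z)) z v ≤
      A * (A - u (θ z)) ^ N * ‖fderiv ℂ (fun z => h (θ z)) z v‖ ^ 2

/-- `dh ≠ 0` on the punctured level -/
def NoZ (f : E3 → ℂ) (r : ℝ) (h : E3 → ℂ) : Prop :=
  ∀ θ O, PE f 0 r θ O → ∀ z ∈ O, fderiv ℂ (fun z => h (θ z)) z ≠ 0

/-- mixed residual mass -/
def mss (ν : Measure E3) (f : E3 → ℂ) (a b χ : E3 → ℝ) : ℝ :=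
  ((∫ x, a x * mxd f b χ x ∂ν) - ∫ x, χ x * mxd f a b x ∂ν) / Real.pi ^ 2

/-- the loss of the second Chern form -/
def LossStmt : Prop := ∀ (Φ : E3 × PP → ℂ) (τ₀ : PP) (l : Filter PP) (r C : ℝ)
  (w : PP → E3 → ℝ) (u : E3 → ℝ), SmD Φ τ₀ l r C w u → ∀ f, f = (fun x => Φ (x, τ₀)) →
  ∀ A : ℝ, Esc f r u A → ∀ φ : E3 → ℝ, SmL f 0 r φ →
  (∀ θ O, PE f 0 r θ O → ∀ z ∈ O, ∀ v : Cn 2, 0 ≤ lev (fun z => φ (θ z)) z v) →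
  (∀ x, f x = 0 → x ≠ 0 → nsq x < r ^ 2 → - A * (A - u x) ≤ φ x ∧ φ x ≤ A) →
  ∀ χ, Cut r χ →
  ∀ (ν : PP → Measure E3) (ν₀ : Measure E3), (∀ᶠ τ in l, IsNu (fun x => Φ (x, τ)) 0 r (ν τ)) →
  IsNu f 0 r ν₀ → Integrable (fun x => χ x * mxd f φ φ x) ν₀ →
  ∀ (N : ℕ) (h : E3 → ℂ), (∀ x, nsq x ≤ r ^ 2 → AnalyticAt ℂ h x) → h 0 = 0 →
  ColFin (mnr f h) → NoZ f r h → UpB f r u A N φ h →
  (∀ ε : ℝ, 0 < ε → ∀ᶠ τ in l, (C2I (ν τ) (fun x => Φ (x, τ)) (w τ) χ).toReal ≤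
    (C2I ν₀ f u χ).toReal +
      Real.pi ^ 2 * (col (mnr f h) - mss ν₀ f u φ χ - mss ν₀ f φ φ χ) + ε) ∧
  (LoB f r u A N φ h → ∀ ε : ℝ, 0 < ε → ∀ᶠ τ in l, (C2I ν₀ f u χ).toReal +
      Real.pi ^ 2 * (col (mnr f h) - mss ν₀ f u φ χ - mss ν₀ f φ φ χ) ≤
    (C2I (ν τ) (fun x => Φ (x, τ)) (w τ) χ).toReal + ε)

/-- completeness and gradient estimate -/
def EscStmt : Prop := ∀ (Φ : E3 × PP → ℂ) (τ₀ : PP) (l : Filter PP) (r C : ℝ)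
  (w : PP → E3 → ℝ) (u : E3 → ℝ), SmD Φ τ₀ l r C w u → ∀ f, f = (fun x => Φ (x, τ₀)) →
  0 < mstar f → ∃ r' A : ℝ, 0 < r' ∧ r' < r ∧ Esc f r' u A

/-- the pair, two-sided gradient bounds -/
def PairStmt : Prop := ∀ (Φ : E3 × PP → ℂ) (τ₀ : PP) (l : Filter PP) (r C : ℝ)
  (w : PP → E3 → ℝ) (u : E3 → ℝ), SmD Φ τ₀ l r C w u → ∀ f, f = (fun x => Φ (x, τ₀)) →
  0 < mstar f → ∃ (r' A : ℝ) (N : ℕ) (g h : E3 → ℂ), 0 < r' ∧ r' < r ∧ 0 < A ∧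
    AnalyticAt ℂ g 0 ∧ AnalyticAt ℂ h 0 ∧ g 0 = 0 ∧ h 0 = 0 ∧ ColFin ![f, g, h] ∧
    (∀ x, f x = 0 → x ≠ 0 → nsq x < r' ^ 2 → 1 ≤ A - u x ∧ - A * (A - u x) ≤ lgh g h x) ∧
    UpB f r' u A N (lgh g h) g ∧ LoB f r' u A N (lgh g h) g ∧
    UpB f r' u A N (lgh g h) h ∧ LoB f r' u A N (lgh g h) h

/-- gradient bound for the functions of level `< k` at every exponent `κ < k` -/
def Up0Stmt : Prop := ∀ (Φ : E3 × PP → ℂ) (τ₀ : PP) (l : Filter PP) (r C : ℝ)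
  (w : PP → E3 → ℝ) (u : E3 → ℝ), SmD Φ τ₀ l r C w u → ∀ f, f = (fun x => Φ (x, τ₀)) →
  0 < mstar f → ∀ (k : ℕ) (g h : E3 → ℂ), 2 ≤ k → AnalyticAt ℂ g 0 → AnalyticAt ℂ h 0 →
  (∀ p : ℝ, 1 ≤ p → p < k → InJ p f g ∧ InJ p f h) → ColFin ![f, g, h] →
  (col ![f, g, h] : ℝ) = (k : ℝ) ^ 2 * mstar f → ∀ κ : ℝ, 0 < κ → κ < k →
  ∃ (r' A : ℝ) (N : ℕ), 0 < r' ∧ r' < r ∧ 0 < A ∧
    (∀ x, f x = 0 → x ≠ 0 → nsq x < r' ^ 2 → 1 ≤ A - u x) ∧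
    UpB f r' u A N (fun x => κ * u x) g

/-- generic third function -/
def GenStmt : Prop := ∀ f g g' : E3 → ℂ, Iso f → AnalyticAt ℂ g 0 → AnalyticAt ℂ g' 0 →
  g 0 = 0 → g' 0 = 0 → ColFin ![f, g, g'] → ColFin (mnr f g) → ColFin (mnr f g') →
  ∃ h : E3 → ℂ, AnalyticAt ℂ h 0 ∧ h 0 = 0 ∧ ColFin ![f, g, h] ∧ ColFin ![f, g', h] ∧
    ColFin ![f, g, Dt f g h] ∧ ColFin ![f, g', Dt f g' h]

/-- germs of positive `mstar` stay so in `μ`-constant families -/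
def PosStmt : Prop := ∀ (G : E3 × ℂ → ℂ) (μ d : ℕ) (R r c₀ e : ℝ)
  (P : ℂ → MvPolynomial (Fin 3) ℂ) (c : Fin 3 → ℂ), GFam G μ d R r c₀ e P c →
  0 < mstar (sl G 0) → ∀ᶠ t in 𝓝[≠] (0 : ℂ), 0 < mstar (sl G t)

/-- `GBtStmt` with `0 < mstar f` -/
def GB1Stmt : Prop := ∀ (Φ : E3 × PP → ℂ) (τ₀ : PP) (l : Filter PP) (r C : ℝ)
  (w : PP → E3 → ℝ) (u : E3 → ℝ), SmD Φ τ₀ l r C w u → ∀ f, f = (fun x => Φ (x, τ₀)) →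
  0 < mstar f → ∀ χ, Cut r χ →
  ∀ (ν : PP → Measure E3) (ν₀ : Measure E3), (∀ᶠ τ in l, IsNu (fun x => Φ (x, τ)) 0 r (ν τ)) →
  IsNu f 0 r ν₀ → ∀ ε : ℝ, 0 < ε → ∀ᶠ τ in l,
  C2I ν₀ f u χ + ENNReal.ofReal (Real.pi ^ 2 * (col (par f) + 1)) ≤
    C2I (ν τ) (fun x => Φ (x, τ)) (w τ) χ + ENNReal.ofReal ε

/-- `V3Stmt` with `0 < mstar f` -/
def V31Stmt : Prop := ∀ (Φ : E3 × PP → ℂ) (τ₀ : PP) (l : Filter PP) (r C : ℝ)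
  (w : PP → E3 → ℝ) (u : E3 → ℝ), SmD Φ τ₀ l r C w u → ∀ f, f = (fun x => Φ (x, τ₀)) →
  0 < mstar f → ∀ χ, Cut r χ → ∀ ν, IsNu f 0 r ν → mas ν f u χ ≤ mstar f

end Crest.Agent.R257.KEG_952
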