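import Crest.Agent.R257.V3C_218
import Crest.Agent.R257.Jac_39
import Crest.Agent.R257.KEG_952

/-!
# R257 (S0395), GB0 (helper938), task AVG, part 1: pointwise formulas for `mxd f u (κ ∘ a)`

* `mxd_ev`   : locality on the level
* `mxd_comp` : `a = u`, with the gradient bound of `Esc`
* `mxd_nrm`  : `a = |g|²`, `g` holomorphic
-/

set_option autoImplicit false
set_option linter.unusedSectionVars false

open Set Filter Topology Complex MeasureTheory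
open scoped ContDiff Matrix ComplexConjugate ComplexOrder ENNReal

noncomputable section

namespace Crest.Agent.R257.Avg_938

open Crest.Agent.R275.Geo Crest.Agent.R275.EDR890
open Crest.Agent.R273.Defs_333 Crest.Agent.R273.Hess_333 Crest.Agent.R273.HessB_333
open Crest.Agent.R273.YauDefs_635 (cH)
open Crest.Agent.R273.YauMax_635 (cH_eq_hess)
open Crest.Agent.R257.Defs_219 Crest.Agent.R257.KED_952 Crest.Agent.R257.V1Defs_822
open Crest.Agent.R257.V1Pe_822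
open Crest.Agent.R257.PN_835 (nsq)
open Crest.Agent.R257.Aff_835 (eta2a)
open Crest.Agent.R257.C2F1_625 (pd)
open Crest.Agent.R257.KEG_952 (Esc)
open Crest.Agent.R257.MassLe218 (qa2_nonneg)

variable {f : E3 → ℂ} {s : ℂ} {r : ℝ}

/-! ### locality -/

theorem mxd_ev {a b b' : E3 → ℝ} {x : E3} (h : ∀ᶠ y in 𝓝 x, f y = f x → b y = b' y) :
    mxd f a b x = mxd f a b' x := by
  classical
  unfold mxd dns
  split_ifs with hx
  · obtain ⟨h1, h2, h3⟩ := hx.choose_spec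
    have hc : ContinuousAt hx.choose.1 hx.choose.2.2 :=
      h1.hol.continuousOn.continuousAt (h1.isOpen.mem_nhds h2)
    have h5 : Tendsto hx.choose.1 (𝓝 hx.choose.2.2) (𝓝 x) := by
      have := hc.tendsto
      rwa [h3] at this
    have h4 : (fun z => b (hx.choose.1 z)) =ᶠ[𝓝 hx.choose.2.2] fun z => b' (hx.choose.1 z) := by
      filter_upwards [h1.isOpen.mem_nhds h2, h5.eventually h] with z hz h6
      exact h6 (h1.lvl z hz)
    change (C2F1_625.pd _ (cH (fun z => b (hx.choose.1 z)) hx.choose.2.2)).re / _ =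
      (C2F1_625.pd _ (cH (fun z => b' (hx.choose.1 z)) hx.choose.2.2)).re / _
    rw [KEl_835.cH_congr h4]
  · rfl

/-! ### linear algebra -/

/-- first derivatives -/
def gw (v : Cn 2 → ℝ) (z : Cn 2) : Fin 2 → ℂ := fun a => wd (false, a) (cu v) z

/-- the quadratic form `adj X (p, p)` -/
def qd (X : Matrix (Fin 2) (Fin 2) ℂ) (p : Fin 2 → ℂ) : ℝ :=
  (pd X (Matrix.vecMulVec p (star p))).re

theorem qd_eq (X : Matrix (Fin 2) (Fin 2) ℂ) (p : Fin 2 → ℂ) :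
    qd X p = (∑ a, ∑ b, X.adjugate b a * p a * conj (p b)).re := by
  unfold qd pd
  rw [Matrix.adjugate_fin_two]
  congr 1
  simp only [Matrix.vecMulVec_apply, Fin.sum_univ_two, Matrix.of_apply,
    Matrix.cons_val', Matrix.cons_val_zero, Matrix.cons_val_one, Matrix.cons_val_fin_one,
    Pi.star_apply, RCLike.star_def]
  ring

theorem qd_nonneg {X : Matrix (Fin 2) (Fin 2) ℂ} (hX : X.PosSemidef) (p : Fin 2 → ℂ) :
    0 ≤ qd X p := by
  have h := (Complex.le_def.1 (qa2_nonneg hX p)).1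
  rw [Complex.zero_re] at h
  rw [qd_eq]
  refine h.trans (le_of_eq ?_)
  rfl

theorem cH_comp {v : Cn 2 → ℝ} {z : Cn 2} (hv : ContDiffAt ℝ ∞ v z) {κ κ' : ℝ → ℝ} {d2 : ℝ}
    (h1 : ∀ᶠ t in 𝓝 (v z), HasDerivAt κ (κ' t) t) (h2 : HasDerivAt κ' d2 (v z))
    (hc : ContDiffAt ℝ ∞ κ (v z)) :
    cH (fun w => κ (v w)) z = ((κ' (v z) : ℝ) : ℂ) • cH v z +
      ((d2 : ℝ) : ℂ) • Matrix.vecMulVec (gw v z) (star (gw v z)) := by
  have h3 : ContDiffAt ℝ ∞ (fun w => κ (v w)) z := hc.comp z hv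
  rw [cH_eq_hess h3, cH_eq_hess hv]
  ext a b
  rw [Crest.Agent.R273.FIa0_597.hess_comp_real hv h1 h2, Matrix.add_apply, Matrix.smul_apply,
    Matrix.smul_apply, Matrix.vecMulVec_apply]
  have e : star (gw v z) b = wd (true, b) (cu v) z := by
    show conj (wd (false, b) (cu v) z) = _
    rw [conj_wd_real _ (hv.differentiableAt (by simp))]
    rfl
  rw [e]
  simp only [smul_eq_mul]
  rfl

/-- `mxd` of a composition, at one point -/
theorem pd_comp {X : Matrix (Fin 2) (Fin 2) ℂ} {v : Cn 2 → ℝ} {z : Cn 2}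
    (hv : ContDiffAt ℝ ∞ v z) {κ κ' : ℝ → ℝ} {d2 : ℝ}
    (h1 : ∀ᶠ t in 𝓝 (v z), HasDerivAt κ (κ' t) t) (h2 : HasDerivAt κ' d2 (v z))
    (hc : ContDiffAt ℝ ∞ κ (v z)) :
    (pd X (cH (fun w => κ (v w)) z)).re = κ' (v z) * (pd X (cH v z)).re + d2 * qd X (gw v z) := by
  rw [cH_comp hv h1 h2 hc, C2F1_625.pd_add, C2F1_625.pd_smul, C2F1_625.pd_smul, Complex.add_re,
    Complex.re_ofReal_mul, Complex.re_ofReal_mul]
  rfl

/-! ### compositions with the weight -/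

theorem posDef_cH {u : E3 → ℝ} (hu : KEon f s r u) {θ : Cn 2 → E3} {O : Set (Cn 2)}
    (hP : PE f s r θ O) {z : Cn 2} (hz : z ∈ O) : (cH (fun z => u (θ z)) z).PosDef := by
  have h1 : ContDiffAt ℝ ∞ (fun z => u (θ z)) z := smAt (a := u) hu.sm hP hz
  rw [cH_eq_hess h1]
  exact posDef_hess h1 (hu.pos _ _ hP _ hz)

theorem eta_pos {u : E3 → ℝ} (hu : KEon f s r u) {θ : Cn 2 → E3} {O : Set (Cn 2)}
    (hP : PE f s r θ O) {z : Cn 2} (hz : z ∈ O) : 0 < eta2a (n := 2) f θ z := by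
  have h1 := (Complex.pos_iff.1 (posDef_cH hu hP hz).det_pos).1
  rw [hu.ma θ O hP z hz, Complex.ofReal_re] at h1
  exact pos_of_mul_pos_right h1 (Real.exp_pos _).le

theorem det_cH {u : E3 → ℝ} (hu : KEon f s r u) {θ : Cn 2 → E3} {O : Set (Cn 2)}
    (hP : PE f s r θ O) {z : Cn 2} (hz : z ∈ O) :
    (cH (fun z => u (θ z)) z).det.re = Real.exp (u (θ z)) * eta2a (n := 2) f θ z := by
  rw [hu.ma θ O hP z hz, Complex.ofReal_re]

/-- the gradient bound of `Esc` -/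
theorem qd_esc {u : E3 → ℝ} (hu : KEon f 0 r u) {A : ℝ} (hE : Esc f r u A)
    {θ : Cn 2 → E3} {O : Set (Cn 2)} (hP : PE f 0 r θ O) {z : Cn 2} (hz : z ∈ O) :
    qd (cH (fun z => u (θ z)) z) (gw (fun z => u (θ z)) z) ≤
      A * (A - u (θ z)) ^ 2 * (Real.exp (u (θ z)) * eta2a (n := 2) f θ z) := by
  set U : Cn 2 → ℝ := fun z => u (θ z) with hU
  have h1 : ContDiffAt ℝ ∞ U z := smAt (a := u) hu.sm hP hz
  have hd : DifferentiableAt ℝ U z := h1.differentiableAt (by simp)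
  rw [qd_eq, ← det_cH hu hP hz]
  refine V3_218.grad_alg (posDef_cH hu hP hz) _ (by have := hE.pos; positivity) fun v => ?_
  have h2 := hE.grad _ _ hP z hz (WithLp.toLp 2 v)
  have h3 : (∑ a, gw U z a * v a).re = (1 / 2) * fderiv ℝ U z (WithLp.toLp 2 v) := by
    have h4 := Crest.Agent.R273.Levi_145.gr_eq hd (WithLp.toLp 2 v)
    have h5 : Crest.Agent.R273.Levi_145.gr U z (WithLp.toLp 2 v) = ∑ a, gw U z a * v a := by
      show ∑ a, Crest.Agent.R275.OmT75.dj a (Crest.Agent.R273.Levi_145.cx U) z * v a = _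
      refine Finset.sum_congr rfl fun a _ => ?_
      rw [Crest.Agent.R273.Green_5.dj_eq_wd]
      rfl
    rw [← h5, h4]
    simp
  have h6 : (∑ a, ∑ b, cH U z a b * v a * conj (v b)).re = lev U z (WithLp.toLp 2 v) / 4 := by
    rw [cH_eq_hess h1]
    exact hq_re h1 (WithLp.toLp 2 v)
  rw [h3, h6]
  calc (1 / 2 * fderiv ℝ U z (WithLp.toLp 2 v)) ^ 2
      = (1 / 4) * (fderiv ℝ U z (WithLp.toLp 2 v)) ^ 2 := by ring
    _ ≤ (1 / 4) * (A * (A - U z) ^ 2 * lev U z (WithLp.toLp 2 v)) :=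
        mul_le_mul_of_nonneg_left h2 (by norm_num)
    _ = _ := by ring

/-- **compositions with the weight** -/
theorem mxd_comp (hL : LvlOK f 0 r) {u : E3 → ℝ} (hu : KEon f 0 r u) {A : ℝ} (hE : Esc f r u A)
    {x : E3} (hx : x ≠ 0) (hr : nsq x < r ^ 2) (hfx : f x = 0) :
    ∃ γ : ℝ, 0 ≤ γ ∧ γ ≤ A * (A - u x) ^ 2 * Real.exp (u x) ∧ ∀ (κ κ' : ℝ → ℝ) (d2 : ℝ),
      (∀ᶠ t in 𝓝 (u x), HasDerivAt κ (κ' t) t) → HasDerivAt κ' d2 (u x) →
      ContDiffAt ℝ ∞ κ (u x) →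
      mxd f u (fun y => κ (u y)) x = κ' (u x) * (2 * Real.exp (u x)) + d2 * γ := by
  obtain ⟨θ, O, z, h1, h2, h3, h4⟩ := mxd_cases hx hr hfx hL
  have he := eta_pos hu h1 h2
  refine ⟨qd (cH (fun z => u (θ z)) z) (gw (fun z => u (θ z)) z) / eta2a (n := 2) f θ z,
    div_nonneg (qd_nonneg (posDef_cH hu h1 h2).posSemidef _) he.le, ?_, ?_⟩
  · rw [div_le_iff₀ he]
    have := qd_esc hu hE h1 h2
    rw [h3] at this
    linarith
  · intro κ κ' d2 k1 k2 k3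
    have h5 := mxd_ke hL hu hx hr hfx
    rw [h4] at h5 ⊢
    have hv : ContDiffAt ℝ ∞ (fun z => u (θ z)) z := smAt (a := u) hu.sm h1 h2
    have h6 := pd_comp (X := cH (fun z => u (θ z)) z) hv (κ := κ) (κ' := κ') (d2 := d2)
      (by rw [h3]; exact k1) (by rw [h3]; exact k2) (by rw [h3]; exact k3)
    rw [h6, ← h5, h3]
    field_simp

/-! ### compositions with `|g|²` -/

theorem gw_nrm {U : Set (Cn 2)} (hU : IsOpen U) {g : Cn 2 → ℂ} (hg : DifferentiableOn ℂ g U)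
    {z : Cn 2} (hz : z ∈ U) : gw (fun w => ‖g w‖ ^ 2) z =
      fun a => conj (g z) * fderiv ℂ g z (EuclideanSpace.single a 1) := by
  have e : (fun w => ‖g w‖ ^ 2) = Crest.Agent.R273.FS_333.sq (fun w (_ : Fin 1) => g w) := by
    funext w
    simp [Crest.Agent.R273.FS_333.sq]
  funext a
  unfold gw
  rw [e, Crest.Agent.R273.FS_333.wd_sq' hU (F := fun w (_ : Fin 1) => g w) (fun _ => hg) hz]
  simp
  ring

/-- `∂g ⊗ ∂̄ḡ` -/
def dgm (g : Cn 2 → ℂ) (z : Cn 2) : Fin 2 → ℂ := fun a => fderiv ℂ g z (EuclideanSpace.single a 1)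

theorem cH_nrm {U : Set (Cn 2)} (hU : IsOpen U) {g : Cn 2 → ℂ} (hg : DifferentiableOn ℂ g U)
    {z : Cn 2} (hz : z ∈ U) : cH (fun w => ‖g w‖ ^ 2) z =
      Matrix.vecMulVec (dgm g z) (star (dgm g z)) := by
  rw [Jac_39.cH_normSq hU hg hz]
  ext i j
  rw [Matrix.vecMulVec_apply]
  rfl

theorem qd_nrm {U : Set (Cn 2)} (hU : IsOpen U) {g : Cn 2 → ℂ} (hg : DifferentiableOn ℂ g U)
    {z : Cn 2} (hz : z ∈ U) (X : Matrix (Fin 2) (Fin 2) ℂ) :
    qd X (gw (fun w => ‖g w‖ ^ 2) z) = ‖g z‖ ^ 2 * qd X (dgm g z) := by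
  rw [gw_nrm hU hg hz, qd_eq, qd_eq, ← Complex.re_ofReal_mul, Finset.mul_sum]
  congr 1
  refine Finset.sum_congr rfl fun a _ => ?_
  rw [Finset.mul_sum]
  refine Finset.sum_congr rfl fun b _ => ?_
  rw [map_mul, Complex.conj_conj, ← Complex.normSq_eq_norm_sq, ← Complex.mul_conj]
  show _ = g z * conj (g z) * (X.adjugate b a * fderiv ℂ g z (EuclideanSpace.single a 1) *
    conj (fderiv ℂ g z (EuclideanSpace.single b 1)))
  ring

/-- **compositions with `|g|²`** -/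
theorem mxd_nrm (hL : LvlOK f 0 r) {u : E3 → ℝ} (hu : KEon f 0 r u) {g : E3 → ℂ}
    (hg : ∀ x, nsq x < r ^ 2 → AnalyticAt ℂ g x)
    {x : E3} (hx : x ≠ 0) (hr : nsq x < r ^ 2) (hfx : f x = 0) :
    0 ≤ mxd f u (fun y => ‖g y‖ ^ 2) x ∧ ∀ (κ κ' : ℝ → ℝ) (d2 : ℝ),
      (∀ᶠ t in 𝓝 (‖g x‖ ^ 2), HasDerivAt κ (κ' t) t) → HasDerivAt κ' d2 (‖g x‖ ^ 2) →
      ContDiffAt ℝ ∞ κ (‖g x‖ ^ 2) →
      mxd f u (fun y => κ (‖g y‖ ^ 2)) x =
        (κ' (‖g x‖ ^ 2) + d2 * ‖g x‖ ^ 2) * mxd f u (fun y => ‖g y‖ ^ 2) x := by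
  obtain ⟨θ, O, z, h1, h2, h3, h4⟩ := mxd_cases hx hr hfx hL
  have he := eta_pos hu h1 h2
  have hO := h1.par.isOpen
  have hgd : DifferentiableOn ℂ (fun z => g (θ z)) O := fun w hw =>
    ((hg _ (h1.lt w hw)).differentiableAt.comp w
      (h1.par.hol.differentiableAt (hO.mem_nhds hw))).differentiableWithinAt
  have hv : ContDiffAt ℝ ∞ (fun z => ‖g (θ z)‖ ^ 2) z :=
    (Crest.Agent.R273.FS_333.contDiffAt_of_hol hO hgd h2).norm_sq ℝ
  have e1 : (pd (cH (fun z => u (θ z)) z) (cH (fun z => ‖g (θ z)‖ ^ 2) z)).re =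
      qd (cH (fun z => u (θ z)) z) (dgm (fun z => g (θ z)) z) := by
    rw [cH_nrm hO hgd h2]
    rfl
  refine ⟨?_, ?_⟩
  · rw [h4, e1]
    exact div_nonneg (qd_nonneg (posDef_cH hu h1 h2).posSemidef _) he.le
  · intro κ κ' d2 k1 k2 k3
    rw [h4, h4]
    have h6 := pd_comp (X := cH (fun z => u (θ z)) z) hv (κ := κ) (κ' := κ') (d2 := d2)
      (by rw [h3]; exact k1) (by rw [h3]; exact k2) (by rw [h3]; exact k3)
    rw [h6, qd_nrm hO hgd h2, e1, h3]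
    ring

end Crest.Agent.R257.Avg_938
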