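import Crest.Agent.R257.Avg1_938

/-!
# R257 (S0395), GB0 (helper938), task AVG, part 2: Green's formula on a level

* `green_lvl` : `∫ a ∂∂̄u ∧ ∂∂̄b = ∫ b ∂∂̄u ∧ ∂∂̄a`
-/

set_option autoImplicit false
set_option linter.unusedSectionVars false

open Set Filter Topology Complex MeasureTheory
open scoped ContDiff Matrix ComplexConjugate ComplexOrder ENNReal

noncomputable section

namespace Crest.Agent.R257.Avg_938

open Crest.Agent.R275 Crest.Agent.R275.Geo Crest.Agent.R275.Core144 Crest.Agent.R275.EDR890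
open Crest.Agent.R275.Pai323 Crest.Agent.R275.C1d194
open Crest.Agent.R273.Defs_333 Crest.Agent.R273.Hess_333 Crest.Agent.R273.HessB_333
open Crest.Agent.R273.HM_333 Crest.Agent.R273.Kah_333 Crest.Agent.R273.Vol_333
open Crest.Agent.R273.StokesV_332 (Den OffK intD intD_eq_sum intD_congr intD_add intD_sub intD_smul
  intD_neg intD_conj intD_nonneg NonnegD)
open Crest.Agent.R273.Green_5 Crest.Agent.R273.GreenM_5
open Crest.Agent.R273.GreenG_5
open Crest.Agent.R273.YauDefs_635 (cH)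
open Crest.Agent.R257.Defs_219 Crest.Agent.R257.KED_952 Crest.Agent.R257.V1Defs_822
open Crest.Agent.R257.V1Pe_822 Crest.Agent.R257.Bridge_822 Crest.Agent.R257.UpK_938
open Crest.Agent.R257.PN_835 (nsq)
open Crest.Agent.R257.Aff_835 (eta2a)
open Crest.Agent.R257.C2F1_625 (pd)
open Crest.Agent.R257.MassLe218

variable {f : E3 → ℂ} {s : ℂ} {r : ℝ}

/-- locality on the surface -/
theorem mxd_evc (hL : LvlOK f s r) {u b : E3 → ℝ} (hu : SmL f s r u) (hb : SmL f s r b)
    {x : (LX hL).M 0} {c : ℝ} (h : (fun y : (LX hL).M 0 => b y.1) =ᶠ[𝓝 x] fun _ => c) :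
    mxd f u b x.1 = 0 := by
  obtain ⟨i, hi⟩ := ((LX hL).A 0).cover x
  have h1 := dens_chart hL hu hb hi
  rw [hsf_evconst hi h] at h1
  have h2 : pd (hsf ((LX hL).A 0) (fun x => u x.1) i x) 0 = 0 := by simp [pd]
  rw [h2] at h1
  have h3 : ((LX hL).eta 0).w i x * mxd f u b x.1 = 0 := by exact_mod_cast h1.symm
  rcases mul_eq_zero.1 h3 with h4 | h4
  · exact absurd h4 (((LX hL).eta 0).pos i x hi).ne'
  · exact h4

/-- **Green's formula on a level** -/
theorem green_lvl (hL : LvlOK f s r) {ν : Measure E3} (hν : IsNu f s r ν) {u a b : E3 → ℝ}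
    (hu : SmL f s r u) (ha : SmL f s r a) (hb : SmL f s r b) {K : Set ((LX hL).M 0)}
    (hK : IsCompact K)
    (h1 : ∀ x ∉ K, ((fun y : (LX hL).M 0 => a y.1) =ᶠ[𝓝 x] fun _ => 0) ∨
      ∃ c : ℝ, (fun y : (LX hL).M 0 => b y.1) =ᶠ[𝓝 x] fun _ => c)
    (h2 : ∀ x ∉ K, ((fun y : (LX hL).M 0 => b y.1) =ᶠ[𝓝 x] fun _ => 0) ∨
      ∃ c : ℝ, (fun y : (LX hL).M 0 => a y.1) =ᶠ[𝓝 x] fun _ => c) :
    Integrable (fun x => a x * mxd f u b x) ν ∧ Integrable (fun x => b x * mxd f u a x) ν ∧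
    ∫ x, a x * mxd f u b x ∂ν = ∫ x, b x * mxd f u a x ∂ν := by
  have P := (LX hL).part 0
  have c1 : Continuous fun x : (LX hL).M 0 => a x.1 * mxd f u b x.1 :=
    (cont_val hL fun θ O hθ => (ha θ O hθ).continuousOn).mul (cont_mxd hL hu hb)
  have c2 : Continuous fun x : (LX hL).M 0 => b x.1 * mxd f u a x.1 :=
    (cont_val hL fun θ O hθ => (hb θ O hθ).continuousOn).mul (cont_mxd hL hu ha)
  obtain ⟨i1, e1⟩ := bridge hL hν (φ := a) hu hb P hK c1 fun x hx => by
    rcases h1 x hx with h | ⟨c, h⟩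
    · have : a x.1 = 0 := h.self_of_nhds
      rw [this, zero_mul]
    · rw [mxd_evc hL hu hb h, mul_zero]
  obtain ⟨i2, e2⟩ := bridge hL hν (φ := b) hu ha P hK c2 fun x hx => by
    rcases h2 x hx with h | ⟨c, h⟩
    · have : b x.1 = 0 := h.self_of_nhds
      rw [this, zero_mul]
    · rw [mxd_evc hL hu ha h, mul_zero]
  refine ⟨i1, i2, ?_⟩
  have su := sm_val hL hu
  have sa := sm_val hL ha
  have sb := sm_val hL hb
  have g1 := greenD P (hsf_cf su) sa sb hK h1
  have g2 := greenD P (hsf_cf su) sb sa hK h2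
  have o : OffK ((LX hL).A 0) (grd (hsf ((LX hL).A 0) fun x => u x.1) (fun y => ((a y.1 : ℝ) : ℂ))
      (fun y => ((b y.1 : ℝ) : ℂ))) K := by
    intro i x hxi hxK
    show grd (hsf ((LX hL).A 0) fun x => u x.1) (fun y => ((a y.1 : ℝ) : ℂ)) (fun y => ((b y.1 : ℝ) : ℂ)) i x = 0
    unfold grd
    refine Finset.sum_eq_zero fun p _ => Finset.sum_eq_zero fun q _ => ?_
    rcases h1 x hxK with h | ⟨c, h⟩
    · have h3 : (fun y : (LX hL).M 0 => ((a y.1 : ℝ) : ℂ)) =ᶠ[𝓝 x] fun _ => (0 : ℂ) := by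
        filter_upwards [h] with y hy
        rw [hy]
        simp
      rw [dl_evconst hxi h3]
      ring
    · have h3 : (fun y : (LX hL).M 0 => ((b y.1 : ℝ) : ℂ)) =ᶠ[𝓝 x] fun _ => (c : ℂ) := by
        filter_upwards [h] with y hy
        rw [hy]
      rw [db_evconst hxi h3]
      ring
  have e3 : intD P (grd (hsf ((LX hL).A 0) fun x => u x.1) (fun y => ((b y.1 : ℝ) : ℂ))
      (fun y => ((a y.1 : ℝ) : ℂ))) =
      conj (intD P (grd (hsf ((LX hL).A 0) fun x => u x.1) (fun y => ((a y.1 : ℝ) : ℂ))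
      (fun y => ((b y.1 : ℝ) : ℂ)))) := by
    rw [← intD_conj P hK o]
    exact intD_congr P fun i x hx => (grd_conj _ _ (hsf_herm su hx)).symm
  have m : ∀ (v : (LX hL).M 0 → ℝ) i x, ((hsf ((LX hL).A 0) (fun x => u x.1) i x).adjugate *
      hsf ((LX hL).A 0) v i x).trace = pd (hsf ((LX hL).A 0) (fun x => u x.1) i x) (hsf ((LX hL).A 0) v i x) := fun v i x =>
    mx_eq_pd (A := (LX hL).A 0) (fun x => u x.1) v i x
  simp only [m] at g1 g2
  have k1 := e1.trans g1
  have k2 := e2.trans g2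
  rw [e3] at k2
  have l1 := congrArg Complex.re k1
  have l2 := congrArg Complex.re k2
  rw [Complex.ofReal_re, Complex.neg_re] at l1 l2
  rw [Complex.conj_re] at l2
  rw [l1, l2]

end Crest.Agent.R257.Avg_938
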