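import Crest.Agent.R257.Avg2_938

/-!
# R257 (S0395), GB0 (helper938), task AVG, part 3: real functions

* `dplus_le` : `D⁺ ≤ p (log s + (1 + T)/s)`
* `psi`      : the cut-off function; `Pj_le`, `Psi_le` : bounds of the compositions
-/

set_option autoImplicit false
set_option linter.unusedSectionVars false

open Set Filter Topology MeasureTheory
open scoped ContDiff

noncomputable section

namespace Crest.Agent.R257.Avg_938

/-! ### the power function -/

/-- `(t + δ)^α` and its derivatives -/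
theorem hasDerivAt_pw {α δ t : ℝ} (ht : 0 < t + δ) :
    HasDerivAt (fun t : ℝ => (t + δ) ^ α) (α * (t + δ) ^ (α - 1)) t := by
  have h1 : HasDerivAt (fun t : ℝ => t + δ) 1 t := (hasDerivAt_id t).add_const δ
  have h2 := h1.rpow_const (p := α) (Or.inl ht.ne')
  convert h2 using 1
  ring

theorem hasDerivAt_pw' {α δ t : ℝ} (ht : 0 < t + δ) :
    HasDerivAt (fun t : ℝ => α * (t + δ) ^ (α - 1)) (α * ((α - 1) * (t + δ) ^ (α - 2))) t := by
  have h1 := (hasDerivAt_pw (α := α - 1) ht).const_mul α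
  have e : α - 1 - 1 = α - 2 := by ring
  rwa [e] at h1

theorem contDiffAt_pw {α δ t : ℝ} (ht : 0 < t + δ) :
    ContDiffAt ℝ ∞ (fun t : ℝ => (t + δ) ^ α) t :=
  (contDiffAt_id.add contDiffAt_const).rpow_const_of_ne ht.ne'

/-- the coefficient of `|dg|²` -/
theorem coef_ge {α H δ : ℝ} (h1 : α ≤ 1) (h0 : 0 < α) (hH : 0 ≤ H) (hδ : 0 < δ) :
    α ^ 2 * (H + δ) ^ (α - 1) ≤ α * (H + δ) ^ (α - 1) + α * ((α - 1) * (H + δ) ^ (α - 2)) * H := by
  have hY : 0 < H + δ := by linarith
  have e : (H + δ) ^ (α - 1) = (H + δ) ^ (α - 2) * (H + δ) := by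
    rw [← Real.rpow_add_one hY.ne']
    congr 1
    ring
  rw [e]
  have h2 : 0 < (H + δ) ^ (α - 2) := Real.rpow_pos_of_pos hY _
  have h3 : 0 ≤ (1 - α) * δ := mul_nonneg (by linarith) hδ.le
  have h4 : 0 ≤ α * (H + δ) ^ (α - 2) * ((1 - α) * δ) := by positivity
  nlinarith [h4]

/-- **the bound of `D⁺`** -/
theorem dplus_le {D κ p u m H δ s : ℝ} (hp : 1 ≤ p) (hH : 0 ≤ H) (hδ : 0 < δ) (hs : 1 ≤ s)
    (hm : Real.exp (D + (κ + 1) * u) ≤ m) :
    max D 0 ≤ p * (Real.log s + (1 + (p ^ 2 * ((p⁻¹ * (H + δ) ^ (p⁻¹ - 1) +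
      p⁻¹ * ((p⁻¹ - 1) * (H + δ) ^ (p⁻¹ - 2)) * H) * m) * Real.exp (-u) + (H + δ) ^ p⁻¹) *
        Real.exp (-(κ / p) * u)) / s) := by
  have hp0 : 0 < p := by linarith
  set α := p⁻¹ with hα
  have hα0 : 0 < α := inv_pos.2 hp0
  have hα1 : α ≤ 1 := inv_le_one_of_one_le₀ hp
  have hpα : p * α = 1 := mul_inv_cancel₀ hp0.ne'
  set Y := H + δ with hY
  have hY0 : 0 < Y := by linarith
  set E := (α * Y ^ (α - 1) + α * ((α - 1) * Y ^ (α - 2)) * H) * m with hE
  have hm0 : 0 < m := (Real.exp_pos _).trans_le hm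
  have hc := coef_ge (H := H) hα1 hα0 hH hδ
  rw [← hY] at hc
  have hYa : 0 < Y ^ (α - 1) := Real.rpow_pos_of_pos hY0 _
  have hE1 : α ^ 2 * Y ^ (α - 1) * m ≤ E := mul_le_mul_of_nonneg_right hc hm0.le
  have hE0 : 0 < E := lt_of_lt_of_le (by positivity) hE1
  have hYa' : 0 < Y ^ α := Real.rpow_pos_of_pos hY0 _
  set T := (p ^ 2 * E * Real.exp (-u) + Y ^ α) * Real.exp (-(κ / p) * u) with hT
  have hT2 : Y ^ α * Real.exp (-(κ / p) * u) ≤ T := by
    refine mul_le_mul_of_nonneg_right ?_ (Real.exp_pos _).le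
    have : 0 < p ^ 2 * E * Real.exp (-u) := by positivity
    linarith
  have hT1 : Y ^ (α - 1) * Real.exp (D + κ * u - (κ / p) * u) ≤ T := by
    have h1 : Y ^ (α - 1) * Real.exp (D + κ * u) ≤ p ^ 2 * E * Real.exp (-u) := by
      have h2 : Real.exp (D + κ * u) ≤ m * Real.exp (-u) := by
        have h3 := mul_le_mul_of_nonneg_right hm (Real.exp_pos (-u)).le
        rw [← Real.exp_add] at h3
        have e : D + (κ + 1) * u + -u = D + κ * u := by ring
        rwa [e] at h3
      have h4 : Y ^ (α - 1) * m ≤ p ^ 2 * E := by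
        have h5 := mul_le_mul_of_nonneg_left hE1 (by positivity : 0 ≤ p ^ 2)
        have e : p ^ 2 * (α ^ 2 * Y ^ (α - 1) * m) = (p * α) ^ 2 * (Y ^ (α - 1) * m) := by ring
        rw [e, hpα, one_pow, one_mul] at h5
        exact h5
      calc Y ^ (α - 1) * Real.exp (D + κ * u) ≤ Y ^ (α - 1) * (m * Real.exp (-u)) :=
            mul_le_mul_of_nonneg_left h2 hYa.le
        _ = Y ^ (α - 1) * m * Real.exp (-u) := by ring
        _ ≤ _ := mul_le_mul_of_nonneg_right h4 (Real.exp_pos _).le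
    have e : Real.exp (D + κ * u - (κ / p) * u) =
        Real.exp (D + κ * u) * Real.exp (-(κ / p) * u) := by
      rw [← Real.exp_add]
      congr 1
      ring
    rw [e, ← mul_assoc, hT]
    refine mul_le_mul_of_nonneg_right ?_ (Real.exp_pos _).le
    linarith
  have hT0 : 0 < T := lt_of_lt_of_le (by positivity) hT2
  have l1 : (α - 1) * Real.log Y + (D + κ * u - (κ / p) * u) ≤ Real.log T := by
    have h := Real.log_le_log (by positivity) hT1
    rwa [Real.log_mul hYa.ne' (Real.exp_pos _).ne', Real.log_exp, Real.log_rpow hY0] at h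
  have l2 : α * Real.log Y + -(κ / p) * u ≤ Real.log T := by
    have h := Real.log_le_log (by positivity) hT2
    rwa [Real.log_mul hYa'.ne' (Real.exp_pos _).ne', Real.log_exp, Real.log_rpow hY0] at h
  have e1 : κ / p = α * κ := by rw [hα]; field_simp
  have l3 : α * D ≤ Real.log T := by
    have h1 := mul_le_mul_of_nonneg_left l1 hα0.le
    have h2 := mul_le_mul_of_nonneg_left l2 (by linarith : 0 ≤ 1 - α)
    have e2 : α * ((α - 1) * Real.log Y + (D + κ * u - (κ / p) * u)) +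
        (1 - α) * (α * Real.log Y + -(κ / p) * u) = α * D := by
      rw [e1]; ring
    have e3 : α * Real.log T + (1 - α) * Real.log T = Real.log T := by ring
    linarith
  have l4 : Real.log T ≤ Real.log s + (1 + T) / s := by
    have hs0 : 0 < s := by linarith
    have h1 : Real.log T ≤ Real.log (1 + T) := Real.log_le_log hT0 (by linarith)
    have h2 := Real.log_le_sub_one_of_pos (x := (1 + T) / s) (by positivity)
    rw [Real.log_div (by positivity) hs0.ne'] at h2
    linarith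
  have hR : 0 ≤ Real.log s + (1 + T) / s := by
    have hs0 : 0 < s := by linarith
    have := Real.log_nonneg hs
    positivity
  refine max_le ?_ (mul_nonneg hp0.le hR)
  calc D = p * (α * D) := by rw [← mul_assoc, hpα, one_mul]
    _ ≤ p * Real.log T := mul_le_mul_of_nonneg_left l3 hp0.le
    _ ≤ _ := mul_le_mul_of_nonneg_left l4 hp0.le

/-! ### functions vanishing on a half line -/

theorem deriv_zero_of {F : ℝ → ℝ} (hF : ContDiff ℝ ∞ F) {a : ℝ} (h : ∀ t, a ≤ t → F t = 0) :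
    ∀ t, a ≤ t → deriv F t = 0 := by
  have hc : Continuous (deriv F) := (contDiff_infty_iff_deriv.1 hF).2.continuous
  have h1 : ∀ t, a < t → deriv F t = 0 := by
    intro t ht
    have h2 : F =ᶠ[𝓝 t] fun _ => 0 := by
      filter_upwards [lt_mem_nhds ht] with w hw
      exact h w hw.le
    rw [h2.deriv_eq]
    exact deriv_const t 0
  have h3 : IsClosed {t | deriv F t = 0} := isClosed_eq hc continuous_const
  have h4 : Ioi a ⊆ {t | deriv F t = 0} := fun t ht => h1 t ht
  have h5 := h3.closure_subset_iff.2 h4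
  rw [closure_Ioi] at h5
  exact fun t ht => h5 ht

/-- bound of a function on `[0, b]` -/
theorem bdd_of {F : ℝ → ℝ} (hF : Continuous F) (b : ℝ) : ∃ C : ℝ, 0 ≤ C ∧ ∀ t, 0 ≤ t → t ≤ b →
    |F t| ≤ C := by
  obtain ⟨C, hC⟩ := (isCompact_Icc (a := (0 : ℝ)) (b := b)).exists_bound_of_continuousOn
    hF.continuousOn
  exact ⟨max C 0, le_max_right _ _, fun t h1 h2 => (hC t ⟨h1, h2⟩).trans (le_max_left _ _)⟩

/-- the cut-off function -/
def psi (t : ℝ) : ℝ := Real.smoothTransition (2 - t)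

theorem psi_sm : ContDiff ℝ ∞ psi := Real.smoothTransition.contDiff.comp (contDiff_const.sub contDiff_id)

theorem psi_one {t : ℝ} (h : t ≤ 1) : psi t = 1 :=
  Real.smoothTransition.one_of_one_le (by linarith)

theorem psi_zero {t : ℝ} (h : 2 ≤ t) : psi t = 0 :=
  Real.smoothTransition.zero_of_nonpos (by linarith)

theorem psi_nn (t : ℝ) : 0 ≤ psi t := Real.smoothTransition.nonneg _

theorem psi_le (t : ℝ) : psi t ≤ 1 := Real.smoothTransition.le_one _

/-- the composition `F((A - t)/j)` -/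
def Fj (F : ℝ → ℝ) (A j : ℝ) (t : ℝ) : ℝ := F ((A - t) / j)

theorem Fj_sm {F : ℝ → ℝ} (hF : ContDiff ℝ ∞ F) (A j : ℝ) : ContDiff ℝ ∞ (Fj F A j) :=
  hF.comp ((contDiff_const.sub contDiff_id).div_const j)

theorem Fj_deriv {F : ℝ → ℝ} (hF : ContDiff ℝ ∞ F) (A j t : ℝ) :
    HasDerivAt (Fj F A j) (-(deriv F ((A - t) / j) / j)) t := by
  have h1 : HasDerivAt (fun t : ℝ => (A - t) / j) (-1 / j) t :=
    ((hasDerivAt_id t).const_sub A).div_const j
  have h2 : HasDerivAt F (deriv F ((A - t) / j)) ((A - t) / j) :=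
    ((hF.differentiable (by simp)) _).hasDerivAt
  have h3 := h2.comp t h1
  exact h3.congr_deriv (by ring)

theorem Fj_deriv' {F : ℝ → ℝ} (hF : ContDiff ℝ ∞ F) (A j t : ℝ) :
    HasDerivAt (fun t => -(deriv F ((A - t) / j) / j)) (deriv (deriv F) ((A - t) / j) / j ^ 2) t := by
  have h1 : HasDerivAt (fun t : ℝ => (A - t) / j) (-1 / j) t :=
    ((hasDerivAt_id t).const_sub A).div_const j
  have hF' : ContDiff ℝ ∞ (deriv F) := (contDiff_infty_iff_deriv.1 hF).2
  have h2 : HasDerivAt (deriv F) (deriv (deriv F) ((A - t) / j)) ((A - t) / j) :=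
    ((hF'.differentiable (by simp)) _).hasDerivAt
  have h3 := ((h2.comp t h1).div_const j).neg
  exact h3.congr_deriv (by ring)

/-- the bound of `P_j` -/
theorem Pj_le {F : ℝ → ℝ} (hF : ContDiff ℝ ∞ F) (h1 : ∀ t, 1 ≤ t → F t = 0) : ∃ C : ℝ, 0 ≤ C ∧
    ∀ A t γ j : ℝ, 0 < A → 1 ≤ A - t → 1 ≤ j → 0 ≤ γ → γ ≤ A * (A - t) ^ 2 * Real.exp t →
      -(deriv F ((A - t) / j) / j) * (2 * Real.exp t) + deriv (deriv F) ((A - t) / j) / j ^ 2 * γ ≤
        C * (2 + A) * Real.exp t * psi ((A - t) / j) := by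
  have hF' : ContDiff ℝ ∞ (deriv F) := (contDiff_infty_iff_deriv.1 hF).2
  have hF'' : ContDiff ℝ ∞ (deriv (deriv F)) := (contDiff_infty_iff_deriv.1 hF').2
  obtain ⟨C1, c1, k1⟩ := bdd_of hF'.continuous 1
  obtain ⟨C2, c2, k2⟩ := bdd_of hF''.continuous 1
  refine ⟨C1 + C2, by positivity, fun A t γ j hA ht hj hγ hγ' => ?_⟩
  have hj0 : 0 < j := by linarith
  have het := Real.exp_pos t
  rcases le_or_gt ((A - t) / j) 1 with h | h
  · have ha : 0 ≤ (A - t) / j := by positivity
    have e1 : -(deriv F ((A - t) / j) / j) ≤ C1 := by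
      have h2 := k1 _ ha h
      have h3 := neg_le_abs (deriv F ((A - t) / j))
      rw [← neg_div, div_le_iff₀ hj0]
      nlinarith
    have e2 : deriv (deriv F) ((A - t) / j) / j ^ 2 * γ ≤ C2 * A * Real.exp t := by
      have h2 := k2 _ ha h
      have h3 := le_abs_self (deriv (deriv F) ((A - t) / j))
      have h4 : deriv (deriv F) ((A - t) / j) / j ^ 2 * γ ≤ C2 / j ^ 2 * γ := by
        refine mul_le_mul_of_nonneg_right ?_ hγ
        exact div_le_div_of_nonneg_right (h3.trans h2) (by positivity)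
      have h5 : C2 / j ^ 2 * γ ≤ C2 / j ^ 2 * (A * (A - t) ^ 2 * Real.exp t) :=
        mul_le_mul_of_nonneg_left hγ' (by positivity)
      have h6 : C2 / j ^ 2 * (A * (A - t) ^ 2 * Real.exp t) =
          C2 * A * Real.exp t * ((A - t) / j) ^ 2 := by
        field_simp
      have h7 : ((A - t) / j) ^ 2 ≤ 1 := by nlinarith
      have h8 : C2 * A * Real.exp t * ((A - t) / j) ^ 2 ≤ C2 * A * Real.exp t * 1 :=
        mul_le_mul_of_nonneg_left h7 (by positivity)
      linarith
    rw [psi_one h, mul_one]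
    have e3 : -(deriv F ((A - t) / j) / j) * (2 * Real.exp t) ≤ C1 * (2 * Real.exp t) :=
      mul_le_mul_of_nonneg_right e1 (by positivity)
    have e4 : (C1 + C2) * (2 + A) * Real.exp t = C1 * (2 * Real.exp t) + C2 * A * Real.exp t +
        (C2 * 2 * Real.exp t + C1 * A * Real.exp t) := by ring
    have e5 : 0 ≤ C2 * 2 * Real.exp t + C1 * A * Real.exp t := by positivity
    linarith
  · rw [deriv_zero_of hF h1 _ h.le, deriv_zero_of hF' (deriv_zero_of hF h1) _ h.le]
    simp only [zero_div, neg_zero, zero_mul, add_zero]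
    have := psi_nn ((A - t) / j)
    positivity

/-- `ψ((A - t)/j) e^{-ct}` -/
def Ps (A j c : ℝ) (t : ℝ) : ℝ := Fj psi A j t * Real.exp (-c * t)

theorem Ps_sm (A j c : ℝ) : ContDiff ℝ ∞ (Ps A j c) :=
  (Fj_sm psi_sm A j).mul (Real.contDiff_exp.comp (contDiff_const.mul contDiff_id))

theorem exp_deriv (c t : ℝ) : HasDerivAt (fun t : ℝ => Real.exp (-c * t))
    (-c * Real.exp (-c * t)) t := by
  have h := ((hasDerivAt_id t).const_mul (-c)).exp
  exact h.congr_deriv (by simp only [id]; ring)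

theorem Ps_deriv (A j c t : ℝ) : HasDerivAt (Ps A j c)
    ((-(deriv psi ((A - t) / j) / j) - c * psi ((A - t) / j)) * Real.exp (-c * t)) t := by
  have h := (Fj_deriv psi_sm A j t).mul (exp_deriv c t)
  exact h.congr_deriv (by simp only [Fj]; ring)

theorem Ps_deriv' (A j c t : ℝ) : HasDerivAt
    (fun t => (-(deriv psi ((A - t) / j) / j) - c * psi ((A - t) / j)) * Real.exp (-c * t))
    ((deriv (deriv psi) ((A - t) / j) / j ^ 2 + 2 * c * (deriv psi ((A - t) / j) / j) +
      c ^ 2 * psi ((A - t) / j)) * Real.exp (-c * t)) t := by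
  have h1 := (Fj_deriv' psi_sm A j t).sub ((Fj_deriv psi_sm A j t).const_mul c)
  have h := h1.mul (exp_deriv c t)
  exact h.congr_deriv (by simp only [Fj, Pi.sub_apply]; ring)

/-- the bound of `Ψ_j` -/
theorem Psi_le : ∃ C : ℝ, 0 ≤ C ∧ ∀ A t γ j c : ℝ, 0 < A → 1 ≤ A - t → 1 ≤ j → 0 ≤ c → c ≤ 1 →
    0 ≤ γ → γ ≤ A * (A - t) ^ 2 * Real.exp t →
    |((-(deriv psi ((A - t) / j) / j) - c * psi ((A - t) / j)) * Real.exp (-c * t)) *
      (2 * Real.exp t) + ((deriv (deriv psi) ((A - t) / j) / j ^ 2 +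
        2 * c * (deriv psi ((A - t) / j) / j) + c ^ 2 * psi ((A - t) / j)) *
          Real.exp (-c * t)) * γ| ≤
      C * (1 + 4 * A * j ^ 2) * Real.exp ((1 - c) * t) * psi ((A - t) / (2 * j)) := by
  have hF' : ContDiff ℝ ∞ (deriv psi) := (contDiff_infty_iff_deriv.1 psi_sm).2
  have hF'' : ContDiff ℝ ∞ (deriv (deriv psi)) := (contDiff_infty_iff_deriv.1 hF').2
  obtain ⟨C1, c1, k1⟩ := bdd_of hF'.continuous 2
  obtain ⟨C2, c2, k2⟩ := bdd_of hF''.continuous 2
  refine ⟨2 * (C1 + C2 + 1) * 2, by positivity, fun A t γ j c hA ht hj h0c hc1 hγ hγ' => ?_⟩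
  have hj0 : 0 < j := by linarith
  have het := Real.exp_pos t
  rcases le_or_gt ((A - t) / j) 2 with h | h
  · have ha : 0 ≤ (A - t) / j := by positivity
    have hψ1 : psi ((A - t) / (2 * j)) = 1 := by
      refine psi_one ?_
      rw [div_le_iff₀ hj0] at h
      rw [div_le_iff₀ (by positivity)]
      linarith
    rw [hψ1, mul_one]
    set P0 := psi ((A - t) / j) with hP0
    set P1 := deriv psi ((A - t) / j) with hP1
    set P2 := deriv (deriv psi) ((A - t) / j) with hP2
    have b0 : |P0| ≤ 1 := abs_le.2 ⟨by linarith [psi_nn ((A - t) / j)], psi_le _⟩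
    have b1 : |P1| ≤ C1 := k1 _ ha h
    have b2 : |P2| ≤ C2 := k2 _ ha h
    have b1' : |P1 / j| ≤ C1 := by
      rw [abs_div, abs_of_pos hj0, div_le_iff₀ hj0]
      nlinarith [abs_nonneg P1]
    have b2' : |P2 / j ^ 2| ≤ C2 := by
      rw [abs_div, abs_of_pos (by positivity : 0 < j ^ 2), div_le_iff₀ (by positivity)]
      nlinarith [abs_nonneg P2, one_le_pow₀ (n := 2) hj]
    have q1 : |-(P1 / j) - c * P0| ≤ C1 + C2 + 1 := by
      have h1 := abs_sub (-(P1 / j)) (c * P0)
      rw [abs_neg, abs_mul, abs_of_nonneg h0c] at h1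
      have h2 : c * |P0| ≤ 1 := by nlinarith [abs_nonneg P0]
      linarith
    have q2 : |P2 / j ^ 2 + 2 * c * (P1 / j) + c ^ 2 * P0| ≤ 2 * (C1 + C2 + 1) := by
      have h1 := abs_add_le (P2 / j ^ 2 + 2 * c * (P1 / j)) (c ^ 2 * P0)
      have h2 := abs_add_le (P2 / j ^ 2) (2 * c * (P1 / j))
      have h3 : |2 * c * (P1 / j)| ≤ 2 * C1 := by
        rw [abs_mul, abs_mul, abs_of_nonneg h0c, abs_two]
        nlinarith [abs_nonneg (P1 / j)]
      have h4 : |c ^ 2 * P0| ≤ 1 := by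
        rw [abs_mul, abs_of_nonneg (sq_nonneg c)]
        have : c ^ 2 ≤ 1 := by nlinarith
        nlinarith [abs_nonneg P0, sq_nonneg c]
      linarith
    have hec : Real.exp (-c * t) * Real.exp t = Real.exp ((1 - c) * t) := by
      rw [← Real.exp_add]
      congr 1
      ring
    have hec0 := Real.exp_pos ((1 - c) * t)
    have hW : (A - t) ^ 2 ≤ 4 * j ^ 2 := by
      rw [div_le_iff₀ hj0] at h
      nlinarith
    set K := C1 + C2 + 1 with hK
    have hK0 : 0 ≤ K := by positivity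
    have t1 : |((-(P1 / j) - c * P0) * Real.exp (-c * t)) * (2 * Real.exp t)| ≤
        2 * K * Real.exp ((1 - c) * t) := by
      have e : ((-(P1 / j) - c * P0) * Real.exp (-c * t)) * (2 * Real.exp t) =
          2 * (-(P1 / j) - c * P0) * Real.exp ((1 - c) * t) := by
        rw [← hec]; ring
      rw [e, abs_mul, abs_mul, abs_two, abs_of_pos hec0]
      exact mul_le_mul_of_nonneg_right (by linarith) hec0.le
    have t2 : |((P2 / j ^ 2 + 2 * c * (P1 / j) + c ^ 2 * P0) * Real.exp (-c * t)) * γ| ≤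
        2 * K * (4 * A * j ^ 2) * Real.exp ((1 - c) * t) := by
      rw [abs_mul, abs_mul, abs_of_pos (Real.exp_pos (-c * t)), abs_of_nonneg hγ]
      have h3 : γ ≤ 4 * A * j ^ 2 * Real.exp t := by
        have : A * (A - t) ^ 2 * Real.exp t ≤ A * (4 * j ^ 2) * Real.exp t :=
          mul_le_mul_of_nonneg_right (mul_le_mul_of_nonneg_left hW hA.le) het.le
        linarith
      calc |P2 / j ^ 2 + 2 * c * (P1 / j) + c ^ 2 * P0| * Real.exp (-c * t) * γ
          ≤ 2 * K * Real.exp (-c * t) * γ :=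
            mul_le_mul_of_nonneg_right (mul_le_mul_of_nonneg_right q2 (Real.exp_pos _).le) hγ
        _ ≤ 2 * K * Real.exp (-c * t) * (4 * A * j ^ 2 * Real.exp t) :=
            mul_le_mul_of_nonneg_left h3 (by positivity)
        _ = _ := by rw [← hec]; ring
    refine (abs_add_le _ _).trans ?_
    have e5 : 2 * K * 2 * (1 + 4 * A * j ^ 2) * Real.exp ((1 - c) * t) =
        2 * K * Real.exp ((1 - c) * t) + 2 * K * (4 * A * j ^ 2) * Real.exp ((1 - c) * t) +
        (2 * K * (1 + 4 * A * j ^ 2) * Real.exp ((1 - c) * t)) := by ring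
    have e6 : 0 ≤ 2 * K * (1 + 4 * A * j ^ 2) * Real.exp ((1 - c) * t) := by positivity
    linarith
  · have z0 : ∀ t, (2 : ℝ) ≤ t → psi t = 0 := fun t ht => psi_zero ht
    rw [deriv_zero_of hF' (deriv_zero_of psi_sm z0) _ h.le, deriv_zero_of psi_sm z0 _ h.le,
      z0 _ h.le]
    simp only [zero_div, neg_zero, mul_zero, sub_zero, zero_mul, add_zero, abs_zero]
    have := psi_nn ((A - t) / (2 * j))
    positivity

end Crest.Agent.R257.Avg_938
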