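import Crest.Agent.R257.Avg3_938

/-!
# R257 (S0395), GB0 (helper938), task AVG, part 4: the integrals

* `int_Pj`  : `∫ χ P_j ≤ C/j`
* `int_Ps`  : `∫ χ Ψ_j(u) ∂∂̄u ∧ ∂∂̄G ≤ C (1 + j²) (1 + ∫ χ G)`
-/

set_option autoImplicit false
set_option linter.unusedSectionVars false

open Set Filter Topology MeasureTheory
open scoped ContDiff

noncomputable section

namespace Crest.Agent.R257.Avg_938

open Crest.Agent.R275.Geo
open Crest.Agent.R257.Defs_219 Crest.Agent.R257.KED_952 Crest.Agent.R257.V1Defs_822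
open Crest.Agent.R257.V1Pe_822 Crest.Agent.R257.Bridge_822 Crest.Agent.R257.UpK_938
open Crest.Agent.R257.V1Top_822 Crest.Agent.R257.CmpL_822
open Crest.Agent.R257.PN_835 (nsq)
open Crest.Agent.R257.KEG_952 (Esc)

variable {f : E3 → ℂ} {s : ℂ} {r : ℝ}

/-- integrability of continuous functions with compact support on the level -/
theorem int_M (hL : LvlOK f s r) {ν : Measure E3} (hν : IsNu f s r ν) {φ : E3 → ℝ}
    (hc : Continuous fun x : (LX hL).M 0 => φ x.1) {ρ₁ ρ₂ : ℝ} (h1 : 0 < ρ₁) (h2 : 0 ≤ ρ₂)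
    (h3 : ρ₂ < r) (h0 : ∀ x, f x = s → x ≠ 0 → nsq x < r ^ 2 → (nsq x < ρ₁ ^ 2 ∨ ρ₂ ^ 2 < nsq x) →
      φ x = 0) : Integrable φ ν := by
  refine integrable_nu hL hν (integrable_vol hL hc (ann_compact hL h1 h2 h3) fun x hx => ?_)
  obtain ⟨m1, m2, m3⟩ := mem_M hL x
  refine h0 _ m1 m2 m3 ?_
  by_contra hcon
  push Not at hcon
  exact hx hcon

/-- monotonicity of the integral over the level -/
theorem int_mono {ν : Measure E3} (hν : IsNu f s r ν) {a b : E3 → ℝ} (ha : Integrable a ν) (hb : Integrable b ν)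
    (h : ∀ x, f x = s → x ≠ 0 → nsq x < r ^ 2 → a x ≤ b x) : ∫ x, a x ∂ν ≤ ∫ x, b x ∂ν :=
  integral_mono_ae ha hb (isNu_ae hν fun x h1 h2 h3 => h x h3 h1 h2)

theorem cont_L (hL : LvlOK f s r) {a : E3 → ℝ} (ha : SmL f s r a) :
    Continuous fun x : (LX hL).M 0 => a x.1 := cont_val hL (CmpL_822.smL_ctl ha)

theorem smL_comp {u : E3 → ℝ} (hu : SmL f s r u) {κ : ℝ → ℝ} (hκ : ContDiff ℝ ∞ κ) :
    SmL f s r fun x => κ (u x) := fun θ O hθ => hκ.comp_contDiffOn (hu θ O hθ)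

/-- the sets where `A - u` is large are neighbourhoods of the puncture -/
theorem inner {u : E3 → ℝ} {A : ℝ} (hE : Esc f r u A) (c : ℝ) {r₁ : ℝ} (hr₁ : 0 < r₁) :
    ∃ δ : ℝ, 0 < δ ∧ δ ≤ r₁ ∧ ∀ x, f x = 0 → x ≠ 0 → nsq x < δ ^ 2 → c < A - u x := by
  obtain ⟨δ, h1, h2⟩ := hE.inf (A - c)
  refine ⟨min δ r₁, lt_min h1 hr₁, min_le_right _ _, fun x a b c' => ?_⟩
  have := h2 x a b (c'.trans_le (pow_le_pow_left₀ (lt_min h1 hr₁).le (min_le_left _ _) 2))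
  linarith

section main

variable {u χ : E3 → ℝ} {A : ℝ} {ν : Measure E3} {F : ℝ → ℝ}

theorem ev_inner {hL : LvlOK f s r} {δ : ℝ} {x : (LX hL).M 0} (hx : nsq x.1 < δ ^ 2) :
    ∀ᶠ y in 𝓝 x, nsq y.1 < δ ^ 2 :=
  (continuous_nsq3.comp continuous_subtype_val).continuousAt.eventually_lt continuousAt_const hx

theorem ev_outer {hL : LvlOK f s r} {δ : ℝ} {x : (LX hL).M 0} (hx : δ ^ 2 < nsq x.1) :
    ∀ᶠ y in 𝓝 x, δ ^ 2 < nsq y.1 :=
  continuousAt_const.eventually_lt (continuous_nsq3.comp continuous_subtype_val).continuousAt hx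

/-- the bounds of `P_j` -/
theorem Pj_bd (hL : LvlOK f 0 r) (hu : KEon f 0 r u) (hE : Esc f r u A) (hF : ContDiff ℝ ∞ F)
    (hF1 : ∀ t, deriv F t ≤ 0) (hF2 : ∀ t, 0 ≤ deriv (deriv F) t) (hF0 : ∀ t, 1 ≤ t → F t = 0) :
    ∃ C : ℝ, 0 ≤ C ∧ ∀ j : ℝ, 1 ≤ j → ∀ x, f x = 0 → x ≠ 0 → nsq x < r ^ 2 →
      0 ≤ mxd f u (fun y => Fj F A j (u y)) x ∧
      mxd f u (fun y => Fj F A j (u y)) x ≤ C * Real.exp (u x) * psi ((A - u x) / j) := by
  obtain ⟨C, hC, h⟩ := Pj_le hF hF0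
  refine ⟨C * (2 + A), mul_nonneg hC (by linarith [hE.pos]), fun j hj x hfx hx hr => ?_⟩
  obtain ⟨γ, h1, h2, h3⟩ := mxd_comp hL hu hE hx hr hfx
  have e := h3 (Fj F A j) (fun t => -(deriv F ((A - t) / j) / j))
    (deriv (deriv F) ((A - u x) / j) / j ^ 2) (Eventually.of_forall fun t => Fj_deriv hF A j t)
    (Fj_deriv' hF A j (u x)) (Fj_sm hF A j).contDiffAt
  rw [e]
  have hj0 : 0 < j := by linarith
  refine ⟨?_, h A (u x) γ j hE.pos (hE.one x hfx hx hr) hj h1 h2⟩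
  have k1 : 0 ≤ -(deriv F ((A - u x) / j) / j) := by
    rw [← neg_div]
    exact div_nonneg (by linarith [hF1 ((A - u x) / j)]) hj0.le
  have k2 : 0 ≤ deriv (deriv F) ((A - u x) / j) / j ^ 2 := div_nonneg (hF2 _) (by positivity)
  have := Real.exp_pos (u x)
  positivity

/-- **the mass of `P_j`** -/
theorem int_Pj (hL : LvlOK f 0 r) (hu : KEon f 0 r u) (hE : Esc f r u A) (hν : IsNu f 0 r ν)
    (hχ : Cut r χ) (hF : ContDiff ℝ ∞ F) (hF0 : ∀ t, 1 ≤ t → F t = 0) :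
    ∃ C : ℝ, 0 ≤ C ∧ ∀ᶠ j : ℝ in atTop,
      Integrable (fun x => χ x * mxd f u (fun y => Fj F A j (u y)) x) ν ∧
      ∫ x, χ x * mxd f u (fun y => Fj F A j (u y)) x ∂ν ≤ C / j := by
  obtain ⟨r₁, ρ, h1, h2, h3, h4, h5, h6⟩ := cut_rad hχ
  have su : SmL f 0 r u := hu.sm
  have sχ : SmL f 0 r χ := cut_smL hχ
  obtain ⟨B, hB⟩ := V3_218.lower_on hL su (a := r₁ ^ 2) (b := ρ ^ 2) (by positivity)
    (pow_lt_pow_left₀ h3 h2.le two_ne_zero)
  have hF' : ContDiff ℝ ∞ (deriv F) := (contDiff_infty_iff_deriv.1 hF).2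
  obtain ⟨C1, c1, k1⟩ := bdd_of hF'.continuous 1
  obtain ⟨i0, z0⟩ := V3_218.int_mxd_cut hL hν su hχ
  have i0' : Integrable (fun x => |mxd f u χ x|) ν := i0.abs
  refine ⟨C1 * (A + |B|) * ∫ x, |mxd f u χ x| ∂ν, by
    have := hE.pos
    have : 0 ≤ ∫ x, |mxd f u χ x| ∂ν := integral_nonneg fun x => abs_nonneg _
    positivity, ?_⟩
  filter_upwards [eventually_ge_atTop (A + |B|), eventually_ge_atTop 1] with j hjB hj1
  have hj0 : 0 < j := by linarith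
  obtain ⟨δ, d1, d2, d3⟩ := inner hE j h1
  have sF : SmL f 0 r fun y => Fj F A j (u y) := smL_comp su (Fj_sm hF A j)
  set K : Set ((LX hL).M 0) := {x | δ ^ 2 ≤ nsq x.1 ∧ nsq x.1 ≤ ρ ^ 2} with hKd
  have hK : IsCompact K := ann_compact hL d1 h2.le h3
  have hx7 : ∀ x : (LX hL).M 0, x ∉ K → nsq x.1 < δ ^ 2 ∨ ρ ^ 2 < nsq x.1 := by
    intro x hx
    by_contra hcon
    push Not at hcon
    exact hx hcon
  have d4 : δ ^ 2 ≤ r₁ ^ 2 := pow_le_pow_left₀ d1.le d2 2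
  have zF : ∀ x : (LX hL).M 0, nsq x.1 < δ ^ 2 →
      (fun y : (LX hL).M 0 => Fj F A j (u y.1)) =ᶠ[𝓝 x] fun _ => 0 := by
    intro x hx
    filter_upwards [ev_inner hx] with y hy
    obtain ⟨m1, m2, m3⟩ := mem_M hL y
    refine hF0 _ ?_
    rw [le_div_iff₀ hj0, one_mul]
    exact (d3 y.1 m1 m2 hy).le
  have oχ : ∀ x : (LX hL).M 0, nsq x.1 < δ ^ 2 →
      (fun y : (LX hL).M 0 => χ y.1) =ᶠ[𝓝 x] fun _ => 1 := fun x hx =>
    evconst_val hL (h4 _ (hx.trans_le d4))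
  have zχ : ∀ x : (LX hL).M 0, ρ ^ 2 < nsq x.1 →
      (fun y : (LX hL).M 0 => χ y.1) =ᶠ[𝓝 x] fun _ => 0 := fun x hx =>
    evconst_val hL (h6 _ hx)
  obtain ⟨g1, g2, g3⟩ := green_lvl hL hν su sχ sF hK
    (fun x hx => by
      rcases hx7 x hx with h | h
      · exact Or.inr ⟨0, zF x h⟩
      · exact Or.inl (zχ x h))
    (fun x hx => by
      rcases hx7 x hx with h | h
      · exact Or.inl (zF x h)
      · exact Or.inr ⟨0, zχ x h⟩)
  refine ⟨g1, ?_⟩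
  rw [g3]
  have e1 : ∫ x, Fj F A j (u x) * mxd f u χ x ∂ν =
      ∫ x, (Fj F A j (u x) - F 0) * mxd f u χ x ∂ν := by
    have : (fun x => (Fj F A j (u x) - F 0) * mxd f u χ x) = fun x =>
        Fj F A j (u x) * mxd f u χ x - F 0 * mxd f u χ x := by
      funext x; ring
    rw [this, integral_sub g2 (i0.const_mul _), integral_const_mul, z0, mul_zero, sub_zero]
  rw [e1]
  have i1 : Integrable (fun x => (Fj F A j (u x) - F 0) * mxd f u χ x) ν := by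
    have : (fun x => (Fj F A j (u x) - F 0) * mxd f u χ x) = fun x =>
        Fj F A j (u x) * mxd f u χ x - F 0 * mxd f u χ x := by
      funext x; ring
    rw [this]
    exact g2.sub (i0.const_mul _)
  have e2 : C1 * (A + |B|) * (∫ x, |mxd f u χ x| ∂ν) / j =
      ∫ x, (C1 * ((A + |B|) / j)) * |mxd f u χ x| ∂ν := by
    rw [integral_const_mul]
    ring
  rw [e2]
  refine int_mono hν i1 (i0'.const_mul _) fun x hfx hx hr => ?_
  rcases lt_or_ge (nsq x) (r₁ ^ 2) with a | a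
  · have e : mxd f u χ x = 0 := mxd_const (h4 _ a)
    rw [e]; simp
  rcases lt_or_ge (ρ ^ 2) (nsq x) with b | b
  · have e : mxd f u χ x = 0 := mxd_zero (h6 _ b)
    rw [e]; simp
  have hW1 := hE.one x hfx hx hr
  have hW2 : A - u x ≤ A + |B| := by
    have := hB x hfx a b
    have := le_abs_self B
    linarith
  have ht0 : 0 ≤ (A - u x) / j := by positivity
  have ht1 : (A - u x) / j ≤ 1 := by
    rw [div_le_one hj0]
    linarith
  have hmv : |F ((A - u x) / j) - F 0| ≤ C1 * ((A - u x) / j) := by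
    have hc : Convex ℝ (Icc (0 : ℝ) 1) := convex_Icc 0 1
    have := hc.norm_image_sub_le_of_norm_deriv_le (f := F) (C := C1)
      (fun t _ => (hF.differentiable (by simp)) t) (fun t ht => k1 t ht.1 ht.2)
      (left_mem_Icc.2 zero_le_one) ⟨ht0, ht1⟩
    rw [sub_zero, Real.norm_eq_abs, Real.norm_eq_abs, abs_of_nonneg ht0] at this
    exact this
  have hle : C1 * ((A - u x) / j) ≤ C1 * ((A + |B|) / j) :=
    mul_le_mul_of_nonneg_left (div_le_div_of_nonneg_right hW2 hj0.le) c1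
  calc (Fj F A j (u x) - F 0) * mxd f u χ x ≤ |(Fj F A j (u x) - F 0) * mxd f u χ x| :=
        le_abs_self _
    _ = |F ((A - u x) / j) - F 0| * |mxd f u χ x| := abs_mul _ _
    _ ≤ _ := mul_le_mul_of_nonneg_right (hmv.trans hle) (abs_nonneg _)

end main

end Crest.Agent.R257.Avg_938
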