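import Crest.Agent.R257.Avg4_938

/-!
# R257 (S0395), GB0 (helper938), task AVG, part 5: `∫ χ Ψ_j(u) ∂∂̄u ∧ ∂∂̄G`, `G = (|g|² + δ)^α`
-/

set_option autoImplicit false
set_option linter.unusedSectionVars false

open Set Filter Topology MeasureTheory
open scoped ContDiff

noncomputable section

namespace Crest.Agent.R257.Avg_938

open Crest.Agent.R275.Geo
open Crest.Agent.R257.Defs_219 Crest.Agent.R257.KED_952 Crest.Agent.R257.V1Defs_822
open Crest.Agent.R257.V1Pe_822 Crest.Agent.R257.Bridge_822 Crest.Agent.R257.UpK_938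
open Crest.Agent.R257.V1Top_822 (mxd_const)
open Crest.Agent.R257.CmpL_822
open Crest.Agent.R257.PN_835 (nsq)
open Crest.Agent.R257.KEG_952 (Esc)

variable {f : E3 → ℂ} {s : ℂ} {r : ℝ} {g : E3 → ℂ}

theorem smL_H (hg : ∀ x, nsq x < r ^ 2 → AnalyticAt ℂ g x) :
    SmL f s r fun x => ‖g x‖ ^ 2 := by
  intro θ O hθ z hz
  have hO := hθ.par.isOpen
  have hgd : DifferentiableOn ℂ (fun z => g (θ z)) O := fun w hw =>
    ((hg _ (hθ.lt w hw)).differentiableAt.comp w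
      (hθ.par.hol.differentiableAt (hO.mem_nhds hw))).differentiableWithinAt
  exact ((Crest.Agent.R273.FS_333.contDiffAt_of_hol hO hgd hz).norm_sq ℝ).contDiffWithinAt

theorem smL_G (hg : ∀ x, nsq x < r ^ 2 → AnalyticAt ℂ g x) {δ : ℝ} (hδ : 0 < δ) (α : ℝ) :
    SmL f s r fun x => (‖g x‖ ^ 2 + δ) ^ α := by
  intro θ O hθ z hz
  have h1 := smL_H (f := f) (s := s) hg θ O hθ z hz
  exact (h1.add contDiffWithinAt_const).rpow_const_of_ne (by positivity)

variable {u χ : E3 → ℝ} {A : ℝ} {ν : Measure E3}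

theorem Ps_bd : ∃ C : ℝ, 0 ≤ C ∧ ∀ {f : E3 → ℂ} {r : ℝ} {u : E3 → ℝ} {A : ℝ}, LvlOK f 0 r →
    KEon f 0 r u → Esc f r u A → ∀ c : ℝ, 0 ≤ c → c ≤ 1 → ∀ j : ℝ, 1 ≤ j →
    ∀ x, f x = 0 → x ≠ 0 → nsq x < r ^ 2 →
      |mxd f u (fun y => Ps A j c (u y)) x| ≤
        C * (1 + 4 * A * j ^ 2) * Real.exp ((1 - c) * u x) * psi ((A - u x) / (2 * j)) := by
  obtain ⟨C, hC, h⟩ := Psi_le
  refine ⟨C, hC, fun {f r u A} hL hu hE c h0 h1 j hj x hfx hx hr => ?_⟩
  obtain ⟨γ, g1, g2, g3⟩ := mxd_comp hL hu hE hx hr hfx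
  have e := g3 (Ps A j c)
    (fun t => (-(deriv psi ((A - t) / j) / j) - c * psi ((A - t) / j)) * Real.exp (-c * t))
    ((deriv (deriv psi) ((A - u x) / j) / j ^ 2 + 2 * c * (deriv psi ((A - u x) / j) / j) +
      c ^ 2 * psi ((A - u x) / j)) * Real.exp (-c * u x))
    (Eventually.of_forall fun t => Ps_deriv A j c t) (Ps_deriv' A j c (u x))
    (Ps_sm A j c).contDiffAt
  rw [e]
  exact h A (u x) γ j c hE.pos (hE.one x hfx hx hr) hj h0 h1 g1 g2

/-- the function `R̃` -/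
def Rt (f : E3 → ℂ) (u χ : E3 → ℝ) (c : ℝ) (x : E3) : ℝ :=
  mxd f u (fun y => χ y * Real.exp (-c * u y)) x - χ x * mxd f u (fun y => Real.exp (-c * u y)) x

/-- **the second integral** -/
theorem int_Ps (hL : LvlOK f 0 r) (hu : KEon f 0 r u) {C₀ : ℝ}
    (hhi : ∀ x, f x = 0 → x ≠ 0 → nsq x < r ^ 2 → u x ≤ C₀)
    (hE : Esc f r u A) (hν : IsNu f 0 r ν) (hχ : Cut r χ)
    (hg : ∀ x, nsq x < r ^ 2 → AnalyticAt ℂ g x) {c : ℝ} (hc0 : 0 ≤ c) (hc1 : c ≤ 1)
    {α : ℝ} (hα0 : 0 < α) :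
    ∃ C : ℝ, 0 ≤ C ∧ ∀ᶠ j : ℝ in atTop, ∀ δ : ℝ, 0 < δ → δ ≤ 1 →
      Integrable (fun x => χ x * Ps A j c (u x) *
        mxd f u (fun y => (‖g y‖ ^ 2 + δ) ^ α) x) ν ∧
      Integrable (fun x => χ x * psi ((A - u x) / (2 * j)) * (‖g x‖ ^ 2 + δ) ^ α) ν ∧
      ∫ x, χ x * Ps A j c (u x) * mxd f u (fun y => (‖g y‖ ^ 2 + δ) ^ α) x ∂ν ≤
        C * (1 + 4 * A * j ^ 2) *
          (1 + ∫ x, χ x * psi ((A - u x) / (2 * j)) * (‖g x‖ ^ 2 + δ) ^ α ∂ν) := by
  obtain ⟨r₁, ρ, h1, h2, h3, h4, h5, h6⟩ := cut_rad hχ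
  have su : SmL f 0 r u := hu.sm
  have sχ : SmL f 0 r χ := cut_smL hχ
  have sH : SmL f 0 r fun x => -(‖g x‖ ^ 2) := fun θ O hθ => (smL_H hg θ O hθ).neg
  have hA := hE.pos
  set ρ₂ := (ρ + r) / 2 with hρ₂
  have r1 : ρ < ρ₂ := by rw [hρ₂]; linarith
  have r2 : ρ₂ < r := by rw [hρ₂]; linarith
  obtain ⟨B, hB⟩ := V3_218.lower_on hL su (a := (r₁ / 2) ^ 2) (b := ρ₂ ^ 2) (by positivity)
    (pow_lt_pow_left₀ r2 (by linarith) two_ne_zero)
  obtain ⟨M, hM⟩ := V3_218.lower_on hL sH (a := r₁ ^ 2) (b := ρ ^ 2) (by positivity)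
    (pow_lt_pow_left₀ h3 h2.le two_ne_zero)
  obtain ⟨C, hC, hPs⟩ := Ps_bd
  have sc : ContDiff ℝ ∞ fun t : ℝ => Real.exp (-c * t) :=
    Real.contDiff_exp.comp (contDiff_const.mul contDiff_id)
  have se : SmL f 0 r fun y => Real.exp (-c * u y) := smL_comp su sc
  have sχe : SmL f 0 r fun y => χ y * Real.exp (-c * u y) := smL_mul sχ se
  have cRt : Continuous fun x : (LX hL).M 0 => Rt f u χ c x.1 :=
    (cont_mxd hL su sχe).sub ((cont_L hL sχ).mul (cont_mxd hL su se))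
  -- `R̃ = 0` off the shell
  have zin : ∀ x, nsq x < r₁ ^ 2 → Rt f u χ c x = 0 := by
    intro x hx
    have e1 : mxd f u (fun y => χ y * Real.exp (-c * u y)) x =
        mxd f u (fun y => Real.exp (-c * u y)) x := by
      refine mxd_ev ?_
      filter_upwards [h4 x hx] with y hy _
      rw [hy, one_mul]
    unfold Rt
    rw [e1, (h4 x hx).self_of_nhds, one_mul, sub_self]
  have zout : ∀ x, ρ ^ 2 < nsq x → Rt f u χ c x = 0 := by
    intro x hx
    have e1 : mxd f u (fun y => χ y * Real.exp (-c * u y)) x = 0 := by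
      refine mxd_zero ?_
      filter_upwards [h6 x hx] with y hy
      rw [hy, zero_mul]
    unfold Rt
    rw [e1, (h6 x hx).self_of_nhds, zero_mul, sub_self]
  have iR : Integrable (fun x => |Rt f u χ c x|) ν :=
    (int_M hL hν cRt h1 h2.le h3 fun x _ _ _ hx => by
      rcases hx with hx | hx
      · exact zin x hx
      · exact zout x hx).abs
  have hR0 : 0 ≤ ∫ x, |Rt f u χ c x| ∂ν := integral_nonneg fun x => abs_nonneg _
  set Gm : ℝ := (|M| + 1) ^ α with hGm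
  have hGm0 : 0 < Gm := Real.rpow_pos_of_pos (by positivity) _
  set M₁ : ℝ := Real.exp |C₀| with hM₁
  refine ⟨Gm * (∫ x, |Rt f u χ c x| ∂ν) + C * M₁, by positivity, ?_⟩
  filter_upwards [eventually_ge_atTop (A + |B|), eventually_ge_atTop 1] with j hjB hj1 δ hδ hδ1
  have hj0 : 0 < j := by linarith
  obtain ⟨d, d1, d2, d3⟩ := inner hE (4 * j) h1
  have sG : SmL f 0 r fun x => (‖g x‖ ^ 2 + δ) ^ α := smL_G hg hδ α
  have sP : SmL f 0 r fun x => Ps A j c (u x) := smL_comp su (Ps_sm A j c)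
  have sχP : SmL f 0 r fun x => χ x * Ps A j c (u x) := smL_mul sχ sP
  have sψ : SmL f 0 r fun x => psi ((A - u x) / (2 * j)) :=
    smL_comp su (Fj_sm psi_sm A (2 * j))
  have d4 : d ^ 2 ≤ r₁ ^ 2 := pow_le_pow_left₀ d1.le d2 2
  set K : Set ((LX hL).M 0) := {x | d ^ 2 ≤ nsq x.1 ∧ nsq x.1 ≤ ρ ^ 2} with hKd
  have hK : IsCompact K := ann_compact hL d1 h2.le h3
  have hx7 : ∀ x : (LX hL).M 0, x ∉ K → nsq x.1 < d ^ 2 ∨ ρ ^ 2 < nsq x.1 := by
    intro x hx
    by_contra hcon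
    push Not at hcon
    exact hx hcon
  have zP : ∀ x : (LX hL).M 0, x ∉ K →
      (fun y : (LX hL).M 0 => χ y.1 * Ps A j c (u y.1)) =ᶠ[𝓝 x] fun _ => 0 := by
    intro x hx
    rcases hx7 x hx with h | h
    · filter_upwards [ev_inner h] with y hy
      obtain ⟨m1, m2, m3⟩ := mem_M hL y
      have h7 := d3 y.1 m1 m2 hy
      have h8 : psi ((A - u y.1) / j) = 0 := psi_zero (by rw [le_div_iff₀ hj0]; linarith)
      show χ y.1 * (psi ((A - u y.1) / j) * _) = 0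
      rw [h8, zero_mul, mul_zero]
    · filter_upwards [evconst_val hL (h6 _ h)] with y hy
      rw [hy, zero_mul]
  obtain ⟨g1, g2, g3⟩ := green_lvl hL hν su sχP sG hK (fun x hx => Or.inl (zP x hx))
    (fun x hx => Or.inr ⟨0, zP x hx⟩)
  have iQ : Integrable (fun x => χ x * psi ((A - u x) / (2 * j)) * (‖g x‖ ^ 2 + δ) ^ α) ν := by
    refine int_M hL hν (((cont_L hL sχ).mul (cont_L hL sψ)).mul (cont_L hL sG)) d1 h2.le h3
      fun x hfx hx hr h7 => ?_
    rcases h7 with h | h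
    · have h8 := d3 x hfx hx h
      have h9 : psi ((A - u x) / (2 * j)) = 0 := psi_zero (by
        rw [le_div_iff₀ (by positivity)]; linarith)
      rw [h9, mul_zero, zero_mul]
    · rw [(h6 _ h).self_of_nhds, zero_mul, zero_mul]
  refine ⟨g1, iQ, ?_⟩
  rw [g3]
  -- the identity
  have key : ∀ x, f x = 0 → x ≠ 0 → nsq x < r ^ 2 →
      mxd f u (fun y => χ y * Ps A j c (u y)) x =
        Rt f u χ c x + χ x * mxd f u (fun y => Ps A j c (u y)) x := by
    intro x hfx hx hr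
    rcases lt_or_ge (nsq x) (r₁ ^ 2) with a | a
    · rw [zin x a, (h4 x a).self_of_nhds, one_mul, zero_add]
      refine mxd_ev ?_
      filter_upwards [h4 x a] with y hy _
      rw [hy, one_mul]
    rcases lt_or_ge (ρ ^ 2) (nsq x) with b | b
    · rw [zout x b, (h6 x b).self_of_nhds, zero_mul, zero_add]
      refine mxd_zero ?_
      filter_upwards [h6 x b] with y hy
      rw [hy, zero_mul]
    · have hn : ∀ᶠ y in 𝓝 x, f y = f x → Ps A j c (u y) = Real.exp (-c * u y) := by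
        have n1 : ∀ᶠ y in 𝓝 x, (r₁ / 2) ^ 2 < nsq y :=
          continuousAt_const.eventually_lt continuous_nsq3.continuousAt (by nlinarith)
        have n2 : ∀ᶠ y in 𝓝 x, nsq y < ρ₂ ^ 2 :=
          continuous_nsq3.continuousAt.eventually_lt continuousAt_const
            (b.trans_lt (pow_lt_pow_left₀ r1 h2.le two_ne_zero))
        filter_upwards [n1, n2] with y hy1 hy2 hy3
        have h7 := hB y (by rw [hy3, hfx]) hy1.le hy2.le
        show psi ((A - u y) / j) * _ = _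
        rw [psi_one, one_mul]
        rw [div_le_one hj0]
        have := le_abs_self B
        linarith
      have e1 : mxd f u (fun y => χ y * Ps A j c (u y)) x =
          mxd f u (fun y => χ y * Real.exp (-c * u y)) x := by
        refine mxd_ev ?_
        filter_upwards [hn] with y hy h7
        rw [hy h7]
      have e2 : mxd f u (fun y => Ps A j c (u y)) x =
          mxd f u (fun y => Real.exp (-c * u y)) x := mxd_ev hn
      rw [e1, e2]
      unfold Rt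
      ring
  have hQ0 : 0 ≤ ∫ x, χ x * psi ((A - u x) / (2 * j)) * (‖g x‖ ^ 2 + δ) ^ α ∂ν :=
    integral_nonneg fun x => by
      have := hχ.nn x
      have := psi_nn ((A - u x) / (2 * j))
      positivity
  have hle : ∫ x, (‖g x‖ ^ 2 + δ) ^ α * mxd f u (fun y => χ y * Ps A j c (u y)) x ∂ν ≤
      ∫ x, (Gm * |Rt f u χ c x| + C * M₁ * (1 + 4 * A * j ^ 2) *
        (χ x * psi ((A - u x) / (2 * j)) * (‖g x‖ ^ 2 + δ) ^ α)) ∂ν := by
    refine int_mono hν g2 ((iR.const_mul _).add (iQ.const_mul _)) fun x hfx hx hr => ?_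
    rw [key x hfx hx hr]
    have hG0 : 0 ≤ (‖g x‖ ^ 2 + δ) ^ α := by positivity
    have t1 : (‖g x‖ ^ 2 + δ) ^ α * Rt f u χ c x ≤ Gm * |Rt f u χ c x| := by
      rcases lt_or_ge (nsq x) (r₁ ^ 2) with a | a
      · rw [zin x a]; simp
      rcases lt_or_ge (ρ ^ 2) (nsq x) with b | b
      · rw [zout x b]; simp
      have h7 := hM x hfx a b
      have h8 : (‖g x‖ ^ 2 + δ) ^ α ≤ Gm := by
        refine Real.rpow_le_rpow (by positivity) ?_ hα0.le
        have := le_abs_self M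
        linarith
      calc (‖g x‖ ^ 2 + δ) ^ α * Rt f u χ c x ≤ (‖g x‖ ^ 2 + δ) ^ α * |Rt f u χ c x| :=
            mul_le_mul_of_nonneg_left (le_abs_self _) hG0
        _ ≤ _ := mul_le_mul_of_nonneg_right h8 (abs_nonneg _)
    have t2 : mxd f u (fun y => Ps A j c (u y)) x ≤
        C * M₁ * (1 + 4 * A * j ^ 2) * psi ((A - u x) / (2 * j)) := by
      have h7 := (le_abs_self _).trans (hPs hL hu hE c hc0 hc1 j hj1 x hfx hx hr)
      have h8 : Real.exp ((1 - c) * u x) ≤ M₁ := by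
        refine Real.exp_le_exp.2 ?_
        have h9 := hhi x hfx hx hr
        have h10 := le_abs_self C₀
        have h11 := abs_nonneg C₀
        rcases le_or_gt 0 (u x) with h12 | h12
        · nlinarith
        · nlinarith
      have h9 := psi_nn ((A - u x) / (2 * j))
      calc mxd f u (fun y => Ps A j c (u y)) x ≤ C * (1 + 4 * A * j ^ 2) *
            Real.exp ((1 - c) * u x) * psi ((A - u x) / (2 * j)) := h7
        _ ≤ C * (1 + 4 * A * j ^ 2) * M₁ * psi ((A - u x) / (2 * j)) := by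
            refine mul_le_mul_of_nonneg_right (mul_le_mul_of_nonneg_left h8 ?_) h9
            positivity
        _ = _ := by ring
    have t3 := mul_le_mul_of_nonneg_left t2 (mul_nonneg hG0 (hχ.nn x))
    calc (‖g x‖ ^ 2 + δ) ^ α * (Rt f u χ c x + χ x * mxd f u (fun y => Ps A j c (u y)) x)
        = (‖g x‖ ^ 2 + δ) ^ α * Rt f u χ c x + (‖g x‖ ^ 2 + δ) ^ α * χ x *
          mxd f u (fun y => Ps A j c (u y)) x := by ring
      _ ≤ Gm * |Rt f u χ c x| + (‖g x‖ ^ 2 + δ) ^ α * χ x *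
          (C * M₁ * (1 + 4 * A * j ^ 2) * psi ((A - u x) / (2 * j))) := add_le_add t1 t3
      _ = _ := by ring
  refine hle.trans ?_
  rw [integral_add (iR.const_mul _) (iQ.const_mul _), integral_const_mul, integral_const_mul]
  set Q := ∫ x, χ x * psi ((A - u x) / (2 * j)) * (‖g x‖ ^ 2 + δ) ^ α ∂ν with hQd
  set R0 := ∫ x, |Rt f u χ c x| ∂ν with hR0d
  have hAj : 0 ≤ 4 * A * j ^ 2 := by positivity
  have e : (Gm * R0 + C * M₁) * (1 + 4 * A * j ^ 2) * (1 + Q) =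
      Gm * R0 + C * M₁ * (1 + 4 * A * j ^ 2) * Q + (Gm * R0 * Q + Gm * R0 * (4 * A * j ^ 2) * (1 + Q)
        + C * M₁ * (1 + 4 * A * j ^ 2)) := by ring
  rw [e]
  have : 0 ≤ Gm * R0 * Q + Gm * R0 * (4 * A * j ^ 2) * (1 + Q) +
      C * M₁ * (1 + 4 * A * j ^ 2) := by positivity
  linarith

end Crest.Agent.R257.Avg_938
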