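import Crest.Agent.R257.Ked3_397

/-!
# R257 (S0395), task KED-DEN (helper397)

`ctDStmt`, `cvDStmt` of KED_952.
-/

set_option autoImplicit false
set_option linter.unusedSectionVars false

open Set Filter Topology Complex
open scoped ContDiff Matrix ComplexConjugate ComplexOrder

namespace Crest.Agent.R257.Ked4_397

open Crest.Agent.R275.Geo Crest.Agent.R275.EDR890
open Crest.Agent.R273.Fock_243 Crest.Agent.R273.Calc_243
open Crest.Agent.R273.Bkn_243 Crest.Agent.R273.Pos_243 Crest.Agent.R273.BochA_101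
open Crest.Agent.R273.BochB_101
open Crest.Agent.R273.BochC_101 Crest.Agent.R273.BochD_101
open Crest.Agent.R273.Hess_333 Crest.Agent.R273.HessB_333
open Crest.Agent.R273.Defs_333 Crest.Agent.R273.YauDefs_635 Crest.Agent.R273.YauMax_635
open Crest.Agent.R257.C2F1_625 (c2)
open Crest.Agent.R257.C2F2_625
open Crest.Agent.R257.Defs_219
open Crest.Agent.R257.PN_835 Crest.Agent.R257.Gram_835 Crest.Agent.R257.Aff_835
open Crest.Agent.R257.KED_952 Crest.Agent.R257.Ked1_397 Crest.Agent.R257.Ked2_397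
open Crest.Agent.R257.Ked3_397

noncomputable section

variable {l : Filter PP} {O : Set (Cn 2)} {z : Cn 2}

theorem cc_const {X : Type*} [TopologicalSpace X] {τ : PP} {F : Cn 2 → X}
    (h : CC (pure τ) (fun _ => F) F z) : ContinuousAt F z := by
  have h1 : Tendsto (fun y : Cn 2 => (τ, y)) (𝓝 z) ((pure τ : Filter PP) ×ˢ 𝓝 z) := by
    refine Tendsto.prodMk ?_ tendsto_id
    exact tendsto_pure.2 (Eventually.of_forall fun _ => rfl)
  exact (Tendsto.comp h h1 :)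

theorem CI.const {E : Type} [NormedAddCommGroup E] [NormedSpace ℝ E] (hO : IsOpen O)
    {F : Cn 2 → E} (h : ContDiffOn ℝ ∞ F O) (τ : PP) : CI (pure τ) O (fun _ => F) F where
  sm := Eventually.of_forall fun _ => h
  sm0 := h
  cv k z hz := by
    have h3 : ContDiffAt ℝ k F z := (h.contDiffAt (hO.mem_nhds hz)).of_le (by exact_mod_cast le_top)
    exact (h3.continuousAt_iteratedFDeriv le_rfl).tendsto.comp tendsto_snd

theorem cc_congr_cH {v : PP → Cn 2 → ℝ} {v₀ : Cn 2 → ℝ} (hO : IsOpen O) (h : CI l O v v₀)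
    (hz : z ∈ O) (h0 : (hess v₀ z).det ≠ 0) :
    CC l (fun τ => c2 fun y => (cH (v τ) y)ᵀ) (c2 fun y => (cH v₀ y)ᵀ) z := by
  have h1 := cc_c2 (l := l) (O := O) (z := z) hO (K := fun τ y => (hess (v τ) y)ᵀ)
    (K₀ := fun y => (hess v₀ y)ᵀ) (fun a b => h.hess hO b a) hz
    (by rw [Matrix.det_transpose]; exact h0)
  have h2 : ∀ v : Cn 2 → ℝ, ContDiffOn ℝ ∞ v O → ∀ y ∈ O,
      c2 (fun y => (hess v y)ᵀ) y = c2 (fun y => (cH v y)ᵀ) y := by
    intro v hv y hy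
    refine c2_congr ?_
    filter_upwards [hO.mem_nhds hy] with w hw
    rw [cH_eq_hess (hv.contDiffAt (hO.mem_nhds hw))]
  exact h1.congrO hO hz (h.sm.mono fun τ hτ => h2 _ hτ) (h2 _ h.sm0)

theorem cc_cH {v : PP → Cn 2 → ℝ} {v₀ : Cn 2 → ℝ} (hO : IsOpen O) (h : CI l O v v₀)
    (hz : z ∈ O) : CC l (fun τ => cH (v τ)) (cH v₀) z := by
  have h1 : CC l (fun τ => hess (v τ)) (hess v₀) z := cc_mat fun a b => (h.hess hO a b).cc hz
  exact h1.congrO hO hz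
    (h.sm.mono fun τ hτ y hy => (cH_eq_hess (hτ.contDiffAt (hO.mem_nhds hy))).symm)
    fun y hy => (cH_eq_hess (h.sm0.contDiffAt (hO.mem_nhds hy))).symm

theorem CC.re {f : PP → Cn 2 → ℂ} {f₀ : Cn 2 → ℂ} (h : CC l f f₀ z) :
    CC l (fun τ y => (f τ y).re) (fun y => (f₀ y).re) z :=
  h.comp (g := Complex.re) Complex.continuous_re.continuousAt

theorem CC.rdiv {f g : PP → Cn 2 → ℝ} {f₀ g₀ : Cn 2 → ℝ} (h : CC l f f₀ z) (h' : CC l g g₀ z)
    (h0 : g₀ z ≠ 0) : CC l (fun τ y => f τ y / g τ y) (fun y => f₀ y / g₀ y) z :=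
  Tendsto.div h h' h0

theorem contDiffOn_par {f : E3 → ℂ} {s : ℂ} {θ : Cn 2 → E3} (h : Par (n := 2) f s θ O)
    {χ : E3 → ℝ} (hχ : ContDiff ℝ ∞ χ) : ContDiffOn ℝ ∞ (fun y => χ (θ y)) O := by
  have h1 : ContDiffOn ℝ ∞ θ O :=
    ((Crest.Agent.R266.SCV.contDiffOn_omega_of_differentiableOn h.isOpen h.hol).restrict_scalars
      ℝ).of_le le_top
  exact hχ.comp_contDiffOn h1

/-- **`CtDStmt`** -/
theorem ctDStmt : CtDStmt := by
  intro f s r hr han hsm u hu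
  have hD := denStmt f s r hr han hsm
  have hpos : ∀ θ O, PE f s r θ O → ∀ z ∈ O, 0 < eta2a (n := 2) f θ z := fun θ O hP z hz =>
    Loc_835.eta2a_pos hP.par hz (hsm _ (hP.ne z hz) (hP.lt z hz) (hP.par.lvl z hz))
  have hetc : ∀ θ O, PE f s r θ O → ∀ z ∈ O, ContinuousAt (fun y => eta2a (n := 2) f θ y) z := by
    intro θ O hP z hz
    obtain ⟨q, hq, hq0, hqe⟩ := eta2a_norm (n := 2) hP.par hz (han _ (hP.lt z hz))
      (hsm _ (hP.ne z hz) (hP.lt z hz) (hP.par.lvl z hz))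
    exact (hq.continuousAt.norm.pow 2).congr hqe.symm
  constructor
  · intro θ O hP z hz
    refine ContinuousAt.continuousWithinAt ?_
    have hO := hP.par.isOpen
    have h1 := cc_congr_cH (l := pure (0 : PP)) hO (CI.const hO (hu.sm θ O hP) 0) hz
      (posDef_hess ((hu.sm θ O hP).contDiffAt (hO.mem_nhds hz)) (hu.pos θ O hP z hz)).det_pos.ne'
    have h2 := Complex.continuous_re.continuousAt.comp (cc_const h1)
    refine (h2.div (hetc θ O hP z hz) (hpos θ O hP z hz).ne').congr ?_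
    filter_upwards [hO.mem_nhds hz] with y hy
    exact (eq_div_of_mul_eq (hpos θ O hP y hy).ne' ((hD θ O hP).2 u hu y hy)).symm
  · intro χ hχ θ O hP z hz
    refine ContinuousAt.continuousWithinAt ?_
    have hO := hP.par.isOpen
    have e1 := cc_cH (l := pure (0 : PP)) hO (CI.const hO (hu.sm θ O hP) 0) hz
    have e2 := cc_cH (l := pure (0 : PP)) hO (CI.const hO (contDiffOn_par hP.par hχ) 0) hz
    have h2 := cc_const (CC.re (cc_pd e1 e2))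
    refine (h2.div (hetc θ O hP z hz) (hpos θ O hP z hz).ne').congr ?_
    filter_upwards [hO.mem_nhds hz] with y hy
    exact (eq_div_of_mul_eq (hpos θ O hP y hy).ne' ((hD θ O hP).1 u χ (hu.sm θ O hP)
      (contDiffOn_par hP.par hχ) y hy)).symm

/-! ### convergence of `|η|²` -/

section Eta

variable {Φ : E3 × PP → ℂ} {τ₀ : PP} {Θ : Cn 2 × PP → E3} {N : Set PP}

theorem tendsto_swap (hl : l ≤ 𝓝 τ₀) : Tendsto (fun p : PP × Cn 2 => (p.2, p.1)) (l ×ˢ 𝓝 z)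
    (𝓝 (z, τ₀)) := by
  rw [nhds_prod_eq]
  exact tendsto_snd.prodMk (tendsto_fst.mono_right hl)

/-- the point `(Θ(z,τ),τ)` -/
theorem tendsto_pt (hl : l ≤ 𝓝 τ₀) (hN : N ∈ 𝓝 τ₀) (hΘ : AnalyticOnNhd ℂ Θ (O ×ˢ N)) (hz : z ∈ O) :
    Tendsto (fun p : PP × Cn 2 => (Θ (p.2, p.1), p.1)) (l ×ˢ 𝓝 z) (𝓝 (Θ (z, τ₀), τ₀)) := by
  have h1 : ContinuousAt Θ (z, τ₀) := (hΘ _ ⟨hz, mem_of_mem_nhds hN⟩).continuousAt
  rw [nhds_prod_eq]
  exact (Tendsto.comp h1 (tendsto_swap hl)).prodMk (tendsto_fst.mono_right hl)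

theorem cc_DF (hl : l ≤ 𝓝 τ₀) (hO : IsOpen O) (hN : N ∈ 𝓝 τ₀)
    (hΘ : AnalyticOnNhd ℂ Θ (O ×ˢ N)) (hz : z ∈ O) (a : Fin 2) (k : Fin 3) :
    CC l (fun τ y => DF (fun y => Θ (y, τ)) y a k) (fun y => DF (fun y => Θ (y, τ₀)) y a k) z := by
  set g : Cn 2 × PP → ℂ := fun q => Θ q k with hg
  have hga : AnalyticOnNhd ℂ g (O ×ˢ N) := fun q hq =>
    ((ContinuousLinearMap.proj (R := ℂ) (φ := fun _ : Fin 3 => ℂ) k).analyticAt _).comp (hΘ q hq)
  have hτ := mem_of_mem_nhds hN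
  have h1 : ∀ τ ∈ N, ∀ y ∈ O, fderiv ℂ g (y, τ) (EuclideanSpace.single a 1, 0) =
      DF (fun y => Θ (y, τ)) y a k := by
    intro τ hτ y hy
    have h5 : HasFDerivAt g (fderiv ℂ g (y, τ)) (y, τ) :=
      (hga _ ⟨hy, hτ⟩).differentiableAt.hasFDerivAt
    have h6 := (HasFDerivAt.comp y (g := g) (f := fun e : Cn 2 => (e, τ)) h5
      (hasFDerivAt_prodMk_left y τ)).fderiv
    show _ = fderiv ℂ (fun y => g (y, τ)) y (EuclideanSpace.single a 1)
    have h7 : fderiv ℂ (fun y => g (y, τ)) y = _ := h6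
    rw [h7]
    rfl
  have h2 : ContinuousAt (fun q => fderiv ℂ g q (EuclideanSpace.single a 1, 0)) (z, τ₀) := by
    have h3 := (hga (z, τ₀) ⟨hz, hτ⟩).fderiv.continuousAt
    exact ((ContinuousLinearMap.apply ℂ ℂ
      ((EuclideanSpace.single a 1, 0) : Cn 2 × PP)).continuous.continuousAt).comp h3
  have h3 : CC l (fun τ y => fderiv ℂ g (y, τ) (EuclideanSpace.single a 1, 0))
      (fun y => fderiv ℂ g (y, τ₀) (EuclideanSpace.single a 1, 0)) z :=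
    Tendsto.comp h2 (tendsto_swap hl)
  have hev : ∀ᶠ τ in l, τ ∈ N := hl hN
  exact h3.congrO hO hz (hev.mono fun τ hτ => h1 τ hτ) (h1 τ₀ hτ)

theorem cc_gra (hl : l ≤ 𝓝 τ₀) (hN : N ∈ 𝓝 τ₀) (hΘ : AnalyticOnNhd ℂ Θ (O ×ˢ N)) (hz : z ∈ O)
    (hΦ : AnalyticAt ℂ Φ (Θ (z, τ₀), τ₀)) (k : Fin 3) :
    CC l (fun τ y => gra (n := 2) (fun x => Φ (x, τ)) (Θ (y, τ)) k)
      (fun y => gra (n := 2) (fun x => Φ (x, τ₀)) (Θ (y, τ₀)) k) z := by
  have hpt := tendsto_pt hl hN hΘ hz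
  have h1 : ∀ q : E3 × PP, AnalyticAt ℂ Φ q → fderiv ℂ Φ q (Pi.single k 1, 0) =
      gra (n := 2) (fun x => Φ (x, q.2)) q.1 k := by
    rintro ⟨x, τ⟩ hq
    have h5 : HasFDerivAt Φ (fderiv ℂ Φ (x, τ)) (x, τ) := hq.differentiableAt.hasFDerivAt
    have h6 := (HasFDerivAt.comp x (g := Φ) (f := fun e : E3 => (e, τ)) h5
      (hasFDerivAt_prodMk_left x τ)).fderiv
    show _ = fderiv ℂ (fun x => Φ (x, τ)) x (Pi.single k 1)
    have h7 : fderiv ℂ (fun x => Φ (x, τ)) x = _ := h6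
    rw [h7]
    rfl
  have h2 : ContinuousAt (fun q => fderiv ℂ Φ q (Pi.single k 1, 0)) (Θ (z, τ₀), τ₀) := by
    have h3 := hΦ.fderiv.continuousAt
    exact ((ContinuousLinearMap.apply ℂ ℂ
      ((Pi.single k 1, 0) : E3 × PP)).continuous.continuousAt).comp h3
  have h3 : Tendsto (fun p : PP × Cn 2 => fderiv ℂ Φ (Θ (p.2, p.1), p.1) (Pi.single k 1, 0))
      (l ×ˢ 𝓝 z) (𝓝 (fderiv ℂ Φ (Θ (z, τ₀), τ₀) (Pi.single k 1, 0))) := Tendsto.comp h2 hpt
  unfold CC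
  rw [h1 _ hΦ] at h3
  refine h3.congr' ?_
  filter_upwards [hpt.eventually hΦ.eventually_analyticAt] with p hp
  exact h1 _ hp

theorem cc_eta (hl : l ≤ 𝓝 τ₀) (hO : IsOpen O) (hN : N ∈ 𝓝 τ₀)
    (hΘ : AnalyticOnNhd ℂ Θ (O ×ˢ N)) (hz : z ∈ O) (hΦ : AnalyticAt ℂ Φ (Θ (z, τ₀), τ₀))
    (h0 : fderiv ℂ (fun x => Φ (x, τ₀)) (Θ (z, τ₀)) ≠ 0) :
    CC l (fun τ y => eta2a (n := 2) (fun x => Φ (x, τ)) (fun y => Θ (y, τ)) y)
      (fun y => eta2a (n := 2) (fun x => Φ (x, τ₀)) (fun y => Θ (y, τ₀)) y) z := by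
  have h1 : CC l (fun τ y => DF (fun y => Θ (y, τ)) y) (fun y => DF (fun y => Θ (y, τ₀)) y) z :=
    tendsto_pi_nhds.2 fun a => tendsto_pi_nhds.2 fun k => cc_DF hl hO hN hΘ hz a k
  have hcg : Continuous fun m : Matrix (Fin 2) (Fin 3) ℂ => (gdet m).re := by
    unfold gdet
    have h3 : Continuous fun m : Matrix (Fin 2) (Fin 3) ℂ => m * mᴴ :=
      continuous_id.matrix_mul continuous_id.matrix_conjTranspose
    exact Complex.continuous_re.comp h3.matrix_det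
  have h2 := h1.comp (g := fun m : Matrix (Fin 2) (Fin 3) ℂ => (gdet m).re) hcg.continuousAt
  have hn : Continuous (nsq : E3 → ℝ) := by
    unfold nsq
    fun_prop
  have h3 : CC l (fun τ y => gra (n := 2) (fun x => Φ (x, τ)) (Θ (y, τ)))
      (fun y => gra (n := 2) (fun x => Φ (x, τ₀)) (Θ (y, τ₀))) z :=
    tendsto_pi_nhds.2 fun k => cc_gra hl hN hΘ hz hΦ k
  have h4 := h3.comp (g := fun v : E3 => nsq v) hn.continuousAt
  exact CC.rdiv h2 h4 (nga_pos h0).ne'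

end Eta

/-- **`CvDStmt`** -/
theorem cvDStmt : CvDStmt := by
  intro Φ τ₀ l r C w u hF χ hχ
  have hr := hF.r_pos
  have key : ∀ O N Θ, Chart Φ r τ₀ O N Θ → ∀ z ∈ O,
      IsOpen O ∧ AnalyticAt ℂ Φ (Θ (z, τ₀), τ₀) ∧
      fderiv ℂ (fun x => Φ (x, τ₀)) (Θ (z, τ₀)) ≠ 0 := by
    intro O N Θ hC z hz
    have hP := hC.par τ₀ (mem_of_mem_nhds hC.nhd)
    exact ⟨hP.par.isOpen, hF.an _ (hP.lt z hz).le,
      hF.sm0 _ (hP.ne z hz) (hP.lt z hz).le (hP.par.lvl z hz)⟩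
  have hCI : ∀ O N Θ, Chart Φ r τ₀ O N Θ →
      CI l O (fun τ y => w τ (Θ (y, τ))) (fun y => u (Θ (y, τ₀))) := by
    intro O N Θ hC
    have hP := hC.par τ₀ (mem_of_mem_nhds hC.nhd)
    refine CI.of_cvOn hP.par.isOpen ?_ (hF.ke0.1.sm _ _ hP) (hF.conv O N Θ hC)
    have hev : ∀ᶠ τ in l, τ ∈ N := hF.lim hC.nhd
    filter_upwards [hF.ke, hev] with τ hτ hτN
    exact hτ.1.sm _ _ (hC.par τ hτN)
  have hχI : ∀ O N Θ, Chart Φ r τ₀ O N Θ →
      CI l O (fun τ y => χ (Θ (y, τ))) (fun y => χ (Θ (y, τ₀))) := by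
    intro O N Θ hC
    have hP := hC.par τ₀ (mem_of_mem_nhds hC.nhd)
    refine CI.joint (f := fun q => χ (Θ q)) hF.lim hP.par.isOpen hC.nhd ?_
    have h1 : ContDiffOn ℝ ∞ Θ (O ×ˢ N) := fun q hq =>
      (((hC.an q hq).contDiffAt (n := ∞)).restrict_scalars ℝ).contDiffWithinAt
    exact hχ.sm.comp_contDiffOn h1
  -- the good set
  have good : ∀ O N Θ, Chart Φ r τ₀ O N Θ → ∀ z ∈ O, ∀ᶠ p : PP × Cn 2 in l ×ˢ 𝓝 z,
      p.2 ∈ O ∧ PE (fun x => Φ (x, p.1)) 0 r (fun y => Θ (y, p.1)) O ∧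
      AnalyticAt ℂ (fun x => Φ (x, p.1)) (Θ (p.2, p.1)) ∧
      fderiv ℂ (fun x => Φ (x, p.1)) (Θ (p.2, p.1)) ≠ 0 ∧
      KEon (fun x => Φ (x, p.1)) 0 r (w p.1) := by
    intro O N Θ hC z hz
    obtain ⟨hO, hΦ, h0⟩ := key O N Θ hC z hz
    have hev : ∀ᶠ τ in l, τ ∈ N := hF.lim hC.nhd
    have e1 := (hev.and (hF.sm.and hF.ke)).prod_mk (hO.mem_nhds hz : ∀ᶠ y in 𝓝 z, y ∈ O)
    have e2 := (tendsto_pt hF.lim hC.nhd hC.an hz).eventually hΦ.eventually_analyticAt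
    filter_upwards [e1, e2] with p hp hp2
    have hP := hC.par p.1 hp.1.1
    refine ⟨hp.2, hP, ?_, hp.1.2.1 _ (hP.ne _ hp.2) (hP.lt _ hp.2).le (hP.par.lvl _ hp.2),
      hp.1.2.2.1⟩
    have h2 : AnalyticAt ℂ (fun x : E3 => (x, p.1)) (Θ (p.2, p.1)) :=
      analyticAt_id.prod analyticAt_const
    exact AnalyticAt.comp (g := Φ) (f := fun x : E3 => (x, p.1)) hp2 h2
  have hct := ctDStmt (fun x => Φ (x, τ₀)) 0 r hr
    (fun x hx => by
      have h2 : AnalyticAt ℂ (fun x : E3 => (x, τ₀)) x := analyticAt_id.prod analyticAt_const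
      exact AnalyticAt.comp (g := Φ) (f := fun x : E3 => (x, τ₀)) (hF.an x hx.le) h2)
    (fun x hx hx' hx'' => hF.sm0 x hx hx'.le hx'') u hF.ke0.1
  constructor
  · intro O N Θ hC K hKO hK
    have hP := hC.par τ₀ (mem_of_mem_nhds hC.nhd)
    refine tendstoUniformlyOn_of_cc hK (fun z hz => ?_) fun z hz =>
      (hct.1 _ _ hP).continuousAt (hP.par.isOpen.mem_nhds (hKO hz))
    have hz := hKO hz
    obtain ⟨hO, hΦ, h0⟩ := key O N Θ hC z hz
    have hI := hCI O N Θ hC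
    have hne : (hess (fun y => u (Θ (y, τ₀))) z).det ≠ 0 :=
      (posDef_hess (hI.sm0.contDiffAt (hO.mem_nhds hz)) (hF.ke0.1.pos _ _ hP z hz)).det_pos.ne'
    have h1 := CC.rdiv (CC.re (cc_congr_cH hO hI hz hne))
      (cc_eta hF.lim hO hC.nhd hC.an hz hΦ h0) (Loc_835.eta2a_pos hP.par hz h0).ne'
    refine h1.congr ?_ ?_
    · filter_upwards [good O N Θ hC z hz] with p hp
      obtain ⟨hp1, hp2, hp3, hp4, hp5⟩ := hp
      have hsm : ∀ y ∈ O, ContDiffAt ℝ ∞ (fun y => w p.1 (Θ (y, p.1))) y := fun y hy =>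
        (hp5.sm _ _ hp2).contDiffAt (hO.mem_nhds hy)
      have hne' : (cH (fun y => w p.1 (Θ (y, p.1))) p.2).det ≠ 0 := by
        rw [cH_eq_hess (hsm _ hp1)]
        exact (posDef_hess (hsm _ hp1) (hp5.pos _ _ hp2 _ hp1)).det_pos.ne'
      have h2 := c2d_eq (u := w p.1) hp2.par hp1 hp3 hp4 hsm hne'
      exact (eq_div_of_mul_eq (Loc_835.eta2a_pos hp2.par hp1 hp4).ne' h2).symm
    · have hsm : ∀ y ∈ O, ContDiffAt ℝ ∞ (fun y => u (Θ (y, τ₀))) y := fun y hy =>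
        hI.sm0.contDiffAt (hO.mem_nhds hy)
      have hne' : (cH (fun y => u (Θ (y, τ₀))) z).det ≠ 0 := by
        rw [cH_eq_hess (hsm _ hz)]
        exact hne
      have hfa : AnalyticAt ℂ (fun x => Φ (x, τ₀)) (Θ (z, τ₀)) := by
        have h2 : AnalyticAt ℂ (fun x : E3 => (x, τ₀)) (Θ (z, τ₀)) :=
          analyticAt_id.prod analyticAt_const
        exact AnalyticAt.comp (g := Φ) (f := fun x : E3 => (x, τ₀)) hΦ h2
      have h2 := c2d_eq (u := u) hP.par hz hfa h0 hsm hne'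
      exact (eq_div_of_mul_eq (Loc_835.eta2a_pos hP.par hz h0).ne' h2).symm
  · intro O N Θ hC K hKO hK
    have hP := hC.par τ₀ (mem_of_mem_nhds hC.nhd)
    refine tendstoUniformlyOn_of_cc hK (fun z hz => ?_) fun z hz =>
      (hct.2 χ hχ.sm _ _ hP).continuousAt (hP.par.isOpen.mem_nhds (hKO hz))
    have hz := hKO hz
    obtain ⟨hO, hΦ, h0⟩ := key O N Θ hC z hz
    have hI := hCI O N Θ hC
    have hJ := hχI O N Θ hC
    have h1 := CC.rdiv (CC.re (cc_pd (cc_cH hO hI hz) (cc_cH hO hJ hz)))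
      (cc_eta hF.lim hO hC.nhd hC.an hz hΦ h0) (Loc_835.eta2a_pos hP.par hz h0).ne'
    refine h1.congr ?_ ?_
    · filter_upwards [good O N Θ hC z hz] with p hp
      obtain ⟨hp1, hp2, hp3, hp4, hp5⟩ := hp
      have h2 := mxd_eq (a := w p.1) (b := χ) hp2.par hp1 hp3 hp4
        ((hp5.sm _ _ hp2).contDiffAt (hO.mem_nhds hp1))
        ((contDiffOn_par hp2.par hχ.sm).contDiffAt (hO.mem_nhds hp1))
      exact (eq_div_of_mul_eq (Loc_835.eta2a_pos hp2.par hp1 hp4).ne' h2).symm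
    · have hfa : AnalyticAt ℂ (fun x => Φ (x, τ₀)) (Θ (z, τ₀)) := by
        have h2 : AnalyticAt ℂ (fun x : E3 => (x, τ₀)) (Θ (z, τ₀)) :=
          analyticAt_id.prod analyticAt_const
        exact AnalyticAt.comp (g := Φ) (f := fun x : E3 => (x, τ₀)) hΦ h2
      have h2 := mxd_eq (a := u) (b := χ) hP.par hz hfa h0
        (hI.sm0.contDiffAt (hO.mem_nhds hz))
        ((contDiffOn_par hP.par hχ.sm).contDiffAt (hO.mem_nhds hz))
      exact (eq_div_of_mul_eq (Loc_835.eta2a_pos hP.par hz h0).ne' h2).symm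

end

end Crest.Agent.R257.Ked4_397
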