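import Crest.Agent.R257.V0b_417

/-!
# R257 (S0395), leaf V0Stmt, part c (helper417): (P2)

* `Sb u h`     : second fundamental form term `bb (HO u 0 θ) (dV h θ)`; `psd_Sb`
* `LL f r u h` : the function `log |dh|²_ω` on the level; `LL_spec`, `smL_of_spec`
* `oxd_decomp` : `oxd f u 0 h a = - L (mxd f u a + mxd f L a) + fx f Sb a`
* `hess_lu`    : `∂∂̄ log det (ω⁻¹) = - ∂∂̄ u`
-/

set_option autoImplicit false
set_option linter.unusedSectionVars false

open Set Filter Topology Complex MeasureTheory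
open scoped ContDiff Matrix ComplexConjugate ComplexOrder ENNReal

namespace Crest.Agent.R257.V0c_417

open Crest.Agent.R275.Geo Crest.Agent.R275.EDR890
open Crest.Agent.R273.Fock_243 Crest.Agent.R273.Calc_243
open Crest.Agent.R273.Bkn_243 Crest.Agent.R273.Pos_243 Crest.Agent.R273.BochA_101
open Crest.Agent.R273.BochB_101
open Crest.Agent.R273.BochC_101 Crest.Agent.R273.BochD_101
open Crest.Agent.R273.Hess_333 Crest.Agent.R273.HessB_333
open Crest.Agent.R273.Defs_333 (lev)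
open Crest.Agent.R273.YauDefs_635 (cH)
open Crest.Agent.R273.YauMax_635 (cH_eq_hess)
open Crest.Agent.R257.C2F1_625 Crest.Agent.R257.C2F2_625 Crest.Agent.R257.C2F3_625
open Crest.Agent.R257.C2F4_335 Crest.Agent.R257.C2F5_335
open Crest.Agent.R257.Defs_219
open Crest.Agent.R257.PN_835 (nsq)
open Crest.Agent.R257.Aff_835 (eta2a)
open Crest.Agent.R257.KED_952 Crest.Agent.R257.KEG_952
open Crest.Agent.R257.V1Defs_822 (SmL LvlOK)
open Crest.Agent.R257.V1Pe_822 (smAt)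
open Crest.Agent.R257.OutA_309 Crest.Agent.R257.OutB_309 Crest.Agent.R257.LossD_309
open Crest.Agent.R257.LossA_625 (fx Lv Psd dns_cases fx_add fx_congr fx_const ev_pe)
open Crest.Agent.R257.V0a_417 Crest.Agent.R257.V0b_417

noncomputable section

variable {f : E3 → ℂ} {r : ℝ} {u : E3 → ℝ} {h : E3 → ℂ} {θ : Cn 2 → E3} {O : Set (Cn 2)} {z : Cn 2}

/-- the second fundamental form term -/
def Sb (u : E3 → ℝ) (h : E3 → ℂ) : LossA_625.Frm :=
  fun θ z => bb (HO u (fun _ => 0) θ) (dV h θ) z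

theorem psd_Sb (hK : KEon f 0 r u) (hh : ∀ x, nsq x < r ^ 2 → AnalyticAt ℂ h x)
    (hN : NoZ f r h) : Psd f r (Sb u h) := by
  intro θ O hθ z hz
  have hb := bv (φ := fun _ => 0) hK smL_zero hh hθ hz
  obtain ⟨w, hw⟩ := bb_rank hb.mH hb.mP hb.mV (dV_ne hN hθ hz)
  have e : Sb u h θ z = Matrix.vecMulVec (star w) w := by
    ext c d
    rw [Matrix.vecMulVec_apply]
    exact hw c d
  rw [e]
  exact Matrix.posSemidef_vecMulVec_star_self w

/-- `L = log |dh|²_ω` on the level -/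
def IsL (f : E3 → ℂ) (r : ℝ) (u : E3 → ℝ) (h : E3 → ℂ) (L : E3 → ℝ) : Prop :=
  ∀ θ O, PE f 0 r θ O → ∀ z ∈ O, L (θ z) = Real.log (hV (HO u (fun _ => 0) θ) (dV h θ) z)

open Classical in
/-- the function `log |dh|²_ω` -/
def LL (f : E3 → ℂ) (r : ℝ) (u : E3 → ℝ) (h : E3 → ℂ) (x : E3) : ℝ :=
  if hx : ∃ p : (Cn 2 → E3) × Set (Cn 2) × Cn 2,
    PE f 0 r p.1 p.2.1 ∧ p.2.2 ∈ p.2.1 ∧ p.1 p.2.2 = x
  then Real.log (hV (HO u (fun _ => 0) hx.choose.1) (dV h hx.choose.1) hx.choose.2.2) else 0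

theorem LL_spec (hf : LvlOK f 0 r) (hK : KEon f 0 r u)
    (hh : ∀ x, nsq x < r ^ 2 → AnalyticAt ℂ h x) : IsL f r u h (LL f r u h) := by
  intro θ O hθ z hz
  have hex : ∃ p : (Cn 2 → E3) × Set (Cn 2) × Cn 2,
      PE f 0 r p.1 p.2.1 ∧ p.2.2 ∈ p.2.1 ∧ p.1 p.2.2 = θ z := ⟨(θ, O, z), hθ, hz, rfl⟩
  unfold LL
  rw [dif_pos hex]
  obtain ⟨h1, h2, h3⟩ := hex.choose_spec
  set θ' := hex.choose.1
  set O' := hex.choose.2.1
  set z' := hex.choose.2.2
  have hfz := (hf.an _ (hθ.lt z hz)).hasStrictFDerivAt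
  have h0 := hf.sm _ (hθ.ne z hz) (hθ.lt z hz) (hθ.par.lvl z hz)
  obtain ⟨T, hT, hTz, hTe⟩ := Ked1_397.exists_trans h1.par hθ.par h2 hz h3 hfz h0
  have hdet := Ked1_397.det_trans h1.par hθ.par h2 hT hTe
  have e : hV (HO u (fun _ => 0) θ') (dV h θ') z' =
      hV (HO u (fun _ => 0) θ) (dV h θ) (T z') :=
    (chg (φ := fun _ => 0) hK hh hθ hT hTe hdet).hV_eq.self_of_nhds
  rw [e, hTz]

theorem smL_of_spec {L : E3 → ℝ} (hL : IsL f r u h L) (hK : KEon f 0 r u)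
    (hh : ∀ x, nsq x < r ^ 2 → AnalyticAt ℂ h x) (hN : NoZ f r h) : SmL f 0 r L := by
  intro θ O hθ z hz
  have hb := bv (φ := fun _ => 0) hK smL_zero hh hθ hz
  have h1 := (hb.sm_lam (dV_ne hN hθ hz)).contDiffWithinAt (s := O)
  exact h1.congr (fun y hy => hL θ O hθ y hy) (hL θ O hθ z hz)

/-- `log det (ω⁻¹) = - u - log |η|²` -/
theorem hess_ld (hf : LvlOK f 0 r) (hK : KEon f 0 r u) (hθ : PE f 0 r θ O) (hz : z ∈ O) :
    hess (fun y => Real.log (HO u (fun _ => 0) θ y).det.re) z = - hess (fun z => u (θ z)) z := by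
  have hO := hθ.par.isOpen
  have hfz := hf.an _ (hθ.lt z hz)
  have h0 := hf.sm _ (hθ.ne z hz) (hθ.lt z hz) (hθ.par.lvl z hz)
  obtain ⟨q, hq, hq0, hqe⟩ := Ked2_397.eta2a_norm (n := 2) hθ.par hz hfz h0
  have hqd : ∀ᶠ w in 𝓝 z, DifferentiableAt ℂ q w :=
    hq.eventually_analyticAt.mono fun w hw => hw.differentiableAt
  set g : Cn 2 → ℝ := fun w => Real.log (‖q w‖ ^ 2) with hg
  have hgs : ContDiffAt ℝ ∞ g z := KEl_835.c2_log hq hq0 ∞
  have hus := smAt (a := u) hK.sm hθ hz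
  have e3 : (fun y => Real.log (HO u (fun _ => 0) θ y).det.re) =ᶠ[𝓝 z]
      fun y => -(u (θ y) + g y) := by
    filter_upwards [hO.mem_nhds hz, hqe, hq.continuousAt.eventually_ne hq0] with y hy hy' hy0
    have h1 : eta2a (n := 2) f θ y = ‖q y‖ ^ 2 := hy'
    have h2 : 0 < ‖q y‖ := norm_pos_iff.2 hy0
    have h3 : (HO u (fun _ => 0) θ y).det =
        (((Real.exp (u (θ y)) * ‖q y‖ ^ 2)⁻¹ : ℝ) : ℂ) := by
      show (((Real.exp (-0) : ℝ) : ℂ) • (cH (fun z => u (θ z)) y)⁻¹).det = _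
      rw [neg_zero, Real.exp_zero, Complex.ofReal_one, one_smul, Matrix.det_nonsing_inv,
        Ring.inverse_eq_inv', hK.ma θ O hθ y hy, h1, Complex.ofReal_inv]
    rw [h3, Complex.ofReal_re, Real.log_inv,
      Real.log_mul (Real.exp_pos _).ne' (by positivity), Real.log_exp]
  rw [hess_congr e3, hess_neg (hus.add hgs), hess_add hus hgs, hess_log_norm hqd hq0, add_zero]

/-- **(P2)** -/
theorem oxd_decomp (hf : LvlOK f 0 r) (hK : KEon f 0 r u)
    (hh : ∀ x, nsq x < r ^ 2 → AnalyticAt ℂ h x) (hN : NoZ f r h) {L : E3 → ℝ}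
    (hL : IsL f r u h L) {a : E3 → ℝ} {x : E3} (hx : x ∈ Lv f r) :
    oxd f u (fun _ => 0) h a x = - L x * (mxd f u a x + mxd f L a x) + fx f (Sb u h) a x := by
  obtain ⟨θ, O, z, hθ, hz, hzx, hη, hd⟩ := dns_cases hf hx
  have hLs := smL_of_spec hL hK hh hN
  have hb := bv (φ := fun _ => 0) hK smL_zero hh hθ hz
  have hus := smAt (a := u) hK.sm hθ hz
  have e1 : oxd f u (fun _ => 0) h a x = (pd (cH (fun z => a (θ z)) z)
      (Gm (HO u (fun _ => 0) θ) (dV h θ) z)).re / eta2a (n := 2) f θ z := hd _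
  have e2 : fx f (Sb u h) a x = (pd (cH (fun z => a (θ z)) z)
      (bb (HO u (fun _ => 0) θ) (dV h θ) z)).re / eta2a (n := 2) f θ z := hd _
  have e3 : ∀ b : E3 → ℝ, mxd f b a x = (pd (cH (fun z => b (θ z)) z)
      (cH (fun z => a (θ z)) z)).re / eta2a (n := 2) f θ z := fun b => hd _
  have e4 : hess (fun y => Real.log (hV (HO u (fun _ => 0) θ) (dV h θ) y)) z
      = cH (fun z => L (θ z)) z := by
    rw [cH_eq_hess (smAt hLs hθ hz)]
    refine hess_congr ?_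
    filter_upwards [hθ.par.isOpen.mem_nhds hz] with y hy
    exact (hL θ O hθ y hy).symm
  have e5 : Gm (HO u (fun _ => 0) θ) (dV h θ) z = (L x : ℂ) • (- cH (fun z => u (θ z)) z
      - cH (fun z => L (θ z)) z) + bb (HO u (fun _ => 0) θ) (dV h θ) z := by
    unfold Gm
    rw [hess_ld hf hK hθ hz, e4, ← hL θ O hθ z hz, hzx, cH_eq_hess hus]
  rw [e1, e2, e3, e3, e5, pd_add, pd_smul, pd_sub, pd_neg, Complex.add_re,
    Complex.re_ofReal_mul, Complex.sub_re, Complex.neg_re,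
    pd_comm (cH (fun z => a (θ z)) z) (cH (fun z => u (θ z)) z),
    pd_comm (cH (fun z => a (θ z)) z) (cH (fun z => L (θ z)) z)]
  ring

/-- `UpB` is an upper bound of `L` -/
theorem L_le (hf : LvlOK f 0 r) (hK : KEon f 0 r u)
    (hh : ∀ x, nsq x < r ^ 2 → AnalyticAt ℂ h x) (hN : NoZ f r h) {L : E3 → ℝ}
    (hL : IsL f r u h L) {A : ℝ} {N : ℕ} {φ : E3 → ℝ} (hA : 0 < A) (hU : UpB f r u A N φ h)
    {x : E3} (hx : x ∈ Lv f r) (h1 : 0 < A - u x) :
    L x ≤ Real.log (4 * A) + N * Real.log (A - u x) + φ x := by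
  obtain ⟨θ, O, z, hθ, hz, hzx, -, -⟩ := dns_cases hf hx
  have hb := bv (φ := fun _ => 0) hK smL_zero hh hθ hz
  have hus := smAt (a := u) hK.sm hθ hz
  set G := cH (fun z => u (θ z)) z with hG
  have hGp : G.PosDef := posDef_cH hK hθ hz
  set V := dV h θ z with hVd
  have hV0 : V ≠ 0 := dV_ne hN hθ hz
  set w : Fin 2 → ℂ := G⁻¹ *ᵥ V with hw
  have hGw : G *ᵥ w = V := by
    rw [hw, Matrix.mulVec_mulVec, Matrix.mul_nonsing_inv _ (isUnit_iff_ne_zero.2 hGp.det_pos.ne'),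
      Matrix.one_mulVec]
  have hpos : 0 < star V ⬝ᵥ w := hGp.inv.dotProduct_mulVec_pos hV0
  set t : ℝ := (star V ⬝ᵥ w).re with ht
  have ht0 : 0 < t := (Complex.lt_def.1 hpos).1
  have htc : star V ⬝ᵥ w = (t : ℂ) := Complex.ext rfl (Complex.lt_def.1 hpos).2.symm
  have hHV : hV (HO u (fun _ => 0) θ) (dV h θ) z = t := by
    show (star (dV h θ z) ⬝ᵥ ((((Real.exp (-0) : ℝ) : ℂ) • (cH (fun z => u (θ z)) z)⁻¹) *ᵥ
      dV h θ z)).re = t
    rw [neg_zero, Real.exp_zero, Complex.ofReal_one, one_smul]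
  have hLx : L x = Real.log t := by rw [← hHV, ← hzx]; exact hL θ O hθ z hz
  -- the test vector
  set v : Cn 2 := WithLp.toLp 2 (fun a => conj (w a)) with hv
  have hlev : lev (fun z => u (θ z)) z v = 4 * t := by
    have e1 : star w ⬝ᵥ (G *ᵥ w) = (t : ℂ) := by
      rw [hGw]
      have := congrArg conj htc
      rw [Complex.conj_ofReal] at this
      rw [← this]
      simp [dotProduct, Fin.sum_univ_two, mul_comm]
    rw [hG, cH_eq_hess hus, hq_eq_dot, hq_real hus] at e1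
    have e2 : lev (fun z => u (θ z)) z v / 4 = t := by exact_mod_cast e1
    linarith
  have hdh : fderiv ℂ (fun z => h (θ z)) z v = (t : ℂ) := by
    have hsum : v = ∑ a, conj (w a) • (EuclideanSpace.single a (1 : ℂ) : Cn 2) := by
      ext b
      fin_cases b <;> simp [hv]
    rw [hsum, map_sum]
    have e3 : ∀ a : Fin 2, fderiv ℂ (fun z => h (θ z)) z
        (conj (w a) • (EuclideanSpace.single a (1 : ℂ) : Cn 2)) = conj (w a) * V a := fun a => by
      rw [map_smul, smul_eq_mul]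
      rfl
    simp only [e3]
    have := congrArg conj htc
    rw [Complex.conj_ofReal] at this
    rw [← this]
    simp [dotProduct, Fin.sum_univ_two, mul_comm]
  have hB := hU θ O hθ z hz v
  rw [hdh, hlev, hzx, Complex.norm_real, Real.norm_of_nonneg ht0.le] at hB
  have h2 : t ≤ 4 * A * (A - u x) ^ N * Real.exp (φ x) := by
    have h3 : t * t ≤ t * (4 * A * (A - u x) ^ N * Real.exp (φ x)) := by nlinarith
    exact le_of_mul_le_mul_left h3 ht0
  have h3 := Real.log_le_log ht0 h2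
  rw [hLx]
  refine h3.trans (le_of_eq ?_)
  rw [Real.log_mul (by positivity) (Real.exp_pos _).ne', Real.log_mul (by positivity)
    (by positivity), Real.log_pow, Real.log_exp]

/-- `|dh|²_ω = e^L` -/
theorem exp_L (hK : KEon f 0 r u)
    (hh : ∀ x, nsq x < r ^ 2 → AnalyticAt ℂ h x) (hN : NoZ f r h) {L : E3 → ℝ}
    (hL : IsL f r u h L) (hθ : PE f 0 r θ O) (hz : z ∈ O) :
    Real.exp (L (θ z)) = hV (HO u (fun _ => 0) θ) (dV h θ) z := by
  rw [hL θ O hθ z hz, Real.exp_log ((bv (φ := fun _ => 0) hK smL_zero hh hθ hz).pos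
    (dV_ne hN hθ hz))]

end

end Crest.Agent.R257.V0c_417
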