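import Crest.Agent.R257.LossE_625
import Crest.Agent.R257.V0c_417
import Crest.Agent.R257.Ked4_397

/-!
# R257 (S0395), task GB-LOSS (helper625): the first half of `V0Stmt` (LossD_309)

* `half_avg` : averaged hypothesis (`Avg`, helper938)
* `V01Stmt`  : first half of `V0Stmt`, `v01Stmt : V01Stmt`
-/

set_option autoImplicit false
set_option linter.unusedSectionVars false

open Topology Filter MeasureTheory Set
open scoped ENNReal ContDiff Matrix ComplexOrder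

noncomputable section

namespace Crest.Agent.R257.LossF_625

open Crest.Agent.R275.Geo
open Crest.Agent.R257.Defs_219
open Crest.Agent.R257.KED_952 Crest.Agent.R257.KEG_952
open Crest.Agent.R257.V1Defs_822 (SmL LvlOK lgh)
open Crest.Agent.R257.LossA_625 Crest.Agent.R257.LossB_625 Crest.Agent.R257.LossC_625
open Crest.Agent.R257.LossD_309 (HO dV oxd V0Stmt)
open Crest.Agent.R257.V0c_417 (IsL LL LL_spec)
open Crest.Agent.R273.Defs_333 (lev)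
open Crest.Agent.R273.YauDefs_635 (cH)
open Crest.Agent.R257.PN_835 (nsq)
open Crest.Agent.R257.C2F2_625 (hV)

variable {f : E3 → ℂ} {r A : ℝ} {u χ : E3 → ℝ} {ν : Measure E3} {h : E3 → ℂ}

theorem sit_of (hf : LvlOK f 0 r) (hK : KEon f 0 r u) (hν : IsNu f 0 r ν) (hχ : Cut r χ)
    (h1 : ∀ x, f x = 0 → x ≠ 0 → nsq x < r ^ 2 → 1 ≤ A - u x)
    (h2 : ∀ c : ℝ, ∃ δ : ℝ, 0 < δ ∧ ∀ x, f x = 0 → x ≠ 0 → nsq x < δ ^ 2 → u x < c) :
    Sit f r ν A u χ :=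
  ⟨hf, hν, hK, hχ, fun x hx => h1 x hx.1 hx.2.1 hx.2.2, fun c => by
    obtain ⟨δ, hδ, h3⟩ := h2 c
    exact ⟨δ, hδ, fun x hx hx2 => h3 x hx.1 hx.2.1 hx2⟩⟩

theorem sec_of (hf : LvlOK f 0 r) (hK : KEon f 0 r u) (hν : IsNu f 0 r ν)
    (hh : ∀ x, nsq x < r ^ 2 → AnalyticAt ℂ h x) (hN : NoZ f r h) {L : E3 → ℝ}
    (hL : IsL f r u h L) :
    Sec f r ν u L (V0c_417.Sb u h) (fun a => oxd f u (fun _ => 0) h a) (c2d f u) where
  sm := V0c_417.smL_of_spec hL hK hh hN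
  psd := V0c_417.psd_Sb hK hh hN
  c0 x hx := by
    have := Ked2_397.bmyStmt f 0 r u hf.pos hf.an hf.sm hK x hx.1 hx.2.1 hx.2.2
    have := Real.exp_pos (u x)
    linarith
  p2 a _ x hx := V0c_417.oxd_decomp hf hK hh hN hL hx
  p1 a ha hc := by
    obtain ⟨r₁, r₂, h1, h2, h3, h4⟩ := hc
    refine V0b_417.oxd_int hf hK hh hN hν ha ⟨r₁, (r₂ + r) / 2, h1, by linarith, by linarith,
      fun x hx hx2 => h4 x hx (hx2.imp id fun h5 => lt_of_le_of_lt ?_ h5)⟩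
    exact pow_le_pow_left₀ h2 (by linarith) 2

/-- **the first half, averaged hypothesis** -/
theorem half_avg (hf : LvlOK f 0 r) (hK : KEon f 0 r u) (hν : IsNu f 0 r ν) (hχ : Cut r χ)
    (hC2 : C2I ν f u χ < ⊤) (hA : 0 < A)
    (h1 : ∀ x, f x = 0 → x ≠ 0 → nsq x < r ^ 2 → 1 ≤ A - u x)
    (h2 : ∀ c : ℝ, ∃ δ : ℝ, 0 < δ ∧ ∀ x, f x = 0 → x ≠ 0 → nsq x < δ ^ 2 → u x < c)
    {φ : E3 → ℝ} (hφ : SmL f 0 r φ)
    (hp : ∀ θ O, PE f 0 r θ O → ∀ z ∈ O, ∀ v : Cn 2, 0 ≤ lev (fun z => φ (θ z)) z v)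
    (hφA : ∀ x, f x = 0 → x ≠ 0 → nsq x < r ^ 2 → φ x ≤ A)
    (hφφ : Integrable (fun x => χ x * mxd f φ φ x) ν)
    (hh : ∀ x, nsq x < r ^ 2 → AnalyticAt ℂ h x) (hN : NoZ f r h) {L : E3 → ℝ}
    (hL : IsL f r u h L)
    (ha : Avg f ν A u χ (fun x => L x - φ x) fun y => 2 * φ y + u y) :
    ∫ x, oxd f u (fun _ => 0) h χ x ∂ν ≤
      (C2I ν f u χ).toReal - Real.pi ^ 2 * (mss ν f u φ χ + mss ν f φ φ χ) := by
  have hs := sit_of hf hK hν hχ h1 h2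
  have s := sec_of hf hK hν hh hN hL
  have hct : CtL f 0 r (c2d f u) := (Ked4_397.ctDStmt f 0 r hf.pos hf.an hf.sm u hK).1
  have hm : AEMeasurable (fun x => χ x * c2d f u x) ν :=
    hχ.sm.continuous.measurable.aemeasurable.mul
      (KedM_941.measStmt f 0 r hf.pos hf.an hf.sm ν hν _ hct)
  have h0 : ∀ᵐ x ∂ν, 0 ≤ χ x * c2d f u x :=
    LossB_625.ae_lv hν fun x hx => mul_nonneg (hχ.nn x) (s.c0 x hx)
  have hc : Integrable (fun x => χ x * c2d f u x) ν := by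
    refine ⟨hm.aestronglyMeasurable, ?_⟩
    rw [hasFiniteIntegral_iff_ofReal h0]
    exact hC2
  have e0 : (C2I ν f u χ).toReal = ∫ x, χ x * c2d f u x ∂ν := by
    rw [integral_eq_lintegral_of_nonneg_ae h0 hm.aestronglyMeasurable]
    rfl
  obtain ⟨-, -, key⟩ := hs.half1 s hA hφ hp (fun x hx => hφA x hx.1 hx.2.1 hx.2.2)
    (fun x => rfl) ha hc hφφ
  have hpi : Real.pi ^ 2 ≠ 0 := by positivity
  have e1 : Real.pi ^ 2 * (mss ν f u φ χ + mss ν f φ φ χ) =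
      (∫ x, u x * mxd f φ χ x ∂ν - ∫ x, χ x * mxd f u φ x ∂ν) +
        (∫ x, φ x * mxd f φ χ x ∂ν - ∫ x, χ x * mxd f φ φ x ∂ν) := by
    unfold mss
    field_simp
  rw [e0, e1]
  linarith

/-- `UpB` implies the averaged hypothesis -/
theorem avg_of_upb (hf : LvlOK f 0 r) (hK : KEon f 0 r u) (hν : IsNu f 0 r ν) (hχ : Cut r χ)
    (hA : 0 < A) (h1 : ∀ x, f x = 0 → x ≠ 0 → nsq x < r ^ 2 → 1 ≤ A - u x)
    (h2 : ∀ c : ℝ, ∃ δ : ℝ, 0 < δ ∧ ∀ x, f x = 0 → x ≠ 0 → nsq x < δ ^ 2 → u x < c)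
    {φ : E3 → ℝ} (hφ : SmL f 0 r φ)
    (hp : ∀ θ O, PE f 0 r θ O → ∀ z ∈ O, ∀ v : Cn 2, 0 ≤ lev (fun z => φ (θ z)) z v)
    (hh : ∀ x, nsq x < r ^ 2 → AnalyticAt ℂ h x) (hN : NoZ f r h) {L : E3 → ℝ}
    (hL : IsL f r u h L) {N : ℕ} (hU : UpB f r u A N φ h) :
    Avg f ν A u χ (fun x => L x - φ x) fun y => 2 * φ y + u y := by
  have hs := sit_of hf hK hν hχ h1 h2
  have s := sec_of hf hK hν hh hN hL
  have hw : SmL f 0 r fun y => 2 * φ y + u y := smL_add (smL_smul 2 hφ) hK.sm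
  have hpu : ∀ θ O, PE f 0 r θ O → ∀ z ∈ O, ∀ v : Cn 2, 0 ≤ lev (fun z => u (θ z)) z v :=
    fun θ O hP z hz v => by
      by_cases hv : v = 0
      · rw [hv, Crest.Agent.R273.YauDefs_635.lev333_eq_lev145,
          Crest.Agent.R273.Levi_145.lev_zero, mul_zero]
      · exact (hK.pos θ O hP z hz v hv).le
  refine hs.avg_of_le hw (fun θ O hP z hz v => ?_) (smL_D s.sm hφ fun x => rfl)
    (C := |Real.log (4 * A)| + N) (by positivity) fun x hx => ?_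
  · have a1 := V1Pe_822.smAt hφ hP hz
    have a2 := V1Pe_822.smAt (a := u) hK.sm hP hz
    have b1 := hp θ O hP z hz v
    have b2 := hpu θ O hP z hz v
    rw [Crest.Agent.R273.YauDefs_635.lev333_eq_lev145] at b1 b2 ⊢
    rw [Crest.Agent.R273.Levi_145.lev_add ((contDiffAt_const.mul a1).of_le V1Pe_822.two_le_inf)
      (a2.of_le V1Pe_822.two_le_inf), Crest.Agent.R273.Levi_145.lev_const_mul 2
      (a1.of_le V1Pe_822.two_le_inf)]
    linarith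
  · have h3 := h1 x hx.1 hx.2.1 hx.2.2
    have h4 := V0c_417.L_le hf hK hh hN hL hA hU hx (by linarith)
    have h5 := Real.log_nonneg h3
    have h6 : (0 : ℝ) ≤ N := Nat.cast_nonneg N
    have h7 := le_abs_self (Real.log (4 * A))
    have h8 := abs_nonneg (Real.log (4 * A))
    nlinarith [mul_nonneg h8 h5]

/-- the first half of `V0Stmt` -/
def V01Stmt : Prop := ∀ (f : E3 → ℂ) (r C : ℝ) (u : E3 → ℝ), Iso f → LvlOK f 0 r →
  KEon f 0 r u → Bd f 0 r C u → ∀ ν, IsNu f 0 r ν → ∀ χ, Cut r χ → C2I ν f u χ < ⊤ →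
  VOL ν u χ < ⊤ → ∀ A : ℝ, Esc f r u A → ∀ φ : E3 → ℝ, SmL f 0 r φ →
  (∀ θ O, PE f 0 r θ O → ∀ z ∈ O, ∀ v : Cn 2, 0 ≤ lev (fun z => φ (θ z)) z v) →
  (∀ x, f x = 0 → x ≠ 0 → nsq x < r ^ 2 → - A * (A - u x) ≤ φ x ∧ φ x ≤ A) →
  Integrable (fun x => χ x * mxd f φ φ x) ν →
  ∀ (N : ℕ) (h : E3 → ℂ), (∀ x, nsq x ≤ r ^ 2 → AnalyticAt ℂ h x) →
  NoZ f r h → UpB f r u A N φ h →
  ∫ x, oxd f u (fun _ => 0) h χ x ∂ν ≤
    (C2I ν f u χ).toReal - Real.pi ^ 2 * (mss ν f u φ χ + mss ν f φ φ χ)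

theorem v01Stmt : V01Stmt := by
  intro f r C u _ hf hK _ ν hν χ hχ hC2 _ A hE φ hφ hp hb hφφ N h hh hN hU
  have hh' : ∀ x, nsq x < r ^ 2 → AnalyticAt ℂ h x := fun x hx => hh x hx.le
  have hL := LL_spec hf hK hh'
  exact half_avg hf hK hν hχ hC2 hE.pos hE.one hE.inf hφ hp
    (fun x h1 h2 h3 => (hb x h1 h2 h3).2) hφφ hh' hN hL
    (avg_of_upb hf hK hν hχ hE.pos hE.one hE.inf hφ hp hh' hN hL hU)

end Crest.Agent.R257.LossF_625
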