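import Crest.Agent.R257.Avg5_938
import Crest.Agent.R257.LossF_625

/-!
# R257 (S0395), GB0 (helper938), task AVG, part 6: **the averaged gradient bound**

* `avg` : `∫ χ |g|^(2/p) dν < ∞`, `κ ≤ p` ⟹ `LossC_625.Avg` for `D = log |dg|²_ω - κ u`
-/

set_option autoImplicit false
set_option linter.unusedSectionVars false
set_option maxHeartbeats 1000000

open Set Filter Topology MeasureTheory
open scoped ContDiff Matrix ComplexConjugate ComplexOrder

noncomputable section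

namespace Crest.Agent.R257.Avg_938

open Crest.Agent.R275.Geo
open Crest.Agent.R257.Defs_219 Crest.Agent.R257.KED_952 Crest.Agent.R257.V1Defs_822
open Crest.Agent.R257.V1Pe_822 Crest.Agent.R257.Bridge_822 Crest.Agent.R257.UpK_938
open Crest.Agent.R257.CmpL_822
open Crest.Agent.R257.PN_835 (nsq)
open Crest.Agent.R257.Aff_835 (eta2a)
open Crest.Agent.R273.YauDefs_635 (cH)
open Crest.Agent.R257.C2F1_625 (pd)
open Crest.Agent.R257.C2F2_625 (hV)
open Crest.Agent.R257.KEG_952 (Esc NoZ)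
open Crest.Agent.R257.LossD_309 (HO dV)
open Crest.Agent.R257.V0c_417 (IsL)
open Crest.Agent.R257.LossA_625 (cv cv_sm cv_zero cv_anti hasDerivAt_cv gg gg_nonneg dgg_nonpos
  hasDerivAt_gg sc sc_pos)
open Crest.Agent.R257.LossC_625 (Avg cj)

variable {f : E3 → ℂ} {r : ℝ} {g : E3 → ℂ} {u χ : E3 → ℝ} {A : ℝ} {ν : Measure E3}

/-! ### the cut-off function of helper625 -/

theorem cv_d1 (t : ℝ) : deriv cv t ≤ 0 := cv_anti.deriv_nonpos

theorem cv_d2 (t : ℝ) : 0 ≤ deriv (deriv cv) t := by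
  have e : deriv cv = fun t => -(sc * gg t) := funext fun t => (hasDerivAt_cv t).deriv
  rw [e]
  have h := ((hasDerivAt_gg t).const_mul sc).neg
  have e2 : deriv (fun t => -(sc * gg t)) t = -(sc * deriv gg t) := h.deriv
  rw [e2]
  have := mul_nonneg sc_pos.le (neg_nonneg.2 (dgg_nonpos t))
  linarith

/-! ### `log |dg|²` -/

theorem hV_qd {X : Matrix (Fin 2) (Fin 2) ℂ} (hX : X.PosDef) (p : Fin 2 → ℂ) :
    (star p ⬝ᵥ (X⁻¹ *ᵥ p)).re * X.det.re = qd X p := by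
  have hd := (Complex.pos_iff.1 hX.det_pos)
  have e1 : X.det = ((X.det.re : ℝ) : ℂ) := by
    apply Complex.ext
    · simp
    · simp [← hd.2]
  have h0 : X.det ≠ 0 := hX.det_pos.ne'
  have e2 : X.det • X⁻¹ = X.adjugate := by
    rw [Matrix.inv_def, Ring.inverse_eq_inv', smul_smul, mul_inv_cancel₀ h0, one_smul]
  have e3 : (star p ⬝ᵥ (X⁻¹ *ᵥ p)) * X.det = star p ⬝ᵥ (X.adjugate *ᵥ p) := by
    rw [← e2, Matrix.smul_mulVec, dotProduct_smul, smul_eq_mul, mul_comm]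
  have e4 : (star p ⬝ᵥ (X⁻¹ *ᵥ p)).re * X.det.re = ((star p ⬝ᵥ (X⁻¹ *ᵥ p)) * X.det).re := by
    rw [e1, Complex.re_mul_ofReal, Complex.ofReal_re]
  rw [e4, e3, qd_eq]
  congr 1
  simp only [dotProduct, Matrix.mulVec, Finset.mul_sum, Pi.star_apply, RCLike.star_def]
  rw [Finset.sum_comm]
  refine Finset.sum_congr rfl fun a _ => Finset.sum_congr rfl fun b _ => ?_
  ring

/-- `e^{L + u} = ∂∂̄|g|² ∧ ω` -/
theorem exp_L (hL : LvlOK f 0 r) (hu : KEon f 0 r u) (hg : ∀ x, nsq x < r ^ 2 → AnalyticAt ℂ g x)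
    (hN : NoZ f r g) {L : E3 → ℝ} (hLL : IsL f r u g L) {x : E3} (hx : x ≠ 0)
    (hr : nsq x < r ^ 2) (hfx : f x = 0) :
    Real.exp (L x + u x) = mxd f u (fun y => ‖g y‖ ^ 2) x := by
  obtain ⟨θ, O, z, h1, h2, h3, h4⟩ := mxd_cases hx hr hfx hL
  have he := eta_pos hu h1 h2
  have hO := h1.par.isOpen
  have hgd : DifferentiableOn ℂ (fun z => g (θ z)) O := fun w hw =>
    ((hg _ (h1.lt w hw)).differentiableAt.comp w
      (h1.par.hol.differentiableAt (hO.mem_nhds hw))).differentiableWithinAt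
  have e1 : (pd (cH (fun z => u (θ z)) z) (cH (fun z => ‖g (θ z)‖ ^ 2) z)).re =
      qd (cH (fun z => u (θ z)) z) (dgm (fun z => g (θ z)) z) := by
    rw [cH_nrm hO hgd h2]
    rfl
  have hP := posDef_cH hu h1 h2
  have e2 := hV_qd hP (dgm (fun z => g (θ z)) z)
  rw [det_cH hu h1 h2] at e2
  have e3 : hV (HO u (fun _ => 0) θ) (dV g θ) z =
      (star (dgm (fun z => g (θ z)) z) ⬝ᵥ
        ((cH (fun z => u (θ z)) z)⁻¹ *ᵥ dgm (fun z => g (θ z)) z)).re := by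
    unfold hV HO
    rw [neg_zero, Real.exp_zero, Complex.ofReal_one, one_smul]
    rfl
  have hne : dgm (fun z => g (θ z)) z ≠ 0 := by
    intro h0
    apply hN θ O h1 z h2
    ext v
    have e5 : v = ∑ a : Fin 2, v a • EuclideanSpace.single a (1 : ℂ) := by
      ext i
      simp [Fin.sum_univ_two]
      fin_cases i <;> simp
    have h6 : ∀ a, fderiv ℂ (fun z => g (θ z)) z (EuclideanSpace.single a 1) = 0 :=
      fun a => congrFun h0 a
    rw [e5, map_sum]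
    simp [h6]
  have hpos : 0 < hV (HO u (fun _ => 0) θ) (dV g θ) z := by
    rw [e3]
    exact (Complex.pos_iff.1 (hP.inv.dotProduct_mulVec_pos hne)).1
  have e4 := hLL θ O h1 z h2
  rw [h3] at e4 e2
  rw [h4, e1, ← e2, Real.exp_add, e4, Real.exp_log hpos, e3, ← h3]
  field_simp

/-! ### the powers -/

theorem rpow_add_le' {x y z : ℝ} (hx : 0 ≤ x) (hy : 0 ≤ y) (h0 : 0 ≤ z) (h1 : z ≤ 1) :
    (x + y) ^ z ≤ x ^ z + y ^ z := by
  have h := NNReal.rpow_add_le_add_rpow ⟨x, hx⟩ ⟨y, hy⟩ h0 h1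
  exact_mod_cast h

theorem exists_del {α : ℝ} (hα : 0 < α) (N : ℝ) : ∃ δ : ℝ, 0 < δ ∧ δ ≤ 1 ∧ δ ^ α * N ≤ 1 := by
  set y : ℝ := (|N| + 1)⁻¹ with hy
  have hN := abs_nonneg N
  have y0 : 0 < y := by positivity
  have y1 : y ≤ 1 := inv_le_one_of_one_le₀ (by linarith)
  refine ⟨y ^ α⁻¹, Real.rpow_pos_of_pos y0 _, Real.rpow_le_one y0.le y1 (inv_nonneg.2 hα.le), ?_⟩
  rw [← Real.rpow_mul y0.le, inv_mul_cancel₀ hα.ne', Real.rpow_one]
  calc y * N ≤ y * |N| := mul_le_mul_of_nonneg_left (le_abs_self N) y0.le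
    _ ≤ 1 := by
        rw [hy, inv_mul_le_iff₀ (by positivity)]
        linarith

theorem psi_half (t j : ℝ) (hj : 0 < j) : psi (t / j) ≤ psi (t / (2 * j)) := by
  rcases le_or_gt 2 (t / j) with h | h
  · rw [psi_zero h]
    exact psi_nn _
  · have : psi (t / (2 * j)) = 1 := by
      refine psi_one ?_
      rw [div_lt_iff₀ hj] at h
      rw [div_le_iff₀ (by positivity)]
      linarith
    rw [this]
    exact psi_le _

theorem int_comb {a₁ a₂ a₃ : E3 → ℝ} (i1 : Integrable a₁ ν) (i2 : Integrable a₂ ν)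
    (i3 : Integrable a₃ ν) (c₁ c₂ c₃ c₄ : ℝ) :
    Integrable (fun x => c₁ * a₁ x + c₂ * (c₃ * a₂ x + c₄ * a₃ x)) ν ∧
    ∫ x, (c₁ * a₁ x + c₂ * (c₃ * a₂ x + c₄ * a₃ x)) ∂ν =
      c₁ * (∫ x, a₁ x ∂ν) + c₂ * (c₃ * (∫ x, a₂ x ∂ν) + c₄ * ∫ x, a₃ x ∂ν) := by
  have k1 : Integrable (fun x => c₁ * a₁ x) ν := i1.const_mul _
  have k2 : Integrable (fun x => c₃ * a₂ x) ν := i2.const_mul _
  have k3 : Integrable (fun x => c₄ * a₃ x) ν := i3.const_mul _
  have k4 : Integrable (fun x => c₃ * a₂ x + c₄ * a₃ x) ν := k2.add k3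
  have k5 : Integrable (fun x => c₂ * (c₃ * a₂ x + c₄ * a₃ x)) ν := k4.const_mul _
  refine ⟨k1.add k5, ?_⟩
  rw [integral_add k1 k5, integral_const_mul, integral_const_mul, integral_add k2 k3,
    integral_const_mul, integral_const_mul]

theorem exp_le_M {c t C₀ : ℝ} (hc0 : 0 ≤ c) (hc1 : c ≤ 1) (h : t ≤ C₀) :
    Real.exp ((1 - c) * t) ≤ Real.exp |C₀| := by
  refine Real.exp_le_exp.2 ?_
  have h10 := le_abs_self C₀
  have h11 := abs_nonneg C₀
  rcases le_or_gt 0 t with h12 | h12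
  · have : (1 - c) * t ≤ 1 * t := mul_le_mul_of_nonneg_right (by linarith) h12
    linarith
  · have : (1 - c) * t ≤ 0 := mul_nonpos_of_nonneg_of_nonpos (by linarith) h12.le
    linarith

theorem arith1 {A j : ℝ} (hj : 1 ≤ j ^ 2) : 1 + 4 * A * j ^ 2 ≤ (1 + 4 * A) * j ^ 2 := by
  linarith

theorem arith2 {Q J j : ℝ} (hj : 1 ≤ j ^ 2) (hJ : 0 ≤ J) (h : Q ≤ J + 1) :
    Q ≤ (1 + J) * j ^ 2 := by
  have : (1 + J) * 1 ≤ (1 + J) * j ^ 2 := mul_le_mul_of_nonneg_left hj (by linarith)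
  linarith

/-- **the averaged bound**, quantitative form -/
theorem avg_core (hL : LvlOK f 0 r) (hu : KEon f 0 r u) {C₀ : ℝ}
    (hhi : ∀ x, f x = 0 → x ≠ 0 → nsq x < r ^ 2 → u x ≤ C₀)
    (hE : Esc f r u A) (hν : IsNu f 0 r ν) (hχ : Cut r χ)
    (hg : ∀ x, nsq x < r ^ 2 → AnalyticAt ℂ g x) {p κ : ℝ} (hp : 1 ≤ p) (hκ : 0 ≤ κ)
    (hκp : κ ≤ p) (hint : Integrable (fun x => χ x * (‖g x‖ ^ 2) ^ p⁻¹) ν) :
    ∃ Cst : ℝ, 0 ≤ Cst ∧ ∀ᶠ j : ℝ in atTop, ∃ B : E3 → ℝ, Integrable B ν ∧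
      ∫ x, B x ∂ν ≤ Cst * (1 + Real.log j) / j ∧
      ∀ x, f x = 0 → x ≠ 0 → nsq x < r ^ 2 → 0 ≤ B x ∧ ∀ D : ℝ,
        Real.exp (D + (κ + 1) * u x) ≤ mxd f u (fun y => ‖g y‖ ^ 2) x →
        χ x * (max D 0 * mxd f u (fun y => Fj cv A j (u y)) x) ≤ B x := by
  have hp0 : 0 < p := by linarith
  have hα0 : 0 < p⁻¹ := inv_pos.2 hp0
  have hα1 : p⁻¹ ≤ 1 := inv_le_one_of_one_le₀ hp
  set c := κ / p with hc
  have hc0 : 0 ≤ c := div_nonneg hκ hp0.le
  have hc1 : c ≤ 1 := (div_le_one hp0).2 hκp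
  obtain ⟨CP, cP, hPj⟩ := Pj_bd hL hu hE cv_sm cv_d1 cv_d2 (fun t ht => cv_zero ht)
  obtain ⟨C1, c1, hI1⟩ := int_Pj hL hu hE hν hχ cv_sm (fun t ht => cv_zero ht)
  obtain ⟨C3, c3, hI3⟩ := int_Ps hL hu hhi hE hν hχ hg hc0 hc1 hα0
  have su : SmL f 0 r u := hu.sm
  have sχ : SmL f 0 r χ := cut_smL hχ
  obtain ⟨r₁, ρ, h1, h2, h3, h4, h5, h6⟩ := cut_rad hχ
  have hA := hE.pos
  set M₁ : ℝ := Real.exp |C₀| with hM₁
  have hM1 : 0 < M₁ := Real.exp_pos _
  set J : ℝ := ∫ x, χ x * (‖g x‖ ^ 2) ^ p⁻¹ ∂ν with hJ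
  have hJ0 : 0 ≤ J := integral_nonneg fun x => by
    have := hχ.nn x
    positivity
  refine ⟨3 * p * C1 + p * CP * (p ^ 2 * (C3 * (1 + 4 * A) * (2 + J)) + M₁ * (1 + J)),
    by positivity, ?_⟩
  filter_upwards [hI1, hI3, eventually_ge_atTop 1] with j hj1 hj3 hj
  have hj0 : 0 < j := by linarith
  -- the volume of the cut-off, and δ
  obtain ⟨d, d1, d2, d3⟩ := inner hE (4 * j) h1
  have sψ : SmL f 0 r fun x => psi ((A - u x) / (2 * j)) :=
    smL_comp su (Fj_sm psi_sm A (2 * j))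
  have iN : Integrable (fun x => χ x * psi ((A - u x) / (2 * j))) ν := by
    refine int_M hL hν ((cont_L hL sχ).mul (cont_L hL sψ)) d1 h2.le h3 fun x hfx hx hr h7 => ?_
    rcases h7 with h | h
    · have h8 := d3 x hfx hx h
      have h9 : psi ((A - u x) / (2 * j)) = 0 := psi_zero (by
        rw [le_div_iff₀ (by positivity)]; linarith)
      rw [h9, mul_zero]
    · rw [(h6 _ h).self_of_nhds, zero_mul]
  obtain ⟨δ, δ0, δ1, hδ⟩ := exists_del hα0 (∫ x, χ x * psi ((A - u x) / (2 * j)) ∂ν)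
  obtain ⟨i1, b1⟩ := hj1
  obtain ⟨i3, iQ, b3⟩ := hj3 δ δ0 δ1
  set Q : ℝ := ∫ x, χ x * psi ((A - u x) / (2 * j)) * (‖g x‖ ^ 2 + δ) ^ p⁻¹ ∂ν with hQ
  have hQ0 : 0 ≤ Q := integral_nonneg fun x => by
    have := hχ.nn x
    have := psi_nn ((A - u x) / (2 * j))
    positivity
  have hQJ : Q ≤ J + 1 := by
    have e : Q ≤ ∫ x, (χ x * (‖g x‖ ^ 2) ^ p⁻¹ + δ ^ p⁻¹ * (χ x * psi ((A - u x) / (2 * j)))) ∂ν := by
      refine int_mono hν iQ (hint.add (iN.const_mul _)) fun x _ _ _ => ?_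
      have k1 := hχ.nn x
      have k2 := psi_nn ((A - u x) / (2 * j))
      have k3 := psi_le ((A - u x) / (2 * j))
      have k4 := rpow_add_le' (x := ‖g x‖ ^ 2) (y := δ) (z := p⁻¹) (by positivity) δ0.le hα0.le hα1
      have k5 : 0 ≤ (‖g x‖ ^ 2) ^ p⁻¹ := by positivity
      have k6 : 0 ≤ δ ^ p⁻¹ := by positivity
      calc χ x * psi ((A - u x) / (2 * j)) * (‖g x‖ ^ 2 + δ) ^ p⁻¹
          ≤ χ x * psi ((A - u x) / (2 * j)) * ((‖g x‖ ^ 2) ^ p⁻¹ + δ ^ p⁻¹) :=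
            mul_le_mul_of_nonneg_left k4 (by positivity)
        _ = χ x * ((‖g x‖ ^ 2) ^ p⁻¹) * psi ((A - u x) / (2 * j)) +
            δ ^ p⁻¹ * (χ x * psi ((A - u x) / (2 * j))) := by ring
        _ ≤ χ x * ((‖g x‖ ^ 2) ^ p⁻¹) * 1 +
            δ ^ p⁻¹ * (χ x * psi ((A - u x) / (2 * j))) := by
            have := mul_le_mul_of_nonneg_left k3 (mul_nonneg k1 k5)
            linarith
        _ = _ := by ring
    rw [integral_add hint (iN.const_mul _), integral_const_mul] at e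
    linarith
  -- the function B
  set s : ℝ := j ^ 3 with hs
  have hs1 : 1 ≤ s := one_le_pow₀ hj
  have hs0 : 0 < s := by linarith
  have hls : 0 ≤ Real.log s := Real.log_nonneg hs1
  obtain ⟨iB, eB⟩ := int_comb i1 i3 iQ (p * (Real.log s + 1 / s)) (p / s * CP) (p ^ 2) M₁
  refine ⟨_, iB, ?_, ?_⟩
  · rw [eB]
    have t1 : p * (Real.log s + 1 / s) * (∫ x, χ x * mxd f u (fun y => Fj cv A j (u y)) x ∂ν) ≤
        p * (3 * (1 + Real.log j)) * (C1 / j) := by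
      have e1 : Real.log s = 3 * Real.log j := by
        rw [hs, Real.log_pow]; norm_num
      have e2 : 1 / s ≤ 1 := by rw [div_le_one hs0]; exact hs1
      have e3 : Real.log s + 1 / s ≤ 3 * (1 + Real.log j) := by rw [e1]; linarith
      have e4 : 0 ≤ p * (Real.log s + 1 / s) := by positivity
      have hlj := Real.log_nonneg hj
      calc p * (Real.log s + 1 / s) * (∫ x, χ x * mxd f u (fun y => Fj cv A j (u y)) x ∂ν)
          ≤ p * (Real.log s + 1 / s) * (C1 / j) := mul_le_mul_of_nonneg_left b1 e4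
        _ ≤ _ := mul_le_mul_of_nonneg_right (mul_le_mul_of_nonneg_left e3 hp0.le) (by positivity)
    have t2 : p ^ 2 * (∫ x, χ x * Ps A j c (u x) * mxd f u (fun y => (‖g y‖ ^ 2 + δ) ^ p⁻¹) x ∂ν) +
        M₁ * Q ≤ (p ^ 2 * (C3 * (1 + 4 * A) * (2 + J)) + M₁ * (1 + J)) * j ^ 2 := by
      have hj2 : 1 ≤ j ^ 2 := one_le_pow₀ hj
      have e1 : C3 * (1 + 4 * A * j ^ 2) * (1 + Q) ≤ C3 * (1 + 4 * A) * (2 + J) * j ^ 2 := by
        have f1 : 1 + 4 * A * j ^ 2 ≤ (1 + 4 * A) * j ^ 2 := arith1 hj2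
        have f2 : 1 + Q ≤ 2 + J := by linarith
        calc C3 * (1 + 4 * A * j ^ 2) * (1 + Q) ≤ C3 * ((1 + 4 * A) * j ^ 2) * (2 + J) := by
              gcongr
          _ = _ := by ring
      have e2 : M₁ * Q ≤ M₁ * (1 + J) * j ^ 2 := by
        have : Q ≤ (1 + J) * j ^ 2 := arith2 hj2 hJ0 hQJ
        calc M₁ * Q ≤ M₁ * ((1 + J) * j ^ 2) := mul_le_mul_of_nonneg_left this hM1.le
          _ = _ := by ring
      have e3 := mul_le_mul_of_nonneg_left (b3.trans e1) (by positivity : 0 ≤ p ^ 2)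
      linarith
    have t3 : p / s * CP * (p ^ 2 * (∫ x, χ x * Ps A j c (u x) *
        mxd f u (fun y => (‖g y‖ ^ 2 + δ) ^ p⁻¹) x ∂ν) + M₁ * Q) ≤
        p * CP * (p ^ 2 * (C3 * (1 + 4 * A) * (2 + J)) + M₁ * (1 + J)) * (1 + Real.log j) / j := by
      have e4 : 0 ≤ p / s * CP := by positivity
      refine (mul_le_mul_of_nonneg_left t2 e4).trans ?_
      set K := p ^ 2 * (C3 * (1 + 4 * A) * (2 + J)) + M₁ * (1 + J) with hK
      have hK0 : 0 ≤ K := by positivity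
      have e5 : p / s * CP * (K * j ^ 2) = p * CP * K * 1 / j := by
        rw [hs]
        field_simp
      rw [e5]
      refine div_le_div_of_nonneg_right ?_ hj0.le
      refine mul_le_mul_of_nonneg_left ?_ (by positivity)
      have := Real.log_nonneg hj
      linarith
    refine (add_le_add t1 t3).trans (le_of_eq ?_)
    ring
  · intro x hfx hx hr
    obtain ⟨q1, q2⟩ := hPj j hj x hfx hx hr
    obtain ⟨m0, hm⟩ := mxd_nrm hL hu hg hx hr hfx
    have hY : 0 < ‖g x‖ ^ 2 + δ := by positivity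
    have eE := hm (fun t => (t + δ) ^ p⁻¹) (fun t => p⁻¹ * (t + δ) ^ (p⁻¹ - 1))
      (p⁻¹ * ((p⁻¹ - 1) * (‖g x‖ ^ 2 + δ) ^ (p⁻¹ - 2)))
      (by
        have h7 : ∀ᶠ t in 𝓝 (‖g x‖ ^ 2), 0 < t + δ :=
          (continuous_id.add continuous_const).continuousAt.eventually (lt_mem_nhds hY)
        filter_upwards [h7] with t ht
        exact hasDerivAt_pw ht) (hasDerivAt_pw' hY) (contDiffAt_pw hY)
    set m := mxd f u (fun y => ‖g y‖ ^ 2) x with hmd
    set E := mxd f u (fun y => (‖g y‖ ^ 2 + δ) ^ p⁻¹) x with hEd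
    have hE0 : 0 ≤ E := by
      rw [eE]
      refine mul_nonneg ?_ m0
      exact (by positivity : 0 ≤ p⁻¹ ^ 2 * (‖g x‖ ^ 2 + δ) ^ (p⁻¹ - 1)).trans
        (coef_ge hα1 hα0 (by positivity) δ0)
    have k1 := hχ.nn x
    have k2 := psi_nn ((A - u x) / (2 * j))
    have k3 := psi_nn ((A - u x) / j)
    have k4 : 0 ≤ Ps A j c (u x) := mul_nonneg k3 (Real.exp_pos _).le
    have k5 : 0 ≤ (‖g x‖ ^ 2 + δ) ^ p⁻¹ := by positivity
    have hB0 : 0 ≤ p / s * CP * (p ^ 2 * (χ x * Ps A j c (u x) * E) +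
      M₁ * (χ x * psi ((A - u x) / (2 * j)) * (‖g x‖ ^ 2 + δ) ^ p⁻¹)) := by positivity
    refine ⟨add_nonneg (by positivity) hB0, fun D hD => ?_⟩
    have h8 := dplus_le (s := s) hp (by positivity : 0 ≤ ‖g x‖ ^ 2) δ0 hs1 hD
    rw [← eE] at h8
    set G := (‖g x‖ ^ 2 + δ) ^ p⁻¹ with hG
    set P := mxd f u (fun y => Fj cv A j (u y)) x with hPd
    set T := (p ^ 2 * E * Real.exp (-u x) + G) * Real.exp (-(κ / p) * u x) with hT
    have hT0 : 0 ≤ T := by
      have := Real.exp_pos (-u x)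
      have := Real.exp_pos (-(κ / p) * u x)
      positivity
    have h9 : max D 0 * P ≤ p * (Real.log s + (1 + T) / s) * P := mul_le_mul_of_nonneg_right h8 q1
    have h10 : T * P ≤ CP * (p ^ 2 * (Ps A j c (u x) * E) +
        M₁ * (psi ((A - u x) / (2 * j)) * G)) := by
      have n1 : T * P ≤ T * (CP * Real.exp (u x) * psi ((A - u x) / j)) :=
        mul_le_mul_of_nonneg_left q2 hT0
      have n2 : T * Real.exp (u x) = p ^ 2 * E * Real.exp (-c * u x) +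
          G * Real.exp ((1 - c) * u x) := by
        have o1 : Real.exp (-u x) * Real.exp (u x) = 1 := by
          rw [← Real.exp_add]; simp
        have o2 : Real.exp (-c * u x) * Real.exp (u x) = Real.exp ((1 - c) * u x) := by
          rw [← Real.exp_add]; congr 1; ring
        rw [hT, ← hc, ← o2]
        linear_combination (p ^ 2 * E * Real.exp (-c * u x)) * o1
      have n3 : Real.exp ((1 - c) * u x) ≤ M₁ := exp_le_M hc0 hc1 (hhi x hfx hx hr)
      have n4 : T * (CP * Real.exp (u x) * psi ((A - u x) / j)) =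
          CP * (p ^ 2 * (Ps A j c (u x) * E) +
            Real.exp ((1 - c) * u x) * (psi ((A - u x) / j) * G)) := by
        have e : T * (CP * Real.exp (u x) * psi ((A - u x) / j)) =
            CP * psi ((A - u x) / j) * (T * Real.exp (u x)) := by ring
        rw [e, n2]
        show _ = CP * (p ^ 2 * (psi ((A - u x) / j) * Real.exp (-c * u x) * E) + _)
        ring
      rw [n4] at n1
      refine n1.trans ?_
      refine mul_le_mul_of_nonneg_left (add_le_add le_rfl ?_) cP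
      have n5 := psi_half (A - u x) j hj0
      exact mul_le_mul n3 (mul_le_mul_of_nonneg_right n5 k5) (by positivity) hM1.le
    calc χ x * (max D 0 * P) ≤ χ x * (p * (Real.log s + (1 + T) / s) * P) :=
          mul_le_mul_of_nonneg_left h9 k1
      _ = p * (Real.log s + 1 / s) * (χ x * P) + p / s * (χ x * (T * P)) := by ring
      _ ≤ p * (Real.log s + 1 / s) * (χ x * P) + p / s * (χ x * (CP *
          (p ^ 2 * (Ps A j c (u x) * E) + M₁ * (psi ((A - u x) / (2 * j)) * G)))) := by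
          have := mul_le_mul_of_nonneg_left (mul_le_mul_of_nonneg_left h10 k1)
            (by positivity : 0 ≤ p / s)
          linarith
      _ = _ := by ring

end Crest.Agent.R257.Avg_938
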