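import Crest.Agent.R257.Avg6_938

/-!
# R257 (S0395), GB0 (helper938), task AVG, part 7: **the averaged hypothesis of helper625**

* `avg` : `∫ χ |g|^(2/p) dν < ∞`, `0 ≤ κ ≤ p` ⟹ `LossC_625.Avg` for `D = log |dg|²_ω - κ u`,
  `w = 2 κ u + u`
-/

set_option autoImplicit false
set_option linter.unusedSectionVars false

open Set Filter Topology MeasureTheory
open scoped ContDiff Matrix ComplexConjugate ComplexOrder

noncomputable section

namespace Crest.Agent.R257.Avg_938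

open Crest.Agent.R275.Geo
open Crest.Agent.R257.Defs_219 Crest.Agent.R257.KED_952 Crest.Agent.R257.V1Defs_822
open Crest.Agent.R257.V1Pe_822 Crest.Agent.R257.Bridge_822 Crest.Agent.R257.UpK_938
open Crest.Agent.R257.PN_835 (nsq)
open Crest.Agent.R257.KEG_952 (Esc NoZ)
open Crest.Agent.R257.V0c_417 (IsL)
open Crest.Agent.R257.LossA_625 (cv)
open Crest.Agent.R257.LossC_625 (Avg cj)

variable {f : E3 → ℂ} {r : ℝ} {g : E3 → ℂ} {u χ : E3 → ℝ} {A : ℝ} {ν : Measure E3}

theorem tend_logdiv (C : ℝ) : Tendsto (fun j : ℝ => C * (1 + Real.log j) / j) atTop (𝓝 0) := by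
  have a1 : Tendsto (fun x : ℝ => Real.log x / x) atTop (𝓝 0) :=
    Real.isLittleO_log_id_atTop.tendsto_div_nhds_zero
  have a2 : Tendsto (fun x : ℝ => x⁻¹) atTop (𝓝 0) := tendsto_inv_atTop_zero
  have a3 : Tendsto (fun x : ℝ => C * (x⁻¹ + Real.log x / x)) atTop (𝓝 0) := by
    have := (a2.add a1).const_mul C
    simpa using this
  refine a3.congr fun j => ?_
  ring

/-- **the averaged gradient bound** -/
theorem avg (hL : LvlOK f 0 r) (hu : KEon f 0 r u) {C₀ : ℝ}
    (hhi : ∀ x, f x = 0 → x ≠ 0 → nsq x < r ^ 2 → u x ≤ C₀)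
    (hE : Esc f r u A) (hν : IsNu f 0 r ν) (hχ : Cut r χ)
    (hg : ∀ x, nsq x < r ^ 2 → AnalyticAt ℂ g x) {p κ : ℝ} (hp : 1 ≤ p) (hκ : 0 ≤ κ)
    (hκp : κ ≤ p) (hint : Integrable (fun x => χ x * (‖g x‖ ^ 2) ^ p⁻¹) ν)
    (hN : NoZ f r g) {L : E3 → ℝ} (hLL : IsL f r u g L) :
    Avg f ν A u χ (fun x => L x - κ * u x) fun y => 2 * (κ * u y) + u y := by
  obtain ⟨Cst, c0, h⟩ := avg_core hL hu hhi hE hν hχ hg hp hκ hκp hint
  intro ε hε
  have h1 := (tend_logdiv ((2 * κ + 1) * Cst)).eventually (gt_mem_nhds hε)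
  have h2 := h.and (h1.and (eventually_ge_atTop 1))
  have h3 := tendsto_natCast_atTop_atTop.eventually h2
  filter_upwards [h3] with j hj
  obtain ⟨⟨B, iB, bB, hB⟩, h4, h5⟩ := hj
  have hκ1 : 0 ≤ 2 * κ + 1 := by linarith
  have hB0 : 0 ≤ ∫ x, B x ∂ν := integral_nonneg_of_ae (isNu_ae hν fun x a b c => (hB x c a b).1)
  have hle : (2 * κ + 1) * ∫ x, B x ∂ν ≤ ε := by
    have e1 := mul_le_mul_of_nonneg_left bB hκ1
    have e2 : (2 * κ + 1) * (Cst * (1 + Real.log j) / j) =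
        (2 * κ + 1) * Cst * (1 + Real.log j) / j := by ring
    rw [e2] at e1
    exact e1.trans h4.le
  refine le_trans ?_ hle
  by_cases hi : Integrable (fun x => χ x * ((L x - κ * u x) *
      mxd f (cj A u j) (fun y => 2 * (κ * u y) + u y) x)) ν
  · rw [← integral_const_mul]
    refine int_mono hν hi (iB.const_mul _) fun x hfx hx hr => ?_
    have su : SmL f 0 r u := hu.sm
    have e1 : (fun y => 2 * (κ * u y) + u y) = fun y => (2 * κ + 1) * u y := by
      funext y; ring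
    have e2 : mxd f (cj A u j) (fun y => 2 * (κ * u y) + u y) x =
        (2 * κ + 1) * mxd f u (fun y => Fj cv A j (u y)) x := by
      rw [e1, mxd_comm hL hx hr hfx, mxd_mul hL su (2 * κ + 1) hx hr hfx]
      rfl
    obtain ⟨b0, b1⟩ := hB x hfx hx hr
    have e3 := b1 (L x - κ * u x) (le_of_eq (by
      rw [← exp_L hL hu hg hN hLL hx hr hfx]
      congr 1
      ring))
    have e4 : 0 ≤ mxd f u (fun y => Fj cv A j (u y)) x := by
      obtain ⟨CP, cP, hPj⟩ := Pj_bd hL hu hE Crest.Agent.R257.LossA_625.cv_sm cv_d1 cv_d2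
        (fun t ht => Crest.Agent.R257.LossA_625.cv_zero ht)
      exact (hPj j h5 x hfx hx hr).1
    rw [e2]
    have e5 : χ x * ((L x - κ * u x) * mxd f u (fun y => Fj cv A j (u y)) x) ≤
        χ x * (max (L x - κ * u x) 0 * mxd f u (fun y => Fj cv A j (u y)) x) :=
      mul_le_mul_of_nonneg_left (mul_le_mul_of_nonneg_right (le_max_left _ _) e4) (hχ.nn x)
    calc χ x * ((L x - κ * u x) * ((2 * κ + 1) * mxd f u (fun y => Fj cv A j (u y)) x))
        = (2 * κ + 1) * (χ x * ((L x - κ * u x) * mxd f u (fun y => Fj cv A j (u y)) x)) := by ring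
      _ ≤ (2 * κ + 1) * B x := mul_le_mul_of_nonneg_left (e5.trans e3) hκ1
  · rw [integral_undef hi]
    exact mul_nonneg hκ1 hB0

end Crest.Agent.R257.Avg_938
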