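import Crest.Agent.R257.DetE_219

/-!
R257 / DetF_219 (leaf DET): the trivial cases and `DetStmt` from the finiteness of the fibres.
-/

set_option autoImplicit false

open Topology Filter MeasureTheory Set Function
open scoped ENNReal NNReal
open Crest.AlgGeometry.Germ
open Crest.Agent.R257.Defs_219

noncomputable section

namespace Crest.Agent.R257.Det_219

/-- a unit `f` has no zeros -/
theorem inJ_of_ne {q : ℝ} {f D : E3 → ℂ} (hf : AnalyticAt ℂ f 0) (f0 : f 0 ≠ 0) :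
    InJ q f D := by
  obtain ⟨r, hr, h1⟩ := exists_box (hf.continuousAt.eventually_ne f0)
  refine ⟨r, hr, ?_⟩
  rw [jint_eq]
  have h2 : ∫⁻ y in Bp r, ∑' z : Sh f r y, Jf q f D (Fin.cons z.1 y) = 0 := by
    rw [setLIntegral_congr_fun (g := fun _ => 0) (isOpen_Bp r).measurableSet]
    · simp
    · intro y hy
      have : IsEmpty (Sh f r y) := ⟨fun z => h1 (mem_Bx_cons.2 ⟨z.2.1, hy⟩) z.2.2.1⟩
      simp only [tsum_empty]
  rw [h2]
  exact ENNReal.zero_lt_top

/-- if a unit is in `J_p` then everything is in `J_q` -/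
theorem inJ_of_unit {p q : ℝ} (hp : 1 ≤ p) (hq : 1 ≤ q) {f g D : E3 → ℂ} (hg : AnalyticAt ℂ g 0)
    (hD : AnalyticAt ℂ D 0) (g0 : g 0 ≠ 0) (h : InJ p f g) : InJ q f D := by
  obtain ⟨ra, hra, hga⟩ := h
  set m := ‖g 0‖ / 2 with hm
  have hg0 : 0 < ‖g 0‖ := norm_pos_iff.2 g0
  have hm0 : 0 < m := by positivity
  set C := ‖D 0‖ + 1 with hC
  have hC0 : 0 < C := by positivity
  have h1 : ∀ᶠ x in 𝓝 (0 : E3), m < ‖g x‖ ∧ ‖D x‖ < C :=
    ((hg.continuousAt.norm).eventually_const_lt (by rw [hm]; linarith)).and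
      ((hD.continuousAt.norm).eventually_lt_const (by rw [hC]; linarith))
  obtain ⟨r₁, hr₁, h2⟩ := exists_box h1
  set r := min ra r₁ with hr
  have hr0 : 0 < r := lt_min hra hr₁
  refine ⟨r, hr0, ?_⟩
  have hga' : Jint p (fun _ => r) f g < ∞ :=
    lt_of_le_of_lt (jint_mono p f g (min_le_left _ _)) hga
  set c : ℝ := C ^ (2 / q) / m ^ (2 / p) with hc
  have hc0 : 0 ≤ c := by positivity
  have key : ∀ x ∈ Bx r, Jf q f D x ≤ ENNReal.ofReal c * Jf p f g x := by
    intro x hx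
    obtain ⟨h3, h4⟩ := h2 (Bx_mono (min_le_right _ _) hx)
    rw [Jf, Jf, ← ENNReal.ofReal_mul hc0]
    refine ENNReal.ofReal_le_ofReal ?_
    rw [← mul_div_assoc]
    refine div_le_div_of_nonneg_right ?_ (by positivity)
    calc ‖D x‖ ^ (2 / q) ≤ C ^ (2 / q) :=
          Real.rpow_le_rpow (norm_nonneg _) h4.le (by positivity)
      _ = c * m ^ (2 / p) := by rw [hc]; field_simp
      _ ≤ c * ‖g x‖ ^ (2 / p) :=
          mul_le_mul_of_nonneg_left (Real.rpow_le_rpow hm0.le h3.le (by positivity)) hc0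
  rw [jint_eq] at hga' ⊢
  refine lt_of_le_of_lt (b := ENNReal.ofReal c *
    ∫⁻ y in Bp r, ∑' z : Sh f r y, Jf p f g (Fin.cons z.1 y)) ?_ ?_
  · rw [← lintegral_const_mul' _ _ ENNReal.ofReal_ne_top]
    refine setLIntegral_mono' (isOpen_Bp r).measurableSet fun y hy => ?_
    rw [← ENNReal.tsum_mul_left]
    exact ENNReal.tsum_le_tsum fun z => key _ (mem_Bx_cons.2 ⟨z.2.1, hy⟩)
  · exact ENNReal.mul_lt_top ENNReal.ofReal_lt_top hga'

theorem dt_at {f g h : E3 → ℂ} (hf : AnalyticAt ℂ f 0) (hg : AnalyticAt ℂ g 0)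
    (hh : AnalyticAt ℂ h 0) : AnalyticAt ℂ (Dt f g h) 0 := by
  obtain ⟨r, hr, h1⟩ := exists_box ((hf.eventually_analyticAt.and hg.eventually_analyticAt).and
    hh.eventually_analyticAt)
  exact dt_an (U := Bx r) (fun x hx => (h1 hx).1.1) (fun x hx => (h1 hx).1.2)
    (fun x hx => (h1 hx).2) 0 (fun i => by simpa using hr)

/-- finiteness of the fibres, as a Prop -/
def FtoStmt : Prop := ∀ f g h : E3 → ℂ, AnalyticAt ℂ f 0 → AnalyticAt ℂ g 0 →
  AnalyticAt ℂ h 0 → f 0 = 0 → g 0 = 0 → h 0 = 0 → ColFin ![f, g, h] → Fto f g h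

/-- `DetStmt` from the finiteness of the fibres -/
theorem detStmt_of (H : FtoStmt) : DetStmt := by
  intro f g h hf hg hh hfin a b q ha hb hq hqab hgJ hhJ
  by_cases f0 : f 0 = 0
  · by_cases g0 : g 0 = 0
    · by_cases h0 : h 0 = 0
      · exact det_main hf hg hh (H f g h hf hg hh f0 g0 h0 hfin) ha hb hq hqab hgJ hhJ
      · exact inJ_of_unit hb hq hh (dt_at hf hg hh) h0 hhJ
    · exact inJ_of_unit ha hq hg (dt_at hf hg hh) g0 hgJ
  · exact inJ_of_ne hf f0

end Crest.Agent.R257.Det_219
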