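import Crest.Agent.R257.KED_952
import Crest.Agent.R257.Atl5_941

/-!
# R257 (S0395), helper941: charts and measures of the levels in the language of `KED_952`

* `L f s r`, `Gd f s r` : the level in the punctured ball, standing hypotheses
* `Box`, `exists_box`   : a chart of the family of levels around every point of the level
* `contAt_eta`          : `|η|²` is jointly continuous
* `restrict_eq`         : `ν|_{θ(O)} = θ_* (|η_θ|² dz)`; `lint_par`, `int_par`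
* `ctL_contOn`          : continuity along parametrisations = continuity on the level
* `measStmt`            : `KED_952.MeasStmt`
-/

set_option autoImplicit false
set_option linter.unusedSectionVars false

open Set Filter Topology Complex Metric MeasureTheory
open scoped ContDiff Matrix ComplexConjugate ENNReal ComplexOrder

namespace Crest.Agent.R257.KedM_941

open Crest.Agent.R275.Geo
open Crest.Agent.R257.Defs_219 (E3)
open Crest.Agent.R257.KED_952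
open Crest.Agent.R257.PN_835 (nsq nsq_nonneg nsq_pos continuous_nsq)
open Crest.Agent.R257.Aff_835 (eta2a nga gra nga_pos)
open Crest.Agent.R257.Gram_835 (gdet DF pd)
open Crest.Agent.R257.Atl_941

noncomputable section

/-- the level in the punctured ball -/
def L (f : E3 → ℂ) (s : ℂ) (r : ℝ) : Set E3 := {x | f x = s ∧ x ≠ 0 ∧ nsq x < r ^ 2}

/-- standing hypotheses on a level -/
structure Gd (f : E3 → ℂ) (s : ℂ) (r : ℝ) : Prop where
  an : ∀ x, nsq x < r ^ 2 → AnalyticAt ℂ f x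
  ne : ∀ x, x ≠ 0 → nsq x < r ^ 2 → f x = s → fderiv ℂ f x ≠ 0

theorem isOpen_ball (r : ℝ) : IsOpen {x : E3 | nsq x < r ^ 2} :=
  isOpen_lt continuous_nsq continuous_const

theorem isOpen_pball (r : ℝ) : IsOpen {x : E3 | x ≠ 0 ∧ nsq x < r ^ 2} :=
  isOpen_ne.inter (isOpen_ball r)

/-! ### charts -/

/-- the family as an `SFam` -/
def sf (Φ : E3 × PP → ℂ) (r : ℝ) : SFam 2 E3 PP where
  b := ContinuousLinearEquiv.refl ℂ E3
  F := Φ
  W := {q | AnalyticAt ℂ Φ q ∧ (q.1 ≠ 0 ∧ nsq q.1 < r ^ 2) ∧ ∃ v : E3, fderiv ℂ Φ q (v, 0) ≠ 0}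
  isOpen := by
    rw [isOpen_iff_mem_nhds]
    rintro q ⟨h1, h2, v, hv⟩
    have e1 : ∀ᶠ q' in 𝓝 q, AnalyticAt ℂ Φ q' := h1.eventually_analyticAt
    have e2 : ∀ᶠ q' : E3 × PP in 𝓝 q, q'.1 ≠ 0 ∧ nsq q'.1 < r ^ 2 :=
      ((isOpen_pball r).preimage continuous_fst).mem_nhds h2
    have e3 : ∀ᶠ q' in 𝓝 q, fderiv ℂ Φ q' (v, 0) ≠ 0 :=
      (h1.fderiv.continuousAt.clm_apply continuousAt_const).eventually_ne hv
    filter_upwards [e1, e2, e3] with q' a1 a2 a3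
    exact ⟨a1, a2, v, a3⟩
  hol := fun q hq => hq.1.differentiableAt.differentiableWithinAt
  reg := fun q hq _ => hq.2.2

/-- a chart of a family of levels around a point -/
structure Box (Φ : E3 × PP → ℂ) (r : ℝ) (τ₀ : PP) (O : Set (Cn 2)) (N : Set PP)
    (Θ : Cn 2 × PP → E3) (B : Set E3) (K : Set (Cn 2)) (p : E3 →L[ℂ] Cn 2) : Prop where
  ch : Chart Φ r τ₀ O N Θ
  openB : IsOpen B
  openN : IsOpen N
  openO : IsOpen O
  cpt : IsCompact K
  sub : K ⊆ O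
  inv : ∀ τ ∈ N, ∀ z ∈ O, p (Θ (z, τ)) = z
  sur : ∀ τ ∈ N, ∀ x ∈ B, Φ (x, τ) = 0 → p x ∈ K ∧ Θ (p x, τ) = x

theorem fderiv_slice {Φ : E3 × PP → ℂ} {x : E3} {τ : PP} (h : DifferentiableAt ℂ Φ (x, τ))
    (v : E3) : fderiv ℂ (fun x => Φ (x, τ)) x v = fderiv ℂ Φ (x, τ) (v, 0) := by
  have h1 : HasFDerivAt (fun x => Φ (x, τ))
      ((fderiv ℂ Φ (x, τ)).comp (ContinuousLinearMap.inl ℂ E3 PP)) x :=
    HasFDerivAt.comp x (g := Φ) h.hasFDerivAt (hasFDerivAt_prodMk_left x τ)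
  rw [h1.fderiv]
  rfl

theorem chart_of {Φ : E3 × PP → ℂ} {r : ℝ} (Ψ : AdCh (sf Φ r)) {z₀ : Cn 2} {ε : ℝ} {τ₀ : PP}
    {N : Set PP} (hN : N ∈ 𝓝 τ₀) (hO : ∀ z ∈ ball z₀ ε, ∀ τ ∈ N, z ∈ Ψ.O τ) :
    Chart Φ r τ₀ (ball z₀ ε) N (fun q => Ψ.th q.1 q.2) where
  nhd := hN
  an := by
    have h1 : AnalyticOnNhd ℂ (fun q : Cn 2 × PP => Ψ.th q.1 q.2)
        {q | (q.1, (0 : ℂ), q.2) ∈ Ψ.Φ.target} :=
      Crest.Agent.R266.SCV.analyticOnNhd_of_differentiableOn Ψ.isOpen_tot Ψ.diffOn_th'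
    exact h1.mono fun q hq => hO q.1 hq.1 q.2 hq.2
  par := by
    intro τ hτ
    have hdf : DifferentiableOn ℂ (fun z => Ψ.th z τ) (ball z₀ ε) :=
      Ψ.diffOn_th.mono fun z hz => hO z hz τ hτ
    have hmem : ∀ z ∈ ball z₀ ε, (Ψ.th z τ, τ) ∈ (sf Φ r).W ∧ Φ (Ψ.th z τ, τ) = 0 :=
      fun z hz => Ψ.th_mem (hO z hz τ hτ)
    refine ⟨⟨Metric.isOpen_ball, hdf, fun z hz => (hmem z hz).2, ?_⟩,
      fun z hz => (hmem z hz).1.2.1.1, fun z hz => (hmem z hz).1.2.1.2⟩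
    intro z hz v hv
    have h1 := (hdf.differentiableAt (Metric.isOpen_ball.mem_nhds hz)).hasFDerivAt
    have h2 : HasFDerivAt (fun z => Ψ.pr (Ψ.th z τ))
        (Ψ.pr.comp (fderiv ℂ (fun z => Ψ.th z τ) z)) z := Ψ.pr.hasFDerivAt.comp z h1
    have h3 : (fun z => Ψ.pr (Ψ.th z τ)) =ᶠ[𝓝 z] fun z => z := by
      filter_upwards [Metric.isOpen_ball.mem_nhds hz] with w hw
      exact Ψ.pr_th (hO w hw τ hτ)
    have h4 := h2.unique ((hasFDerivAt_id (𝕜 := ℂ) z).congr_of_eventuallyEq h3)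
    have h5 := congrArg (fun T : Cn 2 →L[ℂ] Cn 2 => T v) h4
    simp only [ContinuousLinearMap.coe_comp, Function.comp_apply, ContinuousLinearMap.coe_id',
      id_eq] at h5
    rw [← h5]
    change Ψ.pr (fderiv ℂ (fun z => Ψ.th z τ) z v) = 0
    rw [show fderiv ℂ (fun z => Ψ.th z τ) z v = 0 from hv, map_zero]

theorem exists_box {Φ : E3 × PP → ℂ} {r : ℝ} {x₀ : E3} {τ₀ : PP} (ha : AnalyticAt ℂ Φ (x₀, τ₀))
    (h0 : Φ (x₀, τ₀) = 0) (hx : x₀ ≠ 0) (hr : nsq x₀ < r ^ 2)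
    (hd : fderiv ℂ (fun x => Φ (x, τ₀)) x₀ ≠ 0) :
    ∃ (O : Set (Cn 2)) (N : Set PP) (Θ : Cn 2 × PP → E3) (B : Set E3) (K : Set (Cn 2))
      (p : E3 →L[ℂ] Cn 2), x₀ ∈ B ∧ τ₀ ∈ N ∧ Box Φ r τ₀ O N Θ B K p := by
  have hW : (x₀, τ₀) ∈ (sf Φ r).W := by
    refine ⟨ha, ⟨hx, hr⟩, ?_⟩
    by_contra hcon
    push Not at hcon
    apply hd
    ext v
    rw [fderiv_slice ha.differentiableAt]
    exact hcon v
  obtain ⟨Ψ, hΨ⟩ := exists_adCh (sf Φ r) hW h0
  have ht : (Ψ.pr x₀, (0 : ℂ), τ₀) ∈ Ψ.Φ.target := (Ψ.pr_mem hΨ h0).1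
  have hT : {q : Cn 2 × PP | (q.1, (0 : ℂ), q.2) ∈ Ψ.Φ.target} ∈ 𝓝 (Ψ.pr x₀, τ₀) :=
    Ψ.isOpen_tot.mem_nhds ht
  rw [nhds_prod_eq, (nhds_basis_ball.prod nhds_basis_ball).mem_iff] at hT
  obtain ⟨⟨ε, δ⟩, ⟨hε, hδ⟩, hsub⟩ := hT
  have hS : Ψ.Φ.source ∈ 𝓝 (x₀, τ₀) := Ψ.Φ.open_source.mem_nhds hΨ
  rw [nhds_prod_eq, (nhds_basis_ball.prod nhds_basis_ball).mem_iff] at hS
  obtain ⟨⟨ε', δ'⟩, ⟨hε', hδ'⟩, hsub'⟩ := hS
  simp only at hε hδ hsub hε' hδ' hsub'
  have hO : ∀ z ∈ ball (Ψ.pr x₀) ε, ∀ τ ∈ ball τ₀ (min δ δ'), z ∈ Ψ.O τ := by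
    intro z hz τ hτ
    have h1 : τ ∈ ball τ₀ δ := ball_subset_ball (min_le_left δ δ') hτ
    have h2 : (z, τ) ∈ ball (Ψ.pr x₀) ε ×ˢ ball τ₀ δ := ⟨hz, h1⟩
    have h3 := hsub h2
    exact h3
  have hcpt : IsCompact (closedBall (Ψ.pr x₀) (ε / 2)) := by
    have : ProperSpace (Cn 2) := FiniteDimensional.proper ℂ (Cn 2)
    exact isCompact_closedBall _ _
  have hch := chart_of Ψ (ball_mem_nhds τ₀ (lt_min hδ hδ')) hO
  refine ⟨ball (Ψ.pr x₀) ε, ball τ₀ (min δ δ'), fun q => Ψ.th q.1 q.2,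
    ball x₀ ε' ∩ Ψ.pr ⁻¹' ball (Ψ.pr x₀) (ε / 2), closedBall (Ψ.pr x₀) (ε / 2), Ψ.pr,
    ⟨mem_ball_self hε', mem_ball_self (by positivity)⟩, mem_ball_self (lt_min hδ hδ'), ?_⟩
  constructor
  · exact hch
  · exact Metric.isOpen_ball.inter (Metric.isOpen_ball.preimage Ψ.pr.continuous)
  · exact Metric.isOpen_ball
  · exact Metric.isOpen_ball
  · exact hcpt
  · exact closedBall_subset_ball (by linarith)
  · intro τ hτ z hz
    exact Ψ.pr_th (hO z hz τ hτ)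
  · rintro τ hτ x ⟨hx1, hx2⟩ h
    have h1 : τ ∈ ball τ₀ δ' := ball_subset_ball (min_le_right δ δ') hτ
    have h2 : (x, τ) ∈ ball x₀ ε' ×ˢ ball τ₀ δ' := ⟨hx1, h1⟩
    have hxs : (x, τ) ∈ Ψ.Φ.source := hsub' h2
    exact ⟨ball_subset_closedBall hx2, (Ψ.pr_mem hxs h).2⟩

/-! ### continuity of the density -/

theorem continuous_gdet {α β : Type*} [Fintype α] [Fintype β] [DecidableEq α] [DecidableEq β] :
    Continuous (fun R : Matrix α β ℂ => gdet R) := by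
  unfold gdet
  exact (continuous_id.matrix_mul continuous_id.matrix_conjTranspose).matrix_det

theorem contAt_eta {Φ : E3 × PP → ℂ} {Θ : Cn 2 × PP → E3} {q₀ : Cn 2 × PP}
    (hΘ : AnalyticAt ℂ Θ q₀) (hΦ : AnalyticAt ℂ Φ (Θ q₀, q₀.2))
    (hd : fderiv ℂ (fun x => Φ (x, q₀.2)) (Θ q₀) ≠ 0) :
    ContinuousAt (fun q : Cn 2 × PP =>
      eta2a (n := 2) (fun x => Φ (x, q.2)) (fun z => Θ (z, q.2)) q.1) q₀ := by
  have hc : ContinuousAt (fun q : Cn 2 × PP => (Θ q, q.2)) q₀ :=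
    hΘ.continuousAt.prodMk continuousAt_snd
  -- the gradient
  have h1 : ContinuousAt (fun q : Cn 2 × PP => gra (n := 2) (fun x => Φ (x, q.2)) (Θ q)) q₀ := by
    refine continuousAt_pi.2 fun k => ?_
    have h2 : ContinuousAt (fun q : Cn 2 × PP => fderiv ℂ Φ (Θ q, q.2) (Pi.single k 1, 0)) q₀ := by
      have h3 : ContinuousAt (fun q : Cn 2 × PP => fderiv ℂ Φ (Θ q, q.2)) q₀ :=
        ContinuousAt.comp (g := fderiv ℂ Φ) (f := fun q : Cn 2 × PP => (Θ q, q.2))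
          hΦ.fderiv.continuousAt hc
      exact h3.clm_apply continuousAt_const
    refine h2.congr ?_
    filter_upwards [hc.eventually hΦ.eventually_analyticAt] with q hq
    exact (fderiv_slice hq.differentiableAt _).symm
  have h4 : ContinuousAt (fun q : Cn 2 × PP => nga (n := 2) (fun x => Φ (x, q.2)) (Θ q)) q₀ :=
    continuous_nsq.continuousAt.comp h1
  -- the frame
  have h5 : ContinuousAt (fun q : Cn 2 × PP => DF (fun z => Θ (z, q.2)) q.1) q₀ := by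
    refine continuousAt_pi.2 fun a => continuousAt_pi.2 fun k => ?_
    have h6 : ContinuousAt (fun q : Cn 2 × PP =>
        fderiv ℂ Θ q (EuclideanSpace.single a (1 : ℂ), 0) k) q₀ :=
      (continuous_apply k).continuousAt.comp
        (hΘ.fderiv.continuousAt.clm_apply continuousAt_const)
    refine h6.congr ?_
    filter_upwards [hΘ.eventually_analyticAt] with q hq
    have h7 : HasFDerivAt (fun z => Θ (z, q.2))
        ((fderiv ℂ Θ q).comp (ContinuousLinearMap.inl ℂ (Cn 2) PP)) q.1 :=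
      HasFDerivAt.comp q.1 (g := Θ) (f := fun z => (z, q.2)) hq.differentiableAt.hasFDerivAt
        (hasFDerivAt_prodMk_left q.1 q.2)
    have h8 := hasFDerivAt_pi'.1 h7 k
    show _ = fderiv ℂ (fun z => Θ (z, q.2) k) q.1 (EuclideanSpace.single a 1)
    rw [h8.fderiv]
    rfl
  have h9 : ContinuousAt (fun q : Cn 2 × PP => (gdet (DF (fun z => Θ (z, q.2)) q.1)).re) q₀ :=
    (Complex.continuous_re.comp continuous_gdet).continuousAt.comp h5
  exact h9.div h4 (nga_pos hd).ne'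

theorem contOn_eta {f : E3 → ℂ} {s : ℂ} {r : ℝ} (hf : Gd f s r) {θ : Cn 2 → E3}
    {O : Set (Cn 2)} (h : PE f s r θ O) : ContinuousOn (eta2a (n := 2) f θ) O := by
  intro z hz
  have h1 : AnalyticAt ℂ θ z :=
    Crest.Agent.R266.SCV.analyticOnNhd_of_differentiableOn h.par.isOpen h.par.hol z hz
  have h2 : AnalyticAt ℂ (fun q : Cn 2 × PP => θ q.1) (z, 0) :=
    AnalyticAt.fun_comp (g := θ) (f := fun q : Cn 2 × PP => q.1) h1 analyticAt_fst
  have h3 : AnalyticAt ℂ (fun q : E3 × PP => f q.1) (θ z, (0 : PP)) :=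
    AnalyticAt.fun_comp (g := f) (f := fun q : E3 × PP => q.1) (hf.an _ (h.lt z hz)) analyticAt_fst
  have h4 := contAt_eta (Φ := fun q => f q.1) (Θ := fun q => θ q.1) (q₀ := (z, 0)) h2 h3
    (hf.ne _ (h.ne z hz) (h.lt z hz) (h.par.lvl z hz))
  exact (ContinuousAt.comp (g := fun q : Cn 2 × PP => eta2a (n := 2) f θ q.1)
    (f := fun z => (z, (0 : PP))) (x := z) h4 (by fun_prop)).continuousWithinAt

theorem eta_nonneg (f : E3 → ℂ) (θ : Cn 2 → E3) (z : Cn 2) : 0 ≤ eta2a (n := 2) f θ z := by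
  unfold eta2a
  refine div_nonneg ?_ (nsq_nonneg _)
  have h1 : (DF θ z * (DF θ z)ᴴ).PosSemidef := Matrix.posSemidef_self_mul_conjTranspose _
  have h2 := h1.det_nonneg
  exact (Complex.le_def.1 h2).1

/-! ### integration -/

variable {f : E3 → ℂ} {s : ℂ} {r : ℝ} {ν : Measure E3} {θ : Cn 2 → E3} {O : Set (Cn 2)}

theorem aem_eta (hf : Gd f s r) (h : PE f s r θ O) :
    AEMeasurable (fun z => ENNReal.ofReal (eta2a (n := 2) f θ z)) (volume.restrict O) :=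
  ((contOn_eta hf h).aemeasurable h.par.isOpen.measurableSet).ennreal_ofReal

theorem aem_th (h : PE f s r θ O) : AEMeasurable θ (volume.restrict O) :=
  h.par.hol.continuousOn.aemeasurable h.par.isOpen.measurableSet

theorem aem_th' (h : PE f s r θ O) {d : Cn 2 → ℝ≥0∞} :
    AEMeasurable θ ((volume.restrict O).withDensity d) :=
  (aem_th h).mono_ac (withDensity_absolutelyContinuous _ _)

/-- **the measure in a parametrisation** -/
theorem restrict_eq (hν : IsNu f s r ν) (h : PE f s r θ O) (hi : InjOn θ O) :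
    ν.restrict (θ '' O) = ((volume.restrict O).withDensity
      fun z => ENNReal.ofReal (eta2a (n := 2) f θ z)).map θ := by
  ext B hB
  have h0 : NullMeasurableSet (θ ⁻¹' B) (volume.restrict O) := (aem_th h).nullMeasurable hB
  rw [Measure.map_apply_of_aemeasurable (aem_th' h) hB, withDensity_apply₀ _ h0,
    ← lintegral_indicator₀ h0, ← lintegral_indicator_one hB,
    hν.par θ O h hi _ (measurable_one.indicator hB)]
  refine lintegral_congr fun z => ?_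
  by_cases hz : θ z ∈ B
  · rw [indicator_of_mem hz, indicator_of_mem (show z ∈ θ ⁻¹' B from hz)]
    simp
  · rw [indicator_of_notMem hz, indicator_of_notMem (show z ∉ θ ⁻¹' B from hz), zero_mul]

theorem lint_par (hf : Gd f s r) (hν : IsNu f s r ν) (h : PE f s r θ O) (hi : InjOn θ O)
    {φ : E3 → ℝ≥0∞} (hφ : AEMeasurable φ ν) :
    ∫⁻ x in θ '' O, φ x ∂ν =
      ∫⁻ z in O, ENNReal.ofReal (eta2a (n := 2) f θ z) * φ (θ z) := by
  have h1 : AEMeasurable φ (((volume.restrict O).withDensity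
      fun z => ENNReal.ofReal (eta2a (n := 2) f θ z)).map θ) := by
    rw [← restrict_eq hν h hi]
    exact hφ.restrict
  rw [restrict_eq hν h hi, lintegral_map' h1 (aem_th' h)]
  have h2 : AEMeasurable (fun z => φ (θ z)) ((volume.restrict O).withDensity
      fun z => ENNReal.ofReal (eta2a (n := 2) f θ z)) := h1.comp_aemeasurable (aem_th' h)
  rw [lintegral_withDensity_eq_lintegral_mul₀' (aem_eta hf h) h2]
  rfl

theorem int_par (hf : Gd f s r) (hν : IsNu f s r ν) (h : PE f s r θ O) (hi : InjOn θ O)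
    {φ : E3 → ℝ} (hφ : AEMeasurable φ ν) :
    ∫ x in θ '' O, φ x ∂ν = ∫ z in O, eta2a (n := 2) f θ z * φ (θ z) := by
  have h1 : AEMeasurable φ (((volume.restrict O).withDensity
      fun z => ENNReal.ofReal (eta2a (n := 2) f θ z)).map θ) := by
    rw [← restrict_eq hν h hi]
    exact hφ.restrict
  rw [restrict_eq hν h hi, integral_map (aem_th' h) h1.aestronglyMeasurable]
  have h2 : (volume.restrict O).withDensity (fun z => ENNReal.ofReal (eta2a (n := 2) f θ z)) =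
      (volume.restrict O).withDensity
        (fun z => ((eta2a (n := 2) f θ z).toNNReal : ℝ≥0∞)) := rfl
  rw [h2, integral_withDensity_eq_integral_smul₀]
  · refine setIntegral_congr_fun h.par.isOpen.measurableSet fun y _ => ?_
    simp only [NNReal.smul_def, smul_eq_mul, Real.coe_toNNReal _ (eta_nonneg f θ y)]
  · exact ((contOn_eta hf h).aemeasurable h.par.isOpen.measurableSet).real_toNNReal

theorem integrable_par (hf : Gd f s r) (hν : IsNu f s r ν) (h : PE f s r θ O) (hi : InjOn θ O)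
    {φ : E3 → ℝ} (hφ : AEMeasurable φ ν)
    (hI : IntegrableOn (fun z => eta2a (n := 2) f θ z * φ (θ z)) O) :
    IntegrableOn φ (θ '' O) ν := by
  have h1 : AEMeasurable φ (((volume.restrict O).withDensity
      fun z => ENNReal.ofReal (eta2a (n := 2) f θ z)).map θ) := by
    rw [← restrict_eq hν h hi]
    exact hφ.restrict
  unfold IntegrableOn
  rw [restrict_eq hν h hi, integrable_map_measure h1.aestronglyMeasurable (aem_th' h)]
  have h2 : (volume.restrict O).withDensity (fun z => ENNReal.ofReal (eta2a (n := 2) f θ z)) =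
      (volume.restrict O).withDensity
        (fun z => ((eta2a (n := 2) f θ z).toNNReal : ℝ≥0∞)) := rfl
  rw [h2, integrable_withDensity_iff_integrable_smul₀]
  · refine Integrable.congr hI (Eventually.of_forall fun y => ?_)
    simp only [NNReal.smul_def, smul_eq_mul, Real.coe_toNNReal _ (eta_nonneg f θ y),
      Function.comp]
  · exact ((contOn_eta hf h).aemeasurable h.par.isOpen.measurableSet).real_toNNReal

/-! ### continuity on the level -/

theorem gd_sub (hf : Gd f s r) : Gd (fun x => f x - s) 0 r where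
  an x hx := (hf.an x hx).sub analyticAt_const
  ne x h0 hx he := by
    rw [fderiv_sub_const]
    exact hf.ne x h0 hx (sub_eq_zero.1 he)

theorem pe_sub : PE (fun x => f x - s) 0 r θ O ↔ PE f s r θ O :=
  ⟨fun h => ⟨⟨h.par.isOpen, h.par.hol, fun z hz => sub_eq_zero.1 (h.par.lvl z hz), h.par.imm⟩,
    h.ne, h.lt⟩, fun h => ⟨⟨h.par.isOpen, h.par.hol, fun z hz => sub_eq_zero.2 (h.par.lvl z hz),
      h.par.imm⟩, h.ne, h.lt⟩⟩

theorem exists_pe (hf : Gd f s r) {x₀ : E3} (hx : x₀ ∈ L f s r) :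
    ∃ (θ : Cn 2 → E3) (O : Set (Cn 2)) (B : Set E3) (p : E3 →L[ℂ] Cn 2), PE f s r θ O ∧
      IsOpen B ∧ x₀ ∈ B ∧ (∀ z ∈ O, p (θ z) = z) ∧ ∀ x ∈ B, f x = s → p x ∈ O ∧ θ (p x) = x := by
  have h1 : AnalyticAt ℂ (fun q : E3 × PP => f q.1 - s) (x₀, (0 : PP)) :=
    (AnalyticAt.fun_comp (g := f) (f := fun q : E3 × PP => q.1) (hf.an _ hx.2.2)
      analyticAt_fst).sub analyticAt_const
  obtain ⟨O, N, Θ, B, K, p, hB, hN, hb⟩ := exists_box (Φ := fun q : E3 × PP => f q.1 - s) (r := r)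
    (x₀ := x₀) (τ₀ := 0) h1 (sub_eq_zero.2 hx.1) hx.2.1 hx.2.2
    (by
      change fderiv ℂ (fun x => f x - s) x₀ ≠ 0
      rw [fderiv_sub_const]
      exact hf.ne x₀ hx.2.1 hx.2.2 hx.1)
  refine ⟨fun z => Θ (z, 0), O, B, p, pe_sub.1 (hb.ch.par 0 hN), hb.openB, hB, hb.inv 0 hN,
    fun x hxB hfx => ?_⟩
  have h2 := hb.sur 0 hN x hxB (sub_eq_zero.2 hfx)
  exact ⟨hb.sub h2.1, h2.2⟩

theorem ctL_contOn (hf : Gd f s r) {φ : E3 → ℝ} (hφ : CtL f s r φ) :
    ContinuousOn φ (L f s r) := by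
  intro x₀ hx
  obtain ⟨θ, O, B, p, h, hB, hxB, -, h1⟩ := exists_pe hf hx
  have h2 : ContinuousAt (fun z => φ (θ z)) (p x₀) :=
    (hφ θ O h).continuousAt (h.par.isOpen.mem_nhds (h1 x₀ hxB hx.1).1)
  have h3 : ContinuousAt (fun x => φ (θ (p x))) x₀ :=
    ContinuousAt.comp (g := fun z => φ (θ z)) (f := fun x => p x) h2 p.continuous.continuousAt
  refine h3.continuousWithinAt.congr_of_eventuallyEq ?_ ?_
  · filter_upwards [self_mem_nhdsWithin, mem_nhdsWithin_of_mem_nhds (hB.mem_nhds hxB)]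
      with x hxL hx'
    rw [(h1 x hx' hxL.1).2]
  · rw [(h1 x₀ hxB hx.1).2]

theorem contOn_ctL {φ : E3 → ℝ} (hφ : ContinuousOn φ (L f s r)) : CtL f s r φ :=
  fun _ _ h => hφ.comp (h.par.hol.continuousOn) fun z hz => ⟨h.par.lvl z hz, h.ne z hz, h.lt z hz⟩

theorem measurableSet_L (hf : Gd f s r) : MeasurableSet (L f s r) := by
  have hc : ContinuousOn f {x : E3 | x ≠ 0 ∧ nsq x < r ^ 2} := fun x hx =>
    (hf.an x hx.2).continuousAt.continuousWithinAt
  have h1 : IsOpen ({x : E3 | x ≠ 0 ∧ nsq x < r ^ 2} ∩ f ⁻¹' {s}ᶜ) :=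
    hc.isOpen_inter_preimage (isOpen_pball r) isOpen_compl_singleton
  have h2 : L f s r = {x : E3 | x ≠ 0 ∧ nsq x < r ^ 2} \
      ({x : E3 | x ≠ 0 ∧ nsq x < r ^ 2} ∩ f ⁻¹' {s}ᶜ) := by
    ext x
    simp only [L, mem_ofPred_eq, Set.mem_sdiff, mem_inter_iff, mem_preimage, mem_compl_iff,
      mem_singleton_iff]
    tauto
  rw [h2]
  exact (isOpen_pball r).measurableSet.diff h1.measurableSet

theorem ae_L (hν : IsNu f s r ν) : ∀ᵐ x ∂ν, x ∈ L f s r := hν.null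

theorem aem_of_contOn (hf : Gd f s r) (hν : IsNu f s r ν) {φ : E3 → ℝ}
    (hφ : ContinuousOn φ (L f s r)) : AEMeasurable φ ν := by
  have h1 := hφ.aemeasurable (μ := ν) (measurableSet_L hf)
  rwa [Measure.restrict_eq_self_of_ae_mem (ae_L hν)] at h1

theorem aem_of_ctL (hf : Gd f s r) (hν : IsNu f s r ν) {φ : E3 → ℝ} (hφ : CtL f s r φ) :
    AEMeasurable φ ν := aem_of_contOn hf hν (ctL_contOn hf hφ)

/-- **`KED_952.MeasStmt`** -/
theorem measStmt : MeasStmt := fun _ _ _ _ h1 h2 _ hν _ hφ => aem_of_ctL ⟨h1, h2⟩ hν hφ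

end

end Crest.Agent.R257.KedM_941
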