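import Crest.Agent.R257.V1Defs_822
import Crest.Agent.R257.Atl5_941
import Crest.Agent.R257.Jac_39

/-!
# R257 (S0395), UPStmt (helper938), part 1: the level `{f = s}` as a surface of helper941

* `LX hf : SFam 2 E3 ℂ`  : `{f = s, 0 < |x| < r}` (constant in the parameter)
* `pe_chart`            : the inverse charts are parametrisations `PE`
* `e2_eta`              : `|η|²` of 941 is `eta2a` of 835
* `cc_mp`               : real coordinates of `Cn n` preserve the volume
* `nu_eq`               : the measure `ν` of the interface is the measure `X.nu`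
-/

set_option autoImplicit false
set_option linter.unusedSectionVars false

open Set Filter Topology Complex MeasureTheory
open scoped ContDiff Matrix ComplexConjugate ENNReal

namespace Crest.Agent.R257.UpK_938

open Crest.Agent.R275.Geo Crest.Agent.R275.Core144 Crest.Agent.R275.EDR890
open Crest.Agent.R275.Pai323 Crest.Agent.R275.C1d194
open Crest.Agent.R273.Defs_333 Crest.Agent.R273.Vm_333
open Crest.Agent.R257.Defs_219 Crest.Agent.R257.KED_952 Crest.Agent.R257.V1Defs_822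
open Crest.Agent.R257.PN_835 (nsq)
open Crest.Agent.R257.Aff_835 (eta2a)
open Crest.Agent.R257.Atl_941 (SFam dX dX_apply e2 e2_eq om om_apply fr dch dch_tangent inj_chart
  par_chart eta_w)

noncomputable section

theorem nsq_cont {n : ℕ} : Continuous (nsq : (Fin (n + 1) → ℂ) → ℝ) := by
  unfold nsq
  exact continuous_finsetSum _ fun k _ => ((continuous_apply k).norm).pow 2

theorem LvlOK.mono {f : E3 → ℂ} {s : ℂ} {r r' : ℝ} (h : LvlOK f s r) (h0 : 0 < r') (h1 : r' ≤ r) :
    LvlOK f s r' :=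
  ⟨h0, fun x hx => h.an x (lt_of_lt_of_le hx (pow_le_pow_left₀ h0.le h1 2)),
    fun x hx hx' => h.sm x hx (lt_of_lt_of_le hx' (pow_le_pow_left₀ h0.le h1 2))⟩

/-- the level as a family of helper941 -/
def LX {f : E3 → ℂ} {s : ℂ} {r : ℝ} (hf : LvlOK f s r) : SFam 2 E3 ℂ where
  b := ContinuousLinearEquiv.refl ℂ (Fin 3 → ℂ)
  F := fun q => f q.1 - s
  W := {q | q.1 ≠ 0 ∧ nsq q.1 < r ^ 2}
  isOpen := (isOpen_ne.preimage continuous_fst).inter
    (isOpen_lt (nsq_cont.comp continuous_fst) continuous_const)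
  hol := fun q hq => ((((hf.an q.1 hq.2).differentiableAt).comp q
    differentiableAt_fst).sub_const s).differentiableWithinAt
  reg := fun q hq h0 => by
    have h1 := hf.sm q.1 hq.1 hq.2 (sub_eq_zero.1 h0)
    obtain ⟨v, hv⟩ : ∃ v, fderiv ℂ f q.1 v ≠ 0 := by
      by_contra hcon
      push Not at hcon
      exact h1 (by ext v; rw [hcon v]; rfl)
    refine ⟨v, ?_⟩
    have h2 : HasFDerivAt (fun q : E3 × ℂ => f q.1 - s)
        ((fderiv ℂ f q.1).comp (ContinuousLinearMap.fst ℂ E3 ℂ)) q :=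
      (((hf.an q.1 hq.2).differentiableAt.hasFDerivAt).comp q hasFDerivAt_fst).sub_const s
    rw [h2.fderiv]
    exact hv

section lvl

variable {f : E3 → ℂ} {s : ℂ} {r : ℝ} (hf : LvlOK f s r)

theorem LX_F (q : E3 × ℂ) : (LX hf).F q = f q.1 - s := rfl

theorem LX_b (x : E3) : (LX hf).b x = x := rfl

theorem mem_M (x : (LX hf).M 0) : f x.1 = s ∧ x.1 ≠ 0 ∧ nsq x.1 < r ^ 2 :=
  ⟨sub_eq_zero.1 x.2.2, x.2.1.1, x.2.1.2⟩

/-- points of the level -/
def mkM {x : E3} (h1 : f x = s) (h2 : x ≠ 0) (h3 : nsq x < r ^ 2) : (LX hf).M 0 :=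
  ⟨x, ⟨h2, h3⟩, sub_eq_zero.2 h1⟩

theorem dX_LX (x : (LX hf).M 0) (v : E3) : dX (LX hf) (x.1, 0) v = fderiv ℂ f x.1 v := by
  have h3 := (mem_M hf x).2.2
  have h2 : HasFDerivAt (fun q : E3 × ℂ => f q.1 - s)
      ((fderiv ℂ f x.1).comp (ContinuousLinearMap.fst ℂ E3 ℂ)) (x.1, 0) :=
    (((hf.an x.1 h3).differentiableAt.hasFDerivAt).comp (x.1, (0 : ℂ)) hasFDerivAt_fst).sub_const s
  rw [dX_apply]
  change fderiv ℂ (fun q : E3 × ℂ => f q.1 - s) (x.1, 0) (v, 0) = _
  rw [h2.fderiv]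
  rfl

/-- the inverse chart as a map to `E3` -/
def thc (i : ((LX hf).A 0).ι) (z : Cn 2) : E3 := ((((LX hf).A 0).e i).symm z).1

theorem pe_chart (i : ((LX hf).A 0).ι) : PE f s r (thc hf i) (((LX hf).A 0).e i).target where
  par :=
    { isOpen := (((LX hf).A 0).e i).open_target
      hol := (par_chart i).hol
      lvl := fun z _ => (mem_M hf ((((LX hf).A 0).e i).symm z)).1
      imm := fun z hz v hv => by
        refine inj_chart i hz ?_
        rw [map_zero]
        exact hv }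
  ne := fun z _ => (mem_M hf ((((LX hf).A 0).e i).symm z)).2.1
  lt := fun z _ => (mem_M hf ((((LX hf).A 0).e i).symm z)).2.2

theorem inj_thc (i : ((LX hf).A 0).ι) : InjOn (thc hf i) (((LX hf).A 0).e i).target := by
  intro z hz z' hz' h
  exact (((LX hf).A 0).e i).symm.injOn hz hz' (Subtype.ext h)

theorem thc_eq {i : ((LX hf).A 0).ι} {x : (LX hf).M 0} (hx : x ∈ (((LX hf).A 0).e i).source) :
    thc hf i (((LX hf).A 0).e i x) = x.1 := by
  unfold thc
  rw [(((LX hf).A 0).e i).left_inv hx]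

theorem det_cyc (w : Fin 3 → ℂ) (v : Fin 2 → Fin 3 → ℂ) :
    Matrix.det (Matrix.of (Matrix.vecCons w v)) = Matrix.det (Matrix.of ![v 0, v 1, w]) := by
  have h : Matrix.vecCons w v = ![w, v 0, v 1] := by
    funext k
    fin_cases k <;> rfl
  rw [h, Matrix.det_fin_three, Matrix.det_fin_three]
  simp only [Matrix.of_apply, Matrix.cons_val]
  ring

/-- **`|η|²` of 941 = `eta2a`** -/
theorem e2_eta {i : ((LX hf).A 0).ι} {z : Cn 2} (hz : z ∈ (((LX hf).A 0).e i).target) :
    ((LX hf).eta 0).w i ((((LX hf).A 0).e i).symm z) = eta2a (n := 2) f (thc hf i) z := by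
  set x := (((LX hf).A 0).e i).symm z with hx
  have hxs : x ∈ (((LX hf).A 0).e i).source := (((LX hf).A 0).e i).map_target hz
  have hxz : ((LX hf).A 0).e i x = z := (((LX hf).A 0).e i).right_inv hz
  obtain ⟨h1, h2, h3⟩ := mem_M hf x
  have hne := hf.sm x.1 h2 h3 h1
  obtain ⟨w, hw⟩ : ∃ v, fderiv ℂ f x.1 v ≠ 0 := by
    by_contra hcon
    push Not at hcon
    exact hne (by ext v; rw [hcon v]; rfl)
  have hw' : dX (LX hf) (x.1, 0) w ≠ 0 := by rw [dX_LX]; exact hw
  rw [eta_w, e2_eq (LX hf) (fun v => dch_tangent i hxs v) hw', dX_LX]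
  have h4 := Crest.Agent.R257.Jac_39.det_TT (pe_chart hf i).par hz
    (f := f) (θ := thc hf i) ((hf.an x.1 h3).differentiableAt) hne w
  have h6 : om (LX hf) w (fr (dch (LX hf) 0 i x)) =
      (Crest.Agent.R257.Jac_39.TT (thc hf i) w z).det := by
    rw [om_apply]
    refine (det_cyc _ _).trans ?_
    unfold Crest.Agent.R257.Jac_39.TT dch fr
    rw [hxz]
    rfl
  rw [h6, norm_div, div_pow, h4]
  have h7 : ‖fderiv ℂ f x.1 w‖ ≠ 0 := norm_ne_zero_iff.2 hw
  change eta2a (n := 2) f (thc hf i) z * ‖fderiv ℂ f x.1 w‖ ^ 2 / ‖fderiv ℂ f x.1 w‖ ^ 2 = _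
  field_simp

end lvl

/-! ### real coordinates preserve the volume -/

/-- real coordinates as an isometry -/
def rcI (n : ℕ) : EuclideanSpace ℝ (RI n) ≃ₗᵢ[ℝ] Cn n where
  toFun v := cc v.ofLp
  invFun z := WithLp.toLp 2 (rc z)
  map_add' v w := by
    ext k
    simp only [cc, ofReal_add, PiLp.add_apply]
    ring
  map_smul' c v := by
    ext k
    simp only [cc, smul_eq_mul, ofReal_mul, RingHom.id_apply,
      PiLp.smul_apply, Complex.real_smul]
    ring
  left_inv v := by
    change WithLp.toLp 2 (rc (cc v.ofLp)) = v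
    rw [rc_cc]
  right_inv z := by
    change cc (rc z) = z
    exact cc_rc z
  norm_map' v := by
    have h1 : ‖cc v.ofLp‖ ^ 2 = ‖v‖ ^ 2 := by
      rw [EuclideanSpace.norm_sq_eq, EuclideanSpace.norm_sq_eq, Fintype.sum_prod_type]
      refine Finset.sum_congr rfl fun k _ => ?_
      rw [Fin.sum_univ_two, ← Complex.normSq_eq_norm_sq, Complex.normSq_apply]
      have h2 := congrFun (rc_cc v.ofLp) (k, 0)
      have h3 := congrFun (rc_cc v.ofLp) (k, 1)
      simp only [rc, if_true, one_ne_zero, if_false] at h2 h3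
      rw [h2, h3, Real.norm_eq_abs, Real.norm_eq_abs, sq_abs, sq_abs]
      ring
    have h2 : ‖cc v.ofLp‖ = ‖v‖ := by
      have := congrArg Real.sqrt h1
      rwa [Real.sqrt_sq (norm_nonneg _), Real.sqrt_sq (norm_nonneg _)] at this
    exact h2

theorem cc_mp (n : ℕ) : MeasurePreserving (cc : (RI n → ℝ) → Cn n) volume volume := by
  have h1 := (rcI n).measurePreserving
  have h2 := PiLp.volume_preserving_toLp (RI n)
  have h3 := h1.comp h2
  exact h3

/-! ### the measures -/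

section meas

variable {f : E3 → ℂ} {s : ℂ} {r : ℝ} (hf : LvlOK f s r)

theorem meas_lvl : MeasurableSet {x : E3 | (x, (0 : ℂ)) ∈ (LX hf).W ∧ (LX hf).F (x, 0) = 0} := by
  have h1 : IsOpen {x : E3 | x ≠ 0 ∧ nsq x < r ^ 2} :=
    isOpen_ne.inter (isOpen_lt nsq_cont continuous_const)
  have h2 : ContinuousOn (fun x : E3 => f x - s) {x : E3 | x ≠ 0 ∧ nsq x < r ^ 2} := fun x hx =>
    ((hf.an x hx.2).continuousAt.sub continuousAt_const).continuousWithinAt
  have h3 : {x : E3 | (x, (0 : ℂ)) ∈ (LX hf).W ∧ (LX hf).F (x, 0) = 0} =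
      {x : E3 | x ≠ 0 ∧ nsq x < r ^ 2} \ ({x : E3 | x ≠ 0 ∧ nsq x < r ^ 2} ∩
        (fun x : E3 => f x - s) ⁻¹' {0}ᶜ) := by
    ext x
    constructor
    · rintro ⟨hx1, hx2⟩
      exact ⟨hx1, fun h => h.2 hx2⟩
    · rintro ⟨hx1, hx2⟩
      refine ⟨hx1, ?_⟩
      by_contra h
      exact hx2 ⟨hx1, h⟩
  rw [h3]
  exact h1.measurableSet.diff (h2.isOpen_inter_preimage h1 isOpen_compl_singleton).measurableSet

/-- integrals over a chart -/
theorem chart_nu {ν : Measure E3} (hν : IsNu f s r ν) (i : ((LX hf).A 0).ι) {Φ : E3 → ℝ≥0∞}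
    (hΦ : Measurable Φ) :
    ∫⁻ x in (((LX hf).A 0).e i).source, Φ x.1 ∂((LX hf).vol 0) =
      ∫⁻ x in thc hf i '' (((LX hf).A 0).e i).target, Φ x ∂ν := by
  have := (LX hf).countable 0
  rw [hν.par _ _ (pe_chart hf i) (inj_thc hf i) Φ hΦ]
  have h0 := setLIntegral_vm ((LX hf).eta 0) i (f := fun x => Φ x.1)
    (hΦ.comp measurable_subtype_coe)
  refine h0.trans ?_
  have hme : MeasurableEmbedding (cc : (RI 2 → ℝ) → Cn 2) :=
    ((rcI 2).toHomeomorph.measurableEmbedding).comp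
      (MeasurableEquiv.toLp 2 (RI 2 → ℝ)).measurableEmbedding
  have h1 := (cc_mp 2).setLIntegral_comp_preimage_emb hme
    (fun z => Φ (thc hf i z) * ENNReal.ofReal (eta2a (n := 2) f (thc hf i) z))
    (((LX hf).A 0).e i).target
  rw [← h1]
  refine setLIntegral_congr_fun (Crest.Agent.R273.Vm_333.isOpen_Ui i).measurableSet fun y hy => ?_
  unfold Crest.Agent.R273.Vm_333.dn
  have h2 : sg ((LX hf).A 0) i y = (((LX hf).A 0).e i).symm (cc y) := rfl
  rw [h2, e2_eta hf hy, mul_comm]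
  rfl

/-- **`ν` is the measure of 941** -/
theorem nu_eq {ν : Measure E3} (hν : IsNu f s r ν) : (LX hf).nu 0 = ν := by
  classical
  have hcI := (LX hf).countable 0
  ext B hB
  have hval : Measurable (Subtype.val : (LX hf).M 0 → E3) := measurable_subtype_coe
  have h1 : (LX hf).nu 0 B = (LX hf).vol 0 (Subtype.val ⁻¹' B) := Measure.map_apply hval hB
  -- the pieces
  set A := (LX hf).A 0 with hA
  have hDm : ∀ j, MeasurableSet (Dj A j) := fun j => meas_Dj j
  have hDE : ∀ j, MeasurableSet (Subtype.val '' Dj A j : Set E3) := fun j =>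
    MeasurableSet.subtype_image (meas_lvl hf) (hDm j)
  have h2 : (LX hf).vol 0 (Subtype.val ⁻¹' B) =
      ∑' j, (LX hf).vol 0 (Subtype.val ⁻¹' B ∩ Dj A j) := by
    rw [← measure_iUnion]
    · rw [← inter_iUnion, iUnion_Dj, inter_univ]
    · intro a b hab
      exact (Dj_disjoint hab).mono inter_subset_right inter_subset_right
    · exact fun j => (hval hB).inter (hDm j)
  have h3 : ν B = ∑' j, ν (B ∩ Subtype.val '' Dj A j) := by
    have hsub : ν B = ν (B ∩ ⋃ j, Subtype.val '' Dj A j) := by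
      refine le_antisymm ?_ (measure_mono inter_subset_left)
      have h4 : B ⊆ (B ∩ ⋃ j, Subtype.val '' Dj A j) ∪
          {x | ¬ (f x = s ∧ x ≠ 0 ∧ nsq x < r ^ 2)} := by
        intro x hx
        by_cases h5 : f x = s ∧ x ≠ 0 ∧ nsq x < r ^ 2
        · left
          refine ⟨hx, ?_⟩
          obtain ⟨j, hj⟩ := exists_Dj (A := A) (mkM hf h5.1 h5.2.1 h5.2.2)
          exact mem_iUnion.2 ⟨j, _, hj, rfl⟩
        · right
          exact h5
      refine (measure_mono h4).trans ((measure_union_le _ _).trans ?_)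
      rw [hν.null, add_zero]
    rw [hsub, inter_iUnion, measure_iUnion]
    · intro a b hab
      refine Disjoint.mono inter_subset_right inter_subset_right ?_
      rw [Set.disjoint_left]
      rintro x ⟨y, hy, rfl⟩ ⟨y', hy', hyy⟩
      rw [Subtype.ext hyy] at hy'
      exact Set.disjoint_left.1 (Dj_disjoint hab) hy hy'
    · exact fun j => hB.inter (hDE j)
  rw [h1, h2, h3]
  refine tsum_congr fun j => ?_
  set C : Set E3 := B ∩ Subtype.val '' Dj A j with hC
  have hCm : MeasurableSet C := hB.inter (hDE j)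
  have h4 := chart_nu hf hν j (Φ := C.indicator 1) (measurable_one.indicator hCm)
  have hCs : C ⊆ thc hf j '' (A.e j).target := by
    rintro x ⟨-, y, hy, rfl⟩
    exact ⟨A.e j y, (A.e j).map_source hy.1, thc_eq hf hy.1⟩
  have h5 : Subtype.val ⁻¹' B ∩ Dj A j = Subtype.val ⁻¹' C := by
    ext y
    constructor
    · rintro ⟨hy1, hy2⟩
      exact ⟨hy1, y, hy2, rfl⟩
    · rintro ⟨hy1, y', hy', hyy⟩
      rw [Subtype.ext hyy] at hy'
      exact ⟨hy1, hy'⟩
  have h6 : (Subtype.val ⁻¹' C : Set ((LX hf).M 0)) ⊆ (A.e j).source := by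
    rw [← h5]
    exact fun y hy => hy.2.1
  rw [h5]
  have h7 : (fun x : (LX hf).M 0 => (C.indicator 1 x.1 : ℝ≥0∞)) =
      (Subtype.val ⁻¹' C : Set ((LX hf).M 0)).indicator 1 := by
    funext x
    by_cases hx : x.1 ∈ C
    · rw [indicator_of_mem hx, indicator_of_mem (show x ∈ Subtype.val ⁻¹' C from hx)]
      rfl
    · rw [indicator_of_notMem hx, indicator_of_notMem (show x ∉ Subtype.val ⁻¹' C from hx)]
  rw [h7, lintegral_indicator_one (hval hCm), lintegral_indicator_one hCm,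
    Measure.restrict_apply (hval hCm), Measure.restrict_apply hCm, inter_eq_left.2 h6,
    inter_eq_left.2 hCs] at h4
  exact h4

/-- integrals over the level -/
theorem lint_nu {ν : Measure E3} (hν : IsNu f s r ν) {Φ : E3 → ℝ≥0∞} (hΦ : Measurable Φ) :
    ∫⁻ x, Φ x.1 ∂((LX hf).vol 0) = ∫⁻ x, Φ x ∂ν := by
  rw [← nu_eq hf hν, Crest.Agent.R257.Atl_941.lintegral_nu hΦ]

end meas

end

end Crest.Agent.R257.UpK_938
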