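import Crest.Agent.R257.LcV_980
import Crest.Agent.R257.DetF_219
import Crest.Agent.R257.KedM1_941
import Crest.Agent.R257.Jac_39
import Crest.Agent.R257.V1Defs_822
import Crest.Agent.R271.Null_821
import Crest.Agent.R257.UpK1_938

/-!
Row 257 (S0395), leaf JNU (helper980, for V31Stmt of helper218): `g ∈ J_p(f)` implies
`∫_{|x| < δ} |g|^(2/p) dν < ∞` for the measure `ν = |η|²` of the level `{f = 0}`.
-/

set_option autoImplicit false
set_option linter.unusedSectionVars false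

open Set Filter Topology Complex Metric MeasureTheory
open scoped ContDiff Matrix ComplexConjugate ENNReal ComplexOrder

namespace Crest.Agent.R257.Jnu_980

open Crest.AlgGeometry.Germ
open Crest.Agent.R275.Geo
open Crest.Agent.R257.Defs_219
open Crest.Agent.R257.KED_952
open Crest.Agent.R257.PN_835 (nsq nsq_nonneg nsq_pos continuous_nsq)
open Crest.Agent.R257.Aff_835 (eta2a nga gra nga_pos)
open Crest.Agent.R257.V1Defs_822 (LvlOK)
open Crest.Agent.R257.KedM_941 (Gd L)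

noncomputable section

/-- points of the level which are not simple are limits of simple ones -/
theorem simple_near {f : E3 → ℂ} (hf : Iso f) :
    ∀ᶠ x₀ in 𝓝 (0 : E3), x₀ ≠ 0 → f x₀ = 0 →
      ∃ᶠ x in 𝓝 x₀, f x = 0 ∧ coordDeriv f 0 x ≠ 0 := by
  obtain ⟨ν, C, ρ, hν, hC, hρ, h1, h2⟩ := LcV_980.sheet_exists hf.an hf.zero hf.reg
  obtain ⟨ε₁, hε₁, hiso⟩ := Metric.eventually_nhds_iff_ball.1 (LcV_980.isolated hf.an hf.fin)
  have ht : Tendsto (fun x : E3 => (Fin.tail x : Fin 2 → ℂ)) (𝓝 0) (𝓝 0) := by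
    have hc : Continuous (fun x : E3 => (Fin.tail x : Fin 2 → ℂ)) :=
      continuous_pi fun i => continuous_apply i.succ
    exact hc.tendsto' _ _ rfl
  have hx0 : ∀ᶠ x in 𝓝 (0 : E3), ‖x 0‖ < ρ := by
    have hc : Continuous (fun x : E3 => ‖x 0‖) := (continuous_apply 0).norm
    have := hc.tendsto 0
    simp only [Pi.zero_apply, norm_zero] at this
    exact this.eventually (gt_mem_nhds hρ)
  filter_upwards [ht.eventually h2, hx0, ball_mem_nhds (0 : E3) hε₁] with x₀ hx2 hxρ hxε hne hfx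
  obtain ⟨-, hsph, hAn⟩ := hx2
  by_contra hcon
  rw [not_frequently] at hcon
  set z : ℂ := x₀ 0 with hz
  set y : Fin 2 → ℂ := Fin.tail x₀ with hy
  have hzy : (Fin.cons z y : E3) = x₀ := Fin.cons_self_tail x₀
  have hd0 : coordDeriv f 0 x₀ = 0 := by
    by_contra h
    exact hcon.self_of_nhds ⟨hfx, h⟩
  have hgr : ∃ i, coordDeriv f i x₀ ≠ 0 := by
    by_contra h
    push Not at h
    exact hne (hiso _ hxε h)
  obtain ⟨i, hi⟩ := hgr
  obtain ⟨j, rfl⟩ : ∃ j : Fin 2, i = j.succ := by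
    refine Fin.cases (fun h => absurd hd0 h) (fun j _ => ⟨j, rfl⟩) i hi
  have hAz : AnalyticAt ℂ f x₀ := by
    have := hAn z hxρ.le
    rwa [hzy] at this
  have haff0 : LcV_980.aff z y j 0 = x₀ := by rw [LcV_980.aff_eq]; simpa using hzy
  have hcaff : Continuous (LcV_980.aff z y j) := by
    unfold LcV_980.aff; fun_prop
  set F : ℂ × ℂ → ℂ := fun p => f (LcV_980.aff z y j p) with hF
  have hFan : AnalyticAt ℂ F 0 := by
    have h4 : AnalyticAt ℂ (LcV_980.aff z y j) 0 :=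
      (analyticAt_const.add (analyticAt_fst.smul analyticAt_const)).add
        (analyticAt_snd.smul analyticAt_const)
    exact AnalyticAt.fun_comp (by rw [haff0]; exact hAz) h4
  have hten : Tendsto (LcV_980.aff z y j) (𝓝 0) (𝓝 x₀) := by
    have := hcaff.tendsto 0
    rwa [haff0] at this
  have hFd : ∀ᶠ p in 𝓝 (0 : ℂ × ℂ), fderiv ℂ F p (1, 0) = coordDeriv f 0 (LcV_980.aff z y j p) ∧
      fderiv ℂ F p (0, 1) = coordDeriv f j.succ (LcV_980.aff z y j p) := by
    filter_upwards [hten.eventually hAz.eventually_analyticAt] with p hp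
    have h6 : HasFDerivAt F _ p :=
      (hp.differentiableAt.hasFDerivAt).comp p (LcV_980.hasFDerivAt_aff z y j p)
    rw [h6.fderiv]
    constructor
    · simp [coordDeriv]
    · simp [coordDeriv]
  have hslice := LcV_980.slice_const hFan (by rw [hF]; simp only [haff0]; exact hfx)
    (by rw [hFd.self_of_nhds.2, haff0]; exact hi) (by
      filter_upwards [hten.eventually hcon, hFd] with p hp hd h0
      rw [hd.1]
      by_contra h
      exact hp ⟨h0, h⟩)
  -- identity theorem on the line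
  have hci : ∀ z : ℂ, AnalyticAt ℂ (fun z : ℂ => (Fin.cons z y : E3)) z := by
    intro z
    rw [analyticAt_pi_iff]
    intro i
    refine Fin.cases ?_ (fun j => ?_) i
    · simp only [Fin.cons_zero]; exact analyticAt_id
    · simp only [Fin.cons_succ]; exact analyticAt_const
  have hgan : AnalyticOnNhd ℂ (fun z : ℂ => f (Fin.cons z y)) (closedBall (0 : ℂ) ρ) := by
    intro w hw
    exact AnalyticAt.fun_comp (hAn w (by simpa using hw)) (hci w)
  have hev : (fun z : ℂ => f (Fin.cons z y)) =ᶠ[𝓝 z] 0 := by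
    have ht : Tendsto (fun w : ℂ => w - z) (𝓝 z) (𝓝 0) := by
      have : Continuous (fun w : ℂ => w - z) := by fun_prop
      simpa using this.tendsto z
    filter_upwards [ht.eventually hslice] with w hw
    have h9 : f (LcV_980.aff z y j (w - z, 0)) = 0 := hw
    rw [LcV_980.aff_eq] at h9
    simpa using h9
  have hall := hgan.eqOn_zero_of_preconnected_of_eventuallyEq_zero
    (convex_closedBall (0 : ℂ) ρ).isPreconnected (by simpa using hxρ.le) hev
  have hρmem : (ρ : ℂ) ∈ closedBall (0 : ℂ) ρ := by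
    simp [abs_of_pos hρ]
  exact hsph (ρ : ℂ) (by simp [abs_of_pos hρ]) (hall hρmem)

/-- the non simple points of the level are `ν`-null near `0` -/
theorem null_crit {f : E3 → ℂ} {r : ℝ} {ν : Measure E3} (hf : Iso f) (hL : LvlOK f 0 r)
    (hν : IsNu f 0 r ν) :
    ∃ W : Set E3, IsOpen W ∧ (0 : E3) ∈ W ∧ ν {x | x ∈ W ∧ f x = 0 ∧ coordDeriv f 0 x = 0} = 0 := by
  obtain ⟨W, hW, hWo, hW0⟩ := _root_.eventually_nhds_iff.1 (simple_near hf)
  refine ⟨W, hWo, hW0, ?_⟩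
  have hGd : Gd f 0 r := ⟨hL.an, hL.sm⟩
  -- remove the complement of the level
  set N : Set E3 := {x | x ∈ W ∧ x ∈ L f 0 r ∧ coordDeriv f 0 x = 0} with hN
  have hsub : {x | x ∈ W ∧ f x = 0 ∧ coordDeriv f 0 x = 0} ⊆
      N ∪ {x | ¬ (f x = 0 ∧ x ≠ 0 ∧ nsq x < r ^ 2)} := by
    intro x hx
    by_cases h : f x = 0 ∧ x ≠ 0 ∧ nsq x < r ^ 2
    · exact Or.inl ⟨hx.1, h, hx.2.2⟩
    · exact Or.inr h
  refine measure_mono_null hsub (measure_union_null ?_ hν.null)
  refine measure_null_of_locally_null N fun x₀ hx₀ => ?_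
  obtain ⟨hxW, hxL, hxd⟩ := hx₀
  obtain ⟨θ, O, B, p, hPE, hB, hxB, hpθ, hθp⟩ := KedM_941.exists_pe hGd hxL
  have hinj : InjOn θ O := fun z hz z' hz' h => by rw [← hpθ z hz, ← hpθ z' hz', h]
  obtain ⟨hz0O, hθz0⟩ := hθp x₀ hxB hxL.1
  set z₀ := p x₀ with hz₀
  have hθan : AnalyticAt ℂ θ z₀ :=
    Crest.Agent.R266.SCV.analyticOnNhd_of_differentiableOn hPE.par.isOpen hPE.par.hol z₀ hz0O
  have hcd : AnalyticAt ℂ (coordDeriv f 0) (θ z₀) := by
    rw [hθz0]
    have h1 : AnalyticAt ℂ f x₀ := hL.an x₀ hxL.2.2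
    exact ((ContinuousLinearMap.apply ℂ ℂ (Pi.single 0 (1 : ℂ) : E3)).analyticAt _).comp h1.fderiv
  have hh : AnalyticAt ℂ (fun z => coordDeriv f 0 (θ z)) z₀ :=
    AnalyticAt.fun_comp (g := coordDeriv f 0) hcd hθan
  have hfre : ∃ᶠ z in 𝓝 z₀, coordDeriv f 0 (θ z) ≠ 0 := by
    have h1 := hW x₀ hxW hxL.2.1 hxL.1
    have hev : ∀ᶠ x in 𝓝 x₀, x ∈ B := hB.mem_nhds hxB
    have hpt : Tendsto p (𝓝 x₀) (𝓝 z₀) := p.continuous.continuousAt
    refine hpt.frequently ((h1.and_eventually hev).mono fun x hx => ?_)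
    obtain ⟨⟨h2, h3⟩, h4⟩ := hx
    rw [(hθp x h4 h2).2]
    exact h3
  obtain ⟨δ, hδ, hae⟩ := Crest.Agent.R271.Local821.eventually_null_zero
    (volume : Measure (Cn 2)) hh hfre
  set V : Set E3 := B ∩ p ⁻¹' (ball z₀ δ) ∩ {x | x ≠ 0 ∧ nsq x < r ^ 2} with hV
  have hVo : IsOpen V := (hB.inter (isOpen_ball.preimage p.continuous)).inter
    (KedM_941.isOpen_pball r)
  have hx₀V : x₀ ∈ V := ⟨⟨hxB, mem_ball_self hδ⟩, hxL.2⟩
  set u : Set E3 := V ∩ {x | f x = 0 ∧ coordDeriv f 0 x = 0} with hu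
  have hum : MeasurableSet u := by
    have c1 : ContinuousOn f V := fun x hx => (hL.an x hx.2.2).continuousAt.continuousWithinAt
    have c2 : ContinuousOn (coordDeriv f 0) V := fun x hx => by
      have h1 : AnalyticAt ℂ f x := hL.an x hx.2.2
      have h2 : AnalyticAt ℂ (coordDeriv f 0) x :=
        ((ContinuousLinearMap.apply ℂ ℂ (Pi.single 0 (1 : ℂ) : E3)).analyticAt _).comp h1.fderiv
      exact h2.continuousAt.continuousWithinAt
    have o1 : IsOpen (V ∩ f ⁻¹' {0}ᶜ) := c1.isOpen_inter_preimage hVo isOpen_compl_singleton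
    have o2 : IsOpen (V ∩ (coordDeriv f 0) ⁻¹' {0}ᶜ) :=
      c2.isOpen_inter_preimage hVo isOpen_compl_singleton
    have e1 : u = V \ ((V ∩ f ⁻¹' {0}ᶜ) ∪ (V ∩ (coordDeriv f 0) ⁻¹' {0}ᶜ)) := by
      ext x
      simp only [hu, mem_inter_iff, mem_ofPred_eq, Set.mem_sdiff, mem_union, mem_preimage,
        mem_compl_iff, mem_singleton_iff]
      tauto
    rw [e1]
    exact hVo.measurableSet.diff (o1.measurableSet.union o2.measurableSet)
  refine ⟨u, ?_, ?_⟩
  · have h1 : V ∈ 𝓝 x₀ := hVo.mem_nhds hx₀V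
    filter_upwards [mem_nhdsWithin_of_mem_nhds h1, self_mem_nhdsWithin] with x hxV hxN
    exact ⟨hxV, hxN.2.1.1, hxN.2.2⟩
  · have husub : u ⊆ θ '' O := by
      rintro x ⟨⟨⟨hxB', -⟩, -⟩, hfx, -⟩
      obtain ⟨h1, h2⟩ := hθp x hxB' hfx
      exact ⟨p x, h1, h2⟩
    have h1 : ν u = ∫⁻ x in θ '' O, u.indicator 1 x ∂ν := by
      rw [lintegral_indicator_one hum, Measure.restrict_apply hum, inter_eq_left.2 husub]
    rw [h1, hν.par θ O hPE hinj _ (measurable_one.indicator hum)]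
    rw [lintegral_eq_zero_iff']
    · rw [ae_restrict_iff' measurableSet_ball] at hae
      rw [Filter.EventuallyEq, ae_restrict_iff' hPE.par.isOpen.measurableSet]
      filter_upwards [hae] with z hz hzO
      by_cases hzu : θ z ∈ u
      · exfalso
        have h2 : z ∈ ball z₀ δ := by
          have := hzu.1.1.2
          rwa [mem_preimage, hpθ z hzO] at this
        exact hz h2 hzu.2.2
      · rw [indicator_of_notMem hzu, zero_mul]; rfl
    · have a1 : AEMeasurable (fun z => u.indicator (1 : E3 → ℝ≥0∞) (θ z)) (volume.restrict O) := by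
        have a2 : AEMeasurable θ (volume.restrict O) :=
          hPE.par.hol.continuousOn.aemeasurable hPE.par.isOpen.measurableSet
        exact (measurable_one.indicator hum).comp_aemeasurable a2
      exact a1.mul (KedM_941.aem_eta hGd hPE)

/-! ### the volume of `Cn n` -/

theorem mp_curry (n : ℕ) : MeasurePreserving (MeasurableEquiv.curry (Fin n) (Fin 2) ℝ)
    (volume : Measure (RI n → ℝ)) (volume : Measure (Fin n → Fin 2 → ℝ)) := by
  have h : MeasurePreserving (MeasurableEquiv.curry (Fin n) (Fin 2) ℝ).symm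
      (volume : Measure (Fin n → Fin 2 → ℝ)) (volume : Measure (RI n → ℝ)) := by
    refine ⟨(MeasurableEquiv.curry (Fin n) (Fin 2) ℝ).symm.measurable, ?_⟩
    symm
    refine Measure.pi_eq fun s hs => ?_
    rw [(MeasurableEquiv.curry (Fin n) (Fin 2) ℝ).symm.map_apply]
    have h1 : (MeasurableEquiv.curry (Fin n) (Fin 2) ℝ).symm ⁻¹' (Set.pi univ s) =
        Set.pi univ fun a => Set.pi univ fun b => s (a, b) := by
      ext f
      simp [MeasurableEquiv.coe_curry_symm, Function.uncurry]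
    rw [h1, volume_pi_pi]
    simp only [volume_pi_pi]
    exact (Fintype.prod_prod_type fun p => volume (s p)).symm
  exact h.symm _

theorem mp_kap (n : ℕ) : MeasurePreserving
    (fun (y : RI n → ℝ) (a : Fin n) => (y (a, 0) : ℂ) + (y (a, 1) : ℂ) * I) volume volume := by
  have h1 : MeasurePreserving (fun (f : Fin n → Fin 2 → ℝ) (a : Fin n) =>
      Complex.measurableEquivPi.symm (f a)) volume volume :=
    volume_preserving_pi fun _ => Complex.volume_preserving_equiv_pi.symm _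
  have h2 := h1.comp (mp_curry n)
  have h3 : (fun (f : Fin n → Fin 2 → ℝ) (a : Fin n) =>
      Complex.measurableEquivPi.symm (f a)) ∘ (MeasurableEquiv.curry (Fin n) (Fin 2) ℝ) =
      fun (y : RI n → ℝ) (a : Fin n) => (y (a, 0) : ℂ) + (y (a, 1) : ℂ) * I := by
    funext y a
    simp [MeasurableEquiv.coe_curry, Function.curry, Complex.measurableEquivPi_symm_apply]
  rwa [h3] at h2

/-- `ofLp` preserves the volume -/
theorem mp_ofLp (n : ℕ) : MeasurePreserving (fun z : Cn n => (WithLp.ofLp z : Fin n → ℂ))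
    volume volume := by
  have h1 := UpK_938.cc_mp n
  have hm : Measurable (fun z : Cn n => (WithLp.ofLp z : Fin n → ℂ)) :=
    (PiLp.continuous_ofLp 2 _).measurable
  refine ⟨hm, ?_⟩
  rw [← h1.map_eq, Measure.map_map hm h1.measurable]
  exact (mp_kap n).map_eq

/-! ### graph charts -/

open Crest.Agent.R257.Det_219

/-- a graph chart as a parametrisation -/
def gth {f : E3 → ℂ} {U : Set E3} (C : Ch f U) (z : Cn 2) : E3 := C.gm (WithLp.ofLp z)

/-- its domain -/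
def gO {f : E3 → ℂ} {U : Set E3} (C : Ch f U) : Set (Cn 2) := {z | (WithLp.ofLp z : E2) ∈ C.O}

theorem isOpen_gO {f : E3 → ℂ} {U : Set E3} (C : Ch f U) : IsOpen (gO C) :=
  C.Oo.preimage (PiLp.continuous_ofLp 2 _)

theorem hasFDerivAt_gth {f : E3 → ℂ} {U : Set E3} (C : Ch f U) {z : Cn 2} (hz : z ∈ gO C) :
    HasFDerivAt (gth C) ((fderiv ℂ C.gm (WithLp.ofLp z)).comp
      ((PiLp.continuousLinearEquiv 2 ℂ (fun _ : Fin 2 => ℂ)) : Cn 2 →L[ℂ] E2)) z := by
  have h1 : HasFDerivAt (fun z : Cn 2 => (WithLp.ofLp z : E2))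
      ((PiLp.continuousLinearEquiv 2 ℂ (fun _ : Fin 2 => ℂ)) : Cn 2 →L[ℂ] E2) z :=
    (PiLp.continuousLinearEquiv 2 ℂ (fun _ : Fin 2 => ℂ)).hasFDerivAt
  exact HasFDerivAt.comp z (g := C.gm) (C.gm_diff hz).hasFDerivAt h1

theorem fderiv_gth {f : E3 → ℂ} {U : Set E3} (C : Ch f U) {z : Cn 2} (hz : z ∈ gO C) (v : Cn 2) :
    fderiv ℂ (gth C) z v = fderiv ℂ C.gm (WithLp.ofLp z) (WithLp.ofLp v) := by
  rw [(hasFDerivAt_gth C hz).fderiv]
  rfl

theorem pe_gth {f : E3 → ℂ} {r : ℝ} {U : Set E3} (hU : U ⊆ {x | nsq x < r ^ 2})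
    (h0 : coordDeriv f 0 0 = 0) (C : Ch f U) : PE f 0 r (gth C) (gO C) where
  par :=
    { isOpen := isOpen_gO C
      hol := fun z hz => (hasFDerivAt_gth C hz).differentiableAt.differentiableWithinAt
      lvl := fun z hz => (C.b _ hz).2
      imm := fun z hz v hv => by
        rw [fderiv_gth C hz] at hv
        ext i
        have h1 := congrFun hv i.succ
        rw [C.gm_fderiv_succ hz] at h1
        exact h1 }
  ne := fun z hz h => C.fz _ (C.b _ hz).1 (by
    have : (Fin.cons (C.s (WithLp.ofLp z)) (WithLp.ofLp z) : E3) = 0 := h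
    rw [this]; exact h0)
  lt := fun z hz => hU (C.VU (C.b _ hz).1)

theorem gth_inj {f : E3 → ℂ} {U : Set E3} (C : Ch f U) (s : Set (Cn 2)) : InjOn (gth C) s := by
  intro z _ z' _ h
  have h1 : (WithLp.ofLp z : E2) = WithLp.ofLp z' := by
    have h2 := congrArg (fun x : E3 => (Fin.tail x : E2)) h
    simpa [gth, Ch.gm] using h2
  ext i
  exact congrFun h1 i

theorem eta_gth {f : E3 → ℂ} {r : ℝ} (hL : LvlOK f 0 r) {U : Set E3}
    (hU : U ⊆ {x | nsq x < r ^ 2}) (h0 : coordDeriv f 0 0 = 0) (C : Ch f U) {z : Cn 2}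
    (hz : z ∈ gO C) : eta2a (n := 2) f (gth C) z = (‖coordDeriv f 0 (gth C z)‖ ^ 2)⁻¹ := by
  have hPE := pe_gth hU h0 C
  have hne : coordDeriv f 0 (gth C z) ≠ 0 := C.fz _ (C.b _ hz).1
  have h1 := Jac_39.det_TT hPE.par hz (hL.an _ (hPE.lt z hz)).differentiableAt
    (hL.sm _ (hPE.ne z hz) (hPE.lt z hz) (hPE.par.lvl z hz)) (Pi.single 0 1)
  have h2 : (Jac_39.TT (gth C) (Pi.single 0 1) z).det = 1 := by
    unfold Jac_39.TT
    rw [fderiv_gth C hz, fderiv_gth C hz, Matrix.det_fin_three]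
    have e0 : ∀ v : E2, fderiv ℂ C.gm (WithLp.ofLp z) v 1 = v 0 := fun v =>
      C.gm_fderiv_succ hz v 0
    have e1 : ∀ v : E2, fderiv ℂ C.gm (WithLp.ofLp z) v 2 = v 1 := fun v =>
      C.gm_fderiv_succ hz v 1
    simp [e0, e1]
  rw [h2] at h1
  have h3 : fderiv ℂ f (gth C z) (Pi.single 0 1) = coordDeriv f 0 (gth C z) := rfl
  rw [h3] at h1
  have h4 : 0 < ‖coordDeriv f 0 (gth C z)‖ ^ 2 := by
    have := norm_pos_iff.2 hne
    positivity
  refine eq_inv_of_mul_eq_one_left ?_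
  rw [← h1]
  simp

/-- the mass of a piece of a graph chart -/
theorem lint_piece {f g : E3 → ℂ} {r p ρ : ℝ} {ν : Measure E3} (hL : LvlOK f 0 r)
    (hν : IsNu f 0 r ν) (hU : Bx ρ ⊆ {x | nsq x < r ^ 2}) (h0 : coordDeriv f 0 0 = 0)
    (hg : ContinuousOn g (Bx ρ)) (hp : 0 < p) (C : Ch f (Bx ρ)) {B : Set E2}
    (hB : MeasurableSet B) (hBO : B ⊆ C.O) :
    ∫⁻ x in C.gm '' B, ENNReal.ofReal (‖g x‖ ^ (2 / p)) ∂ν =
      ∫⁻ y in B, Jf p f g (C.gm y) := by
  have hGd : Gd f 0 r := ⟨hL.an, hL.sm⟩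
  have hPE := pe_gth hU h0 C
  have hinj : InjOn (gth C) (gO C) := gth_inj C _
  -- measurability of the piece
  set P : Set E3 := C.gm '' B with hP
  have hgminj : InjOn C.gm B := by
    intro y _ y' _ h
    have h2 := congrArg (fun x : E3 => (Fin.tail x : E2)) h
    simpa [Ch.gm] using h2
  have hPm : MeasurableSet P := hB.image_of_continuousOn_injOn (C.gm_cont.mono hBO) hgminj
  have hPU : P ⊆ Bx ρ := by
    rintro _ ⟨y, hy, rfl⟩
    exact C.VU (C.b _ (hBO hy)).1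
  set B' : Set (Cn 2) := {z | (WithLp.ofLp z : E2) ∈ B} with hB'
  have hB'm : MeasurableSet B' := (PiLp.continuous_ofLp 2 _).measurable hB
  have hB'O : B' ⊆ gO C := fun z hz => hBO hz
  have hPs : P ⊆ gth C '' gO C := by
    rintro _ ⟨y, hy, rfl⟩
    exact ⟨WithLp.toLp 2 y, hBO hy, rfl⟩
  have hF : AEMeasurable (P.indicator fun x => ENNReal.ofReal (‖g x‖ ^ (2 / p))) ν := by
    rw [aemeasurable_indicator_iff hPm]
    have h1 : ContinuousOn (fun x => ‖g x‖ ^ (2 / p)) P :=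
      ((hg.mono hPU).norm).rpow_const fun x _ => Or.inr (by positivity)
    exact (h1.aemeasurable hPm).ennreal_ofReal
  have h1 : ∫⁻ x in P, ENNReal.ofReal (‖g x‖ ^ (2 / p)) ∂ν =
      ∫⁻ x in gth C '' gO C, P.indicator (fun x => ENNReal.ofReal (‖g x‖ ^ (2 / p))) x ∂ν := by
    rw [lintegral_indicator hPm, Measure.restrict_restrict hPm, inter_eq_left.2 hPs]
  rw [h1, KedM_941.lint_par hGd hν hPE hinj hF]
  have h2 : ∫⁻ z in gO C, ENNReal.ofReal (eta2a (n := 2) f (gth C) z) *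
      P.indicator (fun x => ENNReal.ofReal (‖g x‖ ^ (2 / p))) (gth C z) =
      ∫⁻ z in gO C, B'.indicator (fun z : Cn 2 => Jf p f g (C.gm (WithLp.ofLp z))) z := by
    refine setLIntegral_congr_fun (isOpen_gO C).measurableSet fun z hz => ?_
    by_cases hzB : z ∈ B'
    · have h3 : gth C z ∈ P := ⟨_, hzB, rfl⟩
      rw [indicator_of_mem hzB, indicator_of_mem h3, eta_gth hL hU h0 C hz,
        ← ENNReal.ofReal_mul (by positivity)]
      unfold Jf
      congr 1
      rw [div_eq_mul_inv, mul_comm]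
      rfl
    · have h3 : gth C z ∉ P := by
        rintro ⟨y, hy, hyz⟩
        apply hzB
        have h2 := congrArg (fun x : E3 => (Fin.tail x : E2)) hyz
        have h4 : y = WithLp.ofLp z := by simpa [gth, Ch.gm] using h2
        show (WithLp.ofLp z : E2) ∈ B
        rw [← h4]; exact hy
      rw [indicator_of_notMem hzB, indicator_of_notMem h3, mul_zero]
  rw [h2, lintegral_indicator hB'm, Measure.restrict_restrict hB'm, inter_eq_left.2 hB'O]
  have hme : MeasurableEmbedding (fun z : Cn 2 => (WithLp.ofLp z : E2)) :=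
    (PiLp.continuousLinearEquiv 2 ℂ (fun _ : Fin 2 => ℂ)).toHomeomorph.measurableEmbedding
  exact (mp_ofLp 2).setLIntegral_comp_preimage_emb hme (fun y => Jf p f g (C.gm y)) B

/-- **JNU** -/
theorem jnu {f g : E3 → ℂ} {r p : ℝ} {ν : Measure E3} (hiso : Iso f) (hL : LvlOK f 0 r)
    (hν : IsNu f 0 r ν) (hp : 1 ≤ p) (hg : AnalyticAt ℂ g 0) (hJ : InJ p f g) :
    ∃ δ : ℝ, 0 < δ ∧ ∫⁻ x in {x | nsq x < δ ^ 2}, ENNReal.ofReal (‖g x‖ ^ (2 / p)) ∂ν < ⊤ := by
  obtain ⟨R, hR, hJ⟩ := hJ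
  obtain ⟨W, hWo, hW0, hWn⟩ := null_crit hiso hL hν
  have h0 : coordDeriv f 0 0 = 0 := hiso.crit 0
  have hopen : {x : E3 | nsq x < r ^ 2} ∈ 𝓝 (0 : E3) := by
    refine (isOpen_lt continuous_nsq continuous_const).mem_nhds ?_
    show nsq (0 : E3) < r ^ 2
    have : nsq (0 : E3) = 0 := by simp [nsq]
    rw [this]
    have := hL.pos
    positivity
  obtain ⟨ρ₁, hρ₁, hb⟩ := exists_box (inter_mem (inter_mem hopen (hWo.mem_nhds hW0))
    hg.eventually_analyticAt)
  set ρ : ℝ := min R ρ₁ with hρ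
  have hρ0 : 0 < ρ := lt_min hR hρ₁
  have hBρ : Bx ρ ⊆ {x : E3 | nsq x < r ^ 2} := fun x hx =>
    (hb (Bx_mono (min_le_right _ _) hx)).1.1
  have hBW : Bx ρ ⊆ W := fun x hx => (hb (Bx_mono (min_le_right _ _) hx)).1.2
  have hgB : AnalyticOnNhd ℂ g (Bx ρ) := fun x hx => (hb (Bx_mono (min_le_right _ _) hx)).2
  have hfB : AnalyticOnNhd ℂ f (Bx ρ) := fun x hx => hL.an x (hBρ hx)
  obtain ⟨K⟩ := exists_cov (isOpen_Bx ρ) hfB (le_refl (Bx ρ))
  have hJ' : Jint p (fun _ => ρ) f g < ⊤ := lt_of_le_of_lt (jint_mono p f g (min_le_left _ _)) hJ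
  rw [jint_cov hp hfB hgB K] at hJ'
  -- the small ball
  have hδB : {x : E3 | nsq x < ρ ^ 2} ⊆ Bx ρ := by
    intro x hx i
    have h1 : ‖x i‖ ^ 2 ≤ nsq x :=
      Finset.single_le_sum (f := fun k => ‖x k‖ ^ 2) (fun k _ => sq_nonneg _) (Finset.mem_univ i)
    have h2 : ‖x i‖ ^ 2 < ρ ^ 2 := h1.trans_lt hx
    exact lt_of_pow_lt_pow_left₀ 2 hρ0.le h2
  refine ⟨ρ, hρ0, ?_⟩
  set T : Set E3 := ⋃ i, (K.C i).gm '' K.B i with hT
  have hle : ({x : E3 | nsq x < ρ ^ 2} : Set E3) ≤ᵐ[ν] T := by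
    have h1 : ∀ᵐ x ∂ν, ¬ (x ∈ W ∧ f x = 0 ∧ coordDeriv f 0 x = 0) := by
      rw [ae_iff]
      simpa using hWn
    have h2 : ∀ᵐ x ∂ν, x ∈ L f 0 r := KedM_941.ae_L hν
    filter_upwards [h1, h2] with x hx1 hx2 hx3
    have hxB := hδB hx3
    obtain ⟨i, hi1, hi2⟩ := K.cov x hxB hx2.1 (fun h => hx1 ⟨hBW hxB, hx2.1, h⟩)
    exact mem_iUnion.2 ⟨i, ⟨_, hi1, hi2⟩⟩
  calc ∫⁻ x in {x | nsq x < ρ ^ 2}, ENNReal.ofReal (‖g x‖ ^ (2 / p)) ∂ν
      ≤ ∫⁻ x in T, ENNReal.ofReal (‖g x‖ ^ (2 / p)) ∂ν := lintegral_mono_set' hle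
    _ ≤ ∑' i, ∫⁻ x in (K.C i).gm '' K.B i, ENNReal.ofReal (‖g x‖ ^ (2 / p)) ∂ν :=
        lintegral_iUnion_le _ _
    _ = ∑' i, ∫⁻ y in K.B i, Jf p f g ((K.C i).gm y) :=
        tsum_congr fun i => lint_piece hL hν hBρ h0 hgB.continuousOn (by linarith) (K.C i)
          (K.Bm i) (K.BO i)
    _ < ⊤ := hJ'

end

end Crest.Agent.R257.Jnu_980
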