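import Crest.Agent.R257.CLC_39
import Crest.Agent.R273.YauMax_635
import Crest.Agent.R273.C2e_793
import Crest.Agent.R273.FS_333

/-!
# Row 257 (S0395), leaf E-CL (helper39), part D: calculus of `trH`, special cases of Chern-Lu

* `trH_add`, `trH_sub`, `trH_const_mul`, `trH_const`, `trH_congr`, `trH_self`
* `trH_nonneg`, `trH_mono`, `trH_nonpos_of_localMax`
* `lev_le_trH` : `lev p z v ≤ trH u p z * lev u z v`
* `chern_lu_flat`, `chern_lu_fs`
-/

set_option autoImplicit false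
set_option linter.unusedSectionVars false

open Set Filter Topology Complex
open scoped ContDiff ComplexConjugate Matrix ComplexOrder MatrixOrder

namespace Crest.Agent.R257.CLD_39

open Crest.Agent.R273.YC3_812
open Crest.Agent.R273.Defs_333 Crest.Agent.R273.YauDefs_635 Crest.Agent.R273.YauMax_635
open Crest.Agent.R273.Hess_333 Crest.Agent.R273.HessB_333 Crest.Agent.R273.FS_333
open Crest.Agent.R273 Crest.Agent.R257.CLC_39

noncomputable section

variable {n : ℕ}

section mat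

theorem exists_congr {G : Matrix (Fin n) (Fin n) ℂ} (hG : G.PosDef) :
    ∃ C : Matrix (Fin n) (Fin n) ℂ, C * G * Cᴴ = 1 ∧ IsUnit C.det := by
  obtain ⟨C, hC⟩ := exists_congr_one G hG
  refine ⟨C, hC, isUnit_iff_ne_zero.2 fun h0 => ?_⟩
  have h1 := congrArg Matrix.det hC
  rw [Matrix.det_mul, Matrix.det_mul, h0, zero_mul, zero_mul, Matrix.det_one] at h1
  exact zero_ne_one h1

theorem trace_re_nonneg {P : Matrix (Fin n) (Fin n) ℂ} (hP : P.PosSemidef) : 0 ≤ P.trace.re := by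
  rw [Matrix.trace, Complex.re_sum]
  exact Finset.sum_nonneg fun i _ => (Complex.nonneg_iff.1 (hP.diag_nonneg (i := i))).1

theorem trace_inv_mul_nonneg {G P : Matrix (Fin n) (Fin n) ℂ} (hG : G.PosDef)
    (hP : P.PosSemidef) : 0 ≤ ((G⁻¹ * P).trace).re := by
  obtain ⟨C, hC, hu⟩ := exists_congr hG
  have h1 := trace_congr_frame C G P hu
  rw [hC, inv_one, Matrix.one_mul] at h1
  rw [← h1]
  exact trace_re_nonneg (hP.mul_mul_conjTranspose_same C)

/-- a positive semidefinite form is bounded by its trace -/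
theorem quad_le_trace {P : Matrix (Fin n) (Fin n) ℂ} (hP : P.PosSemidef) (y : Fin n → ℂ) :
    (star y ⬝ᵥ (P *ᵥ y)).re ≤ P.trace.re * ∑ i, ‖y i‖ ^ 2 := by
  obtain ⟨B, hB⟩ := CStarAlgebra.nonneg_iff_eq_star_mul_self.mp hP.nonneg
  rw [Matrix.star_eq_conjTranspose] at hB
  have h1 : (star y ⬝ᵥ (P *ᵥ y)) = ((∑ i, ‖∑ a, B i a * y a‖ ^ 2 : ℝ) : ℂ) := by
    rw [hB, ← Matrix.mulVec_mulVec, Matrix.dotProduct_mulVec, ← Matrix.star_mulVec]
    simp only [dotProduct, Matrix.mulVec, Pi.star_apply, RCLike.star_def]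
    push_cast
    refine Finset.sum_congr rfl fun i _ => ?_
    rw [mul_comm, Complex.mul_conj']
  have h2 : P.trace = ((∑ a, ∑ i, ‖B i a‖ ^ 2 : ℝ) : ℂ) := by
    rw [hB]
    simp only [Matrix.trace, Matrix.diag, Matrix.mul_apply, Matrix.conjTranspose_apply,
      RCLike.star_def]
    push_cast
    refine Finset.sum_congr rfl fun a _ => Finset.sum_congr rfl fun i _ => ?_
    rw [mul_comm, Complex.mul_conj']
  rw [h1, h2, ofReal_re, ofReal_re, Finset.sum_comm, Finset.sum_mul]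
  refine Finset.sum_le_sum fun i _ => ?_
  exact cs _ _ _

/-- `P ≤ tr(G⁻¹ P) G` -/
theorem quad_le {G P : Matrix (Fin n) (Fin n) ℂ} (hG : G.PosDef) (hP : P.PosSemidef)
    (x : Fin n → ℂ) :
    (star x ⬝ᵥ (P *ᵥ x)).re ≤ ((G⁻¹ * P).trace).re * (star x ⬝ᵥ (G *ᵥ x)).re := by
  obtain ⟨C, hC, hu⟩ := exists_congr hG
  have hCH : IsUnit (Cᴴ).det := by
    rw [Matrix.det_conjTranspose]
    exact hu.star
  have h1 := trace_congr_frame C G P hu
  rw [hC, inv_one, Matrix.one_mul] at h1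
  set y : Fin n → ℂ := (Cᴴ)⁻¹ *ᵥ x with hy
  have hx : x = Cᴴ *ᵥ y := by
    rw [hy, Matrix.mulVec_mulVec, Matrix.mul_nonsing_inv _ hCH, Matrix.one_mulVec]
  have h2 : ∀ Q : Matrix (Fin n) (Fin n) ℂ, star x ⬝ᵥ (Q *ᵥ x) = star y ⬝ᵥ ((C * Q * Cᴴ) *ᵥ y) := by
    intro Q
    rw [hx, Matrix.star_mulVec, Matrix.conjTranspose_conjTranspose, ← Matrix.mulVec_mulVec,
      ← Matrix.mulVec_mulVec, Matrix.dotProduct_mulVec (star y) C]
  have h3 : star y ⬝ᵥ ((C * G * Cᴴ) *ᵥ y) = ((∑ i, ‖y i‖ ^ 2 : ℝ) : ℂ) := by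
    rw [hC, Matrix.one_mulVec]
    simp only [dotProduct, Pi.star_apply, RCLike.star_def]
    push_cast
    refine Finset.sum_congr rfl fun i _ => ?_
    rw [mul_comm, Complex.mul_conj']
  rw [h2 P, h2 G, h3, ofReal_re, ← h1]
  exact quad_le_trace (hP.mul_mul_conjTranspose_same C) y

end mat

section pt

variable {u p q : W n → ℝ} {z : W n}

theorem trH_hess (hu : ContDiffAt ℝ ∞ u z) (hp : ContDiffAt ℝ ∞ p z) :
    trH u p z = (((hess u z)⁻¹ * hess p z).trace).re := by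
  rw [trH, cH_eq_hess hu, cH_eq_hess hp]

theorem trH_add (hu : ContDiffAt ℝ ∞ u z) (hp : ContDiffAt ℝ ∞ p z) (hq : ContDiffAt ℝ ∞ q z) :
    trH u (fun w => p w + q w) z = trH u p z + trH u q z := by
  rw [trH_hess hu hp, trH_hess hu hq, trH_hess hu (hp.add hq), hess_add hp hq, Matrix.mul_add,
    Matrix.trace_add, add_re]

theorem trH_sub (hu : ContDiffAt ℝ ∞ u z) (hp : ContDiffAt ℝ ∞ p z) (hq : ContDiffAt ℝ ∞ q z) :
    trH u (fun w => p w - q w) z = trH u p z - trH u q z := by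
  rw [trH_hess hu hp, trH_hess hu hq, trH_hess hu (hp.sub hq), hess_sub hp hq, Matrix.mul_sub,
    Matrix.trace_sub, sub_re]

theorem trH_const_mul (hu : ContDiffAt ℝ ∞ u z) (hp : ContDiffAt ℝ ∞ p z) (c : ℝ) :
    trH u (fun w => c * p w) z = c * trH u p z := by
  rw [trH_hess hu hp, trH_hess hu (contDiffAt_const.mul hp), hess_const_mul c hp,
    Matrix.mul_smul, Matrix.trace_smul, smul_eq_mul, re_ofReal_mul]

theorem trH_of_hess_zero (hu : ContDiffAt ℝ ∞ u z) (hp : ContDiffAt ℝ ∞ p z)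
    (h : hess p z = 0) : trH u p z = 0 := by
  rw [trH_hess hu hp, h, Matrix.mul_zero, Matrix.trace_zero, zero_re]

theorem hess_const (c : ℝ) : hess (fun _ : W n => c) z = 0 := by
  have h := hess_re_hol (n := n) (z := z) (f := fun _ => (c : ℂ))
    (Eventually.of_forall fun w => differentiableAt_const _)
  simpa using h

theorem trH_add_const (hu : ContDiffAt ℝ ∞ u z) (hp : ContDiffAt ℝ ∞ p z) (c : ℝ) :
    trH u (fun w => p w + c) z = trH u p z := by
  rw [trH_add hu hp contDiffAt_const, trH_of_hess_zero hu contDiffAt_const (hess_const c),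
    add_zero]

theorem trH_congr (hu : ContDiffAt ℝ ∞ u z) (hp : ContDiffAt ℝ ∞ p z) (h : p =ᶠ[𝓝 z] q) :
    trH u p z = trH u q z := by
  rw [trH_hess hu hp, trH_hess hu (hp.congr_of_eventuallyEq h.symm), hess_congr h]

theorem trH_self (hu : ContDiffAt ℝ ∞ u z) (hpos : ∀ v : W n, v ≠ 0 → 0 < lev u z v) :
    trH u u z = n := by
  have hpd := posDef_hess hu hpos
  rw [trH_hess hu hu, Matrix.nonsing_inv_mul _ (isUnit_iff_ne_zero.2 hpd.det_pos.ne'),
    Matrix.trace_one, Fintype.card_fin, natCast_re]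

theorem trH_nonneg (hu : ContDiffAt ℝ ∞ u z) (hpos : ∀ v : W n, v ≠ 0 → 0 < lev u z v)
    (hp : ContDiffAt ℝ ∞ p z) (h : ∀ v, 0 ≤ lev p z v) : 0 ≤ trH u p z := by
  rw [trH_hess hu hp]
  exact trace_inv_mul_nonneg (posDef_hess hu hpos) (posSemidef_hess hp h)

theorem two_le' {u : W n → ℝ} (hu : ContDiffAt ℝ ∞ u z) : ContDiffAt ℝ 2 u z :=
  hu.of_le (WithTop.coe_le_coe.2 le_top)

theorem lev_sub' (hp : ContDiffAt ℝ ∞ p z) (hq : ContDiffAt ℝ ∞ q z) (v : W n) :
    lev (fun w => p w - q w) z v = lev p z v - lev q z v := by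
  rw [lev333_eq_lev145, lev333_eq_lev145, lev333_eq_lev145,
    Levi_145.lev_sub (two_le' hp) (two_le' hq)]
  ring

theorem lev_add' (hp : ContDiffAt ℝ ∞ p z) (hq : ContDiffAt ℝ ∞ q z) (v : W n) :
    lev (fun w => p w + q w) z v = lev p z v + lev q z v := by
  rw [lev333_eq_lev145, lev333_eq_lev145, lev333_eq_lev145,
    Levi_145.lev_add (two_le' hp) (two_le' hq)]
  ring

theorem lev_const_mul' (hp : ContDiffAt ℝ ∞ p z) (c : ℝ) (v : W n) :
    lev (fun w => c * p w) z v = c * lev p z v := by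
  rw [lev333_eq_lev145, lev333_eq_lev145, Levi_145.lev_const_mul c (two_le' hp)]
  ring

theorem lev_neg' (hp : ContDiffAt ℝ ∞ p z) (v : W n) :
    lev (fun w => - p w) z v = - lev p z v := by
  rw [lev333_eq_lev145, lev333_eq_lev145, Levi_145.lev_neg (two_le' hp)]
  ring

theorem lev_zero' (u : W n → ℝ) (z : W n) : lev u z 0 = 0 := by
  rw [lev333_eq_lev145, Levi_145.lev_zero, mul_zero]

theorem trH_mono (hu : ContDiffAt ℝ ∞ u z) (hpos : ∀ v : W n, v ≠ 0 → 0 < lev u z v)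
    (hp : ContDiffAt ℝ ∞ p z) (hq : ContDiffAt ℝ ∞ q z) (h : ∀ v, lev p z v ≤ lev q z v) :
    trH u p z ≤ trH u q z := by
  have h1 := trH_nonneg hu hpos (hq.sub hp) fun v => by
    rw [lev_sub' hq hp]
    linarith [h v]
  rw [trH_sub hu hq hp] at h1
  linarith

theorem trH_nonpos_of_localMax (hu : ContDiffAt ℝ ∞ u z)
    (hpos : ∀ v : W n, v ≠ 0 → 0 < lev u z v) (hp : ContDiffAt ℝ ∞ p z) (h : IsLocalMax p z) :
    trH u p z ≤ 0 := by
  have h1 := trH_mono hu hpos hp (contDiffAt_const (c := (0 : ℝ))) fun v => by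
    have h2 := lev_nonneg_of_localMin (two_le' hp).neg h.neg v
    have h3 : lev (fun w => - p w) z v = - lev p z v := lev_neg' hp v
    have h4 : lev (fun _ : W n => (0 : ℝ)) z v = 0 := by
      rw [lev333_eq_lev145, Levi_145.lev_const, mul_zero]
    rw [h4]
    have h5 : 0 ≤ - lev p z v := by rw [← h3]; exact h2
    linarith
  rwa [trH_of_hess_zero hu contDiffAt_const (hess_const 0)] at h1

/-- the form is bounded by its trace -/
theorem lev_le_trH (hu : ContDiffAt ℝ ∞ u z) (hpos : ∀ v : W n, v ≠ 0 → 0 < lev u z v)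
    (hp : ContDiffAt ℝ ∞ p z) (h : ∀ v, 0 ≤ lev p z v) (v : W n) :
    lev p z v ≤ trH u p z * lev u z v := by
  have h1 := quad_le (posDef_hess hu hpos) (posSemidef_hess hp h) (fun a => conj (v a))
  rw [hq_eq_dot, hq_eq_dot, hq_re hp, hq_re hu, ← trH_hess hu hp] at h1
  have h3 : (WithLp.toLp 2 (fun a => conj (conj (v a))) : W n) = v := by
    simp only [Complex.conj_conj]
  rw [h3] at h1
  linarith

/-- the trace is bounded by `n` times the form -/
theorem trH_le_of_lev (hu : ContDiffAt ℝ ∞ u z) (hpos : ∀ v : W n, v ≠ 0 → 0 < lev u z v)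
    (hp : ContDiffAt ℝ ∞ p z) {c : ℝ} (h : ∀ v, lev p z v ≤ c * lev u z v) :
    trH u p z ≤ c * n := by
  have h1 := trH_mono hu hpos hp (contDiffAt_const.mul hu) fun v => by
    rw [lev_const_mul' hu]
    exact h v
  rwa [trH_const_mul hu hu, trH_self hu hpos] at h1

/-- ellipticity from the trace and the determinant: `tr (∂∂̄u)⁻¹∂∂̄p ≤ T`, `det ∂∂̄u = κ det ∂∂̄p`
imply `∂∂̄u ≤ κ T^(n-1) ∂∂̄p` -/
theorem lev_le_of_trH (hu : ContDiffAt ℝ ∞ u z) (hpos : ∀ v : W n, v ≠ 0 → 0 < lev u z v)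
    (hp : ContDiffAt ℝ ∞ p z) (hppos : ∀ v : W n, v ≠ 0 → 0 < lev p z v) {T κ : ℝ} (hT : 0 < T)
    (hle : trH u p z ≤ T) (hd : (cH u z).det = (κ : ℂ) * (cH p z).det) (v : W n) :
    lev u z v ≤ κ * T ^ (n - 1) * lev p z v := by
  have hpp : ∀ v : W n, 0 ≤ lev p z v := fun v => by
    rcases eq_or_ne v 0 with h0 | h0
    · rw [h0, lev_zero']
    · exact (hppos v h0).le
  have huu : ∀ v : W n, 0 ≤ lev u z v := fun v => by
    rcases eq_or_ne v 0 with h0 | h0
    · rw [h0, lev_zero']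
    · exact (hpos v h0).le
  have e1 : C2a_793.Um u z = cH u z := by
    ext a b
    rw [cH_eq_hs (two_le' hu)]
    rfl
  have e2 : C2a_793.Um p z = cH p z := by
    ext a b
    rw [cH_eq_hs (two_le' hp)]
    rfl
  have hpd : (C2a_793.Um p z).PosDef := C2c_793.Um_posDef (two_le' hp) fun v hv => by
    have := hppos v hv
    rw [lev333_eq_lev145] at this
    linarith
  have h1 := C2d_793.lev_le_of_det hu hp hpd hT (fun v => by
    have h2 := lev_le_trH hu hpos hp hpp v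
    have h3 : lev p z v ≤ T * lev u z v := h2.trans (mul_le_mul_of_nonneg_right hle (huu v))
    rw [lev333_eq_lev145, lev333_eq_lev145] at h3
    linarith) (by rw [e1, e2]; exact hd) v
  rw [lev333_eq_lev145, lev333_eq_lev145]
  linarith

end pt

section special

variable {N : ℕ} {U : Set (W n)} (hU : IsOpen U) {u f : W n → ℝ} (hu : ContDiffOn ℝ ∞ u U)
  (hf : ContDiffOn ℝ ∞ f U) (hdet : ∀ z ∈ U, (cH u z).det = (Real.exp (f z) : ℂ))
  (hpos : ∀ z ∈ U, ∀ v : W n, v ≠ 0 → 0 < lev u z v) {K : ℝ}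
  (hK : ∀ z ∈ U, ∀ v : W n, lev f z v ≤ K * lev u z v)
  {F : W n → Fin N → ℂ} (hF : ∀ k, DifferentiableOn ℂ (fun z => F z k) U)

include hU hF in
theorem contDiffOn_sq : ContDiffOn ℝ ∞ (sq F) U := by
  refine ContDiffOn.sum fun k _ => ?_
  exact (contDiffOn_of_hol hU (hF k)).norm_sq ℝ

include hU hF in
theorem diffOn_partial (k : Fin N) (a : Fin n) : DifferentiableOn ℂ
    (fun z => fderiv ℂ (fun z => F z k) z (EuclideanSpace.single a 1)) U := by
  have h3 : AnalyticOnNhd ℂ (fderiv ℂ (fun z => F z k)) U :=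
    (Crest.Agent.R266.SCV.analyticOnNhd_of_differentiableOn hU (hF k)).fderiv
  exact h3.differentiableOn.clm_apply (differentiableOn_const _)

include hU hu hf hdet hpos hK hF in
/-- Chern-Lu for a holomorphic map to flat space -/
theorem chern_lu_flat {z₀ : W n} (hz₀ : z₀ ∈ U) (hT : 0 < trH u (sq F) z₀) :
    -K ≤ trH u (fun z => Real.log (trH u (sq F) z)) z₀ := by
  have h := chern_lu hU hu hf (contDiffOn_sq hU hF) (om := fun _ => 0) contDiffOn_const hdet hpos hK
    (fun k a z => fderiv ℂ (fun z => F z k) z (EuclideanSpace.single a 1))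
    (fun k a => diffOn_partial hU hF k a) (fun z hz a b => by
      rw [cH_eq_hess ((contDiffOn_sq hU hF).contDiffAt (hU.mem_nhds hz)), hess_sq hU hF hz]
      simp) hz₀ hT
  simpa only [add_zero] using h

/-- the differential of the Plücker coordinates -/
def pl (F : W n → Fin N → ℂ) (k : Fin N × Fin N) (a : Fin n) (z : W n) : ℂ :=
  F z k.1 * fderiv ℂ (fun z => F z k.2) z (EuclideanSpace.single a 1)
    - F z k.2 * fderiv ℂ (fun z => F z k.1) z (EuclideanSpace.single a 1)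

theorem sum_pl (x : Fin N → ℂ) (a b : Fin N → ℂ) :
    ∑ k : Fin N × Fin N, (x k.1 * a k.2 - x k.2 * a k.1) * conj (x k.1 * b k.2 - x k.2 * b k.1)
      = 2 * ((∑ i, ‖x i‖ ^ 2 : ℝ) * (∑ k, a k * conj (b k))
        - (∑ k, a k * conj (x k)) * ∑ k, x k * conj (b k)) := by
  have h0 : ((∑ i, ‖x i‖ ^ 2 : ℝ) : ℂ) = ∑ i, x i * conj (x i) := by
    push_cast
    exact Finset.sum_congr rfl fun i _ => (Complex.mul_conj' _).symm
  rw [h0, Fintype.sum_prod_type]
  have h1 : ∀ i j, (x i * a j - x j * a i) * conj (x i * b j - x j * b i)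
      = (x i * conj (x i)) * (a j * conj (b j)) + (x j * conj (x j)) * (a i * conj (b i))
        - (x i * conj (b i)) * (a j * conj (x j)) - (x j * conj (b j)) * (a i * conj (x i)) := by
    intro i j
    simp only [map_sub, map_mul]
    ring
  simp only [h1, Finset.sum_add_distrib, Finset.sum_sub_distrib, ← Finset.mul_sum,
    ← Finset.sum_mul]
  ring

include hU hF in
theorem cH_log_sq {z : W n} (hz : z ∈ U) (h0 : F z ≠ 0) (a b : Fin n) :
    cH (fun w => Real.log (sq F w)) z a b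
      = (Real.exp (-(2 * Real.log (sq F z) + Real.log 2)) : ℂ)
        * ∑ k, pl F k a z * conj (pl F k b z) := by
  have hs : ContDiffAt ℝ ∞ (sq F) z := (contDiffOn_sq hU hF).contDiffAt (hU.mem_nhds hz)
  have hp := sq_pos h0
  have hl : ContDiffAt ℝ ∞ (fun w => Real.log (sq F w)) z := hs.log hp.ne'
  rw [cH_eq_hess hl, hess_log hs hp, hess_sq hU hF hz, wd_sq hU hF hz, wd_sq' hU hF hz]
  have h1 := sum_pl (F z) (fun k => fderiv ℂ (fun z => F z k) z (EuclideanSpace.single a 1))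
    (fun k => fderiv ℂ (fun z => F z k) z (EuclideanSpace.single b 1))
  have h2 : ∑ k, pl F k a z * conj (pl F k b z) = _ := h1
  rw [h2]
  have h3 : Real.exp (-(2 * Real.log (sq F z) + Real.log 2)) = (2 * (sq F z) ^ 2)⁻¹ := by
    rw [neg_add, Real.exp_add, Real.exp_neg, Real.exp_neg, Real.exp_log two_pos, two_mul,
      Real.exp_add, Real.exp_log hp]
    ring
  rw [h3]
  have h5 : (sq F z : ℂ) ≠ 0 := by exact_mod_cast hp.ne'
  have h6 : ((∑ i, ‖F z i‖ ^ 2 : ℝ) : ℂ) = (sq F z : ℂ) := rfl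
  rw [h6]
  push_cast
  field_simp

include hU hu hf hdet hpos hK hF in
/-- Chern-Lu for a holomorphic map to projective space -/
theorem chern_lu_fs (hF0 : ∀ z ∈ U, F z ≠ 0) {z₀ : W n} (hz₀ : z₀ ∈ U)
    (hT : 0 < trH u (fun w => Real.log (sq F w)) z₀) :
    -K - 2 * trH u (fun w => Real.log (sq F w)) z₀
      ≤ trH u (fun z => Real.log (trH u (fun w => Real.log (sq F w)) z)) z₀ := by
  have hl : ContDiffOn ℝ ∞ (fun w => Real.log (sq F w)) U :=
    (contDiffOn_sq hU hF).log fun z hz => (sq_pos (hF0 z hz)).ne'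
  have hom : ContDiffOn ℝ ∞ (fun w => 2 * Real.log (sq F w) + Real.log 2) U :=
    (contDiffOn_const.mul hl).add contDiffOn_const
  have h := chern_lu hU hu hf hl hom hdet hpos hK (pl F)
    (fun k a => ((hF k.1).mul (diffOn_partial hU hF k.2 a)).sub
      ((hF k.2).mul (diffOn_partial hU hF k.1 a)))
    (fun z hz a b => cH_log_sq hU hF hz (hF0 z hz) a b) hz₀ hT
  have hn := hU.mem_nhds hz₀
  have hu0 : ContDiffAt ℝ ∞ u z₀ := hu.contDiffAt hn
  have hl0 := hl.contDiffAt hn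
  have ht0 : ContDiffAt ℝ ∞ (fun z => Real.log (trH u (fun w => Real.log (sq F w)) z)) z₀ :=
    ((contDiffOn_trH hU hu hl hdet).contDiffAt hn).log hT.ne'
  rw [trH_add hu0 ht0 (hom.contDiffAt hn), trH_add_const hu0 (contDiffAt_const.mul hl0),
    trH_const_mul hu0 hl0] at h
  linarith

end special

end

end Crest.Agent.R257.CLD_39
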