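import Crest.Agent.R257.GradD_537
import Crest.Agent.R257.Aff_835
import Crest.Agent.R273.C2f_793

/-!
# R257 (S0395), leaf E-GRAD (helper537), part e: levels of a holomorphic function

* `lvFam`      : the regular level `{x ∈ Ω, g x = s}` of `g : ℂ^(n+1) → ℂ` as `Fam n`
* `par_thi`, `factor` : charts are parametrisations (`Aff_835.Par`) and conversely
* `grad_par`   : the gradient estimate on levels
* `lev_log_eta2a`, `lev_ld_of_ke` : the Kaehler-Einstein equation gives `∂∂̄ log det = ω`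
* `grad_ke`    : the gradient estimate for Kaehler-Einstein potentials
-/

set_option autoImplicit false
set_option linter.unusedSectionVars false

open Set Filter Topology Complex
open scoped ContDiff Matrix ComplexConjugate ComplexOrder

namespace Crest.Agent.R257.GradE_537

open Crest.Agent.R275.Geo Crest.Agent.R275.Core144 Crest.Agent.R275.GC293
open Crest.Agent.R275.OmT75
open Crest.Agent.R273 Crest.Agent.R273.Levi_145 Crest.Agent.R273.C2a_793
open Crest.Agent.R273.C2c_793 Crest.Agent.R273.C2d_793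
open Crest.Agent.R257.GradB_537 Crest.Agent.R257.GradD_537
open Crest.Agent.R273.Fam_835 Crest.Agent.R273.Sub_835 Crest.Agent.R273.Reg_835
open Crest.Agent.R257.PN_835 Crest.Agent.R257.Gram_835 Crest.Agent.R257.Aff_835

noncomputable section

variable {n : ℕ}

/-- the chart of affine space -/
def acL (n : ℕ) : AC n ≃L[ℂ] Cn (n + 1) :=
  (PiLp.continuousLinearEquiv 2 ℂ (fun _ : Fin (n + 1) => ℂ)).symm

/-- the chart of affine space -/
def acCh (n : ℕ) : OpenPartialHomeomorph (AC n) (Cn (n + 1)) :=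
  (acL n).toHomeomorph.toOpenPartialHomeomorph

/-- affine space as a `Fam` -/
def acFam (n : ℕ) : Fam (n + 1) (AC n) where
  ι := Unit
  e _ := acCh n
  cover x := ⟨(), mem_univ x⟩
  holo _ _ := by
    refine differentiable_id.differentiableOn.congr fun z _ => ?_
    exact (acCh n).right_inv (mem_univ z)

variable {g : AC n → ℂ} {s : ℂ} {Ω : Set (AC n)}

/-- the level -/
def Lv (g : AC n → ℂ) (s : ℂ) (Ω : Set (AC n)) : Set (AC n) := {x | x ∈ Ω ∧ g x = s}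

theorem isSub_Lv (hΩ : IsOpen Ω) (hg : DifferentiableOn ℂ g Ω)
    (hreg : ∀ x ∈ Ω, g x = s → fderiv ℂ g x ≠ 0) : IsSub (acFam n) (Lv g s Ω) n := by
  refine isSub_of_submersion (k := 1) (by omega) fun x hx => ?_
  have hxd : DifferentiableAt ℂ g x := hg.differentiableAt (hΩ.mem_nhds hx.1)
  set P : (Fin 1 → ℂ) →L[ℂ] Cn 1 :=
    ((PiLp.continuousLinearEquiv 2 ℂ (fun _ : Fin 1 => ℂ)).symm : (Fin 1 → ℂ) →L[ℂ] Cn 1) with hP
  refine ⟨(), Ω, fun y => P fun _ => g y, mem_univ x, hΩ, hx.1, ?_, ?_, fun y hy => ?_⟩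
  · intro z hz
    have hz2 : (acL n).symm z ∈ Ω := hz.2
    have h1 : DifferentiableAt ℂ (fun z => g ((acL n).symm z)) z :=
      (hg.differentiableAt (hΩ.mem_nhds hz2)).comp z (acL n).symm.differentiableAt
    exact (P.differentiableAt.comp z
      (differentiableAt_pi.2 fun _ => h1)).differentiableWithinAt
  · have e0 : (acL n).symm (acCh n x) = x := (acL n).symm_apply_apply x
    have h1 : HasFDerivAt (fun z => g ((acL n).symm z))
        ((fderiv ℂ g x).comp ((acL n).symm : Cn (n + 1) →L[ℂ] AC n)) (acCh n x) := by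
      have h2 : HasFDerivAt g (fderiv ℂ g x) ((acL n).symm (acCh n x)) := by
        rw [e0]; exact hxd.hasFDerivAt
      exact h2.comp (acCh n x) (acL n).symm.hasFDerivAt
    have h3 : HasFDerivAt (fun z => P fun _ : Fin 1 => g ((acL n).symm z))
        (P.comp (ContinuousLinearMap.pi fun _ =>
          (fderiv ℂ g x).comp ((acL n).symm : Cn (n + 1) →L[ℂ] AC n))) (acCh n x) :=
      P.hasFDerivAt.comp (acCh n x) (hasFDerivAt_pi.2 fun _ => h1)
    show Function.Surjective (fderiv ℂ (fun z => P fun _ : Fin 1 => g ((acL n).symm z))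
      (acCh n x))
    rw [h3.fderiv]
    intro w
    obtain ⟨W, hW⟩ : ∃ W, fderiv ℂ g x W ≠ 0 := by
      by_contra hcon
      exact hreg x hx.1 hx.2 (ContinuousLinearMap.ext fun W => not_not.1 fun h => hcon ⟨W, h⟩)
    refine ⟨(w 0 * (fderiv ℂ g x W)⁻¹) • acL n W, ?_⟩
    ext i
    have hi : i = 0 := Subsingleton.elim _ _
    subst hi
    show fderiv ℂ g x ((acL n).symm ((w 0 * (fderiv ℂ g x W)⁻¹) • acL n W)) = w 0
    rw [map_smul, (acL n).symm_apply_apply, map_smul, smul_eq_mul, mul_assoc, inv_mul_cancel₀ hW,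
      mul_one]
  · constructor
    · rintro ⟨-, h⟩
      simp only [h, hx.2]
    · intro h
      refine ⟨hy, ?_⟩
      have h1 := congrArg (fun v : Cn 1 => v 0) h
      have h2 : g y = g x := h1
      rw [h2, hx.2]

section Level

variable (hΩ : IsOpen Ω) (hg : DifferentiableOn ℂ g Ω)
  (hreg : ∀ x ∈ Ω, g x = s → fderiv ℂ g x ≠ 0)

/-- the level as a manifold -/
def lvFam : Fam n (Lv g s Ω) := subFam (isSub_Lv hΩ hg hreg)

/-- chart inverses as maps to affine space -/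
def thi (i : (lvFam hΩ hg hreg).ι) (z : Cn n) : AC n := (((lvFam hΩ hg hreg).e i).symm z).1

theorem thi_mem (i : (lvFam hΩ hg hreg).ι) (z : Cn n) : thi hΩ hg hreg i z ∈ Ω :=
  (((lvFam hΩ hg hreg).e i).symm z).2.1

theorem par_thi (i : (lvFam hΩ hg hreg).ι) :
    Par g s (thi hΩ hg hreg i) ((lvFam hΩ hg hreg).e i).target := by
  have hh := subFam_hol (isSub_Lv hΩ hg hreg)
  have hd : ∀ z ∈ ((lvFam hΩ hg hreg).e i).target,
      DifferentiableAt ℂ (fun z => acL n (thi hΩ hg hreg i z)) z := by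
    intro z hz
    exact hh.diffAt (i := i) (j := ()) hz (mem_univ _)
  have hd' : ∀ z ∈ ((lvFam hΩ hg hreg).e i).target,
      DifferentiableAt ℂ (thi hΩ hg hreg i) z := by
    intro z hz
    have h1 := (acL n).symm.differentiableAt.comp z (hd z hz)
    refine h1.congr_of_eventuallyEq (Eventually.of_forall fun w => ?_)
    exact ((acL n).symm_apply_apply _).symm
  refine ⟨((lvFam hΩ hg hreg).e i).open_target,
    fun z hz => (hd' z hz).differentiableWithinAt,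
    fun z _ => (((lvFam hΩ hg hreg).e i).symm z).2.2, fun z hz v hv => ?_⟩
  have hinj := subFam_imm (isSub_Lv hΩ hg hreg) i () z hz (mem_univ _)
  apply hinj
  have h1 : HasFDerivAt (fun z => acL n (thi hΩ hg hreg i z))
      ((acL n : AC n →L[ℂ] Cn (n + 1)).comp (fderiv ℂ (thi hΩ hg hreg i) z)) z :=
    (acL n).hasFDerivAt.comp z (hd' z hz).hasFDerivAt
  show fderiv ℂ (fun z => acL n (thi hΩ hg hreg i z)) z v =
    fderiv ℂ (fun z => acL n (thi hΩ hg hreg i z)) z 0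
  rw [h1.fderiv, map_zero]
  show acL n (fderiv ℂ (thi hΩ hg hreg i) z v) = 0
  rw [hv, map_zero]

/-- a parametrisation factors through a chart -/
theorem factor {θ : Cn n → AC n} {U : Set (Cn n)} (hθ : Par g s θ U) (hθΩ : ∀ z ∈ U, θ z ∈ Ω)
    {z₀ : Cn n} (hz₀ : z₀ ∈ U) : ∃ (i : (lvFam hΩ hg hreg).ι) (T : Cn n → Cn n),
      AnalyticAt ℂ T z₀ ∧ T z₀ ∈ ((lvFam hΩ hg hreg).e i).target ∧
      thi hΩ hg hreg i (T z₀) = θ z₀ ∧ θ =ᶠ[𝓝 z₀] fun w => thi hΩ hg hreg i (T w) := by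
  set h := isSub_Lv hΩ hg hreg with hh
  set p₀ : Lv g s Ω := ⟨θ z₀, hθΩ z₀ hz₀, hθ.lvl z₀ hz₀⟩ with hp₀
  set c := h.ch p₀ with hc
  have hps : p₀.1 ∈ c.ψ.source := h.mem_ch p₀
  have hcont : ContinuousAt θ z₀ := (hθ.diffAt hz₀).continuousAt
  have hev : ∀ᶠ z in 𝓝 z₀, θ z ∈ c.ψ.source :=
    hcont.preimage_mem_nhds (c.ψ.open_source.mem_nhds hps)
  have hdiff : ∀ z ∈ U, θ z ∈ c.ψ.source → DifferentiableAt ℂ (fun w => c.pi (c.ψ (θ w))) z := by
    intro z hz hzs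
    have h1 : DifferentiableAt ℂ (fun y => c.ψ ((acL n).symm y)) (acL n (θ z)) :=
      (c.hol ()).differentiableAt ((c.isOpen1 ()).mem_nhds ⟨mem_univ _, by
        show (acL n).symm (acL n (θ z)) ∈ c.ψ.source
        rw [(acL n).symm_apply_apply]; exact hzs⟩)
    have h2 : DifferentiableAt ℂ (fun w => acL n (θ w)) z :=
      (acL n).differentiableAt.comp z (hθ.diffAt hz)
    have h3 : DifferentiableAt ℂ (fun w => c.ψ ((acL n).symm (acL n (θ w)))) z :=
      DifferentiableAt.comp z (g := fun y => c.ψ ((acL n).symm y)) h1 h2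
    simp only [(acL n).symm_apply_apply] at h3
    exact c.pi.differentiableAt.comp z h3
  refine ⟨p₀, fun w => c.pi (c.ψ (θ w)), ?_, ?_, ?_, ?_⟩
  · have ho : IsOpen (U ∩ θ ⁻¹' c.ψ.source) :=
      hθ.hol.continuousOn.isOpen_inter_preimage hθ.isOpen c.ψ.open_source
    have hd : DifferentiableOn ℂ (fun w => c.pi (c.ψ (θ w))) (U ∩ θ ⁻¹' c.ψ.source) :=
      fun z hz => (hdiff z hz.1 hz.2).differentiableWithinAt
    exact (Crest.Agent.R266.SCV.contDiffOn_omega_of_differentiableOn ho hd).contDiffAt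
      (ho.mem_nhds ⟨hz₀, hps⟩) |>.analyticAt
  · exact (c.chart p₀).map_source hps
  · have h1 : ((lvFam hΩ hg hreg).e p₀).symm (c.pi (c.ψ (θ z₀))) = p₀ :=
      (c.chart p₀).left_inv hps
    show (((lvFam hΩ hg hreg).e p₀).symm (c.pi (c.ψ (θ z₀)))).1 = θ z₀
    rw [h1]
  · filter_upwards [hev, hθ.isOpen.mem_nhds hz₀] with z hz hzU
    have h1 : ((lvFam hΩ hg hreg).e p₀).symm (c.pi (c.ψ (θ z))) =
        ⟨θ z, hθΩ z hzU, hθ.lvl z hzU⟩ :=
      (c.chart p₀).left_inv (x := ⟨θ z, hθΩ z hzU, hθ.lvl z hzU⟩) hz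
    show θ z = (((lvFam hΩ hg hreg).e p₀).symm (c.pi (c.ψ (θ z)))).1
    rw [h1]

end Level

/-! ### the function `|θ|²` -/

/-- `|θ|²` -/
abbrev sqt (θ : Cn n → AC n) : Cn n → ℝ := FS_333.sq θ

theorem sq_eq_sumSq (θ : Cn n → AC n) : sqt θ = sumSq (fun k z => θ z k) := rfl

theorem anal_k {θ : Cn n → AC n} {U : Set (Cn n)} (hθ : Par g s θ U) {z : Cn n} (hz : z ∈ U)
    (k : Fin (n + 1)) : AnalyticAt ℂ (fun z => θ z k) z :=
  (Crest.Agent.R266.SCV.contDiffOn_omega_of_differentiableOn hθ.isOpen (hθ.holk k)).contDiffAt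
    (hθ.isOpen.mem_nhds hz) |>.analyticAt

theorem gr_sq_le' {θ : Cn n → AC n} {U : Set (Cn n)} (hθ : Par g s θ U) {z : Cn n} (hz : z ∈ U)
    (v : Cn n) : ‖gr (sqt θ) z v‖ ^ 2 ≤ sqt θ z * lev (sqt θ) z v := by
  rw [sq_eq_sumSq, gr_sumSq (fun k => anal_k hθ hz k), lev_sumSq (fun k => anal_k hθ hz k)]
  have h1 : ‖∑ j, conj (θ z j) * fderiv ℂ (fun z => θ z j) z v‖ ≤
      ∑ j, ‖θ z j‖ * ‖fderiv ℂ (fun z => θ z j) z v‖ := by
    refine (norm_sum_le _ _).trans (le_of_eq ?_)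
    exact Finset.sum_congr rfl fun j _ => by rw [norm_mul, Complex.norm_conj]
  calc _ ≤ (∑ j, ‖θ z j‖ * ‖fderiv ℂ (fun z => θ z j) z v‖) ^ 2 := by gcongr
    _ ≤ _ := Finset.sum_mul_sq_le_sq_mul_sq _ _ _

/-- **the gradient estimate on levels**: cut-off `R² - |x|²`, `K = {|x| ≤ R}` compact -/
theorem grad_par (hΩ : IsOpen Ω) (hg : DifferentiableOn ℂ g Ω)
    (hreg : ∀ x ∈ Ω, g x = s → fderiv ℂ g x ≠ 0) {R A κ C : ℝ} {u : AC n → ℝ}
    (hK : IsCompact {x | x ∈ Ω ∧ g x = s ∧ nsq x ≤ R ^ 2}) (hκ0 : 0 ≤ κ) (hC0 : 0 ≤ C)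
    (hsm : ∀ θ U, Par g s θ U → (∀ z ∈ U, θ z ∈ Ω) → ContDiffOn ℝ ∞ (fun z => u (θ z)) U)
    (hpos : ∀ θ U, Par g s θ U → (∀ z ∈ U, θ z ∈ Ω) → ∀ z ∈ U, ∀ v : Cn n, v ≠ 0 →
      0 < lev (fun z => u (θ z)) z v)
    (hκ : ∀ θ U, Par g s θ U → (∀ z ∈ U, θ z ∈ Ω) → ∀ z ∈ U, ∀ v : Cn n,
      lev (ld fun z => u (θ z)) z v ≤ κ * lev (fun z => u (θ z)) z v)
    (hC : ∀ θ U, Par g s θ U → (∀ z ∈ U, θ z ∈ Ω) → ∀ z ∈ U, ∀ v : Cn n,
      lev (sqt θ) z v ≤ C * lev (fun z => u (θ z)) z v)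
    (hA : ∀ x ∈ Ω, g x = s → nsq x ≤ R ^ 2 → u x < A) :
    ∀ θ U, Par g s θ U → (∀ z ∈ U, θ z ∈ Ω) → ∀ z ∈ U, nsq (θ z) < R ^ 2 → ∀ v : Cn n,
      2 * (‖gr (fun z => u (θ z)) z v‖ ^ 2 * (R ^ 2 - nsq (θ z)) ^ 2) ≤
        (κ * R ^ 4 + (4 + 2 * n) * C * R ^ 2) *
          ((A - u (θ z)) ^ 2 * lev (fun z => u (θ z)) z v) := by
  intro θ U hθ hθΩ z₀ hz₀ hlt v₀
  set F := lvFam hΩ hg hreg with hF
  set uM : Lv g s Ω → ℝ := fun p => u p.1 with huM
  set η : Lv g s Ω → ℝ := fun p => R ^ 2 - nsq p.1 with hη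
  have htp : ∀ i, Par g s (thi hΩ hg hreg i) (F.e i).target := par_thi hΩ hg hreg
  have htm : ∀ i, ∀ z ∈ (F.e i).target, thi hΩ hg hreg i z ∈ Ω := fun i z _ =>
    thi_mem hΩ hg hreg i z
  have hin : ∀ i, inF F i uM = fun z => u (thi hΩ hg hreg i z) := fun i => rfl
  have hinη : ∀ i, inF F i η = fun z => R ^ 2 - sqt (thi hΩ hg hreg i) z := fun i => rfl
  have hsp : SPsh F univ uM := by
    refine ⟨fun i p hp _ => ?_, fun i p hp _ v hv => ?_⟩
    · rw [hin]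
      exact (hsm _ _ (htp i) (htm i)).contDiffAt ((F.e i).open_target.mem_nhds
        ((F.e i).map_source hp))
    · rw [hin]
      exact hpos _ _ (htp i) (htm i) _ ((F.e i).map_source hp) v hv
  set K : Set (Lv g s Ω) := {p | nsq p.1 ≤ R ^ 2} with hKdef
  have hKc : IsCompact K := by
    rw [Topology.IsInducing.subtypeVal.isCompact_iff]
    have e : (Subtype.val '' K : Set (AC n)) = {x | x ∈ Ω ∧ g x = s ∧ nsq x ≤ R ^ 2} := by
      ext x
      constructor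
      · rintro ⟨p, hp, rfl⟩
        exact ⟨p.2.1, p.2.2, hp⟩
      · rintro ⟨h1, h2, h3⟩
        exact ⟨⟨x, h1, h2⟩, h3, rfl⟩
    rw [e]
    exact hK
  have hsqs : ∀ i, ∀ z ∈ (F.e i).target, ContDiffAt ℝ 2 (sqt (thi hΩ hg hreg i)) z := fun i z hz =>
    c2_sumSq (fun k => anal_k (htp i) hz k) 2
  have hgrη : ∀ i, ∀ z ∈ (F.e i).target, ∀ v, gr (inF F i η) z v = - gr (sqt (thi hΩ hg hreg i)) z v
      := by
    intro i z hz v
    have hd := c2_diff (hsqs i z hz)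
    have h1 : DifferentiableAt ℝ (fun w => R ^ 2 - sqt (thi hΩ hg hreg i) w) z :=
      (differentiableAt_const _).sub hd
    rw [hinη, gr_eq h1, gr_eq hd, fderiv_const_sub]
    simp only [_root_.neg_apply]
    push_cast
    ring
  have hlevη : ∀ i, ∀ z ∈ (F.e i).target, ∀ v,
      lev (inF F i η) z v = - lev (sqt (thi hΩ hg hreg i)) z v := by
    intro i z hz v
    rw [hinη, Levi_145.lev_sub (u := fun _ => R ^ 2) contDiffAt_const (hsqs i z hz), lev_const]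
    ring
  have key := grad_est hsp isOpen_univ hKc (subset_univ _) (η := η) (A := A) (κ := κ)
    (C₁ := R ^ 2 * C) (C₂ := C) (H := R ^ 2) hκ0 (by positivity) hC0
    (fun i p hp _ v => hκ _ _ (htp i) (htm i) _ ((F.e i).map_source hp) v)
    (fun i p hp _ => by
      rw [hinη]
      exact contDiffAt_const.sub (hsqs i _ ((F.e i).map_source hp)))
    (fun i p hp hpK v => ?_) (fun i p hp _ v => ?_)
    (fun p _ hp => by
      have : 0 < R ^ 2 - nsq p.1 := hp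
      show nsq p.1 ≤ R ^ 2
      linarith)
    (fun p _ => by
      have := nsq_nonneg p.1
      show R ^ 2 - nsq p.1 ≤ R ^ 2
      linarith)
    (fun p hp => hA p.1 p.2.1 p.2.2 hp)
  · obtain ⟨i, T, hT, hTt, hT0, hev⟩ := factor hΩ hg hreg hθ hθΩ hz₀
    set p : Lv g s Ω := (F.e i).symm (T z₀) with hp
    have hps : p ∈ (F.e i).source := (F.e i).map_target hTt
    have hpT : F.e i p = T z₀ := (F.e i).right_inv hTt
    have hp1 : p.1 = θ z₀ := hT0
    have hηp : η p = R ^ 2 - nsq (θ z₀) := by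
      simp only [hη]
      rw [hp1]
    have hup : uM p = u (θ z₀) := by
      simp only [huM]
      rw [hp1]
    have h1 := key i p hps (mem_univ _) (by rw [hηp]; linarith) (fderiv ℂ T z₀ v₀)
    rw [hηp, hup, hpT] at h1
    have hsmi : ContDiffAt ℝ ∞ (inF F i uM) (T z₀) := by
      rw [← hpT]
      exact hsp.sm i p hps (mem_univ _)
    have hev2 : (fun z => u (θ z)) =ᶠ[𝓝 z₀] fun w => inF F i uM (T w) := by
      filter_upwards [hev] with w hw
      rw [hw, hin]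
    have h2 : gr (fun z => u (θ z)) z₀ v₀ = gr (inF F i uM) (T z₀) (fderiv ℂ T z₀ v₀) := by
      rw [gr_congr hev2, gr_comp hT.differentiableAt (c2_diff (sm2 hsmi))]
    have h3 : lev (fun z => u (θ z)) z₀ v₀ = lev (inF F i uM) (T z₀) (fderiv ℂ T z₀ v₀) := by
      rw [lev_congr hev2, lev_comp hT (sm2 hsmi)]
    rw [h2, h3]
    refine h1.trans (le_of_eq ?_)
    ring
  · rw [hgrη i _ ((F.e i).map_source hp), norm_neg]
    have h1 := gr_sq_le' (htp i) ((F.e i).map_source hp) v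
    have h2 := hC _ _ (htp i) (htm i) _ ((F.e i).map_source hp) v
    have h3 : 0 ≤ lev (sqt (thi hΩ hg hreg i)) (F.e i p) v := by
      rw [sq_eq_sumSq, lev_sumSq (fun k => anal_k (htp i) ((F.e i).map_source hp) k)]
      exact Finset.sum_nonneg fun _ _ => sq_nonneg _
    have h4 : sqt (thi hΩ hg hreg i) (F.e i p) ≤ R ^ 2 := by
      have e1 : thi hΩ hg hreg i (F.e i p) = p.1 := by
        show ((F.e i).symm (F.e i p)).1 = p.1
        rw [(F.e i).left_inv hp]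
      have e2 : sqt (thi hΩ hg hreg i) (F.e i p) = nsq p.1 := by
        show nsq (thi hΩ hg hreg i (F.e i p)) = _
        rw [e1]
      rw [e2]
      exact hpK
    rw [hin, mul_assoc]
    exact h1.trans (mul_le_mul h4 h2 h3 (by positivity))
  · rw [hlevη i _ ((F.e i).map_source hp)]
    have h2 := hC _ _ (htp i) (htm i) _ ((F.e i).map_source hp) v
    rw [hin]
    linarith

/-! ### Kaehler-Einstein potentials -/

theorem anal_g (hΩ : IsOpen Ω) (hg : DifferentiableOn ℂ g Ω) {x : AC n} (hx : x ∈ Ω) :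
    AnalyticAt ℂ g x :=
  (Crest.Agent.R266.SCV.contDiffOn_omega_of_differentiableOn hΩ hg).contDiffAt
    (hΩ.mem_nhds hx) |>.analyticAt

theorem anal_th {θ : Cn n → AC n} {U : Set (Cn n)} (hθ : Par g s θ U) {z : Cn n} (hz : z ∈ U) :
    AnalyticAt ℂ θ z :=
  (Crest.Agent.R266.SCV.contDiffOn_omega_of_differentiableOn hθ.isOpen hθ.hol).contDiffAt
    (hθ.isOpen.mem_nhds hz) |>.analyticAt

/-- `log |η|²` is pluriharmonic -/
theorem lev_log_eta2a (hΩ : IsOpen Ω) (hg : DifferentiableOn ℂ g Ω)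
    {θ : Cn n → AC n} {U : Set (Cn n)} (hθ : Par g s θ U) (hθΩ : ∀ z ∈ U, θ z ∈ Ω)
    {z : Cn n} (hz : z ∈ U) (h0 : fderiv ℂ g (θ z) ≠ 0) (hpos : 0 < eta2a g θ z) :
    ContDiffAt ℝ 2 (fun w => Real.log (eta2a g θ w)) z ∧
      ∀ v : Cn n, lev (fun w => Real.log (eta2a g θ w)) z v = 0 := by
  obtain ⟨W, hW⟩ : ∃ W, fderiv ℂ g (θ z) W ≠ 0 := by
    by_contra hcon
    exact h0 (ContinuousLinearMap.ext fun W => not_not.1 fun h => hcon ⟨W, h⟩)
  have e : Fin (n + 1) ≃ Fin n ⊕ Unit := Fintype.equivOfCardEq (by simp)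
  set D : Cn n → ℂ := fun w => ((addRow (DF θ w) W).submatrix e id).det with hD
  set h : Cn n → ℂ := fun w => fderiv ℂ g (θ w) W with hh
  have hDa : AnalyticAt ℂ D z := by
    have h1 : ∀ a k, AnalyticAt ℂ (fun w => (addRow (DF θ w) W).submatrix e id a k) z := by
      intro a k
      rcases ha : e a with b | b
      · have h2 : AnalyticAt ℂ
            (fun w => fderiv ℂ (fun z => θ z k) w (EuclideanSpace.single b 1)) z :=
          ((ContinuousLinearMap.apply ℂ ℂ (EuclideanSpace.single b (1 : ℂ) : Cn n)).analyticAt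
              _).comp (anal_k hθ hz k).fderiv
        refine h2.congr (Eventually.of_forall fun w => ?_)
        show _ = addRow (DF θ w) W (e a) (id k)
        rw [ha]
        rfl
      · refine (analyticAt_const (v := W k)).congr (Eventually.of_forall fun w => ?_)
        show _ = addRow (DF θ w) W (e a) (id k)
        rw [ha]
        rfl
    have h3 : D = fun w => ∑ σ : Equiv.Perm (Fin (n + 1)), (Equiv.Perm.sign σ : ℂ) *
        ∏ i, (addRow (DF θ w) W).submatrix e id (σ i) i := by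
      funext w
      exact Matrix.det_apply' _
    rw [h3]
    refine Finset.analyticAt_fun_sum _ fun σ _ => analyticAt_const.mul ?_
    exact Finset.analyticAt_fun_prod _ fun i _ => h1 _ _
  have hha : AnalyticAt ℂ h z := by
    have h1 : AnalyticAt ℂ (fderiv ℂ g) (θ z) := (anal_g hΩ hg (hθΩ z hz)).fderiv
    exact ((ContinuousLinearMap.apply ℂ ℂ W).analyticAt _).comp (h1.comp (anal_th hθ hz))
  have hev : ∀ᶠ w in 𝓝 z, h w ≠ 0 := hha.continuousAt.eventually_ne hW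
  have key : ∀ w ∈ U, h w ≠ 0 → eta2a g θ w = ‖D w / h w‖ ^ 2 := by
    intro w hw hw0
    have h1 : fderiv ℂ g (θ w) ≠ 0 := by
      intro h2
      apply hw0
      show fderiv ℂ g (θ w) W = 0
      rw [h2]
      rfl
    have h2 := hθ.eta2a_spec hw (anal_g hΩ hg (hθΩ w hw)).differentiableAt h1 W
    rw [gdet_submatrix _ e, Complex.mul_conj'] at h2
    have h3 : ‖D w‖ ^ 2 = eta2a g θ w * ‖h w‖ ^ 2 := by exact_mod_cast h2
    have h4 : ‖h w‖ ≠ 0 := norm_ne_zero_iff.2 hw0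
    rw [norm_div, div_pow, h3]
    field_simp
  have hDh : AnalyticAt ℂ (fun w => D w / h w) z := hDa.div hha hW
  have hev2 : (fun w => Real.log (eta2a g θ w)) =ᶠ[𝓝 z]
      fun w => Real.log (‖D w / h w‖ ^ 2) := by
    filter_upwards [hev, hθ.isOpen.mem_nhds hz] with w hw hwU
    rw [key w hwU hw]
  have hne : D z / h z ≠ 0 := by
    intro h1
    rw [key z hz hW, h1] at hpos
    simp at hpos
  refine ⟨(c2_log_normSq hDh hne 2).congr_of_eventuallyEq hev2, fun v => ?_⟩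
  rw [lev_congr hev2]
  exact lev_log_normSq hDh hne v

/-- the Kaehler-Einstein equation gives `∂∂̄ log det = ω` -/
theorem lev_ld_of_ke (hΩ : IsOpen Ω) (hg : DifferentiableOn ℂ g Ω)
    {θ : Cn n → AC n} {U : Set (Cn n)} (hθ : Par g s θ U) (hθΩ : ∀ z ∈ U, θ z ∈ Ω)
    {u : AC n → ℝ} (hsm : ContDiffOn ℝ ∞ (fun z => u (θ z)) U)
    (hpos : ∀ z ∈ U, ∀ v : Cn n, v ≠ 0 → 0 < lev (fun z => u (θ z)) z v)
    (hke : ∀ z ∈ U, (YauDefs_635.cH (fun z => u (θ z)) z).det =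
      ((Real.exp (u (θ z)) * eta2a g θ z : ℝ) : ℂ))
    {z : Cn n} (hz : z ∈ U) (h0 : fderiv ℂ g (θ z) ≠ 0) (v : Cn n) :
    lev (ld fun z => u (θ z)) z v = lev (fun z => u (θ z)) z v := by
  have hs : ∀ w ∈ U, ContDiffAt ℝ ∞ (fun z => u (θ z)) w := fun w hw =>
    hsm.contDiffAt (hθ.isOpen.mem_nhds hw)
  have hdet : ∀ w ∈ U, (Um (fun z => u (θ z)) w).det.re = Real.exp (u (θ w)) * eta2a g θ w := by
    intro w hw
    rw [C2f_793.Um_eq_cH (sm2 (hs w hw)), hke w hw, Complex.ofReal_re]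
  have hdp : ∀ w ∈ U, 0 < eta2a g θ w := by
    intro w hw
    have h1 := (Complex.pos_iff.1 (Um_posDef (sm2 (hs w hw)) (hpos w hw)).det_pos).1
    rw [hdet w hw] at h1
    exact (pos_iff_pos_of_mul_pos h1).1 (Real.exp_pos _)
  obtain ⟨h1, h2⟩ := lev_log_eta2a hΩ hg hθ hθΩ hz h0 (hdp z hz)
  have hev : (ld fun z => u (θ z)) =ᶠ[𝓝 z] fun w => u (θ w) + Real.log (eta2a g θ w) := by
    filter_upwards [hθ.isOpen.mem_nhds hz] with w hw
    show Real.log _ = _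
    rw [hdet w hw, Real.log_mul (Real.exp_pos _).ne' (hdp w hw).ne', Real.log_exp]
  rw [lev_congr hev, lev_add (u := fun w => u (θ w)) (sm2 (hs z hz)) h1, h2, add_zero]

/-- **the gradient estimate for Kaehler-Einstein potentials on levels** -/
theorem grad_ke (hΩ : IsOpen Ω) (hg : DifferentiableOn ℂ g Ω)
    (hreg : ∀ x ∈ Ω, g x = s → fderiv ℂ g x ≠ 0) {R A C : ℝ} {u : AC n → ℝ}
    (hK : IsCompact {x | x ∈ Ω ∧ g x = s ∧ nsq x ≤ R ^ 2}) (hR : 0 < R) (hC0 : 0 ≤ C)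
    (hsm : ∀ θ U, Par g s θ U → (∀ z ∈ U, θ z ∈ Ω) → ContDiffOn ℝ ∞ (fun z => u (θ z)) U)
    (hpos : ∀ θ U, Par g s θ U → (∀ z ∈ U, θ z ∈ Ω) → ∀ z ∈ U, ∀ v : Cn n, v ≠ 0 →
      0 < lev (fun z => u (θ z)) z v)
    (hke : ∀ θ U, Par g s θ U → (∀ z ∈ U, θ z ∈ Ω) → ∀ z ∈ U,
      (YauDefs_635.cH (fun z => u (θ z)) z).det = ((Real.exp (u (θ z)) * eta2a g θ z : ℝ) : ℂ))
    (hC : ∀ θ U, Par g s θ U → (∀ z ∈ U, θ z ∈ Ω) → ∀ z ∈ U, ∀ v : Cn n,
      lev (sqt θ) z v ≤ C * lev (fun z => u (θ z)) z v)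
    (hA : ∀ x ∈ Ω, g x = s → nsq x ≤ R ^ 2 → u x < A) :
    ∀ θ U, Par g s θ U → (∀ z ∈ U, θ z ∈ Ω) → ∀ z ∈ U, nsq (θ z) ≤ R ^ 2 / 2 → ∀ v : Cn n,
      ‖gr (fun z => u (θ z)) z v‖ ^ 2 ≤
        (2 + (8 + 4 * n) * C / R ^ 2) * ((A - u (θ z)) ^ 2 * lev (fun z => u (θ z)) z v) := by
  intro θ U hθ hθΩ z hz hle v
  have h1 := grad_par hΩ hg hreg hK zero_le_one hC0 hsm hpos
    (fun θ U h1 h2 z h3 v => by
      rw [one_mul, lev_ld_of_ke hΩ hg h1 h2 (hsm θ U h1 h2) (hpos θ U h1 h2) (hke θ U h1 h2) h3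
        (hreg _ (h2 z h3) (h1.lvl z h3))]) hC hA θ U hθ hθΩ z hz
    (by have : 0 < R ^ 2 := by positivity
        linarith) v
  set a := ‖gr (fun z => u (θ z)) z v‖ ^ 2 with ha
  set b := (A - u (θ z)) ^ 2 * lev (fun z => u (θ z)) z v with hb
  have ha0 : 0 ≤ a := sq_nonneg _
  have h2 : (R ^ 2 / 2) ^ 2 ≤ (R ^ 2 - nsq (θ z)) ^ 2 := by
    have : 0 ≤ R ^ 2 / 2 := by positivity
    gcongr
    linarith
  have h3 : a * (R ^ 4 / 4) ≤ a * (R ^ 2 - nsq (θ z)) ^ 2 := by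
    refine mul_le_mul_of_nonneg_left ?_ ha0
    calc R ^ 4 / 4 = (R ^ 2 / 2) ^ 2 := by ring
      _ ≤ _ := h2
  have h4 : a * (R ^ 4 / 2) ≤ (1 * R ^ 4 + (4 + 2 * n) * C * R ^ 2) * b := by linarith
  have h5 : 0 < R ^ 4 / 2 := by positivity
  have h6 : (2 + (8 + 4 * n) * C / R ^ 2) * b =
      (1 * R ^ 4 + (4 + 2 * n) * C * R ^ 2) * b / (R ^ 4 / 2) := by
    field_simp
    ring
  rw [h6, le_div_iff₀ h5]
  exact h4

end

end Crest.Agent.R257.GradE_537
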