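import Crest.Agent.R257.LimA_37

/-!
Row 257 (S0395), leaf E-LIM, helper37: Kaehler-Einstein potentials on levels, chart independence.

* `KEon g s D u`  : `u` is a Kaehler-Einstein potential on `{g = s} ∩ D`, read in all
                    parametrisations;
* `BdOn g s D C u`: `log |∇g|² - C ≤ u ≤ C`, `|dθ|² ≤ C i∂∂̄(u ∘ θ)`;
* `Cht.factor`    : every parametrisation factors through the chart `Θ (·, τ)`;
* `KEon.of_cht`, `BdOn.of_cht` : it is enough to check the centre of one chart at every point.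
-/

set_option autoImplicit false
set_option linter.unusedSectionVars false

open Set Filter Topology Complex
open scoped ContDiff ComplexConjugate

namespace Crest.Agent.R257.LimB_37

open Crest.Agent.R275.Geo Crest.Agent.R275.Core144
open Crest.Agent.R273.Defs_333 Crest.Agent.R273.YauDefs_635 Crest.Agent.R273.YauCh_635
open Crest.Agent.R257.PN_835 Crest.Agent.R257.Aff_835 Crest.Agent.R257.LimA_37
open Crest.Agent.R257.KEl_835
open Crest.Agent.R273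

noncomputable section

variable {n : ℕ}

/-- Kaehler-Einstein potential on the level `{g = s}` inside `D` -/
structure KEon (g : AC n → ℂ) (s : ℂ) (D : Set (AC n)) (u : AC n → ℝ) : Prop where
  sm : ∀ (θ : Cn n → AC n) (U : Set (Cn n)), Par g s θ U → (∀ z ∈ U, θ z ∈ D) →
    ContDiffOn ℝ ∞ (fun z => u (θ z)) U
  pos : ∀ (θ : Cn n → AC n) (U : Set (Cn n)), Par g s θ U → (∀ z ∈ U, θ z ∈ D) →
    ∀ z ∈ U, ∀ v : Cn n, v ≠ 0 → 0 < lev (fun z => u (θ z)) z v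
  ke : ∀ (θ : Cn n → AC n) (U : Set (Cn n)), Par g s θ U → (∀ z ∈ U, θ z ∈ D) →
    ∀ z ∈ U, (cH (fun z => u (θ z)) z).det = ((Real.exp (u (θ z)) * eta2a g θ z : ℝ) : ℂ)

/-- a priori bounds -/
structure BdOn (g : AC n → ℂ) (s : ℂ) (D : Set (AC n)) (C : ℝ) (u : AC n → ℝ) : Prop where
  lo : ∀ x ∈ D, g x = s → Real.log (nga g x) - C ≤ u x
  hi : ∀ x ∈ D, g x = s → u x ≤ C
  lev_le : ∀ (θ : Cn n → AC n) (U : Set (Cn n)), Par g s θ U → (∀ z ∈ U, θ z ∈ D) →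
    ∀ z ∈ U, ∀ v : Cn n, lev (FS_333.sq θ) z v ≤ C * lev (fun z => u (θ z)) z v

theorem KEon.mono {g : AC n → ℂ} {s : ℂ} {D D' : Set (AC n)} {u : AC n → ℝ}
    (h : KEon g s D u) (hD : D' ⊆ D) : KEon g s D' u :=
  ⟨fun θ U hθ hm => h.sm θ U hθ fun z hz => hD (hm z hz),
    fun θ U hθ hm => h.pos θ U hθ fun z hz => hD (hm z hz),
    fun θ U hθ hm => h.ke θ U hθ fun z hz => hD (hm z hz)⟩

theorem BdOn.mono {g : AC n → ℂ} {s : ℂ} {D D' : Set (AC n)} {u : AC n → ℝ} {C : ℝ}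
    (h : BdOn g s D C u) (hD : D' ⊆ D) : BdOn g s D' C u :=
  ⟨fun x hx => h.lo x (hD hx), fun x hx => h.hi x (hD hx),
    fun θ U hθ hm => h.lev_le θ U hθ fun z hz => hD (hm z hz)⟩

/-! ### composition rules -/

section comp

variable {θ θ' : Cn n → AC n} {t : Cn n → Cn n} {z w₀ : Cn n}

theorem comp_ev (u : AC n → ℝ) (he : ∀ᶠ w in 𝓝 z, θ w = θ' (t w)) :
    (fun z => u (θ z)) =ᶠ[𝓝 z] fun w => (fun z => u (θ' z)) (t w) := by
  filter_upwards [he] with w hw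
  show u (θ w) = u (θ' (t w))
  rw [hw]

theorem comp_ev_sq (he : ∀ᶠ w in 𝓝 z, θ w = θ' (t w)) :
    FS_333.sq θ =ᶠ[𝓝 z] fun w => (FS_333.sq θ') (t w) := by
  filter_upwards [he] with w hw
  show FS_333.sq θ w = FS_333.sq θ' (t w)
  unfold FS_333.sq
  rw [hw]

theorem comp_sm {u : AC n → ℝ} (ht : AnalyticAt ℂ t z) (he : ∀ᶠ w in 𝓝 z, θ w = θ' (t w))
    (h0 : t z = w₀) (hu : ContDiffAt ℝ ∞ (fun z => u (θ' z)) w₀) :
    ContDiffAt ℝ ∞ (fun z => u (θ z)) z := by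
  subst h0
  exact (ContDiffAt.comp (g := fun z => u (θ' z)) z hu
    (ht.contDiffAt.restrict_scalars ℝ)).congr_of_eventuallyEq (comp_ev u he)

theorem comp_lev {u : AC n → ℝ} (ht : AnalyticAt ℂ t z) (he : ∀ᶠ w in 𝓝 z, θ w = θ' (t w))
    (h0 : t z = w₀) (hu : ContDiffAt ℝ ∞ (fun z => u (θ' z)) w₀) (v : Cn n) :
    lev (fun z => u (θ z)) z v = lev (fun z => u (θ' z)) w₀ (fderiv ℂ t z v) := by
  subst h0
  rw [lev_congr (comp_ev u he), lev_comp' (u := fun z => u (θ' z)) ht (hu.of_le two_le_inf)]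

theorem comp_det {u : AC n → ℝ} (ht : AnalyticAt ℂ t z) (he : ∀ᶠ w in 𝓝 z, θ w = θ' (t w))
    (h0 : t z = w₀) (hu : ContDiffAt ℝ ∞ (fun z => u (θ' z)) w₀) :
    (cH (fun z => u (θ z)) z).det =
      ((‖(Jm t z).det‖ ^ 2 : ℝ) : ℂ) * (cH (fun z => u (θ' z)) w₀).det := by
  subst h0
  rw [cH_congr (comp_ev u he), det_cH_comp (u := fun z => u (θ' z)) ht (hu.of_le two_le_inf)]

theorem comp_lev_sq {g : AC n → ℂ} {s : ℂ} {U' : Set (Cn n)} (hθ' : Par g s θ' U')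
    (ht : AnalyticAt ℂ t z) (he : ∀ᶠ w in 𝓝 z, θ w = θ' (t w)) (h0 : t z = w₀) (hw₀ : w₀ ∈ U')
    (v : Cn n) : lev (FS_333.sq θ) z v = lev (FS_333.sq θ') w₀ (fderiv ℂ t z v) := by
  subst h0
  have hs : ContDiffAt ℝ ∞ (FS_333.sq θ') (t z) :=
    Crest.Agent.R257.Gram_835.contDiffAt_sq hθ'.isOpen hθ'.holk hw₀
  rw [lev_congr (comp_ev_sq he), lev_comp' (u := FS_333.sq θ') ht (hs.of_le two_le_inf)]

/-- transformation of `|η|²` -/
theorem eta2a_comp {g : AC n → ℂ} {s : ℂ} {U U' : Set (Cn n)}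
    (hθ : Par g s θ U) (hθ' : Par g s θ' U') (hz : z ∈ U)
    (ht : AnalyticAt ℂ t z) (he : ∀ᶠ w in 𝓝 z, θ w = θ' (t w)) (ht0 : t z = w₀) (hw₀ : w₀ ∈ U')
    (h0 : fderiv ℂ g (θ z) ≠ 0) :
    eta2a g θ z = ‖(Jm t z).det‖ ^ 2 * eta2a g θ' w₀ := by
  subst ht0
  have e0 : θ z = θ' (t z) := he.self_of_nhds
  have h1 := hθ.flat hz h0
  have h2 := hθ'.flat hw₀ (by rw [← e0]; exact h0)
  have hs : ContDiffAt ℝ ∞ (FS_333.sq θ') (t z) :=
    Crest.Agent.R257.Gram_835.contDiffAt_sq hθ'.isOpen hθ'.holk hw₀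
  rw [cH_congr (comp_ev_sq he), det_cH_comp ht (hs.of_le two_le_inf), h2, ← e0] at h1
  have h4 : ‖(Jm t z).det‖ ^ 2 * (eta2a g θ' (t z) * nga g (θ z)) = eta2a g θ z * nga g (θ z) := by
    exact_mod_cast h1
  have h5 : nga g (θ z) ≠ 0 := (nga_pos h0).ne'
  apply mul_right_cancel₀ h5
  rw [← h4]
  ring

end comp

variable {P : Type*} [NormedAddCommGroup P] [NormedSpace ℂ P]
variable {g : P → AC n → ℂ} {σ : P → ℂ} {D : Set (AC n)} {τ₀ : P} {x₀ : AC n}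

/-- every parametrisation of a level factors through the chart -/
theorem Cht.factor (c : Cht g σ D τ₀ x₀) {τ : P} (hτ : τ ∈ c.T) {θ : Cn n → AC n}
    {U : Set (Cn n)} (hθ : Par (g τ) (σ τ) θ U) {z : Cn n} (hz : z ∈ U) (hN : θ z ∈ c.N) :
    AnalyticAt ℂ (fun w => c.π (θ w - x₀)) z ∧ c.π (θ z - x₀) ∈ Metric.ball (0 : Cn n) c.ρ ∧
      (∀ᶠ w in 𝓝 z, θ w = c.Θ (c.π (θ w - x₀), τ)) ∧
      ∀ v, fderiv ℂ (fun w => c.π (θ w - x₀)) z v = 0 → v = 0 := by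
  have hd : DifferentiableOn ℂ (fun w => c.π (θ w - x₀)) U := fun w hw =>
    (c.π.differentiableAt.comp w ((hθ.diffAt hw).sub_const x₀)).differentiableWithinAt
  have han := Crest.Agent.R266.SCV.analyticOnNhd_of_differentiableOn hθ.isOpen hd z hz
  have hθc : ContinuousAt θ z := (hθ.diffAt hz).continuousAt
  have hev : ∀ᶠ w in 𝓝 z, θ w = c.Θ (c.π (θ w - x₀), τ) := by
    filter_upwards [hθ.isOpen.mem_nhds hz, hθc.eventually (c.N_open.mem_nhds hN)] with w hw hwN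
    exact (c.right (θ w) hwN τ hτ (hθ.lvl w hw)).2.symm
  have hb := (c.right (θ z) hN τ hτ (hθ.lvl z hz)).1
  refine ⟨han, hb, hev, fun v hv => hθ.imm z hz v ?_⟩
  have h1 : HasFDerivAt (fun w => c.Θ (w, τ)) (fderiv ℂ (fun w => c.Θ (w, τ)) (c.π (θ z - x₀)))
      (c.π (θ z - x₀)) := ((c.par τ hτ).diffAt hb).hasFDerivAt
  have h2 : HasFDerivAt (fun w => c.Θ (c.π (θ w - x₀), τ))
      ((fderiv ℂ (fun w => c.Θ (w, τ)) (c.π (θ z - x₀))).comp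
        (fderiv ℂ (fun w => c.π (θ w - x₀)) z)) z :=
    HasFDerivAt.comp z (g := fun w => c.Θ (w, τ)) h1 han.differentiableAt.hasFDerivAt
  have h3 : HasFDerivAt θ ((fderiv ℂ (fun w => c.Θ (w, τ)) (c.π (θ z - x₀))).comp
        (fderiv ℂ (fun w => c.π (θ w - x₀)) z)) z := h2.congr_of_eventuallyEq hev
  rw [h3.fderiv, ContinuousLinearMap.comp_apply, hv, map_zero]

/-- **a potential is Kaehler-Einstein if it is so at the centre of one chart at every point** -/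
theorem KEon.of_cht {u : AC n → ℝ}
    (hreg : ∀ x ∈ D, g τ₀ x = σ τ₀ → fderiv ℂ (g τ₀) x ≠ 0)
    (H : ∀ x₀ ∈ D, g τ₀ x₀ = σ τ₀ → ∃ c : Cht g σ D τ₀ x₀,
      ContDiffAt ℝ ∞ (fun z => u (c.Θ (z, τ₀))) 0 ∧
      (∀ v : Cn n, v ≠ 0 → 0 < lev (fun z => u (c.Θ (z, τ₀))) 0 v) ∧
      (cH (fun z => u (c.Θ (z, τ₀))) 0).det =
        ((Real.exp (u x₀) * eta2a (g τ₀) (fun z => c.Θ (z, τ₀)) 0 : ℝ) : ℂ)) :
    KEon (g τ₀) (σ τ₀) D u := by
  have key : ∀ (θ : Cn n → AC n) (U : Set (Cn n)), Par (g τ₀) (σ τ₀) θ U → (∀ z ∈ U, θ z ∈ D) →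
      ∀ z ∈ U, ContDiffAt ℝ ∞ (fun z => u (θ z)) z ∧
        (∀ v : Cn n, v ≠ 0 → 0 < lev (fun z => u (θ z)) z v) ∧
        (cH (fun z => u (θ z)) z).det =
          ((Real.exp (u (θ z)) * eta2a (g τ₀) θ z : ℝ) : ℂ) := by
    intro θ U hθ hm z hz
    obtain ⟨c, hc1, hc2, hc3⟩ := H (θ z) (hm z hz) (hθ.lvl z hz)
    obtain ⟨ht, -, he, hi⟩ := Cht.factor c c.mem_T hθ hz c.mem_N
    have ht0 : c.π (θ z - θ z) = 0 := by rw [sub_self, map_zero]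
    have hz0 : (0 : Cn n) ∈ Metric.ball (0 : Cn n) c.ρ := Metric.mem_ball_self c.ρ_pos
    refine ⟨comp_sm ht he ht0 hc1, fun v hv => ?_, ?_⟩
    · rw [comp_lev ht he ht0 hc1]
      exact hc2 _ fun h => hv (hi v h)
    · have h1 := eta2a_comp hθ (c.par τ₀ c.mem_T) hz ht he ht0 hz0
        (hreg _ (hm z hz) (hθ.lvl z hz))
      rw [comp_det ht he ht0 hc1, hc3, h1, ← ofReal_mul]
      congr 1
      ring
  exact ⟨fun θ U hθ hm z hz => (key θ U hθ hm z hz).1.contDiffWithinAt,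
    fun θ U hθ hm z hz => (key θ U hθ hm z hz).2.1,
    fun θ U hθ hm z hz => (key θ U hθ hm z hz).2.2⟩

/-- the metric bound is enough at the centre of one chart at every point -/
theorem lev_le_of_cht {u : AC n → ℝ} {C : ℝ}
    (H : ∀ x₀ ∈ D, g τ₀ x₀ = σ τ₀ → ∃ c : Cht g σ D τ₀ x₀,
      ContDiffAt ℝ ∞ (fun z => u (c.Θ (z, τ₀))) 0 ∧
      ∀ v : Cn n, lev (FS_333.sq fun z => c.Θ (z, τ₀)) 0 v ≤
        C * lev (fun z => u (c.Θ (z, τ₀))) 0 v)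
    (θ : Cn n → AC n) (U : Set (Cn n)) (hθ : Par (g τ₀) (σ τ₀) θ U) (hm : ∀ z ∈ U, θ z ∈ D)
    (z : Cn n) (hz : z ∈ U) (v : Cn n) :
    lev (FS_333.sq θ) z v ≤ C * lev (fun z => u (θ z)) z v := by
  obtain ⟨c, hc1, hc2⟩ := H (θ z) (hm z hz) (hθ.lvl z hz)
  obtain ⟨ht, -, he, hi⟩ := Cht.factor c c.mem_T hθ hz c.mem_N
  have ht0 : c.π (θ z - θ z) = 0 := by rw [sub_self, map_zero]
  have hz0 : (0 : Cn n) ∈ Metric.ball (0 : Cn n) c.ρ := Metric.mem_ball_self c.ρ_pos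
  rw [comp_lev ht he ht0 hc1, comp_lev_sq (c.par τ₀ c.mem_T) ht he ht0 hz0]
  exact hc2 _

end

end Crest.Agent.R257.LimB_37
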