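import Crest.Agent.R257.KED_952
import Crest.Agent.R257.GradE_537
import Crest.Agent.R257.LimB_37
import Crest.Agent.R257.CLD_39

/-!
# Row 257 (S0395), GRADK (helper39): the gradient bound in the language of KED_952

* `GradBd f s r A Cg u` : `|∂u|² ≤ Cg (A - u)²` on the level
* `exists_chart`        : a `Chart` around every point of the level `τ₀`
* `gradK`               : `SmD` implies `GradBd` for the levels `τ` and for the limit `τ₀`
-/

set_option autoImplicit false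
set_option linter.unusedSectionVars false

open Set Filter Topology Complex
open scoped ContDiff ComplexConjugate Matrix

namespace Crest.Agent.R257.GradK_39

open Crest.Agent.R275.Geo Crest.Agent.R275.Core144
open Crest.Agent.R273
open Crest.Agent.R257.PN_835 Crest.Agent.R257.Aff_835
open Crest.Agent.R257.LimA_37 (Cht exists_cht jn)
open Crest.Agent.R257.KED_952
open Crest.Agent.R257.Defs_219 (E3)
open Crest.Agent.R273.YauDefs_635 (lev333_eq_lev145)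

noncomputable section

/-- `|∂u|² ≤ Cg (A - u)²` on the level -/
def GradBd (f : E3 → ℂ) (s : ℂ) (r A Cg : ℝ) (u : E3 → ℝ) : Prop :=
  ∀ θ O, PE f s r θ O → ∀ z ∈ O, ∀ v,
    ‖Levi_145.gr (fun z => u (θ z)) z v‖ ^ 2 ≤
      Cg * ((A - u (θ z)) ^ 2 * Levi_145.lev (fun z => u (θ z)) z v)

theorem continuous_nsq : Continuous (nsq (m := 3)) :=
  continuous_finsetSum _ fun k _ => ((continuous_apply k).norm).pow 2

theorem isCompact_nsq_le (ρ : ℝ) : IsCompact {x : E3 | nsq x ≤ ρ} := by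
  refine Metric.isCompact_of_isClosed_isBounded (isClosed_le continuous_nsq continuous_const) ?_
  refine (Metric.isBounded_closedBall (x := (0 : E3)) (r := Real.sqrt ρ)).subset fun x hx => ?_
  rw [mem_closedBall_zero_iff, pi_norm_le_iff_of_nonneg (Real.sqrt_nonneg _)]
  intro i
  refine Real.le_sqrt_of_sq_le (le_trans ?_ hx)
  exact Finset.single_le_sum (f := fun i => ‖x i‖ ^ 2) (fun _ _ => sq_nonneg _)
    (Finset.mem_univ i)

variable {Φ : E3 × PP → ℂ} {τ₀ : PP} {l : Filter PP} {r C : ℝ} {w : PP → E3 → ℝ} {u : E3 → ℝ}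

/-- analyticity near the closed ball, `τ` near `τ₀` -/
theorem ev_an (h : Fam Φ τ₀ l r) : ∀ᶠ τ in 𝓝 τ₀, ∀ x, nsq x ≤ r ^ 2 → AnalyticAt ℂ Φ (x, τ) := by
  have ho : IsOpen {q : E3 × PP | AnalyticAt ℂ Φ q} := isOpen_analyticAt ℂ Φ
  obtain ⟨U, V, -, hV, hU, hτ, hUV⟩ := generalized_tube_lemma (isCompact_nsq_le (r ^ 2))
    (isCompact_singleton (x := τ₀)) ho (by
      rintro ⟨x, τ⟩ ⟨hx, hτ⟩
      rw [mem_singleton_iff] at hτ
      subst hτ
      exact h.an x hx)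
  filter_upwards [hV.mem_nhds (hτ rfl)] with τ hτ' x hx
  exact hUV ⟨hU hx, hτ'⟩

theorem diff_slice {x : E3} {τ : PP} (h : AnalyticAt ℂ Φ (x, τ)) :
    DifferentiableAt ℂ (fun x => Φ (x, τ)) x :=
  h.differentiableAt.comp x (differentiableAt_id.prodMk (differentiableAt_const τ))

/-- a chart around a point of the level -/
theorem exists_chart (h : Fam Φ τ₀ l r) {ρ : ℝ} (hρ : ρ ≤ r) (hρ0 : 0 ≤ ρ) {x₀ : E3}
    (hx0 : x₀ ≠ 0) (hx : nsq x₀ < ρ ^ 2) (h0 : Φ (x₀, τ₀) = 0) :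
    ∃ c : Cht (n := 2) (fun τ x => Φ (x, τ)) (fun _ => 0) {x | x ≠ 0 ∧ nsq x < ρ ^ 2} τ₀ x₀,
      Chart Φ ρ τ₀ (Metric.ball 0 c.ρ) c.T c.Θ ∧ Chart Φ r τ₀ (Metric.ball 0 c.ρ) c.T c.Θ := by
  have hρr : ρ ^ 2 ≤ r ^ 2 := pow_le_pow_left₀ hρ0 hρ 2
  have hD : IsOpen {x : E3 | x ≠ 0 ∧ nsq x < ρ ^ 2} :=
    isOpen_ne.inter (isOpen_lt continuous_nsq continuous_const)
  have hJ : AnalyticAt ℂ (jn (n := 2) (fun τ x => Φ (x, τ)) (fun _ : PP => (0 : ℂ))) (x₀, τ₀) := by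
    refine (h.an x₀ (hx.le.trans hρr)).congr (Eventually.of_forall fun q => ?_)
    simp [jn]
  obtain ⟨c⟩ := exists_cht (n := 2) (g := fun (τ : PP) x => Φ (x, τ)) (σ := fun _ => 0) hD
    (τ₀ := τ₀) (x₀ := x₀) ⟨hx0, hx⟩ h0 hJ (h.sm0 x₀ hx0 (hx.le.trans hρr) h0)
  refine ⟨c, ⟨c.T_open.mem_nhds c.mem_T, fun q hq => c.an q.1 hq.1 q.2 hq.2, fun τ hτ =>
    ⟨c.par τ hτ, fun z hz => (c.maps z hz τ hτ).1, fun z hz => (c.maps z hz τ hτ).2⟩⟩,
    ⟨c.T_open.mem_nhds c.mem_T, fun q hq => c.an q.1 hq.1 q.2 hq.2, fun τ hτ =>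
    ⟨c.par τ hτ, fun z hz => (c.maps z hz τ hτ).1, fun z hz =>
      (c.maps z hz τ hτ).2.trans_le hρr⟩⟩⟩

/-- the smooth levels -/
theorem grad_sm {g : E3 → ℂ} (hr : 0 < r) (hg : ∀ x, nsq x ≤ r ^ 2 → DifferentiableAt ℂ g x)
    (hsm : ∀ x, x ≠ 0 → nsq x ≤ r ^ 2 → g x = 0 → fderiv ℂ g x ≠ 0) (hnz : g 0 ≠ 0)
    (hK : KEon g 0 r u) (hB : Bd g 0 r C u) :
    GradBd g 0 (r / 2) (max C 0 + 1) (2 + 16 * max C 0 / ((4 / 5 * r) ^ 2)) u := by
  intro θ O hP z hz v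
  set Ω : Set E3 := {x | nsq x < r ^ 2} with hΩ
  have hΩo : IsOpen Ω := isOpen_lt continuous_nsq continuous_const
  have hPE : ∀ θ U, Par (n := 2) g 0 θ U → (∀ z ∈ U, θ z ∈ Ω) → PE g 0 r θ U := fun θ U h1 h2 =>
    ⟨h1, fun z hz h0 => hnz (by rw [← h0]; exact h1.lvl z hz), fun z hz => h2 z hz⟩
  have hC0 : 0 ≤ max C 0 := le_max_right _ _
  have hR : 0 < 4 / 5 * r := by positivity
  have hRr : (4 / 5 * r) ^ 2 < r ^ 2 := by nlinarith
  have hKc : IsCompact {x | x ∈ Ω ∧ g x = 0 ∧ nsq x ≤ (4 / 5 * r) ^ 2} := by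
    have e : {x | x ∈ Ω ∧ g x = 0 ∧ nsq x ≤ (4 / 5 * r) ^ 2} =
        {x : E3 | nsq x ≤ (4 / 5 * r) ^ 2} ∩ g ⁻¹' {0} := by
      ext x
      constructor
      · rintro ⟨h1, h2, h3⟩
        exact ⟨h3, h2⟩
      · rintro ⟨h1, h2⟩
        exact ⟨lt_of_le_of_lt h1 hRr, h2, h1⟩
    rw [e]
    have hcl : IsClosed {x : E3 | nsq x ≤ (4 / 5 * r) ^ 2} :=
      isClosed_le continuous_nsq continuous_const
    have hc : ContinuousOn g {x : E3 | nsq x ≤ (4 / 5 * r) ^ 2} := fun x hx =>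
      (hg x (le_trans hx hRr.le)).continuousAt.continuousWithinAt
    exact (isCompact_nsq_le _).of_isClosed_subset
      (hc.preimage_isClosed_of_isClosed hcl isClosed_singleton) inter_subset_left
  have key := GradE_537.grad_ke (n := 2) (Ω := Ω) (g := g) (s := 0) hΩo
    (fun x hx => (hg x (le_of_lt hx)).differentiableWithinAt)
    (fun x hx h0 => hsm x (fun h => hnz (by rw [← h]; exact h0)) (le_of_lt hx) h0)
    (R := 4 / 5 * r) (A := max C 0 + 1) (C := max C 0) (u := u) hKc hR hC0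
    (fun θ U h1 h2 => hK.sm θ U (hPE θ U h1 h2))
    (fun θ U h1 h2 z hz v hv => by
      have := hK.pos θ U (hPE θ U h1 h2) z hz v hv
      rw [lev333_eq_lev145] at this
      linarith)
    (fun θ U h1 h2 => hK.ma θ U (hPE θ U h1 h2))
    (fun θ U h1 h2 z hz v => by
      have h3 := hB.eu θ U (hPE θ U h1 h2) z hz v
      have h4 : 0 ≤ Defs_333.lev (fun z => u (θ z)) z v := by
        rcases eq_or_ne v 0 with h0 | h0
        · rw [h0, lev333_eq_lev145, Levi_145.lev_zero, mul_zero]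
        · exact (hK.pos θ U (hPE θ U h1 h2) z hz v h0).le
      rw [lev333_eq_lev145] at h3 h4
      rw [lev333_eq_lev145] at h3
      have h5 : Levi_145.lev (fun z => nsq (θ z)) z v = Levi_145.lev (GradE_537.sqt θ) z v := rfl
      rw [← h5]
      have h6 := le_max_left C 0
      nlinarith)
    (fun x hx h0 hxR => by
      have := hB.hi x h0 (fun h => hnz (by rw [← h]; exact h0)) hx
      have h6 := le_max_left C 0
      linarith)
    θ O hP.par (fun z hz => by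
      have := hP.lt z hz
      show nsq (θ z) < r ^ 2
      nlinarith) z hz (by
      have := hP.lt z hz
      nlinarith) v
  refine key.trans (le_of_eq ?_)
  norm_num

/-! ### the limit -/

section conv

variable {O : Set (Cn 2)} {v : PP → Cn 2 → ℝ} {v₀ : Cn 2 → ℝ}

theorem conv_pt (h : CvOn l O v v₀) (k : ℕ) {z : Cn 2} (hz : z ∈ O) :
    Tendsto (fun τ => iteratedFDeriv ℝ k (v τ) z) l (𝓝 (iteratedFDeriv ℝ k v₀ z)) :=
  (h k {z} (singleton_subset_iff.2 hz) isCompact_singleton).tendsto_at (mem_singleton z)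

theorem conv_0 (h : CvOn l O v v₀) {z : Cn 2} (hz : z ∈ O) :
    Tendsto (fun τ => v τ z) l (𝓝 (v₀ z)) := by
  have h1 := conv_pt h 0 hz
  have h2 : Continuous fun f : ContinuousMultilinearMap ℝ (fun _ : Fin 0 => Cn 2) ℝ => f 0 :=
    continuous_eval_const 0
  have h3 := (h2.tendsto _).comp h1
  simpa [Function.comp_def, iteratedFDeriv_zero_apply] using h3

theorem conv_1 (h : CvOn l O v v₀) {z : Cn 2} (hz : z ∈ O) (a : Cn 2) :
    Tendsto (fun τ => fderiv ℝ (v τ) z a) l (𝓝 (fderiv ℝ v₀ z a)) := by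
  have h1 := conv_pt h 1 hz
  have h2 : Continuous fun f : ContinuousMultilinearMap ℝ (fun _ : Fin 1 => Cn 2) ℝ =>
      f (fun _ => a) := continuous_eval_const _
  have h3 := (h2.tendsto _).comp h1
  simpa [Function.comp_def, iteratedFDeriv_one_apply] using h3

theorem conv_2 (h : CvOn l O v v₀) {z : Cn 2} (hz : z ∈ O) (a b : Cn 2) :
    Tendsto (fun τ => fderiv ℝ (fderiv ℝ (v τ)) z a b) l (𝓝 (fderiv ℝ (fderiv ℝ v₀) z a b)) := by
  have h1 := conv_pt h 2 hz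
  have h2 : Continuous fun f : ContinuousMultilinearMap ℝ (fun _ : Fin 2 => Cn 2) ℝ =>
      f ![a, b] := continuous_eval_const _
  have h3 := (h2.tendsto _).comp h1
  simpa [Function.comp_def, iteratedFDeriv_two_apply] using h3

theorem conv_lev (h : CvOn l O v v₀) {z : Cn 2} (hz : z ∈ O) (a : Cn 2) :
    Tendsto (fun τ => Levi_145.lev (v τ) z a) l (𝓝 (Levi_145.lev v₀ z a)) :=
  ((conv_2 h hz a a).add (conv_2 h hz (I • a) (I • a))).div_const 4

theorem conv_gr (h : CvOn l O v v₀) {z : Cn 2} (hz : z ∈ O)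
    (hv : ∀ᶠ τ in l, DifferentiableAt ℝ (v τ) z) (hv0 : DifferentiableAt ℝ v₀ z) (a : Cn 2) :
    Tendsto (fun τ => Levi_145.gr (v τ) z a) l (𝓝 (Levi_145.gr v₀ z a)) := by
  rw [Levi_145.gr_eq hv0]
  have h1 : Tendsto (fun τ => (1 / 2 : ℂ) * ((fderiv ℝ (v τ) z a : ℝ) -
      I * (fderiv ℝ (v τ) z (I • a) : ℝ))) l
      (𝓝 ((1 / 2 : ℂ) * ((fderiv ℝ v₀ z a : ℝ) - I * (fderiv ℝ v₀ z (I • a) : ℝ)))) := by
    have e : ∀ b, Tendsto (fun τ => ((fderiv ℝ (v τ) z b : ℝ) : ℂ)) l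
        (𝓝 ((fderiv ℝ v₀ z b : ℝ) : ℂ)) := fun b =>
      (Complex.continuous_ofReal.tendsto _).comp (conv_1 h hz b)
    exact ((e a).sub ((e (I • a)).const_mul I)).const_mul _
  refine h1.congr' ?_
  filter_upwards [hv] with τ hτ
  rw [Levi_145.gr_eq hτ]

end conv

/-- **the gradient bound** -/
theorem gradK (h : SmD Φ τ₀ l r C w u) : ∃ A Cg, 0 ≤ Cg ∧ C + 1 ≤ A ∧
    (∀ᶠ τ in l, GradBd (fun x => Φ (x, τ)) 0 (r / 2) A Cg (w τ)) ∧
    GradBd (fun x => Φ (x, τ₀)) 0 (r / 2) A Cg u := by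
  have hr := h.r_pos
  have hne := h.ne
  set A : ℝ := max C 0 + 1 with hA
  set Cg : ℝ := 2 + 16 * max C 0 / ((4 / 5 * r) ^ 2) with hCg
  have hC0 : 0 ≤ max C 0 := le_max_right _ _
  have hl : ∀ᶠ τ in l, GradBd (fun x => Φ (x, τ)) 0 (r / 2) A Cg (w τ) := by
    filter_upwards [h.lim (ev_an h.toFamD.toFam), h.sm, h.nz, h.ke] with τ h1 h2 h3 h4
    exact grad_sm hr (fun x hx => diff_slice (h1 x hx)) h2 h3 h4.1 h4.2
  refine ⟨A, Cg, by positivity, by linarith [le_max_left C 0], hl, ?_⟩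
  intro θ O hP z₀ hz₀ v₀
  have hx0 := hP.ne z₀ hz₀
  have hxl := hP.lt z₀ hz₀
  have h0 : Φ (θ z₀, τ₀) = 0 := hP.par.lvl z₀ hz₀
  obtain ⟨c, hc1, hc2⟩ := exists_chart h.toFamD.toFam (ρ := r / 2) (by linarith) (by positivity)
    hx0 hxl h0
  have hz0 : (0 : Cn 2) ∈ Metric.ball (0 : Cn 2) c.ρ := Metric.mem_ball_self c.ρ_pos
  have hcv : CvOn l (Metric.ball (0 : Cn 2) c.ρ) (fun τ z => w τ (c.Θ (z, τ)))
      (fun z => u (c.Θ (z, τ₀))) := h.conv _ _ _ hc2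
  have hT : ∀ᶠ τ in l, τ ∈ c.T := h.lim (c.T_open.mem_nhds c.mem_T)
  have hu0 : ContDiffAt ℝ ∞ (fun z => u (c.Θ (z, τ₀))) 0 :=
    (h.ke0.1.sm _ _ (hc2.par τ₀ c.mem_T)).contDiffAt (Metric.isOpen_ball.mem_nhds hz0)
  have hwd : ∀ᶠ τ in l, DifferentiableAt ℝ (fun z => w τ (c.Θ (z, τ))) 0 := by
    filter_upwards [hT, h.ke] with τ h1 h2
    exact ((h2.1.sm _ _ (hc2.par τ h1)).contDiffAt
      (Metric.isOpen_ball.mem_nhds hz0)).differentiableAt (by simp)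
  have key : ∀ a, ‖Levi_145.gr (fun z => u (c.Θ (z, τ₀))) 0 a‖ ^ 2 ≤
      Cg * ((A - u (c.Θ (0, τ₀))) ^ 2 * Levi_145.lev (fun z => u (c.Θ (z, τ₀))) 0 a) := by
    intro a
    have t1 := ((conv_gr hcv hz0 hwd (hu0.differentiableAt (by simp)) a).norm).pow 2
    have t2 := ((((tendsto_const_nhds (x := A)).sub (conv_0 hcv hz0)).pow 2).mul
      (conv_lev hcv hz0 a)).const_mul Cg
    refine le_of_tendsto_of_tendsto t1 t2 ?_
    filter_upwards [hl, hT] with τ h1 h2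
    exact h1 _ _ (hc1.par τ h2) 0 hz0 a
  obtain ⟨ht, -, he, -⟩ := LimB_37.Cht.factor c c.mem_T hP.par hz₀ c.mem_N
  have ht0 : c.π (θ z₀ - θ z₀) = 0 := by rw [sub_self, map_zero]
  set T : Cn 2 → Cn 2 := fun y => c.π (θ y - θ z₀) with hTdef
  have hT0 : T z₀ = 0 := ht0
  have hev : (fun z => u (θ z)) =ᶠ[𝓝 z₀] fun y => (fun z => u (c.Θ (z, τ₀))) (T y) := by
    filter_upwards [he] with y hy
    exact congrArg u hy
  have hu1 : ContDiffAt ℝ ∞ (fun z => u (c.Θ (z, τ₀))) (T z₀) := by rw [hT0]; exact hu0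
  have e1 : Levi_145.gr (fun z => u (θ z)) z₀ v₀ =
      Levi_145.gr (fun z => u (c.Θ (z, τ₀))) 0 (fderiv ℂ T z₀ v₀) := by
    rw [GradD_537.gr_congr hev, GradB_537.gr_comp ht.differentiableAt
      (hu1.differentiableAt (by simp)), hT0]
  have e2 : Levi_145.lev (fun z => u (θ z)) z₀ v₀ =
      Levi_145.lev (fun z => u (c.Θ (z, τ₀))) 0 (fderiv ℂ T z₀ v₀) := by
    rw [Levi_145.lev_congr hev, Levi_145.lev_comp ht (CLD_39.two_le' hu1), hT0]
  have e3 : c.Θ (0, τ₀) = θ z₀ := c.zero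
  have h5 := key (fderiv ℂ T z₀ v₀)
  rw [e3] at h5
  rw [e1, e2]
  exact h5

end

end Crest.Agent.R257.GradK_39
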