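import Crest.Prelude.Def_GermMilnor

/-!
R257 / Defs_219: the germ-level interface of row 257 (S0395), TOP INTERFACE v1.

`gens G`   : functions analytic at `0` in the ideal generated by the functions `G j`
             (same shape as `Def_GermMilnor.jacobianGerms`);
`col G`    : dimension of `O_{n,0}/(G)`; `ColFin G` : it is finite;
`Dt f g h` : `det (grad f, grad g, grad h)`; `mnr f g` : `f` and the `2x2` minors of `(grad f, grad g)`;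
`Jint p r f g` : integral of `|g|^(2/p) |eta|^2` over the sheets of `{f = 0}` over the `x'`-box;
`InJ p f g`: `g ∈ J_p(f)`;
`mstar f`  : `inf I(f,g,h)/(ab)` over `g ∈ J_a(f)`, `h ∈ J_b(f)`.
-/

set_option autoImplicit false

open Topology Filter MeasureTheory Set
open scoped ENNReal
open Crest.AlgGeometry.Germ

noncomputable section

namespace Crest.Agent.R257.Defs_219

abbrev E3 : Type := Fin 3 → ℂ

/-- functions analytic at the origin which lie in the ideal of germs generated by the `G j` -/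
def gens {n m : ℕ} (G : Fin m → (Fin n → ℂ) → ℂ) : Submodule ℂ (analyticAtOrigin n) where
  carrier := {g | ∃ a : Fin m → (Fin n → ℂ) → ℂ, (∀ i, AnalyticAt ℂ (a i) 0) ∧
    (g : (Fin n → ℂ) → ℂ) =ᶠ[𝓝 0] fun x => ∑ i, a i x * G i x}
  add_mem' := by
    rintro g k ⟨a, ha, hg⟩ ⟨b, hb, hk⟩
    refine ⟨fun i => a i + b i, fun i => (ha i).add (hb i), ?_⟩
    filter_upwards [hg, hk] with x hx hy
    simp only [Submodule.coe_add, Pi.add_apply, hx, hy, ← Finset.sum_add_distrib, add_mul]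
  zero_mem' := ⟨fun _ => 0, fun _ => analyticAt_const, Eventually.of_forall fun x => by simp⟩
  smul_mem' := by
    rintro c g ⟨a, ha, hg⟩
    refine ⟨fun i => c • a i, fun i => (ha i).const_smul, ?_⟩
    filter_upwards [hg] with x hx
    simp only [Submodule.coe_smul, Pi.smul_apply, smul_eq_mul, hx, Finset.mul_sum, mul_assoc]

/-- `O_{n,0}/(G)` -/
abbrev Quo {n m : ℕ} (G : Fin m → (Fin n → ℂ) → ℂ) : Type := analyticAtOrigin n ⧸ gens G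

/-- `dim O_{n,0}/(G) < ∞` -/
def ColFin {n m : ℕ} (G : Fin m → (Fin n → ℂ) → ℂ) : Prop := Module.Finite ℂ (Quo G)

/-- `dim O_{n,0}/(G)` -/
def col {n m : ℕ} (G : Fin m → (Fin n → ℂ) → ℂ) : ℕ := Module.finrank ℂ (Quo G)

/-- the slice `F(·,t)` -/
def sl {n : ℕ} (F : (Fin n → ℂ) × ℂ → ℂ) (t : ℂ) : (Fin n → ℂ) → ℂ := fun x => F (x, t)

/-- the gradient -/
def gr {n : ℕ} (f : (Fin n → ℂ) → ℂ) (x : Fin n → ℂ) : Fin n → ℂ := fun i => coordDeriv f i x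

/-- the partial derivatives, as a family of generators -/
def par {n : ℕ} (f : (Fin n → ℂ) → ℂ) : Fin n → (Fin n → ℂ) → ℂ := fun i => coordDeriv f i

theorem gens_par {n : ℕ} (f : (Fin n → ℂ) → ℂ) : gens (par f) = jacobianGerms n f := rfl

/-- `det (grad f, grad g, grad h)` -/
def Dt (f g h : E3 → ℂ) (x : E3) : ℂ := Matrix.det (Matrix.of ![gr f x, gr g x, gr h x])

/-- `f` and the three `2x2` minors of `(grad f, grad g)` -/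
def mnr (f g : E3 → ℂ) : Fin 4 → E3 → ℂ :=
  ![f, fun x => gr f x 1 * gr g x 2 - gr f x 2 * gr g x 1,
    fun x => gr f x 2 * gr g x 0 - gr f x 0 * gr g x 2,
    fun x => gr f x 0 * gr g x 1 - gr f x 1 * gr g x 0]

/-- `∫ |g|^(2/p) |eta|²` over `{f = 0}`, in sheets over the box `{|x'_i| < r i.succ}` -/
def Jint (p : ℝ) (r : Fin 3 → ℝ) (f g : E3 → ℂ) : ℝ≥0∞ :=
  ∫⁻ x' : Fin 2 → ℂ in {x' | ∀ i, ‖x' i‖ < r i.succ},
    ∑' z : {z : ℂ // ‖z‖ < r 0 ∧ f (Fin.cons z x') = 0 ∧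
        coordDeriv f 0 (Fin.cons z x') ≠ 0},
      ENNReal.ofReal (‖g (Fin.cons z.1 x')‖ ^ (2 / p) / ‖coordDeriv f 0 (Fin.cons z.1 x')‖ ^ 2)

/-- `g ∈ J_p(f)` -/
def InJ (p : ℝ) (f g : E3 → ℂ) : Prop := ∃ r : ℝ, 0 < r ∧ Jint p (fun _ => r) f g < ∞

/-- the set of the quotients `I(f,g,h)/(ab)` -/
def mset (f : E3 → ℂ) : Set ℝ :=
  {c | ∃ a b : ℝ, 1 ≤ a ∧ 1 ≤ b ∧ ∃ g h : E3 → ℂ, AnalyticAt ℂ g 0 ∧ AnalyticAt ℂ h 0 ∧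
    InJ a f g ∧ InJ b f h ∧ ColFin ![f, g, h] ∧ c = (col ![f, g, h] : ℝ) / (a * b)}

/-- `mstar f = inf I(f,g,h)/(ab)` -/
def mstar (f : E3 → ℂ) : ℝ := sInf (mset f)

theorem mset_nonneg {f : E3 → ℂ} {c : ℝ} (hc : c ∈ mset f) : 0 ≤ c := by
  obtain ⟨a, b, ha, hb, g, h, -, -, -, -, -, rfl⟩ := hc
  positivity

theorem bddBelow_mset (f : E3 → ℂ) : BddBelow (mset f) := ⟨0, fun _ hc => mset_nonneg hc⟩

theorem mstar_nonneg (f : E3 → ℂ) : 0 ≤ mstar f := Real.sInf_nonneg fun _ hc => mset_nonneg hc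

/-- the lower bound, true by definition -/
theorem mul_mstar_le {f g h : E3 → ℂ} {a b : ℝ} (ha : 1 ≤ a) (hb : 1 ≤ b)
    (hg : AnalyticAt ℂ g 0) (hh : AnalyticAt ℂ h 0) (hgJ : InJ a f g) (hhJ : InJ b f h)
    (hfin : ColFin ![f, g, h]) : a * b * mstar f ≤ (col ![f, g, h] : ℝ) := by
  have h1 : mstar f ≤ (col ![f, g, h] : ℝ) / (a * b) :=
    csInf_le (bddBelow_mset f) ⟨a, b, ha, hb, g, h, hg, hh, hgJ, hhJ, hfin, rfl⟩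
  have hab : 0 < a * b := mul_pos (by linarith) (by linarith)
  calc a * b * mstar f ≤ a * b * ((col ![f, g, h] : ℝ) / (a * b)) :=
        mul_le_mul_of_nonneg_left h1 hab.le
    _ = _ := by field_simp

/-- the hypotheses of S0395 -/
def Hyp (R : ℝ) (F : (Fin 3 → ℂ) × ℂ → ℂ) : Prop :=
  (∀ t : ℂ, ‖t‖ < R → AnalyticAt ℂ F (0, t) ∧ F (0, t) = 0) ∧
  (∀ t : ℂ, ‖t‖ < R → fderiv ℂ (fun x => F (x, t)) 0 = 0 ∧
      ∀ᶠ x in 𝓝[≠] (0 : Fin 3 → ℂ), fderiv ℂ (fun x => F (x, t)) x ≠ 0) ∧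
  (∀ t : ℂ, ‖t‖ < R →
      Module.Finite ℂ (Crest.AlgGeometry.Germ.JacobianQuotient 3 (fun x => F (x, t))) ∧
      Crest.AlgGeometry.Germ.milnorNumber 3 (fun x => F (x, t)) =
        Crest.AlgGeometry.Germ.milnorNumber 3 (fun x => F (x, 0)))

/-- the conclusion of S0395 -/
def Concl (F : (Fin 3 → ℂ) × ℂ → ℂ) : Prop :=
  ∃ δ : ℝ, 0 < δ ∧ ∃ Φ : OpenPartialHomeomorph ((Fin 3 → ℂ) × ℂ) ((Fin 3 → ℂ) × ℂ),
      (∀ t : ℂ, ‖t‖ < δ → ((0 : Fin 3 → ℂ), t) ∈ Φ.source ∧ Φ (0, t) = (0, t)) ∧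
      (∀ p ∈ Φ.source, (Φ p).2 = p.2 ∧ F (Φ p) = F (p.1, 0)) ∧
      (∀ x : Fin 3 → ℂ, (x, (0 : ℂ)) ∈ Φ.source → Φ (x, 0) = (x, 0))

/-- an isolated critical germ, regular in `x_0` -/
structure Iso (f : E3 → ℂ) : Prop where
  an : AnalyticAt ℂ f 0
  zero : f 0 = 0
  crit : ∀ i, coordDeriv f i 0 = 0
  fin : ColFin (par f)
  reg : ∃ᶠ z : ℂ in 𝓝[≠] 0, f (Fin.cons z 0) ≠ 0

/-- the globalised family (output of E-GLOB, helper554): `G(x,t) = P_t(x) + ∑ c_i x_i^d` -/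
structure GFam (G : E3 × ℂ → ℂ) (μ d : ℕ) (R r c₀ e : ℝ) (P : ℂ → MvPolynomial (Fin 3) ℂ)
    (c : Fin 3 → ℂ) : Prop where
  R_pos : 0 < R
  d_big : 4 * μ + 20 < d
  form : ∀ x t, G (x, t) = MvPolynomial.eval x (P t) + ∑ i, c i * x i ^ d
  deg : ∀ t, (P t).totalDegree < d
  coeff : ∀ m : Fin 3 →₀ ℕ, AnalyticOnNhd ℂ (fun t => (P t).coeff m) (Metric.ball 0 R)
  c_ne : ∀ i, c i ≠ 0
  zero : ∀ t, ‖t‖ < R → G (0, t) = 0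
  crit : ∀ t, ‖t‖ < R → ∀ i, coordDeriv (sl G t) i 0 = 0
  fin : ∀ t, ‖t‖ < R → ColFin (par (sl G t))
  mu : ∀ t, ‖t‖ < R → col (par (sl G t)) = μ
  r_pos : 0 < r
  c₀_pos : 0 < c₀
  lower : ∀ x t, ‖x‖ < r → ‖t‖ < R → c₀ * ‖x‖ ^ μ ≤ ‖gr (sl G t) x‖
  smooth0 : ∀ x, x ≠ 0 → G (x, 0) = 0 → gr (sl G 0) x ≠ 0
  e_pos : 0 < e
  smooth : ∀ x t, ‖t‖ < e → G (x, t) ≠ 0 → ‖G (x, t)‖ < e → gr (sl G t) x ≠ 0

/-! ### the Props -/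

/-- upper semicontinuity of `col` -/
def UscStmt : Prop := ∀ (m : ℕ) (G : Fin m → E3 × ℂ → ℂ), (∀ j, AnalyticAt ℂ (G j) (0, 0)) →
  ColFin (fun j => sl (G j) 0) →
  ∀ᶠ t in 𝓝 (0 : ℂ), ColFin (fun j => sl (G j) t) ∧
    col (fun j => sl (G j) t) ≤ col (fun j => sl (G j) 0)

/-- conservation of number, with the hypothesis only FREQUENTLY -/
def CNStmt : Prop := ∀ (m : ℕ) (G : Fin m → E3 × ℂ → ℂ), (∀ j, AnalyticAt ℂ (G j) (0, 0)) →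
  ColFin (fun j => sl (G j) 0) →
  (∃ᶠ t in 𝓝[≠] (0 : ℂ), col (fun j => sl (G j) 0) ≤ col (fun j => sl (G j) t)) →
  ∀ᶠ q in 𝓝 ((0 : E3), (0 : ℂ)), (∀ j, G j q = 0) → q.1 = 0

/-- Le–Greuel -/
def LGStmt : Prop := ∀ f g h : E3 → ℂ, AnalyticAt ℂ f 0 → AnalyticAt ℂ g 0 → AnalyticAt ℂ h 0 →
  f 0 = 0 → g 0 = 0 → h 0 = 0 → ColFin (par f) → ColFin ![f, g, h] → ColFin ![f, g, Dt f g h] →
  ColFin (mnr f g) ∧
    col (mnr f g) + col ![f, g, h] = col (par f) + col ![f, g, Dt f g h] + 1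

/-- the Jacobian determinant -/
def DetStmt : Prop := ∀ f g h : E3 → ℂ, AnalyticAt ℂ f 0 → AnalyticAt ℂ g 0 →
  AnalyticAt ℂ h 0 → ColFin ![f, g, h] →
  ∀ a b q : ℝ, 1 ≤ a → 1 ≤ b → 1 ≤ q → q < a + b + 1 → InJ a f g → InJ b f h →
  InJ q f (Dt f g h)

/-- `L^{2/p}` extension from `t = 0` -/
def OTStmt : Prop := ∀ (F : E3 × ℂ → ℂ) (g : E3 → ℂ) (p : ℝ), 1 ≤ p → AnalyticAt ℂ F (0, 0) →
  (∀ᶠ t in 𝓝 (0 : ℂ), F (0, t) = 0) → Iso (sl F 0) → AnalyticAt ℂ g 0 → InJ p (sl F 0) g →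
  ∃ G : E3 × ℂ → ℂ, AnalyticAt ℂ G (0, 0) ∧
    (∃ a : E3 → ℂ, AnalyticAt ℂ a 0 ∧ ∀ᶠ x in 𝓝 (0 : E3), G (x, 0) = g x + a x * F (x, 0)) ∧
    ∃ δ : ℝ, 0 < δ ∧ ∀ᵐ t : ℂ, ‖t‖ < δ → InJ p (sl F t) (sl G t)

/-- the exact pair at `t = 0` -/
def XStmt : Prop := ∀ f : E3 → ℂ, Iso f → 0 < mstar f →
  ∃ (k : ℕ) (g h : E3 → ℂ), 2 ≤ k ∧ AnalyticAt ℂ g 0 ∧ AnalyticAt ℂ h 0 ∧
    (∀ p : ℝ, 1 ≤ p → p < k → InJ p f g ∧ InJ p f h) ∧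
    ColFin ![f, g, h] ∧ (col ![f, g, h] : ℝ) = (k : ℝ) ^ 2 * mstar f ∧
    ColFin ![f, g, Dt f g h] ∧
      (col ![f, g, Dt f g h] : ℝ) = (2 * (k : ℝ) ^ 2 + k) * mstar f

/-- Kähler–Einstein part: lower semicontinuity of `mstar` at `t = 0` -/
def VStmt : Prop := ∀ (G : E3 × ℂ → ℂ) (μ d : ℕ) (R r c₀ e : ℝ) (P : ℂ → MvPolynomial (Fin 3) ℂ)
  (c : Fin 3 → ℂ), GFam G μ d R r c₀ e P c → ∀ m < mstar (sl G 0),
  ∀ᶠ t in 𝓝[≠] (0 : ℂ), m ≤ mstar (sl G t)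

/-- the log canonical case -/
def LCStmt : Prop := ∀ (G : E3 × ℂ → ℂ) (μ d : ℕ) (R r c₀ e : ℝ) (P : ℂ → MvPolynomial (Fin 3) ℂ)
  (c : Fin 3 → ℂ), GFam G μ d R r c₀ e P c → mstar (sl G 0) = 0 → Concl G

/-- globalisation -/
def GlobStmt : Prop := ∀ (R : ℝ) (F : E3 × ℂ → ℂ), 0 < R → Hyp R F →
  ∃ (G : E3 × ℂ → ℂ) (μ d : ℕ) (R r c₀ e : ℝ) (P : ℂ → MvPolynomial (Fin 3) ℂ)
  (c : Fin 3 → ℂ), GFam G μ d R r c₀ e P c ∧ (Concl G → Concl F)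

end Crest.Agent.R257.Defs_219
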