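import Crest.Agent.R257.UI8_939
import Crest.Agent.R257.Defs_219

/-!
Row 257 (S0395), helper939: `UscStmt` and `CNStmt` of `Defs_219`, literally; dictionary
`col` = `finrank (BB n ⧸ Idl 0 G)`.
-/

set_option autoImplicit false
set_option linter.unusedSectionVars false

open Set Filter Topology Metric Complex
open Crest.Agent.R275.Loc2879
open Crest.Agent.R257.Defs_219

noncomputable section

namespace Crest.Agent.R257.UI939

variable {n m : ℕ}

theorem quo_equiv {g : Fin m → (Fin n → ℂ) → ℂ} (hg : ∀ i, AnalyticAt ℂ (g i) 0) :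
    Nonempty (Quo g ≃ₗ[ℂ] (BB n ⧸ Idl (0 : Fin n → ℂ) g)) := dictG hg

theorem colFin_iff {g : Fin m → (Fin n → ℂ) → ℂ} (hg : ∀ i, AnalyticAt ℂ (g i) 0) :
    ColFin g ↔ Module.Finite ℂ (BB n ⧸ Idl (0 : Fin n → ℂ) g) := by
  obtain ⟨e⟩ := quo_equiv hg
  exact ⟨fun h => by
    have : Module.Finite ℂ (Quo g) := h
    exact Module.Finite.equiv e, fun h => Module.Finite.equiv e.symm⟩

theorem col_eq {g : Fin m → (Fin n → ℂ) → ℂ} (hg : ∀ i, AnalyticAt ℂ (g i) 0) :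
    col g = Module.finrank ℂ (BB n ⧸ Idl (0 : Fin n → ℂ) g) := by
  obtain ⟨e⟩ := quo_equiv hg
  exact e.finrank_eq

lemma ev_an {G : Fin m → (Fin n → ℂ) × ℂ → ℂ} (hG : ∀ j, AnalyticAt ℂ (G j) 0) :
    ∀ᶠ t in 𝓝 (0 : ℂ), ∀ j, AnalyticAt ℂ (sl (G j) t) 0 := by
  have h1 : ∀ᶠ t in 𝓝 (0 : ℂ), ∀ j, AnalyticAt ℂ (G j) (0, t) :=
    tendsto_0t.eventually (Filter.eventually_all.2 fun j => (hG j).eventually_analyticAt)
  filter_upwards [h1] with t ht j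
  exact an_slice (ht j)

/-- upper semicontinuity, general `n` -/
theorem usc_col (G : Fin m → (Fin n → ℂ) × ℂ → ℂ) (hG : ∀ j, AnalyticAt ℂ (G j) 0)
    (hfin : ColFin (fun j => sl (G j) 0)) :
    ∀ᶠ t in 𝓝 (0 : ℂ), ColFin (fun j => sl (G j) t) ∧
      col (fun j => sl (G j) t) ≤ col (fun j => sl (G j) 0) := by
  have h0 : ∀ j, AnalyticAt ℂ (sl (G j) 0) 0 := (ev_an hG).self_of_nhds
  have h1 := (colFin_iff h0).1 hfin
  have h2 := usc G hG _ h1 (col_eq h0).symm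
  filter_upwards [h2, ev_an hG] with t ht hta
  exact ⟨(colFin_iff hta).2 ht.1, by rw [col_eq hta]; exact ht.2⟩

/-- constancy, general `n` -/
theorem const_col (G : Fin m → (Fin n → ℂ) × ℂ → ℂ) (hG : ∀ j, AnalyticAt ℂ (G j) 0)
    (hfin : ColFin (fun j => sl (G j) 0))
    (hfr : ∃ᶠ t in 𝓝[≠] (0 : ℂ), col (fun j => sl (G j) 0) ≤ col (fun j => sl (G j) t)) :
    ∀ᶠ t in 𝓝 (0 : ℂ), Module.Finite ℂ (QQ G t) ∧
      Module.finrank ℂ (QQ G t) = col (fun j => sl (G j) 0) := by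
  have h0 : ∀ j, AnalyticAt ℂ (sl (G j) 0) 0 := (ev_an hG).self_of_nhds
  have h1 := (colFin_iff h0).1 hfin
  refine dim_eq G hG _ h1 (col_eq h0).symm ?_
  refine (hfr.and_eventually ((ev_an hG).filter_mono nhdsWithin_le_nhds)).mono ?_
  rintro t ⟨k1, k2⟩ _
  refine k1.trans (le_of_eq ?_)
  exact col_eq k2

/-- conservation of number, general `n` -/
theorem cn_col (G : Fin m → (Fin n → ℂ) × ℂ → ℂ) (hG : ∀ j, AnalyticAt ℂ (G j) 0)
    (hfin : ColFin (fun j => sl (G j) 0))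
    (hfr : ∃ᶠ t in 𝓝[≠] (0 : ℂ), col (fun j => sl (G j) 0) ≤ col (fun j => sl (G j) t)) :
    ∀ᶠ q in 𝓝 (0 : (Fin n → ℂ) × ℂ), (∀ j, G j q = 0) → q.1 = 0 :=
  cn G hG _ (const_col G hG hfin hfr)

theorem uscStmt : UscStmt := fun _ G hG hfin => usc_col G hG hfin

theorem cnStmt : CNStmt := fun _ G hG hfin hfr => cn_col G hG hfin hfr

end Crest.Agent.R257.UI939
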