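import Crest.Agent.R257.NS0b_554
import Crest.Agent.R257.CNS_939

/-!
Row 257 (S0395), leaf NS0, part c (helper554): a common zero is isolated iff the quotient of the
ring of germs is finite-dimensional (Rückert's Nullstellensatz for points).
-/

set_option autoImplicit false

open Set Filter Topology
open Crest.Agent.R275.Loc2879
open scoped Polynomial

noncomputable section

namespace Crest.Agent.R257.NS0554

open Crest.Agent.R257.Uni554 Crest.Agent.R257.Defs_219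

universe u v

/-- the ideal contains finitely many functions with isolated common zero `p` -/
def Isol {E : Type u} [NormedAddCommGroup E] [NormedSpace ℂ E] (p : E) (I : Ideal (OO p)) : Prop :=
  ∃ (m : ℕ) (G : Fin m → E → ℂ) (hG : ∀ j, AnalyticAt ℂ (G j) p),
    (∀ j, gm (G j) (hG j) ∈ I) ∧ ∀ᶠ x in 𝓝 p, (∀ j, G j x = 0) → x = p

section step

variable {E : Type u} [NormedAddCommGroup E] [NormedSpace ℂ E] [FiniteDimensional ℂ E] {z₀ : E}

/-- finiteness goes up -/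
theorem finite_up (I : Ideal (OO ((z₀, (0 : ℂ)) : E × ℂ))) {f : OO ((z₀, (0 : ℂ)) : E × ℂ)}
    (hf : f ∈ I) {d : ℕ} (hreg : Reg f d) (J : Ideal (OO z₀)) (hJ : J ≤ I.comap (iot z₀))
    (hfin : Module.Finite ℂ (OO z₀ ⧸ J)) : Module.Finite ℂ (OO ((z₀, (0 : ℂ)) : E × ℂ) ⧸ I) := by
  set qm : OO z₀ ⧸ J →+* OO ((z₀, (0 : ℂ)) : E × ℂ) ⧸ I := Ideal.quotientMap I (iot z₀) hJ with hqm
  have hs : ∀ (a : ℂ) (x : OO z₀ ⧸ J), qm (a • x) = a • qm x := by
    intro a x
    rw [Algebra.smul_def, map_mul, Algebra.smul_def]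
    rfl
  let L : (Fin d → OO z₀ ⧸ J) →ₗ[ℂ] (OO ((z₀, (0 : ℂ)) : E × ℂ) ⧸ I) :=
    { toFun := fun c => ∑ j, qm (c j) * Ideal.Quotient.mk I (Wv z₀ ^ (j : ℕ))
      map_add' := fun c c' => by
        simp only [Pi.add_apply, map_add, add_mul, Finset.sum_add_distrib]
      map_smul' := fun a c => by
        simp only [Pi.smul_apply, hs, RingHom.id_apply, Finset.smul_sum, smul_mul_assoc] }
  refine Module.Finite.of_surjective L (fun y => ?_)
  obtain ⟨y, rfl⟩ := Ideal.Quotient.mk_surjective y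
  obtain ⟨q, c, h⟩ := div_exists hreg y
  refine ⟨fun j => Ideal.Quotient.mk J (c j), ?_⟩
  change ∑ j, qm (Ideal.Quotient.mk J (c j)) * Ideal.Quotient.mk I (Wv z₀ ^ (j : ℕ)) = _
  rw [h, map_add, map_mul, Ideal.Quotient.eq_zero_iff_mem.2 hf, mul_zero, zero_add, map_sum]
  refine Finset.sum_congr rfl (fun j _ => ?_)
  rw [map_mul, hqm, Ideal.quotientMap_mk]

end step

/-- **Rückert's Nullstellensatz for points** -/
theorem finite_of_isol : ∀ (n : ℕ) (I : Ideal (OO (0 : Fin n → ℂ))), Isol 0 I →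
    Module.Finite ℂ (OO (0 : Fin n → ℂ) ⧸ I)
  | 0, I, _ => by
    have h1 : Function.Surjective (Algebra.linearMap ℂ (OO (0 : Fin 0 → ℂ))) := by
      intro x
      obtain ⟨f, hf, rfl⟩ := exists_gm x
      refine ⟨f 0, ?_⟩
      rw [Algebra.linearMap_apply, Crest.Agent.R275.Loc2879.algebraMap_apply, gm_eq_gm]
      refine Eventually.of_forall (fun p => ?_)
      have : p = 0 := Subsingleton.elim _ _
      rw [this]
    have h2 : Module.Finite ℂ (OO (0 : Fin 0 → ℂ)) := Module.Finite.of_surjective _ h1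
    exact Module.Finite.of_surjective (Ideal.Quotient.mkₐ ℂ I).toLinearMap
      Ideal.Quotient.mk_surjective
  | n + 1, I, hI => by
    obtain ⟨m, G, hG, hGI, hiso⟩ := hI
    -- one of the functions is not zero
    obtain ⟨j₀, hj₀⟩ : ∃ j, gm (G j) (hG j) ≠ 0 := by
      by_contra hcon
      push Not at hcon
      have h1 : ∀ᶠ x in 𝓝 (0 : Fin (n + 1) → ℂ), ∀ j, G j x = 0 :=
        Filter.eventually_all.2 (fun j => gm_eq_zero.1 (hcon j))
      have h2 : ∀ᶠ x in 𝓝 (0 : Fin (n + 1) → ℂ), x = 0 := by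
        filter_upwards [h1, hiso] with x hx hx2 using hx2 hx
      have h3 : ({0} : Set (Fin (n + 1) → ℂ)) ∈ 𝓝 0 := h2
      have h4 : IsOpen ({0} : Set (Fin (n + 1) → ℂ)) := isOpen_singleton_iff_nhds_eq_pure _ |>.2
        (le_antisymm (by rwa [Filter.le_pure_iff]) (pure_le_nhds _))
      exact not_isOpen_singleton (0 : Fin (n + 1) → ℂ) h4
    obtain ⟨e, d, hreg⟩ := exists_regular_chart (F := Fin (n + 1) → ℂ) (n := n)
      (by simp) hj₀
    set a := affEquiv e (0 : Fin (n + 1) → ℂ) with ha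
    set I' : Ideal (OO (((0 : Fin n → ℂ), (0 : ℂ)))) := I.map (a : OO (0 : Fin (n + 1) → ℂ) →+*
      OO (0 : (Fin n → ℂ) × ℂ)) with hI'
    have hf : a (gm (G j₀) (hG j₀)) ∈ I' := Ideal.mem_map_of_mem _ (hGI j₀)
    have hGe : ∀ j, AnalyticAt ℂ (fun x : (Fin n → ℂ) × ℂ => G j (0 + e x)) 0 := fun j =>
      analyticAt_comp_aff e (hG j)
    obtain ⟨M, D, hD, hDI, hDiso⟩ := elim (z₀ := (0 : Fin n → ℂ)) I' hf hreg
      (fun j (x : (Fin n → ℂ) × ℂ) => G j (0 + e x)) hGe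
      (fun j => Ideal.mem_map_of_mem (a : OO (0 : Fin (n + 1) → ℂ) →+*
        OO (0 : (Fin n → ℂ) × ℂ)) (hGI j))
      (by
        have h1 : Tendsto (fun x : (Fin n → ℂ) × ℂ => (0 : Fin (n + 1) → ℂ) + e x)
            (𝓝 (0, 0)) (𝓝 0) := by
          have h2 : Continuous (fun x : (Fin n → ℂ) × ℂ => (0 : Fin (n + 1) → ℂ) + e x) :=
            continuous_const.add e.continuous
          have h3 := h2.tendsto ((0 : Fin n → ℂ), (0 : ℂ))
          have h4 : (0 : Fin (n + 1) → ℂ) + e ((0 : Fin n → ℂ), (0 : ℂ)) = 0 := by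
            have : ((0 : Fin n → ℂ), (0 : ℂ)) = 0 := rfl
            rw [this, map_zero, add_zero]
          rwa [h4] at h3
        filter_upwards [h1.eventually hiso] with x hx h5
        have h6 := hx h5
        rw [zero_add] at h6
        exact e.injective (by rw [h6]; exact (map_zero e).symm))
    set J : Ideal (OO (0 : Fin n → ℂ)) := Ideal.span (range fun s => gm (D s) (hD s)) with hJ
    have hJI : J ≤ I'.comap (iot (0 : Fin n → ℂ)) := by
      rw [hJ, Ideal.span_le]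
      rintro _ ⟨s, rfl⟩
      exact hDI s
    have hJfin : Module.Finite ℂ (OO (0 : Fin n → ℂ) ⧸ J) :=
      finite_of_isol n J ⟨M, D, hD, fun s => Ideal.subset_span ⟨s, rfl⟩, hDiso⟩
    have h7 := finite_up I' hf hreg J hJI hJfin
    let θ : OO (0 : Fin (n + 1) → ℂ) ≃ₐ[ℂ] OO (0 : (Fin n → ℂ) × ℂ) :=
      AlgEquiv.ofRingEquiv (f := a) (fun _ => rfl)
    have e2 : (OO (0 : Fin (n + 1) → ℂ) ⧸ I) ≃ₐ[ℂ] (OO (0 : (Fin n → ℂ) × ℂ) ⧸ I') :=
      Ideal.quotientEquivAlg I I' θ hI'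
    exact Module.Finite.equiv e2.toLinearEquiv.symm

/-- isolated zero implies finite-dimensional, with the ideal `JI` -/
theorem finite_JI {n : ℕ} {m : ℕ} {G : Fin m → (Fin n → ℂ) → ℂ} (hG : ∀ j, AnalyticAt ℂ (G j) 0)
    (hiso : ∀ᶠ x in 𝓝 (0 : Fin n → ℂ), (∀ j, G j x = 0) → x = 0) :
    Module.Finite ℂ (On n ⧸ JI G) :=
  finite_of_isol n _ ⟨m, G, hG, fun j => Ideal.subset_span ⟨j, hG j, rfl⟩, hiso⟩

/-- finite-dimensional implies isolated zero -/
theorem isolated {n : ℕ} {m : ℕ} {G : Fin m → (Fin n → ℂ) → ℂ} (hG : ∀ j, AnalyticAt ℂ (G j) 0)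
    (hfin : Module.Finite ℂ (On n ⧸ JI G)) :
    ∀ᶠ x in 𝓝 (0 : Fin n → ℂ), (∀ j, G j x = 0) → x = 0 := by
  set μ := Module.finrank ℂ (On n ⧸ JI G) with hμ
  have h1 := pow_le (JI G) hfin hμ.symm
  have h2 : ∀ i : Fin n, ∃ a : Fin m → (Fin n → ℂ) → ℂ,
      ∀ᶠ x in 𝓝 (0 : Fin n → ℂ), x i ^ μ = ∑ j, a j x * G j x := by
    intro i
    have h3 : Xo i ^ μ ∈ JI G := h1 (Ideal.pow_mem_pow (Xo_mem i) μ)
    rw [JI_eq_span hG, Ideal.mem_span_range_iff_exists_fun] at h3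
    obtain ⟨c, hc⟩ := h3
    choose A hA hAa using fun i => exists_gm (c i)
    obtain rfl : (fun i => gm (A i) (hA i)) = c := funext hAa
    simp only [gm_mul] at hc
    obtain ⟨h2, e2⟩ := gm_sum Finset.univ (fun i => A i * G i) (fun i => (hA i).mul (hG i))
    rw [e2, Xo, gm_pow, gm_eq_gm] at hc
    refine ⟨A, ?_⟩
    filter_upwards [hc] with x hx
    simp only [Pi.mul_apply, Pi.pow_apply] at hx
    exact hx.symm
  choose a ha using h2
  filter_upwards [Filter.eventually_all.2 ha] with x hx hx0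
  funext i
  have h4 := hx i
  simp only [hx0, mul_zero, Finset.sum_const_zero] at h4
  by_contra h5
  exact pow_ne_zero μ h5 h4

/-- **the dictionary**: `ColFin` iff the common zero is isolated -/
theorem colFin_iff_isolated {n : ℕ} {m : ℕ} {G : Fin m → (Fin n → ℂ) → ℂ}
    (hG : ∀ j, AnalyticAt ℂ (G j) 0) :
    ColFin G ↔ ∀ᶠ x in 𝓝 (0 : Fin n → ℂ), (∀ j, G j x = 0) → x = 0 := by
  rw [UI939.colFin_iff hG]
  have h1 : UI939.Idl (0 : Fin n → ℂ) G = JI G := by
    rw [JI_eq_span hG, UI939.Idl]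
    congr 1
    congr 1
    funext j
    exact UI939.gz_eq (hG j)
  rw [h1]
  exact ⟨isolated hG, finite_JI hG⟩

end Crest.Agent.R257.NS0554
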