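import Crest.Agent.R257.SkelC_219

/-!
R257 / SkelD_219: S0395 <= the nine Props of `Defs_219`.
-/

set_option autoImplicit false

open Topology Filter MeasureTheory Set
open scoped ENNReal
open Crest.AlgGeometry.Germ

noncomputable section

namespace Crest.Agent.R257.Skel_219

open Crest.Agent.R257.Defs_219

section GFamFacts

variable {G : E3 × ℂ → ℂ} {μ d : ℕ} {R r c₀ e : ℝ} {P : ℂ → MvPolynomial (Fin 3) ℂ}
  {c : Fin 3 → ℂ}

theorem eval_eq_sum (hG : GFam G μ d R r c₀ e P c) (x : E3) (t : ℂ) :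
    MvPolynomial.eval x (P t) =
      ∑ m ∈ Finset.Iic (Finsupp.equivFunOnFinite.symm fun _ : Fin 3 => d),
        (P t).coeff m * ∏ i, x i ^ m i := by
  rw [MvPolynomial.eval_eq']
  refine Finset.sum_subset ?_ ?_
  · intro m hm
    rw [Finset.mem_Iic]
    intro i
    have h1 : (m.sum fun _ e => e) ≤ (P t).totalDegree := MvPolynomial.le_totalDegree hm
    have h2 : m i ≤ m.sum fun _ e => e := by
      rw [Finsupp.sum_fintype _ _ (fun _ => rfl)]
      exact Finset.single_le_sum (f := fun i => m i) (fun _ _ => Nat.zero_le _)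
        (Finset.mem_univ i)
    have h3 := hG.deg t
    simp only [Finsupp.equivFunOnFinite_symm_apply_apply]
    omega
  · intro m _ hm
    rw [MvPolynomial.notMem_support_iff.1 hm, zero_mul]

theorem analyticAt_of_gfam (hG : GFam G μ d R r c₀ e P c) : AnalyticAt ℂ G (0, 0) := by
  have e1 : G = fun q : E3 × ℂ =>
      ∑ m ∈ Finset.Iic (Finsupp.equivFunOnFinite.symm fun _ : Fin 3 => d),
        (P q.2).coeff m * ∏ i, q.1 i ^ m i + ∑ i, c i * q.1 i ^ d := by
    funext q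
    rw [← eval_eq_sum hG]
    exact hG.form q.1 q.2
  rw [e1]
  have hx : ∀ i, AnalyticAt ℂ (fun q : E3 × ℂ => q.1 i) (0, 0) := fun i =>
    ((ContinuousLinearMap.proj (R := ℂ) (φ := fun _ : Fin 3 => ℂ) i).comp
      (ContinuousLinearMap.fst ℂ E3 ℂ)).analyticAt _
  refine AnalyticAt.add (Finset.analyticAt_fun_sum _ fun m _ => ?_)
    (Finset.analyticAt_fun_sum _ fun i _ => analyticAt_const.mul ((hx i).pow _))
  refine AnalyticAt.mul ?_ (Finset.analyticAt_fun_prod _ fun i _ => (hx i).pow _)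
  have h0 : AnalyticAt ℂ (fun t : ℂ => (P t).coeff m) 0 :=
    hG.coeff m 0 (Metric.mem_ball_self hG.R_pos)
  exact AnalyticAt.fun_comp (g := fun t : ℂ => (P t).coeff m) (f := fun q : E3 × ℂ => q.2)
    (x := ((0, 0) : E3 × ℂ)) h0 ((ContinuousLinearMap.snd ℂ E3 ℂ).analyticAt _)

theorem iso_of_gfam (hG : GFam G μ d R r c₀ e P c) : Iso (sl G 0) := by
  have h0 : ‖(0 : ℂ)‖ < R := by simpa using hG.R_pos
  refine ⟨analyticAt_sl (analyticAt_of_gfam hG), hG.zero 0 h0, hG.crit 0 h0, hG.fin 0 h0, ?_⟩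
  set Q : Polynomial ℂ := MvPolynomial.aeval (Fin.cons Polynomial.X 0 : Fin 3 → Polynomial ℂ)
    (P 0) with hQ
  set q : Polynomial ℂ := Q + Polynomial.C (c 0) * Polynomial.X ^ d with hq
  have hd : 0 < d := by have := hG.d_big; omega
  have hdeg : Q.natDegree < d := by
    have h1 : Q.natDegree ≤ (P 0).totalDegree * 1 := by
      refine MvPolynomial.aeval_natDegree_le (P 0) le_rfl _ fun i => ?_
      refine Fin.cases ?_ (fun j => ?_) i
      · simp
      · simp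
    have h2 := hG.deg 0
    omega
  have hq0 : q ≠ 0 := by
    intro h
    have : q.coeff d = c 0 := by
      rw [hq, Polynomial.coeff_add, Polynomial.coeff_eq_zero_of_natDegree_lt hdeg]
      simp
    rw [h] at this
    exact hG.c_ne 0 (by simpa using this.symm)
  have hev : ∀ z : ℂ, q.eval z = sl G 0 (Fin.cons z 0) := by
    intro z
    have e1 : Polynomial.eval z Q = MvPolynomial.eval (Fin.cons z 0 : Fin 3 → ℂ) (P 0) := by
      rw [hQ]
      have h1 := MvPolynomial.comp_aeval_apply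
        (Fin.cons Polynomial.X 0 : Fin 3 → Polynomial ℂ) (Polynomial.aeval z) (P 0)
      have h2 : (fun i => (Polynomial.aeval z) ((Fin.cons Polynomial.X 0 :
          Fin 3 → Polynomial ℂ) i)) = (Fin.cons z 0 : Fin 3 → ℂ) := by
        funext i
        refine Fin.cases ?_ (fun j => ?_) i
        · simp
        · simp
      rw [h2] at h1
      rw [← Polynomial.coe_aeval_eq_eval]
      refine h1.trans ?_
      rw [MvPolynomial.aeval_def, MvPolynomial.eval]
      rfl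
    rw [hq, Polynomial.eval_add, e1]
    unfold sl
    rw [hG.form, Fin.sum_univ_succ]
    simp [hd.ne']
  have hfin : ∀ᶠ z : ℂ in 𝓝[≠] 0, z ∉ q.roots.toFinset := by
    have : ((q.roots.toFinset : Set ℂ) \ {0}).Finite := (Finset.finite_toSet _).sdiff
    have h2 : ((q.roots.toFinset : Set ℂ) \ {0})ᶜ ∈ 𝓝 (0 : ℂ) :=
      this.isClosed.isOpen_compl.mem_nhds (by simp)
    rw [eventually_nhdsWithin_iff]
    filter_upwards [h2] with z hz hz0 hzr
    exact hz ⟨hzr, hz0⟩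
  refine Eventually.frequently (hfin.mono fun z hz => ?_)
  rw [← hev]
  intro h
  apply hz
  rw [Multiset.mem_toFinset, Polynomial.mem_roots hq0]
  exact h

end GFamFacts

/-- the case `0 < mstar` for a globalised family -/
theorem concl_of_gfam (usc : UscStmt) (cn : CNStmt) (lg : LGStmt) (det : DetStmt) (ot : OTStmt)
    (xs : XStmt) (vs : VStmt) (lc : LCStmt) {G : E3 × ℂ → ℂ} {μ d : ℕ} {R r c₀ e : ℝ}
    {P : ℂ → MvPolynomial (Fin 3) ℂ} {c : Fin 3 → ℂ} (hG : GFam G μ d R r c₀ e P c) :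
    Concl G := by
  rcases (mstar_nonneg (sl G 0)).eq_or_lt with h | h
  · exact lc G μ d R r c₀ e P c hG h.symm
  · have hb : ∀ᶠ t in 𝓝 (0 : ℂ), ‖t‖ < R := by
      filter_upwards [Metric.ball_mem_nhds (0 : ℂ) hG.R_pos] with t ht using by simpa using ht
    have h0 : ‖(0 : ℂ)‖ < R := by simpa using hG.R_pos
    refine main_pos usc cn lg det ot xs (analyticAt_of_gfam hG) (hb.mono fun t ht => hG.zero t ht)
      (iso_of_gfam hG) (hb.mono fun t ht => ⟨hG.fin t ht, ?_⟩) (fun m hm => vs G μ d R r c₀ e P c hG m hm) h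
    rw [hG.mu t ht, hG.mu 0 h0]

/-- **S0395 from the Props of the parts.** -/
theorem S0395_of (usc : UscStmt) (cn : CNStmt) (lg : LGStmt) (det : DetStmt) (ot : OTStmt)
    (xs : XStmt) (vs : VStmt) (lc : LCStmt) (glob : GlobStmt)
    (R : ℝ) (hR : 0 < R) (F : (Fin 3 → ℂ) × ℂ → ℂ)
    (hF : ∀ t : ℂ, ‖t‖ < R → AnalyticAt ℂ F (0, t) ∧ F (0, t) = 0)
    (hcrit : ∀ t : ℂ, ‖t‖ < R → fderiv ℂ (fun x => F (x, t)) 0 = 0 ∧
      ∀ᶠ x in 𝓝[≠] (0 : Fin 3 → ℂ), fderiv ℂ (fun x => F (x, t)) x ≠ 0)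
    (hμ : ∀ t : ℂ, ‖t‖ < R →
      Module.Finite ℂ (Crest.AlgGeometry.Germ.JacobianQuotient 3 (fun x => F (x, t))) ∧
      Crest.AlgGeometry.Germ.milnorNumber 3 (fun x => F (x, t)) =
        Crest.AlgGeometry.Germ.milnorNumber 3 (fun x => F (x, 0))) :
    ∃ δ : ℝ, 0 < δ ∧ ∃ Φ : OpenPartialHomeomorph ((Fin 3 → ℂ) × ℂ) ((Fin 3 → ℂ) × ℂ),
      (∀ t : ℂ, ‖t‖ < δ → ((0 : Fin 3 → ℂ), t) ∈ Φ.source ∧ Φ (0, t) = (0, t)) ∧
      (∀ p ∈ Φ.source, (Φ p).2 = p.2 ∧ F (Φ p) = F (p.1, 0)) ∧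
      (∀ x : Fin 3 → ℂ, (x, (0 : ℂ)) ∈ Φ.source → Φ (x, 0) = (x, 0)) := by
  obtain ⟨G, μ, d, R', r, c₀, e, P, c, hG, himp⟩ := glob R F hR ⟨hF, hcrit, hμ⟩
  exact himp (concl_of_gfam usc cn lg det ot xs vs lc hG)

end Crest.Agent.R257.Skel_219
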