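import Crest.Agent.R257.SkelV1_952
import Crest.Agent.R257.SkelD_219

/-!
R257 / SkelV2_952: the globalised family as a family of levels (`Fam`), cut-offs, splitting of the
second Chern integral.
-/

set_option autoImplicit false

open Topology Filter MeasureTheory Set
open scoped ENNReal ContDiff Matrix
open Crest.AlgGeometry.Germ

noncomputable section

namespace Crest.Agent.R257.SkelV_952

open Crest.Agent.R275.Geo
open Crest.Agent.R257.Defs_219 Crest.Agent.R257.KED_952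
open Crest.Agent.R257.Skel_219 (eval_eq_sum analyticAt_sl fderiv_ne)
open Crest.Agent.R257.PN_835 (nsq)

/-! ### splitting -/

theorem isnu_ae {f : E3 → ℂ} {s : ℂ} {r : ℝ} {ν : Measure E3} (h : IsNu f s r ν) :
    ∀ᵐ x ∂ν, f x = s ∧ x ≠ 0 ∧ nsq x < r ^ 2 := by
  rw [ae_iff]
  exact h.null

theorem c2i_split (meas : MeasStmt) (bmy : BmyStmt) {f : E3 → ℂ} {s : ℂ} {r : ℝ} (hr : 0 < r)
    (han : ∀ x, nsq x < r ^ 2 → AnalyticAt ℂ f x)
    (hsm : ∀ x, x ≠ 0 → nsq x < r ^ 2 → f x = s → fderiv ℂ f x ≠ 0) {ν : Measure E3}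
    (hν : IsNu f s r ν) {u : E3 → ℝ} (hu : KEon f s r u) {χ : E3 → ℝ} (hχ : Cut r χ) :
    C2I ν f u χ = C2E ν f u χ + ENNReal.ofReal (2 / 3) * VOL ν u χ := by
  have hm : AEMeasurable (fun x => ENNReal.ofReal (χ x * Real.exp (u x))) ν :=
    (meas f s r hr han hsm ν hν _ (CtL.mul (ctl_amb hχ.sm.continuous)
      (CtL.exp (ctl_ke hu)))).ennreal_ofReal
  unfold C2I C2E VOL
  rw [← lintegral_const_mul'' _ hm, ← lintegral_add_right' _ (hm.const_mul _)]
  refine lintegral_congr_ae ?_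
  filter_upwards [isnu_ae hν] with x hx
  have h1 := bmy f s r u hr han hsm hu x hx.1 hx.2.1 hx.2.2
  have h2 := hχ.nn x
  have h3 : 0 ≤ χ x * (c2d f u x - 2 / 3 * Real.exp (u x)) := mul_nonneg h2 (by linarith)
  have h4 : 0 ≤ χ x * Real.exp (u x) := mul_nonneg h2 (Real.exp_pos _).le
  rw [← ENNReal.ofReal_mul (by norm_num), ← ENNReal.ofReal_add h3 (by positivity)]
  congr 1
  ring

/-! ### cut-offs -/

theorem norm_sq_le_nsq (x : E3) : ‖x‖ ^ 2 ≤ nsq x := by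
  have h0 : ∀ i, ‖x i‖ ^ 2 ≤ nsq x := fun i =>
    Finset.single_le_sum (f := fun i => ‖x i‖ ^ 2) (fun _ _ => sq_nonneg _) (Finset.mem_univ i)
  have hn : 0 ≤ nsq x := Finset.sum_nonneg fun _ _ => sq_nonneg _
  have h1 : ‖x‖ ≤ Real.sqrt (nsq x) := by
    rw [pi_norm_le_iff_of_nonneg (Real.sqrt_nonneg _)]
    intro i
    exact Real.le_sqrt_of_sq_le (h0 i)
  calc ‖x‖ ^ 2 ≤ Real.sqrt (nsq x) ^ 2 := by gcongr
    _ = nsq x := Real.sq_sqrt hn

theorem nsq_le_norm_sq (x : E3) : nsq x ≤ 3 * ‖x‖ ^ 2 := by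
  have h0 : ∀ i, ‖x i‖ ^ 2 ≤ ‖x‖ ^ 2 := fun i => by
    have := norm_le_pi_norm x i
    gcongr
  calc nsq x ≤ ∑ _i : Fin 3, ‖x‖ ^ 2 := Finset.sum_le_sum fun i _ => h0 i
    _ = 3 * ‖x‖ ^ 2 := by simp

theorem exists_cut {r : ℝ} (hr : 0 < r) : ∃ χ, Cut r χ := by
  let b : ContDiffBump (0 : E3) := ⟨r / 4, r / 3, by positivity, by linarith⟩
  refine ⟨b, b.contDiff, fun x => b.nonneg, fun x => b.le_one, ?_, 2 * r / 3, by positivity,
    by linarith, fun x hx => ?_⟩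
  · exact b.eventuallyEq_one
  · refine b.zero_of_le_dist ?_
    rw [dist_zero_right]
    have h1 := nsq_le_norm_sq x
    have h2 : (r / 3) ^ 2 ≤ ‖x‖ ^ 2 := by nlinarith
    exact (sq_le_sq₀ (by positivity) (norm_nonneg _)).1 h2

/-! ### the family -/

section GF

variable {G : E3 × ℂ → ℂ} {μ d : ℕ} {R r c₀ e : ℝ} {P : ℂ → MvPolynomial (Fin 3) ℂ}
  {c : Fin 3 → ℂ}

theorem an_gfam (hG : GFam G μ d R r c₀ e P c) (x : E3) {t : ℂ} (ht : ‖t‖ < R) :
    AnalyticAt ℂ G (x, t) := by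
  have e1 : G = fun q : E3 × ℂ =>
      ∑ m ∈ Finset.Iic (Finsupp.equivFunOnFinite.symm fun _ : Fin 3 => d),
        (P q.2).coeff m * ∏ i, q.1 i ^ m i + ∑ i, c i * q.1 i ^ d := by
    funext q
    rw [← eval_eq_sum hG]
    exact hG.form q.1 q.2
  rw [e1]
  have hx : ∀ i, AnalyticAt ℂ (fun q : E3 × ℂ => q.1 i) (x, t) := fun i =>
    ((ContinuousLinearMap.proj (R := ℂ) (φ := fun _ : Fin 3 => ℂ) i).comp
      (ContinuousLinearMap.fst ℂ E3 ℂ)).analyticAt _
  refine AnalyticAt.add (Finset.analyticAt_fun_sum _ fun m _ => ?_)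
    (Finset.analyticAt_fun_sum _ fun i _ => analyticAt_const.mul ((hx i).pow _))
  refine AnalyticAt.mul ?_ (Finset.analyticAt_fun_prod _ fun i _ => (hx i).pow _)
  have h0 : AnalyticAt ℂ (fun t : ℂ => (P t).coeff m) t :=
    hG.coeff m t (by simpa using ht)
  exact AnalyticAt.fun_comp (g := fun t : ℂ => (P t).coeff m) (f := fun q : E3 × ℂ => q.2)
    (x := ((x, t) : E3 × ℂ)) h0 ((ContinuousLinearMap.snd ℂ E3 ℂ).analyticAt _)

theorem an_fam (hG : GFam G μ d R r c₀ e P c) (x : E3) {τ : PP} (ht : ‖τ.1‖ < R) :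
    AnalyticAt ℂ (fam G) (x, τ) := by
  have h1 : AnalyticAt ℂ (fun q : E3 × PP => (q.1, q.2.1)) (x, τ) :=
    ((ContinuousLinearMap.fst ℂ E3 PP).prod
      ((ContinuousLinearMap.fst ℂ ℂ ℂ).comp (ContinuousLinearMap.snd ℂ E3 PP))).analyticAt _
  have h2 : AnalyticAt ℂ (fun q : E3 × PP => q.2.2) (x, τ) :=
    ((ContinuousLinearMap.snd ℂ ℂ ℂ).comp (ContinuousLinearMap.snd ℂ E3 PP)).analyticAt _
  have h3 : AnalyticAt ℂ (fun q : E3 × PP => G (q.1, q.2.1)) (x, τ) :=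
    AnalyticAt.fun_comp (g := G) (f := fun q : E3 × PP => (q.1, q.2.1)) (an_gfam hG x ht) h1
  exact h3.sub h2

/-- `Iso` for the slices of a globalised family -/
theorem iso_gfam (hG : GFam G μ d R r c₀ e P c) {t : ℂ} (h0 : ‖t‖ < R) : Iso (sl G t) := by
  refine ⟨analyticAt_sl (an_gfam hG 0 h0), hG.zero t h0, hG.crit t h0, hG.fin t h0, ?_⟩
  set Q : Polynomial ℂ := MvPolynomial.aeval (Fin.cons Polynomial.X 0 : Fin 3 → Polynomial ℂ)
    (P t) with hQ
  set q : Polynomial ℂ := Q + Polynomial.C (c 0) * Polynomial.X ^ d with hq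
  have hd : 0 < d := by have := hG.d_big; omega
  have hdeg : Q.natDegree < d := by
    have h1 : Q.natDegree ≤ (P t).totalDegree * 1 := by
      refine MvPolynomial.aeval_natDegree_le (P t) le_rfl _ fun i => ?_
      refine Fin.cases ?_ (fun j => ?_) i
      · simp
      · simp
    have h2 := hG.deg t
    omega
  have hq0 : q ≠ 0 := by
    intro h
    have : q.coeff d = c 0 := by
      rw [hq, Polynomial.coeff_add, Polynomial.coeff_eq_zero_of_natDegree_lt hdeg]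
      simp
    rw [h] at this
    exact hG.c_ne 0 (by simpa using this.symm)
  have hev : ∀ z : ℂ, q.eval z = sl G t (Fin.cons z 0) := by
    intro z
    have e1 : Polynomial.eval z Q = MvPolynomial.eval (Fin.cons z 0 : Fin 3 → ℂ) (P t) := by
      rw [hQ]
      have h1 := MvPolynomial.comp_aeval_apply
        (Fin.cons Polynomial.X 0 : Fin 3 → Polynomial ℂ) (Polynomial.aeval z) (P t)
      have h2 : (fun i => (Polynomial.aeval z) ((Fin.cons Polynomial.X 0 :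
          Fin 3 → Polynomial ℂ) i)) = (Fin.cons z 0 : Fin 3 → ℂ) := by
        funext i
        refine Fin.cases ?_ (fun j => ?_) i
        · simp
        · simp
      rw [h2] at h1
      rw [← Polynomial.coe_aeval_eq_eval]
      refine h1.trans ?_
      rw [MvPolynomial.aeval_def, MvPolynomial.eval]
      rfl
    rw [hq, Polynomial.eval_add, e1]
    unfold sl
    rw [hG.form, Fin.sum_univ_succ]
    simp [hd.ne']
  have hfin : ∀ᶠ z : ℂ in 𝓝[≠] 0, z ∉ q.roots.toFinset := by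
    have : ((q.roots.toFinset : Set ℂ) \ {0}).Finite := (Finset.finite_toSet _).sdiff
    have h2 : ((q.roots.toFinset : Set ℂ) \ {0})ᶜ ∈ 𝓝 (0 : ℂ) :=
      this.isClosed.isOpen_compl.mem_nhds (by simp)
    rw [eventually_nhdsWithin_iff]
    filter_upwards [h2] with z hz hz0 hzr
    exact hz ⟨hzr, hz0⟩
  refine Eventually.frequently (hfin.mono fun z hz => ?_)
  rw [← hev]
  intro h
  apply hz
  rw [Multiset.mem_toFinset, Polynomial.mem_roots hq0]
  exact h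

theorem fam_zero (G : E3 × ℂ → ℂ) (t : ℂ) : (fun x => fam G (x, (t, 0))) = sl G t := by
  funext x
  simp [fam, sl]

/-- the levels are smooth off the origin -/
theorem sm_fam (hG : GFam G μ d R r c₀ e P c) {r₁ : ℝ} (hr : 0 < r₁) (hr1 : r₁ < r) {τ : PP}
    (ht : ‖τ.1‖ < R) (x : E3) (hx : x ≠ 0) (hx1 : nsq x ≤ r₁ ^ 2) :
    fderiv ℂ (fun x => fam G (x, τ)) x ≠ 0 := by
  have e1 : (fun x => fam G (x, τ)) = fun x => sl G τ.1 x - τ.2 := rfl
  rw [e1, fderiv_sub_const]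
  refine fderiv_ne fun h => ?_
  have h1 : ‖x‖ < r := by
    have := norm_sq_le_nsq x
    have h3 : ‖x‖ ≤ r₁ := (sq_le_sq₀ (norm_nonneg _) hr.le).1 (this.trans hx1)
    linarith
  have h2 := hG.lower x τ.1 h1 ht
  have h3 : gr (sl G τ.1) x = 0 := funext h
  rw [h3, norm_zero] at h2
  have h4 : 0 < ‖x‖ := norm_pos_iff.2 hx
  have h5 := hG.c₀_pos
  have : 0 < c₀ * ‖x‖ ^ μ := by positivity
  linarith

theorem fam_gfam (hG : GFam G μ d R r c₀ e P c) {r₁ : ℝ} (hr : 0 < r₁) (hr1 : r₁ < r) {t : ℂ}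
    (ht : ‖t‖ < R) {l : Filter PP} [l.NeBot] (hl : l ≤ 𝓝 (t, 0)) : Fam (fam G) (t, 0) l r₁ where
  r_pos := hr
  an x _ := an_fam hG x ht
  ne := inferInstance
  lim := hl
  iso := by
    rw [fam_zero]
    exact iso_gfam hG ht
  sm0 x hx hx1 _ := sm_fam hG hr hr1 ht x hx hx1
  sm := by
    have h1 : ∀ᶠ τ : PP in 𝓝 (t, 0), ‖τ.1‖ < R :=
      (continuous_fst.norm.tendsto (t, (0 : ℂ))).eventually (gt_mem_nhds ht)
    filter_upwards [hl h1] with τ hτ x hx hx1 _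
    exact sm_fam hG hr hr1 hτ x hx hx1

theorem nz_fam (hG : GFam G μ d R r c₀ e P c) {t s : ℂ} (ht : ‖t‖ < R) (hs : s ≠ 0) :
    fam G (0, (t, s)) ≠ 0 := by
  show G (0, t) - s ≠ 0
  rw [hG.zero t ht, zero_sub]
  exact neg_ne_zero.2 hs

end GF

end Crest.Agent.R257.SkelV_952
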