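import Crest.Agent.R257.KEG_952
import Crest.Agent.R257.GradK_39
import Crest.Agent.R257.NS0c_554
import Crest.Agent.R257.SkelV2_952

/-!
R257 / Esc_537 (helper537): `EscStmt` of `KEG_952` from `XUStmt`, `UPStmt`, `VolStmt`, `NuStmt`.

* `zero_of_col` : `col G ≠ 0` implies `G j 0 = 0`
* `lgh_inf`     : `log (|g|² + |h|²) → -∞` at the origin on `{f = 0}`
* `dsq_le`      : `(Dφ v)² ≤ 4 |∂φ(v)|²`
* `esc_of`      : the statement
-/

set_option autoImplicit false

open Topology Filter MeasureTheory Set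
open scoped ENNReal ContDiff

noncomputable section

namespace Crest.Agent.R257.Esc_537

open Crest.Agent.R275.Geo
open Crest.Agent.R257.Defs_219
open Crest.Agent.R257.KED_952
open Crest.Agent.R257.KEG_952
open Crest.Agent.R257.V1Defs_822
open Crest.Agent.R273
open Crest.Agent.R257.PN_835 (nsq)
open Crest.AlgGeometry.Germ

/-- a generator which does not vanish at the origin generates everything -/
theorem zero_of_col {n m : ℕ} {G : Fin m → (Fin n → ℂ) → ℂ} (hG : ∀ j, AnalyticAt ℂ (G j) 0)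
    (hc : col G ≠ 0) (j : Fin m) : G j 0 = 0 := by
  by_contra hj
  apply hc
  have htop : gens G = ⊤ := by
    rw [eq_top_iff]
    rintro ⟨q, hq⟩ -
    refine ⟨fun i => if i = j then fun x => q x / G j x else fun _ => 0, fun i => ?_, ?_⟩
    · by_cases hi : i = j
      · simp only [hi, if_true]
        exact hq.div (hG j) hj
      · simp only [hi, if_false]
        exact analyticAt_const
    · have hev : ∀ᶠ x in 𝓝 (0 : Fin n → ℂ), G j x ≠ 0 := (hG j).continuousAt.eventually_ne hj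
      filter_upwards [hev] with x hx
      rw [Finset.sum_eq_single j]
      · simp only [if_true]
        field_simp
      · intro i _ hi
        simp [hi]
      · intro h
        exact absurd (Finset.mem_univ j) h
  unfold col
  have : Subsingleton (Quo G) := Submodule.Quotient.subsingleton_iff.2 htop
  exact Module.finrank_zero_of_subsingleton

/-- `log (|g|² + |h|²) → -∞` -/
theorem lgh_inf {f g h : E3 → ℂ} (hf : AnalyticAt ℂ f 0) (hg : AnalyticAt ℂ g 0)
    (hh : AnalyticAt ℂ h 0) (hg0 : g 0 = 0) (hh0 : h 0 = 0) (hfin : ColFin ![f, g, h]) (c : ℝ) :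
    ∀ᶠ x in 𝓝 (0 : E3), f x = 0 → x ≠ 0 → lgh g h x < c := by
  have hG : ∀ j : Fin 3, AnalyticAt ℂ ((![f, g, h] : Fin 3 → E3 → ℂ) j) 0 := by
    intro j
    fin_cases j
    · exact hf
    · exact hg
    · exact hh
  have hiso := (NS0554.colFin_iff_isolated hG).1 hfin
  have hcont : ContinuousAt (fun x => ‖g x‖ ^ 2 + ‖h x‖ ^ 2) (0 : E3) :=
    (hg.continuousAt.norm.pow 2).add (hh.continuousAt.norm.pow 2)
  have h0 : ‖g 0‖ ^ 2 + ‖h 0‖ ^ 2 = 0 := by rw [hg0, hh0]; simp
  have hev : ∀ᶠ x in 𝓝 (0 : E3), ‖g x‖ ^ 2 + ‖h x‖ ^ 2 < Real.exp c := by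
    refine hcont.eventually (Iio_mem_nhds ?_)
    simp only [h0]
    exact Real.exp_pos c
  filter_upwards [hiso, hev] with x h1 h2 h3 h4
  have hpos : 0 < ‖g x‖ ^ 2 + ‖h x‖ ^ 2 := by
    by_contra hn
    have hge : 0 ≤ ‖g x‖ ^ 2 := by positivity
    have hhe : 0 ≤ ‖h x‖ ^ 2 := by positivity
    have hg1 : ‖g x‖ ^ 2 = 0 := by linarith
    have hh1 : ‖h x‖ ^ 2 = 0 := by linarith
    apply h4
    apply h1
    intro j
    fin_cases j
    · exact h3
    · simpa using hg1
    · simpa using hh1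
  unfold lgh
  rwa [Real.log_lt_iff_lt_exp hpos]

/-- real and complex gradient -/
theorem dsq_le {φ : Cn 2 → ℝ} {z : Cn 2} (h : DifferentiableAt ℝ φ z) (v : Cn 2) :
    (fderiv ℝ φ z v) ^ 2 ≤ 4 * ‖Levi_145.gr φ z v‖ ^ 2 := by
  rw [Levi_145.gr_eq h v, norm_mul, mul_pow]
  have e : ‖((fderiv ℝ φ z v : ℝ) : ℂ) - Complex.I * ((fderiv ℝ φ z (Complex.I • v) : ℝ) : ℂ)‖ ^ 2 =
      (fderiv ℝ φ z v) ^ 2 + (fderiv ℝ φ z (Complex.I • v)) ^ 2 := by
    rw [← Complex.normSq_eq_norm_sq, Complex.normSq_apply]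
    simp
    ring
  rw [e]
  have h2 : ‖(1 / 2 : ℂ)‖ ^ 2 = 1 / 4 := by
    rw [norm_div, norm_one]
    norm_num
  rw [h2]
  nlinarith [sq_nonneg (fderiv ℝ φ z (Complex.I • v))]

/-- **completeness and gradient estimate** -/
theorem esc_of (nu : NuStmt) (xu : XUStmt) (up : UPStmt) (vol : VolStmt) : EscStmt := by
  intro Φ τ₀ l r C w u hD f hf hm
  have hiso : Iso f := by rw [hf]; exact hD.iso
  have hr := hD.r_pos
  have han : ∀ x, nsq x < r ^ 2 → AnalyticAt ℂ f x := by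
    intro x hx
    rw [hf]
    have h1 := hD.an x hx.le
    exact h1.comp₂ analyticAt_id analyticAt_const
  have hsm : ∀ x, x ≠ 0 → nsq x < r ^ 2 → f x = 0 → fderiv ℂ f x ≠ 0 := by
    intro x h1 h2 h3
    rw [hf] at h3 ⊢
    exact hD.sm0 x h1 h2.le h3
  have hK : KEon f 0 r u := by rw [hf]; exact hD.ke0.1
  have hB : Bd f 0 r C u := by rw [hf]; exact hD.ke0.2
  obtain ⟨A₀, Cg, hCg, hA₀, -, hgrad⟩ := GradK_39.gradK hD
  obtain ⟨k, g, h, hk, hg, hh, hfin, hcol, hju⟩ := xu f hiso hm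
  have hcol0 : col ![f, g, h] ≠ 0 := by
    intro h0
    rw [h0] at hcol
    have hk0 : (0 : ℝ) < (k : ℝ) ^ 2 := by
      have : (0 : ℝ) < k := by exact_mod_cast (by omega : 0 < k)
      positivity
    have h2 : 0 < (k : ℝ) ^ 2 * mstar f := mul_pos hk0 hm
    rw [← hcol] at h2
    simp at h2
  have hG : ∀ j : Fin 3, AnalyticAt ℂ ((![f, g, h] : Fin 3 → E3 → ℂ) j) 0 := by
    intro j
    fin_cases j
    · exact hiso.an
    · exact hg
    · exact hh
  have hg0 : g 0 = 0 := zero_of_col hG hcol0 1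
  have hh0 : h 0 = 0 := zero_of_col hG hcol0 2
  obtain ⟨ν, hν⟩ := nu f 0 r hr han hsm
  obtain ⟨χ, hχ⟩ := SkelV_952.exists_cut hr
  have hvol := vol Φ τ₀ l r C w u hD f hf χ hχ ν hν
  obtain ⟨C', r', hr', hup⟩ := up f r u ν χ k g h hiso ⟨hr, han, hsm⟩ hK hν hχ hvol hk hg hh hg0
    hh0 hfin hju
  set A : ℝ := max (max A₀ (4 * Cg)) 1 with hA
  have hAA₀ : A₀ ≤ A := (le_max_left _ _).trans (le_max_left _ _)
  have hACg : 4 * Cg ≤ A := (le_max_right _ _).trans (le_max_left _ _)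
  have hA1 : 1 ≤ A := le_max_right _ _
  have hone : ∀ x, f x = 0 → x ≠ 0 → nsq x < r ^ 2 → 1 ≤ A₀ - u x := by
    intro x h1 h2 h3
    have := hB.hi x h1 h2 h3
    linarith
  have hr2 : (r / 2) ^ 2 ≤ r ^ 2 := by
    have : 0 < r ^ 2 := by positivity
    nlinarith
  refine ⟨r / 2, A, by positivity, by linarith, ⟨by linarith, ?_, ?_, ?_⟩⟩
  · intro x h1 h2 h3
    have := hone x h1 h2 (h3.trans_le hr2)
    linarith
  · intro c
    have hk0 : (0 : ℝ) < k := by exact_mod_cast (by omega : 0 < k)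
    have h1 := lgh_inf hiso.an hg hh hg0 hh0 hfin ((c - C') * k)
    obtain ⟨δ, hδ, hball⟩ := Metric.eventually_nhds_iff_ball.1 h1
    refine ⟨min δ r', lt_min hδ hr', fun x h2 h3 h4 => ?_⟩
    have h5 : nsq x < δ ^ 2 := h4.trans_le (pow_le_pow_left₀ (lt_min hδ hr').le (min_le_left _ _) 2)
    have h6 : nsq x < r' ^ 2 :=
      h4.trans_le (pow_le_pow_left₀ (lt_min hδ hr').le (min_le_right _ _) 2)
    have h7 : x ∈ Metric.ball (0 : E3) δ := by
      rw [mem_ball_zero_iff]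
      have := SkelV_952.norm_sq_le_nsq x
      nlinarith [norm_nonneg x]
    have h8 := hball x h7 h2 h3
    have h9 := hup x h2 h3 h6
    have h10 : 1 / (k : ℝ) * lgh g h x < c - C' := by
      rw [one_div, inv_mul_lt_iff₀ hk0]
      linarith
    linarith
  · intro θ O hP z hz v
    have hle : nsq (θ z) < r ^ 2 := (hP.lt z hz).trans_le hr2
    have hPr : PE f 0 r θ O := ⟨hP.par, hP.ne, fun z hz => (hP.lt z hz).trans_le hr2⟩
    have hdiff : DifferentiableAt ℝ (fun z => u (θ z)) z :=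
      ((hK.sm θ O hPr).contDiffAt (hP.par.isOpen.mem_nhds hz)).differentiableAt (by simp)
    have hf' : (fun x => Φ (x, τ₀)) = f := hf.symm
    rw [hf'] at hgrad
    have h1 := hgrad θ O hP z hz v
    have h2 := dsq_le hdiff v
    have h3 : 0 ≤ Levi_145.lev (fun z => u (θ z)) z v := by
      rcases eq_or_ne v 0 with h0 | h0
      · rw [h0, Levi_145.lev_zero]
      · have := hK.pos θ O hPr z hz v h0
        rw [YauDefs_635.lev333_eq_lev145] at this
        linarith
    have h4 := hone (θ z) (hP.par.lvl z hz) (hP.ne z hz) hle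
    rw [YauDefs_635.lev333_eq_lev145]
    calc (fderiv ℝ (fun z => u (θ z)) z v) ^ 2
        ≤ 4 * (Cg * ((A₀ - u (θ z)) ^ 2 * Levi_145.lev (fun z => u (θ z)) z v)) := by linarith
      _ = (4 * Cg) * (A₀ - u (θ z)) ^ 2 * Levi_145.lev (fun z => u (θ z)) z v := by ring
      _ ≤ A * (A - u (θ z)) ^ 2 * Levi_145.lev (fun z => u (θ z)) z v := by
          gcongr
      _ ≤ A * (A - u (θ z)) ^ 2 * (4 * Levi_145.lev (fun z => u (θ z)) z v) := by
          have h5 : 0 ≤ A * (A - u (θ z)) ^ 2 := by positivity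
          nlinarith [mul_nonneg h5 h3]

end Crest.Agent.R257.Esc_537
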