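import Crest.Agent.R257.KedM2_941

/-!
# R257 (S0395), helper941: existence of the measure `|η|²` in the language of `KED_952`

* `mp_cc`, `me_cc`  : real coordinates of `Cn n` preserve the volume
* `e2_eq_eta`       : the density of `Atl3_941` is `eta2a`
* **`nuStmt`**      : `KED_952.NuStmt`
* `isNu_unique`     : uniqueness of `ν`
-/

set_option autoImplicit false
set_option linter.unusedSectionVars false

open Set Filter Topology Complex Metric MeasureTheory
open scoped ContDiff Matrix ComplexConjugate ENNReal ComplexOrder Uniformity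

namespace Crest.Agent.R257.KedM_941

open Crest.Agent.R275.Geo
open Crest.Agent.R257.Defs_219 (E3)
open Crest.Agent.R257.KED_952
open Crest.Agent.R257.PN_835 (nsq nsq_nonneg nsq_pos continuous_nsq sq_le_nsq)
open Crest.Agent.R257.Aff_835 (eta2a nga gra nga_pos)
open Crest.Agent.R257.Gram_835 (gdet DF pd addRow gdet_submatrix)
open Crest.Agent.R257.Atl_941
open Crest.Agent.R275.C1d194 (continuous_cc rc_eq rcL)

noncomputable section

/-! ### real coordinates preserve the volume (after Weak_411) -/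

/-- `cc` as a linear isometry from the Euclidean space of real coordinates -/
def ccI (n : ℕ) : EuclideanSpace ℝ (RI n) ≃ₗᵢ[ℝ] Cn n where
  toFun x := cc (WithLp.ofLp x)
  invFun z := WithLp.toLp 2 (rc z)
  left_inv x := by
    apply (WithLp.ofLp_injective 2)
    exact rc_cc _
  right_inv z := by
    exact cc_rc z
  map_add' x y := by
    ext a
    simp only [cc_apply, WithLp.ofLp_add, Pi.add_apply, PiLp.add_apply]
    push_cast
    ring
  map_smul' c x := by
    ext a
    simp only [cc_apply, WithLp.ofLp_smul, Pi.smul_apply, PiLp.smul_apply, smul_eq_mul,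
      RingHom.id_apply, Complex.real_smul]
    push_cast
    ring
  norm_map' x := by
    change ‖cc (WithLp.ofLp x)‖ = ‖x‖
    rw [EuclideanSpace.norm_eq, EuclideanSpace.norm_eq]
    congr 1
    rw [Fintype.sum_prod_type]
    refine Finset.sum_congr rfl fun a _ => ?_
    rw [Fin.sum_univ_two, cc_apply, ← Complex.normSq_eq_norm_sq, Complex.normSq_apply]
    simp
    ring

theorem mp_cc (n : ℕ) : MeasurePreserving (cc : (RI n → ℝ) → Cn n) volume volume := by
  have h1 := (ccI n).measurePreserving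
  have h2 := h1.comp (PiLp.volume_preserving_toLp (RI n))
  exact h2

theorem me_cc (n : ℕ) : MeasurableEmbedding (cc : (RI n → ℝ) → Cn n) := by
  let e : (RI n → ℝ) ≃ₜ Cn n :=
    { toFun := cc
      invFun := rc
      left_inv := rc_cc
      right_inv := cc_rc
      continuous_toFun := continuous_cc
      continuous_invFun := by
        rw [rc_eq]
        exact (rcL n).continuous }
  exact e.measurableEmbedding

/-! ### the densities -/

/-- `Fin 3 ≃ Fin 2 ⊕ Unit` -/
def e3 : Fin 3 ≃ Fin 2 ⊕ Unit where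
  toFun k := Fin.cases (motive := fun _ => Fin 2 ⊕ Unit) (Sum.inr ()) (fun a => Sum.inl a) k
  invFun := Sum.elim Fin.succ fun _ => 0
  left_inv k := by
    refine Fin.cases ?_ (fun a => ?_) k <;> rfl
  right_inv k := by
    rcases k with a | a <;> rfl

variable {f : E3 → ℂ} {s : ℂ} {r : ℝ} {ν : Measure E3} {θ : Cn 2 → E3} {O : Set (Cn 2)}

/-- the family of levels of a single function -/
def ff (f : E3 → ℂ) (s : ℂ) : E3 × PP → ℂ := fun q => f q.1 - s

theorem an_ff (hf : Gd f s r) {x : E3} (hx : nsq x < r ^ 2) (τ : PP) :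
    AnalyticAt ℂ (ff f s) (x, τ) :=
  (AnalyticAt.fun_comp (g := f) (f := fun q : E3 × PP => q.1) (hf.an _ hx)
    analyticAt_fst).sub analyticAt_const

theorem dX_ff (hf : Gd f s r) {x : E3} (hx : nsq x < r ^ 2) (τ : PP) (v : E3) :
    dX (sf (ff f s) r) (x, τ) v = fderiv ℂ f x v := by
  rw [dX_apply]
  change fderiv ℂ (ff f s) (x, τ) (v, 0) = _
  rw [← fderiv_slice (an_ff hf hx τ).differentiableAt]
  change fderiv ℂ (fun x => f x - s) x v = _
  rw [fderiv_sub_const]

theorem mem_W (hf : Gd f s r) {x : E3} (hx : x ∈ L f s r) (τ : PP) :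
    (x, τ) ∈ (sf (ff f s) r).W := by
  refine ⟨an_ff hf hx.2.2 τ, hx.2, ?_⟩
  by_contra hcon
  push Not at hcon
  apply hf.ne x hx.2.1 hx.2.2 hx.1
  ext v
  rw [← dX_ff hf hx.2.2 τ]
  exact hcon v

theorem mem_S (hf : Gd f s r) {x : E3} {τ : PP} :
    ((x, τ) ∈ (sf (ff f s) r).W ∧ (sf (ff f s) r).F (x, τ) = 0) ↔ x ∈ L f s r :=
  ⟨fun h => ⟨sub_eq_zero.1 h.2, h.1.2.1.1, h.1.2.1.2⟩,
    fun h => ⟨mem_W hf h τ, sub_eq_zero.2 h.1⟩⟩

theorem e2_eq_eta (hf : Gd f s r) (h : PE f s r θ O) {z : Cn 2} (hz : z ∈ O) (τ : PP) :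
    e2 (sf (ff f s) r) (θ z, τ) (fderiv ℂ θ z) = eta2a (n := 2) f θ z := by
  have hx := h.lt z hz
  have hL : θ z ∈ L f s r := ⟨h.par.lvl z hz, h.ne z hz, hx⟩
  have hne : fderiv ℂ f (θ z) ≠ 0 := hf.ne _ (h.ne z hz) hx (h.par.lvl z hz)
  obtain ⟨w, hw⟩ : ∃ w, fderiv ℂ f (θ z) w ≠ 0 := by
    by_contra hcon
    push Not at hcon
    exact hne (ContinuousLinearMap.ext hcon)
  have hda := (hf.an _ hx).differentiableAt
  have h1 : ∀ v, dX (sf (ff f s) r) (θ z, τ) (fderiv ℂ θ z v) = 0 := fun v => by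
    rw [dX_ff hf hx]
    exact h.par.ker hz hda v
  have h2 : dX (sf (ff f s) r) (θ z, τ) w ≠ 0 := by
    rw [dX_ff hf hx]
    exact hw
  rw [e2_eq (sf (ff f s) r) h1 h2]
  have h3 := h.par.eta2a_spec hz hda hne w
  rw [gdet_submatrix _ e3, Complex.mul_conj, Complex.normSq_eq_norm_sq] at h3
  have h4 : om (sf (ff f s) r) w (fr (fderiv ℂ θ z)) =
      ((addRow (DF θ z) w).submatrix e3 id).det := by
    rw [om_apply]
    congr 1
    ext i j
    refine Fin.cases ?_ (fun a => ?_) i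
    · rfl
    · change fderiv ℂ θ z (EuclideanSpace.single a 1) j = pd θ z a j
      rw [h.par.pd_eq hz]
  rw [h4, dX_ff hf hx, norm_div, div_pow]
  have h5 : ‖((addRow (DF θ z) w).submatrix e3 id).det‖ ^ 2 =
      eta2a (n := 2) f θ z * ‖fderiv ℂ f (θ z) w‖ ^ 2 := by exact_mod_cast h3
  rw [h5]
  have h6 : ‖fderiv ℂ f (θ z) w‖ ^ 2 ≠ 0 := by positivity
  field_simp

/-! ### existence -/

open Classical in
/-- the parametrisation with values in the level -/
def liftP (hf : Gd f s r) (h : PE f s r θ O) {z₁ : Cn 2} (hz₁ : z₁ ∈ O) (z : Cn 2) :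
    (sf (ff f s) r).M 0 :=
  if hz : z ∈ O then ⟨θ z, (mem_S hf).2 ⟨h.par.lvl z hz, h.ne z hz, h.lt z hz⟩⟩
  else ⟨θ z₁, (mem_S hf).2 ⟨h.par.lvl z₁ hz₁, h.ne z₁ hz₁, h.lt z₁ hz₁⟩⟩

theorem liftP_val (hf : Gd f s r) (h : PE f s r θ O) {z₁ : Cn 2} (hz₁ : z₁ ∈ O) {z : Cn 2}
    (hz : z ∈ O) : (liftP hf h hz₁ z).1 = θ z := by
  unfold liftP
  rw [dif_pos hz]

theorem par_liftP (hf : Gd f s r) (h : PE f s r θ O) {z₁ : Cn 2} (hz₁ : z₁ ∈ O) :
    Par (sf (ff f s) r) 0 (liftP hf h hz₁) O :=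
  ⟨h.par.isOpen, h.par.hol.congr fun _ hz => liftP_val hf h hz₁ hz⟩

/-- **existence of `ν`** -/
theorem isNu_nu (hf : Gd f s r) : IsNu f s r ((sf (ff f s) r).nu 0) := by
  set X := sf (ff f s) r with hX
  have hmL := measurableSet_L hf
  have hS : {x : E3 | (x, (0 : PP)) ∈ X.W ∧ X.F (x, 0) = 0} = L f s r := by
    ext x
    exact mem_S hf
  have hme : MeasurableEmbedding (Subtype.val : X.M 0 → E3) := by
    refine MeasurableEmbedding.subtype_coe ?_
    rw [← hS] at hmL
    exact hmL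
  refine ⟨?_, ?_⟩
  · have h1 : {x : E3 | ¬ (f x = s ∧ x ≠ 0 ∧ nsq x < r ^ 2)} = (L f s r)ᶜ := rfl
    rw [h1]
    unfold SFam.nu
    rw [Measure.map_apply measurable_subtype_coe hmL.compl]
    have h2 : (Subtype.val : X.M 0 → E3) ⁻¹' (L f s r)ᶜ = ∅ := by
      ext x
      simp only [mem_preimage, mem_compl_iff, mem_empty_iff_false, iff_false, not_not]
      exact (mem_S hf).1 x.2
    rw [h2, measure_empty]
  · intro θ O h hi Φ hΦ
    rcases O.eq_empty_or_nonempty with rfl | ⟨z₁, hz₁⟩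
    · simp
    have hp := par_liftP hf h hz₁
    have hval : ∀ z ∈ O, (liftP hf h hz₁ z).1 = θ z := fun z hz => liftP_val hf h hz₁ hz
    have hinj : InjOn (liftP hf h hz₁) O := fun z hz w hw hzw => by
      apply hi hz hw
      rw [← hval z hz, ← hval w hw, hzw]
    have himg : θ '' O = Subtype.val '' (liftP hf h hz₁ '' O) := by
      rw [image_image]
      exact image_congr fun z hz => (hval z hz).symm
    have hmi : MeasurableSet (θ '' O) := by
      rw [himg]
      exact hme.measurableSet_image.2 (hp.meas_range hinj)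
    have hpre : (Subtype.val : X.M 0 → E3) ⁻¹' (θ '' O) = liftP hf h hz₁ '' O := by
      rw [himg, preimage_image_eq _ Subtype.val_injective]
    unfold SFam.nu
    have hlin := hp.lintegral_eq hinj (φ := fun x => Φ x.1) (hΦ.comp measurable_subtype_coe)
    rw [setLIntegral_map hmi hΦ measurable_subtype_coe, hpre]
    refine hlin.trans ?_
    have hcc : ∫⁻ z in O, Φ (θ z) * ENNReal.ofReal (eta2a (n := 2) f θ z) =
        ∫⁻ y in (cc : (RI 2 → ℝ) → Cn 2) ⁻¹' O,
          Φ (θ (cc y)) * ENNReal.ofReal (eta2a (n := 2) f θ (cc y)) :=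
      ((mp_cc 2).setLIntegral_comp_preimage_emb (me_cc 2)
        (fun z => Φ (θ z) * ENNReal.ofReal (eta2a (n := 2) f θ z)) O).symm
    rw [hcc]
    refine setLIntegral_congr_fun (isOpen_dom h.par.isOpen).measurableSet fun y hy => ?_
    have hy' : cc y ∈ O := hy
    have h1 : ed (liftP hf h hz₁) y = eta2a (n := 2) f θ (cc y) := by
      unfold ed
      have h2 : fderiv ℂ (fun z => (liftP hf h hz₁ z).1) (cc y) = fderiv ℂ θ (cc y) := by
        apply Filter.EventuallyEq.fderiv_eq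
        filter_upwards [h.par.isOpen.mem_nhds hy'] with z hz
        exact hval z hz
      rw [h2, hval _ hy']
      exact e2_eq_eta hf h hy' 0
    show ENNReal.ofReal (ed (liftP hf h hz₁) y) * Φ (liftP hf h hz₁ (cc y)).1 = _
    rw [h1, hval _ hy', mul_comm]

/-- **`KED_952.NuStmt`** -/
theorem nuStmt : NuStmt := fun _ _ _ _ h1 h2 => ⟨_, isNu_nu ⟨h1, h2⟩⟩

/-! ### uniqueness -/

theorem isNu_unique (hf : Gd f s r) {ν ν' : Measure E3} (h : IsNu f s r ν) (h' : IsNu f s r ν') :
    ν = ν' := by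
  -- a countable cover by charts
  have hcov : ∀ x₀ : E3, ∃ (θ : Cn 2 → E3) (O : Set (Cn 2)) (B : Set E3), PE f s r θ O ∧
      InjOn θ O ∧ IsOpen B ∧ (x₀ ∈ L f s r → x₀ ∈ B) ∧ (B ∩ L f s r ⊆ θ '' O) := by
    intro x₀
    by_cases hx : x₀ ∈ L f s r
    · obtain ⟨θ, O, B, p, h1, h2, h3, h4, h5⟩ := exists_pe hf hx
      refine ⟨θ, O, B, h1, ?_, h2, fun _ => h3, ?_⟩
      · intro z hz w hw hzw
        have := congrArg p hzw
        rwa [h4 z hz, h4 w hw] at this
      · rintro x ⟨hxB, hxL⟩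
        exact ⟨p x, (h5 x hxB hxL.1).1, (h5 x hxB hxL.1).2⟩
    · refine ⟨fun _ => 0, ∅, ∅, ⟨⟨isOpen_empty, fun z hz => hz.elim, fun z hz => hz.elim,
        fun z hz => hz.elim⟩, fun z hz => hz.elim, fun z hz => hz.elim⟩, fun z hz => hz.elim,
        isOpen_empty, fun h => absurd h hx, ?_⟩
      rw [empty_inter]
      exact empty_subset _
  choose θ O B h1 h2 h3 h4 h5 using hcov
  obtain ⟨T, hTc, hTe⟩ := TopologicalSpace.isOpen_iUnion_countable (fun x : E3 => B x) h3
  have hLs : L f s r ⊆ ⋃ i ∈ T, B i := by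
    rw [hTe]
    exact fun x hx => mem_iUnion.2 ⟨x, h4 x hx⟩
  have hmL := measurableSet_L hf
  -- both measures agree on the pieces
  have hpiece : ∀ i, ν.restrict (B i ∩ L f s r) = ν'.restrict (B i ∩ L f s r) := by
    intro i
    have e1 := restrict_eq h (h1 i) (h2 i)
    have e2 := restrict_eq h' (h1 i) (h2 i)
    have e3 : ν.restrict (θ i '' O i) = ν'.restrict (θ i '' O i) := by rw [e1, e2]
    have e4 : (ν.restrict (θ i '' O i)).restrict (B i ∩ L f s r) =
        (ν'.restrict (θ i '' O i)).restrict (B i ∩ L f s r) := by rw [e3]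
    rwa [Measure.restrict_restrict_of_subset (h5 i),
      Measure.restrict_restrict_of_subset (h5 i)] at e4
  have hU : ν.restrict (⋃ i ∈ T, (B i ∩ L f s r)) = ν'.restrict (⋃ i ∈ T, (B i ∩ L f s r)) := by
    rw [Measure.restrict_biUnion_congr hTc]
    exact fun i _ => hpiece i
  have hUL : (⋃ i ∈ T, (B i ∩ L f s r)) = L f s r := by
    rw [← iUnion₂_inter]
    exact inter_eq_right.2 hLs
  rw [hUL, Measure.restrict_eq_self_of_ae_mem (ae_L h),
    Measure.restrict_eq_self_of_ae_mem (ae_L h')] at hU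
  exact hU

end

end Crest.Agent.R257.KedM_941
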