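import Crest.Agent.R257.CM2_812
import Crest.Agent.R257.CNS_939

/-!
Row 257 (S0395), helper812: additivity of the colength of complete intersections in one entry
(#2980 (ii)), invariance under permutations.
-/

set_option autoImplicit false
set_option linter.unusedSectionVars false

open Set Filter Topology Metric Complex IsLocalRing
open Crest.Agent.R275.Loc2879 hiding AA
open Crest.Agent.R257.UI939 Crest.Agent.R257.Defs_219

noncomputable section

namespace Crest.Agent.R257.CM_812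

section Ring

variable {R : Type*} [CommRing R] [Algebra ℂ R]

lemma finite_of_le {I J : Ideal R} (h : I ≤ J) (hfin : Module.Finite ℂ (R ⧸ I)) :
    Module.Finite ℂ (R ⧸ J) :=
  Module.Finite.of_surjective ((Submodule.mapQ I J LinearMap.id (by simpa using h)).restrictScalars ℂ)
    (by
      intro y
      obtain ⟨y, rfl⟩ := Ideal.Quotient.mk_surjective y
      exact ⟨Ideal.Quotient.mk I y, rfl⟩)

/-- additivity in one entry -/
theorem quot_mul (I : Ideal R) (g g' : R) (hnz : Nz I g)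
    (h1 : Module.Finite ℂ (R ⧸ (I ⊔ Ideal.span {g})))
    (h2 : Module.Finite ℂ (R ⧸ (I ⊔ Ideal.span {g'}))) :
    Module.Finite ℂ (R ⧸ (I ⊔ Ideal.span {g * g'})) ∧
    Module.finrank ℂ (R ⧸ (I ⊔ Ideal.span {g * g'})) =
      Module.finrank ℂ (R ⧸ (I ⊔ Ideal.span {g})) + Module.finrank ℂ (R ⧸ (I ⊔ Ideal.span {g'})) := by
  set J := I ⊔ Ideal.span {g * g'} with hJ
  set J1 := I ⊔ Ideal.span {g} with hJ1
  set J2 := I ⊔ Ideal.span {g'} with hJ2
  have hJJ1 : J ≤ J1 := by
    refine sup_le le_sup_left ?_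
    rw [Ideal.span_singleton_le_iff_mem]
    exact Ideal.mem_sup_right (Ideal.mul_mem_right _ _ (Ideal.mem_span_singleton_self g))
  have hJ2J : ∀ y ∈ J2, g * y ∈ J := by
    intro y hy
    obtain ⟨i, hi, z, hz, rfl⟩ := Submodule.mem_sup.1 hy
    obtain ⟨c, rfl⟩ := Ideal.mem_span_singleton'.1 hz
    have : g * (i + c * g') = g * i + c * (g * g') := by ring
    rw [this]
    exact Submodule.add_mem_sup (I.mul_mem_left _ hi) (Ideal.mul_mem_left _ _
      (Ideal.mem_span_singleton_self _))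
  let π : (R ⧸ J) →ₗ[ℂ] (R ⧸ J1) :=
    (Submodule.mapQ J J1 LinearMap.id (by simpa using hJJ1)).restrictScalars ℂ
  let f : (R ⧸ J2) →ₗ[ℂ] (R ⧸ J) :=
    (Submodule.mapQ J2 J (LinearMap.lsmul R R g) (fun y hy => hJ2J y hy)).restrictScalars ℂ
  have hπ : ∀ y : R, π (Ideal.Quotient.mk J y) = Ideal.Quotient.mk J1 y := fun _ => rfl
  have hf : ∀ y : R, f (Ideal.Quotient.mk J2 y) = Ideal.Quotient.mk J (g * y) := fun _ => rfl
  have hπs : Function.Surjective π := by
    intro y
    obtain ⟨y, rfl⟩ := Ideal.Quotient.mk_surjective y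
    exact ⟨Ideal.Quotient.mk J y, rfl⟩
  have hfi : Function.Injective f := by
    rw [← LinearMap.ker_eq_bot, LinearMap.ker_eq_bot']
    intro y hy
    obtain ⟨y, rfl⟩ := Ideal.Quotient.mk_surjective y
    rw [hf, Ideal.Quotient.eq_zero_iff_mem] at hy
    rw [Ideal.Quotient.eq_zero_iff_mem]
    obtain ⟨i, hi, z, hz, h3⟩ := Submodule.mem_sup.1 hy
    obtain ⟨c, rfl⟩ := Ideal.mem_span_singleton'.1 hz
    have h4 : g * (y - c * g') ∈ I := by
      have : g * (y - c * g') = i := by linear_combination -h3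
      rw [this]; exact hi
    have h5 := hnz _ h4
    have : y = (y - c * g') + c * g' := by ring
    rw [this]
    exact Submodule.add_mem_sup h5 (Ideal.mul_mem_left _ _ (Ideal.mem_span_singleton_self _))
  have hker : LinearMap.ker π = LinearMap.range f := by
    ext y
    obtain ⟨y, rfl⟩ := Ideal.Quotient.mk_surjective y
    rw [LinearMap.mem_ker, hπ, Ideal.Quotient.eq_zero_iff_mem, LinearMap.mem_range]
    constructor
    · intro hy
      obtain ⟨i, hi, z, hz, rfl⟩ := Submodule.mem_sup.1 hy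
      obtain ⟨c, rfl⟩ := Ideal.mem_span_singleton'.1 hz
      refine ⟨Ideal.Quotient.mk J2 c, ?_⟩
      rw [hf, Ideal.Quotient.eq]
      have : g * c - (i + c * g) = -i := by ring
      rw [this]
      exact J.neg_mem (Ideal.mem_sup_left hi)
    · rintro ⟨x, hx⟩
      obtain ⟨x, rfl⟩ := Ideal.Quotient.mk_surjective x
      rw [hf, Ideal.Quotient.eq] at hx
      have h3 : y = g * x - (g * x - y) := by ring
      rw [h3]
      exact J1.sub_mem (Ideal.mem_sup_right (Ideal.mul_mem_right _ _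
        (Ideal.mem_span_singleton_self _))) (hJJ1 hx)
  have hfinker : Module.Finite ℂ (LinearMap.ker π) := by
    rw [hker]
    exact Module.Finite.range f
  have hfinq : Module.Finite ℂ ((R ⧸ J) ⧸ LinearMap.ker π) :=
    Module.Finite.equiv (π.quotKerEquivOfSurjective hπs).symm
  have hfinJ : Module.Finite ℂ (R ⧸ J) := Module.Finite.of_submodule_quotient (LinearMap.ker π)
  refine ⟨hfinJ, ?_⟩
  have h6 := LinearMap.finrank_range_add_finrank_ker π
  rw [LinearMap.range_eq_top.2 hπs, finrank_top, hker, LinearMap.finrank_range_of_inj hfi] at h6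
  omega

end Ring

section Nz

variable {R : Type*} [CommRing R]

lemma mem_span_ne {n : ℕ} (a : Fin n → R) (i : Fin n) (y : R) :
    y ∈ Ideal.span (a '' {j | j ≠ i}) ↔ ∃ s : Fin n → R, s i = 0 ∧ y = ∑ j, s j * a j := by
  classical
  constructor
  · intro hy
    induction hy using Submodule.span_induction with
    | mem x hx =>
      obtain ⟨j, hj, rfl⟩ := hx
      refine ⟨Pi.single j 1, ?_, ?_⟩
      · rw [Pi.single_apply, if_neg (Ne.symm hj)]
      · simp [Pi.single_apply]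
    | zero => exact ⟨0, rfl, by simp⟩
    | add x y _ _ hx hy =>
      obtain ⟨s, h1, rfl⟩ := hx
      obtain ⟨t, h2, rfl⟩ := hy
      refine ⟨s + t, by simp [h1, h2], ?_⟩
      rw [← Finset.sum_add_distrib]
      exact Finset.sum_congr rfl fun j _ => by rw [Pi.add_apply, add_mul]
    | smul c x _ hx =>
      obtain ⟨s, h1, rfl⟩ := hx
      refine ⟨c • s, by simp [h1], ?_⟩
      rw [smul_eq_mul, Finset.mul_sum]
      exact Finset.sum_congr rfl fun j _ => by rw [Pi.smul_apply, smul_eq_mul, mul_assoc]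
  · rintro ⟨s, h1, rfl⟩
    refine Submodule.sum_mem _ fun j _ => ?_
    by_cases hj : j = i
    · subst hj; rw [h1, zero_mul]; exact Submodule.zero_mem _
    · exact Ideal.mul_mem_left _ _ (Ideal.subset_span ⟨j, hj, rfl⟩)

theorem nz_at {n : ℕ} {a : Fin n → R} (h : KS a) (i : Fin n) :
    Nz (Ideal.span (a '' {j | j ≠ i})) (a i) := by
  classical
  intro b hb
  obtain ⟨s, h1, h2⟩ := (mem_span_ne a i _).1 hb
  obtain ⟨S, hS1, -, hS3⟩ := h (fun j => s j - (if j = i then b else 0)) (by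
    simp only [sub_mul, Finset.sum_sub_distrib, ite_mul, zero_mul, Finset.sum_ite_eq',
      Finset.mem_univ, if_true]
    rw [← h2]; ring)
  have h3 := hS3 i
  rw [if_pos rfl, h1, zero_sub] at h3
  rw [mem_span_ne]
  refine ⟨fun j => - S i j, by simp [hS1], ?_⟩
  rw [← neg_neg b, h3, ← Finset.sum_neg_distrib]
  exact Finset.sum_congr rfl fun j _ => by ring

lemma span_split {n : ℕ} (a : Fin n → R) (i : Fin n) :
    Ideal.span (Set.range a) = Ideal.span (a '' {j | j ≠ i}) ⊔ Ideal.span {a i} := by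
  rw [← Ideal.span_union]
  congr 1
  ext y
  constructor
  · rintro ⟨j, rfl⟩
    by_cases hj : j = i
    · subst hj; exact Or.inr rfl
    · exact Or.inl ⟨j, hj, rfl⟩
  · rintro (⟨j, -, rfl⟩ | rfl)
    · exact ⟨j, rfl⟩
    · exact ⟨i, rfl⟩

/-- additivity in the entry `i`, for `n` elements of `O_n` -/
theorem quot_mul_BB {n : ℕ} (a a' a'' : Fin n → BB n) (i : Fin n) (h' : ∀ j ≠ i, a' j = a j)
    (h'' : ∀ j ≠ i, a'' j = a j) (hi : a'' i = a i * a' i)
    (h1 : Module.Finite ℂ (BB n ⧸ Ideal.span (Set.range a)))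
    (h2 : Module.Finite ℂ (BB n ⧸ Ideal.span (Set.range a'))) :
    Module.Finite ℂ (BB n ⧸ Ideal.span (Set.range a'')) ∧
    Module.finrank ℂ (BB n ⧸ Ideal.span (Set.range a'')) =
      Module.finrank ℂ (BB n ⧸ Ideal.span (Set.range a)) +
      Module.finrank ℂ (BB n ⧸ Ideal.span (Set.range a')) := by
  have e' : a' '' {j | j ≠ i} = a '' {j | j ≠ i} :=
    Set.image_congr fun j hj => h' j hj
  have e'' : a'' '' {j | j ≠ i} = a '' {j | j ≠ i} :=
    Set.image_congr fun j hj => h'' j hj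
  rw [span_split a i] at h1
  rw [span_split a' i, e'] at h2
  rw [span_split a'' i, span_split a i, span_split a' i, e', e'', hi]
  refine quot_mul _ _ _ ?_ h1 h2
  by_cases htop : ∃ j, ¬ a j ∈ maximalIdeal (BB n)
  · obtain ⟨j, hj⟩ := htop
    have hu : IsUnit (a j) := by
      rw [mem_maximalIdeal, mem_nonunits_iff, not_not] at hj; exact hj
    intro b hb
    by_cases hji : j = i
    · subst hji
      obtain ⟨u, hu⟩ := hu
      have : b = ↑(u⁻¹) * (a j * b) := by rw [← hu, ← mul_assoc, Units.inv_mul, one_mul]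
      rw [this]
      exact Ideal.mul_mem_left _ _ hb
    · rw [Ideal.eq_top_of_isUnit_mem (Ideal.span (a '' {j | j ≠ i}))
        (Ideal.subset_span ⟨j, hji, rfl⟩) hu]
      trivial
  · push Not at htop
    have hfin : Module.Finite ℂ (BB n ⧸ Ideal.span (Set.range a)) := by
      rw [span_split a i]; exact h1
    exact nz_at (koszul_BB a htop hfin) i

end Nz

section Germs

variable {n m : ℕ}

/-- the ideal of germs only depends on the set of functions -/
lemma Idl_eq_of_range {κ κ' : Type*} {p : Fin n → ℂ} {g : κ → (Fin n → ℂ) → ℂ}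
    {g' : κ' → (Fin n → ℂ) → ℂ} (h : Set.range g = Set.range g') : Idl p g = Idl p g' := by
  unfold Idl
  congr 1
  have e1 : (Set.range fun j => (gz (g j) : OO p)) = (fun f => (gz f : OO p)) '' Set.range g := by
    rw [← Set.range_comp]; rfl
  have e2 : (Set.range fun j => (gz (g' j) : OO p)) = (fun f => (gz f : OO p)) '' Set.range g' := by
    rw [← Set.range_comp]; rfl
  rw [e1, e2, h]

theorem col_perm {m' : ℕ} {g : Fin m → (Fin n → ℂ) → ℂ} {g' : Fin m' → (Fin n → ℂ) → ℂ}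
    (hg : ∀ i, AnalyticAt ℂ (g i) 0) (hg' : ∀ i, AnalyticAt ℂ (g' i) 0)
    (h : Set.range g = Set.range g') : (ColFin g ↔ ColFin g') ∧ col g = col g' := by
  rw [UI939.colFin_iff hg, UI939.colFin_iff hg', UI939.col_eq hg, UI939.col_eq hg']
  rw [Idl_eq_of_range h]
  exact ⟨Iff.rfl, rfl⟩

lemma Idl_eq_span {g : Fin m → (Fin n → ℂ) → ℂ} (hg : ∀ i, AnalyticAt ℂ (g i) 0) :
    Idl (0 : Fin n → ℂ) g = Ideal.span (Set.range fun j => (gm (g j) (hg j) : BB n)) := by
  unfold Idl
  congr 1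
  congr 1
  funext j
  exact gz_eq (hg j)

/-- **additivity of the colength of `n` germs in `O_n` in one entry** -/
theorem col_mul {a a' a'' : Fin n → (Fin n → ℂ) → ℂ} (ha : ∀ i, AnalyticAt ℂ (a i) 0)
    (ha' : ∀ i, AnalyticAt ℂ (a' i) 0) (ha'' : ∀ i, AnalyticAt ℂ (a'' i) 0) (i : Fin n)
    (h' : ∀ j ≠ i, a' j =ᶠ[𝓝 0] a j) (h'' : ∀ j ≠ i, a'' j =ᶠ[𝓝 0] a j)
    (hi : a'' i =ᶠ[𝓝 0] fun x => a i x * a' i x) (h1 : ColFin a) (h2 : ColFin a') :
    ColFin a'' ∧ col a'' = col a + col a' := by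
  rw [UI939.colFin_iff ha, Idl_eq_span ha] at h1
  rw [UI939.colFin_iff ha', Idl_eq_span ha'] at h2
  rw [UI939.colFin_iff ha'', UI939.col_eq ha, UI939.col_eq ha', UI939.col_eq ha'',
    Idl_eq_span ha, Idl_eq_span ha', Idl_eq_span ha'']
  refine quot_mul_BB _ _ _ i ?_ ?_ ?_ h1 h2
  · intro j hj; rw [gm_eq_gm]; exact h' j hj
  · intro j hj; rw [gm_eq_gm]; exact h'' j hj
  · rw [gm_mul, gm_eq_gm]; exact hi

/-- a smaller colength: factors of entries -/
theorem colFin_of_dvd {a a' : Fin m → (Fin n → ℂ) → ℂ} (ha : ∀ i, AnalyticAt ℂ (a i) 0)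
    (ha' : ∀ i, AnalyticAt ℂ (a' i) 0)
    (h : ∀ i, ∃ q : (Fin n → ℂ) → ℂ, AnalyticAt ℂ q 0 ∧ a i =ᶠ[𝓝 0] fun x => q x * a' i x)
    (hf : ColFin a) : ColFin a' := by
  rw [UI939.colFin_iff ha, Idl_eq_span ha] at hf
  rw [UI939.colFin_iff ha', Idl_eq_span ha']
  refine finite_of_le ?_ hf
  rw [Ideal.span_le]
  rintro _ ⟨i, rfl⟩
  obtain ⟨q, hq, e⟩ := h i
  have : (gm (a i) (ha i) : BB n) = gm q hq * gm (a' i) (ha' i) := by
    rw [gm_mul, gm_eq_gm]; exact e
  show gm (a i) (ha i) ∈ _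
  rw [this]
  exact Ideal.mul_mem_left _ _ (Ideal.subset_span ⟨i, rfl⟩)

/-- `col ![f, g g', h] = col ![f, g, h] + col ![f, g', h]` -/
theorem col3_mul {f g g' h : E3 → ℂ} (hf : AnalyticAt ℂ f 0) (hg : AnalyticAt ℂ g 0)
    (hg' : AnalyticAt ℂ g' 0) (hh : AnalyticAt ℂ h 0) :
    (ColFin ![f, fun x => g x * g' x, h] ↔ ColFin ![f, g, h] ∧ ColFin ![f, g', h]) ∧
    (ColFin ![f, g, h] → ColFin ![f, g', h] →
      col ![f, fun x => g x * g' x, h] = col ![f, g, h] + col ![f, g', h]) := by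
  have hgg : AnalyticAt ℂ (fun x => g x * g' x) 0 := hg.mul hg'
  have h1 : ∀ i, AnalyticAt ℂ (![f, g, h] i) 0 := by
    intro i; fin_cases i <;> assumption
  have h2 : ∀ i, AnalyticAt ℂ (![f, g', h] i) 0 := by
    intro i; fin_cases i <;> assumption
  have h3 : ∀ i, AnalyticAt ℂ (![f, fun x => g x * g' x, h] i) 0 := by
    intro i; fin_cases i <;> assumption
  have key : ColFin ![f, g, h] → ColFin ![f, g', h] → ColFin ![f, fun x => g x * g' x, h] ∧
      col ![f, fun x => g x * g' x, h] = col ![f, g, h] + col ![f, g', h] := by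
    intro k1 k2
    refine col_mul h1 h2 h3 1 ?_ ?_ (by simp [Filter.EventuallyEq.refl]) k1 k2
    · intro j hj; fin_cases j <;> simp_all
    · intro j hj; fin_cases j <;> simp_all
  refine ⟨⟨fun k => ⟨?_, ?_⟩, fun k => (key k.1 k.2).1⟩, fun k1 k2 => (key k1 k2).2⟩
  · refine colFin_of_dvd h3 h1 ?_ k
    intro i
    fin_cases i
    · exact ⟨1, analyticAt_const, by simp [Filter.EventuallyEq.refl]⟩
    · exact ⟨g', hg', Eventually.of_forall fun x => by simp [mul_comm]⟩
    · exact ⟨1, analyticAt_const, by simp [Filter.EventuallyEq.refl]⟩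
  · refine colFin_of_dvd h3 h2 ?_ k
    intro i
    fin_cases i
    · exact ⟨1, analyticAt_const, by simp [Filter.EventuallyEq.refl]⟩
    · exact ⟨g, hg, Eventually.of_forall fun x => by simp⟩
    · exact ⟨1, analyticAt_const, by simp [Filter.EventuallyEq.refl]⟩

/-- symmetry in the last two entries -/
theorem col3_swap {f g h : E3 → ℂ} (hf : AnalyticAt ℂ f 0) (hg : AnalyticAt ℂ g 0)
    (hh : AnalyticAt ℂ h 0) : (ColFin ![f, g, h] ↔ ColFin ![f, h, g]) ∧
    col ![f, g, h] = col ![f, h, g] := by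
  refine col_perm ?_ ?_ ?_
  · intro i; fin_cases i <;> assumption
  · intro i; fin_cases i <;> assumption
  · ext y
    simp only [Set.mem_range, Fin.exists_fin_succ, Matrix.cons_val_zero, Matrix.cons_val_succ,
      IsEmpty.exists_iff, or_false]
    tauto

/-- powers: `col ![f, g^a, h^b] = a b col ![f, g, h]` -/
theorem col3_pow {f g h : E3 → ℂ} (hf : AnalyticAt ℂ f 0) (hg : AnalyticAt ℂ g 0)
    (hh : AnalyticAt ℂ h 0) (hfin : ColFin ![f, g, h]) {a b : ℕ} (ha : 0 < a) (hb : 0 < b) :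
    ColFin ![f, fun x => g x ^ a, fun x => h x ^ b] ∧
    col ![f, fun x => g x ^ a, fun x => h x ^ b] = a * b * col ![f, g, h] := by
  have step : ∀ {g h : E3 → ℂ}, AnalyticAt ℂ g 0 → AnalyticAt ℂ h 0 → ColFin ![f, g, h] →
      ∀ a : ℕ, ColFin ![f, fun x => g x ^ (a + 1), h] ∧
        col ![f, fun x => g x ^ (a + 1), h] = (a + 1) * col ![f, g, h] := by
    intro g h hg hh hfin a
    induction a with
    | zero =>
      have : (fun x => g x ^ (0 + 1)) = g := by funext x; simp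
      rw [this]; simp [hfin]
    | succ a ih =>
      have e : (fun x => g x ^ (a + 1 + 1)) = fun x => g x * g x ^ (a + 1) := by
        funext x; ring
      have ha : AnalyticAt ℂ (fun x => g x ^ (a + 1)) 0 := hg.pow _
      obtain ⟨k1, k2⟩ := col3_mul hf hg ha hh
      rw [e]
      refine ⟨k1.2 ⟨hfin, ih.1⟩, ?_⟩
      rw [k2 hfin ih.1, ih.2]; ring
  obtain ⟨a, rfl⟩ : ∃ a', a = a' + 1 := ⟨a - 1, by omega⟩
  obtain ⟨b, rfl⟩ : ∃ b', b = b' + 1 := ⟨b - 1, by omega⟩
  have hga : AnalyticAt ℂ (fun x => g x ^ (a + 1)) 0 := hg.pow _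
  have hhb : AnalyticAt ℂ (fun x => h x ^ (b + 1)) 0 := hh.pow _
  obtain ⟨k1, k2⟩ := step hg hh hfin a
  obtain ⟨s1, s2⟩ := col3_swap hf hga hh
  obtain ⟨k3, k4⟩ := step hh hga (s1.1 k1) b
  obtain ⟨s3, s4⟩ := col3_swap hf hhb hga
  refine ⟨s3.1 k3, ?_⟩
  rw [← s4, k4, ← s2, k2]; push_cast; ring

end Germs

end Crest.Agent.R257.CM_812
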