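import Crest.Agent.R257.NumK_488
import Crest.Agent.R257.ColAdd_812

/-!
Row 257 (S0395), leaf GenStmt (helper812): a generic linear form is a good third function.
-/

set_option autoImplicit false
set_option linter.unusedSectionVars false

open Set Filter Topology Metric Complex
open Crest.AlgGeometry.Germ
open Crest.Agent.R275.Loc2879 hiding AA
open Crest.Agent.R257.UI939 Crest.Agent.R257.Defs_219 Crest.Agent.R257.Num488

noncomputable section

namespace Crest.Agent.R257.Gen_812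

/-- dictionary -/
theorem colFin_iff_dl {m : ℕ} {g : Fin m → E3 → ℂ} (hg : ∀ i, AnalyticAt ℂ (g i) 0) :
    ColFin g ↔ dl (BB 3 ⧸ Ideal.span (Set.range fun j => (gm (g j) (hg j) : BB 3))) ≠ ⊤ := by
  rw [UI939.colFin_iff hg, CM_812.Idl_eq_span hg]
  exact ⟨fun h => dl_ne_top, fun h => finite_of_dl h⟩

lemma colFin3_iff {a b c : E3 → ℂ} (ha : AnalyticAt ℂ a 0) (hb : AnalyticAt ℂ b 0)
    (hc : AnalyticAt ℂ c 0) : ColFin ![a, b, c] ↔
      dl (BB 3 ⧸ Ideal.span {(gm a ha : BB 3), gm b hb, gm c hc}) ≠ ⊤ := by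
  have h3 : ∀ i : Fin 3, AnalyticAt ℂ ((![a, b, c] : Fin 3 → E3 → ℂ) i) 0 := by
    intro i; fin_cases i <;> assumption
  rw [colFin_iff_dl h3]
  have : (Set.range fun j => (gm ((![a, b, c] : Fin 3 → E3 → ℂ) j) (h3 j) : BB 3)) =
      {(gm a ha : BB 3), gm b hb, gm c hc} := by
    ext y
    constructor
    · rintro ⟨j, rfl⟩
      fin_cases j <;> simp
    · intro hy
      simp only [Set.mem_insert_iff, Set.mem_singleton_iff] at hy
      rcases hy with rfl | rfl | rfl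
      · exact ⟨0, rfl⟩
      · exact ⟨1, rfl⟩
      · exact ⟨2, rfl⟩
  rw [this]

/-- `v ↦ ∑ v_i φ(y_i)` -/
def Lf (φ : BB 3 →+* A1) (y : Fin 3 → BB 3) : (Fin 3 → ℂ) →ₗ[ℂ] A1 where
  toFun v := ∑ i, algebraMap ℂ A1 (v i) * φ (y i)
  map_add' v w := by
    rw [← Finset.sum_add_distrib]
    exact Finset.sum_congr rfl fun i _ => by rw [Pi.add_apply, map_add, add_mul]
  map_smul' c v := by
    rw [RingHom.id_apply, Finset.smul_sum]
    exact Finset.sum_congr rfl fun i _ => by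
      rw [Pi.smul_apply, smul_eq_mul, map_mul, Algebra.smul_def, mul_assoc]

lemma Lf_ne {φ : BB 3 →+* A1} {y : Fin 3 → BB 3} (h : ∃ i, φ (y i) ≠ 0) :
    LinearMap.ker (Lf φ y) ≠ ⊤ := by
  classical
  obtain ⟨i, hi⟩ := h
  intro hk
  have h1 : Pi.single i 1 ∈ LinearMap.ker (Lf φ y) := by rw [hk]; trivial
  rw [LinearMap.mem_ker] at h1
  have h2 : Lf φ y (Pi.single i 1) = φ (y i) := by
    show ∑ j, algebraMap ℂ A1 ((Pi.single i 1 : Fin 3 → ℂ) j) * φ (y j) = _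
    rw [Finset.sum_eq_single i]
    · simp
    · intro j _ hj; simp [Pi.single_eq_of_ne hj]
    · intro h; exact absurd (Finset.mem_univ _) h
  exact hi (h2 ▸ h1)

lemma coordDeriv_lin (v : Fin 3 → ℂ) (i : Fin 3) (x : E3) :
    coordDeriv (fun x : E3 => ∑ i, v i * x i) i x = v i := by
  classical
  have h : HasFDerivAt (fun x : E3 => ∑ j, v j * x j)
      (∑ j, v j • (ContinuousLinearMap.proj (R := ℂ) (φ := fun _ : Fin 3 => ℂ) j)) x := by
    refine HasFDerivAt.fun_sum fun j _ => ?_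
    exact ((ContinuousLinearMap.proj (R := ℂ) (φ := fun _ : Fin 3 => ℂ) j).hasFDerivAt).const_mul
      (v j)
  rw [coordDeriv, h.fderiv]
  simp [Pi.single_apply]

lemma Dt_lin (f g : E3 → ℂ) (v : Fin 3 → ℂ) (x : E3) :
    Dt f g (fun x : E3 => ∑ i, v i * x i) x =
      v 0 * mnr f g 1 x + v 1 * mnr f g 2 x + v 2 * mnr f g 3 x := by
  have h : ∀ i, gr (fun x : E3 => ∑ i, v i * x i) x i = v i := fun i => coordDeriv_lin v i x
  rw [Dt, Matrix.det_fin_three]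
  have e0 : ∀ (a b c : Fin 3 → ℂ) (i : Fin 3), (Matrix.of ![a, b, c] : Matrix _ _ ℂ) 0 i = a i :=
    fun _ _ _ _ => rfl
  have e1 : ∀ (a b c : Fin 3 → ℂ) (i : Fin 3), (Matrix.of ![a, b, c] : Matrix _ _ ℂ) 1 i = b i :=
    fun _ _ _ _ => rfl
  have e2 : ∀ (a b c : Fin 3 → ℂ) (i : Fin 3), (Matrix.of ![a, b, c] : Matrix _ _ ℂ) 2 i = c i :=
    fun _ _ _ _ => rfl
  have m1 : mnr f g 1 x = gr f x 1 * gr g x 2 - gr f x 2 * gr g x 1 := rfl
  have m2 : mnr f g 2 x = gr f x 2 * gr g x 0 - gr f x 0 * gr g x 2 := rfl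
  have m3 : mnr f g 3 x = gr f x 0 * gr g x 1 - gr f x 1 * gr g x 0 := rfl
  simp only [e0, e1, e2, h, m1, m2, m3]
  ring

lemma an_gr {f : E3 → ℂ} (hf : AnalyticAt ℂ f 0) (i : Fin 3) :
    AnalyticAt ℂ (fun x => gr f x i) 0 := by
  have h1 : AnalyticAt ℂ (fderiv ℂ f) 0 := hf.fderiv
  exact (ContinuousLinearMap.apply ℂ ℂ (Pi.single i (1 : ℂ))).analyticAt _ |>.comp h1

lemma an_mnr {f g : E3 → ℂ} (hf : AnalyticAt ℂ f 0) (hg : AnalyticAt ℂ g 0) (i : Fin 4) :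
    AnalyticAt ℂ (mnr f g i) 0 := by
  have e1 := an_gr hf
  have e2 := an_gr hg
  fin_cases i
  · exact hf
  · exact ((e1 1).mul (e2 2)).sub ((e1 2).mul (e2 1))
  · exact ((e1 2).mul (e2 0)).sub ((e1 0).mul (e2 2))
  · exact ((e1 0).mul (e2 1)).sub ((e1 1).mul (e2 0))

/-- on every branch of `{f = g = 0}` some minor does not vanish -/
lemma minor_ne {f g g' : E3 → ℂ} (hf : AnalyticAt ℂ f 0) (hg : AnalyticAt ℂ g 0)
    (hg' : AnalyticAt ℂ g' 0) (hg'0 : g' 0 = 0) (hm : ColFin (mnr f g)) {φ : BB 3 →+* A1}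
    (hφ : Br (gm f hf) (gm g hg) φ) (hne : φ (gm g' hg') ≠ 0) :
    (∃ i, φ (xB i) ≠ 0) ∧
      ∃ i, φ ((![gm _ (an_mnr hf hg 1), gm _ (an_mnr hf hg 2), gm _ (an_mnr hf hg 3)] :
        Fin 3 → BB 3) i) ≠ 0 := by
  have h1 : ∃ i, φ (xB i) ≠ 0 := by
    by_contra hcon
    push Not at hcon
    have h2 : (gm g' hg' : BB 3) ∈ IsLocalRing.maximalIdeal (BB 3) := by
      rw [IsLocalRing.mem_maximalIdeal, mem_nonunits_iff, isUnit_gm]
      simpa using hg'0
    rw [max_eq] at h2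
    have h3 : Ideal.span (Set.range xB) ≤ RingHom.ker φ := by
      rw [Ideal.span_le]
      rintro _ ⟨i, rfl⟩
      exact hcon i
    exact hne (h3 h2)
  refine ⟨h1, ?_⟩
  by_contra hcon
  push Not at hcon
  obtain ⟨i, hi⟩ := h1
  have hfin := (colFin_iff_dl (fun i => an_mnr hf hg i)).1 hm
  have h3 : Ideal.span (Set.range fun j => (gm (mnr f g j) (an_mnr hf hg j) : BB 3)) ≤
      RingHom.ker φ := by
    rw [Ideal.span_le]
    rintro _ ⟨j, rfl⟩
    fin_cases j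
    · exact hφ.fa
    · exact hcon 0
    · exact hcon 1
    · exact hcon 2
  have h4 := primes_of_fin hfin (RingHom.ker_isPrime φ) h3
  have h5 : xB i ∈ RingHom.ker φ := by
    rw [h4, max_eq]
    exact Ideal.subset_span ⟨i, rfl⟩
  exact hi h5

lemma gm_lin3 (v : Fin 3 → ℂ) {y : Fin 3 → E3 → ℂ} (hy : ∀ i, AnalyticAt ℂ (y i) 0)
    {F : E3 → ℂ} (hF : AnalyticAt ℂ F 0)
    (h : ∀ x, F x = v 0 * y 0 x + v 1 * y 1 x + v 2 * y 2 x)
    {φ : BB 3 →+* A1} (hφ : ∀ c : ℂ, φ (algebraMap ℂ (BB 3) c) = algebraMap ℂ A1 c) :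
    φ (gm F hF) = Lf φ (fun i => gm (y i) (hy i)) v := by
  have h1 : (gm F hF : BB 3) = algebraMap ℂ (BB 3) (v 0) * gm (y 0) (hy 0) +
      algebraMap ℂ (BB 3) (v 1) * gm (y 1) (hy 1) + algebraMap ℂ (BB 3) (v 2) * gm (y 2) (hy 2) := by
    simp only [Crest.Agent.R275.Loc2879.algebraMap_apply, gm_mul, gm_add, gm_eq_gm]
    exact Eventually.of_forall fun x => h x
  rw [h1]
  show _ = ∑ i, algebraMap ℂ A1 (v i) * φ (gm (y i) (hy i))
  rw [Fin.sum_univ_three]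
  simp only [map_add, map_mul, hφ]

/-- one pair `(f,g)` : all but finitely many proper subspaces of linear forms are good -/
theorem good_list {f g g' : E3 → ℂ} (hf : AnalyticAt ℂ f 0) (hg : AnalyticAt ℂ g 0)
    (hg' : AnalyticAt ℂ g' 0) (hg'0 : g' 0 = 0) (hm : ColFin (mnr f g))
    (hfin : ColFin ![f, g, g']) :
    ∃ T : Finset (Submodule ℂ (Fin 3 → ℂ)), ⊤ ∉ T ∧ ∀ v : Fin 3 → ℂ, (∀ W ∈ T, v ∉ W) →
      ColFin ![f, g, fun x => ∑ i, v i * x i] ∧
      ColFin ![f, g, Dt f g fun x => ∑ i, v i * x i] := by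
  classical
  have hd : ¬ IsUnit (gm g' hg' : BB 3) := by rw [isUnit_gm]; simpa using hg'0
  have h1 := (colFin3_iff hf hg hg').1 hfin
  obtain ⟨l, hl, hc⟩ := br_list h1 hd
  set M : Fin 3 → E3 → ℂ := ![mnr f g 1, mnr f g 2, mnr f g 3] with hM
  have hMa : ∀ i, AnalyticAt ℂ (M i) 0 := by
    intro i
    fin_cases i
    · exact an_mnr hf hg 1
    · exact an_mnr hf hg 2
    · exact an_mnr hf hg 3
  refine ⟨(l.map fun φ => LinearMap.ker (Lf φ xB)).toFinset ∪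
    (l.map fun φ => LinearMap.ker (Lf φ fun i => gm (M i) (hMa i))).toFinset, ?_, ?_⟩
  · intro ht
    rw [Finset.mem_union, List.mem_toFinset, List.mem_toFinset, List.mem_map, List.mem_map] at ht
    rcases ht with ⟨φ, hφ, e⟩ | ⟨φ, hφ, e⟩
    · exact Lf_ne (minor_ne hf hg hg' hg'0 hm (hl φ hφ) ((hc _).1 h1 φ hφ)).1 e
    · refine Lf_ne ?_ e
      obtain ⟨i, hi⟩ := (minor_ne hf hg hg' hg'0 hm (hl φ hφ) ((hc _).1 h1 φ hφ)).2
      refine ⟨i, ?_⟩
      fin_cases i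
      · exact hi
      · exact hi
      · exact hi
  · intro v hv
    have ha : AnalyticAt ℂ (fun x : E3 => ∑ i, v i * x i) 0 :=
      Finset.analyticAt_fun_sum _ fun i _ => analyticAt_const.mul (an_coord i 0)
    have hD : AnalyticAt ℂ (Dt f g fun x => ∑ i, v i * x i) 0 := by
      have : (Dt f g fun x => ∑ i, v i * x i) = fun x =>
          v 0 * mnr f g 1 x + v 1 * mnr f g 2 x + v 2 * mnr f g 3 x := funext fun x => Dt_lin f g v x
      rw [this]
      exact ((analyticAt_const.mul (an_mnr hf hg 1)).add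
        (analyticAt_const.mul (an_mnr hf hg 2))).add (analyticAt_const.mul (an_mnr hf hg 3))
    refine ⟨(colFin3_iff hf hg ha).2 ((hc _).2 fun φ hφ h0 => ?_),
      (colFin3_iff hf hg hD).2 ((hc _).2 fun φ hφ h0 => ?_)⟩
    · refine hv (LinearMap.ker (Lf φ xB)) ?_ ?_
      · rw [Finset.mem_union, List.mem_toFinset, List.mem_map]
        exact Or.inl ⟨φ, hφ, rfl⟩
      · rw [LinearMap.mem_ker, ← h0]
        exact (gm_lin3 v (y := fun i x => x i) (fun i => an_coord i 0) ha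
          (fun x => by rw [Fin.sum_univ_three]) (hl φ hφ).cst).symm
    · refine hv (LinearMap.ker (Lf φ fun i => gm (M i) (hMa i))) ?_ ?_
      · rw [Finset.mem_union, List.mem_toFinset, List.mem_toFinset, List.mem_map, List.mem_map]
        exact Or.inr ⟨φ, hφ, rfl⟩
      · rw [LinearMap.mem_ker, ← h0]
        exact (gm_lin3 v (y := M) hMa hD (fun x => Dt_lin f g v x) (hl φ hφ).cst).symm

/-- **a generic linear form** -/
theorem gen {f g g' : E3 → ℂ} (hf : AnalyticAt ℂ f 0) (hg : AnalyticAt ℂ g 0)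
    (hg' : AnalyticAt ℂ g' 0) (hg0 : g 0 = 0) (hg'0 : g' 0 = 0) (hfin : ColFin ![f, g, g'])
    (hm : ColFin (mnr f g)) (hm' : ColFin (mnr f g')) :
    ∃ v : Fin 3 → ℂ, ColFin ![f, g, fun x => ∑ i, v i * x i] ∧
      ColFin ![f, g', fun x => ∑ i, v i * x i] ∧
      ColFin ![f, g, Dt f g fun x => ∑ i, v i * x i] ∧
      ColFin ![f, g', Dt f g' fun x => ∑ i, v i * x i] := by
  classical
  obtain ⟨T, hT, h1⟩ := good_list hf hg hg' hg'0 hm hfin
  have hfin' : ColFin ![f, g', g] := by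
    rw [colFin3_iff hf hg' hg]
    rw [colFin3_iff hf hg hg'] at hfin
    have : ({(gm f hf : BB 3), gm g' hg', gm g hg} : Set (BB 3)) = {gm f hf, gm g hg, gm g' hg'} := by
      rw [Set.pair_comm]
    rw [this]
    exact hfin
  obtain ⟨T', hT', h2⟩ := good_list hf hg' hg hg0 hm' hfin'
  have h3 : ⊤ ∉ T ∪ T' := by
    rw [Finset.mem_union]; exact not_or.2 ⟨hT, hT'⟩
  obtain ⟨v, hv⟩ := (Set.ne_univ_iff_exists_notMem _).1 (Subspace.biUnion_ne_univ_of_top_notMem h3)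
  have h4 : ∀ W ∈ T ∪ T', v ∉ W := by
    intro W hW hvW
    apply hv
    simp only [Set.mem_iUnion]
    exact ⟨W, hW, hvW⟩
  obtain ⟨a, b⟩ := h1 v fun W hW => h4 W (Finset.mem_union_left _ hW)
  obtain ⟨a', b'⟩ := h2 v fun W hW => h4 W (Finset.mem_union_right _ hW)
  exact ⟨v, a, a', b, b'⟩

end Crest.Agent.R257.Gen_812
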