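import Crest.Agent.R257.LgF_827
import Crest.Agent.R257.Gen1_812

/-!
Row 257 (S0395), leaf B-NUM (helper827; numerical half by helper488), part G: `LGStmt` of
`Defs_219`, literally.
-/

set_option autoImplicit false

open Set Filter Topology
open Crest.AlgGeometry.Germ
open Crest.Agent.R275.Loc2879
open Crest.Agent.R257.UI939 (BB xB)
open Crest.Agent.R257.Num488
open Crest.Agent.R257.Defs_219

noncomputable section

namespace Crest.Agent.R257.LgA_827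

/-- the standard basis -/
abbrev b0 : Bs := Pi.basisFun ℂ (Fin 3)

lemma D_gm {f : E3 → ℂ} (hf : AnalyticAt ℂ f 0) (i : Fin 3) :
    D b0 i (gm f hf) = gm (fun x => gr f x i) (Gen_812.an_gr hf i) := by
  rw [D, dd_gm, gm_eq_gm]
  refine Eventually.of_forall fun x => ?_
  simp only [Pi.basisFun_apply]
  rfl

lemma W_gm {f g : E3 → ℂ} (hf : AnalyticAt ℂ f 0) (hg : AnalyticAt ℂ g 0) (i j : Fin 3)
    {F : E3 → ℂ} (hF : AnalyticAt ℂ F 0) (h : ∀ x, F x = gr f x i * gr g x j - gr f x j * gr g x i) :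
    W b0 (gm f hf) (gm g hg) i j = gm F hF := by
  rw [W, D_gm, D_gm, D_gm, D_gm, gm_mul, gm_mul, gm_sub, gm_eq_gm]
  exact Eventually.of_forall fun x => (h x).symm

lemma an_Dt {f g h : E3 → ℂ} (hf : AnalyticAt ℂ f 0) (hg : AnalyticAt ℂ g 0)
    (hh : AnalyticAt ℂ h 0) : AnalyticAt ℂ (Dt f g h) 0 := by
  have e1 := Gen_812.an_gr hf
  have e2 := Gen_812.an_gr hg
  have e3 := Gen_812.an_gr hh
  have : Dt f g h = fun x => gr f x 0 * gr g x 1 * gr h x 2 - gr f x 0 * gr g x 2 * gr h x 1 -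
      gr f x 1 * gr g x 0 * gr h x 2 + gr f x 1 * gr g x 2 * gr h x 0 +
      gr f x 2 * gr g x 0 * gr h x 1 - gr f x 2 * gr g x 1 * gr h x 0 := by
    funext x
    rw [Dt, Matrix.det_fin_three]
    rfl
  rw [this]
  exact ((((((((e1 0).mul (e2 1)).mul (e3 2)).sub (((e1 0).mul (e2 2)).mul (e3 1))).sub
    (((e1 1).mul (e2 0)).mul (e3 2))).add (((e1 1).mul (e2 2)).mul (e3 0))).add
    (((e1 2).mul (e2 0)).mul (e3 1)))).sub (((e1 2).mul (e2 1)).mul (e3 0))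

lemma Jd_gm {f g h : E3 → ℂ} (hf : AnalyticAt ℂ f 0) (hg : AnalyticAt ℂ g 0)
    (hh : AnalyticAt ℂ h 0) :
    Jd b0 (gm f hf) (gm g hg) (gm h hh) = gm (Dt f g h) (an_Dt hf hg hh) := by
  simp only [Jd, W, D_gm, gm_mul, gm_sub, gm_add]
  rw [gm_eq_gm]
  refine Eventually.of_forall fun x => ?_
  rw [Dt, Matrix.det_fin_three]
  change (gr f x 1 * gr g x 2 - gr f x 2 * gr g x 1) * gr h x 0 -
    (gr f x 0 * gr g x 2 - gr f x 2 * gr g x 0) * gr h x 1 +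
    (gr f x 0 * gr g x 1 - gr f x 1 * gr g x 0) * gr h x 2 =
      gr f x 0 * gr g x 1 * gr h x 2 - gr f x 0 * gr g x 2 * gr h x 1 -
      gr f x 1 * gr g x 0 * gr h x 2 + gr f x 1 * gr g x 2 * gr h x 0 +
      gr f x 2 * gr g x 0 * gr h x 1 - gr f x 2 * gr g x 1 * gr h x 0
  ring

/-- `dl` is the dimension -/
lemma dl_finrank {V : Type*} [AddCommGroup V] [Module ℂ V] (h : dl V ≠ ⊤) :
    dl V = (Module.finrank ℂ V : ℕ∞) := by
  have := finite_of_dl h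
  exact Module.length_eq_finrank ℂ V

theorem col_dl {m : ℕ} {g : Fin m → E3 → ℂ} (hg : ∀ i, AnalyticAt ℂ (g i) 0) {I : Ideal (BB 3)}
    (hI : Ideal.span (Set.range fun j => (gm (g j) (hg j) : BB 3)) = I) :
    (ColFin g ↔ dl (BB 3 ⧸ I) ≠ ⊤) ∧ (dl (BB 3 ⧸ I) ≠ ⊤ → dl (BB 3 ⧸ I) = (col g : ℕ∞)) := by
  subst hI
  refine ⟨Gen_812.colFin_iff_dl hg, fun h => ?_⟩
  rw [dl_finrank h, UI939.col_eq hg, CM_812.Idl_eq_span hg]

lemma an3 {a b c : E3 → ℂ} (ha : AnalyticAt ℂ a 0) (hb : AnalyticAt ℂ b 0)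
    (hc : AnalyticAt ℂ c 0) (i : Fin 3) : AnalyticAt ℂ ((![a, b, c] : Fin 3 → E3 → ℂ) i) 0 := by
  fin_cases i <;> assumption

lemma range3 {a b c : E3 → ℂ} (ha : AnalyticAt ℂ a 0) (hb : AnalyticAt ℂ b 0)
    (hc : AnalyticAt ℂ c 0) :
    Ideal.span (Set.range fun j => (gm ((![a, b, c] : Fin 3 → E3 → ℂ) j) (an3 ha hb hc j) : BB 3)) =
      Ideal.span {(gm a ha : BB 3), gm b hb, gm c hc} := by
  congr 1
  ext y
  constructor
  · rintro ⟨i, rfl⟩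
    fin_cases i
    · exact Or.inl rfl
    · exact Or.inr (Or.inl rfl)
    · exact Or.inr (Or.inr rfl)
  · rintro (rfl | rfl | rfl)
    · exact ⟨0, rfl⟩
    · exact ⟨1, rfl⟩
    · exact ⟨2, rfl⟩

lemma range_par {f : E3 → ℂ} (hf : AnalyticAt ℂ f 0) (hp : ∀ i, AnalyticAt ℂ (par f i) 0) :
    Ideal.span (Set.range fun j => (gm (par f j) (hp j) : BB 3)) = IP b0 (gm f hf) := by
  rw [IP]
  congr 2
  funext j
  rw [D_gm]
  rfl

lemma range_mnr {f g : E3 → ℂ} (hf : AnalyticAt ℂ f 0) (hg : AnalyticAt ℂ g 0) :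
    Ideal.span (Set.range fun j => (gm (mnr f g j) (Gen_812.an_mnr hf hg j) : BB 3)) =
      IW b0 (gm f hf) (gm g hg) := by
  have e0 : (gm (mnr f g 0) (Gen_812.an_mnr hf hg 0) : BB 3) = gm f hf := rfl
  have e1 : (gm (mnr f g 1) (Gen_812.an_mnr hf hg 1) : BB 3) = W b0 (gm f hf) (gm g hg) 1 2 :=
    (W_gm hf hg 1 2 _ fun x => rfl).symm
  have e2 : (gm (mnr f g 2) (Gen_812.an_mnr hf hg 2) : BB 3) = W b0 (gm f hf) (gm g hg) 2 0 :=
    (W_gm hf hg 2 0 _ fun x => rfl).symm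
  have e3 : (gm (mnr f g 3) (Gen_812.an_mnr hf hg 3) : BB 3) = W b0 (gm f hf) (gm g hg) 0 1 :=
    (W_gm hf hg 0 1 _ fun x => rfl).symm
  rw [IW_eq_sup]
  apply le_antisymm
  · rw [Ideal.span_le]
    rintro _ ⟨j, rfl⟩
    fin_cases j
    · change (gm (mnr f g 0) (Gen_812.an_mnr hf hg 0) : BB 3) ∈ _
      rw [e0]; exact Ideal.mem_sup_left (Ideal.subset_span (by simp))
    · change (gm (mnr f g 1) (Gen_812.an_mnr hf hg 1) : BB 3) ∈ _
      rw [e1]; exact Ideal.mem_sup_left (Ideal.subset_span (by simp))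
    · change (gm (mnr f g 2) (Gen_812.an_mnr hf hg 2) : BB 3) ∈ _
      rw [e2]; exact Ideal.mem_sup_right (Ideal.subset_span (by simp))
    · change (gm (mnr f g 3) (Gen_812.an_mnr hf hg 3) : BB 3) ∈ _
      rw [e3]; exact Ideal.mem_sup_left (Ideal.subset_span (by simp))
  · refine sup_le ?_ ?_
    · rw [Ideal.span_le]
      rintro _ (rfl | rfl | rfl)
      · exact Ideal.subset_span ⟨0, rfl⟩
      · rw [← e3]; exact Ideal.subset_span ⟨3, rfl⟩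
      · rw [← e1]; exact Ideal.subset_span ⟨1, rfl⟩
    · rw [Ideal.span_le]
      rintro _ rfl
      rw [← e2]; exact Ideal.subset_span ⟨2, rfl⟩

/-- **Le–Greuel**, literally `Defs_219.LGStmt` -/
theorem lgStmt : LGStmt := by
  intro f g h hf hg hh f0 g0 h0 mu fgh fgJ
  have hp : ∀ i, AnalyticAt ℂ (par f i) 0 := Gen_812.an_gr hf
  obtain ⟨c1, d1⟩ := col_dl hp (range_par hf hp)
  obtain ⟨c2, d2⟩ := col_dl (an3 hf hg hh) (range3 hf hg hh)
  obtain ⟨c3, d3⟩ := col_dl (an3 hf hg (an_Dt hf hg hh)) (range3 hf hg (an_Dt hf hg hh))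
  obtain ⟨c4, d4⟩ := col_dl (Gen_812.an_mnr hf hg) (range_mnr hf hg)
  have fn : ¬ IsUnit (gm f hf : BB 3) := by rw [isUnit_gm]; simpa using f0
  have gn : ¬ IsUnit (gm g hg : BB 3) := by rw [isUnit_gm]; simpa using g0
  have hn : ¬ IsUnit (gm h hh : BB 3) := by rw [isUnit_gm]; simpa using h0
  have m1 := c1.1 mu
  have m2 := c2.1 fgh
  have m3 := c3.1 fgJ
  obtain ⟨r1, r2⟩ := lg_alg b0 fn gn hn m1 m2 (by rw [Jd_gm]; exact m3)
  refine ⟨c4.2 r1, ?_⟩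
  rw [Jd_gm] at r2
  unfold T at r2
  rw [d1 m1, d2 m2, d3 m3, d4 r1] at r2
  exact_mod_cast r2

end Crest.Agent.R257.LgA_827
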