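import Crest.Agent.R257.Hom_835

/-!
# R257 (S0395), Part E (helper835): uniform bounds of the gradient of the homogeneous equations

* `GD n d mu`   : the global data (output of E-GLOB);
* `GD.X t s`    : the surface `S_(t,s)`, `GD.cl`;
* `GD.upper`    : `ng Z ≤ C |Z|^(2(d-1))`;
* `GD.lower`    : `c (|x|²/|Z|²)^mu ≤ ng Z / |Z|^(2(d-1))` on `S_(t,s)`.
-/

set_option autoImplicit false
set_option linter.unusedSectionVars false

open Set Filter Topology Complex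
open scoped ContDiff Matrix ComplexConjugate Manifold

namespace Crest.Agent.R257.Unif_835

open Crest.Agent.R257.PN_835 Crest.Agent.R257.Gram_835 Crest.Agent.R257.Hyp_835
open Crest.Agent.R257.KE_835 Crest.Agent.R257.Aff_835 Crest.Agent.R257.Hom_835

noncomputable section

/-- global data: `G(x,t) = eval x (P t) + ∑ c_i x_i^d` -/
structure GD (n d mu : ℕ) where
  P : ℂ → MvPolynomial (Fin (n + 1)) ℂ
  c : AC n
  R : ℝ
  R_pos : 0 < R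
  deg : ∀ t, ‖t‖ < R → (P t).totalDegree < d
  ana : ∀ m, DifferentiableOn ℂ (fun t => (P t).coeff m) (Metric.ball 0 R)
  c_ne : ∀ i, c i ≠ 0
  zero : ∀ t, ‖t‖ < R → Gf d (P t) c 0 = 0
  low : ∃ c0 > 0, ∀ t, ‖t‖ < R → ∀ x : AC n, ‖x‖ < R →
    c0 * ‖x‖ ^ mu ≤ ‖fderiv ℂ (Gf d (P t) c) x‖
  ns0 : ∀ x, x ≠ 0 → Gf d (P 0) c x = 0 → fderiv ℂ (Gf d (P 0) c) x ≠ 0
  ns : ∀ t s, ‖t‖ < R → 0 < ‖s‖ → ‖s‖ < R → ∀ x, Gf d (P t) c x = s →
    fderiv ℂ (Gf d (P t) c) x ≠ 0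

variable {n d mu : ℕ} (D : GD n d mu)

/-- the affine function -/
def GD.G (t : ℂ) : AC n → ℂ := Gf d (D.P t) D.c

/-- the surface `S_(t,s)` -/
def GD.X {t s : ℂ} (ht : ‖t‖ < D.R) (hs : 0 < ‖s‖ ∧ ‖s‖ < D.R) : Hyp n d :=
  hyp (D.deg t ht) D.c_ne (D.ns t s ht hs.1 hs.2)

theorem GD.cl {t s : ℂ} (ht : ‖t‖ < D.R) (hs : 0 < ‖s‖ ∧ ‖s‖ < D.R) : Cl (D.X ht hs) (D.G t) s :=
  HH_hc (D.deg t ht)

/-- the homogeneous equation -/
def GD.H (τ : ℂ × ℂ) (Z : HC (n + 1)) : ℂ := HH d (D.P τ.1) D.c τ.2 Z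

theorem GD.X_H {t s : ℂ} (ht : ‖t‖ < D.R) (hs : 0 < ‖s‖ ∧ ‖s‖ < D.R) :
    (D.X ht hs).H = D.H (t, s) := rfl

/-- the domain of the parameters -/
def GD.dom : Set ((ℂ × ℂ) × HC (n + 1)) := {p | ‖p.1.1‖ < D.R}

theorem GD.isOpen_dom : IsOpen D.dom :=
  isOpen_lt (continuous_norm.comp (continuous_fst.comp continuous_fst)) continuous_const

theorem GD.diffOn_H : DifferentiableOn ℂ (fun p : (ℂ × ℂ) × HC (n + 1) => D.H p.1 p.2) D.dom := by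
  have h1 : ∀ e : Fin (n + 1) → Fin d, DifferentiableOn ℂ
      (fun p : (ℂ × ℂ) × HC (n + 1) => cf (D.P p.1.1) e) D.dom := by
    intro e
    refine (D.ana (ex e)).comp (differentiable_fst.comp differentiable_fst).differentiableOn
      fun p hp => ?_
    rw [mem_ball_zero_iff]
    exact hp
  unfold GD.H HH hmP
  refine ((DifferentiableOn.fun_sum fun e _ => (h1 e).mul ?_).add ?_).sub ?_
  · exact Differentiable.differentiableOn (by fun_prop)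
  · exact Differentiable.differentiableOn (by fun_prop)
  · exact Differentiable.differentiableOn (by fun_prop)

/-- the derivative in `Z` -/
theorem GD.fderiv_H {τ : ℂ × ℂ} (hτ : ‖τ.1‖ < D.R) (Z W : HC (n + 1)) :
    fderiv ℂ (D.H τ) Z W =
      fderiv ℂ (fun p : (ℂ × ℂ) × HC (n + 1) => D.H p.1 p.2) (τ, Z) (0, W) := by
  have h1 : HasFDerivAt (fun Z : HC (n + 1) => (τ, Z))
      (ContinuousLinearMap.inr ℂ (ℂ × ℂ) (HC (n + 1))) Z := hasFDerivAt_prodMk_right τ Z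
  have h2 : HasFDerivAt (fun p : (ℂ × ℂ) × HC (n + 1) => D.H p.1 p.2)
      (fderiv ℂ (fun p : (ℂ × ℂ) × HC (n + 1) => D.H p.1 p.2) (τ, Z)) (τ, Z) :=
    (D.diffOn_H.differentiableAt (D.isOpen_dom.mem_nhds hτ)).hasFDerivAt
  have h3 := HasFDerivAt.comp (g := fun p : (ℂ × ℂ) × HC (n + 1) => D.H p.1 p.2) Z h2 h1
  have h4 : fderiv ℂ (D.H τ) Z = _ := HasFDerivAt.fderiv (f := D.H τ) h3
  rw [h4]
  rfl

theorem GD.continuousOn_dH (W : HC (n + 1)) :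
    ContinuousOn (fun p : (ℂ × ℂ) × HC (n + 1) => fderiv ℂ (D.H p.1) p.2 W) D.dom := by
  have h1 : ContinuousOn (fun p : (ℂ × ℂ) × HC (n + 1) =>
      fderiv ℂ (fun p : (ℂ × ℂ) × HC (n + 1) => D.H p.1 p.2) p (0, W)) D.dom := by
    have h2 := (Crest.Agent.R266.SCV.analyticOnNhd_of_differentiableOn D.isOpen_dom
      D.diffOn_H).fderiv.continuousOn
    exact h2.clm_apply continuousOn_const
  refine h1.congr fun p hp => ?_
  exact D.fderiv_H hp p.2 W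

/-- squared norm of the gradient -/
def GD.ng (τ : ℂ × ℂ) (Z : HC (n + 1)) : ℝ := ∑ k, ‖fderiv ℂ (D.H τ) Z (Pi.single k 1)‖ ^ 2

theorem GD.X_ng {t s : ℂ} (ht : ‖t‖ < D.R) (hs : 0 < ‖s‖ ∧ ‖s‖ < D.R) :
    (D.X ht hs).ng = D.ng (t, s) := rfl

theorem GD.continuousOn_ng :
    ContinuousOn (fun p : (ℂ × ℂ) × HC (n + 1) => D.ng p.1 p.2) D.dom :=
  continuousOn_finsetSum _ fun k _ => ((D.continuousOn_dH _).norm).pow 2

theorem GD.continuousOn_H :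
    ContinuousOn (fun p : (ℂ × ℂ) × HC (n + 1) => D.H p.1 p.2) D.dom := D.diffOn_H.continuousOn

/-- homogeneity -/
theorem GD.ng_smul {τ : ℂ × ℂ} (hτ : ‖τ.1‖ < D.R) {a : ℂ} (ha : a ≠ 0) (Z : HC (n + 1)) :
    D.ng τ (a • Z) = (‖a‖ ^ 2) ^ (d - 1) * D.ng τ Z := by
  have hd : 0 < d := by have := D.deg τ.1 hτ; omega
  have h1 : ∀ k, a * fderiv ℂ (D.H τ) (a • Z) (Pi.single k 1) =
      a ^ d * fderiv ℂ (D.H τ) Z (Pi.single k 1) := fun k =>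
    congrArg (fun T : HC (n + 1) →L[ℂ] ℂ => T (Pi.single k 1))
      (fderiv_smul (c := D.c) (s := τ.2) (D.deg τ.1 hτ) a Z)
  have h2 : ‖a‖ ^ 2 * D.ng τ (a • Z) = ‖a‖ ^ 2 * ((‖a‖ ^ 2) ^ (d - 1) * D.ng τ Z) := by
    rw [← mul_assoc, ← pow_succ', Nat.sub_add_cancel hd]
    unfold GD.ng
    rw [Finset.mul_sum, Finset.mul_sum]
    refine Finset.sum_congr rfl fun k _ => ?_
    rw [← mul_pow, ← norm_mul, h1, norm_mul, norm_pow, mul_pow]
    ring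
  exact mul_left_cancel₀ (by positivity) h2

/-! ### compactness -/

/-- affine part -/
def tl (Z : HC (n + 1)) : AC n := fun k => Z k.succ

theorem nsq_eq (Z : HC (n + 1)) : nsq Z = ‖Z 0‖ ^ 2 + nsq (tl Z) := by
  unfold nsq
  rw [Fin.sum_univ_succ]
  rfl

theorem continuous_tl : Continuous (tl (n := n)) := continuous_pi fun k => continuous_apply _

theorem tl_smul (a : ℂ) (Z : HC (n + 1)) : tl (a • Z) = a • tl Z := rfl

/-- unit representatives -/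
theorem exists_unit {Z : HC (n + 1)} (hZ : Z ≠ 0) : ∃ (a : ℂ) (Z' : HC (n + 1)), a ≠ 0 ∧
    nsq Z' = 1 ∧ Z = a • Z' := by
  have h0 := nsq_pos hZ
  have h1 : ((Real.sqrt (nsq Z) : ℝ) : ℂ) ≠ 0 := by
    rw [Ne, ofReal_eq_zero]
    positivity
  refine ⟨(Real.sqrt (nsq Z) : ℝ), ((Real.sqrt (nsq Z) : ℝ) : ℂ)⁻¹ • Z, h1, ?_, ?_⟩
  · rw [nsq_smul, norm_inv, Complex.norm_real, Real.norm_eq_abs, inv_pow, sq_abs,
      Real.sq_sqrt h0.le]
    exact inv_mul_cancel₀ h0.ne'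
  · rw [smul_smul, mul_inv_cancel₀ h1, one_smul]

/-- upper bound of the gradient -/
theorem GD.upper : ∃ C : ℝ, 0 < C ∧ ∀ t s : ℂ, ‖t‖ ≤ D.R / 2 → ‖s‖ ≤ D.R → ∀ Z : HC (n + 1),
    Z ≠ 0 → D.ng (t, s) Z ≤ C * nsq Z ^ (d - 1) := by
  have hR := D.R_pos
  set K : Set ((ℂ × ℂ) × HC (n + 1)) :=
    (Metric.closedBall (0 : ℂ) (D.R / 2) ×ˢ Metric.closedBall (0 : ℂ) D.R) ×ˢ {Z | nsq Z = 1}
    with hK
  have hKc : IsCompact K :=
    ((isCompact_closedBall _ _).prod (isCompact_closedBall _ _)).prod (isCompact_nsq_eq 1)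
  have hKd : K ⊆ D.dom := by
    rintro p ⟨⟨h1, -⟩, -⟩
    rw [mem_closedBall_zero_iff] at h1
    show ‖p.1.1‖ < D.R
    linarith
  obtain ⟨C, hC⟩ := hKc.exists_bound_of_continuousOn (D.continuousOn_ng.mono hKd)
  refine ⟨max C 1, by positivity, fun t s ht hs Z hZ => ?_⟩
  have htR : ‖t‖ < D.R := by linarith
  obtain ⟨a, Z', ha, h1, h2⟩ := exists_unit hZ
  have h3 : D.ng (t, s) Z = (‖a‖ ^ 2) ^ (d - 1) * D.ng (t, s) Z' := by
    rw [h2]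
    exact D.ng_smul htR ha Z'
  have h4 : nsq Z = ‖a‖ ^ 2 := by rw [h2, nsq_smul, h1, mul_one]
  have h5 := hC ((t, s), Z') ⟨⟨mem_closedBall_zero_iff.2 ht, mem_closedBall_zero_iff.2 hs⟩, h1⟩
  rw [h3, h4, mul_comm]
  exact mul_le_mul_of_nonneg_right ((le_abs_self _).trans (h5.trans (le_max_left _ _)))
    (by positivity)

/-- norms -/
theorem norm_sq_le_nsq {m : ℕ} (x : Fin m → ℂ) : ‖x‖ ^ 2 ≤ nsq x := by
  have h0 := nsq_nonneg x
  have h1 : ‖x‖ ≤ Real.sqrt (nsq x) := by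
    refine (pi_norm_le_iff_of_nonneg (Real.sqrt_nonneg _)).2 fun k => ?_
    exact Real.le_sqrt_of_sq_le (sq_le_nsq x k)
  calc ‖x‖ ^ 2 ≤ Real.sqrt (nsq x) ^ 2 := pow_le_pow_left₀ (norm_nonneg _) h1 2
    _ = nsq x := Real.sq_sqrt h0

theorem nsq_le_norm_sq {m : ℕ} (x : Fin m → ℂ) : nsq x ≤ m * ‖x‖ ^ 2 := by
  unfold nsq
  have h1 : ∀ k ∈ (Finset.univ : Finset (Fin m)), ‖x k‖ ^ 2 ≤ ‖x‖ ^ 2 := fun k _ =>
    pow_le_pow_left₀ (norm_nonneg _) (norm_le_pi_norm x k) 2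
  have h2 := Finset.sum_le_card_nsmul _ _ _ h1
  simpa using h2

/-- the operator norm and the gradient -/
theorem norm_fderiv_sq_le (g : AC n → ℂ) (x : AC n) :
    ‖fderiv ℂ g x‖ ^ 2 ≤ (n + 1) * nga g x := by
  have h0 : 0 ≤ nga g x := nsq_nonneg _
  have h1 : ‖fderiv ℂ g x‖ ≤ Real.sqrt ((n + 1) * nga g x) := by
    refine ContinuousLinearMap.opNorm_le_bound _ (Real.sqrt_nonneg _) fun w => ?_
    rw [← prg_gra]
    unfold prg
    have h2 : ‖∑ k, gra g x k * w k‖ ≤ ∑ k, ‖gra g x k‖ * ‖w k‖ :=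
      (norm_sum_le _ _).trans (le_of_eq (Finset.sum_congr rfl fun k _ => norm_mul _ _))
    have h3 : (∑ k, ‖gra g x k‖ * ‖w k‖) ^ 2 ≤ (∑ k, ‖gra g x k‖ ^ 2) * ∑ k, ‖w k‖ ^ 2 :=
      Finset.sum_mul_sq_le_sq_mul_sq _ _ _
    have h4 : (∑ k, ‖gra g x k‖ * ‖w k‖) ≤ Real.sqrt (nga g x * nsq w) :=
      Real.le_sqrt_of_sq_le h3
    refine h2.trans (h4.trans ?_)
    rw [← Real.sqrt_sq (norm_nonneg w), ← Real.sqrt_mul (by positivity)]
    apply Real.sqrt_le_sqrt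
    have h5 := nsq_le_norm_sq w
    push_cast at h5
    nlinarith
  calc ‖fderiv ℂ g x‖ ^ 2 ≤ Real.sqrt ((n + 1) * nga g x) ^ 2 :=
        pow_le_pow_left₀ (norm_nonneg _) h1 2
    _ = _ := Real.sq_sqrt (by positivity)

/-- affine and homogeneous gradients -/
theorem GD.nga_le {t : ℂ} (ht : ‖t‖ < D.R) (s : ℂ) (x : AC n) :
    nga (D.G t) x ≤ D.ng (t, s) (hc x) := by
  have h1 : ∀ k, gra (D.G t) x k = fderiv ℂ (D.H (t, s)) (hc x) (Pi.single k.succ 1) := by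
    intro k
    show fderiv ℂ (Gf d (D.P t) D.c) x (Pi.single k 1) = _
    rw [(hasFDerivAt_Gf (s := s) (D.deg t ht) x).fderiv]
    show fderiv ℂ (HH d (D.P t) D.c s) (hc x) (hvL n (Pi.single k 1)) = _
    rw [hvL_apply]
    congr 1
    funext j
    refine Fin.cases ?_ (fun j => ?_) j
    · rw [hv_zero, Pi.single_eq_of_ne (Fin.succ_ne_zero k).symm]
    · rw [hv_succ]
      by_cases hj : j = k
      · subst hj
        rw [Pi.single_eq_same, Pi.single_eq_same]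
      · rw [Pi.single_eq_of_ne hj, Pi.single_eq_of_ne (by simpa using hj)]
  have h2 : 0 ≤ ‖fderiv ℂ (D.H (t, s)) (hc x) (Pi.single 0 1)‖ ^ 2 := by positivity
  have h3 : nga (D.G t) x =
      ∑ k : Fin (n + 1), ‖fderiv ℂ (D.H (t, s)) (hc x) (Pi.single k.succ 1)‖ ^ 2 := by
    simp only [nga, nsq, h1]
  have h4 : D.ng (t, s) (hc x) = ‖fderiv ℂ (D.H (t, s)) (hc x) (Pi.single 0 1)‖ ^ 2 +
      ∑ k : Fin (n + 1), ‖fderiv ℂ (D.H (t, s)) (hc x) (Pi.single k.succ 1)‖ ^ 2 :=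
    Fin.sum_univ_succ _
  rw [h3, h4]
  linarith

/-- nonsingular off the origin at `(0,0)` -/
theorem GD.ng_pos {Z : HC (n + 1)} (hZ : tl Z ≠ 0) (h0 : D.H (0, 0) Z = 0) :
    0 < D.ng (0, 0) Z := by
  have hR : ‖((0 : ℂ))‖ < D.R := by rw [norm_zero]; exact D.R_pos
  have hdeg := D.deg 0 hR
  by_cases hZ0 : Z 0 = 0
  · obtain ⟨k, hk⟩ := Function.ne_iff.1 hZ
    have hk' : Z k.succ ≠ 0 := hk
    have h2 : fderiv ℂ (D.H (0, 0)) Z (Pi.single k.succ 1) = D.c k * (d * Z k.succ ^ (d - 1)) :=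
      fderiv_inf (c := D.c) (s := 0) hdeg hZ0 k
    have h3 : D.c k * (d * Z k.succ ^ (d - 1)) ≠ 0 :=
      mul_ne_zero (D.c_ne k) (mul_ne_zero (by exact_mod_cast (by omega : d ≠ 0))
        (pow_ne_zero _ hk'))
    have h4 : 0 < ‖fderiv ℂ (D.H (0, 0)) Z (Pi.single k.succ 1)‖ ^ 2 := by
      rw [h2]
      have := norm_pos_iff.2 h3
      positivity
    exact h4.trans_le (Finset.single_le_sum
      (f := fun k => ‖fderiv ℂ (D.H (0, 0)) Z (Pi.single k 1)‖ ^ 2) (fun _ _ => sq_nonneg _)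
      (Finset.mem_univ k.succ))
  · set x : AC n := fun k => Z (Fin.succ k) / Z 0 with hx
    have hZx : Z = Z 0 • hc x := eq_smul_hc hZ0
    have h1 : Gf d (D.P 0) D.c x = 0 := by
      have h2 : HH d (D.P 0) D.c 0 (Z 0 • hc x) = 0 := by rw [← hZx]; exact h0
      rw [HH_smul hdeg, HH_hc hdeg, sub_zero] at h2
      exact (mul_eq_zero.1 h2).resolve_left (pow_ne_zero _ hZ0)
    have hx0 : x ≠ 0 := by
      intro h
      apply hZ
      funext k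
      have h2 := congrFun h k
      exact (div_eq_zero_iff.1 h2).resolve_right hZ0
    have h2 := D.ns0 x hx0 h1
    have h3 : 0 < nga (D.G 0) x := nga_pos h2
    have h4 := D.nga_le hR 0 x
    have h5 : D.ng (0, 0) Z = (‖Z 0‖ ^ 2) ^ (d - 1) * D.ng (0, 0) (hc x) := by
      conv_lhs => rw [hZx]
      exact D.ng_smul (τ := (0, 0)) hR hZ0 (hc x)
    rw [h5]
    have h6 : 0 < ‖Z 0‖ := norm_pos_iff.2 hZ0
    have h7 : 0 < D.ng (0, 0) (hc x) := h3.trans_le h4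
    positivity

/-- lower bound near the point -/
theorem GD.lower_near : ∃ c2 > 0, ∃ ρ > 0, ∀ t s : ℂ, ‖t‖ < D.R → ∀ Z : HC (n + 1), nsq Z = 1 →
    nsq (tl Z) < ρ ^ 2 * ‖Z 0‖ ^ 2 → c2 * nsq (tl Z) ^ mu ≤ D.ng (t, s) Z := by
  obtain ⟨c0, hc0, hlow⟩ := D.low
  have hR := D.R_pos
  set ρ : ℝ := D.R / 2 with hρ
  have hρ0 : 0 < ρ := by positivity
  set c4 : ℝ := c0 ^ 2 * (1 / (n + 1)) * (1 / (n + 1)) ^ mu with hc4
  have hc40 : 0 < c4 := by positivity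
  refine ⟨(1 / (1 + ρ ^ 2)) ^ (d - 1) * c4, by positivity, ρ, hρ0, fun t s ht Z hZ hlt => ?_⟩
  have hZ0 : Z 0 ≠ 0 := by
    intro h
    rw [h] at hlt
    have := nsq_nonneg (tl Z)
    simp at hlt
    linarith
  have hz : 0 < ‖Z 0‖ := norm_pos_iff.2 hZ0
  obtain ⟨x, hx⟩ : ∃ x : AC n, x = fun k => Z (Fin.succ k) / Z 0 := ⟨_, rfl⟩
  have hZx : Z = Z 0 • hc x := by rw [hx]; exact eq_smul_hc hZ0
  have h1 : nsq (tl Z) = ‖Z 0‖ ^ 2 * nsq x := by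
    have h2 : tl Z = Z 0 • x := by
      funext k
      rw [hx]
      show Z k.succ = Z 0 * (Z k.succ / Z 0)
      rw [mul_div_cancel₀ _ hZ0]
    rw [h2, nsq_smul]
  have h2 : nsq x < ρ ^ 2 := by
    rw [h1] at hlt
    have : 0 < ‖Z 0‖ ^ 2 := by positivity
    nlinarith
  have h3 : ‖x‖ < D.R := by
    have h4 := norm_sq_le_nsq x
    have h5 : ‖x‖ ^ 2 < ρ ^ 2 := by linarith
    have h6 := lt_of_pow_lt_pow_left₀ 2 hρ0.le h5
    linarith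
  have h9 : c4 * nsq x ^ mu ≤ nga (D.G t) x := by
    have h4 := hlow t ht x h3
    have h5 := norm_fderiv_sq_le (D.G t) x
    have h6 : (c0 * ‖x‖ ^ mu) ^ 2 ≤ (n + 1) * nga (D.G t) x :=
      (pow_le_pow_left₀ (by positivity) h4 2).trans h5
    have h7 : nsq x ^ mu ≤ (n + 1) ^ mu * (‖x‖ ^ mu) ^ 2 := by
      have h8 := nsq_le_norm_sq x
      push_cast at h8
      calc nsq x ^ mu ≤ ((n + 1) * ‖x‖ ^ 2) ^ mu := pow_le_pow_left₀ (nsq_nonneg x) h8 mu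
        _ = _ := by rw [mul_pow]; ring
    have hn : (0 : ℝ) < n + 1 := by positivity
    have h10 : (1 / ((n : ℝ) + 1)) ^ mu * nsq x ^ mu ≤ (‖x‖ ^ mu) ^ 2 := by
      rw [one_div, inv_pow, inv_mul_le_iff₀ (by positivity)]
      exact h7
    calc c4 * nsq x ^ mu
        = c0 ^ 2 * (1 / (n + 1)) * ((1 / ((n : ℝ) + 1)) ^ mu * nsq x ^ mu) := by rw [hc4]; ring
      _ ≤ c0 ^ 2 * (1 / (n + 1)) * (‖x‖ ^ mu) ^ 2 :=
          mul_le_mul_of_nonneg_left h10 (by positivity)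
      _ = (1 / (n + 1)) * (c0 * ‖x‖ ^ mu) ^ 2 := by ring
      _ ≤ (1 / (n + 1)) * ((n + 1) * nga (D.G t) x) :=
          mul_le_mul_of_nonneg_left h6 (by positivity)
      _ = nga (D.G t) x := by field_simp
  have h11 := D.nga_le ht s x
  have h12 : D.ng (t, s) Z = (‖Z 0‖ ^ 2) ^ (d - 1) * D.ng (t, s) (hc x) := by
    conv_lhs => rw [hZx]
    exact D.ng_smul (τ := (t, s)) ht hZ0 (hc x)
  have h13 : 1 / (1 + ρ ^ 2) ≤ ‖Z 0‖ ^ 2 := by
    rw [div_le_iff₀ (by positivity)]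
    rw [nsq_eq] at hZ
    nlinarith
  have h14 : ‖Z 0‖ ^ 2 ≤ 1 := by
    rw [nsq_eq] at hZ
    have := nsq_nonneg (tl Z)
    linarith
  have h15 : nsq (tl Z) ≤ nsq x := by
    rw [h1]
    have := nsq_nonneg x
    nlinarith
  have h16 : 0 ≤ nsq (tl Z) ^ mu := pow_nonneg (nsq_nonneg _) _
  have h17 : nsq (tl Z) ^ mu ≤ nsq x ^ mu := pow_le_pow_left₀ (nsq_nonneg _) h15 _
  have h18 : (1 / (1 + ρ ^ 2)) ^ (d - 1) ≤ (‖Z 0‖ ^ 2) ^ (d - 1) :=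
    pow_le_pow_left₀ (by positivity) h13 _
  have h19 : c4 * nsq (tl Z) ^ mu ≤ D.ng (t, s) (hc x) :=
    (mul_le_mul_of_nonneg_left h17 hc40.le).trans (h9.trans h11)
  rw [h12, mul_assoc]
  exact mul_le_mul h18 h19 (by positivity) (by positivity)

/-- lower bound away from the point -/
theorem GD.lower_far {ρ : ℝ} (hρ0 : 0 < ρ) : ∃ c3 > 0, ∃ e > 0, ∀ t s : ℂ, ‖t‖ < e → ‖s‖ < e →
    ∀ Z : HC (n + 1), nsq Z = 1 → ρ ^ 2 * ‖Z 0‖ ^ 2 ≤ nsq (tl Z) → D.H (t, s) Z = 0 →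
      c3 ≤ D.ng (t, s) Z := by
  have hR := D.R_pos
  set K : Set (HC (n + 1)) := {Z | nsq Z = 1} ∩ {Z | ρ ^ 2 * ‖Z 0‖ ^ 2 ≤ nsq (tl Z)} with hK
  have hKc : IsCompact K := by
    refine (isCompact_nsq_eq 1).inter_right (isClosed_le ?_ ?_)
    · exact continuous_const.mul ((continuous_apply 0).norm.pow 2)
    · exact continuous_nsq.comp continuous_tl
  have hKtl : ∀ Z ∈ K, tl Z ≠ 0 := by
    rintro Z ⟨h1, h2⟩ h3
    have h4 : nsq (tl Z) = 0 := by rw [h3]; simp [nsq]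
    have h5 : ρ ^ 2 * ‖Z 0‖ ^ 2 ≤ 0 := by rw [← h4]; exact h2
    have h1' : nsq Z = 1 := h1
    rw [nsq_eq, h4] at h1'
    have h6 : 0 < ρ ^ 2 := by positivity
    nlinarith
  obtain ⟨f, hf⟩ : ∃ f : (ℂ × ℂ) → HC (n + 1) → ℝ, ∀ τ Z, f τ Z = ‖D.H τ Z‖ + D.ng τ Z :=
    ⟨fun τ Z => ‖D.H τ Z‖ + D.ng τ Z, fun _ _ => rfl⟩
  have hfc : ContinuousOn (fun p : (ℂ × ℂ) × HC (n + 1) => f p.1 p.2) D.dom := by
    simp only [hf]
    exact D.continuousOn_H.norm.add D.continuousOn_ng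
  have hR0 : ∀ Z : HC (n + 1), (((0 : ℂ), (0 : ℂ)), Z) ∈ D.dom := by
    intro Z
    show ‖(0 : ℂ)‖ < D.R
    rw [norm_zero]
    exact hR
  have hf0 : ∀ Z ∈ K, 0 < f (0, 0) Z := by
    intro Z hZ
    rw [hf]
    by_cases h : D.H (0, 0) Z = 0
    · have := D.ng_pos (hKtl Z hZ) h
      have h2 : 0 ≤ ‖D.H (0, 0) Z‖ := norm_nonneg _
      linarith
    · have h1 : 0 < ‖D.H (0, 0) Z‖ := norm_pos_iff.2 h
      have h2 : 0 ≤ D.ng (0, 0) Z := Finset.sum_nonneg fun _ _ => sq_nonneg _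
      linarith
  have hfK : ContinuousOn (f (0, 0)) K := by
    have h1 : Continuous (fun Z : HC (n + 1) => (((0 : ℂ), (0 : ℂ)), Z)) := by fun_prop
    exact hfc.comp h1.continuousOn fun Z _ => hR0 Z
  obtain ⟨c3, hc3, hcK⟩ := hKc.exists_forall_le' hfK (a := 0) hf0
  have hev : ∀ᶠ τ in 𝓝 ((0 : ℂ), (0 : ℂ)), ∀ Z ∈ K, c3 / 2 < f τ Z := by
    refine hKc.eventually_forall_of_forall_eventually fun Z hZ => ?_
    have h1 : ContinuousAt (fun p : (ℂ × ℂ) × HC (n + 1) => f p.1 p.2) ((0, 0), Z) :=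
      hfc.continuousAt (D.isOpen_dom.mem_nhds (hR0 Z))
    refine h1.eventually (lt_mem_nhds ?_)
    have := hcK Z hZ
    show c3 / 2 < f (0, 0) Z
    linarith
  rw [Metric.eventually_nhds_iff] at hev
  obtain ⟨e, he, hev⟩ := hev
  refine ⟨c3 / 2, by positivity, e, he, fun t s ht hs Z hZ hcase hHZ => ?_⟩
  have h1 : dist (t, s) ((0 : ℂ), (0 : ℂ)) < e := by
    rw [dist_eq_norm, Prod.norm_def]
    simp only [Prod.fst_sub, Prod.snd_sub, sub_zero]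
    exact max_lt ht hs
  have h2 := hev h1 Z ⟨hZ, hcase⟩
  rw [hf, hHZ, norm_zero, zero_add] at h2
  exact h2.le

/-- **lower bound of the gradient** -/
theorem GD.lower : ∃ c1 > 0, ∃ e > 0, e ≤ D.R ∧ ∀ t s : ℂ, ‖t‖ < e → ‖s‖ < e →
    ∀ Z : HC (n + 1), nsq Z = 1 → D.H (t, s) Z = 0 → c1 * nsq (tl Z) ^ mu ≤ D.ng (t, s) Z := by
  obtain ⟨c2, hc2, ρ, hρ, near⟩ := D.lower_near
  obtain ⟨c3, hc3, e, he, far⟩ := D.lower_far hρ
  have hR := D.R_pos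
  refine ⟨min c2 c3, lt_min hc2 hc3, min e D.R, lt_min he hR, min_le_right _ _,
    fun t s ht hs Z hZ hHZ => ?_⟩
  have hnn : 0 ≤ nsq (tl Z) ^ mu := pow_nonneg (nsq_nonneg _) _
  by_cases hcase : nsq (tl Z) < ρ ^ 2 * ‖Z 0‖ ^ 2
  · have h1 := near t s (ht.trans_le (min_le_right _ _)) Z hZ hcase
    have h2 : min c2 c3 * nsq (tl Z) ^ mu ≤ c2 * nsq (tl Z) ^ mu :=
      mul_le_mul_of_nonneg_right (min_le_left _ _) hnn
    exact h2.trans h1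
  · push Not at hcase
    have h2 := far t s (ht.trans_le (min_le_left _ _)) (hs.trans_le (min_le_left _ _)) Z hZ hcase
      hHZ
    have h4 : nsq (tl Z) ^ mu ≤ 1 := by
      refine pow_le_one₀ (nsq_nonneg _) ?_
      rw [nsq_eq] at hZ
      have : 0 ≤ ‖Z 0‖ ^ 2 := by positivity
      linarith
    have h5 : min c2 c3 * nsq (tl Z) ^ mu ≤ c3 * 1 :=
      mul_le_mul (min_le_right _ _) h4 hnn hc3.le
    linarith

end

end Crest.Agent.R257.Unif_835
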