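import Crest.Agent.R257.Defs_219
import Crest.Agent.R257.Unif_835

/-!
# R257 (S0395), Part E (helper835): the global data of a family `GFam` (output of E-GLOB)
-/

set_option autoImplicit false
set_option linter.unusedSectionVars false

open Set Filter Topology Complex
open Crest.AlgGeometry.Germ

namespace Crest.Agent.R257.GDof_835

open Crest.Agent.R257.Defs_219
open Crest.Agent.R257.PN_835 Crest.Agent.R257.Aff_835 Crest.Agent.R257.Hom_835
open Crest.Agent.R257.Unif_835

noncomputable section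

variable {G : E3 × ℂ → ℂ} {μ d : ℕ} {R r c₀ e : ℝ} {P : ℂ → MvPolynomial (Fin 3) ℂ}
  {c : Fin 3 → ℂ}

theorem gr_eq (f : E3 → ℂ) (x : E3) (i : Fin 3) : gr f x i = fderiv ℂ f x (Pi.single i 1) := rfl

theorem norm_gr_le (f : E3 → ℂ) (x : E3) : ‖gr f x‖ ≤ ‖fderiv ℂ f x‖ := by
  refine (pi_norm_le_iff_of_nonneg (norm_nonneg _)).2 fun i => ?_
  rw [gr_eq]
  refine (ContinuousLinearMap.le_opNorm _ _).trans ?_
  have h1 : ‖(Pi.single i 1 : E3)‖ ≤ 1 := by
    refine (pi_norm_le_iff_of_nonneg zero_le_one).2 fun j => ?_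
    by_cases h : j = i
    · subst h
      rw [Pi.single_eq_same, norm_one]
    · rw [Pi.single_eq_of_ne h, norm_zero]
      exact zero_le_one
  calc _ ≤ ‖fderiv ℂ f x‖ * 1 := mul_le_mul_of_nonneg_left h1 (norm_nonneg _)
    _ = _ := mul_one _

theorem fderiv_ne {f : E3 → ℂ} {x : E3} (h : gr f x ≠ 0) : fderiv ℂ f x ≠ 0 := by
  intro h0
  apply h
  funext i
  rw [gr_eq, h0]
  rfl

theorem sl_eq (h : GFam G μ d R r c₀ e P c) (t : ℂ) : sl G t = Gf d (P t) c := by
  funext x
  exact h.form x t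

/-- **the global data** -/
def gd (h : GFam G μ d R r c₀ e P c) : GD 2 d μ where
  P := P
  c := c
  R := min R (min r e)
  R_pos := lt_min h.R_pos (lt_min h.r_pos h.e_pos)
  deg t _ := h.deg t
  ana m := (h.coeff m).differentiableOn.mono (Metric.ball_subset_ball (min_le_left _ _))
  c_ne := h.c_ne
  zero t ht := by
    rw [← sl_eq h]
    exact h.zero t (ht.trans_le (min_le_left _ _))
  low := ⟨c₀, h.c₀_pos, fun t ht x hx => by
    rw [← sl_eq h]
    exact (h.lower x t (hx.trans_le ((min_le_right _ _).trans (min_le_left _ _)))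
      (ht.trans_le (min_le_left _ _))).trans (norm_gr_le _ _)⟩
  ns0 x hx h0 := by
    rw [← sl_eq h] at h0 ⊢
    exact fderiv_ne (h.smooth0 x hx h0)
  ns t s ht hs0 hs x hx := by
    rw [← sl_eq h] at hx ⊢
    have hx' : G (x, t) = s := hx
    refine fderiv_ne (h.smooth x t (ht.trans_le ((min_le_right _ _).trans (min_le_right _ _))) ?_ ?_)
    · rw [hx']
      exact norm_pos_iff.1 hs0
    · rw [hx']
      exact hs.trans_le ((min_le_right _ _).trans (min_le_right _ _))

theorem gd_G (h : GFam G μ d R r c₀ e P c) (t : ℂ) : (gd h).G t = sl G t := (sl_eq h t).symm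

theorem gd_d (h : GFam G μ d R r c₀ e P c) : ∃ κ : ℕ, d = 2 + 2 + κ ∧ μ < κ := by
  have := h.d_big
  exact ⟨d - 4, by omega, by omega⟩

end

end Crest.Agent.R257.GDof_835
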