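import Crest.Agent.R257.EHyp_835

/-!
# R257 (S0395), Part E (helper835): the local lower bound `u ≥ log |∇G|² - C`

* `Lift.par`      : lifts off infinity are parametrisations of the level;
* `afS`, `thI`    : affine coordinates on the surface, and in the charts;
* `local_lower`   : comparison with `log |∇g|² + |x|² - C` on `{g = s} ∩ {|x| ≤ r}`;
* `GD.locBound`   : the uniform bound for `S_(t,s)`.
-/

set_option autoImplicit false
set_option linter.unusedSectionVars false

open Set Filter Topology Complex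
open scoped ContDiff Matrix ComplexConjugate Manifold

namespace Crest.Agent.R257.Loc_835

open Crest.Agent.R275.Geo Crest.Agent.R275.Core144 Crest.Agent.R275.GC293
open Crest.Agent.R273.Defs_333 Crest.Agent.R273.YauDefs_635 Crest.Agent.R273.YauCh_635
open Crest.Agent.R273
open Crest.Agent.R257.PN_835 Crest.Agent.R257.Gram_835 Crest.Agent.R257.Hyp_835
open Crest.Agent.R257.KEl_835
open Crest.Agent.R257.KE_835 Crest.Agent.R257.Aff_835 Crest.Agent.R257.Hom_835
open Crest.Agent.R257.Unif_835 Crest.Agent.R257.EHyp_835 Crest.Agent.R257.Est3_37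
open Crest.Agent.R273.FS_333 (sq)

noncomputable section

variable {n d : ℕ} {X : Hyp n d} {g : AC n → ℂ} {s : ℂ}

/-- affine coordinates of homogeneous coordinates -/
def afh (Z : HC (n + 1)) : AC n := fun k => Z k.succ / Z 0

theorem smul_hc_afh {Z : HC (n + 1)} (h0 : Z 0 ≠ 0) : Z 0 • hc (afh Z) = Z := (eq_smul_hc h0).symm

theorem afh_hc (x : AC n) : afh (hc x) = x := by
  funext k
  show hc x k.succ / hc x 0 = x k
  rw [hc_zero, hc_succ, div_one]

theorem afh_smul {a : ℂ} (ha : a ≠ 0) (Z : HC (n + 1)) : afh (a • Z) = afh Z := by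
  funext k
  show a * Z k.succ / (a * Z 0) = Z k.succ / Z 0
  rw [mul_div_mul_left _ _ ha]

/-- lifts off infinity -/
theorem lift_par (hX : Cl X g s) {F : Cn n → HC (n + 1)} {U : Set (Cn n)} (hF : Lift X F U)
    (h0 : ∀ z ∈ U, F z 0 ≠ 0) : Par g s (fun z => afh (F z)) U where
  isOpen := hF.isOpen
  hol := by
    refine differentiableOn_pi.2 fun k => ?_
    show DifferentiableOn ℂ (fun z => F z k.succ / F z 0) U
    simp only [div_eq_mul_inv]
    exact (hF.holk k.succ).mul ((hF.holk 0).inv h0)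
  lvl z hz := by
    have h1 : X.H (F z 0 • hc (afh (F z))) = 0 := by
      rw [smul_hc_afh (h0 z hz)]
      exact hF.zero z hz
    rw [X.hom, hX] at h1
    exact sub_eq_zero.1 ((mul_eq_zero.1 h1).resolve_left (pow_ne_zero _ (h0 z hz)))
  imm z hz v hv0 := by
    have hd : DifferentiableAt ℂ (fun z => afh (F z)) z := by
      refine differentiableAt_pi.2 fun k => ?_
      show DifferentiableAt ℂ (fun z => F z k.succ / F z 0) z
      simp only [div_eq_mul_inv]
      exact ((hF.holk k.succ).differentiableAt (hF.isOpen.mem_nhds hz)).mul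
        (((hF.holk 0).differentiableAt (hF.isOpen.mem_nhds hz)).inv (h0 z hz))
    have hc0 : DifferentiableAt ℂ (fun z => F z 0) z :=
      (hF.holk 0).differentiableAt (hF.isOpen.mem_nhds hz)
    have h1 : HasFDerivAt (fun z => hc (afh (F z)))
        ((hvL n).comp (fderiv ℂ (fun z => afh (F z)) z)) z :=
      HasFDerivAt.comp z (g := hc) (hasFDerivAt_hc _) hd.hasFDerivAt
    have h2 := hc0.hasFDerivAt.smul h1
    have h3 : F =ᶠ[𝓝 z] (fun z => F z 0) • fun z => hc (afh (F z)) := by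
      filter_upwards [hF.isOpen.mem_nhds hz] with w hw
      exact (smul_hc_afh (h0 w hw)).symm
    have h4 : fderiv ℂ F z v = fderiv ℂ ((fun z => F z 0) • fun z => hc (afh (F z))) z v := by
      rw [h3.fderiv_eq]
    refine hF.imm z hz v ⟨(F z 0)⁻¹ * fderiv ℂ (fun z => F z 0) z v, ?_⟩
    rw [h4, h2.fderiv]
    have h5 : (F z 0 • (hvL n).comp (fderiv ℂ (fun z => afh (F z)) z) +
        (fderiv ℂ (fun z => F z 0) z).smulRight (hc (afh (F z)))) v =
        F z 0 • hvL n (fderiv ℂ (fun z => afh (F z)) z v) +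
        (fderiv ℂ (fun z => F z 0) z v) • hc (afh (F z)) := rfl
    rw [h5, hv0, map_zero, smul_zero, zero_add]
    refine Eq.symm ?_
    calc ((F z 0)⁻¹ * fderiv ℂ (fun z => F z 0) z v) • F z
        = ((F z 0)⁻¹ * fderiv ℂ (fun z => F z 0) z v) • (F z 0 • hc (afh (F z))) :=
          congrArg _ (smul_hc_afh (h0 z hz)).symm
      _ = _ := by
        rw [smul_smul]
        congr 1
        have := h0 z hz
        field_simp

/-- the affine part -/
def AfS (X : Hyp n d) : Set X.S := {x | x.1.1 0 0 ≠ 0}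

theorem isOpen_AfS : IsOpen (AfS X) :=
  isOpen_ne.preimage ((continuous_entry 0 0).comp continuous_subtype_val)

/-- affine coordinates -/
def afS (x : X.S) : AC n := afh (lft 0 x.1)

theorem hc_afS {x : X.S} (hx : x ∈ AfS X) : hc (afS x) = lft 0 x.1 := by
  have h1 := smul_hc_afh (Z := lft 0 x.1) (by rw [lft_self hx]; exact one_ne_zero)
  rw [lft_self hx, one_smul] at h1
  exact h1

theorem cls_afS {x : X.S} (hx : x ∈ AfS X) : cls (hc (afS x)) (hc_ne _) = x.1 := by
  have h1 := cls_lft hx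
  refine Eq.trans ?_ h1
  exact Subtype.ext (congrArg pm (hc_afS hx))

theorem afS_lvl (hX : Cl X g s) {x : X.S} (hx : x ∈ AfS X) : g (afS x) = s := by
  have h1 := (X.lft_mem hx).1 x.2
  rw [← hc_afS hx, hX] at h1
  exact sub_eq_zero.1 h1

/-- the point with given affine coordinates -/
def ptS (hX : Cl X g s) (ξ : AC n) (hξ : g ξ = s) : X.S :=
  ⟨cls (hc ξ) (hc_ne ξ), (X.cls_mem (hc_ne ξ)).2 (by rw [hX, hξ, sub_self])⟩

theorem ptS_mem (hX : Cl X g s) {ξ : AC n} (hξ : g ξ = s) : ptS hX ξ hξ ∈ AfS X := by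
  show pm (hc ξ) 0 0 ≠ 0
  exact (pm_ne (hc_ne ξ)).2 (by rw [hc_zero]; exact one_ne_zero)

theorem afS_ptS (hX : Cl X g s) {ξ : AC n} (hξ : g ξ = s) : afS (ptS hX ξ hξ) = ξ := by
  show afh (lft 0 (cls (hc ξ) (hc_ne ξ))) = ξ
  rw [lft_cls (hc_ne ξ) (by rw [hc_zero]; exact one_ne_zero), hc_zero, inv_one, one_smul, afh_hc]

theorem continuousOn_afS : ContinuousOn (afS (X := X)) (AfS X) := by
  intro x hx
  refine ContinuousAt.continuousWithinAt ?_
  refine continuousAt_pi.2 fun k => ?_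
  show ContinuousAt (fun x : X.S => x.1.1 k.succ 0 / x.1.1 0 0 / (x.1.1 0 0 / x.1.1 0 0)) x
  have h1 : ∀ a b : Fin (n + 2), ContinuousAt (fun x : X.S => x.1.1 a b) x := fun a b =>
    ((continuous_entry a b).comp continuous_subtype_val).continuousAt
  have h2 : x.1.1 0 0 ≠ 0 := hx
  exact ((h1 _ _).div (h1 _ _) h2).div ((h1 _ _).div (h1 _ _) h2) (div_ne_zero h2 h2)

/-- the compact part `|x| ≤ r` -/
def Kr (X : Hyp n d) (r : ℝ) : Set X.S := {x | 1 ≤ (1 + r ^ 2) * ‖x.1.1 0 0‖}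

theorem norm_00 {x : X.S} (hx : x ∈ AfS X) : ‖x.1.1 0 0‖ = 1 / (1 + nsq (afS x)) := by
  have h1 : x.1.1 0 0 = pm (hc (afS x)) 0 0 := by
    rw [← cls_afS hx]
    rfl
  have h2 : 0 ≤ nsq (afS x) := nsq_nonneg _
  rw [h1, pm_apply, hc_zero, map_one, mul_one, nsq_hc, norm_div, norm_one, Complex.norm_real,
    Real.norm_eq_abs, abs_of_pos (by linarith)]

theorem Kr_sub {r : ℝ} : Kr X r ⊆ AfS X := by
  intro x hx h0
  have h1 : 1 ≤ (1 + r ^ 2) * ‖x.1.1 0 0‖ := hx
  rw [h0, norm_zero, mul_zero] at h1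
  linarith

theorem mem_Kr {r : ℝ} {x : X.S} (hx : x ∈ AfS X) : x ∈ Kr X r ↔ nsq (afS x) ≤ r ^ 2 := by
  have h2 : 0 ≤ nsq (afS x) := nsq_nonneg _
  show 1 ≤ (1 + r ^ 2) * ‖x.1.1 0 0‖ ↔ _
  rw [norm_00 hx, mul_one_div, le_div_iff₀ (by linarith)]
  constructor <;> intro h <;> linarith

theorem continuous_00 : Continuous fun x : X.S => ‖x.1.1 0 0‖ :=
  ((continuous_entry 0 0).comp continuous_subtype_val).norm

theorem isCompact_Kr (r : ℝ) : IsCompact (Kr X r) :=
  (isClosed_le continuous_const (continuous_const.mul continuous_00)).isCompact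

/-- boundary points -/
theorem bd_Kr {r : ℝ} {x : X.S} (hx : x ∈ Kr X r) (hi : x ∉ interior (Kr X r)) :
    nsq (afS x) = r ^ 2 := by
  have hxa := Kr_sub hx
  have h1 := (mem_Kr hxa).1 hx
  by_contra hne
  have hlt : nsq (afS x) < r ^ 2 := lt_of_le_of_ne h1 hne
  apply hi
  have hO : IsOpen {x : X.S | 1 < (1 + r ^ 2) * ‖x.1.1 0 0‖} :=
    isOpen_lt continuous_const (continuous_const.mul continuous_00)
  refine mem_interior.2 ⟨{x : X.S | 1 < (1 + r ^ 2) * ‖x.1.1 0 0‖}, fun y hy => ?_, hO, ?_⟩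
  · show 1 ≤ (1 + r ^ 2) * ‖y.1.1 0 0‖
    exact le_of_lt hy
  · have h2 : 0 ≤ nsq (afS x) := nsq_nonneg _
    show 1 < (1 + r ^ 2) * ‖x.1.1 0 0‖
    rw [norm_00 hxa, mul_one_div, lt_div_iff₀ (by linarith)]
    linarith

section Chart

variable (B : HAtl X)

/-- affine coordinates in a chart -/
theorem afS_chart {i : B.A.ι} {z : Cn n} (hz : z ∈ (B.A.e i).target) :
    ((B.A.e i).symm z ∈ AfS X ↔ Fi B i z 0 ≠ 0) ∧
      ((B.A.e i).symm z ∈ AfS X → afS ((B.A.e i).symm z) = afh (Fi B i z)) := by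
  have hne := (lift_Fi B i).ne z hz
  have hcl : cls (Fi B i z) hne = ((B.A.e i).symm z).1 := HAtl.cls_F ((B.A.e i).map_target hz)
  have h1 : (B.A.e i).symm z ∈ AfS X ↔ Fi B i z 0 ≠ 0 := by
    show ((B.A.e i).symm z).1.1 0 0 ≠ 0 ↔ _
    rw [← hcl]
    exact pm_ne hne
  refine ⟨h1, fun h => ?_⟩
  have h2 := h1.1 h
  show afh (lft 0 ((B.A.e i).symm z).1) = _
  rw [← hcl, lft_cls hne h2, afh_smul (inv_ne_zero h2)]

/-- the affine part of a chart -/
def Ui (i : B.A.ι) : Set (Cn n) := (B.A.e i).target ∩ (B.A.e i).symm ⁻¹' AfS X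

theorem isOpen_Ui (i : B.A.ι) : IsOpen (Ui B i) :=
  (B.A.e i).isOpen_inter_preimage_symm isOpen_AfS

/-- the charts are parametrisations -/
theorem par_chart (hX : Cl X g s) (i : B.A.ι) :
    Par g s (fun z => afS ((B.A.e i).symm z)) (Ui B i) := by
  have hF : Lift X (Fi B i) (Ui B i) :=
    { isOpen := isOpen_Ui B i
      hol := (lift_Fi B i).hol.mono inter_subset_left
      ne := fun z hz => (lift_Fi B i).ne z hz.1
      zero := fun z hz => (lift_Fi B i).zero z hz.1
      imm := fun z hz => (lift_Fi B i).imm z hz.1 }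
  have h1 := lift_par hX hF fun z hz => ((afS_chart B hz.1).1).1 hz.2
  have h2 : ∀ z ∈ Ui B i, afS ((B.A.e i).symm z) = afh (Fi B i z) := fun z hz =>
    (afS_chart B hz.1).2 hz.2
  have h3 : ∀ z ∈ Ui B i, (fun z => afS ((B.A.e i).symm z)) =ᶠ[𝓝 z] fun z => afh (Fi B i z) := by
    intro z hz
    filter_upwards [(isOpen_Ui B i).mem_nhds hz] with w hw
    exact h2 w hw
  exact
    { isOpen := isOpen_Ui B i
      hol := h1.hol.congr h2
      lvl := fun z hz => by
        rw [h2 z hz]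
        exact h1.lvl z hz
      imm := fun z hz v hv0 => by
        rw [(h3 z hz).fderiv_eq] at hv0
        exact h1.imm z hz v hv0 }

theorem mem_Ui {i : B.A.ι} {x : X.S} (hx : x ∈ (B.A.e i).source) (hx' : x ∈ AfS X) :
    B.A.e i x ∈ Ui B i := by
  refine ⟨(B.A.e i).map_source hx, ?_⟩
  show (B.A.e i).symm (B.A.e i x) ∈ AfS X
  rw [(B.A.e i).left_inv hx]
  exact hx'

end Chart

/-! ### smooth functions of the affine coordinates -/

section Smooth

variable {θ : Cn n → AC n} {U : Set (Cn n)}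

theorem par_sm_nsq (hθ : Par g s θ U) {z : Cn n} (hz : z ∈ U) :
    ContDiffAt ℝ ∞ (fun z => nsq (θ z)) z := contDiffAt_sq hθ.isOpen hθ.holk hz

/-- components of the gradient along a parametrisation -/
theorem par_gra (hg : Differentiable ℂ g) (hθ : Par g s θ U) (k : Fin (n + 1)) :
    DifferentiableOn ℂ (fun z => gra g (θ z) k) U := by
  have hA : Differentiable ℂ (fderiv ℂ g) := by
    have h1 := (Crest.Agent.R266.SCV.analyticOnNhd_of_differentiableOn isOpen_univ
      hg.differentiableOn).fderiv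
    exact fun Z => (h1 Z (mem_univ _)).differentiableAt
  exact (hA.comp_differentiableOn hθ.hol).clm_apply (differentiableOn_const _)

theorem par_sm_log (hg : Differentiable ℂ g) (hθ : Par g s θ U) {z : Cn n} (hz : z ∈ U)
    (h0 : fderiv ℂ g (θ z) ≠ 0) : ContDiffAt ℝ ∞ (fun z => Real.log (nga g (θ z))) z := by
  have h1 : ContDiffAt ℝ ∞ (fun z => nga g (θ z)) z :=
    contDiffAt_sq (F := fun z => gra g (θ z)) hθ.isOpen (par_gra hg hθ) hz
  exact h1.log (nga_pos h0).ne'

theorem par_lev_log (hg : Differentiable ℂ g) (hθ : Par g s θ U) {z : Cn n} (hz : z ∈ U)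
    (h0 : fderiv ℂ g (θ z) ≠ 0) (v : Cn n) : 0 ≤ lev (fun z => Real.log (nga g (θ z))) z v := by
  rw [lev333_eq_lev145]
  have h5 : ∀ j : Fin (n + 1), AnalyticAt ℂ (fun z => gra g (θ z) j) z := fun j =>
    Crest.Agent.R266.SCV.analyticOnNhd_of_differentiableOn hθ.isOpen (par_gra hg hθ j) z hz
  obtain ⟨j, hj⟩ := Function.ne_iff.1 (gra_ne h0)
  have h6 := Levi_145.lev_log_sumSq_nonneg (F := fun (j : Fin (n + 1)) z => gra g (θ z) j)
    h5 ⟨j, hj⟩ v
  have h7 : 0 ≤ 4 * Levi_145.lev (fun w => Real.log (Levi_145.sumSq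
      (fun (j : Fin (n + 1)) z => gra g (θ z) j) w)) z v := by linarith
  exact h7

theorem par_lev_nsq (hθ : Par g s θ U) {z : Cn n} (hz : z ∈ U) (v : Cn n) :
    lev (fun z => nsq (θ z)) z v = 4 * nsq (fderiv ℂ θ z v) := by
  have h5 : ∀ j : Fin (n + 1), AnalyticAt ℂ (fun z => θ z j) z := fun j =>
    Crest.Agent.R266.SCV.analyticOnNhd_of_differentiableOn hθ.isOpen (hθ.holk j) z hz
  rw [lev333_eq_lev145]
  have h6 := Levi_145.lev_sumSq (F := fun (j : Fin (n + 1)) z => θ z j) h5 v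
  have h7 : 4 * Levi_145.lev (fun z => nsq (θ z)) z v = 4 *
    Levi_145.lev (Levi_145.sumSq (fun (j : Fin (n + 1)) z => θ z j)) z v := rfl
  rw [h7, h6]
  congr 1
  unfold nsq
  refine Finset.sum_congr rfl fun k _ => ?_
  have h1 := hasFDerivAt_pi'.1 (hθ.diffAt hz).hasFDerivAt k
  rw [h1.fderiv]
  rfl

theorem par_lev_nsq_pos (hθ : Par g s θ U) {z : Cn n} (hz : z ∈ U) {v : Cn n} (hv : v ≠ 0) :
    0 < lev (fun z => nsq (θ z)) z v := by
  rw [par_lev_nsq hθ hz]
  have h1 : fderiv ℂ θ z v ≠ 0 := fun h => hv (hθ.imm z hz v h)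
  have := nsq_pos h1
  positivity

theorem eta2a_pos (hθ : Par g s θ U) {z : Cn n} (hz : z ∈ U)
    (h0 : fderiv ℂ g (θ z) ≠ 0) : 0 < eta2a g θ z := by
  have h1 := hθ.flat hz h0
  have h2 := det_pos_of (par_sm_nsq hθ hz) fun v hv => par_lev_nsq_pos hθ hz hv
  have h3 : (cH (fun z => nsq (θ z)) z).det = ((eta2a g θ z * nga g (θ z) : ℝ) : ℂ) := h1
  rw [h3, ofReal_re] at h2
  exact (pos_iff_pos_of_mul_pos h2.1).2 (nga_pos h0)

end Smooth

/-! ### the comparison -/

variable {κ : ℕ} {W : HC (n + 1) → ℝ}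

theorem Cl.differentiable (hX : Cl X g s) : Differentiable ℂ g := fun x => hX.diffAt x

/-- **local lower bound** -/
theorem local_lower (hX : Cl X g s) (hW : KEw X κ W) {r C : ℝ} (hC : r ^ 2 ≤ C)
    (hbd : ∀ ξ, g ξ = s → nsq ξ = r ^ 2 → Real.log (nga g ξ) + r ^ 2 - C ≤ W (hc ξ)) {ξ : AC n}
    (hξ : g ξ = s) (hr : nsq ξ ≤ r ^ 2) : Real.log (nga g ξ) + nsq ξ - C ≤ W (hc ξ) := by
  have hg : Differentiable ℂ g := Cl.differentiable hX
  obtain ⟨B⟩ := X.exists_hAtl
  set A := B.A with hA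
  have hpar : ∀ i, Par g s (fun z => afS ((A.e i).symm z)) (Ui B i) := fun i => par_chart B hX i
  have hUi : ∀ i, ∀ x ∈ (A.e i).source ∩ AfS X, A.e i x ∈ Ui B i := fun i x hx =>
    mem_Ui B hx.1 hx.2
  have hne : ∀ i, ∀ z ∈ Ui B i, fderiv ℂ g (afS ((A.e i).symm z)) ≠ 0 := fun i z hz =>
    hX.ne ((hpar i).lvl z hz)
  -- the functions
  set u : X.S → ℝ := fun x => W (hc (afS x)) with hu
  set ψ : X.S → ℝ := fun x => Real.log (nga g (afS x)) + nsq (afS x) - C with hψ
  set b : X.S → ℝ := fun x => nsq (afS x) with hb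
  have hsu : SmU A (AfS X) u := fun i x hx =>
    ((hW.par hX (hpar i)).1).contDiffAt ((isOpen_Ui B i).mem_nhds (hUi i x hx))
  have hsb : SmU A (AfS X) b := fun i x hx => par_sm_nsq (hpar i) (hUi i x hx)
  have hsl : SmU A (AfS X) (fun x => Real.log (nga g (afS x))) := fun i x hx =>
    par_sm_log hg (hpar i) (hUi i x hx) (hne i _ (hUi i x hx))
  have hsψ : SmU A (AfS X) ψ := fun i x hx => ((hsl i x hx).add (hsb i x hx)).sub contDiffAt_const
  have hint : ∀ {i x}, x ∈ (A.e i).source ∩ interior (Kr X r) → x ∈ (A.e i).source ∩ AfS X :=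
    fun hx => ⟨hx.1, Kr_sub (interior_subset hx.2)⟩
  have hback : ∀ {i x}, x ∈ (A.e i).source → (A.e i).symm (A.e i x) = x := fun hx =>
    (A.e _).left_inv hx
  have key := sub_le (A := A) (isCompact_Kr (X := X) r) Kr_sub hsu hsψ hsb one_pos
    (fun i z => eta2a g (fun z => afS ((A.e i).symm z)) z)
    (fun i x hx => eta2a_pos (hpar i) (hUi i x (hint hx)) (hne i _ (hUi i x (hint hx))))
    (fun i x hx v hv => par_lev_nsq_pos (hpar i) (hUi i x (hint hx)) hv)
    (fun i x hx v => by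
      have h1 := (hsl i x (hint hx)).of_le two_le_inf
      have h2 := (hsb i x (hint hx)).of_le two_le_inf
      have h3 : lev (inC A i ψ) (A.e i x) v = lev (inC A i fun x => Real.log (nga g (afS x)))
          (A.e i x) v + lev (inC A i b) (A.e i x) v := by
        have e1 : inC A i ψ = fun z => (inC A i (fun x => Real.log (nga g (afS x))) z +
          inC A i b z) + (-C) := by
          funext z
          simp only [inC, hψ, hb]
          ring
        rw [e1, lev333_eq_lev145, Levi_145.lev_add (h1.add h2) contDiffAt_const,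
          Levi_145.lev_add h1 h2, Levi_145.lev_const, add_zero, mul_add,
          ← lev333_eq_lev145, ← lev333_eq_lev145]
      rw [h3, one_mul]
      have h4 := par_lev_log hg (hpar i) (hUi i x (hint hx)) (hne i _ (hUi i x (hint hx))) v
      have h5 : 0 ≤ lev (inC A i fun x => Real.log (nga g (afS x))) (A.e i x) v := h4
      linarith)
    (fun i x hx => by
      have h1 := (hW.par hX (hpar i)).2.2 _ (hUi i x (hint hx))
      simp only [hback hx.1] at h1
      exact h1)
    (fun i x hx => by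
      have h1 := (hpar i).flat (hUi i x (hint hx)) (hne i _ (hUi i x (hint hx)))
      have h2 : (cH (inC A i b) (A.e i x)).det = ((eta2a g (fun z => afS ((A.e i).symm z))
          (A.e i x) * nga g (afS ((A.e i).symm (A.e i x))) : ℝ) : ℂ) := h1
      rw [h2, ofReal_re, one_pow, one_mul, hback hx.1]
      have h3 := (mem_Kr (Kr_sub (interior_subset hx.2))).1 (interior_subset hx.2)
      have h4 : 0 < nga g (afS x) := by
        have := hne i _ (hUi i x (hint hx))
        simp only [hback hx.1] at this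
        exact nga_pos this
      have h5 := eta2a_pos (hpar i) (hUi i x (hint hx)) (hne i _ (hUi i x (hint hx)))
      have h6 : Real.exp (ψ x) ≤ nga g (afS x) := by
        rw [hψ]
        simp only
        have h7 : Real.log (nga g (afS x)) + nsq (afS x) - C =
          Real.log (nga g (afS x)) + (nsq (afS x) - C) := by ring
        rw [h7, Real.exp_add, Real.exp_log h4]
        have h8 : Real.exp (nsq (afS x) - C) ≤ 1 := Real.exp_le_one_iff.2 (by linarith)
        nlinarith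
      rw [mul_comm]
      exact mul_le_mul_of_nonneg_left h6 h5.le)
    (fun x hx hxi => by
      have h1 := bd_Kr hx hxi
      have h2 := hbd (afS x) (afS_lvl hX (Kr_sub hx)) h1
      show Real.log (nga g (afS x)) + nsq (afS x) - C ≤ W (hc (afS x))
      rw [h1]
      exact h2)
  have hm := ptS_mem hX hξ
  have he := afS_ptS hX hξ
  have h1 := key (ptS hX ξ hξ) ((mem_Kr hm).2 (by rw [he]; exact hr))
  simp only [hu, hψ, he] at h1
  exact h1

/-- **uniform local bounds** -/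
theorem GD.locBound {mu : ℕ} (D : GD n d mu) (hd : d = n + 2 + κ) (hκ : mu < κ) {r : ℝ}
    (hr : 0 < r) : ∃ e > 0, e ≤ D.R ∧ ∃ C : ℝ,
    ∀ (t s : ℂ) (ht : ‖t‖ < D.R) (hs : 0 < ‖s‖ ∧ ‖s‖ < D.R), ‖t‖ < e → ‖s‖ < e →
      ∀ (B : HAtl (D.X ht hs)) (φ : (D.X ht hs).S → ℝ), B.A.Sm φ → KPos (H0 B κ) φ →
        MA (H0 B κ) φ (fun x => FF κ x + φ x) → ∀ ξ : AC n, D.G t ξ = s → nsq ξ ≤ r ^ 2 →
          Real.log (nga (D.G t) ξ) - C ≤ Wc κ φ (hc ξ) ∧ Wc κ φ (hc ξ) ≤ C := by
  obtain ⟨e, he, heR, C0, hb⟩ := GD.bounds D hd hκ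
  obtain ⟨Cu, hCu, hup⟩ := D.upper
  have hR := D.R_pos
  have hκ0 : 0 < κ := by omega
  set C1 : ℝ := Real.log (Cu * (1 + r ^ 2) ^ (d - 1)) + r ^ 2 - κ * Real.log (1 + r ^ 2) -
    mu * Real.log (r ^ 2 / (1 + r ^ 2)) + C0 with hC1
  refine ⟨min e (D.R / 2), lt_min he (by positivity), (min_le_left _ _).trans heR,
    max (max (r ^ 2) C1) (κ * Real.log (1 + r ^ 2) + C0), ?_⟩
  intro t s ht hs hte hse B φ hφ hpos hMA ξ hξ hξr
  have hte' : ‖t‖ < e := hte.trans_le (min_le_left _ _)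
  have hse' : ‖s‖ < e := hse.trans_le (min_le_left _ _)
  have hX := D.cl ht hs
  have hW := kew_of hd hκ0 hφ hpos hMA
  have hzero : ∀ ξ, D.G t ξ = s → D.H (t, s) (hc ξ) = 0 := by
    intro ξ h
    have h1 : D.H (t, s) (hc ξ) = D.G t ξ - s := hX ξ
    rw [h1, h, sub_self]
  have hb' := fun ξ (h : D.G t ξ = s) =>
    hb t s ht hs hte' hse' B φ hφ hpos hMA (hc ξ) (hc_ne ξ) (hzero ξ h)
  have htl : ∀ ξ : AC n, tl (hc ξ) = ξ := fun ξ => rfl
  constructor
  · have h1 := local_lower hX hW (r := r) (C := max (r ^ 2) C1) (le_max_left _ _) (fun ξ' h1 h2 => by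
      have h3 := (hb' ξ' h1).2
      rw [nsq_hc, htl, h2] at h3
      have h4 : 0 < nga (D.G t) ξ' := nga_pos (hX.ne h1)
      have h5 := (D.nga_le ht s ξ').trans (hup t s (hte.le.trans (min_le_right _ _)) hs.2.le (hc ξ')
        (hc_ne ξ'))
      rw [nsq_hc, h2] at h5
      have h6 := Real.log_le_log h4 h5
      have h7 := le_max_right (r ^ 2) C1
      linarith) hξ hξr
    have h2 : 0 ≤ nsq ξ := nsq_nonneg _
    have h3 := le_max_left (max (r ^ 2) C1) (κ * Real.log (1 + r ^ 2) + C0)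
    linarith
  · have h1 := (hb' ξ hξ).1
    rw [nsq_hc] at h1
    have h2 : Real.log (1 + nsq ξ) ≤ Real.log (1 + r ^ 2) := by
      refine Real.log_le_log ?_ (by linarith)
      have := nsq_nonneg ξ
      linarith
    have h3 := le_max_right (max (r ^ 2) C1) (κ * Real.log (1 + r ^ 2) + C0)
    have h4 : (κ : ℝ) * Real.log (1 + nsq ξ) ≤ κ * Real.log (1 + r ^ 2) :=
      mul_le_mul_of_nonneg_left h2 (Nat.cast_nonneg _)
    linarith

end

end Crest.Agent.R257.Loc_835
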