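import Crest.Agent.R257.KED_952
import Crest.Agent.R257.GDof_835
import Crest.Agent.R257.Loc_835

/-!
# R257 (S0395), Part E (helper835): the Kaehler-Einstein weights `u_(t,s)`, `s ≠ 0`, with uniform
bounds, in the language of `KED_952`
-/

set_option autoImplicit false
set_option linter.unusedSectionVars false

open Set Filter Topology Complex
open scoped ContDiff Matrix ComplexConjugate Manifold
open Crest.AlgGeometry.Germ

namespace Crest.Agent.R257.Out1_835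

open Crest.Agent.R275.Geo Crest.Agent.R275.Core144 Crest.Agent.R275.GC293
open Crest.Agent.R273.Defs_333 Crest.Agent.R273.YauDefs_635
open Crest.Agent.R257.Defs_219 Crest.Agent.R257.KED_952
open Crest.Agent.R257.PN_835 Crest.Agent.R257.Gram_835 Crest.Agent.R257.Hyp_835
open Crest.Agent.R257.KE_835 Crest.Agent.R257.Aff_835 Crest.Agent.R257.Hom_835
open Crest.Agent.R257.Unif_835 Crest.Agent.R257.EHyp_835 Crest.Agent.R257.Loc_835
open Crest.Agent.R257.GDof_835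
open Crest.Agent.R273.FS_333 (sq)

noncomputable section

variable {n d mu : ℕ}

/-- Chern-Lu on `S_(t,s)` [39: E-CLS] -/
def EuclStmt (D : GD n d mu) (κ : ℕ) : Prop :=
  ∀ R : ℝ, 0 < R → ∃ e > 0, e ≤ D.R ∧ ∃ C : ℝ, 0 < C ∧
    ∀ (t s : ℂ) (ht : ‖t‖ < D.R) (hs : 0 < ‖s‖ ∧ ‖s‖ < D.R), ‖t‖ < e → ‖s‖ < e →
      ∀ (B : HAtl (D.X ht hs)) (φ : (D.X ht hs).S → ℝ), B.A.Sm φ → KPos (H0 B κ) φ →
        MA (H0 B κ) φ (fun x => FF κ x + φ x) →
          ∀ (θ : Cn n → AC n) (U : Set (Cn n)), Par (D.G t) s θ U → ∀ z ∈ U, nsq (θ z) ≤ R →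
            ∀ v, lev (fun z => nsq (θ z)) z v ≤ C * lev (fun z => Wc κ φ (hc (θ z))) z v

/-- **the weights on the levels `{G_t = s}`, `s ≠ 0`** -/
theorem GD.out1 (hAY : AYStmt) (D : GD n d mu) {κ : ℕ} (hd : d = n + 2 + κ) (hκ : mu < κ)
    (hE : EuclStmt D κ) {r : ℝ} (hr : 0 < r) : ∃ e > 0, e ≤ D.R ∧ ∃ (C : ℝ)
    (w : ℂ → ℂ → AC n → ℝ), ∀ t s : ℂ, ‖t‖ < e → 0 < ‖s‖ → ‖s‖ < e →
      (∀ (θ : Cn n → AC n) (U : Set (Cn n)), Par (D.G t) s θ U →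
        ContDiffOn ℝ ∞ (fun z => w t s (θ z)) U ∧
        (∀ z ∈ U, ∀ v : Cn n, v ≠ 0 → 0 < lev (fun z => w t s (θ z)) z v) ∧
        (∀ z ∈ U, (cH (fun z => w t s (θ z)) z).det =
          ((Real.exp (w t s (θ z)) * eta2a (D.G t) θ z : ℝ) : ℂ)) ∧
        (∀ z ∈ U, nsq (θ z) ≤ r ^ 2 → ∀ v,
          lev (fun z => nsq (θ z)) z v ≤ C * lev (fun z => w t s (θ z)) z v)) ∧
      (∀ x, D.G t x = s → nsq x ≤ r ^ 2 →
        Real.log (nga (D.G t) x) - C ≤ w t s x ∧ w t s x ≤ C) := by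
  classical
  have hκ0 : 0 < κ := by omega
  obtain ⟨e1, he1, -, C1, hC1⟩ := GD.locBound D hd hκ hr
  obtain ⟨e2, he2, -, C2, hC2, hE⟩ := hE (r ^ 2) (by positivity)
  have hR := D.R_pos
  have hex : ∀ t s : ℂ, ∃ w : AC n → ℝ, ∀ (ht : ‖t‖ < D.R) (hs : 0 < ‖s‖ ∧ ‖s‖ < D.R),
      ∃ (B : HAtl (D.X ht hs)) (φ : (D.X ht hs).S → ℝ), B.A.Sm φ ∧ KPos (H0 B κ) φ ∧
        MA (H0 B κ) φ (fun x => FF κ x + φ x) ∧ w = fun x => Wc κ φ (hc x) := by
    intro t s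
    by_cases h : ‖t‖ < D.R ∧ (0 < ‖s‖ ∧ ‖s‖ < D.R)
    · obtain ⟨B⟩ := (D.X h.1 h.2).exists_hAtl
      obtain ⟨φ, h1, h2, h3, -⟩ := exists_kew hAY B hd hκ0
      exact ⟨fun x => Wc κ φ (hc x), fun ht hs => ⟨B, φ, h1, h2, h3, rfl⟩⟩
    · exact ⟨fun _ => 0, fun ht hs => absurd ⟨ht, hs⟩ h⟩
  choose w hw using hex
  refine ⟨min D.R (min e1 e2), lt_min hR (lt_min he1 he2), min_le_left _ _, max C1 C2, w, ?_⟩
  intro t s ht hs0 hs
  have htR : ‖t‖ < D.R := ht.trans_le (min_le_left _ _)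
  have hsR : ‖s‖ < D.R := hs.trans_le (min_le_left _ _)
  obtain ⟨B, φ, h1, h2, h3, h4⟩ := hw t s htR ⟨hs0, hsR⟩
  have hW := kew_of hd hκ0 h1 h2 h3
  have hcl := D.cl htR ⟨hs0, hsR⟩
  refine ⟨fun θ U hθ => ?_, fun x hx hxr => ?_⟩
  · rw [h4]
    obtain ⟨a1, a2, a3⟩ := hW.par hcl hθ
    refine ⟨a1, a2, a3, fun z hz hzr v => ?_⟩
    have a4 := hE t s htR ⟨hs0, hsR⟩ (ht.trans_le ((min_le_right _ _).trans (min_le_right _ _)))
      (hs.trans_le ((min_le_right _ _).trans (min_le_right _ _))) B φ h1 h2 h3 θ U hθ z hz hzr v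
    have a5 : 0 ≤ lev (fun z => Wc κ φ (hc (θ z))) z v := by
      by_cases hv : v = 0
      · rw [hv, Crest.Agent.R273.YauCh_635.lev_zero]
      · exact (a2 z hz v hv).le
    exact a4.trans (mul_le_mul_of_nonneg_right (le_max_right _ _) a5)
  · have a1 := hC1 t s htR ⟨hs0, hsR⟩ (ht.trans_le ((min_le_right _ _).trans (min_le_left _ _)))
      (hs.trans_le ((min_le_right _ _).trans (min_le_left _ _))) B φ h1 h2 h3 x hx hxr
    rw [h4]
    have a2 := le_max_left C1 C2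
    constructor
    · have := a1.1
      show _ ≤ Wc κ φ (hc x)
      linarith
    · have := a1.2
      show Wc κ φ (hc x) ≤ _
      linarith

/-! ### the language of KED_952 -/

theorem nga_shift (f : AC n → ℂ) (s : ℂ) (x : AC n) : nga (fun x => f x - s) x = nga f x := by
  unfold nga gra
  simp only [fderiv_sub_const]

theorem eta2a_shift (f : AC n → ℂ) (s : ℂ) (θ : Cn n → AC n) (z : Cn n) :
    eta2a (fun x => f x - s) θ z = eta2a f θ z := by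
  unfold eta2a
  rw [nga_shift]

theorem par_shift {f : AC n → ℂ} {s : ℂ} {θ : Cn n → AC n} {O : Set (Cn n)}
    (h : Par (fun x => f x - s) 0 θ O) : Par f s θ O :=
  ⟨h.isOpen, h.hol, fun z hz => sub_eq_zero.1 (h.lvl z hz), h.imm⟩

variable {G : E3 × ℂ → ℂ} {μ : ℕ} {R r c₀ e : ℝ} {P : ℂ → MvPolynomial (Fin 3) ℂ}
  {c : Fin 3 → ℂ}

/-- **the weights on the smooth levels** -/
theorem out1 (hAY : AYStmt) (h : GFam G μ d R r c₀ e P c)
    (hE : ∀ κ : ℕ, d = 2 + 2 + κ → μ < κ → EuclStmt (gd h) κ) {r₁ : ℝ} (hr : 0 < r₁) :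
    ∃ e₁ > 0, ∃ (C : ℝ) (w : PP → E3 → ℝ), ∀ t s : ℂ, ‖t‖ < e₁ → 0 < ‖s‖ → ‖s‖ < e₁ →
      KEon (fun x => fam G (x, (t, s))) 0 r₁ (w (t, s)) ∧
      Bd (fun x => fam G (x, (t, s))) 0 r₁ C (w (t, s)) := by
  obtain ⟨κ, hd, hκ⟩ := gd_d h
  obtain ⟨e₁, he₁, -, C, w, hw⟩ := GD.out1 hAY (gd h) (κ := κ) (by omega) hκ (hE κ hd hκ) hr
  refine ⟨e₁, he₁, C, fun τ => w τ.1 τ.2, fun t s ht hs0 hs => ?_⟩
  obtain ⟨h1, h2⟩ := hw t s ht hs0 hs
  have e1 : (fun x => fam G (x, (t, s))) = fun x => (gd h).G t x - s := by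
    rw [gd_G]
    rfl
  rw [e1]
  constructor
  · refine ⟨fun θ O hP => ?_, fun θ O hP => ?_, fun θ O hP z hz => ?_⟩
    · exact (h1 θ O (par_shift hP.par)).1
    · exact (h1 θ O (par_shift hP.par)).2.1
    · rw [eta2a_shift]
      exact (h1 θ O (par_shift hP.par)).2.2.1 z hz
  · refine ⟨fun x hx _ hxr => ?_, fun x hx _ hxr => ?_, fun θ O hP z hz v => ?_⟩
    · rw [nga_shift]
      exact (h2 x (sub_eq_zero.1 hx) hxr.le).1
    · exact (h2 x (sub_eq_zero.1 hx) hxr.le).2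
    · exact (h1 θ O (par_shift hP.par)).2.2.2 z hz (hP.lt z hz).le v

end

end Crest.Agent.R257.Out1_835
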