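import Crest.Agent.R257.CLSC_39
import Crest.Agent.R257.Out1_835

/-!
# Row 257 (S0395), E-CLS (helper39), part D: uniform estimates on the levels

* `euclStmt` : `Out1_835.EuclStmt`
-/

set_option autoImplicit false
set_option linter.unusedSectionVars false

open Set Filter Topology Complex
open scoped ContDiff ComplexConjugate Matrix ComplexOrder

namespace Crest.Agent.R257.CLSD_39

open Crest.Agent.R275.Geo Crest.Agent.R275.Core144 Crest.Agent.R275.GC293
open Crest.Agent.R273 Crest.Agent.R273.Defs_333 Crest.Agent.R273.YauDefs_635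
open Crest.Agent.R273.YauMax_635
open Crest.Agent.R273.HM_333 hiding nsq
open Crest.Agent.R273.Hess_333 Crest.Agent.R273.HessB_333
open Crest.Agent.R273.FS_333
open Crest.Agent.R257.CLC_39 Crest.Agent.R257.CLD_39 Crest.Agent.R257.CLE_39
open Crest.Agent.R257.CLF_39 hiding FF
open Crest.Agent.R257.CLG_39 Crest.Agent.R257.CLH_39 Crest.Agent.R257.CLSA_39
open Crest.Agent.R257.CLSB_39 Crest.Agent.R257.CLSC_39
open Crest.Agent.R257.PN_835 Crest.Agent.R257.Gram_835 Crest.Agent.R257.Hyp_835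
open Crest.Agent.R257.KEl_835 Crest.Agent.R257.KE_835 Crest.Agent.R257.Aff_835
open Crest.Agent.R257.Unif_835 Crest.Agent.R257.EHyp_835

noncomputable section

variable {n d mu : ℕ}

theorem CB_pos (n : ℕ) (κ E : ℝ) {R : ℝ} (hR : 0 < R) : 0 < CB n 1 κ R E := by
  unfold CB
  refine mul_pos (lt_max_of_lt_right ?_) (Real.exp_pos _)
  rw [one_mul]
  exact hR

/-- **(4b) on the levels, uniform in `(t, s)`** -/
theorem euclStmt (D : GD n d mu) {κ : ℕ} (hd : d = n + 2 + κ) (hκ : mu < κ) :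
    Out1_835.EuclStmt D κ := by
  intro R hR
  obtain ⟨e, he, heR, C, hC⟩ := GD.bounds D hd hκ
  refine ⟨e, he, heR, CB n 1 (κ - mu) R (2 * C - mu * Real.log (R / (1 + R))),
    CB_pos _ _ _ hR, ?_⟩
  intro t s ht hs hte hse B φ hφ hpos hMA θ U hθ z hz hzR v
  have h1 := hC t s ht hs hte hse B φ hφ hpos hMA
  exact eucl_X B hd hκ (fun Z hZ h => GD.tl_ne D ht (norm_pos_iff.1 hs.1) hZ h) hφ hpos hMA
    (fun Z hZ h0 => (h1 Z hZ h0).1) (fun Z hZ h0 => (h1 Z hZ h0).2) (D.cl ht hs) hθ hR hz hzR v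

end

end Crest.Agent.R257.CLSD_39
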