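import Crest.Agent.R257.LimG_37
import Crest.Agent.R257.CLSD_39

/-!
Row 257 (S0395), leaf OUT, helper37 (+ 835, 39, 209, 611): `outStmt : KED_952.OutStmt`.
-/

set_option autoImplicit false

namespace Crest.Agent.R257.LimH_37

/-- **(OUT)** -/
theorem outStmt : Crest.Agent.R257.KED_952.OutStmt :=
  LimG_37.out_of fun _ _ _ D hd hκ => CLSD_39.euclStmt D hd hκ

end Crest.Agent.R257.LimH_37
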