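import Crest.Agent.R257.Bd_309
import Crest.Agent.R257.LossF_625

/-!
R257 / LossV_309 (helper309): the first half of `LossStmt` (KEG_952), unconditional.
-/

set_option autoImplicit false

open Topology Filter MeasureTheory Set
open scoped ENNReal ContDiff Matrix

noncomputable section

namespace Crest.Agent.R257.LossV_309

open Crest.Agent.R275.Geo
open Crest.Agent.R257.Defs_219
open Crest.Agent.R257.KED_952 Crest.Agent.R257.KEG_952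
open Crest.Agent.R257.SkelV_952 Crest.Agent.R257.SkelG_952
open Crest.Agent.R257.PN_835 (nsq)
open Crest.Agent.R273.Defs_333 (lev)
open Crest.Agent.R257.V1Defs_822 (SmL LvlOK lgh)
open Crest.Agent.R257.Ked4_397 (ctDStmt cvDStmt)
open Crest.Agent.R257.KedM_941 (fatStmt)

/-- the first half of `LossStmt` -/
def Loss1Stmt : Prop := ∀ (Φ : E3 × PP → ℂ) (τ₀ : PP) (l : Filter PP) (r C : ℝ)
  (w : PP → E3 → ℝ) (u : E3 → ℝ), SmD Φ τ₀ l r C w u → ∀ f, f = (fun x => Φ (x, τ₀)) →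
  ∀ A : ℝ, Esc f r u A → ∀ φ : E3 → ℝ, SmL f 0 r φ →
  (∀ θ O, PE f 0 r θ O → ∀ z ∈ O, ∀ v : Cn 2, 0 ≤ lev (fun z => φ (θ z)) z v) →
  (∀ x, f x = 0 → x ≠ 0 → nsq x < r ^ 2 → - A * (A - u x) ≤ φ x ∧ φ x ≤ A) →
  ∀ χ, Cut r χ →
  ∀ (ν : PP → Measure E3) (ν₀ : Measure E3), (∀ᶠ τ in l, IsNu (fun x => Φ (x, τ)) 0 r (ν τ)) →
  IsNu f 0 r ν₀ → Integrable (fun x => χ x * mxd f φ φ x) ν₀ →
  ∀ (N : ℕ) (h : E3 → ℂ), (∀ x, nsq x ≤ r ^ 2 → AnalyticAt ℂ h x) → h 0 = 0 →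
  ColFin (mnr f h) → NoZ f r h → UpB f r u A N φ h →
  ∀ ε : ℝ, 0 < ε → ∀ᶠ τ in l, (C2I (ν τ) (fun x => Φ (x, τ)) (w τ) χ).toReal ≤
    (C2I ν₀ f u χ).toReal +
      Real.pi ^ 2 * (col (mnr f h) - mss ν₀ f u φ χ - mss ν₀ f φ φ χ) + ε

/-- **the first half of the loss statement** -/
theorem loss1Stmt : Loss1Stmt := by
  intro Φ τ₀ l r C w u hD f hf A hE φ hφ hpsh hbd χ hχ ν ν₀ hν hν₀ hI N h hh _ hcf hnz hup ε hε
  subst hf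
  have h0 := smd_0 hD
  have hfin : C2I ν₀ (fun x => Φ (x, τ₀)) u χ < ⊤ :=
    (fin_0 fatStmt ctDStmt cvDStmt Bd_309.bdStmt hD hχ hν hν₀).lt_top
  have hvol : VOL ν₀ u χ < ⊤ := Vol_397.volStmt Φ τ₀ l r C w u hD _ rfl χ hχ ν₀ hν₀
  obtain ⟨-, t2⟩ := Bd_309.tendStmt Φ τ₀ l r C w u hD _ rfl χ hχ ν ν₀ hν hν₀ h hh hcf hnz
  have v1 := LossF_625.v01Stmt _ r C u hD.iso h0 hD.ke0.1 hD.ke0.2 ν₀ hν₀ χ hχ hfin hvol A hE φ hφ
    hpsh hbd hI N h hh hnz hup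
  filter_upwards [t2.eventually (gt_mem_nhds (lt_add_of_pos_right _ hε))] with τ hτ
  refine hτ.le.trans ?_
  nlinarith

/-- `LossStmt` from the second half of `V0Stmt` -/
theorem loss1_of (h : LossStmt) : Loss1Stmt :=
  fun Φ τ₀ l r C w u hD f hf A hE φ hφ hpsh hbd χ hχ ν ν₀ hν hν₀ hI N g hh h0 hcf hnz hup =>
    (h Φ τ₀ l r C w u hD f hf A hE φ hφ hpsh hbd χ hχ ν ν₀ hν hν₀ hI N g hh h0 hcf hnz hup).1

end Crest.Agent.R257.LossV_309
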