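import Crest.Agent.R257.LCTopA_472

/-!
R257 / Skel2_219: second version of the assembly (`SkelD_219.S0395_of`): the corank `≤ 1` case
(`SplitStmt`, `N2Stmt`) and the nodal case (`RAStmt`, `M3Stmt`, `Flag3Stmt`) are used first, so that
`VStmt` is needed only when the 2-jet of `f_0` vanishes and its cubic is not nodal
(`VStmt3`, `PosStmt3`).
-/

set_option autoImplicit false

open Topology Filter MeasureTheory Set
open scoped ENNReal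
open Crest.AlgGeometry.Germ

noncomputable section

namespace Crest.Agent.R257.Skel2_219

open Crest.Agent.R257.Defs_219 Crest.Agent.R257.Skel_219 Crest.Agent.R257.LCDefs_472
open Crest.Agent.R257.LCTop_472

/-- `VStmt` for `f_0` of multiplicity `≥ 3` with non nodal cubic. -/
def VStmt3 : Prop := ∀ (G : E3 × ℂ → ℂ) (μ d : ℕ) (R r c₀ e : ℝ)
  (P : ℂ → MvPolynomial (Fin 3) ℂ) (c : Fin 3 → ℂ), GFam G μ d R r c₀ e P c →
  (∀ i j, H2 (sl G 0) i j = 0) → ¬ Nodal (sl G 0) → 0 < mstar (sl G 0) →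
  ∀ m < mstar (sl G 0), ∀ᶠ t in 𝓝[≠] (0 : ℂ), m ≤ mstar (sl G t)

/-- `PosStmt` for `f_0` of multiplicity `≥ 3` with non nodal cubic. -/
def PosStmt3 : Prop := ∀ (G : E3 × ℂ → ℂ) (μ d : ℕ) (R r c₀ e : ℝ)
  (P : ℂ → MvPolynomial (Fin 3) ℂ) (c : Fin 3 → ℂ), GFam G μ d R r c₀ e P c →
  (∀ i j, H2 (sl G 0) i j = 0) → ¬ Nodal (sl G 0) → 0 < mstar (sl G 0) →
  ∀ᶠ t in 𝓝[≠] (0 : ℂ), 0 < mstar (sl G t)

theorem vstmt3_of (vs : VStmt) : VStmt3 := fun G μ d R r c₀ e P c hG _ _ _ m hm =>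
  vs G μ d R r c₀ e P c hG m hm

/-- the case of multiplicity `≥ 3` with non nodal cubic, `0 < mstar` -/
theorem concl_pos (usc : UscStmt) (cn : CNStmt) (lg : LGStmt) (det : DetStmt) (ot : OTStmt)
    (xs : XStmt) {G : E3 × ℂ → ℂ} {μ d : ℕ} {R r c₀ e : ℝ}
    {P : ℂ → MvPolynomial (Fin 3) ℂ} {c : Fin 3 → ℂ} (hG : GFam G μ d R r c₀ e P c)
    (hv : ∀ m < mstar (sl G 0), ∀ᶠ t in 𝓝[≠] (0 : ℂ), m ≤ mstar (sl G t))
    (h : 0 < mstar (sl G 0)) : Concl G := by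
  have hb : ∀ᶠ t in 𝓝 (0 : ℂ), ‖t‖ < R := by
    filter_upwards [Metric.ball_mem_nhds (0 : ℂ) hG.R_pos] with t ht using by simpa using ht
  have h0 : ‖(0 : ℂ)‖ < R := by simpa using hG.R_pos
  refine main_pos usc cn lg det ot xs (analyticAt_of_gfam hG) (hb.mono fun t ht => hG.zero t ht)
    (iso_of_gfam hG) (hb.mono fun t ht => ⟨hG.fin t ht, ?_⟩) hv h
  rw [hG.mu t ht, hG.mu 0 h0]

theorem concl_of_gfam2 (usc : UscStmt) (cn : CNStmt) (lg : LGStmt) (det : DetStmt) (ot : OTStmt)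
    (xs : XStmt) (vs : VStmt3) (pos : POSStmt) (ra : RAStmt) (m3 : M3Stmt) (f3 : Flag3Stmt)
    (n2 : N2Stmt) (sp : SplitStmt) {G : E3 × ℂ → ℂ} {μ d : ℕ} {R r c₀ e : ℝ}
    {P : ℂ → MvPolynomial (Fin 3) ℂ} {c : Fin 3 → ℂ} (hG : GFam G μ d R r c₀ e P c) :
    Concl G := by
  have hF := fam_of_gfam hG
  by_cases h0 : ∀ i j, H2 (sl G 0) i j = 0
  · by_cases hnod : Nodal (sl G 0)
    · exact f3 G μ hF (m3 G μ hF h0 hnod (ra G μ hF h0)) hnod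
    · have h := pos (sl G 0) (iso_of_gfam hG) h0 hnod
      exact concl_pos usc cn lg det ot xs hG
        (fun m hm => vs G μ d R r c₀ e P c hG h0 hnod h m hm) h
  · push Not at h0
    obtain ⟨q, hq, hC⟩ := sp G μ hF h0
    exact hC (n2 q μ hq)

/-- **S0395 from the Props of the parts, second version.** -/
theorem S0395_of2 (usc : UscStmt) (cn : CNStmt) (lg : LGStmt) (det : DetStmt) (ot : OTStmt)
    (xs : XStmt) (vs : VStmt3) (pos : POSStmt) (ra : RAStmt) (m3 : M3Stmt) (f3 : Flag3Stmt)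
    (n2 : N2Stmt) (sp : SplitStmt) (glob : GlobStmt)
    (R : ℝ) (hR : 0 < R) (F : (Fin 3 → ℂ) × ℂ → ℂ)
    (hF : ∀ t : ℂ, ‖t‖ < R → AnalyticAt ℂ F (0, t) ∧ F (0, t) = 0)
    (hcrit : ∀ t : ℂ, ‖t‖ < R → fderiv ℂ (fun x => F (x, t)) 0 = 0 ∧
      ∀ᶠ x in 𝓝[≠] (0 : Fin 3 → ℂ), fderiv ℂ (fun x => F (x, t)) x ≠ 0)
    (hμ : ∀ t : ℂ, ‖t‖ < R →
      Module.Finite ℂ (Crest.AlgGeometry.Germ.JacobianQuotient 3 (fun x => F (x, t))) ∧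
      Crest.AlgGeometry.Germ.milnorNumber 3 (fun x => F (x, t)) =
        Crest.AlgGeometry.Germ.milnorNumber 3 (fun x => F (x, 0))) :
    ∃ δ : ℝ, 0 < δ ∧ ∃ Φ : OpenPartialHomeomorph ((Fin 3 → ℂ) × ℂ) ((Fin 3 → ℂ) × ℂ),
      (∀ t : ℂ, ‖t‖ < δ → ((0 : Fin 3 → ℂ), t) ∈ Φ.source ∧ Φ (0, t) = (0, t)) ∧
      (∀ p ∈ Φ.source, (Φ p).2 = p.2 ∧ F (Φ p) = F (p.1, 0)) ∧
      (∀ x : Fin 3 → ℂ, (x, (0 : ℂ)) ∈ Φ.source → Φ (x, 0) = (x, 0)) := by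
  obtain ⟨G, μ, d, R', r, c₀, e, P, c, hG, himp⟩ := glob R F hR ⟨hF, hcrit, hμ⟩
  exact himp (concl_of_gfam2 usc cn lg det ot xs vs pos ra m3 f3 n2 sp hG)

end Crest.Agent.R257.Skel2_219
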