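import Crest.Agent.R257.KEG_952

/-!
R257 / KEU_952: interface of part (GB), second version (posts 3449, 3510, 3528, 3665 of row 257).

* `XPr f k g h` : the numbers of an exact pair (conclusion of `XStmt` without (J_p))
* `Up1Stmt`     : one exact pair with the gradient bound at every level `κ < k`; gives (GB0)
* `UppStmt`     : lower bound of the loss of `c₂` by the signed Bott-Chern inequality; gives (GB1)
-/

set_option autoImplicit false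

open Topology Filter MeasureTheory Set
open scoped ENNReal ContDiff Matrix

noncomputable section

namespace Crest.Agent.R257.KEU_952

open Crest.Agent.R275.Geo
open Crest.Agent.R257.Defs_219
open Crest.Agent.R257.KED_952
open Crest.Agent.R257.KEG_952
open Crest.Agent.R257.V1Defs_822 (SmL LvlOK lgh)
open Crest.Agent.R257.PN_835 (nsq)

/-- the numbers of an exact pair -/
structure XPr (f : E3 → ℂ) (k : ℕ) (g h : E3 → ℂ) : Prop where
  two : 2 ≤ k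
  g_an : AnalyticAt ℂ g 0
  h_an : AnalyticAt ℂ h 0
  fin : ColFin ![f, g, h]
  num : (col ![f, g, h] : ℝ) = (k : ℝ) ^ 2 * mstar f
  fin' : ColFin ![f, g, Dt f g h]
  num' : (col ![f, g, Dt f g h] : ℝ) = (2 * (k : ℝ) ^ 2 + k) * mstar f

/-- one exact pair with `|dg|²_ω ≤ A (A-u)^N e^{κu}` for every `κ < k` -/
def Up1Stmt : Prop := ∀ (Φ : E3 × PP → ℂ) (τ₀ : PP) (l : Filter PP) (r C : ℝ)
  (w : PP → E3 → ℝ) (u : E3 → ℝ), SmD Φ τ₀ l r C w u → ∀ f, f = (fun x => Φ (x, τ₀)) →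
  0 < mstar f → ∃ (k : ℕ) (g h : E3 → ℂ), XPr f k g h ∧ ∀ κ : ℝ, 0 < κ → κ < k →
    ∃ (r' A : ℝ) (N : ℕ), 0 < r' ∧ r' < r ∧ 0 < A ∧
      (∀ x, f x = 0 → x ≠ 0 → nsq x < r' ^ 2 → 1 ≤ A - u x) ∧
      UpB f r' u A N (fun x => κ * u x) g

/-- the lower bound of the loss of `c₂` -/
def UppStmt : Prop := ∀ (Φ : E3 × PP → ℂ) (τ₀ : PP) (l : Filter PP) (r C : ℝ)
  (w : PP → E3 → ℝ) (u : E3 → ℝ), SmD Φ τ₀ l r C w u → ∀ f, f = (fun x => Φ (x, τ₀)) →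
  0 < mstar f → ∃ (k : ℕ) (g h : E3 → ℂ) (r' : ℝ) (χ : E3 → ℝ), XPr f k g h ∧
    0 < r' ∧ r' ≤ r ∧ Cut r' χ ∧
    ∀ (ν : PP → Measure E3) (ν₀ : Measure E3),
      (∀ᶠ τ in l, IsNu (fun x => Φ (x, τ)) 0 r' (ν τ)) → IsNu f 0 r' ν₀ →
      ∀ ε : ℝ, 0 < ε → ∀ᶠ τ in l, (C2I ν₀ f u χ).toReal +
        Real.pi ^ 2 * (col (mnr f g) - (1 + 1 / k) * col ![f, g, h] -
          col ![f, g, h] / (2 * k ^ 2) + mas ν₀ f u χ / 2) ≤
        (C2I (ν τ) (fun x => Φ (x, τ)) (w τ) χ).toReal + ε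

end Crest.Agent.R257.KEU_952
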