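import Crest.Agent.R257.SkelG5_952
import Crest.Agent.R257.KEU_952

/-!
R257 / SkelG6_952: reduction of the statements (GB) to a small ball; **GB0Stmt** from the leaves.
-/

set_option autoImplicit false

open Topology Filter MeasureTheory Set
open scoped ENNReal ContDiff Matrix
open Crest.AlgGeometry.Germ

noncomputable section

namespace Crest.Agent.R257.SkelG_952

open Crest.Agent.R275.Geo
open Crest.Agent.R257.Defs_219 Crest.Agent.R257.KED_952 Crest.Agent.R257.KEG_952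
open Crest.Agent.R257.SkelV_952 Crest.Agent.R257.KEU_952
open Crest.Agent.R257.PN_835 (nsq)
open Crest.Agent.R257.Aff_835 (eta2a nga)
open Crest.Agent.R257.V1Defs_822 (SmL LvlOK lgh)
open Crest.Agent.R273.Defs_333 (lev)
open Crest.Agent.R257.V1Pe_822 (exists_pe mxd_mul mxd_comm mxd_ke)
open Crest.Agent.R257.V1W_822 (iso_zero nsq_lt_of)

theorem c2i_rs {f : E3 → ℂ} {u χ : E3 → ℝ} {r' : ℝ} {ν : Measure E3} (hχ : Cut r' χ) :
    C2I (rs r' ν) f u χ = C2I ν f u χ := by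
  unfold C2I
  refine lint_rs fun x hx => ?_
  obtain ⟨ρ, a, b, c⟩ := hχ.supp
  rw [c x ((sq_mono a.le b.le).trans hx), zero_mul, ENNReal.ofReal_zero]

section red

variable {Φ : E3 × PP → ℂ} {τ₀ : PP} {l : Filter PP} {r r' C m : ℝ} {w : PP → E3 → ℝ}
  {u χ χ' : E3 → ℝ} {ν : PP → Measure E3} {ν₀ : Measure E3}

theorem isnu_rs_ev (h0 : 0 < r') (hr : r' ≤ r)
    (hν : ∀ᶠ τ in l, IsNu (fun x => Φ (x, τ)) 0 r (ν τ)) :
    ∀ᶠ τ in l, IsNu (fun x => Φ (x, τ)) 0 r' (rs r' (ν τ)) :=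
  hν.mono fun _ hτ => isnu_rs h0.le hr hτ

/-- upper estimate: from a small ball to the given one -/
theorem red_up (meas : MeasStmt) (fat : FatStmt) (cvi : CvIStmt) (ctd : CtDStmt)
    (bmy : BmyStmt) (cvd : CvDStmt) (bd : BdStmt) (h : SmD Φ τ₀ l r C w u) 
    (hr : r' ≤ r) (hχ : Cut r χ) (hχ' : Cut r' χ')
    (hν : ∀ᶠ τ in l, IsNu (fun x => Φ (x, τ)) 0 r (ν τ))
    (hν₀ : IsNu (fun x => Φ (x, τ₀)) 0 r ν₀)
    (H : ∀ᶠ τ in l, (C2I (rs r' (ν τ)) (fun x => Φ (x, τ)) (w τ) χ').toReal ≤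
      (C2I (rs r' ν₀) (fun x => Φ (x, τ₀)) u χ').toReal + m) {ε : ℝ} (hε : 0 < ε) :
    ∀ᶠ τ in l, C2I (ν τ) (fun x => Φ (x, τ)) (w τ) χ ≤
      C2I ν₀ (fun x => Φ (x, τ₀)) u χ + ENNReal.ofReal m + ENNReal.ofReal ε := by
  have hc := cut_change meas fat cvi ctd bmy cvd bd h hχ (cut_mono hr hχ') hν hν₀
  have hfin := fin_0 fat ctd cvd bd h hχ hν hν₀
  obtain ⟨B, hB⟩ := bd Φ τ₀ l r C w u h χ hχ ν hν
  filter_upwards [H, hB, (tendsto_order.1 hc).2 _ (lt_add_of_pos_right _ hε)] with τ h1 h2 h3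
  rw [c2i_rs hχ', c2i_rs hχ'] at h1
  have hf2 : C2I (ν τ) (fun x => Φ (x, τ)) (w τ) χ ≠ ⊤ := (h2.trans_lt ENNReal.ofReal_lt_top).ne
  have key : (C2I (ν τ) (fun x => Φ (x, τ)) (w τ) χ).toReal ≤
      (C2I ν₀ (fun x => Φ (x, τ₀)) u χ).toReal + m + ε := by linarith
  calc C2I (ν τ) (fun x => Φ (x, τ)) (w τ) χ
      = ENNReal.ofReal (C2I (ν τ) (fun x => Φ (x, τ)) (w τ) χ).toReal :=
        (ENNReal.ofReal_toReal hf2).symm
    _ ≤ ENNReal.ofReal ((C2I ν₀ (fun x => Φ (x, τ₀)) u χ).toReal + m + ε) :=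
        ENNReal.ofReal_le_ofReal key
    _ ≤ ENNReal.ofReal ((C2I ν₀ (fun x => Φ (x, τ₀)) u χ).toReal + m) + ENNReal.ofReal ε :=
        ENNReal.ofReal_add_le
    _ ≤ ENNReal.ofReal ((C2I ν₀ (fun x => Φ (x, τ₀)) u χ).toReal) + ENNReal.ofReal m +
          ENNReal.ofReal ε := by
        gcongr
        exact ENNReal.ofReal_add_le
    _ = _ := by rw [ENNReal.ofReal_toReal hfin]

/-- lower estimate: from a small ball to the given one -/
theorem red_lo (meas : MeasStmt) (fat : FatStmt) (cvi : CvIStmt) (ctd : CtDStmt)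
    (bmy : BmyStmt) (cvd : CvDStmt) (bd : BdStmt) (h : SmD Φ τ₀ l r C w u) 
    (hr : r' ≤ r) (hχ : Cut r χ) (hχ' : Cut r' χ')
    (hν : ∀ᶠ τ in l, IsNu (fun x => Φ (x, τ)) 0 r (ν τ))
    (hν₀ : IsNu (fun x => Φ (x, τ₀)) 0 r ν₀) (hm : 0 ≤ m) {ε : ℝ} (hε : 0 < ε)
    (H : ∀ᶠ τ in l, (C2I (rs r' ν₀) (fun x => Φ (x, τ₀)) u χ').toReal + m ≤
      (C2I (rs r' (ν τ)) (fun x => Φ (x, τ)) (w τ) χ').toReal + ε / 2) :
    ∀ᶠ τ in l, C2I ν₀ (fun x => Φ (x, τ₀)) u χ + ENNReal.ofReal m ≤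
      C2I (ν τ) (fun x => Φ (x, τ)) (w τ) χ + ENNReal.ofReal ε := by
  have hc := cut_change meas fat cvi ctd bmy cvd bd h hχ (cut_mono hr hχ') hν hν₀
  have hfin := fin_0 fat ctd cvd bd h hχ hν hν₀
  obtain ⟨B, hB⟩ := bd Φ τ₀ l r C w u h χ hχ ν hν
  filter_upwards [H, hB, (tendsto_order.1 hc).1 _ (sub_lt_self _ (half_pos hε))] with τ h1 h2 h3
  rw [c2i_rs hχ', c2i_rs hχ'] at h1
  have hf2 : C2I (ν τ) (fun x => Φ (x, τ)) (w τ) χ ≠ ⊤ := (h2.trans_lt ENNReal.ofReal_lt_top).ne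
  have key : (C2I ν₀ (fun x => Φ (x, τ₀)) u χ).toReal + m ≤
      (C2I (ν τ) (fun x => Φ (x, τ)) (w τ) χ).toReal + ε := by linarith
  calc C2I ν₀ (fun x => Φ (x, τ₀)) u χ + ENNReal.ofReal m
      = ENNReal.ofReal ((C2I ν₀ (fun x => Φ (x, τ₀)) u χ).toReal + m) := by
        rw [ENNReal.ofReal_add ENNReal.toReal_nonneg hm, ENNReal.ofReal_toReal hfin]
    _ ≤ ENNReal.ofReal ((C2I (ν τ) (fun x => Φ (x, τ)) (w τ) χ).toReal + ε) :=
        ENNReal.ofReal_le_ofReal key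
    _ ≤ ENNReal.ofReal (C2I (ν τ) (fun x => Φ (x, τ)) (w τ) χ).toReal + ENNReal.ofReal ε :=
        ENNReal.ofReal_add_le
    _ = _ := by rw [ENNReal.ofReal_toReal hf2]

end red

/-! ### GB0 -/

theorem smL_ke {f : E3 → ℂ} {r : ℝ} {u : E3 → ℝ} (hu : KEon f 0 r u) : SmL f 0 r u :=
  fun θ O hθ => hu.sm θ O hθ

theorem smL_mul {f : E3 → ℂ} {r : ℝ} {a : E3 → ℝ} (ha : SmL f 0 r a) (c : ℝ) :
    SmL f 0 r fun x => c * a x := fun θ O hθ => contDiffOn_const.mul (ha θ O hθ)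

theorem lev_mul {u : Cn 2 → ℝ} {z : Cn 2} (c : ℝ) (v : Cn 2) :
    ContDiffAt ℝ ∞ u z → lev (fun z => c * u z) z v = c * lev u z v := by
  intro hu
  unfold Crest.Agent.R273.Defs_333.lev
  have e : iteratedFDeriv ℝ 2 (fun z => c * u z) z = c • iteratedFDeriv ℝ 2 u z := by
    have : (fun z => c * u z) = c • u := by
      funext z; simp
    rw [this]
    exact iteratedFDeriv_const_smul_apply (hu.of_le (WithTop.coe_le_coe.2 le_top))
  rw [e]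
  simp only [ContinuousMultilinearMap.smul_apply, smul_eq_mul]
  ring

/-- `∫ χ e^u` is finite if `∫ χ c₂` is -/
theorem int_vol {f : E3 → ℂ} {r : ℝ} (meas : MeasStmt) (hf : LvlOK f 0 r) {ν : Measure E3}
    (hν : IsNu f 0 r ν) {u : E3 → ℝ} (hu : KEon f 0 r u) {χ : E3 → ℝ} (hχ : Cut r χ)
    (hfin : C2I ν f u χ ≠ ⊤) : Integrable (fun x => χ x * Real.exp (u x)) ν := by
  have hm : AEMeasurable (fun x => χ x * Real.exp (u x)) ν :=
    meas f 0 r hf.pos hf.an hf.sm ν hν _ (CtL.mul (ctl_amb hχ.sm.continuous)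
      (CtL.exp (ctl_ke hu)))
  refine ⟨hm.aestronglyMeasurable, ?_⟩
  rw [hasFiniteIntegral_iff_ofReal (Eventually.of_forall fun x =>
    mul_nonneg (hχ.nn x) (Real.exp_pos _).le)]
  have h1 := c2i_split meas Ked2_397.bmyStmt hf.pos hf.an hf.sm hν hu hχ
  by_contra hcon
  rw [not_lt, top_le_iff] at hcon
  apply hfin
  rw [h1]
  have h2 : VOL ν u χ = ⊤ := hcon
  rw [h2, ENNReal.mul_top (by simp), add_top]

theorem int_mxd {f : E3 → ℂ} {r : ℝ} (meas : MeasStmt) (hf : LvlOK f 0 r) {ν : Measure E3}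
    (hν : IsNu f 0 r ν) {u : E3 → ℝ} (hu : KEon f 0 r u) {χ : E3 → ℝ} (hχ : Cut r χ)
    (hfin : C2I ν f u χ ≠ ⊤) (c : ℝ) :
    Integrable (fun x => χ x * mxd f (fun x => c * u x) (fun x => c * u x) x) ν := by
  refine ((int_vol meas hf hν hu hχ hfin).const_mul (2 * c ^ 2)).congr ?_
  filter_upwards [isnu_ae hν] with x hx
  have h1 := mxd_mul (b := fun x => c * u x) hf (smL_ke hu) c hx.2.1 hx.2.2 hx.1
  have h2 := mxd_comm (a := u) (b := fun x => c * u x) hf hx.2.1 hx.2.2 hx.1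
  have h3 := mxd_mul (b := u) hf (smL_ke hu) c hx.2.1 hx.2.2 hx.1
  have h4 := mxd_ke hf hu hx.2.1 hx.2.2 hx.1
  rw [h1, h2, h3, h4]
  ring

/-- `Up1Stmt` from `XStmt` and `Up0Stmt` -/
theorem up1_of (xs : XStmt) (up0 : Up0Stmt) : Up1Stmt := by
  intro Φ τ₀ l r C w u hD f hf hm
  have hiso : Iso f := hf ▸ hD.iso
  obtain ⟨k, g, h, hk, hg, hh, hJ, c1, c2, c3, c4⟩ := xs f hiso hm
  exact ⟨k, g, h, ⟨hk, hg, hh, c1, c2, c3, c4⟩, fun κ hκ0 hκk =>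
    up0 Φ τ₀ l r C w u hD f hf hm k g h hk hg hh hJ c1 c2 κ hκ0 hκk⟩

theorem xpr_zero {f g h : E3 → ℂ} {k : ℕ} (hX : XPr f k g h) (hm : 0 < mstar f) :
    g 0 = 0 ∧ h 0 = 0 := by
  have hkpos : (0 : ℝ) < (k : ℝ) := by
    have : 0 < k := by have := hX.two; omega
    exact_mod_cast this
  have hne : col ![f, g, h] ≠ 0 := by
    have hpos : (0 : ℝ) < col ![f, g, h] := by
      rw [hX.num]
      positivity
    intro h0
    rw [h0] at hpos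
    simp at hpos
  constructor
  · by_contra hcon
    exact hne (Skel_219.col_eq_zero (G := ![f, g, h]) (j := 1) hX.g_an hcon)
  · by_contra hcon
    exact hne (Skel_219.col_eq_zero (G := ![f, g, h]) (j := 2) hX.h_an hcon)

theorem xpr_L (lg : LGStmt) {f g h : E3 → ℂ} {k : ℕ} (hf : Iso f) (hX : XPr f k g h)
    (hm : 0 < mstar f) : ColFin (mnr f g) ∧
    (col (mnr f g) : ℝ) = col (par f) + 1 + ((k : ℝ) ^ 2 + k) * mstar f := by
  obtain ⟨g0, h0⟩ := xpr_zero hX hm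
  obtain ⟨cf, cL⟩ := lg f g h hf.an hX.g_an hX.h_an hf.zero g0 h0 hf.fin hX.fin hX.fin'
  refine ⟨cf, ?_⟩
  have e : ((col (mnr f g) + col ![f, g, h] : ℕ) : ℝ) =
      ((col (par f) + col ![f, g, Dt f g h] + 1 : ℕ) : ℝ) := by rw [cL]
  push_cast at e
  rw [hX.num, hX.num'] at e
  linarith

/-- the first half of `LossStmt` -/
def Loss1 : Prop := ∀ (Φ : E3 × PP → ℂ) (τ₀ : PP) (l : Filter PP) (r C : ℝ)
  (w : PP → E3 → ℝ) (u : E3 → ℝ), SmD Φ τ₀ l r C w u → ∀ f, f = (fun x => Φ (x, τ₀)) →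
  ∀ A : ℝ, Esc f r u A → ∀ φ : E3 → ℝ, SmL f 0 r φ →
  (∀ θ O, PE f 0 r θ O → ∀ z ∈ O, ∀ v : Cn 2, 0 ≤ lev (fun z => φ (θ z)) z v) →
  (∀ x, f x = 0 → x ≠ 0 → nsq x < r ^ 2 → - A * (A - u x) ≤ φ x ∧ φ x ≤ A) →
  ∀ χ, Cut r χ →
  ∀ (ν : PP → Measure E3) (ν₀ : Measure E3), (∀ᶠ τ in l, IsNu (fun x => Φ (x, τ)) 0 r (ν τ)) →
  IsNu f 0 r ν₀ → Integrable (fun x => χ x * mxd f φ φ x) ν₀ →
  ∀ (N : ℕ) (h : E3 → ℂ), (∀ x, nsq x ≤ r ^ 2 → AnalyticAt ℂ h x) → h 0 = 0 →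
  ColFin (mnr f h) → NoZ f r h → UpB f r u A N φ h →
  ∀ ε : ℝ, 0 < ε → ∀ᶠ τ in l, (C2I (ν τ) (fun x => Φ (x, τ)) (w τ) χ).toReal ≤
    (C2I ν₀ f u χ).toReal +
      Real.pi ^ 2 * (col (mnr f h) - mss ν₀ f u φ χ - mss ν₀ f φ φ χ) + ε

theorem loss1_of (h : LossStmt) : Loss1 :=
  fun Φ τ₀ l r C w u hD f hf A hE φ hφ hpsh hbd χ hχ ν ν₀ hν hν₀ hI N g hh h0 hcf hnz hup =>
    (h Φ τ₀ l r C w u hD f hf A hE φ hφ hpsh hbd χ hχ ν ν₀ hν hν₀ hI N g hh h0 hcf hnz hup).1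

/-- **(GB0)** -/
theorem GB0_of (meas : MeasStmt) (fat : FatStmt) (cvi : CvIStmt) (bd : BdStmt)
    (loss : Loss1) (esc : EscStmt) (up1 : Up1Stmt) (v1 : V1Stmt) (lg : LGStmt) :
    GB0Stmt := by
  intro Φ τ₀ l r C w u hD f hf hm χ hχ ν ν₀ hν hν₀ ε hε
  have ctd := Ked4_397.ctDStmt
  have cvd := Ked4_397.cvDStmt
  have bmy := Ked2_397.bmyStmt
  have hiso : Iso f := hf ▸ hD.iso
  have hfa : AnalyticAt ℂ f 0 := hiso.an
  have hlv : LvlOK f 0 r := hf ▸ smd_0 hD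
  have hke : KEon f 0 r u := hf ▸ hD.ke0.1
  obtain ⟨k, g, h, hX, hup⟩ := up1 Φ τ₀ l r C w u hD f hf hm
  have hg := hX.g_an
  have hkpos : (0 : ℝ) < (k : ℝ) := by
    have : 0 < k := by have := hX.two; omega
    exact_mod_cast this
  obtain ⟨g0, h0⟩ := xpr_zero hX hm
  obtain ⟨cf, cL'⟩ := xpr_L lg hiso hX hm
  -- the exponent
  have hpi : 0 < Real.pi ^ 2 := by positivity
  obtain ⟨κ, hκ0, hκk, hκ⟩ : ∃ κ : ℝ, 0 < κ ∧ κ < k ∧
      Real.pi ^ 2 * (((k : ℝ) ^ 2 + k - κ - κ ^ 2) * mstar f) ≤ ε / 4 := by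
    have hcont : Tendsto (fun κ : ℝ => Real.pi ^ 2 * (((k : ℝ) ^ 2 + k - κ - κ ^ 2) * mstar f))
        (𝓝 ((k : ℕ) : ℝ)) (𝓝 0) := by
      have : ContinuousAt (fun κ : ℝ =>
          Real.pi ^ 2 * (((k : ℝ) ^ 2 + k - κ - κ ^ 2) * mstar f)) (k : ℝ) := by fun_prop
      have h2 := this.tendsto
      have e : Real.pi ^ 2 * (((k : ℝ) ^ 2 + k - k - k ^ 2) * mstar f) = 0 := by ring
      rwa [e] at h2
    have h3 := (hcont.eventually (gt_mem_nhds (by linarith : (0 : ℝ) < ε / 4))).filter_mono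
      (nhdsWithin_le_nhds (s := Set.Iio (k : ℝ)))
    have h4 : ∀ᶠ κ : ℝ in 𝓝[<] (k : ℝ), κ < k := eventually_mem_nhdsWithin
    have h5 : ∀ᶠ κ : ℝ in 𝓝[<] (k : ℝ), 0 < κ :=
      (lt_mem_nhds hkpos).filter_mono nhdsWithin_le_nhds
    obtain ⟨κ, a, b, c⟩ := (h3.and (h4.and h5)).exists
    exact ⟨κ, c, b, a.le⟩
  -- radii
  obtain ⟨r₁, A₁, e1, e2, e3⟩ := esc Φ τ₀ l r C w u hD f hf hm
  obtain ⟨r₂, A₂, N, u1, u2, u3, u4, u5⟩ := hup κ hκ0 hκk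
  obtain ⟨r₃, n1, n2⟩ := noz_of_colFin hlv hfa hg cf
  obtain ⟨r₄, a1, a2⟩ := nsq_lt_of hg.eventually_analyticAt
  obtain ⟨r', hr0, hr1, hr2, hr3, hr4⟩ : ∃ r' : ℝ, 0 < r' ∧ r' ≤ r₁ ∧ r' ≤ r₂ ∧ r' ≤ r₃ ∧
      r' < r₄ := by
    refine ⟨min (min r₁ r₂) (min r₃ (r₄ / 2)), by positivity, ?_, ?_, ?_, ?_⟩
    · exact (min_le_left _ _).trans (min_le_left _ _)
    · exact (min_le_left _ _).trans (min_le_right _ _)
    · exact (min_le_right _ _).trans (min_le_left _ _)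
    · exact ((min_le_right _ _).trans (min_le_right _ _)).trans_lt (by linarith)
  have hrr : r' ≤ r := hr1.trans e2.le
  have hke' : KEon f 0 r' u := ke_mono hr0.le hrr hke
  have hke1 : KEon f 0 r₁ u := ke_mono e1.le e2.le hke
  have hE := esc_mono hr0.le hr1 e3
  have hA1 := e3.pos
  -- constants
  set A := max (max A₁ A₂) (max κ (κ * A₁)) with hA
  have i1 : A₁ ≤ A := (le_max_left _ _).trans (le_max_left _ _)
  have i2 : A₂ ≤ A := (le_max_right _ _).trans (le_max_left _ _)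
  have i3 : κ ≤ A := (le_max_left _ _).trans (le_max_right _ _)
  have i4 : κ * A₁ ≤ A := (le_max_right _ _).trans (le_max_right _ _)
  have hE' : Esc f r' u A := esc_A hke' hE i1
  have hU : UpB f r' u A N (fun x => κ * u x) g :=
    upb_A hke' (fun x y1 y2 y3 => u4 x y1 y2 (y3.trans_le (sq_mono hr0.le hr2))) u3
      (upb_mono hr0.le hr2 u5) i2
  have hD' : SmD Φ τ₀ l r' C w u := smd_mono hr0 hrr hD
  have hlv' : LvlOK f 0 r' := hf ▸ smd_0 hD'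
  obtain ⟨χ', hχ'⟩ := exists_cut hr0
  have hν' := isnu_rs_ev (Φ := Φ) (ν := ν) hr0 hrr hν
  have hν₀' : IsNu f 0 r' (rs r' ν₀) := isnu_rs hr0.le hrr hν₀
  have hν₀'' : IsNu (fun x => Φ (x, τ₀)) 0 r' (rs r' ν₀) := hf ▸ hν₀'
  have hfin : C2I (rs r' ν₀) f u χ' ≠ ⊤ := by
    have := fin_0 fat ctd cvd bd hD' hχ' hν' hν₀''
    rw [hf]
    exact this
  have hloss := (loss Φ τ₀ l r' C w u hD' f hf A hE' (fun x => κ * u x)
    (smL_mul (smL_ke hke') κ) (fun θ O hθ z hz v => by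
      have h1 : ContDiffAt ℝ ∞ (fun z => u (θ z)) z :=
        (hke'.sm θ O hθ).contDiffAt (hθ.par.isOpen.mem_nhds hz)
      have h2 := lev_mul (u := fun z => u (θ z)) κ v h1
      rw [h2]
      exact mul_nonneg hκ0.le (lev_nn hke' hθ hz v))
    (fun x y1 y2 y3 => by
      have h1 := hE.one x y1 y2 y3
      have h2 : 0 < A - κ ∨ A - κ = 0 := by
        rcases i3.lt_or_eq with h | h
        · left; linarith
        · right; linarith
      have h3 : u x ≤ A₁ := by linarith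
      have h4 : 0 < A := hA1.trans_le i1
      constructor
      · have h5 : (A - κ) * u x ≤ (A - κ) * A := by
          refine mul_le_mul_of_nonneg_left (h3.trans i1) (by linarith)
        nlinarith
      · calc κ * u x ≤ κ * A₁ := by gcongr
          _ ≤ A := i4)
    χ' hχ' (fun τ => rs r' (ν τ)) (rs r' ν₀) hν' hν₀'
    (int_mxd meas hlv' hν₀' hke' hχ' hfin κ) N g
    (fun x hx => a2 x (hx.trans_lt (by gcongr))) g0 cf (n2 r' hr3 hr0 hrr) hU) (ε / 4)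
    (by positivity)
  -- masses
  have hmas := v1 Φ τ₀ l r' C w u hD' f hf hm χ' hχ' (rs r' ν₀) hν₀'
  have hmeas : AEMeasurable (fun x => χ' x * Real.exp (u x)) (rs r' ν₀) :=
    meas f 0 r' hlv'.pos hlv'.an hlv'.sm _ hν₀' _ (CtL.mul (ctl_amb hχ'.sm.continuous)
      (CtL.exp (ctl_ke hke')))
  have m1 : mss (rs r' ν₀) f u (fun x => κ * u x) χ' = κ * mas (rs r' ν₀) f u χ' := by
    rw [mss_mul_right hlv' hν₀' (smL_ke hke'), mss_self hlv' hν₀' hke' hχ' hmeas]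
  have m2 : mss (rs r' ν₀) f (fun x => κ * u x) (fun x => κ * u x) χ' =
      κ ^ 2 * mas (rs r' ν₀) f u χ' := by
    rw [mss_mul_left hlv' hν₀' (smL_ke hke'), m1]
    ring
  rw [m1, m2, cL'] at hloss
  -- conclusion
  have key : ∀ᶠ τ in l, (C2I (rs r' (ν τ)) (fun x => Φ (x, τ)) (w τ) χ').toReal ≤
      (C2I (rs r' ν₀) (fun x => Φ (x, τ₀)) u χ').toReal +
        (Real.pi ^ 2 * (col (par f) + 1) + ε / 2) := by
    filter_upwards [hloss] with τ hτ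
    refine hτ.trans ?_
    rw [← hf]
    have h2 : (κ + κ ^ 2) * mstar f ≤ (κ + κ ^ 2) * mas (rs r' ν₀) f u χ' := by
      gcongr
    have h3 : Real.pi ^ 2 * ((κ + κ ^ 2) * mstar f) ≤
        Real.pi ^ 2 * ((κ + κ ^ 2) * mas (rs r' ν₀) f u χ') := by gcongr
    nlinarith
  have hfinal := red_up meas fat cvi ctd bmy cvd bd hD hrr hχ hχ' hν (hf ▸ hν₀) key
    (half_pos hε)
  filter_upwards [hfinal] with τ hτ
  rw [← hf] at hτ
  refine hτ.trans ?_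
  have h5 : ENNReal.ofReal (Real.pi ^ 2 * (col (par f) + 1) + ε / 2) + ENNReal.ofReal (ε / 2) =
      ENNReal.ofReal (Real.pi ^ 2 * (col (par f) + 1)) + ENNReal.ofReal ε := by
    rw [← ENNReal.ofReal_add (by positivity) (by positivity),
      ← ENNReal.ofReal_add (by positivity) (by positivity)]
    congr 1
    ring
  rw [add_assoc, h5, ← add_assoc]

/-- **(GB1)** from `UppStmt` -/
theorem GB1_of (meas : MeasStmt) (fat : FatStmt) (cvi : CvIStmt) (bd : BdStmt)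
    (upp : UppStmt) (v1 : V1Stmt) (lg : LGStmt) : GB1Stmt := by
  intro Φ τ₀ l r C w u hD f hf hm χ hχ ν ν₀ hν hν₀ ε hε
  have ctd := Ked4_397.ctDStmt
  have cvd := Ked4_397.cvDStmt
  have bmy := Ked2_397.bmyStmt
  have hiso : Iso f := hf ▸ hD.iso
  obtain ⟨k, g, h, r', χ', hX, hr0, hrr, hχ', H⟩ := upp Φ τ₀ l r C w u hD f hf hm
  obtain ⟨cf, cL⟩ := xpr_L lg hiso hX hm
  have hkpos : (0 : ℝ) < (k : ℝ) := by
    have : 0 < k := by have := hX.two; omega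
    exact_mod_cast this
  have hD' : SmD Φ τ₀ l r' C w u := smd_mono hr0 hrr hD
  have hν' := isnu_rs_ev (Φ := Φ) (ν := ν) hr0 hrr hν
  have hν₀' : IsNu f 0 r' (rs r' ν₀) := isnu_rs hr0.le hrr hν₀
  have hmas := v1 Φ τ₀ l r' C w u hD' f hf hm χ' hχ' (rs r' ν₀) hν₀'
  have hH := H (fun τ => rs r' (ν τ)) (rs r' ν₀) hν' hν₀' (ε / 2) (half_pos hε)
  have hpi : 0 < Real.pi ^ 2 := by positivity
  have key : ∀ᶠ τ in l, (C2I (rs r' ν₀) (fun x => Φ (x, τ₀)) u χ').toReal +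
      Real.pi ^ 2 * (col (par f) + 1) ≤
      (C2I (rs r' (ν τ)) (fun x => Φ (x, τ)) (w τ) χ').toReal + ε / 2 := by
    filter_upwards [hH] with τ hτ
    rw [← hf]
    have e1 : (col (mnr f g) : ℝ) - (1 + 1 / k) * col ![f, g, h] - col ![f, g, h] / (2 * k ^ 2) +
        mas (rs r' ν₀) f u χ' / 2 =
        col (par f) + 1 + (mas (rs r' ν₀) f u χ' - mstar f) / 2 := by
      rw [cL, hX.num]
      field_simp
      ring
    rw [e1] at hτ
    have e2 : Real.pi ^ 2 * (col (par f) + 1) ≤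
        Real.pi ^ 2 * (col (par f) + 1 + (mas (rs r' ν₀) f u χ' - mstar f) / 2) := by
      refine mul_le_mul_of_nonneg_left ?_ hpi.le
      linarith
    linarith
  have hfinal := red_lo meas fat cvi ctd bmy cvd bd hD hrr hχ hχ' hν (hf ▸ hν₀)
    (by positivity) hε key
  filter_upwards [hfinal] with τ hτ
  rwa [← hf] at hτ

end Crest.Agent.R257.SkelG_952
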