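import Crest.Agent.R257.FlowE_941

/-!
R257 / FlowF_941: A-FLOW for three functions `F, g, h` on `ℂ³ × ℂ`, in the exact shape of the
conclusion of S0395.
-/

set_option autoImplicit false
set_option linter.unusedSectionVars false
set_option linter.deprecated false

open Set Filter Topology Metric

noncomputable section

namespace Crest.Agent.R257.Flow_941

variable {E : Type} [NormedAddCommGroup E] [NormedSpace ℂ E] [FiniteDimensional ℂ E]

/-- `dx` is the partial derivative of the slice. -/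
theorem dx_eq {c : E × ℂ → ℂ} {p : E × ℂ} (hc : DifferentiableAt ℂ c p) :
    dx c p = fderiv ℂ (fun x => c (x, p.2)) p.1 := by
  have h1 : HasFDerivAt (fun x : E => ((x, p.2) : E × ℂ)) (ContinuousLinearMap.inl ℂ E ℂ) p.1 :=
    hasFDerivAt_prodMk_left p.1 p.2
  have h2 : HasFDerivAt c (fderiv ℂ c p) ((fun x : E => ((x, p.2) : E × ℂ)) p.1) :=
    hc.hasFDerivAt
  exact (h2.comp p.1 h1).fderiv.symm

/-- a neighbourhood of `(0,0)` contains a polydisc -/
theorem exists_Om {P : E × ℂ → Prop} (h : ∀ᶠ p in 𝓝 ((0 : E), (0 : ℂ)), P p) :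
    ∃ r > 0, ∀ p ∈ Om E r r, P p := by
  obtain ⟨r, hr, hb⟩ := Metric.eventually_nhds_iff.1 h
  refine ⟨r, hr, fun p hp => hb ?_⟩
  rw [Prod.dist_eq]
  exact max_lt (by simpa using hp.1) (by simpa using hp.2)

/-- **A-FLOW.** Three functions analytic near the origin of `E × ℂ`, zero on the axis, such that
near the origin and off the axis: `d_x F ≠ 0`; where `F = 0`, `d_x F` and `d_x g` are independent;
where `F = g = 0`, `h ≠ 0` and `d_x F, d_x g, d_x h` are independent. -/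
theorem flow_three {F g h : E × ℂ → ℂ} (hF : AnalyticAt ℂ F (0, 0)) (hg : AnalyticAt ℂ g (0, 0))
    (hh : AnalyticAt ℂ h (0, 0))
    (hax : ∀ᶠ t : ℂ in 𝓝 0, F (0, t) = 0 ∧ g (0, t) = 0 ∧ h (0, t) = 0)
    (h1 : ∀ᶠ p : E × ℂ in 𝓝 (0, 0), p.1 ≠ 0 → fderiv ℂ (fun x => F (x, p.2)) p.1 ≠ 0)
    (h2 : ∀ᶠ p : E × ℂ in 𝓝 (0, 0), p.1 ≠ 0 → F p = 0 →
      LinearIndependent ℂ ![fderiv ℂ (fun x => F (x, p.2)) p.1,
        fderiv ℂ (fun x => g (x, p.2)) p.1])
    (h3 : ∀ᶠ p : E × ℂ in 𝓝 (0, 0), p.1 ≠ 0 → F p = 0 → g p = 0 → h p ≠ 0 ∧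
      LinearIndependent ℂ ![fderiv ℂ (fun x => F (x, p.2)) p.1,
        fderiv ℂ (fun x => g (x, p.2)) p.1, fderiv ℂ (fun x => h (x, p.2)) p.1]) :
    ∃ δ : ℝ, 0 < δ ∧ ∃ Φ : OpenPartialHomeomorph (E × ℂ) (E × ℂ),
      (∀ t : ℂ, ‖t‖ < δ → ((0 : E), t) ∈ Φ.source ∧ Φ (0, t) = (0, t)) ∧
      (∀ p ∈ Φ.source, (Φ p).2 = p.2 ∧ F (Φ p) = F (p.1, 0)) ∧
      (∀ x : E, (x, (0 : ℂ)) ∈ Φ.source → Φ (x, 0) = (x, 0)) := by
  have hax' : ∀ᶠ p : E × ℂ in 𝓝 ((0 : E), (0 : ℂ)),
      F (0, p.2) = 0 ∧ g (0, p.2) = 0 ∧ h (0, p.2) = 0 :=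
    (continuous_snd.continuousAt (x := ((0 : E), (0 : ℂ)))).eventually hax
  obtain ⟨r, hr, hP⟩ := exists_Om (((hF.eventually_analyticAt.and hg.eventually_analyticAt).and
    (hh.eventually_analyticAt.and hax')).and ((h1.and h2).and h3))
  let c : ℕ → E × ℂ → ℂ := fun j => if j = 0 then F else if j = 1 then g else h
  have hc : ∀ j ≤ 2, ∀ p ∈ Om E r r, AnalyticAt ℂ (c j) p := by
    intro j _ p hp
    obtain ⟨⟨⟨a1, a2⟩, a3, -⟩, -⟩ := hP p hp
    simp only [c]
    split_ifs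
    · exact a1
    · exact a2
    · exact a3
  refine flow_flag (ε := r) (δ := r) hr hr (c := c) (m := 2) hc ?_ ?_
  · intro j _ t ht
    obtain ⟨⟨-, -, a4⟩, -⟩ := hP ((0 : E), t) ⟨by simpa using hr, ht⟩
    simp only [c]
    split_ifs
    · exact a4.1
    · exact a4.2.1
    · exact a4.2.2
  · intro p hp hp0
    obtain ⟨⟨⟨a1, a2⟩, a3, -⟩, ⟨b1, b2⟩, b3⟩ := hP p hp
    have e0 : dx (c 0) p = fderiv ℂ (fun x => F (x, p.2)) p.1 := dx_eq a1.differentiableAt
    have e1 : dx (c 1) p = fderiv ℂ (fun x => g (x, p.2)) p.1 := dx_eq a2.differentiableAt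
    have e2 : dx (c 2) p = fderiv ℂ (fun x => h (x, p.2)) p.1 := dx_eq a3.differentiableAt
    by_cases hF0 : F p = 0
    · by_cases hg0 : g p = 0
      · obtain ⟨hne, hli⟩ := b3 hp0 hF0 hg0
        refine ⟨2, le_rfl, hne, ?_, ?_⟩
        · intro j hj
          interval_cases j
          · exact hF0
          · exact hg0
        · convert hli using 1
          funext i
          fin_cases i
          · exact e0
          · exact e1
          · exact e2
      · refine ⟨1, by norm_num, hg0, ?_, ?_⟩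
        · intro j hj
          interval_cases j
          exact hF0
        · convert b2 hp0 hF0 using 1
          funext i
          fin_cases i
          · exact e0
          · exact e1
    · refine ⟨0, by norm_num, hF0, fun j hj => absurd hj (Nat.not_lt_zero j), ?_⟩
      show LinearIndependent ℂ (fun i : Fin 1 => dx (c i) p)
      refine linearIndependent_unique_iff.2 ?_
      show dx (c 0) p ≠ 0
      rw [e0]; exact b1 hp0

end Crest.Agent.R257.Flow_941
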