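import Crest.Agent.R257.SkelA_219
import Crest.Agent.R257.FlowF_941

/-!
R257 / SkelB_219: assembly of the case `0 < mstar (F_0)` from the Props of `Defs_219`.
-/

set_option autoImplicit false

open Topology Filter MeasureTheory Set
open scoped ENNReal
open Crest.AlgGeometry.Germ

noncomputable section

namespace Crest.Agent.R257.Skel_219

open Crest.Agent.R257.Defs_219

/-- a property true almost everywhere is true frequently in a punctured neighbourhood -/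
theorem frequently_of_ae {Q : ℂ → Prop} (h : ∀ᵐ t : ℂ, Q t) : ∃ᶠ t in 𝓝[≠] (0 : ℂ), Q t := by
  intro hc
  rw [eventually_nhdsWithin_iff] at hc
  obtain ⟨U, hU, hUo, h0⟩ := mem_nhds_iff.1 hc
  have hOo : IsOpen (U \ {0}) := hUo.sdiff isClosed_singleton
  have hne : (U \ {(0 : ℂ)}).Nonempty := by
    have : (𝓝[≠] (0 : ℂ)).NeBot := inferInstance
    have hm : U ∩ {(0 : ℂ)}ᶜ ∈ 𝓝[≠] (0 : ℂ) := inter_mem_nhdsWithin' hUo h0
    exact (this.nonempty_of_mem hm)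
  have hpos : 0 < volume (U \ {(0 : ℂ)}) := hOo.measure_pos volume hne
  have hz : volume (U \ {(0 : ℂ)}) = 0 := by
    refine measure_mono_null (fun t ht => ?_) (ae_iff.1 h)
    exact hU ht.1 ht.2
  exact hpos.ne' hz
where
  inter_mem_nhdsWithin' {U : Set ℂ} (hUo : IsOpen U) (h0 : (0 : ℂ) ∈ U) :
      U ∩ {(0 : ℂ)}ᶜ ∈ 𝓝[≠] (0 : ℂ) :=
    inter_mem (mem_nhdsWithin_of_mem_nhds (hUo.mem_nhds h0)) self_mem_nhdsWithin

/-- the choice of the real exponents -/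
theorem exists_exponents {k : ℕ} (hk : 2 ≤ k) {m : ℝ} (hm : 0 < m) :
    ∃ p q c : ℝ, 1 ≤ p ∧ p < k ∧ 1 ≤ q ∧ q < p + p + 1 ∧ 0 < c ∧ c < m ∧
      (k : ℝ) ^ 2 * m - 1 < p * p * c ∧ (2 * (k : ℝ) ^ 2 + k) * m - 1 < p * q * c := by
  have hk' : (2 : ℝ) ≤ k := by exact_mod_cast hk
  have t1 : Tendsto (fun e : ℝ => ((k : ℝ) - e) * (k - e) * (m - e)) (𝓝[>] 0)
      (𝓝 (((k : ℝ) - 0) * (k - 0) * (m - 0))) := by
    apply tendsto_nhdsWithin_of_tendsto_nhds
    exact (Continuous.tendsto (by fun_prop) _)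
  have t2 : Tendsto (fun e : ℝ => ((k : ℝ) - e) * (2 * k + 1 - 3 * e) * (m - e)) (𝓝[>] 0)
      (𝓝 (((k : ℝ) - 0) * (2 * k + 1 - 3 * 0) * (m - 0))) := by
    apply tendsto_nhdsWithin_of_tendsto_nhds
    exact (Continuous.tendsto (by fun_prop) _)
  have e1 : ∀ᶠ e : ℝ in 𝓝[>] 0, (k : ℝ) ^ 2 * m - 1 < ((k : ℝ) - e) * (k - e) * (m - e) :=
    t1.eventually_const_lt (by nlinarith)
  have e2 : ∀ᶠ e : ℝ in 𝓝[>] 0, (2 * (k : ℝ) ^ 2 + k) * m - 1 <
      ((k : ℝ) - e) * (2 * k + 1 - 3 * e) * (m - e) :=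
    t2.eventually_const_lt (by nlinarith)
  have e3 : ∀ᶠ e : ℝ in 𝓝[>] 0, e < 1 := by
    apply nhdsWithin_le_nhds
    exact eventually_lt_nhds one_pos
  have e4 : ∀ᶠ e : ℝ in 𝓝[>] 0, e < m := by
    apply nhdsWithin_le_nhds
    exact eventually_lt_nhds hm
  have e5 : ∀ᶠ e : ℝ in 𝓝[>] 0, 0 < e := self_mem_nhdsWithin
  obtain ⟨e, h1, h2, h3, h4, h5⟩ := (e1.and (e2.and (e3.and (e4.and e5)))).exists
  exact ⟨k - e, 2 * k + 1 - 3 * e, m - e, by linarith, by linarith, by linarith, by linarith,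
    by linarith, by linarith, h1, h2⟩

theorem sl3 (F G H : E3 × ℂ → ℂ) (t : ℂ) :
    (fun j => sl ((![F, G, H] : Fin 3 → E3 × ℂ → ℂ) j) t) = ![sl F t, sl G t, sl H t] := by
  funext j
  fin_cases j <;> rfl

/-- the family `Dt` -/
def DtF (F G H : E3 × ℂ → ℂ) : E3 × ℂ → ℂ := fun q => Dt (sl F q.2) (sl G q.2) (sl H q.2) q.1

theorem sl_DtF (F G H : E3 × ℂ → ℂ) (t : ℂ) :
    sl (DtF F G H) t = Dt (sl F t) (sl G t) (sl H t) := rfl

theorem analyticAt_DtF {F G H : E3 × ℂ → ℂ} (hF : AnalyticAt ℂ F (0, 0))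
    (hG : AnalyticAt ℂ G (0, 0)) (hH : AnalyticAt ℂ H (0, 0)) :
    AnalyticAt ℂ (DtF F G H) (0, 0) := by
  have e : DtF F G H = _ := funext fun q => Dt_eq (sl F q.2) (sl G q.2) (sl H q.2) q.1
  rw [e]
  have F' := analyticAt_pd hF
  have G' := analyticAt_pd hG
  have H' := analyticAt_pd hH
  exact (((((((F' 0).mul (G' 1)).mul (H' 2)).sub (((F' 0).mul (G' 2)).mul (H' 1))).sub
    (((F' 1).mul (G' 0)).mul (H' 2))).add (((F' 1).mul (G' 2)).mul (H' 0))).add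
    (((F' 2).mul (G' 0)).mul (H' 1))).sub (((F' 2).mul (G' 1)).mul (H' 0))

/-- the family of minors -/
def mnrF (F G : E3 × ℂ → ℂ) : Fin 4 → E3 × ℂ → ℂ :=
  ![F, fun q => coordDeriv (sl F q.2) 1 q.1 * coordDeriv (sl G q.2) 2 q.1
      - coordDeriv (sl F q.2) 2 q.1 * coordDeriv (sl G q.2) 1 q.1,
    fun q => coordDeriv (sl F q.2) 2 q.1 * coordDeriv (sl G q.2) 0 q.1
      - coordDeriv (sl F q.2) 0 q.1 * coordDeriv (sl G q.2) 2 q.1,
    fun q => coordDeriv (sl F q.2) 0 q.1 * coordDeriv (sl G q.2) 1 q.1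
      - coordDeriv (sl F q.2) 1 q.1 * coordDeriv (sl G q.2) 0 q.1]

theorem sl_mnrF (F G : E3 × ℂ → ℂ) (t : ℂ) :
    (fun j => sl (mnrF F G j) t) = mnr (sl F t) (sl G t) := by
  funext j
  fin_cases j <;> rfl

theorem analyticAt_mnrF {F G : E3 × ℂ → ℂ} (hF : AnalyticAt ℂ F (0, 0))
    (hG : AnalyticAt ℂ G (0, 0)) (j : Fin 4) : AnalyticAt ℂ (mnrF F G j) (0, 0) := by
  have F' := analyticAt_pd hF
  have G' := analyticAt_pd hG
  fin_cases j
  · exact hF
  · exact ((F' 1).mul (G' 2)).sub ((F' 2).mul (G' 1))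
  · exact ((F' 2).mul (G' 0)).sub ((F' 0).mul (G' 2))
  · exact ((F' 0).mul (G' 1)).sub ((F' 1).mul (G' 0))

/-! ### linear independence from minors -/

theorem fderiv_apply_eq (f : E3 → ℂ) (x : E3) (i : Fin 3) :
    fderiv ℂ f x (Pi.single i 1) = coordDeriv f i x := rfl

theorem li2 {f g : E3 → ℂ} {x : E3}
    (h : gr f x 1 * gr g x 2 - gr f x 2 * gr g x 1 ≠ 0 ∨
      gr f x 2 * gr g x 0 - gr f x 0 * gr g x 2 ≠ 0 ∨
      gr f x 0 * gr g x 1 - gr f x 1 * gr g x 0 ≠ 0) :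
    LinearIndependent ℂ ![fderiv ℂ f x, fderiv ℂ g x] := by
  rw [LinearIndependent.pair_iff]
  intro s t hst
  have e : ∀ i, s * gr f x i + t * gr g x i = 0 := fun i => by
    have := congrArg (fun L : E3 →L[ℂ] ℂ => L (Pi.single i 1)) hst
    simpa [gr, coordDeriv] using this
  have e0 := e 0
  have e1 := e 1
  have e2 := e 2
  have key : ∀ i j : Fin 3, gr f x i * gr g x j - gr f x j * gr g x i ≠ 0 → s = 0 ∧ t = 0 := by
    intro i j hij
    have a1 : s * (gr f x i * gr g x j - gr f x j * gr g x i) = 0 := by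
      linear_combination gr g x j * e i - gr g x i * e j
    have a2 : t * (gr f x i * gr g x j - gr f x j * gr g x i) = 0 := by
      linear_combination gr f x i * e j - gr f x j * e i
    exact ⟨(mul_eq_zero.1 a1).resolve_right hij, (mul_eq_zero.1 a2).resolve_right hij⟩
  rcases h with h | h | h
  · exact key 1 2 h
  · exact key 2 0 h
  · exact key 0 1 h

theorem li3 {f g h : E3 → ℂ} {x : E3} (hD : Dt f g h x ≠ 0) :
    LinearIndependent ℂ ![fderiv ℂ f x, fderiv ℂ g x, fderiv ℂ h x] := by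
  rw [Fintype.linearIndependent_iff]
  intro c hc
  have e : ∀ i, c 0 * gr f x i + c 1 * gr g x i + c 2 * gr h x i = 0 := fun i => by
    have := congrArg (fun L : E3 →L[ℂ] ℂ => L (Pi.single i 1)) hc
    simpa [gr, coordDeriv, Fin.sum_univ_three] using this
  have hD' : Dt f g h x = gr f x 0 * gr g x 1 * gr h x 2 - gr f x 0 * gr g x 2 * gr h x 1
    - gr f x 1 * gr g x 0 * gr h x 2 + gr f x 1 * gr g x 2 * gr h x 0
    + gr f x 2 * gr g x 0 * gr h x 1 - gr f x 2 * gr g x 1 * gr h x 0 := Dt_eq f g h x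
  have e0 := e 0
  have e1 := e 1
  have e2 := e 2
  have a0 : c 0 * Dt f g h x = 0 := by
    rw [hD']
    linear_combination (gr g x 1 * gr h x 2 - gr g x 2 * gr h x 1) * e0
      + (gr g x 2 * gr h x 0 - gr g x 0 * gr h x 2) * e1
      + (gr g x 0 * gr h x 1 - gr g x 1 * gr h x 0) * e2
  have a1 : c 1 * Dt f g h x = 0 := by
    rw [hD']
    linear_combination (gr h x 1 * gr f x 2 - gr h x 2 * gr f x 1) * e0
      + (gr h x 2 * gr f x 0 - gr h x 0 * gr f x 2) * e1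
      + (gr h x 0 * gr f x 1 - gr h x 1 * gr f x 0) * e2
  have a2 : c 2 * Dt f g h x = 0 := by
    rw [hD']
    linear_combination (gr f x 1 * gr g x 2 - gr f x 2 * gr g x 1) * e0
      + (gr f x 2 * gr g x 0 - gr f x 0 * gr g x 2) * e1
      + (gr f x 0 * gr g x 1 - gr f x 1 * gr g x 0) * e2
  intro i
  fin_cases i
  · exact (mul_eq_zero.1 a0).resolve_right hD
  · exact (mul_eq_zero.1 a1).resolve_right hD
  · exact (mul_eq_zero.1 a2).resolve_right hD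

theorem fderiv_ne {f : E3 → ℂ} {x : E3} (h : ¬ ∀ i, coordDeriv f i x = 0) :
    fderiv ℂ f x ≠ 0 := by
  intro hf
  apply h
  intro i
  unfold coordDeriv
  rw [hf]
  rfl

end Crest.Agent.R257.Skel_219
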