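import Crest.Agent.R257.XFin_157
import Crest.Agent.R257.SkelB_219
import Crest.Agent.R257.ColAdd_812

/-!
R257 / Cmp_157: the comparison theorem for intersection numbers

`|g| ≤ C |Φ|^α`, `|h| ≤ C |Φ|^β` on `{f = 0}`, `Φ = (p, q)` ⟹ `αβ I(f,p,q) ≤ I(f,g,h)`.

Strict rational exponents; for a fixed `t ≠ 0` the homotopy
`(f, s g^b + t p^a, s h^d + t q^c)`, `s ∈ [0,1]`, has the only zero `0`.
-/

set_option autoImplicit false

open Topology Filter MeasureTheory Set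
open scoped ENNReal
open Crest.AlgGeometry.Germ

noncomputable section

namespace Crest.Agent.R257.Cmp_157

open Crest.Agent.R257.Defs_219 Crest.Agent.R257.Skel_219 Crest.Agent.R257.XF_157

/-- additivity -/
theorem mulStmt : MulStmt := by
  intro f g h h' hf hg hh hh' _ _ _ _ h1 h2
  have k1 : ColFin ![f, h, g] := (XFin_157.colFin_swap _ _ _).1 h1
  have k2 : ColFin ![f, h', g] := (XFin_157.colFin_swap _ _ _).1 h2
  have key := CM_812.col3_mul hf hh hh' hg
  have k3 : ColFin ![f, fun x => h x * h' x, g] := key.1.2 ⟨k1, k2⟩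
  have k4 := key.2 k1 k2
  have e : (h * h') = fun x => h x * h' x := rfl
  rw [e]
  refine ⟨(XFin_157.colFin_swap _ _ _).1 k3, ?_⟩
  rw [XFin_157.col_swap, k4, XFin_157.col_swap f h g, XFin_157.col_swap f h' g]

/-- finite colength ⟹ isolated common zero -/
theorem iso_of_colFin {G : Fin 3 → E3 → ℂ} (hG : ∀ j, AnalyticAt ℂ (G j) 0) (h : ColFin G) :
    ∀ᶠ x in 𝓝 (0 : E3), (∀ j, G j x = 0) → x = 0 := by
  have h1 : ∀ᶠ q in 𝓝 ((0 : E3), (0 : ℂ)), (∀ j, G j q.1 = 0) → q.1 = 0 := by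
    refine UI939.cnStmt 3 (fun j q => G j q.1) (fun j => ?_) h ?_
    · exact (hG j).comp_of_eq analyticAt_fst rfl
    · exact (Eventually.of_forall fun t => le_rfl).frequently
  have h2 : Tendsto (fun x : E3 => (x, (0 : ℂ))) (𝓝 0) (𝓝 ((0 : E3), (0 : ℂ))) :=
    (Continuous.prodMk_left (0 : ℂ)).continuousAt
  exact h2.eventually h1

section homotopy

variable {f P Q G H : E3 → ℂ}

/-- the members of the homotopy -/
def Fm (f P Q G H : E3 → ℂ) (t s : ℂ) : Fin 3 → E3 → ℂ :=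
  ![f, fun x => s * G x + t * P x, fun x => s * H x + t * Q x]

theorem an_Fm (hf : AnalyticAt ℂ f 0) (hP : AnalyticAt ℂ P 0) (hQ : AnalyticAt ℂ Q 0)
    (hG : AnalyticAt ℂ G 0) (hH : AnalyticAt ℂ H 0) (t s : ℂ) (j : Fin 3) :
    AnalyticAt ℂ (Fm f P Q G H t s j) 0 := by
  fin_cases j
  · exact hf
  · exact (analyticAt_const.mul hG).add (analyticAt_const.mul hP)
  · exact (analyticAt_const.mul hH).add (analyticAt_const.mul hQ)

/-- constancy along the homotopy -/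
theorem const_of_zeros (cne : CNEStmt) (isf : IsoFinStmt) (hf : AnalyticAt ℂ f 0)
    (hP : AnalyticAt ℂ P 0) (hQ : AnalyticAt ℂ Q 0) (hG : AnalyticAt ℂ G 0)
    (hH : AnalyticAt ℂ H 0) (t : ℂ) {R : ℝ} (hR : 1 < R)
    (hz : ∀ᶠ x in 𝓝 (0 : E3), ∀ s : ℂ, ‖s‖ < R → (∀ j, Fm f P Q G H t s j x = 0) → x = 0) :
    col (Fm f P Q G H t 0) = col (Fm f P Q G H t 1) := by
  have hfin : ∀ s : ℂ, ‖s‖ < R → ColFin (Fm f P Q G H t s) := fun s hs =>
    isf _ (an_Fm hf hP hQ hG hH t s) (hz.mono fun x hx => hx s hs)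
  have hloc : ∀ s : ℂ, ‖s‖ < R → ∀ᶠ w in 𝓝 s, col (Fm f P Q G H t w) = col (Fm f P Q G H t s) := by
    intro s hs
    set F' : Fin 3 → E3 × ℂ → ℂ := ![fun z => f z.1, fun z => (s + z.2) * G z.1 + t * P z.1,
      fun z => (s + z.2) * H z.1 + t * Q z.1] with hF'
    have e : ∀ τ : ℂ, (fun j => sl (F' j) τ) = Fm f P Q G H t (s + τ) := by
      intro τ
      funext j
      fin_cases j <;> rfl
    have han : ∀ j, AnalyticAt ℂ (F' j) (0, 0) := by
      have a1 : ∀ {φ : E3 → ℂ}, AnalyticAt ℂ φ 0 →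
          AnalyticAt ℂ (fun z : E3 × ℂ => φ z.1) (0, 0) := fun h =>
        h.comp_of_eq analyticAt_fst rfl
      have a2 : AnalyticAt ℂ (fun z : E3 × ℂ => s + z.2) (0, 0) :=
        analyticAt_const.add analyticAt_snd
      intro j
      fin_cases j
      · exact a1 hf
      · exact (a2.mul (a1 hG)).add (analyticAt_const.mul (a1 hP))
      · exact (a2.mul (a1 hH)).add (analyticAt_const.mul (a1 hQ))
    have hball : ∀ᶠ τ in 𝓝 (0 : ℂ), ‖s + τ‖ < R := by
      have : Tendsto (fun τ : ℂ => ‖s + τ‖) (𝓝 0) (𝓝 ‖s + 0‖) :=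
        ((continuous_const.add continuous_id).norm.tendsto 0)
      rw [add_zero] at this
      exact this.eventually (gt_mem_nhds hs)
    have hzero : ∀ᶠ q in 𝓝 ((0 : E3), (0 : ℂ)), (∀ j, F' j q = 0) → q.1 = 0 := by
      have h1 := hz.prod_nhds hball
      filter_upwards [h1] with q hq hj
      refine hq.1 (s + q.2) hq.2 fun j => ?_
      have := hj j
      fin_cases j <;> exact this
    have h0 : ColFin (fun j => sl (F' j) 0) := by rw [e, add_zero]; exact hfin s hs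
    have key := cne F' han h0 hzero
    have h2 : ∀ᶠ τ in 𝓝 (0 : ℂ), col (Fm f P Q G H t (s + τ)) = col (Fm f P Q G H t s) := by
      filter_upwards [key] with τ hτ
      have h3 := hτ.2
      rw [e τ, e 0, add_zero] at h3
      exact h3
    have h4 : Tendsto (fun w : ℂ => w - s) (𝓝 s) (𝓝 0) := by
      have : Tendsto (fun w : ℂ => w - s) (𝓝 s) (𝓝 (s - s)) :=
        (continuous_id.sub continuous_const).tendsto s
      rwa [sub_self] at this
    filter_upwards [h4.eventually h2] with w hw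
    rwa [add_sub_cancel] at hw
  have hcont : ContinuousOn (fun s => col (Fm f P Q G H t s)) (Metric.ball (0 : ℂ) R) := by
    intro s hs
    have hs' : ‖s‖ < R := by simpa using hs
    refine ContinuousAt.continuousWithinAt ?_
    refine (tendsto_const_nhds (x := col (Fm f P Q G H t s))).congr' ?_
    filter_upwards [hloc s hs'] with w hw
    exact hw.symm
  have hpre : IsPreconnected (Metric.ball (0 : ℂ) R) := (convex_ball _ _).isPreconnected
  exact hpre.constant hcont (by simp; linarith) (by simpa using hR)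

/-- zeros of the homotopy -/
theorem zeros_only {p q g h : E3 → ℂ} {a b c d : ℕ} (ha : 0 < a) (hc : 0 < c)
    {α β : ℝ} (hα : (a : ℝ) < b * α) (hβ : (c : ℝ) < d * β)
    (hp : AnalyticAt ℂ p 0) (hq : AnalyticAt ℂ q 0) (p0 : p 0 = 0) (q0 : q 0 = 0)
    (hiso : ∀ᶠ x in 𝓝 (0 : E3), f x = 0 → p x = 0 → q x = 0 → x = 0)
    {C r : ℝ} (hr : 0 < r) (hb : ∀ x, ‖x‖ < r → f x = 0 →
      ‖g x‖ ≤ C * (‖p x‖ + ‖q x‖) ^ α ∧ ‖h x‖ ≤ C * (‖p x‖ + ‖q x‖) ^ β)
    {t : ℂ} (ht : t ≠ 0) (R : ℝ) :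
    ∀ᶠ x in 𝓝 (0 : E3), ∀ s : ℂ, ‖s‖ < R →
      (∀ j, Fm f (fun x => p x ^ a) (fun x => q x ^ c) (fun x => g x ^ b) (fun x => h x ^ d)
        t s j x = 0) → x = 0 := by
  have ha' : (0 : ℝ) < a := by exact_mod_cast ha
  have hc' : (0 : ℝ) < c := by exact_mod_cast hc
  have ht' : 0 < ‖t‖ := norm_pos_iff.2 ht
  set C' : ℝ := max C 0 with hC'
  have hC0 : 0 ≤ C' := le_max_right _ _
  set R' : ℝ := max R 0 with hR'
  have hR0 : 0 ≤ R' := le_max_right _ _
  set ε₁ : ℝ := b * α / a - 1 with hε₁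
  set ε₂ : ℝ := d * β / c - 1 with hε₂
  have hε₁0 : 0 < ε₁ := by
    rw [hε₁, sub_pos, lt_div_iff₀ ha']; linarith
  have hε₂0 : 0 < ε₂ := by
    rw [hε₂, sub_pos, lt_div_iff₀ hc']; linarith
  set K₁ : ℝ := (R' / ‖t‖ * C' ^ b) ^ (1 / (a : ℝ)) with hK₁
  set K₂ : ℝ := (R' / ‖t‖ * C' ^ d) ^ (1 / (c : ℝ)) with hK₂
  -- `S → 0`
  have hS : Tendsto (fun x : E3 => K₁ * (‖p x‖ + ‖q x‖) ^ ε₁ + K₂ * (‖p x‖ + ‖q x‖) ^ ε₂)
      (𝓝 0) (𝓝 0) := by
    have h1 : Tendsto (fun x : E3 => ‖p x‖ + ‖q x‖) (𝓝 0) (𝓝 0) := by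
      have h0 : Tendsto (fun x : E3 => ‖p x‖ + ‖q x‖) (𝓝 0) (𝓝 (‖p 0‖ + ‖q 0‖)) :=
        hp.continuousAt.norm.tendsto.add hq.continuousAt.norm.tendsto
      simpa [p0, q0] using h0
    have h2 : ∀ {ε : ℝ}, 0 < ε → Tendsto (fun x : E3 => (‖p x‖ + ‖q x‖) ^ ε) (𝓝 0) (𝓝 0) := by
      intro ε hε
      have := (Real.continuousAt_rpow_const 0 ε (Or.inr hε.le)).tendsto.comp h1
      simpa [Real.zero_rpow hε.ne', Function.comp_def] using this
    have := ((h2 hε₁0).const_mul K₁).add ((h2 hε₂0).const_mul K₂)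
    simpa using this
  have hS1 := hS.eventually (gt_mem_nhds (zero_lt_one))
  filter_upwards [hS1, hiso, Metric.ball_mem_nhds (0 : E3) hr] with x hx1 hx2 hxr s hs hj
  have hfx : f x = 0 := hj 0
  have h1 : s * g x ^ b + t * p x ^ a = 0 := hj 1
  have h2 : s * h x ^ d + t * q x ^ c = 0 := hj 2
  obtain ⟨hg, hh⟩ := hb x (by simpa using hxr) hfx
  set S : ℝ := ‖p x‖ + ‖q x‖ with hSd
  have hS0 : 0 ≤ S := by positivity
  by_cases hSz : S = 0
  · have hp' : ‖p x‖ = 0 := by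
      have := norm_nonneg (p x); have := norm_nonneg (q x); linarith
    have hq' : ‖q x‖ = 0 := by
      have := norm_nonneg (p x); have := norm_nonneg (q x); linarith
    exact hx2 hfx (norm_eq_zero.1 hp') (norm_eq_zero.1 hq')
  have hSpos : 0 < S := lt_of_le_of_ne hS0 (Ne.symm hSz)
  exfalso
  -- general estimate
  have est : ∀ {u v : ℂ} {m n : ℕ} {γ : ℝ}, 0 < m → s * v ^ n + t * u ^ m = 0 →
      ‖v‖ ≤ C * S ^ γ → ‖u‖ ≤ (R' / ‖t‖ * C' ^ n) ^ (1 / (m : ℝ)) * S ^ ((n : ℝ) * γ / m) := by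
    intro u v m n γ hm he hv
    have hm' : (0 : ℝ) < m := by exact_mod_cast hm
    have e1 : ‖t‖ * ‖u‖ ^ m = ‖s‖ * ‖v‖ ^ n := by
      have : t * u ^ m = - (s * v ^ n) := by linear_combination he
      have := congrArg norm this
      simpa [norm_mul, norm_pow] using this
    have e2 : ‖v‖ ^ n ≤ C' ^ n * S ^ ((n : ℝ) * γ) := by
      have h3 : ‖v‖ ≤ C' * S ^ γ :=
        hv.trans (mul_le_mul_of_nonneg_right (le_max_left _ _) (Real.rpow_nonneg hS0 _))
      calc ‖v‖ ^ n ≤ (C' * S ^ γ) ^ n := pow_le_pow_left₀ (norm_nonneg _) h3 n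
        _ = C' ^ n * S ^ ((n : ℝ) * γ) := by
            rw [mul_pow, ← Real.rpow_natCast (S ^ γ) n, ← Real.rpow_mul hS0, mul_comm γ]
    have e3 : ‖u‖ ^ m ≤ R' / ‖t‖ * C' ^ n * S ^ ((n : ℝ) * γ) := by
      have h4 : ‖s‖ ≤ R' := hs.le.trans (le_max_left _ _)
      have h5 : ‖t‖ * ‖u‖ ^ m ≤ R' * (C' ^ n * S ^ ((n : ℝ) * γ)) := by
        rw [e1]
        exact mul_le_mul h4 e2 (by positivity) hR0
      calc ‖u‖ ^ m = ‖t‖ * ‖u‖ ^ m / ‖t‖ := by field_simp
        _ ≤ R' * (C' ^ n * S ^ ((n : ℝ) * γ)) / ‖t‖ :=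
            div_le_div_of_nonneg_right h5 ht'.le
        _ = _ := by ring
    have e4 : ‖u‖ = (‖u‖ ^ m) ^ (1 / (m : ℝ)) := by
      rw [← Real.rpow_natCast, ← Real.rpow_mul (norm_nonneg _), mul_one_div_cancel hm'.ne',
        Real.rpow_one]
    rw [e4]
    calc (‖u‖ ^ m) ^ (1 / (m : ℝ)) ≤ (R' / ‖t‖ * C' ^ n * S ^ ((n : ℝ) * γ)) ^ (1 / (m : ℝ)) :=
          Real.rpow_le_rpow (by positivity) e3 (by positivity)
      _ = _ := by
          rw [Real.mul_rpow (by positivity) (Real.rpow_nonneg hS0 _), ← Real.rpow_mul hS0,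
            mul_one_div]
  have u1 := est ha h1 hg
  have u2 := est hc h2 hh
  have w1 : S ^ ((b : ℝ) * α / a) = S * S ^ ε₁ := by
    have : (b : ℝ) * α / a = 1 + ε₁ := by rw [hε₁]; ring
    rw [this, Real.rpow_add hSpos, Real.rpow_one]
  have w2 : S ^ ((d : ℝ) * β / c) = S * S ^ ε₂ := by
    have : (d : ℝ) * β / c = 1 + ε₂ := by rw [hε₂]; ring
    rw [this, Real.rpow_add hSpos, Real.rpow_one]
  rw [w1, ← hK₁] at u1
  rw [w2, ← hK₂] at u2
  have : S ≤ S * (K₁ * S ^ ε₁ + K₂ * S ^ ε₂) := by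
    calc S = ‖p x‖ + ‖q x‖ := hSd
      _ ≤ K₁ * (S * S ^ ε₁) + K₂ * (S * S ^ ε₂) := add_le_add u1 u2
      _ = _ := by ring
  have h6 : S * (K₁ * S ^ ε₁ + K₂ * S ^ ε₂) < S * 1 := mul_lt_mul_of_pos_left hx1 hSpos
  linarith

end homotopy

/-- natural exponents -/
theorem cmp_nat (cne : CNEStmt) (isf : IsoFinStmt) {f g h p q : E3 → ℂ}
    (hf : AnalyticAt ℂ f 0) (hg : AnalyticAt ℂ g 0) (hh : AnalyticAt ℂ h 0)
    (hp : AnalyticAt ℂ p 0) (hq : AnalyticAt ℂ q 0) (p0 : p 0 = 0) (q0 : q 0 = 0)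
    (hpq : ColFin ![f, p, q]) (hgh : ColFin ![f, g, h]) {α β : ℝ}
    (hb : ∃ C r : ℝ, 0 < r ∧ ∀ x, ‖x‖ < r → f x = 0 →
      ‖g x‖ ≤ C * (‖p x‖ + ‖q x‖) ^ α ∧ ‖h x‖ ≤ C * (‖p x‖ + ‖q x‖) ^ β)
    {a b c d : ℕ} (ha : 0 < a) (hb' : 0 < b) (hc : 0 < c) (hd : 0 < d)
    (hα : (a : ℝ) < b * α) (hβ : (c : ℝ) < d * β) :
    a * c * col ![f, p, q] ≤ b * d * col ![f, g, h] := by
  obtain ⟨C, r, hr, hb⟩ := hb
  set P : E3 → ℂ := fun x => p x ^ a with hP
  set Q : E3 → ℂ := fun x => q x ^ c with hQ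
  set G : E3 → ℂ := fun x => g x ^ b with hG
  set H : E3 → ℂ := fun x => h x ^ d with hH
  have aP : AnalyticAt ℂ P 0 := hp.pow a
  have aQ : AnalyticAt ℂ Q 0 := hq.pow c
  have aG : AnalyticAt ℂ G 0 := hg.pow b
  have aH : AnalyticAt ℂ H 0 := hh.pow d
  have k1 := CM_812.col3_pow hf hp hq hpq ha hc
  have k2 := CM_812.col3_pow hf hg hh hgh hb' hd
  -- upper semicontinuity in `t` at `t = 0`
  set F' : Fin 3 → E3 × ℂ → ℂ := ![fun z => f z.1, fun z => 1 * G z.1 + z.2 * P z.1,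
    fun z => 1 * H z.1 + z.2 * Q z.1] with hF'
  have e : ∀ t : ℂ, (fun j => sl (F' j) t) = Fm f P Q G H t 1 := by
    intro t
    funext j
    fin_cases j <;> rfl
  have han : ∀ j, AnalyticAt ℂ (F' j) (0, 0) := by
    have a1 : ∀ {φ : E3 → ℂ}, AnalyticAt ℂ φ 0 →
        AnalyticAt ℂ (fun z : E3 × ℂ => φ z.1) (0, 0) := fun h =>
      h.comp_of_eq analyticAt_fst rfl
    have a2 : AnalyticAt ℂ (fun z : E3 × ℂ => z.2) (0, 0) := analyticAt_snd
    intro j
    fin_cases j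
    · exact a1 hf
    · exact (analyticAt_const.mul (a1 aG)).add (a2.mul (a1 aP))
    · exact (analyticAt_const.mul (a1 aH)).add (a2.mul (a1 aQ))
  have e0 : Fm f P Q G H 0 1 = ![f, G, H] := by
    funext j
    fin_cases j
    · rfl
    · funext x; simp [Fm]
    · funext x; simp [Fm]
  have h0 : ColFin (fun j => sl (F' j) 0) := by rw [e, e0]; exact k2.1
  have husc := UI939.uscStmt 3 F' han h0
  obtain ⟨t, ht, ht0⟩ : ∃ t : ℂ, (ColFin (fun j => sl (F' j) t) ∧
      col (fun j => sl (F' j) t) ≤ col (fun j => sl (F' j) 0)) ∧ t ≠ 0 := by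
    have h3 : ∀ᶠ t in 𝓝[≠] (0 : ℂ), (ColFin (fun j => sl (F' j) t) ∧
      col (fun j => sl (F' j) t) ≤ col (fun j => sl (F' j) 0)) :=
      husc.filter_mono nhdsWithin_le_nhds
    obtain ⟨t, ht1, ht2⟩ := (h3.and self_mem_nhdsWithin).exists
    exact ⟨t, ht1, ht2⟩
  rw [e t, e 0, e0] at ht
  -- the homotopy
  have hiso : ∀ᶠ x in 𝓝 (0 : E3), f x = 0 → p x = 0 → q x = 0 → x = 0 := by
    have := iso_of_colFin (G := ![f, p, q]) (fun j => by
      fin_cases j
      · exact hf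
      · exact hp
      · exact hq) hpq
    filter_upwards [this] with x hx h1 h2 h3
    refine hx fun j => ?_
    fin_cases j
    · exact h1
    · exact h2
    · exact h3
  have hz := zeros_only (f := f) (g := g) (h := h) ha hc hα hβ hp hq p0 q0 hiso hr hb ht0 2
  have hconst := const_of_zeros cne isf hf aP aQ aG aH t (R := 2) (by norm_num) hz
  -- `s = 0`
  have e1 : gens (Fm f P Q G H t 0) = gens ![f, P, Q] := by
    refine le_antisymm (gens_le fun j => ?_) (gens_le fun j => ?_)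
    · refine ⟨fun i => if i = j then (fun _ => if j = 0 then 1 else t) else fun _ => 0,
        fun i => ?_, ?_⟩
      · dsimp only; split_ifs <;> exact analyticAt_const
      · refine Eventually.of_forall fun x => ?_
        dsimp only
        rw [Finset.sum_eq_single j (fun b _ hb => by simp [hb])
          (fun h' => absurd (Finset.mem_univ j) h')]
        fin_cases j <;> simp [Fm]
    · refine ⟨fun i => if i = j then (fun _ => if j = 0 then 1 else t⁻¹) else fun _ => 0,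
        fun i => ?_, ?_⟩
      · dsimp only; split_ifs <;> exact analyticAt_const
      · refine Eventually.of_forall fun x => ?_
        dsimp only
        rw [Finset.sum_eq_single j (fun b _ hb => by simp [hb])
          (fun h' => absurd (Finset.mem_univ j) h')]
        fin_cases j <;> simp [Fm, ht0]
  have h5 : col (Fm f P Q G H t 0) = a * c * col ![f, p, q] := by
    rw [col_congr e1]; exact k1.2
  rw [← h5, hconst]
  exact ht.2.trans (le_of_eq k2.2)

/-- **the comparison theorem** -/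
theorem cmp_of (cne : CNEStmt) (isf : IsoFinStmt) : CmpStmt := by
  intro f g h p q hf hg hh hp hq _ _ _ p0 q0 hpq hgh α β hα hβ hb
  -- rational exponents
  have key : ∀ x y : ℚ, 0 < x → 0 < y → (x : ℝ) < α → (y : ℝ) < β →
      (x : ℝ) * y * (col ![f, p, q] : ℝ) ≤ (col ![f, g, h] : ℝ) := by
    intro x y hx hy hxα hyβ
    have hxn : 0 < x.num.toNat := by
      have := Rat.num_pos.2 hx; omega
    have hyn : 0 < y.num.toNat := by
      have := Rat.num_pos.2 hy; omega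
    have ex : (x : ℝ) = (x.num.toNat : ℝ) / (x.den : ℝ) := by
      have h1 : ((x.num.toNat : ℤ) : ℝ) = (x.num : ℝ) := by
        rw [Int.toNat_of_nonneg (Rat.num_pos.2 hx).le]
      rw [Int.cast_natCast] at h1
      rw [h1]
      exact Rat.cast_def x
    have ey : (y : ℝ) = (y.num.toNat : ℝ) / (y.den : ℝ) := by
      have h1 : ((y.num.toNat : ℤ) : ℝ) = (y.num : ℝ) := by
        rw [Int.toNat_of_nonneg (Rat.num_pos.2 hy).le]
      rw [Int.cast_natCast] at h1
      rw [h1]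
      exact Rat.cast_def y
    have hxd : (0 : ℝ) < x.den := by exact_mod_cast x.den_pos
    have hyd : (0 : ℝ) < y.den := by exact_mod_cast y.den_pos
    have h1 : (x.num.toNat : ℝ) < x.den * α := by
      rw [ex, div_lt_iff₀ hxd] at hxα; linarith
    have h2 : (y.num.toNat : ℝ) < y.den * β := by
      rw [ey, div_lt_iff₀ hyd] at hyβ; linarith
    have h3 := cmp_nat cne isf hf hg hh hp hq p0 q0 hpq hgh hb hxn x.den_pos hyn y.den_pos h1 h2
    have h4 : (x.num.toNat : ℝ) * y.num.toNat * (col ![f, p, q] : ℝ)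
        ≤ x.den * y.den * (col ![f, g, h] : ℝ) := by exact_mod_cast h3
    rw [ex, ey, div_mul_div_comm, div_mul_eq_mul_div, div_le_iff₀ (by positivity)]
    linarith
  -- limit
  have lim : Tendsto (fun θ : ℝ => θ * α * (θ * β) * (col ![f, p, q] : ℝ)) (𝓝[<] 1)
      (𝓝 (1 * α * (1 * β) * (col ![f, p, q] : ℝ))) := by
    refine Tendsto.mono_left ?_ nhdsWithin_le_nhds
    exact (Continuous.tendsto (by fun_prop) _)
  have hev : ∀ᶠ θ : ℝ in 𝓝[<] 1, θ * α * (θ * β) * (col ![f, p, q] : ℝ) ≤ (col ![f, g, h] : ℝ) := by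
    have h3 : ∀ᶠ θ in 𝓝[<] (1 : ℝ), (0 : ℝ) < θ :=
      (eventually_nhdsWithin_of_eventually_nhds (lt_mem_nhds one_pos))
    filter_upwards [h3, self_mem_nhdsWithin] with θ hθ hθ1
    have hθ1' : θ < 1 := hθ1
    obtain ⟨x, hx1, hx2⟩ := exists_rat_btwn (show θ * α < α by nlinarith)
    obtain ⟨y, hy1, hy2⟩ := exists_rat_btwn (show θ * β < β by nlinarith)
    have hx0 : (0 : ℝ) < x := lt_trans (by positivity) hx1
    have hy0 : (0 : ℝ) < y := lt_trans (by positivity) hy1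
    refine le_trans ?_ (key x y (by exact_mod_cast hx0) (by exact_mod_cast hy0) hx2 hy2)
    refine mul_le_mul_of_nonneg_right ?_ (Nat.cast_nonneg _)
    exact mul_le_mul hx1.le hy1.le (by positivity) hx0.le
  have := le_of_tendsto lim hev
  simpa using this

/-- `XStmt` from exact pairs, conservation of number, the Nullstellensatz and `DetStmt` -/
theorem xStmt_of (ep : EPStmt) (cne : CNEStmt) (isf : IsoFinStmt) (det : DetStmt) : XStmt :=
  XFin_157.xStmt ep (cmp_of cne isf) mulStmt isf det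

/-- `XUStmt` from exact pairs -/
theorem xuStmt_of (ep : EPStmt) (cne : CNEStmt) (isf : IsoFinStmt) (det : DetStmt) : XUStmt :=
  XFin_157.xuStmt ep (cmp_of cne isf) isf det

end Crest.Agent.R257.Cmp_157
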