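import Crest.Agent.R257.Cnm7_889
import Crest.Agent.R257.DetF_219

/-!
Row 257 (S0395), helper889: `FtoStmt` and `DetStmt`, literally.
-/

set_option autoImplicit false

open Set Filter Topology

noncomputable section

namespace Crest.Agent.R257.Fto_889

open Crest.Agent.R257.Defs_219 Crest.Agent.R257.Det_219

theorem ftoStmt : FtoStmt := by
  intro f g h hf hg hh hf0 hg0 hh0 hfin
  obtain ⟨r, hr, H⟩ := Crest.Agent.R257.Cnm7_889.fto hf hg hh hf0 hg0 hh0 hfin
  refine ⟨col ![f, g, h], r, hr, fun y => ?_⟩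
  refine le_trans (Set.encard_le_encard ?_) (H ![0, y 0, y 1])
  rintro x ⟨hx, h1, h2, h3⟩
  refine ⟨?_, ?_⟩
  · rw [Metric.mem_ball, dist_zero_right, pi_norm_lt_iff hr]
    exact hx
  · simp [h1, h2, h3]

theorem detStmt : DetStmt := detStmt_of ftoStmt

end Crest.Agent.R257.Fto_889
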