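import Crest.Agent.R257.UI3_939

/-!
Row 257 (S0395), leaf UI (helper939), part 4: UNIFORM INCLUSION.
-/

set_option autoImplicit false
set_option linter.unusedSectionVars false

open Set Filter Topology Metric Complex
open Crest.Agent.R275.Loc2879

noncomputable section

namespace Crest.Agent.R257.UI939

universe u v w

variable {n : ℕ}

/-- germ of a function (junk `0` if the function is not analytic) -/
def gz {E : Type u} [NormedAddCommGroup E] [NormedSpace ℂ E] {p : E} (f : E → ℂ) : OO p := by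
  classical exact if h : AnalyticAt ℂ f p then gm f h else 0

lemma gz_eq {E : Type u} [NormedAddCommGroup E] [NormedSpace ℂ E] {p : E} {f : E → ℂ}
    (h : AnalyticAt ℂ f p) : (gz f : OO p) = gm f h := by
  simp [gz, h]

/-- the ideal generated by the germs of a family of functions -/
def Idl {E : Type u} [NormedAddCommGroup E] [NormedSpace ℂ E] (p : E) {κ : Type*}
    (g : κ → E → ℂ) : Ideal (OO p) :=
  Ideal.span (Set.range fun j => (gz (g j) : OO p))

lemma mem_Idl {E : Type u} [NormedAddCommGroup E] [NormedSpace ℂ E] {p : E} {κ : Type*}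
    [Fintype κ] {g : κ → E → ℂ} (hg : ∀ j, AnalyticAt ℂ (g j) p) {a : OO p} :
    a ∈ Idl p g ↔ ∃ c : κ → OO p, a = ∑ j, c j * gm (g j) (hg j) := by
  unfold Idl
  rw [Ideal.mem_span_range_iff_exists_fun]
  constructor
  · rintro ⟨c, hc⟩
    refine ⟨c, ?_⟩
    rw [← hc]
    exact Finset.sum_congr rfl fun j _ => by rw [gz_eq (hg j)]
  · rintro ⟨c, hc⟩
    refine ⟨c, ?_⟩
    rw [hc]
    exact Finset.sum_congr rfl fun j _ => by rw [gz_eq (hg j)]

/-- the multiplicity of a family at `p` -/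
def dimQ {E : Type u} [NormedAddCommGroup E] [NormedSpace ℂ E] (p : E) {κ : Type*}
    (g : κ → E → ℂ) : ℕ := Module.finrank ℂ (OO p ⧸ Idl p g)

/-- a function of `x` as a function of `(x,t)` -/
def emb (n : ℕ) : BB n →+* AA n := pull Prod.fst analyticAt_fst rfl

lemma emb_xB (i : Fin n) : emb n (xB i) = Xv i := rfl

lemma emb_algebraMap (c : ℂ) : emb n (algebraMap ℂ _ c) = algebraMap ℂ _ c := rfl

lemma exists_sum_gm' {E : Type u} [NormedAddCommGroup E] [NormedSpace ℂ E] {p : E} {κ : Type*}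
    (s : Finset κ) (b g : κ → E → ℂ) (hb : ∀ j, AnalyticAt ℂ (b j) p)
    (hg : ∀ j, AnalyticAt ℂ (g j) p) :
    ∃ h, ∑ j ∈ s, (gm (b j) (hb j) : OO p) * gm (g j) (hg j) =
      gm (fun x => ∑ j ∈ s, b j x * g j x) h := by
  classical
  induction s using Finset.induction_on with
  | empty =>
    refine ⟨by simpa using analyticAt_const, ?_⟩
    rw [Finset.sum_empty, gm_zero, gm_eq_gm]
    exact Eventually.of_forall (fun w => by simp)
  | insert i s hi ih =>
    obtain ⟨h, e1⟩ := ih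
    refine ⟨by simp only [Finset.sum_insert hi]; exact ((hb i).mul (hg i)).add h, ?_⟩
    rw [Finset.sum_insert hi, e1, gm_mul, gm_add, gm_eq_gm]
    exact Eventually.of_forall (fun w => by simp [Finset.sum_insert hi])

lemma gm_mon {E : Type u} [NormedAddCommGroup E] [NormedSpace ℂ E] {p : E}
    (g : Fin n → E → ℂ) (hg : ∀ j, AnalyticAt ℂ (g j) p) (β : Fin n → ℕ) :
    ∃ h, mon (fun i => (gm (g i) (hg i) : OO p)) β = gm (fun x => ∏ i, g i x ^ β i) h := by
  classical
  have key : ∀ s : Finset (Fin n), ∃ h, ∏ i ∈ s, (gm (g i) (hg i) : OO p) ^ β i =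
      gm (fun x => ∏ i ∈ s, g i x ^ β i) h := by
    intro s
    induction s using Finset.induction_on with
    | empty =>
      refine ⟨by simpa using analyticAt_const, ?_⟩
      rw [Finset.prod_empty, gm_one, gm_eq_gm]
      exact Eventually.of_forall (fun w => by simp)
    | insert i s hi ih =>
      obtain ⟨h, e1⟩ := ih
      refine ⟨by simp only [Finset.prod_insert hi]; exact ((hg i).pow _).mul h, ?_⟩
      rw [Finset.prod_insert hi, e1, gm_pow, gm_mul, gm_eq_gm]
      exact Eventually.of_forall (fun w => by simp [Finset.prod_insert hi])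
  exact key Finset.univ

/-- `g(x,t) = g(x,0) + t h(x,t)` for germs -/
lemma split_T (a : AA n) : ∃ (a0 : BB n) (a1 : AA n), a = emb n a0 + Tv n * a1 := by
  obtain ⟨q, c, h⟩ := hadamard_one (E := Fin n → ℂ) a
  refine ⟨c, q, ?_⟩
  rw [h, add_comm, mul_comm q]
  rfl

/-- restriction to `t = 0` -/
def res0 (n : ℕ) : AA n →+* BB n :=
  pull (fun x : Fin n → ℂ => ((x, 0) : (Fin n → ℂ) × ℂ)) (analyticAt_id.prod analyticAt_const) rfl

lemma res0_emb (a : BB n) : res0 n (emb n a) = a := by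
  obtain ⟨f, hf, rfl⟩ := exists_gm a
  rfl

lemma res0_T : res0 n (Tv n) = 0 := rfl

lemma split_T' (a : AA n) : ∃ a1 : AA n, a = emb n (res0 n a) + Tv n * a1 := by
  obtain ⟨a0, a1, h⟩ := split_T a
  refine ⟨a1, ?_⟩
  rw [h, map_add, map_mul, res0_T, zero_mul, add_zero, res0_emb]

section Main

variable {κ : Type*} [Fintype κ]

set_option maxHeartbeats 4000000 in
set_option synthInstance.maxHeartbeats 200000 in
/-- **UNIFORM INCLUSION.** If all slices of an analytic family of ideals have the same finite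
multiplicity `μ`, then all monomials of degree `μ` belong to the ideal of germs at `(0,0)`. -/
theorem ui (G : κ → (Fin n → ℂ) × ℂ → ℂ) (hG : ∀ j, AnalyticAt ℂ (G j) 0) (μ : ℕ)
    (hdim : ∀ᶠ t in 𝓝 (0 : ℂ),
      Module.Finite ℂ (BB n ⧸ Idl (0 : Fin n → ℂ) (fun j x => G j (x, t))) ∧
      dimQ (0 : Fin n → ℂ) (fun j x => G j (x, t)) = μ) (α : Fin n → ℕ) (hα : ∑ i, α i = μ) :
    ∃ b : κ → (Fin n → ℂ) × ℂ → ℂ, (∀ j, AnalyticAt ℂ (b j) 0) ∧
      ∀ᶠ p in 𝓝 (0 : (Fin n → ℂ) × ℂ), ∏ i, p.1 i ^ α i = ∑ j, b j p * G j p := by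
  classical
  -- slices are analytic
  have hslice : ∀ {f : (Fin n → ℂ) × ℂ → ℂ} {t : ℂ}, AnalyticAt ℂ f (0, t) →
      AnalyticAt ℂ (fun x => f (x, t)) (0 : Fin n → ℂ) := by
    intro f t hf
    exact AnalyticAt.comp (g := f) (f := fun x : Fin n → ℂ => (x, t)) hf
      (analyticAt_id.prod analyticAt_const)
  have h0t : Tendsto (fun t : ℂ => ((0, t) : (Fin n → ℂ) × ℂ)) (𝓝 0) (𝓝 0) := by
    have : Continuous (fun t : ℂ => ((0, t) : (Fin n → ℂ) × ℂ)) := by fun_prop
    exact this.tendsto' _ _ rfl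
  -- Step (a): the slice t = 0
  obtain ⟨hf0, hd0⟩ := hdim.self_of_nhds
  set I0 : Ideal (BB n) := Idl (0 : Fin n → ℂ) (fun j x => G j (x, 0)) with hI0
  have hd0' : Module.finrank ℂ (BB n ⧸ I0) = μ := hd0
  have hfree : Module.Free ℂ (BB n ⧸ I0) := Module.Free.of_divisionRing _ _
  let bas : Module.Basis (Fin μ) ℂ (BB n ⧸ I0) := Module.finBasisOfFinrankEq _ _ hd0'
  choose e he using fun i => Ideal.Quotient.mk_surjective (I := I0) (bas i)
  choose Ef hEf hEe using fun i => exists_gm (e i)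
  -- the big ideal
  set I : Ideal (AA n) := Ideal.span (Set.range fun j => gm (G j) (hG j)) with hI
  have hGI : ∀ j, gm (G j) (hG j) ∈ I := fun j => Ideal.subset_span ⟨j, rfl⟩
  have hres : ∀ j, res0 n (gm (G j) (hG j)) = gm (fun x => G j (x, 0)) (hslice (hG j)) :=
    fun j => rfl
  -- elements of I0 come from I modulo T
  have hI0I : ∀ a ∈ I0, ∃ a1 : AA n, emb n a + Tv n * a1 ∈ I := by
    intro a ha
    rw [hI0, mem_Idl (fun j => hslice (hG j))] at ha
    obtain ⟨c, hc⟩ := ha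
    choose H hH using fun j => split_T' (gm (G j) (hG j))
    refine ⟨∑ j, emb n (c j) * H j, ?_⟩
    have : emb n a + Tv n * ∑ j, emb n (c j) * H j = ∑ j, emb n (c j) * gm (G j) (hG j) := by
      rw [hc, map_sum, Finset.mul_sum, ← Finset.sum_add_distrib]
      refine Finset.sum_congr rfl (fun j _ => ?_)
      conv_rhs => rw [hH j, hres j]
      rw [map_mul]
      ring
    rw [this]
    exact Ideal.sum_mem _ fun j _ => Ideal.mul_mem_left _ _ (hGI j)
  -- monomials of degree μ at t = 0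
  have hJ0 : JJ (xB (n := n)) μ ≤ I0 := by
    have := JJ_le_of_finrank (xB (n := n)) xB_not_unit I0
    rwa [hd0'] at this
  -- Step (b): finiteness
  have hfin1 : FG (RingHom.id (AA n)) (AA n ⧸ I) := by
    refine ⟨1, fun _ => 1, fun m => ?_⟩
    obtain ⟨a, rfl⟩ := Ideal.Quotient.mk_surjective m
    refine ⟨fun _ => a, ?_⟩
    simp only [RingHom.id_apply, Finset.univ_unique, Finset.sum_singleton]
    rw [← map_one (Ideal.Quotient.mk I)]
    change _ = Ideal.Quotient.mk I (a • (1 : AA n))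
    rw [smul_eq_mul, mul_one]
  have hfin2 : FG (par n) (AA n ⧸ I) := by
    refine fin_all hfin1 (fun i => ⟨μ, fun m => ?_⟩)
    obtain ⟨a, rfl⟩ := Ideal.Quotient.mk_surjective m
    have h1 : xB i ^ μ ∈ I0 := by
      refine hJ0 (Ideal.subset_span ⟨Pi.single i μ, by simp, ?_⟩)
      unfold mon
      rw [Finset.prod_eq_single i]
      · simp
      · intro j _ hj
        simp [Pi.single_eq_of_ne hj]
      · intro h; exact absurd (Finset.mem_univ _) h
    obtain ⟨a1, ha1⟩ := hI0I _ h1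
    rw [map_pow, emb_xB] at ha1
    refine ⟨Ideal.Quotient.mk I (-(a1 * a)), ?_⟩
    change Ideal.Quotient.mk I (Xv i ^ μ • a) = Ideal.Quotient.mk I (Tv n • (-(a1 * a)))
    rw [Ideal.Quotient.eq, smul_eq_mul, smul_eq_mul]
    have : Xv i ^ μ * a - Tv n * (-(a1 * a)) = a * (Xv i ^ μ + Tv n * a1) := by ring
    rw [this]
    exact Ideal.mul_mem_left _ _ ha1
  have hgen : ∀ a : AA n, ∃ c : Fin μ → OO (0 : ℂ),
      a - ∑ i, par n (c i) * emb n (e i) ∈ I := by
    have := nak hfin2 (fun i => Ideal.Quotient.mk I (emb n (e i))) ?_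
    · intro a
      obtain ⟨c, hc⟩ := this (Ideal.Quotient.mk I a)
      refine ⟨c, ?_⟩
      rw [← Ideal.Quotient.eq, hc, map_sum]
      rfl
    · intro m
      obtain ⟨a, rfl⟩ := Ideal.Quotient.mk_surjective m
      obtain ⟨a0, a1, rfl⟩ := split_T a
      -- expand a0 in the basis
      have h1 : a0 - ∑ i, algebraMap ℂ (BB n) (bas.repr (Ideal.Quotient.mk I0 a0) i) * e i ∈ I0 := by
        rw [← Ideal.Quotient.eq, map_sum]
        conv_lhs => rw [← bas.sum_repr (Ideal.Quotient.mk I0 a0)]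
        refine Finset.sum_congr rfl (fun i _ => ?_)
        rw [map_mul, he i, Algebra.smul_def]
        rfl
      obtain ⟨a2, ha2⟩ := hI0I _ h1
      refine ⟨fun i => bas.repr (Ideal.Quotient.mk I0 a0) i, Ideal.Quotient.mk I (a1 - a2), ?_⟩
      have e1 : ∑ i, algebraMap ℂ (AA n) (bas.repr (Ideal.Quotient.mk I0 a0) i) •
          Ideal.Quotient.mk I (emb n (e i)) + Tv n • Ideal.Quotient.mk I (a1 - a2) =
          Ideal.Quotient.mk I (∑ i, algebraMap ℂ (AA n) (bas.repr (Ideal.Quotient.mk I0 a0) i) *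
          emb n (e i) + Tv n * (a1 - a2)) := by
        rw [map_add, map_sum]
        rfl
      rw [e1, Ideal.Quotient.eq]
      rw [map_sub, map_sum] at ha2
      simp only [map_mul, emb_algebraMap] at ha2
      have e2 : emb n a0 + Tv n * a1 - (∑ i, algebraMap ℂ (AA n)
          (bas.repr (Ideal.Quotient.mk I0 a0) i) * emb n (e i) + Tv n * (a1 - a2)) =
          emb n a0 - ∑ i, algebraMap ℂ (AA n) (bas.repr (Ideal.Quotient.mk I0 a0) i) *
            emb n (e i) + Tv n * a2 := by ring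
      rw [e2]
      exact ha2
  -- Step (c): functions
  have hfun : ∀ β : Fin n → ℕ, ∃ (c : Fin μ → ℂ → ℂ) (b : κ → (Fin n → ℂ) × ℂ → ℂ),
      (∀ i, AnalyticAt ℂ (c i) 0) ∧ (∀ j, AnalyticAt ℂ (b j) 0) ∧
      ∀ᶠ p in 𝓝 (0 : (Fin n → ℂ) × ℂ),
        ∏ i, p.1 i ^ β i = ∑ i, c i p.2 * Ef i p.1 + ∑ j, b j p * G j p := by
    intro β
    obtain ⟨c, hc⟩ := hgen (mon Xv β)
    rw [hI, Ideal.mem_span_range_iff_exists_fun] at hc
    obtain ⟨b, hb⟩ := hc
    choose cf hcf hce using fun i => exists_gm (c i)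
    choose bf hbf hbe using fun j => exists_gm (b j)
    obtain rfl : (fun i => gm (cf i) (hcf i)) = c := funext hce
    obtain rfl : (fun j => gm (bf j) (hbf j)) = b := funext hbe
    obtain rfl : (fun i => gm (Ef i) (hEf i)) = e := funext hEe
    refine ⟨cf, bf, hcf, hbf, ?_⟩
    obtain ⟨h1, e1⟩ := exists_sum_gm' Finset.univ bf G hbf hG
    obtain ⟨h2, e2⟩ := exists_sum_gm' Finset.univ (fun i (p : (Fin n → ℂ) × ℂ) => cf i p.2)
      (fun i (p : (Fin n → ℂ) × ℂ) => Ef i p.1) (p := 0)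
      (fun i => AnalyticAt.comp (g := cf i) (f := Prod.snd) (hcf i) analyticAt_snd)
      (fun i => AnalyticAt.comp (g := Ef i) (f := Prod.fst) (hEf i) analyticAt_fst)
    obtain ⟨h3, e3⟩ := gm_mon (fun i (p : (Fin n → ℂ) × ℂ) => p.1 i) (fun i => an_x i 0) β
    have e4 : mon Xv β = ∑ i, par n (gm (cf i) (hcf i)) * emb n (gm (Ef i) (hEf i)) +
        ∑ j, gm (bf j) (hbf j) * gm (G j) (hG j) := by
      rw [hb]; ring
    have e5 : (mon Xv β : AA n) = gm (fun x => ∏ i, x.1 i ^ β i) h3 := e3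
    have e6 : ∑ i, par n (gm (cf i) (hcf i)) * emb n (gm (Ef i) (hEf i)) =
        gm (fun x => ∑ i, cf i x.2 * Ef i x.1) h2 := e2
    rw [e5, e6, e1, gm_add, gm_eq_gm] at e4
    exact e4
  choose c b hc hb hid using hfun
  -- finitely many β
  have hfinset : {β : Fin n → ℕ | ∑ i, β i ≤ μ}.Finite := by
    refine (Set.Finite.subset (Set.finite_Iic (fun _ : Fin n => μ)) ?_)
    intro β hβ
    rw [Set.mem_Iic]
    intro i
    exact (Finset.single_le_sum (fun j _ => Nat.zero_le (β j)) (Finset.mem_univ i)).trans hβ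
  have hall : ∀ᶠ t in 𝓝 (0 : ℂ), ∀ β ∈ {β : Fin n → ℕ | ∑ i, β i ≤ μ},
      (∀ j, AnalyticAt ℂ (b β j) (0, t)) ∧ ∀ᶠ p in 𝓝 ((0, t) : (Fin n → ℂ) × ℂ),
        ∏ i, p.1 i ^ β i = ∑ i, c β i p.2 * Ef i p.1 + ∑ j, b β j p * G j p := by
    rw [Filter.eventually_all_finite hfinset]
    intro β _
    refine h0t.eventually ((Filter.eventually_all.2 fun j => (hb β j).eventually_analyticAt).and
      (eventually_eventually_nhds.2 (hid β)))
  have hGt : ∀ᶠ t in 𝓝 (0 : ℂ), ∀ j, AnalyticAt ℂ (G j) (0, t) :=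
    h0t.eventually (Filter.eventually_all.2 fun j => (hG j).eventually_analyticAt)
  -- Step (f)
  have hzero : ∀ᶠ t in 𝓝 (0 : ℂ), ∀ i, c α i t = 0 := by
    filter_upwards [hdim, hall, hGt] with t ht hallt hGtt
    obtain ⟨hft, hdt⟩ := ht
    set It : Ideal (BB n) := Idl (0 : Fin n → ℂ) (fun j x => G j (x, t)) with hIt
    have hdt' : Module.finrank ℂ (BB n ⧸ It) = μ := hdt
    have hJt : JJ (xB (n := n)) μ ≤ It := by
      have := JJ_le_of_finrank (xB (n := n)) xB_not_unit It
      rwa [hdt'] at this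
    let πt : BB n →ₗ[ℂ] (BB n ⧸ It) := (Ideal.Quotient.mkₐ ℂ It).toLinearMap
    have hrel : ∀ β : Fin n → ℕ, ∑ i, β i ≤ μ → πt (mon xB β) = ∑ i, c β i t • πt (e i) := by
      intro β hβ
      obtain ⟨h1, h2⟩ := hallt β hβ
      have h3 : Tendsto (fun x : Fin n → ℂ => ((x, t) : (Fin n → ℂ) × ℂ)) (𝓝 0) (𝓝 (0, t)) := by
        have : Continuous (fun x : Fin n → ℂ => ((x, t) : (Fin n → ℂ) × ℂ)) := by fun_prop
        exact this.tendsto' _ _ rfl
      have h4 := h3.eventually h2
      obtain ⟨h5, e5⟩ := exists_sum_gm' (p := (0 : Fin n → ℂ)) Finset.univ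
        (fun j x => b β j (x, t)) (fun j x => G j (x, t)) (fun j => hslice (h1 j))
        (fun j => hslice (hGtt j))
      obtain ⟨h6, e6⟩ := exists_sum_gm' (p := (0 : Fin n → ℂ)) Finset.univ
        (fun i _ => c β i t) Ef (fun i => analyticAt_const) hEf
      obtain ⟨h7, e7⟩ := gm_mon (p := (0 : Fin n → ℂ)) (fun i x => x i) (fun i => an_coord i 0) β
      have e8 : (mon xB β : BB n) = ∑ i, algebraMap ℂ (BB n) (c β i t) * gm (Ef i) (hEf i) +
          ∑ j, gm (fun x => b β j (x, t)) (hslice (h1 j)) *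
            gm (fun x => G j (x, t)) (hslice (hGtt j)) := by
        have e9 : ∑ i, algebraMap ℂ (BB n) (c β i t) * gm (Ef i) (hEf i) =
          gm (fun x => ∑ i, c β i t * Ef i x) h6 := e6
        rw [e5, e9]
        refine (show (mon xB β : BB n) = gm (fun x => ∏ i, x i ^ β i) h7 from e7).trans ?_
        rw [gm_add, gm_eq_gm]
        filter_upwards [h4] with x hx
        exact hx
      obtain rfl : (fun i => gm (Ef i) (hEf i)) = e := funext hEe
      rw [e8, map_add, map_sum]
      have e10 : πt (∑ j, gm (fun x => b β j (x, t)) (hslice (h1 j)) *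
            gm (fun x => G j (x, t)) (hslice (hGtt j))) = 0 := by
        refine (Ideal.Quotient.eq_zero_iff_mem (I := It)).2 ?_
        rw [hIt, mem_Idl (fun j => hslice (hGtt j))]
        exact ⟨_, rfl⟩
      rw [e10, add_zero]
      refine Finset.sum_congr rfl (fun i _ => ?_)
      rw [← Algebra.smul_def, map_smul]
    -- e_i span
    have hspan : ⊤ ≤ Submodule.span ℂ (Set.range fun i => πt (e i)) := by
      intro q hq
      clear hq
      obtain ⟨a, rfl⟩ := Ideal.Quotient.mk_surjective q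
      change πt a ∈ _
      obtain ⟨v, hv, w, hw, rfl⟩ := Submodule.mem_sup.1 (mem_VV_sup (xB (n := n)) hadamard μ a)
      have hw0 : πt w = 0 := (Ideal.Quotient.eq_zero_iff_mem (I := It)).2 (hJt hw)
      rw [map_add, hw0, add_zero]
      clear hw hw0
      unfold VV at hv
      induction hv using Submodule.span_induction with
      | mem z hz =>
        obtain ⟨β, h1, rfl⟩ := hz
        rw [hrel β h1.le]
        exact Submodule.sum_mem _ fun i _ =>
          Submodule.smul_mem _ _ (Submodule.subset_span ⟨i, rfl⟩)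
      | zero => rw [map_zero]; exact Submodule.zero_mem _
      | add y z _ _ h1 h2 => rw [map_add]; exact Submodule.add_mem _ h1 h2
      | smul s z _ hz => rw [map_smul]; exact Submodule.smul_mem _ _ hz
    have hli : LinearIndependent ℂ (fun i => πt (e i)) := by
      refine linearIndependent_of_top_le_span_of_card_eq_finrank hspan ?_
      rw [hdt']; simp
    have h1 := hrel α hα.le
    have h2 : πt (mon xB α) = 0 := by
      refine (Ideal.Quotient.eq_zero_iff_mem (I := It)).2 (hJt (Ideal.subset_span ⟨α, hα, rfl⟩))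
    rw [h2] at h1
    exact fun i => (Fintype.linearIndependent_iff.1 hli) _ h1.symm i
  refine ⟨b α, hb α, ?_⟩
  have h2 : Tendsto (fun p : (Fin n → ℂ) × ℂ => p.2) (𝓝 0) (𝓝 0) :=
    continuous_snd.tendsto' _ _ rfl
  filter_upwards [hid α, h2.eventually hzero] with p h3 h4
  rw [h3]
  simp [h4]

end Main

end Crest.Agent.R257.UI939
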