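import Crest.Agent.R257.Uni2_554

/-!
Row 257 (S0395), leaf E-GLOB, part 2c (helper554): the uniform ideal lemma (U), main statement.
-/

set_option autoImplicit false

open Set Filter Topology
open Crest.Agent.R275.Loc2879

noncomputable section

namespace Crest.Agent.R257.Uni554

open Crest.Agent.R257.Fin554

variable {n : ℕ} {ι : Type*} [Fintype ι]

/-- the relation furnished by `generators`, as functions -/
def RelF (G : ι → (Fin n → ℂ) × ℂ → ℂ) {μ : ℕ} (e : Fin μ → (Fin n → ℂ) × ℂ → ℂ)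
    (f : (Fin n → ℂ) × ℂ → ℂ) (c : Fin μ → ℂ → ℂ) (a : ι → (Fin n → ℂ) × ℂ → ℂ)
    (p : (Fin n → ℂ) × ℂ) : Prop :=
  f p = ∑ j, c j p.2 * e j p + ∑ i, a i p * G i p

lemma relF_exists {G : ι → (Fin n → ℂ) × ℂ → ℂ} {hG : ∀ i, AnalyticAt ℂ (G i) (0, 0)} {μ : ℕ}
    {e : Fin μ → (Fin n → ℂ) × ℂ → ℂ} {he : ∀ j, AnalyticAt ℂ (e j) (0, 0)}
    (h : ∀ b : Bn n, ∃ c : Fin μ → OO (0 : ℂ),
      b - ∑ j, sndR n 0 (c j) * gm (e j) (he j) ∈ Ideal.span (range fun i => gm (G i) (hG i)))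
    {f : (Fin n → ℂ) × ℂ → ℂ} (hf : AnalyticAt ℂ f (0, 0)) :
    ∃ (c : Fin μ → ℂ → ℂ) (a : ι → (Fin n → ℂ) × ℂ → ℂ), (∀ j, AnalyticAt ℂ (c j) 0) ∧
      (∀ i, AnalyticAt ℂ (a i) (0, 0)) ∧ ∀ᶠ p in 𝓝 ((0 : Fin n → ℂ), (0 : ℂ)),
        RelF G e f c a p := by
  obtain ⟨c, hc⟩ := h (gm f hf)
  rw [Ideal.mem_span_range_iff_exists_fun] at hc
  obtain ⟨a, ha⟩ := hc
  choose C hC hCc using fun j => exists_gm (c j)
  choose A hA hAa using fun i => exists_gm (a i)
  refine ⟨C, A, hC, hA, ?_⟩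
  obtain rfl : (fun j => gm (C j) (hC j)) = c := funext hCc
  obtain rfl : (fun i => gm (A i) (hA i)) = a := funext hAa
  simp only [sndR_gm, gm_mul] at ha
  obtain ⟨h1, e1⟩ := gm_sum Finset.univ (fun j => (fun p : (Fin n → ℂ) × ℂ => C j p.2) * e j)
    (fun j => (AnalyticAt.comp (g := C j) (f := Prod.snd) (hC j) analyticAt_snd).mul (he j))
  obtain ⟨h2, e2⟩ := gm_sum Finset.univ (fun i => A i * G i) (fun i => (hA i).mul (hG i))
  rw [e1, e2, gm_sub, gm_eq_gm] at ha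
  filter_upwards [ha] with p hp
  simp only [Pi.sub_apply, Pi.mul_apply] at hp
  rw [RelF, hp]
  ring

lemma eventually_const_slice {P : ℂ → Prop} (h : ∀ᶠ t in 𝓝 (0 : ℂ), P t) :
    ∀ᶠ t in 𝓝 (0 : ℂ), P t := h

/-- the relation at a fixed parameter, in the quotient ring -/
lemma rel_quot {G : ι → (Fin n → ℂ) × ℂ → ℂ} {μ : ℕ} {e : Fin μ → (Fin n → ℂ) × ℂ → ℂ}
    {f : (Fin n → ℂ) × ℂ → ℂ} {c : Fin μ → ℂ → ℂ} {a : ι → (Fin n → ℂ) × ℂ → ℂ} {t : ℂ}
    (hG : ∀ i, AnalyticAt ℂ (fun x => G i (x, t)) 0)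
    (he : ∀ j, AnalyticAt ℂ (fun x => e j (x, t)) 0)
    (ha : ∀ i, AnalyticAt ℂ (fun x => a i (x, t)) 0)
    (hf : AnalyticAt ℂ (fun x => f (x, t)) 0)
    (h : ∀ᶠ x in 𝓝 (0 : Fin n → ℂ), RelF G e f c a (x, t)) :
    Ideal.Quotient.mk (JI (fun i x => G i (x, t))) (gm (fun x => f (x, t)) hf) =
      ∑ j, c j t • Ideal.Quotient.mk (JI (fun i x => G i (x, t)))
        (gm (fun x => e j (x, t)) (he j)) := by
  obtain ⟨h1, e1⟩ := gm_sum Finset.univ (fun j => (fun _ : Fin n → ℂ => c j t) *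
    (fun x => e j (x, t))) (fun j => analyticAt_const.mul (he j))
  obtain ⟨h2, e2⟩ := gm_sum Finset.univ (fun i => (fun x => a i (x, t)) *
    (fun x => G i (x, t))) (fun i => (ha i).mul (hG i))
  have h3 : gm (fun x => f (x, t)) hf =
      ∑ j, algebraMap ℂ (On n) (c j t) * gm (fun x => e j (x, t)) (he j) +
      ∑ i, gm (fun x => a i (x, t)) (ha i) * gm (fun x => G i (x, t)) (hG i) := by
    simp only [Crest.Agent.R275.Loc2879.algebraMap_apply, gm_mul]
    rw [e1, e2, gm_add, gm_eq_gm]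
    filter_upwards [h] with x hx
    simpa [RelF] using hx
  rw [h3, map_add, map_sum, map_sum]
  have h4 : ∑ i, Ideal.Quotient.mk (JI (fun i x => G i (x, t)))
      (gm (fun x => a i (x, t)) (ha i) * gm (fun x => G i (x, t)) (hG i)) = 0 := by
    refine Finset.sum_eq_zero (fun i _ => ?_)
    rw [Ideal.Quotient.eq_zero_iff_mem]
    exact Ideal.mul_mem_left _ _ (Ideal.subset_span ⟨i, hG i, rfl⟩)
  rw [h4, add_zero]
  refine Finset.sum_congr rfl (fun j _ => ?_)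
  rw [map_mul, Algebra.smul_def]
  rfl

/-- **(U)** the uniform ideal lemma -/
theorem uniform (G : ι → (Fin n → ℂ) × ℂ → ℂ) (hG : ∀ i, AnalyticAt ℂ (G i) (0, 0)) (μ : ℕ)
    (hμ : ∀ᶠ t in 𝓝 (0 : ℂ), Module.Finite ℂ (On n ⧸ JI (fun i x => G i (x, t))) ∧
      Module.finrank ℂ (On n ⧸ JI (fun i x => G i (x, t))) = μ) (w : Fin μ → Fin n) :
    ∃ a : ι → (Fin n → ℂ) × ℂ → ℂ, (∀ i, AnalyticAt ℂ (a i) (0, 0)) ∧
      ∀ᶠ p in 𝓝 ((0 : Fin n → ℂ), (0 : ℂ)), ∏ j, p.1 (w j) = ∑ i, a i p * G i p := by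
  obtain ⟨eb, heb⟩ := generators G hG μ hμ.self_of_nhds.1 hμ.self_of_nhds.2
  choose e he hee using fun j => exists_gm (eb j)
  obtain rfl : (fun j => gm (e j) (he j)) = eb := funext hee
  have hrel := fun {f : (Fin n → ℂ) × ℂ → ℂ} (hf : AnalyticAt ℂ f (0, 0)) =>
    relF_exists (G := G) (hG := hG) (e := e) (he := he) heb hf
  have hXa : ∀ i : Fin n, AnalyticAt ℂ (fun p : (Fin n → ℂ) × ℂ => p.1 i) (0, 0) :=
    fun i => analyticAt_coord i _
  obtain ⟨c1, a1, hc1, ha1, h1⟩ := hrel (f := fun _ => 1) analyticAt_const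
  choose c2 a2 hc2 ha2 h2 using fun (i : Fin n) (j : Fin μ) =>
    hrel (f := fun p => p.1 i * e j p) ((hXa i).mul (he j))
  have hprod : AnalyticAt ℂ (fun p : (Fin n → ℂ) × ℂ => ∏ j, p.1 (w j)) (0, 0) :=
    Finset.analyticAt_fun_prod _ (fun j _ => hXa (w j))
  obtain ⟨c3, a3, hc3, ha3, h3⟩ := hrel (f := fun p => ∏ j, p.1 (w j)) hprod
  have hc0 : ∀ j, ∀ᶠ t in 𝓝 (0 : ℂ), c3 j t = 0 := by
    rw [← Filter.eventually_all]
    have s1 := eventually_swap h1
    have s2 : ∀ᶠ t in 𝓝 (0 : ℂ), ∀ i j, ∀ᶠ x in 𝓝 (0 : Fin n → ℂ),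
        RelF G e (fun p => p.1 i * e j p) (c2 i j) (a2 i j) (x, t) := by
      rw [Filter.eventually_all]; intro i
      rw [Filter.eventually_all]; intro j
      exact eventually_swap (h2 i j)
    have s3 := eventually_swap h3
    have s4 : ∀ᶠ t in 𝓝 (0 : ℂ), ∀ i, AnalyticAt ℂ (fun x => G i (x, t)) 0 := by
      rw [Filter.eventually_all]; exact fun i => eventually_slice (hG i)
    have s5 : ∀ᶠ t in 𝓝 (0 : ℂ), ∀ j, AnalyticAt ℂ (fun x => e j (x, t)) 0 := by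
      rw [Filter.eventually_all]; exact fun i => eventually_slice (he i)
    have s6 : ∀ᶠ t in 𝓝 (0 : ℂ), ∀ i, AnalyticAt ℂ (fun x => a1 i (x, t)) 0 := by
      rw [Filter.eventually_all]; exact fun i => eventually_slice (ha1 i)
    have s7 : ∀ᶠ t in 𝓝 (0 : ℂ), ∀ i j k, AnalyticAt ℂ (fun x => a2 i j k (x, t)) 0 := by
      rw [Filter.eventually_all]; intro i
      rw [Filter.eventually_all]; intro j
      rw [Filter.eventually_all]; exact fun k => eventually_slice (ha2 i j k)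
    have s8 : ∀ᶠ t in 𝓝 (0 : ℂ), ∀ i, AnalyticAt ℂ (fun x => a3 i (x, t)) 0 := by
      rw [Filter.eventually_all]; exact fun i => eventually_slice (ha3 i)
    filter_upwards [s1, s2, s3, s4, s5, s6, s7, s8, hμ] with t s1 s2 s3 s4 s5 s6 s7 s8 s9
    obtain ⟨hfin, hrk⟩ := s9
    set J : Ideal (On n) := JI (fun i x => G i (x, t)) with hJ
    set eb : Fin μ → On n ⧸ J := fun j => Ideal.Quotient.mk J (gm (fun x => e j (x, t)) (s5 j))
      with heb'
    have q1 : (1 : On n ⧸ J) = ∑ j, c1 j t • eb j := by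
      have := rel_quot (f := fun _ => (1 : ℂ)) s4 s5 s6 analyticAt_const s1
      rw [← this, ← map_one (Ideal.Quotient.mk J)]
      rfl
    have q2 : ∀ i j, Ideal.Quotient.mk J (Xo i) * eb j = ∑ k, c2 i j k t • eb k := by
      intro i j
      have hf : AnalyticAt ℂ (fun x : Fin n → ℂ => x i * e j (x, t)) 0 :=
        (analyticAt_coord' i _).mul (s5 j)
      have := rel_quot (f := fun p : (Fin n → ℂ) × ℂ => p.1 i * e j p) s4 s5 (s7 i j) hf (s2 i j)
      rw [← this, heb', ← map_mul]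
      rfl
    have hS : Submodule.span ℂ (range eb) = ⊤ := by
      refine span_top J hfin _ ?_ ?_
      · rw [q1]
        exact Submodule.sum_mem _ (fun j _ => Submodule.smul_mem _ _
          (Submodule.subset_span ⟨j, rfl⟩))
      · intro s hs i
        induction hs using Submodule.span_induction with
        | mem x hx =>
          obtain ⟨j, rfl⟩ := hx
          rw [q2]
          exact Submodule.sum_mem _ (fun j _ => Submodule.smul_mem _ _
            (Submodule.subset_span ⟨j, rfl⟩))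
        | zero => rw [mul_zero]; exact Submodule.zero_mem _
        | add x y _ _ hx hy => rw [mul_add]; exact Submodule.add_mem _ hx hy
        | smul r x _ hx => rw [mul_smul_comm]; exact Submodule.smul_mem _ _ hx
    have hli : LinearIndependent ℂ eb :=
      linearIndependent_of_top_le_span_of_card_eq_finrank hS.ge (by rw [Fintype.card_fin, hrk])
    have q3 : ∑ j, c3 j t • eb j = 0 := by
      have hf : AnalyticAt ℂ (fun x : Fin n → ℂ => ∏ j, x (w j)) 0 :=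
        Finset.analyticAt_fun_prod _ (fun j _ => analyticAt_coord' (w j) _)
      have := rel_quot (f := fun p : (Fin n → ℂ) × ℂ => ∏ j, p.1 (w j)) s4 s5 s8 hf s3
      rw [← this, Ideal.Quotient.eq_zero_iff_mem]
      refine pow_le J hfin hrk ?_
      obtain ⟨h', e'⟩ := gm_prod (p := (0 : Fin n → ℂ)) Finset.univ
        (fun (j : Fin μ) (x : Fin n → ℂ) => x (w j)) (fun j => analyticAt_coord' (w j) _)
      change gm (fun x : Fin n → ℂ => ∏ j, x (w j)) _ ∈ _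
      rw [← e']
      have h7 : ∏ j : Fin μ, gm (p := (0 : Fin n → ℂ)) (fun x : Fin n → ℂ => x (w j))
          (analyticAt_coord' (w j) _) ∈ ∏ _j : Fin μ, IsLocalRing.maximalIdeal (On n) :=
        Ideal.prod_mem_prod (fun j _ => Xo_mem (w j))
      simpa using h7
    exact fun j => Fintype.linearIndependent_iff.1 hli (fun j => c3 j t) q3 j
  refine ⟨a3, ha3, ?_⟩
  have h4 : ∀ᶠ p in 𝓝 ((0 : Fin n → ℂ), (0 : ℂ)), ∀ j, c3 j p.2 = 0 := by
    rw [Filter.eventually_all]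
    intro j
    have : Tendsto (Prod.snd : (Fin n → ℂ) × ℂ → ℂ) (𝓝 (0, 0)) (𝓝 0) :=
      continuous_snd.tendsto _
    exact this.eventually (hc0 j)
  filter_upwards [h3, h4] with p hp hp4
  rw [RelF] at hp
  rw [hp]
  simp [hp4]

end Crest.Agent.R257.Uni554
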