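import Crest.Agent.R257.CM1_812
import Crest.Agent.R257.UI4_939
import Crest.Agent.R257.Uni3_554

/-!
Row 257 (S0395), leaf CN-SUM (helper812), part 2: the coordinates are a regular sequence in rings
of germs; Koszul syzygies for germs; `t` is a non zero divisor modulo a complete intersection.
-/

set_option autoImplicit false
set_option linter.unusedSectionVars false

open Set Filter Topology Metric Complex IsLocalRing
open Crest.Agent.R275.Loc2879 hiding AA
open Crest.Agent.R257.UI939

noncomputable section

namespace Crest.Agent.R257.CM_812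

universe u v

section Surj

variable {R : Type u} {R' : Type v} [CommRing R] [CommRing R']

lemma RS_of_surj (φ : R →+* R') (hφ : Function.Surjective φ) (L : List R) :
    ∀ (I : Ideal R) (I' : Ideal R'), I = I'.comap φ → RS I' (L.map φ) → RS I L := by
  induction L with
  | nil => intro I I' _ _; trivial
  | cons a L ih =>
    intro I I' hI h
    rw [List.map_cons] at h
    obtain ⟨h1, h2⟩ := h
    refine ⟨?_, ?_⟩
    · intro b hb
      rw [hI, Ideal.mem_comap] at hb ⊢
      rw [map_mul] at hb
      exact h1 _ hb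
    · refine ih _ (I' ⊔ Ideal.span {φ a}) ?_ h2
      apply le_antisymm
      · refine sup_le ?_ ?_
        · rw [hI]; exact Ideal.comap_mono le_sup_left
        · rw [Ideal.span_singleton_le_iff_mem, Ideal.mem_comap]
          exact Ideal.mem_sup_right (Ideal.mem_span_singleton_self _)
      · intro b hb
        rw [Ideal.mem_comap] at hb
        obtain ⟨i, hi, y, hy, hiy⟩ := Submodule.mem_sup.1 hb
        obtain ⟨c, rfl⟩ := Ideal.mem_span_singleton'.1 hy
        obtain ⟨c, rfl⟩ := hφ c
        have h3 : b - c * a ∈ I := by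
          rw [hI, Ideal.mem_comap, map_sub, map_mul, ← hiy]
          simpa using hi
        have h4 : b = (b - c * a) + c * a := by ring
        rw [h4]
        exact Submodule.add_mem_sup h3 (Ideal.mul_mem_left _ _ (Ideal.mem_span_singleton_self _))

end Surj

section Kill

variable {n : ℕ}

lemma an_kill (s : Finset (Fin n)) (p : Fin n → ℂ) :
    AnalyticAt ℂ (fun x : Fin n → ℂ => fun i => if i ∈ s then (0 : ℂ) else x i) p := by
  refine AnalyticAt.pi fun i => ?_
  by_cases h : i ∈ s
  · simpa [h] using analyticAt_const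
  · simpa [h] using an_coord i p

lemma kill_zero (s : Finset (Fin n)) :
    (fun x : Fin n → ℂ => fun i => if i ∈ s then (0 : ℂ) else x i) 0 = 0 := by
  funext i; simp

/-- put the coordinates in `s` equal to `0` -/
def kill (s : Finset (Fin n)) : BB n →+* BB n := pull _ (an_kill s 0) (kill_zero s)

lemma kill_gm (s : Finset (Fin n)) {f : (Fin n → ℂ) → ℂ} (hf : AnalyticAt ℂ f 0)
    (h : AnalyticAt ℂ (fun x : Fin n → ℂ => f (fun i => if i ∈ s then (0 : ℂ) else x i)) 0) :
    kill s (gm f hf) = gm _ h := rfl

lemma sub_kill_mem (s : Finset (Fin n)) (g : BB n) :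
    g - kill s g ∈ Ideal.span (xB '' (s : Set (Fin n))) := by
  classical
  induction s using Finset.induction_on with
  | empty =>
    have : kill ∅ g = g := by
      obtain ⟨f, hf, rfl⟩ := exists_gm g
      rw [kill_gm _ _ (by simpa using hf), gm_eq_gm]
      exact Eventually.of_forall fun x => by simp
    rw [this, sub_self]
    exact Ideal.zero_mem _
  | insert k s hk ih =>
    have h1 : kill s g - kill (insert k s) g ∈ Ideal.span {xB k} := by
      obtain ⟨f, hf, rfl⟩ := exists_gm g
      have hs : AnalyticAt ℂ (fun x : Fin n → ℂ => f (fun i => if i ∈ s then (0 : ℂ) else x i)) 0 := by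
        refine AnalyticAt.comp (g := f) ?_ (an_kill s 0)
        have := kill_zero s
        simp only at this
        rw [this]; exact hf
      have hks : AnalyticAt ℂ (fun x : Fin n → ℂ =>
          f (fun i => if i ∈ insert k s then (0 : ℂ) else x i)) 0 := by
        refine AnalyticAt.comp (g := f) ?_ (an_kill (insert k s) 0)
        have := kill_zero (insert k s)
        simp only at this
        rw [this]; exact hf
      obtain ⟨q, hq, hqe⟩ := hadamard_coord hs k
      rw [kill_gm s hf hs, kill_gm (insert k s) hf hks]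
      have e : gm _ hs = gm _ hks + xB k * gm q hq := by
        rw [xB, gm_mul, gm_add, gm_eq_gm]
        filter_upwards [hqe] with x hx
        rw [hx]
        have e2 : (fun i => if i ∈ s then (0 : ℂ) else Function.update x k 0 i) =
            fun i => if i ∈ insert k s then (0 : ℂ) else x i := by
          funext i
          by_cases h : i = k
          · subst h; simp [hk]
          · simp [Finset.mem_insert, h]
        rw [e2]
        rfl
      rw [e, add_sub_cancel_left]
      exact Ideal.mul_mem_right _ _ (Ideal.mem_span_singleton_self _)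
    have e : g - kill (insert k s) g = (g - kill s g) + (kill s g - kill (insert k s) g) := by ring
    rw [e]
    refine Ideal.add_mem _ ?_ ?_
    · exact Ideal.span_mono (Set.image_mono (by simp)) ih
    · refine Ideal.span_mono ?_ h1
      rw [Set.singleton_subset_iff]
      exact ⟨k, by simp, rfl⟩

lemma kill_xB_mem (s : Finset (Fin n)) {k : Fin n} (hk : k ∈ s) : kill s (xB k) = 0 := by
  rw [xB, kill_gm _ _ (by simpa [hk] using analyticAt_const), gm_eq_zero]
  exact Eventually.of_forall fun x => by simp [hk]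

lemma kill_xB_not_mem (s : Finset (Fin n)) {k : Fin n} (hk : k ∉ s) : kill s (xB k) = xB k := by
  rw [xB, kill_gm _ _ (by simpa [hk] using an_coord k 0), gm_eq_gm]
  exact Eventually.of_forall fun x => by simp [hk]

lemma mem_span_iff_kill (s : Finset (Fin n)) (g : BB n) :
    g ∈ Ideal.span (xB '' (s : Set (Fin n))) ↔ kill s g = 0 := by
  constructor
  · intro h
    have : Ideal.span (xB '' (s : Set (Fin n))) ≤ RingHom.ker (kill s) := by
      rw [Ideal.span_le]
      rintro _ ⟨k, hk, rfl⟩
      exact kill_xB_mem s hk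
    exact this h
  · intro h
    have := sub_kill_mem s g
    rwa [h, sub_zero] at this

lemma xB_ne_zero (k : Fin n) : xB k ≠ 0 := by
  intro h
  rw [xB, gm_eq_zero] at h
  have h1 : Tendsto (fun c : ℂ => (Pi.single k c : Fin n → ℂ)) (𝓝[≠] 0) (𝓝 0) := by
    have : Continuous (fun c : ℂ => (Pi.single k c : Fin n → ℂ)) :=
      continuous_pi fun i => by
        by_cases h : i = k
        · subst h; simpa using continuous_id'
        · simpa [Pi.single_eq_of_ne h] using continuous_const
    have h2 := this.tendsto 0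
    have h4 : (Pi.single k (0 : ℂ) : Fin n → ℂ) = 0 := by simp
    rw [h4] at h2
    exact h2.mono_left nhdsWithin_le_nhds
  have h2 := h1.eventually h
  have h3 : ∀ᶠ c : ℂ in 𝓝[≠] 0, c ≠ 0 := self_mem_nhdsWithin
  obtain ⟨c, hc1, hc2⟩ := (h2.and h3).exists
  simp at hc1
  exact hc2 hc1

lemma nz_xB (s : Finset (Fin n)) {k : Fin n} (hk : k ∉ s) :
    Nz (Ideal.span (xB '' (s : Set (Fin n)))) (xB k) := by
  intro b hb
  rw [mem_span_iff_kill, map_mul, kill_xB_not_mem s hk] at hb
  rw [mem_span_iff_kill]
  exact (mul_eq_zero.1 hb).resolve_left (xB_ne_zero k)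

lemma RS_xB (l : List (Fin n)) : ∀ s : Finset (Fin n), (∀ i ∈ l, i ∉ s) → l.Nodup →
    RS (Ideal.span (xB '' (s : Set (Fin n)))) (l.map xB) := by
  classical
  induction l with
  | nil => intro s _ _; trivial
  | cons k l ih =>
    intro s hs hl
    rw [List.nodup_cons] at hl
    refine ⟨nz_xB s (hs k (by simp)), ?_⟩
    have e : Ideal.span (xB '' (s : Set (Fin n))) ⊔ Ideal.span {xB k} =
        Ideal.span (xB '' ((insert k s : Finset (Fin n)) : Set (Fin n))) := by
      rw [Finset.coe_insert, Set.image_insert_eq, ← Ideal.span_union, Set.union_comm,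
        Set.singleton_union]
    rw [e]
    refine ih (insert k s) ?_ hl.2
    intro i hi
    rw [Finset.mem_insert, not_or]
    exact ⟨fun h => hl.1 (h ▸ hi), hs i (List.mem_cons_of_mem _ hi)⟩

/-- the coordinates are a regular sequence in `O_n` -/
theorem RS_coord : RS (⊥ : Ideal (BB n)) ((List.finRange n).map xB) := by
  have := RS_xB (List.finRange n) ∅ (by simp) (List.nodup_finRange n)
  simpa using this

lemma xB_mem_max (k : Fin n) : xB k ∈ maximalIdeal (BB n) := by
  rw [mem_maximalIdeal, mem_nonunits_iff]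
  exact xB_not_unit k

/-- **Koszul syzygies in `O_n`** -/
theorem koszul_BB (a : Fin n → BB n) (ham : ∀ i, a i ∈ maximalIdeal (BB n))
    (hfin : Module.Finite ℂ (BB n ⧸ Ideal.span (Set.range a))) : KS a :=
  koszul (k := ℂ) ((List.finRange n).map xB) (by simp)
    (by
      intro y hy
      obtain ⟨i, -, rfl⟩ := List.mem_map.1 hy
      exact xB_mem_max i) RS_coord a ham _ (Uni554.pow_le _ hfin rfl)

end Kill

section Line

variable {n : ℕ}

lemma res0_surj : Function.Surjective (res0 n) := fun a => ⟨emb n a, res0_emb a⟩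

lemma ker_res0 {a : AA n} : res0 n a = 0 ↔ a ∈ Ideal.span {Tv n} := by
  constructor
  · intro h
    obtain ⟨a1, h1⟩ := split_T' a
    rw [h, map_zero, zero_add] at h1
    rw [h1]
    exact Ideal.mul_mem_right _ _ (Ideal.mem_span_singleton_self _)
  · intro h
    obtain ⟨c, rfl⟩ := Ideal.mem_span_singleton'.1 h
    rw [map_mul, res0_T, mul_zero]

lemma Tv_ne_zero : Tv n ≠ 0 := by
  intro h
  rw [Tv, gm_eq_zero] at h
  have h1 : Tendsto (fun c : ℂ => ((0, c) : (Fin n → ℂ) × ℂ)) (𝓝[≠] 0) (𝓝 0) := by
    have : Continuous (fun c : ℂ => ((0, c) : (Fin n → ℂ) × ℂ)) := by fun_prop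
    exact (this.tendsto 0).mono_left nhdsWithin_le_nhds
  have h2 := h1.eventually h
  have h3 : ∀ᶠ c : ℂ in 𝓝[≠] 0, c ≠ 0 := self_mem_nhdsWithin
  obtain ⟨c, hc1, hc2⟩ := (h2.and h3).exists
  exact hc2 hc1

lemma Tv_mem_max : Tv n ∈ maximalIdeal (AA n) := by
  rw [mem_maximalIdeal, mem_nonunits_iff, Tv, isUnit_gm]
  simp

lemma Xv_mem_max (i : Fin n) : Xv i ∈ maximalIdeal (AA n) := by
  rw [mem_maximalIdeal, mem_nonunits_iff, Xv, isUnit_gm]
  simp

lemma RS_AA : RS (⊥ : Ideal (AA n)) (Tv n :: (List.finRange n).map Xv) := by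
  refine ⟨?_, ?_⟩
  · intro b hb
    rw [Ideal.mem_bot] at hb ⊢
    exact (mul_eq_zero.1 hb).resolve_left Tv_ne_zero
  · refine RS_of_surj (res0 n) res0_surj _ _ ⊥ ?_ ?_
    · rw [bot_sup_eq]
      ext a
      rw [Ideal.mem_comap, Ideal.mem_bot, ker_res0]
    · have : ((List.finRange n).map Xv).map (res0 n) = (List.finRange n).map (xB (n := n)) := by
        rw [List.map_map]
        rfl
      rw [this]
      exact RS_coord

/-- the fibre at `t = 0` is finite: so is the quotient by `t` and the `a j` -/
lemma finite_line (a : Fin n → AA n)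
    (hfin : Module.Finite ℂ (BB n ⧸ Ideal.span (Set.range fun j => res0 n (a j)))) :
    Module.Finite ℂ (AA n ⧸ Ideal.span (Set.range (Fin.snoc (α := fun _ => AA n) a (Tv n)))) := by
  set J : Ideal (AA n) := Ideal.span (Set.range (Fin.snoc (α := fun _ => AA n) a (Tv n))) with hJ
  set J' : Ideal (BB n) := Ideal.span (Set.range fun j => res0 n (a j)) with hJ'
  have hT : Tv n ∈ J := Ideal.subset_span ⟨Fin.last n, by simp⟩
  have ha : ∀ j, a j ∈ J := fun j => Ideal.subset_span ⟨Fin.castSucc j, by simp⟩
  have hle : J' ≤ J.comap (emb n) := by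
    rw [hJ', Ideal.span_le]
    rintro _ ⟨j, rfl⟩
    obtain ⟨a1, h1⟩ := split_T' (a j)
    have : emb n (res0 n (a j)) = a j - Tv n * a1 := by rw [eq_sub_iff_add_eq]; exact h1.symm
    show emb n (res0 n (a j)) ∈ J
    rw [this]
    exact J.sub_mem (ha j) (Ideal.mul_mem_right _ _ hT)
  let f : (BB n ⧸ J') →+* (AA n ⧸ J) := Ideal.quotientMap J (emb n) hle
  let F : (BB n ⧸ J') →ₗ[ℂ] (AA n ⧸ J) :=
    { toFun := f
      map_add' := map_add f
      map_smul' := fun c x => by
        rw [Algebra.smul_def, Algebra.smul_def, map_mul, RingHom.id_apply]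
        congr 1 }
  refine Module.Finite.of_surjective F ?_
  intro y
  obtain ⟨y, rfl⟩ := Ideal.Quotient.mk_surjective y
  obtain ⟨y1, h1⟩ := split_T' y
  refine ⟨Ideal.Quotient.mk _ (res0 n y), ?_⟩
  show Ideal.Quotient.mk J (emb n (res0 n y)) = Ideal.Quotient.mk J y
  rw [Ideal.Quotient.eq]
  have : emb n (res0 n y) - y = - (Tv n * y1) := by rw [h1]; simp [res0_emb, res0_T]
  rw [this]
  exact J.neg_mem (Ideal.mul_mem_right _ _ hT)

/-- **`t` is a non zero divisor** modulo `n` elements of `O_{n+1}` whose restrictions to `t = 0`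
have finite multiplicity -/
theorem nz_T (a : Fin n → AA n)
    (hfin : Module.Finite ℂ (BB n ⧸ Ideal.span (Set.range fun j => res0 n (a j)))) :
    Nz (Ideal.span (Set.range a)) (Tv n) := by
  by_cases htop : Ideal.span (Set.range a) = ⊤
  · intro b _; rw [htop]; trivial
  have ham : ∀ j, a j ∈ maximalIdeal (AA n) := by
    intro j
    rw [mem_maximalIdeal, mem_nonunits_iff]
    intro h
    exact htop (Ideal.eq_top_of_isUnit_mem _ (Ideal.subset_span ⟨j, rfl⟩) h)
  have hfin2 := finite_line a hfin
  have hK : KS (Fin.snoc (α := fun _ => AA n) a (Tv n)) := by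
    refine koszul (k := ℂ) (Tv n :: (List.finRange n).map Xv) (by simp) ?_ RS_AA _ ?_ _
      (Uni554.pow_le _ hfin2 rfl)
    · intro y hy
      rw [List.mem_cons] at hy
      rcases hy with rfl | hy
      · exact Tv_mem_max
      · obtain ⟨i, -, rfl⟩ := List.mem_map.1 hy
        exact Xv_mem_max i
    · intro i
      refine Fin.lastCases ?_ (fun i => ?_) i
      · rw [Fin.snoc_last]; exact Tv_mem_max
      · rw [Fin.snoc_castSucc]; exact ham i
  have := nz_of_KS hK
  simpa using this

end Line

end Crest.Agent.R257.CM_812
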