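import Crest.Agent.R257.Cnm6_889
import Crest.Agent.R257.CM2_812
import Crest.Agent.R257.CNS_939

/-!
Row 257 (S0395), leaf CNM (helper889), part 7: square systems with parameters in any finite
dimensional space; the inequality and the equality for the number of points in small fibres.
-/

set_option autoImplicit false

open Set Filter Topology
open Crest.Agent.R275.Loc2879

noncomputable section

namespace Crest.Agent.R257.Cnm7_889

open Crest.Agent.R257.Uni554 (On)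
open Crest.Agent.R257.Cnm3_889 Crest.Agent.R257.Defs_219
open Crest.Agent.R257.Cnm4_889 Crest.Agent.R257.Cnm5_889 Crest.Agent.R257.Cnm6_889
open Crest.Agent.R257.UI939 (Idl gz gz_eq BB colFin_iff col_eq)

lemma kos_of_KS {n : ℕ} {a : Fin n → On n} (h : Crest.Agent.R257.CM_812.KS a) : Kos a := by
  intro b hb
  obtain ⟨S, -, h2, h3⟩ := h b hb
  exact ⟨fun i j => S i j, fun i j => h2 j i, h3⟩

/-- slice at the origin of the parameters -/
lemma J0_eq {n k m : ℕ} (G : Fin m → (Fin n → ℂ) × (Fin k → ℂ) → ℂ)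
    (hG : ∀ j, AnalyticAt ℂ (G j) ((0, 0))) :
    J0 (fun j => gm (G j) (hG j) : Fin m → Bk n k) =
      Idl (0 : Fin n → ℂ) (fun j x => G j (x, 0)) := by
  have h1 : ∀ j, AnalyticAt ℂ (fun x => G j (x, 0)) (0 : Fin n → ℂ) := fun j =>
    AnalyticAt.comp (g := G j) (f := fun x => (x, 0)) (hG j) (analyticAt_id.prod analyticAt_const)
  rw [J0, Idl]
  congr 2
  ext1 j
  rw [gz_eq (h1 j)]
  rfl

/-- the count for square systems, parameters in `ℂᵏ` -/
theorem count_sq {n k : ℕ} [NeZero k] (G : Fin n → (Fin n → ℂ) × (Fin k → ℂ) → ℂ)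
    (hG : ∀ j, AnalyticAt ℂ (G j) ((0, 0))) (hfin : ColFin (fun j x => G j (x, 0))) :
    ∃ r₀ : ℝ, 0 < r₀ ∧ ∀ ε : ℝ, 0 < ε → ∀ᶠ y in 𝓝 (0 : Fin k → ℂ),
      Cnt G r₀ (col (fun j x => G j (x, 0))) ε y := by
  have h1 : ∀ j, AnalyticAt ℂ (fun x => G j (x, 0)) (0 : Fin n → ℂ) := fun j =>
    AnalyticAt.comp (g := G j) (f := fun x => (x, 0)) (hG j) (analyticAt_id.prod analyticAt_const)
  have hf1 := (colFin_iff h1).1 hfin
  have hc1 := col_eq h1
  by_cases hu : ∀ j, G j (0, 0) = 0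
  · rw [← J0_eq G hG] at hf1 hc1
    refine count G hG hf1 hc1.symm (kos_of_KS ?_)
    refine Crest.Agent.R257.CM_812.koszul_BB _ (fun j => ?_) hf1
    rw [IsLocalRing.mem_maximalIdeal, mem_nonunits_iff, rk, pull_gm, isUnit_gm, not_not]
    exact hu j
  · push Not at hu
    obtain ⟨j, hj⟩ := hu
    have hev : ∀ᶠ p in 𝓝 (((0 : Fin n → ℂ), (0 : Fin k → ℂ))), G j p ≠ 0 :=
      (hG j).continuousAt.eventually_ne hj
    obtain ⟨r₀, hr₀, hball⟩ := Metric.eventually_nhds_iff_ball.1 hev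
    refine ⟨r₀, hr₀, fun ε hε => ?_⟩
    have hcol : col (fun j x => G j (x, 0)) = 0 := by
      rw [hc1]
      have h2 : Idl (0 : Fin n → ℂ) (fun j x => G j (x, 0)) = ⊤ := by
        rw [Ideal.eq_top_iff_one]
        have h3 : IsUnit (gz (fun x => G j (x, 0)) : BB n) := by
          rw [gz_eq (h1 j), isUnit_gm]; exact hj
        have h4 : (gz (fun x => G j (x, 0)) : BB n) ∈ Idl (0 : Fin n → ℂ)
            (fun j x => G j (x, 0)) := Ideal.subset_span ⟨j, rfl⟩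
        exact (Ideal.eq_top_iff_one _).1 (Ideal.eq_top_of_isUnit_mem _ h4 h3)
      rw [h2]
      exact Module.finrank_zero_of_subsingleton
    rw [hcol]
    have F5 : ∀ᶠ y in 𝓝 (0 : Fin k → ℂ), ‖y‖ < r₀ := by
      have : Metric.ball (0 : Fin k → ℂ) r₀ ∈ 𝓝 (0 : Fin k → ℂ) := Metric.ball_mem_nhds _ hr₀
      filter_upwards [this] with y hy
      simpa using hy
    filter_upwards [F5] with y hy
    have hZ : ZZ G r₀ y = ∅ := by
      rw [Set.eq_empty_iff_forall_notMem]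
      rintro x ⟨hx, hx0⟩
      refine hball (x, y) ?_ (hx0 j)
      rw [Metric.mem_ball, dist_eq_norm]
      have : (x, y) - ((0 : Fin n → ℂ), (0 : Fin k → ℂ)) = (x, y) := by simp
      rw [this, Prod.norm_def]
      exact max_lt hx hy
    refine ⟨by rw [hZ]; exact Set.finite_empty, fun x hx => ?_, by rw [hZ]; simp,
      fun _ => by rw [hZ]; simp⟩
    rw [hZ] at hx
    exact absurd hx (Set.notMem_empty _)

/-- the zero set in a ball -/
def ZP {n m : ℕ} {P : Type} (G : Fin m → (Fin n → ℂ) × P → ℂ) (r : ℝ) (y : P) :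
    Set (Fin n → ℂ) := {x | ‖x‖ < r ∧ ∀ j, G j (x, y) = 0}

/-- the conclusions: the zeros in the ball of radius `r` are finitely many, have norm `< ε`, their
number is at most `N`, with equality if all of them are nondegenerate -/
structure CntP {n m : ℕ} {P : Type} (G : Fin m → (Fin n → ℂ) × P → ℂ) (r : ℝ) (N : ℕ) (ε : ℝ)
    (y : P) : Prop where
  fin : (ZP G r y).Finite
  small : ∀ x ∈ ZP G r y, ‖x‖ < ε
  le : (ZP G r y).ncard ≤ N
  eq : (∀ x ∈ ZP G r y, ∀ v : Fin n → ℂ, (∀ j, fderiv ℂ (fun x => G j (x, y)) x v = 0) → v = 0) →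
    (ZP G r y).ncard = N

/-- **conservation of number** for square systems with parameters in a finite dimensional space -/
theorem count_param {n : ℕ} {P : Type} [NormedAddCommGroup P] [NormedSpace ℂ P]
    [FiniteDimensional ℂ P] (p₀ : P) (G : Fin n → (Fin n → ℂ) × P → ℂ)
    (hG : ∀ j, AnalyticAt ℂ (G j) ((0, p₀))) (hfin : ColFin (fun j x => G j (x, p₀))) :
    ∃ r₀ : ℝ, 0 < r₀ ∧ ∀ ε : ℝ, 0 < ε → ∀ᶠ y in 𝓝 p₀,
      CntP G r₀ (col (fun j x => G j (x, p₀))) ε y := by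
  -- add a dummy parameter
  let k := Module.finrank ℂ (P × ℂ)
  have hk : NeZero k := ⟨by
    have : 0 < Module.finrank ℂ (P × ℂ) := Module.finrank_pos
    exact this.ne'⟩
  let e : (P × ℂ) ≃L[ℂ] (Fin k → ℂ) := ContinuousLinearEquiv.ofFinrankEq (by simp [k])
  let φ : (Fin k → ℂ) → P := fun y => p₀ + (e.symm y).1
  have hφ0 : φ 0 = p₀ := by simp [φ]
  let ψ : (Fin n → ℂ) × (Fin k → ℂ) → (Fin n → ℂ) × P := fun q => (q.1, φ q.2)
  have hφan : ∀ y, AnalyticAt ℂ φ y := fun y =>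
    analyticAt_const.add (((ContinuousLinearMap.fst ℂ P ℂ).comp
      (e.symm : (Fin k → ℂ) →L[ℂ] P × ℂ)).analyticAt y)
  have hψ : ∀ q, AnalyticAt ℂ ψ q := fun q =>
    analyticAt_fst.prod ((hφan q.2).comp analyticAt_snd)
  have hψ0 : ψ (0, 0) = (0, p₀) := by simp only [ψ, hφ0]
  let H : Fin n → (Fin n → ℂ) × (Fin k → ℂ) → ℂ := fun j q => G j (ψ q)
  have hH : ∀ j, AnalyticAt ℂ (H j) ((0, 0)) := fun j =>
    AnalyticAt.comp (g := G j) (f := ψ) (by rw [hψ0]; exact hG j) (hψ _)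
  have hsl : (fun j x => H j (x, 0)) = fun j x => G j (x, p₀) := by
    ext j x
    simp only [H, ψ, hφ0]
  obtain ⟨r₀, hr₀, hcnt⟩ := count_sq H hH (by rw [hsl]; exact hfin)
  refine ⟨r₀, hr₀, fun ε hε => ?_⟩
  have h1 := hcnt ε hε
  rw [hsl] at h1
  let χ : P → (Fin k → ℂ) := fun y => e (y - p₀, 0)
  have hχ : Tendsto χ (𝓝 p₀) (𝓝 0) := by
    have hc : Continuous χ := by
      have : Continuous (fun y : P => (y - p₀, (0 : ℂ))) := by fun_prop
      exact e.continuous.comp this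
    have h2 := hc.tendsto p₀
    have h3 : χ p₀ = 0 := by
      simp only [χ, sub_self]
      exact map_zero e
    rwa [h3] at h2
  filter_upwards [hχ.eventually h1] with y hy
  have hφχ : φ (χ y) = y := by simp [φ, χ]
  have hZ : ZZ H r₀ (χ y) = ZP G r₀ y := by
    ext x
    simp only [ZZ, ZP, H, ψ, hφχ]
  have hfd : ∀ j, (fun x => H j (x, χ y)) = fun x => G j (x, y) := by
    intro j; ext x
    simp only [H, ψ, hφχ]
  have g1 := hy.fin
  have g2 := hy.small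
  have g3 := hy.le
  have g4 := hy.eq
  simp only [hZ, hfd] at g1 g2 g3 g4
  exact ⟨g1, g2, g3, g4⟩

/-- **finite to one**: the fibres of `(f₁,…,f_n)` near the origin have at most
`dim O_n/(f)` points -/
theorem fto_gen {n : ℕ} (F : Fin n → (Fin n → ℂ) → ℂ) (hF : ∀ j, AnalyticAt ℂ (F j) 0)
    (hF0 : ∀ j, F j 0 = 0) (hfin : ColFin F) :
    ∃ r₀ : ℝ, 0 < r₀ ∧
      (∃ r : ℝ, 0 < r ∧ r ≤ r₀ ∧ ∀ s : Fin n → ℂ,
        ({x | ‖x‖ < r ∧ ∀ j, F j x = s j} : Set (Fin n → ℂ)).Finite ∧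
        ({x | ‖x‖ < r ∧ ∀ j, F j x = s j} : Set (Fin n → ℂ)).ncard ≤ col F) ∧
      ∀ r : ℝ, 0 < r → r ≤ r₀ → ∀ᶠ s in 𝓝 (0 : Fin n → ℂ),
        (∀ x, ‖x‖ < r → (∀ j, F j x = s j) → ∀ v : Fin n → ℂ,
          (∀ j, fderiv ℂ (F j) x v = 0) → v = 0) →
        ({x | ‖x‖ < r ∧ ∀ j, F j x = s j} : Set (Fin n → ℂ)).ncard = col F := by
  let G : Fin n → (Fin n → ℂ) × (Fin n → ℂ) → ℂ := fun j q => F j q.1 - q.2 j
  have hG : ∀ j, AnalyticAt ℂ (G j) ((0, 0)) := by
    intro j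
    refine AnalyticAt.sub (AnalyticAt.comp (g := F j) (f := Prod.fst) (hF j) analyticAt_fst) ?_
    exact ((ContinuousLinearMap.proj (R := ℂ) (φ := fun _ : Fin n => ℂ) j).comp
      (ContinuousLinearMap.snd ℂ (Fin n → ℂ) (Fin n → ℂ))).analyticAt _
  have hsl : (fun j x => G j (x, (0 : Fin n → ℂ))) = F := by
    ext j x; simp [G]
  obtain ⟨r₀, hr₀, hcnt⟩ := count_param (0 : Fin n → ℂ) G hG (by rw [hsl]; exact hfin)
  rw [hsl] at hcnt
  have hZ : ∀ r s, ZP G r s = {x | ‖x‖ < r ∧ ∀ j, F j x = s j} := by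
    intro r s; ext x
    simp only [ZP, G, sub_eq_zero]
  refine ⟨r₀, hr₀, ?_, fun r hr hrr => ?_⟩
  · obtain ⟨δ, hδ, hball⟩ := Metric.eventually_nhds_iff_ball.1 (hcnt r₀ hr₀)
    have h1 : ∀ᶠ x in 𝓝 (0 : Fin n → ℂ), ∀ j, ‖F j x‖ < δ := by
      refine Filter.eventually_all.2 fun j => ?_
      have h2 : Tendsto (fun x => ‖F j x‖) (𝓝 0) (𝓝 ‖F j 0‖) := (hF j).continuousAt.norm
      rw [hF0 j, norm_zero] at h2
      exact h2.eventually (gt_mem_nhds hδ)
    obtain ⟨r, hr, hball'⟩ := Metric.eventually_nhds_iff_ball.1 h1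
    refine ⟨min r r₀, lt_min hr hr₀, min_le_right _ _, fun s => ?_⟩
    by_cases hs : ‖s‖ < δ
    · have h2 := hball s (by simpa using hs)
      have h3 : ({x | ‖x‖ < min r r₀ ∧ ∀ j, F j x = s j} : Set (Fin n → ℂ)) ⊆ ZP G r₀ s := by
        rw [hZ]
        rintro x ⟨hx1, hx2⟩
        exact ⟨hx1.trans_le (min_le_right _ _), hx2⟩
      exact ⟨h2.fin.subset h3, (Set.ncard_le_ncard h3 h2.fin).trans h2.le⟩
    · have h3 : ({x | ‖x‖ < min r r₀ ∧ ∀ j, F j x = s j} : Set (Fin n → ℂ)) = ∅ := by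
        rw [Set.eq_empty_iff_forall_notMem]
        rintro x ⟨hx1, hx2⟩
        apply hs
        have h4 := hball' x (by simpa using hx1.trans_le (min_le_left _ _))
        rw [pi_norm_lt_iff hδ]
        intro j
        rw [← hx2 j]; exact h4 j
      rw [h3]
      exact ⟨Set.finite_empty, by simp⟩
  · filter_upwards [hcnt r hr] with s hs hnd
    have h3 : ZP G r₀ s = {x | ‖x‖ < r ∧ ∀ j, F j x = s j} := by
      ext x
      constructor
      · intro hx
        have h4 := hs.small x hx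
        rw [hZ] at hx
        exact ⟨h4, hx.2⟩
      · rintro ⟨hx1, hx2⟩
        rw [hZ]
        exact ⟨hx1.trans_le hrr, hx2⟩
    rw [← h3]
    refine hs.eq (fun x hx v hv => ?_)
    rw [h3] at hx
    refine hnd x hx.1 hx.2 v (fun j => ?_)
    have h5 := hv j
    have h6 : (fun x => G j (x, s)) = fun x => F j x - s j := rfl
    rw [h6, fderiv_sub_const] at h5
    exact h5

/-- the form used in DET -/
theorem fto {f g h : E3 → ℂ} (hf : AnalyticAt ℂ f 0) (hg : AnalyticAt ℂ g 0)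
    (hh : AnalyticAt ℂ h 0) (hf0 : f 0 = 0) (hg0 : g 0 = 0) (hh0 : h 0 = 0)
    (hfin : ColFin ![f, g, h]) : ∃ r : ℝ, 0 < r ∧ ∀ s : Fin 3 → ℂ,
      ({x ∈ Metric.ball (0 : E3) r | f x = s 0 ∧ g x = s 1 ∧ h x = s 2}).encard ≤
        col ![f, g, h] := by
  obtain ⟨r₀, -, ⟨r, hr, -, h1⟩, -⟩ := fto_gen ![f, g, h]
    (fun j => by fin_cases j <;> assumption) (fun j => by fin_cases j <;> assumption) hfin
  refine ⟨r, hr, fun s => ?_⟩
  obtain ⟨h2, h3⟩ := h1 s
  have h4 : ({x ∈ Metric.ball (0 : E3) r | f x = s 0 ∧ g x = s 1 ∧ h x = s 2}) =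
      {x | ‖x‖ < r ∧ ∀ j, (![f, g, h] : Fin 3 → E3 → ℂ) j x = s j} := by
    ext x
    simp [Fin.forall_fin_succ]
  rw [h4, ← h2.cast_ncard_eq]
  exact_mod_cast h3

end Crest.Agent.R257.Cnm7_889
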