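import Crest.Agent.R257.M3_5
import Crest.Agent.R257.Cnm7_889

/-!
# R257 (S0395) (helper5): `M3Stmt`

* `cntStmt` : the count, from helper889's `fto_gen`
* `m3Stmt : M3Stmt`, `m3_mass` (the form with powers)
-/

set_option autoImplicit false
set_option linter.unusedSectionVars false

open Set Filter Topology Complex MeasureTheory
open scoped ContDiff Matrix ComplexConjugate ENNReal

namespace Crest.Agent.R257.M3_5

open Crest.Agent.R275.Geo
open Crest.Agent.R257.DegV_5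
open Crest.Agent.R257.Defs_219
open Crest.Agent.R257.KED_952 Crest.Agent.R257.V1Defs_822

noncomputable section

theorem cntStmt : CntStmt := by
  intro f g h hf hg hh f0 g0 h0 hfin
  have hF : ∀ j : Fin 3, AnalyticAt ℂ ((![f, g, h] : Fin 3 → E3 → ℂ) j) 0 := by
    intro j
    fin_cases j
    · exact hf
    · exact hg
    · exact hh
  have hF0 : ∀ j : Fin 3, (![f, g, h] : Fin 3 → E3 → ℂ) j 0 = 0 := by
    intro j
    fin_cases j
    · exact f0
    · exact g0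
    · exact h0
  obtain ⟨r₀, hr₀, ⟨r', hr'0, hr'r, hfi⟩, hc⟩ :=
    Crest.Agent.R257.Cnm7_889.fto_gen (![f, g, h] : Fin 3 → E3 → ℂ) hF hF0 hfin
  have h1 : ∀ᶠ R in 𝓝[>] (0 : ℝ), R < r' :=
    (eventually_lt_nhds hr'0).filter_mono nhdsWithin_le_nhds
  filter_upwards [h1, self_mem_nhdsWithin] with R hR hR0
  have hR0' : 0 < R := hR0
  have h2 := hc R hR0' (hR.le.trans hr'r)
  have h3 : Tendsto (fun y : Cn 2 => (![0, y 0, y 1] : Fin 3 → ℂ)) (𝓝 0) (𝓝 0) := by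
    refine tendsto_pi_nhds.2 fun j => ?_
    fin_cases j
    · exact tendsto_const_nhds
    · exact (EuclideanSpace.proj (0 : Fin 2) : Cn 2 →L[ℂ] ℂ).continuous.tendsto' 0 0 (by simp)
    · exact (EuclideanSpace.proj (1 : Fin 2) : Cn 2 →L[ℂ] ℂ).continuous.tendsto' 0 0 (by simp)
  have hs : ∀ (y : Cn 2) (x : E3),
      (∀ j : Fin 3, (![f, g, h] : Fin 3 → E3 → ℂ) j x = (![0, y 0, y 1] : Fin 3 → ℂ) j) ↔
        f x = 0 ∧ g x = y 0 ∧ h x = y 1 := by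
    intro y x
    constructor
    · intro H
      exact ⟨H 0, H 1, H 2⟩
    · rintro ⟨a, b, c⟩ j
      fin_cases j
      · exact a
      · exact b
      · exact c
  filter_upwards [h3.eventually h2] with y hy hnd
  have h4 : {x : E3 | ‖x‖ < R ∧ f x = 0 ∧ g x = y 0 ∧ h x = y 1} =
      {x | ‖x‖ < R ∧ ∀ j : Fin 3, (![f, g, h] : Fin 3 → E3 → ℂ) j x =
        (![0, y 0, y 1] : Fin 3 → ℂ) j} := by
    ext x
    simp only [mem_ofPred_eq, hs]
  have h5 := hy fun x hx hxs v hv => by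
    obtain ⟨a, b, c⟩ := (hs y x).1 hxs
    exact hnd x hx a b c v (hv 0) (hv 1) (hv 2)
  have h6 : ({x | ‖x‖ < R ∧ ∀ j : Fin 3, (![f, g, h] : Fin 3 → E3 → ℂ) j x =
      (![0, y 0, y 1] : Fin 3 → ℂ) j} : Set E3).Finite :=
    (hfi _).1.subset fun x hx => ⟨hx.1.trans hR, hx.2⟩
  rw [h4, ← h6.cast_ncard_eq, h5]

/-- **`M3Stmt`** -/
theorem m3Stmt : M3Stmt := m3Stmt_of cntStmt

/-- **(M3) with powers** -/
theorem m3_mass {f g h : E3 → ℂ} (hf : AnalyticAt ℂ f 0) (hg : AnalyticAt ℂ g 0)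
    (hh : AnalyticAt ℂ h 0) (f0 : f 0 = 0) (g0 : g 0 = 0) (h0 : h 0 = 0)
    (hfin : ColFin ![f, g, h]) :
    ∃ r₁ : ℝ, 0 < r₁ ∧ ∀ r, r ≤ r₁ → LvlOK f 0 r → ∀ ν, IsNu f 0 r ν → ∀ χ, Cut r χ →
      ∀ (p q : ℕ) (c : ℝ), 0 < p → 0 < q → c ≠ 0 →
      TOT ν f (wpq g h p q c) χ = Real.pi ^ 2 * (p * q * col ![f, g, h]) / c ^ 2 :=
  exists_pow cntStmt hf hg hh f0 g0 h0 hfin

end

end Crest.Agent.R257.M3_5
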