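import Crest.Agent.R257.UpK2_938
import Crest.Agent.R257.DetF_219

/-!
# R257 (S0395), UPStmt (helper938), part 3: `upStmt_of : Det_219.FtoStmt → UPStmt`
-/

set_option autoImplicit false
set_option linter.unusedSectionVars false

open Set Filter Topology Complex MeasureTheory
open scoped ContDiff Matrix ComplexConjugate ComplexOrder ENNReal

namespace Crest.Agent.R257.UpK_938

open Crest.Agent.R275.Geo Crest.Agent.R275.Core144 Crest.Agent.R275.EDR890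
open Crest.Agent.R275.Pai323 Crest.Agent.R275.C1d194
open Crest.Agent.R273.Defs_333 Crest.Agent.R273.Vm_333 Crest.Agent.R273.Hess_333
open Crest.Agent.R273.HessB_333 Crest.Agent.R273.Kah_333 Crest.Agent.R273.GreenM_5
open Crest.Agent.R257.Defs_219 Crest.Agent.R257.KED_952 Crest.Agent.R257.V1Defs_822
open Crest.Agent.R257.PN_835 (nsq)
open Crest.Agent.R257.Aff_835 (eta2a)
open Crest.Agent.R257.Jac_39 (jc ee)
open Crest.Agent.R257.Up3_938 (sqM HolM DM J2 sqM_sm J2_eq w_mul_J2 J2_cont sqM_nonneg)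

noncomputable section

/-! ### balls -/

theorem nsq_nonneg (x : E3) : 0 ≤ nsq x := Finset.sum_nonneg fun _ _ => by positivity

theorem norm_sq_le_nsq (x : E3) : ‖x‖ ^ 2 ≤ nsq x := by
  have h1 : ‖x‖ ≤ √(nsq x) := by
    rw [pi_norm_le_iff_of_nonneg (Real.sqrt_nonneg _)]
    intro p
    refine Real.le_sqrt_of_sq_le ?_
    exact Finset.single_le_sum (f := fun p => ‖x p‖ ^ 2) (fun _ _ => by positivity)
      (Finset.mem_univ p)
  calc ‖x‖ ^ 2 ≤ √(nsq x) ^ 2 := pow_le_pow_left₀ (norm_nonneg _) h1 2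
    _ = nsq x := Real.sq_sqrt (nsq_nonneg x)

theorem nsq_zero : nsq (0 : E3) = 0 := by
  unfold nsq
  simp

theorem exists_nsq {p : E3 → Prop} (h : ∀ᶠ x in 𝓝 (0 : E3), p x) :
    ∃ ρ : ℝ, 0 < ρ ∧ ∀ x, nsq x < ρ ^ 2 → p x := by
  obtain ⟨ε, hε, hb⟩ := Metric.eventually_nhds_iff_ball.1 h
  refine ⟨ε, hε, fun x hx => hb x ?_⟩
  rw [Metric.mem_ball, dist_zero_right]
  exact lt_of_pow_lt_pow_left₀ 2 hε.le (lt_of_le_of_lt (norm_sq_le_nsq x) hx)

theorem ev_nsq {ρ : ℝ} (h : 0 < ρ) : ∀ᶠ x in 𝓝 (0 : E3), nsq x < ρ ^ 2 := by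
  have h1 : Tendsto (nsq : E3 → ℝ) (𝓝 0) (𝓝 0) := by
    have := (nsq_cont (n := 2)).tendsto 0
    rwa [nsq_zero] at this
  exact h1.eventually (gt_mem_nhds (by positivity))

theorem isCompact_nsq (ρ : ℝ) : IsCompact {x : E3 | nsq x ≤ ρ ^ 2} := by
  refine (isCompact_closedBall (0 : E3) |ρ|).of_isClosed_subset
    (isClosed_le nsq_cont continuous_const) fun x hx => ?_
  rw [Metric.mem_closedBall, dist_zero_right]
  have h1 : ‖x‖ ^ 2 ≤ |ρ| ^ 2 := by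
    rw [sq_abs]
    exact (norm_sq_le_nsq x).trans hx
  exact le_of_sq_le_sq h1 (abs_nonneg ρ)

/-- good data on a small ball -/
structure Dat (f g h : E3 → ℂ) (r₀ ρ : ℝ) : Prop where
  pos : 0 < r₀
  lt : r₀ < ρ
  lvl : LvlOK f 0 ρ
  an_g : ∀ x, nsq x < ρ ^ 2 → AnalyticAt ℂ g x
  an_h : ∀ x, nsq x < ρ ^ 2 → AnalyticAt ℂ h x
  g0 : g 0 = 0
  h0 : h 0 = 0
  iso : ∀ x, nsq x < ρ ^ 2 → f x = 0 → g x = 0 → h x = 0 → x = 0
  fin : ∀ y z : ℂ, {x : E3 | nsq x < ρ ^ 2 ∧ f x = 0 ∧ g x = y ∧ h x = z}.Finite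

namespace Dat

variable {f g h : E3 → ℂ} {r₀ ρ : ℝ} (D : Dat f g h r₀ ρ)
include D

theorem sq_lt : r₀ ^ 2 < ρ ^ 2 := pow_lt_pow_left₀ D.lt D.pos.le two_ne_zero

theorem lv : LvlOK f 0 r₀ := LvlOK.mono D.lvl D.pos D.lt.le

/-- `|g|² + |h|²` -/
theorem contOn : ContinuousOn (fun x => ‖g x‖ ^ 2 + ‖h x‖ ^ 2) {x | nsq x ≤ r₀ ^ 2} := by
  intro x hx
  have hx' : nsq x < ρ ^ 2 := lt_of_le_of_lt hx D.sq_lt
  exact ((((D.an_g x hx').continuousAt.norm).pow 2).add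
    (((D.an_h x hx').continuousAt.norm).pow 2)).continuousWithinAt

theorem contOnf : ContinuousOn f {x | nsq x ≤ r₀ ^ 2} := fun x hx =>
  (D.lvl.an x (lt_of_le_of_lt hx D.sq_lt)).continuousAt.continuousWithinAt

theorem exists_delta : ∃ δ : ℝ, 0 < δ ∧ ∀ x, nsq x = r₀ ^ 2 → f x = 0 →
    δ ≤ ‖g x‖ ^ 2 + ‖h x‖ ^ 2 := by
  set K : Set E3 := {x | nsq x ≤ r₀ ^ 2} ∩ (({x | nsq x = r₀ ^ 2}) ∩ {x | nsq x ≤ r₀ ^ 2} ∩
    f ⁻¹' {0}) with hK
  have hc : IsCompact K := by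
    have h1 : IsClosed ({x | nsq x ≤ r₀ ^ 2} ∩ f ⁻¹' {0}) :=
      D.contOnf.preimage_isClosed_of_isClosed (isClosed_le nsq_cont continuous_const)
        isClosed_singleton
    have h2 : IsClosed {x : E3 | nsq x = r₀ ^ 2} := isClosed_eq nsq_cont continuous_const
    have h3 : K = {x | nsq x ≤ r₀ ^ 2} ∩ ({x | nsq x = r₀ ^ 2} ∩ ({x | nsq x ≤ r₀ ^ 2} ∩
        f ⁻¹' {0})) := by
      rw [hK, inter_assoc {x : E3 | nsq x = r₀ ^ 2}]
    rw [h3]
    exact (isCompact_nsq r₀).inter_right (h2.inter h1)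
  have hpos : ∀ x ∈ K, 0 < ‖g x‖ ^ 2 + ‖h x‖ ^ 2 := by
    rintro x ⟨hx1, ⟨hx2, -⟩, hx3⟩
    have hx' : nsq x < ρ ^ 2 := lt_of_le_of_lt hx1 D.sq_lt
    by_contra hcon
    have h1 : ‖g x‖ ^ 2 = 0 := by nlinarith [sq_nonneg ‖g x‖, sq_nonneg ‖h x‖]
    have h2 : ‖h x‖ ^ 2 = 0 := by nlinarith [sq_nonneg ‖g x‖, sq_nonneg ‖h x‖]
    have h3 := D.iso x hx' hx3 (by simpa using h1) (by simpa using h2)
    rw [h3] at hx2
    have h4 : nsq (0 : E3) = r₀ ^ 2 := hx2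
    rw [nsq_zero] at h4
    have := D.pos
    nlinarith
  rcases K.eq_empty_or_nonempty with h1 | h1
  · refine ⟨1, one_pos, fun x hx hfx => ?_⟩
    have : x ∈ K := ⟨hx.le, ⟨hx, hx.le⟩, hfx⟩
    rw [h1] at this
    exact this.elim
  · obtain ⟨x0, hx0, hmin⟩ := hc.exists_isMinOn h1 (D.contOn.mono fun x hx => hx.1)
    exact ⟨_, hpos x0 hx0, fun x hx hfx => hmin ⟨hx.le, ⟨hx, hx.le⟩, hfx⟩⟩

/-- the map `(g, h)` on the level -/
def FF (x : (LX D.lv).M 0) : Fin 2 → ℂ := ![g x.1, h x.1]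

theorem sqM_FF (x : (LX D.lv).M 0) : sqM D.FF 0 x = ‖g x.1‖ ^ 2 + ‖h x.1‖ ^ 2 := by
  unfold sqM
  rw [Fin.sum_univ_two]
  simp [FF]

theorem lt_rho (x : (LX D.lv).M 0) : nsq x.1 < ρ ^ 2 :=
  ((mem_M D.lv x).2.2).trans D.sq_lt

theorem holg (i : ((LX D.lv).A 0).ι) :
    DifferentiableOn ℂ (fun z => g (thc D.lv i z)) (((LX D.lv).A 0).e i).target := fun z hz =>
  ((D.an_g _ (D.lt_rho ((((LX D.lv).A 0).e i).symm z))).differentiableAt.comp z
    ((pe_chart D.lv i).par.diffAt hz)).differentiableWithinAt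

theorem holh (i : ((LX D.lv).A 0).ι) :
    DifferentiableOn ℂ (fun z => h (thc D.lv i z)) (((LX D.lv).A 0).e i).target := fun z hz =>
  ((D.an_h _ (D.lt_rho ((((LX D.lv).A 0).e i).symm z))).differentiableAt.comp z
    ((pe_chart D.lv i).par.diffAt hz)).differentiableWithinAt

theorem hol : HolM ((LX D.lv).A 0) D.FF := by
  intro i k
  fin_cases k
  · exact D.holg i
  · exact D.holh i

theorem det_DM (i : ((LX D.lv).A 0).ι) (x : (LX D.lv).M 0) :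
    (DM ((LX D.lv).A 0) D.FF i x).det =
      jc (fun z => g (thc D.lv i z)) (fun z => h (thc D.lv i z)) (((LX D.lv).A 0).e i x) := by
  unfold DM Up2_938.DF jc
  rw [Matrix.det_fin_two]
  rfl

theorem J2_Dt (x : (LX D.lv).M 0) :
    J2 ((LX D.lv).eta 0) D.FF x = ‖Dt f g h x.1‖ ^ 2 := by
  set i := ci ((LX D.lv).A 0) x with hi
  have hx : x ∈ (((LX D.lv).A 0).e i).source := mem_ci x
  have hz := (((LX D.lv).A 0).e i).map_source hx
  have hxe : (((LX D.lv).A 0).e i).symm (((LX D.lv).A 0).e i x) = x :=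
    (((LX D.lv).A 0).e i).left_inv hx
  obtain ⟨h1, h2, h3⟩ := mem_M D.lv x
  have hth : thc D.lv i (((LX D.lv).A 0).e i x) = x.1 := thc_eq D.lv hx
  have h4 := Crest.Agent.R257.Jac_39.jac (pe_chart D.lv i).par hz
    (f := f) (g := g) (h := h) (by rw [hth]; exact (D.lv.an _ h3).differentiableAt)
    (by rw [hth]; exact D.lv.sm _ h2 h3 h1)
    (by rw [hth]; exact (D.an_g _ (D.lt_rho x)).differentiableAt)
    (by rw [hth]; exact (D.an_h _ (D.lt_rho x)).differentiableAt)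
  have h5 := e2_eta D.lv hz
  rw [hxe] at h5
  rw [J2_eq ((LX D.lv).eta 0) D.hol hx, D.det_DM i x, h4, h5, hth]
  have h6 := ((LX D.lv).eta 0).pos i x hx
  rw [h5] at h6
  field_simp

theorem dense : Dense {x | J2 ((LX D.lv).eta 0) D.FF x ≠ 0} := by
  rw [dense_iff_inter_open]
  intro W hW hne
  by_contra hcon
  rw [not_nonempty_iff_eq_empty] at hcon
  have hJ : ∀ x ∈ W, J2 ((LX D.lv).eta 0) D.FF x = 0 := by
    intro x hx
    by_contra h1
    have : x ∈ W ∩ {x | J2 ((LX D.lv).eta 0) D.FF x ≠ 0} := ⟨hx, h1⟩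
    rw [hcon] at this
    exact this.elim
  obtain ⟨x, hx⟩ := hne
  set A := (LX D.lv).A 0 with hA
  obtain ⟨i, hi⟩ := A.cover x
  set U : Set (Cn 2) := (A.e i).target ∩ (A.e i).symm ⁻¹' W with hU
  have hUo : IsOpen U := (A.e i).symm.isOpen_inter_preimage hW
  have hUne : U.Nonempty := by
    refine ⟨A.e i x, (A.e i).map_source hi, ?_⟩
    rw [mem_preimage, (A.e i).left_inv hi]
    exact hx
  obtain ⟨p, hp, hinf⟩ := inf_fibre hUo hUne ((D.holg i).mono fun z hz => hz.1)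
    ((D.holh i).mono fun z hz => hz.1) (by
      intro z hz
      have h1 := hJ _ hz.2
      have hs := (A.e i).map_target hz.1
      have h2 := w_mul_J2 ((LX D.lv).eta 0) D.hol hs
      rw [h1, mul_zero, D.det_DM i, (A.e i).right_inv hz.1] at h2
      have h3 : ‖jc (fun z => g (thc D.lv i z)) (fun z => h (thc D.lv i z)) z‖ = 0 := by
        nlinarith [norm_nonneg (jc (fun z => g (thc D.lv i z)) (fun z => h (thc D.lv i z)) z)]
      exact norm_eq_zero.1 h3)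
  have h1 : (thc D.lv i '' {z ∈ U | g (thc D.lv i z) = g (thc D.lv i p) ∧
      h (thc D.lv i z) = h (thc D.lv i p)}).Infinite :=
    hinf.image ((inj_thc D.lv i).mono fun z hz => hz.1.1)
  refine h1 ((D.fin (g (thc D.lv i p)) (h (thc D.lv i p))).subset ?_)
  rintro _ ⟨z, ⟨hz, hz1, hz2⟩, rfl⟩
  exact ⟨D.lt_rho ((A.e i).symm z), (mem_M D.lv ((A.e i).symm z)).1, hz1, hz2⟩

theorem compact {δ : ℝ} (hδ : ∀ x, nsq x = r₀ ^ 2 → f x = 0 → δ ≤ ‖g x‖ ^ 2 + ‖h x‖ ^ 2)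
    {a b : ℝ} (ha : 0 < a) (hb : b < δ) :
    IsCompact {x : (LX D.lv).M 0 | a ≤ sqM D.FF 0 x ∧ sqM D.FF 0 x ≤ b} := by
  rw [Subtype.isCompact_iff]
  have h1 : (Subtype.val '' {x : (LX D.lv).M 0 | a ≤ sqM D.FF 0 x ∧ sqM D.FF 0 x ≤ b}) =
      ({x | nsq x ≤ r₀ ^ 2} ∩ f ⁻¹' {0}) ∩
        ({x | nsq x ≤ r₀ ^ 2} ∩ (fun x => ‖g x‖ ^ 2 + ‖h x‖ ^ 2) ⁻¹' Icc a b) := by
    ext x
    constructor
    · rintro ⟨x, ⟨hx1, hx2⟩, rfl⟩
      rw [D.sqM_FF] at hx1 hx2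
      obtain ⟨h1, h2, h3⟩ := mem_M D.lv x
      exact ⟨⟨h3.le, h1⟩, h3.le, hx1, hx2⟩
    · rintro ⟨⟨hx1, hx2⟩, -, hx3, hx4⟩
      have hne : x ≠ 0 := by
        rintro rfl
        simp only [D.g0, D.h0, norm_zero] at hx3
        norm_num at hx3
        linarith
      have hlt : nsq x < r₀ ^ 2 := by
        refine lt_of_le_of_ne hx1 fun h => ?_
        have := hδ x h hx2
        simp only at hx4
        linarith
      refine ⟨mkM D.lv hx2 hne hlt, ⟨?_, ?_⟩, rfl⟩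
      · rw [D.sqM_FF]
        exact hx3
      · rw [D.sqM_FF]
        exact hx4
  rw [h1]
  have hcl : IsClosed {x : E3 | nsq x ≤ r₀ ^ 2} := isClosed_le nsq_cont continuous_const
  exact ((isCompact_nsq r₀).of_isClosed_subset
    (D.contOnf.preimage_isClosed_of_isClosed hcl isClosed_singleton)
    inter_subset_left).inter_right
      (D.contOn.preimage_isClosed_of_isClosed hcl isClosed_Icc)

end Dat

/-- the data exist on small balls -/
theorem exists_dat {f g h : E3 → ℂ} {r : ℝ} (hf : LvlOK f 0 r) (f0 : AnalyticAt ℂ f 0)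
    (hg : AnalyticAt ℂ g 0)
    (hh : AnalyticAt ℂ h 0) (g0 : g 0 = 0) (h0 : h 0 = 0) (hfin : ColFin ![f, g, h])
    (hF : Det_219.Fto f g h) {p : E3 → Prop} (hp : ∀ᶠ x in 𝓝 (0 : E3), p x) :
    ∃ r₀ ρ : ℝ, Dat f g h r₀ ρ ∧ ρ ≤ r ∧ ∀ x, nsq x < ρ ^ 2 → p x := by
  obtain ⟨N, r1, hr1, hN⟩ := hF
  have hiso : ∀ᶠ x in 𝓝 (0 : E3), (∀ j : Fin 3, (![f, g, h] : Fin 3 → E3 → ℂ) j x = 0) → x = 0 :=
    isolated (fun j => by fin_cases j <;> assumption) hfin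
  have hbx : ∀ᶠ x in 𝓝 (0 : E3), ∀ i, ‖x i‖ < r1 := by
    rw [eventually_all]
    intro i
    have : Tendsto (fun x : E3 => ‖x i‖) (𝓝 0) (𝓝 0) := by
      have := ((continuous_apply i).norm : Continuous fun x : E3 => ‖x i‖).tendsto 0
      simpa using this
    exact this.eventually (gt_mem_nhds hr1)
  obtain ⟨ρ1, hρ1, H⟩ := exists_nsq (((hg.eventually_analyticAt.and hh.eventually_analyticAt).and
    (hiso.and hbx)).and hp)
  set ρ : ℝ := min ρ1 r with hρ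
  have hρ0 : 0 < ρ := lt_min hρ1 hf.pos
  have hle1 : ρ ^ 2 ≤ ρ1 ^ 2 := pow_le_pow_left₀ hρ0.le (min_le_left _ _) 2
  have H' : ∀ x, nsq x < ρ ^ 2 → _ := fun x hx => H x (lt_of_lt_of_le hx hle1)
  refine ⟨ρ / 2, ρ, ⟨by positivity, by linarith, LvlOK.mono hf hρ0 (min_le_right _ _),
    fun x hx => (H' x hx).1.1.1, fun x hx => (H' x hx).1.1.2, g0, h0, ?_, ?_⟩, min_le_right _ _,
    fun x hx => (H' x hx).2⟩
  · intro x hx h1 h2 h3
    refine (H' x hx).1.2.1 fun j => ?_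
    fin_cases j
    · exact h1
    · exact h2
    · exact h3
  · intro y z
    have h1 := hN ![y, z]
    have h2 : {x | x ∈ Det_219.Bx r1 ∧ f x = 0 ∧ g x = (![y, z] : Fin 2 → ℂ) 0 ∧
        h x = (![y, z] : Fin 2 → ℂ) 1}.Finite :=
      Set.finite_of_encard_le_coe h1
    refine h2.subset ?_
    rintro x ⟨hx, h3, h4, h5⟩
    exact ⟨(H' x hx).1.2.2, h3, h4, h5⟩

/-- **`UPStmt`**, up to the finiteness of the fibres -/
theorem upStmt_of (HF : Det_219.FtoStmt) : UPStmt := by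
  intro f r u ν χ k g h hI hf hu hν hχ hV hk hg hh g0 h0 hfin hJU
  obtain ⟨C1, r1, hr1, hJ⟩ := hJU
  have hFto := HF f g h hI.an hg hh hI.zero g0 h0 hfin
  have hp : ∀ᶠ x in 𝓝 (0 : E3), χ x = 1 ∧ ‖x‖ < r1 := by
    refine hχ.one.and ?_
    have := (continuous_norm : Continuous fun x : E3 => ‖x‖).tendsto 0
    rw [norm_zero] at this
    exact this.eventually (gt_mem_nhds hr1)
  obtain ⟨r₀, ρ, D, hρr, hρ⟩ := exists_dat hf hI.an hg hh g0 h0 hfin hFto hp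
  obtain ⟨δ, hδ, hδb⟩ := D.exists_delta
  set A := (LX D.lv).A 0 with hA
  have hcI : Countable A.ι := (LX D.lv).countable 0
  set P := (LX D.lv).part 0 with hP
  set η := (LX D.lv).eta 0 with hη
  have hr0r : r₀ ≤ r := D.lt.le.trans hρr
  have hkpos : (0 : ℝ) < k := by
    have : 0 < k := by omega
    exact_mod_cast this
  -- the function
  set U : (LX D.lv).M 0 → ℝ := fun x => u x.1 with hU
  have hUs : A.Sm U := fun i => hu.sm _ _ (PE.mono (pe_chart D.lv i) D.pos hr0r)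
  have hUp : ∀ i, ∀ x ∈ (A.e i).source, (hsf A U i x).PosSemidef := by
    intro i x hx
    have hz := (A.e i).map_source hx
    refine posSemidef_hess ((hUs i).contDiffAt ((A.e i).open_target.mem_nhds hz)) fun v => ?_
    by_cases hv : v = 0
    · rw [hv]
      refine le_of_eq ?_
      unfold lev
      have h0 := (iteratedFDeriv ℝ 2 (fun z => U ((A.e i).symm z)) (A.e i x)).map_coord_zero
        (m := ![0, 0]) 0 rfl
      simp only [smul_zero]
      rw [h0, add_zero]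
    · exact (hu.pos _ _ (PE.mono (pe_chart D.lv i) D.pos hr0r) _ hz v hv).le
  have hUc : Continuous U := sm_continuous hUs
  -- the volume
  have hM : ∫⁻ x, ENNReal.ofReal (Real.exp (U x)) ∂(vm η) ≤ VOL ν u χ := by
    have hme : MeasurableEmbedding (Subtype.val : (LX D.lv).M 0 → E3) :=
      MeasurableEmbedding.subtype_coe (meas_lvl D.lv)
    set Φ : E3 → ℝ≥0∞ := Function.extend Subtype.val
      (fun x : (LX D.lv).M 0 => ENNReal.ofReal (Real.exp (U x))) 0 with hΦ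
    have hΦm : Measurable Φ := hme.measurable_extend
      (Real.continuous_exp.comp hUc).measurable.ennreal_ofReal measurable_const
    have h1 : ∀ x : (LX D.lv).M 0, Φ x.1 = ENNReal.ofReal (Real.exp (U x)) := fun x =>
      hme.injective.extend_apply _ _ x
    have h2 := lint_nu D.lv (IsNu.mono hν D.pos hr0r) hΦm
    calc ∫⁻ x, ENNReal.ofReal (Real.exp (U x)) ∂(vm η) = ∫⁻ x, Φ x.1 ∂((LX D.lv).vol 0) :=
          lintegral_congr fun x => (h1 x).symm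
      _ = ∫⁻ x in {x | nsq x < r₀ ^ 2}, Φ x ∂ν := h2
      _ ≤ ∫⁻ x, Φ x ∂ν := setLIntegral_le_lintegral _ _
      _ ≤ VOL ν u χ := by
          refine lintegral_mono fun x => ?_
          by_cases hx : ∃ a : (LX D.lv).M 0, a.1 = x
          · obtain ⟨a, rfl⟩ := hx
            rw [h1 a]
            refine ENNReal.ofReal_le_ofReal ?_
            rw [(hρ a.1 (D.lt_rho a)).1, one_mul]
          · rw [hΦ, Function.extend_apply' _ _ _ hx]
            exact zero_le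
  obtain ⟨M0, hM0⟩ : ∃ M0 : ℝ, 0 < M0 ∧ VOL ν u χ ≤ ENNReal.ofReal M0 := by
    refine ⟨(VOL ν u χ).toReal + 1, by positivity, ?_⟩
    calc VOL ν u χ = ENNReal.ofReal (VOL ν u χ).toReal := (ENNReal.ofReal_toReal hV.ne).symm
      _ ≤ _ := ENNReal.ofReal_le_ofReal (by linarith)
  -- (JU)
  have hJ' : ∀ x : (LX D.lv).M 0, 0 < sqM D.FF 0 x → sqM D.FF 0 x < δ →
      J2 η D.FF x ≤ (|C1| + 1) * (sqM D.FF 0 x) ^ (2 + 1 / (k : ℝ)) := by
    intro x hx _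
    rw [D.J2_Dt, D.sqM_FF]
    rw [D.sqM_FF] at hx
    refine (hJ x.1 (hρ x.1 (D.lt_rho x)).2 (mem_M D.lv x).1).trans ?_
    exact mul_le_mul_of_nonneg_right (by linarith [le_abs_self C1]) (Real.rpow_nonneg hx.le _)
  -- the theorem
  have hmain : ∀ x : (LX D.lv).M 0, 0 < sqM D.FF 0 x → 9 / 4 * sqM D.FF 0 x < δ →
      U x ≤ (2 + 1 / (k : ℝ) - 2) * Real.log (sqM D.FF 0 x) +
        Real.log (Up5_938.Kup (2 + 1 / (k : ℝ)) * (|C1| + 1) * M0) := fun x hx1 hx2 =>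
    Up5_938.up_log η P D.hol hUs hUp (by positivity) (by positivity) hM0.1
      ((setLIntegral_le_lintegral _ _).trans (hM.trans hM0.2)) hJ'
      (fun a b ha hb => D.compact hδb ha hb) D.dense hx1 hx2
  -- near the origin
  have hsmall : ∀ᶠ x in 𝓝 (0 : E3), 9 / 4 * (‖g x‖ ^ 2 + ‖h x‖ ^ 2) < δ ∧ nsq x < r₀ ^ 2 := by
    refine Filter.Eventually.and ?_ (ev_nsq D.pos)
    have h1 : Tendsto (fun x => 9 / 4 * (‖g x‖ ^ 2 + ‖h x‖ ^ 2)) (𝓝 (0 : E3)) (𝓝 0) := by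
      have h2 : ContinuousAt (fun x => 9 / 4 * (‖g x‖ ^ 2 + ‖h x‖ ^ 2)) (0 : E3) :=
        continuousAt_const.mul (((hg.continuousAt.norm).pow 2).add ((hh.continuousAt.norm).pow 2))
      have h3 := h2.tendsto
      simpa [g0, h0] using h3
    exact h1.eventually (gt_mem_nhds hδ)
  obtain ⟨r', hr', hsm⟩ := exists_nsq hsmall
  refine ⟨Real.log (Up5_938.Kup (2 + 1 / (k : ℝ)) * (|C1| + 1) * M0), r', hr',
    fun x hfx hx0 hxr => ?_⟩
  obtain ⟨h1, h2⟩ := hsm x hxr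
  set a : (LX D.lv).M 0 := mkM D.lv hfx hx0 h2 with ha
  have hs : sqM D.FF 0 a = ‖g x‖ ^ 2 + ‖h x‖ ^ 2 := D.sqM_FF a
  have hpos : 0 < sqM D.FF 0 a := by
    rw [hs]
    by_contra hcon
    have h3 : ‖g x‖ ^ 2 = 0 := by nlinarith [sq_nonneg ‖g x‖, sq_nonneg ‖h x‖]
    have h4 : ‖h x‖ ^ 2 = 0 := by nlinarith [sq_nonneg ‖g x‖, sq_nonneg ‖h x‖]
    exact hx0 (D.iso x (h2.trans D.sq_lt) hfx (by simpa using h3) (by simpa using h4))
  have h3 := hmain a hpos (by rw [hs]; exact h1)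
  rw [hs] at h3
  have h4 : (2 + 1 / (k : ℝ) - 2) = 1 / (k : ℝ) := by ring
  rw [h4] at h3
  exact h3

end

end Crest.Agent.R257.UpK_938
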