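import Crest.Agent.R257.Ked1_397
import Crest.Agent.R257.GradE_537
import Crest.Agent.R257.Loc_835
import Crest.Agent.R273.BKNa_37
import Crest.Agent.R273.C2b_289

/-!
# R257 (S0395), task KED-DEN (helper397)

* `exists_par`  : every smooth point of a level has a parametrisation
* `dns_eq`      : densities in a parametrisation
* `mxd_eq`, `c2d_eq` : the densities `mxd`, `c2d` in a parametrisation
* `denStmt`, `bmyStmt`
-/

set_option autoImplicit false
set_option linter.unusedSectionVars false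

open Set Filter Topology Complex
open scoped ContDiff Matrix ComplexConjugate ComplexOrder

namespace Crest.Agent.R257.Ked2_397

open Crest.Agent.R275.Geo Crest.Agent.R275.EDR890
open Crest.Agent.R273.Fock_243 Crest.Agent.R273.Calc_243
open Crest.Agent.R273.Bkn_243 Crest.Agent.R273.Pos_243 Crest.Agent.R273.BochA_101
open Crest.Agent.R273.BochB_101
open Crest.Agent.R273.BochC_101 Crest.Agent.R273.BochD_101
open Crest.Agent.R273.Hess_333 Crest.Agent.R273.HessB_333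
open Crest.Agent.R273.Defs_333 Crest.Agent.R273.YauDefs_635 Crest.Agent.R273.YauMax_635
open Crest.Agent.R257.C2F1_625 (c2)
open Crest.Agent.R257.C2F2_625 Crest.Agent.R257.C2F3_625
open Crest.Agent.R257.C2F4_335 Crest.Agent.R257.C2F5_335
open Crest.Agent.R257.Defs_219
open Crest.Agent.R257.PN_835 Crest.Agent.R257.Gram_835 Crest.Agent.R257.Aff_835
open Crest.Agent.R257.KED_952 Crest.Agent.R257.Ked1_397

noncomputable section

variable {n : ℕ}

/-- every smooth point of a level has a parametrisation -/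
theorem exists_par {f : AC n → ℂ} {x : AC n} (hf : AnalyticAt ℂ f x) (h0 : fderiv ℂ f x ≠ 0) :
    ∃ (θ : Cn n → AC n) (O : Set (Cn n)) (z : Cn n), Par f (f x) θ O ∧ z ∈ O ∧ θ z = x := by
  -- a coordinate transversal to the level
  obtain ⟨k, hk⟩ : ∃ k : Fin (n + 1), fderiv ℂ f x (Pi.single k 1) ≠ 0 := by
    by_contra hcon
    push Not at hcon
    apply h0
    ext w
    rw [← prg_gra]
    have : gra f x = 0 := funext hcon
    rw [this]
    simp [prg]
  set ψ : AC n →L[ℂ] Cn n := (PiLp.continuousLinearEquiv 2 ℂ (fun _ : Fin n => ℂ)).symm.toContinuousLinearMap.comp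
    (ContinuousLinearMap.pi fun a => ContinuousLinearMap.proj (k.succAbove a)) with hψ
  have hψa : ∀ v a, ψ v a = v (k.succAbove a) := fun v a => rfl
  obtain ⟨V, hVf, hVo, hxV⟩ : ∃ V : Set (AC n), (∀ y ∈ V, AnalyticAt ℂ f y) ∧ IsOpen V ∧ x ∈ V :=
    ⟨{y | AnalyticAt ℂ f y}, fun y hy => hy, isOpen_analyticAt ℂ f, hf⟩
  set Φ : AC n → Cn n × ℂ := fun y => (ψ y, f y) with hΦ
  set L : AC n →L[ℂ] Cn n × ℂ := ψ.prod (fderiv ℂ f x) with hL
  have hLinj : Function.Injective L := by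
    refine (injective_iff_map_eq_zero L).2 ?_
    intro v hv
    have h1 : ψ v = 0 := congrArg Prod.fst hv
    have h2 : fderiv ℂ f x v = 0 := congrArg Prod.snd hv
    have h3 : ∀ a, v (k.succAbove a) = 0 := fun a => congrArg (fun u : Cn n => u a) h1
    have h4 : v = v k • (Pi.single k (1 : ℂ) : AC n) := by
      funext j
      rcases Fin.eq_self_or_eq_succAbove k j with h | ⟨a, h⟩
      · rw [h]; simp
      · rw [h, h3]
        simp [Fin.succAbove_ne]
    rw [h4, map_smul, smul_eq_mul] at h2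
    rw [h4, (mul_eq_zero.1 h2).resolve_right hk, zero_smul]
  have hfr : Module.finrank ℂ (AC n) = Module.finrank ℂ (Cn n × ℂ) := by
    rw [Module.finrank_prod]
    simp
  set T₀ : AC n ≃L[ℂ] Cn n × ℂ :=
    (LinearEquiv.ofInjectiveOfFinrankEq (L : AC n →ₗ[ℂ] Cn n × ℂ) hLinj
      hfr).toContinuousLinearEquiv with hT₀
  have hT₀L : (T₀ : AC n →L[ℂ] Cn n × ℂ) = L := ContinuousLinearMap.ext fun q => rfl
  have hΦd : HasFDerivAt Φ (T₀ : AC n →L[ℂ] Cn n × ℂ) x := by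
    rw [hT₀L]
    exact ψ.hasFDerivAt.prodMk hf.differentiableAt.hasFDerivAt
  have hΦV : DifferentiableOn ℂ Φ V := fun y hy =>
    (ψ.differentiableAt.prodMk (hVf y hy).differentiableAt).differentiableWithinAt
  obtain ⟨R, hxR, hRV, hRΦ, hRd⟩ := Crest.Agent.R257.Atl_941.exists_invFun' hVo hΦV hxV T₀ hΦd
  refine ⟨fun z => R.symm (z, f x), {z | (z, f x) ∈ R.target}, ψ x, ⟨?_, ?_, ?_, ?_⟩, ?_, ?_⟩
  · exact R.open_target.preimage (continuous_id.prodMk continuous_const)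
  · intro z hz
    exact ((hRd.differentiableAt (R.open_target.mem_nhds hz)).comp z
      (differentiableAt_id.prodMk (differentiableAt_const _))).differentiableWithinAt
  · intro z hz
    have h1 : R (R.symm (z, f x)) = (z, f x) := R.right_inv hz
    rw [hRΦ] at h1
    exact congrArg Prod.snd h1
  · intro z hz v hv
    have h1 : HasFDerivAt (fun z => R.symm (z, f x))
        ((fderiv ℂ R.symm (z, f x)).comp (ContinuousLinearMap.inl ℂ (Cn n) ℂ)) z := by
      have h2 : HasFDerivAt (fun z : Cn n => (z, f x)) (ContinuousLinearMap.inl ℂ (Cn n) ℂ) z := by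
        exact hasFDerivAt_prodMk_left z (f x)
      exact (hRd.differentiableAt (R.open_target.mem_nhds hz)).hasFDerivAt.comp z h2
    have h3 : HasFDerivAt (fun z => ψ (R.symm (z, f x)))
        (ψ.comp ((fderiv ℂ R.symm (z, f x)).comp (ContinuousLinearMap.inl ℂ (Cn n) ℂ))) z :=
      ψ.hasFDerivAt.comp z h1
    have h4 : HasFDerivAt (fun z => ψ (R.symm (z, f x))) (ContinuousLinearMap.id ℂ (Cn n)) z := by
      refine (hasFDerivAt_id z).congr_of_eventuallyEq ?_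
      have ho : IsOpen {z : Cn n | (z, f x) ∈ R.target} :=
        R.open_target.preimage (continuous_id.prodMk continuous_const)
      filter_upwards [ho.mem_nhds hz] with w hw
      have h5 : R (R.symm (w, f x)) = (w, f x) := R.right_inv hw
      rw [hRΦ] at h5
      exact congrArg Prod.fst h5
    have h5 := congrArg (fun T : Cn n →L[ℂ] Cn n => T v) (h3.unique h4)
    rw [h1.fderiv] at hv
    simp only [ContinuousLinearMap.comp_apply] at hv h5
    rw [hv, map_zero] at h5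
    exact h5.symm
  · show (ψ x, f x) ∈ R.target
    have := R.map_source hxR
    rwa [hRΦ] at this
  · show R.symm (ψ x, f x) = x
    have := R.left_inv hxR
    rwa [hRΦ] at this

/-- existence with the conditions of `PE` -/
theorem exists_pe {f : E3 → ℂ} {r : ℝ} {s' : ℂ} {x : E3} (hf : AnalyticAt ℂ f x)
    (h0 : fderiv ℂ f x ≠ 0) (hs : f x = s') (hx : x ≠ 0) (hr : nsq x < r ^ 2) :
    ∃ (θ : Cn 2 → E3) (O : Set (Cn 2)) (z : Cn 2), PE f s' r θ O ∧ z ∈ O ∧ θ z = x := by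
  subst hs
  obtain ⟨θ, O, z, hP, hz, hθ⟩ := exists_par (n := 2) hf h0
  have hc : ContinuousOn θ O := hP.hol.continuousOn
  have hn : Continuous (nsq : E3 → ℝ) := by
    unfold nsq
    fun_prop
  have ho : IsOpen (O ∩ θ ⁻¹' {y | y ≠ 0 ∧ nsq y < r ^ 2}) :=
    hc.isOpen_inter_preimage hP.isOpen
      (isOpen_ne.inter (isOpen_lt hn continuous_const))
  refine ⟨θ, O ∩ θ ⁻¹' {y | y ≠ 0 ∧ nsq y < r ^ 2}, z, ⟨hP.mono ho inter_subset_left, ?_, ?_⟩,
    ⟨hz, ?_⟩, hθ⟩
  · exact fun w hw => hw.2.1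
  · exact fun w hw => hw.2.2
  · show θ z ≠ 0 ∧ nsq (θ z) < r ^ 2
    rw [hθ]
    exact ⟨hx, hr⟩

/-- densities in a parametrisation -/
theorem dns_eq {f : E3 → ℂ} {s : ℂ} {θ : Cn 2 → E3} {O : Set (Cn 2)} (h : Par (n := 2) f s θ O)
    {z : Cn 2} (hz : z ∈ O) (hf : AnalyticAt ℂ f (θ z)) (h0 : fderiv ℂ f (θ z) ≠ 0)
    {D : (Cn 2 → E3) → Cn 2 → ℝ}
    (hD : ∀ (θ' : Cn 2 → E3) (z' : Cn 2) (T : Cn 2 → Cn 2),
      (∀ᶠ w in 𝓝 z', DifferentiableAt ℂ T w) → T z' = z →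
      (∀ᶠ w in 𝓝 z', T w ∈ O ∧ θ' w = θ (T w)) → (Jac T z').det ≠ 0 →
      D θ' z' = ‖(Jac T z').det‖ ^ 2 * D θ z) :
    dns f D (θ z) * eta2a (n := 2) f θ z = D θ z := by
  have hex : ∃ p : (Cn 2 → E3) × Set (Cn 2) × Cn 2,
      Aff_835.Par (n := 2) f (f (θ z)) p.1 p.2.1 ∧ p.2.2 ∈ p.2.1 ∧ p.1 p.2.2 = θ z :=
    ⟨(θ, O, z), by rw [h.lvl z hz]; exact h, hz, rfl⟩
  unfold dns
  rw [dif_pos hex]
  obtain ⟨h1, h2, h3⟩ := hex.choose_spec
  set θ' := hex.choose.1
  set O' := hex.choose.2.1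
  set z' := hex.choose.2.2
  rw [h.lvl z hz] at h1
  obtain ⟨T, hT, hTz, hTe⟩ := exists_trans h1 h h2 hz h3 hf.hasStrictFDerivAt h0
  have hdet := det_trans h1 h h2 hT hTe
  have e1 := hD θ' z' T hT hTz hTe hdet
  have e2 := eta2a_trans h1 h h2 hT hTe
  rw [hTz] at e2
  have hpos : 0 < eta2a f θ z := Loc_835.eta2a_pos h hz h0
  have hn : 0 < ‖(Jac T z').det‖ := norm_pos_iff.2 hdet
  rw [e1, e2]
  field_simp

theorem hess_trans {θ θ' : Cn 2 → E3} {O : Set (Cn 2)} {z' : Cn 2} {T : Cn 2 → Cn 2}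
    (hT : ∀ᶠ w in 𝓝 z', DifferentiableAt ℂ T w)
    (hTe : ∀ᶠ w in 𝓝 z', T w ∈ O ∧ θ' w = θ (T w)) {a : E3 → ℝ}
    (ha : ContDiffAt ℝ ∞ (fun z => a (θ z)) (T z')) :
    ContDiffAt ℝ ∞ (fun z => a (θ' z)) z' ∧
      hess (fun z => a (θ' z)) z' = pbk T (hess fun z => a (θ z)) z' := by
  set b : Cn 2 → ℝ := fun z => a (θ z) with hb
  have e : (fun z => a (θ' z)) =ᶠ[𝓝 z'] fun w => b (T w) := by
    filter_upwards [hTe] with w hw
    show a (θ' w) = a (θ (T w))
    rw [hw.2]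
  have h1 : ContDiffAt ℝ ∞ (b ∘ T) z' := ContDiffAt.comp z' (g := b) ha (T_sm hT)
  refine ⟨h1.congr_of_eventuallyEq e, ?_⟩
  rw [hess_congr e]
  exact hess_comp' ha hT

/-- `∂∂̄a ∧ ∂∂̄b` in a parametrisation -/
theorem mxd_eq {f : E3 → ℂ} {s : ℂ} {θ : Cn 2 → E3} {O : Set (Cn 2)} (h : Par (n := 2) f s θ O)
    {z : Cn 2} (hz : z ∈ O) (hf : AnalyticAt ℂ f (θ z)) (h0 : fderiv ℂ f (θ z) ≠ 0)
    {a b : E3 → ℝ} (ha : ContDiffAt ℝ ∞ (fun z => a (θ z)) z)
    (hb : ContDiffAt ℝ ∞ (fun z => b (θ z)) z) :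
    mxd f a b (θ z) * eta2a (n := 2) f θ z =
      (C2F1_625.pd (cH (fun z => a (θ z)) z) (cH (fun z => b (θ z)) z)).re := by
  refine dns_eq (D := fun θ z =>
    (C2F1_625.pd (cH (fun z => a (θ z)) z) (cH (fun z => b (θ z)) z)).re) h hz hf h0 ?_
  intro θ' z' T hT hTz hTe hdet
  obtain ⟨a1, a2⟩ := hess_trans hT hTe (a := a) (by rw [hTz]; exact ha)
  obtain ⟨b1, b2⟩ := hess_trans hT hTe (a := b) (by rw [hTz]; exact hb)
  show (C2F1_625.pd (cH (fun z => a (θ' z)) z') (cH (fun z => b (θ' z)) z')).re = _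
  rw [cH_eq_hess a1, cH_eq_hess b1, cH_eq_hess ha, cH_eq_hess hb, a2, b2, pd_pbk, hTz,
    Complex.mul_conj, Complex.normSq_eq_norm_sq, Complex.re_ofReal_mul]

/-- the second Chern form in a parametrisation -/
theorem c2d_eq {f : E3 → ℂ} {s : ℂ} {θ : Cn 2 → E3} {O : Set (Cn 2)} (h : Par (n := 2) f s θ O)
    {z : Cn 2} (hz : z ∈ O) (hf : AnalyticAt ℂ f (θ z)) (h0 : fderiv ℂ f (θ z) ≠ 0)
    {u : E3 → ℝ} (hu : ∀ y ∈ O, ContDiffAt ℝ ∞ (fun z => u (θ z)) y)
    (hdu : (cH (fun z => u (θ z)) z).det ≠ 0) :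
    c2d f u (θ z) * eta2a (n := 2) f θ z = (c2 (fun y => (cH (fun z => u (θ z)) y)ᵀ) z).re := by
  refine dns_eq (D := fun θ z => (c2 (fun y => (cH (fun z => u (θ z)) y)ᵀ) z).re) h hz hf h0 ?_
  intro θ' z' T hT hTz hTe hdet
  show (c2 (fun y => (cH (fun z => u (θ' z)) y)ᵀ) z').re = _
  have hTe' := eventually_eventually_nhds.2 hTe
  have hT' := eventually_eventually_nhds.2 hT
  set H : Cn 2 → Matrix (Fin 2) (Fin 2) ℂ := fun y => (hess (fun z => u (θ z)) y)ᵀ with hH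
  have hHsm : ∀ y ∈ O, SmM y H := fun y hy S S' => Crest.Agent.R273.HessB_333.contDiffAt_hess (hu y hy) S' S
  have e1 : (fun y => (cH (fun z => u (θ' z)) y)ᵀ) =ᶠ[𝓝 z'] fun y =>
      (Jac T y)ᴴ * H (T y) * Jac T y := by
    filter_upwards [hTe', hT'] with y hy hy'
    obtain ⟨a1, a2⟩ := hess_trans hy' hy (a := u) (hu _ hy.self_of_nhds.1)
    rw [cH_eq_hess a1, a2]
    simp only [pbk, hH, Matrix.transpose_mul, Matrix.transpose_transpose, Matrix.mul_assoc]
    rfl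
  have hTO : T z' ∈ O := by rw [hTz]; exact hz
  have hTc : ContinuousAt T z' := hT.self_of_nhds.continuousAt
  have hHT : ∀ᶠ y in 𝓝 z', SmM y fun y => H (T y) := by
    filter_upwards [hTe, hT'] with y hy hy' S S'
    exact (hHsm _ hy.1 S S').comp y (T_sm hy')
  have hne : (H (T z')).det ≠ 0 := by
    rw [hTz, hH, Matrix.det_transpose, ← cH_eq_hess (hu z hz)]
    exact hdu
  have e2 : (fun y => (cH (fun z => u (θ z)) y)ᵀ) =ᶠ[𝓝 z] H := by
    filter_upwards [h.isOpen.mem_nhds hz] with y hy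
    rw [cH_eq_hess (hu y hy)]
  rw [c2_congr e1, c2_frame hHT hne (fun S S' => J_hol hT S S') hdet,
    c2_comp (hHsm _ hTO) hT, c2_congr e2, hTz, Complex.mul_conj, Complex.normSq_eq_norm_sq,
    Complex.re_ofReal_mul]

/-- **`DenStmt`** -/
theorem denStmt : DenStmt := by
  intro f s r hr han hsm θ O hP
  have hfz : ∀ z ∈ O, AnalyticAt ℂ f (θ z) := fun z hz => han _ (hP.lt z hz)
  have h0z : ∀ z ∈ O, fderiv ℂ f (θ z) ≠ 0 := fun z hz =>
    hsm _ (hP.ne z hz) (hP.lt z hz) (hP.par.lvl z hz)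
  refine ⟨fun a b ha hb z hz => ?_, fun u hu z hz => ?_⟩
  · exact mxd_eq hP.par hz (hfz z hz) (h0z z hz) (ha.contDiffAt (hP.par.isOpen.mem_nhds hz))
      (hb.contDiffAt (hP.par.isOpen.mem_nhds hz))
  · have hsmu : ∀ y ∈ O, ContDiffAt ℝ ∞ (fun z => u (θ z)) y := fun y hy =>
      (hu.sm θ O hP).contDiffAt (hP.par.isOpen.mem_nhds hy)
    refine c2d_eq hP.par hz (hfz z hz) (h0z z hz) hsmu ?_
    rw [cH_eq_hess (hsmu z hz)]
    exact (posDef_hess (hsmu z hz) (hu.pos θ O hP z hz)).det_pos.ne'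

/-- `|η|²` is the square of the norm of a holomorphic function without zeros -/
theorem eta2a_norm {g : AC n → ℂ} {s : ℂ} {θ : Cn n → AC n} {U : Set (Cn n)}
    (hθ : Par g s θ U) {z : Cn n} (hz : z ∈ U) (hg : AnalyticAt ℂ g (θ z))
    (h0 : fderiv ℂ g (θ z) ≠ 0) :
    ∃ q : Cn n → ℂ, AnalyticAt ℂ q z ∧ q z ≠ 0 ∧
      (fun w => eta2a g θ w) =ᶠ[𝓝 z] fun w => ‖q w‖ ^ 2 := by
  have hpos : 0 < eta2a g θ z := Loc_835.eta2a_pos hθ hz h0
  obtain ⟨W, hW⟩ : ∃ W, fderiv ℂ g (θ z) W ≠ 0 := by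
    by_contra hcon
    exact h0 (ContinuousLinearMap.ext fun W => not_not.1 fun h => hcon ⟨W, h⟩)
  have e : Fin (n + 1) ≃ Fin n ⊕ Unit := Fintype.equivOfCardEq (by simp)
  set D : Cn n → ℂ := fun w => ((addRow (DF θ w) W).submatrix e id).det with hD
  set h : Cn n → ℂ := fun w => fderiv ℂ g (θ w) W with hh
  have hθa : AnalyticAt ℂ θ z := GradE_537.anal_th hθ hz
  have hDa : AnalyticAt ℂ D z := by
    have h1 : ∀ a k, AnalyticAt ℂ (fun w => (addRow (DF θ w) W).submatrix e id a k) z := by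
      intro a k
      rcases ha : e a with b | b
      · have hk : AnalyticAt ℂ (fun z => θ z k) z :=
          ((ContinuousLinearMap.proj (R := ℂ) (φ := fun _ : Fin (n + 1) => ℂ) k).analyticAt
            _).comp hθa
        have h2 : AnalyticAt ℂ
            (fun w => fderiv ℂ (fun z => θ z k) w (EuclideanSpace.single b 1)) z :=
          ((ContinuousLinearMap.apply ℂ ℂ (EuclideanSpace.single b (1 : ℂ) : Cn n)).analyticAt
              _).comp hk.fderiv
        refine h2.congr (Eventually.of_forall fun w => ?_)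
        show _ = addRow (DF θ w) W (e a) (id k)
        rw [ha]
        rfl
      · refine (analyticAt_const (v := W k)).congr (Eventually.of_forall fun w => ?_)
        show _ = addRow (DF θ w) W (e a) (id k)
        rw [ha]
        rfl
    have h3 : D = fun w => ∑ σ : Equiv.Perm (Fin (n + 1)), (Equiv.Perm.sign σ : ℂ) *
        ∏ i, (addRow (DF θ w) W).submatrix e id (σ i) i := by
      funext w
      exact Matrix.det_apply' _
    rw [h3]
    refine Finset.analyticAt_fun_sum _ fun σ _ => analyticAt_const.mul ?_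
    exact Finset.analyticAt_fun_prod _ fun i _ => h1 _ _
  have hha : AnalyticAt ℂ h z :=
    ((ContinuousLinearMap.apply ℂ ℂ W).analyticAt _).comp (hg.fderiv.comp hθa)
  have hev : ∀ᶠ w in 𝓝 z, h w ≠ 0 := hha.continuousAt.eventually_ne hW
  have hevg : ∀ᶠ w in 𝓝 z, AnalyticAt ℂ g (θ w) :=
    (hθa.continuousAt).eventually hg.eventually_analyticAt
  have key : ∀ w ∈ U, AnalyticAt ℂ g (θ w) → h w ≠ 0 → eta2a g θ w = ‖D w / h w‖ ^ 2 := by
    intro w hw hgw hw0
    have h1 : fderiv ℂ g (θ w) ≠ 0 := by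
      intro h2
      apply hw0
      show fderiv ℂ g (θ w) W = 0
      rw [h2]
      rfl
    have h2 := hθ.eta2a_spec hw hgw.differentiableAt h1 W
    rw [gdet_submatrix _ e, Complex.mul_conj'] at h2
    have h3 : ‖D w‖ ^ 2 = eta2a g θ w * ‖h w‖ ^ 2 := by exact_mod_cast h2
    have h4 : ‖h w‖ ≠ 0 := norm_ne_zero_iff.2 hw0
    rw [norm_div, div_pow, h3]
    field_simp
  refine ⟨fun w => D w / h w, hDa.div hha hW, ?_, ?_⟩
  · intro h1
    have h1' : D z / h z = 0 := h1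
    rw [key z hz hg hW, h1'] at hpos
    simp at hpos
  · filter_upwards [hev, hevg, hθ.isOpen.mem_nhds hz] with w hw hgw hwU
    exact key w hwU hgw hw

/-- `(hess u)ᵀ` is a Kähler metric matrix -/
theorem kahAt_hess {v : Cn 2 → ℝ} {O : Set (Cn 2)} (hO : IsOpen O) (hv : ContDiffOn ℝ ∞ v O)
    {z : Cn 2} (hz : z ∈ O) : KahAt (fun y => (hess v y)ᵀ) z where
  bar k b c := wdb_hess hO hv hz c b k
  hol k b c := wd_hess (hv.contDiffAt (hO.mem_nhds hz)) b c k

/-- **`BmyStmt`** -/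
theorem bmyStmt : BmyStmt := by
  intro f s r u hr han hsm hu x hx hx0 hxr
  have hfx := han x hxr
  have h0x := hsm x hx0 hxr hx
  obtain ⟨θ, O, z, hP, hz, hθ⟩ := exists_pe hfx h0x hx hx0 hxr
  have hO := hP.par.isOpen
  have hc := (denStmt f s r hr han hsm θ O hP).2 u hu z hz
  set v : Cn 2 → ℝ := fun z => u (θ z) with hv
  have hvs : ContDiffOn ℝ ∞ v O := hu.sm θ O hP
  have hva : ∀ y ∈ O, ContDiffAt ℝ ∞ v y := fun y hy => hvs.contDiffAt (hO.mem_nhds hy)
  set K : Cn 2 → Matrix (Fin 2) (Fin 2) ℂ := fun y => (hess v y)ᵀ with hK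
  have hpd : ∀ y ∈ O, (hess v y).PosDef := fun y hy => posDef_hess (hva y hy) (hu.pos θ O hP y hy)
  have eO : ∀ᶠ y in 𝓝 z, y ∈ O := hO.mem_nhds hz
  have e2 : (fun y => (cH v y)ᵀ) =ᶠ[𝓝 z] K := by
    filter_upwards [eO] with y hy
    rw [cH_eq_hess (hva y hy)]
  rw [c2_congr e2] at hc
  have hfz : ∀ y ∈ O, AnalyticAt ℂ f (θ y) := fun y hy => han _ (hP.lt y hy)
  have h0z : ∀ y ∈ O, fderiv ℂ f (θ y) ≠ 0 := fun y hy =>
    hsm _ (hP.ne y hy) (hP.lt y hy) (hP.par.lvl y hy)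
  have hmu : 0 < eta2a (n := 2) f θ z := Loc_835.eta2a_pos hP.par hz (h0z z hz)
  have hma : ∀ y ∈ O, (K y).det = ((Real.exp (u (θ y)) * eta2a (n := 2) f θ y : ℝ) : ℂ) := by
    intro y hy
    show ((hess v y)ᵀ).det = _
    rw [Matrix.det_transpose, ← cH_eq_hess (hva y hy)]
    exact hu.ma θ O hP y hy
  have hKsm : ∀ y ∈ O, SmM y K := fun y hy S S' => contDiffAt_hess (hva y hy) S' S
  have hKh : ∀ y ∈ O, (K y).IsHermitian := fun y hy => (hpd y hy).isHermitian.transpose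
  have hKp : (K z).PosDef := (hpd z hz).transpose
  have hE : ∀ a b, ric K z a b = - K z b a := by
    intro a b
    have h0 : 0 < (K z).det.re := by
      rw [hma z hz, ofReal_re]
      positivity
    rw [← hess_neg_log_det (hKsm z hz) (eO.mono fun y hy => hKh y hy) h0 a b]
    -- `- log det K = - u - log |η|²`
    obtain ⟨q, hq, hq0, hqe⟩ := eta2a_norm (n := 2) hP.par hz (hfz z hz) (h0z z hz)
    have hqd : ∀ᶠ w in 𝓝 z, DifferentiableAt ℂ q w :=
      hq.eventually_analyticAt.mono fun w hw => hw.differentiableAt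
    set g : Cn 2 → ℝ := fun w => Real.log (‖q w‖ ^ 2) with hg
    have hgs : ContDiffAt ℝ ∞ g z := KEl_835.c2_log hq hq0 ∞
    have e3 : (fun y => - Real.log (K y).det.re) =ᶠ[𝓝 z] fun y => -(v y + g y) := by
      filter_upwards [eO, hqe, hq.continuousAt.eventually_ne hq0] with y hy hy' hy0
      have h1 : eta2a (n := 2) f θ y = ‖q y‖ ^ 2 := hy'
      have h2 : 0 < ‖q y‖ := norm_pos_iff.2 hy0
      rw [hma y hy, ofReal_re, h1, Real.log_mul (Real.exp_pos _).ne' (by positivity), Real.log_exp]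
    rw [hess_congr e3, hess_neg ((hva z hz).add hgs), hess_add (hva z hz) hgs,
      hess_log_norm hqd hq0, add_zero]
    rfl
  have h1 := einstein_ge (eO.mono fun y hy => hKsm y hy) (eO.mono fun y hy => hKh y hy) hKp
    (eO.mono fun y hy => kahAt_hess hO hvs hy) hE
  rw [← hc, hma z hz, ofReal_re, hθ] at h1
  have h2 : 2 / 3 * Real.exp (u x) * eta2a (n := 2) f θ z ≤
      c2d f u x * eta2a (n := 2) f θ z := by linarith
  exact le_of_mul_le_mul_right h2 hmu

end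

end Crest.Agent.R257.Ked2_397
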