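import Crest.Agent.R273.BochD_101

/-!
# R257 (S0395), part (GB), leaf GB-C2 (helper625): the second Chern form of a rank 2 Hermitian
holomorphic bundle over a complex surface

* `pd X Y` : polarised determinant of `2 × 2` matrices (also the wedge product of `(1,1)` forms)
* `ddm b`  : `∂∂̄` of a `(1,1)` form, as a top form
* `c2 H`   : second Chern form (density), `H` = metric matrix, `rm H` = lowered curvature
* `rm_ldu`, `c2_ldu` : the identity `c₂(H) = ∂∂̄ log h ∧ ∂∂̄ log q + ∂∂̄ b` in LDU coordinates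
-/

set_option autoImplicit false
set_option linter.unusedSectionVars false
set_option linter.unusedSimpArgs false

open Finset Matrix Complex Filter Topology
open scoped ContDiff ComplexConjugate ComplexOrder

namespace Crest.Agent.R257.C2F1_625

open Crest.Agent.R275.Geo Crest.Agent.R275.EDR890
open Crest.Agent.R273.Fock_243 Crest.Agent.R273.Calc_243
open Crest.Agent.R273.Bkn_243 Crest.Agent.R273.Pos_243 Crest.Agent.R273.BochA_101
open Crest.Agent.R273.BochB_101
open Crest.Agent.R273.BochC_101 Crest.Agent.R273.BochD_101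
open Crest.Agent.R273.Hess_333 Crest.Agent.R273.HessB_333

noncomputable section

/-- polarised determinant -/
def pd (X Y : Matrix (Fin 2) (Fin 2) ℂ) : ℂ :=
  X 0 0 * Y 1 1 + X 1 1 * Y 0 0 - X 0 1 * Y 1 0 - X 1 0 * Y 0 1

theorem pd_self (X : Matrix (Fin 2) (Fin 2) ℂ) : pd X X = 2 * X.det := by
  rw [pd, Matrix.det_fin_two]; ring

theorem pd_comm (X Y : Matrix (Fin 2) (Fin 2) ℂ) : pd X Y = pd Y X := by
  unfold pd; ring

theorem pd_add (X Y Z : Matrix (Fin 2) (Fin 2) ℂ) : pd X (Y + Z) = pd X Y + pd X Z := by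
  simp only [pd, Matrix.add_apply]; ring

theorem add_pd (X Y Z : Matrix (Fin 2) (Fin 2) ℂ) : pd (X + Y) Z = pd X Z + pd Y Z := by
  simp only [pd, Matrix.add_apply]; ring

theorem pd_sub (X Y Z : Matrix (Fin 2) (Fin 2) ℂ) : pd X (Y - Z) = pd X Y - pd X Z := by
  simp only [pd, Matrix.sub_apply]; ring

theorem sub_pd (X Y Z : Matrix (Fin 2) (Fin 2) ℂ) : pd (X - Y) Z = pd X Z - pd Y Z := by
  simp only [pd, Matrix.sub_apply]; ring

theorem pd_smul (c : ℂ) (X Y : Matrix (Fin 2) (Fin 2) ℂ) : pd X (c • Y) = c * pd X Y := by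
  simp only [pd, Matrix.smul_apply, smul_eq_mul]; ring

theorem smul_pd (c : ℂ) (X Y : Matrix (Fin 2) (Fin 2) ℂ) : pd (c • X) Y = c * pd X Y := by
  simp only [pd, Matrix.smul_apply, smul_eq_mul]; ring

theorem pd_neg (X Y : Matrix (Fin 2) (Fin 2) ℂ) : pd X (-Y) = - pd X Y := by
  simp only [pd, Matrix.neg_apply]; ring

theorem neg_pd (X Y : Matrix (Fin 2) (Fin 2) ℂ) : pd (-X) Y = - pd X Y := by
  simp only [pd, Matrix.neg_apply]; ring

theorem pd_mul (A B X Y : Matrix (Fin 2) (Fin 2) ℂ) :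
    pd (A * X * B) (A * Y * B) = A.det * B.det * pd X Y := by
  simp only [pd, Matrix.mul_apply, Fin.sum_univ_two, Matrix.det_fin_two]; ring

/-- `∂∂̄` of the `(1,1)` form with coefficients `b c d` -/
def ddm (b : Cn 2 → Matrix (Fin 2) (Fin 2) ℂ) (z : Cn 2) : ℂ :=
  dS (-I) 0 (dS I 0 (fun y => b y 1 1)) z + dS (-I) 1 (dS I 1 (fun y => b y 0 0)) z
    - dS (-I) 0 (dS I 1 (fun y => b y 1 0)) z - dS (-I) 1 (dS I 0 (fun y => b y 0 1)) z

/-- second Chern form -/
def c2 (H : Cn 2 → Matrix (Fin 2) (Fin 2) ℂ) (z : Cn 2) : ℂ :=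
  (pd (rm H z 0 0) (rm H z 1 1) - pd (rm H z 0 1) (rm H z 1 0)) / (H z).det

/-! ### second derivatives of products -/

variable {n : ℕ}

theorem ev_diff {f : Cn n → ℂ} {z : Cn n} (hf : Sm z f) :
    ∀ᶠ y in 𝓝 z, DifferentiableAt ℝ f y := by
  have := (hf.of_le (m := 1) (by exact_mod_cast le_top)).eventually (by simp)
  filter_upwards [this] with y hy
  exact hy.differentiableAt (by simp)

theorem dS2_mul {f g : Cn n → ℂ} {z : Cn n} (hf : Sm z f) (hg : Sm z g) (s t : ℂ) (c d : Fin n) :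
    dS s c (dS t d (fun y => f y * g y)) z = dS s c (dS t d f) z * g z + dS t d f z * dS s c g z
      + dS s c f z * dS t d g z + f z * dS s c (dS t d g) z := by
  have h1 : dS t d (fun y => f y * g y) =ᶠ[𝓝 z] fun y => dS t d f y * g y + f y * dS t d g y := by
    filter_upwards [ev_diff hf, ev_diff hg] with y h1 h2
    exact dS_mul h1 h2
  rw [dS_congr h1, dS_add (((hf.dS t d).mul hg).differentiableAt (by simp))
    ((hf.mul (hg.dS t d)).differentiableAt (by simp)), dS_mul (hf.dS t d).diff hg.diff,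
    dS_mul hf.diff (hg.dS t d).diff]
  ring

theorem dS2_add {f g : Cn n → ℂ} {z : Cn n} (hf : Sm z f) (hg : Sm z g) (s t : ℂ) (c d : Fin n) :
    dS s c (dS t d (fun y => f y + g y)) z = dS s c (dS t d f) z + dS s c (dS t d g) z := by
  have h1 : dS t d (fun y => f y + g y) =ᶠ[𝓝 z] fun y => dS t d f y + dS t d g y := by
    filter_upwards [ev_diff hf, ev_diff hg] with y h1 h2
    exact dS_add h1 h2
  rw [dS_congr h1, dS_add (hf.dS t d).diff (hg.dS t d).diff]

/-- the matrix with LDU coordinates `h, q, τ, σ` -/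
def ldu (h q τ σ : Cn n → ℂ) (y : Cn n) : Matrix (Fin 2) (Fin 2) ℂ :=
  !![h y, h y * τ y; h y * σ y, q y + h y * (σ y * τ y)]

theorem det_ldu (h q τ σ : Cn n → ℂ) (y : Cn n) : (ldu h q τ σ y).det = h y * q y := by
  simp only [ldu, Matrix.det_fin_two_of]; ring

/-- `∂_c ∂_{d̄} log f` for complex valued `f` -/
def lg (f : Cn n → ℂ) (z : Cn n) (c d : Fin n) : ℂ :=
  dS (-I) c (dS I d f) z / f z - dS (-I) c f z * dS I d f z / (f z) ^ 2

/-- the second fundamental form term -/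
def bt (h q τ σ : Cn n → ℂ) (z : Cn n) (c d : Fin n) : ℂ :=
  h z / q z * (dS (-I) c σ z * dS I d τ z)

/-- off diagonal terms -/
def Pt (h q τ : Cn n → ℂ) (z : Cn n) (c d : Fin n) : ℂ :=
  dS (-I) c (dS I d τ) z + dS I d τ z * (dS (-I) c h z / h z - dS (-I) c q z / q z)

def Qt (h q σ : Cn n → ℂ) (z : Cn n) (c d : Fin n) : ℂ :=
  dS (-I) c (dS I d σ) z + dS (-I) c σ z * (dS I d h z / h z - dS I d q z / q z)

theorem rm_ldu {h q τ σ : Cn n → ℂ} {z : Cn n} (hh : Sm z h) (hq : Sm z q) (hτ : Sm z τ)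
    (hσ : Sm z σ) (h0 : h z ≠ 0) (q0 : q z ≠ 0) (c d : Fin n) :
    rm (ldu h q τ σ) z c d = !![1, 0; σ z, 1] *
      !![h z * (- lg h z c d + bt h q τ σ z c d), - h z * Pt h q τ z c d;
        - h z * Qt h q σ z c d, q z * (- lg q z c d - bt h q τ σ z c d)] * !![1, τ z; 0, 1] := by
  have hdet : (ldu h q τ σ z).det ≠ 0 := by rw [det_ldu]; exact mul_ne_zero h0 q0
  have hinv : (ldu h q τ σ z)⁻¹ = (h z * q z)⁻¹ •
      !![q z + h z * (σ z * τ z), - (h z * τ z); - (h z * σ z), h z] := by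
    rw [Matrix.inv_def, Ring.inverse_eq_inv', det_ldu, Matrix.adjugate_fin_two]
    simp [ldu]
  have e1 : ∀ (s : ℂ) (a : Fin n), dM s a (ldu h q τ σ) z = !![dS s a h z,
      dS s a h z * τ z + h z * dS s a τ z; dS s a h z * σ z + h z * dS s a σ z,
      dS s a q z + (dS s a h z * (σ z * τ z) + h z * (dS s a σ z * τ z + σ z * dS s a τ z))] := by
    intro s a
    ext i j
    fin_cases i <;> fin_cases j
    · rfl
    · exact dS_mul hh.diff hτ.diff
    · exact dS_mul hh.diff hσ.diff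
    · show dS s a (fun y => q y + h y * (σ y * τ y)) z = _
      rw [dS_add hq.diff ((hh.mul (hσ.mul hτ)).differentiableAt (by simp)),
        dS_mul hh.diff ((hσ.mul hτ).differentiableAt (by simp)), dS_mul hσ.diff hτ.diff]
      rfl
  have e2 : dM (-I) c (dM I d (ldu h q τ σ)) z = !![dS (-I) c (dS I d h) z,
      dS (-I) c (dS I d h) z * τ z + dS I d h z * dS (-I) c τ z + dS (-I) c h z * dS I d τ z
        + h z * dS (-I) c (dS I d τ) z;
      dS (-I) c (dS I d h) z * σ z + dS I d h z * dS (-I) c σ z + dS (-I) c h z * dS I d σ z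
        + h z * dS (-I) c (dS I d σ) z,
      dS (-I) c (dS I d q) z + (dS (-I) c (dS I d h) z * (σ z * τ z)
        + dS I d h z * (dS (-I) c σ z * τ z + σ z * dS (-I) c τ z)
        + dS (-I) c h z * (dS I d σ z * τ z + σ z * dS I d τ z)
        + h z * (dS (-I) c (dS I d σ) z * τ z + dS I d σ z * dS (-I) c τ z
          + dS (-I) c σ z * dS I d τ z + σ z * dS (-I) c (dS I d τ) z))] := by
    ext i j
    fin_cases i <;> fin_cases j
    · rfl
    · exact dS2_mul hh hτ _ _ _ _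
    · exact dS2_mul hh hσ _ _ _ _
    · show dS (-I) c (dS I d (fun y => q y + h y * (σ y * τ y))) z = _
      rw [dS2_add hq (hh.mul (hσ.mul hτ)), dS2_mul hh (hσ.mul hτ), dS2_mul hσ hτ,
        dS_mul hσ.diff hτ.diff, dS_mul hσ.diff hτ.diff]
      rfl
  rw [rm, e2, e1 I d, e1 (-I) c, hinv]
  simp only [lg, bt, Pt, Qt]
  generalize dS (-I) c (dS I d h) z = hcd
  generalize dS (-I) c (dS I d q) z = qcd
  generalize dS (-I) c (dS I d τ) z = tcd
  generalize dS (-I) c (dS I d σ) z = scd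
  generalize dS (-I) c h z = hc
  generalize dS (-I) c q z = qc
  generalize dS (-I) c τ z = tc
  generalize dS (-I) c σ z = sc
  generalize dS I d h z = hd
  generalize dS I d q z = qd
  generalize dS I d τ z = td
  generalize dS I d σ z = sd
  generalize h z = h' at *
  generalize q z = q' at *
  generalize τ z = t'
  generalize σ z = s'
  ext i j
  fin_cases i <;> fin_cases j <;>
    simp [Matrix.mul_apply, Fin.sum_univ_two, Matrix.vecMul, dotProduct] <;> field_simp <;> ring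

/-! ### the quotient `ρ = h / q` -/

theorem rho_sm {h q : Cn n → ℂ} {z : Cn n} (hh : Sm z h) (hq : Sm z q) (q0 : q z ≠ 0) :
    Sm z (fun y => h y / q y) := by
  simp only [div_eq_mul_inv]
  exact hh.mul (hq.inv q0)

theorem rho_mul {h q : Cn n → ℂ} {z : Cn n} (hq : Sm z q) (q0 : q z ≠ 0) :
    (fun y => h y / q y * q y) =ᶠ[𝓝 z] h := by
  filter_upwards [hq.continuousAt.eventually_ne q0] with y hy
  exact div_mul_cancel₀ _ hy

theorem rho1 {h q : Cn n → ℂ} {z : Cn n} (hh : Sm z h) (hq : Sm z q) (h0 : h z ≠ 0)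
    (q0 : q z ≠ 0) (s : ℂ) (a : Fin n) :
    dS s a (fun y => h y / q y) z = h z / q z * (dS s a h z / h z - dS s a q z / q z) := by
  have h1 := dS_congr (s := s) (a := a) (rho_mul (h := h) hq q0)
  rw [dS_mul (rho_sm hh hq q0).diff hq.diff] at h1
  rw [← h1]
  field_simp
  ring

theorem rho2 {h q : Cn n → ℂ} {z : Cn n} (hh : Sm z h) (hq : Sm z q) (h0 : h z ≠ 0)
    (q0 : q z ≠ 0) (c d : Fin n) :
    dS (-I) c (dS I d (fun y => h y / q y)) z = h z / q z * (lg h z c d - lg q z c d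
      + (dS (-I) c h z / h z - dS (-I) c q z / q z) * (dS I d h z / h z - dS I d q z / q z)) := by
  have h1 : dS (-I) c (dS I d (fun y => h y / q y * q y)) z = dS (-I) c (dS I d h) z :=
    dS_congr (dS_congr' (rho_mul hq q0))
  rw [dS2_mul (rho_sm hh hq q0) hq, rho1 hh hq h0 q0, rho1 hh hq h0 q0] at h1
  have h2 : dS (-I) c (dS I d (fun y => h y / q y)) z * q z = dS (-I) c (dS I d h) z
      - h z / q z * (dS I d h z / h z - dS I d q z / q z) * dS (-I) c q z
      - h z / q z * (dS (-I) c h z / h z - dS (-I) c q z / q z) * dS I d q z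
      - h z / q z * dS (-I) c (dS I d q) z := by
    rw [← h1]; ring
  refine mul_right_cancel₀ q0 (h2.trans ?_)
  simp only [lg]
  field_simp
  ring

/-! ### third derivatives -/

theorem smE_dS {f : Cn n → ℂ} {z : Cn n} (hf : ∀ᶠ y in 𝓝 z, Sm y f) (s : ℂ) (a : Fin n) :
    ∀ᶠ y in 𝓝 z, Sm y (dS s a f) := hf.mono fun _ hy => hy.dS s a

theorem comm_ev {f : Cn n → ℂ} {z : Cn n} (hf : ∀ᶠ y in 𝓝 z, Sm y f) (s t : ℂ) (a b : Fin n) :
    dS s a (dS t b f) =ᶠ[𝓝 z] dS t b (dS s a f) := hf.mono fun _ hy => dS_comm hy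

theorem swapF {f : Cn n → ℂ} {z : Cn n} (hf : ∀ᶠ y in 𝓝 z, Sm y f) (c d e : Fin n) :
    dS (-I) c (dS I d (dS (-I) e f)) z = dS (-I) e (dS I d (dS (-I) c f)) z := by
  rw [dS_congr (comm_ev hf I (-I) d e), dS_comm ((hf.self_of_nhds).dS I d),
    dS_congr (comm_ev hf (-I) I c d)]

theorem swapG {f : Cn n → ℂ} {z : Cn n} (hf : ∀ᶠ y in 𝓝 z, Sm y f) (c d e : Fin n) :
    dS (-I) c (dS I d (dS I e f)) z = dS (-I) c (dS I e (dS I d f)) z :=
  dS_congr (comm_ev hf I I d e)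

/-- `∂_c ∂_{d̄}` of the coefficient `b c' d'` -/
theorem dd_bt {h q τ σ : Cn n → ℂ} {z : Cn n} (hh : Sm z h) (hq : Sm z q)
    (hτ : Sm z τ) (hσ : Sm z σ) (h0 : h z ≠ 0) (q0 : q z ≠ 0) (c d c' d' : Fin n) :
    dS (-I) c (dS I d (fun y => bt h q τ σ y c' d')) z =
      h z / q z * (lg h z c d - lg q z c d
        + (dS (-I) c h z / h z - dS (-I) c q z / q z) * (dS I d h z / h z - dS I d q z / q z))
        * (dS (-I) c' σ z * dS I d' τ z)
      + h z / q z * (dS I d h z / h z - dS I d q z / q z) *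
        (dS (-I) c (dS (-I) c' σ) z * dS I d' τ z + dS (-I) c' σ z * dS (-I) c (dS I d' τ) z)
      + h z / q z * (dS (-I) c h z / h z - dS (-I) c q z / q z) *
        (dS (-I) c' (dS I d σ) z * dS I d' τ z + dS (-I) c' σ z * dS I d (dS I d' τ) z)
      + h z / q z * (dS (-I) c (dS I d (dS (-I) c' σ)) z * dS I d' τ z
        + dS (-I) c' (dS I d σ) z * dS (-I) c (dS I d' τ) z
        + dS (-I) c (dS (-I) c' σ) z * dS I d (dS I d' τ) z
        + dS (-I) c' σ z * dS (-I) c (dS I d (dS I d' τ)) z) := by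
  have e : dS I d (dS (-I) c' σ) z = dS (-I) c' (dS I d σ) z := dS_comm hσ
  have hF := hσ.dS (-I) c'
  have hG := hτ.dS I d'
  unfold bt
  rw [dS2_mul (rho_sm hh hq q0) (hF.mul hG), dS2_mul hF hG, dS_mul hF.diff hG.diff,
    dS_mul hF.diff hG.diff, rho1 hh hq h0 q0, rho1 hh hq h0 q0, rho2 hh hq h0 q0, e]

/-- **LDU identity**: `c₂ = ∂∂̄ log h ∧ ∂∂̄ log q + ∂∂̄ b` -/
theorem c2_ldu {h q τ σ : Cn 2 → ℂ} {z : Cn 2} (hh : Sm z h) (hq : Sm z q)
    (hτ : ∀ᶠ y in 𝓝 z, Sm y τ) (hσ : ∀ᶠ y in 𝓝 z, Sm y σ) (h0 : h z ≠ 0) (q0 : q z ≠ 0) :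
    c2 (ldu h q τ σ) z = pd (Matrix.of (lg h z)) (Matrix.of (lg q z))
      + ddm (fun y => Matrix.of (bt h q τ σ y)) z := by
  have hτz := hτ.self_of_nhds
  have hσz := hσ.self_of_nhds
  unfold c2
  rw [rm_ldu hh hq hτz hσz h0 q0, rm_ldu hh hq hτz hσz h0 q0, rm_ldu hh hq hτz hσz h0 q0,
    rm_ldu hh hq hτz hσz h0 q0, pd_mul, pd_mul, det_ldu]
  unfold ddm
  simp only [Matrix.of_apply]
  rw [dd_bt hh hq hτz hσz h0 q0, dd_bt hh hq hτz hσz h0 q0, dd_bt hh hq hτz hσz h0 q0,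
    dd_bt hh hq hτz hσz h0 q0]
  rw [swapF hσ 1 0 0, swapF hσ 1 1 0, swapG hτ 0 1 0, swapG hτ 1 1 0,
    dS_comm (s := -I) (t := -I) (a := 1) (b := 0) hσz, dS_comm (s := I) (t := I) (a := 1) (b := 0) hτz]
  simp only [Matrix.det_fin_two_of, pd, Matrix.of_apply, Matrix.cons_val', Matrix.cons_val_zero,
    Matrix.cons_val_one, Matrix.cons_val_fin_one, Pt, Qt, bt]
  generalize lg h z 0 0 = l00
  generalize lg h z 0 1 = l01
  generalize lg h z 1 0 = l10
  generalize lg h z 1 1 = l11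
  generalize lg q z 0 0 = m00
  generalize lg q z 0 1 = m01
  generalize lg q z 1 0 = m10
  generalize lg q z 1 1 = m11
  field_simp
  ring

end

end Crest.Agent.R257.C2F1_625
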