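import Crest.Agent.R257.MassLeC_218
import Crest.Agent.R257.C2F1_625

/-!
# R257 (S0395), task MASS-LE (helper218): `m(u) ≤ tot(w)` when `∫ e^{w-u} (∂∂̄u)² < ∞`

`M` a surface (not compact), `u, w` smooth psh, `u, w → -∞` at the puncture, `|∂u|² ≤ C u²` with
respect to `∂∂̄u`, `χ` an outer cut-off function. Then

  `∫ u ∂∂̄u ∧ ∂∂̄χ ≤ ∫ w ∂∂̄w ∧ ∂∂̄χ + V`,   `V ≥ ∫ χ (∂∂̄u)²`.

* `Dat`      : the hypotheses
* `main_est` : the estimate at finite truncation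
* `mass_le`  : the theorem; `mass_le_pd` : the same with helper625's `pd`
-/

set_option autoImplicit false
set_option linter.unusedSectionVars false
set_option maxHeartbeats 1000000

open Set Filter Topology Complex MeasureTheory
open scoped ContDiff Matrix ComplexConjugate ComplexOrder

namespace Crest.Agent.R257.MassLe218

open Crest.Agent.R275 Crest.Agent.R275.Geo Crest.Agent.R275.Core144 Crest.Agent.R275.EDR890
open Crest.Agent.R275.Pai323 Crest.Agent.R275.C1d194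
open Crest.Agent.R275.SerG398 (lint dens)
open Crest.Agent.R275.OmT75 (dj dl)
open Crest.Agent.R273.Defs_333 Crest.Agent.R273.Hess_333 Crest.Agent.R273.HessB_333
open Crest.Agent.R273.HM_333 Crest.Agent.R273.Kah_333 Crest.Agent.R273.Vol_333
open Crest.Agent.R273.StokesV_332 (Den OffK intD intD_eq_sum intD_congr intD_add intD_sub intD_smul
  intD_neg intD_conj intD_nonneg NonnegD)
open Crest.Agent.R273.Green_5 Crest.Agent.R273.GreenM_5
open Crest.Agent.R273.GreenG_5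

noncomputable section

variable {M : Type} [TopologicalSpace M] {A : Atl 2 M}

/-! ### psh functions and compositions -/

theorem psd_comp {κ : ℝ → ℝ} (hκ : ContDiff ℝ ∞ κ) (h1 : ∀ s, 0 ≤ deriv κ s)
    (h2 : ∀ s, 0 ≤ deriv (deriv κ) s) {u : M → ℝ} (hu : A.Sm u) {i : A.ι} {x : M}
    (hx : x ∈ (A.e i).source) (pu : (hsf A u i x).PosSemidef) :
    (hsf A (fun y => κ (u y)) i x).PosSemidef := by
  rw [hsf_comp hκ hu hx]
  have e1 : (((deriv κ (u x) : ℝ) : ℂ) • hsf A u i x).PosSemidef :=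
    pu.smul (by exact_mod_cast h1 (u x) : (0 : ℂ) ≤ ((deriv κ (u x) : ℝ) : ℂ))
  have e2 : (((deriv (deriv κ) (u x) : ℝ) : ℂ) •
      Matrix.vecMulVec (gv A u i x) (star (gv A u i x))).PosSemidef :=
    (Matrix.posSemidef_vecMulVec_self_star _).smul
      (by exact_mod_cast h2 (u x) : (0 : ℂ) ≤ ((deriv (deriv κ) (u x) : ℝ) : ℂ))
  exact e1.add e2

theorem mx_self_nonneg {a : M → ℝ} {i : A.ι} {x : M} (pa : (hsf A a i x).PosSemidef) :
    0 ≤ (mx A a a i x).re := by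
  rw [mx_self]
  have h := (Complex.le_def.1 pa.det_nonneg).1
  rw [Complex.zero_re] at h
  have e : (2 * (hsf A a i x).det).re = 2 * (hsf A a i x).det.re := by
    simp
  rw [e]
  linarith

theorem grd_re_nonneg {a : M → ℝ} {i : A.ι} {x : M} (pa : (hsf A a i x).PosSemidef) :
    0 ≤ (grd (hsf A a) (fun y => (a y : ℂ)) (fun y => (a y : ℂ)) i x).re := by
  rw [grd_gv]
  have h := (Complex.le_def.1 (qa2_nonneg pa (gv A a i x))).1
  rwa [Complex.zero_re] at h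

theorem mx_comp_re {κ : ℝ → ℝ} (hκ : ContDiff ℝ ∞ κ) {u : M → ℝ} (hu : A.Sm u) {i : A.ι} {x : M}
    (hx : x ∈ (A.e i).source) :
    (mx A (fun y => κ (u y)) (fun y => κ (u y)) i x).re =
      (deriv κ (u x)) ^ 2 * (mx A u u i x).re + 2 * deriv κ (u x) * deriv (deriv κ) (u x) *
          (grd (hsf A u) (fun y => (u y : ℂ)) (fun y => (u y : ℂ)) i x).re := by
  rw [mx_comp hκ hu hx]
  have e1 : ((deriv κ (u x) : ℝ) : ℂ) ^ 2 = (((deriv κ (u x)) ^ 2 : ℝ) : ℂ) := by push_cast; rfl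
  have e2 : 2 * ((deriv κ (u x) : ℝ) : ℂ) * ((deriv (deriv κ) (u x) : ℝ) : ℂ) =
      ((2 * deriv κ (u x) * deriv (deriv κ) (u x) : ℝ) : ℂ) := by push_cast; rfl
  rw [e1, e2, Complex.add_re, Complex.re_ofReal_mul, Complex.re_ofReal_mul]

theorem sm_comp {κ : ℝ → ℝ} (hκ : ContDiff ℝ ∞ κ) {u : M → ℝ} (hu : A.Sm u) :
    A.Sm (fun y => κ (u y)) := fun i => hκ.comp_contDiffOn (hu i)

/-- the Hessian of `c f - B` -/
theorem hsf_affine (c B : ℝ) {f : M → ℝ} (hf : A.Sm f) {i : A.ι} {x : M}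
    (hx : x ∈ (A.e i).source) :
    hsf A (fun y => c * f y - B) i x = (c : ℂ) • hsf A f i x := by
  have hκ : ContDiff ℝ ∞ fun s : ℝ => c * s - B :=
    (contDiff_const.mul contDiff_id).sub contDiff_const
  have hd : deriv (fun s : ℝ => c * s - B) = fun _ => c := by
    funext s
    have h1 : HasDerivAt (fun s : ℝ => c * s - B) (c * 1) s :=
      ((hasDerivAt_id s).const_mul c).sub_const B
    rw [h1.deriv, mul_one]
  have h := hsf_comp hκ hf hx
  rw [hd] at h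
  simp only [deriv_const] at h
  rw [h]
  simp

theorem mx_affine (c B : ℝ) {f : M → ℝ} (hf : A.Sm f) {i : A.ι} {x : M}
    (hx : x ∈ (A.e i).source) :
    mx A (fun y => c * f y - B) (fun y => c * f y - B) i x = ((c ^ 2 : ℝ) : ℂ) * mx A f f i x := by
  unfold mx
  rw [hsf_affine c B hf hx, adj2_smul, Matrix.smul_mul, Matrix.mul_smul, Matrix.trace_smul,
    Matrix.trace_smul, smul_eq_mul, smul_eq_mul]
  push_cast
  ring

/-! ### the data -/

/-- the hypotheses of MASS-LE -/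
structure Dat (P : Part A) (u w χ : M → ℝ) (B C T₀ V E : ℝ) : Prop where
  hu : A.Sm u
  hw : A.Sm w
  hχ : A.Sm χ
  χ0 : ∀ x, 0 ≤ χ x
  χ1 : ∀ x, χ x ≤ 1
  pu : ∀ i, ∀ x ∈ (A.e i).source, (hsf A u i x).PosSemidef
  pw : ∀ i, ∀ x ∈ (A.e i).source, (hsf A w i x).PosSemidef
  u0 : ∀ x, u x ≤ 0
  cpt : ∀ T : ℝ, IsCompact {x | x ∈ tsupport χ ∧ -T ≤ u x}
  outw : ∀ x, χ x ≠ 1 → -B ≤ w x
  outu : ∀ x, χ x ≠ 1 → -B ≤ u x
  deep : ∀ L : ℝ, ∃ T : ℝ, ∀ x, u x < -T → w x < -L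
  C0 : 0 ≤ C
  grad : ∀ i, ∀ x ∈ (A.e i).source, u x < -T₀ →
    (grd (hsf A u) (fun y => (u y : ℂ)) (fun y => (u y : ℂ)) i x).re ≤
      C * (u x) ^ 2 * (mx A u u i x).re
  vol : ∀ ζ : M → ℝ, A.Sm ζ → (∀ x, 0 ≤ ζ x) → (∀ x, ζ x ≤ χ x) →
    (∃ K : Set M, IsCompact K ∧ ∀ x ∉ K, ζ x = 0) →
    (intD P (fun i x => (ζ x : ℂ) * mx A u u i x)).re ≤ V
  eng : ∀ ζ : M → ℝ, A.Sm ζ → (∀ x, 0 ≤ ζ x) → (∀ x, ζ x ≤ χ x) →
    (∃ K : Set M, IsCompact K ∧ ∀ x ∉ K, ζ x = 0) →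
    (intD P (fun i x => ((ζ x * Real.exp (w x - u x) : ℝ) : ℂ) * mx A u u i x)).re ≤ E

theorem smc {f : M → ℝ} (hf : A.Sm f) : Continuous f := by
  refine continuous_iff_continuousAt.2 fun x => ?_
  obtain ⟨i, hi⟩ := A.cover x
  have h1 : ContinuousAt (fun z => f ((A.e i).symm z)) (A.e i x) :=
    ((hf i).continuousOn).continuousAt ((A.e i).open_target.mem_nhds ((A.e i).map_source hi))
  have h2 : ContinuousAt (fun y => f ((A.e i).symm (A.e i y))) x :=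
    ContinuousAt.comp (f := A.e i) (g := fun z => f ((A.e i).symm z)) h1
      ((A.e i).continuousAt hi)
  refine h2.congr ?_
  filter_upwards [(A.e i).open_source.mem_nhds hi] with y hy
  rw [(A.e i).left_inv hy]

variable [T2Space M] {P : Part A} {u w χ : M → ℝ} {B C T₀ V E : ℝ}

/-- the pointwise inequality, in real numbers -/
theorem pt_ineq {q m g d dd K C C0 s X Y : ℝ} (q0 : 0 ≤ q) (m0 : 0 ≤ m) (g0 : 0 ≤ g) (d0 : 0 ≤ d)
    (d1 : d ≤ 1) (dd0 : 0 ≤ dd) (dd1 : dd ≤ C0 / K) (hK : 0 < K) (hC : 0 ≤ C) (hC0 : 0 ≤ C0)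
    (hg : g ≤ C * s ^ 2 * m) (hs : s ^ 2 ≤ 4 * K ^ 2) (h16 : 1 ≤ X * Y) :
    q * (d ^ 2 * m + 2 * d * dd * g) ≤ q * m + 8 * C * C0 * K * X * (q * Y * m) := by
  have e2 : d ^ 2 * m ≤ m := by
    have h1 : d ^ 2 ≤ 1 := by nlinarith
    nlinarith
  have hg2 : g ≤ C * (4 * K ^ 2) * m :=
    hg.trans (mul_le_mul_of_nonneg_right (mul_le_mul_of_nonneg_left hs hC) m0)
  have t1 : 2 * d * dd ≤ 2 * (C0 / K) := by
    have h1 : d * dd ≤ 1 * (C0 / K) := mul_le_mul d1 dd1 dd0 zero_le_one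
    linarith
  have t2 : 2 * d * dd * g ≤ 2 * (C0 / K) * (C * (4 * K ^ 2) * m) :=
    mul_le_mul t1 hg2 g0 (by positivity)
  have t3 : 2 * (C0 / K) * (C * (4 * K ^ 2) * m) = 8 * C * C0 * K * m := by
    field_simp
    ring
  have hm8 : 0 ≤ 8 * C * C0 * K * m := by positivity
  have t4 : 8 * C * C0 * K * m * 1 ≤ 8 * C * C0 * K * m * (X * Y) :=
    mul_le_mul_of_nonneg_left h16 hm8
  have t6 := mul_le_mul_of_nonneg_left (add_le_add e2 (t2.trans (t3.le.trans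
    ((mul_one _).ge.trans t4)))) q0
  calc q * (d ^ 2 * m + 2 * d * dd * g) ≤ q * (m + 8 * C * C0 * K * m * (X * Y)) := t6
    _ = _ := by ring

theorem pt_ineq0 {q m g d c Y : ℝ} (q0 : 0 ≤ q) (m0 : 0 ≤ m) (d0 : 0 ≤ d)
    (d1 : d ≤ 1) (hc : 0 ≤ c) (hY : 0 ≤ Y) :
    q * (d ^ 2 * m + 2 * d * 0 * g) ≤ q * m + c * (q * Y * m) := by
  have e2 : d ^ 2 * m ≤ m := by
    have h1 : d ^ 2 ≤ 1 := by nlinarith
    nlinarith
  have e3 : 0 ≤ c * (q * Y * m) := by positivity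
  have := mul_le_mul_of_nonneg_left e2 q0
  rw [mul_zero, zero_mul, add_zero]
  linarith

/-- the properties of the truncation `κ` at depth `K` -/
structure Kap (C0 K : ℝ) (κ : ℝ → ℝ) : Prop where
  k1 : ContDiff ℝ ∞ κ
  k2 : ∀ s, 0 ≤ deriv κ s
  k3 : ∀ s, deriv κ s ≤ 1
  k4 : ∀ s, 0 ≤ deriv (deriv κ) s
  k5 : ∀ s, deriv (deriv κ) s ≤ C0 / K
  k6 : ∀ s, deriv (deriv κ) s ≠ 0 → -(2 * K) ≤ s ∧ s ≤ -K
  k7 : ∀ s, s ≤ -(2 * K) → deriv κ s = 0
  k8 : ∀ s, -K ≤ s → κ s = s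
  k9 : ∀ s, s ≤ -(2 * K) → κ s = κ (-(2 * K))
  k10 : ∀ s, s ≤ κ s
  k11 : Monotone κ

theorem exists_Kap : ∃ C0 : ℝ, 0 ≤ C0 ∧ ∀ K : ℝ, 0 < K → ∃ κ : ℝ → ℝ, Kap C0 K κ := by
  obtain ⟨C0, hC0, h⟩ := exists_kap
  refine ⟨C0, hC0, fun K hK => ?_⟩
  obtain ⟨κ, k1, k2, k3, k4, k5, k6, k7, k8, k9, k10, k11⟩ := h K hK
  exact ⟨κ, k1, k2, k3, k4, k5, k6, k7, k8, k9, k10, k11⟩

/-- where the pointwise estimate of `(∂∂̄ κ(u))²` needs `e^{w-u}` -/
theorem deep_ineq {C0 K L ε B : ℝ} {κ lam : ℝ → ℝ} (hκ : Kap C0 K κ) (hl : Kap C0 L lam)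
    (hε0 : 0 < ε) (hε1 : ε < 1) (hL : 2 * K + B + 1 ≤ L) {s t : ℝ} (hs0 : s ≤ 0)
    (r1 : -(2 * K) ≤ s) (r2 : s ≤ -K) (h6 : -1 < lam t - ((1 - ε) * κ s - B)) :
    1 ≤ Real.exp (B + 1 - ε * K) * Real.exp (t - s) := by
  have h7 : s ≤ κ s := hκ.k10 _
  have h9 : (1 - ε) * s ≤ (1 - ε) * κ s := mul_le_mul_of_nonneg_left h7 (by linarith)
  have h8 : (1 - ε) * s - B - 1 < lam t := by linarith
  have h11 : -(2 * K) ≤ (1 - ε) * s := by nlinarith
  have h10 : -L < lam t := by linarith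
  have h12 : -L < t := by
    by_contra h
    have h13 := hl.k11 (not_lt.1 h)
    rw [hl.k8 (-L) le_rfl] at h13
    exact absurd h10 (not_lt.2 h13)
  have h14 : lam t = t := hl.k8 _ h12.le
  have h15 : ε * K - B - 1 ≤ t - s := by
    rw [h14] at h8
    nlinarith
  rw [← Real.exp_add]
  exact Real.one_le_exp (by linarith)

theorem pt_all {C0 K L ε B C T₀ c : ℝ} {κ lam : ℝ → ℝ} (hk : Kap C0 K κ) (hl : Kap C0 L lam)
    (hK0 : 0 < K) (hKT : T₀ < K) (hC : 0 ≤ C) (hC0 : 0 ≤ C0) (hε0 : 0 < ε) (hε1 : ε < 1)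
    (hL : 2 * K + B + 1 ≤ L) (hc : c = 8 * C * C0 * K * Real.exp (B + 1 - ε * K))
    {s t χ₀ q z m g : ℝ} (hs0 : s ≤ 0) (hχ1 : χ₀ ≤ 1)
    (hq : q = χ₀ - HH (lam t - ((1 - ε) * κ s - B))) (q0 : 0 ≤ q) (z0 : 0 ≤ z)
    (hz : -(2 * K) ≤ s → z = q) (m0 : 0 ≤ m) (g0 : 0 ≤ g) (hg : s < -T₀ → g ≤ C * s ^ 2 * m) :
    q * ((deriv κ s) ^ 2 * m + 2 * deriv κ s * deriv (deriv κ) s * g) ≤
      z * m + c * (z * Real.exp (t - s) * m) := by
  have hex : 0 ≤ Real.exp (t - s) := (Real.exp_pos _).le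
  have hc0 : 0 ≤ c := by
    rw [hc]
    positivity
  -- below `-2K` everything is constant
  by_cases hu2 : s < -(2 * K)
  · rw [hk.k7 _ hu2.le]
    have h3 : 0 ≤ z * m + c * (z * Real.exp (t - s) * m) := by positivity
    simpa using h3
  have hζq : z = q := hz (not_lt.1 hu2)
  rw [hζq]
  by_cases hdd : deriv (deriv κ) s = 0
  · rw [hdd]
    exact pt_ineq0 q0 m0 (hk.k2 _) (hk.k3 _) hc0 hex
  obtain ⟨r1, r2⟩ := hk.k6 _ hdd
  by_cases hq0 : q = 0
  · rw [hq0]; simp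
  -- `H < 1` here
  have hH1 : HH (lam t - ((1 - ε) * κ s - B)) ≠ 1 := by
    intro h
    apply hq0
    rw [hq, h]
    rw [hq, h] at q0
    linarith
  have h6 : -1 < lam t - ((1 - ε) * κ s - B) := by
    by_contra h
    exact hH1 (HH_one (not_lt.1 h))
  have h16 := deep_ineq hk hl hε0 hε1 hL hs0 r1 r2 h6
  have hg1 := hg (by linarith)
  have hs : s ^ 2 ≤ 4 * K ^ 2 := by nlinarith
  rw [hc]
  exact pt_ineq q0 m0 g0 (hk.k2 _) (hk.k3 _) (hk.k4 _) (hk.k5 _) hK0 hC hC0 hg1 hs h16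

/-- the estimate at finite truncation -/
theorem main_est (D : Dat P u w χ B C T₀ V E) {C0 : ℝ} (hC0 : 0 ≤ C0) {K ε : ℝ} (hε0 : 0 < ε)
    (hε1 : ε < 1) (hK0 : 0 < K) (hKB : B < K) (hKT : T₀ < K)
    (hκ : ∀ K : ℝ, 0 < K → ∃ κ : ℝ → ℝ, Kap C0 K κ) :
    (1 - ε) ^ 2 * ((intD P (fun i x => (u x : ℂ) * mx A u χ i x)).re - V -
      (8 * C * C0 * K * Real.exp (B + 1 - ε * K)) * E) ≤
      (intD P (fun i x => (w x : ℂ) * mx A w χ i x)).re := by
  obtain ⟨κ, hk⟩ := hκ K hK0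
  obtain ⟨L, hL⟩ : ∃ L : ℝ, L = 2 * K + |B| + 2 := ⟨_, rfl⟩
  have hB := abs_nonneg B
  have hB' := le_abs_self B
  have hL0 : 0 < L := by rw [hL]; positivity
  have hLB : B < L := by linarith
  obtain ⟨lam, hl⟩ := hκ L hL0
  obtain ⟨T₁, hT₁⟩ := D.deep (2 * L)
  obtain ⟨T, hT⟩ : ∃ T : ℝ, T = max T₁ (3 * K) := ⟨_, rfl⟩
  have hTK : 3 * K ≤ T := hT ▸ le_max_right _ _
  have hTT : T₁ ≤ T := hT ▸ le_max_left _ _
  obtain ⟨uK, huK⟩ : ∃ f : M → ℝ, f = fun x => κ (u x) := ⟨_, rfl⟩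
  obtain ⟨wL, hwL⟩ : ∃ f : M → ℝ, f = fun x => lam (w x) := ⟨_, rfl⟩
  have euK : ∀ x, uK x = κ (u x) := fun x => by rw [huK]
  have ewL : ∀ x, wL x = lam (w x) := fun x => by rw [hwL]
  have suK : A.Sm uK := by rw [huK]; exact sm_comp hk.k1 D.hu
  have swL : A.Sm wL := by rw [hwL]; exact sm_comp hl.k1 D.hw
  obtain ⟨a, ha⟩ : ∃ f : M → ℝ, f = fun x => (1 - ε) * uK x - B := ⟨_, rfl⟩
  have ea : ∀ x, a x = (1 - ε) * uK x - B := fun x => by rw [ha]
  have sa : A.Sm a := by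
    rw [ha]
    exact sm_comp (κ := fun s => (1 - ε) * s - B)
      ((contDiff_const.mul contDiff_id).sub contDiff_const) suK
  obtain ⟨Kc, hKc⟩ : ∃ S : Set M, S = {x | x ∈ tsupport χ ∧ -T ≤ u x} := ⟨_, rfl⟩
  have cKc : IsCompact Kc := hKc ▸ D.cpt T
  have cu : Continuous u := smc D.hu
  have cw : Continuous w := smc D.hw
  -- psh
  have puK : ∀ i, ∀ x ∈ (A.e i).source, (hsf A uK i x).PosSemidef := fun i x hx => by
    rw [huK]; exact psd_comp hk.k1 hk.k2 hk.k4 D.hu hx (D.pu i x hx)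
  have pwL : ∀ i, ∀ x ∈ (A.e i).source, (hsf A wL i x).PosSemidef := fun i x hx => by
    rw [hwL]; exact psd_comp hl.k1 hl.k2 hl.k4 D.hw hx (D.pw i x hx)
  have pa : ∀ i, ∀ x ∈ (A.e i).source, (hsf A a i x).PosSemidef := by
    intro i x hx
    rw [ha, hsf_affine (A := A) (1 - ε) B suK hx]
    exact (puK i x hx).smul (by exact_mod_cast (by linarith : (0 : ℝ) ≤ 1 - ε))
  -- `κ ≤ 0` on `(-∞, 0]`
  have κ0 : ∀ x, uK x ≤ 0 := by
    intro x
    have h1 : κ 0 = 0 := hk.k8 0 (by linarith)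
    have h2 := hk.k11 (D.u0 x)
    rw [h1] at h2
    rw [euK]
    exact h2
  -- outside
  have hout : ∀ x, χ x ≠ 1 → 0 ≤ wL x - a x := by
    intro x hx
    have h1 := D.outw x hx
    have h2 : w x ≤ wL x := by rw [ewL]; exact hl.k10 (w x)
    have h3 : (1 - ε) * uK x ≤ 0 := mul_nonpos_of_nonneg_of_nonpos (by linarith) (κ0 x)
    rw [ea]
    linarith
  have hHχ : ∀ x, HH (wL x - a x) ≤ χ x := by
    intro x
    by_cases hx : χ x = 1
    · rw [hx]; exact HH_le_one _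
    · rw [HH_zero (hout x hx)]; exact D.χ0 x
  -- off `Kc`
  have off : ∀ x ∉ Kc, (χ =ᶠ[𝓝 x] fun _ => 0) ∨
      ((χ =ᶠ[𝓝 x] fun _ => 1) ∧ (∀ᶠ y in 𝓝 x, u y < -T)) := by
    intro x hx
    by_cases h1 : x ∈ tsupport χ
    · right
      have h2 : u x < -T := by
        by_contra h
        exact hx (by rw [hKc]; exact ⟨h1, not_lt.1 h⟩)
      have h3 : ∀ᶠ y in 𝓝 x, u y < -T := cu.continuousAt.eventually (gt_mem_nhds h2)
      refine ⟨?_, h3⟩
      filter_upwards [h3] with y hy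
      by_contra h4
      have := D.outu y h4
      linarith
    · left
      exact notMem_tsupport_iff_eventuallyEq.1 h1
  have uKc : ∀ {x : M}, (∀ᶠ y in 𝓝 x, u y < -T) → uK =ᶠ[𝓝 x] fun _ => κ (-(2 * K)) := by
    intro x h
    filter_upwards [h] with y hy
    rw [euK]
    exact hk.k9 _ (by linarith)
  have wLc : ∀ {x : M}, (∀ᶠ y in 𝓝 x, u y < -T) → wL =ᶠ[𝓝 x] fun _ => lam (-(2 * L)) := by
    intro x h
    filter_upwards [h] with y hy
    rw [ewL]
    refine hl.k9 _ ?_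
    exact (hT₁ y (by linarith)).le
  have ac : ∀ {x : M}, (∀ᶠ y in 𝓝 x, u y < -T) →
      a =ᶠ[𝓝 x] fun _ => (1 - ε) * κ (-(2 * K)) - B := by
    intro x h
    filter_upwards [uKc h] with y hy
    rw [ea, hy]
  -- comparison
  have hcomp := comparison P sa swL pa pwL HH_contDiff deriv_HH cKc
    (fun x hx => by
      rcases off x hx with h | ⟨_, h⟩
      · left
        filter_upwards [h] with y hy
        exact HH_zero (hout y (by rw [hy]; norm_num))
      · right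
        refine ⟨lam (-(2 * L)) - ((1 - ε) * κ (-(2 * K)) - B), ?_⟩
        filter_upwards [wLc h, ac h] with y hy hy'
        rw [hy, hy'])
    (fun x hx => by
      rcases off x hx with h | ⟨_, h⟩
      · left
        exact HH_zero (hout x (by rw [h.self_of_nhds]; norm_num))
      · right
        exact ⟨⟨_, ac h⟩, ⟨_, wLc h⟩⟩)
  have sφ : A.Sm (fun x => wL x - a x) := fun i => (swL i).sub (sa i)
  have sHφ : A.Sm (fun x => HH (wL x - a x)) := sm_comp HH_contDiff sφ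
  -- the densities vanish off `Kc`
  have oK : ∀ {g : M → ℝ} {b : M → ℝ} {c : ℝ}, (∀ x, (χ =ᶠ[𝓝 x] fun _ => 0) → g x = 0) →
      (∀ {x : M}, (∀ᶠ y in 𝓝 x, u y < -T) → b =ᶠ[𝓝 x] fun _ => c) →
      OffK A (fun i x => (g x : ℂ) * mx A b b i x) Kc := by
    intro g b c h1 h2 i x hxi hxK
    show (g x : ℂ) * mx A b b i x = 0
    rcases off x hxK with h | ⟨_, h⟩
    · rw [h1 x h]; simp
    · rw [mx_evconst hxi (h2 h), mul_zero]
  have gχ : ∀ x, (χ =ᶠ[𝓝 x] fun _ => 0) → χ x = 0 := fun x h => h.self_of_nhds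
  have gH : ∀ x, (χ =ᶠ[𝓝 x] fun _ => 0) → HH (wL x - a x) = 0 := fun x h =>
    HH_zero (hout x (by rw [h.self_of_nhds]; norm_num))
  -- step (i)
  have s1 : (intD P (fun i x => (HH (wL x - a x) : ℂ) * mx A wL wL i x)).re ≤
      (intD P (fun i x => (χ x : ℂ) * mx A wL wL i x)).re := by
    refine intD_re_mono P (den_mul sHφ (den_mx swL swL)) (den_mul D.hχ (den_mx swL swL))
      (fun i x hx => ?_) cKc (oK gH wLc) (oK gχ wLc)
    rw [Complex.re_ofReal_mul, Complex.re_ofReal_mul]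
    exact mul_le_mul_of_nonneg_right (hHχ x) (mx_self_nonneg (pwL i x hx))
  -- step (ii)
  have s2 : (intD P (fun i x => (χ x : ℂ) * mx A wL wL i x)).re =
      (intD P (fun i x => (w x : ℂ) * mx A w χ i x)).re := by
    refine tot_trunc P swL D.hχ cKc (fun x hx => ?_) (fun x hx => ?_) fun x => ?_
    · rcases off x hx with h | ⟨_, h⟩
      · exact Or.inl h
      · exact Or.inr ⟨_, wLc h⟩
    · rcases off x hx with h | ⟨h, _⟩
      · exact ⟨_, h⟩
      · exact ⟨_, h⟩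
    · by_cases h : -L < w x
      · right
        filter_upwards [cw.continuousAt.eventually (lt_mem_nhds h)] with y hy
        rw [ewL]
        exact hl.k8 _ hy.le
      · left
        refine ⟨1, ?_⟩
        have h2 : w x < -B := by linarith [not_lt.1 h]
        filter_upwards [cw.continuousAt.eventually (gt_mem_nhds h2)] with y hy
        by_contra h3
        linarith [D.outw y h3]
  -- step (iii)
  have s3 : (intD P (fun i x => (HH (wL x - a x) : ℂ) * mx A a a i x)).re =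
      (1 - ε) ^ 2 * (intD P (fun i x => (HH (wL x - a x) : ℂ) * mx A uK uK i x)).re := by
    rw [← Complex.re_ofReal_mul, ← intD_smul P (((1 - ε) ^ 2 : ℝ) : ℂ) cKc (oK gH uKc)]
    congr 1
    refine intD_congr P fun i x hx => ?_
    have e : mx A a a i x = (((1 - ε) ^ 2 : ℝ) : ℂ) * mx A uK uK i x := by
      rw [ha]; exact mx_affine (A := A) (1 - ε) B suK hx
    rw [e]
    ring
  -- step (iv)
  have s4 : (intD P (fun i x => (χ x : ℂ) * mx A uK uK i x)).re =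
      (intD P (fun i x => (u x : ℂ) * mx A u χ i x)).re := by
    refine tot_trunc P suK D.hχ cKc (fun x hx => ?_) (fun x hx => ?_) fun x => ?_
    · rcases off x hx with h | ⟨_, h⟩
      · exact Or.inl h
      · exact Or.inr ⟨_, uKc h⟩
    · rcases off x hx with h | ⟨h, _⟩
      · exact ⟨_, h⟩
      · exact ⟨_, h⟩
    · by_cases h : -K < u x
      · right
        filter_upwards [cu.continuousAt.eventually (lt_mem_nhds h)] with y hy
        rw [euK]
        exact hk.k8 _ hy.le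
      · left
        refine ⟨1, ?_⟩
        have h2 : u x < -B := by linarith [not_lt.1 h]
        filter_upwards [cu.continuousAt.eventually (gt_mem_nhds h2)] with y hy
        by_contra h3
        linarith [D.outu y h3]
  -- the function `χ - H`
  obtain ⟨q, hq⟩ : ∃ f : M → ℝ, f = fun x => χ x - HH (wL x - a x) := ⟨_, rfl⟩
  have eq : ∀ x, q x = χ x - HH (wL x - a x) := fun x => by rw [hq]
  have sq : A.Sm q := by rw [hq]; exact fun i => (D.hχ i).sub (sHφ i)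
  have gq : ∀ x, (χ =ᶠ[𝓝 x] fun _ => 0) → q x = 0 := fun x h => by
    rw [eq, gχ x h, gH x h, sub_zero]
  have s5 : (intD P (fun i x => (χ x : ℂ) * mx A uK uK i x)).re =
      (intD P (fun i x => (HH (wL x - a x) : ℂ) * mx A uK uK i x)).re +
        (intD P (fun i x => (q x : ℂ) * mx A uK uK i x)).re := by
    rw [← Complex.add_re, ← intD_add P (den_mul sHφ (den_mx suK suK)).sm
      (den_mul sq (den_mx suK suK)).sm cKc (oK gH uKc) (oK gq uKc)]
    congr 1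
    refine intD_congr P fun i x hx => ?_
    rw [eq]
    push_cast
    ring
  -- the cut-off at depth `3 K`
  obtain ⟨θ, hθ⟩ : ∃ f : ℝ → ℝ, f = fun s => St (s / K + 3) := ⟨_, rfl⟩
  have hθs : ContDiff ℝ ∞ θ := by
    rw [hθ]; exact St_contDiff.comp ((contDiff_id.div_const K).add contDiff_const)
  have θ0 : ∀ s, 0 ≤ θ s := fun s => by rw [hθ]; exact Real.smoothTransition.nonneg _
  have θ1 : ∀ s, θ s ≤ 1 := fun s => by rw [hθ]; exact Real.smoothTransition.le_one _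
  have θone : ∀ s, -(2 * K) ≤ s → θ s = 1 := by
    intro s hs
    have h2 : -2 ≤ s / K := by rw [le_div_iff₀ hK0]; linarith
    rw [hθ]
    exact Real.smoothTransition.one_of_one_le (by linarith)
  have θzero : ∀ s, s ≤ -(3 * K) → θ s = 0 := by
    intro s hs
    have h2 : s / K ≤ -3 := by rw [div_le_iff₀ hK0]; linarith
    rw [hθ]
    exact Real.smoothTransition.zero_of_nonpos (by linarith)
  obtain ⟨ζ, hζ⟩ : ∃ f : M → ℝ, f = fun x => q x * θ (u x) := ⟨_, rfl⟩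
  have eζ : ∀ x, ζ x = q x * θ (u x) := fun x => by rw [hζ]
  have sζ : A.Sm ζ := by rw [hζ]; exact fun i => (sq i).mul (sm_comp hθs D.hu i)
  have q0 : ∀ x, 0 ≤ q x := fun x => by rw [eq]; exact sub_nonneg.2 (hHχ x)
  have qχ : ∀ x, q x ≤ χ x := fun x => by
    rw [eq]; linarith [HH_nonneg (wL x - a x)]
  have ζ0 : ∀ x, 0 ≤ ζ x := fun x => by rw [eζ]; exact mul_nonneg (q0 x) (θ0 _)
  have ζχ : ∀ x, ζ x ≤ χ x := fun x => by
    rw [eζ]; exact (mul_le_of_le_one_right (q0 x) (θ1 _)).trans (qχ x)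
  have ζK : ∀ x ∉ Kc, ζ x = 0 := by
    intro x hx
    rcases off x hx with h | ⟨_, h⟩
    · rw [eζ, gq x h, zero_mul]
    · have h2 := h.self_of_nhds
      rw [eζ, θzero (u x) (by linarith), mul_zero]
  have v1 := D.vol ζ sζ ζ0 ζχ ⟨Kc, cKc, ζK⟩
  have v2 := D.eng ζ sζ ζ0 ζχ ⟨Kc, cKc, ζK⟩
  obtain ⟨c, hc⟩ : ∃ c : ℝ, c = 8 * C * C0 * K * Real.exp (B + 1 - ε * K) := ⟨_, rfl⟩
  have hc0 : 0 ≤ c := by
    have := D.C0
    rw [hc]
    positivity
  have sexp : A.Sm (fun x => ζ x * Real.exp (w x - u x)) := fun i =>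
    (sζ i).mul (Real.contDiff_exp.comp_contDiffOn ((D.hw i).sub (D.hu i)))
  have oζ : OffK A (fun i x => (ζ x : ℂ) * mx A u u i x) Kc := by
    intro i x _ hxK
    show (ζ x : ℂ) * mx A u u i x = 0
    rw [ζK x hxK]; simp
  have oe : OffK A (fun i x => ((ζ x * Real.exp (w x - u x) : ℝ) : ℂ) * mx A u u i x) Kc := by
    intro i x _ hxK
    show ((ζ x * Real.exp (w x - u x) : ℝ) : ℂ) * mx A u u i x = 0
    rw [ζK x hxK]; simp
  have dζ := den_mul sζ (den_mx D.hu D.hu)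
  have de := den_mul sexp (den_mx D.hu D.hu)
  have oce : OffK A (fun i x => (c : ℂ) *
      (((ζ x * Real.exp (w x - u x) : ℝ) : ℂ) * mx A u u i x)) Kc := oe.mul_left fun _ _ => (c : ℂ)
  have pt : ∀ i, ∀ x ∈ (A.e i).source, q x * (mx A uK uK i x).re ≤
      ζ x * (mx A u u i x).re + c * (ζ x * Real.exp (w x - u x) * (mx A u u i x).re) := by
    intro i x hx
    have m0 := mx_self_nonneg (D.pu i x hx)
    have g0 := grd_re_nonneg (D.pu i x hx)
    have e1 : (mx A uK uK i x).re = (deriv κ (u x)) ^ 2 * (mx A u u i x).re +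
        2 * deriv κ (u x) * deriv (deriv κ) (u x) *
          (grd (hsf A u) (fun y => (u y : ℂ)) (fun y => (u y : ℂ)) i x).re := by
      rw [huK]; exact mx_comp_re (A := A) hk.k1 D.hu hx
    rw [e1]
    exact pt_all hk hl hK0 hKT D.C0 hC0 hε0 hε1 (by linarith) hc (D.u0 x) (D.χ1 x)
      (by rw [eq, ewL, ea, euK]) (q0 x) (ζ0 x)
      (fun h => by rw [eζ, θone _ h, mul_one]) m0 g0 (fun h => D.grad i x hx h)
  have s6 : (intD P (fun i x => (q x : ℂ) * mx A uK uK i x)).re ≤ V + c * E := by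
    have h1 : (intD P (fun i x => (q x : ℂ) * mx A uK uK i x)).re ≤
        (intD P (fun i x => (ζ x : ℂ) * mx A u u i x + (c : ℂ) *
          (((ζ x * Real.exp (w x - u x) : ℝ) : ℂ) * mx A u u i x))).re := by
      refine intD_re_mono P (den_mul sq (den_mx suK suK)) (dζ.add (de.smul (c : ℂ)))
        (fun i x hx => ?_) cKc (oK gq uKc) (oζ.add oce)
      rw [Complex.re_ofReal_mul, Complex.add_re, Complex.re_ofReal_mul, Complex.re_ofReal_mul,
        Complex.re_ofReal_mul]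
      exact pt i x hx
    have h2 := intD_add P (f := fun i x => (ζ x : ℂ) * mx A u u i x) (g := fun i x => (c : ℂ) *
      (((ζ x * Real.exp (w x - u x) : ℝ) : ℂ) * mx A u u i x)) dζ.sm (de.smul (c : ℂ)).sm cKc oζ oce
    rw [h2, intD_smul P (c : ℂ) cKc oe, Complex.add_re, Complex.re_ofReal_mul] at h1
    have h3 := mul_le_mul_of_nonneg_left v2 hc0
    linarith
  -- conclusion
  have s7 : (intD P (fun i x => (u x : ℂ) * mx A u χ i x)).re - V - c * E ≤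
      (intD P (fun i x => (HH (wL x - a x) : ℂ) * mx A uK uK i x)).re := by
    rw [← s4, s5]
    linarith
  have s8 := mul_le_mul_of_nonneg_left s7 (sq_nonneg (1 - ε))
  rw [← hc]
  calc _ ≤ _ := s8
    _ = _ := s3.symm
    _ ≤ _ := hcomp
    _ ≤ _ := s1
    _ = _ := s2

/-- **MASS-LE** -/
theorem mass_le (D : Dat P u w χ B C T₀ V E) :
    (intD P (fun i x => (u x : ℂ) * mx A u χ i x)).re ≤
      (intD P (fun i x => (w x : ℂ) * mx A w χ i x)).re + V := by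
  obtain ⟨C0, hC0, hκ⟩ := exists_Kap
  obtain ⟨Tu, hTu⟩ : ∃ T : ℝ, T = (intD P (fun i x => (u x : ℂ) * mx A u χ i x)).re := ⟨_, rfl⟩
  obtain ⟨Tw, hTw⟩ : ∃ T : ℝ, T = (intD P (fun i x => (w x : ℂ) * mx A w χ i x)).re := ⟨_, rfl⟩
  have key : ∀ ε : ℝ, 0 < ε → ε < 1 → ∀ K : ℝ, 0 < K → B < K → T₀ < K → (1 - ε) ^ 2 * (Tu - V -
      (8 * C * C0 * K * Real.exp (B + 1 - ε * K)) * E) ≤ Tw := by
    intro ε hε0 hε1 K hK0 hKB hKT
    rw [hTu, hTw]
    exact main_est D hC0 hε0 hε1 hK0 hKB hKT hκ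
  rw [← hTu, ← hTw]
  -- `K → ∞`
  have h1 : ∀ ε : ℝ, 0 < ε → ε < 1 → (1 - ε) ^ 2 * (Tu - V) ≤ Tw := by
    intro ε hε0 hε1
    have ht : Tendsto (fun K : ℝ => (1 - ε) ^ 2 * (Tu - V -
        (8 * C * C0 * K * Real.exp (B + 1 - ε * K)) * E)) atTop (𝓝 ((1 - ε) ^ 2 * (Tu - V - 0))) := by
      refine Tendsto.const_mul _ (Tendsto.const_sub _ ?_)
      have h2 : Tendsto (fun K : ℝ => K ^ 1 * Real.exp (-ε * K)) atTop (𝓝 0) := by
        have h4 := (Real.tendsto_pow_mul_exp_neg_atTop_nhds_zero 1).comp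
          (tendsto_id.const_mul_atTop hε0)
        have h5 := h4.const_mul ε⁻¹
        rw [mul_zero] at h5
        refine h5.congr fun K => ?_
        simp only [Function.comp, id]
        have : -(ε * K) = -ε * K := by ring
        rw [this]
        field_simp
      have h3 : (fun K : ℝ => (8 * C * C0 * K * Real.exp (B + 1 - ε * K)) * E) =
          fun K : ℝ => (8 * C * C0 * Real.exp (B + 1) * E) * (K ^ 1 * Real.exp (-ε * K)) := by
        funext K
        have : Real.exp (B + 1 - ε * K) = Real.exp (B + 1) * Real.exp (-ε * K) := by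
          rw [← Real.exp_add]; congr 1; ring
        rw [this]; ring
      rw [h3]
      simpa using h2.const_mul (8 * C * C0 * Real.exp (B + 1) * E)
    rw [sub_zero] at ht
    refine le_of_tendsto ht ?_
    filter_upwards [eventually_gt_atTop (0 : ℝ), eventually_gt_atTop B, eventually_gt_atTop T₀]
      with K hK0 hKB hKT
    exact key ε hε0 hε1 K hK0 hKB hKT
  -- `ε → 0`
  have h2 : Tendsto (fun ε : ℝ => (1 - ε) ^ 2 * (Tu - V)) (𝓝[>] 0) (𝓝 ((1 - 0) ^ 2 * (Tu - V))) := by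
    have : Continuous fun ε : ℝ => (1 - ε) ^ 2 * (Tu - V) := by fun_prop
    exact (this.tendsto 0).mono_left nhdsWithin_le_nhds
  have h3 : (1 - 0) ^ 2 * (Tu - V) ≤ Tw := by
    refine le_of_tendsto h2 ?_
    filter_upwards [Ioo_mem_nhdsGT (show (0 : ℝ) < 1 by norm_num)] with ε hε
    exact h1 ε hε.1 hε.2
  linarith

omit [T2Space M] in
/-- `mx` is helper625's polarised determinant -/
theorem mx_eq_pd (a b : M → ℝ) (i : A.ι) (x : M) :
    mx A a b i x = C2F1_625.pd (hsf A a i x) (hsf A b i x) := by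
  unfold mx C2F1_625.pd
  rw [Matrix.adjugate_fin_two]
  simp only [Matrix.trace_fin_two, Matrix.mul_apply, Fin.sum_univ_two, Matrix.of_apply,
    Matrix.cons_val', Matrix.cons_val_zero, Matrix.cons_val_one, Matrix.cons_val_fin_one]
  ring

/-- **MASS-LE**, with `pd` -/
theorem mass_le_pd (D : Dat P u w χ B C T₀ V E) :
    (intD P (fun i x => (u x : ℂ) * C2F1_625.pd (hsf A u i x) (hsf A χ i x))).re ≤
      (intD P (fun i x => (w x : ℂ) * C2F1_625.pd (hsf A w i x) (hsf A χ i x))).re + V := by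
  have h := mass_le D
  simp only [mx_eq_pd] at h
  exact h

end

end Crest.Agent.R257.MassLe218
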