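import Crest.Agent.R273.FIa0_597
import Crest.Agent.R273.FS_333
import Crest.Agent.R257.C2F1_625
import Mathlib.MeasureTheory.Measure.Lebesgue.VolumeOfBalls

/-!
# R257 (S0395), leaf MASS-M3 (helper5), part 2: the constant on `ℂ²`

* `U0 z = ‖z‖²`, `hess_rad` : Hessian of a radial function
* `pd_rad`, `pd_log_self` : polarised determinants
* `const_int` : `∫ log ‖y‖² pd (hess log ‖y‖²) (hess ϑ(‖y‖²)) = π²`
-/

set_option autoImplicit false
set_option linter.unusedSectionVars false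

open Set Filter Topology Complex MeasureTheory
open scoped ContDiff Matrix ComplexConjugate ComplexOrder

namespace Crest.Agent.R257.DegC_5

open Crest.Agent.R275 Crest.Agent.R275.Geo Crest.Agent.R275.Core144 Crest.Agent.R275.EDR890
open Crest.Agent.R275.C1d194
open Crest.Agent.R273.Defs_333 Crest.Agent.R273.Hess_333 Crest.Agent.R273.HessB_333
open Crest.Agent.R273 Crest.Agent.R273.FS_333 Crest.Agent.R273.FIa0_597
open Crest.Agent.R257.C2F1_625

noncomputable section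

variable {n : ℕ}

/-- `‖z‖²` -/
def U0 (z : Cn n) : ℝ := ‖z‖ ^ 2

theorem U0_eq : (U0 : Cn n → ℝ) = sq (fun z k => z k) := by
  funext z
  rw [U0, EuclideanSpace.norm_sq_eq]
  rfl

theorem coord_diff (k : Fin n) : DifferentiableOn ℂ (fun z : Cn n => z k) univ :=
  (EuclideanSpace.proj k : Cn n →L[ℂ] ℂ).differentiable.differentiableOn

theorem fderiv_coord (k a : Fin n) (z : Cn n) :
    fderiv ℂ (fun z : Cn n => z k) z (EuclideanSpace.single a 1) = if a = k then 1 else 0 := by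
  have h : HasFDerivAt (fun z : Cn n => z k) (EuclideanSpace.proj k : Cn n →L[ℂ] ℂ) z :=
    (EuclideanSpace.proj k : Cn n →L[ℂ] ℂ).hasFDerivAt
  rw [h.fderiv]
  simp [PiLp.single_apply, eq_comm]

theorem U0_smooth : ContDiff ℝ ∞ (U0 : Cn n → ℝ) := contDiff_id.norm_sq ℝ

theorem hess_U0 (z : Cn n) (a b : Fin n) : hess U0 z a b = if a = b then 1 else 0 := by
  rw [U0_eq, hess_sq isOpen_univ coord_diff (mem_univ z)]
  simp only [fderiv_coord]
  rw [Finset.sum_eq_single b]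
  · by_cases h : a = b <;> simp [h]
  · intro k _ hk
    rw [if_neg (fun h : b = k => hk h.symm)]
    simp
  · intro h; exact absurd (Finset.mem_univ _) h

theorem wd_U0 (z : Cn n) (b : Fin n) : wd (true, b) (cu U0) z = z b := by
  rw [U0_eq, wd_sq isOpen_univ coord_diff (mem_univ z)]
  simp only [fderiv_coord]
  rw [Finset.sum_eq_single b]
  · simp
  · intro k _ hk
    rw [if_neg (fun h : b = k => hk h.symm)]
    simp
  · intro h; exact absurd (Finset.mem_univ _) h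

theorem wd_U0' (z : Cn n) (a : Fin n) : wd (false, a) (cu U0) z = conj (z a) := by
  rw [U0_eq, wd_sq' isOpen_univ coord_diff (mem_univ z)]
  simp only [fderiv_coord]
  rw [Finset.sum_eq_single a]
  · simp
  · intro k _ hk
    rw [if_neg (fun h : a = k => hk h.symm)]
    simp
  · intro h; exact absurd (Finset.mem_univ _) h

/-- Hessian of a radial function -/
theorem hess_rad {φ φ' : ℝ → ℝ} {d2 : ℝ} {z : Cn n}
    (h1 : ∀ᶠ s in 𝓝 (U0 z), HasDerivAt φ (φ' s) s) (h2 : HasDerivAt φ' d2 (U0 z)) (a b : Fin n) :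
    hess (fun w => φ (U0 w)) z a b =
      (φ' (U0 z) : ℂ) * (if a = b then 1 else 0) + (d2 : ℂ) * (conj (z a) * z b) := by
  rw [hess_comp_real U0_smooth.contDiffAt h1 h2, hess_U0, wd_U0, wd_U0']

/-- `log ‖z‖²` -/
def W0 (z : Cn n) : ℝ := Real.log (U0 z)

theorem U0_pos {z : Cn n} (hz : z ≠ 0) : 0 < U0 z := by
  have := norm_pos_iff.2 hz
  unfold U0
  positivity

theorem hess_W0 {z : Cn n} (hz : z ≠ 0) (a b : Fin n) :
    hess W0 z a b = ((U0 z)⁻¹ : ℝ) * (if a = b then 1 else 0) +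
      ((-((U0 z) ^ 2)⁻¹ : ℝ) : ℂ) * (conj (z a) * z b) := by
  have h0 := U0_pos hz
  have h1 : ∀ᶠ s in 𝓝 (U0 z), HasDerivAt Real.log (s⁻¹) s := by
    filter_upwards [lt_mem_nhds h0] with s hs
    exact Real.hasDerivAt_log hs.ne'
  exact hess_rad (φ := Real.log) h1 (hasDerivAt_inv h0.ne') a b

theorem U0_two (z : Cn 2) : ((U0 z : ℝ) : ℂ) = conj (z 0) * z 0 + conj (z 1) * z 1 := by
  rw [U0_eq]
  simp only [FS_333.sq, Fin.sum_univ_two, ofReal_add, ← Complex.normSq_eq_norm_sq,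
    Complex.normSq_eq_conj_mul_self]

/-- `X = α + β z̄ z` -/
theorem pd_form {X Y : Matrix (Fin 2) (Fin 2) ℂ} {z : Cn 2} {α β γ κ : ℂ}
    (hX : ∀ a b, X a b = α * (if a = b then 1 else 0) + β * (conj (z a) * z b))
    (hY : ∀ a b, Y a b = γ * (if a = b then 1 else 0) + κ * (conj (z a) * z b)) :
    pd X Y = 2 * α * γ + (U0 z : ℂ) * (α * κ + β * γ) := by
  rw [U0_two]
  simp only [pd, hX, hY]
  simp only [if_true, Fin.isValue, zero_ne_one, one_ne_zero, if_false]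
  ring

theorem pd_rad {ϑ ϑ' : ℝ → ℝ} {d2 : ℝ} {z : Cn 2} (hz : z ≠ 0)
    (h1 : ∀ᶠ s in 𝓝 (U0 z), HasDerivAt ϑ (ϑ' s) s) (h2 : HasDerivAt ϑ' d2 (U0 z)) :
    pd (hess W0 z) (hess (fun w => ϑ (U0 w)) z) =
      (((ϑ' (U0 z) + U0 z * d2) / U0 z : ℝ) : ℂ) := by
  rw [pd_form (hess_W0 hz) (hess_rad h1 h2)]
  have h0 : ((U0 z : ℝ) : ℂ) ≠ 0 := by exact_mod_cast (U0_pos hz).ne'
  push_cast
  field_simp
  ring

theorem pd_log_self {z : Cn 2} (hz : z ≠ 0) : pd (hess W0 z) (hess W0 z) = 0 := by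
  rw [pd_form (hess_W0 hz) (hess_W0 hz)]
  have h0 : ((U0 z : ℝ) : ℂ) ≠ 0 := by exact_mod_cast (U0_pos hz).ne'
  push_cast
  field_simp
  ring

theorem W0_smooth {z : Cn n} (hz : z ≠ 0) : ContDiffAt ℝ ∞ W0 z :=
  U0_smooth.contDiffAt.log (U0_pos hz).ne'

/-! ### the integral -/

theorem U0_cc (x : RI n → ℝ) : U0 (cc x : Cn n) = ∑ p, x p ^ 2 := by
  rw [U0, EuclideanSpace.norm_sq_eq, Fintype.sum_prod_type]
  refine Finset.sum_congr rfl fun a _ => ?_
  rw [cc_apply, Fin.sum_univ_two, ← Complex.normSq_eq_norm_sq, Complex.normSq_add_mul_I]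

theorem integral_rad (f : ℝ → ℝ) : ∫ x : RI 2 → ℝ, f (U0 (cc x : Cn 2)) =
    2 * Real.pi ^ 2 * ∫ r in Ioi (0 : ℝ), r ^ 3 * f (r ^ 2) := by
  have h1 : ∫ x : RI 2 → ℝ, f (U0 (cc x : Cn 2)) =
      ∫ x : EuclideanSpace ℝ (RI 2), f (‖x‖ ^ 2) := by
    rw [← (PiLp.volume_preserving_toLp (RI 2)).integral_comp
      (MeasurableEquiv.toLp 2 (RI 2 → ℝ)).measurableEmbedding]
    refine integral_congr_ae (Eventually.of_forall fun x => ?_)
    show f (U0 (cc x : Cn 2)) = f (‖(WithLp.toLp 2 x : EuclideanSpace ℝ (RI 2))‖ ^ 2)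
    rw [U0_cc, EuclideanSpace.norm_sq_eq]
    simp
  rw [h1, integral_fun_norm_addHaar (volume : Measure (EuclideanSpace ℝ (RI 2)))
    (fun r => f (r ^ 2))]
  have h2 : Module.finrank ℝ (EuclideanSpace ℝ (RI 2)) = 4 := by
    rw [finrank_euclideanSpace]
    simp [RI]
  have h3 : (volume : Measure (EuclideanSpace ℝ (RI 2))).real (Metric.ball 0 1) =
      Real.pi ^ 2 / 2 := by
    rw [Measure.real, EuclideanSpace.volume_ball]
    have e1 : Fintype.card (RI 2) = 4 := by simp [RI]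
    rw [e1]
    have e2 : Real.Gamma ((4 : ℕ) / 2 + 1) = 2 := by
      have : ((4 : ℕ) : ℝ) / 2 + 1 = (2 : ℕ) + 1 := by norm_num
      rw [this, Real.Gamma_nat_eq_factorial]
      norm_num
    rw [e2]
    have e3 : √Real.pi ^ 4 = Real.pi ^ 2 := by
      have : √Real.pi ^ 4 = (√Real.pi ^ 2) ^ 2 := by ring
      rw [this, Real.sq_sqrt Real.pi_pos.le]
    rw [e3]
    simp only [ENNReal.ofReal_one, one_pow, one_mul]
    exact ENNReal.toReal_ofReal (by positivity)
  rw [h2, h3]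
  simp only [smul_eq_mul, nsmul_eq_mul]
  push_cast
  ring

/-- the constant -/
theorem const_rad {ϑ ϑ' ϑ'' : ℝ → ℝ} (h1 : ∀ s, HasDerivAt ϑ (ϑ' s) s)
    (h2 : ∀ s, HasDerivAt ϑ' (ϑ'' s) s) (h2c : Continuous ϑ'') {a b : ℝ} (ha : 0 < a) (hab : a < b)
    (hϑa : ∀ s ≤ a, ϑ s = 1) (hϑb : ∀ s, b ≤ s → ϑ s = 0) :
    ∫ x : RI 2 → ℝ, Real.log (U0 (cc x : Cn 2)) *
      ((ϑ' (U0 (cc x : Cn 2)) + U0 (cc x : Cn 2) * ϑ'' (U0 (cc x : Cn 2))) / U0 (cc x : Cn 2)) =
      Real.pi ^ 2 := by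
  rw [integral_rad (fun s => Real.log s * ((ϑ' s + s * ϑ'' s) / s))]
  have hz1 : ∀ s < a, ϑ' s = 0 := fun s hs => by
    have : ϑ =ᶠ[𝓝 s] fun _ => 1 := by
      filter_upwards [Iio_mem_nhds hs] with t ht
      exact hϑa t (le_of_lt ht)
    exact (h1 s).unique ((hasDerivAt_const s (1 : ℝ)).congr_of_eventuallyEq this)
  have hz2 : ∀ s, b < s → ϑ' s = 0 := fun s hs => by
    have : ϑ =ᶠ[𝓝 s] fun _ => 0 := by
      filter_upwards [Ioi_mem_nhds hs] with t ht
      exact hϑb t (le_of_lt ht)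
    exact (h1 s).unique ((hasDerivAt_const s (0 : ℝ)).congr_of_eventuallyEq this)
  have hw1 : ∀ s < a, ϑ'' s = 0 := fun s hs => by
    have : ϑ' =ᶠ[𝓝 s] fun _ => 0 := by
      filter_upwards [Iio_mem_nhds hs] with t ht
      exact hz1 t ht
    exact (h2 s).unique ((hasDerivAt_const s (0 : ℝ)).congr_of_eventuallyEq this)
  have hw2 : ∀ s, b < s → ϑ'' s = 0 := fun s hs => by
    have : ϑ' =ᶠ[𝓝 s] fun _ => 0 := by
      filter_upwards [Ioi_mem_nhds hs] with t ht
      exact hz2 t ht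
    exact (h2 s).unique ((hasDerivAt_const s (0 : ℝ)).congr_of_eventuallyEq this)
  set H : ℝ → ℝ := fun r => (1 / 2) * (Real.log (r ^ 2) * (r ^ 2 * ϑ' (r ^ 2)) - ϑ (r ^ 2)) with hH
  set h : ℝ → ℝ := fun r => r ^ 3 * (Real.log (r ^ 2) * ((ϑ' (r ^ 2) + r ^ 2 * ϑ'' (r ^ 2)) / r ^ 2))
    with hh
  have hder : ∀ r ∈ Ioi (0 : ℝ), HasDerivAt H (h r) r := by
    intro r hr
    have hr0 : (0 : ℝ) < r := hr
    have hr2 : r ^ 2 ≠ 0 := by positivity
    have e0 : HasDerivAt (fun r : ℝ => r ^ 2) (2 * r) r := by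
      simpa using hasDerivAt_pow 2 r
    have e1 : HasDerivAt (fun r : ℝ => Real.log (r ^ 2)) ((2 * r) / r ^ 2) r := e0.log hr2
    have e2 : HasDerivAt (fun r : ℝ => ϑ' (r ^ 2)) (ϑ'' (r ^ 2) * (2 * r)) r := (h2 _).comp r e0
    have e3 : HasDerivAt (fun r : ℝ => ϑ (r ^ 2)) (ϑ' (r ^ 2) * (2 * r)) r := (h1 _).comp r e0
    have e4 := ((e1.mul (e0.mul e2)).sub e3).const_mul (1 / 2)
    refine e4.congr_deriv ?_
    simp only [hh, Pi.mul_apply]
    field_simp
    ring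
  have hH0 : ∀ r, 0 ≤ r → r ^ 2 < a → H r = -(1 / 2) := by
    intro r _ hr
    simp only [hH, hz1 _ hr, hϑa _ hr.le]
    ring
  have hHb : ∀ r, b < r ^ 2 → H r = 0 := by
    intro r hr
    simp only [hH, hz2 _ hr, hϑb _ hr.le]
    ring
  have hcont : ContinuousWithinAt H (Ici 0) 0 := by
    have : H =ᶠ[𝓝[Ici 0] 0] fun _ => -(1 / 2) := by
      have h3 : ∀ᶠ r : ℝ in 𝓝[Ici 0] 0, r ^ 2 < a := by
        have : Tendsto (fun r : ℝ => r ^ 2) (𝓝[Ici 0] 0) (𝓝 0) := by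
          have h4 : Continuous fun r : ℝ => r ^ 2 := by fun_prop
          have := h4.tendsto 0
          simp only [ne_eq, OfNat.ofNat_ne_zero, not_false_eq_true, zero_pow] at this
          exact this.mono_left nhdsWithin_le_nhds
        exact this.eventually (gt_mem_nhds ha)
      filter_upwards [h3, self_mem_nhdsWithin] with r hr hr0
      exact hH0 r hr0 hr
    exact (continuousWithinAt_const (b := -(1 / 2 : ℝ))).congr_of_eventuallyEq this
      (hH0 0 le_rfl (by simpa using ha))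
  have hlim : Tendsto H atTop (𝓝 0) := by
    refine tendsto_const_nhds.congr' ?_
    filter_upwards [eventually_gt_atTop (max 1 b)] with r hr
    have h3 : b < r ^ 2 := by
      have h4 : 1 < r := lt_of_le_of_lt (le_max_left _ _) hr
      have h5 : b < r := lt_of_le_of_lt (le_max_right _ _) hr
      nlinarith
    exact (hHb r h3).symm
  have hint : IntegrableOn h (Ioi 0) := by
    have hsupp : ∀ r ∈ Ioi (0 : ℝ), r ∉ Icc (√a) (√b) → h r = 0 := by
      intro r hr hrn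
      have hr0 : (0 : ℝ) < r := hr
      rw [mem_Icc, not_and_or, not_le, not_le] at hrn
      rcases hrn with h3 | h3
      · have h4 : r ^ 2 < a := (Real.lt_sqrt hr0.le).1 h3
        simp only [hh, hz1 _ h4, hw1 _ h4]
        ring
      · have h4 : b < r ^ 2 := (Real.sqrt_lt (by linarith) hr0.le).1 h3
        simp only [hh, hz2 _ h4, hw2 _ h4]
        ring
    have hc : ContinuousOn h (Icc (√a) (√b)) := by
      intro r hr
      have hr0 : 0 < r := lt_of_lt_of_le (Real.sqrt_pos.2 ha) hr.1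
      have hr2 : r ^ 2 ≠ 0 := by positivity
      have c1 : ContinuousAt (fun r : ℝ => r ^ 2) r := by fun_prop
      have c2 : ContinuousAt (fun r : ℝ => ϑ' (r ^ 2)) r := (h2 _).continuousAt.comp c1
      have c3 : ContinuousAt (fun r : ℝ => ϑ'' (r ^ 2)) r := h2c.continuousAt.comp c1
      have c4 : ContinuousAt (fun r : ℝ => Real.log (r ^ 2)) r := c1.log hr2
      exact ((continuousAt_id.pow 3).mul (c4.mul ((c2.add (c1.mul c3)).div c1 hr2))).continuousWithinAt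
    have h3 : IntegrableOn h (Icc (√a) (√b)) := hc.integrableOn_Icc
    have h4 : Icc (√a) (√b) ⊆ Ioi (0 : ℝ) := fun r hr =>
      lt_of_lt_of_le (Real.sqrt_pos.2 ha) hr.1
    exact h3.of_forall_sdiff_eq_zero measurableSet_Ioi fun r hr => hsupp r hr.1 hr.2
  have := integral_Ioi_of_hasDerivAt_of_tendsto hcont hder hint hlim
  rw [this, hH0 0 le_rfl (by simpa using ha)]
  ring

end

end Crest.Agent.R257.DegC_5
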