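import Crest.Agent.R257.Defs_219

/-!
R257 / SkelA_219: germ algebra for the assembly of S0395.
-/

set_option autoImplicit false

open Topology Filter MeasureTheory Set
open scoped ENNReal
open Crest.AlgGeometry.Germ

noncomputable section

namespace Crest.Agent.R257.Skel_219

open Crest.Agent.R257.Defs_219

variable {n m l : ℕ}

theorem mem_gens {G : Fin m → (Fin n → ℂ) → ℂ} {g : analyticAtOrigin n} :
    g ∈ gens G ↔ ∃ a : Fin m → (Fin n → ℂ) → ℂ, (∀ i, AnalyticAt ℂ (a i) 0) ∧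
    (g : (Fin n → ℂ) → ℂ) =ᶠ[𝓝 0] fun x => ∑ i, a i x * G i x := Iff.rfl

/-- comparison of two systems of generators -/
theorem gens_le {G : Fin m → (Fin n → ℂ) → ℂ} {G' : Fin l → (Fin n → ℂ) → ℂ}
    (h : ∀ j, ∃ A : Fin l → (Fin n → ℂ) → ℂ, (∀ i, AnalyticAt ℂ (A i) 0) ∧
      G j =ᶠ[𝓝 0] fun x => ∑ i, A i x * G' i x) : gens G ≤ gens G' := by
  choose A hA hG using h
  rintro g ⟨a, ha, hg⟩
  refine ⟨fun i x => ∑ j, a j x * A j i x, fun i => ?_, ?_⟩
  · exact Finset.analyticAt_fun_sum _ fun j _ => (ha j).mul (hA j i)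
  · have h1 : ∀ᶠ x in 𝓝 (0 : Fin n → ℂ), ∀ j, G j x = ∑ i, A j i x * G' i x :=
      eventually_all.2 fun j => hG j
    filter_upwards [hg, h1] with x hx h2
    rw [hx]
    simp only [h2, Finset.mul_sum, Finset.sum_mul]
    rw [Finset.sum_comm]
    exact Finset.sum_congr rfl fun i _ => Finset.sum_congr rfl fun j _ => by ring

theorem gens_eq_top {G : Fin m → (Fin n → ℂ) → ℂ} {j : Fin m} (hG : AnalyticAt ℂ (G j) 0)
    (h0 : G j 0 ≠ 0) : gens G = ⊤ := by
  rw [eq_top_iff]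
  rintro g -
  refine ⟨fun i => if i = j then fun x => (g : (Fin n → ℂ) → ℂ) x * (G j x)⁻¹ else fun _ => 0,
    fun i => ?_, ?_⟩
  · dsimp only
    split_ifs
    · exact AnalyticAt.mul g.2 (hG.inv h0)
    · exact analyticAt_const
  · filter_upwards [hG.continuousAt.eventually_ne h0] with x hx
    rw [Finset.sum_eq_single j]
    · simp [hx]
    · intro b _ hb
      simp [hb]
    · intro hj
      exact absurd (Finset.mem_univ j) hj

theorem col_eq_zero {G : Fin m → (Fin n → ℂ) → ℂ} {j : Fin m} (hG : AnalyticAt ℂ (G j) 0)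
    (h0 : G j 0 ≠ 0) : col G = 0 := by
  have h := gens_eq_top hG h0
  unfold col
  have : Subsingleton (Quo G) := Submodule.Quotient.subsingleton_iff.2 h
  exact Module.finrank_zero_of_subsingleton

theorem analyticAt_coordDeriv {f : (Fin n → ℂ) → ℂ} (hf : AnalyticAt ℂ f 0) (i : Fin n) :
    AnalyticAt ℂ (coordDeriv f i) 0 :=
  ((ContinuousLinearMap.apply ℂ ℂ (Pi.single i 1 : Fin n → ℂ)).analyticAt _).comp (g := fun L :
    (Fin n → ℂ) →L[ℂ] ℂ => L (Pi.single i 1)) hf.fderiv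

/-- the partial derivative of the slice, jointly in `(x,t)` -/
theorem coordDeriv_sl {F : (Fin n → ℂ) × ℂ → ℂ} {q : (Fin n → ℂ) × ℂ}
    (hF : DifferentiableAt ℂ F q) (i : Fin n) :
    coordDeriv (sl F q.2) i q.1 = fderiv ℂ F q (Pi.single i 1, 0) := by
  have h1 : HasFDerivAt (fun x : Fin n → ℂ => ((x, q.2) : (Fin n → ℂ) × ℂ))
      (ContinuousLinearMap.inl ℂ (Fin n → ℂ) ℂ) q.1 := hasFDerivAt_prodMk_left q.1 q.2
  have h2 : HasFDerivAt F (fderiv ℂ F q) ((fun x : Fin n → ℂ =>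
      ((x, q.2) : (Fin n → ℂ) × ℂ)) q.1) := hF.hasFDerivAt
  have h3 : fderiv ℂ (sl F q.2) q.1 = _ := (h2.comp q.1 h1).fderiv
  unfold coordDeriv
  rw [h3]
  rfl

theorem analyticAt_pd {F : (Fin n → ℂ) × ℂ → ℂ} (hF : AnalyticAt ℂ F (0, 0)) (i : Fin n) :
    AnalyticAt ℂ (fun q : (Fin n → ℂ) × ℂ => coordDeriv (sl F q.2) i q.1) (0, 0) := by
  have h : AnalyticAt ℂ (fun q : (Fin n → ℂ) × ℂ => fderiv ℂ F q (Pi.single i 1, 0)) (0, 0) :=
    ((ContinuousLinearMap.apply ℂ ℂ ((Pi.single i 1, 0) : (Fin n → ℂ) × ℂ)).analyticAt _).comp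
      (g := fun L : ((Fin n → ℂ) × ℂ) →L[ℂ] ℂ => L (Pi.single i 1, 0)) hF.fderiv
  refine h.congr ?_
  filter_upwards [hF.eventually_analyticAt] with q hq
  exact (coordDeriv_sl hq.differentiableAt i).symm

theorem analyticAt_sl {F : (Fin n → ℂ) × ℂ → ℂ} {t : ℂ} (hF : AnalyticAt ℂ F (0, t)) :
    AnalyticAt ℂ (sl F t) 0 := by
  have : AnalyticAt ℂ (fun x : Fin n → ℂ => ((x, t) : (Fin n → ℂ) × ℂ)) 0 :=
    analyticAt_id.prod analyticAt_const
  exact AnalyticAt.fun_comp (f := fun x : Fin n → ℂ => ((x, t) : (Fin n → ℂ) × ℂ)) (g := F)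
    (by simpa using hF) this

/-- analytic at `(0,t)` for all small `t` -/
theorem eventually_sl {F : (Fin n → ℂ) × ℂ → ℂ} (hF : AnalyticAt ℂ F (0, 0)) :
    ∀ᶠ t in 𝓝 (0 : ℂ), AnalyticAt ℂ F (0, t) :=
  (Continuous.prodMk_right (0 : Fin n → ℂ)).continuousAt.eventually hF.eventually_analyticAt

/-- congruence of gradients -/
theorem gr_congr {f g a : E3 → ℂ} {f' : E3 → ℂ} (hf : AnalyticAt ℂ f' 0)
    (hg : AnalyticAt ℂ g 0) (ha : AnalyticAt ℂ a 0)
    (h : ∀ᶠ x in 𝓝 (0 : E3), f x = g x + a x * f' x) (i : Fin 3) :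
    ∀ᶠ x in 𝓝 (0 : E3), coordDeriv f i x =
      coordDeriv g i x + a x * coordDeriv f' i x + f' x * coordDeriv a i x := by
  filter_upwards [h.eventually_nhds, hf.eventually_analyticAt, hg.eventually_analyticAt,
    ha.eventually_analyticAt] with x hx hf hg ha
  have e1 : f =ᶠ[𝓝 x] fun y => g y + a y * f' y := hx
  have h2 : HasFDerivAt (fun y => g y + a y * f' y)
      (fderiv ℂ g x + (a x • fderiv ℂ f' x + f' x • fderiv ℂ a x)) x :=
    hg.differentiableAt.hasFDerivAt.add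
      (ha.differentiableAt.hasFDerivAt.mul hf.differentiableAt.hasFDerivAt)
  unfold coordDeriv
  rw [e1.fderiv_eq, h2.fderiv]
  simp [add_assoc]

theorem Dt_eq (f g h : E3 → ℂ) (x : E3) : Dt f g h x =
    coordDeriv f 0 x * coordDeriv g 1 x * coordDeriv h 2 x
    - coordDeriv f 0 x * coordDeriv g 2 x * coordDeriv h 1 x
    - coordDeriv f 1 x * coordDeriv g 0 x * coordDeriv h 2 x
    + coordDeriv f 1 x * coordDeriv g 2 x * coordDeriv h 0 x
    + coordDeriv f 2 x * coordDeriv g 0 x * coordDeriv h 1 x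
    - coordDeriv f 2 x * coordDeriv g 1 x * coordDeriv h 0 x := by
  unfold Dt gr
  rw [Matrix.det_fin_three]
  simp

theorem analyticAt_Dt {f g h : E3 → ℂ} (hf : AnalyticAt ℂ f 0) (hg : AnalyticAt ℂ g 0)
    (hh : AnalyticAt ℂ h 0) : AnalyticAt ℂ (Dt f g h) 0 := by
  have e : Dt f g h = _ := funext (Dt_eq f g h)
  rw [e]
  have F := analyticAt_coordDeriv hf
  have G := analyticAt_coordDeriv hg
  have H := analyticAt_coordDeriv hh
  exact (((((((F 0).mul (G 1)).mul (H 2)).sub (((F 0).mul (G 2)).mul (H 1))).sub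
    (((F 1).mul (G 0)).mul (H 2))).add (((F 1).mul (G 2)).mul (H 0))).add
    (((F 2).mul (G 0)).mul (H 1))).sub (((F 2).mul (G 1)).mul (H 0))

/-- `Dt` modulo `f`: eventual identity with an analytic quotient -/
theorem Dt_congr {f g h g' h' a b : E3 → ℂ} (hf : AnalyticAt ℂ f 0) (hg : AnalyticAt ℂ g 0)
    (hh : AnalyticAt ℂ h 0) (ha : AnalyticAt ℂ a 0) (hb : AnalyticAt ℂ b 0)
    (eg : ∀ᶠ x in 𝓝 (0 : E3), g' x = g x + a x * f x)
    (eh : ∀ᶠ x in 𝓝 (0 : E3), h' x = h x + b x * f x) :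
    ∃ w : E3 → ℂ, AnalyticAt ℂ w 0 ∧
      ∀ᶠ x in 𝓝 (0 : E3), Dt f g' h' x = Dt f g h x + w x * f x := by
  refine ⟨fun x => Dt f a h x + Dt f g b x + f x * Dt f a b x, ?_, ?_⟩
  · exact ((analyticAt_Dt hf ha hh).add (analyticAt_Dt hf hg hb)).add
      (hf.mul (analyticAt_Dt hf ha hb))
  · filter_upwards [gr_congr hf hg ha eg 0, gr_congr hf hg ha eg 1, gr_congr hf hg ha eg 2,
      gr_congr hf hh hb eh 0, gr_congr hf hh hb eh 1, gr_congr hf hh hb eh 2]
      with x g0 g1 g2 h0 h1 h2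
    simp only [Dt_eq, g0, g1, g2, h0, h1, h2]
    ring

theorem gens3_le {f g h g' h' a b : E3 → ℂ} (ha : AnalyticAt ℂ a 0) (hb : AnalyticAt ℂ b 0)
    (eg : ∀ᶠ x in 𝓝 (0 : E3), g' x = g x + a x * f x)
    (eh : ∀ᶠ x in 𝓝 (0 : E3), h' x = h x + b x * f x) :
    gens ![f, g', h'] ≤ gens ![f, g, h] := by
  refine gens_le fun j => ?_
  fin_cases j
  · refine ⟨![fun _ => 1, fun _ => 0, fun _ => 0], fun i => ?_, ?_⟩
    · fin_cases i <;> exact analyticAt_const
    · exact Eventually.of_forall fun x => by simp [Fin.sum_univ_three]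
  · refine ⟨![a, fun _ => 1, fun _ => 0], fun i => ?_, ?_⟩
    · fin_cases i
      · exact ha
      · exact analyticAt_const
      · exact analyticAt_const
    · filter_upwards [eg] with x hx
      simp [Fin.sum_univ_three, hx, add_comm]
  · refine ⟨![b, fun _ => 0, fun _ => 1], fun i => ?_, ?_⟩
    · fin_cases i
      · exact hb
      · exact analyticAt_const
      · exact analyticAt_const
    · filter_upwards [eh] with x hx
      simp [Fin.sum_univ_three, hx, add_comm]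

theorem gens3_eq {f g h g' h' a b : E3 → ℂ} (ha : AnalyticAt ℂ a 0) (hb : AnalyticAt ℂ b 0)
    (eg : ∀ᶠ x in 𝓝 (0 : E3), g' x = g x + a x * f x)
    (eh : ∀ᶠ x in 𝓝 (0 : E3), h' x = h x + b x * f x) :
    gens ![f, g', h'] = gens ![f, g, h] := by
  refine le_antisymm (gens3_le ha hb eg eh) (gens3_le (a := fun x => -a x) (b := fun x => -b x)
    ha.neg hb.neg ?_ ?_)
  · filter_upwards [eg] with x hx
    rw [hx]; ring
  · filter_upwards [eh] with x hx
    rw [hx]; ring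

theorem col_congr {G : Fin m → (Fin n → ℂ) → ℂ} {G' : Fin l → (Fin n → ℂ) → ℂ}
    (h : gens G = gens G') : col G = col G' := by
  unfold col Quo
  rw [h]

theorem colFin_congr {G : Fin m → (Fin n → ℂ) → ℂ} {G' : Fin l → (Fin n → ℂ) → ℂ}
    (h : gens G = gens G') : ColFin G ↔ ColFin G' := by
  unfold ColFin Quo
  rw [h]

end Crest.Agent.R257.Skel_219
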