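import Crest.Agent.R257.V1Pe_822
import Crest.Agent.R257.DegC_5
import Crest.Agent.R257.SkelA_219
import Crest.Agent.R257.CNS_939

/-!
R257 / V1W_822 (helper822): the weight `log (|g|² + |h|²)` on the levels; isolated common zeros.
-/

set_option autoImplicit false

open Topology Filter MeasureTheory Set
open scoped ENNReal ContDiff Matrix ComplexOrder

noncomputable section

namespace Crest.Agent.R257.V1W_822

open Crest.Agent.R275.Geo
open Crest.Agent.R257.Defs_219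
open Crest.Agent.R257.KED_952
open Crest.Agent.R257.V1Defs_822
open Crest.Agent.R257.V1Pe_822
open Crest.Agent.R273.Defs_333 (lev)
open Crest.Agent.R273.YauDefs_635 (cH)
open Crest.Agent.R257.PN_835 (nsq)
open Crest.Agent.R257.C2F1_625 (pd)
open Crest.Agent.R257.DegC_5

variable {f : E3 → ℂ} {s : ℂ} {r : ℝ}

/-- the map `(g,h)` -/
def gh (g h : E3 → ℂ) (x : E3) : Cn 2 := WithLp.toLp 2 ![g x, h x]

theorem lgh_eq (g h : E3 → ℂ) (x : E3) : lgh g h x = W0 (gh g h x) := by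
  unfold lgh W0 U0 gh
  rw [EuclideanSpace.norm_sq_eq]
  simp

theorem gh_ne {g h : E3 → ℂ} {x : E3} (hx : g x ≠ 0 ∨ h x ≠ 0) : gh g h x ≠ 0 := by
  intro h0
  have h1 : (gh g h x) 0 = 0 := by rw [h0]; rfl
  have h2 : (gh g h x) 1 = 0 := by rw [h0]; rfl
  rcases hx with hx | hx
  · exact hx h1
  · exact hx h2

theorem gh_an {g h : E3 → ℂ} {x : E3} (hg : AnalyticAt ℂ g x) (hh : AnalyticAt ℂ h x) :
    AnalyticAt ℂ (gh g h) x := by
  have h1 : AnalyticAt ℂ (fun x => ![g x, h x]) x := by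
    rw [analyticAt_pi_iff]
    intro i
    fin_cases i
    · exact hg
    · exact hh
  exact ((EuclideanSpace.equiv (Fin 2) ℂ).symm.toContinuousLinearMap.analyticAt _).comp h1

theorem pe_an {θ : Cn 2 → E3} {O : Set (Cn 2)} (h : PE f s r θ O) {z : Cn 2} (hz : z ∈ O) :
    AnalyticAt ℂ θ z :=
  Crest.Agent.R266.SCV.analyticOnNhd_of_differentiableOn h.par.isOpen h.par.hol z hz

theorem det_W0 {y : Cn 2} (hy : y ≠ 0) : (cH W0 y).det = 0 := by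
  rw [Crest.Agent.R273.YauMax_635.cH_eq_hess (W0_smooth hy)]
  have h1 := pd_log_self hy
  rw [C2F1_625.pd_self] at h1
  simpa using h1

theorem lev_W0 {y : Cn 2} (hy : y ≠ 0) (v : Cn 2) : 0 ≤ lev W0 y v := by
  have h0 : ∃ j : Fin 2, (fun (j : Fin 2) (z : Cn 2) => z j) j y ≠ 0 := by
    by_contra hcon
    push Not at hcon
    exact hy (by ext j; exact hcon j)
  have h1 : ∀ j : Fin 2, AnalyticAt ℂ ((fun (j : Fin 2) (z : Cn 2) => z j) j) y := fun j =>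
    (EuclideanSpace.proj (𝕜 := ℂ) j).analyticAt y
  have h2 := Crest.Agent.R273.Levi_145.lev_log_sumSq_nonneg h1 h0 v
  rw [Crest.Agent.R273.PB_835.lev_bridge]
  have h3 : (fun w : Cn 2 => Real.log (Crest.Agent.R273.Levi_145.sumSq
      (fun (j : Fin 2) (z : Cn 2) => z j) w)) = W0 := by
    funext w
    unfold W0 U0 Crest.Agent.R273.Levi_145.sumSq
    rw [EuclideanSpace.norm_sq_eq]
  rw [h3] at h2
  linarith

section

variable {g h : E3 → ℂ}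

theorem lgh_at {θ : Cn 2 → E3} {O : Set (Cn 2)} (hθ : PE f s r θ O) {z : Cn 2} (hz : z ∈ O)
    (hg : AnalyticAt ℂ g (θ z)) (hh : AnalyticAt ℂ h (θ z)) (hne : g (θ z) ≠ 0 ∨ h (θ z) ≠ 0) :
    ContDiffAt ℝ ∞ (fun z => lgh g h (θ z)) z ∧ (∀ v, 0 ≤ lev (fun z => lgh g h (θ z)) z v) ∧
      (cH (fun z => lgh g h (θ z)) z).det = 0 := by
  have hT : AnalyticAt ℂ (fun z => gh g h (θ z)) z :=
    AnalyticAt.comp (g := gh g h) (f := θ) (gh_an hg hh) (pe_an hθ hz)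
  have h0 : gh g h (θ z) ≠ 0 := gh_ne hne
  have hW : ContDiffAt ℝ ∞ W0 (gh g h (θ z)) := W0_smooth h0
  have e1 : (fun z => lgh g h (θ z)) = fun z => W0 (gh g h (θ z)) := funext fun z => lgh_eq g h _
  have hTc : ContDiffAt ℝ ∞ (fun z => gh g h (θ z)) z := hT.contDiffAt.restrict_scalars ℝ
  rw [e1]
  refine ⟨ContDiffAt.comp (g := W0) (f := fun z => gh g h (θ z)) z hW hTc, fun v => ?_, ?_⟩
  · rw [KEl_835.lev_comp' hT (hW.of_le two_le_inf)]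
    exact lev_W0 h0 _
  · rw [KEl_835.det_cH_comp hT (hW.of_le two_le_inf), det_W0 h0, mul_zero]

/-- the weight `c log (|g|² + |h|²)` -/
theorem wt (hg : ∀ x, nsq x < r ^ 2 → AnalyticAt ℂ g x)
    (hh : ∀ x, nsq x < r ^ 2 → AnalyticAt ℂ h x)
    (hne : ∀ x, f x = s → x ≠ 0 → nsq x < r ^ 2 → g x ≠ 0 ∨ h x ≠ 0) {c : ℝ} (hc : 0 ≤ c) :
    SmL f s r (fun x => c * lgh g h x) ∧
    (∀ θ O, PE f s r θ O → ∀ z ∈ O, ∀ v, 0 ≤ lev (fun z => c * lgh g h (θ z)) z v) ∧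
    (∀ θ O, PE f s r θ O → ∀ z ∈ O, (cH (fun z => c * lgh g h (θ z)) z).det = 0) := by
  have key : ∀ θ O, PE f s r θ O → ∀ z ∈ O, ContDiffAt ℝ ∞ (fun z => lgh g h (θ z)) z ∧
      (∀ v, 0 ≤ lev (fun z => lgh g h (θ z)) z v) ∧ (cH (fun z => lgh g h (θ z)) z).det = 0 :=
    fun θ O hθ z hz => lgh_at hθ hz (hg _ (hθ.lt z hz)) (hh _ (hθ.lt z hz))
      (hne _ (hθ.par.lvl z hz) (hθ.ne z hz) (hθ.lt z hz))
  refine ⟨fun θ O hθ z hz => (contDiffAt_const.mul (key θ O hθ z hz).1).contDiffWithinAt,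
    fun θ O hθ z hz v => ?_, fun θ O hθ z hz => ?_⟩
  · rw [KEl_835.lev_mul ((key θ O hθ z hz).1.of_le two_le_inf)]
    exact mul_nonneg hc ((key θ O hθ z hz).2.1 v)
  · rw [KEl_835.cH_mul ((key θ O hθ z hz).1.of_le two_le_inf), Matrix.det_smul,
      (key θ O hθ z hz).2.2, mul_zero]

/-- the weight tends to `-∞` -/
theorem wt_inf (hg : AnalyticAt ℂ g 0) (hh : AnalyticAt ℂ h 0) (g0 : g 0 = 0) (h0 : h 0 = 0)
    {r₀ : ℝ} (hr₀ : 0 < r₀) (hne : ∀ x, f x = s → x ≠ 0 → nsq x < r₀ ^ 2 → g x ≠ 0 ∨ h x ≠ 0)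
    {k : ℝ} (hk : 0 < k) (c : ℝ) :
    ∃ ρ : ℝ, 0 < ρ ∧ ∀ x, f x = s → x ≠ 0 → nsq x < ρ ^ 2 → k * lgh g h x < c := by
  have h1 : ContinuousAt (fun x => ‖g x‖ ^ 2 + ‖h x‖ ^ 2) 0 :=
    (hg.continuousAt.norm.pow 2).add (hh.continuousAt.norm.pow 2)
  have h2 : ∀ᶠ x in 𝓝 (0 : E3), ‖g x‖ ^ 2 + ‖h x‖ ^ 2 < Real.exp (c / k) := by
    refine h1.eventually_lt continuousAt_const ?_
    simp [g0, h0, Real.exp_pos]
  obtain ⟨ε, hε, h3⟩ := Metric.eventually_nhds_iff_ball.1 h2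
  refine ⟨min ε r₀, lt_min hε hr₀, fun x hx1 hx2 hx3 => ?_⟩
  have h4 : nsq x < ε ^ 2 :=
    hx3.trans_le (pow_le_pow_left₀ (lt_min hε hr₀).le (min_le_left _ _) 2)
  have h5 : nsq x < r₀ ^ 2 :=
    hx3.trans_le (pow_le_pow_left₀ (lt_min hε hr₀).le (min_le_right _ _) 2)
  have h6 : x ∈ Metric.ball (0 : E3) ε := by
    rw [mem_ball_zero_iff, pi_norm_lt_iff hε]
    intro i
    exact lt_of_pow_lt_pow_left₀ 2 hε.le
      ((Crest.Agent.R257.PN_835.sq_le_nsq x i).trans_lt h4)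
  have h7 : 0 < ‖g x‖ ^ 2 + ‖h x‖ ^ 2 := by
    rcases hne x hx1 hx2 h5 with h | h
    · have := norm_pos_iff.2 h; positivity
    · have := norm_pos_iff.2 h; positivity
  have h8 : lgh g h x < c / k := by
    unfold lgh
    rw [Real.log_lt_iff_lt_exp h7]
    exact h3 x h6
  calc k * lgh g h x < k * (c / k) := mul_lt_mul_of_pos_left h8 hk
    _ = c := by field_simp

end

/-- the common zeros are isolated -/
theorem iso_zero {m : ℕ} {G : Fin m → E3 → ℂ} (hG : ∀ j, AnalyticAt ℂ (G j) 0) (hfin : ColFin G) :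
    ∀ᶠ x in 𝓝 (0 : E3), (∀ j, G j x = 0) → x = 0 := by
  have h1 := UI939.cnStmt m (fun j q => G j q.1)
    (fun j => AnalyticAt.comp (g := G j) (f := Prod.fst) (x := ((0 : E3), (0 : ℂ))) (hG j)
      analyticAt_fst) hfin
    (Frequently.of_forall fun t => le_rfl)
  have h2 : Tendsto (fun x : E3 => (x, (0 : ℂ))) (𝓝 0) (𝓝 (0, 0)) :=
    (by fun_prop : Continuous fun x : E3 => (x, (0 : ℂ))).tendsto 0
  exact h2.eventually h1

theorem nsq_lt_of {p : E3 → Prop} (hp : ∀ᶠ x in 𝓝 (0 : E3), p x) :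
    ∃ ρ : ℝ, 0 < ρ ∧ ∀ x, nsq x < ρ ^ 2 → p x := by
  obtain ⟨ε, hε, h3⟩ := Metric.eventually_nhds_iff_ball.1 hp
  refine ⟨ε, hε, fun x hx => h3 x ?_⟩
  rw [mem_ball_zero_iff, pi_norm_lt_iff hε]
  intro i
  exact lt_of_pow_lt_pow_left₀ 2 hε.le ((Crest.Agent.R257.PN_835.sq_le_nsq x i).trans_lt hx)

end Crest.Agent.R257.V1W_822
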