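import Crest.Agent.R257.UpK1_938
import Crest.Agent.R257.V1W_822
import Crest.Agent.R257.Ked2_397
import Crest.Agent.R257.MassLe_218
import Crest.Agent.R273.YauLoc_635

/-!
R257 / Bridge_822 (helper822): the integrals of `KED_952` on a level `{f = s}` are the integrals `intD`
of R273 on the atlas `(LX hf).A 0` of helper941 / helper938.

* `integral_vm_intD` : `∫ f d(vm h) = intD P (w f)` for `f` with compact support (non-compact `M`)
* `sm_val`           : `SmL` functions are smooth on the atlas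
* `ann_compact`      : `{r₁² ≤ |x|² ≤ r₂²}` is compact in the level
* `integrable_lvl`   : continuous functions with compact support are integrable (`ν`)
* `bridge`           : `∫ φ mxd f a b dν = intD (φ pd (hsf a) (hsf b))`
* `stokes_lvl`       : `∫ u mxd f u c dν = ∫ c mxd f u u dν`
-/

set_option autoImplicit false
set_option linter.unusedSectionVars false

open Topology Filter MeasureTheory Set
open scoped ENNReal ContDiff Matrix ComplexOrder

noncomputable section

namespace Crest.Agent.R257.Bridge_822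

open Crest.Agent.R275.Geo Crest.Agent.R275.Core144 Crest.Agent.R275.EDR890
open Crest.Agent.R275.Pai323 Crest.Agent.R275.C1d194
open Crest.Agent.R275.SerG398 (lint dens)
open Crest.Agent.R273.StokesV_332
open Crest.Agent.R273.Defs_333 Crest.Agent.R273.Vm_333 Crest.Agent.R273.Kah_333
open Crest.Agent.R273.Hess_333 Crest.Agent.R273.HessB_333
open Crest.Agent.R273.YauDefs_635 (cH)
open Crest.Agent.R257.Defs_219 Crest.Agent.R257.KED_952 Crest.Agent.R257.V1Defs_822
open Crest.Agent.R257.V1Pe_822 Crest.Agent.R257.V1W_822 Crest.Agent.R257.UpK_938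
open Crest.Agent.R257.PN_835 (nsq)
open Crest.Agent.R257.Aff_835 (eta2a)
open Crest.Agent.R257.C2F1_625 (pd)
open Crest.Agent.R257.Atl_941 (SFam)

section abs

variable {n : ℕ} {M : Type} [TopologicalSpace M] [T2Space M] [MeasurableSpace M] [BorelSpace M]
  {A : Atl n M} [Countable A.ι] (h : HM (KB A)⁻¹)

/-- **the measure and `intD`** -/
theorem integral_vm_intD (P : Part A) {f : M → ℂ} (hf : Integrable f (vm h)) {K : Set M}
    (hK : IsCompact K) (h0 : ∀ x, x ∉ K → f x = 0) :
    ∫ x, f x ∂(vm h) = intD P (fun i x => (h.w i x : ℂ) * f x) := by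
  have hoff : OffK A (fun i x => (h.w i x : ℂ) * f x) K := fun i x _ hx => by
    show (h.w i x : ℂ) * f x = 0
    rw [h0 x hx, mul_zero]
  rw [intD_eq_sum P hK (Finset.Subset.refl _) hoff]
  have hint : ∀ i, Integrable (fun x => (P.ψ i x : ℂ) * f x) (vm h) := by
    intro i
    have hc : Continuous fun x => (P.ψ i x : ℂ) :=
      Complex.continuous_ofReal.comp (sm_continuous (P.ψ_sm i))
    obtain ⟨C, hC⟩ := (P.χ_cpt i).exists_bound_of_continuousOn hc.continuousOn
    refine hf.bdd_mul (c := max C 0) hc.measurable.aestronglyMeasurable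
      (Eventually.of_forall fun x => ?_)
    by_cases hx : x ∈ tsupport (P.χ i)
    · exact (hC x hx).trans (le_max_left _ _)
    · rw [psi_zero_off P i hx]
      simp
  have h1 : (fun x => f x) = fun x => ∑ i ∈ Fn P hK, (P.ψ i x : ℂ) * f x := by
    funext x
    rw [← Finset.sum_mul]
    by_cases hx : x ∈ K
    · rw [sum_psiC P hK (Finset.Subset.refl _) hx, one_mul]
    · rw [h0 x hx, mul_zero]
  calc ∫ x, f x ∂(vm h) = ∫ x, ∑ i ∈ Fn P hK, (P.ψ i x : ℂ) * f x ∂(vm h) := by rw [← h1]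
    _ = ∑ i ∈ Fn P hK, ∫ x, (P.ψ i x : ℂ) * f x ∂(vm h) :=
        integral_finsetSum _ fun i _ => hint i
    _ = _ := by
      refine Finset.sum_congr rfl fun i _ => ?_
      have h3 : ∫ x, (P.ψ i x : ℂ) * f x ∂(vm h) =
          ∫ x in (A.e i).source, (P.ψ i x : ℂ) * f x ∂(vm h) := by
        symm
        refine setIntegral_eq_integral_of_forall_compl_eq_zero fun x hx => ?_
        rw [psi_off P hx, Complex.ofReal_zero, zero_mul]
      rw [h3, setIntegral_vm h i (hint i).aestronglyMeasurable]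
      unfold Crest.Agent.R275.SerG398.lint
      symm
      rw [← setIntegral_eq_integral_of_forall_compl_eq_zero (s := Ui A i)
        (fun y hy => rd_off hy)]
      refine setIntegral_congr_fun (Crest.Agent.R273.Vm_333.isOpen_Ui i).measurableSet fun y hy => ?_
      rw [rd_of_mem hy]
      change (P.ψ i (sg A i y) : ℂ) * ((h.w i (sg A i y) : ℂ) * f (sg A i y)) =
        (h.w i (sg A i y)) • ((P.ψ i (sg A i y) : ℂ) * f (sg A i y))
      rw [Complex.real_smul]
      ring

end abs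

section lvl

variable {f : E3 → ℂ} {s : ℂ} {r : ℝ} (hf : LvlOK f s r)

theorem sm_val {a : E3 → ℝ} (ha : SmL f s r a) :
    ((LX hf).A 0).Sm (fun x : (LX hf).M 0 => a x.1) := fun i => ha _ _ (pe_chart hf i)

theorem cont_val {a : E3 → ℝ} (ha : CtL f s r a) :
    Continuous (fun x : (LX hf).M 0 => a x.1) := by
  rw [continuous_iff_continuousAt]
  intro x
  set A := (LX hf).A 0 with hA
  obtain ⟨i, hi⟩ := A.cover x
  have h1 : ContinuousOn (fun z => a (thc hf i z)) (A.e i).target := ha _ _ (pe_chart hf i)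
  have h2 : ContinuousOn (fun y => a (thc hf i (A.e i y))) (A.e i).source :=
    h1.comp (A.e i).continuousOn fun y hy => (A.e i).map_source hy
  have h3 : ContinuousOn (fun x : (LX hf).M 0 => a x.1) (A.e i).source :=
    h2.congr fun y hy => by
      show a y.1 = a (thc hf i (A.e i y))
      rw [thc_eq hf hy]
  exact h3.continuousAt ((A.e i).open_source.mem_nhds hi)

/-- annuli of the level are compact -/
theorem ann_compact {r₁ r₂ : ℝ} (h1 : 0 < r₁) (h2 : 0 ≤ r₂) (h3 : r₂ < r) :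
    IsCompact {x : (LX hf).M 0 | r₁ ^ 2 ≤ nsq x.1 ∧ nsq x.1 ≤ r₂ ^ 2} := by
  rw [Subtype.isCompact_iff]
  have h4 : r₂ ^ 2 < r ^ 2 := pow_lt_pow_left₀ h3 h2 two_ne_zero
  have e : (Subtype.val '' {x : (LX hf).M 0 | r₁ ^ 2 ≤ nsq x.1 ∧ nsq x.1 ≤ r₂ ^ 2} : Set E3) =
      {x : E3 | (r₁ ^ 2 ≤ nsq x ∧ nsq x ≤ r₂ ^ 2) ∧ f x = s} := by
    ext x
    constructor
    · rintro ⟨y, hy, rfl⟩
      exact ⟨hy, (mem_M hf y).1⟩
    · rintro ⟨hx, hx2⟩
      have h5 : x ≠ 0 := by
        rintro rfl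
        rw [nsq_zero3] at hx
        have : 0 < r₁ ^ 2 := by positivity
        linarith [hx.1]
      exact ⟨mkM hf hx2 h5 (hx.2.trans_lt h4), hx, rfl⟩
  rw [e]
  have hc1 : IsCompact {x : E3 | nsq x ≤ r₂ ^ 2} := by
    refine Metric.isCompact_of_isClosed_isBounded
      (isClosed_le continuous_nsq3 continuous_const) ?_
    refine (Metric.isBounded_closedBall (x := (0 : E3)) (r := r₂)).subset fun x hx => ?_
    rw [mem_closedBall_zero_iff, pi_norm_le_iff_of_nonneg h2]
    intro k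
    exact le_of_sq_le_sq ((Crest.Agent.R257.PN_835.sq_le_nsq x k).trans hx) h2
  have hc2 : IsCompact {x : E3 | r₁ ^ 2 ≤ nsq x ∧ nsq x ≤ r₂ ^ 2} := by
    refine hc1.of_isClosed_subset ?_ fun x hx => hx.2
    exact (isClosed_le continuous_const continuous_nsq3).inter
      (isClosed_le continuous_nsq3 continuous_const)
  have hco : ContinuousOn f {x : E3 | r₁ ^ 2 ≤ nsq x ∧ nsq x ≤ r₂ ^ 2} := fun x hx =>
    (hf.an x (hx.2.trans_lt h4)).continuousAt.continuousWithinAt
  have hcl : IsClosed ({x : E3 | r₁ ^ 2 ≤ nsq x ∧ nsq x ≤ r₂ ^ 2} ∩ f ⁻¹' {s}) :=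
    hco.preimage_isClosed_of_isClosed hc2.isClosed isClosed_singleton
  exact hc2.of_isClosed_subset hcl inter_subset_left

theorem val_emb : MeasurableEmbedding (Subtype.val : (LX hf).M 0 → E3) :=
  MeasurableEmbedding.subtype_coe (meas_lvl hf)

/-- integrals over `ν` are integrals over `vol` -/
theorem int_nu {ν : Measure E3} (hν : IsNu f s r ν) {W : Type*} [NormedAddCommGroup W]
    [NormedSpace ℝ W] (g : E3 → W) :
    ∫ x, g x ∂ν = ∫ x, g x.1 ∂((LX hf).vol 0) := by
  rw [← nu_eq hf hν]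
  exact (val_emb hf).integral_map g

theorem integrable_nu {ν : Measure E3} (hν : IsNu f s r ν) {W : Type*} [NormedAddCommGroup W]
    {g : E3 → W} (hg : Integrable (fun x : (LX hf).M 0 => g x.1) ((LX hf).vol 0)) :
    Integrable g ν := by
  rw [← nu_eq hf hν]
  exact (val_emb hf).integrable_map_iff.2 hg

theorem integrable_vol {W : Type*} [NormedAddCommGroup W] {g : (LX hf).M 0 → W}
    (hg : Continuous g) {K : Set ((LX hf).M 0)} (hK : IsCompact K) (h0 : ∀ x, x ∉ K → g x = 0) :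
    Integrable g ((LX hf).vol 0) := by
  have := Crest.Agent.R257.Atl_941.isLocallyFinite_vol (X := LX hf) (τ := 0)
  have := Crest.Agent.R257.Atl_941.scM (LX hf) 0
  have hcs : HasCompactSupport g := HasCompactSupport.intro hK h0
  exact hg.integrable_of_hasCompactSupport hcs

include hf in
/-- `IntStmt` (with `0 ≤ r₂`) -/
theorem integrable_lvl {ν : Measure E3} (hν : IsNu f s r ν) {φ : E3 → ℝ} (hφ : CtL f s r φ)
    {r₁ r₂ : ℝ} (h1 : 0 < r₁) (h2 : 0 ≤ r₂) (h3 : r₂ < r)
    (h0 : ∀ x, nsq x ≤ r₁ ^ 2 ∨ r₂ ^ 2 ≤ nsq x → φ x = 0) : Integrable φ ν := by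
  refine integrable_nu hf hν (integrable_vol hf (cont_val hf hφ) (ann_compact hf h1 h2 h3)
    fun x hx => h0 _ ?_)
  by_contra hcon
  push Not at hcon
  exact hx ⟨hcon.1.le, hcon.2.le⟩

theorem pd_real {X Y : Matrix (Fin 2) (Fin 2) ℂ} (hX : X.IsHermitian) (hY : Y.IsHermitian) :
    pd X Y = ((pd X Y).re : ℂ) := by
  have h1 : ∀ i j, (starRingEnd ℂ) (X i j) = X j i := fun i j => hX.apply j i
  have h2 : ∀ i j, (starRingEnd ℂ) (Y i j) = Y j i := fun i j => hY.apply j i
  have h3 : (starRingEnd ℂ) (pd X Y) = pd X Y := by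
    unfold pd
    simp only [map_sub, map_add, map_mul, h1, h2]
    ring
  exact (Complex.conj_eq_iff_real.1 h3).elim fun r hr => by rw [hr, Complex.ofReal_re]

/-- the density in a chart -/
theorem dens_chart {a b : E3 → ℝ} (ha : SmL f s r a) (hb : SmL f s r b) {i : ((LX hf).A 0).ι}
    {x : (LX hf).M 0} (hx : x ∈ (((LX hf).A 0).e i).source) :
    pd (hsf ((LX hf).A 0) (fun x => a x.1) i x) (hsf ((LX hf).A 0) (fun x => b x.1) i x) =
      ((((LX hf).eta 0).w i x * mxd f a b x.1 : ℝ) : ℂ) := by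
  set z := ((LX hf).A 0).e i x with hz
  have hzt : z ∈ (((LX hf).A 0).e i).target := (((LX hf).A 0).e i).map_source hx
  have hzx : (((LX hf).A 0).e i).symm z = x := (((LX hf).A 0).e i).left_inv hx
  have hpe := pe_chart hf i
  have h1 := (Crest.Agent.R257.Ked2_397.denStmt f s r hf.pos hf.an hf.sm _ _ hpe).1 a b
    (ha _ _ hpe) (hb _ _ hpe) z hzt
  have h2 := e2_eta hf hzt
  rw [hzx] at h2
  have h3 : thc hf i z = x.1 := thc_eq hf hx
  rw [h3, ← h2] at h1
  have e1 : hsf ((LX hf).A 0) (fun x => a x.1) i x = cH (fun z => a (thc hf i z)) z :=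
    (Crest.Agent.R273.YauMax_635.cH_eq_hess (smAt ha hpe hzt)).symm
  have e2 : hsf ((LX hf).A 0) (fun x => b x.1) i x = cH (fun z => b (thc hf i z)) z :=
    (Crest.Agent.R273.YauMax_635.cH_eq_hess (smAt hb hpe hzt)).symm
  have ha1 : (cH (fun z => a (thc hf i z)) z).IsHermitian := by
    rw [Crest.Agent.R273.YauMax_635.cH_eq_hess (smAt ha hpe hzt)]
    exact hess_herm (smAt ha hpe hzt)
  have hb1 : (cH (fun z => b (thc hf i z)) z).IsHermitian := by
    rw [Crest.Agent.R273.YauMax_635.cH_eq_hess (smAt hb hpe hzt)]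
    exact hess_herm (smAt hb hpe hzt)
  rw [e1, e2, pd_real ha1 hb1, ← h1, mul_comm]

/-- **the bridge** -/
theorem bridge {ν : Measure E3} (hν : IsNu f s r ν) {φ a b : E3 → ℝ}
    (ha : SmL f s r a) (hb : SmL f s r b) (P : Part ((LX hf).A 0)) {K : Set ((LX hf).M 0)}
    (hK : IsCompact K) (hct : Continuous fun x : (LX hf).M 0 => φ x.1 * mxd f a b x.1)
    (h0 : ∀ x : (LX hf).M 0, x ∉ K → φ x.1 * mxd f a b x.1 = 0) :
    Integrable (fun x => φ x * mxd f a b x) ν ∧
    ((∫ x, φ x * mxd f a b x ∂ν : ℝ) : ℂ) =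
      intD P (fun i x => (φ x.1 : ℂ) * pd (hsf ((LX hf).A 0) (fun x => a x.1) i x)
        (hsf ((LX hf).A 0) (fun x => b x.1) i x)) := by
  have hcI := (LX hf).countable 0
  have hi := integrable_vol hf hct hK h0
  refine ⟨integrable_nu hf hν hi, ?_⟩
  have h1 : ((∫ x, φ x * mxd f a b x ∂ν : ℝ) : ℂ) =
      ∫ x : (LX hf).M 0, ((φ x.1 * mxd f a b x.1 : ℝ) : ℂ) ∂((LX hf).vol 0) := by
    rw [int_nu hf hν]
    exact integral_ofReal.symm
  rw [h1]
  have h2 := integral_vm_intD ((LX hf).eta 0) P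
    (f := fun x : (LX hf).M 0 => ((φ x.1 * mxd f a b x.1 : ℝ) : ℂ)) hi.ofReal hK
    (fun x hx => by rw [h0 x hx, Complex.ofReal_zero])
  refine h2.trans (intD_congr P fun i x hx => ?_)
  rw [dens_chart hf ha hb hx]
  push_cast
  ring

/-- continuity of the densities on the surface -/
theorem cont_mxd {a b : E3 → ℝ} (ha : SmL f s r a) (hb : SmL f s r b) :
    Continuous fun x : (LX hf).M 0 => mxd f a b x.1 := by
  rw [continuous_iff_continuousAt]
  intro x
  set A := (LX hf).A 0 with hA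
  obtain ⟨i, hi⟩ := A.cover x
  have hpe := pe_chart hf i
  have hw : ContinuousOn (fun z => ((LX hf).eta 0).w i ((A.e i).symm z)) (A.e i).target :=
    (((LX hf).eta 0).sm i).continuousOn
  have hc : ∀ {c : E3 → ℝ}, SmL f s r c → ContinuousOn (fun z => cH (fun z => c (thc hf i z)) z)
      (A.e i).target := fun {c} hc => continuousOn_pi.2 fun p => continuousOn_pi.2 fun q =>
    (Crest.Agent.R273.YauLoc_635.contDiffOn_cH hpe.par.isOpen (hc _ _ hpe) p q).continuousOn
  have h1 : ∀ p q, ContinuousOn (fun z => cH (fun z => a (thc hf i z)) z p q) (A.e i).target :=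
    fun p q => continuousOn_pi.1 (continuousOn_pi.1 (hc ha) p) q
  have h2 : ∀ p q, ContinuousOn (fun z => cH (fun z => b (thc hf i z)) z p q) (A.e i).target :=
    fun p q => continuousOn_pi.1 (continuousOn_pi.1 (hc hb) p) q
  have h3 : ContinuousOn (fun z => (pd (cH (fun z => a (thc hf i z)) z)
      (cH (fun z => b (thc hf i z)) z)).re / ((LX hf).eta 0).w i ((A.e i).symm z))
      (A.e i).target := by
    refine ContinuousOn.div ?_ hw fun z hz =>
      (((LX hf).eta 0).pos i _ ((A.e i).map_target hz)).ne'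
    refine Complex.continuous_re.comp_continuousOn ?_
    unfold pd
    exact ((((h1 0 0).mul (h2 1 1)).add ((h1 1 1).mul (h2 0 0))).sub
      ((h1 0 1).mul (h2 1 0))).sub ((h1 1 0).mul (h2 0 1))
  have h4 : ContinuousOn (fun y => (pd (cH (fun z => a (thc hf i z)) (A.e i y))
      (cH (fun z => b (thc hf i z)) (A.e i y))).re / ((LX hf).eta 0).w i ((A.e i).symm (A.e i y)))
      (A.e i).source :=
    h3.comp (A.e i).continuousOn fun y hy => (A.e i).map_source hy
  have h5 : ContinuousOn (fun y : (LX hf).M 0 => mxd f a b y.1) (A.e i).source := by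
    refine h4.congr fun y hy => ?_
    have hz := (A.e i).map_source hy
    have k1 := (Crest.Agent.R257.Ked2_397.denStmt f s r hf.pos hf.an hf.sm _ _ hpe).1 a b
      (ha _ _ hpe) (hb _ _ hpe) _ hz
    rw [← e2_eta hf hz, thc_eq hf hy] at k1
    show mxd f a b y.1 = _ / _
    rw [← k1, mul_div_assoc, div_self (((LX hf).eta 0).pos i _ ((A.e i).map_target hz)).ne',
      mul_one]
  exact h5.continuousAt ((A.e i).open_source.mem_nhds hi)

/-- local constancy on the surface -/
theorem evconst_val {c : E3 → ℝ} {k : ℝ} {x : (LX hf).M 0} (h : ∀ᶠ y in 𝓝 x.1, c y = k) :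
    (fun y : (LX hf).M 0 => c y.1) =ᶠ[𝓝 x] fun _ => k :=
  (continuous_subtype_val.tendsto x).eventually h

/-- **Stokes on a level**: `∫ u ∂∂̄u ∧ ∂∂̄c = ∫ c ∂∂̄u ∧ ∂∂̄u`, `c` with compact support -/
theorem stokes_lvl (hf : LvlOK f s r) {ν : Measure E3} (hν : IsNu f s r ν) {u c : E3 → ℝ}
    (hu : SmL f s r u) (hc : SmL f s r c) {r₁ r₂ : ℝ} (h1 : 0 < r₁) (h2 : 0 ≤ r₂) (h3 : r₂ < r)
    (h0 : ∀ x, nsq x < r₁ ^ 2 ∨ r₂ ^ 2 < nsq x → c x = 0) :
    Integrable (fun x => u x * mxd f u c x) ν ∧ Integrable (fun x => c x * mxd f u u x) ν ∧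
    ∫ x, u x * mxd f u c x ∂ν = ∫ x, c x * mxd f u u x ∂ν := by
  set K : Set ((LX hf).M 0) := {x | r₁ ^ 2 ≤ nsq x.1 ∧ nsq x.1 ≤ r₂ ^ 2} with hKd
  have hK : IsCompact K := ann_compact hf h1 h2 h3
  have hoff : ∀ x : (LX hf).M 0, x ∉ K → ∀ᶠ y in 𝓝 x.1, c y = 0 := by
    intro x hx
    have h4 : nsq x.1 < r₁ ^ 2 ∨ r₂ ^ 2 < nsq x.1 := by
      by_contra hcon
      push Not at hcon
      exact hx hcon
    rcases h4 with h4 | h4
    · filter_upwards [continuous_nsq3.continuousAt.eventually_lt continuousAt_const h4] with y hy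
      exact h0 y (Or.inl hy)
    · filter_upwards [continuousAt_const.eventually_lt continuous_nsq3.continuousAt h4] with y hy
      exact h0 y (Or.inr hy)
  have P := (LX hf).part 0
  have c1 : Continuous fun x : (LX hf).M 0 => u x.1 * mxd f u c x.1 :=
    (cont_val hf fun θ O hθ => (hu θ O hθ).continuousOn).mul (cont_mxd hf hu hc)
  have c2 : Continuous fun x : (LX hf).M 0 => c x.1 * mxd f u u x.1 :=
    (cont_val hf fun θ O hθ => (hc θ O hθ).continuousOn).mul (cont_mxd hf hu hu)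
  obtain ⟨i1, e1⟩ := bridge hf hν (φ := u) hu hc P hK c1 fun x hx => by
    rw [mxd_zero (hoff x hx), mul_zero]
  obtain ⟨i2, e2⟩ := bridge hf hν (φ := c) hu hu P hK c2 fun x hx => by
    rw [(hoff x hx).self_of_nhds, zero_mul]
  refine ⟨i1, i2, ?_⟩
  have e3 := Crest.Agent.R257.MassLe218.tot_parts P (sm_val hf hu) (sm_val hf hc) hK
    (fun x hx => Or.inl (evconst_val hf (hoff x hx)))
    (fun x hx => ⟨0, evconst_val hf (hoff x hx)⟩)
  simp only [Crest.Agent.R257.MassLe218.mx_eq_pd] at e3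
  rw [← e1, ← e2, Complex.ofReal_re, Complex.ofReal_re] at e3
  exact e3.symm

end lvl

end Crest.Agent.R257.Bridge_822
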