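import Crest.Agent.R257.KedM1_941

/-!
# R257 (S0395), helper941: convergence of the integrals over a family of levels

* `unif_iff`   : uniform convergence on a compact set by joint limits
* `box_conv`   : convergence of the integrals in one box
* `conv`       : integrability and convergence of the integrals, compact support off the origin
* **`cvIStmt`**, **`fatStmt`** : `KED_952.CvIStmt`, `KED_952.FatStmt`
-/

set_option autoImplicit false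
set_option linter.unusedSectionVars false

open Set Filter Topology Complex Metric MeasureTheory
open scoped ContDiff Matrix ComplexConjugate ENNReal ComplexOrder Uniformity

namespace Crest.Agent.R257.KedM_941

open Crest.Agent.R275.Geo
open Crest.Agent.R257.Defs_219 (E3)
open Crest.Agent.R257.KED_952
open Crest.Agent.R257.PN_835 (nsq nsq_nonneg nsq_pos continuous_nsq sq_le_nsq)
open Crest.Agent.R257.Aff_835 (eta2a nga gra nga_pos)

noncomputable section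

theorem unif_iff {α ι : Type*} [TopologicalSpace α] {l : Filter ι} {K : Set α} (hK : IsCompact K)
    {F : ι → α → ℝ} {g : α → ℝ} (hg : ContinuousOn g K) :
    TendstoUniformlyOn F g l K ↔
      ∀ x ∈ K, Tendsto (fun q : ι × α => F q.1 q.2) (l ×ˢ 𝓝[K] x) (𝓝 (g x)) := by
  rw [← tendstoLocallyUniformlyOn_iff_tendstoUniformlyOn_of_compact hK,
    tendstoLocallyUniformlyOn_iff_forall_tendsto]
  refine forall₂_congr fun x hx => ?_
  have h1 : Tendsto (fun q : ι × α => g q.2) (l ×ˢ 𝓝[K] x) (𝓝 (g x)) :=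
    (hg x hx).tendsto.comp tendsto_snd
  constructor
  · intro h
    rw [Uniform.tendsto_nhds_right]
    exact (Uniform.tendsto_nhds_right.1 h1).uniformity_trans h
  · intro h
    exact (h1.prodMk_nhds h).mono_right (nhds_le_uniformity _)

theorem int_unif {ι : Type*} {l : Filter ι} {K : Set (Cn 2)} (hK : IsCompact K)
    {F : ι → Cn 2 → ℝ} {g : Cn 2 → ℝ} (hu : TendstoUniformlyOn F g l K)
    (hF : ∀ᶠ i in l, IntegrableOn (F i) K) (hg : IntegrableOn g K) :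
    Tendsto (fun i => ∫ z in K, F i z) l (𝓝 (∫ z in K, g z)) := by
  rw [Metric.tendsto_nhds]
  intro ε hε
  set V : ℝ := volume.real K with hV
  have hV0 : 0 ≤ V := measureReal_nonneg
  have hδ : 0 < ε / (V + 1) := by positivity
  filter_upwards [Metric.tendstoUniformlyOn_iff.1 hu _ hδ, hF] with i h1 h2
  rw [dist_eq_norm, ← integral_sub h2 hg]
  have h3 : ‖∫ z in K, (F i z - g z)‖ ≤ ε / (V + 1) * V := by
    refine norm_setIntegral_le_of_norm_le_const hK.measure_lt_top fun z hz => ?_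
    rw [← dist_eq_norm, dist_comm]
    exact (h1 z hz).le
  refine h3.trans_lt ?_
  rw [div_mul_eq_mul_div, div_lt_iff₀ (by positivity)]
  nlinarith

section box

variable {Φ : E3 × PP → ℂ} {r : ℝ} {τ₀ τ : PP} {O : Set (Cn 2)} {N : Set PP}
  {Θ : Cn 2 × PP → E3} {B : Set E3} {K : Set (Cn 2)} {p : E3 →L[ℂ] Cn 2}
  (hb : Box Φ r τ₀ O N Θ B K p)
include hb

theorem Box.injOn (hτ : τ ∈ N) : InjOn (fun z => Θ (z, τ)) O := by
  intro z hz w hw hzw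
  have h1 := congrArg p hzw
  simp only at h1
  rwa [hb.inv τ hτ z hz, hb.inv τ hτ w hw] at h1

theorem Box.zero (hτ : τ ∈ N) {φ : E3 → ℝ} (hz : ∀ x ∉ B, φ x = 0) {z : Cn 2}
    (hzO : z ∈ O) (hzK : z ∉ K) : φ (Θ (z, τ)) = 0 := by
  by_contra h
  have hB : Θ (z, τ) ∈ B := by
    by_contra hB
    exact h (hz _ hB)
  have h1 := (hb.sur τ hτ _ hB ((hb.ch.par τ hτ).par.lvl z hzO)).1
  rw [hb.inv τ hτ z hzO] at h1
  exact hzK h1

theorem Box.contOn (hτ : τ ∈ N) {φ : E3 → ℝ}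
    (hc : ContinuousOn φ (L (fun x => Φ (x, τ)) 0 r)) :
    ContinuousOn (fun z => φ (Θ (z, τ))) O := contOn_ctL hc _ _ (hb.ch.par τ hτ)

/-- integrals over one level -/
theorem Box.int (hτ : τ ∈ N) (hG : Gd (fun x => Φ (x, τ)) 0 r) {ν : Measure E3}
    (hν : IsNu (fun x => Φ (x, τ)) 0 r ν) {φ : E3 → ℝ}
    (hc : ContinuousOn φ (L (fun x => Φ (x, τ)) 0 r)) (hz : ∀ x ∉ B, φ x = 0) :
    Integrable φ ν ∧
      IntegrableOn (fun z => eta2a (n := 2) (fun x => Φ (x, τ)) (fun z => Θ (z, τ)) z *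
        φ (Θ (z, τ))) K ∧
      ∫ x, φ x ∂ν = ∫ z in K, eta2a (n := 2) (fun x => Φ (x, τ)) (fun z => Θ (z, τ)) z *
        φ (Θ (z, τ)) := by
  have h := hb.ch.par τ hτ
  have hi := hb.injOn hτ
  have hO : MeasurableSet O := h.par.isOpen.measurableSet
  have hae : ∀ᵐ x ∂ν, x ∉ (fun z => Θ (z, τ)) '' O → φ x = 0 := by
    filter_upwards [ae_L hν] with x hx hxO
    by_contra hne
    have hxB : x ∈ B := by
      by_contra hB
      exact hne (hz _ hB)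
    obtain ⟨h1, h2⟩ := hb.sur τ hτ x hxB hx.1
    exact hxO ⟨p x, hb.sub h1, h2⟩
  have hcO : ContinuousOn (fun z => eta2a (n := 2) (fun x => Φ (x, τ)) (fun z => Θ (z, τ)) z *
      φ (Θ (z, τ))) O := (contOn_eta hG h).mul (hb.contOn hτ hc)
  have hzero : ∀ z ∈ O \ K, eta2a (n := 2) (fun x => Φ (x, τ)) (fun z => Θ (z, τ)) z *
      φ (Θ (z, τ)) = 0 := fun z hz' => by
    rw [hb.zero hτ hz hz'.1 hz'.2, mul_zero]
  have hIK : IntegrableOn (fun z => eta2a (n := 2) (fun x => Φ (x, τ)) (fun z => Θ (z, τ)) z *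
      φ (Θ (z, τ))) K := (hcO.mono hb.sub).integrableOn_compact hb.cpt
  have hIO : IntegrableOn (fun z => eta2a (n := 2) (fun x => Φ (x, τ)) (fun z => Θ (z, τ)) z *
      φ (Θ (z, τ))) O := hIK.of_forall_sdiff_eq_zero hO hzero
  have hm := aem_of_contOn hG hν hc
  refine ⟨(integrable_par hG hν h hi hm hIO).integrable_of_ae_notMem_eq_zero hae, hIK, ?_⟩
  rw [← setIntegral_eq_integral_of_ae_compl_eq_zero hae, int_par hG hν h hi hm]
  exact setIntegral_eq_of_subset_of_forall_sdiff_eq_zero hO hb.sub hzero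

/-- joint limits of the density -/
theorem Box.tend_eta (hτ₀ : τ₀ ∈ N) {l : Filter PP} (hl : l ≤ 𝓝 τ₀)
    (han : ∀ x, nsq x < r ^ 2 → AnalyticAt ℂ Φ (x, τ₀)) (hG₀ : Gd (fun x => Φ (x, τ₀)) 0 r)
    {z : Cn 2} (hz : z ∈ O) :
    Tendsto (fun q : PP × Cn 2 => eta2a (n := 2) (fun x => Φ (x, q.1)) (fun z => Θ (z, q.1)) q.2)
      (l ×ˢ 𝓝 z) (𝓝 (eta2a (n := 2) (fun x => Φ (x, τ₀)) (fun z => Θ (z, τ₀)) z)) := by
  have h := hb.ch.par τ₀ hτ₀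
  have h1 : AnalyticAt ℂ Θ (z, τ₀) := hb.ch.an (z, τ₀) ⟨hz, hτ₀⟩
  have h4 : nsq (Θ (z, τ₀)) < r ^ 2 := h.lt z hz
  have h5 : AnalyticAt ℂ Φ (Θ (z, τ₀), τ₀) := han _ h4
  have h6 : fderiv ℂ (fun x => Φ (x, τ₀)) (Θ (z, τ₀)) ≠ 0 :=
    hG₀.ne _ (h.ne z hz) h4 (h.par.lvl z hz)
  have h2 : Tendsto (fun q : Cn 2 × PP =>
      eta2a (n := 2) (fun x => Φ (x, q.2)) (fun z => Θ (z, q.2)) q.1) (𝓝 (z, τ₀))
      (𝓝 (eta2a (n := 2) (fun x => Φ (x, τ₀)) (fun z => Θ (z, τ₀)) z)) :=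
    contAt_eta (q₀ := (z, τ₀)) h1 h5 h6
  have h3 : Tendsto (fun q : PP × Cn 2 => (q.2, q.1)) (l ×ˢ 𝓝 z) (𝓝 (z, τ₀)) := by
    rw [nhds_prod_eq]
    exact tendsto_snd.prodMk (tendsto_fst.mono_right hl)
  have h7 := Tendsto.comp h2 h3
  exact h7

theorem Box.tend_th (hτ₀ : τ₀ ∈ N) {l : Filter PP} (hl : l ≤ 𝓝 τ₀) {z : Cn 2} (hz : z ∈ O) :
    Tendsto (fun q : PP × Cn 2 => Θ (q.2, q.1)) (l ×ˢ 𝓝 z) (𝓝 (Θ (z, τ₀))) := by
  have h1 : AnalyticAt ℂ Θ (z, τ₀) := hb.ch.an (z, τ₀) ⟨hz, hτ₀⟩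
  have h3 : Tendsto (fun q : PP × Cn 2 => (q.2, q.1)) (l ×ˢ 𝓝 z) (𝓝 (z, τ₀)) := by
    rw [nhds_prod_eq]
    exact tendsto_snd.prodMk (tendsto_fst.mono_right hl)
  exact h1.continuousAt.tendsto.comp h3

/-- **convergence in one box** -/
theorem Box.conv (hτ₀ : τ₀ ∈ N) {l : Filter PP} (hl : l ≤ 𝓝 τ₀)
    (han : ∀ x, nsq x < r ^ 2 → AnalyticAt ℂ Φ (x, τ₀)) (hG₀ : Gd (fun x => Φ (x, τ₀)) 0 r)
    (hG : ∀ᶠ τ in l, Gd (fun x => Φ (x, τ)) 0 r) {ν : PP → Measure E3} {ν₀ : Measure E3}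
    (hν : ∀ᶠ τ in l, IsNu (fun x => Φ (x, τ)) 0 r (ν τ)) (hν₀ : IsNu (fun x => Φ (x, τ₀)) 0 r ν₀)
    {φ : PP → E3 → ℝ} {φ₀ : E3 → ℝ}
    (hc : ∀ᶠ τ in l, ContinuousOn (φ τ) (L (fun x => Φ (x, τ)) 0 r))
    (hc₀ : ContinuousOn φ₀ (L (fun x => Φ (x, τ₀)) 0 r))
    (hz : ∀ᶠ τ in l, ∀ x ∉ B, φ τ x = 0) (hz₀ : ∀ x ∉ B, φ₀ x = 0)
    (hu : TendstoUniformlyOn (fun τ z => φ τ (Θ (z, τ))) (fun z => φ₀ (Θ (z, τ₀))) l K) :
    Integrable φ₀ ν₀ ∧ (∀ᶠ τ in l, Integrable (φ τ) (ν τ)) ∧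
      Tendsto (fun τ => ∫ x, φ τ x ∂(ν τ)) l (𝓝 (∫ x, φ₀ x ∂ν₀)) := by
  have hNl : ∀ᶠ τ in l, τ ∈ N := hl (hb.openN.mem_nhds hτ₀)
  obtain ⟨i1, i2, i3⟩ := hb.int hτ₀ hG₀ hν₀ hc₀ hz₀
  have hev : ∀ᶠ τ in l, Integrable (φ τ) (ν τ) ∧
      IntegrableOn (fun z => eta2a (n := 2) (fun x => Φ (x, τ)) (fun z => Θ (z, τ)) z *
        φ τ (Θ (z, τ))) K ∧
      ∫ x, φ τ x ∂(ν τ) = ∫ z in K, eta2a (n := 2) (fun x => Φ (x, τ)) (fun z => Θ (z, τ)) z *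
        φ τ (Θ (z, τ)) := by
    filter_upwards [hNl, hG, hν, hc, hz] with τ a1 a2 a3 a4 a5
    exact hb.int a1 a2 a3 a4 a5
  refine ⟨i1, hev.mono fun τ h => h.1, ?_⟩
  rw [i3]
  have hcont : ContinuousOn (fun z => φ₀ (Θ (z, τ₀))) K := (hb.contOn hτ₀ hc₀).mono hb.sub
  have hconte : ContinuousOn
      (fun z => eta2a (n := 2) (fun x => Φ (x, τ₀)) (fun z => Θ (z, τ₀)) z) K :=
    (contOn_eta hG₀ (hb.ch.par τ₀ hτ₀)).mono hb.sub
  have hU : TendstoUniformlyOn (fun τ z =>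
      eta2a (n := 2) (fun x => Φ (x, τ)) (fun z => Θ (z, τ)) z * φ τ (Θ (z, τ)))
      (fun z => eta2a (n := 2) (fun x => Φ (x, τ₀)) (fun z => Θ (z, τ₀)) z * φ₀ (Θ (z, τ₀)))
      l K := by
    refine (unif_iff hb.cpt (hconte.mul hcont)).2 ?_
    intro z hzK
    refine Tendsto.mul ?_ ((unif_iff hb.cpt hcont).1 hu z hzK)
    exact (hb.tend_eta hτ₀ hl han hG₀ (hb.sub hzK)).mono_left
      (Filter.prod_mono le_rfl nhdsWithin_le_nhds)
  refine (int_unif hb.cpt hU (hev.mono fun τ h => h.2.1) i2).congr' ?_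
  filter_upwards [hev] with τ h
  exact h.2.2.symm

end box

/-! ### families -/

theorem isCompact_cball (c : ℝ) : IsCompact {x : E3 | nsq x ≤ c} := by
  refine Metric.isCompact_of_isClosed_isBounded (isClosed_le continuous_nsq continuous_const) ?_
  refine (Metric.isBounded_iff_subset_closedBall 0).2 ⟨Real.sqrt c, fun x hx => ?_⟩
  rw [mem_closedBall_zero_iff]
  refine (pi_norm_le_iff_of_nonneg (Real.sqrt_nonneg _)).2 fun k => ?_
  exact Real.le_sqrt_of_sq_le ((sq_le_nsq x k).trans hx)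

section fam

variable {Φ : E3 × PP → ℂ} {τ₀ : PP} {l : Filter PP} {r : ℝ}

theorem ev_an (han : ∀ x, nsq x ≤ r ^ 2 → AnalyticAt ℂ Φ (x, τ₀)) :
    ∀ᶠ τ in 𝓝 τ₀, ∀ x, nsq x ≤ r ^ 2 → AnalyticAt ℂ Φ (x, τ) := by
  refine (isCompact_cball (r ^ 2)).eventually_forall_of_forall_eventually
    (P := fun τ x => AnalyticAt ℂ Φ (x, τ)) fun x hx => ?_
  have h1 : ∀ᶠ q in 𝓝 (x, τ₀), AnalyticAt ℂ Φ q := (han x hx).eventually_analyticAt
  exact (continuous_swap.tendsto (τ₀, x)).eventually h1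

theorem an_slice {x : E3} {τ : PP} (h : AnalyticAt ℂ Φ (x, τ)) :
    AnalyticAt ℂ (fun x => Φ (x, τ)) x :=
  AnalyticAt.fun_comp (g := Φ) (f := fun x => (x, τ)) h (analyticAt_id.prod analyticAt_const)

theorem gd₀ (hF : Fam Φ τ₀ l r) : Gd (fun x => Φ (x, τ₀)) 0 r :=
  ⟨fun x hx => an_slice (hF.an x hx.le), fun x h0 hx he => hF.sm0 x h0 hx.le he⟩

theorem ev_gd (hF : Fam Φ τ₀ l r) : ∀ᶠ τ in l, Gd (fun x => Φ (x, τ)) 0 r := by
  filter_upwards [hF.lim (ev_an hF.an), hF.sm] with τ h1 h2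
  exact ⟨fun x hx => an_slice (h1 x hx.le), fun x h0 hx he => h2 x h0 hx.le he⟩

/-- the part of the level between two radii is compact, and stays near -/
theorem isCompact_part (hF : Fam Φ τ₀ l r) {r₁ r₂ : ℝ} (h2 : 0 < r₂) (h3 : r₂ < r) :
    IsCompact {x : E3 | (r₁ ^ 2 ≤ nsq x ∧ nsq x ≤ r₂ ^ 2) ∧ Φ (x, τ₀) = 0} := by
  have hA : IsCompact {x : E3 | r₁ ^ 2 ≤ nsq x ∧ nsq x ≤ r₂ ^ 2} :=
    (isCompact_cball (r₂ ^ 2)).inter_left (isClosed_le continuous_const continuous_nsq)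
  have h4 : r₂ ^ 2 ≤ r ^ 2 := by nlinarith
  have hc : ContinuousOn (fun x => Φ (x, τ₀)) {x : E3 | r₁ ^ 2 ≤ nsq x ∧ nsq x ≤ r₂ ^ 2} :=
    fun x hx => (an_slice (hF.an x (hx.2.trans h4))).continuousAt.continuousWithinAt
  exact hA.of_isClosed_subset (hc.preimage_isClosed_of_isClosed hA.isClosed isClosed_singleton)
    fun x hx => hx.1

theorem ev_near (hF : Fam Φ τ₀ l r) {r₁ r₂ : ℝ} (h2 : 0 < r₂) (h3 : r₂ < r) {V : Set E3}
    (hV : IsOpen V)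
    (hK : {x : E3 | (r₁ ^ 2 ≤ nsq x ∧ nsq x ≤ r₂ ^ 2) ∧ Φ (x, τ₀) = 0} ⊆ V) :
    ∀ᶠ τ in 𝓝 τ₀, ∀ x, r₁ ^ 2 ≤ nsq x → nsq x ≤ r₂ ^ 2 → Φ (x, τ) = 0 → x ∈ V := by
  have hA0 : IsCompact {x : E3 | r₁ ^ 2 ≤ nsq x ∧ nsq x ≤ r₂ ^ 2} :=
    (isCompact_cball (r₂ ^ 2)).inter_left (isClosed_le continuous_const continuous_nsq)
  have hA : IsCompact ({x : E3 | r₁ ^ 2 ≤ nsq x ∧ nsq x ≤ r₂ ^ 2} \ V) := hA0.diff hV
  have h4 : r₂ ^ 2 ≤ r ^ 2 := by nlinarith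
  have h5 : ∀ᶠ τ in 𝓝 τ₀, ∀ x ∈ {x : E3 | r₁ ^ 2 ≤ nsq x ∧ nsq x ≤ r₂ ^ 2} \ V, Φ (x, τ) ≠ 0 := by
    refine hA.eventually_forall_of_forall_eventually (P := fun τ x => Φ (x, τ) ≠ 0)
      fun x hx => ?_
    have h0 : Φ (x, τ₀) ≠ 0 := fun h => hx.2 (hK ⟨hx.1, h⟩)
    have h1 : ∀ᶠ q in 𝓝 (x, τ₀), Φ q ≠ 0 :=
      (hF.an x (hx.1.2.trans h4)).continuousAt.eventually_ne h0
    exact (continuous_swap.tendsto (τ₀, x)).eventually h1
  filter_upwards [h5] with τ h x a1 a2 a3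
  by_contra hx
  exact h x ⟨⟨a1, a2⟩, hx⟩ a3

/-- **integrability and convergence of the integrals** -/
theorem conv (hF : Fam Φ τ₀ l r) {ν : PP → Measure E3} {ν₀ : Measure E3}
    (hν : ∀ᶠ τ in l, IsNu (fun x => Φ (x, τ)) 0 r (ν τ)) (hν₀ : IsNu (fun x => Φ (x, τ₀)) 0 r ν₀)
    {φ : PP → E3 → ℝ} {φ₀ : E3 → ℝ} (hc : ∀ᶠ τ in l, CtL (fun x => Φ (x, τ)) 0 r (φ τ))
    (hc₀ : CtL (fun x => Φ (x, τ₀)) 0 r φ₀) (hv : Cv0 Φ r l τ₀ φ φ₀) {r₁ r₂ : ℝ} (hr₁ : 0 < r₁)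
    (hr₂ : 0 < r₂) (h2r : r₂ < r)
    (hs : ∀ᶠ τ in l, ∀ x, Φ (x, τ) = 0 → nsq x ≤ r₁ ^ 2 ∨ r₂ ^ 2 ≤ nsq x → φ τ x = 0)
    (hs₀ : ∀ x, Φ (x, τ₀) = 0 → nsq x ≤ r₁ ^ 2 ∨ r₂ ^ 2 ≤ nsq x → φ₀ x = 0) :
    Integrable φ₀ ν₀ ∧ (∀ᶠ τ in l, Integrable (φ τ) (ν τ)) ∧
      Tendsto (fun τ => ∫ x, φ τ x ∂(ν τ)) l (𝓝 (∫ x, φ₀ x ∂ν₀)) := by
  have hr : r₂ ^ 2 < r ^ 2 := by nlinarith
  have hG₀ := gd₀ hF
  have hG := ev_gd hF
  have han : ∀ x, nsq x < r ^ 2 → AnalyticAt ℂ Φ (x, τ₀) := fun x hx => hF.an x hx.le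
  set A : Set E3 := {x : E3 | (r₁ ^ 2 ≤ nsq x ∧ nsq x ≤ r₂ ^ 2) ∧ Φ (x, τ₀) = 0} with hA
  have hAc : IsCompact A := isCompact_part hF hr₂ h2r
  -- boxes
  have hbox : ∀ x₀ : E3, ∃ (O : Set (Cn 2)) (N : Set PP) (Θ : Cn 2 × PP → E3) (B : Set E3)
      (K : Set (Cn 2)) (p : E3 →L[ℂ] Cn 2), x₀ ∈ A → (x₀ ∈ B ∧ τ₀ ∈ N ∧ Box Φ r τ₀ O N Θ B K p) := by
    intro x₀
    by_cases hx : x₀ ∈ A
    · have hx0 : x₀ ≠ 0 := by
        rintro rfl
        have h1 := hx.1.1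
        have h2 : nsq (0 : E3) = 0 := by simp [nsq]
        rw [h2] at h1
        nlinarith
      have hxr : nsq x₀ < r ^ 2 := hx.1.2.trans_lt hr
      obtain ⟨O, N, Θ, B, K, p, h1, h2, h3⟩ :=
        exists_box (han x₀ hxr) hx.2 hx0 hxr (hG₀.ne x₀ hx0 hxr hx.2)
      exact ⟨O, N, Θ, B, K, p, fun _ => ⟨h1, h2, h3⟩⟩
    · exact ⟨∅, ∅, fun _ => 0, ∅, ∅, 0, fun h => absurd h hx⟩
  choose O N Θ B K p hbox using hbox
  obtain ⟨t, htA, htc⟩ := hAc.elim_nhds_subcover B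
    fun x hx => (hbox x hx).2.2.openB.mem_nhds (hbox x hx).1
  -- partition of unity
  let e := t.equivFin
  let c : Fin t.card → E3 := fun i => (e.symm i).1
  have hcA : ∀ i, c i ∈ A := fun i => htA _ (e.symm i).2
  have hb : ∀ i, Box Φ r τ₀ (O (c i)) (N (c i)) (Θ (c i)) (B (c i)) (K (c i)) (p (c i)) :=
    fun i => (hbox _ (hcA i)).2.2
  have hτN : ∀ i, τ₀ ∈ N (c i) := fun i => (hbox _ (hcA i)).2.1
  have hcov : A ⊆ ⋃ i, B (c i) := by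
    intro x hx
    obtain ⟨y, hy, hxy⟩ := mem_iUnion₂.1 (htc hx)
    refine mem_iUnion.2 ⟨e ⟨y, hy⟩, ?_⟩
    have h1 : c (e ⟨y, hy⟩) = y := by simp [c]
    rw [h1]
    exact hxy
  obtain ⟨L', hL'c, hAL', hL'U⟩ := exists_compact_between hAc
    (isOpen_iUnion fun i => (hb i).openB) hcov
  obtain ⟨f, hf1, hf2, -, -⟩ := exists_continuous_sum_one_of_isOpen_isCompact
    (fun i => (hb i).openB) hL'c hL'U
  have hsum : ∀ x ∈ L', ∑ i, f i x = 1 := fun x hx => by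
    have := hf2 hx
    simpa using this
  have hfz : ∀ i, ∀ x ∉ B (c i), f i x = 0 := fun i x hx =>
    image_eq_zero_of_notMem_tsupport fun h => hx (hf1 i h)
  -- each piece
  have hpiece : ∀ i, Integrable (fun x => f i x * φ₀ x) ν₀ ∧
      (∀ᶠ τ in l, Integrable (fun x => f i x * φ τ x) (ν τ)) ∧
      Tendsto (fun τ => ∫ x, f i x * φ τ x ∂(ν τ)) l (𝓝 (∫ x, f i x * φ₀ x ∂ν₀)) := by
    intro i
    refine (hb i).conv (hτN i) hF.lim han hG₀ hG hν hν₀ (φ := fun τ x => f i x * φ τ x)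
      (φ₀ := fun x => f i x * φ₀ x) ?_ ?_ ?_ ?_ ?_
    · filter_upwards [hG, hc] with τ a1 a2
      exact (f i).continuous.continuousOn.mul (ctL_contOn a1 a2)
    · exact (f i).continuous.continuousOn.mul (ctL_contOn hG₀ hc₀)
    · refine Eventually.of_forall fun τ x hx => ?_
      rw [hfz i x hx, zero_mul]
    · intro x hx
      rw [hfz i x hx, zero_mul]
    · have h1 : ContinuousOn (fun z => φ₀ (Θ (c i) (z, τ₀))) (K (c i)) :=
        ((hb i).contOn (hτN i) (ctL_contOn hG₀ hc₀)).mono (hb i).sub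
      have h2 : ContinuousOn (fun z => f i (Θ (c i) (z, τ₀))) (K (c i)) :=
        ((hb i).contOn (hτN i) (f i).continuous.continuousOn).mono (hb i).sub
      refine (unif_iff (hb i).cpt (h2.mul h1)).2 fun z hz => ?_
      refine Tendsto.mul ?_ ((unif_iff (hb i).cpt h1).1
        (hv _ _ _ (hb i).ch _ (hb i).sub (hb i).cpt) z hz)
      have h3 := (hb i).tend_th (hτN i) hF.lim ((hb i).sub hz)
      exact (((f i).continuous.tendsto _).comp h3).mono_left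
        (Filter.prod_mono le_rfl nhdsWithin_le_nhds)
  -- the sum
  have hnear : ∀ᶠ τ in l, ∀ x, r₁ ^ 2 ≤ nsq x → nsq x ≤ r₂ ^ 2 → Φ (x, τ) = 0 → x ∈ interior L' :=
    hF.lim (ev_near hF hr₂ h2r isOpen_interior hAL')
  have hsplit : ∀ {τ : PP} {ψ : E3 → ℝ},
      (∀ x, r₁ ^ 2 ≤ nsq x → nsq x ≤ r₂ ^ 2 → Φ (x, τ) = 0 → x ∈ interior L') →
      (∀ x, Φ (x, τ) = 0 → nsq x ≤ r₁ ^ 2 ∨ r₂ ^ 2 ≤ nsq x → ψ x = 0) →
      ∀ x ∈ L (fun x => Φ (x, τ)) 0 r, ψ x = ∑ i, f i x * ψ x := by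
    intro τ ψ a1 a2 x hx
    rw [← Finset.sum_mul]
    by_cases h : nsq x ≤ r₁ ^ 2 ∨ r₂ ^ 2 ≤ nsq x
    · rw [a2 x hx.1 h, mul_zero]
    · push Not at h
      rw [hsum x (interior_subset (a1 x h.1.le h.2.le hx.1)), one_mul]
  have hae₀ : φ₀ =ᵐ[ν₀] fun x => ∑ i, f i x * φ₀ x := by
    filter_upwards [ae_L hν₀] with x hx
    exact hsplit (fun x b1 b2 b3 => hAL' ⟨⟨b1, b2⟩, b3⟩) hs₀ x hx
  have hae : ∀ᶠ τ in l, φ τ =ᵐ[ν τ] fun x => ∑ i, f i x * φ τ x := by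
    filter_upwards [hnear, hs, hν] with τ a1 a2 a3
    filter_upwards [ae_L a3] with x hx
    exact hsplit a1 a2 x hx
  have hI : ∀ᶠ τ in l, ∀ i, Integrable (fun x => f i x * φ τ x) (ν τ) :=
    eventually_all.2 fun i => (hpiece i).2.1
  refine ⟨?_, ?_, ?_⟩
  · exact (integrable_finsetSum Finset.univ fun i _ => (hpiece i).1).congr hae₀.symm
  · filter_upwards [hae, hI] with τ a1 a2
    exact (integrable_finsetSum Finset.univ fun i _ => a2 i).congr a1.symm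
  · have h1 : ∫ x, φ₀ x ∂ν₀ = ∑ i, ∫ x, f i x * φ₀ x ∂ν₀ := by
      rw [integral_congr_ae hae₀, integral_finsetSum Finset.univ fun i _ => (hpiece i).1]
    rw [h1]
    refine (tendsto_finsetSum Finset.univ fun i _ => (hpiece i).2.2).congr' ?_
    filter_upwards [hae, hI] with τ a1 a2
    rw [integral_congr_ae a1, integral_finsetSum Finset.univ fun i _ => a2 i]

end fam

/-- **`KED_952.CvIStmt`** -/
theorem cvIStmt : CvIStmt := by
  intro Φ τ₀ l r hF ν ν₀ hν hν₀ φ φ₀ hc hc₀ hv ⟨r₁, r₂, h1, h2, h3, h4⟩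
  exact (conv hF hν hν₀ hc hc₀ hv h1 h2 h3
    (Eventually.of_forall fun τ x _ hx => (h4 x hx).1 τ) fun x _ hx => (h4 x hx).2).2.2

/-! ### Fatou -/

/-- distance to the boundary of the punctured ball -/
def gx (r : ℝ) (x : E3) : ℝ := min (nsq x) (r ^ 2 - nsq x)

/-- cut-off functions exhausting the punctured ball -/
def cf (r : ℝ) (n : ℕ) (x : E3) : ℝ := min 1 (max 0 (n * gx r x - 1))

theorem continuous_cf (r : ℝ) (n : ℕ) : Continuous (cf r n) := by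
  have h1 : Continuous (nsq : E3 → ℝ) := continuous_nsq
  unfold cf gx
  fun_prop

theorem cf_nonneg (r : ℝ) (n : ℕ) (x : E3) : 0 ≤ cf r n x :=
  le_min zero_le_one (le_max_left _ _)

theorem cf_le (r : ℝ) (n : ℕ) (x : E3) : cf r n x ≤ 1 := min_le_left _ _

theorem cf_mono (r : ℝ) (x : E3) : Monotone fun n => cf r n x := by
  intro n k hnk
  have h1 : (n : ℝ) ≤ k := by exact_mod_cast hnk
  have hn : (0 : ℝ) ≤ n := by positivity
  have hk : (0 : ℝ) ≤ k := by positivity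
  refine min_le_min le_rfl ?_
  rcases le_total 0 (gx r x) with h | h
  · refine max_le_max le_rfl ?_
    nlinarith
  · refine max_le (le_max_left _ _) ?_
    have : (n : ℝ) * gx r x ≤ 0 := mul_nonpos_of_nonneg_of_nonpos hn h
    exact le_trans (by linarith) (le_max_left _ _)

theorem cf_eventually {r : ℝ} {x : E3} (h : 0 < gx r x) : ∀ᶠ n in atTop, cf r n x = 1 := by
  have h1 : Tendsto (fun n : ℕ => (n : ℝ) * gx r x) atTop atTop :=
    tendsto_natCast_atTop_atTop.atTop_mul_const h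
  filter_upwards [h1.eventually_ge_atTop 2] with n hn
  unfold cf
  rw [max_eq_right (by linarith), min_eq_left (by linarith)]

theorem cf_ne {r : ℝ} {n : ℕ} {x : E3} (h : cf r n x ≠ 0) : 1 < n * gx r x := by
  by_contra hcon
  push Not at hcon
  apply h
  unfold cf
  rw [max_eq_left (by linarith), min_eq_right zero_le_one]

theorem gx_pos {f : E3 → ℂ} {s : ℂ} {r : ℝ} {x : E3} (h : x ∈ L f s r) : 0 < gx r x :=
  lt_min (nsq_pos h.2.1) (sub_pos.2 h.2.2)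

theorem cv0_cut {Φ : E3 × PP → ℂ} {r : ℝ} {l : Filter PP} {τ₀ : PP} (hl : l ≤ 𝓝 τ₀)
    {φ : PP → E3 → ℝ} {φ₀ : E3 → ℝ} (hc₀ : CtL (fun x => Φ (x, τ₀)) 0 r φ₀)
    (hv : Cv0 Φ r l τ₀ φ φ₀) {g : E3 → ℝ} (hg : Continuous g) {h : ℝ → ℝ} (hh : Continuous h) :
    Cv0 Φ r l τ₀ (fun τ x => g x * h (φ τ x)) (fun x => g x * h (φ₀ x)) := by
  intro O N Θ hch K hKO hK
  have hτ : τ₀ ∈ N := mem_of_mem_nhds hch.nhd
  have hc1 : ContinuousOn (fun z => φ₀ (Θ (z, τ₀))) K := (hc₀ _ _ (hch.par τ₀ hτ)).mono hKO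
  have hc2 : ContinuousOn (fun z => Θ (z, τ₀)) K := (hch.par τ₀ hτ).par.hol.continuousOn.mono hKO
  refine (unif_iff hK ((hg.comp_continuousOn hc2).mul (hh.comp_continuousOn hc1))).2 fun z hz => ?_
  have h1 : AnalyticAt ℂ Θ (z, τ₀) := hch.an (z, τ₀) ⟨hKO hz, hτ⟩
  have h3 : Tendsto (fun q : PP × Cn 2 => (q.2, q.1)) (l ×ˢ 𝓝[K] z) (𝓝 (z, τ₀)) := by
    rw [nhds_prod_eq]
    exact (tendsto_snd.mono_right nhdsWithin_le_nhds).prodMk (tendsto_fst.mono_right hl)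
  have h4 : Tendsto (fun q : PP × Cn 2 => Θ (q.2, q.1)) (l ×ˢ 𝓝[K] z) (𝓝 (Θ (z, τ₀))) :=
    h1.continuousAt.tendsto.comp h3
  exact ((hg.tendsto _).comp h4).mul
    ((hh.tendsto _).comp ((unif_iff hK hc1).1 (hv O N Θ hch K hKO hK) z hz))

theorem ctL_cut {f : E3 → ℂ} {s : ℂ} {r : ℝ} {φ : E3 → ℝ} (hφ : CtL f s r φ) {g : E3 → ℝ}
    (hg : Continuous g) {h : ℝ → ℝ} (hh : Continuous h) : CtL f s r (fun x => g x * h (φ x)) :=
  fun θ O hp => (hg.comp_continuousOn hp.par.hol.continuousOn).mul (hh.comp_continuousOn (hφ θ O hp))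

/-- **`KED_952.FatStmt`** -/
theorem fatStmt : FatStmt := by
  intro Φ τ₀ l r hF ν ν₀ hν hν₀ φ φ₀ hc hc₀ hv c hlt
  have hG₀ := gd₀ hF
  have hm : AEMeasurable φ₀ ν₀ := aem_of_ctL hG₀ hν₀ hc₀
  have hr := hF.r_pos
  -- a cut-off
  obtain ⟨n, hn⟩ : ∃ n : ℕ, c < ∫⁻ x, ENNReal.ofReal (cf r n x * φ₀ x) ∂ν₀ := by
    have h1 : Tendsto (fun n : ℕ => ∫⁻ x, ENNReal.ofReal (cf r n x * φ₀ x) ∂ν₀) atTop
        (𝓝 (∫⁻ x, ENNReal.ofReal (φ₀ x) ∂ν₀)) := by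
      refine lintegral_tendsto_of_tendsto_of_monotone (fun n => ?_) ?_ ?_
      · exact ((continuous_cf r n).measurable.aemeasurable.mul hm).ennreal_ofReal
      · refine Eventually.of_forall fun x a b hab => ?_
        simp only
        rw [ENNReal.ofReal_mul (cf_nonneg _ _ _), ENNReal.ofReal_mul (cf_nonneg _ _ _)]
        gcongr
        exact cf_mono r x hab
      · filter_upwards [ae_L hν₀] with x hx
        refine tendsto_const_nhds.congr' ?_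
        filter_upwards [cf_eventually (gx_pos hx)] with k hk
        rw [hk, one_mul]
    exact (h1.eventually (lt_mem_nhds hlt)).exists
  have hn0 : n ≠ 0 := by
    rintro rfl
    have h1 : ∀ x : E3, cf r 0 x = 0 := fun x => by
      by_contra h
      have := cf_ne h
      simp at this
      linarith
    simp [h1] at hn
  have hnp : (0 : ℝ) < n := by positivity
  have hrn : 0 < r ^ 2 - 1 / n := by
    by_contra hcon
    push Not at hcon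
    have h1 : ∀ x : E3, cf r n x = 0 := fun x => by
      by_contra h
      have h2 := cf_ne h
      have h3 : 1 / (n : ℝ) < gx r x := by
        rw [div_lt_iff₀ hnp, mul_comm]
        exact h2
      have h4 : gx r x ≤ r ^ 2 - nsq x := min_le_right _ _
      have h5 := nsq_nonneg x
      linarith
    simp [h1] at hn
  set r₁ : ℝ := Real.sqrt (1 / n) with hr₁
  set r₂ : ℝ := Real.sqrt (r ^ 2 - 1 / n) with hr₂
  have hr₁p : 0 < r₁ := Real.sqrt_pos.2 (by positivity)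
  have hr₂p : 0 < r₂ := Real.sqrt_pos.2 hrn
  have hr₂r : r₂ < r := by
    rw [hr₂, Real.sqrt_lt' hr]
    have : 0 < 1 / (n : ℝ) := by positivity
    linarith
  have e1 : r₁ ^ 2 = 1 / n := Real.sq_sqrt (by positivity)
  have e2 : r₂ ^ 2 = r ^ 2 - 1 / n := Real.sq_sqrt hrn.le
  have hsupp : ∀ x : E3, nsq x ≤ r₁ ^ 2 ∨ r₂ ^ 2 ≤ nsq x → cf r n x = 0 := by
    intro x hx
    by_contra h
    have h3 : 1 / (n : ℝ) < gx r x := by
      rw [div_lt_iff₀ hnp, mul_comm]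
      exact cf_ne h
    have h4 : gx r x ≤ r ^ 2 - nsq x := min_le_right _ _
    have h5 : gx r x ≤ nsq x := min_le_left _ _
    rw [e1, e2] at hx
    rcases hx with hx | hx <;> linarith
  -- convergence
  have hmx : Continuous fun y : ℝ => max y 0 := by fun_prop
  obtain ⟨i1, i2, i3⟩ := conv hF hν hν₀ (φ := fun τ x => cf r n x * max (φ τ x) 0)
    (φ₀ := fun x => cf r n x * max (φ₀ x) 0)
    (hc.mono fun τ h => ctL_cut h (continuous_cf r n) hmx)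
    (ctL_cut hc₀ (continuous_cf r n) hmx) (cv0_cut hF.lim hc₀ hv (continuous_cf r n) hmx)
    hr₁p hr₂p hr₂r
    (Eventually.of_forall fun τ x _ hx => by rw [hsupp x hx, zero_mul])
    (fun x _ hx => by rw [hsupp x hx, zero_mul])
  have hnn : ∀ (ψ : E3 → ℝ) (x : E3), 0 ≤ cf r n x * max (ψ x) 0 := fun ψ x =>
    mul_nonneg (cf_nonneg _ _ _) (le_max_right _ _)
  have hlim : c < ENNReal.ofReal (∫ x, cf r n x * max (φ₀ x) 0 ∂ν₀) := by
    rw [ofReal_integral_eq_lintegral_ofReal i1 (Eventually.of_forall (hnn φ₀))]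
    refine hn.trans_le (lintegral_mono fun x => ?_)
    exact ENNReal.ofReal_le_ofReal (mul_le_mul_of_nonneg_left (le_max_left _ _) (cf_nonneg _ _ _))
  have hev := ((ENNReal.continuous_ofReal.tendsto _).comp i3).eventually (lt_mem_nhds hlim)
  filter_upwards [hev, i2] with τ h1 h2
  simp only [Function.comp] at h1
  rw [ofReal_integral_eq_lintegral_ofReal h2 (Eventually.of_forall (hnn (φ τ)))] at h1
  refine h1.trans_le (lintegral_mono fun x => ?_)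
  have h3 : cf r n x * max (φ τ x) 0 ≤ max (φ τ x) 0 :=
    mul_le_of_le_one_left (le_max_right _ _) (cf_le _ _ _)
  refine (ENNReal.ofReal_le_ofReal h3).trans ?_
  rw [ENNReal.ofReal_max, ENNReal.ofReal_zero]
  exact max_le le_rfl (by simp)

end

end Crest.Agent.R257.KedM_941
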