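import Crest.Agent.R257.V1W_822
import Crest.Agent.R273.YauLoc_635

/-!
R257 / V1Top_822 (helper822): `V1Stmt` from its leaves.
-/

set_option autoImplicit false

open Topology Filter MeasureTheory Set
open scoped ENNReal ContDiff Matrix ComplexOrder

noncomputable section

namespace Crest.Agent.R257.V1Top_822

open Crest.Agent.R275.Geo
open Crest.Agent.R257.Defs_219
open Crest.Agent.R257.KED_952
open Crest.Agent.R257.V1Defs_822
open Crest.Agent.R257.V1Pe_822
open Crest.Agent.R257.V1W_822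
open Crest.Agent.R273.Defs_333 (lev)
open Crest.Agent.R273.YauDefs_635 (cH)
open Crest.Agent.R257.PN_835 (nsq)
open Crest.Agent.R257.Aff_835 (eta2a nga)
open Crest.Agent.R257.C2F1_625 (pd)

variable {f : E3 → ℂ} {s : ℂ} {r : ℝ}

theorem cH_cont {a : E3 → ℝ} (ha : SmL f s r a) {θ : Cn 2 → E3} {O : Set (Cn 2)}
    (hθ : PE f s r θ O) : ContinuousOn (fun z => cH (fun z => a (θ z)) z) O :=
  continuousOn_pi.2 fun i => continuousOn_pi.2 fun j =>
    (Crest.Agent.R273.YauLoc_635.contDiffOn_cH hθ.par.isOpen (ha θ O hθ) i j).continuousOn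

theorem pd_cont {O : Set (Cn 2)} {X Y : Cn 2 → Matrix (Fin 2) (Fin 2) ℂ} (hX : ContinuousOn X O)
    (hY : ContinuousOn Y O) : ContinuousOn (fun z => (pd (X z) (Y z)).re) O := by
  have h1 : ∀ i j, ContinuousOn (fun z => X z i j) O := fun i j =>
    continuousOn_pi.1 (continuousOn_pi.1 hX i) j
  have h2 : ∀ i j, ContinuousOn (fun z => Y z i j) O := fun i j =>
    continuousOn_pi.1 (continuousOn_pi.1 hY i) j
  refine Complex.continuous_re.comp_continuousOn ?_
  unfold pd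
  exact ((((h1 0 0).mul (h2 1 1)).add ((h1 1 1).mul (h2 0 0))).sub
    ((h1 0 1).mul (h2 1 0))).sub ((h1 1 0).mul (h2 0 1))

/-- the densities are continuous -/
theorem ctl_mxd (den : DenStmt) (hL : LvlOK f s r) {u a b : E3 → ℝ} (hu : KEon f s r u)
    (ha : SmL f s r a) (hb : SmL f s r b) : CtL f s r (mxd f a b) := by
  intro θ O hθ
  have h1 : ∀ z ∈ O, eta2a (n := 2) f θ z ≠ 0 ∧ eta2a (n := 2) f θ z =
      (pd (cH (fun z => u (θ z)) z) (cH (fun z => u (θ z)) z)).re / 2 / Real.exp (u (θ z)) := by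
    intro z hz
    have h5 := hu.ma θ O hθ z hz
    have h9 : (cH (fun z => u (θ z)) z).det ≠ 0 := by
      rw [Crest.Agent.R273.YauMax_635.cH_eq_hess (smAt (a := u) hu.sm hθ hz)]
      have h10 := Crest.Agent.R273.HessB_333.posDef_hess (smAt (a := u) hu.sm hθ hz)
        (hu.pos θ O hθ z hz)
      exact h10.det_pos.ne'
    refine ⟨fun h10 => ?_, ?_⟩
    · rw [h5, h10] at h9
      simp at h9
    · have h11 : (pd (cH (fun z => u (θ z)) z) (cH (fun z => u (θ z)) z)).re =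
          2 * (Real.exp (u (θ z)) * eta2a (n := 2) f θ z) := by
        rw [C2F1_625.pd_self, h5, show (2 : ℂ) = ((2 : ℝ) : ℂ) by norm_num, Complex.re_ofReal_mul,
          Complex.ofReal_re]
      rw [h11]
      have := Real.exp_pos (u (θ z))
      field_simp
  have h2 : ContinuousOn (fun z => eta2a (n := 2) f θ z) O := by
    have h3 : ContinuousOn (fun z => (pd (cH (fun z => u (θ z)) z)
        (cH (fun z => u (θ z)) z)).re / 2 / Real.exp (u (θ z))) O := by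
      refine ((pd_cont (cH_cont hu.sm hθ) (cH_cont hu.sm hθ)).div_const 2).div ?_
        fun z _ => (Real.exp_pos _).ne'
      exact Real.continuous_exp.comp_continuousOn (hu.sm θ O hθ).continuousOn
    exact h3.congr fun z hz => (h1 z hz).2
  have h4 : ContinuousOn (fun z => (pd (cH (fun z => a (θ z)) z) (cH (fun z => b (θ z)) z)).re /
      eta2a (n := 2) f θ z) O :=
    (pd_cont (cH_cont ha hθ) (cH_cont hb hθ)).div h2 fun z hz => (h1 z hz).1
  refine h4.congr fun z hz => ?_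
  have h5 := (den f s r hL.pos hL.an hL.sm θ O hθ).1 a b (ha θ O hθ) (hb θ O hθ) z hz
  show mxd f a b (θ z) = (pd (cH (fun z => a (θ z)) z) (cH (fun z => b (θ z)) z)).re / _
  rw [← h5, mul_div_assoc, div_self (h1 z hz).1, mul_one]

theorem ctL_mul' {a b : E3 → ℝ} (ha : CtL f s r a) (hb : CtL f s r b) :
    CtL f s r fun x => a x * b x := fun θ O hθ => (ha θ O hθ).mul (hb θ O hθ)

theorem smL_ctl {a : E3 → ℝ} (ha : SmL f s r a) : CtL f s r a :=
  fun θ O hθ => (ha θ O hθ).continuousOn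

theorem smL_sub' {a b : E3 → ℝ} (ha : SmL f s r a) (hb : SmL f s r b) :
    SmL f s r fun x => a x - b x := fun θ O hθ => (ha θ O hθ).sub (hb θ O hθ)

/-- a cut-off is constant near `0` and near the boundary -/
theorem cut_locconst {χ : E3 → ℝ} (h : Cut r χ) : ∃ r₁ r₂ : ℝ, 0 < r₁ ∧ r₂ < r ∧
    (∀ x, nsq x ≤ r₁ ^ 2 → ∀ᶠ y in 𝓝 x, χ y = 1) ∧
    (∀ x, r₂ ^ 2 ≤ nsq x → ∀ᶠ y in 𝓝 x, χ y = 0) := by
  obtain ⟨ρ, h1, h2, h3⟩ := h.supp
  obtain ⟨ε, hε, h4⟩ := Metric.eventually_nhds_iff_ball.1 h.one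
  have h5 : ∀ x : E3, nsq x < ε ^ 2 → x ∈ Metric.ball (0 : E3) ε := by
    intro x hx
    rw [mem_ball_zero_iff, pi_norm_lt_iff hε]
    intro k
    have h6 := (Crest.Agent.R257.PN_835.sq_le_nsq x k).trans_lt hx
    exact lt_of_pow_lt_pow_left₀ 2 hε.le h6
  refine ⟨ε / 2, (ρ + r) / 2, by positivity, by linarith, fun x hx => ?_, fun x hx => ?_⟩
  · have h6 : ∀ᶠ y in 𝓝 x, nsq y < ε ^ 2 := by
      refine continuous_nsq3.continuousAt.eventually_lt continuousAt_const ?_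
      nlinarith
    filter_upwards [h6] with y hy
    exact h4 y (h5 y hy)
  · have h6 : ∀ᶠ y in 𝓝 x, ρ ^ 2 < nsq y := by
      refine continuousAt_const.eventually_lt continuous_nsq3.continuousAt ?_
      nlinarith
    filter_upwards [h6] with y hy
    exact h3 y hy.le

theorem mxd_const {a b : E3 → ℝ} {x : E3} {c : ℝ} (hb : ∀ᶠ y in 𝓝 x, b y = c) :
    mxd f a b x = 0 := by
  have h1 : mxd f a b x = mxd f a (fun y => b y - c) x := by
    unfold mxd dns
    split_ifs with h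
    · obtain ⟨h1, h2, h3⟩ := h.choose_spec
      have hc : ContinuousAt h.choose.1 h.choose.2.2 :=
        h1.hol.continuousOn.continuousAt (h1.isOpen.mem_nhds h2)
      have h5 : Tendsto h.choose.1 (𝓝 h.choose.2.2) (𝓝 x) := by
        have := hc.tendsto
        rwa [h3] at this
      have h4 : (fun z => b (h.choose.1 z)) =ᶠ[𝓝 h.choose.2.2] fun _ => c := h5.eventually hb
      have h4' : (fun z => b (h.choose.1 z) - c) =ᶠ[𝓝 h.choose.2.2] fun _ => 0 := by
        filter_upwards [h4] with z hz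
        rw [hz, sub_self]
      have h6 : cH (fun z => b (h.choose.1 z)) h.choose.2.2 =
          cH (fun z => b (h.choose.1 z) - c) h.choose.2.2 := by
        rw [KEl_835.cH_congr h4, KEl_835.cH_congr h4']
        ext i j
        simp [cH, Crest.Agent.R273.YauDefs_635.D2]
      change (pd _ (cH (fun z => b (h.choose.1 z)) h.choose.2.2)).re / _ =
        (pd _ (cH (fun z => b (h.choose.1 z) - c) h.choose.2.2)).re / _
      rw [h6]
    · rfl
  rw [h1]
  refine mxd_zero ?_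
  filter_upwards [hb] with y hy
  rw [hy, sub_self]

/-- `u ∂∂̄u ∧ ∂∂̄χ` is integrable -/
theorem int_tot (den : DenStmt) (int : IntStmt) (hL : LvlOK f s r) {ν : Measure E3}
    (hν : IsNu f s r ν) {u a χ : E3 → ℝ} (hu : KEon f s r u) (ha : SmL f s r a)
    (hχ : Cut r χ) : Integrable (fun x => a x * mxd f a χ x) ν := by
  refine int f s r hL ν hν _ (ctL_mul' (smL_ctl ha) (ctl_mxd den hL hu ha (cut_smL hχ))) ?_
  obtain ⟨r₁, r₂, h1, h2, h3, h4⟩ := cut_locconst hχ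
  refine ⟨r₁, r₂, h1, h2, fun x hx => ?_⟩
  rcases hx with hx | hx
  · rw [mxd_const (h3 x hx), mul_zero]
  · rw [mxd_const (h4 x hx), mul_zero]

/-- `∫ χ e^u` as a Bochner integral -/
theorem vol_eq (meas : MeasStmt) (hL : LvlOK f s r) {ν : Measure E3} (hν : IsNu f s r ν)
    {u χ : E3 → ℝ} (hu : KEon f s r u) (hχ : Cut r χ) (hV : VOL ν u χ < ⊤) :
    Integrable (fun x => χ x * Real.exp (u x)) ν ∧
      ∫ x, χ x * Real.exp (u x) ∂ν = (VOL ν u χ).toReal := by
  have h1 : CtL f s r fun x => χ x * Real.exp (u x) :=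
    ctL_mul' (smL_ctl (cut_smL hχ)) fun θ O hθ =>
      Real.continuous_exp.comp_continuousOn (hu.sm θ O hθ).continuousOn
  have h2 : AEMeasurable (fun x => χ x * Real.exp (u x)) ν :=
    meas f s r hL.pos hL.an hL.sm ν hν _ h1
  have h3 : ∀ x, 0 ≤ χ x * Real.exp (u x) := fun x => mul_nonneg (hχ.nn x) (Real.exp_pos _).le
  refine ⟨⟨h2.aestronglyMeasurable, ?_⟩, ?_⟩
  · rw [hasFiniteIntegral_iff_ofReal (Eventually.of_forall h3)]
    exact hV
  · rw [integral_eq_lintegral_of_nonneg_ae (Eventually.of_forall h3) h2.aestronglyMeasurable]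
    rfl

/-- the residual mass does not depend on the cut-off -/
theorem mas_cut (meas : MeasStmt) (int : IntStmt) (stk : StkStmt) (den : DenStmt)
    (hL : LvlOK f s r) {ν : Measure E3} (hν : IsNu f s r ν) {u χ χ' : E3 → ℝ}
    (hu : KEon f s r u) (hχ : Cut r χ) (hχ' : Cut r χ') (hV : VOL ν u χ < ⊤)
    (hV' : VOL ν u χ' < ⊤) : mas ν f u χ = mas ν f u χ' := by
  have e1 : TOT ν f u χ - TOT ν f u χ' = ∫ x, u x * mxd f u (fun y => χ y - χ' y) x ∂ν := by
    unfold TOT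
    rw [← integral_sub (int_tot den int hL hν hu hu.sm hχ) (int_tot den int hL hν hu hu.sm hχ')]
    refine integral_congr_ae (isNu_ae hν fun x h1 h2 h3 => ?_)
    show _ = u x * mxd f u (fun y => χ y - χ' y) x
    rw [mxd_sub hL (cut_smL hχ) (cut_smL hχ') h1 h2 h3]
    ring
  obtain ⟨r₁, r₂, h1, h2, h3, h4⟩ := cut_locconst hχ
  obtain ⟨r₁', r₂', h1', h2', h3', h4'⟩ := cut_locconst hχ'
  have hc : ∃ r₁ r₂ : ℝ, 0 < r₁ ∧ r₂ < r ∧
      ∀ x, nsq x ≤ r₁ ^ 2 ∨ r₂ ^ 2 ≤ nsq x → χ x - χ' x = 0 := by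
    obtain ⟨ρ, a1, a2, a3⟩ := hχ.supp
    obtain ⟨ρ', a1', a2', a3'⟩ := hχ'.supp
    refine ⟨min r₁ r₁', max ρ ρ', lt_min h1 h1', max_lt a2 a2', fun x hx => ?_⟩
    rcases hx with hx | hx
    · have b1 : nsq x ≤ r₁ ^ 2 := hx.trans (pow_le_pow_left₀ (lt_min h1 h1').le (min_le_left _ _) 2)
      have b2 : nsq x ≤ r₁' ^ 2 :=
        hx.trans (pow_le_pow_left₀ (lt_min h1 h1').le (min_le_right _ _) 2)
      rw [(h3 x b1).self_of_nhds, (h3' x b2).self_of_nhds, sub_self]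
    · have b1 : ρ ^ 2 ≤ nsq x := (pow_le_pow_left₀ a1.le (le_max_left _ _) 2).trans hx
      have b2 : ρ' ^ 2 ≤ nsq x := (pow_le_pow_left₀ a1'.le (le_max_right _ _) 2).trans hx
      rw [a3 x b1, a3' x b2, sub_self]
  have e2 := (stk f s r hL ν hν u u (fun y => χ y - χ' y) hu.sm hu.sm
    (smL_sub' (cut_smL hχ) (cut_smL hχ')) hc).2.2
  have e3 : ∫ x, (χ x - χ' x) * mxd f u u x ∂ν =
      2 * ((VOL ν u χ).toReal - (VOL ν u χ').toReal) := by
    rw [← (vol_eq meas hL hν hu hχ hV).2, ← (vol_eq meas hL hν hu hχ' hV').2,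
      ← integral_sub (vol_eq meas hL hν hu hχ hV).1 (vol_eq meas hL hν hu hχ' hV').1,
      ← integral_const_mul]
    refine integral_congr_ae (isNu_ae hν fun x h1 h2 h3 => ?_)
    show (χ x - χ' x) * mxd f u u x = _
    rw [mxd_ke hL hu h1 h2 h3]
    ring
  unfold mas
  have e4 : TOT ν f u χ - TOT ν f u χ' = 2 * ((VOL ν u χ).toReal - (VOL ν u χ').toReal) := by
    rw [e1, ← e3]
    exact e2
  have e5 : TOT ν f u χ - 2 * (VOL ν u χ).toReal = TOT ν f u χ' - 2 * (VOL ν u χ').toReal := by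
    linarith
  rw [e5]

theorem TOT_restr {ν : Measure E3} {u χ : E3 → ℝ} (hχ : Cut r χ) :
    TOT ν f u χ = TOT (ν.restrict {x | nsq x < r ^ 2}) f u χ := by
  unfold TOT
  symm
  refine setIntegral_eq_integral_of_forall_compl_eq_zero fun x hx => ?_
  obtain ⟨ρ, a1, a2, a3⟩ := hχ.supp
  have h1 : r ^ 2 ≤ nsq x := not_lt.1 hx
  have h2 : ∀ᶠ y in 𝓝 x, χ y = 0 := by
    have h6 : ∀ᶠ y in 𝓝 x, ρ ^ 2 < nsq y := by
      refine continuousAt_const.eventually_lt continuous_nsq3.continuousAt ?_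
      nlinarith
    filter_upwards [h6] with y hy
    exact a3 y hy.le
  rw [mxd_zero h2, mul_zero]

theorem VOL_restr {ν : Measure E3} {u χ : E3 → ℝ} (hχ : Cut r χ) :
    VOL ν u χ = VOL (ν.restrict {x | nsq x < r ^ 2}) u χ := by
  unfold VOL
  symm
  refine setLIntegral_eq_of_support_subset ?_
  intro x hx
  by_contra hcon
  obtain ⟨ρ, a1, a2, a3⟩ := hχ.supp
  have h1 : r ^ 2 ≤ nsq x := not_lt.1 hcon
  have h3 : χ x = 0 := a3 x (by nlinarith)
  apply hx
  simp [h3]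

/-- **`V1Stmt` from its leaves** -/
theorem v1 (meas : MeasStmt) (int : IntStmt) (stk : StkStmt) (den : DenStmt) (xu : XUStmt)
    (up : UPStmt) (vol : VolStmt) (cmp : CmpStmt) (m3 : M3Stmt) : V1Stmt := by
  intro Φ τ₀ l r C w u hS f hf hm χ hχ ν hν
  have hiso : Iso f := by rw [hf]; exact hS.iso
  have hL : LvlOK f 0 r := by
    rw [hf]
    exact ⟨hS.r_pos, fun x hx => (hS.an x hx.le).curry_left,
      fun x h0 hx h1 => hS.sm0 x h0 hx.le h1⟩
  have hu : KEon f 0 r u := by rw [hf]; exact hS.ke0.1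
  obtain ⟨k, g, h, hk, hg, hh, hfin, hcol, hJU⟩ := xu f hiso hm
  have hk0 : (0 : ℝ) < k := by exact_mod_cast (by omega : 0 < k)
  have hG : ∀ j, AnalyticAt ℂ ((![f, g, h] : Fin 3 → E3 → ℂ) j) 0 := by
    intro j
    fin_cases j
    · exact hiso.an
    · exact hg
    · exact hh
  have hcol0 : col ![f, g, h] ≠ 0 := by
    intro h0
    rw [h0, Nat.cast_zero] at hcol
    have : 0 < (k : ℝ) ^ 2 * mstar f := by positivity
    linarith
  have g0 : g 0 = 0 := by
    by_contra hcon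
    exact hcol0 (Skel_219.col_eq_zero (G := ![f, g, h]) (j := 1) hg hcon)
  have h0 : h 0 = 0 := by
    by_contra hcon
    exact hcol0 (Skel_219.col_eq_zero (G := ![f, g, h]) (j := 2) hh hcon)
  obtain ⟨ρ₁, hρ₁, hz⟩ := nsq_lt_of (iso_zero hG hfin)
  obtain ⟨ρ₂, hρ₂, hga⟩ := nsq_lt_of hg.eventually_analyticAt
  obtain ⟨ρ₃, hρ₃, hha⟩ := nsq_lt_of hh.eventually_analyticAt
  have hV := vol Φ τ₀ l r C w u hS f hf χ hχ ν hν
  obtain ⟨C', ρ₄, hρ₄, hup⟩ := up f r u ν χ k g h hiso hL hu hν hχ hV hk hg hh g0 h0 hfin hJU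
  obtain ⟨ρ₅, hρ₅, hm3⟩ := m3 f g h hiso hg hh g0 h0 hfin
  obtain ⟨r', hr', l0, l1, l2, l3, l4, l5⟩ : ∃ r' : ℝ, 0 < r' ∧ r' ≤ r ∧ r' ≤ ρ₁ ∧ r' ≤ ρ₂ ∧
      r' ≤ ρ₃ ∧ r' ≤ ρ₄ ∧ r' ≤ ρ₅ := by
    refine ⟨min r (min ρ₁ (min ρ₂ (min ρ₃ (min ρ₄ ρ₅)))), ?_, ?_, ?_, ?_, ?_, ?_, ?_⟩
    · exact lt_min hL.pos (lt_min hρ₁ (lt_min hρ₂ (lt_min hρ₃ (lt_min hρ₄ hρ₅))))
    · exact min_le_left _ _
    · exact (min_le_right _ _).trans (min_le_left _ _)
    · exact (min_le_right _ _).trans ((min_le_right _ _).trans (min_le_left _ _))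
    · exact (min_le_right _ _).trans ((min_le_right _ _).trans ((min_le_right _ _).trans
        (min_le_left _ _)))
    · exact (min_le_right _ _).trans ((min_le_right _ _).trans ((min_le_right _ _).trans
        ((min_le_right _ _).trans (min_le_left _ _))))
    · exact (min_le_right _ _).trans ((min_le_right _ _).trans ((min_le_right _ _).trans
        ((min_le_right _ _).trans (min_le_right _ _))))
  have mono : ∀ {a : ℝ}, r' ≤ a → ∀ {x : E3}, nsq x < r' ^ 2 → nsq x < a ^ 2 :=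
    fun ha _ hx => hx.trans_le (pow_le_pow_left₀ hr'.le ha 2)
  have hL' : LvlOK f 0 r' := lvl_mono hL hr' l0
  have hν' := isNu_restr hν hr' l0
  set ν' : Measure E3 := ν.restrict {x | nsq x < r' ^ 2} with hν'd
  obtain ⟨χ', hχ'⟩ := exists_cut hr'
  have hχ'r : Cut r χ' := cut_mono hχ' l0
  have hV' := vol Φ τ₀ l r C w u hS f hf χ' hχ'r ν hν
  have hu' : KEon f 0 r' u := keon_mono hu hr'.le l0
  have hV'' : VOL ν' u χ' < ⊤ := by rw [hν'd, ← VOL_restr hχ']; exact hV'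
  have e1 : mas ν f u χ = mas ν' f u χ' := by
    rw [mas_cut meas int stk den hL hν hu hχ hχ'r hV hV']
    unfold mas
    rw [hν'd, ← VOL_restr hχ', ← TOT_restr hχ']
  have hne : ∀ x, f x = 0 → x ≠ 0 → nsq x < r' ^ 2 → g x ≠ 0 ∨ h x ≠ 0 := by
    intro x hx1 hx2 hx3
    by_contra hcon
    push Not at hcon
    refine hx2 (hz x (mono l1 hx3) fun j => ?_)
    fin_cases j
    · exact hx1
    · exact hcon.1
    · exact hcon.2
  have hk1 : (0 : ℝ) < 1 / k := by positivity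
  obtain ⟨w1, w2, w3⟩ := wt (f := f) (s := 0) (fun x hx => hga x (mono l2 hx))
    (fun x hx => hha x (mono l3 hx)) hne hk1.le
  have w4 := wt_inf (f := f) (s := 0) hg hh g0 h0 hr' hne hk1
  have e2 := cmp f 0 r' ν' χ' u (fun x => 1 / (k : ℝ) * lgh g h x) C' hL' hν' hχ' hu' w1 w2 w3 w4
    (fun x hx1 hx2 hx3 => hup x hx1 hx2 (mono l4 hx3)) hV''
  have e3 : TOT ν' f (fun x => 1 / (k : ℝ) * lgh g h x) χ' =
      (1 / (k : ℝ)) ^ 2 * TOT ν' f (lgh g h) χ' := by
    unfold TOT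
    rw [← integral_const_mul]
    refine integral_congr_ae (isNu_ae hν' fun x a1 a2 a3 => ?_)
    have hsm : SmL f 0 r' (lgh g h) := by
      have := (wt (f := f) (s := 0) (c := 1) (fun x hx => hga x (mono l2 hx))
        (fun x hx => hha x (mono l3 hx)) hne zero_le_one).1
      simpa using this
    show 1 / (k : ℝ) * lgh g h x * mxd f (fun x => 1 / (k : ℝ) * lgh g h x) χ' x = _
    rw [mxd_mul hL' hsm _ a1 a2 a3]
    ring
  rw [e3, hm3 r' l5 hL' ν' hν' χ' hχ', hcol] at e2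
  have e4 : (1 / (k : ℝ)) ^ 2 * (Real.pi ^ 2 * ((k : ℝ) ^ 2 * mstar f)) =
      Real.pi ^ 2 * mstar f := by
    field_simp
  rw [e4] at e2
  rw [e1]
  unfold mas
  have hπ : 0 < Real.pi ^ 2 := by positivity
  rw [le_div_iff₀ hπ]
  linarith

end Crest.Agent.R257.V1Top_822
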