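import Crest.Agent.R257.Ked4_397
import Crest.Agent.R257.V1Top_822
import Crest.Agent.R257.Bridge_822
import Crest.Agent.R257.KedM2_941
import Crest.Agent.R257.KedM3_941

/-!
# R257 (S0395), task VOLFIN (helper397)

* `cc_of_unif`, `Cv0.mul`, `Cv0.comp`, `FamD.cv0` : calculus of `Cv0`
* `ev_lvl` : the levels of a family are `LvlOK`
* `stk_smooth` : Stokes on a smooth level `∫ u ∂∂̄u ∧ ∂∂̄χ = 2 ∫ χ e^u |η|²`
* `tend_tot` : `TOT` converges
* `volStmt` : `VolStmt` (finite volume)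
-/

set_option autoImplicit false

open Set Filter Topology MeasureTheory
open scoped ContDiff Matrix ENNReal

namespace Crest.Agent.R257.Vol_397

open Crest.Agent.R275.Geo
open Crest.Agent.R257.Defs_219
open Crest.Agent.R257.KED_952
open Crest.Agent.R257.V1Defs_822
open Crest.Agent.R257.V1Pe_822
open Crest.Agent.R257.V1Top_822
open Crest.Agent.R273.Defs_333 (lev)
open Crest.Agent.R273.YauDefs_635 (cH)
open Crest.Agent.R257.PN_835 (nsq)
open Crest.Agent.R257.Ked3_397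

noncomputable section

variable {Φ : E3 × PP → ℂ} {τ₀ : PP} {l : Filter PP} {r C : ℝ} {w : PP → E3 → ℝ} {u : E3 → ℝ}

/-! ### calculus of `Cv0` -/

theorem cc_of_unif {O : Set (Cn 2)} {F : PP → Cn 2 → ℝ} {F₀ : Cn 2 → ℝ} (hO : IsOpen O)
    (h : ∀ K ⊆ O, IsCompact K → TendstoUniformlyOn F F₀ l K) (hc : ContinuousOn F₀ O)
    {z : Cn 2} (hz : z ∈ O) : CC l F F₀ z := by
  obtain ⟨K, hK, hzK, hKO⟩ := exists_compact_subset hO hz
  have h1 := Metric.tendstoUniformlyOn_iff.1 (h K hKO hK)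
  have h2 : ContinuousAt F₀ z := hc.continuousAt (hO.mem_nhds hz)
  refine Metric.tendsto_nhds.2 fun ε hε => ?_
  have h4 := Metric.tendsto_nhds.1 h2 (ε / 2) (by positivity)
  have h5 := (h1 (ε / 2) (by positivity)).prod_mk
    ((h4.and (mem_interior_iff_mem_nhds.1 hzK : ∀ᶠ y in 𝓝 z, y ∈ K)))
  filter_upwards [h5] with p hp
  have h6 := hp.1 p.2 hp.2.2
  calc dist (F p.1 p.2) (F₀ z) ≤ dist (F p.1 p.2) (F₀ p.2) + dist (F₀ p.2) (F₀ z) :=
        dist_triangle _ _ _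
    _ < ε := by rw [dist_comm] at h6; linarith [hp.2.1]

theorem Cv0.mul {a b : PP → E3 → ℝ} {a₀ b₀ : E3 → ℝ} (h : Cv0 Φ r l τ₀ a a₀)
    (h' : Cv0 Φ r l τ₀ b b₀) (hc : CtL (fun x => Φ (x, τ₀)) 0 r a₀)
    (hc' : CtL (fun x => Φ (x, τ₀)) 0 r b₀) :
    Cv0 Φ r l τ₀ (fun τ x => a τ x * b τ x) (fun x => a₀ x * b₀ x) := by
  intro O N Θ hC K hKO hK
  have hP := hC.par τ₀ (mem_of_mem_nhds hC.nhd)
  have hO := hP.par.isOpen
  have c1 := hc _ _ hP
  have c2 := hc' _ _ hP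
  refine tendstoUniformlyOn_of_cc hK (fun z hz => ?_) fun z hz =>
    ((c1.mul c2).continuousAt (hO.mem_nhds (hKO hz)))
  have h1 : CC l (fun τ z => a τ (Θ (z, τ))) (fun z => a₀ (Θ (z, τ₀))) z :=
    cc_of_unif hO (h O N Θ hC) c1 (hKO hz)
  have h2 : CC l (fun τ z => b τ (Θ (z, τ))) (fun z => b₀ (Θ (z, τ₀))) z :=
    cc_of_unif hO (h' O N Θ hC) c2 (hKO hz)
  exact Tendsto.mul h1 h2

theorem Cv0.comp {a : PP → E3 → ℝ} {a₀ : E3 → ℝ} (h : Cv0 Φ r l τ₀ a a₀)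
    (hc : CtL (fun x => Φ (x, τ₀)) 0 r a₀) {g : ℝ → ℝ} (hg : Continuous g) :
    Cv0 Φ r l τ₀ (fun τ x => g (a τ x)) (fun x => g (a₀ x)) := by
  intro O N Θ hC K hKO hK
  have hP := hC.par τ₀ (mem_of_mem_nhds hC.nhd)
  have hO := hP.par.isOpen
  have c1 := hc _ _ hP
  refine tendstoUniformlyOn_of_cc hK (fun z hz => ?_) fun z hz =>
    ((hg.comp_continuousOn c1).continuousAt (hO.mem_nhds (hKO hz)))
  have h1 : CC l (fun τ z => a τ (Θ (z, τ))) (fun z => a₀ (Θ (z, τ₀))) z :=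
    cc_of_unif hO (h O N Θ hC) c1 (hKO hz)
  exact h1.comp (g := g) hg.continuousAt

/-- a fixed continuous function -/
theorem Cv0.const (hl : l ≤ 𝓝 τ₀) {χ : E3 → ℝ} (hχ : Continuous χ) :
    Cv0 Φ r l τ₀ (fun _ => χ) χ := by
  intro O N Θ hC K hKO hK
  have hP := hC.par τ₀ (mem_of_mem_nhds hC.nhd)
  have hO := hP.par.isOpen
  have c1 : ContinuousOn (fun z => χ (Θ (z, τ₀))) O :=
    hχ.comp_continuousOn hP.par.hol.continuousOn
  refine tendstoUniformlyOn_of_cc hK (fun z hz => ?_) fun z hz =>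
    (c1.continuousAt (hO.mem_nhds (hKO hz)))
  have h1 := Ked4_397.tendsto_pt hl hC.nhd hC.an (hKO hz)
  have h2 : Tendsto (fun p : PP × Cn 2 => Θ (p.2, p.1)) (l ×ˢ 𝓝 z) (𝓝 (Θ (z, τ₀))) :=
    (continuous_fst.tendsto _).comp h1
  exact (hχ.tendsto _).comp h2

/-- the weights converge locally uniformly -/
theorem cv0_of_famD (hF : FamD Φ τ₀ l r C w u) : Cv0 Φ r l τ₀ w u := by
  intro O N Θ hC K hKO hK
  have hP := hC.par τ₀ (mem_of_mem_nhds hC.nhd)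
  have h0 : ContDiffOn ℝ ∞ (fun z => u (Θ (z, τ₀))) O := hF.ke0.1.sm _ _ hP
  have hs : ∀ᶠ τ in l, ContDiffOn ℝ ∞ (fun z => w τ (Θ (z, τ))) O := by
    filter_upwards [hF.ke, hF.lim hC.nhd] with τ h1 h2
    exact h1.1.sm _ _ (hC.par τ h2)
  have hI := CI.of_cvOn hP.par.isOpen hs h0 (hF.conv O N Θ hC)
  exact tendstoUniformlyOn_of_cc hK (fun z hz => hI.cc (hKO hz)) fun z hz =>
    h0.continuousOn.continuousAt (hP.par.isOpen.mem_nhds (hKO hz))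

/-! ### the levels -/

theorem isCompact_ball : IsCompact {x : E3 | nsq x ≤ r ^ 2} := by
  refine Metric.isCompact_of_isClosed_isBounded
    (isClosed_le continuous_nsq3 continuous_const) ?_
  refine (Metric.isBounded_closedBall (x := (0 : E3)) (r := |r|)).subset fun x hx => ?_
  rw [mem_closedBall_zero_iff, pi_norm_le_iff_of_nonneg (abs_nonneg r)]
  intro i
  have h1 : ‖x i‖ ^ 2 ≤ |r| ^ 2 := by
    rw [sq_abs]
    exact (Crest.Agent.R257.PN_835.sq_le_nsq x i).trans hx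
  exact le_of_pow_le_pow_left₀ two_ne_zero (abs_nonneg r) h1

theorem slice_an {τ : PP} {x : E3} (h : AnalyticAt ℂ Φ (x, τ)) :
    AnalyticAt ℂ (fun x => Φ (x, τ)) x := by
  have h2 : AnalyticAt ℂ (fun x : E3 => (x, τ)) x := analyticAt_id.prod analyticAt_const
  exact AnalyticAt.comp (g := Φ) (f := fun x : E3 => (x, τ)) h h2

theorem ev_an (h : Fam Φ τ₀ l r) : ∀ᶠ τ in l, ∀ x, nsq x ≤ r ^ 2 → AnalyticAt ℂ Φ (x, τ) := by
  have h1 : ∀ᶠ τ in 𝓝 τ₀, ∀ x ∈ {x : E3 | nsq x ≤ r ^ 2}, AnalyticAt ℂ Φ (x, τ) := by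
    refine isCompact_ball.eventually_forall_of_forall_eventually fun x hx => ?_
    have h2 := (h.an x hx).eventually_analyticAt
    have h3 : Tendsto (fun z : PP × E3 => (z.2, z.1)) (𝓝 (τ₀, x)) (𝓝 (x, τ₀)) :=
      (continuous_snd.prodMk continuous_fst).tendsto (τ₀, x)
    exact h3.eventually h2
  exact h.lim h1

theorem ev_lvl (h : Fam Φ τ₀ l r) : ∀ᶠ τ in l, LvlOK (fun x => Φ (x, τ)) 0 r := by
  filter_upwards [ev_an h, h.sm] with τ h1 h2
  exact ⟨h.r_pos, fun x hx => slice_an (h1 x hx.le), fun x h0 hx hz => h2 x h0 hx.le hz⟩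

theorem lvl0 (h : Fam Φ τ₀ l r) : LvlOK (fun x => Φ (x, τ₀)) 0 r :=
  ⟨h.r_pos, fun x hx => slice_an (h.an x hx.le), fun x h0 hx hz => h.sm0 x h0 hx.le hz⟩

/-! ### Stokes on a smooth level -/

theorem mxd_congr {f : E3 → ℂ} {a b b' : E3 → ℝ} {x : E3} (h : ∀ y, f y = f x → b y = b' y) :
    mxd f a b x = mxd f a b' x := by
  classical
  unfold mxd dns
  split_ifs with hx
  · obtain ⟨h1, h2, h3⟩ := hx.choose_spec
    have h4 : (fun z => b (hx.choose.1 z)) =ᶠ[𝓝 hx.choose.2.2] fun z => b' (hx.choose.1 z) := by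
      filter_upwards [h1.isOpen.mem_nhds h2] with z hz
      exact h _ (h1.lvl z hz)
    change (C2F1_625.pd _ (cH (fun z => b (hx.choose.1 z)) hx.choose.2.2)).re / _ =
      (C2F1_625.pd _ (cH (fun z => b' (hx.choose.1 z)) hx.choose.2.2)).re / _
    rw [KEl_835.cH_congr h4]
  · rfl

variable {f : E3 → ℂ} {ν : Measure E3} {χ : E3 → ℝ}

theorem smooth_gap (hL : LvlOK f 0 r) (h0 : f 0 ≠ 0) :
    ∃ r₁ : ℝ, 0 < r₁ ∧ ∀ x, nsq x ≤ r₁ ^ 2 → f x ≠ 0 := by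
  have han : AnalyticAt ℂ f 0 := hL.an 0 (by
    rw [nsq_zero3]
    exact pow_pos hL.pos 2)
  have h1 : ∀ᶠ x in 𝓝 (0 : E3), f x ≠ 0 := han.continuousAt.eventually_ne h0
  obtain ⟨ρ, hρ, h2⟩ := V1W_822.nsq_lt_of h1
  refine ⟨ρ / 2, by positivity, fun x hx => h2 x (hx.trans_lt ?_)⟩
  nlinarith

/-- Stokes on a smooth level: all integrals are finite and `∫ a ∂∂̄a ∧ ∂∂̄χ = ∫ χ ∂∂̄a ∧ ∂∂̄a` -/
theorem stk_smooth' (hL : LvlOK f 0 r) (h0 : f 0 ≠ 0) (hν : IsNu f 0 r ν)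
    {a : E3 → ℝ} (ha : SmL f 0 r a) (hχ : SmL f 0 r χ)
    (hs : ∃ r₂ : ℝ, 0 < r₂ ∧ r₂ < r ∧ ∀ x, r₂ ^ 2 ≤ nsq x → χ x = 0) :
    Integrable (fun x => a x * mxd f a χ x) ν ∧ Integrable (fun x => χ x * mxd f a a x) ν ∧
    ∫ x, a x * mxd f a χ x ∂ν = ∫ x, χ x * mxd f a a x ∂ν := by
  classical
  obtain ⟨r₁, hr₁, hgap⟩ := smooth_gap hL h0
  obtain ⟨r₂, hr₀, hr₂, hz⟩ := hs
  set c : E3 → ℝ := fun x => if nsq x ≤ r₁ ^ 2 then 0 else χ x with hc
  have hcl : ∀ x, f x = 0 → c x = χ x := by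
    intro x hx
    have : ¬ nsq x ≤ r₁ ^ 2 := fun h => hgap x h hx
    simp only [hc, if_neg this]
  have hcs : SmL f 0 r c := by
    intro θ O hθ
    exact (hχ θ O hθ).congr fun z hz => hcl _ (hθ.par.lvl z hz)
  have key := Bridge_822.stokes_lvl hL hν ha hcs hr₁ hr₀.le hr₂ fun x hx => by
    rcases hx with hx | hx
    · simp only [hc, if_pos hx.le]
    · simp only [hc]
      split_ifs
      · rfl
      · exact hz x hx.le
  have e1 : (fun x => a x * mxd f a c x) =ᵐ[ν] fun x => a x * mxd f a χ x := by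
    refine isNu_ae hν fun x _ _ hx => ?_
    show a x * mxd f a c x = a x * mxd f a χ x
    rw [mxd_congr (b := c) (b' := χ) fun y hy => hcl y (hy.trans hx)]
  have e2 : (fun x => c x * mxd f a a x) =ᵐ[ν] fun x => χ x * mxd f a a x := by
    refine isNu_ae hν fun x _ _ hx => ?_
    show c x * mxd f a a x = χ x * mxd f a a x
    rw [hcl x hx]
  exact ⟨key.1.congr e1, key.2.1.congr e2, by
    rw [← integral_congr_ae e1, ← integral_congr_ae e2]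
    exact key.2.2⟩

/-- `2 ∫ χ e^u |η|² = ∫ u ∂∂̄u ∧ ∂∂̄χ` on a smooth level -/
theorem stk_smooth (hL : LvlOK f 0 r) (h0 : f 0 ≠ 0) (hν : IsNu f 0 r ν)
    (hu : KEon f 0 r u) (hχ : Cut r χ) :
    Integrable (fun x => χ x * Real.exp (u x)) ν ∧
      ∫ x, χ x * Real.exp (u x) ∂ν = TOT ν f u χ / 2 := by
  obtain ⟨ρ, a1, a2, a3⟩ := hχ.supp
  obtain ⟨-, h2, h3⟩ := stk_smooth' hL h0 hν hu.sm (cut_smL hχ) ⟨ρ, a1, a2, a3⟩
  have e1 : (fun x => χ x * mxd f u u x) =ᵐ[ν] fun x => 2 * (χ x * Real.exp (u x)) := by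
    refine isNu_ae hν fun x b1 b2 b3 => ?_
    show χ x * mxd f u u x = 2 * (χ x * Real.exp (u x))
    rw [mxd_ke hL hu b1 b2 b3]
    ring
  have h4 : Integrable (fun x => 2 * (χ x * Real.exp (u x))) ν := h2.congr e1
  constructor
  · have h5 := h4.const_mul (1 / 2)
    refine h5.congr (Eventually.of_forall fun x => ?_)
    show 1 / 2 * (2 * (χ x * Real.exp (u x))) = χ x * Real.exp (u x)
    ring
  · unfold TOT
    rw [h3, integral_congr_ae e1, integral_const_mul]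
    ring

theorem vol_smooth (hL : LvlOK f 0 r) (h0 : f 0 ≠ 0) (hν : IsNu f 0 r ν)
    (hu : KEon f 0 r u) (hχ : Cut r χ) :
    VOL ν u χ = ENNReal.ofReal (TOT ν f u χ / 2) := by
  obtain ⟨h1, h2⟩ := stk_smooth hL h0 hν hu hχ
  rw [← h2, ofReal_integral_eq_lintegral_ofReal h1
    (Eventually.of_forall fun x => mul_nonneg (hχ.nn x) (Real.exp_pos _).le)]
  rfl

/-! ### convergence of `TOT` -/

theorem tend_tot (hF : FamD Φ τ₀ l r C w u) (hχ : Cut r χ)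
    {ν : PP → Measure E3} {ν₀ : Measure E3}
    (hν : ∀ᶠ τ in l, IsNu (fun x => Φ (x, τ)) 0 r (ν τ)) (hν₀ : IsNu (fun x => Φ (x, τ₀)) 0 r ν₀) :
    Tendsto (fun τ => TOT (ν τ) (fun x => Φ (x, τ)) (w τ) χ) l
      (𝓝 (TOT ν₀ (fun x => Φ (x, τ₀)) u χ)) := by
  have hL0 := lvl0 hF.toFam
  have ct0 := (Ked4_397.ctDStmt _ 0 r hL0.pos hL0.an hL0.sm u hF.ke0.1).2 χ hχ.sm
  refine KedM_941.cvIStmt Φ τ₀ l r hF.toFam ν ν₀ hν hν₀
    (fun τ x => w τ x * mxd (fun x => Φ (x, τ)) (w τ) χ x)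
    (fun x => u x * mxd (fun x => Φ (x, τ₀)) u χ x) ?_
    (ctL_mul' (smL_ctl hF.ke0.1.sm) ct0) ?_ ?_
  · filter_upwards [ev_lvl hF.toFam, hF.ke] with τ h1 h2
    exact ctL_mul' (smL_ctl h2.1.sm)
      ((Ked4_397.ctDStmt _ 0 r h1.pos h1.an h1.sm (w τ) h2.1).2 χ hχ.sm)
  · exact Cv0.mul (cv0_of_famD hF) (Ked4_397.cvDStmt Φ τ₀ l r C w u hF χ hχ).2
      (smL_ctl hF.ke0.1.sm) ct0
  · obtain ⟨r₁, -, h1, -, h3, -⟩ := cut_locconst hχ
    obtain ⟨ρ, a1, a2, a3⟩ := hχ.supp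
    refine ⟨r₁, (ρ + r) / 2, h1, by linarith, by linarith, fun x hx => ?_⟩
    have key : ∀ (g : E3 → ℂ) (a : E3 → ℝ), mxd g a χ x = 0 := by
      intro g a
      rcases hx with hx | hx
      · exact mxd_const (h3 x hx)
      · have h6 : ∀ᶠ y in 𝓝 x, ρ ^ 2 < nsq y := by
          refine continuousAt_const.eventually_lt continuous_nsq3.continuousAt ?_
          nlinarith
        exact mxd_zero (h6.mono fun y hy => a3 y hy.le)
    exact ⟨fun τ => by rw [key, mul_zero], by rw [key, mul_zero]⟩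

/-- **finite volume** -/
theorem volStmt : VolStmt := by
  intro Φ τ₀ l r C w u hS f hf χ hχ ν₀ hν₀
  subst hf
  have hne : l.NeBot := hS.ne
  have hF : Fam Φ τ₀ l r := hS.toFam
  have hL : ∀ᶠ τ in l, LvlOK (fun x => Φ (x, τ)) 0 r := ev_lvl hF
  have hex : ∀ τ, LvlOK (fun x => Φ (x, τ)) 0 r → ∃ ν, IsNu (fun x => Φ (x, τ)) 0 r ν :=
    fun τ h => KedM_941.nuStmt _ 0 r h.pos h.an h.sm
  classical
  set ν : PP → Measure E3 := fun τ =>
    if h : LvlOK (fun x => Φ (x, τ)) 0 r then (hex τ h).choose else 0 with hνd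
  have hν : ∀ᶠ τ in l, IsNu (fun x => Φ (x, τ)) 0 r (ν τ) := by
    filter_upwards [hL] with τ h
    simp only [hνd, dif_pos h]
    exact (hex τ h).choose_spec
  have hT := tend_tot hS.toFamD hχ hν hν₀
  set T₀ := TOT ν₀ (fun x => Φ (x, τ₀)) u χ with hT₀
  by_contra hcon
  have htop : VOL ν₀ u χ = ⊤ := not_lt_top_iff.1 hcon
  -- Fatou
  have hfat := KedM_941.fatStmt Φ τ₀ l r hF ν ν₀ hν hν₀ (fun τ x => χ x * Real.exp (w τ x))
    (fun x => χ x * Real.exp (u x)) ?_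
    (ctL_mul' (smL_ctl (cut_smL hχ)) fun θ O hθ =>
      Real.continuous_exp.comp_continuousOn (hS.ke0.1.sm θ O hθ).continuousOn) ?_
    (ENNReal.ofReal (T₀ / 2 + 1)) ?_
  · have h1 : ∀ᶠ τ in l, TOT (ν τ) (fun x => Φ (x, τ)) (w τ) χ < T₀ + 2 :=
      hT.eventually (gt_mem_nhds (by linarith))
    obtain ⟨τ, g1, g2, g3, g4, g5, g6⟩ :=
      (hfat.and (h1.and (hL.and (hν.and (hS.ke.and hS.nz))))).exists
    have h2 := vol_smooth g3 g6 g4 g5.1 hχ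
    have h3 : ENNReal.ofReal (T₀ / 2 + 1) < VOL (ν τ) (w τ) χ := g1
    rw [h2] at h3
    have h4 := ENNReal.ofReal_le_ofReal (p := TOT (ν τ) (fun x => Φ (x, τ)) (w τ) χ / 2)
      (q := T₀ / 2 + 1) (by linarith)
    exact absurd h3 (not_lt.2 h4)
  · filter_upwards [hS.ke] with τ h
    exact ctL_mul' (smL_ctl (cut_smL hχ)) fun θ O hθ =>
      Real.continuous_exp.comp_continuousOn (h.1.sm θ O hθ).continuousOn
  · exact Cv0.mul (Cv0.const hS.lim hχ.sm.continuous)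
      (Cv0.comp (cv0_of_famD hS.toFamD) (smL_ctl hS.ke0.1.sm) Real.continuous_exp)
      (smL_ctl (cut_smL hχ)) fun θ O hθ =>
        Real.continuous_exp.comp_continuousOn (hS.ke0.1.sm θ O hθ).continuousOn
  · have h1 : ∫⁻ x, ENNReal.ofReal (χ x * Real.exp (u x)) ∂ν₀ = ⊤ := htop
    rw [h1]
    exact ENNReal.ofReal_lt_top

end

end Crest.Agent.R257.Vol_397
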