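import Crest.Agent.R257.V1Top2_822
import Crest.Agent.R257.UpK3_938
import Crest.Agent.R257.Fto_889
import Crest.Agent.R257.Vol_397
import Crest.Agent.R257.M3Cnt_5
import Crest.Agent.R257.Cmp_157

/-!
R257 / V1_822 (helper822): `V1Stmt` from the exact pair `XUStmt` only; and from the inputs of
part C (`EPStmt`, `CNEStmt`, `IsoFinStmt`).
-/

set_option autoImplicit false

noncomputable section

namespace Crest.Agent.R257.V1_822

open Crest.Agent.R257 Crest.Agent.R257.KED_952 Crest.Agent.R257.V1Defs_822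

/-- **V1**: `mstar f ≤` residual mass, from the exact pair -/
theorem v1Stmt_of_xu (xu : XUStmt) : V1Stmt :=
  V1Top2_822.v1' xu (UpK_938.upStmt_of Fto_889.ftoStmt) Vol_397.volStmt M3_5.m3Stmt


/-- `V1Stmt` from the inputs of part C -/
theorem v1Stmt_of (ep : XF_157.EPStmt) (cne : XF_157.CNEStmt)
    (isf : XF_157.IsoFinStmt) : V1Stmt :=
  v1Stmt_of_xu (Cmp_157.xuStmt_of ep cne isf Fto_889.detStmt)

end Crest.Agent.R257.V1_822
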