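import Crest.Agent.R257.SkelV3_952
import Crest.Agent.R257.SkelG6_952
import Crest.Agent.R257.KedM3_941
import Crest.Agent.R257.LimH_37
import Crest.Agent.R257.Esc_537
import Crest.Agent.R257.V1_822
import Crest.Agent.R257.Skel2_219
import Crest.Agent.R257.LossV_309
import Crest.Agent.R257.LgG_827

/-!
R257 / SkelT_952: `VStmt3` of `Skel2_219` from the leaves which are still open.
-/

set_option autoImplicit false

open Topology Filter MeasureTheory Set

noncomputable section

namespace Crest.Agent.R257.SkelT_952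

open Crest.Agent.R257.Defs_219 Crest.Agent.R257.KED_952 Crest.Agent.R257.KEG_952
open Crest.Agent.R257.KEU_952 Crest.Agent.R257.V1Defs_822 Crest.Agent.R257.Skel2_219

/-- (V) for germs of multiplicity `≥ 3` -/
theorem vstmt3' (up1 : Up1Stmt) (upp : UppStmt) (xu : XUStmt) (v31 : V31Stmt) (pos : PosStmt3) :
    VStmt3 := by
  have bd : BdStmt := Bd_309.bdStmt
  have loss : SkelG_952.Loss1 := LossV_309.loss1Stmt
  have lg : LGStmt := LgA_827.lgStmt
  have v1 : V1Stmt := V1_822.v1Stmt_of_xu xu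
  have esc : EscStmt := Esc_537.esc_of KedM_941.nuStmt xu (UpK_938.upStmt_of Fto_889.ftoStmt)
    Vol_397.volStmt
  have gb0 : GB0Stmt := SkelG_952.GB0_of KedM_941.measStmt KedM_941.fatStmt KedM_941.cvIStmt bd loss
    esc up1 v1 lg
  have gb1 : GB1Stmt := SkelG_952.GB1_of KedM_941.measStmt KedM_941.fatStmt KedM_941.cvIStmt bd upp
    v1 lg
  intro G μ d R r c₀ e P c hG h1 h2 _ m hm
  exact SkelV_952.V_core KedM_941.nuStmt KedM_941.measStmt KedM_941.fatStmt KedM_941.cvIStmt
    Ked4_397.ctDStmt Ked2_397.bmyStmt Ked4_397.cvDStmt bd gb0 gb1 v1 v31 LimH_37.outStmt hG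
    (pos G μ d R r c₀ e P c hG h1 h2) hm

/-- the same with the leaves that are proved by now (kept for compatibility) -/
theorem vstmt3 (_bd : BdStmt) (_loss : LossStmt) (up1 : Up1Stmt) (upp : UppStmt) (xu : XUStmt)
    (v31 : V31Stmt) (_lg : LGStmt) (pos : PosStmt3) : VStmt3 := vstmt3' up1 upp xu v31 pos

end Crest.Agent.R257.SkelT_952
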