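import Crest.Agent.R257.Avg7_938
import Crest.Agent.R257.Jnu_980
import Crest.Agent.R257.SkelT_952

/-!
# R257 (S0395), GB0 (helper938), task AVG, part 8: **`GB0Stmt` from `XStmt`**

* `loss_avg` : first half of the loss statement, `φ = κ u`, averaged bound
* `gb0_of_x` : `XStmt → EscStmt → V1Stmt → GB0Stmt` (no `Up1Stmt`)
* `vstmt3_of_x` : `XStmt → UppStmt → XUStmt → V31Stmt → PosStmt3 → VStmt3`
-/

set_option autoImplicit false

open Topology Filter MeasureTheory Set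
open scoped ENNReal ContDiff Matrix
open Crest.AlgGeometry.Germ

noncomputable section

namespace Crest.Agent.R257.Avg_938

open Crest.Agent.R275.Geo
open Crest.Agent.R257.Defs_219 Crest.Agent.R257.KED_952 Crest.Agent.R257.KEG_952
open Crest.Agent.R257.SkelV_952 Crest.Agent.R257.KEU_952 Crest.Agent.R257.SkelG_952
open Crest.Agent.R257.PN_835 (nsq)
open Crest.Agent.R257.Aff_835 (eta2a nga)
open Crest.Agent.R257.V1Defs_822 (SmL LvlOK lgh XUStmt)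
open Crest.Agent.R273.Defs_333 (lev)
open Crest.Agent.R257.V1Pe_822 (exists_pe mxd_mul mxd_comm mxd_ke)
open Crest.Agent.R257.V1W_822 (iso_zero nsq_lt_of)
open Crest.Agent.R257.V0c_417 (LL LL_spec)

/-- the integrability on a small ball -/
theorem int_pow {f g : E3 → ℂ} {r δ p : ℝ} {ν : Measure E3} (hL : LvlOK f 0 r)
    (hν : IsNu f 0 r ν) (hp : 0 < p) (hg : ∀ x, nsq x < r ^ 2 → AnalyticAt ℂ g x)
    (hr : r ^ 2 ≤ δ ^ 2)
    (hδ : ∫⁻ x in {x | nsq x < δ ^ 2}, ENNReal.ofReal (‖g x‖ ^ (2 / p)) ∂ν < ⊤)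
    {χ : E3 → ℝ} (hχ : Cut r χ) : Integrable (fun x => χ x * (‖g x‖ ^ 2) ^ p⁻¹) ν := by
  have e : ∀ x, (‖g x‖ ^ 2) ^ p⁻¹ = ‖g x‖ ^ (2 / p) := fun x => by
    rw [← Real.rpow_natCast, ← Real.rpow_mul (norm_nonneg _)]
    congr 1
  have sH : SmL f 0 r fun x => ‖g x‖ ^ 2 := smL_H hg
  have ct : CtL f 0 r fun x => (‖g x‖ ^ 2) ^ p⁻¹ := fun θ O hθ =>
    (sH θ O hθ).continuousOn.rpow_const fun z _ => Or.inr (inv_nonneg.2 hp.le)
  have hm : AEMeasurable (fun x => χ x * (‖g x‖ ^ 2) ^ p⁻¹) ν :=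
    hχ.sm.continuous.measurable.aemeasurable.mul
      (KedM_941.measStmt f 0 r hL.pos hL.an hL.sm ν hν _ ct)
  refine ⟨hm.aestronglyMeasurable, ?_⟩
  have h0 : ∀ x, 0 ≤ χ x * (‖g x‖ ^ 2) ^ p⁻¹ := fun x => by
    have := hχ.nn x
    positivity
  rw [hasFiniteIntegral_iff_ofReal (Eventually.of_forall h0)]
  have hS : MeasurableSet {x : E3 | nsq x < δ ^ 2} :=
    (isOpen_lt V1Pe_822.continuous_nsq3 continuous_const).measurableSet
  have hae : ∀ᵐ x ∂ν, x ∈ {x : E3 | nsq x < δ ^ 2} :=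
    V1Pe_822.isNu_ae hν fun x _ h2 _ => h2.trans_le hr
  have e2 : ν.restrict {x : E3 | nsq x < δ ^ 2} = ν := Measure.restrict_eq_self_of_ae_mem hae
  rw [e2] at hδ
  refine lt_of_le_of_lt (lintegral_mono fun x => ENNReal.ofReal_le_ofReal ?_) hδ
  show χ x * (‖g x‖ ^ 2) ^ p⁻¹ ≤ ‖g x‖ ^ (2 / p)
  rw [e x]
  have h1 : 0 ≤ ‖g x‖ ^ (2 / p) := by positivity
  calc χ x * ‖g x‖ ^ (2 / p) ≤ 1 * ‖g x‖ ^ (2 / p) := mul_le_mul_of_nonneg_right (hχ.le x) h1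
    _ = _ := one_mul _

/-- **the loss of `c₂`, averaged form** -/
theorem loss_avg {Φ : E3 × PP → ℂ} {τ₀ : PP} {l : Filter PP} {r C : ℝ} {w : PP → E3 → ℝ}
    {u : E3 → ℝ} (hD : SmD Φ τ₀ l r C w u) {f : E3 → ℂ} (hf : f = fun x => Φ (x, τ₀)) {A : ℝ}
    (hE : Esc f r u A) {κ p : ℝ} (hp : 1 ≤ p) (hκ : 0 ≤ κ) (hκp : κ ≤ p)
    (hpsh : ∀ θ O, PE f 0 r θ O → ∀ z ∈ O, ∀ v : Cn 2, 0 ≤ lev (fun z => κ * u (θ z)) z v)
    (hsm : SmL f 0 r fun x => κ * u x)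
    (hκA : ∀ x, f x = 0 → x ≠ 0 → nsq x < r ^ 2 → κ * u x ≤ A) {χ : E3 → ℝ} (hχ : Cut r χ)
    {ν : PP → Measure E3} {ν₀ : Measure E3}
    (hν : ∀ᶠ τ in l, IsNu (fun x => Φ (x, τ)) 0 r (ν τ)) (hν₀ : IsNu f 0 r ν₀)
    (hI : Integrable (fun x => χ x * mxd f (fun x => κ * u x) (fun x => κ * u x) x) ν₀)
    {g : E3 → ℂ} (hg : ∀ x, nsq x ≤ r ^ 2 → AnalyticAt ℂ g x) (hcf : ColFin (mnr f g))
    (hnz : NoZ f r g) (hint : Integrable (fun x => χ x * (‖g x‖ ^ 2) ^ p⁻¹) ν₀) :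
    ∀ ε : ℝ, 0 < ε → ∀ᶠ τ in l, (C2I (ν τ) (fun x => Φ (x, τ)) (w τ) χ).toReal ≤
      (C2I ν₀ f u χ).toReal + Real.pi ^ 2 * (col (mnr f g) - mss ν₀ f u (fun x => κ * u x) χ -
        mss ν₀ f (fun x => κ * u x) (fun x => κ * u x) χ) + ε := by
  intro ε hε
  subst hf
  have h0 := smd_0 hD
  have hfin : C2I ν₀ (fun x => Φ (x, τ₀)) u χ < ⊤ :=
    (fin_0 KedM_941.fatStmt Ked4_397.ctDStmt Ked4_397.cvDStmt Bd_309.bdStmt hD hχ hν hν₀).lt_top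
  obtain ⟨-, t2⟩ := Bd_309.tendStmt Φ τ₀ l r C w u hD _ rfl χ hχ ν ν₀ hν hν₀ g hg hcf hnz
  have hg' : ∀ x, nsq x < r ^ 2 → AnalyticAt ℂ g x := fun x hx => hg x hx.le
  have hke : KEon (fun x => Φ (x, τ₀)) 0 r u := hD.ke0.1
  have hL := LL_spec h0 hke hg'
  have ha := avg h0 hke hD.ke0.2.hi hE hν₀ hχ hg' hp hκ hκp hint hnz hL
  have v1 := LossF_625.half_avg h0 hke hν₀ hχ hfin hE.pos hE.one hE.inf hsm hpsh hκA hI hg' hnz
    hL ha
  filter_upwards [t2.eventually (gt_mem_nhds (lt_add_of_pos_right _ hε))] with τ hτ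
  refine hτ.le.trans ?_
  nlinarith

/-- **(GB0)** from `XStmt` -/
theorem gb0_of_x (xs : XStmt) (esc : EscStmt) (v1 : V1Stmt) : GB0Stmt := by
  intro Φ τ₀ l r C w u hD f hf hm χ hχ ν ν₀ hν hν₀ ε hε
  have meas := KedM_941.measStmt
  have fat := KedM_941.fatStmt
  have cvi := KedM_941.cvIStmt
  have bd := Bd_309.bdStmt
  have lg : LGStmt := LgA_827.lgStmt
  have ctd := Ked4_397.ctDStmt
  have cvd := Ked4_397.cvDStmt
  have bmy := Ked2_397.bmyStmt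
  have hiso : Iso f := hf ▸ hD.iso
  have hfa : AnalyticAt ℂ f 0 := hiso.an
  have hlv : LvlOK f 0 r := hf ▸ smd_0 hD
  have hke : KEon f 0 r u := hf ▸ hD.ke0.1
  obtain ⟨k, g, h, x1, x2, x3, xJ, x4, x5, x6, x7⟩ := xs f hiso hm
  have hX : XPr f k g h := ⟨x1, x2, x3, x4, x5, x6, x7⟩
  have hg := hX.g_an
  have hkpos : (0 : ℝ) < (k : ℝ) := by
    have : 0 < k := by have := hX.two; omega
    exact_mod_cast this
  obtain ⟨g0, h0⟩ := xpr_zero hX hm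
  obtain ⟨cf, cL'⟩ := xpr_L lg hiso hX hm
  -- the exponent
  have hpi : 0 < Real.pi ^ 2 := by positivity
  obtain ⟨κ, hκ0, hκk, hκ⟩ : ∃ κ : ℝ, 0 < κ ∧ κ < k ∧
      Real.pi ^ 2 * (((k : ℝ) ^ 2 + k - κ - κ ^ 2) * mstar f) ≤ ε / 4 := by
    have hcont : Tendsto (fun κ : ℝ => Real.pi ^ 2 * (((k : ℝ) ^ 2 + k - κ - κ ^ 2) * mstar f))
        (𝓝 ((k : ℕ) : ℝ)) (𝓝 0) := by
      have : ContinuousAt (fun κ : ℝ =>
          Real.pi ^ 2 * (((k : ℝ) ^ 2 + k - κ - κ ^ 2) * mstar f)) (k : ℝ) := by fun_prop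
      have h2 := this.tendsto
      have e : Real.pi ^ 2 * (((k : ℝ) ^ 2 + k - k - k ^ 2) * mstar f) = 0 := by ring
      rwa [e] at h2
    have h3 := (hcont.eventually (gt_mem_nhds (by linarith : (0 : ℝ) < ε / 4))).filter_mono
      (nhdsWithin_le_nhds (s := Set.Iio (k : ℝ)))
    have h4 : ∀ᶠ κ : ℝ in 𝓝[<] (k : ℝ), κ < k := eventually_mem_nhdsWithin
    have h5 : ∀ᶠ κ : ℝ in 𝓝[<] (k : ℝ), 0 < κ :=
      (lt_mem_nhds hkpos).filter_mono nhdsWithin_le_nhds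
    obtain ⟨κ, a, b, c⟩ := (h3.and (h4.and h5)).exists
    exact ⟨κ, c, b, a.le⟩
  -- radii
  obtain ⟨r₁, A₁, e1, e2, e3⟩ := esc Φ τ₀ l r C w u hD f hf hm
  set p : ℝ := max κ 1 with hpd
  have hp1 : 1 ≤ p := le_max_right _ _
  have hκp : κ ≤ p := le_max_left _ _
  have hpk : p < k := max_lt hκk (by
    have : (2 : ℝ) ≤ (k : ℝ) := by exact_mod_cast x1
    linarith)
  obtain ⟨r₂, u1, u5⟩ := Jnu_980.jnu hiso hlv hν₀ hp1 x2 (xJ p hp1 hpk).1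
  obtain ⟨r₃, n1, n2⟩ := noz_of_colFin hlv hfa hg cf
  obtain ⟨r₄, a1, a2⟩ := nsq_lt_of hg.eventually_analyticAt
  obtain ⟨r', hr0, hr1, hr2, hr3, hr4⟩ : ∃ r' : ℝ, 0 < r' ∧ r' ≤ r₁ ∧ r' ≤ r₂ ∧ r' ≤ r₃ ∧
      r' < r₄ := by
    refine ⟨min (min r₁ r₂) (min r₃ (r₄ / 2)), by positivity, ?_, ?_, ?_, ?_⟩
    · exact (min_le_left _ _).trans (min_le_left _ _)
    · exact (min_le_left _ _).trans (min_le_right _ _)
    · exact (min_le_right _ _).trans (min_le_left _ _)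
    · exact ((min_le_right _ _).trans (min_le_right _ _)).trans_lt (by linarith)
  have hrr : r' ≤ r := hr1.trans e2.le
  have hke' : KEon f 0 r' u := ke_mono hr0.le hrr hke
  have hke1 : KEon f 0 r₁ u := ke_mono e1.le e2.le hke
  have hE := esc_mono hr0.le hr1 e3
  have hA1 := e3.pos
  -- constants
  set A := max A₁ (max κ (κ * A₁)) with hA
  have i1 : A₁ ≤ A := le_max_left _ _
  have i3 : κ ≤ A := (le_max_left _ _).trans (le_max_right _ _)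
  have i4 : κ * A₁ ≤ A := (le_max_right _ _).trans (le_max_right _ _)
  have hE' : Esc f r' u A := esc_A hke' hE i1
  have hD' : SmD Φ τ₀ l r' C w u := smd_mono hr0 hrr hD
  have hlv' : LvlOK f 0 r' := hf ▸ smd_0 hD'
  obtain ⟨χ', hχ'⟩ := exists_cut hr0
  have hν' := isnu_rs_ev (Φ := Φ) (ν := ν) hr0 hrr hν
  have hν₀' : IsNu f 0 r' (rs r' ν₀) := isnu_rs hr0.le hrr hν₀
  have hν₀'' : IsNu (fun x => Φ (x, τ₀)) 0 r' (rs r' ν₀) := hf ▸ hν₀'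
  have hfin : C2I (rs r' ν₀) f u χ' ≠ ⊤ := by
    have := fin_0 fat ctd cvd bd hD' hχ' hν' hν₀''
    rw [hf]
    exact this
  have ga : ∀ x, nsq x ≤ r' ^ 2 → AnalyticAt ℂ g x := fun x hx => a2 x (hx.trans_lt (by gcongr))
  have hint : Integrable (fun x => χ' x * (‖g x‖ ^ 2) ^ p⁻¹) (rs r' ν₀) := by
    refine int_pow (δ := r₂) hlv' hν₀' (by linarith) (fun x hx => ga x hx.le)
      (pow_le_pow_left₀ hr0.le hr2 2) ?_ hχ'
    refine lt_of_le_of_lt ?_ u5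
    exact lintegral_mono' (Measure.restrict_mono le_rfl Measure.restrict_le_self) le_rfl
  have hloss := loss_avg hD' hf hE' hp1 hκ0.le hκp
    (fun θ O hθ z hz v => by
      have h1 : ContDiffAt ℝ ∞ (fun z => u (θ z)) z :=
        (hke'.sm θ O hθ).contDiffAt (hθ.par.isOpen.mem_nhds hz)
      have h2 := lev_mul (u := fun z => u (θ z)) κ v h1
      rw [h2]
      exact mul_nonneg hκ0.le (lev_nn hke' hθ hz v))
    (smL_mul (smL_ke hke') κ)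
    (fun x y1 y2 y3 => by
      have h1 := hE.one x y1 y2 y3
      have h3 : u x ≤ A₁ := by linarith
      calc κ * u x ≤ κ * A₁ := by gcongr
        _ ≤ A := i4)
    hχ' hν' hν₀' (int_mxd meas hlv' hν₀' hke' hχ' hfin κ) ga cf (n2 r' hr3 hr0 hrr) hint (ε / 4)
    (by positivity)
  -- masses
  have hmas := v1 Φ τ₀ l r' C w u hD' f hf hm χ' hχ' (rs r' ν₀) hν₀'
  have hmeas : AEMeasurable (fun x => χ' x * Real.exp (u x)) (rs r' ν₀) :=
    meas f 0 r' hlv'.pos hlv'.an hlv'.sm _ hν₀' _ (CtL.mul (ctl_amb hχ'.sm.continuous)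
      (CtL.exp (ctl_ke hke')))
  have m1 : mss (rs r' ν₀) f u (fun x => κ * u x) χ' = κ * mas (rs r' ν₀) f u χ' := by
    rw [mss_mul_right hlv' hν₀' (smL_ke hke'), mss_self hlv' hν₀' hke' hχ' hmeas]
  have m2 : mss (rs r' ν₀) f (fun x => κ * u x) (fun x => κ * u x) χ' =
      κ ^ 2 * mas (rs r' ν₀) f u χ' := by
    rw [mss_mul_left hlv' hν₀' (smL_ke hke'), m1]
    ring
  rw [m1, m2, cL'] at hloss
  -- conclusion
  have key : ∀ᶠ τ in l, (C2I (rs r' (ν τ)) (fun x => Φ (x, τ)) (w τ) χ').toReal ≤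
      (C2I (rs r' ν₀) (fun x => Φ (x, τ₀)) u χ').toReal +
        (Real.pi ^ 2 * (col (par f) + 1) + ε / 2) := by
    filter_upwards [hloss] with τ hτ
    refine hτ.trans ?_
    rw [← hf]
    have h2 : (κ + κ ^ 2) * mstar f ≤ (κ + κ ^ 2) * mas (rs r' ν₀) f u χ' := by
      gcongr
    have h3 : Real.pi ^ 2 * ((κ + κ ^ 2) * mstar f) ≤
        Real.pi ^ 2 * ((κ + κ ^ 2) * mas (rs r' ν₀) f u χ') := by gcongr
    nlinarith
  have hfinal := red_up meas fat cvi ctd bmy cvd bd hD hrr hχ hχ' hν (hf ▸ hν₀) key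
    (half_pos hε)
  filter_upwards [hfinal] with τ hτ
  rw [← hf] at hτ
  refine hτ.trans ?_
  have h5 : ENNReal.ofReal (Real.pi ^ 2 * (col (par f) + 1) + ε / 2) + ENNReal.ofReal (ε / 2) =
      ENNReal.ofReal (Real.pi ^ 2 * (col (par f) + 1)) + ENNReal.ofReal ε := by
    rw [← ENNReal.ofReal_add (by positivity) (by positivity),
      ← ENNReal.ofReal_add (by positivity) (by positivity)]
    congr 1
    ring
  rw [add_assoc, h5, ← add_assoc]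


/-- (V) for germs of multiplicity `≥ 3`, without `Up1Stmt` -/
theorem vstmt3_of_x (xs : XStmt) (upp : UppStmt) (xu : XUStmt) (v31 : V31Stmt)
    (pos : Skel2_219.PosStmt3) : Skel2_219.VStmt3 := by
  have bd : BdStmt := Bd_309.bdStmt
  have lg : LGStmt := LgA_827.lgStmt
  have v1 : V1Stmt := V1_822.v1Stmt_of_xu xu
  have esc : EscStmt := Esc_537.esc_of KedM_941.nuStmt xu (UpK_938.upStmt_of Fto_889.ftoStmt)
    Vol_397.volStmt
  have gb0 : GB0Stmt := gb0_of_x xs esc v1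
  have gb1 : GB1Stmt := SkelG_952.GB1_of KedM_941.measStmt KedM_941.fatStmt KedM_941.cvIStmt bd upp
    v1 lg
  intro G μ d R r c₀ e P c hG h1 h2 _ m hm
  exact SkelV_952.V_core KedM_941.nuStmt KedM_941.measStmt KedM_941.fatStmt KedM_941.cvIStmt
    Ked4_397.ctDStmt Ked2_397.bmyStmt Ked4_397.cvDStmt bd gb0 gb1 v1 v31 LimH_37.outStmt hG
    (pos G μ d R r c₀ e P c hG h1 h2) hm

end Crest.Agent.R257.Avg_938
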