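import Crest.Agent.R257.C2F2_625

/-!
# R257 (S0395), GB-TRIAL (task 909), part 1: the second fundamental form of the trial metric,
one chart (helper844)

* `key`     : Cauchy-Schwarz and Lagrange's identity
* `wf φ A`  : `e^{-φ} conj A`;  `dbar_wf`, `ddb_wf` : derivatives
-/

set_option autoImplicit false
set_option linter.unusedSectionVars false

open Finset Matrix Complex Filter Topology
open scoped ContDiff ComplexConjugate ComplexOrder

namespace Crest.Agent.R257.B0_844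

open Crest.Agent.R275.Geo Crest.Agent.R275.EDR890
open Crest.Agent.R273.Fock_243 Crest.Agent.R273.Calc_243
open Crest.Agent.R273.Bkn_243 Crest.Agent.R273.Pos_243 Crest.Agent.R273.BochA_101
open Crest.Agent.R273.BochB_101
open Crest.Agent.R273.BochC_101 Crest.Agent.R273.BochD_101
open Crest.Agent.R273.Hess_333 Crest.Agent.R273.HessB_333
open Crest.Agent.R273.Defs_333 (lev)
open Crest.Agent.R257.C2F1_625 Crest.Agent.R257.C2F2_625

noncomputable section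

/-! ### finite sums -/

section alg
variable {ι : Type*} [Fintype ι]

/-- Lagrange's identity with weights -/
theorem lag (e : ι → ℝ) (w v : ι → ℂ) :
    ∑ l, ∑ m, (e l * e m) * ‖w l * v m - w m * v l‖ ^ 2 =
      2 * ((∑ l, e l * ‖w l‖ ^ 2) * (∑ m, e m * ‖v m‖ ^ 2) -
        ‖∑ l, (e l : ℂ) * (conj (w l) * v l)‖ ^ 2) := by
  apply Complex.ofReal_injective
  push_cast
  simp only [← Complex.mul_conj']
  rw [Finset.sum_mul_sum, map_sum, Finset.sum_mul_sum]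
  have h1 : ∀ l m, (e l : ℂ) * (e m) * ((w l * v m - w m * v l) * conj (w l * v m - w m * v l)) =
      ((e l : ℂ) * (w l * conj (w l)) * ((e m : ℂ) * (v m * conj (v m))) +
        (e m : ℂ) * (w m * conj (w m)) * ((e l : ℂ) * (v l * conj (v l)))) -
      ((e l : ℂ) * (conj (w l) * v l) * conj ((e m : ℂ) * (conj (w m) * v m)) +
        (e m : ℂ) * (conj (w m) * v m) * conj ((e l : ℂ) * (conj (w l) * v l))) := by
    intro l m
    simp only [map_sub, map_mul, Complex.conj_ofReal, Complex.conj_conj]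
    ring
  simp only [h1, Finset.sum_sub_distrib, Finset.sum_add_distrib]
  rw [Finset.sum_comm (f := fun l m => (e m : ℂ) * (w m * conj (w m)) *
    ((e l : ℂ) * (v l * conj (v l)))), Finset.sum_comm (f := fun l m =>
    (e m : ℂ) * (conj (w m) * v m) * conj ((e l : ℂ) * (conj (w l) * v l)))]
  ring

/-- Cauchy-Schwarz for double sums -/
theorem cs {e : ι → ℝ} (he : ∀ l, 0 < e l) (J T : ι → ι → ℂ) :
    ‖∑ l, ∑ m, J l m * T l m‖ ^ 2 ≤
      (∑ l, ∑ m, ‖J l m‖ ^ 2 / (e l * e m)) * ∑ l, ∑ m, (e l * e m) * ‖T l m‖ ^ 2 := by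
  have h1 : ‖∑ l, ∑ m, J l m * T l m‖ ≤ ∑ q : ι × ι, ‖J q.1 q.2‖ * ‖T q.1 q.2‖ := by
    rw [Fintype.sum_prod_type]
    refine (norm_sum_le _ _).trans (Finset.sum_le_sum fun l _ => ?_)
    refine (norm_sum_le _ _).trans (Finset.sum_le_sum fun m _ => ?_)
    rw [norm_mul]
  have h2 : (∑ q : ι × ι, ‖J q.1 q.2‖ * ‖T q.1 q.2‖) ^ 2 ≤
      (∑ q : ι × ι, ‖J q.1 q.2‖ ^ 2 / (e q.1 * e q.2)) *
        ∑ q : ι × ι, (e q.1 * e q.2) * ‖T q.1 q.2‖ ^ 2 := by
    refine Finset.sum_sq_le_sum_mul_sum_of_sq_le_mul _ (fun q _ => ?_) (fun q _ => ?_)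
      fun q _ => le_of_eq ?_
    · have := mul_pos (he q.1) (he q.2)
      positivity
    · have := mul_pos (he q.1) (he q.2)
      positivity
    · have h3 := (mul_pos (he q.1) (he q.2)).ne'
      have h4 := he q.1
      have h5 := he q.2
      field_simp
  have e1 : ∑ q : ι × ι, ‖J q.1 q.2‖ ^ 2 / (e q.1 * e q.2) =
      ∑ l, ∑ m, ‖J l m‖ ^ 2 / (e l * e m) := Fintype.sum_prod_type _
  have e2 : ∑ q : ι × ι, (e q.1 * e q.2) * ‖T q.1 q.2‖ ^ 2 =
      ∑ l, ∑ m, (e l * e m) * ‖T l m‖ ^ 2 := Fintype.sum_prod_type _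
  rw [← e1, ← e2]
  exact (pow_le_pow_left₀ (norm_nonneg _) h1 2).trans h2

/-- **the algebraic inequality** -/
theorem key {e : ι → ℝ} (he : ∀ l, 0 < e l) (w v : ι → ℂ) (J : ι → ι → ℂ)
    (hJ : ∀ l m, J m l = - J l m) :
    ‖∑ l, ∑ m, v l * w m * J l m‖ ^ 2 ≤
      ((∑ l, ∑ m, ‖J l m‖ ^ 2 / (e l * e m)) / 2) *
        ((∑ l, e l * ‖w l‖ ^ 2) * (∑ m, e m * ‖v m‖ ^ 2) -
          ‖∑ l, (e l : ℂ) * (conj (w l) * v l)‖ ^ 2) := by
  have h1 : ∑ l, ∑ m, v l * w m * J l m = -(1 / 2 : ℂ) *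
      ∑ l, ∑ m, J l m * (w l * v m - w m * v l) := by
    have h2 : ∑ l, ∑ m, J l m * (w l * v m) = - ∑ l, ∑ m, v l * w m * J l m := by
      rw [Finset.sum_comm, ← Finset.sum_neg_distrib]
      refine Finset.sum_congr rfl fun l _ => ?_
      rw [← Finset.sum_neg_distrib]
      refine Finset.sum_congr rfl fun m _ => ?_
      rw [hJ l m]
      ring
    have h3 : ∑ l, ∑ m, J l m * (w l * v m - w m * v l) =
        ∑ l, ∑ m, J l m * (w l * v m) - ∑ l, ∑ m, v l * w m * J l m := by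
      rw [← Finset.sum_sub_distrib]
      refine Finset.sum_congr rfl fun l _ => ?_
      rw [← Finset.sum_sub_distrib]
      refine Finset.sum_congr rfl fun m _ => ?_
      ring
    rw [h3, h2]
    ring
  have h2 := cs he J (fun l m => w l * v m - w m * v l)
  rw [lag] at h2
  rw [h1, norm_mul, mul_pow]
  have h3 : ‖-(1 / 2 : ℂ)‖ ^ 2 = 1 / 4 := by norm_num
  rw [h3]
  nlinarith [h2]

end alg

/-! ### derivatives -/

section cal
variable {z : Cn 2}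

theorem dI_hol {A : Cn 2 → ℂ} (hA : DifferentiableAt ℂ A z) (d : Fin 2) : dS I d A z = 0 :=
  wd_hol hA d

theorem dmI_conj {A : Cn 2 → ℂ} (hA : DifferentiableAt ℂ A z) (d : Fin 2) :
    dS (-I) d (fun y => conj (A y)) z = 0 := by
  rw [dS_conj (hA.restrictScalars ℝ), conjnI, dI_hol hA, map_zero]

theorem dI_real {φ : Cn 2 → ℝ} (hφ : ContDiffAt ℝ ∞ φ z) (d : Fin 2) :
    conj (dS I d (cu φ) z) = dS (-I) d (cu φ) z := by
  have h : (fun y => conj (cu φ y)) = cu φ := by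
    funext y
    exact Complex.conj_ofReal _
  have h2 := dS_conj (s := -I) (a := d) ((contDiffAt_cu hφ).differentiableAt (by simp))
  rw [h, conjnI] at h2
  exact h2.symm

/-- `e^{-φ} conj A` -/
def wf (φ : Cn 2 → ℝ) (A : Cn 2 → ℂ) (y : Cn 2) : ℂ := Complex.exp (- cu φ y) * conj (A y)

theorem sm_e {φ : Cn 2 → ℝ} (hφ : ContDiffAt ℝ ∞ φ z) : Sm z fun y => Complex.exp (- cu φ y) :=
  (contDiffAt_cu hφ).neg.cexp

theorem sm_wf {φ : Cn 2 → ℝ} {A : Cn 2 → ℂ} (hφ : ContDiffAt ℝ ∞ φ z) (hA : Sm z A) :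
    Sm z (wf φ A) := (sm_e hφ).mul hA.conj

theorem dbar_wf {φ : Cn 2 → ℝ} {A : Cn 2 → ℂ} (hφ : ContDiffAt ℝ ∞ φ z) (hA : Sm z A) (s : ℂ)
    (d : Fin 2) : dS s d (wf φ A) z = Complex.exp (- cu φ z) *
      (dS s d (fun y => conj (A y)) z - conj (A z) * dS s d (cu φ) z) := by
  have h1 : DifferentiableAt ℝ (cu φ) z := (contDiffAt_cu hφ).differentiableAt (by simp)
  unfold wf
  rw [dS_mul (sm_e hφ).diff hA.conj.diff, dS_exp (f := fun y => - cu φ y) h1.neg, dS_neg]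
  ring

/-- `∂_c ∂̄_d (e^{-φ} |A|²)` -/
theorem ddb_wf {φ : Cn 2 → ℝ} {A : Cn 2 → ℂ} (hφs : ∀ᶠ y in 𝓝 z, ContDiffAt ℝ ∞ φ y)
    (hA : ∀ᶠ y in 𝓝 z, DifferentiableAt ℂ A y) (c d : Fin 2) :
    dS (-I) c (dS I d fun y => wf φ A y * A y) z =
      Complex.exp (cu φ z) * (conj (dS I c (wf φ A) z) * dS I d (wf φ A) z) -
        Complex.exp (- cu φ z) * (A z * conj (A z)) * hess φ z c d := by
  have hAs : ∀ᶠ y in 𝓝 z, Sm y A := hA.eventually_nhds.mono fun y hy => sm_of_hol hy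
  have hφ := hφs.self_of_nhds
  have hAz := hAs.self_of_nhds
  set F : Cn 2 → ℂ := fun y => dS I d (fun y => conj (A y)) y - conj (A y) * dS I d (cu φ) y
    with hF
  have e1 : (dS I d fun y => wf φ A y * A y) =ᶠ[𝓝 z] fun y =>
      (Complex.exp (- cu φ y) * A y) * F y := by
    filter_upwards [hA, hAs, hφs] with y h1 h2 h3
    rw [dS_mul (sm_wf h3 h2).diff h2.diff, dI_hol h1, dbar_wf h3 h2]
    ring
  have s1 : Sm z fun y => Complex.exp (- cu φ y) * A y := (sm_e hφ).mul hAz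
  have s2 : Sm z (dS I d (fun y => conj (A y))) := hAz.conj.dS _ _
  have s3 : Sm z (dS I d (cu φ)) := Sm.dS (contDiffAt_cu hφ) _ _
  have s4 : Sm z fun y => conj (A y) * dS I d (cu φ) y := hAz.conj.mul s3
  have hφd : DifferentiableAt ℝ (cu φ) z := (contDiffAt_cu hφ).differentiableAt (by simp)
  have e2 : dS (-I) c F z = - (conj (A z) * hess φ z c d) := by
    have h1 : dS (-I) c (dS I d (fun y => conj (A y))) z = 0 := by
      rw [dS_comm hAz.conj]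
      have : dS (-I) c (fun y => conj (A y)) =ᶠ[𝓝 z] fun _ => (0 : ℂ) := by
        filter_upwards [hA] with y hy
        exact dmI_conj hy c
      rw [dS_congr this, dS_const]
    have h2 : F = fun y => dS I d (fun y => conj (A y)) y + -(conj (A y) * dS I d (cu φ) y) := by
      funext y
      rw [hF]
      ring
    rw [h2, dS_add (g := fun y => -(conj (A y) * dS I d (cu φ) y)) s2.diff s4.diff.neg, h1, dS_neg, dS_mul hAz.conj.diff s3.diff,
      dmI_conj hA.self_of_nhds, hess_eq]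
    ring
  have e3 : conj (dS I c (wf φ A) z) = Complex.exp (- cu φ z) *
      (dS (-I) c A z - A z * dS (-I) c (cu φ) z) := by
    rw [dbar_wf hφ hAz, map_mul, map_sub, map_mul, dI_real hφ, ← Complex.exp_conj, map_neg,
      Complex.conj_conj, dS_conj hAz.diff, Complex.conj_conj, conjI]
    have : conj (cu φ z) = cu φ z := Complex.conj_ofReal _
    rw [this]
  have e4 : dS (-I) c (fun y => Complex.exp (- cu φ y) * A y) z =
      Complex.exp (- cu φ z) * (dS (-I) c A z - A z * dS (-I) c (cu φ) z) := by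
    rw [dS_mul (sm_e hφ).diff hAz.diff, dS_exp (f := fun y => - cu φ y) hφd.neg, dS_neg]
    ring
  have e5 : Complex.exp (cu φ z) * Complex.exp (- cu φ z) = 1 := by
    rw [← Complex.exp_add, add_neg_cancel, Complex.exp_zero]
  have s5 : Sm z F := s2.sub s4
  rw [dS_congr e1, dS_mul s1.diff s5.diff, e2, e4, e3, dbar_wf hφ hAz]
  linear_combination (- (Complex.exp (- cu φ z) *
      (dS (-I) c A z - A z * dS (-I) c (cu φ) z) * F z)) * e5

/-! ### the functions of the trial metric -/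

variable {ι : Type} [Fintype ι]

/-- `G ∧ Q` -/
def wdg (G Q : Fin 2 → Cn 2 → ℂ) (y : Cn 2) : ℂ := G 0 y * Q 1 y - G 1 y * Q 0 y

/-- `e_j ∧ Q` -/
def pq (Q : Fin 2 → Cn 2 → ℂ) (j : Fin 2) (y : Cn 2) : ℂ := if j = 0 then Q 1 y else - Q 0 y

/-- `∑ e^{-φ_l} |G ∧ Q_l|²` -/
def nA (φ : ι → Cn 2 → ℝ) (G : Fin 2 → Cn 2 → ℂ) (Q : ι → Fin 2 → Cn 2 → ℂ) (y : Cn 2) : ℝ :=
  ∑ l, Real.exp (- φ l y) * ‖wdg G (Q l) y‖ ^ 2

/-- `nA` as a complex function -/
def nC (φ : ι → Cn 2 → ℝ) (G : Fin 2 → Cn 2 → ℂ) (Q : ι → Fin 2 → Cn 2 → ℂ) (y : Cn 2) : ℂ :=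
  ∑ l, wf (φ l) (wdg G (Q l)) y * wdg G (Q l) y

/-- `x(e_j)` -/
def xj (φ : ι → Cn 2 → ℝ) (G : Fin 2 → Cn 2 → ℂ) (Q : ι → Fin 2 → Cn 2 → ℂ) (j : Fin 2)
    (y : Cn 2) : ℂ := (∑ l, wf (φ l) (wdg G (Q l)) y * pq (Q l) j y) / nC φ G Q y

/-- `y(e_j) = G ∧ e_j` -/
def yj (G : Fin 2 → Cn 2 → ℂ) (j : Fin 2) (y : Cn 2) : ℂ := if j = 0 then - G 1 y else G 0 y

/-- the coefficient of `∂̄x = b y` -/
def bj (φ : ι → Cn 2 → ℝ) (G : Fin 2 → Cn 2 → ℂ) (Q : ι → Fin 2 → Cn 2 → ℂ) (d : Fin 2)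
    (y : Cn 2) : ℂ :=
  - (∑ l, ∑ m, dS I d (wf (φ l) (wdg G (Q l))) y * wf (φ m) (wdg G (Q m)) y * wdg (Q l) (Q m) y) /
    nC φ G Q y ^ 2

theorem nC_eq (φ : ι → Cn 2 → ℝ) (G : Fin 2 → Cn 2 → ℂ) (Q : ι → Fin 2 → Cn 2 → ℂ) (y : Cn 2) :
    nC φ G Q y = (nA φ G Q y : ℂ) := by
  unfold nC nA wf cu
  push_cast
  refine Finset.sum_congr rfl fun l _ => ?_
  rw [mul_assoc, ← Complex.mul_conj', mul_comm (conj _)]

/-- holomorphic near `z` -/
abbrev HF (z : Cn 2) (G : Fin 2 → Cn 2 → ℂ) : Prop := ∀ i, ∀ᶠ y in 𝓝 z, DifferentiableAt ℂ (G i) y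

theorem HF.ev {G : Fin 2 → Cn 2 → ℂ} (h : HF z G) : ∀ᶠ y in 𝓝 z, HF y G := by
  rw [eventually_all]
  exact fun i => (h i).eventually_nhds

theorem HF.wdg {G Q : Fin 2 → Cn 2 → ℂ} (h : HF z G) (h' : HF z Q) :
    ∀ᶠ y in 𝓝 z, DifferentiableAt ℂ (B0_844.wdg G Q) y := by
  filter_upwards [h 0, h 1, h' 0, h' 1] with y a b c d
  exact (a.fun_mul d).fun_sub (b.fun_mul c)

theorem HF.pq {Q : Fin 2 → Cn 2 → ℂ} (h : HF z Q) (j : Fin 2) :
    ∀ᶠ y in 𝓝 z, DifferentiableAt ℂ (B0_844.pq Q j) y := by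
  filter_upwards [h 0, h 1] with y a b
  unfold B0_844.pq
  split_ifs
  · exact b
  · exact a.neg

theorem HF.yj {G : Fin 2 → Cn 2 → ℂ} (h : HF z G) (j : Fin 2) :
    ∀ᶠ y in 𝓝 z, DifferentiableAt ℂ (B0_844.yj G j) y := by
  filter_upwards [h 0, h 1] with y a b
  unfold B0_844.yj
  split_ifs
  · exact b.neg
  · exact a

variable {φ : ι → Cn 2 → ℝ} {G : Fin 2 → Cn 2 → ℂ} {Q : ι → Fin 2 → Cn 2 → ℂ}

/-- the hypotheses at a point -/
structure Dat (φ : ι → Cn 2 → ℝ) (G : Fin 2 → Cn 2 → ℂ) (Q : ι → Fin 2 → Cn 2 → ℂ)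
    (z : Cn 2) : Prop where
  sm : ∀ l, ∀ᶠ y in 𝓝 z, ContDiffAt ℝ ∞ (φ l) y
  g : HF z G
  q : ∀ l, HF z (Q l)
  n0 : 0 < nA φ G Q z

namespace Dat

theorem wsm (h : Dat φ G Q z) (l : ι) : ∀ᶠ y in 𝓝 z, Sm y (wf (φ l) (wdg G (Q l))) := by
  filter_upwards [h.sm l, (h.g.wdg (h.q l)).eventually_nhds] with y h1 h2
  exact sm_wf h1 (sm_of_hol h2)

theorem nC_sm (h : Dat φ G Q z) : ∀ᶠ y in 𝓝 z, Sm y (nC φ G Q) := by
  have h1 : ∀ᶠ y in 𝓝 z, ∀ l, Sm y (wf (φ l) (wdg G (Q l))) := by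
    rw [eventually_all]
    exact h.wsm
  have h2 : ∀ᶠ y in 𝓝 z, ∀ l, ∀ᶠ w in 𝓝 y, DifferentiableAt ℂ (wdg G (Q l)) w := by
    rw [eventually_all]
    exact fun l => (h.g.wdg (h.q l)).eventually_nhds
  filter_upwards [h1, h2] with y a b
  exact Sm.sum _ fun l _ => (a l).mul (sm_of_hol (b l))

theorem nC_ne (h : Dat φ G Q z) : nC φ G Q z ≠ 0 := by
  rw [nC_eq]
  exact_mod_cast h.n0.ne'

theorem pos_ev (h : Dat φ G Q z) : ∀ᶠ y in 𝓝 z, 0 < nA φ G Q y := by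
  have h1 : ContinuousAt (fun y => (nC φ G Q y).re) z :=
    Complex.continuous_re.continuousAt.comp h.nC_sm.self_of_nhds.continuousAt
  have h2 : ∀ y, (nC φ G Q y).re = nA φ G Q y := fun y => by rw [nC_eq, Complex.ofReal_re]
  simp only [h2] at h1
  exact h1.eventually (lt_mem_nhds h.n0)

theorem ev (h : Dat φ G Q z) : ∀ᶠ y in 𝓝 z, Dat φ G Q y := by
  have h1 : ∀ᶠ y in 𝓝 z, ∀ l, ∀ᶠ w in 𝓝 y, ContDiffAt ℝ ∞ (φ l) w := by
    rw [eventually_all]
    exact fun l => (h.sm l).eventually_nhds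
  have h2 : ∀ᶠ y in 𝓝 z, ∀ l, HF y (Q l) := by
    rw [eventually_all]
    exact fun l => (h.q l).ev
  filter_upwards [h1, h2, h.g.ev, h.pos_ev] with y a b c d
  exact ⟨a, c, b, d⟩

theorem xj_sm (h : Dat φ G Q z) (j : Fin 2) : Sm z (xj φ G Q j) := by
  have h1 : Sm z fun y => ∑ l, wf (φ l) (wdg G (Q l)) y * pq (Q l) j y :=
    Sm.sum _ fun l _ => (h.wsm l).self_of_nhds.mul (sm_of_hol ((h.q l).pq j))
  have h2 : xj φ G Q j = fun y => (∑ l, wf (φ l) (wdg G (Q l)) y * pq (Q l) j y) *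
      (nC φ G Q y)⁻¹ := by
    funext y
    exact div_eq_mul_inv _ _
  rw [h2]
  exact h1.mul (h.nC_sm.self_of_nhds.inv h.nC_ne)

/-- `x(G) = 1` -/
theorem xj_G (h : Dat φ G Q z) : xj φ G Q 0 z * G 0 z + xj φ G Q 1 z * G 1 z = 1 := by
  unfold xj
  rw [div_mul_eq_mul_div, div_mul_eq_mul_div, ← add_div, div_eq_one_iff_eq h.nC_ne,
    Finset.sum_mul, Finset.sum_mul, ← Finset.sum_add_distrib]
  unfold nC
  refine Finset.sum_congr rfl fun l _ => ?_
  simp only [pq, wdg, if_true, if_false, one_ne_zero]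
  ring

theorem dnC (h : Dat φ G Q z) (d : Fin 2) : dS I d (nC φ G Q) z =
    ∑ l, dS I d (wf (φ l) (wdg G (Q l))) z * wdg G (Q l) z := by
  have h1 : ∀ l, DifferentiableAt ℂ (wdg G (Q l)) z := fun l => (h.g.wdg (h.q l)).self_of_nhds
  unfold nC
  rw [dS_sum (f := fun l y => wf (φ l) (wdg G (Q l)) y * wdg G (Q l) y) _ fun l _ =>
    ((h.wsm l).self_of_nhds.diff.mul ((h1 l).restrictScalars ℝ))]
  refine Finset.sum_congr rfl fun l _ => ?_
  rw [dS_mul (h.wsm l).self_of_nhds.diff ((h1 l).restrictScalars ℝ), dI_hol (h1 l), mul_zero,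
    add_zero]

/-- **`∂̄x = b y`** -/
theorem dxj (h : Dat φ G Q z) (j d : Fin 2) :
    dS I d (xj φ G Q j) z = bj φ G Q d z * yj G j z := by
  have hp : ∀ l, DifferentiableAt ℂ (pq (Q l) j) z := fun l => ((h.q l).pq j).self_of_nhds
  have e1 : (fun y => xj φ G Q j y * nC φ G Q y) =ᶠ[𝓝 z] fun y =>
      ∑ l, wf (φ l) (wdg G (Q l)) y * pq (Q l) j y := by
    filter_upwards [h.ev] with y hy
    exact div_mul_cancel₀ _ hy.nC_ne
  have e2 := dS_congr (s := I) (a := d) e1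
  rw [dS_mul (h.xj_sm j).diff h.nC_sm.self_of_nhds.diff,
    dS_sum (f := fun l y => wf (φ l) (wdg G (Q l)) y * pq (Q l) j y) _ fun l _ =>
      ((h.wsm l).self_of_nhds.diff.mul ((hp l).restrictScalars ℝ)), h.dnC] at e2
  have e3 : ∀ l, dS I d (fun y => wf (φ l) (wdg G (Q l)) y * pq (Q l) j y) z =
      dS I d (wf (φ l) (wdg G (Q l))) z * pq (Q l) j z := fun l => by
    rw [dS_mul (h.wsm l).self_of_nhds.diff ((hp l).restrictScalars ℝ), dI_hol (hp l), mul_zero,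
      add_zero]
  simp only [e3] at e2
  have hn := h.nC_ne
  have e4 : xj φ G Q j z * nC φ G Q z = ∑ l, wf (φ l) (wdg G (Q l)) z * pq (Q l) j z :=
    e1.self_of_nhds
  have e5 : dS I d (xj φ G Q j) z * nC φ G Q z ^ 2 =
      nC φ G Q z * (∑ l, dS I d (wf (φ l) (wdg G (Q l))) z * pq (Q l) j z) -
        (∑ l, wf (φ l) (wdg G (Q l)) z * pq (Q l) j z) *
          ∑ l, dS I d (wf (φ l) (wdg G (Q l))) z * wdg G (Q l) z := by
    rw [← e4, ← e2]
    ring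
  have e6 : dS I d (xj φ G Q j) z * nC φ G Q z ^ 2 =
      - (∑ l, ∑ m, dS I d (wf (φ l) (wdg G (Q l))) z * wf (φ m) (wdg G (Q m)) z *
        wdg (Q l) (Q m) z) * yj G j z := by
    rw [e5]
    conv_lhs => rw [mul_comm (nC φ G Q z), mul_comm (∑ l, wf (φ l) (wdg G (Q l)) z * pq (Q l) j z)]
    unfold nC
    rw [Finset.sum_mul_sum, Finset.sum_mul_sum, ← Finset.sum_sub_distrib, neg_mul, Finset.sum_mul,
      ← Finset.sum_neg_distrib]
    refine Finset.sum_congr rfl fun l _ => ?_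
    rw [← Finset.sum_sub_distrib, Finset.sum_mul, ← Finset.sum_neg_distrib]
    refine Finset.sum_congr rfl fun m _ => ?_
    fin_cases j
    · simp only [pq, yj, wdg, Fin.zero_eta, if_true]
      ring
    · simp only [pq, yj, wdg, Fin.mk_one, one_ne_zero, if_false]
      ring
  unfold bj
  rw [div_mul_eq_mul_div, eq_div_iff (pow_ne_zero 2 hn), e6]

end Dat

end cal

end

end Crest.Agent.R257.B0_844
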