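import Crest.Agent.R257.B0_844

/-!
# R257 (S0395), GB-TRIAL (task 909), part 2: the inequality in one chart (helper844)

* `bb_tri` : `bb H G = (α/β) conj(b_c) b_d` for `H = α conj(x) x + β conj(y) y`
* `core`   : `c ∂∂̄ (log nA + ∑ φ_l) - bb H G ≥ 0` for `c ≥ (α/β) 𝒥 / nA²`
-/

set_option autoImplicit false
set_option linter.unusedSectionVars false

open Finset Matrix Complex Filter Topology
open scoped ContDiff ComplexConjugate ComplexOrder

namespace Crest.Agent.R257.B0_844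

open Crest.Agent.R275.Geo Crest.Agent.R275.EDR890
open Crest.Agent.R273.Fock_243 Crest.Agent.R273.Calc_243
open Crest.Agent.R273.Bkn_243 Crest.Agent.R273.Pos_243 Crest.Agent.R273.BochA_101
open Crest.Agent.R273.BochB_101
open Crest.Agent.R273.BochC_101 Crest.Agent.R273.BochD_101
open Crest.Agent.R273.Hess_333 Crest.Agent.R273.HessB_333
open Crest.Agent.R273.Defs_333 (lev)
open Crest.Agent.R257.C2F1_625 Crest.Agent.R257.C2F2_625

noncomputable section

variable {ι : Type} [Fintype ι] {z : Cn 2}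
variable {φ : ι → Cn 2 → ℝ} {G : Fin 2 → Cn 2 → ℂ} {Q : ι → Fin 2 → Cn 2 → ℂ}

/-! ### the second fundamental form -/

theorem fr_alg {α β : ℂ} {x y : Fin 2 → ℂ} {H : Matrix (Fin 2) (Fin 2) ℂ}
    (hH : ∀ i j, H i j = α * (conj (x i) * x j) + β * (conj (y i) * y j))
    (F : Matrix (Fin 2) (Fin 2) ℂ) (a b : Fin 2) : (Fᴴ * H * F) a b =
      α * (conj (x 0 * F 0 a + x 1 * F 1 a) * (x 0 * F 0 b + x 1 * F 1 b)) +
        β * (conj (y 0 * F 0 a + y 1 * F 1 a) * (y 0 * F 0 b + y 1 * F 1 b)) := by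
  simp only [Matrix.mul_apply, Fin.sum_univ_two, Matrix.conjTranspose_apply, hH, Complex.star_def,
    map_add, map_mul]
  ring

theorem Dat.exists_k (h : Dat φ G Q z) : ∃ k, G k z ≠ 0 := by
  by_contra hc
  push Not at hc
  have := h.n0
  unfold nA wdg at this
  simp [hc 0, hc 1] at this

/-- **the second fundamental form of the trial metric** -/
theorem Dat.bb_tri (h : Dat φ G Q z) {α β : Cn 2 → ℝ} {H : Cn 2 → Matrix (Fin 2) (Fin 2) ℂ}
    {V : Cn 2 → Fin 2 → ℂ}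
    (hα : ∀ᶠ y in 𝓝 z, ContDiffAt ℝ ∞ α y ∧ 0 < α y)
    (hβ : ∀ᶠ y in 𝓝 z, ContDiffAt ℝ ∞ β y ∧ 0 < β y)
    (hVe : V = fun y i => G i y)
    (hsm : ∀ᶠ y in 𝓝 z, SmM y H) (hdet : (H z).det ≠ 0)
    (hH : ∀ᶠ y in 𝓝 z, ∀ i j, H y i j = (α y : ℂ) * (conj (xj φ G Q i y) * xj φ G Q j y) +
      (β y : ℂ) * (conj (yj G i y) * yj G j y))
    (hh : ∀ᶠ y in 𝓝 z, hV H V y = α y) (c d : Fin 2) :
    bb H V z c d = ((α z / β z : ℝ) : ℂ) * (conj (bj φ G Q c z) * bj φ G Q d z) := by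
  obtain ⟨k, hk⟩ := h.exists_k
  set k' : Fin 2 := if k = 0 then 1 else 0 with hk'
  have hy0 : ∀ y, yj G k' y = 0 → G k y = 0 := by
    intro y hy
    fin_cases k
    · simpa [hk', yj] using hy
    · simpa [hk', yj] using hy
  have hyz : yj G k' z ≠ 0 := fun h0 => hk (hy0 z h0)
  have hye : ∀ᶠ y in 𝓝 z, yj G k' y ≠ 0 :=
    (h.g.yj k').self_of_nhds.continuousAt.eventually_ne hyz
  have hV' : ∀ i, ∀ᶠ y in 𝓝 z, DifferentiableAt ℂ (fun w => V w i) y := by
    intro i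
    rw [hVe]
    exact h.g i
  have hkV : V z k ≠ 0 := by rw [hVe]; exact hk
  have hall : ∀ᶠ y in 𝓝 z, Sm y (cu α) ∧ Sm y (cu fun y => β y * ‖yj G k' y‖ ^ 2) ∧
      Sm y (xj φ G Q k') ∧ Sm y (fun y => conj (xj φ G Q k' y)) ∧ 0 < cu α y ∧
      0 < cu (fun y => β y * ‖yj G k' y‖ ^ 2) y ∧ cu α y = (hV H V y : ℂ) := by
    filter_upwards [hα, hβ, h.ev, hye, hh, (h.g.yj k').eventually_nhds] with y a1 a2 a3 a4 a5 a6
    have b1 := a3.xj_sm k'
    refine ⟨contDiffAt_cu a1.1, contDiffAt_cu (a2.1.mul ((sm_of_hol a6).norm_sq ℝ)), b1, b1.conj,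
      ?_, ?_, ?_⟩
    · exact Complex.zero_lt_real.2 a1.2
    · have := norm_pos_iff.2 a4
      refine Complex.zero_lt_real.2 ?_
      have b2 := a2.2
      positivity
    · rw [a5]
      rfl
  have hE : (fun y => (fr V k y)ᴴ * H y * fr V k y) =ᶠ[𝓝 z]
      ldu (cu α) (cu fun y => β y * ‖yj G k' y‖ ^ 2) (xj φ G Q k')
        (fun y => conj (xj φ G Q k' y)) := by
    filter_upwards [hH, h.ev] with y a1 a2
    have x1 := a2.xj_G
    have y1 : yj G 0 y * G 0 y + yj G 1 y * G 1 y = 0 := by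
      simp only [yj, if_true, one_ne_zero, if_false]
      ring
    have hfr : ∀ (u : Fin 2 → ℂ), u 0 * fr V k y 0 0 + u 1 * fr V k y 1 0 =
        u 0 * G 0 y + u 1 * G 1 y := by
      intro u
      rw [hVe]
      rfl
    have hfr1 : ∀ (u : Fin 2 → ℂ), u 0 * fr V k y 0 1 + u 1 * fr V k y 1 1 = u k' := by
      intro u
      fin_cases k
      · simp [fr, hk']
      · simp [fr, hk']
    have hny : (yj G k' y) * conj (yj G k' y) = ((‖yj G k' y‖ ^ 2 : ℝ) : ℂ) := by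
      rw [Complex.mul_conj']
      push_cast
      rfl
    ext a b
    rw [fr_alg (x := fun i => xj φ G Q i y) (y := fun i => yj G i y) a1]
    have f0 : xj φ G Q 0 y * fr V k y 0 0 + xj φ G Q 1 y * fr V k y 1 0 = 1 :=
      (hfr fun i => xj φ G Q i y).trans x1
    have f1 : xj φ G Q 0 y * fr V k y 0 1 + xj φ G Q 1 y * fr V k y 1 1 = xj φ G Q k' y :=
      hfr1 fun i => xj φ G Q i y
    have g0 : yj G 0 y * fr V k y 0 0 + yj G 1 y * fr V k y 1 0 = 0 :=
      (hfr fun i => yj G i y).trans y1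
    have g1 : yj G 0 y * fr V k y 0 1 + yj G 1 y * fr V k y 1 1 = yj G k' y :=
      hfr1 fun i => yj G i y
    fin_cases a <;> fin_cases b
    · simp only [Fin.zero_eta, f0, g0, ldu, cu, map_one, map_zero]
      simp
    · simp only [Fin.zero_eta, Fin.mk_one, f0, g0, f1, g1, ldu, cu, map_one, map_zero]
      simp
    · simp only [Fin.zero_eta, Fin.mk_one, f0, g0, f1, g1, ldu, cu, map_one, map_zero]
      simp
    · simp only [Fin.mk_one, f1, g1, ldu, cu]
      simp only [Matrix.of_apply, Matrix.cons_val', Matrix.cons_val_one, Matrix.cons_val_fin_one]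
      rw [Complex.ofReal_mul, ← hny]
      ring
  have e := bt_eq_bb (k := k) hsm hdet hV' hkV hall hE c d
  rw [← e]
  unfold bt
  have hconj : dS (-I) c (fun y => conj (xj φ G Q k' y)) z = conj (dS I c (xj φ G Q k') z) := by
    rw [dS_conj (h.xj_sm k').diff, conjnI]
  rw [hconj, h.dxj, h.dxj]
  have hβ0 : (β z : ℂ) ≠ 0 := Complex.ofReal_ne_zero.2 hβ.self_of_nhds.2.ne'
  have hny : ((‖yj G k' z‖ ^ 2 : ℝ) : ℂ) = (yj G k' z) * conj (yj G k' z) := by
    rw [Complex.mul_conj']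
    push_cast
    rfl
  have hc0 : conj (yj G k' z) ≠ 0 := (map_ne_zero _).2 hyz
  simp only [cu]
  rw [Complex.ofReal_mul, hny, map_mul, Complex.ofReal_div]
  field_simp

/-! ### the Hessian of `log nA` -/

theorem Dat.hess_nA (h : Dat φ G Q z) (c d : Fin 2) :
    hess (fun y => Real.log (nA φ G Q y)) z c d =
      (∑ l, (Complex.exp (cu (φ l) z) * (conj (dS I c (wf (φ l) (wdg G (Q l))) z) *
          dS I d (wf (φ l) (wdg G (Q l))) z) -
        Complex.exp (- cu (φ l) z) * (wdg G (Q l) z * conj (wdg G (Q l) z)) *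
          hess (φ l) z c d)) / nC φ G Q z -
      conj (dS I c (nC φ G Q) z) * dS I d (nC φ G Q) z / nC φ G Q z ^ 2 := by
  have him : ∀ y, (nC φ G Q y).im = 0 := fun y => by rw [nC_eq, Complex.ofReal_im]
  have hre : ∀ y, (nC φ G Q y).re = nA φ G Q y := fun y => by rw [nC_eq, Complex.ofReal_re]
  have h1 := lg_eq_hess h.nC_sm.self_of_nhds (Eventually.of_forall him)
    (by rw [hre]; exact h.n0) c d
  simp only [hre] at h1
  rw [← h1, lg]
  have h2 : dS (-I) c (nC φ G Q) z = conj (dS I c (nC φ G Q) z) := by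
    have e : (fun y => conj (nC φ G Q y)) = nC φ G Q := by
      funext y
      rw [nC_eq, Complex.conj_ofReal]
    have e2 := dS_conj (s := -I) (a := c) h.nC_sm.self_of_nhds.diff
    rw [e, conjnI] at e2
    exact e2
  have hsl : ∀ l, ∀ᶠ y in 𝓝 z, Sm y fun y => wf (φ l) (wdg G (Q l)) y * wdg G (Q l) y := by
    intro l
    filter_upwards [h.wsm l, (h.g.wdg (h.q l)).eventually_nhds] with y a b
    exact a.mul (sm_of_hol b)
  have h3 : dS I d (nC φ G Q) =ᶠ[𝓝 z] fun y =>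
      ∑ l, dS I d (fun y => wf (φ l) (wdg G (Q l)) y * wdg G (Q l) y) y := by
    have : ∀ᶠ y in 𝓝 z, ∀ l, Sm y fun y => wf (φ l) (wdg G (Q l)) y * wdg G (Q l) y := by
      rw [eventually_all]
      exact hsl
    filter_upwards [this] with y hy
    exact dS_sum (f := fun l y => wf (φ l) (wdg G (Q l)) y * wdg G (Q l) y) _
      fun l _ => (hy l).diff
  have h4 : dS (-I) c (dS I d (nC φ G Q)) z = ∑ l,
      (Complex.exp (cu (φ l) z) * (conj (dS I c (wf (φ l) (wdg G (Q l))) z) *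
          dS I d (wf (φ l) (wdg G (Q l))) z) -
        Complex.exp (- cu (φ l) z) * (wdg G (Q l) z * conj (wdg G (Q l) z)) *
          hess (φ l) z c d) := by
    rw [dS_congr h3, dS_sum (f := fun l y => dS I d (fun y => wf (φ l) (wdg G (Q l)) y *
      wdg G (Q l) y) y) _ fun l _ => ((hsl l).self_of_nhds.dS I d).diff]
    refine Finset.sum_congr rfl fun l _ => ?_
    exact ddb_wf (h.sm l) (h.g.wdg (h.q l)) c d
  rw [h4, h2]

/-! ### quadratic forms -/

theorem qf_eq (M : Matrix (Fin 2) (Fin 2) ℂ) (x : Fin 2 → ℂ) :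
    star x ⬝ᵥ (M *ᵥ x) = ∑ c, ∑ d, conj (x c) * M c d * x d := by
  simp only [dotProduct, Matrix.mulVec, Pi.star_apply, Complex.star_def, Finset.mul_sum,
    mul_assoc]

theorem qf_rank (a x : Fin 2 → ℂ) : ∑ c, ∑ d, conj (x c) * (conj (a c) * a d) * x d =
    ((‖∑ d, a d * x d‖ ^ 2 : ℝ) : ℂ) := by
  push_cast
  rw [← Complex.conj_mul']
  simp only [Fin.sum_univ_two, map_add, map_mul]
  ring

theorem hess_sum {J : Type} (t : Finset J) {u : J → Cn 2 → ℝ} {z : Cn 2}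
    (hu : ∀ j ∈ t, ContDiffAt ℝ ∞ (u j) z) :
    hess (fun y => ∑ j ∈ t, u j y) z = ∑ j ∈ t, hess (u j) z := by
  classical
  induction t using Finset.induction_on with
  | empty =>
    simp only [Finset.sum_empty]
    ext a b
    rw [hess_eq]
    have : (cu fun _ : Cn 2 => (0:ℝ)) = fun _ => (0:ℂ) := by
      funext y
      simp [cu]
    rw [this]
    have h2 : (dS I b fun _ : Cn 2 => (0:ℂ)) = fun _ => 0 := by
      funext y
      exact dS_const
    rw [h2, dS_const]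
    rfl
  | insert i t hi ih =>
    have h1 : (fun y => ∑ j ∈ insert i t, u j y) = fun y => u i y + ∑ j ∈ t, u j y := by
      funext y; rw [Finset.sum_insert hi]
    rw [h1, hess_add (hu i (Finset.mem_insert_self i t))
      (ContDiffAt.sum fun j hj => hu j (Finset.mem_insert_of_mem hj)), Finset.sum_insert hi,
      ih fun j hj => hu j (Finset.mem_insert_of_mem hj)]

theorem qf_sum (T : ι → Fin 2 → Fin 2 → ℂ) (x : Fin 2 → ℂ) :
    ∑ l, ∑ c, ∑ d, conj (x c) * T l c d * x d =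
      ∑ c, ∑ d, conj (x c) * (∑ l, T l c d) * x d := by
  rw [Finset.sum_comm]
  refine Finset.sum_congr rfl fun c _ => ?_
  rw [Finset.sum_comm]
  refine Finset.sum_congr rfl fun d _ => ?_
  rw [Finset.mul_sum, Finset.sum_mul]

/-- `𝒥` -/
def JJ (φ : ι → Cn 2 → ℝ) (Q : ι → Fin 2 → Cn 2 → ℂ) (z : Cn 2) : ℝ :=
  (∑ l, ∑ m, ‖wdg (Q l) (Q m) z‖ ^ 2 / (Real.exp (φ l z) * Real.exp (φ m z))) / 2

theorem JJ_nn (φ : ι → Cn 2 → ℝ) (Q : ι → Fin 2 → Cn 2 → ℂ) (z : Cn 2) : 0 ≤ JJ φ Q z := by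
  unfold JJ
  positivity

/-- the value of the form of `∂∂̄ log nA` -/
theorem Dat.qf_nA (h : Dat φ G Q z) (x : Fin 2 → ℂ) (P : ι → ℝ)
    (hP : ∀ l, star x ⬝ᵥ (hess (φ l) z *ᵥ x) = (P l : ℂ)) :
    star x ⬝ᵥ (hess (fun y => Real.log (nA φ G Q y)) z *ᵥ x) =
      (((∑ l, (Real.exp (φ l z) * ‖∑ d, dS I d (wf (φ l) (wdg G (Q l))) z * x d‖ ^ 2 -
        Real.exp (- φ l z) * ‖wdg G (Q l) z‖ ^ 2 * P l)) / nA φ G Q z -
        ‖∑ l, (∑ d, dS I d (wf (φ l) (wdg G (Q l))) z * x d) * wdg G (Q l) z‖ ^ 2 /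
          nA φ G Q z ^ 2 : ℝ) : ℂ) := by
  rw [qf_eq]
  set T : ι → Fin 2 → Fin 2 → ℂ := fun l c d =>
    Complex.exp (cu (φ l) z) * (conj (dS I c (wf (φ l) (wdg G (Q l))) z) *
          dS I d (wf (φ l) (wdg G (Q l))) z) -
        Complex.exp (- cu (φ l) z) * (wdg G (Q l) z * conj (wdg G (Q l) z)) *
          hess (φ l) z c d with hT
  have e0 : ∀ c d, hess (fun y => Real.log (nA φ G Q y)) z c d = (∑ l, T l c d) / nC φ G Q z -
      conj (dS I c (nC φ G Q) z) * dS I d (nC φ G Q) z / nC φ G Q z ^ 2 := h.hess_nA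
  have e1 : ∀ l, ((Real.exp (φ l z) * ‖∑ d, dS I d (wf (φ l) (wdg G (Q l))) z * x d‖ ^ 2 -
        Real.exp (- φ l z) * ‖wdg G (Q l) z‖ ^ 2 * P l : ℝ) : ℂ) =
        ∑ c, ∑ d, conj (x c) * T l c d * x d := by
    intro l
    rw [Complex.ofReal_sub, Complex.ofReal_mul, ← qf_rank, Complex.ofReal_mul, Complex.ofReal_mul,
      ← hP l, qf_eq, Complex.ofReal_exp, Complex.ofReal_exp, Complex.ofReal_neg]
    have : ((‖wdg G (Q l) z‖ ^ 2 : ℝ) : ℂ) = wdg G (Q l) z * conj (wdg G (Q l) z) := by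
      rw [Complex.mul_conj']
      push_cast
      rfl
    rw [this]
    simp only [Fin.sum_univ_two, cu, hT]
    ring
  have e2 : ((‖∑ l, (∑ d, dS I d (wf (φ l) (wdg G (Q l))) z * x d) * wdg G (Q l) z‖ ^ 2 : ℝ) : ℂ)
      = ∑ c, ∑ d, conj (x c) * (conj (dS I c (nC φ G Q) z) * dS I d (nC φ G Q) z) * x d := by
    rw [qf_rank]
    have : ∑ l, (∑ d, dS I d (wf (φ l) (wdg G (Q l))) z * x d) * wdg G (Q l) z =
        ∑ d, dS I d (nC φ G Q) z * x d := by
      simp only [h.dnC, Finset.sum_mul]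
      rw [Finset.sum_comm]
      refine Finset.sum_congr rfl fun d _ => Finset.sum_congr rfl fun l _ => ?_
      ring
    rw [this]
  rw [Complex.ofReal_sub, Complex.ofReal_div, Complex.ofReal_div, e2, Complex.ofReal_sum,
    Complex.ofReal_pow, ← nC_eq]
  simp only [e1, e0]
  rw [qf_sum]
  simp only [Fin.sum_univ_two]
  ring

/-- **the inequality in one chart** -/
theorem Dat.core (h : Dat φ G Q z) {α β : Cn 2 → ℝ} {H : Cn 2 → Matrix (Fin 2) (Fin 2) ℂ}
    {V : Cn 2 → Fin 2 → ℂ}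
    (hpsh : ∀ l v, 0 ≤ lev (φ l) z v)
    (hα : ∀ᶠ y in 𝓝 z, ContDiffAt ℝ ∞ α y ∧ 0 < α y)
    (hβ : ∀ᶠ y in 𝓝 z, ContDiffAt ℝ ∞ β y ∧ 0 < β y)
    (hVe : V = fun y i => G i y)
    (hsm : ∀ᶠ y in 𝓝 z, SmM y H) (hdet : (H z).det ≠ 0)
    (hH : ∀ᶠ y in 𝓝 z, ∀ i j, H y i j = (α y : ℂ) * (conj (xj φ G Q i y) * xj φ G Q j y) +
      (β y : ℂ) * (conj (yj G i y) * yj G j y))
    (hh : ∀ᶠ y in 𝓝 z, hV H V y = α y) {c : ℝ}
    (hc : α z / β z * (JJ φ Q z / nA φ G Q z ^ 2) ≤ c) :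
    ((c : ℂ) • hess (fun y => Real.log (nA φ G Q y) + ∑ l, φ l y) z - bb H V z).PosSemidef := by
  have hφ : ∀ l, ContDiffAt ℝ ∞ (φ l) z := fun l => (h.sm l).self_of_nhds
  have hn := h.n0
  have sN : ContDiffAt ℝ ∞ (fun y => nA φ G Q y) z := by
    have h1 : ContDiffAt ℝ ∞ (fun y => (nC φ G Q y).re) z :=
      Complex.reCLM.contDiff.contDiffAt.comp z h.nC_sm.self_of_nhds
    simpa only [nC_eq, Complex.ofReal_re] using h1
  have sL : ContDiffAt ℝ ∞ (fun y => Real.log (nA φ G Q y)) z := sN.log hn.ne'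
  have sS : ContDiffAt ℝ ∞ (fun y => ∑ l, φ l y) z := ContDiffAt.sum fun l _ => hφ l
  have hbb := h.bb_tri hα hβ hVe hsm hdet hH hh
  have hab : 0 < α z / β z := div_pos hα.self_of_nhds.2 hβ.self_of_nhds.2
  have hherm : ((c : ℂ) • hess (fun y => Real.log (nA φ G Q y) + ∑ l, φ l y) z -
      bb H V z).IsHermitian := by
    refine Matrix.IsHermitian.sub ?_ ?_
    · unfold Matrix.IsHermitian
      rw [Matrix.conjTranspose_smul, (hess_herm (sL.add sS)).eq, Complex.star_def,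
        Complex.conj_ofReal]
    · ext i j
      rw [Matrix.conjTranspose_apply, hbb, hbb, Complex.star_def, map_mul, map_mul,
        Complex.conj_conj, Complex.conj_ofReal]
      ring
  refine Matrix.PosSemidef.of_dotProduct_mulVec_nonneg hherm fun x => ?_
  -- the numbers
  have hPe : ∀ l, ∃ P : ℝ, 0 ≤ P ∧ star x ⬝ᵥ (hess (φ l) z *ᵥ x) = (P : ℂ) := by
    intro l
    have h1 := (posSemidef_hess (hφ l) (hpsh l)).dotProduct_mulVec_nonneg x
    refine ⟨(star x ⬝ᵥ (hess (φ l) z *ᵥ x)).re, (Complex.le_def.1 h1).1, ?_⟩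
    exact Complex.ext (by simp) (by simpa using (Complex.le_def.1 h1).2.symm)
  choose P hP0 hP using hPe
  set n := nA φ G Q z with hnd
  set e : ι → ℝ := fun l => Real.exp (φ l z) with he
  set A : ι → ℂ := fun l => wdg G (Q l) z with hA
  set w : ι → ℂ := fun l => wf (φ l) (wdg G (Q l)) z with hw
  set v : ι → ℂ := fun l => ∑ d, dS I d (wf (φ l) (wdg G (Q l))) z * x d with hv
  have he0 : ∀ l, 0 < e l := fun l => Real.exp_pos _
  have hwe : ∀ l, e l * ‖w l‖ ^ 2 = Real.exp (- φ l z) * ‖A l‖ ^ 2 := by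
    intro l
    simp only [he, hw, hA, wf, cu]
    rw [norm_mul, RCLike.norm_conj, ← Complex.ofReal_neg, ← Complex.ofReal_exp, Complex.norm_real,
      Real.norm_of_nonneg (Real.exp_pos _).le, mul_pow, ← mul_assoc, sq (Real.exp _), ← mul_assoc,
      ← Real.exp_add, add_neg_cancel, Real.exp_zero, one_mul]
  have hwc : ∀ l, (e l : ℂ) * conj (w l) = A l := by
    intro l
    simp only [he, hw, hA, wf, cu]
    rw [map_mul, Complex.conj_conj, ← Complex.exp_conj, map_neg, Complex.conj_ofReal,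
      Complex.ofReal_exp, ← mul_assoc, ← Complex.exp_add, add_neg_cancel, Complex.exp_zero,
      one_mul]
  have hsn : ∑ l, e l * ‖w l‖ ^ 2 = n := by
    simp only [hwe]
    rfl
  have hsl : ∀ l, e l * ‖w l‖ ^ 2 ≤ n := by
    intro l
    rw [← hsn]
    exact Finset.single_le_sum (f := fun l => e l * ‖w l‖ ^ 2)
      (fun i _ => mul_nonneg (he0 i).le (by positivity)) (Finset.mem_univ l)
  -- the form of the Hessian
  have hX := h.qf_nA x P hP
  set K : ℝ := ∑ l, e l * ‖v l‖ ^ 2 with hK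
  set R : ℝ := ‖∑ l, v l * A l‖ ^ 2 with hR
  have hX' : star x ⬝ᵥ (hess (fun y => Real.log (nA φ G Q y)) z *ᵥ x) =
      (((K - ∑ l, e l * ‖w l‖ ^ 2 * P l) / n - R / n ^ 2 : ℝ) : ℂ) := by
    have h1 : ∑ l, (Real.exp (φ l z) * ‖v l‖ ^ 2 - Real.exp (- φ l z) * ‖A l‖ ^ 2 * P l) =
        K - ∑ l, e l * ‖w l‖ ^ 2 * P l := by
      rw [hK, ← Finset.sum_sub_distrib]
      refine Finset.sum_congr rfl fun l _ => ?_
      rw [hwe]
    rw [← h1]
    exact hX
  have hΦ : star x ⬝ᵥ (hess (fun y => Real.log (nA φ G Q y) + ∑ l, φ l y) z *ᵥ x) =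
      (((K - ∑ l, e l * ‖w l‖ ^ 2 * P l) / n - R / n ^ 2 + ∑ l, P l : ℝ) : ℂ) := by
    rw [hess_add sL sS, hess_sum _ (fun l _ => hφ l), Matrix.add_mulVec, dotProduct_add, hX',
      Matrix.sum_mulVec, dotProduct_sum]
    simp only [hP]
    push_cast
    rfl
  -- the form of `bb`
  set B : ℂ := ∑ d, bj φ G Q d z * x d with hB
  have hBf : star x ⬝ᵥ (bb H V z *ᵥ x) = ((α z / β z * ‖B‖ ^ 2 : ℝ) : ℂ) := by
    rw [qf_eq, Complex.ofReal_mul, hB, ← qf_rank]
    simp only [hbb, Fin.sum_univ_two]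
    ring
  have hBn : B * (n : ℂ) ^ 2 = - ∑ l, ∑ m, v l * w m * wdg (Q l) (Q m) z := by
    have hn0 : nC φ G Q z ≠ 0 := h.nC_ne
    have h1 : ∀ d, bj φ G Q d z * (n : ℂ) ^ 2 = - ∑ l, ∑ m,
        dS I d (wf (φ l) (wdg G (Q l))) z * w m * wdg (Q l) (Q m) z := by
      intro d
      rw [hnd, ← nC_eq]
      unfold bj
      rw [div_mul_cancel₀ _ (pow_ne_zero 2 hn0)]
    rw [hB, Finset.sum_mul]
    have h2 : ∀ d, bj φ G Q d z * x d * (n : ℂ) ^ 2 = - ∑ l, ∑ m,
        dS I d (wf (φ l) (wdg G (Q l))) z * x d * w m * wdg (Q l) (Q m) z := by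
      intro d
      rw [mul_right_comm, h1, neg_mul, Finset.sum_mul]
      congr 1
      refine Finset.sum_congr rfl fun l _ => ?_
      rw [Finset.sum_mul]
      refine Finset.sum_congr rfl fun m _ => ?_
      ring
    simp only [h2, Finset.sum_neg_distrib]
    rw [Finset.sum_comm]
    congr 1
    refine Finset.sum_congr rfl fun l _ => ?_
    rw [Finset.sum_comm]
    refine Finset.sum_congr rfl fun m _ => ?_
    simp only [hv, Finset.sum_mul]
  have hkey := key he0 w v (fun l m => wdg (Q l) (Q m) z) (fun l m => by simp only [wdg]; ring)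
  have hR' : ‖∑ l, (e l : ℂ) * (conj (w l) * v l)‖ ^ 2 = R := by
    rw [hR]
    congr 2
    refine Finset.sum_congr rfl fun l _ => ?_
    rw [← mul_assoc, hwc, mul_comm]
  rw [hR', hsn, ← norm_neg, ← hBn, norm_mul, norm_pow, Complex.norm_real,
    Real.norm_of_nonneg hn.le, mul_pow] at hkey
  -- conclusion
  have hJ : (∑ l, ∑ m, ‖wdg (Q l) (Q m) z‖ ^ 2 / (e l * e m)) / 2 = JJ φ Q z := rfl
  rw [hJ] at hkey
  have hJn := JJ_nn φ Q z
  set J := JJ φ Q z with hJd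
  set Y : ℝ := (K - ∑ l, e l * ‖w l‖ ^ 2 * P l) / n - R / n ^ 2 + ∑ l, P l with hY
  have hYn : n * K - R ≤ n ^ 2 * Y := by
    have h1 : n ^ 2 * Y = n * K - R + n * (n * ∑ l, P l - ∑ l, e l * ‖w l‖ ^ 2 * P l) := by
      rw [hY]
      field_simp
      ring
    have h2 : 0 ≤ n * ∑ l, P l - ∑ l, e l * ‖w l‖ ^ 2 * P l := by
      rw [Finset.mul_sum, ← Finset.sum_sub_distrib]
      refine Finset.sum_nonneg fun l _ => ?_
      rw [← sub_mul]
      exact mul_nonneg (sub_nonneg.2 (hsl l)) (hP0 l)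
    rw [h1]
    have := mul_nonneg hn.le h2
    linarith
  have hlag : 0 ≤ n * K - R := by
    have h1 := lag e w v
    rw [hR', hsn] at h1
    have h2 : 0 ≤ ∑ l, ∑ m, (e l * e m) * ‖w l * v m - w m * v l‖ ^ 2 :=
      Finset.sum_nonneg fun l _ => Finset.sum_nonneg fun m _ =>
        mul_nonneg (mul_nonneg (he0 l).le (he0 m).le) (by positivity)
    rw [h1] at h2
    have h3 : (∑ l, e l * ‖v l‖ ^ 2) = K := rfl
    rw [h3] at h2
    linarith
  have hY0 : 0 ≤ Y := by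
    have h1 : 0 ≤ n ^ 2 * Y := hlag.trans hYn
    exact nonneg_of_mul_nonneg_right h1 (by positivity)
  have hBY : ‖B‖ ^ 2 ≤ J / n ^ 2 * Y := by
    have h1 : ‖B‖ ^ 2 * (n ^ 2) ^ 2 ≤ J * (n ^ 2 * Y) := by
      refine le_trans ?_ (hkey.trans (mul_le_mul_of_nonneg_left hYn hJn))
      rfl
    have h2 : 0 < (n ^ 2) ^ 2 := by positivity
    rw [← mul_le_mul_iff_left₀ h2]
    refine h1.trans (le_of_eq ?_)
    field_simp
  have hfin : α z / β z * ‖B‖ ^ 2 ≤ c * Y := by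
    calc α z / β z * ‖B‖ ^ 2 ≤ α z / β z * (J / n ^ 2 * Y) :=
          mul_le_mul_of_nonneg_left hBY hab.le
      _ = α z / β z * (J / n ^ 2) * Y := by ring
      _ ≤ c * Y := mul_le_mul_of_nonneg_right hc hY0
  rw [Matrix.sub_mulVec, dotProduct_sub, Matrix.smul_mulVec, dotProduct_smul, hΦ, hBf,
    smul_eq_mul, ← Complex.ofReal_mul, ← Complex.ofReal_sub]
  exact Complex.zero_le_real.2 (sub_nonneg.2 hfin)

end

end Crest.Agent.R257.B0_844
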