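import Crest.Agent.R257.H0A_540
import Crest.Agent.R257.Jac_39

/-!
# R257 (S0395), trial metric (helper540), part B: the metric `Htr`

Pointwise: `G : Fin 2 → ℂ`, `Q : ι → Fin 2 → ℂ`, weights `μ l > 0`, `α, β > 0`,
* `wd v w`  : `v ∧ w`;  `nA G Q μ` : `∑ μ_l |G ∧ Q_l|²`
* `xc`, `yc`: the covectors with `xc G = 1`, `yc G = 0`, `yc v = G ∧ v`, `xc κ = 0`
* `hm`      : `α conj(xc) xc + β conj(yc) yc`
* `hm_det`, `hm_posDef`, `hm_inv`, `hm_dual`, `hm_trans`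

On a level: `Htr f g q φ ψ k`.
* `mo_Htr`, `Htr_dg`, `Htr_det`, `Htr_inv`, `Htr_dual`, `nA_eq`
-/

set_option autoImplicit false
set_option linter.unusedSectionVars false
set_option linter.unusedSimpArgs false

open Set Filter Topology Complex MeasureTheory
open scoped ContDiff Matrix ComplexConjugate ComplexOrder ENNReal

namespace Crest.Agent.R257.H0_540

open Crest.Agent.R275.Geo Crest.Agent.R275.EDR890
open Crest.Agent.R273.Fock_243 Crest.Agent.R273.Calc_243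
open Crest.Agent.R273.Bkn_243 Crest.Agent.R273.Pos_243 Crest.Agent.R273.BochA_101
open Crest.Agent.R273.BochB_101
open Crest.Agent.R273.BochC_101 Crest.Agent.R273.BochD_101
open Crest.Agent.R273.Hess_333 Crest.Agent.R273.HessB_333
open Crest.Agent.R273.Defs_333 (lev)
open Crest.Agent.R273.YauDefs_635 (cH)
open Crest.Agent.R273.YauMax_635 (cH_eq_hess)
open Crest.Agent.R257.C2F1_625 Crest.Agent.R257.C2F2_625 Crest.Agent.R257.C2F3_625
open Crest.Agent.R257.C2F4_335 Crest.Agent.R257.C2F5_335 Crest.Agent.R257.C2F6_335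
open Crest.Agent.R257.Defs_219
open Crest.Agent.R257.PN_835 (nsq)
open Crest.Agent.R257.Aff_835 (eta2a)
open Crest.Agent.R257.KED_952 Crest.Agent.R257.Ked1_397 Crest.Agent.R257.Ked2_397
open Crest.Agent.R257.V1Defs_822 (SmL LvlOK)
open Crest.Agent.R257.OutA_309 Crest.Agent.R257.OutB_309 Crest.Agent.R257.LossD_309
open Crest.Agent.R257.OutC_309 Crest.Agent.R257.OutD_309

noncomputable section

variable {ι : Type} [Fintype ι]

/-! ### pointwise algebra -/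

/-- `v ∧ w` -/
def wd (v w : Fin 2 → ℂ) : ℂ := v 0 * w 1 - v 1 * w 0

/-- `∑ μ_l |G ∧ Q_l|²` -/
def nA (G : Fin 2 → ℂ) (Q : ι → Fin 2 → ℂ) (μ : ι → ℝ) : ℝ := ∑ l, μ l * ‖wd G (Q l)‖ ^ 2

/-- `P_l = μ_l conj (G ∧ Q_l)` -/
def Pl (G : Fin 2 → ℂ) (Q : ι → Fin 2 → ℂ) (μ : ι → ℝ) (l : ι) : ℂ :=
  (μ l : ℂ) * conj (wd G (Q l))

/-- `κ' = κ / |a|²` -/
def kc (G : Fin 2 → ℂ) (Q : ι → Fin 2 → ℂ) (μ : ι → ℝ) (i : Fin 2) : ℂ :=
  (∑ l, Pl G Q μ l * Q l i) / (nA G Q μ : ℂ)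

/-- the covector with `xc G = 1`, `xc κ = 0` -/
def xc (G : Fin 2 → ℂ) (Q : ι → Fin 2 → ℂ) (μ : ι → ℝ) : Fin 2 → ℂ :=
  ![kc G Q μ 1, - kc G Q μ 0]

/-- the covector `v ↦ G ∧ v` -/
def yc (G : Fin 2 → ℂ) : Fin 2 → ℂ := ![- G 1, G 0]

/-- the metric -/
def hm (G : Fin 2 → ℂ) (Q : ι → Fin 2 → ℂ) (μ : ι → ℝ) (α β : ℝ) : Matrix (Fin 2) (Fin 2) ℂ :=
  Matrix.of fun i j => (α : ℂ) * (conj (xc G Q μ i) * xc G Q μ j) +
    (β : ℂ) * (conj (yc G i) * yc G j)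

/-- the rank one matrix `v vᴴ` -/
def r1 (v : Fin 2 → ℂ) : Matrix (Fin 2) (Fin 2) ℂ := Matrix.of fun i j => v i * conj (v j)

section alg
variable {G : Fin 2 → ℂ} {Q : ι → Fin 2 → ℂ} {μ : ι → ℝ} {α β : ℝ}

theorem nA_eq_sum (G : Fin 2 → ℂ) (Q : ι → Fin 2 → ℂ) (μ : ι → ℝ) :
    (nA G Q μ : ℂ) = ∑ l, Pl G Q μ l * wd G (Q l) := by
  unfold nA
  push_cast
  refine Finset.sum_congr rfl fun l _ => ?_
  unfold Pl
  rw [mul_assoc, ← Complex.normSq_eq_conj_mul_self, Complex.normSq_eq_norm_sq]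
  push_cast
  ring

/-- `G ∧ κ' = 1` -/
theorem wd_kc (h : nA G Q μ ≠ 0) : wd G (kc G Q μ) = 1 := by
  have h0 : (nA G Q μ : ℂ) ≠ 0 := Complex.ofReal_ne_zero.2 h
  have e : wd G (kc G Q μ) = (∑ l, Pl G Q μ l * wd G (Q l)) / (nA G Q μ : ℂ) := by
    unfold wd kc
    rw [mul_div_assoc', mul_div_assoc', ← sub_div, Finset.mul_sum, Finset.mul_sum,
      ← Finset.sum_sub_distrib]
    congr 1
    refine Finset.sum_congr rfl fun l _ => ?_
    ring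
  rw [e, ← nA_eq_sum, div_self h0]

theorem kc_rel (h : nA G Q μ ≠ 0) : G 0 * kc G Q μ 1 - G 1 * kc G Q μ 0 = 1 := wd_kc h

/-- the matrix of the two covectors -/
def Pm (G : Fin 2 → ℂ) (Q : ι → Fin 2 → ℂ) (μ : ι → ℝ) : Matrix (Fin 2) (Fin 2) ℂ :=
  !![kc G Q μ 1, - kc G Q μ 0; - G 1, G 0]

theorem Pm_det (h : nA G Q μ ≠ 0) : (Pm G Q μ).det = 1 := by
  rw [Pm, Matrix.det_fin_two_of]
  linear_combination kc_rel h

theorem hm_eq : hm G Q μ α β = (Pm G Q μ)ᴴ * Matrix.diagonal ![(α : ℂ), (β : ℂ)] * Pm G Q μ := by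
  ext i j
  fin_cases i <;> fin_cases j <;>
    simp [hm, Pm, xc, yc, Matrix.mul_apply, Fin.sum_univ_two, Matrix.conjTranspose_apply,
      Matrix.diagonal_apply] <;> ring

theorem hm_det (h : nA G Q μ ≠ 0) : (hm G Q μ α β).det = ((α * β : ℝ) : ℂ) := by
  rw [hm_eq, Matrix.det_mul, Matrix.det_mul, Matrix.det_conjTranspose, Pm_det h,
    Matrix.det_diagonal]
  simp [Fin.prod_univ_two]

theorem hm_posDef (h : nA G Q μ ≠ 0) (hα : 0 < α) (hβ : 0 < β) : (hm G Q μ α β).PosDef := by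
  rw [hm_eq]
  refine posDef_frame (Matrix.PosDef.diagonal fun i => ?_) (by rw [Pm_det h]; exact one_ne_zero)
  fin_cases i
  · exact Complex.zero_lt_real.2 hα
  · exact Complex.zero_lt_real.2 hβ

/-- `|G|² = α` -/
theorem hm_G (h : nA G Q μ ≠ 0) : (star G ⬝ᵥ (hm G Q μ α β *ᵥ G)).re = α := by
  have e1 : xc G Q μ 0 * G 0 + xc G Q μ 1 * G 1 = 1 := by
    show kc G Q μ 1 * G 0 + - kc G Q μ 0 * G 1 = 1
    linear_combination kc_rel h
  have e1' : conj (xc G Q μ 0) * conj (G 0) + conj (xc G Q μ 1) * conj (G 1) = 1 := by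
    have := congrArg conj e1
    simpa only [map_add, map_mul, map_one] using this
  have e2 : yc G 0 * G 0 + yc G 1 * G 1 = 0 := by
    show - G 1 * G 0 + G 0 * G 1 = 0
    ring
  have e : star G ⬝ᵥ (hm G Q μ α β *ᵥ G) = (α : ℂ) := by
    simp only [dotProduct, Matrix.mulVec, Fin.sum_univ_two, hm, Matrix.of_apply, Pi.star_apply,
      Complex.star_def]
    have a : conj (G 0) * (((α : ℂ) * (conj (xc G Q μ 0) * xc G Q μ 0) +
          (β : ℂ) * (conj (yc G 0) * yc G 0)) * G 0 +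
        ((α : ℂ) * (conj (xc G Q μ 0) * xc G Q μ 1) +
          (β : ℂ) * (conj (yc G 0) * yc G 1)) * G 1) +
      conj (G 1) * (((α : ℂ) * (conj (xc G Q μ 1) * xc G Q μ 0) +
          (β : ℂ) * (conj (yc G 1) * yc G 0)) * G 0 +
        ((α : ℂ) * (conj (xc G Q μ 1) * xc G Q μ 1) +
          (β : ℂ) * (conj (yc G 1) * yc G 1)) * G 1)
      = (α : ℂ) * (conj (xc G Q μ 0) * conj (G 0) + conj (xc G Q μ 1) * conj (G 1)) *
          (xc G Q μ 0 * G 0 + xc G Q μ 1 * G 1) +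
        (β : ℂ) * (conj (yc G 0) * conj (G 0) + conj (yc G 1) * conj (G 1)) *
          (yc G 0 * G 0 + yc G 1 * G 1) := by ring
    rw [a, e1, e1', e2]
    ring
  rw [e, Complex.ofReal_re]

/-- the inverse -/
theorem hm_inv (h : nA G Q μ ≠ 0) (hα : α ≠ 0) (hβ : β ≠ 0) :
    (hm G Q μ α β)⁻¹ = ((α⁻¹ : ℝ) : ℂ) • r1 G + ((β⁻¹ : ℝ) : ℂ) • r1 (kc G Q μ) := by
  refine Matrix.inv_eq_right_inv ?_
  have k1 := kc_rel h
  have k2 : conj (G 0) * conj (kc G Q μ 1) - conj (G 1) * conj (kc G Q μ 0) = 1 := by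
    have := congrArg conj k1
    simpa only [map_sub, map_mul, map_one] using this
  have a0 : (α : ℂ) ≠ 0 := Complex.ofReal_ne_zero.2 hα
  have b0 : (β : ℂ) ≠ 0 := Complex.ofReal_ne_zero.2 hβ
  have ea : (α : ℂ) * (α : ℂ)⁻¹ = 1 := mul_inv_cancel₀ a0
  have eb : (β : ℂ) * (β : ℂ)⁻¹ = 1 := mul_inv_cancel₀ b0
  have x1 : xc G Q μ 0 * G 0 + xc G Q μ 1 * G 1 = 1 := by
    show kc G Q μ 1 * G 0 + - kc G Q μ 0 * G 1 = 1
    linear_combination k1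
  have x2 : xc G Q μ 0 * kc G Q μ 0 + xc G Q μ 1 * kc G Q μ 1 = 0 := by
    show kc G Q μ 1 * kc G Q μ 0 + - kc G Q μ 0 * kc G Q μ 1 = 0
    ring
  have y1 : yc G 0 * G 0 + yc G 1 * G 1 = 0 := by
    show - G 1 * G 0 + G 0 * G 1 = 0
    ring
  have y2 : yc G 0 * kc G Q μ 0 + yc G 1 * kc G Q μ 1 = 1 := by
    show - G 1 * kc G Q μ 0 + G 0 * kc G Q μ 1 = 1
    linear_combination k1
  have key : ∀ i j, (hm G Q μ α β * (((α⁻¹ : ℝ) : ℂ) • r1 G +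
      ((β⁻¹ : ℝ) : ℂ) • r1 (kc G Q μ))) i j =
      conj (xc G Q μ i) * conj (G j) + conj (yc G i) * conj (kc G Q μ j) := by
    intro i j
    have e : (hm G Q μ α β * (((α⁻¹ : ℝ) : ℂ) • r1 G + ((β⁻¹ : ℝ) : ℂ) • r1 (kc G Q μ))) i j =
        ((α : ℂ) * (α : ℂ)⁻¹) * conj (xc G Q μ i) * (xc G Q μ 0 * G 0 + xc G Q μ 1 * G 1) *
          conj (G j) +
        ((β : ℂ) * (α : ℂ)⁻¹) * conj (yc G i) * (yc G 0 * G 0 + yc G 1 * G 1) * conj (G j) +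
        ((α : ℂ) * (β : ℂ)⁻¹) * conj (xc G Q μ i) *
          (xc G Q μ 0 * kc G Q μ 0 + xc G Q μ 1 * kc G Q μ 1) * conj (kc G Q μ j) +
        ((β : ℂ) * (β : ℂ)⁻¹) * conj (yc G i) *
          (yc G 0 * kc G Q μ 0 + yc G 1 * kc G Q μ 1) * conj (kc G Q μ j) := by
      simp only [Matrix.mul_apply, Fin.sum_univ_two, hm, r1, Matrix.of_apply, Matrix.add_apply,
        Matrix.smul_apply, smul_eq_mul, Complex.ofReal_inv]
      ring
    rw [e, x1, x2, y1, y2, ea, eb]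
    ring
  ext i j
  rw [key]
  fin_cases i <;> fin_cases j <;> simp [xc, yc]
  · linear_combination k2
  · ring
  · ring
  · linear_combination k2

theorem r1_psd (v : Fin 2 → ℂ) : (r1 v).PosSemidef := by
  have e : r1 v = Matrix.vecMulVec v (star v) := by
    ext i j
    rfl
  rw [e]
  exact Matrix.posSemidef_vecMulVec_self_star v

/-- the quadratic form of `r1` -/
theorem r1_form (v x : Fin 2 → ℂ) :
    star x ⬝ᵥ (r1 v *ᵥ x) = ((‖∑ i, conj (x i) * v i‖ ^ 2 : ℝ) : ℂ) := by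
  rw [← Complex.normSq_eq_norm_sq, ← Complex.mul_conj]
  simp only [dotProduct, Matrix.mulVec, Fin.sum_univ_two, r1, Matrix.of_apply, Pi.star_apply,
    Complex.star_def, map_add, map_mul, Complex.conj_conj]
  ring

theorem psd_of_form {M : Matrix (Fin 2) (Fin 2) ℂ} (q : (Fin 2 → ℂ) → ℝ) (hM : M.IsHermitian)
    (h : ∀ x, star x ⬝ᵥ (M *ᵥ x) = ((q x : ℝ) : ℂ)) (h0 : ∀ x, 0 ≤ q x) : M.PosSemidef := by
  refine Matrix.PosSemidef.of_dotProduct_mulVec_nonneg hM fun x => ?_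
  rw [h]
  exact Complex.zero_le_real.2 (h0 x)

theorem r1_herm (v : Fin 2 → ℂ) : (r1 v).IsHermitian := (r1_psd v).isHermitian

theorem smul_herm {M : Matrix (Fin 2) (Fin 2) ℂ} (hM : M.IsHermitian) (t : ℝ) :
    ((t : ℂ) • M).IsHermitian := by
  unfold Matrix.IsHermitian
  rw [Matrix.conjTranspose_smul, hM.eq, Complex.star_def, Complex.conj_ofReal]

/-- Cauchy–Schwarz: `κ' κ'ᴴ ≤ nA⁻¹ ∑ μ_l Q_l Q_lᴴ` -/
theorem r1_kc_le (h : 0 < nA G Q μ) (hμ : ∀ l, 0 ≤ μ l) :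
    ((((nA G Q μ)⁻¹ : ℝ) : ℂ) • ∑ l, ((μ l : ℝ) : ℂ) • r1 (Q l) - r1 (kc G Q μ)).PosSemidef := by
  refine psd_of_form (fun x => (nA G Q μ)⁻¹ * ∑ l, μ l * ‖∑ i, conj (x i) * Q l i‖ ^ 2 -
    ‖∑ i, conj (x i) * kc G Q μ i‖ ^ 2) ?_ (fun x => ?_) (fun x => ?_)
  · refine Matrix.IsHermitian.sub (smul_herm ?_ _) (r1_herm _)
    unfold Matrix.IsHermitian
    rw [Matrix.conjTranspose_sum]
    exact Finset.sum_congr rfl fun l _ => smul_herm (r1_herm _) _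
  · rw [Matrix.sub_mulVec, dotProduct_sub, Matrix.smul_mulVec, dotProduct_smul,
      Matrix.sum_mulVec, dotProduct_sum, r1_form]
    have e : ∀ l, star x ⬝ᵥ ((((μ l : ℝ) : ℂ) • r1 (Q l)) *ᵥ x) =
        ((μ l * ‖∑ i, conj (x i) * Q l i‖ ^ 2 : ℝ) : ℂ) := fun l => by
      rw [Matrix.smul_mulVec, dotProduct_smul, r1_form, smul_eq_mul]
      push_cast
      ring
    simp only [e, smul_eq_mul]
    push_cast
    ring
  · have e : ∑ i, conj (x i) * kc G Q μ i =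
        (∑ l, Pl G Q μ l * ∑ i, conj (x i) * Q l i) / (nA G Q μ : ℂ) := by
      simp only [kc, mul_div_assoc', ← Finset.sum_div, Finset.mul_sum]
      rw [Finset.sum_comm]
      congr 1
      refine Finset.sum_congr rfl fun l _ => Finset.sum_congr rfl fun i _ => ?_
      ring
    rw [e, norm_div, div_pow, Complex.norm_real, Real.norm_of_nonneg h.le, sub_nonneg,
      div_le_iff₀ (by positivity)]
    have h1 : ‖∑ l, Pl G Q μ l * ∑ i, conj (x i) * Q l i‖ ≤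
        ∑ l, ‖Pl G Q μ l‖ * ‖∑ i, conj (x i) * Q l i‖ :=
      (norm_sum_le _ _).trans (Finset.sum_le_sum fun l _ => (norm_mul _ _).le)
    have h2 : (∑ l, ‖Pl G Q μ l‖ * ‖∑ i, conj (x i) * Q l i‖) ^ 2 ≤
        (∑ l, μ l * ‖wd G (Q l)‖ ^ 2) * ∑ l, μ l * ‖∑ i, conj (x i) * Q l i‖ ^ 2 := by
      refine Finset.sum_sq_le_sum_mul_sum_of_sq_le_mul _
        (fun l _ => mul_nonneg (hμ l) (by positivity))
        (fun l _ => mul_nonneg (hμ l) (by positivity)) fun l _ => le_of_eq ?_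
      unfold Pl
      rw [norm_mul, Complex.norm_real, Real.norm_of_nonneg (hμ l), RCLike.norm_conj]
      ring
    have h3 : (∑ l, μ l * ‖wd G (Q l)‖ ^ 2) = nA G Q μ := rfl
    rw [h3] at h2
    have h4 := pow_le_pow_left₀ (norm_nonneg _) h1 2
    calc ‖∑ l, Pl G Q μ l * ∑ i, conj (x i) * Q l i‖ ^ 2 ≤ _ := h4.trans h2
      _ = _ := by field_simp

/-- **bound of the dual metric** -/
theorem hm_dual (h : 0 < nA G Q μ) (hμ : ∀ l, 0 ≤ μ l) (hα : 0 < α) (hβ : 0 < β) :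
    (((α⁻¹ : ℝ) : ℂ) • r1 G + (((β * nA G Q μ)⁻¹ : ℝ) : ℂ) • ∑ l, ((μ l : ℝ) : ℂ) • r1 (Q l)
      - (hm G Q μ α β)⁻¹).PosSemidef := by
  rw [hm_inv h.ne' hα.ne' hβ.ne']
  have e : ((α⁻¹ : ℝ) : ℂ) • r1 G + (((β * nA G Q μ)⁻¹ : ℝ) : ℂ) • ∑ l, ((μ l : ℝ) : ℂ) • r1 (Q l)
      - (((α⁻¹ : ℝ) : ℂ) • r1 G + ((β⁻¹ : ℝ) : ℂ) • r1 (kc G Q μ)) =
      ((β⁻¹ : ℝ) : ℂ) • ((((nA G Q μ)⁻¹ : ℝ) : ℂ) • ∑ l, ((μ l : ℝ) : ℂ) • r1 (Q l)
        - r1 (kc G Q μ)) := by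
    rw [smul_sub, smul_smul, add_sub_add_left_eq_sub]
    congr 2
    rw [mul_inv]
    push_cast
    rfl
  rw [e]
  exact (r1_kc_le h hμ).smul (Complex.zero_le_real.2 (by positivity))

/-! ### change of coordinates -/

variable {M : Matrix (Fin 2) (Fin 2) ℂ}

theorem wd_mul (M : Matrix (Fin 2) (Fin 2) ℂ) (v w : Fin 2 → ℂ) :
    wd (M *ᵥ v) (M *ᵥ w) = M.det * wd v w := by
  unfold wd
  rw [Matrix.det_fin_two]
  simp only [Matrix.mulVec, dotProduct, Fin.sum_univ_two]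
  ring

theorem nA_mul (M : Matrix (Fin 2) (Fin 2) ℂ) :
    nA (M *ᵥ G) (fun l => M *ᵥ Q l) μ = ‖M.det‖ ^ 2 * nA G Q μ := by
  unfold nA
  rw [Finset.mul_sum]
  refine Finset.sum_congr rfl fun l _ => ?_
  rw [wd_mul, norm_mul]
  ring

theorem kc_mul (hM : M.det ≠ 0) (i : Fin 2) :
    kc (M *ᵥ G) (fun l => M *ᵥ Q l) μ i = (M *ᵥ kc G Q μ) i / M.det := by
  have e : (∑ l, Pl (M *ᵥ G) (fun l => M *ᵥ Q l) μ l * (M *ᵥ Q l) i) =
      conj M.det * ∑ j, M i j * ∑ l, Pl G Q μ l * Q l j := by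
    simp only [Finset.mul_sum]
    rw [Finset.sum_comm]
    refine Finset.sum_congr rfl fun l _ => ?_
    unfold Pl
    rw [wd_mul]
    simp only [Matrix.mulVec, dotProduct, Fin.sum_univ_two, map_mul]
    ring
  unfold kc
  rw [nA_mul, e]
  have h1 : ((‖M.det‖ ^ 2 * nA G Q μ : ℝ) : ℂ) = conj M.det * M.det * (nA G Q μ : ℂ) := by
    rw [← Complex.normSq_eq_conj_mul_self, Complex.normSq_eq_norm_sq]
    push_cast
    ring
  rw [h1]
  have h2 : conj M.det ≠ 0 := (map_ne_zero _).2 hM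
  simp only [Matrix.mulVec, dotProduct, Fin.sum_univ_two]
  by_cases h3 : (nA G Q μ : ℂ) = 0
  · simp [h3]
  · field_simp

/-- the metric in other coordinates -/
theorem hm_trans (hM : M.det ≠ 0) :
    hm (M *ᵥ G) (fun l => M *ᵥ Q l) μ α (β / ‖M.det‖ ^ 2) =
      (M⁻¹)ᴴ * hm G Q μ α β * M⁻¹ := by
  have hi : M⁻¹ * M = 1 := Matrix.nonsing_inv_mul _ (isUnit_iff_ne_zero.2 hM)
  have hi' : M * M⁻¹ = 1 := Matrix.mul_nonsing_inv _ (isUnit_iff_ne_zero.2 hM)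
  have key : Mᴴ * hm (M *ᵥ G) (fun l => M *ᵥ Q l) μ α (β / ‖M.det‖ ^ 2) * M = hm G Q μ α β := by
    have hx : ∀ j, (∑ i, xc (M *ᵥ G) (fun l => M *ᵥ Q l) μ i * M i j) = xc G Q μ j := by
      intro j
      rw [Fin.sum_univ_two]
      show kc (M *ᵥ G) (fun l => M *ᵥ Q l) μ 1 * M 0 j +
        - kc (M *ᵥ G) (fun l => M *ᵥ Q l) μ 0 * M 1 j = _
      rw [kc_mul hM, kc_mul hM]
      have h1 : xc G Q μ j = (M 0 0 * M 1 1 - M 0 1 * M 1 0) * xc G Q μ j / M.det := by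
        rw [← Matrix.det_fin_two]
        field_simp
      rw [h1]
      simp only [Matrix.mulVec, dotProduct, Fin.sum_univ_two]
      fin_cases j
      · show _ = (M 0 0 * M 1 1 - M 0 1 * M 1 0) * kc G Q μ 1 / M.det
        simp only [Fin.zero_eta]
        ring
      · show _ = (M 0 0 * M 1 1 - M 0 1 * M 1 0) * (- kc G Q μ 0) / M.det
        simp only [Fin.mk_one]
        ring
    have hy : ∀ j, (∑ i, yc (M *ᵥ G) i * M i j) = M.det * yc G j := by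
      intro j
      rw [Fin.sum_univ_two, Matrix.det_fin_two]
      show - (M *ᵥ G) 1 * M 0 j + (M *ᵥ G) 0 * M 1 j = _
      simp only [Matrix.mulVec, dotProduct, Fin.sum_univ_two]
      fin_cases j
      · show _ = (M 0 0 * M 1 1 - M 0 1 * M 1 0) * (- G 1)
        simp only [Fin.zero_eta]
        ring
      · show _ = (M 0 0 * M 1 1 - M 0 1 * M 1 0) * G 0
        simp only [Fin.mk_one]
        ring
    ext a b
    have e : (Mᴴ * hm (M *ᵥ G) (fun l => M *ᵥ Q l) μ α (β / ‖M.det‖ ^ 2) * M) a b =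
        (α : ℂ) * (conj (∑ i, xc (M *ᵥ G) (fun l => M *ᵥ Q l) μ i * M i a) *
          ∑ i, xc (M *ᵥ G) (fun l => M *ᵥ Q l) μ i * M i b) +
        ((β / ‖M.det‖ ^ 2 : ℝ) : ℂ) * (conj (∑ i, yc (M *ᵥ G) i * M i a) *
          ∑ i, yc (M *ᵥ G) i * M i b) := by
      simp only [Matrix.mul_apply, Fin.sum_univ_two, hm, Matrix.of_apply,
        Matrix.conjTranspose_apply, Complex.star_def, map_add, map_mul]
      ring
    rw [e, hx, hx, hy, hy]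
    show _ = (α : ℂ) * (conj (xc G Q μ a) * xc G Q μ b) + (β : ℂ) * (conj (yc G a) * yc G b)
    congr 1
    have h1 : ((β / ‖M.det‖ ^ 2 : ℝ) : ℂ) * (conj M.det * M.det) = (β : ℂ) := by
      rw [← Complex.normSq_eq_conj_mul_self, Complex.normSq_eq_norm_sq, ← Complex.ofReal_mul]
      congr 1
      have : ‖M.det‖ ≠ 0 := norm_ne_zero_iff.2 hM
      field_simp
    rw [map_mul]
    calc _ = ((β / ‖M.det‖ ^ 2 : ℝ) : ℂ) * (conj M.det * M.det) * (conj (yc G a) * yc G b) := by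
          ring
      _ = _ := by rw [h1]
  rw [← key]
  have hs : (M⁻¹)ᴴ * Mᴴ = 1 := by
    rw [← Matrix.conjTranspose_mul, hi', Matrix.conjTranspose_one]
  calc hm (M *ᵥ G) (fun l => M *ᵥ Q l) μ α (β / ‖M.det‖ ^ 2)
      = ((M⁻¹)ᴴ * Mᴴ) * hm (M *ᵥ G) (fun l => M *ᵥ Q l) μ α (β / ‖M.det‖ ^ 2) * (M * M⁻¹) := by
        rw [hs, hi', Matrix.one_mul, Matrix.mul_one]
    _ = _ := by simp only [Matrix.mul_assoc]

end alg

/-! ### the metric on a level -/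

variable {f : E3 → ℂ} {s : ℂ} {r : ℝ}

/-- a map `θ' = θ ∘ T` is a parametrisation -/
theorem pe_of_T {θ : Cn 2 → E3} {O : Set (Cn 2)} (hP : PE f s r θ O) {θ' : Cn 2 → E3}
    {z' : Cn 2} {T : Cn 2 → Cn 2} (hT : ∀ᶠ w in 𝓝 z', DifferentiableAt ℂ T w)
    (hTe : ∀ᶠ w in 𝓝 z', T w ∈ O ∧ θ' w = θ (T w)) (hdet : (Jac T z').det ≠ 0) :
    ∃ O', PE f s r θ' O' ∧ z' ∈ O' := by
  obtain ⟨O', hO', hOo, hz'⟩ := eventually_nhds_iff.1
    (hT.and ((eventually_eventually_nhds.2 hTe).and (det_ev hT hdet)))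
  have hd : ∀ w ∈ O', HasFDerivAt θ' ((fderiv ℂ θ (T w)).comp (fderiv ℂ T w)) w := by
    intro w hw
    obtain ⟨h1, h2, h3⟩ := hO' w hw
    have h4 : HasFDerivAt (fun y => θ (T y)) ((fderiv ℂ θ (T w)).comp (fderiv ℂ T w)) w :=
      HasFDerivAt.comp w (g := θ) (hP.par.diffAt h2.self_of_nhds.1).hasFDerivAt h1.hasFDerivAt
    exact h4.congr_of_eventuallyEq (h2.mono fun y hy => hy.2)
  refine ⟨O', ⟨⟨hOo, fun w hw => (hd w hw).differentiableAt.differentiableWithinAt,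
    fun w hw => ?_, fun w hw v hv => ?_⟩, fun w hw => ?_, fun w hw => ?_⟩, hz'⟩
  · have h2 := (hO' w hw).2.1.self_of_nhds
    rw [h2.2]
    exact hP.par.lvl _ h2.1
  · obtain ⟨h1, h2, h3⟩ := hO' w hw
    rw [(hd w hw).fderiv, ContinuousLinearMap.comp_apply] at hv
    have h4 := hP.par.imm _ h2.self_of_nhds.1 _ hv
    have h5 : Jac T w *ᵥ (fun a => v a) = 0 := by
      funext a
      have h6 : v = ∑ b, v b • (EuclideanSpace.single b (1 : ℂ) : Cn 2) := by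
        ext b
        simp [Fin.sum_univ_two, PiLp.single_apply]
        fin_cases b <;> simp
      rw [h6, map_sum] at h4
      have h7 := congrArg (fun u : Cn 2 => u a) h4
      simp only [Matrix.mulVec, dotProduct, Jac, Matrix.of_apply, Fin.sum_univ_two, map_smul,
        PiLp.add_apply, PiLp.smul_apply, smul_eq_mul, PiLp.zero_apply, Pi.zero_apply] at h7 ⊢
      rw [← h7]
      ring
    have h8 := Matrix.eq_zero_of_mulVec_eq_zero h3 h5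
    ext a
    exact congrFun h8 a
  · have h2 := (hO' w hw).2.1.self_of_nhds
    rw [h2.2]
    exact hP.ne _ h2.1
  · have h2 := (hO' w hw).2.1.self_of_nhds
    rw [h2.2]
    exact hP.lt _ h2.1

/-- **the trial metric** -/
def Htr (f g : E3 → ℂ) (q : ι → E3 → ℂ) (φ : ι → E3 → ℝ) (ψ : E3 → ℝ) (k : ℝ) : Met :=
  fun θ z => hm (dV g θ z) (fun l => dV (q l) θ z) (fun l => Real.exp (-φ l (θ z)))
    (Real.exp (ψ (θ z))) (Real.exp (-((1 + 1 / k) * ψ (θ z))) / eta2a (n := 2) f θ z)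

/-- `nA` on a level -/
def nL (g : E3 → ℂ) (q : ι → E3 → ℂ) (φ : ι → E3 → ℝ) (θ : Cn 2 → E3) (z : Cn 2) : ℝ :=
  nA (dV g θ z) (fun l => dV (q l) θ z) (fun l => Real.exp (-φ l (θ z)))

/-- `|a|²` -/
def aL (f g : E3 → ℂ) (q : ι → E3 → ℂ) (φ : ι → E3 → ℝ) (x : E3) : ℝ :=
  ∑ l, Real.exp (-φ l x) * ‖Dt f g (q l) x‖ ^ 2

/-- the data -/
structure TrD (f : E3 → ℂ) (s : ℂ) (r : ℝ) (g : E3 → ℂ) (q : ι → E3 → ℂ) (φ : ι → E3 → ℝ)
    (ψ : E3 → ℝ) : Prop where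
  g_an : ∀ x, nsq x < r ^ 2 → AnalyticAt ℂ g x
  q_an : ∀ l x, nsq x < r ^ 2 → AnalyticAt ℂ (q l) x
  φ_sm : ∀ l, SmL f s r (φ l)
  ψ_sm : SmL f s r ψ
  a_pos : ∀ x, f x = s → x ≠ 0 → nsq x < r ^ 2 → 0 < aL f g q φ x

theorem wd_sq (L : LvlOK f s r) {g h : E3 → ℂ} (hg : ∀ x, nsq x < r ^ 2 → AnalyticAt ℂ g x)
    (hh : ∀ x, nsq x < r ^ 2 → AnalyticAt ℂ h x) {θ : Cn 2 → E3} {O : Set (Cn 2)}
    (hP : PE f s r θ O) {z : Cn 2} (hz : z ∈ O) :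
    ‖wd (dV g θ z) (dV h θ z)‖ ^ 2 = eta2a (n := 2) f θ z * ‖Dt f g h (θ z)‖ ^ 2 := by
  have h1 := Jac_39.jac hP.par hz (L.an _ (hP.lt z hz)).differentiableAt
    (L.sm _ (hP.ne z hz) (hP.lt z hz) (hP.par.lvl z hz)) (hg _ (hP.lt z hz)).differentiableAt
    (hh _ (hP.lt z hz)).differentiableAt
  have e : Jac_39.jc (fun z => g (θ z)) (fun z => h (θ z)) z = wd (dV g θ z) (dV h θ z) := rfl
  rw [← e, h1, mul_comm]

section lvl
variable {g : E3 → ℂ} {q : ι → E3 → ℂ} {φ : ι → E3 → ℝ} {ψ : E3 → ℝ} {k : ℝ}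
  {θ : Cn 2 → E3} {O : Set (Cn 2)} {z : Cn 2}

/-- `nA = |η|² |a|²` -/
theorem nL_eq (L : LvlOK f s r) (hg : ∀ x, nsq x < r ^ 2 → AnalyticAt ℂ g x)
    (hq : ∀ l x, nsq x < r ^ 2 → AnalyticAt ℂ (q l) x) (hP : PE f s r θ O) (hz : z ∈ O) :
    nL g q φ θ z = eta2a (n := 2) f θ z * aL f g q φ (θ z) := by
  unfold nL nA aL
  rw [Finset.mul_sum]
  refine Finset.sum_congr rfl fun l _ => ?_
  rw [wd_sq L hg (hq l) hP hz]
  ring

namespace TrD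

theorem nL_pos (D : TrD f s r g q φ ψ) (L : LvlOK f s r) (hP : PE f s r θ O) (hz : z ∈ O) :
    0 < nL g q φ θ z := by
  rw [nL_eq L D.g_an D.q_an hP hz]
  exact mul_pos (eta2a_nn hP L.sm hz)
    (D.a_pos _ (hP.par.lvl z hz) (hP.ne z hz) (hP.lt z hz))

theorem posDef (D : TrD f s r g q φ ψ) (L : LvlOK f s r) (hP : PE f s r θ O) (hz : z ∈ O)
    (k : ℝ) : (Htr f g q φ ψ k θ z).PosDef :=
  hm_posDef (D.nL_pos L hP hz).ne' (Real.exp_pos _)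
    (div_pos (Real.exp_pos _) (eta2a_nn hP L.sm hz))

/-- `|dg|² = e^ψ` -/
theorem dg (D : TrD f s r g q φ ψ) (L : LvlOK f s r) (hP : PE f s r θ O) (hz : z ∈ O) (k : ℝ) :
    hV (Htr f g q φ ψ k θ) (dV g θ) z = Real.exp (ψ (θ z)) :=
  hm_G (D.nL_pos L hP hz).ne'

theorem det' (D : TrD f s r g q φ ψ) (L : LvlOK f s r) (hP : PE f s r θ O) (hz : z ∈ O)
    (k : ℝ) : (Htr f g q φ ψ k θ z).det = ((Real.exp (ψ (θ z)) *
      (Real.exp (-((1 + 1 / k) * ψ (θ z))) / eta2a (n := 2) f θ z) : ℝ) : ℂ) :=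
  hm_det (D.nL_pos L hP hz).ne'

/-- `|η|² = e^{-ψ/k}` -/
theorem det (D : TrD f s r g q φ ψ) (L : LvlOK f s r) (hP : PE f s r θ O) (hz : z ∈ O)
    (k : ℝ) : (Htr f g q φ ψ k θ z).det.re * eta2a (n := 2) f θ z =
      Real.exp (-(ψ (θ z) / k)) := by
  have h1 := (eta2a_nn hP L.sm hz).ne'
  rw [D.det' L hP hz k, Complex.ofReal_re, mul_assoc, div_mul_cancel₀ _ h1, ← Real.exp_add]
  congr 1
  ring

/-- the inverse -/
theorem inv (D : TrD f s r g q φ ψ) (L : LvlOK f s r) (hP : PE f s r θ O) (hz : z ∈ O)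
    (k : ℝ) : (Htr f g q φ ψ k θ z)⁻¹ =
      ((Real.exp (-ψ (θ z)) : ℝ) : ℂ) • r1 (dV g θ z) +
      ((Real.exp ((1 + 1 / k) * ψ (θ z)) * eta2a (n := 2) f θ z : ℝ) : ℂ) •
        r1 (kc (dV g θ z) (fun l => dV (q l) θ z) fun l => Real.exp (-φ l (θ z))) := by
  have h1 := eta2a_nn hP L.sm hz
  have h2 : (Real.exp (-((1 + 1 / k) * ψ (θ z))) / eta2a (n := 2) f θ z)⁻¹ =
      Real.exp ((1 + 1 / k) * ψ (θ z)) * eta2a (n := 2) f θ z := by
    rw [inv_div, Real.exp_neg, div_inv_eq_mul, mul_comm]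
  have h3 := hm_inv (α := Real.exp (ψ (θ z)))
    (β := Real.exp (-((1 + 1 / k) * ψ (θ z))) / eta2a (n := 2) f θ z)
    (D.nL_pos L hP hz).ne' (Real.exp_pos _).ne' (div_pos (Real.exp_pos _) h1).ne'
  unfold Htr
  rw [h3, h2, ← Real.exp_neg]

/-- **the bound of the dual metric**:
`H* ≤ e^{-ψ} |dg|² + e^{(1+1/k)ψ} |a|⁻² ∑ e^{-φ_l} |dq_l|²` -/
theorem dual (D : TrD f s r g q φ ψ) (L : LvlOK f s r) (hP : PE f s r θ O) (hz : z ∈ O)
    (k : ℝ) : (((Real.exp (-ψ (θ z)) : ℝ) : ℂ) • r1 (dV g θ z) +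
      ((Real.exp ((1 + 1 / k) * ψ (θ z)) / aL f g q φ (θ z) : ℝ) : ℂ) •
        ∑ l, ((Real.exp (-φ l (θ z)) : ℝ) : ℂ) • r1 (dV (q l) θ z)
      - (Htr f g q φ ψ k θ z)⁻¹).PosSemidef := by
  have h1 := eta2a_nn hP L.sm hz
  have h0 := D.nL_pos L hP hz
  have ha := D.a_pos _ (hP.par.lvl z hz) (hP.ne z hz) (hP.lt z hz)
  have h3 := hm_dual (α := Real.exp (ψ (θ z)))
    (β := Real.exp (-((1 + 1 / k) * ψ (θ z))) / eta2a (n := 2) f θ z)
    h0 (fun l => (Real.exp_pos _).le) (Real.exp_pos _) (div_pos (Real.exp_pos _) h1)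
  have h4 : (Real.exp (-((1 + 1 / k) * ψ (θ z))) / eta2a (n := 2) f θ z *
      nA (dV g θ z) (fun l => dV (q l) θ z) fun l => Real.exp (-φ l (θ z)))⁻¹ =
      Real.exp ((1 + 1 / k) * ψ (θ z)) / aL f g q φ (θ z) := by
    have h5 : (nA (dV g θ z) (fun l => dV (q l) θ z) fun l => Real.exp (-φ l (θ z))) =
        eta2a (n := 2) f θ z * aL f g q φ (θ z) := nL_eq L D.g_an D.q_an hP hz
    rw [h5, Real.exp_neg ((1 + 1 / k) * ψ (θ z))]
    field_simp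
  rw [h4, ← Real.exp_neg] at h3
  exact h3

end TrD

/-! ### smoothness -/

theorem sm_dV (hg : ∀ x, nsq x < r ^ 2 → AnalyticAt ℂ g x) (hP : PE f s r θ O) (hz : z ∈ O)
    (i : Fin 2) : Sm z (fun y => dV g θ y i) := by
  refine sm_of_hol ?_
  filter_upwards [hP.par.isOpen.mem_nhds hz] with y hy
  exact (dV_hol hg hP i).differentiableAt (hP.par.isOpen.mem_nhds hy)

theorem sm_conj {F : Cn 2 → ℂ} (h : Sm z F) : Sm z (fun y => conj (F y)) :=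
  conjCLE.contDiff.contDiffAt.comp z h

theorem sm_wd {v w : Cn 2 → Fin 2 → ℂ} (hv : ∀ i, Sm z (fun y => v y i))
    (hw : ∀ i, Sm z (fun y => w y i)) : Sm z (fun y => wd (v y) (w y)) :=
  ((hv 0).mul (hw 1)).sub ((hv 1).mul (hw 0))

/-- smoothness of the algebraic expressions -/
theorem sm_nA {G : Cn 2 → Fin 2 → ℂ} {Q : Cn 2 → ι → Fin 2 → ℂ} {μ : Cn 2 → ι → ℝ}
    (hG : ∀ i, Sm z (fun y => G y i)) (hQ : ∀ l i, Sm z (fun y => Q y l i))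
    (hμ : ∀ l, ContDiffAt ℝ ∞ (fun y => μ y l) z) :
    ContDiffAt ℝ ∞ (fun y => nA (G y) (Q y) (μ y)) z := by
  unfold nA
  refine ContDiffAt.sum fun l _ => (hμ l).mul ?_
  exact (sm_wd hG (hQ l)).norm_sq ℝ

theorem sm_kc {G : Cn 2 → Fin 2 → ℂ} {Q : Cn 2 → ι → Fin 2 → ℂ} {μ : Cn 2 → ι → ℝ}
    (hG : ∀ i, Sm z (fun y => G y i)) (hQ : ∀ l i, Sm z (fun y => Q y l i))
    (hμ : ∀ l, ContDiffAt ℝ ∞ (fun y => μ y l) z) (h0 : nA (G z) (Q z) (μ z) ≠ 0) (i : Fin 2) :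
    Sm z (fun y => kc (G y) (Q y) (μ y) i) := by
  unfold kc
  simp only [div_eq_mul_inv]
  refine ContDiffAt.mul (ContDiffAt.sum fun l _ => ContDiffAt.mul ?_ (hQ l i))
    (ContDiffAt.inv (contDiffAt_cu (sm_nA hG hQ hμ)) (Complex.ofReal_ne_zero.2 h0))
  unfold Pl
  exact (contDiffAt_cu (hμ l) : Sm z (cu _)).mul (sm_conj (sm_wd hG (hQ l)))

theorem smM_hm {G : Cn 2 → Fin 2 → ℂ} {Q : Cn 2 → ι → Fin 2 → ℂ} {μ : Cn 2 → ι → ℝ}
    {α β : Cn 2 → ℝ}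
    (hG : ∀ i, Sm z (fun y => G y i)) (hQ : ∀ l i, Sm z (fun y => Q y l i))
    (hμ : ∀ l, ContDiffAt ℝ ∞ (fun y => μ y l) z) (h0 : nA (G z) (Q z) (μ z) ≠ 0)
    (hα : ContDiffAt ℝ ∞ α z) (hβ : ContDiffAt ℝ ∞ β z) :
    SmM z (fun y => hm (G y) (Q y) (μ y) (α y) (β y)) := by
  have k := sm_kc hG hQ hμ h0
  have hx : ∀ i, Sm z (fun y => xc (G y) (Q y) (μ y) i) := by
    intro i
    fin_cases i
    · exact k 1
    · exact (k 0).neg
  have hy : ∀ i, Sm z (fun y => yc (G y) i) := by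
    intro i
    fin_cases i
    · exact (hG 1).neg
    · exact hG 0
  intro i j
  exact ((contDiffAt_cu hα : Sm z (cu _)).mul ((sm_conj (hx i)).mul (hx j))).add
    ((contDiffAt_cu hβ : Sm z (cu _)).mul ((sm_conj (hy i)).mul (hy j)))

theorem sm_eta (L : LvlOK f s r) (hP : PE f s r θ O) (hz : z ∈ O) :
    ContDiffAt ℝ ∞ (fun y => eta2a (n := 2) f θ y) z := by
  obtain ⟨p, hp, -, he⟩ := eta2a_norm (n := 2) hP.par hz (L.an _ (hP.lt z hz))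
    (L.sm _ (hP.ne z hz) (hP.lt z hz) (hP.par.lvl z hz))
  have h1 : Sm z p := sm_of_hol (hp.eventually_analyticAt.mono fun w hw => hw.differentiableAt)
  exact (h1.norm_sq ℝ).congr_of_eventuallyEq he

theorem smL_at {a : E3 → ℝ} (h : SmL f s r a) (hP : PE f s r θ O) (hz : z ∈ O) :
    ContDiffAt ℝ ∞ (fun y => a (θ y)) z := (h θ O hP).contDiffAt (hP.par.isOpen.mem_nhds hz)

/-- **the trial metric is a metric on `Ω¹`** -/
theorem mo_Htr (D : TrD f s r g q φ ψ) (L : LvlOK f s r) (k : ℝ) :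
    MO f s r (Htr f g q φ ψ k) where
  sm θ O hP z hz := by
    have h1 : ContDiffAt ℝ ∞ (fun y => ψ (θ y)) z := smL_at D.ψ_sm hP hz
    refine smM_hm (sm_dV D.g_an hP hz) (fun l => sm_dV (D.q_an l) hP hz)
      (fun l => (smL_at (D.φ_sm l) hP hz).neg.exp) (D.nL_pos L hP hz).ne' h1.exp ?_
    exact ((contDiffAt_const.mul h1).neg.exp).div (sm_eta L hP hz) (eta2a_nn hP L.sm hz).ne'
  pos θ O hP z hz := D.posDef L hP hz k
  tr θ O hP θ' z' T hT hTO hTe hdet := by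
    obtain ⟨O', hP', hz'⟩ := pe_of_T hP hT hTe hdet
    filter_upwards [hP'.par.isOpen.mem_nhds hz', eventually_eventually_nhds.2 hTe,
      eventually_eventually_nhds.2 hT, det_ev hT hdet] with w h0 h1 h2 h3
    have e0 := h1.self_of_nhds
    have e1 := eta2a_trans hP'.par hP.par h0 h2 h1
    have hM : ((Jac T w)ᵀ).det ≠ 0 := by rw [Matrix.det_transpose]; exact h3
    have e2 := dV_trans D.g_an hP h2.self_of_nhds h1
    have e3 : (fun l => dV (q l) θ' w) = fun l => (Jac T w)ᵀ *ᵥ dV (q l) θ (T w) :=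
      funext fun l => dV_trans (D.q_an l) hP h2.self_of_nhds h1
    unfold Htr Fr
    rw [e2, e3, e0.2, e1, ← hm_trans hM, Matrix.det_transpose]
    congr 1
    rw [div_div, mul_comm (eta2a (n := 2) f θ (T w))]

end lvl

end

end Crest.Agent.R257.H0_540
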