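import Crest.Agent.R257.GBLcut_844

/-!
# R257 (S0395), part (GB), leaf GBLCUT, second part (helper844, for GB-LIM of helper625)

* `chs ρ j = kap (ρ / j) ^ 2` (the square root of `chi ρ j`), its Levi form and gradient
* `hess`, `hsf` of `chi ρ j`, `chs ρ j` vanish outside of `{j ≤ ρ ≤ 2 j}`
-/

set_option autoImplicit false
set_option linter.unusedSectionVars false

open Set Filter Topology Complex
open scoped ContDiff Matrix ComplexConjugate ComplexOrder

namespace Crest.Agent.R257.GBLcut_844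

open Crest.Agent.R275.Geo Crest.Agent.R275.Core144
open Crest.Agent.R273 Crest.Agent.R273.Levi_145
open Crest.Agent.R257.GradB_537

noncomputable section

/-- `kap (ρ / j) ^ 2` -/
def chs {α : Type*} (ρ : α → ℝ) (j : ℝ) (z : α) : ℝ := kap (ρ z / j) ^ 2

section chsB

variable {α : Type*} {ρ : α → ℝ} {j : ℝ} {z : α}

theorem chs_nonneg : 0 ≤ chs ρ j z := sq_nonneg _

theorem chs_le_one : chs ρ j z ≤ 1 := pow_le_one₀ (kap_nonneg _) (kap_le_one _)

theorem chs_sq : chs ρ j z ^ 2 = chi ρ j z := by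
  rw [chs, chi]
  ring

theorem chs_eq_sqrt : chs ρ j z = Real.sqrt (chi ρ j z) := sqrt_chi.symm

theorem chs_eq_one (hj : 0 < j) (h : ρ z ≤ j) : chs ρ j z = 1 := by
  rw [chs, kap_one ((div_le_one hj).2 h), one_pow]

theorem chs_eq_zero (hj : 0 < j) (h : 2 * j ≤ ρ z) : chs ρ j z = 0 := by
  rw [chs, kap_zero ((le_div_iff₀ hj).2 h)]
  norm_num

theorem chs_mono {j' : ℝ} (hj : 0 < j) (hjj : j ≤ j') (h : 0 ≤ ρ z) : chs ρ j z ≤ chs ρ j' z :=
  pow_le_pow_left₀ (kap_nonneg _)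
    (kap_anti (div_le_div_of_nonneg_left h hj hjj)) 2

theorem eventually_chs (ρ : α → ℝ) (z : α) : ∀ᶠ j : ℕ in atTop, chs ρ (j : ℝ) z = 1 := by
  filter_upwards [eventually_gt_atTop 0, eventually_ge_atTop ⌈ρ z⌉₊] with j hj hj2
  exact chs_eq_one (by exact_mod_cast hj) ((Nat.le_ceil _).trans (by exact_mod_cast hj2))

theorem eventually_chi (ρ : α → ℝ) (z : α) : ∀ᶠ j : ℕ in atTop, chi ρ (j : ℝ) z = 1 := by
  filter_upwards [eventually_chs ρ z] with j hj
  rw [← chs_sq, hj, one_pow]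

theorem tendsto_chs (ρ : α → ℝ) (z : α) : Tendsto (fun j : ℕ => chs ρ (j : ℝ) z) atTop (𝓝 1) :=
  tendsto_const_nhds.congr' ((eventually_chs ρ z).mono fun _ h => h.symm)

/-- the transition region of the cut-off functions -/
def trn (ρ : α → ℝ) (j : ℝ) : Set α := {x | j ≤ ρ x ∧ ρ x ≤ 2 * j}

theorem trn_meas [MeasurableSpace α] (hρ : Measurable ρ) : MeasurableSet (trn ρ j) :=
  (measurableSet_le measurable_const hρ).inter (measurableSet_le hρ measurable_const)

theorem eventually_trn (ρ : α → ℝ) (z : α) : ∀ᶠ j : ℕ in atTop, z ∉ trn ρ (j : ℝ) := by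
  filter_upwards [eventually_gt_atTop ⌈ρ z⌉₊] with j hj hz
  have h1 : ρ z < j := (Nat.le_ceil _).trans_lt (by exact_mod_cast hj)
  exact absurd hz.1 (not_le.2 h1)

theorem chs_meas [MeasurableSpace α] (hρ : Measurable ρ) : Measurable (chs ρ j) :=
  (kap_sm.continuous.measurable.comp (hρ.div_const j)).pow_const 2

theorem chi_meas [MeasurableSpace α] (hρ : Measurable ρ) : Measurable (chi ρ j) :=
  (kap_sm.continuous.measurable.comp (hρ.div_const j)).pow_const 4

theorem chs_cont [TopologicalSpace α] (hρ : Continuous ρ) : Continuous (chs ρ j) :=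
  (kap_sm.continuous.comp (hρ.div_const j)).pow 2

theorem chi_cont [TopologicalSpace α] (hρ : Continuous ρ) : Continuous (chi ρ j) :=
  (kap_sm.continuous.comp (hρ.div_const j)).pow 4

/-- off the transition region the cut-off functions are locally constant -/
theorem kap_loc_off [TopologicalSpace α] (hj : 0 < j) (hρ : ContinuousAt ρ z)
    (h : z ∉ trn ρ j) : ∃ c : ℝ, ∀ᶠ y in 𝓝 z, kap (ρ y / j) = c := by
  have h1 : ρ z / j ∉ Icc (1 : ℝ) 2 := fun hc => h
    ⟨by have := (one_le_div hj).1 hc.1; exact this,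
      by have := (div_le_iff₀ hj).1 hc.2; exact this⟩
  obtain ⟨c, hc⟩ := kap_loc h1
  exact ⟨c, (hρ.div_const j).eventually hc⟩

end chsB

variable {n : ℕ} {u ρ : Cn n → ℝ} {x : Cn n} {j C : ℝ}

theorem chs_sm {k : ℕ∞} (h : ContDiffAt ℝ k ρ x) : ContDiffAt ℝ k (chs ρ j) x :=
  ((kap_sm.of_le (by exact_mod_cast le_top)).contDiffAt.comp x (h.div_const j)).pow 2

/-- first derivative of `t ↦ kap (t / j) ^ 2` -/
def e1 (j t : ℝ) : ℝ := 2 * kap (t / j) * deriv kap (t / j) / j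

/-- second derivative of `t ↦ kap (t / j) ^ 2` -/
def e2 (j t : ℝ) : ℝ :=
  (2 * deriv kap (t / j) ^ 2 + 2 * kap (t / j) * deriv (deriv kap) (t / j)) / j ^ 2

theorem hasDerivAt_pow2 (hj : j ≠ 0) (t : ℝ) :
    HasDerivAt (fun t => kap (t / j) ^ 2) (e1 j t) t := by
  have h1 : HasDerivAt (fun t : ℝ => t / j) (1 / j) t := (hasDerivAt_id t).div_const j
  have h2 := ((hasDerivAt_kap (t / j)).comp t h1).pow 2
  refine h2.congr_deriv ?_
  simp only [e1, Function.comp_apply]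
  push_cast
  field_simp
  try ring

theorem hasDerivAt_e1 (hj : j ≠ 0) (t : ℝ) : HasDerivAt (e1 j) (e2 j t) t := by
  have h1 : HasDerivAt (fun t : ℝ => t / j) (1 / j) t := (hasDerivAt_id t).div_const j
  have h2 := (hasDerivAt_kap (t / j)).comp t h1
  have h3 := (hasDerivAt_dkap (t / j)).comp t h1
  have h4 := ((h2.const_mul 2).mul h3).div_const j
  refine h4.congr_deriv ?_
  simp only [e2, Function.comp_apply]
  field_simp
  try ring

theorem e1_abs_le (hj : 0 < j) (t : ℝ) : |e1 j t| ≤ 2 * Kk / j * kap (t / j) := by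
  have h0 := kap_nonneg (t / j)
  unfold e1
  rw [abs_div, abs_of_pos hj, abs_mul, abs_of_nonneg (by positivity : 0 ≤ 2 * kap (t / j))]
  rw [div_le_iff₀ hj]
  have h1 := mul_le_mul_of_nonneg_left (dkap_le (t / j)) (by positivity : 0 ≤ 2 * kap (t / j))
  calc _ ≤ _ := h1
    _ = _ := by field_simp

theorem e2_abs_le (hj : 1 ≤ j) (t : ℝ) : |e2 j t| ≤ (2 * Kk ^ 2 + 2 * Kk) / j := by
  have hj0 : 0 < j := by linarith
  have h0 := kap_nonneg (t / j)
  have h1 := kap_le_one (t / j)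
  have hK := Kk_nonneg
  have a1 : deriv kap (t / j) ^ 2 ≤ Kk ^ 2 :=
    sq_le_sq' (abs_le.1 (dkap_le _)).1 (abs_le.1 (dkap_le _)).2
  unfold e2
  rw [abs_div, abs_of_pos (by positivity : 0 < j ^ 2)]
  have b : |2 * deriv kap (t / j) ^ 2 + 2 * kap (t / j) * deriv (deriv kap) (t / j)| ≤
      2 * Kk ^ 2 + 2 * Kk := by
    refine (abs_add_le _ _).trans ?_
    rw [abs_mul (2 : ℝ), abs_mul (2 * kap (t / j)), abs_of_nonneg (by norm_num : (0 : ℝ) ≤ 2),
      abs_of_nonneg (sq_nonneg (deriv kap (t / j))),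
      abs_of_nonneg (by positivity : 0 ≤ 2 * kap (t / j))]
    have c2 : 2 * kap (t / j) * |deriv (deriv kap) (t / j)| ≤ 2 * Kk :=
      mul_le_mul (by linarith) (ddkap_le _) (abs_nonneg _) (by positivity)
    linarith
  rw [div_le_iff₀ (by positivity)]
  have c : (2 * Kk ^ 2 + 2 * Kk) / j * j ^ 2 = (2 * Kk ^ 2 + 2 * Kk) * j := by field_simp
  rw [c]
  have d : 0 ≤ 2 * Kk ^ 2 + 2 * Kk := by positivity
  nlinarith

/-- **the Levi form of the square roots of the cut-off functions** -/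
theorem lev_chs_le (hj : 1 ≤ j) (hρ : ContDiffAt ℝ 2 ρ x) {v : Cn n} {L : ℝ}
    (hg : ‖gr ρ x v‖ ^ 2 ≤ C * L) (hl : |lev ρ x v| ≤ C * L) :
    |lev (chs ρ j) x v| ≤ cK * C / j * L := by
  have hj0 : 0 < j := by linarith
  have hCL : 0 ≤ C * L := (sq_nonneg _).trans hg
  have h0 := kap_nonneg (ρ x / j)
  have h1 := kap_le_one (ρ x / j)
  have hK := Kk_nonneg
  have e : lev (chs ρ j) x v = e2 j (ρ x) * ‖gr ρ x v‖ ^ 2 + e1 j (ρ x) * lev ρ x v :=
    lev_comp_real (χ := fun t => kap (t / j) ^ 2) (χ' := e1 j) hρ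
      (Eventually.of_forall (hasDerivAt_pow2 hj0.ne')) (hasDerivAt_e1 hj0.ne' _) v
  rw [e]
  have a1 : |e2 j (ρ x) * ‖gr ρ x v‖ ^ 2| ≤ (2 * Kk ^ 2 + 2 * Kk) / j * (C * L) := by
    rw [abs_mul, abs_of_nonneg (sq_nonneg ‖gr ρ x v‖)]
    exact mul_le_mul (e2_abs_le hj _) hg (sq_nonneg _) (by positivity)
  have a2 : |e1 j (ρ x) * lev ρ x v| ≤ 2 * Kk / j * (C * L) := by
    rw [abs_mul]
    refine mul_le_mul ((e1_abs_le hj0 _).trans ?_) hl (abs_nonneg _) (by positivity)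
    exact mul_le_of_le_one_right (by positivity) h1
  have b : (2 * Kk ^ 2 + 4 * Kk) / j * (C * L) ≤ cK / j * (C * L) := by
    refine mul_le_mul_of_nonneg_right ?_ hCL
    refine div_le_div_of_nonneg_right ?_ hj0.le
    unfold cK
    nlinarith [sq_nonneg Kk]
  calc _ ≤ _ := abs_add_le _ _
    _ ≤ _ := add_le_add a1 a2
    _ = (2 * Kk ^ 2 + 4 * Kk) / j * (C * L) := by ring
    _ ≤ _ := b
    _ = _ := by ring

/-- the gradient of the square roots of the cut-off functions -/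
theorem gr_chs_le (hj : 1 ≤ j) (hρ : DifferentiableAt ℝ ρ x) {v : Cn n} {L : ℝ}
    (hg : ‖gr ρ x v‖ ^ 2 ≤ C * L) :
    ‖gr (chs ρ j) x v‖ ^ 2 ≤ cK * C / j ^ 2 * kap (ρ x / j) ^ 2 * L := by
  have hj0 : 0 < j := by linarith
  have hCL : 0 ≤ C * L := (sq_nonneg _).trans hg
  have h0 := kap_nonneg (ρ x / j)
  have hK := Kk_nonneg
  have e : gr (chs ρ j) x v = e1 j (ρ x) * gr ρ x v :=
    gr_comp_real (χ := fun t => kap (t / j) ^ 2) hρ (hasDerivAt_pow2 hj0.ne' _) v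
  rw [e, norm_mul, Complex.norm_real, Real.norm_eq_abs, mul_pow]
  have a1 : |e1 j (ρ x)| ^ 2 ≤ (2 * Kk / j * kap (ρ x / j)) ^ 2 :=
    pow_le_pow_left₀ (abs_nonneg _) (e1_abs_le hj0 _) 2
  have b : 4 * Kk ^ 2 / j ^ 2 * kap (ρ x / j) ^ 2 * (C * L) ≤
      cK / j ^ 2 * kap (ρ x / j) ^ 2 * (C * L) := by
    refine mul_le_mul_of_nonneg_right (mul_le_mul_of_nonneg_right ?_ (by positivity)) hCL
    refine div_le_div_of_nonneg_right ?_ (by positivity)
    unfold cK
    nlinarith [sq_nonneg Kk]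
  calc _ ≤ (2 * Kk / j * kap (ρ x / j)) ^ 2 * (C * L) :=
        mul_le_mul a1 hg (sq_nonneg _) (by positivity)
    _ = 4 * Kk ^ 2 / j ^ 2 * kap (ρ x / j) ^ 2 * (C * L) := by ring
    _ ≤ _ := b
    _ = _ := by ring

section psd

/-- **the square roots of the cut-off functions, matrix form** -/
theorem psd_chs (hj : 1 ≤ j) (hρ : ContDiffAt ℝ ∞ ρ x) (hu : ContDiffAt ℝ ∞ u x)
    (hg : ∀ v, ‖gr ρ x v‖ ^ 2 ≤ C * lev u x v) (hl : ∀ v, |lev ρ x v| ≤ C * lev u x v) :
    (((cK * C / j : ℝ) : ℂ) • Hess_333.hess u x - Hess_333.hess (chs ρ j) x).PosSemidef ∧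
      (((cK * C / j : ℝ) : ℂ) • Hess_333.hess u x + Hess_333.hess (chs ρ j) x).PosSemidef := by
  have h2 : (2 : WithTop ℕ∞) ≤ ∞ := WithTop.coe_le_coe.2 (le_top : (2 : ℕ∞) ≤ ⊤)
  exact psd_of_lev (chs_sm hρ) hu fun v => lev_chs_le hj (hρ.of_le h2) (hg v) (hl v)

/-- the instance `ρ = log (A - u)` -/
theorem psd_chs_rho {A : ℝ} (hj : 1 ≤ j) (hu : ContDiffAt ℝ ∞ u x) (hA : u x + 1 ≤ A)
    (h0 : ∀ v, 0 ≤ lev u x v) (hC : ∀ v, ‖gr u x v‖ ^ 2 ≤ C * ((A - u x) ^ 2 * lev u x v)) :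
    (((cK * (C + 1) / j : ℝ) : ℂ) • Hess_333.hess u x
        - Hess_333.hess (chs (rho A u) j) x).PosSemidef ∧
      (((cK * (C + 1) / j : ℝ) : ℂ) • Hess_333.hess u x
        + Hess_333.hess (chs (rho A u) j) x).PosSemidef := by
  have h2 : (2 : WithTop ℕ∞) ≤ ∞ := WithTop.coe_le_coe.2 (le_top : (2 : ℕ∞) ≤ ⊤)
  have hA' : u x < A := by linarith
  refine psd_chs hj (sm_rho hu hA') hu (fun v => ?_) fun v => ?_
  · have := gr_rho_le (c2_diff (hu.of_le h2)) hA' v (hC v)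
    have := h0 v
    linarith
  · exact lev_rho_le (hu.of_le h2) hA v (h0 v) (hC v)

theorem hess_const_zero (c : ℝ) (x : Cn n) : Hess_333.hess (fun _ => c) x = 0 := by
  have h := HessB_333.hess_re_hol (n := n) (f := fun _ => (c : ℂ)) (z := x)
    (Eventually.of_forall fun _ => differentiableAt_const _)
  simpa only [ofReal_re] using h

/-- off the transition region `∂∂̄ χ_j = 0` -/
theorem hess_chi_off (hj : 0 < j) (hρ : ContinuousAt ρ x) (h : x ∉ trn ρ j) :
    Hess_333.hess (chi ρ j) x = 0 := by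
  obtain ⟨c, hc⟩ := kap_loc_off hj hρ h
  rw [HessB_333.hess_congr (v := fun _ => c ^ 4) (hc.mono fun y hy => by
    simp only [chi, hy]), hess_const_zero]

/-- off the transition region `∂∂̄ √χ_j = 0` -/
theorem hess_chs_off (hj : 0 < j) (hρ : ContinuousAt ρ x) (h : x ∉ trn ρ j) :
    Hess_333.hess (chs ρ j) x = 0 := by
  obtain ⟨c, hc⟩ := kap_loc_off hj hρ h
  rw [HessB_333.hess_congr (v := fun _ => c ^ 2) (hc.mono fun y hy => by
    simp only [chs, hy]), hess_const_zero]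

end psd

/-! ### on a complex manifold -/

section atl

variable {M : Type} [TopologicalSpace M] {A : Atl n M} {w r : M → ℝ}

theorem chs_Sm (h : A.Sm r) (j : ℝ) : A.Sm (chs r j) := fun i =>
  ((kap_sm.comp_contDiffOn ((h i).div_const j)).pow 2 :)

/-- **the square roots of the cut-off functions on a complex manifold** -/
theorem psd_chs_hsf (hj : 1 ≤ j) (hw : A.Sm w) (hr : A.Sm r) (i : A.ι) {x : M}
    (hx : x ∈ (A.e i).source)
    (hg : ∀ v, ‖gr (fun z => r ((A.e i).symm z)) (A.e i x) v‖ ^ 2 ≤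
      C * lev (fun z => w ((A.e i).symm z)) (A.e i x) v)
    (hl : ∀ v, |lev (fun z => r ((A.e i).symm z)) (A.e i x) v| ≤
      C * lev (fun z => w ((A.e i).symm z)) (A.e i x) v) :
    (((cK * C / j : ℝ) : ℂ) • Kah_333.hsf A w i x - Kah_333.hsf A (chs r j) i x).PosSemidef ∧
      (((cK * C / j : ℝ) : ℂ) • Kah_333.hsf A w i x
        + Kah_333.hsf A (chs r j) i x).PosSemidef := by
  have hz := (A.e i).map_source hx
  exact psd_chs (j := j) hj (Kah_333.sm_contDiffAt hr i hz) (Kah_333.sm_contDiffAt hw i hz)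
    hg hl

/-- off the transition region `∂∂̄ χ_j = 0` -/
theorem hsf_chi_off (hj : 0 < j) (hr : A.Sm r) (i : A.ι) {x : M} (hx : x ∈ (A.e i).source)
    (h : x ∉ trn r j) : Kah_333.hsf A (chi r j) i x = 0 := by
  have hz := (A.e i).map_source hx
  refine hess_chi_off (ρ := fun z => r ((A.e i).symm z)) hj
    (Kah_333.sm_contDiffAt hr i hz).continuousAt ?_
  simpa only [trn, mem_ofPred_eq, (A.e i).left_inv hx] using h

/-- off the transition region `∂∂̄ √χ_j = 0` -/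
theorem hsf_chs_off (hj : 0 < j) (hr : A.Sm r) (i : A.ι) {x : M} (hx : x ∈ (A.e i).source)
    (h : x ∉ trn r j) : Kah_333.hsf A (chs r j) i x = 0 := by
  have hz := (A.e i).map_source hx
  refine hess_chs_off (ρ := fun z => r ((A.e i).symm z)) hj
    (Kah_333.sm_contDiffAt hr i hz).continuousAt ?_
  simpa only [trn, mem_ofPred_eq, (A.e i).left_inv hx] using h

end atl

end

end Crest.Agent.R257.GBLcut_844
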