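import Crest.Agent.R257.KEG_952
import Crest.Agent.R257.V1Top_822
import Crest.Agent.R257.GBLcut2_844
import Crest.Agent.R257.KedM1_941
import Crest.Agent.R257.Loc_835

/-!
# R257 (S0395), task GB-LOSS (helper625): densities on a level, cut-off functions

* `fx f S a`        : density of `∂∂̄a ∧ S` with respect to `|η|²` (`mxd f a b = fx f (hS b) a`)
* `dns_cases`       : all densities at a point are read in one parametrisation
* `fx_add, fx_mul, fx_congr, fx_le, fx_abs_le`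
* `cv`              : smooth, convex, decreasing, affine on `(-∞, 1/2]`, `0` on `[1, ∞)`
-/

set_option autoImplicit false
set_option linter.unusedSectionVars false

open Topology Filter MeasureTheory Set
open scoped ENNReal ContDiff Matrix ComplexOrder

noncomputable section

namespace Crest.Agent.R257.LossA_625

open Crest.Agent.R275.Geo
open Crest.Agent.R257.Defs_219
open Crest.Agent.R257.KED_952
open Crest.Agent.R257.V1Defs_822
open Crest.Agent.R257.V1Pe_822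
open Crest.Agent.R257.V1Top_822
open Crest.Agent.R273.Defs_333 (lev)
open Crest.Agent.R273.YauDefs_635 (cH lev333_eq_lev145)
open Crest.Agent.R257.PN_835 (nsq)
open Crest.Agent.R257.Aff_835 (eta2a nga)
open Crest.Agent.R257.C2F1_625 (pd)

variable {f : E3 → ℂ} {r : ℝ}

/-- `(1,1)`-forms on a level, read in parametrisations -/
abbrev Frm : Type := (Cn 2 → E3) → Cn 2 → Matrix (Fin 2) (Fin 2) ℂ

/-- density of `∂∂̄a ∧ S` -/
def fx (f : E3 → ℂ) (S : Frm) (a : E3 → ℝ) : E3 → ℝ :=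
  dns f fun θ z => (pd (cH (fun z => a (θ z)) z) (S θ z)).re

/-- `∂∂̄b` as a form -/
def hS (b : E3 → ℝ) : Frm := fun θ z => cH (fun z => b (θ z)) z

theorem mxd_eq_fx (f : E3 → ℂ) (a b : E3 → ℝ) : mxd f a b = fx f (hS b) a := rfl

/-- positive forms -/
def Psd (f : E3 → ℂ) (r : ℝ) (S : Frm) : Prop :=
  ∀ θ O, PE f 0 r θ O → ∀ z ∈ O, (S θ z).PosSemidef

/-- the points of the level -/
def Lv (f : E3 → ℂ) (r : ℝ) : Set E3 := {x | f x = 0 ∧ x ≠ 0 ∧ nsq x < r ^ 2}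

theorem pe_lv {θ : Cn 2 → E3} {O : Set (Cn 2)} (h : PE f 0 r θ O) {z : Cn 2} (hz : z ∈ O) :
    θ z ∈ Lv f r := ⟨h.par.lvl z hz, h.ne z hz, h.lt z hz⟩

/-- all densities at a point are read in one parametrisation -/
theorem dns_cases (hL : LvlOK f 0 r) {x : E3} (hx : x ∈ Lv f r) :
    ∃ (θ : Cn 2 → E3) (O : Set (Cn 2)) (z : Cn 2), PE f 0 r θ O ∧ z ∈ O ∧ θ z = x ∧
      0 < eta2a (n := 2) f θ z ∧
      ∀ D : (Cn 2 → E3) → Cn 2 → ℝ, dns f D x = D θ z / eta2a (n := 2) f θ z := by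
  obtain ⟨hfx, hx0, hr⟩ := hx
  have h : ∃ p : (Cn 2 → E3) × Set (Cn 2) × Cn 2,
      Aff_835.Par (n := 2) f (f x) p.1 p.2.1 ∧ p.2.2 ∈ p.2.1 ∧ p.1 p.2.2 = x := by
    obtain ⟨θ, O, z, h1, h2, h3, -⟩ := exists_pe hL hx0 hr hfx
    exact ⟨(θ, O, z), by rw [hfx]; exact h1.par, h2, h3⟩
  obtain ⟨h1, h2, h3⟩ := h.choose_spec
  set θ := h.choose.1 with hθ
  set O := h.choose.2.1 with hO
  set z := h.choose.2.2 with hz
  have hc : ContinuousOn θ O := h1.hol.continuousOn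
  have hU : IsOpen (O ∩ θ ⁻¹' {y | y ≠ 0 ∧ nsq y < r ^ 2}) := by
    refine hc.isOpen_inter_preimage h1.isOpen ?_
    exact IsOpen.inter isOpen_compl_singleton (isOpen_lt continuous_nsq3 continuous_const)
  have hP : PE f 0 r θ (O ∩ θ ⁻¹' {y | y ≠ 0 ∧ nsq y < r ^ 2}) :=
    ⟨⟨hU, h1.hol.mono inter_subset_left, fun w hw => by rw [h1.lvl w hw.1, hfx],
      fun w hw => h1.imm w hw.1⟩, fun w hw => hw.2.1, fun w hw => hw.2.2⟩
  have hz' : z ∈ O ∩ θ ⁻¹' {y | y ≠ 0 ∧ nsq y < r ^ 2} :=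
    ⟨h2, by rw [mem_preimage, h3]; exact ⟨hx0, hr⟩⟩
  refine ⟨θ, O ∩ θ ⁻¹' {y | y ≠ 0 ∧ nsq y < r ^ 2}, z, hP, hz', h3, ?_, fun D => ?_⟩
  · exact Loc_835.eta2a_pos hP.par hz' (by rw [h3]; exact hL.sm x hx0 hr hfx)
  · unfold dns
    rw [dif_pos h]


section fxs

variable {S : Frm} {a b : E3 → ℝ} {x : E3}

theorem cH_add' {u v : Cn 2 → ℝ} {z : Cn 2} (hu : ContDiffAt ℝ ∞ u z) (hv : ContDiffAt ℝ ∞ v z) :
    cH (fun w => u w + v w) z = cH u z + cH v z := by
  rw [Crest.Agent.R273.YauMax_635.cH_eq_hess hu, Crest.Agent.R273.YauMax_635.cH_eq_hess hv,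
    Crest.Agent.R273.YauMax_635.cH_eq_hess (hu.add hv),
    Crest.Agent.R273.HessB_333.hess_add hu hv]

theorem psd_cH {u : Cn 2 → ℝ} {z : Cn 2} (hu : ContDiffAt ℝ ∞ u z) (h : ∀ v, 0 ≤ lev u z v) :
    (cH u z).PosSemidef := by
  rw [Crest.Agent.R273.YauMax_635.cH_eq_hess hu]
  exact Crest.Agent.R273.HessB_333.posSemidef_hess hu h

theorem fx_add (hL : LvlOK f 0 r) (ha : SmL f 0 r a) (hb : SmL f 0 r b) (hx : x ∈ Lv f r) :
    fx f S (fun y => a y + b y) x = fx f S a x + fx f S b x := by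
  obtain ⟨θ, O, z, h1, h2, -, -, h4⟩ := dns_cases hL hx
  unfold fx
  rw [h4, h4, h4, cH_add' (smAt ha h1 h2) (smAt hb h1 h2), C2F1_625.add_pd, Complex.add_re, add_div]

theorem fx_sub (hL : LvlOK f 0 r) (ha : SmL f 0 r a) (hb : SmL f 0 r b) (hx : x ∈ Lv f r) :
    fx f S (fun y => a y - b y) x = fx f S a x - fx f S b x := by
  obtain ⟨θ, O, z, h1, h2, -, -, h4⟩ := dns_cases hL hx
  unfold fx
  rw [h4, h4, h4, cH_sub (smAt ha h1 h2) (smAt hb h1 h2), C2F1_625.sub_pd, Complex.sub_re, sub_div]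

theorem fx_mul (hL : LvlOK f 0 r) (ha : SmL f 0 r a) (c : ℝ) (hx : x ∈ Lv f r) :
    fx f S (fun y => c * a y) x = c * fx f S a x := by
  obtain ⟨θ, O, z, h1, h2, -, -, h4⟩ := dns_cases hL hx
  unfold fx
  rw [h4, h4, KEl_835.cH_mul ((smAt ha h1 h2).of_le two_le_inf), C2F1_625.smul_pd,
    Complex.re_ofReal_mul, mul_div_assoc]

theorem fx_congr (hL : LvlOK f 0 r) (hx : x ∈ Lv f r)
    (h : ∀ θ O, PE f 0 r θ O → ∀ z ∈ O, θ z = x → ∀ᶠ y in 𝓝 z, a (θ y) = b (θ y)) :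
    fx f S a x = fx f S b x := by
  obtain ⟨θ, O, z, h1, h2, h3, -, h4⟩ := dns_cases hL hx
  unfold fx
  rw [h4, h4, KEl_835.cH_congr (h θ O h1 z h2 h3)]

theorem fx_const (hL : LvlOK f 0 r) (hx : x ∈ Lv f r) {c : ℝ}
    (h : ∀ θ O, PE f 0 r θ O → ∀ z ∈ O, θ z = x → ∀ᶠ y in 𝓝 z, a (θ y) = c) :
    fx f S a x = 0 := by
  obtain ⟨θ, O, z, h1, h2, h3, -, h4⟩ := dns_cases hL hx
  unfold fx
  rw [h4, KEl_835.cH_congr (h θ O h1 z h2 h3)]
  have h5 : cH (fun _ : Cn 2 => c) z = 0 := by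
    ext i j
    simp [cH, Crest.Agent.R273.YauDefs_635.D2]
  rw [h5]
  simp [pd]

/-- near a point of the level, a property that holds near `x` in the ambient space -/
theorem ev_pe {p : E3 → Prop} (h : ∀ᶠ y in 𝓝 x, p y) {θ : Cn 2 → E3} {O : Set (Cn 2)}
    (hP : PE f 0 r θ O) {z : Cn 2} (hz : z ∈ O) (hx : θ z = x) : ∀ᶠ y in 𝓝 z, p (θ y) := by
  have h1 : Tendsto θ (𝓝 z) (𝓝 x) := by
    have := ((pe_contOn hP).continuousAt (hP.par.isOpen.mem_nhds hz)).tendsto
    rwa [hx] at this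
  exact h1.eventually h

theorem fx_nonneg (hL : LvlOK f 0 r) (hS : Psd f r S) (ha : SmL f 0 r a) (hx : x ∈ Lv f r)
    (h : ∀ θ O, PE f 0 r θ O → ∀ z ∈ O, θ z = x → ∀ v, 0 ≤ lev (fun y => a (θ y)) z v) :
    0 ≤ fx f S a x := by
  obtain ⟨θ, O, z, h1, h2, h3, h5, h4⟩ := dns_cases hL hx
  unfold fx
  rw [h4]
  exact div_nonneg (GBLcut_844.pd_nonneg (psd_cH (smAt ha h1 h2) (h θ O h1 z h2 h3))
    (hS θ O h1 z h2)) h5.le

theorem fx_abs_le (hL : LvlOK f 0 r) (hS : Psd f r S) (ha : SmL f 0 r a) (hb : SmL f 0 r b)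
    (hx : x ∈ Lv f r) {c : ℝ}
    (h : ∀ θ O, PE f 0 r θ O → ∀ z ∈ O, θ z = x → ∀ v,
      |lev (fun y => a (θ y)) z v| ≤ c * lev (fun y => b (θ y)) z v) :
    |fx f S a x| ≤ c * fx f S b x := by
  obtain ⟨θ, O, z, h1, h2, h3, h5, h4⟩ := dns_cases hL hx
  unfold fx
  rw [h4, h4]
  have ha' := smAt ha h1 h2
  have hb' := smAt hb h1 h2
  have h6 := GBLcut_844.psd_of_lev (c := c) ha' hb' fun v => by
    have := h θ O h1 z h2 h3 v
    rw [lev333_eq_lev145, lev333_eq_lev145, abs_mul, abs_of_pos (by norm_num : (0:ℝ) < 4)] at this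
    linarith
  rw [← Crest.Agent.R273.YauMax_635.cH_eq_hess ha', ← Crest.Agent.R273.YauMax_635.cH_eq_hess hb']
    at h6
  have e1 := GBLcut_844.pd_nonneg h6.1 (hS θ O h1 z h2)
  have e2 := GBLcut_844.pd_nonneg h6.2 (hS θ O h1 z h2)
  rw [C2F1_625.sub_pd, C2F1_625.smul_pd, Complex.sub_re, Complex.re_ofReal_mul] at e1
  rw [C2F1_625.add_pd, C2F1_625.smul_pd, Complex.add_re, Complex.re_ofReal_mul] at e2
  rw [abs_div, abs_of_pos h5, ← mul_div_assoc]
  exact div_le_div_of_nonneg_right (abs_le.2 ⟨by linarith, by linarith⟩) h5.le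

end fxs


/-! ### the convex cut-off function -/

/-- `1` on `(-∞, 1/2]`, `0` on `[1, ∞)`, decreasing -/
def gg (t : ℝ) : ℝ := Real.smoothTransition (2 - 2 * t)

theorem gg_sm : ContDiff ℝ ∞ gg :=
  Real.smoothTransition.contDiff.comp (contDiff_const.sub (contDiff_const.mul contDiff_id))

theorem gg_nonneg (t : ℝ) : 0 ≤ gg t := Real.smoothTransition.nonneg _

theorem gg_one {t : ℝ} (h : t ≤ 1 / 2) : gg t = 1 :=
  Real.smoothTransition.one_of_one_le (by linarith)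

theorem gg_zero {t : ℝ} (h : 1 ≤ t) : gg t = 0 :=
  Real.smoothTransition.zero_of_nonpos (by linarith)

theorem gg_anti : Antitone gg := fun a b h =>
  Real.smoothTransition.monotone (by linarith : 2 - 2 * b ≤ 2 - 2 * a)

theorem dgg_nonpos (t : ℝ) : deriv gg t ≤ 0 := gg_anti.deriv_nonpos

theorem hasDerivAt_gg (t : ℝ) : HasDerivAt gg (deriv gg t) t :=
  ((gg_sm.differentiable (by simp)) t).hasDerivAt

/-- not normalised -/
def cv0 (t : ℝ) : ℝ := ∫ τ in t..1, gg τ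

theorem gg_ii (a b : ℝ) : IntervalIntegrable gg volume a b := gg_sm.continuous.intervalIntegrable a b

theorem hasDerivAt_cv0 (t : ℝ) : HasDerivAt cv0 (-gg t) t :=
  intervalIntegral.integral_hasDerivAt_left (gg_ii t 1)
    (gg_sm.continuous.stronglyMeasurableAtFilter _ _) gg_sm.continuous.continuousAt

theorem cv0_sm : ContDiff ℝ ∞ cv0 := by
  rw [contDiff_infty_iff_deriv]
  refine ⟨fun t => (hasDerivAt_cv0 t).differentiableAt, ?_⟩
  have h : deriv cv0 = fun t => -gg t := funext fun t => (hasDerivAt_cv0 t).deriv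
  rw [h]
  exact gg_sm.neg

theorem cv0_zero {t : ℝ} (h : 1 ≤ t) : cv0 t = 0 := by
  unfold cv0
  rw [intervalIntegral.integral_symm, neg_eq_zero]
  have h1 : ∫ τ in (1:ℝ)..t, gg τ = ∫ τ in (1:ℝ)..t, (0 : ℝ) := by
    refine intervalIntegral.integral_congr fun τ hτ => ?_
    rw [uIcc_of_le h] at hτ
    exact gg_zero hτ.1
  rw [h1, intervalIntegral.integral_zero]

theorem cv0_anti : Antitone cv0 :=
  antitone_of_deriv_nonpos (fun t => (hasDerivAt_cv0 t).differentiableAt) fun t => by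
    rw [(hasDerivAt_cv0 t).deriv]
    exact neg_nonpos.2 (gg_nonneg t)

theorem cv0_nonneg (t : ℝ) : 0 ≤ cv0 t := by
  have h := cv0_anti (le_max_left t 1)
  rwa [cv0_zero (le_max_right t 1)] at h

theorem cv0_aff {t : ℝ} (h : t ≤ 1 / 2) : cv0 t = cv0 (1 / 2) + (1 / 2 - t) := by
  unfold cv0
  rw [← intervalIntegral.integral_add_adjacent_intervals (gg_ii t (1 / 2)) (gg_ii (1 / 2) 1)]
  have h1 : ∫ τ in t..(1 / 2), gg τ = ∫ τ in t..(1 / 2), (1 : ℝ) := by
    refine intervalIntegral.integral_congr fun τ hτ => ?_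
    rw [uIcc_of_le h] at hτ
    exact gg_one hτ.2
  rw [h1]
  simp only [intervalIntegral.integral_const, smul_eq_mul, mul_one]
  ring

theorem cv0_pos : 0 < cv0 0 := by
  rw [cv0_aff (by norm_num)]
  have := cv0_nonneg (1 / 2)
  linarith

/-- the slope at the beginning -/
def sc : ℝ := (cv0 0)⁻¹

theorem sc_pos : 0 < sc := inv_pos.2 cv0_pos

/-- convex, decreasing, `1 - sc t` on `(-∞, 1/2]`, `0` on `[1, ∞)` -/
def cv (t : ℝ) : ℝ := sc * cv0 t

theorem cv_sm : ContDiff ℝ ∞ cv := contDiff_const.mul cv0_sm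

theorem cv_nonneg (t : ℝ) : 0 ≤ cv t := mul_nonneg sc_pos.le (cv0_nonneg t)

theorem cv_zero {t : ℝ} (h : 1 ≤ t) : cv t = 0 := by rw [cv, cv0_zero h, mul_zero]

theorem cv_anti : Antitone cv := fun _ _ h => mul_le_mul_of_nonneg_left (cv0_anti h) sc_pos.le

theorem cv_aff {t : ℝ} (h : t ≤ 1 / 2) : cv t = 1 - sc * t := by
  have h1 : sc * cv0 0 = 1 := inv_mul_cancel₀ cv0_pos.ne'
  rw [cv0_aff (by norm_num)] at h1
  rw [cv, cv0_aff h]
  linarith

theorem cv_le_one {t : ℝ} (h : 0 ≤ t) : cv t ≤ 1 := by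
  have := cv_anti h
  rwa [cv_aff (by norm_num : (0:ℝ) ≤ 1 / 2), mul_zero, sub_zero] at this

theorem hasDerivAt_cv (t : ℝ) : HasDerivAt cv (-(sc * gg t)) t := by
  have := (hasDerivAt_cv0 t).const_mul sc
  rwa [mul_neg] at this

section lv

variable {u : Cn 2 → ℝ} {z : Cn 2} {A j : ℝ}

/-- the convex cut-off functions have non-negative Levi form -/
theorem lev_cv_nonneg (hj : 0 < j) (hu : ContDiffAt ℝ ∞ u z) (h0 : ∀ v, 0 ≤ lev u z v) (v : Cn 2) :
    0 ≤ lev (fun y => cv ((A - u y) / j)) z v := by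
  have h1 : ∀ t, HasDerivAt (fun t => cv ((A - t) / j)) (sc * gg ((A - t) / j) / j) t := by
    intro t
    have h2 : HasDerivAt (fun t => (A - t) / j) (-1 / j) t := by
      simpa using ((hasDerivAt_id t).const_sub A).div_const j
    have h3 := (hasDerivAt_cv ((A - t) / j)).comp t h2
    refine h3.congr_deriv ?_
    ring
  have h2 : HasDerivAt (fun t => sc * gg ((A - t) / j) / j)
      (-(sc * deriv gg ((A - u z) / j) / j ^ 2)) (u z) := by
    have h2 : HasDerivAt (fun t => (A - t) / j) (-1 / j) (u z) := by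
      simpa using ((hasDerivAt_id (u z)).const_sub A).div_const j
    have h3 := (((hasDerivAt_gg ((A - u z) / j)).comp (u z) h2).const_mul sc).div_const j
    refine h3.congr_deriv ?_
    field_simp
  rw [lev333_eq_lev145]
  have h3 := Crest.Agent.R273.Levi_145.lev_comp_real (χ := fun t => cv ((A - t) / j))
    (χ' := fun t => sc * gg ((A - t) / j) / j) (hu.of_le two_le_inf)
    (Eventually.of_forall h1) h2 v
  have h4 := h0 v
  rw [lev333_eq_lev145] at h4
  rw [h3]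
  have h5 : 0 ≤ -(sc * deriv gg ((A - u z) / j) / j ^ 2) := by
    have := dgg_nonpos ((A - u z) / j)
    have h6 : 0 ≤ sc * (-deriv gg ((A - u z) / j)) / j ^ 2 :=
      div_nonneg (mul_nonneg sc_pos.le (by linarith)) (by positivity)
    have h7 : sc * (-deriv gg ((A - u z) / j)) / j ^ 2 =
      -(sc * deriv gg ((A - u z) / j) / j ^ 2) := by ring
    rwa [h7] at h6
  have h6 : 0 ≤ sc * gg ((A - u z) / j) / j :=
    div_nonneg (mul_nonneg sc_pos.le (gg_nonneg _)) hj.le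
  have h7 : 0 ≤ Crest.Agent.R273.Levi_145.lev u z v := by linarith
  positivity

open Crest.Agent.R257.GBLcut_844 in
/-- the cut-off functions `chi (log (A - u)) j` -/
theorem lev_chi_rho_le {C : ℝ} (hj : 1 ≤ j) (hu : ContDiffAt ℝ ∞ u z) (hA : u z + 1 ≤ A)
    (h0 : ∀ v, 0 ≤ lev u z v)
    (hC : ∀ v, (fderiv ℝ u z v) ^ 2 ≤ C * (A - u z) ^ 2 * lev u z v) (v : Cn 2) :
    |lev (fun y => chi (GradB_537.rho A u) j y) z v| ≤ cK * (2 * C + 1) / j * lev u z v := by
  have hA' : u z < A := by linarith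
  have hl : ∀ v, 0 ≤ Crest.Agent.R273.Levi_145.lev u z v := fun v => by
    have := h0 v
    rw [lev333_eq_lev145] at this
    linarith
  have hI : lev u z (Complex.I • v) = lev u z v := by
    rw [lev333_eq_lev145, lev333_eq_lev145,
      Crest.Agent.R273.Levi_145.lev_smul (hu.of_le two_le_inf)]
    simp
  have hg : ‖Crest.Agent.R273.Levi_145.gr u z v‖ ^ 2 ≤
      (2 * C) * ((A - u z) ^ 2 * Crest.Agent.R273.Levi_145.lev u z v) := by
    rw [Crest.Agent.R273.Levi_145.norm_gr_sq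
      (Crest.Agent.R273.Levi_145.c2_diff (hu.of_le two_le_inf))]
    have h1 := hC v
    have h2 := hC (Complex.I • v)
    rw [hI] at h2
    rw [lev333_eq_lev145] at h1 h2
    linarith
  have h3 := lev_chi_le (x := z) (ρ := GradB_537.rho A u) hj
    ((GradB_537.sm_rho hu hA').of_le two_le_inf)
    (v := v) (C := 2 * C + 1) (L := Crest.Agent.R273.Levi_145.lev u z v)
    (by
      have := GradB_537.gr_rho_le
        (Crest.Agent.R273.Levi_145.c2_diff (hu.of_le two_le_inf)) hA' v hg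
      have := hl v
      linarith)
    (GradB_537.lev_rho_le (hu.of_le two_le_inf) hA v (hl v) hg)
  rw [lev333_eq_lev145, lev333_eq_lev145, abs_mul, abs_of_pos (by norm_num : (0:ℝ) < 4)]
  have h4 : |Crest.Agent.R273.Levi_145.lev (fun y => chi (GradB_537.rho A u) j y) z v| ≤
      cK * (2 * C + 1) / j * Crest.Agent.R273.Levi_145.lev u z v := by
    refine h3.trans ?_
    have hC0 : 0 ≤ (2 * C + 1) * Crest.Agent.R273.Levi_145.lev u z v := by
      have := (sq_nonneg _).trans hg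
      have h5 : 0 < (A - u z) ^ 2 := by
        have : 0 < A - u z := by linarith
        positivity
      have h6 : 0 ≤ 2 * C * Crest.Agent.R273.Levi_145.lev u z v := by
        have h7 : 0 ≤ (A - u z) ^ 2 * (2 * C * Crest.Agent.R273.Levi_145.lev u z v) := by
          linarith
        exact (mul_nonneg_iff_of_pos_left h5).1 h7
      have := hl v
      linarith
    have h5 : kap (GradB_537.rho A u z / j) ^ 2 ≤ 1 :=
      pow_le_one₀ (kap_nonneg _) (kap_le_one _)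
    have h6 : 0 ≤ cK / j * ((2 * C + 1) * Crest.Agent.R273.Levi_145.lev u z v) :=
      mul_nonneg (div_nonneg cK_nonneg (by linarith)) hC0
    calc _ = cK / j * ((2 * C + 1) * Crest.Agent.R273.Levi_145.lev u z v) *
          kap (GradB_537.rho A u z / j) ^ 2 := by ring
      _ ≤ cK / j * ((2 * C + 1) * Crest.Agent.R273.Levi_145.lev u z v) * 1 :=
          mul_le_mul_of_nonneg_left h5 h6
      _ = _ := by ring
  linarith

end lv

end Crest.Agent.R257.LossA_625
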