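import Crest.Agent.R257.C2F5_335
import Crest.Agent.R273.GreenM_5

/-!
# R257 (S0395), part (GB) (helper335): `c2`, `bb`, `ddm` on a complex surface

`A : Atl n M` (not necessarily compact).
* `Tr A i j`  : the coordinate change; `rdM A i S` : reading of a matrix valued function in chart `i`
* `ddm_dn`    : `ddm` of a tensor of type `(1,1)` is a density
* `HB A`      : Hermitian holomorphic bundle of rank `κ` (metric matrices `H`, transitions `F`)
* `HB.c2_dn`  : `c2` is a density (rank 2, n = 2)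
* `HB.bb_tn`  : the second fundamental form of a section is a tensor
* `HB.ric_tn` : the trace of the curvature is a tensor
-/

set_option autoImplicit false
set_option linter.unusedSectionVars false
set_option linter.unusedSimpArgs false

open Set Finset Matrix Complex Filter Topology
open scoped ContDiff ComplexConjugate ComplexOrder

namespace Crest.Agent.R257.C2F6_335

open Crest.Agent.R275 Crest.Agent.R275.Geo Crest.Agent.R275.Core144 Crest.Agent.R275.EDR890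
open Crest.Agent.R275.SerG398 (dens)
open Crest.Agent.R273.GreenM_5
open Crest.Agent.R273.Fock_243 Crest.Agent.R273.Calc_243
open Crest.Agent.R273.Bkn_243 Crest.Agent.R273.Pos_243 Crest.Agent.R273.BochA_101
open Crest.Agent.R273.BochB_101
open Crest.Agent.R273.BochC_101 Crest.Agent.R273.BochD_101
open Crest.Agent.R273.Hess_333 Crest.Agent.R273.HessB_333 Crest.Agent.R273.Kah_333
open Crest.Agent.R257.C2F1_625 Crest.Agent.R257.C2F2_625 Crest.Agent.R257.C2F3_625
open Crest.Agent.R257.C2F4_335 Crest.Agent.R257.C2F5_335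

noncomputable section

variable {n : ℕ} {M : Type} [TopologicalSpace M] {A : Atl n M}

/-- coordinate change -/
def Tr (A : Atl n M) (i j : A.ι) (w : Cn n) : Cn n := A.e j ((A.e i).symm w)

/-- reading in chart `i` -/
def rdM {W : Type*} (A : Atl n M) (i : A.ι) (S : M → W) (z : Cn n) : W := S ((A.e i).symm z)

theorem Jac_Tr (i j : A.ι) (x : M) : Jac (Tr A i j) (A.e i x) = Jm A i j x := rfl

theorem Tr_at {i j : A.ι} {x : M} (hx : x ∈ (A.e i).source) : Tr A i j (A.e i x) = A.e j x := by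
  unfold Tr
  rw [(A.e i).left_inv hx]

theorem ev_ov {i j : A.ι} {x : M} (hx : x ∈ (A.e i).source ∩ (A.e j).source) :
    ∀ᶠ z in 𝓝 (A.e i x), z ∈ A.ov i j := (isOpen_ov i j).mem_nhds (mem_ov hx)

theorem Tr_hol {i j : A.ι} {x : M} (hx : x ∈ (A.e i).source ∩ (A.e j).source) :
    ∀ᶠ z in 𝓝 (A.e i x), DifferentiableAt ℂ (Tr A i j) z := by
  filter_upwards [ev_ov hx] with w hw
  exact (A.holo i j).differentiableAt ((isOpen_ov i j).mem_nhds hw)

/-- readings in different charts -/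
theorem rdM_tr {W : Type*} {i j : A.ι} {x : M} (hx : x ∈ (A.e i).source ∩ (A.e j).source)
    (S : M → W) : rdM A i S =ᶠ[𝓝 (A.e i x)] fun z => rdM A j S (Tr A i j z) := by
  filter_upwards [ev_ov hx] with z hz
  unfold rdM Tr
  rw [(A.e j).left_inv hz.2]

theorem rdM_at {W : Type*} {i : A.ι} {x : M} (hx : x ∈ (A.e i).source) (S : M → W) :
    rdM A i S (A.e i x) = S x := by
  unfold rdM
  rw [(A.e i).left_inv hx]

theorem sm_rdM {i : A.ι} {f : M → ℂ} (hf : A.SmAt i f) {x : M} (hx : x ∈ (A.e i).source) :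
    Sm (A.e i x) (rdM A i f) :=
  (show ContDiffOn ℝ ∞ (fun z => f ((A.e i).symm z)) (A.e i).target from hf).contDiffAt
    ((A.e i).open_target.mem_nhds ((A.e i).map_source hx))

theorem smM_rdM {κ ρ : Type} {i : A.ι} {S : M → Matrix κ ρ ℂ}
    (hS : ∀ a b, A.SmAt i (fun x => S x a b)) {x : M} (hx : x ∈ (A.e i).source) :
    SmM (A.e i x) (rdM A i S) := fun a b => sm_rdM (f := fun x => S x a b) (hS a b) hx

theorem evSmM_rdM {κ ρ : Type} {i : A.ι} {S : M → Matrix κ ρ ℂ}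
    (hS : ∀ a b, A.SmAt i (fun x => S x a b)) {z : Cn n} (hz : z ∈ (A.e i).target) :
    SmM z (rdM A i S) := by
  have h := smM_rdM hS ((A.e i).map_target hz)
  rwa [(A.e i).right_inv hz] at h

/-- a tensor of type `(1,1)` in terms of readings -/
theorem tn_read {S : A.ι → M → Matrix (Fin n) (Fin n) ℂ} (hS : Tn A S) {i j : A.ι} {x : M}
    (hx : x ∈ (A.e i).source ∩ (A.e j).source) :
    rdM A i (S i) =ᶠ[𝓝 (A.e i x)] pbk (Tr A i j) (rdM A j (S j)) := by
  filter_upwards [ev_ov hx] with z hz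
  have hz' : (A.e i).symm z ∈ (A.e i).source ∩ (A.e j).source := ⟨(A.e i).map_target hz.1, hz.2⟩
  have h1 := hS i j ((A.e i).symm z) hz'
  have h2 : Jm A i j ((A.e i).symm z) = Jac (Tr A i j) z := by
    rw [← Jac_Tr, (A.e i).right_inv hz.1]
  unfold pbk rdM
  rw [h1, h2]
  unfold Tr
  rw [(A.e j).left_inv hz.2]

/-- a real valued function which is smooth at the chart `j` only -/
theorem hess_tr' {f : M → ℝ} {i j : A.ι} {x : M} (hx : x ∈ (A.e i).source ∩ (A.e j).source)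
    (hf : ContDiffAt ℝ ∞ (rdM A j f) (A.e j x)) :
    hess (rdM A i f) (A.e i x) = (Jm A i j x)ᵀ * hess (rdM A j f) (A.e j x) *
      (Jm A i j x).map conj := by
  rw [hess_congr (rdM_tr hx f), hess_comp' (u := rdM A j f) (by rwa [Tr_at hx.1]) (Tr_hol hx)]
  unfold pbk
  rw [Jac_Tr, Tr_at hx.1]

section

variable {A : Atl 2 M}

/-- `ddm` of a tensor is a density, pointwise version -/
theorem ddm_tr {S : A.ι → M → Matrix (Fin 2) (Fin 2) ℂ} (hS : Tn A S) {i j : A.ι} {x : M}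
    (hx : x ∈ (A.e i).source ∩ (A.e j).source) (hs : ∀ a b, Sm (A.e j x) (rdM A j fun y => S j y a b)) :
    ddm (rdM A i (S i)) (A.e i x) = dens A i j x * ddm (rdM A j (S j)) (A.e j x) := by
  rw [ddm_congr (tn_read hS hx), ddm_comp (b := rdM A j (S j)) (T := Tr A i j)
    (fun a b => by rw [Tr_at hx.1]; exact hs a b) (Tr_hol hx), Jac_Tr, Tr_at hx.1, dens_Jm]

/-- `ddm` of a tensor -/
def ddD (A : Atl 2 M) (S : A.ι → M → Matrix (Fin 2) (Fin 2) ℂ) (i : A.ι) (x : M) : ℂ :=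
  ddm (rdM A i (S i)) (A.e i x)

theorem ddm_dn {S : A.ι → M → Matrix (Fin 2) (Fin 2) ℂ} (hS : Tn A S)
    (hs : ∀ i a b, A.SmAt i (fun x => S i x a b)) : Dn A (ddD A S) := fun _ j _ hx =>
  ddm_tr hS hx fun a b => sm_rdM (hs j a b) hx.2

theorem pd_dn {S S' : A.ι → M → Matrix (Fin 2) (Fin 2) ℂ} (hS : Tn A S) (hS' : Tn A S') :
    Dn A (fun i x => pd (S i x) (S' i x)) := by
  intro i j x hx
  change pd (S i x) (S' i x) = _
  rw [hS i j x hx, hS' i j x hx, pd_mul, Matrix.det_transpose, det_mc, dens_Jm]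

end

/-! ### Hermitian holomorphic bundles -/

/-- a Hermitian holomorphic bundle: metric matrices and transition matrices -/
structure HB (A : Atl n M) (κ : Type) [Fintype κ] [DecidableEq κ] where
  H : A.ι → M → Matrix κ κ ℂ
  F : A.ι → A.ι → M → Matrix κ κ ℂ
  sm : ∀ i a b, A.SmAt i (fun x => H i x a b)
  pos : ∀ i, ∀ x ∈ (A.e i).source, (H i x).PosDef
  hol : ∀ i j a b, DifferentiableOn ℂ (fun z => F i j ((A.e i).symm z) a b) (A.ov i j)
  det_ne : ∀ i j, ∀ x ∈ (A.e i).source ∩ (A.e j).source, (F i j x).det ≠ 0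
  tr : ∀ i j, ∀ x ∈ (A.e i).source ∩ (A.e j).source, H i x = (F i j x)ᴴ * H j x * F i j x

namespace HB

variable {κ : Type} [Fintype κ] [DecidableEq κ] (E : HB A κ)

theorem H_det_ne {i : A.ι} {x : M} (hx : x ∈ (A.e i).source) : (E.H i x).det ≠ 0 :=
  (E.pos i x hx).det_pos.ne'

theorem H_sm {i : A.ι} {x : M} (hx : x ∈ (A.e i).source) : SmM (A.e i x) (rdM A i (E.H i)) :=
  smM_rdM (E.sm i) hx

theorem H_smE {i : A.ι} {x : M} (hx : x ∈ (A.e i).source) :
    ∀ᶠ y in 𝓝 (A.e i x), SmM y (rdM A i (E.H i)) := by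
  filter_upwards [(A.e i).open_target.mem_nhds ((A.e i).map_source hx)] with y hy
  exact evSmM_rdM (E.sm i) hy

theorem F_hol {i j : A.ι} {x : M} (hx : x ∈ (A.e i).source ∩ (A.e j).source) :
    HolM (A.e i x) (rdM A i (E.F i j)) := by
  intro a b
  filter_upwards [ev_ov hx] with z hz
  exact (E.hol i j a b).differentiableAt ((isOpen_ov i j).mem_nhds hz)

theorem H_read {i j : A.ι} {x : M} (hx : x ∈ (A.e i).source ∩ (A.e j).source) :
    rdM A i (E.H i) =ᶠ[𝓝 (A.e i x)] fun z => (rdM A i (E.F i j) z)ᴴ *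
      rdM A j (E.H j) (Tr A i j z) * rdM A i (E.F i j) z := by
  filter_upwards [ev_ov hx] with z hz
  have hz' : (A.e i).symm z ∈ (A.e i).source ∩ (A.e j).source := ⟨(A.e i).map_target hz.1, hz.2⟩
  have h1 := E.tr i j ((A.e i).symm z) hz'
  unfold rdM Tr
  rw [h1, (A.e j).left_inv hz.2]

/-- the metric of chart `j` read in chart `i` -/
theorem HT_smE {i j : A.ι} {x : M} (hx : x ∈ (A.e i).source ∩ (A.e j).source) :
    ∀ᶠ y in 𝓝 (A.e i x), SmM y (fun z => rdM A j (E.H j) (Tr A i j z)) := by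
  filter_upwards [ev_ov hx] with y hy a b
  have hy' : (A.e i).symm y ∈ (A.e i).source ∩ (A.e j).source := ⟨(A.e i).map_target hy.1, hy.2⟩
  have h1 : SmM (Tr A i j y) (rdM A j (E.H j)) :=
    evSmM_rdM (E.sm j) ((A.e j).map_source hy.2)
  have h2 : ∀ᶠ z in 𝓝 y, DifferentiableAt ℂ (Tr A i j) z := by
    have := Tr_hol hy'
    rwa [(A.e i).right_inv hy.1] at this
  exact (h1 a b).comp y (T_sm h2)

theorem FT_ne {i j : A.ι} {x : M} (hx : x ∈ (A.e i).source ∩ (A.e j).source) :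
    (rdM A i (E.F i j) (A.e i x)).det ≠ 0 := by
  rw [rdM_at hx.1]
  exact E.det_ne i j x hx

theorem HT_ne {i j : A.ι} {x : M} (hx : x ∈ (A.e i).source ∩ (A.e j).source) :
    (rdM A j (E.H j) (Tr A i j (A.e i x))).det ≠ 0 := by
  rw [Tr_at hx.1, rdM_at hx.2]
  exact E.H_det_ne hx.2

/-- the curvature of chart `i` in terms of the one of chart `j` -/
theorem rm_tr {i j : A.ι} {x : M} (hx : x ∈ (A.e i).source ∩ (A.e j).source) (c d : Fin n) :
    rm (rdM A i (E.H i)) (A.e i x) c d = (E.F i j x)ᴴ *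
      (∑ a, ∑ b, (Jm A i j x a c * conj (Jm A i j x b d)) • rm (rdM A j (E.H j)) (A.e j x) a b) *
      E.F i j x := by
  rw [rm_congr (E.H_read hx), rm_frame (H := fun z => rdM A j (E.H j) (Tr A i j z))
    (E.HT_smE hx) (E.HT_ne hx) (E.F_hol hx) (E.FT_ne hx), rm_comp (K := rdM A j (E.H j))
    (by rw [Tr_at hx.1]; exact E.H_sm hx.2) (Tr_hol hx), Jac_Tr, Tr_at hx.1, rdM_at hx.1]

/-- the trace of the curvature -/
def rho (i : A.ι) (x : M) : Matrix (Fin n) (Fin n) ℂ :=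
  Matrix.of (ric (rdM A i (E.H i)) (A.e i x))

theorem rho_tn : Tn A E.rho := by
  intro i j x hx
  ext c d
  have hF := E.det_ne i j x hx
  have hF' : ((E.F i j x)ᴴ).det ≠ 0 := by
    rw [Matrix.det_conjTranspose]; exact (star_ne_zero).2 hF
  have i1 : E.F i j x * (E.F i j x)⁻¹ = 1 := Matrix.mul_nonsing_inv _ (isUnit_iff_ne_zero.2 hF)
  have i2 : ((E.F i j x)ᴴ)⁻¹ * (E.F i j x)ᴴ = 1 :=
    Matrix.nonsing_inv_mul _ (isUnit_iff_ne_zero.2 hF')
  have e0 : ((Jm A i j x)ᵀ * E.rho j x * (Jm A i j x).map conj) c d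
      = ∑ a, ∑ b, (Jm A i j x a c * conj (Jm A i j x b d)) * E.rho j x a b := by
    simp only [Matrix.mul_apply, Matrix.transpose_apply, Matrix.map_apply, Finset.sum_mul]
    rw [Finset.sum_comm]
    refine Finset.sum_congr rfl fun i _ => Finset.sum_congr rfl fun j _ => ?_
    ring
  rw [e0]
  simp only [rho, Matrix.of_apply, ric]
  rw [E.rm_tr hx, rdM_at hx.1, rdM_at hx.2, E.tr i j x hx, Matrix.mul_inv_rev, Matrix.mul_inv_rev]
  have h1 : ∀ X : Matrix κ κ ℂ, ((E.F i j x)⁻¹ * ((E.H j x)⁻¹ * ((E.F i j x)ᴴ)⁻¹) *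
      ((E.F i j x)ᴴ * X * E.F i j x)).trace = ((E.H j x)⁻¹ * X).trace := by
    intro X
    have h2 : (E.F i j x)⁻¹ * ((E.H j x)⁻¹ * ((E.F i j x)ᴴ)⁻¹) *
      ((E.F i j x)ᴴ * X * E.F i j x) = (E.F i j x)⁻¹ * ((E.H j x)⁻¹ * (((E.F i j x)ᴴ)⁻¹ *
        (E.F i j x)ᴴ) * X * E.F i j x) := by
      simp only [Matrix.mul_assoc]
    rw [h2, i2, Matrix.mul_one, Matrix.trace_mul_comm, Matrix.mul_assoc, i1, Matrix.mul_one]
  rw [h1]
  simp only [Matrix.mul_sum, Matrix.trace_sum, Matrix.mul_smul, Matrix.trace_smul, smul_eq_mul]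

end HB

/-- holomorphic section of a bundle -/
structure HSec {κ : Type} [Fintype κ] [DecidableEq κ] (E : HB A κ) where
  V : A.ι → M → κ → ℂ
  hol : ∀ i a, DifferentiableOn ℂ (fun z => V i ((A.e i).symm z) a) (A.e i).target
  tr : ∀ i j, ∀ x ∈ (A.e i).source ∩ (A.e j).source, V j x = E.F i j x *ᵥ V i x

namespace HSec

variable {κ : Type} [Fintype κ] [DecidableEq κ] {E : HB A κ} (s : HSec E)

/-- `|V|²` in chart `i` -/
def nq (i : A.ι) (x : M) : ℝ := (star (s.V i x) ⬝ᵥ (E.H i x *ᵥ s.V i x)).re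

theorem nq_eq {i j : A.ι} {x : M} (hx : x ∈ (A.e i).source ∩ (A.e j).source) :
    s.nq i x = s.nq j x := by
  unfold nq
  rw [E.tr i j x hx, star_gram, s.tr i j x hx]

theorem nq_nonneg {i : A.ι} {x : M} (hx : x ∈ (A.e i).source) : 0 ≤ s.nq i x :=
  (Complex.le_def.1 ((E.pos i x hx).posSemidef.dotProduct_mulVec_nonneg (s.V i x))).1

theorem nq_pos {i : A.ι} {x : M} (hx : x ∈ (A.e i).source) (h : s.V i x ≠ 0) : 0 < s.nq i x :=
  (Complex.lt_def.1 ((E.pos i x hx).dotProduct_mulVec_pos h)).1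

/-- `|V|²` as a function -/
def nm (x : M) : ℝ := s.nq (ci A x) x

theorem nm_eq {i : A.ι} {x : M} (hx : x ∈ (A.e i).source) : s.nm x = s.nq i x :=
  s.nq_eq ⟨mem_ci x, hx⟩

theorem rdM_nm {i : A.ι} {z : Cn n} (hz : z ∈ (A.e i).target) :
    rdM A i s.nm z = hV (rdM A i (E.H i)) (rdM A i (s.V i)) z := by
  unfold rdM
  rw [s.nm_eq ((A.e i).map_target hz)]
  rfl

/-- the function `log |V|²` -/
def lam (x : M) : ℝ := Real.log (s.nm x)

theorem sm_nq {i : A.ι} {x : M} (hx : x ∈ (A.e i).source) :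
    ContDiffAt ℝ ∞ (hV (rdM A i (E.H i)) (rdM A i (s.V i))) (A.e i x) := by
  have hH := E.H_sm hx
  have hz := (A.e i).map_source hx
  have hV1 : ∀ a, Sm (A.e i x) (fun z => rdM A i (s.V i) z a) := by
    intro a
    refine sm_of_hol ?_
    filter_upwards [(A.e i).open_target.mem_nhds hz] with y hy
    exact (s.hol i a).differentiableAt ((A.e i).open_target.mem_nhds hy)
  have h1 : Sm (A.e i x) (fun z => star (rdM A i (s.V i) z) ⬝ᵥ
      (rdM A i (E.H i) z *ᵥ rdM A i (s.V i) z)) := by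
    unfold dotProduct Matrix.mulVec dotProduct
    refine ContDiffAt.sum fun a _ => ?_
    refine (conjCLE.contDiff.contDiffAt.comp _ (hV1 a)).mul (ContDiffAt.sum fun b _ => ?_)
    exact (hH a b).mul (hV1 b)
  exact Complex.reCLM.contDiff.contDiffAt.comp _ h1

theorem sm_lam {i : A.ι} {x : M} (hx : x ∈ (A.e i).source) (h : s.V i x ≠ 0) :
    ContDiffAt ℝ ∞ (fun z => Real.log (hV (rdM A i (E.H i)) (rdM A i (s.V i)) z)) (A.e i x) := by
  refine (s.sm_nq hx).log ?_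
  have h1 := s.nq_pos hx h
  have h2 : hV (rdM A i (E.H i)) (rdM A i (s.V i)) (A.e i x) = s.nq i x := by
    unfold hV
    rw [rdM_at hx, rdM_at hx]
    rfl
  rw [h2]
  exact h1.ne'

/-- the second fundamental form -/
def bbD (i : A.ι) (x : M) : Matrix (Fin n) (Fin n) ℂ :=
  bb (rdM A i (E.H i)) (rdM A i (s.V i)) (A.e i x)

theorem V_ne {i j : A.ι} {x : M} (hx : x ∈ (A.e i).source ∩ (A.e j).source) (h : s.V i x ≠ 0) :
    s.V j x ≠ 0 := by
  intro h0
  apply h
  rw [s.tr i j x hx] at h0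
  have hF := E.det_ne i j x hx
  have i1 : (E.F i j x)⁻¹ * E.F i j x = 1 := Matrix.nonsing_inv_mul _ (isUnit_iff_ne_zero.2 hF)
  calc s.V i x = ((E.F i j x)⁻¹ * E.F i j x) *ᵥ s.V i x := by rw [i1, Matrix.one_mulVec]
    _ = (E.F i j x)⁻¹ *ᵥ (E.F i j x *ᵥ s.V i x) := by rw [Matrix.mulVec_mulVec]
    _ = 0 := by rw [h0, Matrix.mulVec_zero]

theorem V_read {i j : A.ι} {x : M} (hx : x ∈ (A.e i).source ∩ (A.e j).source) :
    ∀ᶠ z in 𝓝 (A.e i x), rdM A i (E.F i j) z *ᵥ rdM A i (s.V i) z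
      = rdM A j (s.V j) (Tr A i j z) := by
  filter_upwards [ev_ov hx] with z hz
  have hz' : (A.e i).symm z ∈ (A.e i).source ∩ (A.e j).source := ⟨(A.e i).map_target hz.1, hz.2⟩
  have h1 := s.tr i j ((A.e i).symm z) hz'
  unfold rdM Tr
  rw [(A.e j).left_inv hz.2, h1]

theorem hV_congr {H H' : Cn n → Matrix κ κ ℂ} {V V' : Cn n → κ → ℂ} {z : Cn n}
    (h : H =ᶠ[𝓝 z] H') (h' : V =ᶠ[𝓝 z] V') : hV H V =ᶠ[𝓝 z] hV H' V' := by
  filter_upwards [h, h'] with y h1 h2
  unfold hV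
  rw [h1, h2]

theorem bb_congr {H H' : Cn n → Matrix κ κ ℂ} {V V' : Cn n → κ → ℂ} {z : Cn n}
    (h : H =ᶠ[𝓝 z] H') (h' : V =ᶠ[𝓝 z] V') : bb H V z = bb H' V' z := by
  have h1 := hV_congr h h'
  ext c d
  unfold bb
  simp only [Matrix.of_apply]
  have h2 : (fun w => Real.log (hV H V w)) =ᶠ[𝓝 z] fun w => Real.log (hV H' V' w) :=
    h1.mono fun y hy => by simp only [hy]
  rw [hess_congr h2, rm_congr h, h1.eq_of_nhds, h'.eq_of_nhds]

/-- `bb` is a tensor off the zeros of the section -/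
theorem bb_tr {i j : A.ι} {x : M} (hx : x ∈ (A.e i).source ∩ (A.e j).source) (h : s.V i x ≠ 0) :
    s.bbD i x = (Jm A i j x)ᵀ * s.bbD j x * (Jm A i j x).map conj := by
  unfold bbD
  have e1 : bb (rdM A i (E.H i)) (rdM A i (s.V i)) (A.e i x) =
      bb (fun z => (rdM A i (E.F i j) z)ᴴ * rdM A j (E.H j) (Tr A i j z) * rdM A i (E.F i j) z)
        (rdM A i (s.V i)) (A.e i x) := bb_congr (E.H_read hx) EventuallyEq.rfl
  have e2 : bb (fun z => (rdM A i (E.F i j) z)ᴴ * rdM A j (E.H j) (Tr A i j z) *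
      rdM A i (E.F i j) z) (rdM A i (s.V i)) (A.e i x) =
      bb (fun z => rdM A j (E.H j) (Tr A i j z))
        (fun z => rdM A i (E.F i j) z *ᵥ rdM A i (s.V i) z) (A.e i x) :=
    bb_frame (H := fun z => rdM A j (E.H j) (Tr A i j z)) (E.HT_smE hx) (E.HT_ne hx) (E.F_hol hx)
      (E.FT_ne hx)
  have e3 : bb (fun z => rdM A j (E.H j) (Tr A i j z))
        (fun z => rdM A i (E.F i j) z *ᵥ rdM A i (s.V i) z) (A.e i x) =
      bb (fun z => rdM A j (E.H j) (Tr A i j z)) (fun z => rdM A j (s.V j) (Tr A i j z))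
        (A.e i x) := bb_congr EventuallyEq.rfl (s.V_read hx)
  rw [e1, e2, e3, bb_comp (H := rdM A j (E.H j)) (V := rdM A j (s.V j)) (T := Tr A i j)
    (by rw [Tr_at hx.1]; exact E.H_sm hx.2) (Tr_hol hx)
    (by rw [Tr_at hx.1]; exact s.sm_lam hx.2 (s.V_ne hx h))]
  unfold pbk
  rw [Jac_Tr, Tr_at hx.1]

end HSec

section

variable {A : Atl 2 M} (E : HB A (Fin 2))

/-- the second Chern form -/
def HB.c2D (i : A.ι) (x : M) : ℂ := c2 (rdM A i (E.H i)) (A.e i x)

theorem HB.c2_dn : Dn A E.c2D := by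
  intro i j x hx
  change c2 (rdM A i (E.H i)) (A.e i x) = _
  rw [c2_congr (E.H_read hx), c2_frame (H := fun z => rdM A j (E.H j) (Tr A i j z))
    (E.HT_smE hx) (E.HT_ne hx) (E.F_hol hx) (E.FT_ne hx), c2_comp (H := rdM A j (E.H j))
    (by rw [Tr_at hx.1]; exact E.H_sm hx.2) (Tr_hol hx), Jac_Tr, Tr_at hx.1, dens_Jm]
  rfl

end

end

end Crest.Agent.R257.C2F6_335
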