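import Crest.Agent.R257.GBL1_625
import Crest.Agent.R257.C2F6_335

/-!
# R257 (S0395), part (GB), leaf GB-LIM (helper625): the second Chern form and a section, integrated

`A : Atl 2 M` (not compact), `E : HB A (Fin 2)`, `s : HSec E` (helper335), `U` open, `s ≠ 0` on `U`,
`θ` smooth with compact support in `U`, `Λ = log |s|²`.
* `ddm_smul_cl`  : `∂∂̄ (u T) = ∂∂̄u ∧ T` for `T` closed
* `Zf`, `Sf = Λ Z + bb`, `ddD_Sf : ∂∂̄ Sf = c2`
* `stokes_c2`    : `∫ θ c2 = ∫ ∂∂̄θ ∧ (Λ Z + bb)`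
* `stokes_lam`   : `∫ θ ∂∂̄Λ ∧ T = ∫ Λ ∂∂̄θ ∧ T` for `T` closed (`T` the Kaehler form)
-/

set_option autoImplicit false
set_option linter.unusedSectionVars false

open Set Filter Topology Complex MeasureTheory
open scoped ContDiff Matrix ComplexConjugate ComplexOrder

namespace Crest.Agent.R257.GBL2_625

open Crest.Agent.R275.Geo Crest.Agent.R275.TorS666
open Crest.Agent.R275.Tor812 hiding pd
open Crest.Agent.R275.C1d194 Crest.Agent.R275.Pai323 Crest.Agent.R275.OmT75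
open Crest.Agent.R275.SerG398 (lint dens)
open Crest.Agent.R275.EDR890
open Crest.Agent.R273.StokesV_332
open Crest.Agent.R273.Fock_243
open Crest.Agent.R273.Calc_243 hiding dj
open Crest.Agent.R273.Bkn_243 Crest.Agent.R273.Pos_243 Crest.Agent.R273.BochA_101
open Crest.Agent.R273.BochB_101 Crest.Agent.R273.BochC_101 Crest.Agent.R273.BochD_101
open Crest.Agent.R275.Core144 Crest.Agent.R273.Defs_333 Crest.Agent.R273.HM_333
open Crest.Agent.R273.Hess_333 Crest.Agent.R273.HessB_333 Crest.Agent.R273.Kah_333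
open Crest.Agent.R273.GreenM_5
open Crest.Agent.R257.C2F1_625 Crest.Agent.R257.C2F2_625
open Crest.Agent.R257.C2F5_335 Crest.Agent.R257.GBL1_625
open Crest.Agent.R257.C2F6_335 hiding ddD

noncomputable section

/-- closedness of a `(1,1)` form at a point -/
def Cl (T : Cn 2 → Matrix (Fin 2) (Fin 2) ℂ) (z : Cn 2) : Prop :=
  (∀ a b c, dS (-I) c (fun w => T w a b) z = dS (-I) a (fun w => T w c b) z) ∧
    ∀ a b c, dS I c (fun w => T w a b) z = dS I b (fun w => T w a c) z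

theorem Cl.congr {T T' : Cn 2 → Matrix (Fin 2) (Fin 2) ℂ} {z : Cn 2} (h : T =ᶠ[𝓝 z] T')
    (hT : Cl T z) : Cl T' z := by
  have h' : ∀ a b, (fun w => T w a b) =ᶠ[𝓝 z] fun w => T' w a b := fun a b =>
    h.mono fun y hy => by simp only [hy]
  refine ⟨fun a b c => ?_, fun a b c => ?_⟩
  · rw [← dS_congr (h' a b), ← dS_congr (h' c b)]; exact hT.1 a b c
  · rw [← dS_congr (h' a b), ← dS_congr (h' a c)]; exact hT.2 a b c

theorem Cl.sub {T T' : Cn 2 → Matrix (Fin 2) (Fin 2) ℂ} {z : Cn 2} (sT : SmM z T) (sT' : SmM z T')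
    (hT : Cl T z) (hT' : Cl T' z) : Cl (fun y => T y - T' y) z := by
  have e : ∀ (s : ℂ) (c a b : Fin 2), dS s c (fun w => (T w - T' w) a b) z
      = dS s c (fun w => T w a b) z - dS s c (fun w => T' w a b) z := by
    intro s c a b
    have h1 : (fun w => (T w - T' w) a b) = fun w => T w a b + - T' w a b := by
      funext w
      rw [Matrix.sub_apply, sub_eq_add_neg]
    rw [h1, dS_add (sT a b).diff (show Sm z _ from (sT' a b).neg).diff, dS_neg, sub_eq_add_neg]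
  refine ⟨fun a b c => ?_, fun a b c => ?_⟩
  · rw [e, e, hT.1 a b c, hT'.1 a b c]
  · rw [e, e, hT.2 a b c, hT'.2 a b c]

theorem Cl.neg {T : Cn 2 → Matrix (Fin 2) (Fin 2) ℂ} {z : Cn 2}
    (hT : Cl T z) : Cl (fun y => - T y) z := by
  have e : ∀ (s : ℂ) (c a b : Fin 2), dS s c (fun w => (- T w) a b) z
      = - dS s c (fun w => T w a b) z := by
    intro s c a b
    have h1 : (fun w => (- T w) a b) = fun w => - T w a b := rfl
    rw [h1, dS_neg]
  refine ⟨fun a b c => ?_, fun a b c => ?_⟩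
  · rw [e, e, hT.1 a b c]
  · rw [e, e, hT.2 a b c]

theorem hess_cl {u : Cn 2 → ℝ} {z : Cn 2} (hu : ∀ᶠ y in 𝓝 z, ContDiffAt ℝ ∞ u y) :
    Cl (hess u) z := by
  refine ⟨fun a b c => wd_hess hu.self_of_nhds a b c, fun a b c => ?_⟩
  have hz : Sm z (cu u) := contDiffAt_cu hu.self_of_nhds
  have h1 : ∀ d, (fun w => hess u w a d) =ᶠ[𝓝 z] dS I d (dS (-I) a (cu u)) := fun d => by
    filter_upwards [hu] with w hw
    rw [hess_eq u w a d]
    exact dS_comm (contDiffAt_cu hw)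
  rw [dS_congr (h1 b), dS_congr (h1 c)]
  exact dS_comm (hz.dS _ _)

/-- `∂∂̄ (u T) = ∂∂̄u ∧ T` for closed `T` -/
theorem ddm_smul_cl {u : Cn 2 → ℝ} {T : Cn 2 → Matrix (Fin 2) (Fin 2) ℂ} {z : Cn 2}
    (hu : ContDiffAt ℝ ∞ u z) (hT : SmM z T) (hc : ∀ᶠ y in 𝓝 z, Cl T y) :
    ddm (fun y => (u y : ℂ) • T y) z = pd (hess u z) (T z) := by
  have hU : Sm z (cu u) := contDiffAt_cu hu
  have e : ∀ a b c d, dS (-I) c (dS I d (fun y => ((u y : ℂ) • T y) a b)) z
      = hess u z c d * T z a b + dS I d (cu u) z * dS (-I) c (fun y => T y a b) z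
        + dS (-I) c (cu u) z * dS I d (fun y => T y a b) z
        + u z * dS (-I) c (dS I d (fun y => T y a b)) z := by
    intro a b c d
    rw [hess_eq]
    exact dS2_mul hU (hT a b) _ _ c d
  have h0 := hc.self_of_nhds
  have e1 : dS (-I) 0 (dS I 0 (fun y => T y 1 1)) z = dS (-I) 0 (dS I 1 (fun y => T y 1 0)) z :=
    dS_congr (hc.mono fun y hy => hy.2 1 1 0)
  have e2 : dS (-I) 1 (dS I 1 (fun y => T y 0 0)) z = dS (-I) 1 (dS I 0 (fun y => T y 0 1)) z :=
    dS_congr (hc.mono fun y hy => hy.2 0 0 1)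
  unfold ddm
  rw [e 1 1 0 0, e 0 0 1 1, e 1 0 0 1, e 0 1 1 0, e1, e2, h0.1 1 1 0, h0.1 0 0 1, h0.2 1 1 0,
    h0.2 0 0 1]
  unfold pd
  ring

theorem ddm_add {b b' : Cn 2 → Matrix (Fin 2) (Fin 2) ℂ} {z : Cn 2} (hb : SmM z b)
    (hb' : SmM z b') : ddm (fun y => b y + b' y) z = ddm b z + ddm b' z := by
  have e : ∀ i j c d, dS (-I) c (dS I d (fun y => (b y + b' y) i j)) z
      = dS (-I) c (dS I d (fun y => b y i j)) z + dS (-I) c (dS I d (fun y => b' y i j)) z :=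
    fun i j c d => dS2_add (hb i j) (hb' i j) _ _ c d
  unfold ddm
  rw [e, e, e, e]
  ring

theorem smM_rm {n : ℕ} {κ : Type} [Fintype κ] [DecidableEq κ] {H : Cn n → Matrix κ κ ℂ} {z : Cn n}
    (hH : SmM z H) (h0 : (H z).det ≠ 0) (c d : Fin n) : SmM z (fun y => rm H y c d) := by
  intro i j
  have h1 : SmM z (dM (-I) c (dM I d H)) := (hH.dM I d).dM (-I) c
  have h2 : SmM z (fun y => dM I d H y * (H y)⁻¹ * dM (-I) c H y) :=
    ((hH.dM I d).mul (SmM.inv hH h0)).mul (hH.dM (-I) c)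
  exact (h1 i j).neg.add (h2 i j)

theorem sm_hess {n : ℕ} {u : Cn n → ℝ} {z : Cn n} (hu : ContDiffAt ℝ ∞ u z) (a b : Fin n) :
    Sm z (fun y => hess u y a b) := by
  have h : (fun y => hess u y a b) = dS (-I) a (dS I b (cu u)) := funext fun y => hess_eq u y a b
  rw [h]
  exact Sm.dS (Sm.dS (contDiffAt_cu hu) _ _) _ _

variable {n : ℕ} {M : Type} [TopologicalSpace M] {A : Atl 2 M} {E : HB A (Fin 2)} (s : HSec E)

/-- reading of the function `log |V|²` -/
theorem lam_read {i : A.ι} {z : Cn 2} (hz : z ∈ (A.e i).target) :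
    s.lam ((A.e i).symm z) = Real.log (hV (rdM A i (E.H i)) (rdM A i (s.V i)) z) := by
  unfold HSec.lam
  rw [← s.rdM_nm hz]
  rfl

theorem lam_ev {i : A.ι} {z : Cn 2} (hz : z ∈ (A.e i).target) :
    (fun z => s.lam ((A.e i).symm z)) =ᶠ[𝓝 z]
      fun z => Real.log (hV (rdM A i (E.H i)) (rdM A i (s.V i)) z) := by
  filter_upwards [(A.e i).open_target.mem_nhds hz] with w hw
  exact lam_read s hw

/-- curvature in the direction of the section -/
def RV (i : A.ι) (x : M) : Matrix (Fin 2) (Fin 2) ℂ :=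
  Matrix.of fun c d => (star (s.V i x) ⬝ᵥ (rm (rdM A i (E.H i)) (A.e i x) c d *ᵥ s.V i x)) /
    (s.nm x : ℂ)

theorem bbD_eq {i : A.ι} {x : M} (hx : x ∈ (A.e i).source) :
    s.bbD i x = hsf A s.lam i x + RV s i x := by
  have hz := (A.e i).map_source hx
  ext c d
  unfold HSec.bbD bb hsf RV
  rw [Matrix.add_apply, Matrix.of_apply, Matrix.of_apply, hess_congr (lam_ev s hz)]
  congr 2
  · rw [rdM_at hx]
  · rw [← s.rdM_nm hz, rdM_at hx]

/-- `c_1` minus `∂∂̄ log |V|²` -/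
def Zf (i : A.ι) (x : M) : Matrix (Fin 2) (Fin 2) ℂ := - E.rho i x - hsf A s.lam i x

/-- `Λ Z + bb` -/
def Sf (i : A.ι) (x : M) : Matrix (Fin 2) (Fin 2) ℂ := (s.lam x : ℂ) • Zf s i x + s.bbD i x

theorem sm_V {i : A.ι} {z : Cn 2} (hz : z ∈ (A.e i).target) (a : Fin 2) :
    ∀ᶠ y in 𝓝 z, DifferentiableAt ℂ (fun w => rdM A i (s.V i) w a) y := by
  filter_upwards [(A.e i).open_target.mem_nhds hz] with y hy
  exact (s.hol i a).differentiableAt ((A.e i).open_target.mem_nhds hy)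

/-- `V ≠ 0` near a point -/
theorem V_ne_ev {i : A.ι} {x : M} (hx : x ∈ (A.e i).source) (h : s.V i x ≠ 0) :
    ∀ᶠ z in 𝓝 (A.e i x), rdM A i (s.V i) z ≠ 0 := by
  have hz := (A.e i).map_source hx
  obtain ⟨k, hk⟩ : ∃ k, s.V i x k ≠ 0 := by
    by_contra hcon
    push Not at hcon
    exact h (funext hcon)
  have h1 : ContinuousAt (fun w => rdM A i (s.V i) w k) (A.e i x) :=
    (sm_V s hz k).self_of_nhds.continuousAt
  have h2 : rdM A i (s.V i) (A.e i x) k ≠ 0 := by rwa [rdM_at hx]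
  filter_upwards [h1.eventually_ne h2] with z hz' h0
  exact hz' (by rw [h0]; rfl)

theorem sm_lam_ev {i : A.ι} {x : M} (hx : x ∈ (A.e i).source) (h : s.V i x ≠ 0) :
    ∀ᶠ z in 𝓝 (A.e i x), ContDiffAt ℝ ∞
      (fun z => Real.log (hV (rdM A i (E.H i)) (rdM A i (s.V i)) z)) z := by
  filter_upwards [V_ne_ev s hx h, (A.e i).open_target.mem_nhds ((A.e i).map_source hx)] with z h1 h2
  have h3 := s.sm_lam ((A.e i).map_target h2) h1
  rwa [(A.e i).right_inv h2] at h3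

/-- the second fundamental form is smooth -/
theorem sm_bb {i : A.ι} {x : M} (hx : x ∈ (A.e i).source) (h : s.V i x ≠ 0) :
    SmM (A.e i x) (bb (rdM A i (E.H i)) (rdM A i (s.V i))) := by
  intro c d
  have hH := E.H_sm hx
  have hz := (A.e i).map_source hx
  have h0 : (rdM A i (E.H i) (A.e i x)).det ≠ 0 := by
    rw [rdM_at hx]; exact E.H_det_ne hx
  have hV1 : ∀ a, Sm (A.e i x) (fun z => rdM A i (s.V i) z a) := fun a => sm_of_hol (sm_V s hz a)
  have hr := smM_rm hH h0 c d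
  have e1 : Sm (A.e i x) (fun z => star (rdM A i (s.V i) z) ⬝ᵥ
      (rm (rdM A i (E.H i)) z c d *ᵥ rdM A i (s.V i) z)) := by
    unfold dotProduct Matrix.mulVec dotProduct
    refine ContDiffAt.sum fun a _ => ?_
    refine (Complex.conjCLE.contDiff.contDiffAt.comp _ (hV1 a)).mul (ContDiffAt.sum fun b _ => ?_)
    exact (hr a b).mul (hV1 b)
  have e2 : Sm (A.e i x) (fun z => ((hV (rdM A i (E.H i)) (rdM A i (s.V i)) z : ℝ) : ℂ)) :=
    contDiffAt_cu (s.sm_nq hx)
  have e3 : ((hV (rdM A i (E.H i)) (rdM A i (s.V i)) (A.e i x) : ℝ) : ℂ) ≠ 0 := by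
    rw [← s.rdM_nm hz, rdM_at hx, s.nm_eq hx]
    exact Complex.ofReal_ne_zero.2 (s.nq_pos hx h).ne'
  refine (sm_hess (s.sm_lam hx h) c d).add ?_
  simp only [div_eq_mul_inv]
  exact e1.mul (e2.inv e3)

/-- `- rho` is the Hessian of `log det H` -/
theorem rho_read {i : A.ι} {z : Cn 2} (hz : z ∈ (A.e i).target) :
    - E.rho i ((A.e i).symm z) = hess (fun y => Real.log (rdM A i (E.H i) y).det.re) z := by
  have hx := (A.e i).map_target hz
  have hH : SmM z (rdM A i (E.H i)) := evSmM_rdM (E.sm i) hz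
  have hp : ∀ᶠ y in 𝓝 z, (rdM A i (E.H i) y).PosDef := by
    filter_upwards [(A.e i).open_target.mem_nhds hz] with y hy
    exact E.pos i _ ((A.e i).map_target hy)
  have hh : ∀ᶠ y in 𝓝 z, (rdM A i (E.H i) y).IsHermitian := hp.mono fun y hy => hy.isHermitian
  have h0 : 0 < (rdM A i (E.H i) z).det.re := det_re_pos'' hp.self_of_nhds
  have hu : ContDiffAt ℝ ∞ (fun y => Real.log (rdM A i (E.H i) y).det.re) z :=
    (Complex.reCLM.contDiff.contDiffAt.comp z (SmM.det hH)).log h0.ne'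
  ext a b
  have h1 := hess_neg_log_det hH hh h0 a b
  rw [hess_neg hu, Matrix.neg_apply] at h1
  have h2 : E.rho i ((A.e i).symm z) a b = ric (rdM A i (E.H i)) z a b := by
    unfold HB.rho
    rw [Matrix.of_apply, (A.e i).right_inv hz]
  rw [Matrix.neg_apply, h2, ← h1, neg_neg]

theorem sm_logdet {i : A.ι} {z : Cn 2} (hz : z ∈ (A.e i).target) :
    ContDiffAt ℝ ∞ (fun y => Real.log (rdM A i (E.H i) y).det.re) z := by
  have hH : SmM z (rdM A i (E.H i)) := evSmM_rdM (E.sm i) hz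
  have h0 : 0 < (rdM A i (E.H i) z).det.re :=
    det_re_pos'' (E.pos i _ ((A.e i).map_target hz))
  exact (Complex.reCLM.contDiff.contDiffAt.comp z (SmM.det hH)).log h0.ne'

/-- `Z` read in a chart -/
theorem Zf_read {i : A.ι} {z : Cn 2} (hz : z ∈ (A.e i).target) :
    Zf s i ((A.e i).symm z) = hess (fun y => Real.log (rdM A i (E.H i) y).det.re) z
      - hess (fun z => Real.log (hV (rdM A i (E.H i)) (rdM A i (s.V i)) z)) z := by
  unfold Zf
  rw [rho_read hz, hsf_read s.lam i hz, hess_congr (lam_ev s hz)]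

theorem Sf_read {i : A.ι} {z : Cn 2} (hz : z ∈ (A.e i).target) :
    Sf s i ((A.e i).symm z) =
      ((Real.log (hV (rdM A i (E.H i)) (rdM A i (s.V i)) z) : ℝ) : ℂ) •
        (hess (fun y => Real.log (rdM A i (E.H i) y).det.re) z
        - hess (fun z => Real.log (hV (rdM A i (E.H i)) (rdM A i (s.V i)) z)) z)
      + bb (rdM A i (E.H i)) (rdM A i (s.V i)) z := by
  unfold Sf
  rw [Zf_read s hz, lam_read s hz]
  unfold HSec.bbD
  rw [(A.e i).right_inv hz]

theorem smM_Z {i : A.ι} {x : M} (hx : x ∈ (A.e i).source) (h : s.V i x ≠ 0) :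
    SmM (A.e i x) (fun z => hess (fun y => Real.log (rdM A i (E.H i) y).det.re) z
        - hess (fun z => Real.log (hV (rdM A i (E.H i)) (rdM A i (s.V i)) z)) z) := fun a b =>
  (sm_hess (sm_logdet ((A.e i).map_source hx)) a b).sub (sm_hess (s.sm_lam hx h) a b)

/-- **`∂∂̄ (Λ Z + bb) = c2`** -/
theorem ddD_Sf {i : A.ι} {x : M} (hx : x ∈ (A.e i).source) (h : s.V i x ≠ 0) :
    ddD A (Sf s) i x = E.c2D i x := by
  have hz := (A.e i).map_source hx
  have e1 : GBL1_625.rdS A (Sf s) i =ᶠ[𝓝 (A.e i x)] fun z =>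
      ((Real.log (hV (rdM A i (E.H i)) (rdM A i (s.V i)) z) : ℝ) : ℂ) •
        (hess (fun y => Real.log (rdM A i (E.H i) y).det.re) z
        - hess (fun z => Real.log (hV (rdM A i (E.H i)) (rdM A i (s.V i)) z)) z)
      + bb (rdM A i (E.H i)) (rdM A i (s.V i)) z := by
    filter_upwards [(A.e i).open_target.mem_nhds hz] with z hz'
    exact Sf_read s hz'
  have sΛ := s.sm_lam hx h
  have sZ := smM_Z s hx h
  have s1 : SmM (A.e i x) (fun z =>
      ((Real.log (hV (rdM A i (E.H i)) (rdM A i (s.V i)) z) : ℝ) : ℂ) •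
        (hess (fun y => Real.log (rdM A i (E.H i) y).det.re) z
        - hess (fun z => Real.log (hV (rdM A i (E.H i)) (rdM A i (s.V i)) z)) z)) := fun a b =>
    (contDiffAt_cu sΛ : Sm (A.e i x) (cu _)).mul (sZ a b)
  have hcl : ∀ᶠ y in 𝓝 (A.e i x), Cl (fun z =>
      hess (fun y => Real.log (rdM A i (E.H i) y).det.re) z
        - hess (fun z => Real.log (hV (rdM A i (E.H i)) (rdM A i (s.V i)) z)) z) y := by
    have a1 : ∀ᶠ y in 𝓝 (A.e i x), ContDiffAt ℝ ∞
        (fun y => Real.log (rdM A i (E.H i) y).det.re) y := by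
      filter_upwards [(A.e i).open_target.mem_nhds hz] with y hy
      exact sm_logdet hy
    have a2 := sm_lam_ev s hx h
    filter_upwards [a1, a2, a1.eventually_nhds, a2.eventually_nhds] with y h1 h2 h3 h4
    exact Cl.sub (fun a b => sm_hess h1 a b) (fun a b => sm_hess h2 a b) (hess_cl h3) (hess_cl h4)
  show ddm (GBL1_625.rdS A (Sf s) i) (A.e i x) = _
  rw [ddm_congr e1, ddm_add s1 (sm_bb s hx h), ddm_smul_cl sΛ sZ hcl]
  unfold HB.c2D
  have hp : ∀ᶠ y in 𝓝 (A.e i x), (rdM A i (E.H i) y).PosDef := by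
    filter_upwards [(A.e i).open_target.mem_nhds hz] with y hy
    exact E.pos i _ ((A.e i).map_target hy)
  rw [c2_eq (V := rdM A i (s.V i)) (E.H_smE hx) hp (sm_V s hz) (by rwa [rdM_at hx])]

/-- the section does not vanish on `U` -/
def Nz (U : Set M) : Prop := ∀ x ∈ U, ∀ i, x ∈ (A.e i).source → s.V i x ≠ 0

variable {s} {U : Set M}

theorem sm_lam_rd {i : A.ι} {x : M} (hx : x ∈ (A.e i).source) (h : s.V i x ≠ 0) :
    ContDiffAt ℝ ∞ (rdM A i s.lam) (A.e i x) :=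
  (s.sm_lam hx h).congr_of_eventuallyEq (lam_ev s ((A.e i).map_source hx))

theorem lam_hsf_tr {i j : A.ι} {x : M} (hx : x ∈ (A.e i).source ∩ (A.e j).source)
    (h : s.V i x ≠ 0) :
    hsf A s.lam i x = (Jm A i j x)ᵀ * hsf A s.lam j x * (Jm A i j x).map conj := by
  have h1 := hess_tr' (f := s.lam) hx (sm_lam_rd hx.2 (s.V_ne hx h))
  have e1 : hsf A s.lam i x = hess (rdM A i s.lam) (A.e i x) := rfl
  have e2 : hsf A s.lam j x = hess (rdM A j s.lam) (A.e j x) := rfl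
  rw [e1, e2]
  exact h1

theorem Zf_tn (hN : Nz s U) : TnO A U (Zf s) := by
  intro i j x hx hxU
  unfold Zf
  rw [E.rho_tn i j x hx, lam_hsf_tr hx (hN x hxU i hx.1)]
  simp only [Matrix.mul_sub, Matrix.sub_mul, Matrix.mul_neg, Matrix.neg_mul]

theorem bbD_tn (hN : Nz s U) : TnO A U s.bbD := fun i _ x hx hxU => s.bb_tr hx (hN x hxU i hx.1)

theorem Sf_tn (hN : Nz s U) : TnO A U (Sf s) := by
  intro i j x hx hxU
  unfold Sf
  rw [Zf_tn hN i j x hx hxU, bbD_tn hN i j x hx hxU]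
  simp only [Matrix.mul_add, Matrix.add_mul, Matrix.mul_smul, Matrix.smul_mul]

theorem RV_tn (hN : Nz s U) : TnO A U (RV s) := by
  intro i j x hx hxU
  have h1 := bbD_tn hN i j x hx hxU
  rw [bbD_eq s hx.1, bbD_eq s hx.2, lam_hsf_tr hx (hN x hxU i hx.1), Matrix.mul_add,
    Matrix.add_mul] at h1
  exact add_left_cancel h1

theorem Sf_sm (hN : Nz s U) : SmS A U (Sf s) := by
  intro i a b x hx hxU
  have h := hN x hxU i hx
  have sΛ := s.sm_lam hx h
  have s1 : Sm (A.e i x) (fun z =>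
      (((Real.log (hV (rdM A i (E.H i)) (rdM A i (s.V i)) z) : ℝ) : ℂ) •
        (hess (fun y => Real.log (rdM A i (E.H i) y).det.re) z
        - hess (fun z => Real.log (hV (rdM A i (E.H i)) (rdM A i (s.V i)) z)) z)
        + bb (rdM A i (E.H i)) (rdM A i (s.V i)) z) a b) :=
    ((contDiffAt_cu sΛ : Sm (A.e i x) (cu _)).mul (smM_Z s hx h a b)).add (sm_bb s hx h a b)
  refine s1.congr_of_eventuallyEq ?_
  filter_upwards [(A.e i).open_target.mem_nhds ((A.e i).map_source hx)] with z hz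
  rw [Sf_read s hz]

theorem bbD_sm (hN : Nz s U) : SmS A U s.bbD := by
  intro i a b x hx hxU
  have h := hN x hxU i hx
  refine ContDiffAt.congr_of_eventuallyEq (sm_bb s hx h a b) ?_
  filter_upwards [(A.e i).open_target.mem_nhds ((A.e i).map_source hx)] with z hz
  unfold HSec.bbD
  rw [(A.e i).right_inv hz]

theorem lamh_sm (hN : Nz s U) : SmS A U (hsf A s.lam) := by
  intro i a b x hx hxU
  have h := hN x hxU i hx
  refine ContDiffAt.congr_of_eventuallyEq (sm_hess (s.sm_lam hx h) a b) ?_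
  filter_upwards [(A.e i).open_target.mem_nhds ((A.e i).map_source hx)] with z hz
  rw [hsf_read s.lam i hz, hess_congr (lam_ev s hz)]

theorem RV_sm (hN : Nz s U) : SmS A U (RV s) := by
  intro i a b x hx hxU
  refine ((bbD_sm hN i a b x hx hxU).sub (lamh_sm hN i a b x hx hxU)).congr_of_eventuallyEq ?_
  filter_upwards [(A.e i).open_target.mem_nhds ((A.e i).map_source hx)] with z hz
  rw [bbD_eq s ((A.e i).map_target hz), Matrix.add_apply]
  ring

section st

variable [T2Space M] {K : Set M} {θ : M → ℝ}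

/-- **the second Chern form and a section, integrated**:
`∫ θ c2 = ∫ ∂∂̄θ ∧ (Λ Z + bb)` -/
theorem stokes_c2 (P : Part A) (hU : IsOpen U) (hN : Nz s U) (hθ : A.Sm θ) (hK : IsCompact K)
    (hKU : K ⊆ U) (h0 : ∀ x, x ∉ K → θ x = 0) :
    intD P (fun i x => (θ x : ℂ) * E.c2D i x) = intD P (fun i x => pd (hsf A θ i x) (Sf s i x)) := by
  rw [← tensor_stokes P hU hθ hK hKU h0 (Sf_sm hN) (Sf_tn hN)]
  refine intD_congr P fun i x hx => ?_
  by_cases hxK : x ∈ K
  · rw [ddD_Sf s hx (hN x (hKU hxK) i hx)]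
  · rw [h0 x hxK]; simp

/-- `Λ T` -/
def LT (s : HSec E) (T : A.ι → M → Matrix (Fin 2) (Fin 2) ℂ) (i : A.ι) (x : M) :
    Matrix (Fin 2) (Fin 2) ℂ := (s.lam x : ℂ) • T i x

theorem LT_tn {T : A.ι → M → Matrix (Fin 2) (Fin 2) ℂ} (hT : TnO A U T) :
    TnO A U (LT s T) := by
  intro i j x hx hxU
  unfold LT
  rw [hT i j x hx hxU]
  simp only [Matrix.mul_smul, Matrix.smul_mul]

theorem LT_sm (hN : Nz s U) {T : A.ι → M → Matrix (Fin 2) (Fin 2) ℂ} (hT : SmS A U T) :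
    SmS A U (LT s T) := fun i a b x hx hxU =>
  (show Sm (A.e i x) (cu (fun z => s.lam ((A.e i).symm z))) from
    contDiffAt_cu (sm_lam_rd hx (hN x hxU i hx))).mul (hT i a b x hx hxU)

theorem ddD_LT {i : A.ι} {x : M} (hx : x ∈ (A.e i).source) (h : s.V i x ≠ 0)
    {T : A.ι → M → Matrix (Fin 2) (Fin 2) ℂ} (hT : SmM (A.e i x) (GBL1_625.rdS A T i))
    (hcl : ∀ᶠ z in 𝓝 (A.e i x), Cl (GBL1_625.rdS A T i) z) :
    ddD A (LT s T) i x = pd (hsf A s.lam i x) (T i x) := by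
  have h1 := ddm_smul_cl (sm_lam_rd hx h) hT hcl
  show ddm (fun z => (s.lam ((A.e i).symm z) : ℂ) • T i ((A.e i).symm z)) (A.e i x) = _
  refine h1.trans ?_
  unfold rdS
  rw [(A.e i).left_inv hx]
  rfl

/-- `∫ θ ∂∂̄Λ ∧ T = ∫ Λ ∂∂̄θ ∧ T` for a closed form `T` -/
theorem stokes_lam (P : Part A) (hU : IsOpen U) (hN : Nz s U) (hθ : A.Sm θ) (hK : IsCompact K)
    (hKU : K ⊆ U) (h0 : ∀ x, x ∉ K → θ x = 0) {T : A.ι → M → Matrix (Fin 2) (Fin 2) ℂ}
    (hTt : TnO A U T) (hTs : SmS A U T)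
    (hcl : ∀ i, ∀ z ∈ (A.e i).target, Cl (GBL1_625.rdS A T i) z) :
    intD P (fun i x => (θ x : ℂ) * pd (hsf A s.lam i x) (T i x)) =
      intD P (fun i x => (s.lam x : ℂ) * pd (hsf A θ i x) (T i x)) := by
  have h1 := tensor_stokes P hU hθ hK hKU h0 (LT_sm hN hTs) (LT_tn hTt)
  have h2 : intD P (fun i x => (θ x : ℂ) * ddD A (LT s T) i x)
      = intD P (fun i x => (θ x : ℂ) * pd (hsf A s.lam i x) (T i x)) := by
    refine intD_congr P fun i x hx => ?_
    by_cases hxK : x ∈ K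
    · rw [ddD_LT hx (hN x (hKU hxK) i hx) (fun a b => hTs i a b x hx (hKU hxK))]
      filter_upwards [(A.e i).open_target.mem_nhds ((A.e i).map_source hx)] with z hz
      exact hcl i z hz
    · rw [h0 x hxK]; simp
  rw [← h2, h1]
  refine intD_congr P fun i x _ => ?_
  unfold LT
  rw [pd_smul]

theorem kah_cl (K : Kah A) (i : A.ι) {z : Cn 2} (hz : z ∈ (A.e i).target) :
    Cl (GBL1_625.rdS A K.g i) z :=
  ⟨fun a b c => K.closed i z hz a b c, fun a b c => K.closed' i z hz a b c⟩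

/-- the trace of the second fundamental form -/
theorem stokes_bb (P : Part A) (Kg : Kah A) (hU : IsOpen U) (hN : Nz s U) (hθ : A.Sm θ)
    (hK : IsCompact K) (hKU : K ⊆ U) (h0 : ∀ x, x ∉ K → θ x = 0) :
    intD P (fun i x => (θ x : ℂ) * pd (Kg.g i x) (s.bbD i x)) =
      intD P (fun i x => (s.lam x : ℂ) * pd (hsf A θ i x) (Kg.g i x))
      + intD P (fun i x => (θ x : ℂ) * pd (Kg.g i x) (RV s i x)) := by
  have hKc := hK.isClosed
  have hgS : SmS A U Kg.g := fun i a b => SmAt.smO (Kg.sm i a b) U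
  have hgT : TnO A U Kg.g := fun i j x hx _ => Kg.tr i j x hx
  have hL : SmS A U (hsf A s.lam) := lamh_sm hN
  rw [← stokes_lam P hU hN hθ hK hKU h0 hgT hgS fun i z hz => kah_cl Kg i hz]
  have hsm : ∀ {T : A.ι → M → Matrix (Fin 2) (Fin 2) ℂ}, SmS A U T → ∀ i,
      A.SmAt i (fun x => (θ x : ℂ) * pd (T i x) (Kg.g i x)) := by
    intro T hT i
    have hθc : A.SmAt i (fun y => (θ y : ℂ)) := smAt_ofReal (hθ i)
    refine smAt_mul_off hKc hKU hθc (fun x _ hx => by rw [h0 x hx]; simp) ?_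
    intro x hx hxU
    have t := fun a b => hT i a b x hx hxU
    have g := fun a b => hgS i a b x hx hxU
    exact ((((t 0 0).mul (g 1 1)).add ((t 1 1).mul (g 0 0))).sub ((t 0 1).mul (g 1 0))).sub
      ((t 1 0).mul (g 0 1))
  have hoff : ∀ {T : A.ι → M → Matrix (Fin 2) (Fin 2) ℂ},
      OffK A (fun i x => (θ x : ℂ) * pd (T i x) (Kg.g i x)) K := by
    intro T i x _ hxK
    show (θ x : ℂ) * _ = 0
    rw [h0 x hxK]; simp
  have e : intD P (fun i x => (θ x : ℂ) * pd (Kg.g i x) (RV s i x)) =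
      intD P (fun i x => (θ x : ℂ) * pd (RV s i x) (Kg.g i x)) :=
    intD_congr P fun i x _ => by rw [pd_comm]
  rw [e, ← intD_add P (hsm hL) (hsm (RV_sm hN)) hK hoff hoff]
  refine intD_congr P fun i x hx => ?_
  rw [bbD_eq s hx, pd_comm, add_pd]
  ring

end st

end

end Crest.Agent.R257.GBL2_625
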