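import Crest.Agent.R257.Idx6_761
import Crest.Agent.R257.GBL2_625

/-!
# R257 (S0395), leaf GB-OUT (helper309), part B: the form `Γ = Λ Z + bb` in a chart

* `Gm H V`     : `log |V|² (∂∂̄ log det H - ∂∂̄ log |V|²) + bb H V`
* `BV H V p`   : `H` smooth positive definite, `V` holomorphic near `p`
* `BV.c2_ddm`  : `c2 H = ∂∂̄ Γ` where `V ≠ 0`
* `BV.loc`     : `∫ κ c2 = ∫ ∂∂̄κ ∧ Γ + π² κ(p) [V p = 0]`
* `BV.gm_trans`, `BV.c2_trans` : changes of coordinates and frames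
-/

set_option autoImplicit false
set_option linter.unusedSectionVars false

open Set Filter Topology Complex MeasureTheory
open scoped ContDiff Matrix ComplexConjugate ComplexOrder

namespace Crest.Agent.R257.OutB_309

open Crest.Agent.R275.Geo Crest.Agent.R275.EDR890
open Crest.Agent.R273.Fock_243 Crest.Agent.R273.Calc_243
open Crest.Agent.R273.Bkn_243 Crest.Agent.R273.Pos_243 Crest.Agent.R273.BochA_101
open Crest.Agent.R273.BochB_101
open Crest.Agent.R273.BochC_101 Crest.Agent.R273.BochD_101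
open Crest.Agent.R273.Hess_333 Crest.Agent.R273.HessB_333
open Crest.Agent.R257.C2F1_625 Crest.Agent.R257.C2F2_625 Crest.Agent.R257.C2F3_625
open Crest.Agent.R257.C2F4_335 Crest.Agent.R257.C2F5_335 Crest.Agent.R257.C2F6_335
open Crest.Agent.R257.GBL2_625 (ddm_add ddm_smul_cl hess_cl smM_rm sm_hess)
open Crest.Agent.R257.Idx1_761 (CS hs hs_cu)

noncomputable section

/-- the form `Γ` -/
def Gm (H : Cn 2 → Matrix (Fin 2) (Fin 2) ℂ) (V : Cn 2 → Fin 2 → ℂ) (z : Cn 2) :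
    Matrix (Fin 2) (Fin 2) ℂ :=
  (Real.log (hV H V z) : ℂ) •
    (hess (fun y => Real.log (H y).det.re) z - hess (fun y => Real.log (hV H V y)) z) + bb H V z

/-- Hermitian metric and holomorphic section near `p` -/
structure BV (H : Cn 2 → Matrix (Fin 2) (Fin 2) ℂ) (V : Cn 2 → Fin 2 → ℂ) (p : Cn 2) : Prop where
  mH : ∀ᶠ y in 𝓝 p, SmM y H
  mP : ∀ᶠ y in 𝓝 p, (H y).PosDef
  mV : ∀ i, ∀ᶠ y in 𝓝 p, DifferentiableAt ℂ (fun w => V w i) y

variable {H : Cn 2 → Matrix (Fin 2) (Fin 2) ℂ} {V : Cn 2 → Fin 2 → ℂ} {p : Cn 2}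

theorem BV.ev (h : BV H V p) : ∀ᶠ y in 𝓝 p, BV H V y := by
  have h1 : ∀ᶠ y in 𝓝 p, ∀ i, ∀ᶠ w in 𝓝 y, DifferentiableAt ℂ (fun x => V x i) w := by
    rw [eventually_all]
    exact fun i => (h.mV i).eventually_nhds
  filter_upwards [h.mH.eventually_nhds, h.mP.eventually_nhds, h1] with y a b c
  exact ⟨a, b, c⟩

theorem BV.smV (h : BV H V p) (a : Fin 2) : Sm p (fun z => V z a) := sm_of_hol (h.mV a)

theorem BV.ne_ev (h : BV H V p) (h0 : V p ≠ 0) : ∀ᶠ y in 𝓝 p, V y ≠ 0 := by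
  obtain ⟨k, hk⟩ : ∃ k, V p k ≠ 0 := by
    by_contra hcon
    push Not at hcon
    exact h0 (funext hcon)
  filter_upwards [(h.mV k).self_of_nhds.continuousAt.eventually_ne hk] with y hy h1
  exact hy (by rw [h1]; rfl)

theorem hV_pos {K : Matrix (Fin 2) (Fin 2) ℂ} {v : Fin 2 → ℂ} (hK : K.PosDef) (hv : v ≠ 0) :
    0 < (star v ⬝ᵥ (K *ᵥ v)).re := (Complex.lt_def.1 (hK.dotProduct_mulVec_pos hv)).1

theorem BV.pos (h : BV H V p) (h0 : V p ≠ 0) : 0 < hV H V p := hV_pos h.mP.self_of_nhds h0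

theorem BV.sm_hV (h : BV H V p) : ContDiffAt ℝ ∞ (hV H V) p := by
  have h1 : Sm p (fun z => star (V z) ⬝ᵥ (H z *ᵥ V z)) := by
    unfold dotProduct Matrix.mulVec dotProduct
    refine ContDiffAt.sum fun a _ => ?_
    refine (conjCLE.contDiff.contDiffAt.comp _ (h.smV a)).mul (ContDiffAt.sum fun b _ => ?_)
    exact (h.mH.self_of_nhds a b).mul (h.smV b)
  exact Complex.reCLM.contDiff.contDiffAt.comp _ h1

theorem BV.sm_lam (h : BV H V p) (h0 : V p ≠ 0) :
    ContDiffAt ℝ ∞ (fun z => Real.log (hV H V z)) p := h.sm_hV.log (h.pos h0).ne'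

theorem BV.sm_ld (h : BV H V p) : ContDiffAt ℝ ∞ (fun y => Real.log (H y).det.re) p :=
  (Complex.reCLM.contDiff.contDiffAt.comp p (SmM.det h.mH.self_of_nhds)).log
    (det_re_pos'' h.mP.self_of_nhds).ne'

theorem BV.sm_bb (h : BV H V p) (h0 : V p ≠ 0) : SmM p (bb H V) := by
  intro c d
  have hd : (H p).det ≠ 0 := h.mP.self_of_nhds.det_pos.ne'
  have hr := smM_rm h.mH.self_of_nhds hd c d
  have e1 : Sm p (fun z => star (V z) ⬝ᵥ (rm H z c d *ᵥ V z)) := by
    unfold dotProduct Matrix.mulVec dotProduct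
    refine ContDiffAt.sum fun a _ => ?_
    refine (Complex.conjCLE.contDiff.contDiffAt.comp _ (h.smV a)).mul
      (ContDiffAt.sum fun b _ => ?_)
    exact (hr a b).mul (h.smV b)
  have e2 : Sm p (fun z => ((hV H V z : ℝ) : ℂ)) := contDiffAt_cu h.sm_hV
  have e3 : ((hV H V p : ℝ) : ℂ) ≠ 0 := Complex.ofReal_ne_zero.2 (h.pos h0).ne'
  refine (sm_hess (h.sm_lam h0) c d).add ?_
  simp only [div_eq_mul_inv]
  exact e1.mul (e2.inv e3)

theorem BV.sm_Z (h : BV H V p) (h0 : V p ≠ 0) :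
    SmM p (fun z => hess (fun y => Real.log (H y).det.re) z
      - hess (fun y => Real.log (hV H V y)) z) := fun a b =>
  (sm_hess h.sm_ld a b).sub (sm_hess (h.sm_lam h0) a b)

theorem BV.sm_LZ (h : BV H V p) (h0 : V p ≠ 0) :
    SmM p (fun z => (Real.log (hV H V z) : ℂ) • (hess (fun y => Real.log (H y).det.re) z
      - hess (fun y => Real.log (hV H V y)) z)) := fun a b =>
  (contDiffAt_cu (h.sm_lam h0) : Sm p (cu _)).mul (h.sm_Z h0 a b)

theorem BV.sm_Gm (h : BV H V p) (h0 : V p ≠ 0) : SmM p (Gm H V) := fun a b =>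
  (h.sm_LZ h0 a b).add (h.sm_bb h0 a b)

/-- **`c2 = ∂∂̄ Γ`** -/
theorem BV.c2_ddm (h : BV H V p) (h0 : V p ≠ 0) : c2 H p = ddm (Gm H V) p := by
  have hcl : ∀ᶠ y in 𝓝 p, GBL2_625.Cl (fun z => hess (fun y => Real.log (H y).det.re) z
        - hess (fun y => Real.log (hV H V y)) z) y := by
    have a1 : ∀ᶠ y in 𝓝 p, ContDiffAt ℝ ∞ (fun y => Real.log (H y).det.re) y :=
      h.ev.mono fun y hy => hy.sm_ld
    have a2 : ∀ᶠ y in 𝓝 p, ContDiffAt ℝ ∞ (fun y => Real.log (hV H V y)) y := by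
      filter_upwards [h.ev, h.ne_ev h0] with y hy hy0 using hy.sm_lam hy0
    filter_upwards [a1, a2, a1.eventually_nhds, a2.eventually_nhds] with y h1 h2 h3 h4
    exact GBL2_625.Cl.sub (fun a b => sm_hess h1 a b) (fun a b => sm_hess h2 a b) (hess_cl h3)
      (hess_cl h4)
  show _ = ddm (fun z => (Real.log (hV H V z) : ℂ) • (hess (fun y => Real.log (H y).det.re) z
      - hess (fun y => Real.log (hV H V y)) z) + bb H V z) p
  rw [ddm_add (h.sm_LZ h0) (h.sm_bb h0), ddm_smul_cl (h.sm_lam h0) (h.sm_Z h0) hcl,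
    c2_eq h.mH h.mP h.mV h0]

/-- nondegenerate zero -/
def Nd (V : Cn 2 → Fin 2 → ℂ) (p : Cn 2) : Prop :=
  (Matrix.of fun i a => dS (-I) a (fun w => V w i) p : Matrix (Fin 2) (Fin 2) ℂ).det ≠ 0

open Classical in
/-- **the local index formula, all points** -/
theorem BV.loc (h : BV H V p) (hnd : V p = 0 → Nd V p) :
    ∃ r > 0, ∀ κ : Cn 2 → ℂ, CS (Metric.ball p r) κ →
      Integrable (fun z => κ z * c2 H z) ∧ Integrable (fun z => pd (hs κ z) (Gm H V z)) ∧
      ∫ z, κ z * c2 H z = (∫ z, pd (hs κ z) (Gm H V z)) +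
        (if V p = 0 then (Real.pi : ℂ) ^ 2 * κ p else 0) := by
  by_cases h0 : V p = 0
  · obtain ⟨r, hr, hk⟩ := Idx6_761.idx (H := H) (V := V) (p := p) ⟨h.mH, h.mP, h.mV, h0, hnd h0⟩
    refine ⟨r, hr, fun κ hκ => ?_⟩
    rw [if_pos h0]
    exact hk κ hκ
  · obtain ⟨r, hr, hb⟩ := Metric.eventually_nhds_iff_ball.1 (h.ev.and (h.ne_ev h0))
    refine ⟨r, hr, fun κ hκ => ?_⟩
    have hG : ∀ z ∈ Metric.ball p r, SmM z (Gm H V) := fun z hz => (hb z hz).1.sm_Gm (hb z hz).2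
    have e1 : (fun z => κ z * c2 H z) = fun z => κ z * ddm (Gm H V) z := by
      funext z
      by_cases hz : z ∈ Metric.ball p r
      · rw [(hb z hz).1.c2_ddm (hb z hz).2]
      · rw [hκ.zero_off hz, zero_mul, zero_mul]
    have j1 : ∀ (s t : ℂ) (c d i j : Fin 2),
        Integrable fun z => κ z * dS s c (dS t d (fun y => Gm H V y i j)) z :=
      fun s t c d i j => (hκ.mul (fun z hz => ((hG z hz i j).dS t d).dS s c)).integrable
    have j2 : ∀ (s t : ℂ) (c d i j : Fin 2), Integrable fun z => dS s c (dS t d κ) z * Gm H V z i j :=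
      fun s t c d i j => (((hκ.dS t d).dS s c).mul (fun z hz => hG z hz i j)).integrable
    rw [if_neg h0, add_zero, e1]
    refine ⟨?_, ?_, Idx1_761.parts_ddm hκ hG⟩
    · have := (((j1 (-I) I 0 0 1 1).add (j1 (-I) I 1 1 0 0)).sub (j1 (-I) I 0 1 1 0)).sub
        (j1 (-I) I 1 0 0 1)
      refine this.congr (Eventually.of_forall fun z => ?_)
      simp only [Pi.sub_apply, Pi.add_apply, ddm]
      ring
    · have := (((j2 (-I) I 0 0 1 1).add (j2 (-I) I 1 1 0 0)).sub (j2 (-I) I 0 1 1 0)).sub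
        (j2 (-I) I 1 0 0 1)
      refine this.congr (Eventually.of_forall fun z => ?_)
      simp only [Pi.sub_apply, Pi.add_apply, pd, hs, Matrix.of_apply]

/-! ### changes of coordinates and frames -/

/-- data of a change: `H' = Fᴴ (H ∘ T) F`, `V ∘ T = F V'` near `p` -/
structure Chg (H' : Cn 2 → Matrix (Fin 2) (Fin 2) ℂ) (V' : Cn 2 → Fin 2 → ℂ)
    (H : Cn 2 → Matrix (Fin 2) (Fin 2) ℂ) (V : Cn 2 → Fin 2 → ℂ) (T : Cn 2 → Cn 2)
    (F : Cn 2 → Matrix (Fin 2) (Fin 2) ℂ) (p : Cn 2) : Prop where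
  T_hol : ∀ᶠ w in 𝓝 p, DifferentiableAt ℂ T w
  F_hol : HolM p F
  F_ne : (F p).det ≠ 0
  eH : ∀ᶠ w in 𝓝 p, H' w = (F w)ᴴ * H (T w) * F w
  eV : ∀ᶠ w in 𝓝 p, V (T w) = F w *ᵥ V' w

variable {H' : Cn 2 → Matrix (Fin 2) (Fin 2) ℂ} {V' : Cn 2 → Fin 2 → ℂ} {T : Cn 2 → Cn 2}
  {F : Cn 2 → Matrix (Fin 2) (Fin 2) ℂ}

theorem Chg.smHT (c : Chg H' V' H V T F p) (h : BV H V (T p)) :
    ∀ᶠ y in 𝓝 p, SmM y (fun y => H (T y)) := by
  have h1 := (c.T_hol.self_of_nhds.continuousAt).eventually h.mH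
  filter_upwards [h1, c.T_hol.eventually_nhds] with y hy hy' S S'
  exact (hy S S').comp y (T_sm hy')

theorem Chg.c2_eq (c : Chg H' V' H V T F p) (h : BV H V (T p)) :
    c2 H' p = (Jac T p).det * conj (Jac T p).det * c2 H (T p) := by
  have hne : (H (T p)).det ≠ 0 := h.mP.self_of_nhds.det_pos.ne'
  rw [c2_congr c.eH, c2_frame (c.smHT h) hne c.F_hol c.F_ne, c2_comp h.mH.self_of_nhds c.T_hol]

theorem Chg.hV_eq (c : Chg H' V' H V T F p) :
    (fun w => hV H' V' w) =ᶠ[𝓝 p] fun w => hV H V (T w) := by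
  filter_upwards [c.eH, c.eV] with w h1 h2
  unfold hV
  rw [h1, star_gram, h2]

theorem Chg.det_hol (c : Chg H' V' H V T F p) :
    ∀ᶠ w in 𝓝 p, DifferentiableAt ℂ (fun w => (F w).det) w := by
  have hij : ∀ i j, ∀ᶠ w in 𝓝 p, DifferentiableAt ℂ (fun y => F y i j) w := fun i j => c.F_hol i j
  have e : (fun w => (F w).det) = fun w => F w 0 0 * F w 1 1 - F w 0 1 * F w 1 0 :=
    funext fun w => Matrix.det_fin_two _
  rw [e]
  filter_upwards [hij 0 0, hij 0 1, hij 1 0, hij 1 1] with w a0 a1 a2 a3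
  exact (a0.fun_mul a3).fun_sub (a1.fun_mul a2)

theorem Chg.gm_eq (c : Chg H' V' H V T F p) (h : BV H V (T p)) (h0 : V (T p) ≠ 0) :
    Gm H' V' p = pbk T (Gm H V) p := by
  have hne : (H (T p)).det ≠ 0 := h.mP.self_of_nhds.det_pos.ne'
  -- log |V|²
  have e1 : (fun w => Real.log (hV H' V' w)) =ᶠ[𝓝 p] fun w => (fun y => Real.log (hV H V y)) (T w) :=
    c.hV_eq.mono fun w hw => by simp only [hw]
  have e2 : hess (fun w => Real.log (hV H' V' w)) p
      = pbk T (hess fun y => Real.log (hV H V y)) p := by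
    rw [hess_congr e1]
    exact hess_comp' (u := fun y => Real.log (hV H V y)) (h.sm_lam h0) c.T_hol
  -- log det
  have hdet := c.det_hol
  have hFev : ∀ᶠ w in 𝓝 p, (F w).det ≠ 0 :=
    hdet.self_of_nhds.continuousAt.eventually_ne c.F_ne
  have hP := (c.T_hol.self_of_nhds.continuousAt).eventually h.mP
  have e3 : (fun w => Real.log (H' w).det.re) =ᶠ[𝓝 p] fun w =>
      Real.log (‖(F w).det‖ ^ 2) + (fun y => Real.log (H y).det.re) (T w) := by
    filter_upwards [c.eH, hFev, hP] with w h1 h2 h3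
    have h4 := det_re_pos'' h3
    have h5 : (H' w).det = ((‖(F w).det‖ ^ 2 : ℝ) : ℂ) * (H (T w)).det := by
      rw [h1, Matrix.det_mul, Matrix.det_mul, Matrix.det_conjTranspose,
        ← Complex.normSq_eq_norm_sq, Complex.normSq_eq_conj_mul_self]
      show star (F w).det * _ * _ = conj (F w).det * _ * _
      rw [Complex.star_def]
      ring
    rw [h5, Complex.re_ofReal_mul, Real.log_mul
      (pow_ne_zero 2 (norm_ne_zero_iff.2 h2)) h4.ne']
  have sT : ContDiffAt ℝ ∞ (fun w => (fun y => Real.log (H y).det.re) (T w)) p :=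
    ContDiffAt.comp p (g := fun y => Real.log (H y).det.re) h.sm_ld (T_sm c.T_hol)
  have sF : ContDiffAt ℝ ∞ (fun w => Real.log (‖(F w).det‖ ^ 2)) p := by
    have a1 : Sm p (fun w => (F w).det) := sm_of_hol hdet
    exact (a1.norm_sq ℝ).log (pow_ne_zero 2 (norm_ne_zero_iff.2 c.F_ne))
  have e4 : hess (fun w => Real.log (H' w).det.re) p
      = pbk T (hess fun y => Real.log (H y).det.re) p := by
    rw [hess_congr e3, hess_add sF sT, hess_log_norm hdet c.F_ne, zero_add]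
    exact hess_comp' (u := fun y => Real.log (H y).det.re) h.sm_ld c.T_hol
  -- bb
  have e5 : bb H' V' p = pbk T (bb H V) p := by
    have hev : (fun y => F y *ᵥ V' y) =ᶠ[𝓝 p] fun y => V (T y) := c.eV.mono fun w hw => hw.symm
    rw [HSec.bb_congr c.eH EventuallyEq.rfl, bb_frame (c.smHT h) hne c.F_hol c.F_ne,
      HSec.bb_congr EventuallyEq.rfl hev, bb_comp (V := V) h.mH.self_of_nhds c.T_hol (h.sm_lam h0)]
  have e0 : Real.log (hV H' V' p) = Real.log (hV H V (T p)) := e1.self_of_nhds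
  show (Real.log (hV H' V' p) : ℂ) • (hess (fun y => Real.log (H' y).det.re) p
    - hess (fun y => Real.log (hV H' V' y)) p) + bb H' V' p = _
  rw [e0, e2, e4, e5]
  unfold Gm
  simp only [pbk, Matrix.mul_add, Matrix.add_mul, Matrix.mul_sub, Matrix.sub_mul,
    Matrix.mul_smul, Matrix.smul_mul, smul_sub]

end

end Crest.Agent.R257.OutB_309
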