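import Crest.Agent.R257.KEG_952
import Crest.Agent.R257.OutB_309

/-!
R257 / LossD_309 (helper309): the leaves of `LossStmt` (KEG_952) and `BdStmt` (KED_952).

Bundle `Ω¹ ⊗ L_φ` with the metric `HO u φ = e^{-φ} (∂∂̄u)⁻¹`, section `dh` : `dV h`, so that
`hV (HO u φ θ) (dV h θ) = e^{-φ} |dh|²`; form `Γ` = `OutB_309.Gm`; `oxd` = density of `∂∂̄χ ∧ Γ`.

* `E1Stmt`     : one smooth level, nondegenerate zeros: `∫ χ c₂ = ∫ ∂∂̄χ ∧ Γ + π² Σ χ`   [309]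
* `SardStmt`   : generic linear perturbations have nondegenerate zeros                    [761]
* `CntStmt`    : number of the zeros = `col (mnr f h)`                                     [889, 827]
* `MnrStmt`    : `dV` and `mnr`                                                            [149]
* `OxCvStmt`   : convergence of the densities `oxd`                                        [397, 941]
* `V0Stmt`     : the singular level: loss lemma                                            [625]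
* `GenLinStmt` : a function with `ColFin (mnr f h)`                                        [812, 827]
-/

set_option autoImplicit false

open Topology Filter MeasureTheory Set
open scoped ENNReal ContDiff Matrix

noncomputable section

namespace Crest.Agent.R257.LossD_309

open Crest.Agent.R275.Geo
open Crest.Agent.R257.Defs_219
open Crest.Agent.R257.KED_952 Crest.Agent.R257.KEG_952
open Crest.Agent.R257.V1Defs_822 (SmL LvlOK lgh)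
open Crest.Agent.R273.Defs_333 (lev)
open Crest.Agent.R273.YauDefs_635 (cH)
open Crest.Agent.R257.PN_835 (nsq)
open Crest.Agent.R257.Aff_835 (eta2a nga)
open Crest.Agent.R257.C2F1_625 (pd)
open Crest.Agent.R257.OutB_309 (Gm Nd)

/-- metric of `Ω¹ ⊗ L_φ` in a parametrisation -/
def HO (u φ : E3 → ℝ) (θ : Cn 2 → E3) (y : Cn 2) : Matrix (Fin 2) (Fin 2) ℂ :=
  ((Real.exp (-φ (θ y)) : ℝ) : ℂ) • (cH (fun z => u (θ z)) y)⁻¹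

/-- `d(h ∘ θ)` -/
def dV (h : E3 → ℂ) (θ : Cn 2 → E3) (y : Cn 2) : Fin 2 → ℂ :=
  fun i => fderiv ℂ (fun z => h (θ z)) y (EuclideanSpace.single i 1)

/-- density of `∂∂̄χ ∧ Γ` -/
def oxd (f : E3 → ℂ) (u φ : E3 → ℝ) (h : E3 → ℂ) (χ : E3 → ℝ) : E3 → ℝ :=
  dns f fun θ z => (pd (cH (fun z => χ (θ z)) z) (Gm (HO u φ θ) (dV h θ) z)).re

/-- linear perturbation -/
def ptb (h : E3 → ℂ) (a : E3) (x : E3) : ℂ := h x + ∑ i, a i * x i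

/-- the identity on a smooth level -/
def E1Stmt : Prop := ∀ (f : E3 → ℂ) (s : ℂ) (r : ℝ), LvlOK f s r → f 0 ≠ s → ∀ u, KEon f s r u →
  ∀ ν, IsNu f s r ν → ∀ χ, Cut r χ → ∀ h : E3 → ℂ, (∀ x, nsq x < r ^ 2 → AnalyticAt ℂ h x) →
  (∀ θ O, PE f s r θ O → ∀ z ∈ O, dV h θ z = 0 → Nd (dV h θ) z) →
  ∀ Z : Finset E3, (∀ x ∈ Z, f x = s ∧ nsq x < r ^ 2) →
  (∀ θ O, PE f s r θ O → ∀ z ∈ O, θ z ∈ tsupport χ → (θ z ∈ Z ↔ dV h θ z = 0)) →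
  Integrable (fun x => χ x * c2d f u x) ν ∧ Integrable (oxd f u (fun _ => 0) h χ) ν ∧
  ∫ x, χ x * c2d f u x ∂ν = ∫ x, oxd f u (fun _ => 0) h χ x ∂ν + Real.pi ^ 2 * ∑ x ∈ Z, χ x

/-- Sard -/
def SardStmt : Prop := ∀ (f : E3 → ℂ) (s : ℂ) (r : ℝ), LvlOK f s r → f 0 ≠ s → ∀ h : E3 → ℂ,
  (∀ x, nsq x < r ^ 2 → AnalyticAt ℂ h x) →
  ∀ᵐ a : E3, ∀ θ O, PE f s r θ O → ∀ z ∈ O, dV (ptb h a) θ z = 0 → Nd (dV (ptb h a) θ) z

/-- the zero set -/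
def ZM (Φ : E3 × PP → ℂ) (h : E3 → ℂ) (ρ : ℝ) (q : PP × E3) : Set E3 :=
  {x | nsq x < ρ ^ 2 ∧ ∀ j, mnr (fun x => Φ (x, q.1)) (ptb h q.2) j x = 0}

/-- number of the critical points -/
def CntStmt : Prop := ∀ (Φ : E3 × PP → ℂ) (τ₀ : PP), AnalyticAt ℂ Φ (0, τ₀) → ∀ f,
  f = (fun x => Φ (x, τ₀)) → Iso f → ∀ h : E3 → ℂ, AnalyticAt ℂ h 0 → ColFin (mnr f h) →
  ∃ ρ : ℝ, 0 < ρ ∧ ∀ ε : ℝ, 0 < ε → ∀ᶠ q : PP × E3 in 𝓝 (τ₀, 0),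
    (ZM Φ h ρ q).Finite ∧ (∀ x ∈ ZM Φ h ρ q, nsq x < ε ^ 2) ∧
    ((∀ x ∈ ZM Φ h ρ q, ∀ v : E3,
        (∀ j, fderiv ℂ (mnr (fun x => Φ (x, q.1)) (ptb h q.2) j) x v = 0) → v = 0) →
      (ZM Φ h ρ q).ncard = col (mnr f h))

/-- `dV` and `mnr` -/
def MnrStmt : Prop := ∀ (f : E3 → ℂ) (r : ℝ), LvlOK f 0 r → ∀ h : E3 → ℂ,
  (∀ x, nsq x < r ^ 2 → AnalyticAt ℂ h x) → ∀ θ O, PE f 0 r θ O → ∀ z ∈ O,
  (dV h θ z = 0 ↔ ∀ j, mnr f h j (θ z) = 0) ∧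
  (dV h θ z = 0 → Nd (dV h θ) z → ∀ v : E3, (∀ j, fderiv ℂ (mnr f h j) (θ z) v = 0) → v = 0)

/-- convergence of the densities `oxd` -/
def OxCvStmt : Prop := ∀ (Φ : E3 × PP → ℂ) (τ₀ : PP) (l : Filter PP) (r C : ℝ)
  (w : PP → E3 → ℝ) (u : E3 → ℝ), SmD Φ τ₀ l r C w u → ∀ f, f = (fun x => Φ (x, τ₀)) →
  ∀ χ, Cut r χ → ∀ h : E3 → ℂ, (∀ x, nsq x ≤ r ^ 2 → AnalyticAt ℂ h x) → NoZ f r h →
  ∀ a : PP → E3, Tendsto a l (𝓝 0) →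
  Cv0 Φ r l τ₀ (fun τ => oxd (fun x => Φ (x, τ)) (w τ) (fun _ => 0) (ptb h (a τ)) χ)
    (oxd f u (fun _ => 0) h χ) ∧
  CtL f 0 r (oxd f u (fun _ => 0) h χ) ∧
  ∀ᶠ τ in l, CtL (fun x => Φ (x, τ)) 0 r
    (oxd (fun x => Φ (x, τ)) (w τ) (fun _ => 0) (ptb h (a τ)) χ)

/-- the loss lemma on the singular level -/
def V0Stmt : Prop := ∀ (f : E3 → ℂ) (r C : ℝ) (u : E3 → ℝ), Iso f → LvlOK f 0 r →
  KEon f 0 r u → Bd f 0 r C u → ∀ ν, IsNu f 0 r ν → ∀ χ, Cut r χ → C2I ν f u χ < ⊤ →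
  VOL ν u χ < ⊤ → ∀ A : ℝ, Esc f r u A → ∀ φ : E3 → ℝ, SmL f 0 r φ →
  (∀ θ O, PE f 0 r θ O → ∀ z ∈ O, ∀ v : Cn 2, 0 ≤ lev (fun z => φ (θ z)) z v) →
  (∀ x, f x = 0 → x ≠ 0 → nsq x < r ^ 2 → - A * (A - u x) ≤ φ x ∧ φ x ≤ A) →
  Integrable (fun x => χ x * mxd f φ φ x) ν →
  ∀ (N : ℕ) (h : E3 → ℂ), (∀ x, nsq x ≤ r ^ 2 → AnalyticAt ℂ h x) →
  NoZ f r h → UpB f r u A N φ h →
  (∫ x, oxd f u (fun _ => 0) h χ x ∂ν ≤
    (C2I ν f u χ).toReal - Real.pi ^ 2 * (mss ν f u φ χ + mss ν f φ φ χ)) ∧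
  (LoB f r u A N φ h → (C2I ν f u χ).toReal - Real.pi ^ 2 * (mss ν f u φ χ + mss ν f φ φ χ) ≤
    ∫ x, oxd f u (fun _ => 0) h χ x ∂ν)

/-- a function with an isolated critical point on `{f = 0}` -/
def GenLinStmt : Prop := ∀ f : E3 → ℂ, Iso f → ∃ h : E3 → ℂ, AnalyticAt ℂ h 0 ∧ h 0 = 0 ∧
  ColFin (mnr f h)

end Crest.Agent.R257.LossD_309
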