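import Crest.Agent.R257.KEU_952
import Crest.Agent.R257.LossA_625
import Crest.Agent.R257.LossD_309

/-!
R257 / KUP_952: the leaves of `UppStmt` (KEU_952), post 3449 of row 257.

Hermitian metrics on `Ω¹` of the punctured level `{f = 0, 0 < |x| < r}` are forms `H : Form`
(matrices in every parametrisation), `HO u 0` is the Kaehler-Einstein one.

* `Mt f r H`     : `H` is a smooth Hermitian metric on `Ω¹`
* `Tst f r a`    : test functions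
* `Gd`, `c2h`    : densities of `∂∂̄a ∧ Γ(H, dh)`, `c₂(H)`;  `Vl f r H U` : `det H |η|² = e^{-U}`
* `SQStmt`       : `∫ a c₂(H) = ∫ ∂∂̄a ∧ Γ(H, dg)`                        [309/417 P1 for general H]
* `VlStmt`       : existence of `U`;  `MtOStmt` : `HO u 0` is a metric, `c2h = c2d`
* `UpperStmt`    : signed Bott-Chern inequality                             [532]
* `TrialStmt`    : the trial metric near the puncture                       [560, 39, 68, 617]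
* `E2Stmt`       : limit of `∫ χ c₂` of the smooth levels                   [309]
-/

set_option autoImplicit false

open Topology Filter MeasureTheory Set
open scoped ENNReal ContDiff Matrix ComplexOrder

noncomputable section

namespace Crest.Agent.R257.KUP_952

open Crest.Agent.R275.Geo
open Crest.Agent.R257.Defs_219
open Crest.Agent.R257.KED_952 Crest.Agent.R257.KEG_952 Crest.Agent.R257.KEU_952
open Crest.Agent.R257.V1Defs_822 (SmL LvlOK lgh)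
open Crest.Agent.R273.Defs_333 (lev)
open Crest.Agent.R273.YauDefs_635 (cH)
open Crest.Agent.R257.PN_835 (nsq)
open Crest.Agent.R257.Aff_835 (eta2a nga)
open Crest.Agent.R257.C2F1_625 (pd c2)
open Crest.Agent.R257.C2F2_625 (hV bb)
open Crest.Agent.R257.OutB_309 (Gm)
open Crest.Agent.R257.LossA_625 (fx hS Psd Lv)
open Crest.Agent.R257.LossD_309 (HO dV oxd)

/-- matrices in every parametrisation (`= LossA_625.Frm`) -/
abbrev Form : Type := (Cn 2 → E3) → Cn 2 → Matrix (Fin 2) (Fin 2) ℂ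

/-- linear functions -/
def lin (a : E3) (x : E3) : ℂ := ∑ i, a i * x i

/-- smooth Hermitian metrics on `Ω¹` of the punctured level -/
structure Mt (f : E3 → ℂ) (r : ℝ) (H : Form) : Prop where
  sm : ∀ θ O, PE f 0 r θ O → ∀ a b, ContDiffOn ℝ ∞ (fun z => H θ z a b) O
  pos : ∀ θ O, PE f 0 r θ O → ∀ z ∈ O, (H θ z).PosDef
  ind : ∀ θ O θ' O' z z', PE f 0 r θ O → PE f 0 r θ' O' → z ∈ O → z' ∈ O' → θ z = θ' z' →
    ∀ a : E3, hV (H θ) (dV (lin a) θ) z = hV (H θ') (dV (lin a) θ') z'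

/-- test functions: smooth on the level, with compact support in the punctured level -/
structure Tst (f : E3 → ℂ) (r : ℝ) (a : E3 → ℝ) : Prop where
  sm : SmL f 0 r a
  supp : ∃ r₁ r₂ : ℝ, 0 < r₁ ∧ 0 < r₂ ∧ r₂ < r ∧
    ∀ x ∈ Lv f r, nsq x ≤ r₁ ^ 2 ∨ r₂ ^ 2 ≤ nsq x → a x = 0

/-- density of `∂∂̄a ∧ Γ(H, dh)` -/
def Gd (f : E3 → ℂ) (H : Form) (h : E3 → ℂ) (a : E3 → ℝ) : E3 → ℝ :=
  fx f (fun θ z => Gm (H θ) (dV h θ) z) a

/-- density of `c₂(H)` -/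
def c2h (f : E3 → ℂ) (H : Form) : E3 → ℝ := dns f fun θ z => (c2 (H θ) z).re

/-- the Kaehler-Einstein metric on `Ω¹` -/
abbrev HK (u : E3 → ℝ) : Form := HO u fun _ => 0

/-- `det H |η|² = e^{-U}` -/
structure Vl (f : E3 → ℂ) (r : ℝ) (H : Form) (U : E3 → ℝ) : Prop where
  sm : SmL f 0 r U
  eq : ∀ θ O, PE f 0 r θ O → ∀ z ∈ O,
    (H θ z).det.re * eta2a (n := 2) f θ z = Real.exp (-U (θ z))

/-- `Γ`-formula for the second Chern form -/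
def SQStmt : Prop := ∀ (f : E3 → ℂ) (r : ℝ) (H : Form), LvlOK f 0 r → Mt f r H →
  ∀ ν, IsNu f 0 r ν → ∀ g : E3 → ℂ, (∀ x, nsq x < r ^ 2 → AnalyticAt ℂ g x) → NoZ f r g →
  ∀ a, Tst f r a → Integrable (fun x => a x * c2h f H x) ν ∧ Integrable (Gd f H g a) ν ∧
    ∫ x, a x * c2h f H x ∂ν = ∫ x, Gd f H g a x ∂ν

/-- existence of the volume function -/
def VlStmt : Prop := ∀ (f : E3 → ℂ) (r : ℝ) (H : Form), LvlOK f 0 r → Mt f r H →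
  ∃ U, Vl f r H U

/-- the Kaehler-Einstein metric -/
def MtOStmt : Prop := ∀ (f : E3 → ℂ) (r : ℝ) (u : E3 → ℝ), LvlOK f 0 r → KEon f 0 r u →
  Mt f r (HK u) ∧ Vl f r (HK u) u ∧ ∀ x ∈ Lv f r, c2h f (HK u) x = c2d f u x

/-- `H = HK u` near `x` -/
def EqN (f : E3 → ℂ) (r : ℝ) (u : E3 → ℝ) (H : Form) (x : E3) : Prop :=
  ∀ᶠ y in 𝓝 x, ∀ θ O, PE f 0 r θ O → ∀ z ∈ O, θ z = y → H θ z = HK u θ z

/-- `e^{-V} H₁ ≤ H ≤ e^V H₁` at `θ z` -/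
def Cpr (u : E3 → ℝ) (H : Form) (V : E3 → ℝ) (θ : Cn 2 → E3) (z : Cn 2) : Prop :=
  (((Real.exp (V (θ z)) : ℝ) : ℂ) • HK u θ z - H θ z).PosSemidef ∧
  (((Real.exp (V (θ z)) : ℝ) : ℂ) • H θ z - HK u θ z).PosSemidef

/-- **signed Bott-Chern inequality**: if `∂∂̄a ≥ 0` where `H ≠ H₁` then
`∫ a (2 c₂ - c₁²)(H₁) ≤ ∫ a (2 c₂ - c₁²)(H) + C₀ ∫ q V |Rm|` -/
def UpperStmt : Prop := ∃ C₀ : ℝ, 0 ≤ C₀ ∧ ∀ (f : E3 → ℂ) (r : ℝ) (u : E3 → ℝ) (H : Form)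
  (U : E3 → ℝ) (ν : Measure E3) (a q V : E3 → ℝ), LvlOK f 0 r → KEon f 0 r u → Mt f r H →
  Vl f r H U → IsNu f 0 r ν → Tst f r a → (∀ x, 0 ≤ q x) → (∀ x, 0 ≤ V x) →
  Integrable (fun x => q x * V x * Real.sqrt (c2d f u x * Real.exp (u x))) ν →
  (∀ x ∈ Lv f r, EqN f r u H x ∨ ∀ θ O, PE f 0 r θ O → ∀ z ∈ O, θ z = x →
    (∀ v, 0 ≤ lev (fun y => a (θ y)) z v ∧
      lev (fun y => a (θ y)) z v ≤ q x * lev (fun y => u (θ y)) z v) ∧ Cpr u H V θ z) →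
  ∫ x, a x * (2 * c2d f u x - mxd f u u x) ∂ν ≤
    ∫ x, a x * (2 * c2h f H x - mxd f U U x) ∂ν +
      C₀ * ∫ x, q x * V x * Real.sqrt (c2d f u x * Real.exp (u x)) ∂ν

/-- limit of `∫ χ c₂` of the smooth levels -/
def E2Stmt : Prop := ∀ (Φ : E3 × PP → ℂ) (τ₀ : PP) (l : Filter PP) (r C : ℝ)
  (w : PP → E3 → ℝ) (u : E3 → ℝ), SmD Φ τ₀ l r C w u → ∀ f, f = (fun x => Φ (x, τ₀)) →
  ∀ χ, Cut r χ → ∀ (ν : PP → Measure E3) (ν₀ : Measure E3),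
  (∀ᶠ τ in l, IsNu (fun x => Φ (x, τ)) 0 r (ν τ)) → IsNu f 0 r ν₀ →
  ∀ h : E3 → ℂ, (∀ x, nsq x ≤ r ^ 2 → AnalyticAt ℂ h x) → h 0 = 0 → ColFin (mnr f h) →
  NoZ f r h →
  Tendsto (fun τ => (C2I (ν τ) (fun x => Φ (x, τ)) (w τ) χ).toReal) l
    (𝓝 (∫ x, oxd f u (fun _ => 0) h χ x ∂ν₀ + Real.pi ^ 2 * col (mnr f h)))

/-- the data of a trial metric near the puncture -/
structure Trl (f : E3 → ℂ) (r A : ℝ) (u : E3 → ℝ) (ν : Measure E3) (k : ℕ) (g h : E3 → ℂ)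
    (B : ℝ) (H : Form) (φ V : E3 → ℝ) : Prop where
  pr : XPr f k g h
  g_an : ∀ x, nsq x < r ^ 2 → AnalyticAt ℂ g x
  h_an : ∀ x, nsq x < r ^ 2 → AnalyticAt ℂ h x
  nz : ∀ x ∈ Lv f r, g x ≠ 0 ∨ h x ≠ 0
  mt : Mt f r H
  dg : ∀ θ O, PE f 0 r θ O → ∀ z ∈ O, hV (H θ) (dV g θ) z = Real.exp (lgh g h (θ z))
  det : ∀ θ O, PE f 0 r θ O → ∀ z ∈ O,
    (H θ z).det.re * eta2a (n := 2) f θ z = Real.exp (-(lgh g h (θ z) / k))
  φ_sm : SmL f 0 r φ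
  φ_psh : ∀ θ O, PE f 0 r θ O → ∀ z ∈ O, ∀ v, 0 ≤ lev (fun y => φ (θ y)) z v
  φ_int : ∀ χ, Cut r χ → Integrable (fun x => χ x * mxd f u φ x) ν
  bb : ∀ θ O, PE f 0 r θ O → ∀ z ∈ O,
    ((B : ℂ) • cH (fun y => φ (θ y)) z - bb (H θ) (dV g θ) z).PosSemidef
  V_nn : ∀ x, 0 ≤ V x
  V_me : AEMeasurable V ν
  cpr : ∀ θ O, PE f 0 r θ O → ∀ z ∈ O, Cpr u H V θ z
  V_int : ∀ χ, Cut r χ → ∃ C : ℝ, ∀ R : ℝ, 1 ≤ R →
    ∫⁻ x in {x | Real.log (A - u x) ≤ R},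
      ENNReal.ofReal (χ x * V x ^ 2 * Real.exp (u x)) ∂ν ≤ ENNReal.ofReal (C * R ^ 2)

/-- existence of the trial metric -/
def TrialStmt : Prop := ∀ (f : E3 → ℂ) (r C A : ℝ) (u : E3 → ℝ) (ν : Measure E3), Iso f →
  LvlOK f 0 r → KEon f 0 r u → Bd f 0 r C u → IsNu f 0 r ν → 0 < mstar f → Esc f r u A →
  (∀ χ, Cut r χ → VOL ν u χ < ⊤) →
  ∃ (r' : ℝ) (k : ℕ) (g h : E3 → ℂ) (B : ℝ) (H : Form) (φ V : E3 → ℝ),
    0 < r' ∧ r' ≤ r ∧ Trl f r' A u (ν.restrict {x | nsq x < r' ^ 2}) k g h B H φ V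

end Crest.Agent.R257.KUP_952
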