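import Crest.Agent.R257.SkelG2_952

/-!
R257 / SkelG3_952: finiteness of the second Chern integrals, change of the cut-off, reduction of the
statements (GB) to a small ball and one cut-off.
-/

set_option autoImplicit false

open Topology Filter MeasureTheory Set
open scoped ENNReal ContDiff Matrix
open Crest.AlgGeometry.Germ

noncomputable section

namespace Crest.Agent.R257.SkelG_952

open Crest.Agent.R275.Geo
open Crest.Agent.R257.Defs_219 Crest.Agent.R257.KED_952 Crest.Agent.R257.KEG_952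
open Crest.Agent.R257.SkelV_952
open Crest.Agent.R257.PN_835 (nsq)
open Crest.Agent.R257.Aff_835 (eta2a nga)
open Crest.Agent.R257.V1Defs_822 (SmL LvlOK lgh)

theorem isCompact_cb (r : ℝ) : IsCompact {x : E3 | nsq x ≤ r ^ 2} := by
  refine Metric.isCompact_of_isClosed_isBounded (isClosed_le continuous_nsq continuous_const) ?_
  rw [Metric.isBounded_iff_subset_closedBall 0]
  refine ⟨|r|, fun x hx => ?_⟩
  rw [mem_closedBall_zero_iff]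
  have h1 := norm_sq_le_nsq x
  have h2 : ‖x‖ ^ 2 ≤ |r| ^ 2 := by
    rw [sq_abs]
    exact h1.trans hx
  exact (sq_le_sq₀ (norm_nonneg _) (abs_nonneg _)).1 h2

theorem an_ev {Φ : E3 × PP → ℂ} {τ₀ : PP} {r : ℝ}
    (h : ∀ x, nsq x ≤ r ^ 2 → AnalyticAt ℂ Φ (x, τ₀)) :
    ∀ᶠ τ in 𝓝 τ₀, ∀ x, nsq x ≤ r ^ 2 → AnalyticAt ℂ Φ (x, τ) := by
  have h1 := (isCompact_cb r).eventually_forall_of_forall_eventually (x₀ := τ₀)
    (P := fun τ x => AnalyticAt ℂ Φ (x, τ)) (fun x hx => by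
      have h2 : ∀ᶠ p in 𝓝 (x, τ₀), AnalyticAt ℂ Φ p := (h x hx).eventually_analyticAt
      have h3 : Tendsto (Prod.swap : PP × E3 → E3 × PP) (𝓝 (τ₀, x)) (𝓝 (x, τ₀)) :=
        continuous_swap.tendsto' _ _ rfl
      exact h3.eventually h2)
  exact h1

section

variable {Φ : E3 × PP → ℂ} {τ₀ : PP} {l : Filter PP} {r C : ℝ} {w : PP → E3 → ℝ} {u : E3 → ℝ}

/-- good parameters -/
theorem smd_ev (h : SmD Φ τ₀ l r C w u) : ∀ᶠ τ in l,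
    LvlOK (fun x => Φ (x, τ)) 0 r ∧ KEon (fun x => Φ (x, τ)) 0 r (w τ) := by
  filter_upwards [h.lim (an_ev h.an), h.sm, h.ke] with τ h1 h2 h3
  exact ⟨⟨h.r_pos, fun x hx => (h1 x hx.le).curry_left, fun x h4 h5 h6 => h2 x h4 h5.le h6⟩, h3.1⟩

theorem smd_0 (h : SmD Φ τ₀ l r C w u) : LvlOK (fun x => Φ (x, τ₀)) 0 r :=
  ⟨h.r_pos, fun x hx => (h.an x hx.le).curry_left, fun x h4 h5 h6 => h.sm0 x h4 h5.le h6⟩

/-- `∫ χ c₂` as a Bochner integral -/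
theorem c2i_int (meas : MeasStmt) (ctd : CtDStmt) (bmy : BmyStmt) {f : E3 → ℂ} {s : ℂ}
    (hf : LvlOK f s r) {ν : Measure E3} (hν : IsNu f s r ν) (hu : KEon f s r u) {χ : E3 → ℝ}
    (hχ : Cut r χ) (hfin : C2I ν f u χ ≠ ⊤) : Integrable (fun x => χ x * c2d f u x) ν ∧
    ∫ x, χ x * c2d f u x ∂ν = (C2I ν f u χ).toReal := by
  have h1 : CtL f s r fun x => χ x * c2d f u x :=
    CtL.mul (ctl_amb hχ.sm.continuous) (ctd f s r hf.pos hf.an hf.sm u hu).1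
  have h2 : AEMeasurable (fun x => χ x * c2d f u x) ν := meas f s r hf.pos hf.an hf.sm ν hν _ h1
  have h3 : 0 ≤ᵐ[ν] fun x => χ x * c2d f u x := by
    filter_upwards [isnu_ae hν] with x hx
    have h4 := bmy f s r u hf.pos hf.an hf.sm hu x hx.1 hx.2.1 hx.2.2
    have h5 := Real.exp_pos (u x)
    exact mul_nonneg (hχ.nn x) (by linarith)
  refine ⟨⟨h2.aestronglyMeasurable, ?_⟩, ?_⟩
  · rw [hasFiniteIntegral_iff_ofReal h3]
    exact hfin.lt_top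
  · rw [integral_eq_lintegral_of_nonneg_ae h3 h2.aestronglyMeasurable]
    rfl

theorem fin_0 (fat : FatStmt) (ctd : CtDStmt) (cvd : CvDStmt) (bd : BdStmt)
    (h : SmD Φ τ₀ l r C w u) {χ : E3 → ℝ} (hχ : Cut r χ) {ν : PP → Measure E3} {ν₀ : Measure E3}
    (hν : ∀ᶠ τ in l, IsNu (fun x => Φ (x, τ)) 0 r (ν τ))
    (hν₀ : IsNu (fun x => Φ (x, τ₀)) 0 r ν₀) : C2I ν₀ (fun x => Φ (x, τ₀)) u χ ≠ ⊤ := by
  obtain ⟨B, hB⟩ := bd Φ τ₀ l r C w u h χ hχ ν hν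
  have key : C2I ν₀ (fun x => Φ (x, τ₀)) u χ ≤ ENNReal.ofReal B := by
    by_contra hcon
    rw [not_le] at hcon
    have hct : ∀ᶠ τ in l, CtL (fun x => Φ (x, τ)) 0 r
        (fun x => χ x * c2d (fun x => Φ (x, τ)) (w τ) x) := by
      filter_upwards [smd_ev h] with τ hτ
      exact CtL.mul (ctl_amb hχ.sm.continuous)
        (ctd _ 0 r hτ.1.pos hτ.1.an hτ.1.sm (w τ) hτ.2).1
    have h0 := smd_0 h
    have h1 := fat Φ τ₀ l r h.toFam ν ν₀ hν hν₀ _ _ hct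
      (CtL.mul (ctl_amb hχ.sm.continuous) (ctd _ 0 r h0.pos h0.an h0.sm u h.ke0.1).1)
      (cv_c cvd ctd h.toFamD hχ) _ hcon
    haveI := h.ne
    obtain ⟨τ, h2, h3⟩ := (h1.and hB).exists
    exact absurd h3 (not_le.2 h2)
  exact (key.trans_lt ENNReal.ofReal_lt_top).ne

/-- change of the cut-off -/
theorem cut_change (meas : MeasStmt) (fat : FatStmt) (cvi : CvIStmt) (ctd : CtDStmt)
    (bmy : BmyStmt) (cvd : CvDStmt) (bd : BdStmt) (h : SmD Φ τ₀ l r C w u) {χ₁ χ₂ : E3 → ℝ}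
    (h₁ : Cut r χ₁) (h₂ : Cut r χ₂) {ν : PP → Measure E3} {ν₀ : Measure E3}
    (hν : ∀ᶠ τ in l, IsNu (fun x => Φ (x, τ)) 0 r (ν τ))
    (hν₀ : IsNu (fun x => Φ (x, τ₀)) 0 r ν₀) :
    Tendsto (fun τ => (C2I (ν τ) (fun x => Φ (x, τ)) (w τ) χ₁).toReal -
      (C2I (ν τ) (fun x => Φ (x, τ)) (w τ) χ₂).toReal) l
      (𝓝 ((C2I ν₀ (fun x => Φ (x, τ₀)) u χ₁).toReal -
        (C2I ν₀ (fun x => Φ (x, τ₀)) u χ₂).toReal)) := by
  have h0 := smd_0 h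
  obtain ⟨B₁, hB₁⟩ := bd Φ τ₀ l r C w u h χ₁ h₁ ν hν
  obtain ⟨B₂, hB₂⟩ := bd Φ τ₀ l r C w u h χ₂ h₂ ν hν
  have hcd := (ctd _ 0 r h0.pos h0.an h0.sm u h.ke0.1).1
  have hsub : Continuous fun x => χ₁ x - χ₂ x := h₁.sm.continuous.sub h₂.sm.continuous
  have hct : ∀ᶠ τ in l, CtL (fun x => Φ (x, τ)) 0 r
      (fun x => (χ₁ x - χ₂ x) * c2d (fun x => Φ (x, τ)) (w τ) x) := by
    filter_upwards [smd_ev h] with τ hτ
    exact CtL.mul (ctl_amb hsub) (ctd _ 0 r hτ.1.pos hτ.1.an hτ.1.sm (w τ) hτ.2).1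
  have hcv : Cv0 Φ r l τ₀ (fun τ x => (χ₁ x - χ₂ x) * c2d (fun x => Φ (x, τ)) (w τ) x)
      (fun x => (χ₁ x - χ₂ x) * c2d (fun x => Φ (x, τ₀)) u x) :=
    Cv0.mul (cv0_amb h.lim hsub) (cvd Φ τ₀ l r C w u h.toFamD χ₁ h₁).1 (ctl_amb hsub) hcd
  have hsupp : ∃ r₁ r₂ : ℝ, 0 < r₁ ∧ 0 < r₂ ∧ r₂ < r ∧
      ∀ x, nsq x ≤ r₁ ^ 2 ∨ r₂ ^ 2 ≤ nsq x → χ₁ x - χ₂ x = 0 := by
    obtain ⟨ρ, hρ, h3⟩ := Metric.eventually_nhds_iff_ball.1 (h₁.one.and h₂.one)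
    obtain ⟨r₁, a1, a2, a3⟩ := h₁.supp
    obtain ⟨r₂, b1, b2, b3⟩ := h₂.supp
    refine ⟨ρ / 2, max r₁ r₂, by positivity, lt_max_of_lt_left a1, max_lt a2 b2, fun x hx => ?_⟩
    rcases hx with hx | hx
    · have h5 : ‖x‖ < ρ := by
        have := norm_sq_le_nsq x
        have h6 : ‖x‖ ≤ ρ / 2 := (sq_le_sq₀ (norm_nonneg _) (by positivity)).1 (this.trans hx)
        linarith
      obtain ⟨e1, e2⟩ := h3 x (by simpa using h5)
      rw [e1, e2, sub_self]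
    · rw [a3 x ((sq_mono a1.le (le_max_left _ _)).trans hx),
        b3 x ((sq_mono b1.le (le_max_right _ _)).trans hx), sub_self]
  obtain ⟨r₁, r₂, s1, s2, s3, s4⟩ := hsupp
  have hT := cvi Φ τ₀ l r h.toFam ν ν₀ hν hν₀ _ _ hct (CtL.mul (ctl_amb hsub) hcd) hcv
    ⟨r₁, r₂, s1, s2, s3, fun x hx => ⟨fun τ => by rw [s4 x hx, zero_mul],
      by rw [s4 x hx, zero_mul]⟩⟩
  have e0 : ∫ x, (χ₁ x - χ₂ x) * c2d (fun x => Φ (x, τ₀)) u x ∂ν₀ =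
      (C2I ν₀ (fun x => Φ (x, τ₀)) u χ₁).toReal - (C2I ν₀ (fun x => Φ (x, τ₀)) u χ₂).toReal := by
    obtain ⟨i1, j1⟩ := c2i_int meas ctd bmy h0 hν₀ h.ke0.1 h₁ (fin_0 fat ctd cvd bd h h₁ hν hν₀)
    obtain ⟨i2, j2⟩ := c2i_int meas ctd bmy h0 hν₀ h.ke0.1 h₂ (fin_0 fat ctd cvd bd h h₂ hν hν₀)
    rw [← j1, ← j2, ← integral_sub i1 i2]
    refine integral_congr_ae (Eventually.of_forall fun x => ?_)
    show (χ₁ x - χ₂ x) * _ = _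
    ring
  rw [← e0]
  refine hT.congr' ?_
  filter_upwards [smd_ev h, hB₁, hB₂, hν] with τ hτ b1 b2 hντ
  obtain ⟨i1, j1⟩ := c2i_int meas ctd bmy hτ.1 hντ hτ.2 h₁ (b1.trans_lt ENNReal.ofReal_lt_top).ne
  obtain ⟨i2, j2⟩ := c2i_int meas ctd bmy hτ.1 hντ hτ.2 h₂ (b2.trans_lt ENNReal.ofReal_lt_top).ne
  rw [← j1, ← j2, ← integral_sub i1 i2]
  refine integral_congr_ae (Eventually.of_forall fun x => ?_)
  show (χ₁ x - χ₂ x) * _ = _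
  ring

end

end Crest.Agent.R257.SkelG_952
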