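import Crest.Agent.R257.OutE_309
import Crest.Agent.R257.KUP_952
import Crest.Agent.R257.SkelG3_952

/-!
# R257 (S0395) (helper822): metrics on `Ω¹` of the punctured level (leaves of KUP_952)

* `pe_comp`     : a parametrisation composed with a local biholomorphism
* `Mt.tr_eq`    : transition formula `H' = Fᴴ (H ∘ T) F`, `F = (Jac T)ᵀ⁻¹`
* `Mt.bun`      : `Bun f 0 r H (dV g)`
* `sqStmt : SQStmt`, `vlStmt : VlStmt`, `mtOStmt : MtOStmt`
-/

set_option autoImplicit false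
set_option linter.unusedSectionVars false

open Set Filter Topology Complex MeasureTheory
open scoped ContDiff Matrix ComplexConjugate ComplexOrder ENNReal

namespace Crest.Agent.R257.MtM_822

open Crest.Agent.R275.Geo Crest.Agent.R275.EDR890
open Crest.Agent.R273.Fock_243 Crest.Agent.R273.Calc_243
open Crest.Agent.R273.Bkn_243 Crest.Agent.R273.Pos_243 Crest.Agent.R273.BochA_101
open Crest.Agent.R273.BochB_101
open Crest.Agent.R273.BochC_101 Crest.Agent.R273.BochD_101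
open Crest.Agent.R273.Hess_333 Crest.Agent.R273.HessB_333
open Crest.Agent.R273.Defs_333 (lev)
open Crest.Agent.R273.YauDefs_635 (cH)
open Crest.Agent.R273.YauMax_635 (cH_eq_hess)
open Crest.Agent.R257.C2F1_625 Crest.Agent.R257.C2F2_625 Crest.Agent.R257.C2F3_625
open Crest.Agent.R257.C2F4_335 Crest.Agent.R257.C2F5_335 Crest.Agent.R257.C2F6_335
open Crest.Agent.R257.Defs_219
open Crest.Agent.R257.PN_835 (nsq)
open Crest.Agent.R257.Aff_835 (eta2a)
open Crest.Agent.R257.KED_952 Crest.Agent.R257.KEG_952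
open Crest.Agent.R257.Ked1_397 Crest.Agent.R257.Ked2_397
open Crest.Agent.R257.V1Defs_822 (SmL LvlOK)
open Crest.Agent.R257.OutA_309 Crest.Agent.R257.OutB_309 Crest.Agent.R257.LossD_309
open Crest.Agent.R257.OutC_309 Crest.Agent.R257.OutD_309 Crest.Agent.R257.OutE_309
open Crest.Agent.R257.KUP_952
open Crest.Agent.R257.LossA_625 (Lv)

noncomputable section

variable {f : E3 → ℂ} {s : ℂ} {r : ℝ}

/-! ### parametrisations -/

theorem jac_mulVec {T : Cn 2 → Cn 2} {z : Cn 2} (v : Cn 2) (a : Fin 2) :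
    (fderiv ℂ T z v) a = (Jac T z *ᵥ (fun c => v c)) a := by
  have h1 : v = ∑ c, v c • (EuclideanSpace.single c (1 : ℂ) : Cn 2) := by
    ext b
    simp [Fin.sum_univ_two, PiLp.single_apply]
    fin_cases b <;> simp
  conv_lhs => rw [h1]
  rw [map_sum]
  simp only [map_smul, Jac, Matrix.mulVec, dotProduct, Matrix.of_apply, Fin.sum_univ_two,
    PiLp.add_apply, PiLp.smul_apply, smul_eq_mul]
  ring

theorem jac_inj {T : Cn 2 → Cn 2} {z : Cn 2} (hdet : (Jac T z).det ≠ 0) {v : Cn 2}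
    (hv : fderiv ℂ T z v = 0) : v = 0 := by
  by_contra hne
  apply hdet
  refine Matrix.exists_mulVec_eq_zero_iff.1 ⟨fun c => v c, fun h => hne ?_, ?_⟩
  · ext c
    exact congrFun h c
  · funext a
    rw [← jac_mulVec, hv]
    rfl

theorem det_ev {T : Cn 2 → Cn 2} {z' : Cn 2} (hT : ∀ᶠ w in 𝓝 z', DifferentiableAt ℂ T w)
    (hdet : (Jac T z').det ≠ 0) : ∀ᶠ y in 𝓝 z', (Jac T y).det ≠ 0 := by
  have hJij : ∀ i j, ∀ᶠ y in 𝓝 z', DifferentiableAt ℂ (fun w => Jac T w i j) y :=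
    fun i j => J_hol hT i j
  have h1 : ContinuousAt (fun y => (Jac T y).det) z' := by
    have : (fun y => (Jac T y).det) = fun y => Jac T y 0 0 * Jac T y 1 1 -
        Jac T y 0 1 * Jac T y 1 0 := funext fun y => Matrix.det_fin_two _
    rw [this]
    exact ((hJij 0 0).self_of_nhds.continuousAt.mul
      (hJij 1 1).self_of_nhds.continuousAt).sub
      ((hJij 0 1).self_of_nhds.continuousAt.mul (hJij 1 0).self_of_nhds.continuousAt)
  exact h1.eventually_ne hdet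

/-- a parametrisation composed with a local biholomorphism -/
theorem pe_comp {θ θ' : Cn 2 → E3} {O : Set (Cn 2)} (hP : PE f s r θ O) {z' : Cn 2}
    {T : Cn 2 → Cn 2} (hT : ∀ᶠ w in 𝓝 z', DifferentiableAt ℂ T w)
    (hTe : ∀ᶠ w in 𝓝 z', T w ∈ O ∧ θ' w = θ (T w)) (hdet : (Jac T z').det ≠ 0) :
    ∃ O', PE f s r θ' O' ∧ z' ∈ O' := by
  have h1 := (hT.and hTe).and (det_ev hT hdet)
  obtain ⟨U, hU, hUo, hUz⟩ := eventually_nhds_iff.1 h1
  have hd : ∀ w ∈ U, θ' =ᶠ[𝓝 w] fun y => θ (T y) := fun w hw => by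
    filter_upwards [hUo.mem_nhds hw] with y hy
    exact (hU y hy).1.2.2
  have hθ : ∀ w ∈ U, DifferentiableAt ℂ θ (T w) := fun w hw =>
    hP.par.hol.differentiableAt (hP.par.isOpen.mem_nhds (hU w hw).1.2.1)
  have hd' : ∀ w ∈ U, fderiv ℂ θ' w = (fderiv ℂ θ (T w)).comp (fderiv ℂ T w) := fun w hw => by
    rw [(hd w hw).fderiv_eq]
    exact fderiv_fun_comp w (hθ w hw) (hU w hw).1.1
  refine ⟨U, ⟨⟨hUo, fun w hw => ?_, fun w hw => ?_, fun w hw v hv => ?_⟩, fun w hw => ?_,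
    fun w hw => ?_⟩, hUz⟩
  · have h2 : DifferentiableAt ℂ (fun y => θ (T y)) w :=
      DifferentiableAt.comp (g := θ) w (hθ w hw) (hU w hw).1.1
    exact (h2.congr_of_eventuallyEq (hd w hw)).differentiableWithinAt
  · rw [(hU w hw).1.2.2]
    exact hP.par.lvl _ (hU w hw).1.2.1
  · rw [hd' w hw, ContinuousLinearMap.comp_apply] at hv
    exact jac_inj (hU w hw).2 (hP.par.imm _ (hU w hw).1.2.1 _ hv)
  · rw [(hU w hw).1.2.2]
    exact hP.ne _ (hU w hw).1.2.1
  · rw [(hU w hw).1.2.2]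
    exact hP.lt _ (hU w hw).1.2.1

/-! ### linear functions -/

theorem lin_an (a : E3) (x : E3) : AnalyticAt ℂ (lin a) x := by
  unfold lin
  refine Finset.analyticAt_fun_sum _ fun i _ => ?_
  exact analyticAt_const.mul ((ContinuousLinearMap.proj (R := ℂ) (φ := fun _ : Fin 3 => ℂ) i).analyticAt x)

theorem dV_lin {θ : Cn 2 → E3} {z : Cn 2} (hθ : DifferentiableAt ℂ θ z) (a : E3) (j : Fin 2) :
    dV (lin a) θ z j = lin a (fderiv ℂ θ z (EuclideanSpace.single j 1)) := by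
  have e : lin a = fun x => (∑ i, a i • (ContinuousLinearMap.proj (R := ℂ)
      (φ := fun _ : Fin 3 => ℂ) i) : E3 →L[ℂ] ℂ) x := by
    funext x
    simp [lin]
  unfold LossD_309.dV
  rw [e]
  have h1 := ((∑ i, a i • (ContinuousLinearMap.proj (R := ℂ)
      (φ := fun _ : Fin 3 => ℂ) i) : E3 →L[ℂ] ℂ).hasFDerivAt (x := θ z)).comp z hθ.hasFDerivAt
  have h2 : fderiv ℂ (fun z => (∑ i, a i • (ContinuousLinearMap.proj (R := ℂ)
      (φ := fun _ : Fin 3 => ℂ) i) : E3 →L[ℂ] ℂ) (θ z)) z = _ := h1.fderiv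
  rw [h2]
  rfl

/-- the differentials of the linear functions span `Ω¹` -/
theorem span_dV {θ : Cn 2 → E3} {O : Set (Cn 2)} (hP : PE f s r θ O) {z : Cn 2} (hz : z ∈ O)
    (v : Fin 2 → ℂ) : ∃ a : E3, dV (lin a) θ z = v := by
  have hθ := hP.par.diffAt hz
  set D : Cn 2 →ₗ[ℂ] E3 := (fderiv ℂ θ z).toLinearMap with hD
  have hinj : LinearMap.ker D = ⊥ := by
    rw [LinearMap.ker_eq_bot']
    exact fun w hw => hP.par.imm z hz w hw
  obtain ⟨g, hg⟩ := D.exists_leftInverse_of_injective hinj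
  set ℓ : Cn 2 →ₗ[ℂ] ℂ :=
    { toFun := fun w => ∑ j, v j * w j
      map_add' := fun x y => by simp [Fin.sum_univ_two]; ring
      map_smul' := fun c x => by simp [Fin.sum_univ_two]; ring } with hℓ
  refine ⟨fun i => ℓ (g (Pi.single i 1)), ?_⟩
  funext j
  rw [dV_lin hθ]
  have h1 : ∀ y : E3, lin (fun i => ℓ (g (Pi.single i 1))) y = ℓ (g y) := by
    intro y
    have h2 : y = ∑ i, y i • (Pi.single i (1 : ℂ) : E3) := by
      funext k
      simp [Finset.sum_apply, Pi.single_apply]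
    conv_rhs => rw [h2]
    rw [map_sum, map_sum]
    unfold lin
    refine Finset.sum_congr rfl fun i _ => ?_
    rw [map_smul, map_smul, smul_eq_mul, mul_comm]
  rw [h1]
  have h2 : g (fderiv ℂ θ z (EuclideanSpace.single j 1)) = EuclideanSpace.single j (1 : ℂ) := by
    have := LinearMap.congr_fun hg (EuclideanSpace.single j (1 : ℂ))
    exact this
  rw [h2]
  show ∑ i, v i * (EuclideanSpace.single j (1 : ℂ) : Cn 2) i = v j
  simp [PiLp.single_apply]

/-! ### polarisation -/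


theorem herm_zero {X : Matrix (Fin 2) (Fin 2) ℂ} (hX : X.IsHermitian)
    (h : ∀ v : Fin 2 → ℂ, (star v ⬝ᵥ (X *ᵥ v)).re = 0) : X = 0 := by
  have e10 : X 1 0 = conj (X 0 1) := by
    have := congrFun (congrFun hX 1) 0
    rw [Matrix.conjTranspose_apply] at this
    exact this.symm
  have e00 : (X 0 0).im = 0 := by
    have := congrFun (congrFun hX 0) 0
    rw [Matrix.conjTranspose_apply] at this
    exact Complex.conj_eq_iff_im.1 this
  have e11 : (X 1 1).im = 0 := by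
    have := congrFun (congrFun hX 1) 1
    rw [Matrix.conjTranspose_apply] at this
    exact Complex.conj_eq_iff_im.1 this
  have key : ∀ a b : ℂ, (conj a * (X 0 0 * a + X 0 1 * b) + conj b * (X 1 0 * a + X 1 1 * b)).re
      = 0 := by
    intro a b
    have := h ![a, b]
    simpa [Matrix.mulVec, dotProduct, Fin.sum_univ_two] using this
  have k1 := key 1 0
  have k2 := key 0 1
  have k3 := key 1 1
  have k4 := key 1 I
  rw [e10] at k1 k2 k3 k4
  simp at k1 k2 k3 k4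
  have a00 : X 0 0 = 0 := Complex.ext k1 e00
  have a11 : X 1 1 = 0 := Complex.ext k2 e11
  have a01 : X 0 1 = 0 := by
    refine Complex.ext ?_ ?_
    · show (X 0 1).re = 0
      linarith
    · show (X 0 1).im = 0
      linarith
  have a10 : X 1 0 = 0 := by rw [e10, a01]; simp
  ext i j
  fin_cases i <;> fin_cases j
  · exact a00
  · exact a01
  · exact a10
  · exact a11

theorem herm_ext {X Y : Matrix (Fin 2) (Fin 2) ℂ} (hX : X.IsHermitian) (hY : Y.IsHermitian)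
    (h : ∀ v : Fin 2 → ℂ, (star v ⬝ᵥ (X *ᵥ v)).re = (star v ⬝ᵥ (Y *ᵥ v)).re) : X = Y := by
  have h1 : X - Y = 0 := by
    refine herm_zero (hX.sub hY) fun v => ?_
    rw [Matrix.sub_mulVec, dotProduct_sub, Complex.sub_re, h v, sub_self]
  exact sub_eq_zero.1 h1

/-! ### transition -/

variable {H : Form}

theorem trF {T : Cn 2 → Cn 2} {z' : Cn 2} (hT : ∀ᶠ w in 𝓝 z', DifferentiableAt ℂ T w)
    (hdet : (Jac T z').det ≠ 0) : HolM z' (fun w => ((Jac T w)ᵀ)⁻¹) := by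
  have hJij : ∀ i j, ∀ᶠ y in 𝓝 z', DifferentiableAt ℂ (fun w => Jac T w i j) y :=
    fun i j => J_hol hT i j
  have hdc := det_ev hT hdet
  intro i j
  have e : ∀ y, ((Jac T y)ᵀ)⁻¹ i j = ((Jac T y).det)⁻¹ * (Jac T y)ᵀ.adjugate i j := by
    intro y
    rw [Matrix.inv_def, Ring.inverse_eq_inv', Matrix.det_transpose]
    rfl
  have ha : ∀ᶠ y in 𝓝 z', DifferentiableAt ℂ (fun w => (Jac T w)ᵀ.adjugate i j) y := by
    have e2 : ∀ w, (Jac T w)ᵀ.adjugate i j =
        !![Jac T w 1 1, -Jac T w 1 0; -Jac T w 0 1, Jac T w 0 0] i j := by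
      intro w
      rw [Matrix.adjugate_fin_two]
      rfl
    simp only [e2]
    filter_upwards [hJij 0 0, hJij 0 1, hJij 1 0, hJij 1 1] with y a b c d
    fin_cases i <;> fin_cases j
    · exact d
    · exact c.neg
    · exact b.neg
    · exact a
  have hdd : ∀ᶠ y in 𝓝 z', DifferentiableAt ℂ (fun w => (Jac T w).det) y := by
    have : (fun y => (Jac T y).det) = fun y => Jac T y 0 0 * Jac T y 1 1 -
        Jac T y 0 1 * Jac T y 1 0 := funext fun y => Matrix.det_fin_two _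
    rw [this]
    filter_upwards [hJij 0 0, hJij 0 1, hJij 1 0, hJij 1 1] with y a b c d
    exact (a.fun_mul d).fun_sub (b.fun_mul c)
  simp only [e]
  filter_upwards [ha, hdd, hdc] with y h1 h2 h3
  exact (h2.fun_inv h3).fun_mul h1

/-- **transition formula** -/
theorem Mt.tr_eq (hH : Mt f r H) {θ θ' : Cn 2 → E3} {O O' : Set (Cn 2)} (hP : PE f 0 r θ O)
    (hP' : PE f 0 r θ' O') {w : Cn 2} (hw : w ∈ O') {T : Cn 2 → Cn 2}
    (hT : DifferentiableAt ℂ T w) (hTe : ∀ᶠ y in 𝓝 w, T y ∈ O ∧ θ' y = θ (T y))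
    (hdet : (Jac T w).det ≠ 0) :
    H θ' w = (((Jac T w)ᵀ)⁻¹)ᴴ * H θ (T w) * ((Jac T w)ᵀ)⁻¹ := by
  have hTw := hTe.self_of_nhds
  have h1 : (H θ' w).IsHermitian := (hH.pos θ' O' hP' w hw).isHermitian
  have h2 : (H θ (T w)).IsHermitian := (hH.pos θ O hP _ hTw.1).isHermitian
  have hJ : ((Jac T w)ᵀ).det ≠ 0 := by rwa [Matrix.det_transpose]
  refine herm_ext h1 (Matrix.isHermitian_conjTranspose_mul_mul _ h2) fun v => ?_
  obtain ⟨a, ha⟩ := span_dV hP' hw v
  have e1 := hH.ind θ' O' θ O w (T w) hP' hP hw hTw.1 hTw.2 a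
  have e2 : dV (lin a) θ' w = (Jac T w)ᵀ *ᵥ dV (lin a) θ (T w) :=
    dV_trans (fun x _ => lin_an a x) hP hT hTe
  have e3 : dV (lin a) θ (T w) = ((Jac T w)ᵀ)⁻¹ *ᵥ v := by
    rw [← ha, e2, Matrix.mulVec_mulVec, Matrix.nonsing_inv_mul _ (isUnit_iff_ne_zero.2 hJ),
      Matrix.one_mulVec]
  unfold hV at e1
  rw [ha, e3] at e1
  rw [e1, star_gram]

theorem Mt.bun (hH : Mt f r H) {h : E3 → ℂ} (hh : ∀ x, nsq x < r ^ 2 → AnalyticAt ℂ h x) :
    Bun f 0 r H (LossD_309.dV h) where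
  bv θ O hP z hz := by
    have hO := hP.par.isOpen
    refine ⟨?_, ?_, fun i => ?_⟩
    · filter_upwards [hO.mem_nhds hz] with y hy S S'
      exact (hH.sm θ O hP S S').contDiffAt (hO.mem_nhds hy)
    · filter_upwards [hO.mem_nhds hz] with y hy using hH.pos θ O hP y hy
    · filter_upwards [hO.mem_nhds hz] with y hy
      exact (dV_hol hh hP i).differentiableAt (hO.mem_nhds hy)
  tr θ O hP θ' z' T hT hTO hTe hdet := by
    have hTe' := eventually_eventually_nhds.2 hTe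
    have hT' := eventually_eventually_nhds.2 hT
    obtain ⟨O', hP', hz'⟩ := pe_comp hP hT hTe hdet
    refine ⟨fun w => ((Jac T w)ᵀ)⁻¹, hT, trF hT hdet, ?_, ?_, ?_⟩
    · rw [Matrix.det_nonsing_inv, Ring.inverse_eq_inv', Matrix.det_transpose]
      exact inv_ne_zero hdet
    · filter_upwards [hTe', hT, det_ev hT hdet, hP'.par.isOpen.mem_nhds hz'] with w h1 h2 h3 h4
      exact Mt.tr_eq hH hP hP' h4 h2 h1 h3
    · filter_upwards [hTe', hT, det_ev hT hdet] with w h1 h2 h3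
      rw [dV_trans hh hP h2 h1, Matrix.mulVec_mulVec, Matrix.nonsing_inv_mul _
        (by rw [Matrix.det_transpose]; exact isUnit_iff_ne_zero.2 h3), Matrix.one_mulVec]

/-! ### `SQStmt` -/

theorem dV_ne {g : E3 → ℂ} {θ : Cn 2 → E3} {z : Cn 2}
    (h : fderiv ℂ (fun z => g (θ z)) z ≠ 0) : LossD_309.dV g θ z ≠ 0 := by
  intro h0
  apply h
  refine ContinuousLinearMap.ext fun w => ?_
  rw [fderiv_eq_dV, h0]
  simp

theorem isCompact_ann {r₁ r₂ : ℝ} : IsCompact {x : E3 | r₁ ^ 2 ≤ nsq x ∧ nsq x ≤ r₂ ^ 2} :=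
  (SkelG_952.isCompact_cb r₂).of_isClosed_subset
    ((isClosed_le continuous_const continuous_nsq).inter
      (isClosed_le continuous_nsq continuous_const)) fun _ hx => hx.2

theorem lv_open {x : E3} (hx : x ∈ Lv f r) : ∀ᶠ y in 𝓝 x, f y = 0 → y ∈ Lv f r := by
  have e1 : ∀ᶠ y in 𝓝 x, y ≠ 0 := isOpen_ne.mem_nhds hx.2.1
  have e2 : ∀ᶠ y in 𝓝 x, nsq y < r ^ 2 :=
    (isOpen_lt continuous_nsq continuous_const).mem_nhds hx.2.2
  filter_upwards [e1, e2] with y a1 a2 a3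
  exact ⟨a3, a1, a2⟩

theorem ae_lv {ν : Measure E3} (hν : IsNu f 0 r ν) : ∀ᵐ x ∂ν, x ∈ Lv f r := by
  rw [ae_iff]; exact hν.null

/-- **`SQStmt`** -/
theorem sqStmt : SQStmt := by
  classical
  intro f r H L hH ν hν g hg hnz a ha
  obtain ⟨r₁, r₂, h1, h2, h3, h4⟩ := ha.supp
  set a' : E3 → ℝ := fun x => if x ∈ Lv f r then a x else 0 with ha'
  have hin : ∀ x ∈ Lv f r, a' x = a x := fun x hx => if_pos hx
  have hout : ∀ x, x ∉ Lv f r → a' x = 0 := fun x hx => if_neg hx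
  have hsm : SmL f 0 r a' := fun θ O hP => (ha.sm θ O hP).congr fun z hz =>
    hin _ (LossA_625.pe_lv hP hz)
  have hEq : ∀ x ∈ Lv f r, EqL f 0 x a' a := fun x hx => by
    filter_upwards [lv_open hx] with y hy hy0
    exact hin y (hy hy0)
  have hnz' : ∀ θ O, PE f 0 r θ O → ∀ z ∈ O, LossD_309.dV g θ z ≠ 0 := fun θ O hP z hz =>
    dV_ne (hnz θ O hP z hz)
  obtain ⟨i1, i2, i3⟩ := Bun.e1L (Mt.bun hH hg) L hν hsm
    (K := {x : E3 | r₁ ^ 2 ≤ nsq x ∧ nsq x ≤ r₂ ^ 2}) isCompact_ann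
    (fun x hx => hx.2.trans_lt (by gcongr)) (fun x hx _ h0 => by
      rw [h0] at hx
      have : (0 : ℝ) < nsq (0 : E3) := lt_of_lt_of_le (by positivity) hx.1
      simp [nsq] at this)
    (fun x hfx hxK => by
      by_cases hx : x ∈ Lv f r
      · rw [hin x hx]
        refine h4 x hx ?_
        by_contra hcon
        push Not at hcon
        exact hxK ⟨hcon.1.le, hcon.2.le⟩
      · exact hout x hx)
    (fun θ O h z hz h1 => absurd h1 (hnz' θ O h z hz))
    ∅ (by simp) (fun θ O h z hz => by simp [hnz' θ O h z hz])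
  have e1 : (fun x => a' x * c2x f H x) =ᵐ[ν] fun x => a x * c2h f H x := by
    filter_upwards [ae_lv hν] with x hx
    rw [hin x hx]
    rfl
  have e2 : ox f H (LossD_309.dV g) a' =ᵐ[ν] Gd f H g a := by
    filter_upwards [ae_lv hν] with x hx
    rw [ox_congr L hsm (hEq x hx) hx.1 hx.2.1 hx.2.2]
    rfl
  refine ⟨i1.congr e1, i2.congr e2, ?_⟩
  rw [← integral_congr_ae e1, ← integral_congr_ae e2, i3, Finset.sum_empty, mul_zero, add_zero]

/-! ### `VlStmt` -/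

/-- the volume function -/
def Uo (f : E3 → ℂ) (H : Form) (x : E3) : ℝ :=
  Real.log (dns f (fun θ z => ((H θ z).det.re)⁻¹) x)

theorem det_ofReal {X : Matrix (Fin 2) (Fin 2) ℂ} (hX : X.PosDef) :
    X.det = ((X.det.re : ℝ) : ℂ) :=
  Complex.ext (Complex.ofReal_re _).symm (by
    rw [Complex.ofReal_im]; exact (Complex.lt_def.1 hX.det_pos).2.symm)

theorem det_tr {X J : Matrix (Fin 2) (Fin 2) ℂ} (hX : X.PosDef) :
    (((((Jᵀ)⁻¹)ᴴ * X * (Jᵀ)⁻¹).det).re)⁻¹ = ‖J.det‖ ^ 2 * (X.det.re)⁻¹ := by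
  have h1 : (((Jᵀ)⁻¹)ᴴ * X * (Jᵀ)⁻¹).det = (((‖J.det‖ ^ 2)⁻¹ * X.det.re : ℝ) : ℂ) := by
    rw [Matrix.det_mul, Matrix.det_mul, Matrix.det_conjTranspose, Matrix.det_nonsing_inv,
      Ring.inverse_eq_inv', Matrix.det_transpose]
    have h2 : star (J.det)⁻¹ * (J.det)⁻¹ = (((‖J.det‖ ^ 2)⁻¹ : ℝ) : ℂ) := by
      rw [Complex.star_def, map_inv₀, ← mul_inv, ← Complex.normSq_eq_conj_mul_self,
        Complex.normSq_eq_norm_sq, Complex.ofReal_inv]
    rw [Complex.ofReal_mul, ← h2, ← det_ofReal hX]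
    ring
  rw [h1, Complex.ofReal_re, mul_inv, inv_inv]

theorem Mt.dns_det (L : LvlOK f 0 r) (hH : Mt f r H) {θ : Cn 2 → E3} {O : Set (Cn 2)}
    (hP : PE f 0 r θ O) {z : Cn 2} (hz : z ∈ O) :
    dns f (fun θ z => ((H θ z).det.re)⁻¹) (θ z) * eta2a (n := 2) f θ z =
      ((H θ z).det.re)⁻¹ := by
  refine dns_eq (D := fun θ z => ((H θ z).det.re)⁻¹) hP.par hz (L.an _ (hP.lt z hz))
    (L.sm _ (hP.ne z hz) (hP.lt z hz) (hP.par.lvl z hz)) ?_
  intro θ' z' T hT hTz hTe hdet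
  obtain ⟨O', hP', hz'⟩ := pe_comp hP hT hTe hdet
  have hTe' := eventually_eventually_nhds.2 hTe
  show ((H θ' z').det.re)⁻¹ = _
  rw [Mt.tr_eq hH hP hP' hz' hT.self_of_nhds hTe hdet, hTz,
    det_tr (hH.pos θ O hP z hz)]

theorem Mt.vl (L : LvlOK f 0 r) (hH : Mt f r H) : Vl f r H (Uo f H) := by
  have key : ∀ θ O, PE f 0 r θ O → ∀ z ∈ O,
      0 < (H θ z).det.re ∧ 0 < eta2a (n := 2) f θ z ∧
      Uo f H (θ z) = - Real.log ((H θ z).det.re) - Real.log (eta2a (n := 2) f θ z) := by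
    intro θ O hP z hz
    have h1 : 0 < (H θ z).det.re := det_re_pos'' (hH.pos θ O hP z hz)
    have h2 : 0 < eta2a (n := 2) f θ z := eta2a_nn hP L.sm hz
    refine ⟨h1, h2, ?_⟩
    have h3 := Mt.dns_det L hH hP hz
    have h4 : dns f (fun θ z => ((H θ z).det.re)⁻¹) (θ z) =
        ((H θ z).det.re)⁻¹ / eta2a (n := 2) f θ z := by
      rw [eq_div_iff h2.ne']
      exact h3
    rw [Uo, h4, Real.log_div (inv_ne_zero h1.ne') h2.ne', Real.log_inv]
  refine ⟨fun θ O hP => ?_, fun θ O hP z hz => ?_⟩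
  · intro z hz
    refine ContDiffAt.contDiffWithinAt ?_
    have hO := hP.par.isOpen
    obtain ⟨q, hq, hq0, hqe⟩ := eta2a_norm (n := 2) hP.par hz (L.an _ (hP.lt z hz))
      (L.sm _ (hP.ne z hz) (hP.lt z hz) (hP.par.lvl z hz))
    have s1 : ContDiffAt ℝ ∞ (fun w => Real.log ((H θ w).det.re)) z := by
      have h1 : SmM z (H θ) := fun a b => (hH.sm θ O hP a b).contDiffAt (hO.mem_nhds hz)
      exact (Complex.reCLM.contDiff.contDiffAt.comp z (SmM.det h1)).log (key θ O hP z hz).1.ne'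
    have s2 : ContDiffAt ℝ ∞ (fun w => Real.log (‖q w‖ ^ 2)) z := KEl_835.c2_log hq hq0 ∞
    refine (s1.neg.sub s2).congr_of_eventuallyEq ?_
    filter_upwards [hO.mem_nhds hz, hqe] with w hw hw'
    have h1 : eta2a (n := 2) f θ w = ‖q w‖ ^ 2 := hw'
    rw [(key θ O hP w hw).2.2, h1]
  · obtain ⟨h1, h2, h3⟩ := key θ O hP z hz
    rw [h3, show -(-Real.log ((H θ z).det.re) - Real.log (eta2a (n := 2) f θ z)) =
      Real.log ((H θ z).det.re) + Real.log (eta2a (n := 2) f θ z) by ring, Real.exp_add,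
      Real.exp_log h1, Real.exp_log h2]

/-- **`VlStmt`** -/
theorem vlStmt : VlStmt := fun _ _ H L hH => ⟨_, Mt.vl (H := H) L hH⟩

/-! ### `MtOStmt` -/

theorem mt_HK (L : LvlOK f 0 r) {u : E3 → ℝ} (hu : KEon f 0 r u) : Mt f r (HK u) := by
  have B : ∀ h : E3 → ℂ, (∀ x, nsq x < r ^ 2 → AnalyticAt ℂ h x) →
      Bun f 0 r (HK u) (LossD_309.dV h) := fun h hh =>
    bunO L hu.sm hu.pos (smL_const 0) hh
  refine ⟨fun θ O hP a b z hz => ?_, fun θ O hP z hz => ?_, ?_⟩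
  · exact (((B (fun _ => 0) fun _ _ => analyticAt_const).bv θ O hP z hz).mH.self_of_nhds
      a b).contDiffWithinAt
  · exact ((B (fun _ => 0) fun _ _ => analyticAt_const).bv θ O hP z hz).mP.self_of_nhds
  · intro θ O θ' O' z z' hP hP' hz hz' hzz a
    obtain ⟨T, hT, hTz, hTe⟩ := exists_trans hP.par hP'.par hz hz' hzz
      (L.an _ (hP'.lt z' hz')).hasStrictFDerivAt
      (L.sm _ (hP'.ne z' hz') (hP'.lt z' hz') (hP'.par.lvl z' hz'))
    have hdet := det_trans hP.par hP'.par hz hT hTe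
    have hTO : T z ∈ O' := by rw [hTz]; exact hz'
    obtain ⟨F, c⟩ := (B (lin a) fun x _ => lin_an a x).tr θ' O' hP' θ z T hT hTO hTe hdet
    have h5 : hV (HK u θ) (LossD_309.dV (lin a) θ) z =
        hV (HK u θ') (LossD_309.dV (lin a) θ') (T z) := c.hV_eq.self_of_nhds
    rw [hTz] at h5
    exact h5

theorem vl_HK (L : LvlOK f 0 r) {u : E3 → ℝ} (hu : KEon f 0 r u) : Vl f r (HK u) u := by
  refine ⟨hu.sm, fun θ O hP z hz => ?_⟩
  have h2 : 0 < eta2a (n := 2) f θ z := eta2a_nn hP L.sm hz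
  have h1 := hu.ma θ O hP z hz
  unfold HK HO
  rw [Matrix.det_smul, Matrix.det_nonsing_inv, Ring.inverse_eq_inv', h1, neg_zero, Real.exp_zero,
    Complex.ofReal_one, one_pow, one_mul, ← Complex.ofReal_inv, Complex.ofReal_re, mul_inv,
    ← Real.exp_neg, mul_assoc, inv_mul_cancel₀ h2.ne', mul_one]

/-- **`MtOStmt`** -/
theorem mtOStmt : MtOStmt := fun _ _ _ L hu =>
  ⟨mt_HK L hu, vl_HK L hu, fun _ hx => c2x_HO_zero L hu hx.1 hx.2.1 hx.2.2⟩

end

end Crest.Agent.R257.MtM_822
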