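import Crest.Agent.R257.TrC_218
import Crest.Agent.R257.H0B_540
import Crest.Agent.R257.MtM_822

/-!
R257 / TrD_218 (helper218): assembly of `TrialStmt` (KUP_952), part 4: the trial metric `Htr` of
helper540.

* `mt_of_mo` : `MO f 0 r H ⟹ Mt f r H`
* `B0Stmt`   : the bound of the second fundamental form of `dg` for `Htr` [560, 844, 540]
* `met_of`   : `B0Stmt ⟹ MetStmt`
-/

set_option autoImplicit false
set_option linter.unusedSectionVars false

open Topology Filter MeasureTheory Set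
open scoped ENNReal ContDiff Matrix ComplexOrder

noncomputable section

namespace Crest.Agent.R257.TrA_218

open Crest.Agent.R275.Geo
open Crest.Agent.R273
open Crest.Agent.R273.Defs_333 (lev)
open Crest.Agent.R273.YauDefs_635 (cH)
open Crest.Agent.R257.Defs_219 Crest.Agent.R257.KED_952 Crest.Agent.R257.KEG_952
open Crest.Agent.R257.KEU_952
open Crest.Agent.R257.V1Defs_822 (SmL LvlOK lgh)
open Crest.Agent.R257.V1Pe_822
open Crest.Agent.R257.PN_835 (nsq)
open Crest.Agent.R257.Aff_835 (eta2a)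
open Crest.Agent.R257.C2F2_625 (hV bb)
open Crest.Agent.R257.KUP_952
open Crest.Agent.R257.CLogD_39
open Crest.Agent.R257.Trl_39 (Dta data_of_xl Phi)
open Crest.Agent.R257.H0_540 (MO TrD Htr r1 aL)
open Crest.Agent.R257.MtM_822 (lin_an)
open Crest.Agent.R257.Ked1_397 (exists_trans)
open Crest.Agent.R257.OutC_309 Crest.Agent.R257.OutD_309
open Crest.Agent.R257.OutB_309 (Chg.hV_eq)

/-- a metric with explicit transition is a metric -/
theorem mt_of_mo {f : E3 → ℂ} {r : ℝ} {H : Form} (L : LvlOK f 0 r) (hH : MO f 0 r H) :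
    Mt f r H := by
  refine ⟨fun θ O hP a b z hz => (hH.sm θ O hP z hz a b).contDiffWithinAt, hH.pos, ?_⟩
  intro θ O θ' O' z z' hP hP' hz hz' hzz a
  obtain ⟨T, hT, hTz, hTe⟩ := exists_trans hP.par hP'.par hz hz' hzz
    (L.an _ (hP'.lt z' hz')).hasStrictFDerivAt
    (L.sm _ (hP'.ne z' hz') (hP'.lt z' hz') (hP'.par.lvl z' hz'))
  have hdet := Crest.Agent.R257.Ked1_397.det_trans hP.par hP'.par hz hT hTe
  have hTO : T z ∈ O' := by rw [hTz]; exact hz'
  obtain ⟨F, c⟩ := (hH.bun (g := lin a) fun x _ => lin_an a x).tr θ' O' hP' θ z T hT hTO hTe hdet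
  have h5 : hV (H θ) (LossD_309.dV (lin a) θ) z =
      hV (H θ') (LossD_309.dV (lin a) θ') (T z) := c.hV_eq.self_of_nhds
  rw [hTz] at h5
  exact h5

section

variable {f : E3 → ℂ} {r A : ℝ} {u : E3 → ℝ} {k L : ℕ} {g h : E3 → ℂ}
  {q : Fin L → E3 → ℂ} {s : Fin L → ℕ} {c B : ℝ}

theorem aL_eq (hD : Dta f r A u k g h q s c B) {x : E3} (h1 : f x = 0) (h2 : x ≠ 0)
    (h3 : nsq x < r ^ 2) : aL f g q (phq q s) x = a2 f g q s x := by
  unfold aL a2
  refine Finset.sum_congr rfl fun l _ => ?_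
  have h4 := hD.qok.pos x h1 h2 h3 l
  unfold phq
  rw [Real.exp_neg, Real.exp_log h4, inv_mul_eq_div]

theorem trD_of (hD : Dta f r A u k g h q s c B) : TrD f 0 r g q (phq q s) (lgh g h) where
  g_an := hD.qok.ang
  q_an := hD.qok.anq
  φ_sm l := wts_sm hD l.succ
  ψ_sm := wts_sm hD 0
  a_pos x h1 h2 h3 := by
    rw [aL_eq hD h1 h2 h3]
    exact hD.a_pos x h1 h2 h3

theorem r1_eq (v : Fin 2 → ℂ) : r1 v = rk v := by
  ext i j
  simp [r1, rk, Matrix.vecMulVec_apply]

end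

/-- the bound of the second fundamental form of `dg` for the metric `Htr` -/
def B0Stmt : Prop := ∀ (f : E3 → ℂ) (r A : ℝ) (u : E3 → ℝ) (k : ℕ) (g h : E3 → ℂ) (L : ℕ)
  (q : Fin L → E3 → ℂ) (s : Fin L → ℕ) (c B : ℝ), LvlOK f 0 r → Dta f r A u k g h q s c B →
  ∀ θ O, PE f 0 r θ O → ∀ z ∈ O, ∀ c' : ℝ,
    Real.exp ((2 + 1 / k) * lgh g h (θ z)) * J2 f q s (θ z) / a2 f g q s (θ z) ^ 2 ≤ c' →
    ((c' : ℂ) • cH (fun y => Phi f g q s (θ y)) z -
      bb (Htr f g q (phq q s) (lgh g h) k θ) (LossD_309.dV g θ) z).PosSemidef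

/-- **`MetStmt`** from the bound of the second fundamental form -/
theorem met_of (b0 : B0Stmt) : MetStmt := by
  intro f r A u k g h L q s c B hf hD
  have hT := trD_of hD
  refine ⟨Htr f g q (phq q s) (lgh g h) k, (c ^ 3)⁻¹, mt_of_mo hf (H0_540.mo_Htr hT hf k), ?_, ?_,
    ?_, ?_⟩
  · intro θ O hP z hz
    exact hT.dg hf hP hz k
  · intro θ O hP z hz
    exact hT.det hf hP hz k
  · intro θ O hP z hz
    have h1 := hT.dual hf hP hz k
    rw [aL_eq hD (hP.par.lvl z hz) (hP.ne z hz) (hP.lt z hz)] at h1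
    simp only [r1_eq] at h1
    exact h1
  · intro θ O hP z hz
    exact b0 f r A u k g h L q s c B hf hD θ O hP z hz _
      (coef_le hD (hP.par.lvl z hz) (hP.ne z hz) (hP.lt z hz))

/-- `TrialStmt` from C-LOG and the bound of the second fundamental form -/
theorem trialStmt_of (cl : CLog_68.CLogStmt) (b0 : B0Stmt) : TrialStmt :=
  trial_of_clog cl (met_of b0)

end Crest.Agent.R257.TrA_218
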