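import Crest.Agent.R257.B1_844
import Crest.Agent.R257.TrD_218

/-!
# R257 (S0395), GB-TRIAL (task 909), part 3 (helper844)

* `b0Stmt` : `TrA_218.B0Stmt`, the bound of the second fundamental form of `dg` for the trial
  metric `Htr`
-/

set_option autoImplicit false
set_option linter.unusedSectionVars false

open Topology Filter MeasureTheory Set Complex
open scoped ENNReal ContDiff Matrix ComplexOrder ComplexConjugate

namespace Crest.Agent.R257.B0_844

open Crest.Agent.R275.Geo Crest.Agent.R275.EDR890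
open Crest.Agent.R273.Calc_243
open Crest.Agent.R273.BochD_101
open Crest.Agent.R273.Hess_333 Crest.Agent.R273.HessB_333
open Crest.Agent.R273.Defs_333 (lev)
open Crest.Agent.R273.YauDefs_635 (cH)
open Crest.Agent.R273.YauMax_635 (cH_eq_hess)
open Crest.Agent.R257.C2F1_625 Crest.Agent.R257.C2F2_625
open Crest.Agent.R257.Defs_219 Crest.Agent.R257.KED_952 Crest.Agent.R257.KEG_952
open Crest.Agent.R257.V1Defs_822 (SmL LvlOK lgh)
open Crest.Agent.R257.PN_835 (nsq)
open Crest.Agent.R257.Aff_835 (eta2a)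
open Crest.Agent.R257.CLogD_39
open Crest.Agent.R257.Trl_39 (Dta Phi)
open Crest.Agent.R257.Ked2_397 (eta2a_norm)
open Crest.Agent.R257.OutA_309 Crest.Agent.R257.OutD_309
open Crest.Agent.R257.TrA_218 (B0Stmt trD_of aL_eq)
open Crest.Agent.R257.H0_540 (Htr hm xc yc kc Pl smL_at sm_eta mo_Htr)

noncomputable section

section
variable {ι : Type} [Fintype ι] {z : Cn 2}
variable {φ : ι → Cn 2 → ℝ} {G : Fin 2 → Cn 2 → ℂ} {Q : ι → Fin 2 → Cn 2 → ℂ}

theorem wf_eq (φ : Cn 2 → ℝ) (A : Cn 2 → ℂ) (y : Cn 2) :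
    wf φ A y = ((Real.exp (- φ y) : ℝ) : ℂ) * conj (A y) := by
  unfold wf cu
  push_cast
  rfl

theorem xj_eq_xc (φ : ι → Cn 2 → ℝ) (G : Fin 2 → Cn 2 → ℂ) (Q : ι → Fin 2 → Cn 2 → ℂ)
    (i : Fin 2) (y : Cn 2) : xj φ G Q i y =
      xc (fun i => G i y) (fun l i => Q l i y) (fun l => Real.exp (- φ l y)) i := by
  fin_cases i
  · show xj φ G Q 0 y = kc (fun i => G i y) (fun l i => Q l i y) (fun l => Real.exp (- φ l y)) 1
    unfold xj kc
    rw [nC_eq]
    congr 1
    refine Finset.sum_congr rfl fun l _ => ?_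
    rw [wf_eq]
    rfl
  · show xj φ G Q 1 y = - kc (fun i => G i y) (fun l i => Q l i y)
      (fun l => Real.exp (- φ l y)) 0
    unfold xj kc
    rw [nC_eq, ← neg_div, ← Finset.sum_neg_distrib]
    congr 1
    refine Finset.sum_congr rfl fun l _ => ?_
    rw [wf_eq, ← mul_neg]
    rfl

theorem yj_eq_yc (G : Fin 2 → Cn 2 → ℂ) (i : Fin 2) (y : Cn 2) :
    yj G i y = yc (fun i => G i y) i := by
  fin_cases i
  · rfl
  · rfl

end

section
variable {f : E3 → ℂ} {r A : ℝ} {u : E3 → ℝ} {k L : ℕ} {g h : E3 → ℂ}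
  {q : Fin L → E3 → ℂ} {s : Fin L → ℕ} {c B : ℝ} {θ : Cn 2 → E3} {O : Set (Cn 2)} {z : Cn 2}

/-- the chart data -/
theorem dat_of (hf : LvlOK f 0 r) (hD : Dta f r A u k g h q s c B) (hP : PE f 0 r θ O)
    (hz : z ∈ O) : Dat (fun l y => phq q s l (θ y)) (fun i y => LossD_309.dV g θ y i)
      (fun l i y => LossD_309.dV (q l) θ y i) z := by
  have hT := trD_of hD
  refine ⟨fun l => ?_, fun i => ?_, fun l i => ?_, ?_⟩
  · filter_upwards [hP.par.isOpen.mem_nhds hz] with y hy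
    exact smL_at (hT.φ_sm l) hP hy
  · filter_upwards [hP.par.isOpen.mem_nhds hz] with y hy
    exact (dV_hol hT.g_an hP i).differentiableAt (hP.par.isOpen.mem_nhds hy)
  · filter_upwards [hP.par.isOpen.mem_nhds hz] with y hy
    exact (dV_hol (hT.q_an l) hP i).differentiableAt (hP.par.isOpen.mem_nhds hy)
  · exact hT.nL_pos hf hP hz

theorem nA_lvl (hf : LvlOK f 0 r) (hD : Dta f r A u k g h q s c B) (hP : PE f 0 r θ O)
    (hz : z ∈ O) : nA (fun l y => phq q s l (θ y)) (fun i y => LossD_309.dV g θ y i)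
      (fun l i y => LossD_309.dV (q l) θ y i) z = eta2a (n := 2) f θ z * a2 f g q s (θ z) := by
  have hT := trD_of hD
  have h1 := H0_540.nL_eq (φ := phq q s) hf hT.g_an hT.q_an hP hz
  rw [aL_eq hD (hP.par.lvl z hz) (hP.ne z hz) (hP.lt z hz)] at h1
  exact h1

theorem JJ_lvl (hf : LvlOK f 0 r) (hD : Dta f r A u k g h q s c B) (hP : PE f 0 r θ O)
    (hz : z ∈ O) : JJ (fun l y => phq q s l (θ y)) (fun l i y => LossD_309.dV (q l) θ y i) z =
      eta2a (n := 2) f θ z * J2 f q s (θ z) := by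
  have hT := trD_of hD
  have hs : ∀ l, Real.exp (phq q s l (θ z)) = sqq q s l (θ z) := fun l => by
    unfold phq
    rw [Real.exp_log (hD.qok.pos (θ z) (hP.par.lvl z hz) (hP.ne z hz) (hP.lt z hz) l)]
  unfold JJ J2
  rw [← mul_div_assoc, Finset.mul_sum]
  congr 1
  refine Finset.sum_congr rfl fun l _ => ?_
  rw [Finset.mul_sum]
  refine Finset.sum_congr rfl fun m _ => ?_
  have h1 : ‖wdg (fun i y => LossD_309.dV (q l) θ y i) (fun i y => LossD_309.dV (q m) θ y i) z‖ ^ 2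
      = eta2a (n := 2) f θ z * ‖Dt f (q l) (q m) (θ z)‖ ^ 2 :=
    H0_540.wd_sq hf (hT.q_an l) (hT.q_an m) hP hz
  rw [h1, hs, hs, mul_div_assoc]

/-- `Φ` and `log nA + ∑ φ_l` have the same Hessian -/
theorem hess_Phi (hf : LvlOK f 0 r) (hD : Dta f r A u k g h q s c B) (hP : PE f 0 r θ O)
    (hz : z ∈ O) : cH (fun y => Phi f g q s (θ y)) z =
      hess (fun y => Real.log (nA (fun l y => phq q s l (θ y)) (fun i y => LossD_309.dV g θ y i)
      (fun l i y => LossD_309.dV (q l) θ y i) y) + ∑ l, phq q s l (θ y)) z := by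
  have hsm : ContDiffAt ℝ ∞ (fun y => Phi f g q s (θ y)) z := smL_at (hD.phi_smL hf) hP hz
  obtain ⟨p, hp, hp0, he⟩ := eta2a_norm (n := 2) hP.par hz (hf.an _ (hP.lt z hz))
    (hf.sm _ (hP.ne z hz) (hP.lt z hz) (hP.par.lvl z hz))
  have hpd : ∀ᶠ y in 𝓝 z, DifferentiableAt ℂ p y :=
    hp.eventually_analyticAt.mono fun w hw => hw.differentiableAt
  have hpl : ContDiffAt ℝ ∞ (fun y => Real.log (‖p y‖ ^ 2)) z := by
    have h1 : Sm z p := sm_of_hol hpd
    exact (h1.norm_sq ℝ).log (pow_ne_zero 2 (norm_ne_zero_iff.2 hp0))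
  have e : (fun y => Real.log (nA (fun l y => phq q s l (θ y))
      (fun i y => LossD_309.dV g θ y i) (fun l i y => LossD_309.dV (q l) θ y i) y) +
      ∑ l, phq q s l (θ y)) =ᶠ[𝓝 z] fun y => Real.log (‖p y‖ ^ 2) + Phi f g q s (θ y) := by
    have he' : ∀ᶠ y in 𝓝 z, eta2a (n := 2) f θ y = ‖p y‖ ^ 2 := he
    filter_upwards [he', hP.par.isOpen.mem_nhds hz] with y h1 hy
    have h2 : 0 < eta2a (n := 2) f θ y := eta2a_nn hP hf.sm hy
    have h3 := hD.a_pos (θ y) (hP.par.lvl y hy) (hP.ne y hy) (hP.lt y hy)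
    rw [nA_lvl hf hD hP hy, Real.log_mul h2.ne' h3.ne', h1]
    unfold Phi
    ring
  rw [hess_congr e, hess_add hpl hsm, hess_log_norm hpd hp0, zero_add, cH_eq_hess hsm]

/-- **the bound of the second fundamental form** -/
theorem b0Stmt : B0Stmt := by
  intro f r A u k g h L q s c B hf hD θ O hP z hz c' hc'
  have hT := trD_of hD
  have hd := dat_of hf hD hP hz
  have hM := mo_Htr hT hf (k : ℝ)
  have hO := hP.par.isOpen.mem_nhds hz
  rw [hess_Phi hf hD hP hz]
  refine hd.core (α := fun y => Real.exp (lgh g h (θ y)))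
    (β := fun y => Real.exp (-((1 + 1 / (k : ℝ)) * lgh g h (θ y))) / eta2a (n := 2) f θ y)
    ?_ ?_ ?_ rfl ?_ ?_ ?_ ?_ ?_
  · intro l v
    exact Crest.Agent.R257.MsJ_617.phq_psh hD.qok l θ O hP z hz v
  · filter_upwards [hO] with y hy
    exact ⟨(smL_at hT.ψ_sm hP hy).exp, Real.exp_pos _⟩
  · filter_upwards [hO] with y hy
    exact ⟨((contDiffAt_const.mul (smL_at hT.ψ_sm hP hy)).neg.exp).div (sm_eta hf hP hy)
      (eta2a_nn hP hf.sm hy).ne', div_pos (Real.exp_pos _) (eta2a_nn hP hf.sm hy)⟩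
  · filter_upwards [hO] with y hy
    exact hM.sm θ O hP y hy
  · exact (hM.pos θ O hP z hz).det_pos.ne'
  · refine Eventually.of_forall fun y i j => ?_
    rw [xj_eq_xc, xj_eq_xc, yj_eq_yc, yj_eq_yc]
    rfl
  · filter_upwards [hO] with y hy
    exact hT.dg hf hP hy k
  · refine le_trans (le_of_eq ?_) hc'
    have h1 := eta2a_nn hP hf.sm hz
    have h2 := hD.a_pos (θ z) (hP.par.lvl z hz) (hP.ne z hz) (hP.lt z hz)
    rw [JJ_lvl hf hD hP hz, nA_lvl hf hD hP hz]
    have h3 : Real.exp ((2 + 1 / (k : ℝ)) * lgh g h (θ z)) = Real.exp (lgh g h (θ z)) *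
        Real.exp ((1 + 1 / (k : ℝ)) * lgh g h (θ z)) := by
      rw [← Real.exp_add]
      congr 1
      ring
    rw [h3]
    show Real.exp (lgh g h (θ z)) / (Real.exp (-((1 + 1 / (k : ℝ)) * lgh g h (θ z))) /
      eta2a (n := 2) f θ z) * _ = _
    rw [Real.exp_neg]
    field_simp

end

end

end Crest.Agent.R257.B0_844
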