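import Crest.Agent.R257.C2F1_625

/-!
# R257 (S0395), part (GB), leaf GB-UPP (helper532): one parameter families of smooth functions

* `SmJ r z f`, `SmMJ r z m` : `f : ℝ → Cn n → ℂ` (a matrix `m`) is smooth in both variables at `(r, z)`
* `SmJ.slice`, `SmJ.dS`     : slices, Wirtinger derivatives
* `SmJ.hasDerivAt_dS`       : `∂_r ∂_a = ∂_a ∂_r`
* `HM f f' r`               : entrywise derivative of a matrix valued function
-/

set_option autoImplicit false
set_option linter.unusedSectionVars false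

open Finset Matrix Complex Filter Topology
open scoped ContDiff ComplexConjugate ComplexOrder

namespace Crest.Agent.R257.BCU1_532

open Crest.Agent.R275.Geo Crest.Agent.R275.EDR890
open Crest.Agent.R273.Fock_243 Crest.Agent.R273.Calc_243
open Crest.Agent.R273.Bkn_243 Crest.Agent.R273.Pos_243 Crest.Agent.R273.BochA_101
open Crest.Agent.R273.BochB_101
open Crest.Agent.R273.BochC_101 Crest.Agent.R273.BochD_101
open Crest.Agent.R273.Hess_333 Crest.Agent.R273.HessB_333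
open Crest.Agent.R257.C2F1_625

noncomputable section

variable {n : ℕ}

/-- smooth in both variables -/
def SmJ (r : ℝ) (z : Cn n) (f : ℝ → Cn n → ℂ) : Prop :=
  ContDiffAt ℝ ∞ (fun q : ℝ × Cn n => f q.1 q.2) (r, z)

/-- smooth in both variables, matrices -/
def SmMJ {ι κ : Type} (r : ℝ) (z : Cn n) (m : ℝ → Cn n → Matrix ι κ ℂ) : Prop :=
  ∀ S T, SmJ r z (fun r z => m r z S T)

namespace SmJ

variable {r : ℝ} {z : Cn n} {f g : ℝ → Cn n → ℂ}

theorem slice (h : SmJ r z f) : Sm z (f r) := by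
  have h1 : ContDiffAt ℝ ∞ (fun y : Cn n => ((r, y) : ℝ × Cn n)) z :=
    contDiffAt_const.prodMk contDiffAt_id
  exact ContDiffAt.comp z (g := fun q : ℝ × Cn n => f q.1 q.2) (f := fun y => (r, y)) h h1

theorem ofSm {f : Cn n → ℂ} (h : Sm z f) : SmJ r z (fun _ => f) :=
  ContDiffAt.comp (r, z) (g := f) (f := Prod.snd) h contDiffAt_snd

theorem const (c : ℂ) : SmJ r z (fun _ _ => c) := contDiffAt_const

theorem add (hf : SmJ r z f) (hg : SmJ r z g) : SmJ r z (fun r z => f r z + g r z) :=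
  ContDiffAt.add hf hg

theorem sub (hf : SmJ r z f) (hg : SmJ r z g) : SmJ r z (fun r z => f r z - g r z) :=
  ContDiffAt.sub hf hg

theorem neg (hf : SmJ r z f) : SmJ r z (fun r z => - f r z) := ContDiffAt.neg hf

theorem mul (hf : SmJ r z f) (hg : SmJ r z g) : SmJ r z (fun r z => f r z * g r z) :=
  ContDiffAt.mul hf hg

theorem inv (hf : SmJ r z f) (h0 : f r z ≠ 0) : SmJ r z (fun r z => (f r z)⁻¹) :=
  ContDiffAt.inv hf h0

theorem sum {σ : Type*} {s : Finset σ} {f : σ → ℝ → Cn n → ℂ} (hf : ∀ t ∈ s, SmJ r z (f t)) :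
    SmJ r z (fun r z => ∑ t ∈ s, f t r z) := ContDiffAt.sum hf

theorem cont (h : SmJ r z f) : ContinuousAt (fun q : ℝ × Cn n => f q.1 q.2) (r, z) :=
  ContDiffAt.continuousAt h

theorem ev_diff (h : SmJ r z f) :
    ∀ᶠ q in 𝓝 (r, z), DifferentiableAt ℝ (fun q : ℝ × Cn n => f q.1 q.2) q := by
  have := (ContDiffAt.of_le (m := 1) h (by exact_mod_cast le_top)).eventually (by simp)
  filter_upwards [this] with y hy
  exact hy.differentiableAt (by simp)

/-- derivatives of slices -/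
theorem fderiv_slice {q : ℝ × Cn n} (h : DifferentiableAt ℝ (fun q : ℝ × Cn n => f q.1 q.2) q)
    (v : Cn n) : fderiv ℝ (f q.1) q.2 v = fderiv ℝ (fun q : ℝ × Cn n => f q.1 q.2) q (0, v) := by
  have h1 : HasFDerivAt (fun y : Cn n => ((q.1, y) : ℝ × Cn n))
      ((0 : Cn n →L[ℝ] ℝ).prod (ContinuousLinearMap.id ℝ (Cn n))) q.2 :=
    (hasFDerivAt_const _ _).prodMk (hasFDerivAt_id _)
  have h2 : HasFDerivAt (fun q : ℝ × Cn n => f q.1 q.2)
      (fderiv ℝ (fun q : ℝ × Cn n => f q.1 q.2) q) (q.1, q.2) := h.hasFDerivAt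
  have h3 := HasFDerivAt.comp q.2 h2 h1
  have h4 : fderiv ℝ (f q.1) q.2 = _ := h3.fderiv
  rw [h4]
  simp

theorem deriv_slice {q : ℝ × Cn n} (h : DifferentiableAt ℝ (fun q : ℝ × Cn n => f q.1 q.2) q) :
    HasDerivAt (fun r => f r q.2) (fderiv ℝ (fun q : ℝ × Cn n => f q.1 q.2) q (1, 0)) q.1 := by
  have h1 : HasDerivAt (fun r : ℝ => ((r, q.2) : ℝ × Cn n)) (1, 0) q.1 :=
    (hasDerivAt_id _).prodMk (hasDerivAt_const _ _)
  have h2 : HasFDerivAt (fun q : ℝ × Cn n => f q.1 q.2)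
      (fderiv ℝ (fun q : ℝ × Cn n => f q.1 q.2) q) (q.1, q.2) := h.hasFDerivAt
  exact HasFDerivAt.comp_hasDerivAt q.1 h2 h1

theorem dS_ev (h : SmJ r z f) (s : ℂ) (a : Fin n) :
    (fun q : ℝ × Cn n => dS s a (f q.1) q.2) =ᶠ[𝓝 (r, z)] fun q => (1 / 2 : ℂ) *
      (fderiv ℝ (fun q : ℝ × Cn n => f q.1 q.2) q (0, EuclideanSpace.single a 1)
        + s * fderiv ℝ (fun q : ℝ × Cn n => f q.1 q.2) q (0, EuclideanSpace.single a I)) := by
  filter_upwards [h.ev_diff] with q hq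
  rw [dS, fderiv_slice hq, fderiv_slice hq]

theorem dw (h : SmJ r z f) (s : ℂ) (a : Fin n) : SmJ r z (fun r => dS s a (f r)) := by
  have h1 : ContDiffAt ℝ ∞ (fderiv ℝ (fun q : ℝ × Cn n => f q.1 q.2)) (r, z) :=
    ContDiffAt.fderiv_right h (by simp)
  have h2 : ∀ v : ℝ × Cn n, ContDiffAt ℝ ∞ (fun q => fderiv ℝ (fun q : ℝ × Cn n => f q.1 q.2) q v)
      (r, z) := fun v => h1.clm_apply contDiffAt_const
  refine ContDiffAt.congr_of_eventuallyEq ?_ (h.dS_ev s a)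
  exact contDiffAt_const.mul ((h2 _).add (contDiffAt_const.mul (h2 _)))

/-- `∂_r ∂_a = ∂_a ∂_r` -/
theorem hasDerivAt_dS (h : SmJ r z f) {g : Cn n → ℂ}
    (hg : ∀ᶠ y in 𝓝 z, HasDerivAt (fun r => f r y) (g y) r) (s : ℂ) (a : Fin n) :
    HasDerivAt (fun r => dS s a (f r) z) (dS s a g z) r := by
  set F : ℝ × Cn n → ℂ := fun q => f q.1 q.2 with hF
  have h1 : ContDiffAt ℝ ∞ (fderiv ℝ F) (r, z) := ContDiffAt.fderiv_right h (by simp)
  have hd : DifferentiableAt ℝ (fderiv ℝ F) (r, z) := h1.differentiableAt (by simp)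
  have hsymm : ∀ v w : ℝ × Cn n, fderiv ℝ (fderiv ℝ F) (r, z) w v
      = fderiv ℝ (fderiv ℝ F) (r, z) v w :=
    fun v w => (ContDiffAt.isSymmSndFDerivAt h (by
      simp only [minSmoothness_of_isRCLikeNormedField]
      exact WithTop.coe_le_coe.2 (le_top : (2 : ℕ∞) ≤ ⊤))).eq w v
  have h2 : ∀ v : ℝ × Cn n, HasFDerivAt (fun q => fderiv ℝ F q v)
      ((ContinuousLinearMap.apply ℝ ℂ v).comp (fderiv ℝ (fderiv ℝ F) (r, z))) (r, z) := fun v =>
    ((ContinuousLinearMap.apply ℝ ℂ v).hasFDerivAt).comp (r, z) hd.hasFDerivAt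
  -- the curve `r ↦ (r, z)`
  have hc : HasDerivAt (fun r : ℝ => ((r, z) : ℝ × Cn n)) (1, 0) r :=
    (hasDerivAt_id _).prodMk (hasDerivAt_const _ _)
  have h3 : ∀ v : ℝ × Cn n, HasDerivAt (fun r => fderiv ℝ F (r, z) v)
      (fderiv ℝ (fderiv ℝ F) (r, z) (1, 0) v) r := fun v => by
    have := HasFDerivAt.comp_hasDerivAt r (h2 v) hc
    exact this
  have h4 : (fun r => dS s a (f r) z) =ᶠ[𝓝 r] fun r => (1 / 2 : ℂ) *
      (fderiv ℝ F (r, z) (0, EuclideanSpace.single a 1)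
        + s * fderiv ℝ F (r, z) (0, EuclideanSpace.single a I)) := by
    have hc' : Tendsto (fun r : ℝ => ((r, z) : ℝ × Cn n)) (𝓝 r) (𝓝 (r, z)) :=
      hc.continuousAt.tendsto
    exact hc'.eventually (h.dS_ev s a)
  have h5 : HasDerivAt (fun r => dS s a (f r) z) ((1 / 2 : ℂ) *
      (fderiv ℝ (fderiv ℝ F) (r, z) (1, 0) (0, EuclideanSpace.single a 1)
        + s * fderiv ℝ (fderiv ℝ F) (r, z) (1, 0) (0, EuclideanSpace.single a I))) r :=
    (((h3 _).add ((h3 _).const_mul s)).const_mul (1 / 2 : ℂ)).congr_of_eventuallyEq h4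
  -- the derivative `g`
  have hcz : Tendsto (fun y : Cn n => ((r, y) : ℝ × Cn n)) (𝓝 z) (𝓝 (r, z)) :=
    ((contDiffAt_const.prodMk contDiffAt_id : ContDiffAt ℝ ∞
      (fun y : Cn n => ((r, y) : ℝ × Cn n)) z).continuousAt).tendsto
  have h6 : g =ᶠ[𝓝 z] fun y => fderiv ℝ F (r, y) (1, 0) := by
    filter_upwards [hg, hcz.eventually h.ev_diff] with y h7 h8
    exact h7.unique (deriv_slice h8)
  have h7 : ∀ v : Cn n, fderiv ℝ g z v = fderiv ℝ (fderiv ℝ F) (r, z) (0, v) (1, 0) := by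
    intro v
    rw [h6.fderiv_eq]
    have h8 : HasFDerivAt (fun y : Cn n => ((r, y) : ℝ × Cn n))
      ((0 : Cn n →L[ℝ] ℝ).prod (ContinuousLinearMap.id ℝ (Cn n))) z :=
      (hasFDerivAt_const _ _).prodMk (hasFDerivAt_id _)
    have h9 := HasFDerivAt.comp z (h2 (1, 0)) h8
    have h10 : fderiv ℝ (fun y => fderiv ℝ F (r, y) (1, 0)) z = _ := h9.fderiv
    rw [h10]
    simp
  have h8 : dS s a g z = (1 / 2 : ℂ) *
      (fderiv ℝ (fderiv ℝ F) (r, z) (1, 0) (0, EuclideanSpace.single a 1)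
        + s * fderiv ℝ (fderiv ℝ F) (r, z) (1, 0) (0, EuclideanSpace.single a I)) := by
    rw [dS, h7, h7, hsymm _ (1, 0), hsymm _ (1, 0)]
  rw [h8]
  exact h5

end SmJ

namespace SmMJ

variable {ι κ σ : Type} {r : ℝ} {z : Cn n}

theorem slice {m : ℝ → Cn n → Matrix ι κ ℂ} (h : SmMJ r z m) : SmM z (m r) := fun S T =>
  (h S T).slice

theorem ofSm {m : Cn n → Matrix ι κ ℂ} (h : SmM z m) : SmMJ r z (fun _ => m) := fun S T =>
  SmJ.ofSm (h S T)

theorem add {m m' : ℝ → Cn n → Matrix ι κ ℂ} (h : SmMJ r z m) (h' : SmMJ r z m') :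
    SmMJ r z (fun r z => m r z + m' r z) := fun S T => (h S T).add (h' S T)

theorem sub {m m' : ℝ → Cn n → Matrix ι κ ℂ} (h : SmMJ r z m) (h' : SmMJ r z m') :
    SmMJ r z (fun r z => m r z - m' r z) := fun S T => (h S T).sub (h' S T)

theorem neg {m : ℝ → Cn n → Matrix ι κ ℂ} (h : SmMJ r z m) :
    SmMJ r z (fun r z => - m r z) := fun S T => (h S T).neg

theorem mul [Fintype κ] {m : ℝ → Cn n → Matrix ι κ ℂ} {m' : ℝ → Cn n → Matrix κ σ ℂ}
    (h : SmMJ r z m) (h' : SmMJ r z m') : SmMJ r z (fun r z => m r z * m' r z) := fun S T =>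
  SmJ.sum (f := fun j r z => m r z S j * m' r z j T) fun j _ => (h S j).mul (h' j T)

theorem trace [Fintype ι] {m : ℝ → Cn n → Matrix ι ι ℂ} (h : SmMJ r z m) :
    SmJ r z (fun r z => (m r z).trace) :=
  SmJ.sum (f := fun j r z => m r z j j) fun j _ => h j j

theorem dw {m : ℝ → Cn n → Matrix ι κ ℂ} (h : SmMJ r z m) (s : ℂ) (a : Fin n) :
    SmMJ r z (fun r => dM s a (m r)) := fun S T => (h S T).dw s a

theorem smul {c : ℝ → Cn n → ℂ} {m : ℝ → Cn n → Matrix ι κ ℂ} (hc : SmJ r z c)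
    (h : SmMJ r z m) : SmMJ r z (fun r z => c r z • m r z) := fun S T => hc.mul (h S T)

theorem det [Fintype ι] [DecidableEq ι] {m : ℝ → Cn n → Matrix ι ι ℂ} (h : SmMJ r z m) :
    SmJ r z (fun r z => (m r z).det) := by
  show ContDiffAt ℝ ∞ (fun q : ℝ × Cn n => (m q.1 q.2).det) (r, z)
  simp only [Matrix.det_apply']
  exact ContDiffAt.sum fun σ _ => contDiffAt_const.mul (contDiffAt_prod fun i _ => h _ _)

end SmMJ

/-! ### entrywise derivatives -/

/-- entrywise derivative -/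
def HM {ι κ : Type} (f : ℝ → Matrix ι κ ℂ) (f' : Matrix ι κ ℂ) (r : ℝ) : Prop :=
  ∀ S T, HasDerivAt (fun r => f r S T) (f' S T) r

namespace HM

variable {ι κ σ : Type} {r : ℝ}

theorem const (m : Matrix ι κ ℂ) : HM (fun _ => m) 0 r := fun _ _ => hasDerivAt_const _ _

theorem add {f g : ℝ → Matrix ι κ ℂ} {f' g' : Matrix ι κ ℂ} (hf : HM f f' r) (hg : HM g g' r) :
    HM (fun r => f r + g r) (f' + g') r := fun S T => (hf S T).add (hg S T)

theorem sub {f g : ℝ → Matrix ι κ ℂ} {f' g' : Matrix ι κ ℂ} (hf : HM f f' r) (hg : HM g g' r) :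
    HM (fun r => f r - g r) (f' - g') r := fun S T => (hf S T).sub (hg S T)

theorem neg {f : ℝ → Matrix ι κ ℂ} {f' : Matrix ι κ ℂ} (hf : HM f f' r) :
    HM (fun r => - f r) (- f') r := fun S T => (hf S T).neg

theorem mul [Fintype κ] {f : ℝ → Matrix ι κ ℂ} {g : ℝ → Matrix κ σ ℂ} {f' : Matrix ι κ ℂ}
    {g' : Matrix κ σ ℂ} (hf : HM f f' r) (hg : HM g g' r) :
    HM (fun r => f r * g r) (f' * g r + f r * g') r := by
  intro S T
  have h1 : HasDerivAt (fun r => ∑ j, f r S j * g r j T)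
      (∑ j, (f' S j * g r j T + f r S j * g' j T)) r :=
    HasDerivAt.fun_sum fun j _ => (hf S j).mul (hg j T)
  have e : (f' * g r + f r * g') S T = ∑ j, (f' S j * g r j T + f r S j * g' j T) := by
    rw [Matrix.add_apply, Matrix.mul_apply, Matrix.mul_apply, ← Finset.sum_add_distrib]
  rw [e]
  exact h1

theorem trace [Fintype ι] {f : ℝ → Matrix ι ι ℂ} {f' : Matrix ι ι ℂ} (hf : HM f f' r) :
    HasDerivAt (fun r => (f r).trace) f'.trace r :=
  HasDerivAt.fun_sum fun j _ => hf j j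

theorem dw {m : ℝ → Cn n → Matrix ι κ ℂ} {z : Cn n} (h : SmMJ r z m)
    {g : Cn n → Matrix ι κ ℂ} (hg : ∀ᶠ y in 𝓝 z, HM (fun r => m r y) (g y) r) (s : ℂ)
    (a : Fin n) : HM (fun r => dM s a (m r) z) (dM s a g z) r := fun S T =>
  SmJ.hasDerivAt_dS (h S T) (hg.mono fun _ hy => hy S T) s a

end HM

end

end Crest.Agent.R257.BCU1_532
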