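import Crest.Agent.R257.BCU1_532

/-!
# R257 (S0395), part (GB), leaf GB-UPP (helper532): exponentials of matrix fields

* `ex L r = exp (r L)`, semigroup, derivative, smoothness
* `geo_pos` : `G e^{rL}` is positive definite if `G` is and `G L` is Hermitian
-/

set_option autoImplicit false
set_option linter.unusedSectionVars false

open Finset Matrix Complex Filter Topology
open scoped ContDiff ComplexConjugate ComplexOrder

namespace Crest.Agent.R257.BCU2_532

open Crest.Agent.R275.Geo Crest.Agent.R275.EDR890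
open Crest.Agent.R273.Fock_243 Crest.Agent.R273.Calc_243
open Crest.Agent.R273.Bkn_243 Crest.Agent.R273.Pos_243 Crest.Agent.R273.BochA_101
open Crest.Agent.R273.BochB_101
open Crest.Agent.R273.BochC_101 Crest.Agent.R273.BochD_101
open Crest.Agent.R273.Hess_333 Crest.Agent.R273.HessB_333
open Crest.Agent.R257.C2F1_625 Crest.Agent.R257.BCU1_532

noncomputable section

variable {κ : Type} [Fintype κ] [DecidableEq κ]

/-- `exp (r L)` -/
def ex (L : Matrix κ κ ℂ) (r : ℝ) : Matrix κ κ ℂ := NormedSpace.exp (r • L)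

theorem ex_zero (L : Matrix κ κ ℂ) : ex L 0 = 1 := by
  unfold ex
  rw [zero_smul, NormedSpace.exp_zero]

theorem ex_add (L : Matrix κ κ ℂ) (r s : ℝ) : ex L (r + s) = ex L r * ex L s := by
  unfold ex
  rw [add_smul, Matrix.exp_add_of_commute]
  exact ((Commute.refl L).smul_right s).smul_left r

theorem ex_neg_mul (L : Matrix κ κ ℂ) (r : ℝ) : ex L (-r) * ex L r = 1 := by
  rw [← ex_add, neg_add_cancel, ex_zero]

theorem ex_mul_neg (L : Matrix κ κ ℂ) (r : ℝ) : ex L r * ex L (-r) = 1 := by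
  rw [← ex_add, add_neg_cancel, ex_zero]

theorem ex_det_ne (L : Matrix κ κ ℂ) (r : ℝ) : (ex L r).det ≠ 0 := by
  intro h
  have h1 := congrArg Matrix.det (ex_neg_mul L r)
  rw [Matrix.det_mul, h, mul_zero, Matrix.det_one] at h1
  exact zero_ne_one h1

theorem ex_inv (L : Matrix κ κ ℂ) (r : ℝ) : (ex L r)⁻¹ = ex L (-r) :=
  Matrix.inv_eq_left_inv (ex_neg_mul L r)

/-- intertwining -/
theorem ex_conj {L L' F : Matrix κ κ ℂ} (hF : F.det ≠ 0) (h : F * L = L' * F) (r : ℝ) :
    F * ex L r = ex L' r * F := by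
  have i1 : F⁻¹ * F = 1 := Matrix.nonsing_inv_mul _ (isUnit_iff_ne_zero.2 hF)
  have i2 : F * F⁻¹ = 1 := Matrix.mul_nonsing_inv _ (isUnit_iff_ne_zero.2 hF)
  have hL : L' = F * L * F⁻¹ := by rw [h, Matrix.mul_assoc, i2, Matrix.mul_one]
  have hu : IsUnit F := (Matrix.isUnit_iff_isUnit_det F).2 (isUnit_iff_ne_zero.2 hF)
  have h1 : r • L' = F * (r • L) * F⁻¹ := by
    rw [hL, Matrix.mul_smul, Matrix.smul_mul]
  unfold ex
  rw [h1, Matrix.exp_conj F (r • L) hu, Matrix.mul_assoc, i1, Matrix.mul_one]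

set_option backward.isDefEq.respectTransparency false in
open scoped Norms.Operator in
theorem ex_deriv (L : Matrix κ κ ℂ) (r : ℝ) : HM (fun r => ex L r) (L * ex L r) r := by
  intro S T
  have h1 : HasDerivAt (fun r : ℝ => NormedSpace.exp (r • L)) (L * NormedSpace.exp (r • L)) r :=
    hasDerivAt_exp_smul_const' (𝕂 := ℝ) L r
  have h2 : HasFDerivAt (fun m : Matrix κ κ ℂ => m S T)
      (LinearMap.toContinuousLinearMap (Matrix.entryLinearMap ℝ ℂ S T))
      (NormedSpace.exp (r • L)) :=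
    (LinearMap.toContinuousLinearMap (Matrix.entryLinearMap ℝ ℂ S T :
      Matrix κ κ ℂ →ₗ[ℝ] ℂ)).hasFDerivAt
  exact h2.comp_hasDerivAt r h1

/-- `L` commutes with its exponential -/
theorem ex_comm (L : Matrix κ κ ℂ) (r : ℝ) : L * ex L r = ex L r * L := by
  have h1 : Commute L (r • L) := (Commute.refl L).smul_right r
  unfold ex
  exact (h1.exp_right).eq

set_option backward.isDefEq.respectTransparency false in
open scoped Norms.Operator in
/-- smoothness of the exponential of a smooth matrix -/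
theorem exp_sm {V : Type*} [NormedAddCommGroup V] [NormedSpace ℝ V] {L : V → Matrix κ κ ℂ} {x : V}
    (h : ∀ S T, ContDiffAt ℝ ∞ (fun y => L y S T) x) (S T : κ) :
    ContDiffAt ℝ ∞ (fun y => NormedSpace.exp (L y) S T) x := by
  have hL : ContDiffAt ℝ ∞ L x := by
    have e : L = fun y => ∑ i, ∑ j, (LinearMap.toContinuousLinearMap
        (Matrix.singleLinearMap ℝ i j : ℂ →ₗ[ℝ] Matrix κ κ ℂ)) (L y i j) := by
      funext y
      conv_lhs => rw [Matrix.matrix_eq_sum_single (L y)]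
      rfl
    rw [e]
    exact ContDiffAt.sum fun i _ => ContDiffAt.sum fun j _ =>
      (ContinuousLinearMap.contDiff _).contDiffAt.comp x (h i j)
  have h1 : ContDiffAt ℝ ∞ (NormedSpace.exp : Matrix κ κ ℂ → Matrix κ κ ℂ) (L x) :=
    (NormedSpace.exp_analytic (𝕂 := ℝ) (L x)).contDiffAt
  have h2 := h1.comp x hL
  exact ((LinearMap.toContinuousLinearMap (Matrix.entryLinearMap ℝ ℂ S T :
      Matrix κ κ ℂ →ₗ[ℝ] ℂ)).contDiff.contDiffAt.comp x h2 :)

variable {n : ℕ}

theorem ex_smJ {L : Cn n → Matrix κ κ ℂ} {r : ℝ} {z : Cn n} (h : SmM z L) :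
    SmMJ r z (fun r z => ex (L z) r) := by
  intro S T
  refine exp_sm (L := fun q : ℝ × Cn n => q.1 • L q.2) (x := (r, z)) (fun S T => ?_) S T
  have h1 : ContDiffAt ℝ ∞ (fun q : ℝ × Cn n => ((q.1 : ℝ) : ℂ)) (r, z) :=
    Complex.ofRealCLM.contDiff.contDiffAt.comp (r, z) contDiffAt_fst
  have h2 : ContDiffAt ℝ ∞ (fun q : ℝ × Cn n => L q.2 S T) (r, z) := SmJ.ofSm (h S T)
  have h3 := h1.mul h2
  refine h3.congr_of_eventuallyEq (Eventually.of_forall fun q => ?_)
  simp [Matrix.smul_apply]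

theorem ex_sm {L : Cn n → Matrix κ κ ℂ} {z : Cn n} (h : SmM z L) (r : ℝ) :
    SmM z (fun z => ex (L z) r) := (ex_smJ (r := r) h).slice

/-! ### positivity -/

theorem ex_conjTranspose (L : Matrix κ κ ℂ) (r : ℝ) : (ex L r)ᴴ = ex Lᴴ r := by
  unfold ex
  rw [← Matrix.exp_conjTranspose, Matrix.conjTranspose_smul]
  simp

/-- `G e^{rL} = (e^{rL})ᴴ G` -/
theorem geo_sa {G L : Matrix κ κ ℂ} (hG : G.PosDef) (hL : (G * L).IsHermitian) (r : ℝ) :
    G * ex L r = (ex L r)ᴴ * G := by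
  have h1 : G * L = Lᴴ * G := by
    have h2 := hL.eq
    rw [Matrix.conjTranspose_mul, hG.isHermitian.eq] at h2
    exact h2.symm
  rw [ex_conjTranspose, ex_conj hG.det_pos.ne' h1]

theorem geo_pos {G L : Matrix κ κ ℂ} (hG : G.PosDef) (hL : (G * L).IsHermitian) (r : ℝ) :
    (G * ex L r).PosDef := by
  have h1 : G * ex L r = (ex L (r / 2))ᴴ * G * ex L (r / 2) := by
    rw [← geo_sa hG hL, Matrix.mul_assoc, ← ex_add, add_halves]
  rw [h1]
  refine hG.conjTranspose_mul_mul_same ?_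
  have hu : IsUnit (ex L (r / 2)) :=
    (Matrix.isUnit_iff_isUnit_det _).2 (isUnit_iff_ne_zero.2 (ex_det_ne L _))
  exact Matrix.mulVec_injective_of_isUnit hu

end

end Crest.Agent.R257.BCU2_532
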