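import Crest.Agent.R257.BCU2_532
import Crest.Agent.R257.GBL2_625

/-!
# R257 (S0395), part (GB), leaf GB-UPP (helper532): variation of the curvature

* `var_q2`  : the variation of `tr F²` is `∂∂̄` of `tr (L F)`
* `At`, `Th`, `Vt`, `q2` : connection, curvature, covariant derivative, `tr F²`
-/

set_option autoImplicit false
set_option linter.unusedSectionVars false

open Finset Matrix Complex Filter Topology
open scoped ContDiff ComplexConjugate ComplexOrder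

namespace Crest.Agent.R257.BCU3_532

open Crest.Agent.R275.Geo Crest.Agent.R275.EDR890
open Crest.Agent.R273.Fock_243 Crest.Agent.R273.Calc_243
open Crest.Agent.R273.Bkn_243 Crest.Agent.R273.Pos_243 Crest.Agent.R273.BochA_101
open Crest.Agent.R273.BochB_101
open Crest.Agent.R273.BochC_101 Crest.Agent.R273.BochD_101
open Crest.Agent.R273.Hess_333 Crest.Agent.R273.HessB_333
open Crest.Agent.R257.C2F1_625 Crest.Agent.R257.BCU1_532 Crest.Agent.R257.BCU2_532

noncomputable section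

variable {n : ℕ}

theorem dM_sub {ι κ : Type} {s : ℂ} {a : Fin n} {m m' : Cn n → Matrix ι κ ℂ} {z : Cn n}
    (hm : SmM z m) (hm' : SmM z m') :
    dM s a (fun y => m y - m' y) z = dM s a m z - dM s a m' z := by
  have e : (fun y => m y - m' y) = fun y => m y + (- m' y) := by
    funext y; rw [sub_eq_add_neg]
  have h2 : SmM z (fun y => - m' y) := fun S T => (hm' S T).neg
  rw [e, dM_add hm h2, dM_neg, sub_eq_add_neg]

theorem SmMsub {ι κ : Type} {m m' : Cn n → Matrix ι κ ℂ} {z : Cn n}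
    (hm : SmM z m) (hm' : SmM z m') : SmM z (fun y => m y - m' y) := fun S T =>
  (hm S T).sub (hm' S T)

theorem SmMadd {ι κ : Type} {m m' : Cn n → Matrix ι κ ℂ} {z : Cn n}
    (hm : SmM z m) (hm' : SmM z m') : SmM z (fun y => m y + m' y) := fun S T =>
  (hm S T).add (hm' S T)

theorem SmMneg {ι κ : Type} {m : Cn n → Matrix ι κ ℂ} {z : Cn n}
    (hm : SmM z m) : SmM z (fun y => - m y) := fun S T => (hm S T).neg

theorem dMul {ι κ σ : Type} [Fintype κ] {s : ℂ} {a : Fin n} {m : Cn n → Matrix ι κ ℂ}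
    {m' : Cn n → Matrix κ σ ℂ} {z : Cn n} (hm : SmM z m) (hm' : SmM z m') :
    dM s a (fun y => m y * m' y) z = dM s a m z * m' z + m z * dM s a m' z := by
  ext S T
  have h1 : dM s a (fun y => m y * m' y) z S T = dS s a (fun y => ∑ i, m y S i * m' y i T) z := rfl
  rw [h1, dS_sum (f := fun i y => m y S i * m' y i T) _ fun i _ => (hm S i).diff.mul (hm' i T).diff,
    Matrix.add_apply, Matrix.mul_apply, Matrix.mul_apply, ← Finset.sum_add_distrib]
  exact Finset.sum_congr rfl fun i _ => dS_mul (hm S i).diff (hm' i T).diff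

theorem dM2_mul {ι κ σ : Type} [Fintype ι] [Fintype κ] [Fintype σ] {P : Cn n → Matrix ι κ ℂ}
    {Q : Cn n → Matrix κ σ ℂ} {z : Cn n} (hP : ∀ᶠ y in 𝓝 z, SmM y P) (hQ : ∀ᶠ y in 𝓝 z, SmM y Q)
    (s t : ℂ) (c d : Fin n) :
    dM s c (dM t d (fun y => P y * Q y)) z = dM s c (dM t d P) z * Q z
      + dM t d P z * dM s c Q z + dM s c P z * dM t d Q z
      + P z * dM s c (dM t d Q) z := by
  have h1 : dM t d (fun y => P y * Q y) =ᶠ[𝓝 z] fun y => dM t d P y * Q y + P y * dM t d Q y := by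
    filter_upwards [hP, hQ] with y h1 h2
    exact dMul h1 h2
  have hPz := hP.self_of_nhds
  have hQz := hQ.self_of_nhds
  rw [dM_congr h1, dM_add (SmM.mul (hPz.dM t d) hQz) (SmM.mul hPz (hQz.dM t d)),
    dMul (hPz.dM t d) hQz, dMul hPz (hQz.dM t d)]
  abel

theorem dM_comm' {ι κ : Type} {s t : ℂ} {a b : Fin n} {m : Cn n → Matrix ι κ ℂ} {z : Cn n}
    (hm : SmM z m) : dM s a (dM t b m) z = dM t b (dM s a m) z := by
  ext S T
  exact dS_comm (hm S T)

/-- covariant derivative of an endomorphism -/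
def Dv (A : Fin n → Cn n → Matrix (Fin 2) (Fin 2) ℂ) (L : Cn n → Matrix (Fin 2) (Fin 2) ℂ)
    (c : Fin n) (y : Cn n) : Matrix (Fin 2) (Fin 2) ℂ :=
  dM (-I) c L y + (A c y * L y - L y * A c y)

theorem trace_alg (L Ld0 Ld1 L00 L01 L10 L11 A0 A1 B00 B01 B10 B11 P0 P1 : Matrix (Fin 2) (Fin 2) ℂ) :
    ((L00 + (B00 * L + A0 * Ld0 - (Ld0 * A0 + L * B00))) * B11).trace
      + (B00 * (L11 + (B11 * L + A1 * Ld1 - (Ld1 * A1 + L * B11)))).trace
      - ((L01 + (B01 * L + A0 * Ld1 - (Ld1 * A0 + L * B01))) * B10).trace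
      - (B01 * (L10 + (B10 * L + A1 * Ld0 - (Ld0 * A1 + L * B10)))).trace
    = (L00 * B11 + Ld0 * (P1 - (B01 * A1 + A0 * B11 - (B11 * A0 + A1 * B01)))).trace
      + (L11 * B00 + Ld1 * P0).trace
      - (L01 * B10 + Ld1 * (P0 - (B00 * A1 + A0 * B10 - (B10 * A0 + A1 * B00)))).trace
      - (L10 * B01 + Ld0 * P1).trace := by
  simp only [Matrix.trace_fin_two, Matrix.mul_apply, Fin.sum_univ_two, Matrix.add_apply,
    Matrix.sub_apply]
  ring

theorem dM_Dv {A : Fin 2 → Cn 2 → Matrix (Fin 2) (Fin 2) ℂ}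
    {L : Cn 2 → Matrix (Fin 2) (Fin 2) ℂ} {z : Cn 2} (hA : ∀ c, SmM z (A c)) (hL : SmM z L)
    (s : ℂ) (c d : Fin 2) : dM s d (Dv A L c) z = dM (-I) c (dM s d L) z
      + (dM s d (A c) z * L z + A c z * dM s d L z
        - (dM s d L z * A c z + L z * dM s d (A c) z)) := by
  have e : Dv A L c = fun y => dM (-I) c L y + (A c y * L y - L y * A c y) := rfl
  rw [e, dM_add (hL.dM (-I) c) (SmMsub (SmM.mul (hA c) hL) (SmM.mul hL (hA c))),
    dM_sub (SmM.mul (hA c) hL) (SmM.mul hL (hA c)), dMul (hA c) hL, dMul hL (hA c), dM_comm' hL]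

theorem ddm_trace {L : Cn 2 → Matrix (Fin 2) (Fin 2) ℂ}
    {X : Fin 2 → Fin 2 → Cn 2 → Matrix (Fin 2) (Fin 2) ℂ} {z : Cn 2}
    (hL : ∀ᶠ y in 𝓝 z, SmM y L) (hX : ∀ e f, ∀ᶠ y in 𝓝 z, SmM y (X e f)) (c d e f : Fin 2) :
    dS (-I) c (dS I d (fun y => (L y * X e f y).trace)) z =
      (dM (-I) c (dM I d L) z * X e f z + dM I d L z * dM (-I) c (X e f) z).trace
      + (dM (-I) c L z * dM I d (X e f) z).trace + (L z * dM (-I) c (dM I d (X e f)) z).trace := by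
  have hm : ∀ᶠ y in 𝓝 z, SmM y (fun y => L y * X e f y) := by
    filter_upwards [hL, hX e f] with y h1 h2
    exact SmM.mul h1 h2
  have h1 : dS I d (fun y => (L y * X e f y).trace) =ᶠ[𝓝 z]
      fun y => (dM I d (fun y => L y * X e f y) y).trace := by
    filter_upwards [hm] with y hy
    exact dS_trace hy
  rw [dS_congr h1, dS_trace (hm.self_of_nhds.dM I d), dM2_mul hL (hX e f), Matrix.trace_add,
    Matrix.trace_add]

/-- **the variation of `tr F²`** -/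
theorem var_q2 {A : Fin 2 → Cn 2 → Matrix (Fin 2) (Fin 2) ℂ}
    {L : Cn 2 → Matrix (Fin 2) (Fin 2) ℂ} {z : Cn 2} (hA : ∀ c, ∀ᶠ y in 𝓝 z, SmM y (A c))
    (hL : ∀ᶠ y in 𝓝 z, SmM y L)
    (hfl : ∀ᶠ y in 𝓝 z, dM (-I) 0 (A 1) y = dM (-I) 1 (A 0) y
      - (A 0 y * A 1 y - A 1 y * A 0 y)) :
    (dM I 0 (Dv A L 0) z * dM I 1 (A 1) z).trace + (dM I 0 (A 0) z * dM I 1 (Dv A L 1) z).trace
      - (dM I 1 (Dv A L 0) z * dM I 0 (A 1) z).trace
      - (dM I 1 (A 0) z * dM I 0 (Dv A L 1) z).trace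
    = ddm (fun y => Matrix.of fun c d => (L y * dM I d (A c) y).trace) z := by
  have hAz : ∀ c, SmM z (A c) := fun c => (hA c).self_of_nhds
  have hLz := hL.self_of_nhds
  have hX : ∀ e f, ∀ᶠ y in 𝓝 z, SmM y (dM I f (A e)) := fun e f =>
    (hA e).mono fun y hy => hy.dM I f
  -- Bianchi
  have hb : ∀ e, dM I 0 (dM I 1 (A e)) =ᶠ[𝓝 z] dM I 1 (dM I 0 (A e)) := fun e =>
    (hA e).mono fun y hy => dM_comm' hy
  have hfl2 : ∀ f, dM (-I) 0 (dM I f (A 1)) z = dM (-I) 1 (dM I f (A 0)) z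
      - (dM I f (A 0) z * A 1 z + A 0 z * dM I f (A 1) z
        - (dM I f (A 1) z * A 0 z + A 1 z * dM I f (A 0) z)) := by
    intro f
    rw [← dM_comm' (s := I) (t := -I) (a := f) (b := 0) (hAz 1), dM_congr hfl,
      dM_sub ((hAz 0).dM (-I) 1) (SmMsub (SmM.mul (hAz 0) (hAz 1)) (SmM.mul (hAz 1) (hAz 0))),
      dM_sub (SmM.mul (hAz 0) (hAz 1)) (SmM.mul (hAz 1) (hAz 0)), dMul (hAz 0) (hAz 1),
      dMul (hAz 1) (hAz 0), dM_comm' (s := I) (t := -I) (a := f) (b := 1) (hAz 0)]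
  unfold ddm
  simp only [Matrix.of_apply]
  rw [ddm_trace (X := fun e f => dM I f (A e)) hL hX 0 0 1 1,
    ddm_trace (X := fun e f => dM I f (A e)) hL hX 1 1 0 0,
    ddm_trace (X := fun e f => dM I f (A e)) hL hX 0 1 1 0,
    ddm_trace (X := fun e f => dM I f (A e)) hL hX 1 0 0 1]
  simp only [dM_Dv hAz hLz]
  rw [(hb 1).self_of_nhds, dM_congr (hb 1), (hb 0).self_of_nhds, dM_congr (hb 0), hfl2 0, hfl2 1,
    trace_alg (P0 := dM (-I) 1 (dM I 0 (A 0)) z) (P1 := dM (-I) 1 (dM I 1 (A 0)) z)]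
  ring

end

end Crest.Agent.R257.BCU3_532
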