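import Crest.Agent.R257.BCU3_532

/-!
# R257 (S0395), part (GB), leaf GB-UPP (helper532): geodesics of metrics, pointwise

* `At G c`, `Th G c d` : connection `G⁻¹ ∂_c G` and curvature `G⁻¹ rm G c d = - ∂_{d̄} At`
* `q2 G`, `q2_eq`      : `tr F²`, `q2 = ½ pd (ric, ric) - c2`
* `geo H L r`          : `H e^{rL}`
* `q2_deriv`           : `d/dr q2 (geo r) = - ddm (bf (geo r) L)`, `bf G L c d = tr (L Θ_{cd})`
* `bf_deriv`           : `d/dr bf (geo r) L = mm (geo r) L - ½ ∂∂̄ tr L²`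
* `mm_psd`             : `mm G L ≥ 0`
-/

set_option autoImplicit false
set_option linter.unusedSectionVars false

open Finset Matrix Complex Filter Topology
open scoped ContDiff ComplexConjugate ComplexOrder

namespace Crest.Agent.R257.BCU4_532

open Crest.Agent.R275.Geo Crest.Agent.R275.EDR890
open Crest.Agent.R273.Fock_243 Crest.Agent.R273.Calc_243
open Crest.Agent.R273.Bkn_243 Crest.Agent.R273.Pos_243 Crest.Agent.R273.BochA_101
open Crest.Agent.R273.BochB_101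
open Crest.Agent.R273.BochC_101 Crest.Agent.R273.BochD_101
open Crest.Agent.R273.Hess_333 Crest.Agent.R273.HessB_333
open Crest.Agent.R257.C2F1_625 Crest.Agent.R257.C2F2_625 Crest.Agent.R257.BCU1_532
open Crest.Agent.R257.BCU2_532 Crest.Agent.R257.BCU3_532

noncomputable section

variable {n : ℕ} {κ : Type} [Fintype κ] [DecidableEq κ]

/-- connection -/
def At (G : Cn n → Matrix κ κ ℂ) (c : Fin n) (y : Cn n) : Matrix κ κ ℂ :=
  (G y)⁻¹ * dM (-I) c G y

/-- curvature -/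
def Th (G : Cn n → Matrix κ κ ℂ) (c d : Fin n) (y : Cn n) : Matrix κ κ ℂ := (G y)⁻¹ * rm G y c d

theorem At_sm {G : Cn n → Matrix κ κ ℂ} {z : Cn n} (hG : SmM z G) (h0 : (G z).det ≠ 0)
    (c : Fin n) : SmM z (At G c) := SmM.mul (SmM.inv hG h0) (hG.dM (-I) c)

theorem Th_eq {G : Cn n → Matrix κ κ ℂ} {z : Cn n} (hG : SmM z G) (h0 : (G z).det ≠ 0)
    (c d : Fin n) : Th G c d z = - dM I d (At G c) z := by
  have e : At G c = fun y => (G y)⁻¹ * dM (-I) c G y := rfl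
  rw [e, dMul (SmM.inv hG h0) (hG.dM (-I) c), dM_inv hG h0, Th, rm,
    dM_comm' (s := I) (t := -I) hG]
  simp only [Matrix.mul_add, Matrix.neg_mul, Matrix.mul_neg, Matrix.mul_assoc, neg_add, neg_neg]
  abel

theorem At_flat {G : Cn n → Matrix κ κ ℂ} {z : Cn n} (hG : SmM z G) (h0 : (G z).det ≠ 0)
    (c e : Fin n) : dM (-I) c (At G e) z = dM (-I) e (At G c) z
      - (At G c z * At G e z - At G e z * At G c z) := by
  have e1 : ∀ c, At G c = fun y => (G y)⁻¹ * dM (-I) c G y := fun _ => rfl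
  rw [e1 e, e1 c, dMul (SmM.inv hG h0) (hG.dM (-I) e), dMul (SmM.inv hG h0) (hG.dM (-I) c),
    dM_inv hG h0, dM_inv hG h0, dM_comm' (s := -I) (t := -I) (a := c) (b := e) hG]
  simp only [Matrix.neg_mul, Matrix.mul_assoc]
  abel

/-- the trace of the curvature is `ric` -/
theorem Th_trace (G : Cn n → Matrix κ κ ℂ) (z : Cn n) (c d : Fin n) :
    (Th G c d z).trace = ric G z c d := rfl

/-! ### rank two -/

/-- `tr F²` as a density -/
def q2 (G : Cn 2 → Matrix (Fin 2) (Fin 2) ℂ) (y : Cn 2) : ℂ :=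
  (Th G 0 0 y * Th G 1 1 y).trace - (Th G 0 1 y * Th G 1 0 y).trace

theorem pd_tr (X Y : Matrix (Fin 2) (Fin 2) ℂ) : pd X Y = X.trace * Y.trace - (X * Y).trace := by
  simp only [pd, Matrix.trace_fin_two, Matrix.mul_apply, Fin.sum_univ_two]
  ring

theorem q2_eq {G : Cn 2 → Matrix (Fin 2) (Fin 2) ℂ} {z : Cn 2} (h0 : (G z).det ≠ 0) :
    c2 G z = pd (Matrix.of (ric G z)) (Matrix.of (ric G z)) / 2 - q2 G z := by
  have i2 : G z * (G z)⁻¹ = 1 := Matrix.mul_nonsing_inv _ (isUnit_iff_ne_zero.2 h0)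
  have h1 : ∀ c d, rm G z c d = G z * Th G c d z * 1 := by
    intro c d
    rw [Th, Matrix.mul_one, ← Matrix.mul_assoc, i2, Matrix.one_mul]
  unfold c2
  rw [h1 0 0, h1 1 1, h1 0 1, h1 1 0, pd_mul, pd_mul, Matrix.det_one, mul_one, ← mul_sub,
    mul_div_cancel_left₀ _ h0, pd_tr, pd_tr, Th_trace, Th_trace, Th_trace, Th_trace, q2]
  simp only [pd, Matrix.of_apply]
  ring

/-- `tr (L F)` -/
def bf (G L : Cn 2 → Matrix (Fin 2) (Fin 2) ℂ) (y : Cn 2) : Matrix (Fin 2) (Fin 2) ℂ :=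
  Matrix.of fun c d => (L y * Th G c d y).trace

/-- `tr (DL ∧ ∂̄L)` -/
def mm (G L : Cn 2 → Matrix (Fin 2) (Fin 2) ℂ) (y : Cn 2) : Matrix (Fin 2) (Fin 2) ℂ :=
  Matrix.of fun c d => (Dv (At G) L c y * dM I d L y).trace

/-- geodesic -/
def geo (H L : Cn n → Matrix κ κ ℂ) (r : ℝ) (y : Cn n) : Matrix κ κ ℂ := H y * ex (L y) r

theorem geo_det (H L : Cn n → Matrix κ κ ℂ) (r : ℝ) {y : Cn n} (h0 : (H y).det ≠ 0) :
    (geo H L r y).det ≠ 0 := by
  unfold geo
  rw [Matrix.det_mul]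
  exact mul_ne_zero h0 (ex_det_ne _ _)

theorem geo_smJ {H L : Cn n → Matrix κ κ ℂ} {z : Cn n} (hH : SmM z H) (hL : SmM z L) (r : ℝ) :
    SmMJ r z (geo H L) := (SmMJ.ofSm hH).mul (ex_smJ hL)

theorem geo_sm {H L : Cn n → Matrix κ κ ℂ} {z : Cn n} (hH : SmM z H) (hL : SmM z L) (r : ℝ) :
    SmM z (geo H L r) := (geo_smJ hH hL r).slice

theorem geo_inv (H L : Cn n → Matrix κ κ ℂ) (y : Cn n) (r : ℝ) :
    (geo H L r y)⁻¹ = ex (L y) (-r) * (H y)⁻¹ := by
  unfold geo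
  rw [Matrix.mul_inv_rev, ex_inv]

theorem geo_invJ {H L : Cn n → Matrix κ κ ℂ} {z : Cn n} (hH : SmM z H) (hL : SmM z L)
    (h0 : (H z).det ≠ 0) (r : ℝ) : SmMJ r z (fun r y => (geo H L r y)⁻¹) := by
  have h1 : SmMJ r z (fun r y => ex (L y) (-r)) := by
    intro S T
    have h2 : ContDiffAt ℝ ∞ (fun q : ℝ × Cn n => ex (L q.2) q.1 S T) (-r, z) :=
      ex_smJ (r := -r) hL S T
    have h3 : ContDiffAt ℝ ∞ (fun q : ℝ × Cn n => ((-q.1, q.2) : ℝ × Cn n)) (r, z) :=
      contDiffAt_fst.neg.prodMk contDiffAt_snd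
    exact ContDiffAt.comp (r, z) (g := fun q : ℝ × Cn n => ex (L q.2) q.1 S T)
      (f := fun q : ℝ × Cn n => ((-q.1, q.2) : ℝ × Cn n)) h2 h3
  have h2 : SmMJ r z (fun r y => ex (L y) (-r) * (H y)⁻¹) := h1.mul (SmMJ.ofSm (SmM.inv hH h0))
  have h3 : (fun r y => (geo H L r y)⁻¹) = fun r y => ex (L y) (-r) * (H y)⁻¹ := by
    funext r y
    unfold geo
    rw [Matrix.mul_inv_rev, ex_inv]
  rw [h3]
  exact h2

theorem geo_deriv (H L : Cn n → Matrix κ κ ℂ) (y : Cn n) (r : ℝ) :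
    HM (fun r => geo H L r y) (geo H L r y * L y) r := by
  have h1 := (HM.const (r := r) (H y)).mul (ex_deriv (L y) r)
  rw [Matrix.zero_mul, zero_add, ex_comm, ← Matrix.mul_assoc] at h1
  exact h1

theorem geo_inv_deriv (H L : Cn n → Matrix κ κ ℂ) (y : Cn n) (r : ℝ) :
    HM (fun r => (geo H L r y)⁻¹) (- (L y * (geo H L r y)⁻¹)) r := by
  have e : (fun r => (geo H L r y)⁻¹) = fun r => ex (L y) (-r) * (H y)⁻¹ := by
    funext r
    unfold geo
    rw [Matrix.mul_inv_rev, ex_inv]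
  have h2 : HM (fun r => ex (L y) (-r)) (- (L y * ex (L y) (-r))) r := by
    intro S T
    have h3 := HasDerivAt.scomp r (ex_deriv (L y) (-r) S T) (hasDerivAt_neg r)
    rw [neg_smul, one_smul] at h3
    exact h3
  have h1 := h2.mul (HM.const (r := r) (H y)⁻¹)
  rw [Matrix.mul_zero, add_zero, Matrix.neg_mul, Matrix.mul_assoc] at h1
  rw [e]
  unfold geo
  rw [Matrix.mul_inv_rev, ex_inv]
  exact h1

section two

variable {H L : Cn 2 → Matrix (Fin 2) (Fin 2) ℂ} {z : Cn 2}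

theorem At_smJ (hH : SmM z H) (hL : SmM z L) (h0 : (H z).det ≠ 0) (r : ℝ) (c : Fin 2) :
    SmMJ r z (fun r => At (geo H L r) c) :=
  (geo_invJ hH hL h0 r).mul ((geo_smJ hH hL r).dw (-I) c)

theorem At_deriv (hH : SmM z H) (hL : ∀ᶠ y in 𝓝 z, SmM y L) (h0 : (H z).det ≠ 0) (r : ℝ)
    (c : Fin 2) : HM (fun r => At (geo H L r) c z) (Dv (At (geo H L r)) L c z) r := by
  have hLz := hL.self_of_nhds
  have h1 : HM (fun r => dM (-I) c (geo H L r) z) (dM (-I) c (fun y => geo H L r y * L y) z) r :=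
    HM.dw (geo_smJ hH hLz r) (Eventually.of_forall fun y => geo_deriv H L y r) (-I) c
  rw [dMul (geo_sm hH hLz r) hLz] at h1
  have h2 := (geo_inv_deriv H L z r).mul h1
  have i1 : (geo H L r z)⁻¹ * geo H L r z = 1 :=
    Matrix.nonsing_inv_mul _ (isUnit_iff_ne_zero.2 (geo_det H L r h0))
  have e : - (L z * (geo H L r z)⁻¹) * dM (-I) c (geo H L r) z + (geo H L r z)⁻¹ *
      (dM (-I) c (geo H L r) z * L z + geo H L r z * dM (-I) c L z)
      = Dv (At (geo H L r)) L c z := by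
    unfold Dv At
    rw [Matrix.mul_add, ← Matrix.mul_assoc (geo H L r z)⁻¹ (geo H L r z), i1, Matrix.one_mul]
    simp only [Matrix.neg_mul, Matrix.mul_assoc]
    abel
  rw [e] at h2
  exact h2

variable (hH : ∀ᶠ y in 𝓝 z, SmM y H) (hL : ∀ᶠ y in 𝓝 z, SmM y L) (h0 : (H z).det ≠ 0)

include hH hL h0

theorem ev_all : ∀ᶠ y in 𝓝 z, SmM y H ∧ (∀ᶠ w in 𝓝 y, SmM w L) ∧ (H y).det ≠ 0 := by
  filter_upwards [hH, hL.eventually_nhds, eventually_det_ne hH.self_of_nhds h0] with y a b c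
  exact ⟨a, b, c⟩

theorem dAt_deriv (r : ℝ) (c d : Fin 2) :
    HM (fun r => dM I d (At (geo H L r) c) z) (dM I d (Dv (At (geo H L r)) L c) z) r := by
  refine HM.dw (At_smJ hH.self_of_nhds hL.self_of_nhds h0 r c) ?_ I d
  filter_upwards [ev_all hH hL h0] with y hy
  exact At_deriv hy.1 hy.2.1 hy.2.2 r c

theorem q2_read (r : ℝ) : q2 (geo H L r) z =
    (dM I 0 (At (geo H L r) 0) z * dM I 1 (At (geo H L r) 1) z).trace
      - (dM I 1 (At (geo H L r) 0) z * dM I 0 (At (geo H L r) 1) z).trace := by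
  have hG := geo_sm hH.self_of_nhds hL.self_of_nhds r
  have hd := geo_det H L r h0
  unfold q2
  rw [Th_eq hG hd, Th_eq hG hd, Th_eq hG hd, Th_eq hG hd, Matrix.neg_mul, Matrix.mul_neg, neg_neg,
    Matrix.neg_mul, Matrix.mul_neg, neg_neg]

theorem bf_ev (r : ℝ) : bf (geo H L r) L =ᶠ[𝓝 z] fun y => - Matrix.of fun c d =>
    (L y * dM I d (At (geo H L r) c) y).trace := by
  filter_upwards [ev_all hH hL h0] with y hy
  have hG := geo_sm hy.1 hy.2.1.self_of_nhds r
  have hd := geo_det H L r hy.2.2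
  ext c d
  simp only [bf, Matrix.of_apply, Matrix.neg_apply]
  rw [Th_eq hG hd, Matrix.mul_neg, Matrix.trace_neg]

omit hH hL h0 in
theorem ddm_neg (b : Cn 2 → Matrix (Fin 2) (Fin 2) ℂ) : ddm (fun y => - b y) z = - ddm b z := by
  have e : ∀ i j c d, dS (-I) c (dS I d (fun y => (- b y) i j)) z
      = - dS (-I) c (dS I d (fun y => b y i j)) z := by
    intro i j c d
    have h1 : dS I d (fun y => (- b y) i j) = fun y => - dS I d (fun y => b y i j) y :=
      funext fun y => dS_neg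
    rw [h1, dS_neg]
  unfold ddm
  rw [e, e, e, e]
  ring

/-- **first variation of `tr F²` along a geodesic** -/
theorem q2_deriv (r : ℝ) :
    HasDerivAt (fun r => q2 (geo H L r) z) (- ddm (bf (geo H L r) L) z) r := by
  have hG : ∀ᶠ y in 𝓝 z, SmM y (geo H L r) ∧ (geo H L r y).det ≠ 0 := by
    filter_upwards [ev_all hH hL h0] with y hy
    exact ⟨geo_sm hy.1 hy.2.1.self_of_nhds r, geo_det H L r hy.2.2⟩
  have hA : ∀ c, ∀ᶠ y in 𝓝 z, SmM y (At (geo H L r) c) := fun c =>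
    hG.mono fun y hy => At_sm hy.1 hy.2 c
  have hfl : ∀ᶠ y in 𝓝 z, dM (-I) 0 (At (geo H L r) 1) y = dM (-I) 1 (At (geo H L r) 0) y
      - (At (geo H L r) 0 y * At (geo H L r) 1 y - At (geo H L r) 1 y * At (geo H L r) 0 y) :=
    hG.mono fun y hy => At_flat hy.1 hy.2 0 1
  have key := var_q2 hA hL hfl
  have e1 : (fun r => q2 (geo H L r) z) = fun r =>
      (dM I 0 (At (geo H L r) 0) z * dM I 1 (At (geo H L r) 1) z).trace
      - (dM I 1 (At (geo H L r) 0) z * dM I 0 (At (geo H L r) 1) z).trace :=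
    funext fun r => q2_read hH hL h0 r
  have h1 := ((dAt_deriv hH hL h0 r 0 0).mul (dAt_deriv hH hL h0 r 1 1)).trace.sub
    ((dAt_deriv hH hL h0 r 0 1).mul (dAt_deriv hH hL h0 r 1 0)).trace
  have e2 : - ddm (bf (geo H L r) L) z =
      (dM I 0 (Dv (At (geo H L r)) L 0) z * dM I 1 (At (geo H L r) 1) z +
          dM I 0 (At (geo H L r) 0) z * dM I 1 (Dv (At (geo H L r)) L 1) z).trace -
      (dM I 1 (Dv (At (geo H L r)) L 0) z * dM I 0 (At (geo H L r) 1) z +
          dM I 1 (At (geo H L r) 0) z * dM I 0 (Dv (At (geo H L r)) L 1) z).trace := by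
    rw [ddm_congr (bf_ev hH hL h0 r), ddm_neg, neg_neg, ← key, Matrix.trace_add,
      Matrix.trace_add]
    ring
  rw [e1, e2]
  exact h1

/-- first variation of `tr (L F)` -/
theorem bf_deriv0 (r : ℝ) (c d : Fin 2) :
    HasDerivAt (fun r => bf (geo H L r) L z c d)
      (- (L z * dM I d (Dv (At (geo H L r)) L c) z).trace) r := by
  have e1 : (fun r => bf (geo H L r) L z c d) = fun r =>
      - (L z * dM I d (At (geo H L r) c) z).trace := by
    funext r
    rw [(bf_ev hH hL h0 r).self_of_nhds]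
    rfl
  rw [e1]
  have h1 := ((HM.const (r := r) (L z)).mul (dAt_deriv hH hL h0 r c d)).trace.neg
  rw [Matrix.zero_mul, zero_add] at h1
  exact h1

theorem bf_deriv (r : ℝ) (c d : Fin 2) :
    HasDerivAt (fun r => bf (geo H L r) L z c d)
      (mm (geo H L r) L z c d
        - dS (-I) c (dS I d (fun y => (L y * L y).trace)) z / 2) r := by
  have hG : ∀ᶠ y in 𝓝 z, SmM y (geo H L r) ∧ (geo H L r y).det ≠ 0 := by
    filter_upwards [ev_all hH hL h0] with y hy
    exact ⟨geo_sm hy.1 hy.2.1.self_of_nhds r, geo_det H L r hy.2.2⟩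
  have hA : ∀ᶠ y in 𝓝 z, SmM y (At (geo H L r) c) := hG.mono fun y hy => At_sm hy.1 hy.2 c
  have hLz := hL.self_of_nhds
  have hAz := hA.self_of_nhds
  have hD : SmM z (Dv (At (geo H L r)) L c) :=
    SmMadd (hLz.dM (-I) c) (SmMsub (SmM.mul hAz hLz) (SmM.mul hLz hAz))
  have h1 : (fun y => (L y * Dv (At (geo H L r)) L c y).trace) =ᶠ[𝓝 z]
      fun y => (1 / 2 : ℂ) * dS (-I) c (fun y => (L y * L y).trace) y := by
    filter_upwards [hL] with y hy
    rw [dS_trace (SmM.mul hy hy), dMul hy hy, Matrix.trace_add, Matrix.trace_mul_comm (dM _ _ _ _)]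
    unfold Dv
    rw [Matrix.mul_add, Matrix.mul_sub, Matrix.trace_add, Matrix.trace_sub,
      ← Matrix.mul_assoc (L y) (L y), Matrix.trace_mul_comm (L y * L y)]
    rw [← Matrix.mul_assoc (L y) (At (geo H L r) c y), Matrix.trace_mul_comm (L y * At _ _ _),
      ← Matrix.mul_assoc (L y) (L y), Matrix.trace_mul_comm (L y * L y)]
    ring
  have hLL : Sm z (fun y => (L y * L y).trace) := Sm.trace (SmM.mul hLz hLz)
  have h2 : dS I d (fun y => (L y * Dv (At (geo H L r)) L c y).trace) z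
      = dS (-I) c (dS I d (fun y => (L y * L y).trace)) z / 2 := by
    rw [dS_congr h1, dS_const_mul _ (hLL.dS (-I) c).diff, dS_comm hLL]
    ring
  have h3 : dS I d (fun y => (L y * Dv (At (geo H L r)) L c y).trace) z
      = (dM I d L z * Dv (At (geo H L r)) L c z).trace
        + (L z * dM I d (Dv (At (geo H L r)) L c) z).trace := by
    rw [dS_trace (SmM.mul hLz hD), dMul hLz hD, Matrix.trace_add]
  have e2 : mm (geo H L r) L z c d - dS (-I) c (dS I d (fun y => (L y * L y).trace)) z / 2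
      = - (L z * dM I d (Dv (At (geo H L r)) L c) z).trace := by
    rw [← h2, h3]
    simp only [mm, Matrix.of_apply]
    rw [Matrix.trace_mul_comm (dM I d L z)]
    ring
  rw [e2]
  exact bf_deriv0 hH hL h0 r c d

end two

end

end Crest.Agent.R257.BCU4_532
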