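import Crest.Agent.R257.BCU4_532

/-!
# R257 (S0395), part (GB), leaf GB-UPP (helper532): positivity of `tr (DL ∧ ∂̄L)`

* `Dv_adj`  : `(D_d L)ᴴ G = G ∂_{d̄} L` for `G L` Hermitian
* `mm_psd`  : `mm G L z` is positive semidefinite
* `tr_real` : `tr L²` is real
-/

set_option autoImplicit false
set_option linter.unusedSectionVars false

open Finset Matrix Complex Filter Topology
open scoped ContDiff ComplexConjugate ComplexOrder

namespace Crest.Agent.R257.BCU5_532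

open Crest.Agent.R275.Geo Crest.Agent.R275.EDR890
open Crest.Agent.R273.Fock_243 Crest.Agent.R273.Calc_243
open Crest.Agent.R273.Bkn_243 Crest.Agent.R273.Pos_243 Crest.Agent.R273.BochA_101
open Crest.Agent.R273.BochB_101
open Crest.Agent.R273.BochC_101 Crest.Agent.R273.BochD_101
open Crest.Agent.R273.Hess_333 Crest.Agent.R273.HessB_333
open Crest.Agent.R257.C2F1_625 Crest.Agent.R257.C2F2_625 Crest.Agent.R257.BCU1_532
open Crest.Agent.R257.BCU2_532 Crest.Agent.R257.BCU3_532 Crest.Agent.R257.BCU4_532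

noncomputable section

variable {G L : Cn 2 → Matrix (Fin 2) (Fin 2) ℂ} {z : Cn 2}

theorem Dv_adj (hG : SmM z G) (hL : SmM z L) (hp : ∀ᶠ y in 𝓝 z, (G y).PosDef)
    (hs : ∀ᶠ y in 𝓝 z, (G y * L y).IsHermitian) (d : Fin 2) :
    (Dv (At G) L d z)ᴴ * G z = G z * dM I d L z := by
  have hpz := hp.self_of_nhds
  have h0 : (G z).det ≠ 0 := hpz.det_pos.ne'
  have i1 : G z * (G z)⁻¹ = 1 := Matrix.mul_nonsing_inv _ (isUnit_iff_ne_zero.2 h0)
  have i2 : (G z)⁻¹ * G z = 1 := Matrix.nonsing_inv_mul _ (isUnit_iff_ne_zero.2 h0)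
  -- `∂_{d̄} G = (∂_d G)ᴴ`
  have g1 : dM I d G z = (dM (-I) d G z)ᴴ := by
    have e1 : G =ᶠ[𝓝 z] fun y => (G y)ᴴ := hp.mono fun y hy => hy.isHermitian.eq.symm
    conv_lhs => rw [dM_congr e1]
    rw [dM_conjTranspose hG, conjI]
  have g2 : ∀ᶠ y in 𝓝 z, G y * L y = (L y)ᴴ * G y := by
    filter_upwards [hp, hs] with y h1 h2
    have h3 := h2.eq
    rw [Matrix.conjTranspose_mul, h1.isHermitian.eq] at h3
    exact h3.symm
  have g3 : dM I d G z * L z + G z * dM I d L z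
      = (dM (-I) d L z)ᴴ * G z + (L z)ᴴ * dM I d G z := by
    have h1 := dM_congr (s := I) (a := d) g2
    rw [dMul hG hL, dMul (SmM.conjTranspose hL) hG, dM_conjTranspose hL, conjI] at h1
    exact h1
  have g4 := g2.self_of_nhds
  have e1 : (At G d z)ᴴ * G z = dM I d G z := by
    unfold At
    rw [Matrix.conjTranspose_mul, Matrix.conjTranspose_nonsing_inv, hpz.isHermitian.eq,
      Matrix.mul_assoc, i2, Matrix.mul_one, g1]
  unfold Dv
  rw [Matrix.conjTranspose_add, Matrix.conjTranspose_sub, Matrix.conjTranspose_mul,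
    Matrix.conjTranspose_mul, Matrix.add_mul, Matrix.sub_mul, Matrix.mul_assoc (L z)ᴴ, e1,
    Matrix.mul_assoc (At G d z)ᴴ, ← g4, ← Matrix.mul_assoc, e1, ← add_sub_assoc, ← g3]
  abel

theorem tr_rank {G V W : Matrix (Fin 2) (Fin 2) ℂ} {B : Matrix (Fin 2) (Fin 2) ℂ}
    (hB : IsUnit B.det) (hG : G = Bᴴ * B) :
    (V * (G⁻¹ * (Wᴴ * G))).trace = ((B * V * B⁻¹) * (B * W * B⁻¹)ᴴ).trace := by
  have i1 : B * B⁻¹ = 1 := Matrix.mul_nonsing_inv _ hB
  have e1 : (B * V * B⁻¹) * (B * W * B⁻¹)ᴴ = B * (V * (B⁻¹ * ((B⁻¹)ᴴ * (Wᴴ * Bᴴ)))) := by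
    rw [Matrix.conjTranspose_mul, Matrix.conjTranspose_mul]
    simp only [Matrix.mul_assoc]
  have e2 : V * (G⁻¹ * (Wᴴ * G)) = V * (B⁻¹ * ((B⁻¹)ᴴ * (Wᴴ * Bᴴ))) * B := by
    rw [hG, Matrix.mul_inv_rev, Matrix.conjTranspose_nonsing_inv]
    simp only [Matrix.mul_assoc]
  rw [e1, e2, Matrix.trace_mul_comm]

/-- `tr (DL ∧ ∂̄L) ≥ 0` -/
theorem mm_psd (hG : SmM z G) (hL : SmM z L) (hp : ∀ᶠ y in 𝓝 z, (G y).PosDef)
    (hs : ∀ᶠ y in 𝓝 z, (G y * L y).IsHermitian) : (mm G L z).PosSemidef := by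
  have hpz := hp.self_of_nhds
  have h0 : (G z).det ≠ 0 := hpz.det_pos.ne'
  obtain ⟨B, hB⟩ : ∃ B : Matrix (Fin 2) (Fin 2) ℂ, G z = Bᴴ * B := by
    open scoped MatrixOrder in
    exact CStarAlgebra.nonneg_iff_eq_star_mul_self.mp hpz.posSemidef.nonneg
  have hBu : IsUnit B.det := by
    have h1 : IsUnit (G z).det := isUnit_iff_ne_zero.2 h0
    rw [hB, Matrix.det_mul] at h1
    exact isUnit_of_mul_isUnit_right h1
  have i2 : (G z)⁻¹ * G z = 1 := Matrix.nonsing_inv_mul _ (isUnit_iff_ne_zero.2 h0)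
  set W : Fin 2 → Matrix (Fin 2) (Fin 2) ℂ := fun c => B * Dv (At G) L c z * B⁻¹ with hW
  have e1 : ∀ c d, mm G L z c d = (W c * (W d)ᴴ).trace := by
    intro c d
    have h1 : dM I d L z = (G z)⁻¹ * ((Dv (At G) L d z)ᴴ * G z) := by
      rw [Dv_adj hG hL hp hs, ← Matrix.mul_assoc, i2, Matrix.one_mul]
    simp only [mm, Matrix.of_apply]
    rw [h1, tr_rank hBu hB]
  have e2 : mm G L z = ∑ i, ∑ j, Matrix.vecMulVec (fun c => W c i j) (star fun c => W c i j) := by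
    ext c d
    rw [e1, Matrix.sum_apply, Matrix.trace]
    refine Finset.sum_congr rfl fun i _ => ?_
    rw [Matrix.sum_apply, Matrix.diag_apply, Matrix.mul_apply]
    refine Finset.sum_congr rfl fun j _ => ?_
    rw [Matrix.vecMulVec_apply, Matrix.conjTranspose_apply]
    rfl
  rw [e2]
  exact Matrix.posSemidef_sum _ fun i _ => Matrix.posSemidef_sum _ fun j _ =>
    Matrix.posSemidef_vecMulVec_self_star _

theorem tr_real {G L : Matrix (Fin 2) (Fin 2) ℂ} (hp : G.PosDef) (hs : (G * L).IsHermitian) :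
    (((L * L).trace.re : ℝ) : ℂ) = (L * L).trace := by
  have h0 : G.det ≠ 0 := hp.det_pos.ne'
  have i1 : G * G⁻¹ = 1 := Matrix.mul_nonsing_inv _ (isUnit_iff_ne_zero.2 h0)
  have g4 : Lᴴ * G = G * L := by
    have h3 := hs.eq
    rwa [Matrix.conjTranspose_mul, hp.isHermitian.eq] at h3
  have h1 : Lᴴ = G * L * G⁻¹ := by rw [← g4, Matrix.mul_assoc, i1, Matrix.mul_one]
  have h2 : conj (L * L).trace = (L * L).trace := by
    have e : conj (L * L).trace = ((L * L)ᴴ).trace := (Matrix.trace_conjTranspose _).symm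
    have e3 : Lᴴ * Lᴴ = G * (L * L * G⁻¹) := by
      have i2 : G⁻¹ * G = 1 := Matrix.nonsing_inv_mul _ (isUnit_iff_ne_zero.2 h0)
      rw [h1]
      calc G * L * G⁻¹ * (G * L * G⁻¹) = G * (L * ((G⁻¹ * G) * (L * G⁻¹))) := by
            simp only [Matrix.mul_assoc]
        _ = _ := by rw [i2, Matrix.one_mul]; simp only [Matrix.mul_assoc]
    rw [e, Matrix.conjTranspose_mul, e3, Matrix.trace_mul_comm, Matrix.mul_assoc,
      Matrix.mul_assoc]
    have i2 : G⁻¹ * G = 1 := Matrix.nonsing_inv_mul _ (isUnit_iff_ne_zero.2 h0)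
    rw [i2, Matrix.mul_one]
  exact Complex.conj_eq_iff_re.1 h2

/-- `e^{rL}` keeps `L` self adjoint -/
theorem geo_herm {H L : Matrix (Fin 2) (Fin 2) ℂ} (hp : H.PosDef) (hs : (H * L).IsHermitian)
    (r : ℝ) : (H * ex L r * L).IsHermitian := by
  have h1 : H * ex L r * L = Lᴴ * (H * ex L r) := by
    have h3 := hs.eq
    rw [Matrix.conjTranspose_mul, hp.isHermitian.eq] at h3
    rw [← Matrix.mul_assoc, h3, Matrix.mul_assoc, ← ex_comm, ← Matrix.mul_assoc]
  have h2 : (H * ex L r).IsHermitian := (geo_pos hp hs r).isHermitian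
  show (H * ex L r * L)ᴴ = _
  rw [Matrix.conjTranspose_mul, h2.eq, ← h1]

end

end Crest.Agent.R257.BCU5_532
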