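import Crest.Agent.R257.BCU5_532

/-!
# R257 (S0395), part (GB), leaf GB-UPP (helper532): differentiation of integrals of densities

* `lint_deriv`, `intD_deriv` : `d/dr ∫ f_r = ∫ ∂_r f_r`, compact support
-/

set_option autoImplicit false
set_option linter.unusedSectionVars false

open Set Filter Topology Complex MeasureTheory
open scoped ContDiff Matrix ComplexConjugate ComplexOrder

namespace Crest.Agent.R257.BCU6_532

open Crest.Agent.R275.Geo Crest.Agent.R275.TorS666
open Crest.Agent.R275.Tor812 hiding pd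
open Crest.Agent.R275.C1d194 Crest.Agent.R275.Pai323 Crest.Agent.R275.OmT75
open Crest.Agent.R275.SerG398 (lint dens)
open Crest.Agent.R273.StokesV_332

noncomputable section

variable {n : ℕ} {M : Type} [TopologicalSpace M] {A : Atl n M}

section t2

variable [T2Space M]

theorem lint_deriv (P : Part A) {i : A.ι} {f f' : ℝ → M → ℂ} (hf : ∀ r, A.SmAt i (f r))
    (hf' : ∀ r, A.SmAt i (f' r))
    (hc : ∀ r, ∀ z ∈ (A.e i).target,
      ContinuousAt (fun q : ℝ × Cn n => f' q.1 ((A.e i).symm q.2)) (r, z))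
    (hd : ∀ x ∈ (A.e i).source, ∀ r, HasDerivAt (fun r => f r x) (f' r x) r) (r : ℝ) :
    HasDerivAt (fun r => lint A i (fun x => (P.ψ i x : ℂ) * f r x))
      (lint A i (fun x => (P.ψ i x : ℂ) * f' r x)) r := by
  set Kz : Set (Cn n) := (A.e i) '' (tsupport (P.χ i)) with hKz
  have hKzc : IsCompact Kz :=
    (P.χ_cpt i).image_of_continuousOn ((A.e i).continuousOn.mono (P.χ_sub i))
  have hKzt : Kz ⊆ (A.e i).target := by
    rintro _ ⟨x, hx, rfl⟩
    exact (A.e i).map_source (P.χ_sub i hx)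
  set Kc : Set (RI n → ℝ) := rc '' Kz with hKc
  have hKcc : IsCompact Kc := hKzc.image continuous_rc
  have hmem : ∀ y : RI n → ℝ, y ∉ Kc → cc y ∈ (A.e i).target →
      (P.ψ i ((A.e i).symm (cc y)) : ℂ) = 0 := by
    intro y hy hyt
    rw [psi_zero_off P i, Complex.ofReal_zero]
    intro hx
    exact hy ⟨cc y, ⟨_, hx, (A.e i).right_inv hyt⟩, rc_cc y⟩
  -- the bound
  obtain ⟨C, hC⟩ : ∃ C, ∀ q ∈ Icc (r - 1) (r + 1) ×ˢ Kz,
      ‖(P.ψ i ((A.e i).symm q.2) : ℂ) * f' q.1 ((A.e i).symm q.2)‖ ≤ C := by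
    refine (isCompact_Icc.prod hKzc).exists_bound_of_continuousOn fun q hq => ?_
    have hqt := hKzt hq.2
    refine ContinuousAt.continuousWithinAt (ContinuousAt.mul ?_ (hc q.1 q.2 hqt))
    have h1 : ContinuousAt (fun z => (P.ψ i ((A.e i).symm z) : ℂ)) q.2 :=
      ((smAt_ofReal (P.ψ_sm i i) : A.SmAt i (fun x => (P.ψ i x : ℂ))).continuousOn).continuousAt
        ((A.e i).open_target.mem_nhds hqt)
    exact h1.comp (f := fun q : ℝ × Cn n => q.2) continuousAt_snd
  have key := hasDerivAt_integral_of_dominated_loc_of_deriv_le (𝕜 := ℝ) (μ := volume)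
    (F := fun r => rd A i (fun x => (P.ψ i x : ℂ) * f r x))
    (F' := fun r => rd A i (fun x => (P.ψ i x : ℂ) * f' r x)) (x₀ := r)
    (s := Icc (r - 1) (r + 1)) (bound := Kc.indicator fun _ => C)
    (Icc_mem_nhds (by linarith) (by linarith))
    (Eventually.of_forall fun r => (integrable_psi P (hf r)).aestronglyMeasurable)
    (integrable_psi P (hf r)) (integrable_psi P (hf' r)).aestronglyMeasurable ?_ ?_ ?_
  · exact key.2
  · refine Eventually.of_forall fun y r' hr' => ?_
    by_cases hy : y ∈ Kc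
    · rw [indicator_of_mem hy]
      obtain ⟨z, hz, rfl⟩ := hy
      have hzt := hKzt hz
      have hU : rc z ∈ Ui A i := by
        show cc (rc z) ∈ (A.e i).target
        rwa [cc_rc]
      rw [rd_of_mem hU, cc_rc]
      exact hC (r', z) ⟨hr', hz⟩
    · rw [indicator_of_notMem hy]
      by_cases hyt : y ∈ Ui A i
      · rw [rd_of_mem hyt, hmem y hy hyt, zero_mul, norm_zero]
      · rw [rd_off hyt, norm_zero]
  · exact (integrableOn_const hKcc.measure_ne_top).integrable_indicator hKcc.measurableSet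
  · refine Eventually.of_forall fun y r' _ => ?_
    by_cases hyt : y ∈ Ui A i
    · have e : (fun r => rd A i (fun x => (P.ψ i x : ℂ) * f r x) y) = fun r =>
          (P.ψ i ((A.e i).symm (cc y)) : ℂ) * f r ((A.e i).symm (cc y)) :=
        funext fun r => rd_of_mem hyt
      have e' : rd A i (fun x => (P.ψ i x : ℂ) * f' r' x) y =
          (P.ψ i ((A.e i).symm (cc y)) : ℂ) * f' r' ((A.e i).symm (cc y)) := rd_of_mem hyt
      rw [e']
      show HasDerivAt (fun r => rd A i (fun x => (P.ψ i x : ℂ) * f r x) y) _ r'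
      rw [e]
      exact (hd _ ((A.e i).map_target hyt) r').const_mul _
    · have e : (fun r => rd A i (fun x => (P.ψ i x : ℂ) * f r x) y) = fun _ => 0 :=
        funext fun r => rd_off hyt
      have e' : rd A i (fun x => (P.ψ i x : ℂ) * f' r' x) y = 0 := rd_off hyt
      rw [e']
      show HasDerivAt (fun r => rd A i (fun x => (P.ψ i x : ℂ) * f r x) y) _ r'
      rw [e]
      exact hasDerivAt_const _ _

/-- **derivative of the integral of a family of densities** -/
theorem intD_deriv (P : Part A) {K : Set M} (hK : IsCompact K) {f f' : ℝ → A.ι → M → ℂ}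
    (hf : ∀ r i, A.SmAt i (f r i)) (hf' : ∀ r i, A.SmAt i (f' r i))
    (hc : ∀ i, ∀ r, ∀ z ∈ (A.e i).target,
      ContinuousAt (fun q : ℝ × Cn n => f' q.1 i ((A.e i).symm q.2)) (r, z))
    (hd : ∀ i, ∀ x ∈ (A.e i).source, ∀ r, HasDerivAt (fun r => f r i x) (f' r i x) r)
    (h0 : ∀ r, OffK A (f r) K) (h0' : ∀ r, OffK A (f' r) K) (r : ℝ) :
    HasDerivAt (fun r => intD P (f r)) (intD P (f' r)) r := by
  have e : (fun r => intD P (f r)) = fun r =>
      ∑ i ∈ Fn P hK, lint A i (fun x => (P.ψ i x : ℂ) * f r i x) :=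
    funext fun r => intD_eq_sum P hK (Finset.Subset.refl _) (h0 r)
  rw [e, intD_eq_sum P hK (Finset.Subset.refl _) (h0' r)]
  exact HasDerivAt.fun_sum fun i _ => lint_deriv P (fun r => hf r i) (fun r => hf' r i)
    (hc i) (hd i) r

end t2

end

end Crest.Agent.R257.BCU6_532
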