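import Crest.Agent.R257.BCU6_532

/-!
# R257 (S0395), part (GB), leaf GB-UPP (helper532): geodesics of metrics on a bundle

* `LF E`       : fields of self adjoint endomorphisms
* `gE v r`     : the bundle with the metric `H e^{r v}`
* `q2D E`      : `tr F²` as a density, `q2D_eq : c2D = ½ pd (rho, rho) - q2D`
* `bD v`       : the field `tr (v F)` of type `(1,1)`
-/

set_option autoImplicit false
set_option linter.unusedSectionVars false

open Set Filter Topology Complex MeasureTheory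
open scoped ContDiff Matrix ComplexConjugate ComplexOrder

namespace Crest.Agent.R257.BCU7_532

open Crest.Agent.R275.Geo Crest.Agent.R275.TorS666
open Crest.Agent.R275.Tor812 hiding pd
open Crest.Agent.R275.C1d194 Crest.Agent.R275.Pai323 Crest.Agent.R275.OmT75
open Crest.Agent.R275.SerG398 (lint dens)
open Crest.Agent.R275.EDR890
open Crest.Agent.R273.StokesV_332
open Crest.Agent.R273.Fock_243
open Crest.Agent.R273.Calc_243 hiding dj
open Crest.Agent.R273.Bkn_243 Crest.Agent.R273.Pos_243 Crest.Agent.R273.BochA_101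
open Crest.Agent.R273.BochB_101 Crest.Agent.R273.BochC_101 Crest.Agent.R273.BochD_101
open Crest.Agent.R275.Core144 Crest.Agent.R273.Defs_333 Crest.Agent.R273.HM_333
open Crest.Agent.R273.Hess_333 Crest.Agent.R273.HessB_333 Crest.Agent.R273.Kah_333
open Crest.Agent.R273.GreenM_5
open Crest.Agent.R257.C2F1_625 Crest.Agent.R257.C2F2_625
open Crest.Agent.R257.C2F5_335 Crest.Agent.R257.GBL1_625 Crest.Agent.R257.GBL2_625
open Crest.Agent.R257.C2F6_335 hiding ddD
open Crest.Agent.R257.BCU1_532 Crest.Agent.R257.BCU2_532 Crest.Agent.R257.BCU3_532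
open Crest.Agent.R257.BCU4_532 Crest.Agent.R257.BCU5_532 Crest.Agent.R257.BCU6_532

noncomputable section

variable {M : Type} [TopologicalSpace M] {A : Atl 2 M}

/-- fields of self adjoint endomorphisms -/
structure LF (E : HB A (Fin 2)) where
  L : A.ι → M → Matrix (Fin 2) (Fin 2) ℂ
  sm : ∀ i a b, A.SmAt i (fun x => L i x a b)
  sa : ∀ i, ∀ x ∈ (A.e i).source, (E.H i x * L i x).IsHermitian
  tr : ∀ i j, ∀ x ∈ (A.e i).source ∩ (A.e j).source, E.F i j x * L i x = L j x * E.F i j x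

variable {E : HB A (Fin 2)}

/-- read in a chart, the new metric is the geodesic -/
theorem rdM_geo (v : LF E) (r : ℝ) (i : A.ι) :
    rdM A i (fun x => E.H i x * ex (v.L i x) r) = geo (rdM A i (E.H i)) (rdM A i (v.L i)) r := rfl

/-- the bundle with the metric `H e^{r v}` -/
def gE (v : LF E) (r : ℝ) : HB A (Fin 2) where
  H i x := E.H i x * ex (v.L i x) r
  F := E.F
  sm i a b := fun z hz => ContDiffAt.contDiffWithinAt
    (geo_sm (evSmM_rdM (E.sm i) hz) (evSmM_rdM (v.sm i) hz) r a b)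
  pos i x hx := geo_pos (E.pos i x hx) (v.sa i x hx) r
  hol := E.hol
  det_ne := E.det_ne
  tr i j x hx := by
    rw [E.tr i j x hx, Matrix.mul_assoc, ex_conj (E.det_ne i j x hx) (v.tr i j x hx) r]
    simp only [Matrix.mul_assoc]

/-- the same endomorphism for the new metric -/
def gL (v : LF E) (r : ℝ) : LF (gE v r) where
  L := v.L
  sm := v.sm
  sa i x hx := geo_herm (E.pos i x hx) (v.sa i x hx) r
  tr := v.tr

theorem gE_zero (v : LF E) (i : A.ι) (x : M) : (gE v 0).H i x = E.H i x := by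
  show E.H i x * ex (v.L i x) 0 = _
  rw [ex_zero, Matrix.mul_one]

/-- `tr F²` as a density -/
def q2D (E : HB A (Fin 2)) (i : A.ι) (x : M) : ℂ := q2 (rdM A i (E.H i)) (A.e i x)

/-- `tr (v F)` -/
def bD (v : LF E) (i : A.ι) (x : M) : Matrix (Fin 2) (Fin 2) ℂ :=
  bf (rdM A i (E.H i)) (rdM A i (v.L i)) (A.e i x)

theorem q2D_eq (E : HB A (Fin 2)) {i : A.ι} {x : M} (hx : x ∈ (A.e i).source) :
    E.c2D i x = pd (E.rho i x) (E.rho i x) / 2 - q2D E i x := by
  have h0 : (rdM A i (E.H i) (A.e i x)).det ≠ 0 := by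
    rw [rdM_at hx]; exact E.H_det_ne hx
  exact q2_eq h0

theorem q2D_eq' (E : HB A (Fin 2)) {i : A.ι} {x : M} (hx : x ∈ (A.e i).source) :
    q2D E i x = pd (E.rho i x) (E.rho i x) / 2 - E.c2D i x := by
  rw [q2D_eq E hx]; ring

theorem q2_dn (E : HB A (Fin 2)) : Dn A (q2D E) := by
  intro i j x hx
  have h1 := pd_dn E.rho_tn E.rho_tn i j x hx
  have h2 := E.c2_dn i j x hx
  show q2D E i x = _
  rw [q2D_eq' E hx.1, q2D_eq' E hx.2, h2]
  simp only at h1
  rw [h1]
  ring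

theorem smJ_at {f : M → ℂ} {i : A.ι} (hf : A.SmAt i f) {z : Cn 2} (hz : z ∈ (A.e i).target) :
    Sm z (fun z => f ((A.e i).symm z)) := hf.contDiffAt ((A.e i).open_target.mem_nhds hz)

theorem Th_smM {G : Cn 2 → Matrix (Fin 2) (Fin 2) ℂ} {z : Cn 2} (hG : SmM z G)
    (h0 : (G z).det ≠ 0) (c d : Fin 2) : SmM z (Th G c d) :=
  SmM.mul (SmM.inv hG h0) (smM_rm hG h0 c d)

theorem q2_sm (E : HB A (Fin 2)) (i : A.ι) : A.SmAt i (q2D E i) := by
  intro z hz
  refine ContDiffAt.contDiffWithinAt ?_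
  have hG : SmM z (rdM A i (E.H i)) := evSmM_rdM (E.sm i) hz
  have h0 : (rdM A i (E.H i) z).det ≠ 0 := E.H_det_ne ((A.e i).map_target hz)
  have h1 : Sm z (q2 (rdM A i (E.H i))) :=
    (Sm.trace (SmM.mul (Th_smM hG h0 0 0) (Th_smM hG h0 1 1))).sub
      (Sm.trace (SmM.mul (Th_smM hG h0 0 1) (Th_smM hG h0 1 0)))
  refine h1.congr_of_eventuallyEq ?_
  filter_upwards [(A.e i).open_target.mem_nhds hz] with y hy
  unfold q2D
  rw [(A.e i).right_inv hy]

theorem q2_den (E : HB A (Fin 2)) : Den A (q2D E) where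
  sm i := q2_sm E i
  tr := q2_dn E

/-! ### the field `tr (v F)` -/

theorem bf_sm {G L : Cn 2 → Matrix (Fin 2) (Fin 2) ℂ} {z : Cn 2} (hG : SmM z G)
    (h0 : (G z).det ≠ 0) (hL : SmM z L) : SmM z (bf G L) := fun c d =>
  Sm.trace (SmM.mul hL (Th_smM hG h0 c d))

theorem bD_sm (v : LF E) (U : Set M) : SmS A U (bD v) := by
  intro i a b x hx _
  have hz := (A.e i).map_source hx
  have hG : SmM (A.e i x) (rdM A i (E.H i)) := evSmM_rdM (E.sm i) hz
  have hL : SmM (A.e i x) (rdM A i (v.L i)) := evSmM_rdM (v.sm i) hz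
  have h0 : (rdM A i (E.H i) (A.e i x)).det ≠ 0 := by
    rw [rdM_at hx]; exact E.H_det_ne hx
  refine (bf_sm hG h0 hL a b).congr_of_eventuallyEq ?_
  filter_upwards [(A.e i).open_target.mem_nhds hz] with y hy
  unfold bD
  rw [(A.e i).right_inv hy]

theorem trF {F L L' Θ : Matrix (Fin 2) (Fin 2) ℂ} (hF : F.det ≠ 0) (h : F * L = L' * F) :
    (L * (F⁻¹ * Θ * F)).trace = (L' * Θ).trace := by
  have i1 : F * F⁻¹ = 1 := Matrix.mul_nonsing_inv _ (isUnit_iff_ne_zero.2 hF)
  rw [Matrix.mul_assoc, ← Matrix.mul_assoc L, ← Matrix.mul_assoc, Matrix.trace_mul_comm]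
  have : F * (L * F⁻¹ * Θ) = L' * Θ := by
    rw [← Matrix.mul_assoc, ← Matrix.mul_assoc, h, Matrix.mul_assoc L', i1, Matrix.mul_one]
  rw [this]

theorem bD_tn (v : LF E) (U : Set M) : TnO A U (bD v) := by
  intro i j x hx _
  have hF := E.det_ne i j x hx
  have hF' : ((E.F i j x)ᴴ).det ≠ 0 := by
    rw [Matrix.det_conjTranspose]; exact (star_ne_zero).2 hF
  have i2 : ((E.F i j x)ᴴ)⁻¹ * (E.F i j x)ᴴ = 1 :=
    Matrix.nonsing_inv_mul _ (isUnit_iff_ne_zero.2 hF')
  ext c d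
  have e0 : ((Jm A i j x)ᵀ * bD v j x * (Jm A i j x).map conj) c d
      = ∑ a, ∑ b, (Jm A i j x a c * conj (Jm A i j x b d)) * bD v j x a b := by
    simp only [Matrix.mul_apply, Matrix.transpose_apply, Matrix.map_apply, Finset.sum_mul]
    rw [Finset.sum_comm]
    refine Finset.sum_congr rfl fun i _ => Finset.sum_congr rfl fun j _ => ?_
    ring
  have e1 : Th (rdM A i (E.H i)) c d (A.e i x) = (E.F i j x)⁻¹ * (∑ a, ∑ b,
      (Jm A i j x a c * conj (Jm A i j x b d)) • Th (rdM A j (E.H j)) a b (A.e j x)) *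
      E.F i j x := by
    unfold Th
    rw [E.rm_tr hx, rdM_at hx.1, rdM_at hx.2, E.tr i j x hx, Matrix.mul_inv_rev,
      Matrix.mul_inv_rev]
    calc (E.F i j x)⁻¹ * ((E.H j x)⁻¹ * ((E.F i j x)ᴴ)⁻¹) * ((E.F i j x)ᴴ * (∑ a, ∑ b,
            (Jm A i j x a c * conj (Jm A i j x b d)) • rm (rdM A j (E.H j)) (A.e j x) a b) *
          E.F i j x) = (E.F i j x)⁻¹ * ((E.H j x)⁻¹ * ((((E.F i j x)ᴴ)⁻¹ * (E.F i j x)ᴴ) *
            (∑ a, ∑ b, (Jm A i j x a c * conj (Jm A i j x b d)) •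
              rm (rdM A j (E.H j)) (A.e j x) a b))) * E.F i j x := by
          simp only [Matrix.mul_assoc]
      _ = _ := by
          rw [i2, Matrix.one_mul]
          simp only [Matrix.mul_sum, Matrix.mul_smul]
  rw [e0]
  unfold bD bf
  simp only [Matrix.of_apply]
  rw [e1, rdM_at hx.1, rdM_at hx.2, trF hF (v.tr i j x hx)]
  simp only [Matrix.mul_sum, Matrix.trace_sum, Matrix.mul_smul, Matrix.trace_smul, smul_eq_mul]

end

end Crest.Agent.R257.BCU7_532
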