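import Mathlib

/-!
# R257 (S0395), part (GB), leaf GBLABS (helper844, for GB-LIM of helper625)

The abstract loss lemma: no curvature is lost at the infinity of the cut-offs.
-/

set_option autoImplicit false

open MeasureTheory Filter Topology Set

namespace Crest.Agent.R257.GBLabs_844

variable {X : Type*} [MeasurableSpace X] {μ : Measure X}

/-- Fatou's lemma for real functions. -/
theorem fatou {f : ℕ → X → ℝ} {g : X → ℝ} {K : ℝ}
    (hf : ∀ᶠ j in atTop, Integrable (f j) μ ∧ (∀ᵐ x ∂μ, 0 ≤ f j x) ∧ ∫ x, f j x ∂μ ≤ K)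
    (hg : ∀ᵐ x ∂μ, Tendsto (fun j => f j x) atTop (𝓝 (g x))) :
    Integrable g μ ∧ ∫ x, g x ∂μ ≤ K := by
  obtain ⟨N, hN⟩ := eventually_atTop.1 hf
  have h1 : ∀ j, Integrable (f (j + N)) μ := fun j => (hN _ (by omega)).1
  have h2 : ∀ᵐ x ∂μ, Tendsto (fun j => f (j + N) x) atTop (𝓝 (g x)) :=
    hg.mono fun x hx => hx.comp (tendsto_add_atTop_nat N)
  have hm : AEStronglyMeasurable g μ :=
    aestronglyMeasurable_of_tendsto_ae _ (fun j => (h1 j).aestronglyMeasurable) h2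
  have h3 : ∀ j, ∫⁻ x, ‖f (j + N) x‖ₑ ∂μ ≤ ENNReal.ofReal K := fun j => by
    obtain ⟨a1, a2, a3⟩ := hN (j + N) (by omega)
    have e : ∫⁻ x, ‖f (j + N) x‖ₑ ∂μ = ENNReal.ofReal (∫ x, f (j + N) x ∂μ) := by
      rw [ofReal_integral_eq_lintegral_ofReal a1 a2]
      exact lintegral_congr_ae (a2.mono fun x hx => Real.enorm_of_nonneg hx)
    rw [e]
    exact ENNReal.ofReal_le_ofReal a3
  have h4 : ∫⁻ x, ‖g x‖ₑ ∂μ ≤ ENNReal.ofReal K := by
    calc ∫⁻ x, ‖g x‖ₑ ∂μ = ∫⁻ x, liminf (fun j => ‖f (j + N) x‖ₑ) atTop ∂μ :=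
          lintegral_congr_ae (h2.mono fun x hx => hx.enorm.liminf_eq.symm)
      _ ≤ liminf (fun j => ∫⁻ x, ‖f (j + N) x‖ₑ ∂μ) atTop :=
          lintegral_liminf_le' fun j => (h1 j).aestronglyMeasurable.aemeasurable.enorm
      _ ≤ ENNReal.ofReal K := by
          refine liminf_le_of_le (by isBoundedDefault) fun b hb => ?_
          obtain ⟨j, hj⟩ := hb.exists
          exact hj.trans (h3 j)
  have hi : Integrable g μ := ⟨hm, h4.trans_lt ENNReal.ofReal_lt_top⟩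
  have h0 : ∀ᵐ x ∂μ, 0 ≤ g x := by
    have h5 : ∀ᵐ x ∂μ, ∀ j, 0 ≤ f (j + N) x := ae_all_iff.2 fun j => (hN _ (by omega)).2.1
    filter_upwards [h2, h5] with x hx hy
    exact ge_of_tendsto' hx hy
  have hK : 0 ≤ K := (integral_nonneg_of_ae (hN N le_rfl).2.1).trans (hN N le_rfl).2.2
  refine ⟨hi, ?_⟩
  have e : ENNReal.ofReal (∫ x, g x ∂μ) = ∫⁻ x, ‖g x‖ₑ ∂μ := by
    rw [ofReal_integral_eq_lintegral_ofReal hi h0]
    exact (lintegral_congr_ae (h0.mono fun x hx => Real.enorm_of_nonneg hx)).symm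
  exact (ENNReal.ofReal_le_ofReal_iff hK).1 (e.trans_le h4)

/-- The hypotheses of the loss lemma for one cut-off function `a`. -/
structure Step (μ : Measure X) (C O O' : ℝ) (θ b r s c a : X → ℝ) (D : Set X) (F E : X → ℝ) :
    Prop where
  am : AEStronglyMeasurable a μ
  a0 : ∀ᵐ x ∂μ, 0 ≤ a x
  a1 : ∀ᵐ x ∂μ, a x ≤ 1
  Dm : MeasurableSet D
  F_le : ∀ᵐ x ∂μ, |F x| ≤ C * D.indicator θ x
  E_le : ∀ᵐ x ∂μ, |E x| ≤ C * D.indicator (fun x => θ x * a x * (b x + r x)) x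
  ib : Integrable (fun x => θ x * a x * b x) μ
  ir : Integrable (fun x => θ x * a x * r x) μ
  is : Integrable (fun x => θ x * a x * s x) μ
  ic : Integrable (fun x => θ x * a x ^ 2 * c x) μ
  ir2 : Integrable (fun x => θ x * a x ^ 2 * r x ^ 2) μ
  I1 : ∫ x, θ x * a x * b x ∂μ = O' + ∫ x, F x ∂μ + ∫ x, θ x * a x * s x ∂μ
  I2 : ∫ x, θ x * a x ^ 2 * c x ∂μ = O + ∫ x, E x ∂μ

namespace Step

variable {C O O' : ℝ} {θ b r s c a : X → ℝ} {D : Set X} {F E : X → ℝ}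

theorem ia (h : Step μ C O O' θ b r s c a D F E) (hθ : Integrable θ μ) (hθ0 : ∀ᵐ x ∂μ, 0 ≤ θ x) :
    Integrable (fun x => θ x * a x ^ 2) μ := by
  refine hθ.mono' (hθ.aestronglyMeasurable.mul (h.am.pow 2)) ?_
  filter_upwards [hθ0, h.a0, h.a1] with x h0 h1 h2
  rw [Real.norm_eq_abs, abs_of_nonneg (by positivity)]
  exact mul_le_of_le_one_right h0 (pow_le_one₀ h1 h2)

theorem int_F (h : Step μ C O O' θ b r s c a D F E) (hC : 0 < C) (hθ : Integrable θ μ)
    (hθ0 : ∀ᵐ x ∂μ, 0 ≤ θ x) : |∫ x, F x ∂μ| ≤ C * ∫ x, θ x ∂μ := by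
  rw [← integral_const_mul, ← Real.norm_eq_abs]
  refine norm_integral_le_of_norm_le (hθ.const_mul C) ?_
  filter_upwards [hθ0, h.F_le] with x h0 h1
  refine h1.trans (mul_le_mul_of_nonneg_left ?_ hC.le)
  exact indicator_apply_le' (fun _ => le_rfl) (fun _ => h0)

theorem int_E (h : Step μ C O O' θ b r s c a D F E) (hC : 0 < C)
    (hθ0 : ∀ᵐ x ∂μ, 0 ≤ θ x) (hb : ∀ᵐ x ∂μ, 0 ≤ b x) (hr : ∀ᵐ x ∂μ, 0 ≤ r x) :
    |∫ x, E x ∂μ| ≤ C * (∫ x, θ x * a x * b x ∂μ + ∫ x, θ x * a x * r x ∂μ) := by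
  rw [← integral_add h.ib h.ir, ← integral_const_mul, ← Real.norm_eq_abs]
  refine norm_integral_le_of_norm_le ((h.ib.add h.ir).const_mul C) ?_
  filter_upwards [hθ0, h.E_le, h.a0, hb, hr] with x h0 h1 h2 h3 h4
  refine h1.trans (mul_le_mul_of_nonneg_left ?_ hC.le)
  have e : θ x * a x * (b x + r x) = θ x * a x * b x + θ x * a x * r x := by ring
  refine indicator_apply_le' (fun _ => e.le) (fun _ => ?_)
  positivity

theorem int_s (h : Step μ C O O' θ b r s c a D F E) (hθ0 : ∀ᵐ x ∂μ, 0 ≤ θ x)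
    (hs : ∀ᵐ x ∂μ, |s x| ≤ C * r x) :
    |∫ x, θ x * a x * s x ∂μ| ≤ C * ∫ x, θ x * a x * r x ∂μ := by
  rw [← integral_const_mul, ← Real.norm_eq_abs]
  refine norm_integral_le_of_norm_le (h.ir.const_mul C) ?_
  filter_upwards [hθ0, h.a0, hs] with x h0 h1 h2
  rw [Real.norm_eq_abs, abs_mul, abs_of_nonneg (by positivity : 0 ≤ θ x * a x)]
  calc θ x * a x * |s x| ≤ θ x * a x * (C * r x) := by gcongr
    _ = _ := by ring

theorem int_r (h : Step μ C O O' θ b r s c a D F E) (hθ : Integrable θ μ)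
    (hθ0 : ∀ᵐ x ∂μ, 0 ≤ θ x) {ε : ℝ} (hε : 0 < ε) :
    ∫ x, θ x * a x * r x ∂μ ≤
      ε / 2 * ∫ x, θ x * a x ^ 2 * r x ^ 2 ∂μ + 1 / (2 * ε) * ∫ x, θ x ∂μ := by
  rw [← integral_const_mul, ← integral_const_mul,
    ← integral_add (h.ir2.const_mul _) (hθ.const_mul _)]
  refine integral_mono_ae h.ir ((h.ir2.const_mul _).add (hθ.const_mul _)) ?_
  filter_upwards [hθ0] with x h0
  have e : ε / 2 * (θ x * a x ^ 2 * r x ^ 2) + 1 / (2 * ε) * θ x - θ x * a x * r x =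
      θ x * (ε * (a x * r x) - 1) ^ 2 / (2 * ε) := by
    field_simp
    ring
  have : 0 ≤ θ x * (ε * (a x * r x) - 1) ^ 2 / (2 * ε) := by positivity
  linarith

theorem int_r2 (h : Step μ C O O' θ b r s c a D F E) (hC : 0 < C) (hθ : Integrable θ μ)
    (hθ0 : ∀ᵐ x ∂μ, 0 ≤ θ x) (hrc : ∀ᵐ x ∂μ, r x ^ 2 ≤ C * (c x + C)) :
    ∫ x, θ x * a x ^ 2 * r x ^ 2 ∂μ ≤
      C * ∫ x, θ x * a x ^ 2 * c x ∂μ + C ^ 2 * ∫ x, θ x ∂μ := by
  rw [← integral_const_mul, ← integral_const_mul,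
    ← integral_add (h.ic.const_mul _) (hθ.const_mul _)]
  refine integral_mono_ae h.ir2 ((h.ic.const_mul _).add (hθ.const_mul _)) ?_
  filter_upwards [hθ0, h.a0, h.a1, hrc] with x h0 h1 h2 h3
  have e1 : θ x * a x ^ 2 * r x ^ 2 ≤ θ x * a x ^ 2 * (C * (c x + C)) := by gcongr
  have e2 : θ x * a x ^ 2 ≤ θ x := mul_le_of_le_one_right h0 (pow_le_one₀ h1 h2)
  have e3 : C ^ 2 * (θ x * a x ^ 2) ≤ C ^ 2 * θ x := by gcongr
  calc _ ≤ _ := e1
    _ = C * (θ x * a x ^ 2 * c x) + C ^ 2 * (θ x * a x ^ 2) := by ring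
    _ ≤ _ := by linarith

/-- the absorption -/
theorem bounds (hC : 0 < C) (hθ : Integrable θ μ) (hθ0 : ∀ᵐ x ∂μ, 0 ≤ θ x)
    (hb : ∀ᵐ x ∂μ, 0 ≤ b x) (hr : ∀ᵐ x ∂μ, 0 ≤ r x)
    (hrc : ∀ᵐ x ∂μ, r x ^ 2 ≤ C * (c x + C)) (hs : ∀ᵐ x ∂μ, |s x| ≤ C * r x) :
    ∃ K : ℝ, ∀ (a : X → ℝ) (D : Set X) (F E : X → ℝ), Step μ C O O' θ b r s c a D F E →
      ∫ x, θ x * a x ^ 2 * r x ^ 2 ∂μ ≤ K ∧ ∫ x, θ x * a x * r x ∂μ ≤ K ∧
        ∫ x, θ x * a x * b x ∂μ ≤ K ∧ ∫ x, θ x * a x ^ 2 * (c x + C) ∂μ ≤ K := by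
  set T := ∫ x, θ x ∂μ with hT
  have hT0 : 0 ≤ T := integral_nonneg_of_ae hθ0
  set q := C ^ 2 * (C + 1) with hq
  have hq0 : 0 < q := by positivity
  set K0 := C * |O| + C ^ 2 * (|O'| + C * T) + C ^ 2 * T with hK0
  have hK00 : 0 ≤ K0 := by positivity
  set K1 := 2 * K0 + q ^ 2 * T with hK1
  have hK10 : 0 ≤ K1 := by positivity
  set K2 := 1 / 2 * K1 + 1 / 2 * T with hK2
  have hK20 : 0 ≤ K2 := by positivity
  set K3 := |O'| + C * T + C * K2 with hK3
  have hK30 : 0 ≤ K3 := by positivity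
  set K4 := |O| + C * (K3 + K2) + C * T with hK4
  have hK40 : 0 ≤ K4 := by positivity
  refine ⟨K1 + K2 + K3 + K4, fun a D F E h => ?_⟩
  set A := ∫ x, θ x * a x ^ 2 * r x ^ 2 ∂μ with hA
  set R := ∫ x, θ x * a x * r x ∂μ with hR
  set B := ∫ x, θ x * a x * b x ∂μ with hB
  have b1 : B ≤ |O'| + C * T + C * R := by
    have e1 := (abs_le.1 (h.int_F hC hθ hθ0)).2
    have e2 := (abs_le.1 (h.int_s hθ0 hs)).2
    have e3 := h.I1
    have e4 := le_abs_self O'
    rw [← hT] at e1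
    rw [← hR] at e2
    rw [← hB] at e3
    linarith
  have b2 : ∫ x, θ x * a x ^ 2 * c x ∂μ ≤ |O| + C * (B + R) := by
    have e1 := (abs_le.1 (h.int_E hC hθ0 hb hr)).2
    have e2 := le_abs_self O
    rw [h.I2]
    linarith
  have b3 : A ≤ K0 + q * R := by
    have e1 := h.int_r2 hC hθ hθ0 hrc
    have e2 := mul_le_mul_of_nonneg_left b2 hC.le
    have e3 := mul_le_mul_of_nonneg_left b1 (by positivity : 0 ≤ C ^ 2)
    rw [← hT] at e1
    calc A ≤ _ := e1
      _ ≤ C * (|O| + C * (B + R)) + C ^ 2 * T := by linarith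
      _ = C * |O| + C ^ 2 * B + C ^ 2 * R + C ^ 2 * T := by ring
      _ ≤ C * |O| + C ^ 2 * (|O'| + C * T + C * R) + C ^ 2 * R + C ^ 2 * T := by linarith
      _ = K0 + q * R := by rw [hK0, hq]; ring
  have b4 : A ≤ K1 := by
    have e1 := h.int_r hθ hθ0 (ε := 1 / q) (by positivity)
    have e2 := mul_le_mul_of_nonneg_left e1 hq0.le
    have e3 : q * (1 / q / 2 * A + 1 / (2 * (1 / q)) * T) = A / 2 + q ^ 2 * T / 2 := by
      field_simp
    rw [← hR, ← hA, ← hT, e3] at e2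
    rw [hK1]
    linarith
  have b5 : R ≤ K2 := by
    have e1 := h.int_r hθ hθ0 (ε := 1) one_pos
    rw [← hR, ← hA, ← hT] at e1
    rw [hK2]
    linarith
  have b6 : B ≤ K3 := by
    have := mul_le_mul_of_nonneg_left b5 hC.le
    rw [hK3]
    linarith
  have b7 : ∫ x, θ x * a x ^ 2 * (c x + C) ∂μ ≤ K4 := by
    have e0 : ∫ x, θ x * a x ^ 2 * (c x + C) ∂μ =
        ∫ x, θ x * a x ^ 2 * c x ∂μ + C * ∫ x, θ x * a x ^ 2 ∂μ := by
      rw [← integral_const_mul, ← integral_add h.ic ((h.ia hθ hθ0).const_mul C)]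
      refine integral_congr_ae (Eventually.of_forall fun x => ?_)
      simp only
      ring
    have e1 : ∫ x, θ x * a x ^ 2 ∂μ ≤ T := by
      refine integral_mono_ae (h.ia hθ hθ0) hθ ?_
      filter_upwards [hθ0, h.a0, h.a1] with x h0 h1 h2
      exact mul_le_of_le_one_right h0 (pow_le_one₀ h1 h2)
    have e2 := mul_le_mul_of_nonneg_left e1 hC.le
    have e3 := mul_le_mul_of_nonneg_left (add_le_add b6 b5) hC.le
    rw [e0, hK4]
    linarith
  refine ⟨?_, ?_, ?_, ?_⟩ <;> linarith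

end Step

/-- **The abstract loss lemma.** -/
theorem loss {C O O' : ℝ} {θ b r s c : X → ℝ} {a : ℕ → X → ℝ} {D : ℕ → Set X} {F E : ℕ → X → ℝ}
    (hC : 0 < C) (hθ : Integrable θ μ) (hθ0 : ∀ᵐ x ∂μ, 0 ≤ θ x)
    (hb : ∀ᵐ x ∂μ, 0 ≤ b x) (hr : ∀ᵐ x ∂μ, 0 ≤ r x)
    (hrc : ∀ᵐ x ∂μ, r x ^ 2 ≤ C * (c x + C)) (hs : ∀ᵐ x ∂μ, |s x| ≤ C * r x)
    (ha : ∀ᵐ x ∂μ, ∀ᶠ j in atTop, a j x = 1) (hD : ∀ᵐ x ∂μ, ∀ᶠ j in atTop, x ∉ D j)
    (h : ∀ᶠ j in atTop, Step μ C O O' θ b r s c (a j) (D j) (F j) (E j)) :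
    Integrable (fun x => θ x * b x) μ ∧ Integrable (fun x => θ x * r x ^ 2) μ ∧
      Integrable (fun x => θ x * c x) μ ∧ ∫ x, θ x * c x ∂μ = O ∧
      Tendsto (fun j => ∫ x, θ x * a j x ^ 2 * c x ∂μ) atTop (𝓝 O) ∧
      Integrable (fun x => θ x * r x) μ ∧ Integrable (fun x => θ x * s x) μ ∧
      ∫ x, θ x * b x ∂μ = O' + ∫ x, θ x * s x ∂μ := by
  obtain ⟨K, hK⟩ := Step.bounds (O := O) (O' := O') hC hθ hθ0 hb hr hrc hs
  -- pointwise limits
  have lim : ∀ (g : X → ℝ) (k : ℕ), ∀ᵐ x ∂μ,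
      Tendsto (fun j => θ x * a j x ^ k * g x) atTop (𝓝 (θ x * g x)) := by
    intro g k
    filter_upwards [ha] with x hx
    refine tendsto_const_nhds.congr' ?_
    filter_upwards [hx] with j hj
    rw [hj, one_pow, mul_one]
  have lim1 : ∀ g : X → ℝ, ∀ᵐ x ∂μ,
      Tendsto (fun j => θ x * a j x * g x) atTop (𝓝 (θ x * g x)) := by
    intro g
    filter_upwards [lim g 1] with x hx
    simpa only [pow_one] using hx
  have ir2 := fatou (f := fun j x => θ x * a j x ^ 2 * r x ^ 2) (g := fun x => θ x * r x ^ 2)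
    (K := K) (h.mono fun j hj => ⟨hj.ir2, by
      filter_upwards [hθ0] with x h0
      positivity, (hK _ _ _ _ hj).1⟩) (lim _ 2)
  have ir := fatou (f := fun j x => θ x * a j x * r x) (g := fun x => θ x * r x)
    (K := K) (h.mono fun j hj => ⟨hj.ir, by
      filter_upwards [hθ0, hj.a0, hr] with x h0 h1 h2
      positivity, (hK _ _ _ _ hj).2.1⟩) (lim1 _)
  have ib := fatou (f := fun j x => θ x * a j x * b x) (g := fun x => θ x * b x)
    (K := K) (h.mono fun j hj => ⟨hj.ib, by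
      filter_upwards [hθ0, hj.a0, hb] with x h0 h1 h2
      positivity, (hK _ _ _ _ hj).2.2.1⟩) (lim1 _)
  have icC := fatou (f := fun j x => θ x * a j x ^ 2 * (c x + C)) (g := fun x => θ x * (c x + C))
    (K := K) (h.mono fun j hj => ⟨by
      have := hj.ic.add ((hj.ia hθ hθ0).const_mul C)
      refine this.congr (Eventually.of_forall fun x => ?_)
      simp only [Pi.add_apply]
      ring, by
      filter_upwards [hθ0, hj.a0, hrc] with x h0 h1 h2
      have : 0 ≤ c x + C := by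
        by_contra hc
        have h3 := mul_neg_of_pos_of_neg hC (not_le.1 hc)
        nlinarith [sq_nonneg (r x)]
      positivity, (hK _ _ _ _ hj).2.2.2⟩) (lim _ 2)
  have ic : Integrable (fun x => θ x * c x) μ := by
    refine (icC.1.sub (hθ.const_mul C)).congr (Eventually.of_forall fun x => ?_)
    simp only [Pi.sub_apply]
    ring
  -- dominated convergence for the error terms
  have dct : ∀ g : X → ℝ, Integrable g μ →
      Tendsto (fun j => ∫ x, C * (D j).indicator g x ∂μ) atTop (𝓝 0) := by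
    intro g hg
    have e0 : (0 : ℝ) = ∫ _x, (0 : ℝ) ∂μ := by simp
    rw [e0]
    refine tendsto_integral_filter_of_dominated_convergence (fun x => C * |g x|) ?_ ?_
      (hg.abs.const_mul C) ?_
    · filter_upwards [h] with j hj
      exact (hg.indicator hj.Dm).aestronglyMeasurable.const_mul C
    · refine Eventually.of_forall fun j => Eventually.of_forall fun x => ?_
      rw [Real.norm_eq_abs, abs_mul, abs_of_pos hC]
      refine mul_le_mul_of_nonneg_left ?_ hC.le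
      rw [← Real.norm_eq_abs, ← Real.norm_eq_abs]
      exact norm_indicator_le_norm_self _ _
    · filter_upwards [hD] with x hx
      refine tendsto_const_nhds.congr' ?_
      filter_upwards [hx] with j hj
      rw [indicator_of_notMem hj, mul_zero]
  have tF : Tendsto (fun j => ∫ x, F j x ∂μ) atTop (𝓝 0) := by
    refine squeeze_zero_norm' ?_ (dct θ hθ)
    filter_upwards [h] with j hj
    exact norm_integral_le_of_norm_le ((hθ.indicator hj.Dm).const_mul C) hj.F_le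
  have ibr : Integrable (fun x => θ x * (b x + r x)) μ := by
    refine (ib.1.add ir.1).congr (Eventually.of_forall fun x => ?_)
    simp only [Pi.add_apply]
    ring
  have tE : Tendsto (fun j => ∫ x, E j x ∂μ) atTop (𝓝 0) := by
    refine squeeze_zero_norm' ?_ (dct _ ibr)
    filter_upwards [h] with j hj
    refine norm_integral_le_of_norm_le ((ibr.indicator hj.Dm).const_mul C) ?_
    filter_upwards [hj.E_le, hθ0, hj.a0, hj.a1, hb, hr] with x h0 h1 h2 h3 h4 h5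
    refine h0.trans (mul_le_mul_of_nonneg_left ?_ hC.le)
    by_cases hx : x ∈ D j
    · rw [indicator_of_mem hx, indicator_of_mem hx]
      have : θ x * a j x ≤ θ x := mul_le_of_le_one_right h1 h3
      exact mul_le_mul_of_nonneg_right this (by positivity)
    · rw [indicator_of_notMem hx, indicator_of_notMem hx]
  have tO : Tendsto (fun j => ∫ x, θ x * a j x ^ 2 * c x ∂μ) atTop (𝓝 O) := by
    have h1 : Tendsto (fun j => O + ∫ x, E j x ∂μ) atTop (𝓝 (O + 0)) := tE.const_add O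
    rw [add_zero] at h1
    refine h1.congr' ?_
    filter_upwards [h] with j hj
    exact hj.I2.symm
  have tc : Tendsto (fun j => ∫ x, θ x * a j x ^ 2 * c x ∂μ) atTop (𝓝 (∫ x, θ x * c x ∂μ)) := by
    refine tendsto_integral_filter_of_dominated_convergence (fun x => |θ x * c x|) ?_ ?_
      ic.abs (lim _ 2)
    · filter_upwards [h] with j hj
      exact hj.ic.aestronglyMeasurable
    · filter_upwards [h] with j hj
      filter_upwards [hj.a0, hj.a1] with x h1 h2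
      rw [Real.norm_eq_abs, show θ x * a j x ^ 2 * c x = (θ x * c x) * a j x ^ 2 by ring, abs_mul,
        abs_of_nonneg (pow_nonneg h1 2)]
      exact mul_le_of_le_one_right (abs_nonneg _) (pow_le_one₀ h1 h2)
  -- the first identity in the limit
  have hev : ∃ j, Step μ C O O' θ b r s c (a j) (D j) (F j) (E j) := h.exists
  have ism : AEStronglyMeasurable (fun x => θ x * s x) μ := by
    obtain ⟨N, hN⟩ := eventually_atTop.1 h
    refine aestronglyMeasurable_of_tendsto_ae atTop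
      (f := fun j x => θ x * a (j + N) x * s x)
      (fun j => (hN (j + N) (by omega)).is.aestronglyMeasurable) ?_
    filter_upwards [lim1 s] with x hx
    exact hx.comp (tendsto_add_atTop_nat N)
  have hs2 : ∀ᵐ x ∂μ, ‖θ x * s x‖ ≤ C * (θ x * r x) := by
    filter_upwards [hθ0, hs] with x h0 h1
    rw [Real.norm_eq_abs, abs_mul, abs_of_nonneg h0]
    calc θ x * |s x| ≤ θ x * (C * r x) := by gcongr
      _ = _ := by ring
  have iss : Integrable (fun x => θ x * s x) μ := (ir.1.const_mul C).mono' ism hs2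
  have tb : Tendsto (fun j => ∫ x, θ x * a j x * b x ∂μ) atTop (𝓝 (∫ x, θ x * b x ∂μ)) := by
    refine tendsto_integral_filter_of_dominated_convergence (fun x => |θ x * b x|) ?_ ?_
      ib.1.abs (lim1 _)
    · filter_upwards [h] with j hj
      exact hj.ib.aestronglyMeasurable
    · filter_upwards [h] with j hj
      filter_upwards [hj.a0, hj.a1] with x h1 h2
      rw [Real.norm_eq_abs, show θ x * a j x * b x = (θ x * b x) * a j x by ring, abs_mul,
        abs_of_nonneg h1]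
      exact mul_le_of_le_one_right (abs_nonneg _) h2
  have ts : Tendsto (fun j => ∫ x, θ x * a j x * s x ∂μ) atTop (𝓝 (∫ x, θ x * s x ∂μ)) := by
    refine tendsto_integral_filter_of_dominated_convergence (fun x => |θ x * s x|) ?_ ?_
      iss.abs (lim1 _)
    · filter_upwards [h] with j hj
      exact hj.is.aestronglyMeasurable
    · filter_upwards [h] with j hj
      filter_upwards [hj.a0, hj.a1] with x h1 h2
      rw [Real.norm_eq_abs, show θ x * a j x * s x = (θ x * s x) * a j x by ring, abs_mul,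
        abs_of_nonneg h1]
      exact mul_le_of_le_one_right (abs_nonneg _) h2
  have tb' : Tendsto (fun j => ∫ x, θ x * a j x * b x ∂μ) atTop
      (𝓝 (O' + 0 + ∫ x, θ x * s x ∂μ)) := by
    refine ((tF.const_add O').add ts).congr' ?_
    filter_upwards [h] with j hj
    exact hj.I1.symm
  refine ⟨ib.1, ir2.1, ic, tendsto_nhds_unique tc tO, tO, ir.1, iss, ?_⟩
  have := tendsto_nhds_unique tb tb'
  rw [this, add_zero]

/-- The loss lemma with all hypotheses pointwise and for all `j ≥ 1`. -/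
theorem loss' {C O O' : ℝ} {θ b r s c : X → ℝ} {a : ℕ → X → ℝ} {D : ℕ → Set X} {F E : ℕ → X → ℝ}
    (hC : 0 < C) (hθ : Integrable θ μ) (hθ0 : ∀ x, 0 ≤ θ x)
    (hb : ∀ x, 0 ≤ b x) (hr : ∀ x, 0 ≤ r x)
    (hrc : ∀ x, r x ^ 2 ≤ C * (c x + C)) (hs : ∀ x, |s x| ≤ C * r x)
    (ham : ∀ j, Measurable (a j)) (ha0 : ∀ j x, 0 ≤ a j x) (ha1 : ∀ j x, a j x ≤ 1)
    (ha : ∀ x, ∀ᶠ j in atTop, a j x = 1)
    (hDm : ∀ j, MeasurableSet (D j)) (hD : ∀ x, ∀ᶠ j in atTop, x ∉ D j)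
    (hF : ∀ j, 1 ≤ j → ∀ x, |F j x| ≤ C * (D j).indicator θ x)
    (hE : ∀ j, 1 ≤ j → ∀ x,
      |E j x| ≤ C * (D j).indicator (fun x => θ x * a j x * (b x + r x)) x)
    (ib : ∀ j, 1 ≤ j → Integrable (fun x => θ x * a j x * b x) μ)
    (ir : ∀ j, 1 ≤ j → Integrable (fun x => θ x * a j x * r x) μ)
    (is : ∀ j, 1 ≤ j → Integrable (fun x => θ x * a j x * s x) μ)
    (ic : ∀ j, 1 ≤ j → Integrable (fun x => θ x * a j x ^ 2 * c x) μ)
    (ir2 : ∀ j, 1 ≤ j → Integrable (fun x => θ x * a j x ^ 2 * r x ^ 2) μ)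
    (I1 : ∀ᶠ j in atTop,
      ∫ x, θ x * a j x * b x ∂μ = O' + ∫ x, F j x ∂μ + ∫ x, θ x * a j x * s x ∂μ)
    (I2 : ∀ᶠ j in atTop, ∫ x, θ x * a j x ^ 2 * c x ∂μ = O + ∫ x, E j x ∂μ) :
    Integrable (fun x => θ x * b x) μ ∧ Integrable (fun x => θ x * r x ^ 2) μ ∧
      Integrable (fun x => θ x * c x) μ ∧ ∫ x, θ x * c x ∂μ = O ∧
      Tendsto (fun j => ∫ x, θ x * a j x ^ 2 * c x ∂μ) atTop (𝓝 O) ∧
      Integrable (fun x => θ x * r x) μ ∧ Integrable (fun x => θ x * s x) μ ∧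
      ∫ x, θ x * b x ∂μ = O' + ∫ x, θ x * s x ∂μ := by
  refine loss hC hθ (Eventually.of_forall hθ0) (Eventually.of_forall hb)
    (Eventually.of_forall hr) (Eventually.of_forall hrc) (Eventually.of_forall hs)
    (Eventually.of_forall ha) (Eventually.of_forall hD) (D := D) (F := F) (E := E) ?_
  filter_upwards [I1, I2, eventually_ge_atTop 1] with j h1 h2 hj
  exact ⟨(ham j).aestronglyMeasurable, Eventually.of_forall (ha0 j), Eventually.of_forall (ha1 j),
    hDm j, Eventually.of_forall (hF j hj), Eventually.of_forall (hE j hj), ib j hj, ir j hj,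
    is j hj, ic j hj, ir2 j hj, h1, h2⟩

end Crest.Agent.R257.GBLabs_844
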