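import Crest.Agent.R257.Up2_938
import Crest.Agent.R273.Mass_5

/-!
# R257 (S0395), leaf E-UP (helper938), part 3: the global inequality

* `tot_eq`      : the integral of a density with compact support as an integral against `vm h`
* `adj_tr_nn`   : `0 ≤ tr(adj G S)` for `G, S ≥ 0`
* `hsf_exp_psd` : `∂∂̄ e^u ≥ 0`
* `sqM F y = |F - y|²`, `J2 h F = |det ∂F|²/h`
* `mono_int`    : `∫ f |∂F|² ρ_e(F-y) ≤ ∫ f |∂F|² ρ_r(F-y)`, `∂∂̄f ≥ 0`, `e ≤ r`
-/

set_option autoImplicit false
set_option linter.unusedSectionVars false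

open Set Filter Topology Complex MeasureTheory
open scoped ContDiff Matrix ComplexConjugate ComplexOrder ENNReal

namespace Crest.Agent.R257.Up3_938

open Crest.Agent.R275 Crest.Agent.R275.Geo Crest.Agent.R275.Core144 Crest.Agent.R275.EDR890
open Crest.Agent.R275.Pai323 Crest.Agent.R275.C1d194
open Crest.Agent.R275.SerG398 (lint dens)
open Crest.Agent.R275.OmT75 (dj dl)
open Crest.Agent.R273.Defs_333 Crest.Agent.R273.Hess_333 Crest.Agent.R273.HessB_333
open Crest.Agent.R273.HM_333 Crest.Agent.R273.Kah_333 Crest.Agent.R273.Vol_333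
open Crest.Agent.R273.Vm_333
open Crest.Agent.R273.StV_37 Crest.Agent.R273.Green_5
open Crest.Agent.R273.GreenM_5 Crest.Agent.R273.GreenG_5 Crest.Agent.R273.FS_333
open Crest.Agent.R273.FIa0_597 (hess_comp_real gr star_gr exists_sq)
open Crest.Agent.R273.Mass_5 (w_dens fH wC_ne fH_div sm_fH)
open Crest.Agent.R257.Up1_938 Crest.Agent.R257.Up2_938

noncomputable section

/-! ### linear algebra -/

section LA

variable {n : ℕ}

theorem adj_tr_nn {G S : Matrix (Fin n) (Fin n) ℂ} (hG : G.PosSemidef) (hS : S.PosSemidef) :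
    0 ≤ (G.adjugate * S).trace := by
  obtain ⟨B, hB⟩ := exists_sq hG
  have h1 : G.adjugate = B.adjugate * (B.adjugate)ᴴ := by
    rw [hB, Matrix.adjugate_mul_distrib, ← Matrix.adjugate_conjTranspose]
  rw [h1, Matrix.mul_assoc, Matrix.trace_mul_comm, Matrix.mul_assoc]
  have h2 : (B.adjugate)ᴴ * (S * B.adjugate) = (B.adjugate)ᴴ * S * B.adjugate := by
    rw [Matrix.mul_assoc]
  rw [h2]
  exact (hS.conjTranspose_mul_mul_same B.adjugate).trace_nonneg

theorem hess_exp {U : Cn n → ℝ} {z : Cn n} (hU : ContDiffAt ℝ ∞ U z) :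
    hess (fun w => Real.exp (U w)) z = (Real.exp (U z) : ℂ) • hess U z +
      (Real.exp (U z) : ℂ) • Matrix.vecMulVec (gr U z) (star (gr U z)) := by
  ext a b
  rw [hess_comp_real hU (Eventually.of_forall fun s => Real.hasDerivAt_exp s)
    (Real.hasDerivAt_exp _), Matrix.add_apply, Matrix.smul_apply, Matrix.smul_apply,
    Matrix.vecMulVec_apply, star_gr (hU.differentiableAt (by simp))]
  simp only [gr, smul_eq_mul]

theorem hess_exp_psd {U : Cn n → ℝ} {z : Cn n} (hU : ContDiffAt ℝ ∞ U z)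
    (h : (hess U z).PosSemidef) : (hess (fun w => Real.exp (U w)) z).PosSemidef := by
  rw [hess_exp hU]
  have h0 : (0 : ℂ) ≤ (Real.exp (U z) : ℂ) := by exact_mod_cast (Real.exp_pos _).le
  exact (h.smul h0).add ((Matrix.posSemidef_vecMulVec_self_star (gr U z)).smul h0)

end LA

variable {n : ℕ} {M : Type} [TopologicalSpace M] {A : Atl n M}

theorem exp_sm {u : M → ℝ} (hu : A.Sm u) : A.Sm (fun x => Real.exp (u x)) := fun i =>
  Real.contDiff_exp.comp_contDiffOn (hu i)

theorem hsf_exp_psd {u : M → ℝ} (hu : A.Sm u) {i : A.ι} {x : M} (hx : x ∈ (A.e i).source)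
    (h : (hsf A u i x).PosSemidef) : (hsf A (fun x => Real.exp (u x)) i x).PosSemidef :=
  hess_exp_psd (sm_contDiffAt hu i ((A.e i).map_source hx)) h

/-! ### integrals of densities, `M` not compact -/

section meas

variable [T2Space M] [MeasurableSpace M] [BorelSpace M] [Countable A.ι]

theorem integrable_cs (h : HM (KB A)⁻¹) {W : Type*} [NormedAddCommGroup W] {f : M → W}
    (hf : Continuous f) {K : Set M} (hK : IsCompact K) (h0 : ∀ x ∉ K, f x = 0) :
    Integrable f (vm h) := by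
  have := isLocallyFinite_vm h
  exact hf.integrable_of_hasCompactSupport (HasCompactSupport.intro hK h0)

/-- the integral of a density with compact support -/
theorem tot_eq (h : HM (KB A)⁻¹) (P : Part A) {f : A.ι → M → ℂ} (hf : Dn A f)
    (hs : ∀ i, A.SmAt i (f i)) {K : Set M} (hK : IsCompact K) {F : Finset A.ι}
    (hF : Fn P hK ⊆ F) (h0 : ∀ x ∉ K, fH h f x = 0) :
    tot P F f = ∫ x, fH h f x ∂(vm h) := by
  have hfc : Continuous (fH h f) := sm_continuous (sm_fH h hf hs)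
  have hint : ∀ i, Integrable (fun x => (P.ψ i x : ℂ) * fH h f x) (vm h) := by
    intro i
    have hc : Continuous fun x => (P.ψ i x : ℂ) :=
      Complex.continuous_ofReal.comp (sm_continuous (P.ψ_sm i))
    exact integrable_cs h (hc.mul hfc) hK fun x hx => by rw [h0 x hx, mul_zero]
  have h1 : (fun x => fH h f x) = fun x => ∑ i ∈ F, (P.ψ i x : ℂ) * fH h f x := by
    funext x
    rw [← Finset.sum_mul]
    by_cases hx : x ∈ K
    · rw [sum_psiC P hK hF hx, one_mul]
    · rw [h0 x hx, mul_zero]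
  rw [h1, integral_finsetSum _ fun i _ => hint i]
  unfold tot
  refine Finset.sum_congr rfl fun i _ => ?_
  have h3 : ∫ x, (P.ψ i x : ℂ) * fH h f x ∂(vm h) =
      ∫ x in (A.e i).source, (P.ψ i x : ℂ) * fH h f x ∂(vm h) := by
    symm
    refine setIntegral_eq_integral_of_forall_compl_eq_zero fun x hx => ?_
    rw [psi_off P hx, Complex.ofReal_zero, zero_mul]
  rw [h3, setIntegral_vm h i (hint i).aestronglyMeasurable]
  unfold Crest.Agent.R275.SerG398.lint
  rw [← setIntegral_eq_integral_of_forall_compl_eq_zero (s := Ui A i)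
    (fun y hy => rd_off hy)]
  refine setIntegral_congr_fun (Crest.Agent.R273.Vm_333.isOpen_Ui i).measurableSet fun y hy => ?_
  rw [rd_of_mem hy]
  change (P.ψ i (sg A i y) : ℂ) * f i (sg A i y) =
    (h.w i (sg A i y)) • ((P.ψ i (sg A i y) : ℂ) * fH h f (sg A i y))
  rw [fH_div h hf (sg_mem hy), Complex.real_smul]
  have h4 := wC_ne h (sg_mem hy)
  field_simp

end meas

/-! ### the functions -/

section fns

variable {N : ℕ}

/-- `|F - y|²` -/
def sqM (F : M → Fin N → ℂ) (y : Fin N → ℂ) (x : M) : ℝ := ∑ k, ‖F x k - y k‖ ^ 2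

theorem sqM_nonneg (F : M → Fin N → ℂ) (y : Fin N → ℂ) (x : M) : 0 ≤ sqM F y x :=
  Finset.sum_nonneg fun _ _ => by positivity

/-- holomorphic maps to `ℂ^N` -/
def HolM (A : Atl n M) (F : M → Fin N → ℂ) : Prop :=
  ∀ i k, DifferentiableOn ℂ (fun z => F ((A.e i).symm z) k) (A.e i).target

theorem sqM_sm {F : M → Fin N → ℂ} (hF : HolM A F) (y : Fin N → ℂ) : A.Sm (sqM F y) := by
  intro i z hz
  refine ContDiffAt.contDiffWithinAt ?_
  exact ContDiffAt.sum fun k _ => (contDiffAt_of_hol (A.e i).open_target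
    ((hF i k).sub_const (y k)) hz).norm_sq ℝ

theorem Gs_sm {F : M → Fin N → ℂ} (hF : HolM A F) (y : Fin N → ℂ) {e : ℝ} (he : e ≠ 0) :
    A.Sm (fun x => Gs e (sqM F y x)) := fun i =>
  (Gs_contDiff he).comp_contDiffOn (sqM_sm hF y i)

theorem sqM_read (F : M → Fin N → ℂ) (i : A.ι) :
    (fun z => sqM F 0 ((A.e i).symm z)) =
      Crest.Agent.R273.FS_333.sq (fun z => F ((A.e i).symm z)) := by
  funext z
  simp [sqM, Crest.Agent.R273.FS_333.sq]

theorem hsf_sqM_psd {F : M → Fin N → ℂ} (hF : HolM A F) {i : A.ι} {x : M}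
    (hx : x ∈ (A.e i).source) : (hsf A (sqM F 0) i x).PosSemidef := by
  have hz := (A.e i).map_source hx
  have h1 : hsf A (sqM F 0) i x = ∑ k, Matrix.vecMulVec
      (fun a => fderiv ℂ (fun z => F ((A.e i).symm z) k) (A.e i x) (EuclideanSpace.single a 1))
      (star fun a =>
        fderiv ℂ (fun z => F ((A.e i).symm z) k) (A.e i x) (EuclideanSpace.single a 1)) := by
    ext p q
    unfold hsf
    rw [sqM_read, hess_sq (A.e i).open_target (hF i) hz p q, Matrix.sum_apply]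
    rfl
  rw [h1]
  exact Matrix.posSemidef_sum _ fun k _ => Matrix.posSemidef_vecMulVec_self_star _

end fns

section two

variable {A : Atl 2 M}

/-- the Jacobian matrix in the chart `i` -/
def DM (A : Atl 2 M) (F : M → Fin 2 → ℂ) (i : A.ι) (x : M) : Matrix (Fin 2) (Fin 2) ℂ :=
  DF (fun z => F ((A.e i).symm z)) (A.e i x)

/-- the kernel `ρ_e(F - y)` -/
def rhE (F : M → Fin 2 → ℂ) (y : Fin 2 → ℂ) (e : ℝ) (x : M) : ℝ :=
  rh (sqM F y x / e ^ 2) / e ^ 4

theorem rhE_nonneg (F : M → Fin 2 → ℂ) (y : Fin 2 → ℂ) (e : ℝ) (x : M) : 0 ≤ rhE F y e x :=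
  div_nonneg (rh_nonneg (div_nonneg (sqM_nonneg F y x) (sq_nonneg e))) (by positivity)

theorem tr_M {F : M → Fin 2 → ℂ} (hF : HolM A F) (y : Fin 2 → ℂ) {e : ℝ} (he : e ≠ 0) {i : A.ι}
    {x : M} (hx : x ∈ (A.e i).source) :
    ((hsf A (sqM F 0) i x).adjugate * hsf A (fun x => Gs e (sqM F y x)) i x).trace =
      ((‖(DM A F i x).det‖ ^ 2 * rhE F y e x : ℝ) : ℂ) := by
  have hz := (A.e i).map_source hx
  have h1 := trace_eq (F := fun z => F ((A.e i).symm z)) (A.e i).open_target (hF i) hz y he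
  have h3 : ∀ z, sqM F y ((A.e i).symm z) =
      Crest.Agent.R273.FS_333.sq (fun w k => F ((A.e i).symm w) k - y k) z := fun z => rfl
  unfold hsf
  rw [sqM_read]
  simp only [h3]
  rw [h1]
  unfold rhE DM
  rw [← h3, (A.e i).left_inv hx]

/-- `|det ∂F|² / h` -/
def J2 (h : HM (KB A)⁻¹) (F : M → Fin 2 → ℂ) (x : M) : ℝ :=
  ‖(DM A F (ci A x) x).det‖ ^ 2 / h.w (ci A x) x

theorem J2_nonneg (h : HM (KB A)⁻¹) (F : M → Fin 2 → ℂ) (x : M) : 0 ≤ J2 h F x :=
  div_nonneg (sq_nonneg _) (h.pos _ x (mem_ci x)).le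

theorem det_hsf {F : M → Fin 2 → ℂ} (hF : HolM A F) {i : A.ι} {x : M}
    (hx : x ∈ (A.e i).source) :
    (hsf A (sqM F 0) i x).det = ((‖(DM A F i x).det‖ ^ 2 : ℝ) : ℂ) := by
  have hz := (A.e i).map_source hx
  have h1 : hsf A (sqM F 0) i x = (DM A F i x)ᵀ * (DM A F i x).map conj := by
    ext p q
    unfold hsf
    rw [sqM_read, hess_sq (A.e i).open_target (hF i) hz p q, Matrix.mul_apply]
    rfl
  rw [h1, Matrix.det_mul, Matrix.det_transpose, det_map_conj, Complex.mul_conj,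
    Complex.normSq_eq_norm_sq]

theorem J2_eq (h : HM (KB A)⁻¹) {F : M → Fin 2 → ℂ} (hF : HolM A F) {i : A.ι} {x : M}
    (hx : x ∈ (A.e i).source) : J2 h F x = ‖(DM A F i x).det‖ ^ 2 / h.w i x := by
  have hd : Dn A (fun i x => (hsf A (sqM F 0) i x).det) := (hsf_tn (sqM_sm hF 0)).det
  have h1 := fH_div h hd hx
  simp only [fH] at h1
  rw [det_hsf hF hx, det_hsf hF (mem_ci x)] at h1
  unfold J2
  exact_mod_cast h1

theorem w_mul_J2 (h : HM (KB A)⁻¹) {F : M → Fin 2 → ℂ} (hF : HolM A F) {i : A.ι} {x : M}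
    (hx : x ∈ (A.e i).source) : h.w i x * J2 h F x = ‖(DM A F i x).det‖ ^ 2 := by
  rw [J2_eq h hF hx, mul_div_cancel₀ _ (h.pos i x hx).ne']

theorem fH_M (h : HM (KB A)⁻¹) {F : M → Fin 2 → ℂ} (hF : HolM A F) (y : Fin 2 → ℂ) {e : ℝ}
    (he : e ≠ 0) (f : M → ℝ) (x : M) :
    fH h (fun i x => (f x : ℂ) * ((hsf A (sqM F 0) i x).adjugate *
      hsf A (fun x => Gs e (sqM F y x)) i x).trace) x = ((f x * (J2 h F x * rhE F y e x) : ℝ) : ℂ) := by
  simp only [fH]
  rw [tr_M hF y he (mem_ci x)]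
  unfold J2
  push_cast
  ring

section meas

variable [T2Space M] [MeasurableSpace M] [BorelSpace M] [Countable A.ι]

theorem rhE_cont {F : M → Fin 2 → ℂ} (hF : HolM A F) (y : Fin 2 → ℂ) (e : ℝ) :
    Continuous (rhE F y e) :=
  (rh_cont.comp ((sm_continuous (sqM_sm hF y)).div_const _)).div_const _

theorem J2_cont (h : HM (KB A)⁻¹) {F : M → Fin 2 → ℂ} (hF : HolM A F) : Continuous (J2 h F) := by
  have hd : Dn A (fun i x => (hsf A (sqM F 0) i x).det) := (hsf_tn (sqM_sm hF 0)).det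
  have hs : ∀ i, A.SmAt i (fun x => (hsf A (sqM F 0) i x).det) := by
    intro i
    have h1 : (fun x => (hsf A (sqM F 0) i x).det) = fun x => hsf A (sqM F 0) i x 0 0 *
        hsf A (sqM F 0) i x 1 1 - hsf A (sqM F 0) i x 0 1 * hsf A (sqM F 0) i x 1 0 := by
      funext x
      rw [Matrix.det_fin_two]
    rw [h1]
    have hc := (hsf_cf (sqM_sm hF 0)).sm i
    exact ContDiffOn.sub (ContDiffOn.mul (hc 0 0) (hc 1 1)) (ContDiffOn.mul (hc 0 1) (hc 1 0))
  have h2 : J2 h F = fun x => (fH h (fun i x => (hsf A (sqM F 0) i x).det) x).re := by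
    funext x
    simp only [fH, J2]
    rw [det_hsf hF (mem_ci x), ← Complex.ofReal_div, Complex.ofReal_re]
  rw [h2]
  exact Complex.continuous_re.comp (sm_continuous (sm_fH h hd hs))

theorem rhE_zero {F : M → Fin 2 → ℂ} {y : Fin 2 → ℂ} {e : ℝ} (he : 0 < e) {x : M}
    (hx : e ^ 2 < sqM F y x) : rhE F y e x = 0 := by
  unfold rhE
  rw [rh_zero, zero_div]
  have : 1 ≤ sqM F y x / e ^ 2 := (one_le_div (by positivity)).2 hx.le
  linarith

/-- **the inequality of kernels** -/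
theorem mono_int (h : HM (KB A)⁻¹) (P : Part A) {F : M → Fin 2 → ℂ} (hF : HolM A F)
    {f : M → ℝ} (hf : A.Sm f) (hp : ∀ i, ∀ x ∈ (A.e i).source, (hsf A f i x).PosSemidef)
    (y : Fin 2 → ℂ) {e r : ℝ} (he : 0 < e) (her : e ≤ r)
    (hK : IsCompact {x | sqM F y x ≤ r ^ 2}) :
    ∫ x, f x * (J2 h F x * rhE F y e x) ∂(vm h) ≤
      ∫ x, f x * (J2 h F x * rhE F y r x) ∂(vm h) := by
  have hr : 0 < r := he.trans_le her
  set w : M → ℝ := sqM F 0 with hw
  have hws : A.Sm w := sqM_sm hF 0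
  set K : Set M := {x | sqM F y x ≤ r ^ 2} with hKd
  set φ : M → ℝ := fun x => Gs r (sqM F y x) - Gs e (sqM F y x) with hφ
  have hse := Gs_sm hF y he.ne'
  have hsr := Gs_sm hF y hr.ne'
  have hφs : A.Sm φ := fun i => (hsr i).sub (hse i)
  have hφ0 : ∀ x ∉ K, φ x = 0 := by
    intro x hx
    have h1 : r ^ 2 ≤ sqM F y x := (not_le.1 hx).le
    have h2 : e ^ 2 ≤ r ^ 2 := pow_le_pow_left₀ he.le her 2
    simp only [hφ]
    rw [Gs_eq hr h1, Gs_eq he (h2.trans h1), sub_self]
  have hφn : ∀ x, 0 ≤ φ x := fun x => sub_nonneg.2 (Gs_mono he her (sqM_nonneg F y x))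
  set Fs := Fn P hK with hFs
  have hFr : Fn P hK ⊆ Fs := Finset.Subset.refl _
  have hg := green_sym P hws hf hφs hK hFr hφ0
  -- the left hand side
  have hfc : ∀ i, A.SmAt i (fun x => (f x : ℂ)) := fun i => smAt_ofReal (hf i)
  have dmul : ∀ (g : M → ℂ) {d : A.ι → M → ℂ}, Dn A d → Dn A (fun i x => g x * d i x) := by
    intro g d hd i j x hx
    change g x * d i x = dens A i j x * (g x * d j x)
    rw [hd i j x hx]
    ring
  have hd1 : Dn A (fun i x => ((hsf A w i x).adjugate * hsf A f i x).trace) :=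
    trA_dn (hsf_tn hws) (hsf_tn hf)
  have hL : 0 ≤ (tot P Fs (fun i x => (φ x : ℂ) *
      ((hsf A w i x).adjugate * hsf A f i x).trace)).re := by
    rw [tot_eq h P (dmul (fun x => (φ x : ℂ)) hd1)
      (fun i => (smAt_ofReal (hφs i)).mul (smAt_trA (hsf_cf hws) (hsf_cf hf) i)) hK hFr]
    · have hi : Integrable (fH h (fun i x => (φ x : ℂ) *
          ((hsf A w i x).adjugate * hsf A f i x).trace)) (vm h) := by
        refine integrable_cs h (sm_continuous (sm_fH h (dmul (fun x => (φ x : ℂ)) hd1)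
          (fun i => (smAt_ofReal (hφs i)).mul (smAt_trA (hsf_cf hws) (hsf_cf hf) i)))) hK ?_
        intro x hx
        simp only [fH, hφ0 x hx, ofReal_zero, zero_mul, zero_div]
      have h3 := integral_re hi
      change ∫ x, (fH h (fun i x => (φ x : ℂ) *
          ((hsf A w i x).adjugate * hsf A f i x).trace) x).re ∂(vm h) =
        (∫ x, fH h (fun i x => (φ x : ℂ) *
          ((hsf A w i x).adjugate * hsf A f i x).trace) x ∂(vm h)).re at h3
      rw [← h3]
      refine integral_nonneg fun x => ?_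
      have hx := mem_ci (A := A) x
      change 0 ≤ ((φ x : ℂ) * ((hsf A w (ci A x) x).adjugate * hsf A f (ci A x) x).trace /
        ((h.w (ci A x) x : ℝ) : ℂ)).re
      rw [Complex.div_ofReal_re, Complex.re_ofReal_mul]
      exact div_nonneg (mul_nonneg (hφn x) (Complex.le_def.1
        (adj_tr_nn (hsf_sqM_psd hF hx) (hp _ x hx))).1) (h.pos _ x hx).le
    · intro x hx
      simp only [fH, hφ0 x hx, ofReal_zero, zero_mul, zero_div]
  rw [hg] at hL
  -- the right hand side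
  have hdE : ∀ s : ℝ, s ≠ 0 → Dn A (fun i x => ((hsf A w i x).adjugate *
      hsf A (fun x => Gs s (sqM F y x)) i x).trace) := fun s hs =>
    trA_dn (hsf_tn hws) (hsf_tn (Gs_sm hF y hs))
  have hsE : ∀ s : ℝ, s ≠ 0 → ∀ i, A.SmAt i (fun x => (f x : ℂ) * ((hsf A w i x).adjugate *
      hsf A (fun x => Gs s (sqM F y x)) i x).trace) := fun s hs i =>
    (hfc i).mul (smAt_trA (hsf_cf hws) (hsf_cf (Gs_sm hF y hs)) i)
  have hR : tot P Fs (fun i x => (f x : ℂ) * ((hsf A w i x).adjugate * hsf A φ i x).trace) =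
      tot P Fs (fun i x => (f x : ℂ) * ((hsf A w i x).adjugate *
        hsf A (fun x => Gs r (sqM F y x)) i x).trace) -
      tot P Fs (fun i x => (f x : ℂ) * ((hsf A w i x).adjugate *
        hsf A (fun x => Gs e (sqM F y x)) i x).trace) := by
    rw [← tot_sub P Fs (f := fun i x => (f x : ℂ) * ((hsf A w i x).adjugate *
        hsf A (fun x => Gs r (sqM F y x)) i x).trace) (g := fun i x => (f x : ℂ) *
        ((hsf A w i x).adjugate * hsf A (fun x => Gs e (sqM F y x)) i x).trace)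
      (hsE r hr.ne') (hsE e he.ne')]
    refine tot_congr P Fs fun i _ x hx => ?_
    have hz := (A.e i).map_source hx
    have h1 : hsf A φ i x = hsf A (fun x => Gs r (sqM F y x)) i x -
        hsf A (fun x => Gs e (sqM F y x)) i x := by
      unfold hsf
      exact hess_sub (sm_contDiffAt hsr i hz) (sm_contDiffAt hse i hz)
    rw [h1, Matrix.mul_sub, Matrix.trace_sub]
    ring
  have hT : ∀ s : ℝ, 0 < s → s ≤ r → (tot P Fs (fun i x => (f x : ℂ) *
      ((hsf A w i x).adjugate * hsf A (fun x => Gs s (sqM F y x)) i x).trace)).re =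
      ∫ x, f x * (J2 h F x * rhE F y s x) ∂(vm h) := by
    intro s hs hsr'
    have h0 : ∀ x ∉ K, rhE F y s x = 0 := fun x hx =>
      rhE_zero hs (lt_of_le_of_lt (pow_le_pow_left₀ hs.le hsr' 2) (not_le.1 hx))
    rw [tot_eq h P (dmul (fun x => (f x : ℂ)) (hdE s hs.ne')) (hsE s hs.ne') hK hFr]
    · have h2 : ∀ x, fH h (fun i x => (f x : ℂ) * ((hsf A w i x).adjugate *
          hsf A (fun x => Gs s (sqM F y x)) i x).trace) x =
          ((f x * (J2 h F x * rhE F y s x) : ℝ) : ℂ) := fun x => fH_M h hF y hs.ne' f x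
      rw [integral_congr_ae (Eventually.of_forall h2)]
      have h5 : ∫ x, ((f x * (J2 h F x * rhE F y s x) : ℝ) : ℂ) ∂(vm h) =
          ((∫ x, f x * (J2 h F x * rhE F y s x) ∂(vm h) : ℝ) : ℂ) := integral_ofReal (𝕜 := ℂ)
      rw [h5, Complex.ofReal_re]
    · intro x hx
      rw [fH_M h hF y hs.ne' f x, h0 x hx, mul_zero, mul_zero, ofReal_zero]
  rw [hR, Complex.sub_re, hT r hr le_rfl, hT e he her] at hL
  linarith

end meas

end two

end

end Crest.Agent.R257.Up3_938
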