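import Crest.Agent.R257.GBL2_625
import Crest.Agent.R257.GBLcut2_844
import Crest.Agent.R257.GBLabs_844
import Crest.Agent.R257.Up3_938

/-!
# R257 (S0395), part (GB), leaf GB-LIM (helper625): pointwise estimates, integrals of densities

* `E_pt`, `F_pt`, `s_pt` : the mixed discriminants in the loss lemma
* `bb_psd`               : the second fundamental form is nonnegative
* `fR Kg f`              : the function of a density w.r.t. `det g`
* `int_fR`               : `∫ fR Kg f = re (intD P f)` (compact support)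
* `den_c2`, `den_mul`    : densities with compact support
-/

set_option autoImplicit false
set_option linter.unusedSectionVars false

open Set Filter Topology Complex MeasureTheory
open scoped ContDiff Matrix ComplexConjugate ComplexOrder

namespace Crest.Agent.R257.GBL4_625

open Crest.Agent.R275 Crest.Agent.R275.Geo Crest.Agent.R275.TorS666
open Crest.Agent.R275.Tor812 hiding pd
open Crest.Agent.R275.C1d194 Crest.Agent.R275.Pai323 Crest.Agent.R275.OmT75
open Crest.Agent.R275.SerG398 (lint dens)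
open Crest.Agent.R275.EDR890
open Crest.Agent.R273.StokesV_332
open Crest.Agent.R273.Fock_243
open Crest.Agent.R273.Calc_243 hiding dj
open Crest.Agent.R273.Bkn_243 Crest.Agent.R273.Pos_243 Crest.Agent.R273.BochA_101
open Crest.Agent.R273.BochB_101 Crest.Agent.R273.BochC_101 Crest.Agent.R273.BochD_101
open Crest.Agent.R275.Core144 Crest.Agent.R273.Defs_333 Crest.Agent.R273.HM_333
open Crest.Agent.R273.Hess_333 Crest.Agent.R273.HessB_333 Crest.Agent.R273.Kah_333
open Crest.Agent.R273.Vol_333 Crest.Agent.R273.Vm_333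
open Crest.Agent.R273.GreenM_5
open Crest.Agent.R273.Mass_5 (w_dens fH wC_ne fH_div sm_fH)
open Crest.Agent.R273.StV_37 (tot)
open Crest.Agent.R257.C2F1_625 Crest.Agent.R257.C2F2_625
open Crest.Agent.R257.C2F5_335 Crest.Agent.R257.GBL1_625 Crest.Agent.R257.GBL2_625
open Crest.Agent.R257.C2F6_335 hiding ddD
open Crest.Agent.R257.GBLcut_844 Crest.Agent.R257.Up3_938

noncomputable section

/-! ### linear algebra -/

section LA

variable {G X Y W : Matrix (Fin 2) (Fin 2) ℂ}

theorem pd_self_re (G : Matrix (Fin 2) (Fin 2) ℂ) : (pd G G).re = 2 * G.det.re := by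
  rw [pd_self]
  simp

/-- bound of the main error term -/
theorem E_pt {c w L : ℝ} (h1 : ((c : ℂ) • G - X).PosSemidef)
    (h2 : ((c : ℂ) • G + X).PosSemidef) (hY : Y.PosSemidef) (h3 : ((w : ℂ) • G - W).PosSemidef)
    (h4 : ((w : ℂ) • G + W).PosSemidef) :
    |(pd X ((L : ℂ) • (W - Y) + Y)).re| ≤
      c * ((1 + |L|) * (pd G Y).re + |L| * (w * (2 * G.det.re))) := by
  have a1 := pd_abs_le h1 h2 hY
  have a2 := pd_abs_le_maj h1 h2 h3 h4
  have e1 : (pd X ((L : ℂ) • (W - Y) + Y)).re = L * (pd X W).re + (1 - L) * (pd X Y).re := by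
    rw [pd_add, pd_smul, pd_sub, Complex.add_re, Complex.re_ofReal_mul, Complex.sub_re]
    ring
  have e2 : (pd G ((w : ℂ) • G)).re = w * (2 * G.det.re) := by
    rw [pd_smul, Complex.re_ofReal_mul, pd_self_re]
  rw [e2] at a2
  rw [e1]
  have a3 : |L * (pd X W).re + (1 - L) * (pd X Y).re| ≤ |L| * |(pd X W).re|
      + (1 + |L|) * |(pd X Y).re| := by
    refine (abs_add_le _ _).trans ?_
    rw [abs_mul, abs_mul]
    have : |1 - L| ≤ 1 + |L| := by
      have := abs_sub (1 : ℝ) L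
      rwa [abs_one] at this
    have h0 := abs_nonneg (pd X Y).re
    nlinarith [mul_le_mul_of_nonneg_right this h0]
  have b1 := mul_le_mul_of_nonneg_left a2 (abs_nonneg L)
  have b2 := mul_le_mul_of_nonneg_left a1 (by positivity : 0 ≤ 1 + |L|)
  calc _ ≤ _ := a3
    _ ≤ |L| * (c * (w * (2 * G.det.re))) + (1 + |L|) * (c * (pd G Y).re) := add_le_add b1 b2
    _ = _ := by ring

theorem F_pt {c L : ℝ} (hG : G.PosSemidef) (h1 : ((c : ℂ) • G - X).PosSemidef)
    (h2 : ((c : ℂ) • G + X).PosSemidef) :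
    |(pd X ((L : ℂ) • G)).re| ≤ c * (|L| * (2 * G.det.re)) := by
  have a1 := pd_abs_le h1 h2 hG
  rw [pd_self_re] at a1
  rw [pd_smul, Complex.re_ofReal_mul, abs_mul]
  have := mul_le_mul_of_nonneg_left a1 (abs_nonneg L)
  linarith

theorem s_pt {r : ℝ} (hG : G.PosSemidef) (h1 : ((r : ℂ) • G - X).PosSemidef)
    (h2 : ((r : ℂ) • G + X).PosSemidef) : |(pd G X).re| ≤ r * (2 * G.det.re) := by
  have a1 := pd_abs_le h1 h2 hG
  rwa [pd_self_re, pd_comm] at a1

theorem psd_rank {c : Fin 2 → ℂ} {Y : Matrix (Fin 2) (Fin 2) ℂ}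
    (h : ∀ a b, Y a b = conj (c a) * c b) : Y.PosSemidef := by
  have e : Y = Matrix.vecMulVec (star c) (star (star c)) := by
    ext a b
    rw [h a b, Matrix.vecMulVec_apply]
    simp
  rw [e]
  exact Matrix.posSemidef_vecMulVec_self_star _

end LA

variable {M : Type} [TopologicalSpace M] {A : Atl 2 M} {E : HB A (Fin 2)} {s : HSec E} {U : Set M}

/-- the second fundamental form is nonnegative -/
theorem bb_psd {i : A.ι} {x : M} (hx : x ∈ (A.e i).source) (h : s.V i x ≠ 0) :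
    (s.bbD i x).PosSemidef := by
  have hz := (A.e i).map_source hx
  have hp : ∀ᶠ y in 𝓝 (A.e i x), (rdM A i (E.H i) y).PosDef := by
    filter_upwards [(A.e i).open_target.mem_nhds hz] with y hy
    exact E.pos i _ ((A.e i).map_target hy)
  obtain ⟨w, hw⟩ := bb_rank (V := rdM A i (s.V i)) (E.H_smE hx) hp (sm_V s hz)
    (by rwa [rdM_at hx])
  exact psd_rank hw

theorem hsf_congr {φ ψ : M → ℝ} {i : A.ι} {x : M} (hx : x ∈ (A.e i).source) (h : φ =ᶠ[𝓝 x] ψ) :
    hsf A φ i x = hsf A ψ i x := by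
  rw [← hc_ofReal, ← hc_ofReal]
  exact hc_congr hx (h.mono fun y hy => by simp only [hy])

theorem hsf_const (c : ℝ) (i : A.ι) (x : M) : hsf A (fun _ => c) i x = 0 := by
  rw [← hc_ofReal]
  exact hc_const (c : ℂ) i x

/-! ### densities -/

/-- the function of a density -/
def fR (Kg : Kah A) (f : A.ι → M → ℂ) (x : M) : ℝ := (fH (volK Kg) f x).re

theorem fR_eq (Kg : Kah A) (f : A.ι → M → ℂ) (x : M) :
    fR Kg f x = (f (ci A x) x).re / (Kg.g (ci A x) x).det.re := by
  have h1 := volK_w Kg (ci A x) (mem_ci x)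
  have h2 : (volK Kg).w (ci A x) x = (Kg.g (ci A x) x).det.re := by rw [← h1, Complex.ofReal_re]
  unfold fR fH
  rw [h2, Complex.div_ofReal_re]

theorem det_pos' (Kg : Kah A) (x : M) : 0 < (Kg.g (ci A x) x).det.re :=
  (Complex.lt_def.1 (Kg.pos _ x (mem_ci x)).det_pos).1

theorem fR_mul (Kg : Kah A) (φ : M → ℝ) (f : A.ι → M → ℂ) (x : M) :
    fR Kg (fun i x => (φ x : ℂ) * f i x) x = φ x * fR Kg f x := by
  rw [fR_eq, fR_eq, Complex.re_ofReal_mul, mul_div_assoc]

theorem fR_add (Kg : Kah A) (f g : A.ι → M → ℂ) (x : M) :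
    fR Kg (fun i x => f i x + g i x) x = fR Kg f x + fR Kg g x := by
  rw [fR_eq, fR_eq, fR_eq, Complex.add_re, add_div]

theorem fR_congr (Kg : Kah A) {f g : A.ι → M → ℂ} {x : M}
    (h : ∀ i, x ∈ (A.e i).source → f i x = g i x) : fR Kg f x = fR Kg g x := by
  rw [fR_eq, fR_eq, h _ (mem_ci x)]

theorem fR_chart (Kg : Kah A) {f : A.ι → M → ℂ} (hf : Dn A f) {x : M} {i : A.ι}
    (hx : x ∈ (A.e i).source) : fR Kg f x = (f i x).re / (Kg.g i x).det.re := by
  have h1 := volK_w Kg i hx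
  have h2 : (volK Kg).w i x = (Kg.g i x).det.re := by rw [← h1, Complex.ofReal_re]
  unfold fR
  rw [fH_div (volK Kg) hf hx, h2, Complex.div_ofReal_re]

section meas

variable [T2Space M] [MeasurableSpace M] [BorelSpace M] [Countable A.ι]

theorem fR_cont (Kg : Kah A) {f : A.ι → M → ℂ} (hf : Den A f) : Continuous (fR Kg f) :=
  Complex.continuous_re.comp (sm_continuous (sm_fH (volK Kg) hf.tr hf.sm))

/-- the integral of a density with compact support -/
theorem int_fR (Kg : Kah A) (P : Part A) {f : A.ι → M → ℂ} (hf : Den A f) {K : Set M}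
    (hK : IsCompact K) (h0 : OffK A f K) :
    Integrable (fR Kg f) (vm (volK Kg)) ∧ ∫ x, fR Kg f x ∂(vm (volK Kg)) = (intD P f).re := by
  have h1 : ∀ x ∉ K, fH (volK Kg) f x = 0 := fun x hx => by
    unfold fH
    rw [h0 _ x (mem_ci x) hx, zero_div]
  have hc : Continuous (fH (volK Kg) f) := sm_continuous (sm_fH (volK Kg) hf.tr hf.sm)
  have hi := integrable_cs (volK Kg) hc hK h1
  refine ⟨hi.re, ?_⟩
  have h2 := tot_eq (volK Kg) P hf.tr hf.sm hK (Finset.Subset.refl _) h1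
  have h3 : intD P f = ∫ x, fH (volK Kg) f x ∂(vm (volK Kg)) := by
    rw [← h2, intD_eq_sum P hK (Finset.Subset.refl _) h0]
    rfl
  rw [h3]
  exact integral_re hi

end meas

/-- `φ pd S T` -/
theorem den_mul [T2Space M] {φ : M → ℝ} (hφ : A.Sm φ) {K : Set M} (hKc : IsClosed K) (hKU : K ⊆ U)
    (h0 : ∀ x, x ∉ K → φ x = 0) {S T : A.ι → M → Matrix (Fin 2) (Fin 2) ℂ}
    (hS : SmS A U S) (hS' : TnO A U S) (hT : SmS A U T) (hT' : TnO A U T) :
    Den A (fun i x => (φ x : ℂ) * pd (S i x) (T i x)) where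
  sm i := by
    refine smAt_mul_off hKc hKU (smAt_ofReal (hφ i)) (fun x _ hx => by rw [h0 x hx]; simp) ?_
    intro x hx hxU
    have t := fun a b => hS i a b x hx hxU
    have g := fun a b => hT i a b x hx hxU
    exact ((((t 0 0).mul (g 1 1)).add ((t 1 1).mul (g 0 0))).sub ((t 0 1).mul (g 1 0))).sub
      ((t 1 0).mul (g 0 1))
  tr i j x hx := by
    by_cases hxU : x ∈ U
    · rw [hS' i j x hx hxU, hT' i j x hx hxU, pd_tn, dens_Jm]
      ring
    · rw [h0 x fun h => hxU (hKU h)]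
      simp

theorem off_mul {φ : M → ℝ} {K : Set M} (h0 : ∀ x, x ∉ K → φ x = 0) (f : A.ι → M → ℂ) :
    OffK A (fun i x => (φ x : ℂ) * f i x) K := fun i x _ hx => by
  show (φ x : ℂ) * _ = 0
  rw [h0 x hx]
  simp

theorem off_hsf {φ : M → ℝ} {K : Set M} (hK : IsClosed K) (h0 : ∀ x, x ∉ K → φ x = 0)
    (T : A.ι → M → Matrix (Fin 2) (Fin 2) ℂ) : OffK A (fun i x => pd (hsf A φ i x) (T i x)) K := by
  intro i x hx hxK
  show pd (hsf A φ i x) (T i x) = 0
  have : φ =ᶠ[𝓝 x] fun _ => (0 : ℝ) := by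
    filter_upwards [hK.isOpen_compl.mem_nhds hxK] with y hy
    exact h0 y hy
  rw [hsf_congr hx this, hsf_const]
  simp [pd]

theorem den_hsf {φ : M → ℝ} (hφ : A.Sm φ) {K : Set M} [T2Space M] (hK : IsClosed K) (hKU : K ⊆ U)
    (h0 : ∀ x, x ∉ K → φ x = 0) {T : A.ι → M → Matrix (Fin 2) (Fin 2) ℂ} (hT : SmS A U T)
    (hT' : TnO A U T) : Den A (fun i x => pd (hsf A φ i x) (T i x)) := by
  have h := den_pd hK hφ hKU h0 hT hT'
  simpa only [hc_ofReal] using h

/-- the second Chern form is smooth -/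
theorem c2D_sm (i : A.ι) : A.SmAt i (E.c2D i) := by
  intro z hz
  refine ContDiffAt.contDiffWithinAt ?_
  have hx := (A.e i).map_target hz
  have hH : SmM z (rdM A i (E.H i)) := evSmM_rdM (E.sm i) hz
  have h0 : (rdM A i (E.H i) z).det ≠ 0 := E.H_det_ne hx
  have e1 : Sm z (c2 (rdM A i (E.H i))) := by
    have r := fun c d => smM_rm hH h0 c d
    have p : ∀ {S T : Cn 2 → Matrix (Fin 2) (Fin 2) ℂ}, SmM z S → SmM z T →
        Sm z (fun y => pd (S y) (T y)) := fun hS hT =>
      ((((hS 0 0).mul (hT 1 1)).add ((hS 1 1).mul (hT 0 0))).sub ((hS 0 1).mul (hT 1 0))).sub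
        ((hS 1 0).mul (hT 0 1))
    have e2 : c2 (rdM A i (E.H i)) = fun y => (pd (rm (rdM A i (E.H i)) y 0 0)
      (rm (rdM A i (E.H i)) y 1 1) - pd (rm (rdM A i (E.H i)) y 0 1)
      (rm (rdM A i (E.H i)) y 1 0)) * ((rdM A i (E.H i) y).det)⁻¹ := by
      funext y
      rw [c2, div_eq_mul_inv]
    rw [e2]
    exact ((p (r 0 0) (r 1 1)).sub (p (r 0 1) (r 1 0))).mul ((SmM.det hH).inv h0)
  refine e1.congr_of_eventuallyEq ?_
  filter_upwards [(A.e i).open_target.mem_nhds hz] with y hy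
  unfold HB.c2D
  rw [(A.e i).right_inv hy]

theorem c2D_den (E : HB A (Fin 2)) : Den A E.c2D where
  sm i := c2D_sm i
  tr := E.c2_dn

theorem den_c2 {φ : M → ℝ} (hφ : A.Sm φ) : Den A (fun i x => (φ x : ℂ) * E.c2D i x) :=
  (c2D_den E).mulF (φ := fun x => (φ x : ℂ)) fun i => smAt_ofReal (hφ i)

end

end Crest.Agent.R257.GBL4_625
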