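import Crest.Agent.R257.GradA_537

/-!
# R257 (S0395), leaf E-GRAD (helper537), part b: the gradient estimate in arbitrary coordinates,
and the calculus of the cut-off functions `χ (log (A - u) / j)`

* `gr_comp`     : chain rule of `∂u` for a holomorphic map
* `grad_at_max` : at a maximum point of `|∂_ξ u|² / ((A-u)² u_{ξ ξ̄})` over `(z, ξ)` the maximum is
  `≤ κ/2` if `lev (log det u_{a b̄}) ≤ κ lev u` (Kaehler-Einstein: `κ = 1`)
* `gr_rho_le`, `lev_rho_le`, `cut_off` : `ρ = log (A - u)` has `|∂ρ|² ≤ C ω`, `|∂∂̄ρ| ≤ (C + 1/w) ω`;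
  `|∂∂̄ χ(ρ/j)| ≤ C'/j ω`
-/

set_option autoImplicit false
set_option linter.unusedSectionVars false

open Set Filter Topology Complex
open scoped ContDiff Matrix ComplexConjugate ComplexOrder

namespace Crest.Agent.R257.GradB_537

open Crest.Agent.R275.Geo Crest.Agent.R275.Core144 Crest.Agent.R275.GC293
open Crest.Agent.R275.OmT75
open Crest.Agent.R273 Crest.Agent.R273.Levi_145 Crest.Agent.R273.C2a_793
open Crest.Agent.R273.C2b_793 Crest.Agent.R273.C2c_793 Crest.Agent.R273.C2d_793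
open Crest.Agent.R273.C2e_793 Crest.Agent.R257.GradA_537

noncomputable section

variable {n : ℕ} {u : Cn n → ℝ} {x : Cn n}

/-- chain rule of `∂u` for a holomorphic map -/
theorem gr_comp {m : ℕ} {u : Cn m → ℝ} {T : Cn n → Cn m} {z : Cn n}
    (hT : DifferentiableAt ℂ T z) (hu : DifferentiableAt ℝ u (T z)) (v : Cn n) :
    gr (fun w => u (T w)) z v = gr u (T z) (fderiv ℂ T z v) := by
  have hTr : HasFDerivAt T ((fderiv ℂ T z).restrictScalars ℝ) z :=
    hT.hasFDerivAt.restrictScalars ℝ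
  have hc : HasFDerivAt (fun w => u (T w))
      ((fderiv ℝ u (T z)).comp ((fderiv ℂ T z).restrictScalars ℝ)) z :=
    hu.hasFDerivAt.comp z hTr
  rw [gr_eq hc.differentiableAt, gr_eq hu, hc.fderiv]
  simp

theorem gr_lin {y : Cn n} {E : Matrix (Fin n) (Fin n) ℂ} (hu : DifferentiableAt ℝ u (TT x E y))
    (η : Cn n) : gr (fun y => u (TT x E y)) y η = gr u (TT x E y) (ml E η) := by
  rw [gr_comp (anal_TT x E y).differentiableAt hu, fderiv_TT]

theorem lev_lin' {y : Cn n} {E : Matrix (Fin n) (Fin n) ℂ} (hu : ContDiffAt ℝ 2 u (TT x E y))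
    (η : Cn n) : lev (fun y => u (TT x E y)) y η = lev u (TT x E y) (ml E η) := by
  rw [lev_comp (u := u) (T := TT x E) (anal_TT x E y) hu, fderiv_TT]

/-- **the gradient estimate at a maximum point** -/
theorem grad_at_max {v : Cn n} {A κ : ℝ} (hu : ContDiffAt ℝ ∞ u x)
    (hu0 : ∀ v, v ≠ 0 → 0 < lev u x v) (hv : v ≠ 0) (hA : u x < A) (hκ0 : 0 ≤ κ)
    (hκ : lev (ld u) x v ≤ κ * lev u x v)
    (hmax : ∀ᶠ z in 𝓝 x, ∀ ξ, ‖gr u z ξ‖ ^ 2 * ((A - u x) ^ 2 * lev u x v) ≤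
      ‖gr u x v‖ ^ 2 * ((A - u z) ^ 2 * lev u z ξ)) :
    2 * ‖gr u x v‖ ^ 2 ≤ κ * ((A - u x) ^ 2 * lev u x v) := by
  have hlv : 0 < lev u x v := hu0 v hv
  have hAx : 0 < A - u x := by linarith
  by_cases hg : gr u x v = 0
  · rw [hg]
    simp only [norm_zero, ne_eq, OfNat.ofNat_ne_zero, not_false_eq_true, zero_pow, mul_zero]
    positivity
  obtain ⟨E, hE, hE1⟩ := exists_norm (Um_posDef (sm2 hu) hu0)
  have hu2 : ContDiffAt ℝ 2 u (TT x E 0) := by rw [TT_zero]; exact sm2 hu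
  have h1 : Um (fun y => u (TT x E y)) 0 = 1 := by rw [Um_lin hu2, TT_zero, hE1]
  have hus := sm_comp_TT hu E
  have hTc : Tendsto (TT x E) (𝓝 0) (𝓝 x) := by
    have := (sm_TT x E).continuous.tendsto 0
    rwa [TT_zero] at this
  set η : Cn n := ml E⁻¹ v with hη
  have hEη : ml E η = v := ml_inv hE v
  have hη0 : η ≠ 0 := by
    intro h
    rw [h, map_zero] at hEη
    exact hv hEη.symm
  have hinj : ∀ ξ : Cn n, ξ ≠ 0 → ml E ξ ≠ 0 := by
    intro ξ hξ h0
    apply hξ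
    have h3 : ml E⁻¹ (ml E ξ) = ξ := by
      rw [ml_mul, Matrix.nonsing_inv_mul _ (isUnit_iff_ne_zero.2 hE), ml_one]
    rw [← h3, h0, map_zero]
  have hpos' : ∀ ξ : Cn n, ξ ≠ 0 → 0 < lev (fun y => u (TT x E y)) 0 ξ := by
    intro ξ hξ
    rw [lev_lin (sm2 hu)]
    exact hu0 _ (hinj ξ hξ)
  have ha0 : u (TT x E 0) = u x := by rw [TT_zero]
  have hg0 : gr (fun y => u (TT x E y)) 0 η = gr u x v := by
    rw [gr_lin (by rw [TT_zero]; exact c2_diff (sm2 hu)), TT_zero, hEη]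
  have hl0 : lev (fun y => u (TT x E y)) 0 η = lev u x v := by
    rw [lev_lin (sm2 hu), hEη]
  have key := grad_one (u := fun y => u (TT x E y)) (x := 0) (v := η) (A := A) hus h1 hpos' hη0
    (by simp only [ha0]; exact hA) (by rw [hg0]; exact hg) (by
      filter_upwards [hTc.eventually hmax, hTc.eventually (ev_sm2 hu)] with y hy hy2 ξ
      have h4 := hy (ml E ξ)
      rw [hl0, hg0, gr_lin (c2_diff hy2), lev_lin' hy2]
      simp only [ha0]
      exact h4)
  rw [hg0, hl0] at key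
  simp only [ha0] at key
  have hup := Um_posDef (sm2 hu) hu0
  have hdp : 0 < (Um u x).det.re := (Complex.pos_iff.1 hup.det_pos).1
  have hdc : ContinuousAt (fun z => (Um u z).det.re) x :=
    (Complex.reCLM.contDiff.contDiffAt.comp x (cd_det (sm_Um hu))).continuousAt
  have hld : lev (ld fun y => u (TT x E y)) 0 η = lev (ld u) x v := by
    have e1 : (ld fun y => u (TT x E y)) =ᶠ[𝓝 0]
        fun y => (fun z => Real.log (‖E.det‖ ^ 2) + ld u z) (TT x E y) := by
      filter_upwards [hTc.eventually (ev_sm2 hu),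
        hTc.eventually (hdc.eventually (lt_mem_nhds hdp))] with y hy hy2
      unfold ld
      rw [det_lin hy, Complex.re_ofReal_mul]
      have h5 : ‖E.det‖ ^ 2 ≠ 0 := by
        have := norm_ne_zero_iff.2 hE
        positivity
      exact Real.log_mul h5 hy2.ne'
    have e2 : ContDiffAt ℝ 2 (ld u) x := sm2 (sm_ld hu hdp.ne')
    rw [lev_congr e1, lev_lin (contDiffAt_const.add e2),
      lev_add (u := fun _ => Real.log (‖E.det‖ ^ 2)) contDiffAt_const e2, lev_const, zero_add,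
      hEη]
  rw [hld] at key
  have k2 : lev (ld u) x v / lev u x v ≤ κ := (div_le_iff₀ hlv).2 hκ
  have k3 := key.trans k2
  rwa [div_le_iff₀ (by positivity)] at k3

/-! ### the exhaustion function -/

section Exh

variable {A C : ℝ}

theorem gr_comp_real {χ : ℝ → ℝ} {χ' : ℝ} (hu : DifferentiableAt ℝ u x)
    (h : HasDerivAt χ χ' (u x)) (v : Cn n) :
    gr (fun y => χ (u y)) x v = χ' * gr u x v := by
  have e : HasFDerivAt (fun y => χ (u y)) (χ' • fderiv ℝ u x) x :=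
    h.comp_hasFDerivAt x hu.hasFDerivAt
  rw [gr_eq e.differentiableAt, gr_eq hu, e.fderiv]
  simp only [_root_.smul_apply, smul_eq_mul]
  push_cast
  ring

/-- `ρ = log (A - u)` -/
def rho (A : ℝ) (u : Cn n → ℝ) (z : Cn n) : ℝ := Real.log (A - u z)

theorem hasDerivAt_logA {t : ℝ} (h : t < A) :
    HasDerivAt (fun t => Real.log (A - t)) (-(A - t)⁻¹) t := by
  have h1 : HasDerivAt (fun t => A - t) (-1) t := by
    simpa using (hasDerivAt_id t).const_sub A
  have h2 := h1.log (by linarith : A - t ≠ 0)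
  refine h2.congr_deriv ?_
  ring

theorem hasDerivAt_invA {t : ℝ} (h : t < A) :
    HasDerivAt (fun t => -(A - t)⁻¹) (-((A - t) ^ 2)⁻¹) t := by
  have h1 : HasDerivAt (fun t => A - t) (-1) t := by
    simpa using (hasDerivAt_id t).const_sub A
  have h2 := (h1.inv (by linarith : A - t ≠ 0)).neg
  refine h2.congr_deriv ?_
  ring

theorem sm_rho (hu : ContDiffAt ℝ ∞ u x) (hA : u x < A) : ContDiffAt ℝ ∞ (rho A u) x :=
  (contDiffAt_const.sub hu).log (by linarith)

theorem gr_rho (hu : DifferentiableAt ℝ u x) (hA : u x < A) (v : Cn n) :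
    gr (rho A u) x v = -((A - u x)⁻¹ : ℝ) * gr u x v := by
  have := gr_comp_real hu (hasDerivAt_logA hA) v
  rw [← Complex.ofReal_neg]
  exact this

theorem lev_rho (hu : ContDiffAt ℝ 2 u x) (hA : u x < A) (v : Cn n) :
    lev (rho A u) x v = - (lev u x v / (A - u x)) - ‖gr u x v‖ ^ 2 / (A - u x) ^ 2 := by
  have h : lev (fun y => Real.log (A - u y)) x v = _ :=
    lev_comp_real (χ := fun t => Real.log (A - t)) (χ' := fun t => -(A - t)⁻¹)
    (χ'' := -((A - u x) ^ 2)⁻¹) hu ((gt_mem_nhds hA).mono fun t ht => hasDerivAt_logA ht)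
    (hasDerivAt_invA hA) v
  have e : lev (rho A u) x v = lev (fun y => Real.log (A - u y)) x v := rfl
  rw [e, h]
  ring

/-- `|∂ρ|² ≤ C ω` -/
theorem gr_rho_le (hu : DifferentiableAt ℝ u x) (hA : u x < A) (v : Cn n)
    (hC : ‖gr u x v‖ ^ 2 ≤ C * ((A - u x) ^ 2 * lev u x v)) :
    ‖gr (rho A u) x v‖ ^ 2 ≤ C * lev u x v := by
  have hw : 0 < A - u x := by linarith
  rw [gr_rho hu hA, norm_mul, norm_neg, Complex.norm_real, Real.norm_eq_abs, mul_pow, sq_abs,
    inv_pow, inv_mul_le_iff₀ (by positivity)]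
  linarith

/-- `|∂∂̄ρ| ≤ (C + 1/w) ω` -/
theorem lev_rho_le (hu : ContDiffAt ℝ 2 u x) (hA : u x + 1 ≤ A) (v : Cn n)
    (h0 : 0 ≤ lev u x v) (hC : ‖gr u x v‖ ^ 2 ≤ C * ((A - u x) ^ 2 * lev u x v)) :
    |lev (rho A u) x v| ≤ (C + 1) * lev u x v := by
  have hw : 1 ≤ A - u x := by linarith
  have hw0 : 0 < A - u x := by linarith
  have h1 : lev u x v / (A - u x) ≤ lev u x v := div_le_self h0 hw
  have h2 : ‖gr u x v‖ ^ 2 / (A - u x) ^ 2 ≤ C * lev u x v := by
    rw [div_le_iff₀ (by positivity)]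
    linarith
  have h3 : 0 ≤ lev u x v / (A - u x) := by positivity
  have h4 : 0 ≤ ‖gr u x v‖ ^ 2 / (A - u x) ^ 2 := by positivity
  rw [lev_rho hu (by linarith), abs_le]
  constructor
  · nlinarith
  · nlinarith

/-- **the cut-off functions** `χ (ρ / j)`: `|∂∂̄ χ(ρ/j)| ≤ (K (2C+1)/j) ω` -/
theorem cut_off {χ χ' χ'' : ℝ → ℝ} {K j : ℝ} (hχ : ∀ t, HasDerivAt χ (χ' t) t)
    (hχ' : ∀ t, HasDerivAt χ' (χ'' t) t) (hK1 : ∀ t, |χ' t| ≤ K) (hK2 : ∀ t, |χ'' t| ≤ K)
    (hj : 1 ≤ j) (hu : ContDiffAt ℝ ∞ u x) (hA : u x + 1 ≤ A) (v : Cn n)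
    (h0 : 0 ≤ lev u x v) (hC : ‖gr u x v‖ ^ 2 ≤ C * ((A - u x) ^ 2 * lev u x v)) :
    |lev (fun z => χ (rho A u z / j)) x v| ≤ K * (2 * C + 1) / j * lev u x v ∧
      ‖gr (fun z => χ (rho A u z / j)) x v‖ ^ 2 ≤ K ^ 2 * C / j ^ 2 * lev u x v := by
  have hj0 : 0 < j := by linarith
  have hK0 : 0 ≤ K := (abs_nonneg _).trans (hK1 0)
  have hd : ∀ t, HasDerivAt (fun t => χ (t / j)) (χ' (t / j) / j) t := by
    intro t
    have h1 : HasDerivAt (fun t : ℝ => t / j) (1 / j) t := (hasDerivAt_id t).div_const j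
    exact ((hχ (t / j)).comp t h1).congr_deriv (by ring)
  have hd' : ∀ t, HasDerivAt (fun t => χ' (t / j) / j) (χ'' (t / j) / j ^ 2) t := by
    intro t
    have h1 : HasDerivAt (fun t : ℝ => t / j) (1 / j) t := (hasDerivAt_id t).div_const j
    exact (((hχ' (t / j)).comp t h1).div_const j).congr_deriv (by field_simp)
  have hr := sm_rho hu (by linarith : u x < A)
  have e := lev_comp_real (χ := fun t => χ (t / j)) (χ' := fun t => χ' (t / j) / j)
    (χ'' := χ'' (rho A u x / j) / j ^ 2) (sm2 hr) (Eventually.of_forall hd) (hd' _) v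
  have eg := gr_comp_real (χ := fun t => χ (t / j)) (c2_diff (sm2 hr)) (hd _) v
  have g1 := gr_rho_le (c2_diff (sm2 hu)) (by linarith : u x < A) v hC
  have g2 := lev_rho_le (sm2 hu) hA v h0 hC
  have g0 : 0 ≤ C * lev u x v := (sq_nonneg _).trans g1
  refine ⟨?_, ?_⟩
  · rw [e]
    have a1 : |χ'' (rho A u x / j) / j ^ 2 * ‖gr (rho A u) x v‖ ^ 2| ≤ K / j * (C * lev u x v) := by
      rw [abs_mul, abs_div, abs_of_pos (by positivity : 0 < j ^ 2),
        abs_of_nonneg (sq_nonneg ‖gr (rho A u) x v‖)]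
      have b1 : |χ'' (rho A u x / j)| / j ^ 2 ≤ K / j := by
        rw [div_le_div_iff₀ (by positivity) hj0]
        have c1 := hK2 (rho A u x / j)
        nlinarith [mul_le_mul_of_nonneg_right c1 hj0.le, mul_nonneg hK0 hj0.le]
      exact mul_le_mul b1 g1 (sq_nonneg _) (by positivity)
    have a2 : |χ' (rho A u x / j) / j * lev (rho A u) x v| ≤ K / j * ((C + 1) * lev u x v) := by
      rw [abs_mul, abs_div, abs_of_pos hj0]
      have b1 : |χ' (rho A u x / j)| / j ≤ K / j := by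
        gcongr
        exact hK1 _
      exact mul_le_mul b1 g2 (abs_nonneg _) (by positivity)
    calc _ ≤ _ := abs_add_le _ _
      _ ≤ K / j * (C * lev u x v) + K / j * ((C + 1) * lev u x v) := add_le_add a1 a2
      _ = _ := by ring
  · rw [eg, norm_mul, Complex.norm_real, Real.norm_eq_abs, mul_pow, sq_abs]
    have b1 : (χ' (rho A u x / j) / j) ^ 2 ≤ K ^ 2 / j ^ 2 := by
      rw [div_pow]
      have b0 : χ' (rho A u x / j) ^ 2 ≤ K ^ 2 := sq_le_sq' (abs_le.1 (hK1 _)).1 (abs_le.1 (hK1 _)).2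
      gcongr
    calc _ ≤ K ^ 2 / j ^ 2 * (C * lev u x v) := mul_le_mul b1 g1 (sq_nonneg _) (by positivity)
      _ = _ := by ring

end Exh

end

end Crest.Agent.R257.GradB_537
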