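import Crest.Agent.R257.C2F1_625
import Crest.Agent.R257.GradB_537
import Crest.Agent.R273.YauDefs_635
import Crest.Agent.R273.YC3c_812
import Crest.Agent.R273.Kah_333

/-!
# R257 (S0395), part (GB), leaf GBLCUT (helper844, for GB-LIM of helper625)

* `kap`          : smooth, `1` on `(-∞, 1]`, `0` on `[2, ∞)`
* `chi ρ j`      : `kap (ρ / j) ^ 4`
* `lev_chi_le`, `gr_chi_le` : `|∂∂̄ρ| ≤ C ω`, `|∂ρ|² ≤ C ω` imply `|∂∂̄ χ_j| ≤ (cK C / j) √χ_j ω`,
  `|∂ χ_j|² ≤ (cK C / j²) χ_j^{3/2} ω`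
* `psd_of_lev`, `psd_chi`, `psd_chi_hsf` : the same as inequalities between Hermitian matrices
* `pd_nonneg`, `pd_abs_le`, `pd_abs_le_maj`, `pd_sq_le` : mixed discriminants of `2 × 2` matrices
-/

set_option autoImplicit false
set_option linter.unusedSectionVars false

open Set Filter Topology Complex
open scoped ContDiff Matrix ComplexConjugate ComplexOrder

namespace Crest.Agent.R257.GBLcut_844

open Crest.Agent.R275.Geo Crest.Agent.R275.Core144
open Crest.Agent.R273 Crest.Agent.R273.Levi_145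
open Crest.Agent.R257.GradB_537

noncomputable section

/-! ### the cut-off function of one variable -/

/-- `1` on `(-∞, 1]`, `0` on `[2, ∞)` -/
def kap (t : ℝ) : ℝ := Real.smoothTransition (2 - t)

theorem kap_sm : ContDiff ℝ ∞ kap :=
  Real.smoothTransition.contDiff.comp (contDiff_const.sub contDiff_id)

theorem kap_nonneg (t : ℝ) : 0 ≤ kap t := Real.smoothTransition.nonneg _

theorem kap_le_one (t : ℝ) : kap t ≤ 1 := Real.smoothTransition.le_one _

theorem kap_one {t : ℝ} (h : t ≤ 1) : kap t = 1 :=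
  Real.smoothTransition.one_of_one_le (by linarith)

theorem kap_zero {t : ℝ} (h : 2 ≤ t) : kap t = 0 :=
  Real.smoothTransition.zero_of_nonpos (by linarith)

theorem kap_anti : Antitone kap := fun a b h =>
  Real.smoothTransition.monotone (by linarith : 2 - b ≤ 2 - a)

theorem dkap_sm : ContDiff ℝ ∞ (deriv kap) := by
  have := (contDiff_infty_iff_deriv.1 kap_sm).2
  exact this

theorem hasDerivAt_kap (t : ℝ) : HasDerivAt kap (deriv kap t) t :=
  ((kap_sm.differentiable (by simp)) t).hasDerivAt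

theorem hasDerivAt_dkap (t : ℝ) : HasDerivAt (deriv kap) (deriv (deriv kap) t) t :=
  ((dkap_sm.differentiable (by simp)) t).hasDerivAt

theorem kap_loc {t : ℝ} (h : t ∉ Icc (1 : ℝ) 2) : ∃ c : ℝ, kap =ᶠ[𝓝 t] fun _ => c := by
  rcases lt_or_ge t 1 with h1 | h1
  · exact ⟨1, (gt_mem_nhds h1).mono fun s hs => kap_one (le_of_lt hs)⟩
  · have h2 : 2 < t := by
      by_contra hc
      exact h ⟨h1, not_lt.1 hc⟩
    exact ⟨0, (lt_mem_nhds h2).mono fun s hs => kap_zero (le_of_lt hs)⟩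

theorem dkap_off {t : ℝ} (h : t ∉ Icc (1 : ℝ) 2) : deriv kap t = 0 ∧ deriv (deriv kap) t = 0 := by
  obtain ⟨c, hc⟩ := kap_loc h
  have h1 : deriv kap =ᶠ[𝓝 t] fun _ => 0 := by
    refine hc.deriv.trans (Eventually.of_forall fun s => ?_)
    exact deriv_const s c
  exact ⟨h1.self_of_nhds, by rw [h1.deriv_eq]; exact deriv_const t 0⟩

theorem exists_Kk : ∃ K : ℝ, 0 ≤ K ∧ (∀ t, |deriv kap t| ≤ K) ∧ ∀ t, |deriv (deriv kap) t| ≤ K := by
  have hc2 : Continuous (deriv (deriv kap)) := by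
    have := (contDiff_infty_iff_deriv.1 dkap_sm).2
    exact this.continuous
  obtain ⟨K1, h1⟩ := isCompact_Icc.exists_bound_of_continuousOn (s := Icc (1 : ℝ) 2)
    dkap_sm.continuous.continuousOn
  obtain ⟨K2, h2⟩ := isCompact_Icc.exists_bound_of_continuousOn (s := Icc (1 : ℝ) 2)
    hc2.continuousOn
  have hK1 : 0 ≤ K1 := (norm_nonneg _).trans (h1 1 ⟨le_refl _, by norm_num⟩)
  refine ⟨max K1 K2, hK1.trans (le_max_left _ _), fun t => ?_, fun t => ?_⟩
  · by_cases ht : t ∈ Icc (1 : ℝ) 2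
    · exact (h1 t ht).trans (le_max_left _ _)
    · rw [(dkap_off ht).1, abs_zero]
      exact hK1.trans (le_max_left _ _)
  · by_cases ht : t ∈ Icc (1 : ℝ) 2
    · exact (h2 t ht).trans (le_max_right _ _)
    · rw [(dkap_off ht).2, abs_zero]
      exact hK1.trans (le_max_left _ _)

/-- bound of the first two derivatives of `kap` -/
def Kk : ℝ := exists_Kk.choose

theorem Kk_nonneg : 0 ≤ Kk := exists_Kk.choose_spec.1

theorem dkap_le (t : ℝ) : |deriv kap t| ≤ Kk := exists_Kk.choose_spec.2.1 t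

theorem ddkap_le (t : ℝ) : |deriv (deriv kap) t| ≤ Kk := exists_Kk.choose_spec.2.2 t

/-- absolute constant -/
def cK : ℝ := 16 * Kk ^ 2 + 8 * Kk

theorem cK_nonneg : 0 ≤ cK := by
  have := Kk_nonneg
  unfold cK
  positivity

/-! ### the cut-off functions -/

/-- `kap (ρ / j) ^ 4` -/
def chi {α : Type*} (ρ : α → ℝ) (j : ℝ) (z : α) : ℝ := kap (ρ z / j) ^ 4

section chiB

variable {α : Type*} {ρ : α → ℝ} {j : ℝ} {z : α}

theorem chi_nonneg : 0 ≤ chi ρ j z := pow_nonneg (kap_nonneg _) 4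

theorem chi_le_one : chi ρ j z ≤ 1 := pow_le_one₀ (kap_nonneg _) (kap_le_one _)

theorem sqrt_chi : Real.sqrt (chi ρ j z) = kap (ρ z / j) ^ 2 := by
  rw [chi, show kap (ρ z / j) ^ 4 = (kap (ρ z / j) ^ 2) ^ 2 by ring]
  exact Real.sqrt_sq (sq_nonneg _)

theorem chi_eq_one (hj : 0 < j) (h : ρ z ≤ j) : chi ρ j z = 1 := by
  rw [chi, kap_one ((div_le_one hj).2 h), one_pow]

theorem chi_eq_zero (hj : 0 < j) (h : 2 * j ≤ ρ z) : chi ρ j z = 0 := by
  rw [chi, kap_zero ((le_div_iff₀ hj).2 h)]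
  norm_num

theorem chi_mono {j' : ℝ} (hj : 0 < j) (hjj : j ≤ j') (h : 0 ≤ ρ z) : chi ρ j z ≤ chi ρ j' z :=
  pow_le_pow_left₀ (kap_nonneg _)
    (kap_anti (div_le_div_of_nonneg_left h hj hjj)) 4

theorem tendsto_chi (ρ : α → ℝ) (z : α) : Tendsto (fun j : ℕ => chi ρ (j : ℝ) z) atTop (𝓝 1) := by
  refine tendsto_const_nhds.congr' ?_
  filter_upwards [eventually_gt_atTop 0, eventually_ge_atTop ⌈ρ z⌉₊] with j hj hj2
  exact (chi_eq_one (by exact_mod_cast hj) ((Nat.le_ceil _).trans (by exact_mod_cast hj2))).symm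

end chiB

variable {n : ℕ} {u ρ : Cn n → ℝ} {x : Cn n} {j C : ℝ}

theorem chi_sm {k : ℕ∞} (h : ContDiffAt ℝ k ρ x) : ContDiffAt ℝ k (chi ρ j) x :=
  ((kap_sm.of_le (by exact_mod_cast le_top)).contDiffAt.comp x (h.div_const j)).pow 4

/-- first derivative of `t ↦ kap (t / j) ^ 4` -/
def d1 (j t : ℝ) : ℝ := 4 * kap (t / j) ^ 3 * deriv kap (t / j) / j

/-- second derivative of `t ↦ kap (t / j) ^ 4` -/
def d2 (j t : ℝ) : ℝ :=
  (12 * kap (t / j) ^ 2 * deriv kap (t / j) ^ 2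
    + 4 * kap (t / j) ^ 3 * deriv (deriv kap) (t / j)) / j ^ 2

theorem hasDerivAt_pow4 (hj : j ≠ 0) (t : ℝ) :
    HasDerivAt (fun t => kap (t / j) ^ 4) (d1 j t) t := by
  have h1 : HasDerivAt (fun t : ℝ => t / j) (1 / j) t := (hasDerivAt_id t).div_const j
  have h2 := ((hasDerivAt_kap (t / j)).comp t h1).pow 4
  refine h2.congr_deriv ?_
  simp only [d1, Function.comp_apply]
  push_cast
  field_simp

theorem hasDerivAt_d1 (hj : j ≠ 0) (t : ℝ) : HasDerivAt (d1 j) (d2 j t) t := by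
  have h1 : HasDerivAt (fun t : ℝ => t / j) (1 / j) t := (hasDerivAt_id t).div_const j
  have h2 := ((hasDerivAt_kap (t / j)).comp t h1).pow 3
  have h3 := (hasDerivAt_dkap (t / j)).comp t h1
  have h4 := ((h2.const_mul 4).mul h3).div_const j
  refine h4.congr_deriv ?_
  simp only [d2, Function.comp_apply, Pi.pow_apply]
  push_cast
  field_simp
  ring

theorem d1_abs_le (hj : 0 < j) (t : ℝ) : |d1 j t| ≤ 4 * Kk / j * kap (t / j) ^ 3 := by
  have h0 := kap_nonneg (t / j)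
  unfold d1
  rw [abs_div, abs_of_pos hj, abs_mul, abs_of_nonneg (by positivity : 0 ≤ 4 * kap (t / j) ^ 3)]
  rw [div_le_iff₀ hj]
  have h1 := mul_le_mul_of_nonneg_left (dkap_le (t / j)) (by positivity : 0 ≤ 4 * kap (t / j) ^ 3)
  calc _ ≤ _ := h1
    _ = _ := by field_simp

theorem d2_abs_le (hj : 1 ≤ j) (t : ℝ) :
    |d2 j t| ≤ (12 * Kk ^ 2 + 4 * Kk) / j * kap (t / j) ^ 2 := by
  have hj0 : 0 < j := by linarith
  have h0 := kap_nonneg (t / j)
  have h1 := kap_le_one (t / j)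
  have hK := Kk_nonneg
  have a1 : deriv kap (t / j) ^ 2 ≤ Kk ^ 2 :=
    sq_le_sq' (abs_le.1 (dkap_le _)).1 (abs_le.1 (dkap_le _)).2
  have a2 : kap (t / j) ^ 3 ≤ kap (t / j) ^ 2 := pow_le_pow_of_le_one h0 h1 (by norm_num)
  unfold d2
  rw [abs_div, abs_of_pos (by positivity : 0 < j ^ 2)]
  have b : |12 * kap (t / j) ^ 2 * deriv kap (t / j) ^ 2
      + 4 * kap (t / j) ^ 3 * deriv (deriv kap) (t / j)| ≤
      (12 * Kk ^ 2 + 4 * Kk) * kap (t / j) ^ 2 := by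
    refine (abs_add_le _ _).trans ?_
    rw [abs_mul, abs_mul (4 * kap (t / j) ^ 3),
      abs_of_nonneg (by positivity : 0 ≤ 12 * kap (t / j) ^ 2),
      abs_of_nonneg (sq_nonneg (deriv kap (t / j))),
      abs_of_nonneg (by positivity : 0 ≤ 4 * kap (t / j) ^ 3)]
    have c1 := mul_le_mul_of_nonneg_left a1 (by positivity : 0 ≤ 12 * kap (t / j) ^ 2)
    have c2 : 4 * kap (t / j) ^ 3 * |deriv (deriv kap) (t / j)| ≤ 4 * kap (t / j) ^ 2 * Kk :=
      mul_le_mul (by linarith) (ddkap_le _) (abs_nonneg _) (by positivity)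
    linarith
  rw [div_le_iff₀ (by positivity)]
  have c : (12 * Kk ^ 2 + 4 * Kk) / j * kap (t / j) ^ 2 * j ^ 2 =
      (12 * Kk ^ 2 + 4 * Kk) * kap (t / j) ^ 2 * j := by field_simp
  rw [c]
  have d : 0 ≤ (12 * Kk ^ 2 + 4 * Kk) * kap (t / j) ^ 2 := by positivity
  nlinarith

/-- **the Levi form of the cut-off functions** -/
theorem lev_chi_le (hj : 1 ≤ j) (hρ : ContDiffAt ℝ 2 ρ x) {v : Cn n} {L : ℝ}
    (hg : ‖gr ρ x v‖ ^ 2 ≤ C * L) (hl : |lev ρ x v| ≤ C * L) :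
    |lev (chi ρ j) x v| ≤ cK * C / j * kap (ρ x / j) ^ 2 * L := by
  have hj0 : 0 < j := by linarith
  have hCL : 0 ≤ C * L := (sq_nonneg _).trans hg
  have h0 := kap_nonneg (ρ x / j)
  have h1 := kap_le_one (ρ x / j)
  have hK := Kk_nonneg
  have e : lev (chi ρ j) x v = d2 j (ρ x) * ‖gr ρ x v‖ ^ 2 + d1 j (ρ x) * lev ρ x v :=
    lev_comp_real (χ := fun t => kap (t / j) ^ 4) (χ' := d1 j) hρ
      (Eventually.of_forall (hasDerivAt_pow4 hj0.ne')) (hasDerivAt_d1 hj0.ne' _) v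
  rw [e]
  have a3 : kap (ρ x / j) ^ 3 ≤ kap (ρ x / j) ^ 2 := pow_le_pow_of_le_one h0 h1 (by norm_num)
  have a1 : |d2 j (ρ x) * ‖gr ρ x v‖ ^ 2| ≤
      (12 * Kk ^ 2 + 4 * Kk) / j * kap (ρ x / j) ^ 2 * (C * L) := by
    rw [abs_mul, abs_of_nonneg (sq_nonneg ‖gr ρ x v‖)]
    exact mul_le_mul (d2_abs_le hj _) hg (sq_nonneg _) (by positivity)
  have a2 : |d1 j (ρ x) * lev ρ x v| ≤ 4 * Kk / j * kap (ρ x / j) ^ 2 * (C * L) := by
    rw [abs_mul]
    refine mul_le_mul ((d1_abs_le hj0 _).trans ?_) hl (abs_nonneg _) (by positivity)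
    exact mul_le_mul_of_nonneg_left a3 (by positivity)
  have b : (12 * Kk ^ 2 + 8 * Kk) / j * kap (ρ x / j) ^ 2 * (C * L) ≤
      cK / j * kap (ρ x / j) ^ 2 * (C * L) := by
    refine mul_le_mul_of_nonneg_right (mul_le_mul_of_nonneg_right ?_ (sq_nonneg _)) hCL
    refine div_le_div_of_nonneg_right ?_ hj0.le
    unfold cK
    nlinarith [sq_nonneg Kk]
  calc _ ≤ _ := abs_add_le _ _
    _ ≤ _ := add_le_add a1 a2
    _ = (12 * Kk ^ 2 + 8 * Kk) / j * kap (ρ x / j) ^ 2 * (C * L) := by ring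
    _ ≤ _ := b
    _ = _ := by ring

/-- **the gradient of the cut-off functions** -/
theorem gr_chi_le (hj : 1 ≤ j) (hρ : DifferentiableAt ℝ ρ x) {v : Cn n} {L : ℝ}
    (hg : ‖gr ρ x v‖ ^ 2 ≤ C * L) :
    ‖gr (chi ρ j) x v‖ ^ 2 ≤ cK * C / j ^ 2 * kap (ρ x / j) ^ 6 * L := by
  have hj0 : 0 < j := by linarith
  have hCL : 0 ≤ C * L := (sq_nonneg _).trans hg
  have h0 := kap_nonneg (ρ x / j)
  have hK := Kk_nonneg
  have e : gr (chi ρ j) x v = d1 j (ρ x) * gr ρ x v :=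
    gr_comp_real (χ := fun t => kap (t / j) ^ 4) hρ (hasDerivAt_pow4 hj0.ne' _) v
  rw [e, norm_mul, Complex.norm_real, Real.norm_eq_abs, mul_pow]
  have a1 : |d1 j (ρ x)| ^ 2 ≤ (4 * Kk / j * kap (ρ x / j) ^ 3) ^ 2 :=
    pow_le_pow_left₀ (abs_nonneg _) (d1_abs_le hj0 _) 2
  have b : 16 * Kk ^ 2 / j ^ 2 * kap (ρ x / j) ^ 6 * (C * L) ≤
      cK / j ^ 2 * kap (ρ x / j) ^ 6 * (C * L) := by
    refine mul_le_mul_of_nonneg_right (mul_le_mul_of_nonneg_right ?_ (by positivity)) hCL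
    refine div_le_div_of_nonneg_right ?_ (by positivity)
    unfold cK
    linarith
  calc _ ≤ (4 * Kk / j * kap (ρ x / j) ^ 3) ^ 2 * (C * L) :=
        mul_le_mul a1 hg (sq_nonneg _) (by positivity)
    _ = 16 * Kk ^ 2 / j ^ 2 * kap (ρ x / j) ^ 6 * (C * L) := by ring
    _ ≤ _ := b
    _ = _ := by ring

/-! ### matrices -/

section psd

variable {f g : Cn n → ℝ}

/-- a bound of Levi forms as an inequality of Hermitian matrices -/
theorem psd_of_lev {c : ℝ} (hf : ContDiffAt ℝ ∞ f x) (hu : ContDiffAt ℝ ∞ u x)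
    (h : ∀ v, |lev f x v| ≤ c * lev u x v) :
    ((c : ℂ) • Hess_333.hess u x - Hess_333.hess f x).PosSemidef ∧
      ((c : ℂ) • Hess_333.hess u x + Hess_333.hess f x).PosSemidef := by
  have hcu : ContDiffAt ℝ ∞ (fun z => c * u z) x := contDiffAt_const.mul hu
  have h2 : (2 : WithTop ℕ∞) ≤ ∞ := WithTop.coe_le_coe.2 (le_top : (2 : ℕ∞) ≤ ⊤)
  rw [← HessB_333.hess_const_mul c hu, ← HessB_333.hess_sub hcu hf, ← HessB_333.hess_add hcu hf]
  constructor
  · refine HessB_333.posSemidef_hess (hcu.sub hf) fun v => ?_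
    rw [YauDefs_635.lev333_eq_lev145, lev_sub (hcu.of_le h2) (hf.of_le h2),
      lev_const_mul c (hu.of_le h2)]
    have := (abs_le.1 (h v)).2
    linarith
  · refine HessB_333.posSemidef_hess (hcu.add hf) fun v => ?_
    rw [YauDefs_635.lev333_eq_lev145, lev_add (hcu.of_le h2) (hf.of_le h2),
      lev_const_mul c (hu.of_le h2)]
    have := (abs_le.1 (h v)).1
    linarith

/-- **the cut-off functions, matrix form** -/
theorem psd_chi (hj : 1 ≤ j) (hρ : ContDiffAt ℝ ∞ ρ x) (hu : ContDiffAt ℝ ∞ u x)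
    (hg : ∀ v, ‖gr ρ x v‖ ^ 2 ≤ C * lev u x v) (hl : ∀ v, |lev ρ x v| ≤ C * lev u x v) :
    (((cK * C / j * Real.sqrt (chi ρ j x) : ℝ) : ℂ) • Hess_333.hess u x
        - Hess_333.hess (chi ρ j) x).PosSemidef ∧
      (((cK * C / j * Real.sqrt (chi ρ j x) : ℝ) : ℂ) • Hess_333.hess u x
        + Hess_333.hess (chi ρ j) x).PosSemidef := by
  have h2 : (2 : WithTop ℕ∞) ≤ ∞ := WithTop.coe_le_coe.2 (le_top : (2 : ℕ∞) ≤ ⊤)
  refine psd_of_lev (chi_sm hρ) hu fun v => ?_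
  rw [sqrt_chi]
  exact lev_chi_le hj (hρ.of_le h2) (hg v) (hl v)

/-- the instance `ρ = log (A - u)` -/
theorem psd_chi_rho {A : ℝ} (hj : 1 ≤ j) (hu : ContDiffAt ℝ ∞ u x) (hA : u x + 1 ≤ A)
    (h0 : ∀ v, 0 ≤ lev u x v) (hC : ∀ v, ‖gr u x v‖ ^ 2 ≤ C * ((A - u x) ^ 2 * lev u x v)) :
    (((cK * (C + 1) / j * Real.sqrt (chi (rho A u) j x) : ℝ) : ℂ) • Hess_333.hess u x
        - Hess_333.hess (chi (rho A u) j) x).PosSemidef ∧
      (((cK * (C + 1) / j * Real.sqrt (chi (rho A u) j x) : ℝ) : ℂ) • Hess_333.hess u x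
        + Hess_333.hess (chi (rho A u) j) x).PosSemidef := by
  have h2 : (2 : WithTop ℕ∞) ≤ ∞ := WithTop.coe_le_coe.2 (le_top : (2 : ℕ∞) ≤ ⊤)
  have hA' : u x < A := by linarith
  refine psd_chi hj (sm_rho hu hA') hu (fun v => ?_) fun v => ?_
  · have := gr_rho_le (c2_diff (hu.of_le h2)) hA' v (hC v)
    have := h0 v
    linarith
  · exact lev_rho_le (hu.of_le h2) hA v (h0 v) (hC v)

end psd

/-! ### on a complex manifold -/

section atl

variable {M : Type} [TopologicalSpace M] {A : Atl n M} {w r : M → ℝ}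

theorem chi_Sm (h : A.Sm r) (j : ℝ) : A.Sm (chi r j) := fun i =>
  ((kap_sm.comp_contDiffOn ((h i).div_const j)).pow 4 :)

/-- **the cut-off functions on a complex manifold** -/
theorem psd_chi_hsf (hj : 1 ≤ j) (hw : A.Sm w) (hr : A.Sm r) (i : A.ι) {x : M}
    (hx : x ∈ (A.e i).source)
    (hg : ∀ v, ‖gr (fun z => r ((A.e i).symm z)) (A.e i x) v‖ ^ 2 ≤
      C * lev (fun z => w ((A.e i).symm z)) (A.e i x) v)
    (hl : ∀ v, |lev (fun z => r ((A.e i).symm z)) (A.e i x) v| ≤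
      C * lev (fun z => w ((A.e i).symm z)) (A.e i x) v) :
    (((cK * C / j * Real.sqrt (chi r j x) : ℝ) : ℂ) • Kah_333.hsf A w i x
        - Kah_333.hsf A (chi r j) i x).PosSemidef ∧
      (((cK * C / j * Real.sqrt (chi r j x) : ℝ) : ℂ) • Kah_333.hsf A w i x
        + Kah_333.hsf A (chi r j) i x).PosSemidef := by
  have hz := (A.e i).map_source hx
  have h := psd_chi (j := j) hj (Kah_333.sm_contDiffAt hr i hz) (Kah_333.sm_contDiffAt hw i hz)
    hg hl
  have e : chi (fun z => r ((A.e i).symm z)) j (A.e i x) = chi r j x := by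
    simp only [chi, (A.e i).left_inv hx]
  rw [e] at h
  exact h

end atl

/-! ### mixed discriminants of `2 × 2` matrices -/

section pd

open Crest.Agent.R257.C2F1_625 (pd pd_self pd_comm pd_add add_pd pd_sub sub_pd pd_smul smul_pd
  pd_neg neg_pd pd_mul)

variable {X Y Z K W P Q : Matrix (Fin 2) (Fin 2) ℂ}

theorem herm_off (h : X.IsHermitian) : X 1 0 = conj (X 0 1) := (h.apply 1 0).symm

theorem herm_diag (h : X.IsHermitian) (i : Fin 2) : X i i = (((X i i).re : ℝ) : ℂ) := by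
  have h1 : conj (X i i) = X i i := h.apply i i
  exact (Complex.conj_eq_iff_real.1 h1).elim fun r hr => by rw [hr, ofReal_re]

/-- the mixed discriminant of Hermitian matrices -/
theorem pd_herm (hX : X.IsHermitian) (hY : Y.IsHermitian) :
    pd X Y = (((X 0 0).re * (Y 1 1).re + (X 1 1).re * (Y 0 0).re
      - 2 * ((X 0 1).re * (Y 0 1).re + (X 0 1).im * (Y 0 1).im) : ℝ) : ℂ) := by
  rw [pd, herm_off hX, herm_off hY, herm_diag hX 0, herm_diag hX 1, herm_diag hY 0, herm_diag hY 1]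
  simp only [ofReal_re]
  apply Complex.ext
  · simp
    ring
  · simp
    ring

theorem pd_herm_im (hX : X.IsHermitian) (hY : Y.IsHermitian) : (pd X Y).im = 0 := by
  rw [pd_herm hX hY, ofReal_im]

theorem det_herm (hX : X.IsHermitian) :
    X.det = (((X 0 0).re * (X 1 1).re - ((X 0 1).re ^ 2 + (X 0 1).im ^ 2) : ℝ) : ℂ) := by
  have h := pd_herm hX hX
  rw [pd_self] at h
  have h2 : (2 : ℂ) ≠ 0 := two_ne_zero
  apply mul_left_cancel₀ h2
  rw [h]
  push_cast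
  ring

theorem psd_diag (h : X.PosSemidef) (i : Fin 2) : 0 ≤ (X i i).re := by
  have := h.diag_nonneg (i := i)
  exact (Complex.le_def.1 this).1

theorem psd_det (h : X.PosSemidef) :
    (X 0 1).re ^ 2 + (X 0 1).im ^ 2 ≤ (X 0 0).re * (X 1 1).re := by
  have h1 : 0 ≤ X.det := h.det_nonneg
  rw [det_herm h.1] at h1
  have h2 : (0 : ℝ) ≤ (X 0 0).re * (X 1 1).re - ((X 0 1).re ^ 2 + (X 0 1).im ^ 2) := by
    exact_mod_cast h1
  linarith

/-- **positivity of the mixed discriminant** -/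
theorem pd_nonneg (hP : P.PosSemidef) (hQ : Q.PosSemidef) : 0 ≤ (pd P Q).re := by
  rw [pd_herm hP.1 hQ.1, ofReal_re]
  have a0 := psd_diag hP 0
  have a1 := psd_diag hP 1
  have b0 := psd_diag hQ 0
  have b1 := psd_diag hQ 1
  have dP := psd_det hP
  have dQ := psd_det hQ
  set p0 := (P 0 0).re
  set p1 := (P 1 1).re
  set q0 := (Q 0 0).re
  set q1 := (Q 1 1).re
  set s := (P 0 1).re
  set t := (P 0 1).im
  set s' := (Q 0 1).re
  set t' := (Q 0 1).im
  have h1 : (s * s' + t * t') ^ 2 ≤ (s ^ 2 + t ^ 2) * (s' ^ 2 + t' ^ 2) := by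
    nlinarith [sq_nonneg (s * t' - t * s')]
  have h2 : (s ^ 2 + t ^ 2) * (s' ^ 2 + t' ^ 2) ≤ (p0 * p1) * (q0 * q1) :=
    mul_le_mul dP dQ (by positivity) (by positivity)
  have h3 : (2 * (s * s' + t * t')) ^ 2 ≤ (p0 * q1 + p1 * q0) ^ 2 := by
    nlinarith [sq_nonneg (p0 * q1 - p1 * q0)]
  have h4 := abs_le_of_sq_le_sq' h3 (by positivity)
  linarith [h4.2]

theorem pd_im_zero (hP : P.PosSemidef) (hQ : Q.PosSemidef) : (pd P Q).im = 0 :=
  pd_herm_im hP.1 hQ.1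

/-- `-cK ≤ X ≤ cK`, `Y ≥ 0`: `|pd X Y| ≤ c pd K Y` -/
theorem pd_abs_le {c : ℝ} (h1 : ((c : ℂ) • K - X).PosSemidef) (h2 : ((c : ℂ) • K + X).PosSemidef)
    (hY : Y.PosSemidef) : |(pd X Y).re| ≤ c * (pd K Y).re := by
  have a1 := pd_nonneg h1 hY
  have a2 := pd_nonneg h2 hY
  rw [sub_pd, smul_pd, Complex.sub_re, Complex.re_ofReal_mul] at a1
  rw [add_pd, smul_pd, Complex.add_re, Complex.re_ofReal_mul] at a2
  rw [abs_le]
  constructor <;> linarith

/-- `-cK ≤ X ≤ cK`, `-W ≤ Z ≤ W`: `|pd X Z| ≤ c pd K W` -/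
theorem pd_abs_le_maj {c : ℝ} (h1 : ((c : ℂ) • K - X).PosSemidef)
    (h2 : ((c : ℂ) • K + X).PosSemidef) (h3 : (W - Z).PosSemidef) (h4 : (W + Z).PosSemidef) :
    |(pd X Z).re| ≤ c * (pd K W).re := by
  have b1 := abs_le.1 (pd_abs_le h1 h2 h3)
  have b2 := abs_le.1 (pd_abs_le h1 h2 h4)
  have e1 : (pd X (W - Z)).re = (pd X W).re - (pd X Z).re := by rw [pd_sub, Complex.sub_re]
  have e2 : (pd X (W + Z)).re = (pd X W).re + (pd X Z).re := by rw [pd_add, Complex.add_re]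
  have e3 : (pd K (W - Z)).re = (pd K W).re - (pd K Z).re := by rw [pd_sub, Complex.sub_re]
  have e4 : (pd K (W + Z)).re = (pd K W).re + (pd K Z).re := by rw [pd_add, Complex.add_re]
  rw [e1, e3] at b1
  rw [e2, e4] at b2
  rw [abs_le]
  constructor <;> linarith [b1.1, b1.2, b2.1, b2.2]

/-- Hilbert-Schmidt norm of `X` when `-c ≤ X ≤ c` -/
theorem hs_le {c : ℝ} (h1 : ((c : ℂ) • (1 : Matrix (Fin 2) (Fin 2) ℂ) - X).PosSemidef)
    (h2 : ((c : ℂ) • (1 : Matrix (Fin 2) (Fin 2) ℂ) + X).PosSemidef) :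
    (X 0 0).re ^ 2 + (X 1 1).re ^ 2 + 2 * ((X 0 1).re ^ 2 + (X 0 1).im ^ 2) ≤ 2 * c ^ 2 := by
  have a0 := psd_diag h1 0
  have a1 := psd_diag h1 1
  have b0 := psd_diag h2 0
  have b1 := psd_diag h2 1
  have d1 := psd_det h1
  have d2 := psd_det h2
  simp only [Matrix.sub_apply, Matrix.add_apply, Matrix.smul_apply, Matrix.one_apply_eq,
    smul_eq_mul, mul_one, Complex.sub_re, Complex.add_re, ofReal_re,
    Complex.neg_re, Complex.neg_im, Matrix.one_apply_ne (by decide : (0 : Fin 2) ≠ 1), mul_zero,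
    zero_sub, zero_add, neg_sq] at a0 a1 b0 b1 d1 d2
  set p := (X 0 0).re
  set q := (X 1 1).re
  set s := (X 0 1).re ^ 2 + (X 0 1).im ^ 2 with hs
  have hs0 : 0 ≤ s := by positivity
  have hc : 0 ≤ c := by linarith
  have m1 : p * q - s ≤ c ^ 2 := by nlinarith
  rcases hc.eq_or_lt with h0 | h0
  · rw [← h0] at a0 a1 b0 b1 d1 d2
    have hp : p = 0 := by linarith
    have hq : q = 0 := by linarith
    rw [hp, hq] at d1
    rw [hp, hq, ← h0]
    nlinarith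
  · -- `c |p + q| ≤ c² + m`
    have e1 : c * (p + q) ≤ c ^ 2 + (p * q - s) := by nlinarith
    have e2 : - (c * (p + q)) ≤ c ^ 2 + (p * q - s) := by nlinarith
    have e3 : (c * (p + q)) ^ 2 ≤ (c ^ 2 + (p * q - s)) ^ 2 :=
      sq_le_sq' (by linarith) e1
    have e4 : 0 ≤ c ^ 2 + (p * q - s) := by
      have := abs_le.2 ⟨by linarith, e1⟩
      exact (abs_nonneg _).trans this
    have e5 : (c ^ 2 + (p * q - s)) ^ 2 ≤ (c ^ 2 + (p * q - s)) * (2 * c ^ 2) := by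
      rw [sq]
      exact mul_le_mul_of_nonneg_left (by linarith) e4
    have e6 : c ^ 2 * (p + q) ^ 2 ≤ c ^ 2 * (2 * (c ^ 2 + (p * q - s))) := by
      calc c ^ 2 * (p + q) ^ 2 = (c * (p + q)) ^ 2 := by ring
        _ ≤ _ := e3
        _ ≤ _ := e5
        _ = _ := by ring
    have e7 := le_of_mul_le_mul_left e6 (by positivity)
    nlinarith

theorem cs2 (a b c d e f g h : ℝ) :
    (a * d + b * c - 2 * (e * g + f * h)) ^ 2 ≤
      (a ^ 2 + b ^ 2 + 2 * (e ^ 2 + f ^ 2)) * (c ^ 2 + d ^ 2 + 2 * (g ^ 2 + h ^ 2)) := by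
  nlinarith [sq_nonneg (a * c - b * d), sq_nonneg (a * g + e * d), sq_nonneg (a * h + f * d),
    sq_nonneg (b * g + e * c), sq_nonneg (b * h + f * c), sq_nonneg (e * h - f * g)]

/-- `-c ≤ X ≤ c`, `Z` Hermitian: `|pd X Z|² ≤ 2 c² |Z|²` (`K = 1`) -/
theorem pd_sq_le_one {c : ℝ} (h1 : ((c : ℂ) • (1 : Matrix (Fin 2) (Fin 2) ℂ) - X).PosSemidef)
    (h2 : ((c : ℂ) • (1 : Matrix (Fin 2) (Fin 2) ℂ) + X).PosSemidef) (hX : X.IsHermitian)
    (hZ : Z.IsHermitian) :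
    (pd X Z).re ^ 2 ≤ 2 * c ^ 2 * ((pd 1 Z).re ^ 2 - (pd Z Z).re) := by
  have h3 := hs_le h1 h2
  have h4 : (pd 1 Z).re ^ 2 - (pd Z Z).re =
      (Z 0 0).re ^ 2 + (Z 1 1).re ^ 2 + 2 * ((Z 0 1).re ^ 2 + (Z 0 1).im ^ 2) := by
    rw [pd_herm Matrix.isHermitian_one hZ, pd_herm hZ hZ, ofReal_re, ofReal_re]
    simp only [Matrix.one_apply_eq, Matrix.one_apply_ne (by decide : (0 : Fin 2) ≠ 1),
      Complex.one_re, Complex.zero_re, Complex.zero_im]
    ring
  rw [h4, pd_herm hX hZ, ofReal_re]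
  refine (cs2 _ _ _ _ _ _ _ _).trans ?_
  exact mul_le_mul_of_nonneg_right h3 (by positivity)

/-- **`K > 0`, `-cK ≤ X ≤ cK`, `Z` Hermitian:
`(pd X Z)² ≤ 2 c² ((pd K Z)² - det K · pd Z Z)`** (the bracket is `det K² |Z|²_K`) -/
theorem pd_sq_le {c : ℝ} (hK : K.PosDef) (h1 : ((c : ℂ) • K - X).PosSemidef)
    (h2 : ((c : ℂ) • K + X).PosSemidef) (hX : X.IsHermitian) (hZ : Z.IsHermitian) :
    (pd X Z).re ^ 2 ≤ 2 * c ^ 2 * ((pd K Z).re ^ 2 - K.det.re * (pd Z Z).re) := by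
  obtain ⟨C, hC⟩ := YC3_812.exists_congr_one K hK
  have hdK : 0 < K.det := hK.det_pos
  have hdK2 : K.det = ((K.det.re : ℝ) : ℂ) := by
    have := (Complex.pos_iff.1 hdK).2
    exact Complex.ext (by simp) (by simp [← this])
  have hdC : C.det * (C.conjTranspose).det * K.det = 1 := by
    have := congrArg Matrix.det hC
    rw [Matrix.det_mul, Matrix.det_mul, Matrix.det_one] at this
    rw [← this]
    ring
  set m : ℂ := C.det * (C.conjTranspose).det with hm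
  have hmr : m = (((K.det.re)⁻¹ : ℝ) : ℂ) := by
    have h0 : K.det ≠ 0 := hdK.ne'
    rw [hdK2] at hdC
    push_cast
    refine eq_inv_of_mul_eq_one_left hdC
  have hk : 0 < K.det.re := (Complex.pos_iff.1 hdK).1
  have e : ∀ A B : Matrix (Fin 2) (Fin 2) ℂ,
      (pd (C * A * C.conjTranspose) (C * B * C.conjTranspose)).re = (K.det.re)⁻¹ * (pd A B).re := by
    intro A B
    rw [pd_mul, ← hm, hmr, Complex.re_ofReal_mul]
  have hX' : (C * X * C.conjTranspose).IsHermitian := by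
    have := Matrix.isHermitian_mul_mul_conjTranspose C hX
    exact this
  have hZ' : (C * Z * C.conjTranspose).IsHermitian := Matrix.isHermitian_mul_mul_conjTranspose C hZ
  have g1 : ((c : ℂ) • (1 : Matrix (Fin 2) (Fin 2) ℂ) - C * X * C.conjTranspose).PosSemidef := by
    have := h1.mul_mul_conjTranspose_same C
    have e2 : C * ((c : ℂ) • K - X) * C.conjTranspose =
        (c : ℂ) • (C * K * C.conjTranspose) - C * X * C.conjTranspose := by
      rw [Matrix.mul_sub, Matrix.sub_mul, Matrix.mul_smul, Matrix.smul_mul]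
    rw [e2, hC] at this
    exact this
  have g2 : ((c : ℂ) • (1 : Matrix (Fin 2) (Fin 2) ℂ) + C * X * C.conjTranspose).PosSemidef := by
    have := h2.mul_mul_conjTranspose_same C
    have e2 : C * ((c : ℂ) • K + X) * C.conjTranspose =
        (c : ℂ) • (C * K * C.conjTranspose) + C * X * C.conjTranspose := by
      rw [Matrix.mul_add, Matrix.add_mul, Matrix.mul_smul, Matrix.smul_mul]
    rw [e2, hC] at this
    exact this
  have key := pd_sq_le_one g1 g2 hX' hZ'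
  rw [← hC, e, e, e] at key
  have h3 : ((K.det.re)⁻¹ * (pd X Z).re) ^ 2 = ((K.det.re)⁻¹) ^ 2 * (pd X Z).re ^ 2 := by ring
  have h4 : 2 * c ^ 2 * (((K.det.re)⁻¹ * (pd K Z).re) ^ 2 - (K.det.re)⁻¹ * (pd Z Z).re) =
      ((K.det.re)⁻¹) ^ 2 * (2 * c ^ 2 * ((pd K Z).re ^ 2 - K.det.re * (pd Z Z).re)) := by
    field_simp
  rw [h3, h4] at key
  exact le_of_mul_le_mul_left key (by positivity)

end pd

end

end Crest.Agent.R257.GBLcut_844
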