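import Crest.Agent.R257.BCU7_532
import Crest.Agent.R257.GBLcut_844
import Crest.Agent.R257.GBL4_625

/-!
# R257 (S0395), part (GB), leaf GB-UPP (helper532): **the signed Bott-Chern inequality**

`upper` : for `χ` with compact support and `∂∂̄χ ≥ 0` where `v ≠ 0`,
`∫ χ tr F_1² - ∫ χ tr F_0² ≤ - ∫ ∂∂̄χ ∧ tr (v F_0)`,
`F_0`, `F_1` the curvatures of `H`, `H e^v`.
-/

set_option autoImplicit false
set_option linter.unusedSectionVars false

open Set Filter Topology Complex MeasureTheory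
open scoped ContDiff Matrix ComplexConjugate ComplexOrder

namespace Crest.Agent.R257.BCU8_532

open Crest.Agent.R275.Geo Crest.Agent.R275.TorS666
open Crest.Agent.R275.Tor812 hiding pd
open Crest.Agent.R275.C1d194 Crest.Agent.R275.Pai323 Crest.Agent.R275.OmT75
open Crest.Agent.R275.SerG398 (lint dens)
open Crest.Agent.R275.EDR890
open Crest.Agent.R273.StokesV_332
open Crest.Agent.R273.Fock_243
open Crest.Agent.R273.Calc_243 hiding dj
open Crest.Agent.R273.Bkn_243 Crest.Agent.R273.Pos_243 Crest.Agent.R273.BochA_101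
open Crest.Agent.R273.BochB_101 Crest.Agent.R273.BochC_101 Crest.Agent.R273.BochD_101
open Crest.Agent.R275.Core144 Crest.Agent.R273.Defs_333 Crest.Agent.R273.HM_333
open Crest.Agent.R273.Hess_333 Crest.Agent.R273.HessB_333 Crest.Agent.R273.Kah_333
open Crest.Agent.R273.GreenM_5
open Crest.Agent.R257.C2F1_625 Crest.Agent.R257.C2F2_625
open Crest.Agent.R257.C2F5_335 Crest.Agent.R257.GBL1_625 Crest.Agent.R257.GBL2_625
open Crest.Agent.R257.C2F6_335 hiding ddD
open Crest.Agent.R257.GBLcut_844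
open Crest.Agent.R257.BCU1_532 Crest.Agent.R257.BCU2_532 Crest.Agent.R257.BCU3_532
open Crest.Agent.R257.BCU4_532 Crest.Agent.R257.BCU5_532 Crest.Agent.R257.BCU6_532
open Crest.Agent.R257.BCU7_532

noncomputable section

variable {M : Type} [TopologicalSpace M] {A : Atl 2 M} {E : HB A (Fin 2)}

/-! ### the function `tr v²` -/

/-- `tr v²` -/
def wL (v : LF E) (x : M) : ℝ := ((v.L (ci A x) x * v.L (ci A x) x).trace).re

theorem wL_eq (v : LF E) {i : A.ι} {x : M} (hx : x ∈ (A.e i).source) :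
    ((wL v x : ℝ) : ℂ) = (v.L i x * v.L i x).trace := by
  have hci := mem_ci (A := A) x
  have h1 : ((wL v x : ℝ) : ℂ) = (v.L (ci A x) x * v.L (ci A x) x).trace :=
    tr_real (E.pos _ x hci) (v.sa _ x hci)
  have hF := E.det_ne (ci A x) i x ⟨hci, hx⟩
  have ht := v.tr (ci A x) i x ⟨hci, hx⟩
  have i1 : (E.F (ci A x) i x)⁻¹ * E.F (ci A x) i x = 1 :=
    Matrix.nonsing_inv_mul _ (isUnit_iff_ne_zero.2 hF)
  have e : v.L (ci A x) x = (E.F (ci A x) i x)⁻¹ * (v.L i x) * E.F (ci A x) i x := by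
    rw [Matrix.mul_assoc, ← ht, ← Matrix.mul_assoc, i1, Matrix.one_mul]
  rw [h1]
  conv_lhs => rw [e]
  rw [trF hF (L := (E.F (ci A x) i x)⁻¹ * (v.L i x) * E.F (ci A x) i x) (L' := v.L i x)
    (by rw [← e]; exact ht)]

theorem wL_ev (v : LF E) {i : A.ι} {z : Cn 2} (hz : z ∈ (A.e i).target) :
    cu (fun y => wL v ((A.e i).symm y)) =ᶠ[𝓝 z]
      fun y => (rdM A i (v.L i) y * rdM A i (v.L i) y).trace := by
  filter_upwards [(A.e i).open_target.mem_nhds hz] with y hy
  exact wL_eq v ((A.e i).map_target hy)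

theorem wL_sm (v : LF E) : A.Sm (wL v) := by
  intro i z hz
  have hL : SmM z (rdM A i (v.L i)) := evSmM_rdM (v.sm i) hz
  have h1 : Sm z (fun y => (rdM A i (v.L i) y * rdM A i (v.L i) y).trace) :=
    Sm.trace (SmM.mul hL hL)
  have h2 : ContDiffAt ℝ ∞ (fun y =>
      ((rdM A i (v.L i) y * rdM A i (v.L i) y).trace).re) z :=
    Complex.reCLM.contDiff.contDiffAt.comp z h1
  refine (h2.congr_of_eventuallyEq ?_).contDiffWithinAt
  filter_upwards [wL_ev v hz] with y hy
  rw [← hy]
  exact (Complex.ofReal_re _).symm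

theorem hess_wL (v : LF E) {i : A.ι} {x : M} (hx : x ∈ (A.e i).source) (c d : Fin 2) :
    dS (-I) c (dS I d (fun y => (rdM A i (v.L i) y * rdM A i (v.L i) y).trace)) (A.e i x)
      = hsf A (wL v) i x c d := by
  unfold hsf
  rw [hess_eq]
  exact (dS_congr (dS_congr' (wL_ev v ((A.e i).map_source hx)))).symm

/-! ### the field `tr (Dv ∧ ∂̄v)` -/

/-- `tr (Dv ∧ ∂̄v)` -/
def mD (v : LF E) (i : A.ι) (x : M) : Matrix (Fin 2) (Fin 2) ℂ :=
  mm (rdM A i (E.H i)) (rdM A i (v.L i)) (A.e i x)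

section chart

variable (v : LF E) {i : A.ι} {z : Cn 2} (hz : z ∈ (A.e i).target)

include hz

theorem evH : ∀ᶠ y in 𝓝 z, SmM y (rdM A i (E.H i)) := by
  filter_upwards [(A.e i).open_target.mem_nhds hz] with y hy
  exact evSmM_rdM (E.sm i) hy

theorem evL : ∀ᶠ y in 𝓝 z, SmM y (rdM A i (v.L i)) := by
  filter_upwards [(A.e i).open_target.mem_nhds hz] with y hy
  exact evSmM_rdM (v.sm i) hy

theorem detH : (rdM A i (E.H i) z).det ≠ 0 := E.H_det_ne ((A.e i).map_target hz)

theorem posH : ∀ᶠ y in 𝓝 z, (rdM A i (E.H i) y).PosDef := by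
  filter_upwards [(A.e i).open_target.mem_nhds hz] with y hy
  exact E.pos i _ ((A.e i).map_target hy)

theorem saH : ∀ᶠ y in 𝓝 z, (rdM A i (E.H i) y * rdM A i (v.L i) y).IsHermitian := by
  filter_upwards [(A.e i).open_target.mem_nhds hz] with y hy
  exact v.sa i _ ((A.e i).map_target hy)

end chart

theorem mm_sm {G L : Cn 2 → Matrix (Fin 2) (Fin 2) ℂ} {z : Cn 2} (hG : SmM z G)
    (h0 : (G z).det ≠ 0) (hL : SmM z L) : SmM z (mm G L) := by
  intro c d
  have hA := At_sm hG h0 c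
  have hD : SmM z (Dv (At G) L c) :=
    SmMadd (hL.dM (-I) c) (SmMsub (SmM.mul hA hL) (SmM.mul hL hA))
  exact Sm.trace (SmM.mul hD (hL.dM I d))

theorem mD_sm (v : LF E) (U : Set M) : SmS A U (mD v) := by
  intro i a b x hx _
  have hz := (A.e i).map_source hx
  refine (mm_sm (evH (E := E) hz).self_of_nhds (detH hz) (evL v hz).self_of_nhds a
    b).congr_of_eventuallyEq ?_
  filter_upwards [(A.e i).open_target.mem_nhds hz] with y hy
  unfold mD
  rw [(A.e i).right_inv hy]

theorem mD_psd (v : LF E) {i : A.ι} {x : M} (hx : x ∈ (A.e i).source) :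
    (mD v i x).PosSemidef := by
  have hz := (A.e i).map_source hx
  exact mm_psd (evH hz).self_of_nhds (evL v hz).self_of_nhds (posH hz) (saH v hz)

/-- the variation of `bD` -/
theorem bD_deriv (v : LF E) {i : A.ι} {x : M} (hx : x ∈ (A.e i).source) (r : ℝ) (c d : Fin 2) :
    HasDerivAt (fun r => bD (gL v r) i x c d)
      (mD (gL v r) i x c d - hsf A (wL v) i x c d / 2) r := by
  have hz := (A.e i).map_source hx
  have h := bf_deriv (evH (E := E) hz) (evL v hz) (detH hz) r c d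
  rw [hess_wL v hx c d] at h
  exact h

theorem mD_tn (v : LF E) (r : ℝ) (U : Set M) : TnO A U (mD (gL v r)) := by
  intro i j x hx hxU
  have h1 : ∀ c d, HasDerivAt (fun r => bD (gL v r) i x c d) (∑ a, ∑ b,
      (Jm A i j x a c * conj (Jm A i j x b d)) *
        (mD (gL v r) j x a b - hsf A (wL v) j x a b / 2)) r := by
    intro c d
    have e : (fun r => bD (gL v r) i x c d) = fun r => ∑ a, ∑ b,
        (Jm A i j x a c * conj (Jm A i j x b d)) * bD (gL v r) j x a b := by
      funext r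
      rw [bD_tn (gL v r) U i j x hx hxU]
      simp only [Matrix.mul_apply, Matrix.transpose_apply, Matrix.map_apply, Finset.sum_mul]
      rw [Finset.sum_comm]
      refine Finset.sum_congr rfl fun i _ => Finset.sum_congr rfl fun j _ => ?_
      ring
    rw [e]
    exact HasDerivAt.fun_sum fun a _ => HasDerivAt.fun_sum fun b _ =>
      (bD_deriv v hx.2 r a b).const_mul _
  have h2 := hsf_tr (wL_sm v) hx
  ext c d
  have h3 := (bD_deriv v hx.1 r c d).unique (h1 c d)
  have h4 : ∀ S : Matrix (Fin 2) (Fin 2) ℂ, ((Jm A i j x)ᵀ * S * (Jm A i j x).map conj) c d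
      = ∑ a, ∑ b, (Jm A i j x a c * conj (Jm A i j x b d)) * S a b := by
    intro S
    simp only [Matrix.mul_apply, Matrix.transpose_apply, Matrix.map_apply, Finset.sum_mul]
    rw [Finset.sum_comm]
    refine Finset.sum_congr rfl fun i _ => Finset.sum_congr rfl fun j _ => ?_
    ring
  have h5 := congrFun (congrFun h2 c) d
  rw [h4] at h5
  rw [h4]
  rw [h5] at h3
  have h6 : ∑ a, ∑ b, (Jm A i j x a c * conj (Jm A i j x b d)) *
        (mD (gL v r) j x a b - hsf A (wL v) j x a b / 2)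
      = (∑ a, ∑ b, (Jm A i j x a c * conj (Jm A i j x b d)) * mD (gL v r) j x a b)
        - (∑ a, ∑ b, (Jm A i j x a c * conj (Jm A i j x b d)) * hsf A (wL v) j x a b) / 2 := by
    simp only [Fin.sum_univ_two]
    ring
  rw [h6] at h3
  linear_combination h3

end

end Crest.Agent.R257.BCU8_532
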