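import Crest.Agent.R257.BCU8_532

/-!
# R257 (S0395), part (GB), leaf GB-UPP (helper532): **the signed Bott-Chern inequality**

`upper` : for `χ` with compact support and `∂∂̄χ ≥ 0` where `v ≠ 0`,
`∫ χ tr F_1² - ∫ χ tr F_0² ≤ - ∫ ∂∂̄χ ∧ tr (v F_0)`,
`F_0`, `F_1` the curvatures of `H`, `H e^v`.
-/

set_option autoImplicit false
set_option linter.unusedSectionVars false

open Set Filter Topology Complex MeasureTheory
open scoped ContDiff Matrix ComplexConjugate ComplexOrder

namespace Crest.Agent.R257.BCU9_532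

open Crest.Agent.R275.Geo Crest.Agent.R275.TorS666
open Crest.Agent.R275.Tor812 hiding pd
open Crest.Agent.R275.C1d194 Crest.Agent.R275.Pai323 Crest.Agent.R275.OmT75
open Crest.Agent.R275.SerG398 (lint dens)
open Crest.Agent.R275.EDR890
open Crest.Agent.R273.StokesV_332
open Crest.Agent.R273.Fock_243
open Crest.Agent.R273.Calc_243 hiding dj
open Crest.Agent.R273.Bkn_243 Crest.Agent.R273.Pos_243 Crest.Agent.R273.BochA_101
open Crest.Agent.R273.BochB_101 Crest.Agent.R273.BochC_101 Crest.Agent.R273.BochD_101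
open Crest.Agent.R275.Core144 Crest.Agent.R273.Defs_333 Crest.Agent.R273.HM_333
open Crest.Agent.R273.Hess_333 Crest.Agent.R273.HessB_333 Crest.Agent.R273.Kah_333
open Crest.Agent.R273.GreenM_5
open Crest.Agent.R257.C2F1_625 Crest.Agent.R257.C2F2_625
open Crest.Agent.R257.C2F5_335 Crest.Agent.R257.GBL1_625 Crest.Agent.R257.GBL2_625
open Crest.Agent.R257.C2F6_335 hiding ddD
open Crest.Agent.R257.GBLcut_844
open Crest.Agent.R257.BCU1_532 Crest.Agent.R257.BCU2_532 Crest.Agent.R257.BCU3_532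
open Crest.Agent.R257.BCU4_532 Crest.Agent.R257.BCU5_532 Crest.Agent.R257.BCU6_532
open Crest.Agent.R257.BCU7_532 Crest.Agent.R257.BCU8_532

noncomputable section

/-! ### joint smoothness -/

section joint

variable {H L : Cn 2 → Matrix (Fin 2) (Fin 2) ℂ} {z : Cn 2}

theorem ddm_smJ {r : ℝ} {b : ℝ → Cn 2 → Matrix (Fin 2) (Fin 2) ℂ} (hb : SmMJ r z b) :
    SmJ r z (fun r => ddm (b r)) :=
  ((((hb 1 1).dw I 0).dw (-I) 0).add (((hb 0 0).dw I 1).dw (-I) 1)).sub
    (((hb 1 0).dw I 1).dw (-I) 0) |>.sub (((hb 0 1).dw I 0).dw (-I) 1)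

theorem Th_smJ (hH : SmM z H) (hL : SmM z L) (h0 : (H z).det ≠ 0) (r : ℝ) (c d : Fin 2) :
    SmMJ r z (fun r => Th (geo H L r) c d) := by
  have hg := geo_smJ hH hL r
  have hi := geo_invJ hH hL h0 r
  have h1 : SmMJ r z (fun r y => rm (geo H L r) y c d) :=
    (((hg.dw I d).dw (-I) c).neg).add (((hg.dw I d).mul hi).mul (hg.dw (-I) c))
  exact hi.mul h1

theorem bf_smJ (hH : SmM z H) (hL : SmM z L) (h0 : (H z).det ≠ 0) (r : ℝ) :
    SmMJ r z (fun r => bf (geo H L r) L) := fun c d =>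
  ((SmMJ.ofSm hL).mul (Th_smJ hH hL h0 r c d)).trace

theorem mm_smJ (hH : SmM z H) (hL : SmM z L) (h0 : (H z).det ≠ 0) (r : ℝ) :
    SmMJ r z (fun r => mm (geo H L r) L) := by
  intro c d
  have hA := At_smJ hH hL h0 r c
  have hLJ : SmMJ r z (fun _ => L) := SmMJ.ofSm hL
  have hD : SmMJ r z (fun r => Dv (At (geo H L r)) L c) :=
    (SmMJ.ofSm (hL.dM (-I) c)).add ((hA.mul hLJ).sub (hLJ.mul hA))
  exact (hD.mul (SmMJ.ofSm (hL.dM I d))).trace

end joint

variable {M : Type} [TopologicalSpace M] {A : Atl 2 M}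

theorem fam_ok {i : A.ι} {f : ℝ → M → ℂ} {F : ℝ → Cn 2 → ℂ}
    (hF : ∀ r, ∀ z ∈ (A.e i).target, SmJ r z F)
    (he : ∀ r, ∀ z ∈ (A.e i).target, f r ((A.e i).symm z) = F r z) :
    (∀ r, A.SmAt i (f r)) ∧ ∀ r, ∀ z ∈ (A.e i).target,
      ContinuousAt (fun q : ℝ × Cn 2 => f q.1 ((A.e i).symm q.2)) (r, z) := by
  constructor
  · intro r z hz
    refine (((hF r z hz).slice).congr_of_eventuallyEq ?_).contDiffWithinAt
    filter_upwards [(A.e i).open_target.mem_nhds hz] with y hy
    exact he r y hy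
  · intro r z hz
    refine (hF r z hz).cont.congr ?_
    have h1 : ∀ᶠ q : ℝ × Cn 2 in 𝓝 (r, z), q.2 ∈ (A.e i).target :=
      continuousAt_snd.eventually ((A.e i).open_target.mem_nhds hz)
    filter_upwards [h1] with q hq
    exact (he q.1 q.2 hq).symm

variable {E : HB A (Fin 2)}

theorem bD_rd (v : LF E) (r : ℝ) {i : A.ι} {z : Cn 2} (hz : z ∈ (A.e i).target) :
    bD (gL v r) i ((A.e i).symm z) = bf (geo (rdM A i (E.H i)) (rdM A i (v.L i)) r)
      (rdM A i (v.L i)) z := by
  unfold bD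
  rw [(A.e i).right_inv hz]
  rfl

theorem mD_rd (v : LF E) (r : ℝ) {i : A.ι} {z : Cn 2} (hz : z ∈ (A.e i).target) :
    mD (gL v r) i ((A.e i).symm z) = mm (geo (rdM A i (E.H i)) (rdM A i (v.L i)) r)
      (rdM A i (v.L i)) z := by
  unfold mD
  rw [(A.e i).right_inv hz]
  rfl

theorem ddD_rd (v : LF E) (r : ℝ) {i : A.ι} {z : Cn 2} (hz : z ∈ (A.e i).target) :
    GBL1_625.ddD A (bD (gL v r)) i ((A.e i).symm z) =
      ddm (bf (geo (rdM A i (E.H i)) (rdM A i (v.L i)) r) (rdM A i (v.L i))) z := by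
  unfold GBL1_625.ddD
  rw [(A.e i).right_inv hz]
  refine ddm_congr ?_
  filter_upwards [(A.e i).open_target.mem_nhds hz] with y hy
  exact bD_rd v r hy

/-- `∂∂̄ ∂∂̄ w = 0` -/
theorem ddD_hsf {w : M → ℝ} (hw : A.Sm w) {i : A.ι} {x : M} (hx : x ∈ (A.e i).source) :
    GBL1_625.ddD A (hsf A w) i x = 0 := by
  have hz := (A.e i).map_source hx
  have h1 : ∀ᶠ y in 𝓝 (A.e i x), ContDiffAt ℝ ∞ (fun y => w ((A.e i).symm y)) y := by
    filter_upwards [(A.e i).open_target.mem_nhds hz] with y hy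
    exact sm_contDiffAt hw i hy
  have h2 : GBL1_625.rdS A (hsf A w) i =ᶠ[𝓝 (A.e i x)] fun y =>
      (((fun _ => (1 : ℝ)) y : ℝ) : ℂ) • hess (fun y => w ((A.e i).symm y)) y := by
    filter_upwards [(A.e i).open_target.mem_nhds hz] with y hy
    rw [Complex.ofReal_one, one_smul]
    exact hsf_read w i hy
  show ddm (GBL1_625.rdS A (hsf A w) i) (A.e i x) = 0
  have h3 : ∀ᶠ y in 𝓝 (A.e i x), Cl (hess (fun y => w ((A.e i).symm y))) y :=
    h1.eventually_nhds.mono fun y hy => hess_cl hy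
  rw [ddm_congr h2, ddm_smul_cl (u := fun _ => (1 : ℝ)) contDiffAt_const
    (fun a b => sm_hess h1.self_of_nhds a b) h3]
  have h4 : hess (fun _ : Cn 2 => (1 : ℝ)) (A.e i x) = 0 := by
    ext a b
    rw [hess_eq]
    have h5 : dS I b (cu fun _ : Cn 2 => (1 : ℝ)) = fun _ => (0 : ℂ) := funext fun _ => dS_const
    rw [h5, dS_const]
    rfl
  rw [h4]
  simp [pd]

theorem hsf_sm {w : M → ℝ} (hw : A.Sm w) (U : Set M) : SmS A U (hsf A w) := by
  intro i a b x hx _
  have hz := (A.e i).map_source hx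
  refine (sm_hess (sm_contDiffAt hw i hz) a b).congr_of_eventuallyEq ?_
  filter_upwards [(A.e i).open_target.mem_nhds hz] with y hy
  rw [hsf_read w i hy]

theorem hsf_tnO {w : M → ℝ} (hw : A.Sm w) (U : Set M) : TnO A U (hsf A w) :=
  fun _ _ _ hx _ => hsf_tr hw hx

section main

variable [T2Space M] (P : Part A) (v : LF E) {χ : M → ℝ} (hχ : A.Sm χ) {K : Set M}
  (hK : IsCompact K) (h0 : ∀ x, x ∉ K → χ x = 0)

/-- `Φ(r) = ∫ χ tr F_r²` -/
def Ph (P : Part A) (v : LF E) (χ : M → ℝ) (r : ℝ) : ℂ :=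
  intD P (fun i x => (χ x : ℂ) * q2D (gE v r) i x)

/-- `ψ(r) = ∫ ∂∂̄χ ∧ tr (v F_r)` -/
def Ps (P : Part A) (v : LF E) (χ : M → ℝ) (r : ℝ) : ℂ :=
  intD P (fun i x => pd (hsf A χ i x) (bD (gL v r) i x))

include hχ hK h0

theorem stokes_b (r : ℝ) : intD P (fun i x => (χ x : ℂ) * GBL1_625.ddD A (bD (gL v r)) i x)
    = Ps P v χ r :=
  tensor_stokes P isOpen_univ hχ hK (subset_univ K) h0 (bD_sm (gL v r) univ) (bD_tn (gL v r) univ)

theorem Ph_deriv (r : ℝ) : HasDerivAt (Ph P v χ) (- Ps P v χ r) r := by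
  have off : ∀ f : A.ι → M → ℂ, OffK A (fun i x => (χ x : ℂ) * f i x) K := fun f i x _ hx => by
    show (χ x : ℂ) * _ = 0
    rw [h0 x hx]; simp
  have key := intD_deriv P hK (f := fun r i x => (χ x : ℂ) * q2D (gE v r) i x)
    (f' := fun r i x => (χ x : ℂ) * (- GBL1_625.ddD A (bD (gL v r)) i x))
    (fun r i => (smAt_ofReal (hχ i)).mul (q2_sm (gE v r) i)) ?_ ?_ ?_ (fun r => off _)
    (fun r => off _) r
  · have e : intD P (fun i x => (χ x : ℂ) * (- GBL1_625.ddD A (bD (gL v r)) i x))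
        = - Ps P v χ r := by
      rw [← stokes_b P v hχ hK h0 r, ← intD_neg P hK (off _)]
      exact intD_congr P fun i x _ => by ring
    rw [e] at key
    exact key
  all_goals
    have hfam : ∀ i, (∀ r, A.SmAt i (fun x => (χ x : ℂ) *
        (- GBL1_625.ddD A (bD (gL v r)) i x))) ∧ ∀ r, ∀ z ∈ (A.e i).target,
        ContinuousAt (fun q : ℝ × Cn 2 => (χ ((A.e i).symm q.2) : ℂ) *
          (- GBL1_625.ddD A (bD (gL v q.1)) i ((A.e i).symm q.2))) (r, z) := by
      intro i
      refine fam_ok (f := fun r x => (χ x : ℂ) * (- GBL1_625.ddD A (bD (gL v r)) i x))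
        (F := fun r z => (χ ((A.e i).symm z) : ℂ) *
          (- ddm (bf (geo (rdM A i (E.H i)) (rdM A i (v.L i)) r) (rdM A i (v.L i))) z))
        (fun r z hz => ?_) (fun r z hz => ?_)
      · have s1 : Sm z (fun z => (χ ((A.e i).symm z) : ℂ)) :=
          smJ_at (smAt_ofReal (hχ i)) hz
        exact (SmJ.ofSm s1).mul (ddm_smJ (bf_smJ (evH (E := E) hz).self_of_nhds
          (evL v hz).self_of_nhds (detH hz) r)).neg
      · rw [ddD_rd v r hz]
  · exact fun r i => (hfam i).1 r
  · exact fun i r z hz => (hfam i).2 r z hz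
  · intro i x hx r
    have hz := (A.e i).map_source hx
    have h1 := q2_deriv (evH (E := E) hz) (evL v hz) (detH hz) r
    have h2 := ddD_rd v r hz
    rw [(A.e i).left_inv hx] at h2
    rw [← h2] at h1
    exact h1.const_mul _

theorem Ps_deriv (r : ℝ) : HasDerivAt (Ps P v χ)
    (intD P (fun i x => pd (hsf A χ i x) (mD (gL v r) i x))) r := by
  have hw := wL_sm v
  set N : ℝ → A.ι → M → Matrix (Fin 2) (Fin 2) ℂ := fun r i x =>
    mD (gL v r) i x - (1 / 2 : ℂ) • hsf A (wL v) i x with hN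
  have off : ∀ T : A.ι → M → Matrix (Fin 2) (Fin 2) ℂ,
      OffK A (fun i x => pd (hsf A χ i x) (T i x)) K := fun T =>
    GBL4_625.off_hsf hK.isClosed h0 T
  have d1 : Den A (fun i x => pd (hsf A χ i x) (hsf A (wL v) i x)) :=
    GBL4_625.den_hsf hχ hK.isClosed (subset_univ K) h0 (hsf_sm hw univ) (hsf_tnO hw univ)
  have d2 : Den A (fun i x => pd (hsf A χ i x) (mD (gL v r) i x)) :=
    GBL4_625.den_hsf hχ hK.isClosed (subset_univ K) h0 (mD_sm (gL v r) univ) (mD_tn v r univ)
  have key := intD_deriv P hK (f := fun r i x => pd (hsf A χ i x) (bD (gL v r) i x))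
    (f' := fun r i x => pd (hsf A χ i x) (N r i x))
    (fun r i => (GBL4_625.den_hsf hχ hK.isClosed (subset_univ K) h0 (bD_sm (gL v r) univ)
      (bD_tn (gL v r) univ)).sm i) ?_ ?_ ?_ (fun r => off _) (fun r => off _) r
  · have z0 : intD P (fun i x => pd (hsf A χ i x) (hsf A (wL v) i x)) = 0 := by
      rw [← tensor_stokes P isOpen_univ hχ hK (subset_univ K) h0 (hsf_sm hw univ)
        (hsf_tnO hw univ), ← intD_zero P]
      exact intD_congr P fun i x hx => by rw [ddD_hsf hw hx, mul_zero]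
    have e : intD P (fun i x => pd (hsf A χ i x) (N r i x))
        = intD P (fun i x => pd (hsf A χ i x) (mD (gL v r) i x)) := by
      have e1 : intD P (fun i x => pd (hsf A χ i x) (N r i x))
          = intD P (fun i x => pd (hsf A χ i x) (mD (gL v r) i x)
            + (-(1 / 2) : ℂ) * pd (hsf A χ i x) (hsf A (wL v) i x)) :=
        intD_congr P fun i x _ => by
          simp only [hN]
          rw [pd_sub, pd_smul]
          ring
      rw [e1, intD_add P (fun i => d2.sm i) (fun i => (d1.smul _).sm i) hK (off _)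
        ((off _).mul_left fun _ _ => _), intD_smul P _ hK (off _), z0, mul_zero, add_zero]
    rw [e] at key
    exact key
  all_goals
    have hfam : ∀ i, (∀ r, A.SmAt i (fun x => pd (hsf A χ i x) (N r i x))) ∧
        ∀ r, ∀ z ∈ (A.e i).target, ContinuousAt (fun q : ℝ × Cn 2 =>
          pd (hsf A χ i ((A.e i).symm q.2)) (N q.1 i ((A.e i).symm q.2))) (r, z) := by
      intro i
      refine fam_ok (f := fun r x => pd (hsf A χ i x) (N r i x))
        (F := fun r z => pd (hess (fun y => χ ((A.e i).symm y)) z)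
          (mm (geo (rdM A i (E.H i)) (rdM A i (v.L i)) r) (rdM A i (v.L i)) z
            - (1 / 2 : ℂ) • hess (fun y => wL v ((A.e i).symm y)) z))
        (fun r z hz => ?_) (fun r z hz => ?_)
      · have s1 : SmMJ r z (fun _ => hess (fun y => χ ((A.e i).symm y))) :=
          SmMJ.ofSm fun a b => sm_hess (sm_contDiffAt hχ i hz) a b
        have s2 : SmMJ r z (fun _ => hess (fun y => wL v ((A.e i).symm y))) :=
          SmMJ.ofSm fun a b => sm_hess (sm_contDiffAt hw i hz) a b
        have s3 : SmMJ r z (fun r z =>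
            mm (geo (rdM A i (E.H i)) (rdM A i (v.L i)) r) (rdM A i (v.L i)) z
            - (1 / 2 : ℂ) • hess (fun y => wL v ((A.e i).symm y)) z) :=
          (mm_smJ (evH (E := E) hz).self_of_nhds (evL v hz).self_of_nhds (detH hz) r).sub
            (SmMJ.smul (SmJ.const (1 / 2 : ℂ)) s2)
        exact ((((s1 0 0).mul (s3 1 1)).add ((s1 1 1).mul (s3 0 0))).sub
          ((s1 0 1).mul (s3 1 0))).sub ((s1 1 0).mul (s3 0 1))
      · simp only [hN]
        rw [mD_rd v r hz, hsf_read χ i hz, hsf_read (wL v) i hz]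
  · exact fun r i => (hfam i).1 r
  · exact fun i r z hz => (hfam i).2 r z hz
  · intro i x hx r
    have h1 : ∀ c d, HasDerivAt (fun r => bD (gL v r) i x c d) (N r i x c d) r := by
      intro c d
      have h2 := bD_deriv v hx r c d
      have h3 : N r i x c d = mD (gL v r) i x c d - hsf A (wL v) i x c d / 2 := by
        simp only [hN, Matrix.sub_apply, Matrix.smul_apply, smul_eq_mul]
        ring
      rw [h3]
      exact h2
    exact ((((h1 1 1).const_mul _).add ((h1 0 0).const_mul _)).sub ((h1 1 0).const_mul _)).sub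
      ((h1 0 1).const_mul _)

/-- **signed Bott-Chern inequality** -/
theorem upper {W : Set M} (hW : IsClosed W)
    (hL : ∀ i, ∀ x ∈ (A.e i).source, x ∉ W → v.L i x = 0)
    (hp : ∀ i, ∀ x ∈ (A.e i).source, x ∈ W → (hsf A χ i x).PosSemidef) :
    (intD P (fun i x => (χ x : ℂ) * q2D (gE v 1) i x)).re
      - (intD P (fun i x => (χ x : ℂ) * q2D E i x)).re
      ≤ - (intD P (fun i x => pd (hsf A χ i x) (bD v i x))).re := by
  have hre : ∀ {f : ℝ → ℂ} {f' : ℂ} {r : ℝ}, HasDerivAt f f' r →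
      HasDerivAt (fun r => (f r).re) f'.re r := fun h =>
    (Complex.reCLM.hasFDerivAt.comp_hasDerivAt _ h :)
  have hPh : ∀ r, HasDerivAt (fun r => (Ph P v χ r).re) (- (Ps P v χ r).re) r := fun r => by
    have := hre (Ph_deriv P v hχ hK h0 r)
    rwa [Complex.neg_re] at this
  -- positivity
  have hnn : ∀ r, 0 ≤ (intD P (fun i x => pd (hsf A χ i x) (mD (gL v r) i x))).re := by
    intro r
    have d2 : Den A (fun i x => pd (hsf A χ i x) (mD (gL v r) i x)) :=
      GBL4_625.den_hsf hχ hK.isClosed (subset_univ K) h0 (mD_sm (gL v r) univ) (mD_tn v r univ)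
    refine (intD_nonneg P d2 (fun i x hx => ?_) hK (GBL4_625.off_hsf hK.isClosed h0 _)).1
    by_cases hxW : x ∈ W
    · have p1 := hp i x hx hxW
      have p2 := mD_psd (gL v r) hx
      exact ⟨pd_nonneg p1 p2, pd_herm_im p1.1 p2.1⟩
    · have hz := (A.e i).map_source hx
      have h1 : rdM A i (v.L i) =ᶠ[𝓝 (A.e i x)] fun _ => 0 := by
        have h2 : ∀ᶠ y in 𝓝 (A.e i x), (A.e i).symm y ∉ W := by
          have hc : ContinuousAt (A.e i).symm (A.e i x) :=
            (A.e i).symm.continuousAt (by simpa using hz)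
          have h3 : Wᶜ ∈ 𝓝 ((A.e i).symm (A.e i x)) := by
            rw [(A.e i).left_inv hx]
            exact hW.isOpen_compl.mem_nhds hxW
          exact hc h3
        filter_upwards [h2, (A.e i).open_target.mem_nhds hz] with y hy hy'
        exact hL i _ ((A.e i).map_target hy') hy
      have h3 : mD (gL v r) i x = 0 := by
        ext c d
        show (Dv (At (rdM A i ((gE v r).H i))) (rdM A i (v.L i)) c (A.e i x) *
          dM I d (rdM A i (v.L i)) (A.e i x)).trace = 0
        rw [dM_congr h1, dM_const, Matrix.mul_zero, Matrix.trace_zero]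
      rw [h3]
      simp [pd]
  have hmono : Monotone (fun r => (Ps P v χ r).re) :=
    monotone_of_deriv_nonneg (fun r => (hre (Ps_deriv P v hχ hK h0 r)).differentiableAt)
      fun r => by
        rw [(hre (Ps_deriv P v hχ hK h0 r)).deriv]
        exact hnn r
  obtain ⟨c, hc, hc'⟩ := exists_hasDerivAt_eq_slope (fun r => (Ph P v χ r).re)
    (fun r => - (Ps P v χ r).re) (zero_lt_one (α := ℝ))
    (fun r _ => (hPh r).continuousAt.continuousWithinAt) fun r _ => hPh r
  have h1 : (Ps P v χ 0).re ≤ (Ps P v χ c).re := hmono hc.1.le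
  have e0 : Ph P v χ 0 = intD P (fun i x => (χ x : ℂ) * q2D E i x) := by
    unfold Ph
    refine intD_congr P fun i x _ => ?_
    have : (gE v 0).H = E.H := funext fun i => funext fun x => gE_zero v i x
    unfold q2D
    rw [this]
  have e1 : Ps P v χ 0 = intD P (fun i x => pd (hsf A χ i x) (bD v i x)) := by
    unfold Ps
    refine intD_congr P fun i x _ => ?_
    have : (gE v 0).H = E.H := funext fun i => funext fun x => gE_zero v i x
    unfold bD
    rw [this]
    rfl
  rw [sub_zero, div_one] at hc'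
  rw [← e0, ← e1]
  have hc2 : (Ph P v χ 1).re - (Ph P v χ 0).re = - (Ps P v χ c).re := hc'.symm
  show (Ph P v χ 1).re - _ ≤ _
  linarith

end main

end

end Crest.Agent.R257.BCU9_532
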