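import Crest.Agent.R257.BCUP_532
import Crest.Agent.R273.FIlin_332

/-!
# R257 (S0395), part (GB), leaf GB-UPP (helper532): logarithm of `G⁻¹ K`

* `lg`       : explicit formula
* `lg_diag`, `lg_conj`
* `lgStmt`   : `LgStmt` of BCUP_532, except for smoothness (BCUB_532)
-/

set_option autoImplicit false
set_option linter.unusedSectionVars false

open Finset Matrix Complex Filter Topology
open scoped ContDiff ComplexConjugate ComplexOrder

namespace Crest.Agent.R257.BCUA_532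

open Crest.Agent.R275.Geo Crest.Agent.R275.EDR890
open Crest.Agent.R273.Fock_243 Crest.Agent.R273.Calc_243
open Crest.Agent.R273.Bkn_243 Crest.Agent.R273.Pos_243 Crest.Agent.R273.BochA_101
open Crest.Agent.R273.BochB_101
open Crest.Agent.R273.BochC_101 Crest.Agent.R273.BochD_101
open Crest.Agent.R273.Hess_333 Crest.Agent.R273.HessB_333
open Crest.Agent.R257.C2F1_625 Crest.Agent.R257.BCU1_532 Crest.Agent.R257.BCU2_532
open Crest.Agent.R273.FIlin_332 (simd)

noncomputable section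

/-- `arcosh c / √(c² - 1)` -/
def ta (c : ℝ) : ℝ :=
  if 1 < c then Real.log (c + Real.sqrt (c ^ 2 - 1)) / Real.sqrt (c ^ 2 - 1) else 1

theorem ta_cosh (t : ℝ) : ta (Real.cosh t) * (Real.exp t - Real.cosh t) = t := by
  have h1 : Real.exp t - Real.cosh t = Real.sinh t := by
    rw [← Real.cosh_add_sinh]; ring
  rw [h1]
  by_cases h0 : t = 0
  · rw [h0]; simp
  have h2 : 1 < Real.cosh t := Real.one_lt_cosh.2 h0
  have h3 : Real.sqrt (Real.cosh t ^ 2 - 1) = |Real.sinh t| := by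
    rw [Real.cosh_sq t, add_sub_cancel_right, Real.sqrt_sq_eq_abs]
  have h5 : Real.sinh t ≠ 0 := fun h => h0 (Real.sinh_eq_zero.1 h)
  rw [ta, if_pos h2, h3]
  rcases lt_or_gt_of_ne h0 with h | h
  · have h4 : Real.sinh t < 0 := Real.sinh_neg_iff.2 h
    rw [abs_of_neg h4]
    have h6 : Real.cosh t + -Real.sinh t = Real.exp (-t) := by
      rw [← Real.cosh_add_sinh, Real.cosh_neg, Real.sinh_neg]
    rw [h6, Real.log_exp]
    field_simp
  · have h4 : 0 < Real.sinh t := Real.sinh_pos_iff.2 h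
    rw [abs_of_pos h4, Real.cosh_add_sinh, Real.log_exp]
    field_simp

theorem ta_le (c : ℝ) : |ta c| ≤ 1 := by
  unfold ta
  split_ifs with h
  · set s := Real.sqrt (c ^ 2 - 1) with hs
    have h0 : 0 < c ^ 2 - 1 := by nlinarith
    have hs0 : 0 < s := Real.sqrt_pos.2 h0
    have hs2 : s ^ 2 = c ^ 2 - 1 := Real.sq_sqrt h0.le
    have hcs : 0 < c + s := by linarith
    set t := Real.log (c + s) with ht
    have ht0 : 0 ≤ t := Real.log_nonneg (by linarith)
    have e1 : Real.exp t = c + s := Real.exp_log hcs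
    have e2 : Real.exp (-t) = c - s := by
      rw [Real.exp_neg, e1]
      refine inv_eq_of_mul_eq_one_right ?_
      nlinarith
    have e3 : Real.sinh t = s := by
      rw [Real.sinh_eq, e1, e2]; ring
    have e4 : t ≤ s := by rw [← e3]; exact Real.self_le_sinh_iff.2 ht0
    rw [abs_of_nonneg (div_nonneg ht0 hs0.le)]
    exact (div_le_one hs0).2 e4
  · simp

/-! ### the logarithm -/

/-- real part of the determinant -/
def dr (X : Matrix (Fin 2) (Fin 2) ℂ) : ℝ := X.det.re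

/-- half of the normalized trace -/
def cr (X : Matrix (Fin 2) (Fin 2) ℂ) : ℝ := X.trace.re / (2 * Real.sqrt (dr X))

/-- the logarithm -/
def lg (X : Matrix (Fin 2) (Fin 2) ℂ) : Matrix (Fin 2) (Fin 2) ℂ :=
  ((Real.log (dr X) / 2 : ℝ) : ℂ) • (1 : Matrix (Fin 2) (Fin 2) ℂ) +
    ((ta (cr X) : ℝ) : ℂ) • ((((Real.sqrt (dr X))⁻¹ : ℝ) : ℂ) • X -
      ((cr X : ℝ) : ℂ) • (1 : Matrix (Fin 2) (Fin 2) ℂ))

theorem lg_conj {F X Y : Matrix (Fin 2) (Fin 2) ℂ} (hF : F.det ≠ 0) (h : F * X = Y * F) :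
    F * lg X = lg Y * F := by
  have hd : X.det = Y.det := by
    have h1 := congrArg Matrix.det h
    rw [Matrix.det_mul, Matrix.det_mul, mul_comm Y.det] at h1
    exact mul_left_cancel₀ hF h1
  have i1 : F⁻¹ * F = 1 := Matrix.nonsing_inv_mul _ (isUnit_iff_ne_zero.2 hF)
  have i2 : F * F⁻¹ = 1 := Matrix.mul_nonsing_inv _ (isUnit_iff_ne_zero.2 hF)
  have ht : X.trace = Y.trace := by
    have h1 : Y = F * X * F⁻¹ := by rw [h, Matrix.mul_assoc, i2, Matrix.mul_one]
    rw [h1, Matrix.mul_assoc, Matrix.trace_mul_comm, Matrix.mul_assoc, i1, Matrix.mul_one]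
  have e1 : dr X = dr Y := by rw [dr, dr, hd]
  have e2 : cr X = cr Y := by rw [cr, cr, e1, ht]
  unfold lg
  rw [e1, e2, Matrix.mul_add, Matrix.add_mul, Matrix.mul_smul, Matrix.smul_mul, Matrix.mul_one,
    Matrix.one_mul, Matrix.mul_smul, Matrix.smul_mul, Matrix.mul_sub, Matrix.sub_mul,
    Matrix.mul_smul, Matrix.smul_mul, Matrix.mul_smul, Matrix.smul_mul, Matrix.mul_one,
    Matrix.one_mul, h]

/-- real diagonal matrices -/
def dg (d : Fin 2 → ℝ) : Matrix (Fin 2) (Fin 2) ℂ := Matrix.diagonal fun i => (d i : ℂ)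

theorem dr_dg (d : Fin 2 → ℝ) : dr (dg d) = d 0 * d 1 := by
  rw [dr, dg, Matrix.det_diagonal, Fin.prod_univ_two, ← Complex.ofReal_mul, Complex.ofReal_re]

theorem cr_dg {d : Fin 2 → ℝ} (h : ∀ i, 0 < d i) :
    cr (dg d) = Real.cosh ((Real.log (d 0) - Real.log (d 1)) / 2) := by
  have h0 := h 0
  have h1 := h 1
  have e1 : Real.sqrt (d 0 * d 1) = Real.exp ((Real.log (d 0) + Real.log (d 1)) / 2) := by
    rw [Real.sqrt_eq_iff_mul_self_eq (by positivity) (Real.exp_pos _).le, ← Real.exp_add,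
      add_halves, Real.exp_add, Real.exp_log h0, Real.exp_log h1]
  have e2 : (dg d).trace.re = d 0 + d 1 := by
    rw [dg, Matrix.trace_diagonal, Fin.sum_univ_two, ← Complex.ofReal_add, Complex.ofReal_re]
  have e3 : d 0 = Real.exp ((Real.log (d 0) + Real.log (d 1)) / 2) *
      Real.exp ((Real.log (d 0) - Real.log (d 1)) / 2) := by
    rw [← Real.exp_add]
    have : (Real.log (d 0) + Real.log (d 1)) / 2 + (Real.log (d 0) - Real.log (d 1)) / 2
      = Real.log (d 0) := by ring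
    rw [this, Real.exp_log h0]
  have e4 : d 1 = Real.exp ((Real.log (d 0) + Real.log (d 1)) / 2) *
      Real.exp (-((Real.log (d 0) - Real.log (d 1)) / 2)) := by
    rw [← Real.exp_add]
    have : (Real.log (d 0) + Real.log (d 1)) / 2 + -((Real.log (d 0) - Real.log (d 1)) / 2)
      = Real.log (d 1) := by ring
    rw [this, Real.exp_log h1]
  rw [cr, dr_dg, e1, e2, Real.cosh_eq, div_eq_div_iff (by positivity) two_ne_zero]
  nlinarith [e3, e4]

theorem lg_dg {d : Fin 2 → ℝ} (h : ∀ i, 0 < d i) : lg (dg d) = dg fun i => Real.log (d i) := by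
  have h0 := h 0
  have h1 := h 1
  set t := (Real.log (d 0) - Real.log (d 1)) / 2 with ht
  have e1 : Real.sqrt (d 0 * d 1) = Real.exp ((Real.log (d 0) + Real.log (d 1)) / 2) := by
    rw [Real.sqrt_eq_iff_mul_self_eq (by positivity) (Real.exp_pos _).le, ← Real.exp_add,
      add_halves, Real.exp_add, Real.exp_log h0, Real.exp_log h1]
  have e3 : (Real.sqrt (d 0 * d 1))⁻¹ * d 0 = Real.exp t := by
    rw [e1, ← Real.exp_neg]
    conv_lhs => rw [← Real.exp_log h0]
    rw [← Real.exp_add]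
    congr 1
    rw [ht]; ring_nf
    rw [Real.log_exp]; ring
  have e4 : (Real.sqrt (d 0 * d 1))⁻¹ * d 1 = Real.exp (-t) := by
    rw [e1, ← Real.exp_neg]
    conv_lhs => rw [← Real.exp_log h1]
    rw [← Real.exp_add]
    congr 1
    rw [ht]; ring_nf
    rw [Real.log_exp]; ring
  have a1 := ta_cosh t
  have a2 := ta_cosh (-t)
  rw [Real.cosh_neg] at a2
  have l1 : Real.log (d 0 * d 1) = Real.log (d 0) + Real.log (d 1) :=
    Real.log_mul h0.ne' h1.ne'
  unfold lg
  rw [cr_dg h, dr_dg, ← ht]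
  ext i j
  simp only [Matrix.add_apply, Matrix.smul_apply, Matrix.sub_apply, smul_eq_mul]
  by_cases hij : i = j
  · subst hij
    fin_cases i
    · simp only [dg, Fin.zero_eta, Fin.isValue, Matrix.one_apply_eq, Matrix.diagonal_apply_eq,
        mul_one]
      rw [← Complex.ofReal_mul, ← Complex.ofReal_sub, ← Complex.ofReal_mul, ← Complex.ofReal_add,
        e3, a1, l1, ht]
      congr 1
      ring
    · simp only [dg, Fin.mk_one, Fin.isValue, Matrix.one_apply_eq, Matrix.diagonal_apply_eq,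
        mul_one]
      rw [← Complex.ofReal_mul, ← Complex.ofReal_sub, ← Complex.ofReal_mul, ← Complex.ofReal_add,
        e4, a2, l1, ht]
      congr 1
      ring
  · simp [dg, Matrix.one_apply_ne hij, Matrix.diagonal_apply_ne _ hij]

theorem lg_one : lg 1 = 0 := by
  have e : (1 : Matrix (Fin 2) (Fin 2) ℂ) = dg fun _ => 1 := by
    rw [dg, ← Matrix.diagonal_one]; simp
  rw [e, lg_dg fun _ => one_pos]
  simp [dg]

/-- multiples -/
theorem lg_smul {X : Matrix (Fin 2) (Fin 2) ℂ} {l : ℝ} (hl : 0 < l) (hX : 0 < dr X) :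
    lg ((l : ℂ) • X) = lg X + ((Real.log l : ℝ) : ℂ) • (1 : Matrix (Fin 2) (Fin 2) ℂ) := by
  have e1 : dr ((l : ℂ) • X) = l ^ 2 * dr X := by
    rw [dr, Matrix.det_smul, Fintype.card_fin, ← Complex.ofReal_pow, Complex.re_ofReal_mul, dr]
  have e2 : Real.sqrt (l ^ 2 * dr X) = l * Real.sqrt (dr X) := by
    rw [Real.sqrt_mul (sq_nonneg l), Real.sqrt_sq hl.le]
  have hs : 0 < Real.sqrt (dr X) := Real.sqrt_pos.2 hX
  have e3 : cr ((l : ℂ) • X) = cr X := by
    rw [cr, cr, e1, e2, Matrix.trace_smul, smul_eq_mul, Complex.re_ofReal_mul]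
    field_simp
  have e4 : Real.log (l ^ 2 * dr X) / 2 = Real.log (dr X) / 2 + Real.log l := by
    rw [Real.log_mul (by positivity) hX.ne', Real.log_pow]
    push_cast
    ring
  have e5 : (((l * Real.sqrt (dr X))⁻¹ : ℝ) : ℂ) • ((l : ℂ) • X) =
      (((Real.sqrt (dr X))⁻¹ : ℝ) : ℂ) • X := by
    rw [smul_smul, ← Complex.ofReal_mul]
    congr 2
    field_simp
  unfold lg
  rw [e3, e1, e2, e4, e5]
  push_cast
  rw [add_smul]
  abel

/-! ### pairs of metrics -/

/-- simultaneous diagonalisation -/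
theorem pair {G K : Matrix (Fin 2) (Fin 2) ℂ} (hG : G.PosDef) (hK : K.PosDef) :
    ∃ (B : Matrix (Fin 2) (Fin 2) ℂ) (d : Fin 2 → ℝ), B.det ≠ 0 ∧ (∀ i, 0 < d i) ∧
      G = Bᴴ * B ∧ K = Bᴴ * dg d * B ∧ B * (G⁻¹ * K) = dg d * B := by
  obtain ⟨B, d, hB, hd, h1, h2⟩ := simd hG hK.posSemidef
  have hB0 : B.det ≠ 0 := hB.ne_zero
  have hBH : (Bᴴ).det ≠ 0 := by
    rw [Matrix.det_conjTranspose]; exact star_ne_zero.2 hB0
  have hBu : IsUnit (Bᴴ).det := isUnit_iff_ne_zero.2 hBH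
  have hdp : ∀ i, d i ≠ 0 := by
    intro i h0
    have h3 : (Matrix.diagonal fun i => (d i : ℂ)).det = 0 := by
      rw [Matrix.det_diagonal]
      exact Finset.prod_eq_zero (Finset.mem_univ i) (by rw [h0]; simp)
    have h4 := hK.det_pos
    rw [h2, Matrix.det_mul, Matrix.det_mul, h3] at h4
    simp at h4
  refine ⟨B, d, hB0, fun i => lt_of_le_of_ne (hd i) (hdp i).symm, h1, h2, ?_⟩
  have e1 : G⁻¹ = B⁻¹ * (Bᴴ)⁻¹ := by rw [h1, Matrix.mul_inv_rev]
  rw [e1, h2]
  calc B * (B⁻¹ * (Bᴴ)⁻¹ * (Bᴴ * (Matrix.diagonal fun i => (d i : ℂ)) * B))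
      = (B * B⁻¹) * ((Bᴴ)⁻¹ * Bᴴ) * ((Matrix.diagonal fun i => (d i : ℂ)) * B) := by
        simp only [Matrix.mul_assoc]
    _ = _ := by
        rw [Matrix.mul_nonsing_inv _ hB, Matrix.nonsing_inv_mul _ hBu, Matrix.one_mul,
          Matrix.one_mul]
        rfl

/-- the logarithm in a diagonalising frame -/
theorem pair_lg {G K B : Matrix (Fin 2) (Fin 2) ℂ} {d : Fin 2 → ℝ} (hB : B.det ≠ 0)
    (hd : ∀ i, 0 < d i) (h : B * (G⁻¹ * K) = dg d * B) :
    B * lg (G⁻¹ * K) = dg (fun i => Real.log (d i)) * B := by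
  rw [lg_conj hB h, lg_dg hd]

theorem dg_herm (d : Fin 2 → ℝ) : (dg d).IsHermitian := by
  rw [dg, Matrix.IsHermitian, Matrix.diagonal_conjTranspose]
  congr 1
  funext i
  simp

theorem lg_sa {G K : Matrix (Fin 2) (Fin 2) ℂ} (hG : G.PosDef) (hK : K.PosDef) :
    (G * lg (G⁻¹ * K)).IsHermitian := by
  obtain ⟨B, d, hB, hd, h1, h2, h3⟩ := pair hG hK
  have e : G * lg (G⁻¹ * K) = Bᴴ * dg (fun i => Real.log (d i)) * B := by
    conv_lhs => rw [h1, Matrix.mul_assoc, ← h1, pair_lg hB hd h3]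
    rw [Matrix.mul_assoc]
  rw [e, Matrix.IsHermitian, Matrix.conjTranspose_mul, Matrix.conjTranspose_mul,
    Matrix.conjTranspose_conjTranspose, (dg_herm _).eq, Matrix.mul_assoc]

theorem exp_dg (d : Fin 2 → ℝ) : NormedSpace.exp (dg d) = dg fun i => Real.exp (d i) := by
  unfold dg
  rw [Matrix.exp_diagonal]
  congr 1
  funext i
  rw [Pi.coe_exp, ← Complex.exp_eq_exp_ℂ, Complex.ofReal_exp]

theorem lg_exp {G K : Matrix (Fin 2) (Fin 2) ℂ} (hG : G.PosDef) (hK : K.PosDef) :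
    NormedSpace.exp (lg (G⁻¹ * K)) = G⁻¹ * K := by
  obtain ⟨B, d, hB, hd, h1, h2, h3⟩ := pair hG hK
  have i1 : B⁻¹ * B = 1 := Matrix.nonsing_inv_mul _ (isUnit_iff_ne_zero.2 hB)
  have e1 := ex_conj hB (pair_lg hB hd h3) 1
  have e2 : ∀ L : Matrix (Fin 2) (Fin 2) ℂ, ex L 1 = NormedSpace.exp L := fun L => by
    rw [ex, one_smul]
  rw [e2, e2, exp_dg] at e1
  have e3 : (fun i => Real.exp (Real.log (d i))) = d := funext fun i => Real.exp_log (hd i)
  rw [e3, ← h3] at e1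
  calc NormedSpace.exp (lg (G⁻¹ * K)) = B⁻¹ * B * NormedSpace.exp (lg (G⁻¹ * K)) := by
        rw [i1, Matrix.one_mul]
    _ = B⁻¹ * (B * (G⁻¹ * K)) := by rw [Matrix.mul_assoc, e1]
    _ = _ := by rw [← Matrix.mul_assoc, i1, Matrix.one_mul]

theorem dg_psd {d : Fin 2 → ℝ} (h : (dg d).PosSemidef) (i : Fin 2) : 0 ≤ d i := by
  have h1 := Matrix.posSemidef_diagonal_iff.1 h i
  exact Complex.zero_le_real.1 h1

theorem psd_dg {d : Fin 2 → ℝ} (h : ∀ i, 0 ≤ d i) : (dg d).PosSemidef :=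
  Matrix.PosSemidef.diagonal fun i => Complex.zero_le_real.2 (h i)

theorem lg_bd {G K : Matrix (Fin 2) (Fin 2) ℂ} {V : ℝ} (hG : G.PosDef) (hK : K.PosDef)
    (ha : (((Real.exp V : ℝ) : ℂ) • G - K).PosSemidef)
    (hb : (((Real.exp V : ℝ) : ℂ) • K - G).PosSemidef) :
    ((V : ℂ) • G - G * lg (G⁻¹ * K)).PosSemidef ∧
      ((V : ℂ) • G + G * lg (G⁻¹ * K)).PosSemidef := by
  obtain ⟨B, d, hB, hd, h1, h2, h3⟩ := pair hG hK
  have hu : IsUnit B.det := isUnit_iff_ne_zero.2 hB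
  have e1 : G = Bᴴ * dg (fun _ => 1) * B := by
    rw [h1]
    have : dg (fun _ => 1) = 1 := by rw [dg, ← Matrix.diagonal_one]; simp
    rw [this, Matrix.mul_one]
  have e0 : G * lg (G⁻¹ * K) = Bᴴ * dg (fun i => Real.log (d i)) * B := by
    conv_lhs => rw [h1, Matrix.mul_assoc, ← h1, pair_lg hB hd h3]
    rw [Matrix.mul_assoc]
  have key : ∀ (s : ℝ) (x y : Fin 2 → ℝ), (s : ℂ) • (Bᴴ * dg x * B) - Bᴴ * dg y * B
      = Bᴴ * dg (fun i => s * x i - y i) * B := by
    intro s x y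
    have : dg (fun i => s * x i - y i) = (s : ℂ) • dg x - dg y := by
      ext i j
      by_cases hij : i = j
      · subst hij
        simp [dg]
      · simp [dg, Matrix.diagonal_apply_ne _ hij]
    rw [this, Matrix.mul_sub, Matrix.sub_mul, Matrix.mul_smul, Matrix.smul_mul]
  have back : ∀ x : Fin 2 → ℝ, (Bᴴ * dg x * B).PosSemidef → ∀ i, 0 ≤ x i := by
    intro x hx i
    refine dg_psd ?_ i
    have h4 := hx.conjTranspose_mul_mul_same B⁻¹
    have h5 : (B⁻¹)ᴴ * (Bᴴ * dg x * B) * B⁻¹ = dg x := by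
      have i1 : B * B⁻¹ = 1 := Matrix.mul_nonsing_inv _ hu
      have i2 : (B⁻¹)ᴴ * Bᴴ = 1 := by
        rw [← Matrix.conjTranspose_mul, i1, Matrix.conjTranspose_one]
      calc (B⁻¹)ᴴ * (Bᴴ * dg x * B) * B⁻¹ = ((B⁻¹)ᴴ * Bᴴ) * dg x * (B * B⁻¹) := by
            simp only [Matrix.mul_assoc]
        _ = _ := by rw [i1, i2, Matrix.one_mul, Matrix.mul_one]
    rwa [h5] at h4
  have forth : ∀ x : Fin 2 → ℝ, (∀ i, 0 ≤ x i) → (Bᴴ * dg x * B).PosSemidef := fun x hx =>
    (psd_dg hx).conjTranspose_mul_mul_same B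
  have h4 : ∀ i, 0 ≤ Real.exp V * 1 - d i := by
    refine back _ ?_
    rw [← key, ← e1]
    show (_ - Bᴴ * dg d * B).PosSemidef
    rw [← h2]
    exact ha
  have h5 : ∀ i, 0 ≤ Real.exp V * d i - 1 := by
    refine back _ ?_
    have := key (Real.exp V) d (fun _ => 1)
    rw [← this, ← e1]
    show ((_ : ℂ) • (Bᴴ * dg d * B) - _).PosSemidef
    rw [← h2]
    exact hb
  have h6 : ∀ i, Real.log (d i) ≤ V := fun i => by
    rw [Real.log_le_iff_le_exp (hd i)]
    linarith [h4 i]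
  have h7 : ∀ i, -V ≤ Real.log (d i) := fun i => by
    rw [Real.le_log_iff_exp_le (hd i), Real.exp_neg, inv_le_iff_one_le_mul₀ (Real.exp_pos _),
      mul_comm]
    linarith [h5 i]
  constructor
  · rw [e0]
    conv in (V : ℂ) • G => rw [e1]
    rw [key]
    exact forth _ fun i => by linarith [h6 i]
  · have e2 : (V : ℂ) • G + G * lg (G⁻¹ * K) = Bᴴ * dg (fun i => V * 1 + Real.log (d i)) * B := by
      have h8 := key V (fun _ => 1) (fun i => - Real.log (d i))
      have h9 : dg (fun i => - Real.log (d i)) = - dg (fun i => Real.log (d i)) := by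
        ext i j
        by_cases hij : i = j
        · subst hij
          simp [dg]
        · simp [dg, Matrix.diagonal_apply_ne _ hij]
      rw [h9, Matrix.mul_neg, Matrix.neg_mul, sub_neg_eq_add, ← e0, ← e1] at h8
      rw [h8]
      congr 3
      funext i
      ring
    rw [e2]
    exact forth _ fun i => by linarith [h7 i]

end

end Crest.Agent.R257.BCUA_532
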