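import Crest.Agent.R257.BCUA_532

/-!
# R257 (S0395), part (GB), leaf GB-UPP (helper532): smoothness of the logarithm

* `exp_back` : a field which tends to `0` and has a smooth exponential is smooth
* `lg_sm`, **`lgStmt`** : `LgStmt` of BCUP_532
-/

set_option autoImplicit false
set_option linter.unusedSectionVars false

open Finset Matrix Complex Filter Topology
open scoped ContDiff ComplexConjugate ComplexOrder

namespace Crest.Agent.R257.BCUB_532

open Crest.Agent.R275.Geo Crest.Agent.R275.EDR890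
open Crest.Agent.R273.Fock_243 Crest.Agent.R273.Calc_243
open Crest.Agent.R273.Bkn_243 Crest.Agent.R273.Pos_243 Crest.Agent.R273.BochA_101
open Crest.Agent.R273.BochB_101
open Crest.Agent.R273.BochC_101 Crest.Agent.R273.BochD_101
open Crest.Agent.R273.Hess_333 Crest.Agent.R273.HessB_333
open Crest.Agent.R257.C2F1_625 Crest.Agent.R257.C2F2_625
open Crest.Agent.R257.BCU1_532 Crest.Agent.R257.BCU2_532 Crest.Agent.R257.BCUA_532
open Crest.Agent.R257.BCUP_532

noncomputable section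

variable {κ : Type} [Fintype κ] [DecidableEq κ]

set_option backward.isDefEq.respectTransparency false in
open scoped Norms.Operator in
theorem exp_back {V : Type*} [NormedAddCommGroup V] [NormedSpace ℝ V] {L : V → Matrix κ κ ℂ} {x : V}
    (h1 : ∀ S T, Tendsto (fun y => L y S T) (𝓝 x) (𝓝 0))
    (h2 : ∀ S T, ContDiffAt ℝ ∞ (fun y => NormedSpace.exp (L y) S T) x) (S T : κ) :
    ContDiffAt ℝ ∞ (fun y => L y S T) x := by
  have hx0 : L x = 0 := by
    ext S T
    have h3 := (h1 S T)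
    have h4 : Tendsto (fun y => L y S T) (pure x) (𝓝 0) := h3.mono_left (pure_le_nhds x)
    have h5 : Tendsto (fun y => L y S T) (pure x) (𝓝 (L x S T)) :=
      (tendsto_pure_nhds (fun y => L y S T) x)
    exact tendsto_nhds_unique h5 h4
  -- the exponential is a smooth map into matrices
  have hE : ContDiffAt ℝ ∞ (fun y => NormedSpace.exp (L y)) x := by
    have e : (fun y => NormedSpace.exp (L y)) = fun y => ∑ i, ∑ j,
        (LinearMap.toContinuousLinearMap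
        (Matrix.singleLinearMap ℝ i j : ℂ →ₗ[ℝ] Matrix κ κ ℂ)) (NormedSpace.exp (L y) i j) := by
      funext y
      conv_lhs => rw [Matrix.matrix_eq_sum_single (NormedSpace.exp (L y))]
      rfl
    rw [e]
    exact ContDiffAt.sum fun i _ => ContDiffAt.sum fun j _ =>
      (ContinuousLinearMap.contDiff _).contDiffAt.comp x (h2 i j)
  have hT : Tendsto L (𝓝 x) (𝓝 0) := by
    have e : L = fun y => ∑ i, ∑ j, (LinearMap.toContinuousLinearMap
        (Matrix.singleLinearMap ℝ i j : ℂ →ₗ[ℝ] Matrix κ κ ℂ)) (L y i j) := by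
      funext y
      conv_lhs => rw [Matrix.matrix_eq_sum_single (L y)]
      rfl
    rw [e]
    have e0 : (0 : Matrix κ κ ℂ) = ∑ i : κ, ∑ j : κ, (LinearMap.toContinuousLinearMap
        (Matrix.singleLinearMap ℝ i j : ℂ →ₗ[ℝ] Matrix κ κ ℂ)) 0 := by simp
    rw [e0]
    exact tendsto_finsetSum _ fun i _ => tendsto_finsetSum _ fun j _ =>
      ((ContinuousLinearMap.continuous _).tendsto _).comp (h1 i j)
  have hexp : ContDiffAt ℝ ∞ (NormedSpace.exp : Matrix κ κ ℂ → Matrix κ κ ℂ) 0 :=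
    (NormedSpace.exp_analytic (𝕂 := ℝ) 0).contDiffAt
  have hd : HasFDerivAt (NormedSpace.exp : Matrix κ κ ℂ → Matrix κ κ ℂ)
      ((ContinuousLinearEquiv.refl ℝ (Matrix κ κ ℂ) : Matrix κ κ ℂ ≃L[ℝ] Matrix κ κ ℂ) :
        Matrix κ κ ℂ →L[ℝ] Matrix κ κ ℂ) 0 := hasFDerivAt_exp_zero
  have hn : (∞ : WithTop ℕ∞) ≠ 0 := by simp
  have h3 := hexp.to_localInverse hd hn
  have h4 := (hexp.hasStrictFDerivAt' hd hn).eventually_left_inverse
  have h5 : (fun y => L y) =ᶠ[𝓝 x] fun y => hexp.localInverse hd hn (NormedSpace.exp (L y)) := by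
    filter_upwards [hT.eventually h4] with y hy
    exact hy.symm
  have h6 : ContDiffAt ℝ ∞ (fun y => hexp.localInverse hd hn (NormedSpace.exp (L y))) x := by
    refine ContDiffAt.comp x (g := hexp.localInverse hd hn) (f := fun y => NormedSpace.exp (L y))
      ?_ hE
    rw [hx0]
    exact h3
  have h7 : ContDiffAt ℝ ∞ L x := h6.congr_of_eventuallyEq h5
  exact ((LinearMap.toContinuousLinearMap (Matrix.entryLinearMap ℝ ℂ S T :
      Matrix κ κ ℂ →ₗ[ℝ] ℂ)).contDiff.contDiffAt.comp x h7 :)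

/-! ### the logarithm -/

variable {n : ℕ}

theorem re_sm {V : Type*} [NormedAddCommGroup V] [NormedSpace ℝ V] {a : V → ℂ} {x : V}
    (h : ContDiffAt ℝ ∞ a x) : ContDiffAt ℝ ∞ (fun y => (a y).re) x :=
  Complex.reCLM.contDiff.contDiffAt.comp x h

theorem of_sm {V : Type*} [NormedAddCommGroup V] [NormedSpace ℝ V] {a : V → ℝ} {x : V}
    (h : ContDiffAt ℝ ∞ a x) : ContDiffAt ℝ ∞ (fun y => ((a y : ℝ) : ℂ)) x :=
  Complex.ofRealCLM.contDiff.contDiffAt.comp x h

theorem dr_sm {X : Cn n → Matrix (Fin 2) (Fin 2) ℂ} {z : Cn n} (h : SmM z X) :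
    ContDiffAt ℝ ∞ (fun y => dr (X y)) z := re_sm (SmM.det h)

theorem cr_sm {X : Cn n → Matrix (Fin 2) (Fin 2) ℂ} {z : Cn n} (h : SmM z X)
    (hd : 0 < dr (X z)) : ContDiffAt ℝ ∞ (fun y => cr (X y)) z := by
  have h1 : ContDiffAt ℝ ∞ (fun y => (X y).trace.re) z := re_sm (Sm.trace h)
  have h2 : ContDiffAt ℝ ∞ (fun y => Real.sqrt (dr (X y))) z := (dr_sm h).sqrt hd.ne'
  exact h1.div (contDiffAt_const.mul h2) (by positivity)

/-- smoothness at the points with two different eigenvalues -/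
theorem lg_sm1 {X : Cn n → Matrix (Fin 2) (Fin 2) ℂ} {z : Cn n} (h : SmM z X)
    (hd : 0 < dr (X z)) (hc : 1 < cr (X z)) : SmM z (fun y => lg (X y)) := by
  have h1 := dr_sm h
  have h2 := cr_sm h hd
  have h3 : ContDiffAt ℝ ∞ (fun y => Real.sqrt (dr (X y))) z := h1.sqrt hd.ne'
  have hs0 : 0 < Real.sqrt (dr (X z)) := Real.sqrt_pos.2 hd
  have h4 : ContDiffAt ℝ ∞ (fun y => Real.sqrt (cr (X y) ^ 2 - 1)) z :=
    ((h2.pow 2).sub contDiffAt_const).sqrt (by nlinarith)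
  have h40 : 0 < Real.sqrt (cr (X z) ^ 2 - 1) := Real.sqrt_pos.2 (by nlinarith)
  have h5 : ContDiffAt ℝ ∞ (fun y => ta (cr (X y))) z := by
    have h6 : ContDiffAt ℝ ∞ (fun y => Real.log (cr (X y) + Real.sqrt (cr (X y) ^ 2 - 1)) /
        Real.sqrt (cr (X y) ^ 2 - 1)) z :=
      ((h2.add h4).log (by positivity)).div h4 h40.ne'
    refine h6.congr_of_eventuallyEq ?_
    filter_upwards [h2.continuousAt.eventually (lt_mem_nhds hc)] with y hy
    rw [ta, if_pos hy]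
  intro S T
  have e : (fun y => lg (X y) S T) = fun y => ((Real.log (dr (X y)) / 2 : ℝ) : ℂ) *
      (1 : Matrix (Fin 2) (Fin 2) ℂ) S T + ((ta (cr (X y)) : ℝ) : ℂ) *
      ((((Real.sqrt (dr (X y)))⁻¹ : ℝ) : ℂ) * X y S T -
        ((cr (X y) : ℝ) : ℂ) * (1 : Matrix (Fin 2) (Fin 2) ℂ) S T) := rfl
  rw [e]
  exact ((of_sm ((h1.log hd.ne').div_const 2)).mul contDiffAt_const).add
    ((of_sm h5).mul (((of_sm (h3.inv hs0.ne')).mul (h S T)).sub
      ((of_sm h2).mul contDiffAt_const)))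

/-- continuity at `1` -/
theorem lg_cont {X : Cn n → Matrix (Fin 2) (Fin 2) ℂ} {z : Cn n} (h : SmM z X) (h1 : X z = 1)
    (S T : Fin 2) : Tendsto (fun y => lg (X y) S T) (𝓝 z) (𝓝 0) := by
  have d1 : dr (X z) = 1 := by rw [h1, dr, Matrix.det_one, Complex.one_re]
  have c1 : cr (X z) = 1 := by
    rw [cr, d1, h1, Matrix.trace_one, Fintype.card_fin, Real.sqrt_one]
    norm_num
  have h2 := (dr_sm h).continuousAt
  have h3 := (cr_sm h (by rw [d1]; exact one_pos)).continuousAt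
  have h4 : Tendsto (fun y => Real.log (dr (X y)) / 2) (𝓝 z) (𝓝 0) := by
    have h5 := (h2.log (by rw [d1]; exact one_ne_zero)).div_const 2
    have h6 : Tendsto (fun y => Real.log (dr (X y)) / 2) (𝓝 z) (𝓝 (Real.log (dr (X z)) / 2)) := h5
    rwa [d1, Real.log_one, zero_div] at h6
  have h7 : Tendsto (fun y => (((Real.sqrt (dr (X y)))⁻¹ : ℝ) : ℂ) * X y S T -
      ((cr (X y) : ℝ) : ℂ) * (1 : Matrix (Fin 2) (Fin 2) ℂ) S T) (𝓝 z) (𝓝 0) := by
    have h8 : Tendsto (fun y => (Real.sqrt (dr (X y)))⁻¹) (𝓝 z) (𝓝 1) := by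
      have h9 : Tendsto (fun y => (Real.sqrt (dr (X y)))⁻¹) (𝓝 z)
          (𝓝 (Real.sqrt (dr (X z)))⁻¹) :=
        (h2.sqrt).inv₀ (by rw [d1, Real.sqrt_one]; exact one_ne_zero)
      rwa [d1, Real.sqrt_one, inv_one] at h9
    have h10 : Tendsto (fun y => cr (X y)) (𝓝 z) (𝓝 1) := by rw [← c1]; exact h3
    have h11 : Tendsto (fun y => X y S T) (𝓝 z) (𝓝 ((1 : Matrix (Fin 2) (Fin 2) ℂ) S T)) := by
      rw [← h1]; exact (h S T).continuousAt
    have h12 := (((Complex.continuous_ofReal.tendsto _).comp h8).mul h11).sub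
      (((Complex.continuous_ofReal.tendsto _).comp h10).mul
        (tendsto_const_nhds (x := (1 : Matrix (Fin 2) (Fin 2) ℂ) S T)))
    simpa using h12
  have h13 : Tendsto (fun y => ((ta (cr (X y)) : ℝ) : ℂ) *
      ((((Real.sqrt (dr (X y)))⁻¹ : ℝ) : ℂ) * X y S T -
        ((cr (X y) : ℝ) : ℂ) * (1 : Matrix (Fin 2) (Fin 2) ℂ) S T)) (𝓝 z) (𝓝 0) := by
    refine squeeze_zero_norm (fun y => ?_) (tendsto_zero_iff_norm_tendsto_zero.1 h7)
    rw [norm_mul, Complex.norm_real, Real.norm_eq_abs]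
    exact mul_le_of_le_one_left (norm_nonneg _) (ta_le _)
  have h14 : Tendsto (fun y => ((Real.log (dr (X y)) / 2 : ℝ) : ℂ) *
      (1 : Matrix (Fin 2) (Fin 2) ℂ) S T) (𝓝 z) (𝓝 0) := by
    have h15 := ((Complex.continuous_ofReal.tendsto _).comp h4).mul
        (tendsto_const_nhds (x := (1 : Matrix (Fin 2) (Fin 2) ℂ) S T))
    simpa using h15
  have h16 := h14.add h13
  rw [add_zero] at h16
  exact h16

theorem inv_conj {F X Y : Matrix (Fin 2) (Fin 2) ℂ} (hF : F.det ≠ 0) (h : F * X = Y * F) :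
    dr X = dr Y ∧ cr X = cr Y := by
  have hd : X.det = Y.det := by
    have h1 := congrArg Matrix.det h
    rw [Matrix.det_mul F X, Matrix.det_mul Y F, mul_comm Y.det] at h1
    exact mul_left_cancel₀ hF h1
  have i1 : F⁻¹ * F = 1 := Matrix.nonsing_inv_mul _ (isUnit_iff_ne_zero.2 hF)
  have i2 : F * F⁻¹ = 1 := Matrix.mul_nonsing_inv _ (isUnit_iff_ne_zero.2 hF)
  have ht : X.trace = Y.trace := by
    have h1 : Y = F * X * F⁻¹ := by rw [h, Matrix.mul_assoc, i2, Matrix.mul_one]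
    rw [h1, Matrix.mul_assoc, Matrix.trace_mul_comm, Matrix.mul_assoc, i1, Matrix.mul_one]
  have e1 : dr X = dr Y := by rw [dr, dr, hd]
  exact ⟨e1, by rw [cr, cr, e1, ht]⟩

/-- smoothness -/
theorem lg_sm {G K : Cn n → Matrix (Fin 2) (Fin 2) ℂ} {z : Cn n} (hG : SmM z G) (hK : SmM z K)
    (pG : ∀ᶠ y in 𝓝 z, (G y).PosDef) (pK : ∀ᶠ y in 𝓝 z, (K y).PosDef) :
    SmM z (fun y => lg ((G y)⁻¹ * K y)) := by
  have h0 : (G z).det ≠ 0 := pG.self_of_nhds.det_pos.ne'
  have hX : SmM z (fun y => (G y)⁻¹ * K y) := SmM.mul (SmM.inv hG h0) hK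
  have hdr : ∀ y, (G y).PosDef → (K y).PosDef → 0 < dr ((G y)⁻¹ * K y) := by
    intro y h1 h2
    obtain ⟨B, d, hB, hd, -, -, h3⟩ := pair h1 h2
    rw [(inv_conj hB h3).1, dr_dg]
    exact mul_pos (hd 0) (hd 1)
  have hdz := hdr z pG.self_of_nhds pK.self_of_nhds
  by_cases hc : 1 < cr ((G z)⁻¹ * K z)
  · exact lg_sm1 hX hdz hc
  obtain ⟨B, d, hB, hd, e1, e2, e3⟩ := pair pG.self_of_nhds pK.self_of_nhds
  have i1 : B⁻¹ * B = 1 := Matrix.nonsing_inv_mul _ (isUnit_iff_ne_zero.2 hB)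
  -- the eigenvalues agree
  have h01 : d 0 = d 1 := by
    rw [(inv_conj hB e3).2, cr_dg hd] at hc
    by_contra hne
    refine hc (Real.one_lt_cosh.2 fun h => hne ?_)
    have h1 : Real.log (d 0) = Real.log (d 1) := by linarith
    exact Real.log_injOn_pos (hd 0) (hd 1) h1
  have hXz : (G z)⁻¹ * K z = ((d 0 : ℝ) : ℂ) • (1 : Matrix (Fin 2) (Fin 2) ℂ) := by
    have h1 : dg d = ((d 0 : ℝ) : ℂ) • (1 : Matrix (Fin 2) (Fin 2) ℂ) := by
      ext i j
      by_cases hij : i = j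
      · subst hij
        fin_cases i <;> simp [dg, h01]
      · simp [dg, Matrix.diagonal_apply_ne _ hij, Matrix.one_apply_ne hij]
    calc (G z)⁻¹ * K z = B⁻¹ * (B * ((G z)⁻¹ * K z)) := by
          rw [← Matrix.mul_assoc B⁻¹, i1, Matrix.one_mul]
      _ = _ := by
          rw [e3, h1, Matrix.smul_mul, Matrix.one_mul, Matrix.mul_smul, i1]
  set l : ℝ := (d 0)⁻¹ with hl
  have hl0 : 0 < l := inv_pos.2 (hd 0)
  have hK' : SmM z (fun y => (l : ℂ) • K y) := fun S T => contDiffAt_const.mul (hK S T)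
  have e4 : ∀ y, (l : ℂ) • ((G y)⁻¹ * K y) = (G y)⁻¹ * ((l : ℂ) • K y) := fun y => by
    rw [Matrix.mul_smul]
  have hY : SmM z (fun y => (l : ℂ) • ((G y)⁻¹ * K y)) := fun S T =>
    contDiffAt_const.mul (hX S T)
  have hY1 : (l : ℂ) • ((G z)⁻¹ * K z) = 1 := by
    rw [hXz, smul_smul, hl, ← Complex.ofReal_mul, inv_mul_cancel₀ (hd 0).ne', Complex.ofReal_one,
      one_smul]
  have hlog : SmM z (fun y => lg ((l : ℂ) • ((G y)⁻¹ * K y))) := by
    intro S T
    refine exp_back (L := fun y => lg ((l : ℂ) • ((G y)⁻¹ * K y))) (fun S T => ?_)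
      (fun S T => ?_) S T
    · exact lg_cont hY hY1 S T
    · refine (hY S T).congr_of_eventuallyEq ?_
      filter_upwards [pG, pK] with y h1 h2
      rw [e4 y, lg_exp h1 (h2.smul (Complex.zero_lt_real.2 hl0))]
  intro S T
  have h1 : (fun y => lg ((G y)⁻¹ * K y) S T) =ᶠ[𝓝 z] fun y =>
      lg ((l : ℂ) • ((G y)⁻¹ * K y)) S T -
        ((Real.log l : ℝ) : ℂ) * (1 : Matrix (Fin 2) (Fin 2) ℂ) S T := by
    filter_upwards [pG, pK] with y h1 h2
    rw [lg_smul hl0 (hdr y h1 h2)]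
    simp only [Matrix.add_apply, Matrix.smul_apply, smul_eq_mul]
    ring
  exact ((hlog S T).sub contDiffAt_const).congr_of_eventuallyEq h1

/-- **the matrix logarithm** -/
theorem lgm : Lgm lg :=
  ⟨fun _ _ hG hK => lg_sa hG hK, fun _ _ hG hK => lg_exp hG hK,
    fun _ _ _ hF h => lg_conj hF h, lg_one, fun _ _ _ hG hK pG pK => lg_sm hG hK pG pK,
    fun _ _ _ hG hK ha hb => lg_bd hG hK ha hb⟩

theorem lgStmt : LgStmt := ⟨lg, lgm⟩

end

end Crest.Agent.R257.BCUB_532
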