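import Crest.Agent.R257.KUP_952
import Crest.Agent.R257.BCU9_532

/-!
# R257 (S0395), part (GB), leaf GB-UPP (helper532): the two leaves of `UpperStmt` (KUP_952)

* `PtwStmt` : pointwise bound of `∂∂̄a ∧ tr (L F)`, `F` the curvature of the Kaehler-Einstein
  metric `HK u` on `Ω¹`, `|L| ≤ V`
* `LgStmt`  : logarithm of `G⁻¹ K`, `G`, `K` positive definite
-/

set_option autoImplicit false

open Topology Filter MeasureTheory Set
open scoped ContDiff Matrix ComplexOrder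

noncomputable section

namespace Crest.Agent.R257.BCUP_532

open Crest.Agent.R275.Geo
open Crest.Agent.R257.Defs_219
open Crest.Agent.R257.KED_952 Crest.Agent.R257.KEG_952 Crest.Agent.R257.KEU_952
open Crest.Agent.R257.V1Defs_822 (SmL LvlOK)
open Crest.Agent.R273.Fock_243 Crest.Agent.R273.Calc_243
open Crest.Agent.R273.BochA_101
open Crest.Agent.R273.YauDefs_635 (cH)
open Crest.Agent.R257.Aff_835 (eta2a)
open Crest.Agent.R257.C2F1_625 (pd)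
open Crest.Agent.R257.KUP_952 (HK)
open Crest.Agent.R257.BCU4_532 (bf)

/-- pointwise bound -/
def PtwStmt : Prop := ∃ C₀ : ℝ, 0 ≤ C₀ ∧ ∀ (f : E3 → ℂ) (r : ℝ) (u : E3 → ℝ), LvlOK f 0 r →
  KEon f 0 r u → ∀ θ O, PE f 0 r θ O → ∀ z ∈ O, ∀ (L : Cn 2 → Matrix (Fin 2) (Fin 2) ℂ)
  (X : Matrix (Fin 2) (Fin 2) ℂ) (q V : ℝ), 0 ≤ q → 0 ≤ V → X.PosSemidef →
  ((q : ℂ) • cH (fun y => u (θ y)) z - X).PosSemidef →
  ((V : ℂ) • HK u θ z - HK u θ z * L z).PosSemidef →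
  ((V : ℂ) • HK u θ z + HK u θ z * L z).PosSemidef →
  ‖pd X (bf (HK u θ) L z)‖ ≤
    C₀ * (q * V * Real.sqrt (c2d f u (θ z) * Real.exp (u (θ z)))) * eta2a (n := 2) f θ z

/-- logarithm of `G⁻¹ K` -/
structure Lgm (lg : Matrix (Fin 2) (Fin 2) ℂ → Matrix (Fin 2) (Fin 2) ℂ) : Prop where
  sa : ∀ G K : Matrix (Fin 2) (Fin 2) ℂ, G.PosDef → K.PosDef → (G * lg (G⁻¹ * K)).IsHermitian
  exp : ∀ G K : Matrix (Fin 2) (Fin 2) ℂ, G.PosDef → K.PosDef →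
    NormedSpace.exp (lg (G⁻¹ * K)) = G⁻¹ * K
  conj : ∀ F X Y : Matrix (Fin 2) (Fin 2) ℂ, F.det ≠ 0 → F * X = Y * F → F * lg X = lg Y * F
  one : lg 1 = 0
  sm : ∀ (G K : Cn 2 → Matrix (Fin 2) (Fin 2) ℂ) (z : Cn 2), SmM z G → SmM z K →
    (∀ᶠ y in 𝓝 z, (G y).PosDef) → (∀ᶠ y in 𝓝 z, (K y).PosDef) →
    SmM z (fun y => lg ((G y)⁻¹ * K y))
  bd : ∀ (G K : Matrix (Fin 2) (Fin 2) ℂ) (V : ℝ), G.PosDef → K.PosDef →
    (((Real.exp V : ℝ) : ℂ) • G - K).PosSemidef → (((Real.exp V : ℝ) : ℂ) • K - G).PosSemidef →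
    ((V : ℂ) • G - G * lg (G⁻¹ * K)).PosSemidef ∧ ((V : ℂ) • G + G * lg (G⁻¹ * K)).PosSemidef

/-- the matrix logarithm -/
def LgStmt : Prop := ∃ lg, Lgm lg

end Crest.Agent.R257.BCUP_532
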