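import Crest.Agent.R257.Cnt2_812
import Crest.Agent.R257.LossD_309

/-!
Row 257 (S0395), leaf CntStmt (helper812), part 3: literal form.
-/

set_option autoImplicit false
set_option linter.unusedSectionVars false

open Set Filter Topology
open Crest.AlgGeometry.Germ
open Crest.Agent.R257.UI939 Crest.Agent.R257.Defs_219
open Crest.Agent.R257.LossD_309 Crest.Agent.R257.PN_835
open Crest.Agent.R257.KED_952 (PP)

noncomputable section

namespace Crest.Agent.R257.Det_812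

lemma norm_lt_of_nsq {x : E3} {ρ : ℝ} (hρ : 0 < ρ) (h : nsq x < ρ ^ 2) : ‖x‖ < ρ := by
  rw [pi_norm_lt_iff hρ]
  intro i
  have h1 : ‖x i‖ ^ 2 ≤ nsq x :=
    Finset.single_le_sum (f := fun k => ‖x k‖ ^ 2) (fun k _ => sq_nonneg _) (Finset.mem_univ i)
  exact lt_of_pow_lt_pow_left₀ 2 hρ.le (h1.trans_lt h)

lemma nsq_lt_of_norm {x : E3} {δ : ℝ} (h : ‖x‖ < δ / 2) : nsq x < δ ^ 2 := by
  have hδ : 0 < δ := by linarith [norm_nonneg x]
  have h1 : ∀ i, ‖x i‖ ^ 2 ≤ (δ / 2) ^ 2 := fun i => by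
    have : ‖x i‖ ≤ δ / 2 := (norm_le_pi_norm x i).trans h.le
    exact pow_le_pow_left₀ (norm_nonneg _) this 2
  have h2 : nsq x ≤ ∑ _i : Fin 3, (δ / 2) ^ 2 := Finset.sum_le_sum fun i _ => h1 i
  rw [Finset.sum_const, Finset.card_univ, Fintype.card_fin] at h2
  simp only [nsmul_eq_mul] at h2
  push_cast at h2
  nlinarith [sq_nonneg δ]

theorem cntStmt : CntStmt := by
  intro Φ τ₀ hΦ f hf hiso h hh hm
  let Φ' : E3 × (PP × E3) → ℂ := fun q => Φ (q.1, q.2.1)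
  let Ψ' : E3 × (PP × E3) → ℂ := fun q => ptb h q.2.2 q.1
  have hΦ' : AnalyticAt ℂ Φ' (0, (τ₀, 0)) :=
    AnalyticAt.comp (g := Φ) (f := fun q : E3 × (PP × E3) => (q.1, q.2.1)) hΦ
      (analyticAt_fst.prod (analyticAt_fst.comp analyticAt_snd))
  have hΨ' : AnalyticAt ℂ Ψ' (0, (τ₀, 0)) := by
    refine AnalyticAt.add (AnalyticAt.comp (g := h) (f := Prod.fst) hh analyticAt_fst) ?_
    refine Finset.analyticAt_fun_sum _ fun i _ => ?_
    refine AnalyticAt.mul ?_ ?_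
    · exact ((ContinuousLinearMap.proj (R := ℂ) (φ := fun _ : Fin 3 => ℂ) i).comp
        ((ContinuousLinearMap.snd ℂ PP E3).comp
          (ContinuousLinearMap.snd ℂ E3 (PP × E3)))).analyticAt _
    · exact ((ContinuousLinearMap.proj (R := ℂ) (φ := fun _ : Fin 3 => ℂ) i).comp
        (ContinuousLinearMap.fst ℂ E3 (PP × E3))).analyticAt _
  have e1 : (fun x => Φ' (x, (τ₀, 0))) = f := hf.symm
  have e2 : (fun x => Ψ' (x, (τ₀, 0))) = h := by
    funext x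
    simp [Ψ', ptb]
  have e0 : Φ' (0, (τ₀, 0)) = 0 := by
    have : f 0 = 0 := hiso.zero
    rw [hf] at this
    exact this
  obtain ⟨r₀, hr₀, hcnt⟩ := count_mnr hΦ' hΨ' e0 (by rw [e1]; exact hiso.crit)
    (by rw [e1, e2]; exact hm)
  rw [e1, e2] at hcnt
  refine ⟨r₀, hr₀, fun ε hε => ?_⟩
  have hδ : 0 < min ε r₀ := lt_min hε hr₀
  filter_upwards [hcnt (min ε r₀ / 2) (by positivity)] with q hq
  have hsmall : ∀ x ∈ Cnm7_889.ZP (Gf Φ' Ψ') r₀ q, nsq x < min ε r₀ ^ 2 :=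
    fun x hx => nsq_lt_of_norm (hq.small x hx)
  have hZ : ZM Φ h r₀ q = Cnm7_889.ZP (Gf Φ' Ψ') r₀ q := by
    ext x
    constructor
    · rintro ⟨h1, h2⟩
      exact ⟨norm_lt_of_nsq hr₀ h1, h2⟩
    · intro hx
      refine ⟨(hsmall x hx).trans_le ?_, hx.2⟩
      exact pow_le_pow_left₀ hδ.le (min_le_right _ _) 2
  refine ⟨by rw [hZ]; exact hq.fin, fun x hx => ?_, fun hnd => ?_⟩
  · rw [hZ] at hx
    exact (hsmall x hx).trans_le (pow_le_pow_left₀ hδ.le (min_le_left _ _) 2)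
  · rw [hZ]
    refine hq.eq fun x hx v hv => hnd x (by rw [hZ]; exact hx) v hv

end Crest.Agent.R257.Det_812
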