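import Crest.Agent.R257.LossD_309

/-!
R257 / LossT_309 (helper309): the limit of the second Chern integrals.

* `TendStmt` : `∫ χ c₂ → ∫ ∂∂̄χ ∧ Γ + π² col (mnr f h)` along a smoothing   [397]
-/

set_option autoImplicit false

open Topology Filter MeasureTheory Set
open scoped ENNReal ContDiff Matrix

noncomputable section

namespace Crest.Agent.R257.LossT_309

open Crest.Agent.R275.Geo
open Crest.Agent.R257.Defs_219
open Crest.Agent.R257.KED_952 Crest.Agent.R257.KEG_952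
open Crest.Agent.R257.PN_835 (nsq)
open Crest.Agent.R257.LossD_309

/-- the limit of the second Chern integrals -/
def TendStmt : Prop := ∀ (Φ : E3 × PP → ℂ) (τ₀ : PP) (l : Filter PP) (r C : ℝ)
  (w : PP → E3 → ℝ) (u : E3 → ℝ), SmD Φ τ₀ l r C w u → ∀ f, f = (fun x => Φ (x, τ₀)) →
  ∀ χ, Cut r χ → ∀ (ν : PP → Measure E3) (ν₀ : Measure E3),
  (∀ᶠ τ in l, IsNu (fun x => Φ (x, τ)) 0 r (ν τ)) → IsNu f 0 r ν₀ →
  ∀ h : E3 → ℂ, (∀ x, nsq x ≤ r ^ 2 → AnalyticAt ℂ h x) → ColFin (mnr f h) → NoZ f r h →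
  (∀ᶠ τ in l, C2I (ν τ) (fun x => Φ (x, τ)) (w τ) χ < ⊤) ∧
  Tendsto (fun τ => (C2I (ν τ) (fun x => Φ (x, τ)) (w τ) χ).toReal) l
    (𝓝 (∫ x, oxd f u (fun _ => 0) h χ x ∂ν₀ + Real.pi ^ 2 * col (mnr f h)))

end Crest.Agent.R257.LossT_309
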