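import Crest.Agent.R257.Defs_219
import Crest.Agent.R257.Aff_835
import Crest.Agent.R257.C2F1_625

/-!
R257 / KED_952: the interface of the Kaehler-Einstein part (V) of row 257 (S0395).

Objects (all on the levels `{f = s}` of functions on `E3`, in the ball `nsq x < r²`):
* `PE f s r θ O`  : local parametrisation `θ : O → {f = s, 0 < |x| < r}`;
* `KEon f s r u`, `Bd f s r C u` : Kaehler-Einstein weight, bounds;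
* `Chart`, `CvOn`, `Conv`, `Cv0` : parametrisations of a family of levels, convergence;
* `FamD`, `SmD`   : convergent families of levels with their weights (`SmD`: smooth levels);
* `IsNu f s r ν`  : `ν = |η|²` on the level; `dns`, `mxd`, `c2d`: pointwise densities w.r.t. `|η|²`;
* `C2I`, `VOL`, `TOT`, `mas` : the integrals; `mas` = residual Monge-Ampere mass,
  normalised by `mas (log |z|²) = 1` on `ℂ²`.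
-/

set_option autoImplicit false

open Topology Filter MeasureTheory Set
open scoped ENNReal ContDiff Matrix

noncomputable section

namespace Crest.Agent.R257.KED_952

open Crest.Agent.R275.Geo
open Crest.Agent.R257.Defs_219
open Crest.Agent.R273.Defs_333 (lev)
open Crest.Agent.R273.YauDefs_635 (cH)
open Crest.Agent.R257.PN_835 (nsq)
open Crest.Agent.R257.Aff_835 (eta2a nga)
open Crest.Agent.R257.C2F1_625 (c2)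

/-- parameters `(t, s)` -/
abbrev PP : Type := ℂ × ℂ

/-- local parametrisation of the level `{f = s}` in the punctured ball -/
structure PE (f : E3 → ℂ) (s : ℂ) (r : ℝ) (θ : Cn 2 → E3) (O : Set (Cn 2)) : Prop where
  par : Aff_835.Par (n := 2) f s θ O
  ne : ∀ z ∈ O, θ z ≠ 0
  lt : ∀ z ∈ O, nsq (θ z) < r ^ 2

/-- the Kaehler-Einstein equation `det ∂∂̄u = e^u |η|²` on the level -/
structure KEon (f : E3 → ℂ) (s : ℂ) (r : ℝ) (u : E3 → ℝ) : Prop where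
  sm : ∀ θ O, PE f s r θ O → ContDiffOn ℝ ∞ (fun z => u (θ z)) O
  pos : ∀ θ O, PE f s r θ O → ∀ z ∈ O, ∀ v, v ≠ 0 → 0 < lev (fun z => u (θ z)) z v
  ma : ∀ θ O, PE f s r θ O → ∀ z ∈ O,
    (cH (fun z => u (θ z)) z).det = ((Real.exp (u (θ z)) * eta2a (n := 2) f θ z : ℝ) : ℂ)

/-- the bounds -/
structure Bd (f : E3 → ℂ) (s : ℂ) (r C : ℝ) (u : E3 → ℝ) : Prop where
  lo : ∀ x, f x = s → x ≠ 0 → nsq x < r ^ 2 → Real.log (nga (n := 2) f x) - C ≤ u x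
  hi : ∀ x, f x = s → x ≠ 0 → nsq x < r ^ 2 → u x ≤ C
  eu : ∀ θ O, PE f s r θ O → ∀ z ∈ O, ∀ v,
    lev (fun z => nsq (θ z)) z v ≤ C * lev (fun z => u (θ z)) z v

/-- a parametrisation of the family of levels `{Φ(·,τ) = 0}`, `τ` near `τ₀` -/
structure Chart (Φ : E3 × PP → ℂ) (r : ℝ) (τ₀ : PP) (O : Set (Cn 2)) (N : Set PP)
    (Θ : Cn 2 × PP → E3) : Prop where
  nhd : N ∈ 𝓝 τ₀
  an : AnalyticOnNhd ℂ Θ (O ×ˢ N)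
  par : ∀ τ ∈ N, PE (fun x => Φ (x, τ)) 0 r (fun z => Θ (z, τ)) O

/-- `C^∞_loc` convergence on `O` -/
def CvOn (l : Filter PP) (O : Set (Cn 2)) (v : PP → Cn 2 → ℝ) (v₀ : Cn 2 → ℝ) : Prop :=
  ∀ k : ℕ, ∀ K ⊆ O, IsCompact K →
    TendstoUniformlyOn (fun τ z => iteratedFDeriv ℝ k (v τ) z) (iteratedFDeriv ℝ k v₀) l K

/-- `C^∞_loc` convergence of functions on the levels -/
def Conv (Φ : E3 × PP → ℂ) (r : ℝ) (l : Filter PP) (τ₀ : PP) (w : PP → E3 → ℝ) (u : E3 → ℝ) :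
    Prop :=
  ∀ O N Θ, Chart Φ r τ₀ O N Θ →
    CvOn l O (fun τ z => w τ (Θ (z, τ))) (fun z => u (Θ (z, τ₀)))

/-- locally uniform convergence of functions on the levels -/
def Cv0 (Φ : E3 × PP → ℂ) (r : ℝ) (l : Filter PP) (τ₀ : PP) (w : PP → E3 → ℝ) (u : E3 → ℝ) :
    Prop :=
  ∀ O N Θ, Chart Φ r τ₀ O N Θ → ∀ K ⊆ O, IsCompact K →
    TendstoUniformlyOn (fun τ z => w τ (Θ (z, τ))) (fun z => u (Θ (z, τ₀))) l K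

/-- continuity on the level -/
def CtL (f : E3 → ℂ) (s : ℂ) (r : ℝ) (φ : E3 → ℝ) : Prop :=
  ∀ θ O, PE f s r θ O → ContinuousOn (fun z => φ (θ z)) O

/-- a convergent family of levels, smooth away from `0` -/
structure Fam (Φ : E3 × PP → ℂ) (τ₀ : PP) (l : Filter PP) (r : ℝ) : Prop where
  r_pos : 0 < r
  an : ∀ x, nsq x ≤ r ^ 2 → AnalyticAt ℂ Φ (x, τ₀)
  ne : l.NeBot
  lim : l ≤ 𝓝 τ₀
  iso : Iso (fun x => Φ (x, τ₀))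
  sm0 : ∀ x, x ≠ 0 → nsq x ≤ r ^ 2 → Φ (x, τ₀) = 0 → fderiv ℂ (fun x => Φ (x, τ₀)) x ≠ 0
  sm : ∀ᶠ τ in l, ∀ x, x ≠ 0 → nsq x ≤ r ^ 2 → Φ (x, τ) = 0 →
    fderiv ℂ (fun x => Φ (x, τ)) x ≠ 0

/-- convergent Kaehler-Einstein weights on a family of levels -/
structure KEc (Φ : E3 × PP → ℂ) (τ₀ : PP) (l : Filter PP) (r C : ℝ) (w : PP → E3 → ℝ)
    (u : E3 → ℝ) : Prop where
  ke : ∀ᶠ τ in l, KEon (fun x => Φ (x, τ)) 0 r (w τ) ∧ Bd (fun x => Φ (x, τ)) 0 r C (w τ)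
  ke0 : KEon (fun x => Φ (x, τ₀)) 0 r u ∧ Bd (fun x => Φ (x, τ₀)) 0 r C u
  conv : Conv Φ r l τ₀ w u

/-- a convergent family of levels with Kaehler-Einstein weights -/
structure FamD (Φ : E3 × PP → ℂ) (τ₀ : PP) (l : Filter PP) (r C : ℝ) (w : PP → E3 → ℝ)
    (u : E3 → ℝ) : Prop extends Fam Φ τ₀ l r, KEc Φ τ₀ l r C w u

/-- a smoothing: the levels do not contain the origin -/
structure SmD (Φ : E3 × PP → ℂ) (τ₀ : PP) (l : Filter PP) (r C : ℝ) (w : PP → E3 → ℝ)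
    (u : E3 → ℝ) : Prop extends FamD Φ τ₀ l r C w u where
  nz : ∀ᶠ τ in l, Φ (0, τ) ≠ 0

/-- `ν = |η|²` on `{f = s, 0 < |x| < r}` -/
structure IsNu (f : E3 → ℂ) (s : ℂ) (r : ℝ) (ν : Measure E3) : Prop where
  null : ν {x | ¬ (f x = s ∧ x ≠ 0 ∧ nsq x < r ^ 2)} = 0
  par : ∀ θ O, PE f s r θ O → InjOn θ O → ∀ Φ : E3 → ℝ≥0∞, Measurable Φ →
    ∫⁻ x in θ '' O, Φ x ∂ν = ∫⁻ z in O, Φ (θ z) * ENNReal.ofReal (eta2a (n := 2) f θ z)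

open Classical in
/-- the density at `x` w.r.t. `|η|²` of the top form `D θ z` -/
def dns (f : E3 → ℂ) (D : (Cn 2 → E3) → Cn 2 → ℝ) (x : E3) : ℝ :=
  if h : ∃ p : (Cn 2 → E3) × Set (Cn 2) × Cn 2,
    Aff_835.Par (n := 2) f (f x) p.1 p.2.1 ∧ p.2.2 ∈ p.2.1 ∧ p.1 p.2.2 = x
  then D h.choose.1 h.choose.2.2 / eta2a (n := 2) f h.choose.1 h.choose.2.2 else 0

/-- density of `∂∂̄a ∧ ∂∂̄b` -/
def mxd (f : E3 → ℂ) (a b : E3 → ℝ) : E3 → ℝ :=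
  dns f fun θ z => (C2F1_625.pd (cH (fun z => a (θ z)) z) (cH (fun z => b (θ z)) z)).re

/-- density of the second Chern form of the metric `∂∂̄u` -/
def c2d (f : E3 → ℂ) (u : E3 → ℝ) : E3 → ℝ :=
  dns f fun θ z => (c2 (fun y => (cH (fun z => u (θ z)) y)ᵀ) z).re

/-- cut-off -/
structure Cut (r : ℝ) (χ : E3 → ℝ) : Prop where
  sm : ContDiff ℝ ∞ χ
  nn : ∀ x, 0 ≤ χ x
  le : ∀ x, χ x ≤ 1
  one : ∀ᶠ x in 𝓝 0, χ x = 1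
  supp : ∃ r' : ℝ, 0 < r' ∧ r' < r ∧ ∀ x, r' ^ 2 ≤ nsq x → χ x = 0

/-- `∫ χ c₂(∂∂̄u)` -/
def C2I (ν : Measure E3) (f : E3 → ℂ) (u χ : E3 → ℝ) : ℝ≥0∞ :=
  ∫⁻ x, ENNReal.ofReal (χ x * c2d f u x) ∂ν

/-- `∫ χ e^u |η|²` -/
def VOL (ν : Measure E3) (u χ : E3 → ℝ) : ℝ≥0∞ :=
  ∫⁻ x, ENNReal.ofReal (χ x * Real.exp (u x)) ∂ν

/-- `∫ χ (c₂(∂∂̄u) - (2/3) e^u |η|²)` -/
def C2E (ν : Measure E3) (f : E3 → ℂ) (u χ : E3 → ℝ) : ℝ≥0∞ :=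
  ∫⁻ x, ENNReal.ofReal (χ x * (c2d f u x - 2 / 3 * Real.exp (u x))) ∂ν

/-- `∫ u ∂∂̄u ∧ ∂∂̄χ` -/
def TOT (ν : Measure E3) (f : E3 → ℂ) (u χ : E3 → ℝ) : ℝ :=
  ∫ x, u x * mxd f u χ x ∂ν

/-- the residual mass of `u` at `0` -/
def mas (ν : Measure E3) (f : E3 → ℂ) (u χ : E3 → ℝ) : ℝ :=
  (TOT ν f u χ - 2 * (VOL ν u χ).toReal) / Real.pi ^ 2

/-- Kawamata log terminal: `∫ |η|² < ∞` near `0` -/
def Klt (f : E3 → ℂ) : Prop := InJ 1 f fun _ => 1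

/-! ### the leaves -/

/-- existence of `ν` [941: GB-ATL (A3)] -/
def NuStmt : Prop := ∀ (f : E3 → ℂ) (s : ℂ) (r : ℝ), 0 < r →
  (∀ x, nsq x < r ^ 2 → AnalyticAt ℂ f x) →
  (∀ x, x ≠ 0 → nsq x < r ^ 2 → f x = s → fderiv ℂ f x ≠ 0) → ∃ ν, IsNu f s r ν

/-- measurability [941] -/
def MeasStmt : Prop := ∀ (f : E3 → ℂ) (s : ℂ) (r : ℝ), 0 < r →
  (∀ x, nsq x < r ^ 2 → AnalyticAt ℂ f x) →
  (∀ x, x ≠ 0 → nsq x < r ^ 2 → f x = s → fderiv ℂ f x ≠ 0) → ∀ ν, IsNu f s r ν →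
  ∀ φ, CtL f s r φ → AEMeasurable φ ν

/-- Fatou [941: GB-ATL (A4)] -/
def FatStmt : Prop := ∀ (Φ : E3 × PP → ℂ) (τ₀ : PP) (l : Filter PP) (r : ℝ), Fam Φ τ₀ l r →
  ∀ (ν : PP → Measure E3) (ν₀ : Measure E3), (∀ᶠ τ in l, IsNu (fun x => Φ (x, τ)) 0 r (ν τ)) →
  IsNu (fun x => Φ (x, τ₀)) 0 r ν₀ →
  ∀ (φ : PP → E3 → ℝ) (φ₀ : E3 → ℝ), (∀ᶠ τ in l, CtL (fun x => Φ (x, τ)) 0 r (φ τ)) →
  CtL (fun x => Φ (x, τ₀)) 0 r φ₀ → Cv0 Φ r l τ₀ φ φ₀ →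
  ∀ c < ∫⁻ x, ENNReal.ofReal (φ₀ x) ∂ν₀, ∀ᶠ τ in l, c < ∫⁻ x, ENNReal.ofReal (φ τ x) ∂(ν τ)

/-- convergence of the integrals, compact support off the origin [941: GB-ATL (A4)] -/
def CvIStmt : Prop := ∀ (Φ : E3 × PP → ℂ) (τ₀ : PP) (l : Filter PP) (r : ℝ), Fam Φ τ₀ l r →
  ∀ (ν : PP → Measure E3) (ν₀ : Measure E3), (∀ᶠ τ in l, IsNu (fun x => Φ (x, τ)) 0 r (ν τ)) →
  IsNu (fun x => Φ (x, τ₀)) 0 r ν₀ →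
  ∀ (φ : PP → E3 → ℝ) (φ₀ : E3 → ℝ), (∀ᶠ τ in l, CtL (fun x => Φ (x, τ)) 0 r (φ τ)) →
  CtL (fun x => Φ (x, τ₀)) 0 r φ₀ → Cv0 Φ r l τ₀ φ φ₀ →
  (∃ r₁ r₂ : ℝ, 0 < r₁ ∧ 0 < r₂ ∧ r₂ < r ∧
    ∀ x, nsq x ≤ r₁ ^ 2 ∨ r₂ ^ 2 ≤ nsq x → (∀ τ, φ τ x = 0) ∧ φ₀ x = 0) →
  Tendsto (fun τ => ∫ x, φ τ x ∂(ν τ)) l (𝓝 (∫ x, φ₀ x ∂ν₀))

/-- the densities do not depend on the parametrisation -/
def DenStmt : Prop := ∀ (f : E3 → ℂ) (s : ℂ) (r : ℝ), 0 < r →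
  (∀ x, nsq x < r ^ 2 → AnalyticAt ℂ f x) →
  (∀ x, x ≠ 0 → nsq x < r ^ 2 → f x = s → fderiv ℂ f x ≠ 0) →
  ∀ θ O, PE f s r θ O →
  (∀ a b : E3 → ℝ, ContDiffOn ℝ ∞ (fun z => a (θ z)) O → ContDiffOn ℝ ∞ (fun z => b (θ z)) O →
    ∀ z ∈ O, mxd f a b (θ z) * eta2a (n := 2) f θ z =
      (C2F1_625.pd (cH (fun z => a (θ z)) z) (cH (fun z => b (θ z)) z)).re) ∧
  (∀ u, KEon f s r u → ∀ z ∈ O, c2d f u (θ z) * eta2a (n := 2) f θ z =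
      (c2 (fun y => (cH (fun z => u (θ z)) y)ᵀ) z).re)

/-- the densities are continuous on the level -/
def CtDStmt : Prop := ∀ (f : E3 → ℂ) (s : ℂ) (r : ℝ), 0 < r →
  (∀ x, nsq x < r ^ 2 → AnalyticAt ℂ f x) →
  (∀ x, x ≠ 0 → nsq x < r ^ 2 → f x = s → fderiv ℂ f x ≠ 0) → ∀ u, KEon f s r u →
  CtL f s r (c2d f u) ∧ ∀ χ : E3 → ℝ, ContDiff ℝ ∞ χ → CtL f s r (mxd f u χ)

/-- pointwise Bogomolov-Miyaoka-Yau inequality [625: C2F3 `einstein_ge`] -/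
def BmyStmt : Prop := ∀ (f : E3 → ℂ) (s : ℂ) (r : ℝ) (u : E3 → ℝ), 0 < r →
  (∀ x, nsq x < r ^ 2 → AnalyticAt ℂ f x) →
  (∀ x, x ≠ 0 → nsq x < r ^ 2 → f x = s → fderiv ℂ f x ≠ 0) → KEon f s r u →
  ∀ x, f x = s → x ≠ 0 → nsq x < r ^ 2 → 2 / 3 * Real.exp (u x) ≤ c2d f u x

/-- convergence of the densities -/
def CvDStmt : Prop := ∀ (Φ : E3 × PP → ℂ) (τ₀ : PP) (l : Filter PP) (r C : ℝ)
  (w : PP → E3 → ℝ) (u : E3 → ℝ), FamD Φ τ₀ l r C w u → ∀ χ, Cut r χ →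
  Cv0 Φ r l τ₀ (fun τ x => c2d (fun x => Φ (x, τ)) (w τ) x) (c2d (fun x => Φ (x, τ₀)) u) ∧
  Cv0 Φ r l τ₀ (fun τ x => mxd (fun x => Φ (x, τ)) (w τ) χ x) (mxd (fun x => Φ (x, τ₀)) u χ)

/-- the second Chern integral of the smooth levels is bounded -/
def BdStmt : Prop := ∀ (Φ : E3 × PP → ℂ) (τ₀ : PP) (l : Filter PP) (r C : ℝ)
  (w : PP → E3 → ℝ) (u : E3 → ℝ), SmD Φ τ₀ l r C w u → ∀ χ, Cut r χ →
  ∀ (ν : PP → Measure E3), (∀ᶠ τ in l, IsNu (fun x => Φ (x, τ)) 0 r (ν τ)) →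
  ∃ B : ℝ, ∀ᶠ τ in l, C2I (ν τ) (fun x => Φ (x, τ)) (w τ) χ ≤ ENNReal.ofReal B

/-- the free half of (GB), used at `t = 0`: loss of `c₂` at most `μ + 1` -/
def GB0Stmt : Prop := ∀ (Φ : E3 × PP → ℂ) (τ₀ : PP) (l : Filter PP) (r C : ℝ)
  (w : PP → E3 → ℝ) (u : E3 → ℝ), SmD Φ τ₀ l r C w u → ∀ f, f = (fun x => Φ (x, τ₀)) →
  0 < mstar f → ∀ χ, Cut r χ →
  ∀ (ν : PP → Measure E3) (ν₀ : Measure E3), (∀ᶠ τ in l, IsNu (fun x => Φ (x, τ)) 0 r (ν τ)) →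
  IsNu f 0 r ν₀ → ∀ ε : ℝ, 0 < ε → ∀ᶠ τ in l,
  C2I (ν τ) (fun x => Φ (x, τ)) (w τ) χ ≤
    C2I ν₀ f u χ + ENNReal.ofReal (Real.pi ^ 2 * (col (par f) + 1)) + ENNReal.ofReal ε

/-- the other half of (GB), used at `t ≠ 0`: loss of `c₂` at least `μ + 1` if not klt -/
def GBtStmt : Prop := ∀ (Φ : E3 × PP → ℂ) (τ₀ : PP) (l : Filter PP) (r C : ℝ)
  (w : PP → E3 → ℝ) (u : E3 → ℝ), SmD Φ τ₀ l r C w u → ∀ f, f = (fun x => Φ (x, τ₀)) →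
  ¬ Klt f → ∀ χ, Cut r χ →
  ∀ (ν : PP → Measure E3) (ν₀ : Measure E3), (∀ᶠ τ in l, IsNu (fun x => Φ (x, τ)) 0 r (ν τ)) →
  IsNu f 0 r ν₀ → ∀ ε : ℝ, 0 < ε → ∀ᶠ τ in l,
  C2I ν₀ f u χ + ENNReal.ofReal (Real.pi ^ 2 * (col (par f) + 1)) ≤
    C2I (ν τ) (fun x => Φ (x, τ)) (w τ) χ + ENNReal.ofReal ε

/-- (V1): `mstar f ≤` residual mass [822 (M5) / 218 (V1')] -/
def V1Stmt : Prop := ∀ (Φ : E3 × PP → ℂ) (τ₀ : PP) (l : Filter PP) (r C : ℝ)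
  (w : PP → E3 → ℝ) (u : E3 → ℝ), SmD Φ τ₀ l r C w u → ∀ f, f = (fun x => Φ (x, τ₀)) →
  0 < mstar f → ∀ χ, Cut r χ → ∀ ν, IsNu f 0 r ν → mstar f ≤ mas ν f u χ

/-- (V3) = MASS-LE: residual mass `≤ mstar f` if not klt [218] -/
def V3Stmt : Prop := ∀ (Φ : E3 × PP → ℂ) (τ₀ : PP) (l : Filter PP) (r C : ℝ)
  (w : PP → E3 → ℝ) (u : E3 → ℝ), SmD Φ τ₀ l r C w u → ∀ f, f = (fun x => Φ (x, τ₀)) →
  ¬ Klt f → ∀ χ, Cut r χ → ∀ ν, IsNu f 0 r ν → mas ν f u χ ≤ mstar f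

/-- [540 #2698] -/
def KltStmt : Prop := ∀ (G : E3 × ℂ → ℂ) (μ d : ℕ) (R r c₀ e : ℝ) (P : ℂ → MvPolynomial (Fin 3) ℂ)
  (c : Fin 3 → ℂ), GFam G μ d R r c₀ e P c → (∃ᶠ t in 𝓝[≠] (0 : ℂ), InJ 1 (sl G t) fun _ => 1) →
  InJ 1 (sl G 0) fun _ => 1

/-- klt germs have `mstar = 0` -/
def KltMStmt : Prop := ∀ f, Iso f → Klt f → mstar f = 0

/-- the two parameter family -/
def fam (G : E3 × ℂ → ℂ) : E3 × PP → ℂ := fun q => G (q.1, q.2.1) - q.2.2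

/-- (OUT) [835, 37] -/
def OutStmt : Prop := ∀ (G : E3 × ℂ → ℂ) (μ d : ℕ) (R r c₀ e : ℝ)
  (P : ℂ → MvPolynomial (Fin 3) ℂ) (c : Fin 3 → ℂ), GFam G μ d R r c₀ e P c →
  ∃ (r₁ C : ℝ) (w : PP → E3 → ℝ) (S : Ultrafilter ℂ), 0 < r₁ ∧ r₁ < r ∧
    (S : Filter ℂ) ≤ 𝓝[≠] 0 ∧
    (∀ᶠ t in 𝓝[≠] (0 : ℂ),
      KEc (fam G) (t, 0) (map (fun s => (t, s)) (S : Filter ℂ)) r₁ C w (w (t, 0))) ∧
    ∀ T : Ultrafilter ℂ, (T : Filter ℂ) ≤ 𝓝[≠] 0 → ∃ u₀ : E3 → ℝ,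
      KEc (fam G) (0, 0) (map (fun t => (t, 0)) (T : Filter ℂ)) r₁ C w u₀ ∧
      KEc (fam G) (0, 0) (Filter.bind (T : Filter ℂ) fun t => map (fun s => (t, s)) (S : Filter ℂ))
        r₁ C w u₀

end Crest.Agent.R257.KED_952
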