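import Crest.Agent.R257.LimA_37
import Crest.Agent.R257.KED_952
import Crest.Agent.R257.Jac_39

/-!
# R257 (S0395), task GB-SARD (helper761): Sard's theorem on smooth levels

* `sard`      : the image of the points with non-injective derivative is null (equal dimensions)
* `sard_crit` : for a.e. `a` all critical points of `g + a·x` on the level are non-degenerate
* `sard_map`  : for a.e. `c` all zeros of `G - c` on the level are non-degenerate
* `sard_pe`, `sard_pair` : the same in the language of `KED_952`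
-/

set_option autoImplicit false
set_option linter.unusedSectionVars false

open Set Filter Topology Complex MeasureTheory
open scoped ContDiff ComplexConjugate Matrix

namespace Crest.Agent.R257.Srd_761

open Crest.Agent.R275.Geo
open Crest.Agent.R257.PN_835 Crest.Agent.R257.Aff_835 Crest.Agent.R257.LimA_37

noncomputable section

/-- **Sard**, equal finite dimensions -/
theorem sard {E E' : Type*} [NormedAddCommGroup E] [NormedSpace ℂ E] [FiniteDimensional ℂ E]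
    [MeasurableSpace E] [BorelSpace E] [NormedAddCommGroup E'] [NormedSpace ℂ E']
    [FiniteDimensional ℂ E'] (hd : Module.finrank ℂ E' = Module.finrank ℂ E)
    (μ : Measure E) [μ.IsAddHaarMeasure] {Ψ : E' → E} {B : Set E'}
    (hB : ∀ y ∈ B, DifferentiableAt ℂ Ψ y ∧ ∃ v, v ≠ 0 ∧ fderiv ℂ Ψ y v = 0) :
    μ (Ψ '' B) = 0 := by
  have : FiniteDimensional ℝ E := FiniteDimensional.complexToReal E
  let e : E ≃L[ℂ] E' := ContinuousLinearEquiv.ofFinrankEq hd.symm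
  have h1 : Ψ '' B = (fun x => Ψ (e x)) '' (e ⁻¹' B) := by
    ext y
    constructor
    · rintro ⟨x, hx, rfl⟩
      exact ⟨e.symm x, by simpa using hx, by simp⟩
    · rintro ⟨x, hx, rfl⟩
      exact ⟨e x, hx, rfl⟩
  rw [h1]
  refine addHaar_image_eq_zero_of_det_fderivWithin_eq_zero μ
    (f' := fun x => ((fderiv ℂ Ψ (e x)).comp (e : E →L[ℂ] E')).restrictScalars ℝ) ?_ ?_
  · intro x hx
    have h2 : HasFDerivAt (fun x => Ψ (e x)) ((fderiv ℂ Ψ (e x)).comp (e : E →L[ℂ] E')) x :=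
      HasFDerivAt.comp x (g := Ψ) (hB _ hx).1.hasFDerivAt e.hasFDerivAt
    exact (h2.restrictScalars ℝ).hasFDerivWithinAt
  · intro x hx
    obtain ⟨v, hv, h0⟩ := (hB _ hx).2
    refine LinearMap.det_eq_zero_iff_ker_ne_bot.2 fun hbot => hv ?_
    have h3 : e.symm v ∈ LinearMap.ker ((((fderiv ℂ Ψ (e x)).comp
        (e : E →L[ℂ] E')).restrictScalars ℝ : E →L[ℝ] E) : E →ₗ[ℝ] E) := by
      rw [LinearMap.mem_ker]
      show fderiv ℂ Ψ (e x) (e (e.symm v)) = 0
      rw [e.apply_symm_apply, h0]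
    rw [hbot, Submodule.mem_bot] at h3
    have h4 := congrArg e h3
    rwa [e.apply_symm_apply, map_zero] at h4

variable {n : ℕ} {f g : AC n → ℂ} {s : ℂ} {D : Set (AC n)}

/-- tangent vectors of the level are derivatives of the parametrisation -/
theorem exists_tan {θ : Cn n → AC n} {O : Set (Cn n)} (h : Par f s θ O) {z : Cn n} (hz : z ∈ O)
    (hf : DifferentiableAt ℂ f (θ z)) (h0 : fderiv ℂ f (θ z) ≠ 0) {v : AC n}
    (hv : fderiv ℂ f (θ z) v = 0) : ∃ w, fderiv ℂ θ z w = v := by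
  obtain ⟨w₀, hw₀⟩ : ∃ w₀, fderiv ℂ f (θ z) w₀ ≠ 0 := by
    by_contra hcon
    push Not at hcon
    exact h0 (ContinuousLinearMap.ext hcon)
  set L : (Cn n × ℂ) →ₗ[ℂ] AC n := LinearMap.coprod (fderiv ℂ θ z : Cn n →ₗ[ℂ] AC n)
    (LinearMap.toSpanSingleton ℂ (AC n) w₀) with hL
  have hLa : ∀ q : Cn n × ℂ, L q = fderiv ℂ θ z q.1 + q.2 • w₀ := fun q => by simp [hL]
  have hf1 : ∀ q : Cn n × ℂ, fderiv ℂ f (θ z) (L q) = q.2 * fderiv ℂ f (θ z) w₀ := fun q => by
    rw [hLa, map_add, h.ker hz hf, zero_add, map_smul, smul_eq_mul]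
  have hinj : Function.Injective L := by
    rw [injective_iff_map_eq_zero]
    rintro ⟨v, c⟩ hv
    have h1 := hf1 (v, c)
    rw [hv, map_zero] at h1
    have h2 : c = 0 := (mul_eq_zero.1 h1.symm).resolve_right hw₀
    subst h2
    rw [hLa, zero_smul, add_zero] at hv
    rw [h.imm z hz v hv]
    rfl
  have hfr : Module.finrank ℂ (Cn n × ℂ) = Module.finrank ℂ (AC n) := by
    rw [Module.finrank_prod, Module.finrank_self]
    show _ = Module.finrank ℂ (Fin (n + 1) → ℂ)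
    simp
  have hsur : Function.Surjective L :=
    (LinearMap.injective_iff_surjective_of_finrank_eq_finrank hfr).1 hinj
  obtain ⟨q, hq⟩ := hsur v
  have h1 := hf1 q
  rw [hq, hv] at h1
  have h2 : q.2 = 0 := (mul_eq_zero.1 h1.symm).resolve_right hw₀
  rw [hLa, h2, zero_smul, add_zero] at hq
  exact ⟨q.1, hq⟩

/-- countably many parametrisations cover the level -/
theorem exists_cover (hD : IsOpen D) (hf : ∀ x ∈ D, AnalyticAt ℂ f x)
    (hreg : ∀ x ∈ D, f x = s → fderiv ℂ f x ≠ 0) :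
    ∃ (T : Set ((Cn n → AC n) × Set (Cn n))), T.Countable ∧
      (∀ p ∈ T, Par f s p.1 p.2 ∧ ∀ z ∈ p.2, p.1 z ∈ D) ∧
      ∀ x ∈ D, f x = s → ∃ p ∈ T, ∃ z ∈ p.2, p.1 z = x := by
  classical
  set S : Set (AC n) := {x | x ∈ D ∧ f x = s} with hS
  have hc : ∀ x : S, Nonempty (Cht (P := ℂ) (fun _ => f) (fun _ => s) D 0 x.1) := by
    rintro ⟨x, hx, hxs⟩
    refine exists_cht hD hx hxs ?_ (hreg x hx hxs)
    show AnalyticAt ℂ (fun p : AC n × ℂ => f p.1 - s) (x, 0)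
    exact ((hf x hx).comp_of_eq analyticAt_fst rfl).sub analyticAt_const
  let c : ∀ x : S, Cht (P := ℂ) (fun _ => f) (fun _ => s) D 0 x.1 := fun x => (hc x).some
  obtain ⟨T₀, hT₀, hcov⟩ := TopologicalSpace.isOpen_iUnion_countable (fun x : S => (c x).N)
    (fun x => (c x).N_open)
  refine ⟨(fun x : S => ((fun z => (c x).Θ (z, 0)), Metric.ball (0 : Cn n) (c x).ρ)) '' T₀,
    hT₀.image _, ?_, ?_⟩
  · rintro p ⟨x, hx, rfl⟩
    exact ⟨(c x).par 0 (c x).mem_T, fun z hz => (c x).maps z hz 0 (c x).mem_T⟩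
  · intro x hx hxs
    have h1 : x ∈ ⋃ x ∈ T₀, (c x).N := by
      rw [hcov]
      exact mem_iUnion.2 ⟨⟨x, hx, hxs⟩, (c _).mem_N⟩
    obtain ⟨y, hy, hxy⟩ := mem_iUnion₂.1 h1
    have h2 := (c y).right x hxy 0 (c y).mem_T hxs
    exact ⟨_, mem_image_of_mem _ hy, _, h2.1, h2.2⟩

/-! ### maps -/

/-- **Sard for maps on a level** -/
theorem sard_map {E : Type*} [NormedAddCommGroup E] [NormedSpace ℂ E] [FiniteDimensional ℂ E]
    [MeasurableSpace E] [BorelSpace E] (hE : Module.finrank ℂ E = n) (μ : Measure E)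
    [μ.IsAddHaarMeasure] (hD : IsOpen D) (hf : ∀ x ∈ D, AnalyticAt ℂ f x)
    (hreg : ∀ x ∈ D, f x = s → fderiv ℂ f x ≠ 0) {G : AC n → E}
    (hG : ∀ x ∈ D, DifferentiableAt ℂ G x) :
    ∀ᵐ c ∂μ, ∀ x ∈ D, f x = s → G x = c → ∀ v, fderiv ℂ f x v = 0 → fderiv ℂ G x v = 0 → v = 0 := by
  obtain ⟨T, hT, hTp, hTc⟩ := exists_cover hD hf hreg
  set B : (Cn n → AC n) × Set (Cn n) → Set (Cn n) := fun p =>
    {z | z ∈ p.2 ∧ ∃ v, v ≠ 0 ∧ fderiv ℂ G (p.1 z) (fderiv ℂ p.1 z v) = 0} with hB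
  have hder : ∀ p ∈ T, ∀ z ∈ p.2, HasFDerivAt (fun z => G (p.1 z))
      ((fderiv ℂ G (p.1 z)).comp (fderiv ℂ p.1 z)) z := fun p hp z hz =>
    HasFDerivAt.comp z (g := G) (hG _ ((hTp p hp).2 z hz)).hasFDerivAt
      ((hTp p hp).1.diffAt hz).hasFDerivAt
  have hnull : μ (⋃ p ∈ T, (fun z => G (p.1 z)) '' B p) = 0 := by
    rw [measure_biUnion_null_iff hT]
    intro p hp
    refine sard (by rw [hE]; simp) μ fun z hz => ?_
    obtain ⟨hz, v, hv, h0⟩ := hz
    refine ⟨(hder p hp z hz).differentiableAt, v, hv, ?_⟩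
    rw [(hder p hp z hz).fderiv]
    exact h0
  refine (measure_eq_zero_iff_ae_notMem.1 hnull).mono fun c hc x hx hxs hGc v hv hv' => ?_
  by_contra hne
  obtain ⟨p, hp, z, hz, rfl⟩ := hTc x hx hxs
  obtain ⟨w, rfl⟩ := exists_tan (hTp p hp).1 hz (hf _ hx).differentiableAt (hreg _ hx hxs) hv
  refine hc (mem_iUnion₂.2 ⟨p, hp, z, ⟨hz, w, fun h => hne ?_, hv'⟩, hGc⟩)
  rw [h, map_zero]

/-! ### critical points of linear perturbations -/

/-- coordinates of a covector -/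
def co (n : ℕ) : (AC n →L[ℂ] ℂ) →L[ℂ] AC n :=
  ContinuousLinearMap.pi fun k => ContinuousLinearMap.apply ℂ ℂ (Pi.single k (1 : ℂ))

@[simp] theorem co_apply (L : AC n →L[ℂ] ℂ) (k : Fin (n + 1)) : co n L k = L (Pi.single k 1) := rfl

theorem co_sum (L : AC n →L[ℂ] ℂ) (w : AC n) : ∑ k, co n L k * w k = L w := by
  have h1 : w = ∑ k, w k • (Pi.single k (1 : ℂ) : AC n) := by
    funext j
    simp [Finset.sum_apply, Pi.single_apply]
  conv_rhs => rw [h1, map_sum]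
  refine Finset.sum_congr rfl fun k _ => ?_
  rw [map_smul, smul_eq_mul, mul_comm, co_apply]

theorem co_inj {L L' : AC n →L[ℂ] ℂ} (h : co n L = co n L') : L = L' := by
  ext w
  rw [← co_sum L, ← co_sum L', h]

/-- second derivative -/
abbrev d2 (f : AC n → ℂ) (x : AC n) : AC n →L[ℂ] (AC n →L[ℂ] ℂ) := fderiv ℂ (fderiv ℂ f) x

/-- the Gauss type map `(x, λ) ↦ λ df(x) - dg(x)` -/
def Ga (f g : AC n → ℂ) (q : AC n × ℂ) : AC n →L[ℂ] ℂ := q.2 • fderiv ℂ f q.1 - fderiv ℂ g q.1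

theorem hasGa {x : AC n} (hf : AnalyticAt ℂ f x) (hg : AnalyticAt ℂ g x) (l : ℂ) :
    ∃ L : AC n × ℂ →L[ℂ] (AC n →L[ℂ] ℂ), HasFDerivAt (Ga f g) L (x, l) ∧
      ∀ v c, L (v, c) = c • fderiv ℂ f x + l • d2 f x v - d2 g x v := by
  have h1 : HasFDerivAt (fun q : AC n × ℂ => fderiv ℂ f q.1)
      ((d2 f x).comp (ContinuousLinearMap.fst ℂ (AC n) ℂ)) (x, l) :=
    HasFDerivAt.comp (x, l) (g := fderiv ℂ f) hf.fderiv.differentiableAt.hasFDerivAt hasFDerivAt_fst
  have h2 : HasFDerivAt (fun q : AC n × ℂ => fderiv ℂ g q.1)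
      ((d2 g x).comp (ContinuousLinearMap.fst ℂ (AC n) ℂ)) (x, l) :=
    HasFDerivAt.comp (x, l) (g := fderiv ℂ g) hg.fderiv.differentiableAt.hasFDerivAt hasFDerivAt_fst
  have h3 := ((hasFDerivAt_snd (𝕜 := ℂ) (p := (x, l))).smul h1).sub h2
  refine ⟨_, h3, fun v c => ?_⟩
  simp
  abel

/-- **Sard for critical points, intrinsic form** -/
theorem sard_int (hD : IsOpen D) (hf : ∀ x ∈ D, AnalyticAt ℂ f x)
    (hreg : ∀ x ∈ D, f x = s → fderiv ℂ f x ≠ 0) (hg : ∀ x ∈ D, AnalyticAt ℂ g x) :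
    ∀ᵐ a : AC n, ∀ x ∈ D, f x = s → ∀ l : ℂ, co n (Ga f g (x, l)) = a → ∀ v, fderiv ℂ f x v = 0 →
      (∀ w, fderiv ℂ f x w = 0 → d2 g x v w = l * d2 f x v w) → v = 0 := by
  obtain ⟨T, hT, hTp, hTc⟩ := exists_cover hD hf hreg
  set B : (Cn n → AC n) × Set (Cn n) → Set (Cn n × ℂ) := fun p =>
    {q | q.1 ∈ p.2 ∧ ∃ v, v ≠ 0 ∧ fderiv ℂ f (p.1 q.1) v = 0 ∧
      ∀ w, fderiv ℂ f (p.1 q.1) w = 0 → d2 g (p.1 q.1) v w = q.2 * d2 f (p.1 q.1) v w} with hB
  have hnull : volume (⋃ p ∈ T, (fun q : Cn n × ℂ => co n (Ga f g (p.1 q.1, q.2))) '' B p) = 0 := by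
    rw [measure_biUnion_null_iff hT]
    intro p hp
    have hfr : Module.finrank ℂ (Cn n × ℂ) = Module.finrank ℂ (AC n) := by
      rw [Module.finrank_prod, Module.finrank_self]
      show _ = Module.finrank ℂ (Fin (n + 1) → ℂ)
      simp
    refine sard hfr volume ?_
    rintro ⟨z, l⟩ ⟨hz, v, hv, hfv, hQ⟩
    replace hz : z ∈ p.2 := hz
    have hx := (hTp p hp).2 z hz
    have hreg' := hreg _ hx ((hTp p hp).1.lvl z hz)
    obtain ⟨L, hL, hLa⟩ := hasGa (hf _ hx) (hg _ hx) l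
    have h1 : HasFDerivAt (fun q : Cn n × ℂ => (p.1 q.1, q.2))
        (((fderiv ℂ p.1 z).comp (ContinuousLinearMap.fst ℂ (Cn n) ℂ)).prod
          (ContinuousLinearMap.snd ℂ (Cn n) ℂ)) (z, l) :=
      (HasFDerivAt.comp (z, l) (g := p.1) ((hTp p hp).1.diffAt hz).hasFDerivAt
        hasFDerivAt_fst).prodMk hasFDerivAt_snd
    have h2 : HasFDerivAt (fun q : Cn n × ℂ => co n (Ga f g (p.1 q.1, q.2)))
        ((co n).comp (L.comp (((fderiv ℂ p.1 z).comp (ContinuousLinearMap.fst ℂ (Cn n) ℂ)).prod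
          (ContinuousLinearMap.snd ℂ (Cn n) ℂ)))) (z, l) :=
      HasFDerivAt.comp (z, l) (g := co n) (co n).hasFDerivAt
        (HasFDerivAt.comp (z, l) (g := Ga f g) hL h1)
    obtain ⟨w, hw⟩ := exists_tan (hTp p hp).1 hz (hf _ hx).differentiableAt hreg' hfv
    obtain ⟨w₀, hw₀⟩ : ∃ w₀, fderiv ℂ f (p.1 z) w₀ ≠ 0 := by
      by_contra hcon
      push Not at hcon
      exact hreg' (ContinuousLinearMap.ext hcon)
    set c : ℂ := (d2 g (p.1 z) v w₀ - l * d2 f (p.1 z) v w₀) / fderiv ℂ f (p.1 z) w₀ with hc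
    refine ⟨h2.differentiableAt, (w, c), ?_, ?_⟩
    · intro h0
      apply hv
      rw [← hw, (Prod.mk.inj h0).1, map_zero]
    · rw [h2.fderiv]
      show co n (L (fderiv ℂ p.1 z w, c)) = 0
      rw [hw, hLa]
      have h3 : c • fderiv ℂ f (p.1 z) + l • d2 f (p.1 z) v - d2 g (p.1 z) v = 0 := by
        ext u
        -- decompose `u`
        set b : ℂ := fderiv ℂ f (p.1 z) u / fderiv ℂ f (p.1 z) w₀ with hb
        have h4 : fderiv ℂ f (p.1 z) (u - b • w₀) = 0 := by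
          rw [map_sub, map_smul, smul_eq_mul, hb, div_mul_cancel₀ _ hw₀, sub_self]
        have h5 := hQ _ h4
        rw [map_sub, map_sub, map_smul, map_smul, smul_eq_mul, smul_eq_mul] at h5
        show c * fderiv ℂ f (p.1 z) u + l * d2 f (p.1 z) v u - d2 g (p.1 z) v u = 0
        have h6 : fderiv ℂ f (p.1 z) u = b * fderiv ℂ f (p.1 z) w₀ := by
          rw [hb, div_mul_cancel₀ _ hw₀]
        have h7 : c * fderiv ℂ f (p.1 z) w₀ = d2 g (p.1 z) v w₀ - l * d2 f (p.1 z) v w₀ := by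
          rw [hc, div_mul_cancel₀ _ hw₀]
        rw [h6]
        replace h5 : d2 g (p.1 z) v u - b * d2 g (p.1 z) v w₀ =
            l * (d2 f (p.1 z) v u - b * d2 f (p.1 z) v w₀) := h5
        linear_combination b * h7 - h5
      rw [h3, map_zero]
  refine (measure_eq_zero_iff_ae_notMem.1 hnull).mono fun a ha x hx hxs l hl v hv hQ => ?_
  by_contra hne
  obtain ⟨p, hp, z, hz, rfl⟩ := hTc x hx hxs
  exact ha (mem_iUnion₂.2 ⟨p, hp, (z, l), ⟨hz, v, hne, hv, hQ⟩, hl⟩)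

/-- the Hessian of `(g + a·x) ∘ θ` at a critical point -/
theorem hess_eq {θ : Cn n → AC n} {O : Set (Cn n)} (h : Par f s θ O) {z : Cn n} (hz : z ∈ O)
    (hf : ∀ x ∈ D, AnalyticAt ℂ f x) (hg : ∀ x ∈ D, AnalyticAt ℂ g x)
    (hθD : ∀ z ∈ O, θ z ∈ D) (a : AC n) (l : ℂ) (hl : co n (Ga f g (θ z, l)) = a) (v w : Cn n) :
    fderiv ℂ (fun y => fderiv ℂ (fun z => g (θ z) + ∑ i, a i * θ z i) y w) z v =
      d2 g (θ z) (fderiv ℂ θ z v) (fderiv ℂ θ z w) -
        l * d2 f (θ z) (fderiv ℂ θ z v) (fderiv ℂ θ z w) := by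
  have hθ2 : DifferentiableAt ℂ (fderiv ℂ θ) z :=
    (Crest.Agent.R266.SCV.analyticOnNhd_of_differentiableOn h.isOpen h.hol z hz).fderiv.differentiableAt
  set A : AC n →L[ℂ] ℂ := Ga f g (θ z, l) with hA
  have hAw : ∀ w, ∑ i, a i * w i = A w := fun w => by rw [← hl, co_sum]
  have h1 : ∀ y ∈ O, fderiv ℂ (fun z => g (θ z) + ∑ i, a i * θ z i) y w =
      (fderiv ℂ g (θ y) - l • fderiv ℂ f (θ y) + A) (fderiv ℂ θ y w) := by
    intro y hy
    have h2 : HasFDerivAt (fun z => g (θ z) + ∑ i, a i * θ z i)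
        ((fderiv ℂ g (θ y)).comp (fderiv ℂ θ y) + A.comp (fderiv ℂ θ y)) y := by
      have h3 := (HasFDerivAt.comp y (g := g) (hg _ (hθD y hy)).differentiableAt.hasFDerivAt
        (h.diffAt hy).hasFDerivAt).add (HasFDerivAt.comp y (g := A) A.hasFDerivAt
          (h.diffAt hy).hasFDerivAt)
      refine h3.congr_of_eventuallyEq (Eventually.of_forall fun y => ?_)
      show g (θ y) + ∑ i, a i * θ y i = g (θ y) + A (θ y)
      rw [hAw]
    rw [h2.fderiv]
    have h4 := h.ker hy (hf _ (hθD y hy)).differentiableAt w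
    show fderiv ℂ g (θ y) (fderiv ℂ θ y w) + A (fderiv ℂ θ y w) =
      fderiv ℂ g (θ y) (fderiv ℂ θ y w) - l * fderiv ℂ f (θ y) (fderiv ℂ θ y w) +
        A (fderiv ℂ θ y w)
    rw [h4]
    ring
  have h2 : (fun y => fderiv ℂ (fun z => g (θ z) + ∑ i, a i * θ z i) y w) =ᶠ[𝓝 z]
      fun y => (fderiv ℂ g (θ y) - l • fderiv ℂ f (θ y) + A) (fderiv ℂ θ y w) := by
    filter_upwards [h.isOpen.mem_nhds hz] with y hy using h1 y hy
  rw [h2.fderiv_eq]
  have hθz := (h.diffAt hz).hasFDerivAt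
  have hgd : HasFDerivAt (fun y => fderiv ℂ g (θ y)) ((d2 g (θ z)).comp (fderiv ℂ θ z)) z :=
    HasFDerivAt.comp z (g := fderiv ℂ g)
      (hg _ (hθD z hz)).fderiv.differentiableAt.hasFDerivAt hθz
  have hfd : HasFDerivAt (fun y => fderiv ℂ f (θ y)) ((d2 f (θ z)).comp (fderiv ℂ θ z)) z :=
    HasFDerivAt.comp z (g := fderiv ℂ f)
      (hf _ (hθD z hz)).fderiv.differentiableAt.hasFDerivAt hθz
  have hc : HasFDerivAt (fun y => fderiv ℂ g (θ y) - l • fderiv ℂ f (θ y) + A)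
      ((d2 g (θ z)).comp (fderiv ℂ θ z) - l • (d2 f (θ z)).comp (fderiv ℂ θ z)) z :=
    (hgd.sub (hfd.const_smul l)).add_const A
  have hu : HasFDerivAt (fun y => fderiv ℂ θ y w)
      ((ContinuousLinearMap.apply ℂ (AC n) w).comp (fderiv ℂ (fderiv ℂ θ) z)) z :=
    HasFDerivAt.comp z (g := ContinuousLinearMap.apply ℂ (AC n) w)
      (ContinuousLinearMap.apply ℂ (AC n) w).hasFDerivAt hθ2.hasFDerivAt
  have hfin := hc.clm_apply hu
  rw [hfin.fderiv]
  have hM : fderiv ℂ g (θ z) - l • fderiv ℂ f (θ z) + A = 0 := by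
    rw [hA]
    show fderiv ℂ g (θ z) - l • fderiv ℂ f (θ z) + (l • fderiv ℂ f (θ z) - fderiv ℂ g (θ z)) = 0
    abel
  rw [hM]
  simp

/-- **Sard for critical points of linear perturbations on a level** -/
theorem sard_crit (hD : IsOpen D) (hf : ∀ x ∈ D, AnalyticAt ℂ f x)
    (hreg : ∀ x ∈ D, f x = s → fderiv ℂ f x ≠ 0) (hg : ∀ x ∈ D, AnalyticAt ℂ g x) :
    ∀ᵐ a : AC n, ∀ (θ : Cn n → AC n) (O : Set (Cn n)), Par f s θ O → (∀ z ∈ O, θ z ∈ D) →
      ∀ z ∈ O, (∀ v, fderiv ℂ (fun z => g (θ z) + ∑ i, a i * θ z i) z v = 0) →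
      (Matrix.of fun i j : Fin n => fderiv ℂ (fun y => fderiv ℂ (fun z => g (θ z) +
        ∑ i, a i * θ z i) y (EuclideanSpace.single j 1)) z (EuclideanSpace.single i 1)).det ≠ 0 := by
  refine (sard_int hD hf hreg hg).mono fun a ha θ O h hθD z hz hcr hdet => ?_
  have hx := hθD z hz
  have hreg' := hreg _ hx (h.lvl z hz)
  obtain ⟨w₀, hw₀⟩ : ∃ w₀, fderiv ℂ f (θ z) w₀ ≠ 0 := by
    by_contra hcon
    push Not at hcon
    exact hreg' (ContinuousLinearMap.ext hcon)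
  obtain ⟨A, hAw⟩ : ∃ A : AC n →L[ℂ] ℂ, ∀ w, ∑ i, a i * w i = A w :=
    ⟨∑ i, a i • (ContinuousLinearMap.proj (R := ℂ) (φ := fun _ : Fin (n + 1) => ℂ) i),
      fun w => by simp⟩
  -- the Lagrange multiplier
  have hder : ∀ v, fderiv ℂ g (θ z) (fderiv ℂ θ z v) + ∑ i, a i * (fderiv ℂ θ z v) i = 0 := by
    intro v
    have h2 : HasFDerivAt (fun z => g (θ z) + ∑ i, a i * θ z i)
        ((fderiv ℂ g (θ z)).comp (fderiv ℂ θ z) + A.comp (fderiv ℂ θ z)) z := by
      have h3 := (HasFDerivAt.comp z (g := g) (hg _ hx).differentiableAt.hasFDerivAt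
        (h.diffAt hz).hasFDerivAt).add (HasFDerivAt.comp z (g := A) A.hasFDerivAt
          (h.diffAt hz).hasFDerivAt)
      refine h3.congr_of_eventuallyEq (Eventually.of_forall fun y => ?_)
      show g (θ y) + ∑ i, a i * θ y i = g (θ y) + A (θ y)
      rw [hAw]
    have h3 := hcr v
    rw [h2.fderiv] at h3
    rw [hAw]
    exact h3
  set l : ℂ := (fderiv ℂ g (θ z) w₀ + ∑ i, a i * w₀ i) / fderiv ℂ f (θ z) w₀ with hl
  have hll : l * fderiv ℂ f (θ z) w₀ = fderiv ℂ g (θ z) w₀ + ∑ i, a i * w₀ i := by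
    rw [hl, div_mul_cancel₀ _ hw₀]
  have hGa : co n (Ga f g (θ z, l)) = a := by
    have h1 : ∀ u : AC n, l * fderiv ℂ f (θ z) u = fderiv ℂ g (θ z) u + ∑ i, a i * u i := by
      intro u
      set b : ℂ := fderiv ℂ f (θ z) u / fderiv ℂ f (θ z) w₀ with hb
      have hb' : fderiv ℂ f (θ z) u = b * fderiv ℂ f (θ z) w₀ := by
        rw [hb, div_mul_cancel₀ _ hw₀]
      have h4 : fderiv ℂ f (θ z) (u - b • w₀) = 0 := by
        rw [map_sub, map_smul, smul_eq_mul, hb', sub_self]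
      obtain ⟨v, hv⟩ := exists_tan h hz (hf _ hx).differentiableAt hreg' h4
      have h5 := hder v
      rw [hv, map_sub, map_smul, smul_eq_mul] at h5
      have h6 : ∑ i, a i * (u - b • w₀) i = ∑ i, a i * u i - b * ∑ i, a i * w₀ i := by
        rw [Finset.mul_sum, ← Finset.sum_sub_distrib]
        refine Finset.sum_congr rfl fun i _ => ?_
        rw [Pi.sub_apply, Pi.smul_apply, smul_eq_mul]
        ring
      rw [h6] at h5
      rw [hb']
      linear_combination b * hll - h5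
    funext k
    have h2 := h1 (Pi.single k 1)
    have h3 : ∑ i, a i * (Pi.single k (1 : ℂ) : AC n) i = a k := by
      simp [Pi.single_apply]
    rw [h3] at h2
    show l * fderiv ℂ f (θ z) (Pi.single k 1) - fderiv ℂ g (θ z) (Pi.single k 1) = a k
    rw [h2]
    ring
  obtain ⟨c, hc, hc0⟩ := Matrix.exists_vecMul_eq_zero_iff.2 hdet
  set v : Cn n := ∑ i, c i • EuclideanSpace.single i (1 : ℂ) with hv
  have hvc : ∀ i, v i = c i := by
    intro i
    rw [hv]
    simp [Pi.single_apply]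
  have hv0 : v ≠ 0 := by
    intro h0
    apply hc
    funext i
    rw [← hvc, h0]
    rfl
  have hvj : ∀ j : Fin n, d2 g (θ z) (fderiv ℂ θ z v) (fderiv ℂ θ z (EuclideanSpace.single j 1)) -
      l * d2 f (θ z) (fderiv ℂ θ z v) (fderiv ℂ θ z (EuclideanSpace.single j 1)) = 0 := by
    intro j
    rw [← hess_eq h hz hf hg hθD a l hGa, hv, map_sum]
    have h1 := congrFun hc0 j
    rw [Matrix.vecMul, dotProduct] at h1
    rw [Pi.zero_apply] at h1
    rw [← h1]
    refine Finset.sum_congr rfl fun i _ => ?_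
    rw [map_smul, smul_eq_mul]
    rfl
  have h7 : fderiv ℂ θ z v = 0 := by
    refine ha (θ z) hx (h.lvl z hz) l hGa _ (h.ker hz (hf _ hx).differentiableAt v) fun w hw => ?_
    obtain ⟨u, rfl⟩ := exists_tan h hz (hf _ hx).differentiableAt hreg' hw
    have hu : u = ∑ j, u j • EuclideanSpace.single j (1 : ℂ) := by
      ext i
      simp [Pi.single_apply]
    rw [hu]
    simp only [map_sum, map_smul, smul_eq_mul]
    rw [Finset.mul_sum]
    refine Finset.sum_congr rfl fun j _ => ?_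
    linear_combination (u j) * hvj j
  exact hv0 (h.imm z hz v h7)

/-! ### the language of `KED_952` -/

section ked

open Crest.Agent.R257.KED_952 Crest.Agent.R273.Calc_243
open Crest.Agent.R257.Defs_219 (E3)
open Crest.Agent.R257.Jac_39 (jc ee)

theorem dS_hol {m : ℕ} {F : Cn m → ℂ} {z : Cn m} (hF : DifferentiableAt ℂ F z) (a : Fin m) :
    dS (-I) a F z = fderiv ℂ F z (EuclideanSpace.single a 1) := by
  have h1 : fderiv ℝ F z = (fderiv ℂ F z).restrictScalars ℝ :=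
    (hF.hasFDerivAt.restrictScalars ℝ).fderiv
  have h2 : (EuclideanSpace.single a I : Cn m) = I • EuclideanSpace.single a (1 : ℂ) := by
    ext i
    simp
  rw [dS, h1, h2]
  show (1 / 2 : ℂ) * (fderiv ℂ F z (EuclideanSpace.single a 1) +
    -I * fderiv ℂ F z (I • EuclideanSpace.single a (1 : ℂ))) = _
  rw [map_smul, smul_eq_mul]
  linear_combination (-(1 / 2 : ℂ) * fderiv ℂ F z (EuclideanSpace.single a 1)) * I_sq

theorem dS_dS_hol {m : ℕ} {F : Cn m → ℂ} {O : Set (Cn m)} (hO : IsOpen O) {z : Cn m} (hz : z ∈ O)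
    (hF : DifferentiableOn ℂ F O) (a b : Fin m) :
    dS (-I) a (dS (-I) b F) z = fderiv ℂ (fun y => fderiv ℂ F y (EuclideanSpace.single b 1)) z
      (EuclideanSpace.single a 1) := by
  have h1 : dS (-I) b F =ᶠ[𝓝 z] fun y => fderiv ℂ F y (EuclideanSpace.single b 1) := by
    filter_upwards [hO.mem_nhds hz] with y hy
    exact dS_hol (hF.differentiableAt (hO.mem_nhds hy)) b
  have h2 : DifferentiableAt ℂ (fun y => fderiv ℂ F y (EuclideanSpace.single b 1)) z :=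
    (ContinuousLinearMap.apply ℂ ℂ (EuclideanSpace.single b (1 : ℂ))).differentiableAt.comp z
      (Crest.Agent.R266.SCV.analyticOnNhd_of_differentiableOn hO hF z hz).fderiv.differentiableAt
  rw [dS_congr h1, dS_hol h2]

theorem isOpen_pball (r : ℝ) : IsOpen {x : E3 | x ≠ 0 ∧ nsq x < r ^ 2} :=
  isOpen_ne.inter (isOpen_lt continuous_nsq continuous_const)

/-- **Sard on levels, one function**: for almost all `a` the critical points of `g + a·x` on the
level `{f = s, 0 < |x| < r}` are non-degenerate. -/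
theorem sard_pe {f g : E3 → ℂ} {s : ℂ} {r : ℝ} (hf : ∀ x, nsq x < r ^ 2 → AnalyticAt ℂ f x)
    (hreg : ∀ x, x ≠ 0 → nsq x < r ^ 2 → f x = s → fderiv ℂ f x ≠ 0)
    (hg : ∀ x, nsq x < r ^ 2 → AnalyticAt ℂ g x) :
    ∀ᵐ a : E3, ∀ θ O, PE f s r θ O → ∀ z ∈ O,
      (∀ v, fderiv ℂ (fun z => g (θ z) + ∑ i, a i * θ z i) z v = 0) →
      (Matrix.of fun i j : Fin 2 => fderiv ℂ (fun y => fderiv ℂ (fun z => g (θ z) +
        ∑ i, a i * θ z i) y (EuclideanSpace.single j 1)) z (EuclideanSpace.single i 1)).det ≠ 0 ∧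
      (Matrix.of fun i j : Fin 2 => dS (-I) i (dS (-I) j (fun z => g (θ z) +
        ∑ i, a i * θ z i)) z).det ≠ 0 := by
  have h1 := sard_crit (n := 2) (f := f) (g := g) (s := s) (D := {x : E3 | x ≠ 0 ∧ nsq x < r ^ 2})
    (isOpen_pball r) (fun x hx => hf x hx.2) (fun x hx => hreg x hx.1 hx.2) (fun x hx => hg x hx.2)
  refine h1.mono fun a ha θ O h z hz hcr => ?_
  have h2 := ha θ O h.par (fun z hz => ⟨h.ne z hz, h.lt z hz⟩) z hz hcr
  refine ⟨h2, ?_⟩
  have hF : DifferentiableOn ℂ (fun z => g (θ z) + ∑ i, a i * θ z i) O := by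
    intro y hy
    refine DifferentiableAt.differentiableWithinAt ?_
    refine ((hg _ (h.lt y hy)).differentiableAt.comp y (h.par.diffAt hy)).add ?_
    refine DifferentiableAt.fun_sum fun i _ => ?_
    exact (differentiableAt_pi.1 (h.par.diffAt hy) i).const_mul _
  have h3 : (Matrix.of fun i j : Fin 2 => dS (-I) i (dS (-I) j (fun z => g (θ z) +
        ∑ i, a i * θ z i)) z) = Matrix.of fun i j : Fin 2 => fderiv ℂ (fun y => fderiv ℂ
          (fun z => g (θ z) + ∑ i, a i * θ z i) y (EuclideanSpace.single j 1)) z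
            (EuclideanSpace.single i 1) := by
    ext i j
    exact dS_dS_hol h.par.isOpen hz hF i j
  rw [h3]
  exact h2

/-- **Sard on levels, two functions**: for almost all `c` the zeros of `(g - c₁, h - c₂)` on the
level `{f = s, 0 < |x| < r}` are non-degenerate. -/
theorem sard_pair {f g h : E3 → ℂ} {s : ℂ} {r : ℝ} (hf : ∀ x, nsq x < r ^ 2 → AnalyticAt ℂ f x)
    (hreg : ∀ x, x ≠ 0 → nsq x < r ^ 2 → f x = s → fderiv ℂ f x ≠ 0)
    (hg : ∀ x, nsq x < r ^ 2 → AnalyticAt ℂ g x) (hh : ∀ x, nsq x < r ^ 2 → AnalyticAt ℂ h x) :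
    ∀ᵐ c : ℂ × ℂ, ∀ θ O, PE f s r θ O → ∀ z ∈ O, g (θ z) = c.1 → h (θ z) = c.2 →
      jc (fun z => g (θ z)) (fun z => h (θ z)) z ≠ 0 ∧
      (Matrix.of fun i a : Fin 2 => dS (-I) a (fun z => (![g (θ z) - c.1, h (θ z) - c.2] : Fin 2 → ℂ)
        i) z).det ≠ 0 := by
  have hgh : ∀ x, nsq x < r ^ 2 → HasFDerivAt (fun x => (g x, h x))
      ((fderiv ℂ g x).prod (fderiv ℂ h x)) x := fun x hx =>
    (hg x hx).differentiableAt.hasFDerivAt.prodMk (hh x hx).differentiableAt.hasFDerivAt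
  have hvol : (volume : Measure (ℂ × ℂ)).IsAddHaarMeasure := by
    rw [Measure.volume_eq_prod]
    infer_instance
  have h1 := sard_map (n := 2) (f := f) (s := s) (D := {x : E3 | x ≠ 0 ∧ nsq x < r ^ 2})
    (E := ℂ × ℂ) (by simp) (volume : Measure (ℂ × ℂ)) (isOpen_pball r) (fun x hx => hf x hx.2)
    (fun x hx => hreg x hx.1 hx.2) (G := fun x => (g x, h x))
    (fun x hx => (hgh x hx.2).differentiableAt)
  refine h1.mono fun c hc θ O hp z hz hgc hhc => ?_
  have hl := hp.lt z hz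
  have hker := hc (θ z) ⟨hp.ne z hz, hl⟩ (hp.par.lvl z hz) (Prod.ext hgc hhc)
  have hdg : ∀ v, fderiv ℂ (fun z => g (θ z)) z v = fderiv ℂ g (θ z) (fderiv ℂ θ z v) := fun v =>
    Jac_39.fderiv_comp_par hp.par hz (hg _ hl).differentiableAt v
  have hdh : ∀ v, fderiv ℂ (fun z => h (θ z)) z v = fderiv ℂ h (θ z) (fderiv ℂ θ z v) := fun v =>
    Jac_39.fderiv_comp_par hp.par hz (hh _ hl).differentiableAt v
  have hj : jc (fun z => g (θ z)) (fun z => h (θ z)) z ≠ 0 := by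
    intro h0
    set M : Matrix (Fin 2) (Fin 2) ℂ :=
      !![fderiv ℂ (fun z => g (θ z)) z (ee 0), fderiv ℂ (fun z => g (θ z)) z (ee 1);
        fderiv ℂ (fun z => h (θ z)) z (ee 0), fderiv ℂ (fun z => h (θ z)) z (ee 1)] with hM
    have hdet : M.det = 0 := by
      rw [hM, Matrix.det_fin_two_of, ← h0, jc]
    obtain ⟨v, hv, hv0⟩ := Matrix.exists_mulVec_eq_zero_iff.2 hdet
    set w : Cn 2 := v 0 • ee 0 + v 1 • ee 1 with hw
    have e0 := congrFun hv0 0
    have e1 := congrFun hv0 1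
    have hMe : ∀ i, (M *ᵥ v) i = M i 0 * v 0 + M i 1 * v 1 := fun i => by
      simp [Matrix.mulVec, dotProduct, Fin.sum_univ_two]
    rw [hMe] at e0 e1
    have f0 : fderiv ℂ g (θ z) (fderiv ℂ θ z w) = 0 := by
      rw [← hdg, hw, map_add, map_smul, map_smul, smul_eq_mul, smul_eq_mul]
      have : M 0 0 * v 0 + M 0 1 * v 1 = 0 := e0
      rw [← this, hM]
      show _ = fderiv ℂ (fun z => g (θ z)) z (ee 0) * v 0 + fderiv ℂ (fun z => g (θ z)) z (ee 1) * v 1
      ring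
    have f1 : fderiv ℂ h (θ z) (fderiv ℂ θ z w) = 0 := by
      rw [← hdh, hw, map_add, map_smul, map_smul, smul_eq_mul, smul_eq_mul]
      have : M 1 0 * v 0 + M 1 1 * v 1 = 0 := e1
      rw [← this, hM]
      show _ = fderiv ℂ (fun z => h (θ z)) z (ee 0) * v 0 + fderiv ℂ (fun z => h (θ z)) z (ee 1) * v 1
      ring
    have f2 : fderiv ℂ θ z w = 0 := by
      refine hker _ (hp.par.ker hz (hf _ hl).differentiableAt w) ?_
      rw [(hgh _ hl).fderiv]
      show (fderiv ℂ g (θ z) (fderiv ℂ θ z w), fderiv ℂ h (θ z) (fderiv ℂ θ z w)) = 0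
      rw [f0, f1]
      rfl
    have f3 : w = 0 := hp.par.imm z hz w f2
    apply hv
    funext i
    have f4 : ∀ i, w i = v i := by
      intro i
      rw [hw]
      fin_cases i <;> simp
    rw [← f4, f3]
    rfl
  refine ⟨hj, ?_⟩
  have hgd : DifferentiableAt ℂ (fun z => g (θ z)) z :=
    (hg _ hl).differentiableAt.comp z (hp.par.diffAt hz)
  have hhd : DifferentiableAt ℂ (fun z => h (θ z)) z :=
    (hh _ hl).differentiableAt.comp z (hp.par.diffAt hz)
  have d0 : ∀ a : Fin 2, dS (-I) a (fun z => g (θ z) - c.1) z =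
      fderiv ℂ (fun z => g (θ z)) z (ee a) := fun a => by
    rw [dS_hol (hgd.sub_const _), fderiv_sub_const]
  have d1 : ∀ a : Fin 2, dS (-I) a (fun z => h (θ z) - c.2) z =
      fderiv ℂ (fun z => h (θ z)) z (ee a) := fun a => by
    rw [dS_hol (hhd.sub_const _), fderiv_sub_const]
  rw [Matrix.det_fin_two]
  show dS (-I) 0 (fun z => g (θ z) - c.1) z * dS (-I) 1 (fun z => h (θ z) - c.2) z -
    dS (-I) 1 (fun z => g (θ z) - c.1) z * dS (-I) 0 (fun z => h (θ z) - c.2) z ≠ 0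
  rw [d0, d0, d1, d1]
  exact hj

end ked

end

end Crest.Agent.R257.Srd_761
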