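import Crest.Agent.R257.LossD_309
import Crest.Agent.R257.Srd_761

/-!
R257 / Mnr_149 (helper149): the leaf `MnrStmt` of LossD_309.

With `S, T = ∂_0 θ, ∂_1 θ`, `a = ∇f ∘ θ`, `b = ∇h ∘ θ`, `c = S × T`, `V_i = ∂_i (h ∘ θ)`:
`a_k (V_0 T - V_1 S) = c_k (a × b)`, and `c` is a non-zero multiple of `a`.
-/

set_option autoImplicit false

open Topology Filter MeasureTheory Set
open scoped ENNReal ContDiff Matrix

noncomputable section

namespace Crest.Agent.R257.Mnr_149

open Crest.Agent.R275.Geo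
open Crest.Agent.R257.Defs_219
open Crest.Agent.R257.KED_952 Crest.Agent.R257.KEG_952 Crest.Agent.R257.LossD_309
open Crest.Agent.R257.V1Defs_822 (SmL LvlOK lgh)
open Crest.Agent.R257.PN_835 (nsq)
open Crest.Agent.R257.Aff_835 (eta2a nga Par)
open Crest.Agent.R257.OutB_309 (Gm Nd)
open Crest.Agent.R257.Jac_39 (ee gr_dot fderiv_comp_par)

/-- the components of `a × b` -/
def crs (a b : Fin 3 → ℂ) : Fin 3 → ℂ :=
  ![a 1 * b 2 - a 2 * b 1, a 2 * b 0 - a 0 * b 2, a 0 * b 1 - a 1 * b 0]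

theorem crs0 (a b : Fin 3 → ℂ) : crs a b 0 = a 1 * b 2 - a 2 * b 1 := rfl
theorem crs1 (a b : Fin 3 → ℂ) : crs a b 1 = a 2 * b 0 - a 0 * b 2 := rfl
theorem crs2 (a b : Fin 3 → ℂ) : crs a b 2 = a 0 * b 1 - a 1 * b 0 := rfl

/-- `S × T` is proportional to `a` if `a ⊥ S, T` -/
theorem crs_prop (a S T : Fin 3 → ℂ) (hS : ∑ k, S k * a k = 0) (hT : ∑ k, T k * a k = 0)
    (k i : Fin 3) : a k * crs S T i = crs S T k * a i := by
  simp only [Fin.sum_univ_three] at hS hT
  have h01 : a 0 * crs S T 1 = crs S T 0 * a 1 := by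
    rw [crs0, crs1]; linear_combination S 2 * hT - T 2 * hS
  have h12 : a 1 * crs S T 2 = crs S T 1 * a 2 := by
    rw [crs1, crs2]; linear_combination S 0 * hT - T 0 * hS
  have h20 : a 2 * crs S T 0 = crs S T 2 * a 0 := by
    rw [crs0, crs2]; linear_combination S 1 * hT - T 1 * hS
  fin_cases k <;> fin_cases i
  · exact mul_comm _ _
  · exact h01
  · show a 0 * crs S T 2 = crs S T 0 * a 2
    linear_combination -h20
  · show a 1 * crs S T 0 = crs S T 1 * a 0
    linear_combination -h01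
  · exact mul_comm _ _
  · exact h12
  · exact h20
  · show a 2 * crs S T 1 = crs S T 2 * a 1
    linear_combination -h12
  · exact mul_comm _ _

/-- `(S × T) × b = (S · b) T - (T · b) S` -/
theorem crs_crs (b S T : Fin 3 → ℂ) (j : Fin 3) :
    (∑ i, S i * b i) * T j - (∑ i, T i * b i) * S j = crs (crs S T) b j := by
  simp only [Fin.sum_univ_three]
  fin_cases j
  · show _ = crs S T 1 * b 2 - crs S T 2 * b 1
    rw [crs1, crs2]
    show (S 0 * b 0 + S 1 * b 1 + S 2 * b 2) * T 0 - (T 0 * b 0 + T 1 * b 1 + T 2 * b 2) * S 0 = _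
    ring
  · show _ = crs S T 2 * b 0 - crs S T 0 * b 2
    rw [crs0, crs2]
    show (S 0 * b 0 + S 1 * b 1 + S 2 * b 2) * T 1 - (T 0 * b 0 + T 1 * b 1 + T 2 * b 2) * S 1 = _
    ring
  · show _ = crs S T 0 * b 1 - crs S T 1 * b 0
    rw [crs0, crs1]
    show (S 0 * b 0 + S 1 * b 1 + S 2 * b 2) * T 2 - (T 0 * b 0 + T 1 * b 1 + T 2 * b 2) * S 2 = _
    ring

/-- the algebraic identity -/
theorem crs_id (a b S T : Fin 3 → ℂ) (hS : ∑ k, S k * a k = 0) (hT : ∑ k, T k * a k = 0)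
    (k j : Fin 3) :
    a k * ((∑ i, S i * b i) * T j - (∑ i, T i * b i) * S j) = crs S T k * crs a b j := by
  rw [crs_crs]
  have P := crs_prop a S T hS hT k
  fin_cases j
  · show a k * (crs S T 1 * b 2 - crs S T 2 * b 1) = crs S T k * (a 1 * b 2 - a 2 * b 1)
    linear_combination b 2 * P 1 - b 1 * P 2
  · show a k * (crs S T 2 * b 0 - crs S T 0 * b 2) = crs S T k * (a 2 * b 0 - a 0 * b 2)
    linear_combination b 0 * P 2 - b 2 * P 0
  · show a k * (crs S T 0 * b 1 - crs S T 1 * b 0) = crs S T k * (a 0 * b 1 - a 1 * b 0)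
    linear_combination b 1 * P 0 - b 0 * P 1

/-- `S × T = 0` : dependence -/
theorem dep_of_crs {S T : Fin 3 → ℂ} (h : ∀ k, crs S T k = 0) (k : Fin 3) : T k • S = S k • T := by
  have h0 := h 0
  have h1 := h 1
  have h2 := h 2
  rw [crs0] at h0
  rw [crs1] at h1
  rw [crs2] at h2
  funext j
  show T k * S j = S k * T j
  fin_cases k <;> fin_cases j
  · exact mul_comm _ _
  · show T 0 * S 1 = S 0 * T 1
    linear_combination -h2
  · show T 0 * S 2 = S 0 * T 2
    linear_combination h1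
  · show T 1 * S 0 = S 1 * T 0
    linear_combination h2
  · exact mul_comm _ _
  · show T 1 * S 2 = S 1 * T 2
    linear_combination -h0
  · show T 2 * S 0 = S 2 * T 0
    linear_combination -h1
  · show T 2 * S 1 = S 2 * T 1
    linear_combination h0
  · exact mul_comm _ _

variable {f h : E3 → ℂ} {s : ℂ} {θ : Cn 2 → E3} {O : Set (Cn 2)}

/-- independence of the tangent vectors -/
theorem indep (hθ : Par (n := 2) f s θ O) {z : Cn 2} (hz : z ∈ O) {α β : ℂ}
    (h0 : α • fderiv ℂ θ z (ee 0) + β • fderiv ℂ θ z (ee 1) = 0) : α = 0 ∧ β = 0 := by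
  have h1 : fderiv ℂ θ z (α • ee 0 + β • ee 1) = 0 := by rw [map_add, map_smul, map_smul, h0]
  have h2 := hθ.imm z hz _ h1
  have e0 := congrArg (fun w : Cn 2 => w 0) h2
  have e1 := congrArg (fun w : Cn 2 => w 1) h2
  simp at e0 e1
  exact ⟨e0, e1⟩

theorem sum_gr (hθ : Par (n := 2) f s θ O) {z : Cn 2} (hz : z ∈ O)
    (hf : DifferentiableAt ℂ f (θ z)) (i : Fin 2) :
    ∑ k, fderiv ℂ θ z (ee i) k * gr f (θ z) k = 0 := by
  rw [gr_dot]
  exact hθ.ker hz hf _

theorem dV_eq (hθ : Par (n := 2) f s θ O) {z : Cn 2} (hz : z ∈ O)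
    (hh : DifferentiableAt ℂ h (θ z)) (i : Fin 2) :
    dV h θ z i = ∑ k, fderiv ℂ θ z (ee i) k * gr h (θ z) k := by
  rw [gr_dot]
  exact fderiv_comp_par hθ hz hh _

/-- the identity on a level -/
theorem main_id (hθ : Par (n := 2) f s θ O) {z : Cn 2} (hz : z ∈ O)
    (hf : DifferentiableAt ℂ f (θ z)) (hh : DifferentiableAt ℂ h (θ z)) (k j : Fin 3) :
    gr f (θ z) k * (dV h θ z 0 * fderiv ℂ θ z (ee 1) j - dV h θ z 1 * fderiv ℂ θ z (ee 0) j) =
      crs (fderiv ℂ θ z (ee 0)) (fderiv ℂ θ z (ee 1)) k * crs (gr f (θ z)) (gr h (θ z)) j := by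
  rw [dV_eq hθ hz hh, dV_eq hθ hz hh]
  exact crs_id _ _ _ _ (sum_gr hθ hz hf 0) (sum_gr hθ hz hf 1) k j

theorem crs_ne (hθ : Par (n := 2) f s θ O) {z : Cn 2} (hz : z ∈ O)
    (hf : DifferentiableAt ℂ f (θ z)) {k : Fin 3} (hk : gr f (θ z) k ≠ 0) :
    crs (fderiv ℂ θ z (ee 0)) (fderiv ℂ θ z (ee 1)) k ≠ 0 := by
  intro h0
  have h1 : ∀ i, crs (fderiv ℂ θ z (ee 0)) (fderiv ℂ θ z (ee 1)) i = 0 := fun i => by
    have := crs_prop (gr f (θ z)) _ _ (sum_gr hθ hz hf 0) (sum_gr hθ hz hf 1) k i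
    rw [h0, zero_mul] at this
    exact (mul_eq_zero.1 this).resolve_left hk
  have h2 : ∀ k, fderiv ℂ θ z (ee 0) k = 0 := fun k => by
    have h3 := dep_of_crs h1 k
    have h4 : fderiv ℂ θ z (ee 1) k • fderiv ℂ θ z (ee 0) +
        (-fderiv ℂ θ z (ee 0) k) • fderiv ℂ θ z (ee 1) = 0 := by
      rw [h3, neg_smul, add_neg_cancel]
    exact neg_eq_zero.1 (indep hθ hz h4).2
  have h5 : (1 : ℂ) • fderiv ℂ θ z (ee 0) + (0 : ℂ) • fderiv ℂ θ z (ee 1) = 0 := by
    rw [one_smul, zero_smul, add_zero]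
    exact funext h2
  exact one_ne_zero (indep hθ hz h5).1

theorem exists_gr_ne {x : E3} (h0 : fderiv ℂ f x ≠ 0) : ∃ k, gr f x k ≠ 0 := by
  by_contra hcon
  push Not at hcon
  refine h0 (ContinuousLinearMap.ext fun w => ?_)
  rw [← gr_dot]
  simp [hcon]

/-- zeros -/
theorem zero_iff (hθ : Par (n := 2) f s θ O) {z : Cn 2} (hz : z ∈ O)
    (hf : DifferentiableAt ℂ f (θ z)) (h0 : fderiv ℂ f (θ z) ≠ 0)
    (hh : DifferentiableAt ℂ h (θ z)) :
    dV h θ z = 0 ↔ ∀ j, crs (gr f (θ z)) (gr h (θ z)) j = 0 := by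
  obtain ⟨k, hk⟩ := exists_gr_ne h0
  have hc := crs_ne hθ hz hf hk
  constructor
  · intro hV j
    have := main_id hθ hz hf hh k j
    rw [hV] at this
    simp only [Pi.zero_apply, zero_mul, sub_zero, mul_zero] at this
    exact (mul_eq_zero.1 this.symm).resolve_left hc
  · intro hj
    have h1 : ∀ j, dV h θ z 0 * fderiv ℂ θ z (ee 1) j - dV h θ z 1 * fderiv ℂ θ z (ee 0) j = 0 :=
      fun j => by
        have := main_id hθ hz hf hh k j
        rw [hj j, mul_zero] at this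
        exact (mul_eq_zero.1 this).resolve_left hk
    have h2 : (-dV h θ z 1) • fderiv ℂ θ z (ee 0) + dV h θ z 0 • fderiv ℂ θ z (ee 1) = 0 := by
      funext j
      have := h1 j
      show -dV h θ z 1 * fderiv ℂ θ z (ee 0) j + dV h θ z 0 * fderiv ℂ θ z (ee 1) j = 0
      linear_combination this
    obtain ⟨e1, e0⟩ := indep hθ hz h2
    funext i
    fin_cases i
    · exact e0
    · exact neg_eq_zero.1 e1


theorem fderiv_mul_zero {F G : Cn 2 → ℂ} {z : Cn 2} (hF : DifferentiableAt ℂ F z)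
    (hG : DifferentiableAt ℂ G z) (h0 : G z = 0) (w : Cn 2) :
    fderiv ℂ (fun y => F y * G y) z w = F z * fderiv ℂ G z w := by
  have h1 := hF.hasFDerivAt.mul hG.hasFDerivAt
  have h2 : fderiv ℂ (fun y => F y * G y) z = F z • fderiv ℂ G z + G z • fderiv ℂ F z := h1.fderiv
  have h3 : fderiv ℂ (fun y => F y * G y) z w = F z * fderiv ℂ G z w + G z * fderiv ℂ F z w := by
    rw [h2]
    rfl
  rw [h3, h0, zero_mul, add_zero]

theorem fderiv_mul_zero' {F G : Cn 2 → ℂ} {z : Cn 2} (hF : DifferentiableAt ℂ F z)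
    (hG : DifferentiableAt ℂ G z) (h0 : G z = 0) (w : Cn 2) :
    fderiv ℂ (fun y => G y * F y) z w = fderiv ℂ G z w * F z := by
  rw [show (fun y => G y * F y) = fun y => F y * G y from funext fun y => mul_comm _ _,
    fderiv_mul_zero hF hG h0, mul_comm]

/-- derivatives of holomorphic maps are differentiable -/
theorem diff_fd {F : Type*} [NormedAddCommGroup F] [NormedSpace ℂ F] [CompleteSpace F]
    {G : Cn 2 → F} (hO : IsOpen O) (hG : DifferentiableOn ℂ G O) {z : Cn 2} (hz : z ∈ O)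
    (v : Cn 2) : DifferentiableAt ℂ (fun y => fderiv ℂ G y v) z :=
  (ContinuousLinearMap.apply ℂ F v).differentiableAt.comp z
    (Crest.Agent.R266.SCV.analyticOnNhd_of_differentiableOn hO hG z hz).fderiv.differentiableAt

theorem diff_gr {g : E3 → ℂ} {x : E3} (hg : AnalyticAt ℂ g x) (k : Fin 3) :
    DifferentiableAt ℂ (fun x => gr g x k) x :=
  (ContinuousLinearMap.apply ℂ ℂ (Pi.single k (1 : ℂ) : E3)).differentiableAt.comp x
    hg.fderiv.differentiableAt

theorem diff_crs {E : Type*} [NormedAddCommGroup E] [NormedSpace ℂ E] {a b : E → Fin 3 → ℂ} {x : E}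
    (ha : ∀ k, DifferentiableAt ℂ (fun x => a x k) x)
    (hb : ∀ k, DifferentiableAt ℂ (fun x => b x k) x) (j : Fin 3) :
    DifferentiableAt ℂ (fun x => crs (a x) (b x) j) x := by
  fin_cases j
  · exact ((ha 1).mul (hb 2)).sub ((ha 2).mul (hb 1))
  · exact ((ha 2).mul (hb 0)).sub ((ha 0).mul (hb 2))
  · exact ((ha 0).mul (hb 1)).sub ((ha 1).mul (hb 0))

/-- non-degeneracy -/
theorem nondeg (hθ : Par (n := 2) f s θ O) (hfa : ∀ z ∈ O, AnalyticAt ℂ f (θ z))
    (hha : ∀ z ∈ O, AnalyticAt ℂ h (θ z)) {z : Cn 2} (hz : z ∈ O) (h0 : fderiv ℂ f (θ z) ≠ 0)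
    (hV : dV h θ z = 0) (hN : Nd (dV h θ) z) {v : E3} (hv : fderiv ℂ f (θ z) v = 0)
    (hv' : ∀ j, fderiv ℂ (fun x => crs (gr f x) (gr h x) j) (θ z) v = 0) : v = 0 := by
  have hf := (hfa z hz).differentiableAt
  have hh := (hha z hz).differentiableAt
  obtain ⟨k, hk⟩ := exists_gr_ne h0
  obtain ⟨w, rfl⟩ := Srd_761.exists_tan hθ hz hf h0 hv
  have hcrs := (zero_iff hθ hz hf h0 hh).1 hV
  have hthd := hθ.diffAt hz
  -- differentiability
  have dT : ∀ (i : Fin 2) (j : Fin 3), DifferentiableAt ℂ (fun y => fderiv ℂ θ y (ee i) j) z :=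
    fun i j => by
      have h1 := diff_fd hθ.isOpen hθ.hol hz (ee i)
      exact (differentiableAt_pi.1 h1) j
  have hhol : DifferentiableOn ℂ (fun y => h (θ y)) O := fun y hy =>
    ((hha y hy).differentiableAt.comp y (hθ.diffAt hy)).differentiableWithinAt
  have dVd : ∀ i, DifferentiableAt ℂ (fun y => dV h θ y i) z := fun i =>
    diff_fd hθ.isOpen hhol hz _
  have dF : DifferentiableAt ℂ (fun y => gr f (θ y) k) z :=
    DifferentiableAt.comp z (g := fun x => gr f x k) (diff_gr (hfa z hz) k) hthd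
  have dC : DifferentiableAt ℂ
      (fun y => crs (fderiv ℂ θ y (ee 0)) (fderiv ℂ θ y (ee 1)) k) z :=
    diff_crs (fun j => dT 0 j) (fun j => dT 1 j) k
  have dM : ∀ j, DifferentiableAt ℂ (fun x => crs (gr f x) (gr h x) j) (θ z) := fun j =>
    diff_crs (fun j => diff_gr (hfa z hz) j) (fun j => diff_gr (hha z hz) j) j
  have hV0 : dV h θ z 0 = 0 := congrFun hV 0
  have hV1 : dV h θ z 1 = 0 := congrFun hV 1
  have key : ∀ j, fderiv ℂ (fun y => dV h θ y 0) z w * fderiv ℂ θ z (ee 1) j -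
      fderiv ℂ (fun y => dV h θ y 1) z w * fderiv ℂ θ z (ee 0) j = 0 := by
    intro j
    have hev : (fun y => gr f (θ y) k * (dV h θ y 0 * fderiv ℂ θ y (ee 1) j -
        dV h θ y 1 * fderiv ℂ θ y (ee 0) j)) =ᶠ[𝓝 z]
        fun y => crs (fderiv ℂ θ y (ee 0)) (fderiv ℂ θ y (ee 1)) k *
          crs (gr f (θ y)) (gr h (θ y)) j := by
      filter_upwards [hθ.isOpen.mem_nhds hz] with y hy
      exact main_id hθ hy (hfa y hy).differentiableAt (hha y hy).differentiableAt k j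
    have h1 := DFunLike.congr_fun (hev.fderiv_eq (𝕜 := ℂ)) w
    have d0 : DifferentiableAt ℂ (fun y => dV h θ y 0 * fderiv ℂ θ y (ee 1) j) z :=
      (dVd 0).mul (dT 1 j)
    have d1 : DifferentiableAt ℂ (fun y => dV h θ y 1 * fderiv ℂ θ y (ee 0) j) z :=
      (dVd 1).mul (dT 0 j)
    have d2 : DifferentiableAt ℂ (fun y => dV h θ y 0 * fderiv ℂ θ y (ee 1) j -
      dV h θ y 1 * fderiv ℂ θ y (ee 0) j) z := d0.sub d1
    have d3 : DifferentiableAt ℂ (fun y => crs (gr f (θ y)) (gr h (θ y)) j) z :=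
      DifferentiableAt.comp z (g := fun x => crs (gr f x) (gr h x) j) (dM j) hthd
    rw [fderiv_mul_zero dF d2 (by rw [hV0, hV1, zero_mul, zero_mul, sub_zero]),
      fderiv_mul_zero dC d3 (hcrs j)] at h1
    have h2 : fderiv ℂ (fun y => crs (gr f (θ y)) (gr h (θ y)) j) z w =
        fderiv ℂ (fun x => crs (gr f x) (gr h x) j) (θ z) (fderiv ℂ θ z w) :=
      fderiv_comp_par hθ hz (dM j) w
    rw [h2, hv' j, mul_zero] at h1
    have h3 := (mul_eq_zero.1 h1).resolve_left hk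
    rw [fderiv_fun_sub d0 d1] at h3
    rw [sub_apply, fderiv_mul_zero' (dT 1 j) (dVd 0) hV0,
      fderiv_mul_zero' (dT 0 j) (dVd 1) hV1] at h3
    exact h3
  have h2 : (-fderiv ℂ (fun y => dV h θ y 1) z w) • fderiv ℂ θ z (ee 0) +
      fderiv ℂ (fun y => dV h θ y 0) z w • fderiv ℂ θ z (ee 1) = 0 := by
    funext j
    have := key j
    show -fderiv ℂ (fun y => dV h θ y 1) z w * fderiv ℂ θ z (ee 0) j +
      fderiv ℂ (fun y => dV h θ y 0) z w * fderiv ℂ θ z (ee 1) j = 0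
    linear_combination this
  obtain ⟨e1, e0⟩ := indep hθ hz h2
  have e1' := neg_eq_zero.1 e1
  have hw : w = w 0 • ee 0 + w 1 • ee 1 := by
    ext i
    fin_cases i <;> simp
  have hmul : (Matrix.of fun i a => Crest.Agent.R273.Calc_243.dS (-Complex.I) a
      (fun w => dV h θ w i) z : Matrix (Fin 2) (Fin 2) ℂ) *ᵥ (fun a => w a) = 0 := by
    funext i
    have e : ∀ a, Crest.Agent.R273.Calc_243.dS (-Complex.I) a (fun w => dV h θ w i) z =
        fderiv ℂ (fun y => dV h θ y i) z (ee a) := fun a => Srd_761.dS_hol (dVd i) a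
    show ∑ a, Crest.Agent.R273.Calc_243.dS (-Complex.I) a (fun w => dV h θ w i) z * w a = 0
    rw [Fin.sum_univ_two, e, e]
    have h3 : fderiv ℂ (fun y => dV h θ y i) z w = 0 := by
      fin_cases i
      · exact e0
      · exact e1'
    rw [hw, map_add, map_smul, map_smul, smul_eq_mul, smul_eq_mul] at h3
    linear_combination h3
  have hw0 := Matrix.eq_zero_of_mulVec_eq_zero hN hmul
  have hwz : w = 0 := by
    ext i
    exact congrFun hw0 i
  rw [hwz, map_zero]

/-- **the leaf `MnrStmt`** -/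
theorem mnrStmt : MnrStmt := by
  intro f r hL h hh θ O hPE z hz
  have hlt := hPE.lt z hz
  have hfa : ∀ z ∈ O, AnalyticAt ℂ f (θ z) := fun y hy => hL.an _ (hPE.lt y hy)
  have hha : ∀ z ∈ O, AnalyticAt ℂ h (θ z) := fun y hy => hh _ (hPE.lt y hy)
  have hlv := hPE.par.lvl z hz
  have h0 : fderiv ℂ f (θ z) ≠ 0 := hL.sm _ (hPE.ne z hz) hlt hlv
  have hz0 := zero_iff hPE.par hz (hfa z hz).differentiableAt h0 (hha z hz).differentiableAt
  constructor
  · rw [hz0]
    constructor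
    · intro hc j
      fin_cases j
      · exact hlv
      · exact hc 0
      · exact hc 1
      · exact hc 2
    · intro hm j
      fin_cases j
      · exact hm 1
      · exact hm 2
      · exact hm 3
  · intro hV hN v hv
    refine nondeg hPE.par hfa hha hz h0 hV hN (hv 0) fun j => ?_
    fin_cases j
    · exact hv 1
    · exact hv 2
    · exact hv 3

end Crest.Agent.R257.Mnr_149
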