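import Crest.Agent.R257.OutC_309

/-!
# R257 (S0395), leaf GB-OUT (helper309), part D: the bundle `Ω¹ ⊗ L_φ`

* `c2_dual`    : `c2 (e^{-ψ} G⁻¹) = c2 Gᵀ + pd (∂∂̄ log det G) (∂∂̄ψ) + pd (∂∂̄ψ) (∂∂̄ψ)`, `G = ∂∂̄v`
* `bunO`       : `Bun f s r (HO u φ) (dV h)`
* `c2x_HO`     : `c2x f (HO u φ) = c2d f u + mxd f u φ + mxd f φ φ` for Kähler-Einstein weights
* `e1Stmt`     : **`E1Stmt`**
-/

set_option autoImplicit false
set_option linter.unusedSectionVars false

open Set Filter Topology Complex MeasureTheory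
open scoped ContDiff Matrix ComplexConjugate ComplexOrder ENNReal

namespace Crest.Agent.R257.OutD_309

open Crest.Agent.R275.Geo Crest.Agent.R275.EDR890
open Crest.Agent.R273.Fock_243 Crest.Agent.R273.Calc_243
open Crest.Agent.R273.Bkn_243 Crest.Agent.R273.Pos_243 Crest.Agent.R273.BochA_101
open Crest.Agent.R273.BochB_101
open Crest.Agent.R273.BochC_101 Crest.Agent.R273.BochD_101
open Crest.Agent.R273.Hess_333 Crest.Agent.R273.HessB_333
open Crest.Agent.R273.Defs_333 (lev)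
open Crest.Agent.R273.YauDefs_635 (cH)
open Crest.Agent.R273.YauMax_635 (cH_eq_hess)
open Crest.Agent.R257.C2F1_625 Crest.Agent.R257.C2F2_625 Crest.Agent.R257.C2F3_625
open Crest.Agent.R257.C2F4_335 Crest.Agent.R257.C2F5_335 Crest.Agent.R257.C2F6_335
open Crest.Agent.R257.Defs_219
open Crest.Agent.R257.PN_835 (nsq)
open Crest.Agent.R257.Aff_835 (eta2a)
open Crest.Agent.R257.KED_952 Crest.Agent.R257.Ked1_397 Crest.Agent.R257.Ked2_397
open Crest.Agent.R257.V1Defs_822 (SmL LvlOK)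
open Crest.Agent.R257.OutA_309 Crest.Agent.R257.OutB_309 Crest.Agent.R257.LossD_309
open Crest.Agent.R257.OutC_309

noncomputable section

/-! ### linear algebra -/

/-- the symplectic matrix -/
def Js : Matrix (Fin 2) (Fin 2) ℂ := !![0, 1; -1, 0]

theorem Js_det : Js.det = 1 := by simp [Js, Matrix.det_fin_two]

theorem inv_eq_Js (G : Matrix (Fin 2) (Fin 2) ℂ) :
    G⁻¹ = (G.det)⁻¹ • (Jsᴴ * Gᵀ * Js) := by
  rw [Matrix.inv_def, Ring.inverse_eq_inv', Matrix.adjugate_fin_two]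
  congr 1
  ext i j
  fin_cases i <;> fin_cases j <;>
    simp [Js, Matrix.mul_apply, Fin.sum_univ_two, Matrix.conjTranspose_apply]

/-! ### the chart -/

section
variable {v ψ : Cn 2 → ℝ} {z : Cn 2}

/-- the metric in a chart -/
def Hc (v ψ : Cn 2 → ℝ) (y : Cn 2) : Matrix (Fin 2) (Fin 2) ℂ :=
  ((Real.exp (-ψ y) : ℝ) : ℂ) • (cH v y)⁻¹

theorem HO_eq (u φ : E3 → ℝ) (θ : Cn 2 → E3) :
    HO u φ θ = Hc (fun z => u (θ z)) (fun z => φ (θ z)) := rfl

/-- the potential is smooth and strictly psh near `z` -/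
structure Pot (v : Cn 2 → ℝ) (z : Cn 2) : Prop where
  sm : ∀ᶠ y in 𝓝 z, ContDiffAt ℝ ∞ v y
  pos : ∀ᶠ y in 𝓝 z, (hess v y).PosDef

theorem Pot.of_on {O : Set (Cn 2)} (hO : IsOpen O) (h1 : ContDiffOn ℝ ∞ v O)
    (h2 : ∀ y ∈ O, ∀ w, w ≠ 0 → 0 < lev v y w) (hz : z ∈ O) : Pot v z := by
  have hs : ∀ y ∈ O, ContDiffAt ℝ ∞ v y := fun _ hy => h1.contDiffAt (hO.mem_nhds hy)
  constructor
  · filter_upwards [hO.mem_nhds hz] with y hy
    exact hs y hy
  · filter_upwards [hO.mem_nhds hz] with y hy using posDef_hess (hs y hy) (h2 y hy)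

theorem Pot.ev (h : Pot v z) : ∀ᶠ y in 𝓝 z, Pot v y := by
  filter_upwards [h.sm.eventually_nhds, h.pos.eventually_nhds] with y a b using ⟨a, b⟩

theorem Pot.cH_ev (h : Pot v z) : (fun y => cH v y) =ᶠ[𝓝 z] fun y => hess v y :=
  h.sm.mono fun y hy => cH_eq_hess hy

theorem Pot.smM (h : Pot v z) : SmM z (fun y => hess v y) := fun S T =>
  contDiffAt_hess h.sm.self_of_nhds S T

theorem Pot.det_ne (h : Pot v z) : (hess v z).det ≠ 0 := h.pos.self_of_nhds.det_pos.ne'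

theorem Pot.detT (h : Pot v z) : 0 < ((hess v z)ᵀ).det.re := by
  rw [Matrix.det_transpose]
  exact det_re_pos'' h.pos.self_of_nhds

/-- `log det ∂∂̄v` -/
def ldt (v : Cn 2 → ℝ) (y : Cn 2) : ℝ := Real.log (hess v y).det.re

theorem Pot.sm_ldt (h : Pot v z) : ContDiffAt ℝ ∞ (ldt v) z :=
  (Complex.reCLM.contDiff.contDiffAt.comp z (SmM.det h.smM)).log
    (det_re_pos'' h.pos.self_of_nhds).ne'

theorem Hc_ev (h : Pot v z) :
    Hc v ψ =ᶠ[𝓝 z] fun y => ((Real.exp (-(ψ y + ldt v y)) : ℝ) : ℂ) •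
      (Jsᴴ * (hess v y)ᵀ * Js) := by
  filter_upwards [h.cH_ev, h.pos] with y h1 h2
  have h3 := det_re_pos'' h2
  have h4 : (hess v y).det = (((hess v y).det.re : ℝ) : ℂ) :=
    Complex.ext (Complex.ofReal_re _).symm (by
      rw [Complex.ofReal_im]; exact (Complex.lt_def.1 h2.det_pos).2.symm)
  unfold Hc
  rw [h1, inv_eq_Js, smul_smul]
  congr 1
  rw [neg_add, Real.exp_add, ldt, Real.exp_neg (Real.log _), Real.exp_log h3]
  rw [h4]
  push_cast
  simp

theorem Hc_smM (h : Pot v z) (hψ : ∀ᶠ y in 𝓝 z, ContDiffAt ℝ ∞ ψ y) : SmM z (Hc v ψ) := by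
  have h1 : SmM z (fun y => (hess v y)⁻¹) := SmM.inv h.smM h.det_ne
  have h2 : Sm z (fun y => ((Real.exp (-ψ y) : ℝ) : ℂ)) :=
    contDiffAt_cu (hψ.self_of_nhds.neg.exp)
  intro S T
  have h3 : (fun y => Hc v ψ y S T) =ᶠ[𝓝 z] fun y =>
      ((Real.exp (-ψ y) : ℝ) : ℂ) * (hess v y)⁻¹ S T := by
    filter_upwards [h.cH_ev] with y hy
    unfold Hc
    rw [hy]
    rfl
  exact (h2.mul (h1 S T)).congr_of_eventuallyEq h3

theorem Hc_posDef (h : Pot v z) (ψ : Cn 2 → ℝ) : (Hc v ψ z).PosDef := by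
  have h1 : cH v z = hess v z := h.cH_ev.self_of_nhds
  unfold Hc
  rw [h1]
  exact (h.pos.self_of_nhds.inv).smul (Complex.zero_lt_real.2 (Real.exp_pos _))

/-- the second Chern form of `Ω¹ ⊗ L` -/
theorem c2_dual (h : Pot v z) (hψ : ∀ᶠ y in 𝓝 z, ContDiffAt ℝ ∞ ψ y) :
    c2 (Hc v ψ) z = c2 (fun y => (cH v y)ᵀ) z + pd (hess (ldt v) z) (hess ψ z)
      + pd (hess ψ z) (hess ψ z) := by
  set K : Cn 2 → Matrix (Fin 2) (Fin 2) ℂ := fun y => (hess v y)ᵀ with hK
  have hKsm : ∀ᶠ y in 𝓝 z, SmM y K := by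
    filter_upwards [h.ev] with y hy S T
    exact hy.smM T S
  have hKd : (K z).det ≠ 0 := by
    rw [hK, Matrix.det_transpose]; exact h.det_ne
  have hJ : HolM z (fun _ : Cn 2 => Js) := fun S T =>
    Eventually.of_forall fun y => differentiableAt_const _
  have hJd : (Js).det ≠ 0 := by rw [Js_det]; exact one_ne_zero
  -- the frame
  set K' : Cn 2 → Matrix (Fin 2) (Fin 2) ℂ := fun y => Jsᴴ * K y * Js with hK'
  have e1 : c2 K' z = c2 K z := c2_frame (F := fun _ => Js) hKsm hKd hJ hJd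
  have hJc : (Jsᴴ).det = 1 := by rw [Matrix.det_conjTranspose, Js_det, star_one]
  have hdet : ∀ y, (K' y).det = (hess v y).det := fun y => by
    rw [hK', Matrix.det_mul, Matrix.det_mul, hJc, Js_det, one_mul, mul_one, hK,
      Matrix.det_transpose]
  have hK'sm : SmM z K' := by
    have h1 := hKsm.self_of_nhds
    intro S T
    have h2 : (fun y => K' y S T) = fun y => ∑ b, (∑ a, Jsᴴ S a * K y a b) * Js b T := by
      funext y
      simp only [hK', Matrix.mul_apply]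
    rw [h2]
    refine ContDiffAt.sum fun b _ => ContDiffAt.mul (ContDiffAt.sum fun a _ => ?_)
      contDiffAt_const
    exact contDiffAt_const.mul (h1 a b)
  have hK'h : ∀ᶠ y in 𝓝 z, (K' y).IsHermitian := by
    filter_upwards [h.pos] with y hy
    have h1 : (K y).IsHermitian := hy.isHermitian.transpose
    show (Jsᴴ * K y * Js)ᴴ = Jsᴴ * K y * Js
    rw [Matrix.conjTranspose_mul, Matrix.conjTranspose_mul, Matrix.conjTranspose_conjTranspose,
      h1.eq, Matrix.mul_assoc]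
  have hK'd : (K' z).det ≠ 0 := by rw [hdet]; exact h.det_ne
  have hK'p : 0 < (K' z).det.re := by rw [hdet]; exact det_re_pos'' h.pos.self_of_nhds
  have hld := h.sm_ldt
  have hψz := hψ.self_of_nhds
  have e2 : Matrix.of (ric K' z) = - hess (ldt v) z := by
    ext a b
    rw [Matrix.of_apply, ← hess_neg_log_det hK'sm hK'h hK'p a b]
    have e3 : (fun y => - Real.log (K' y).det.re) = fun y => - ldt v y := by
      funext y
      rw [hdet, ldt]
    rw [e3, hess_neg hld]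
  have e4 := c2_twist (H := K') (φ := fun y => ψ y + ldt v y) hK'sm hK'd (hψz.add hld)
  rw [c2_congr (Hc_ev h), e4, e1, e2, hess_add (u := ψ) (v := ldt v) hψz hld]
  have e5 : c2 K z = c2 (fun y => (cH v y)ᵀ) z := by
    refine c2_congr ?_
    filter_upwards [h.cH_ev] with y hy
    rw [hK]
    simp only [hy]
  rw [e5]
  simp only [pd_neg, pd_add, add_pd]
  rw [pd_comm (hess ψ z) (hess (ldt v) z)]
  ring

end

/-! ### the section `dh` -/

variable {f : E3 → ℂ} {s : ℂ} {r : ℝ}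

theorem comp_hol {h : E3 → ℂ} {O : Set (Cn 2)} {θ : Cn 2 → E3}
    (hh : ∀ x, nsq x < r ^ 2 → AnalyticAt ℂ h x) (hP : PE f s r θ O) :
    DifferentiableOn ℂ (fun z => h (θ z)) O := fun z hz =>
  (hh _ (hP.lt z hz)).differentiableAt.comp_differentiableWithinAt z (hP.par.hol z hz)

theorem dV_hol {h : E3 → ℂ} {O : Set (Cn 2)} {θ : Cn 2 → E3}
    (hh : ∀ x, nsq x < r ^ 2 → AnalyticAt ℂ h x) (hP : PE f s r θ O) (i : Fin 2) :
    DifferentiableOn ℂ (fun w => dV h θ w i) O := by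
  have h3 : AnalyticOnNhd ℂ (fderiv ℂ fun z => h (θ z)) O :=
    (Crest.Agent.R266.SCV.analyticOnNhd_of_differentiableOn hP.par.isOpen (comp_hol hh hP)).fderiv
  exact h3.differentiableOn.clm_apply (differentiableOn_const _)

/-- `fderiv` from `dV` -/
theorem fderiv_eq_dV {h : E3 → ℂ} {θ : Cn 2 → E3} {z : Cn 2} (w : Cn 2) :
    fderiv ℂ (fun z => h (θ z)) z w = ∑ a, w a * dV h θ z a := by
  have h1 : w = ∑ a, w a • (EuclideanSpace.single a (1 : ℂ) : Cn 2) := by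
    ext b
    simp [Fin.sum_univ_two, PiLp.single_apply]
    fin_cases b <;> simp
  conv_lhs => rw [h1]
  rw [map_sum]
  refine Finset.sum_congr rfl fun a _ => ?_
  rw [map_smul, smul_eq_mul]
  rfl

/-- change of coordinates -/
theorem dV_trans {h : E3 → ℂ} {O : Set (Cn 2)} {θ θ' : Cn 2 → E3} {w : Cn 2} {T : Cn 2 → Cn 2}
    (hh : ∀ x, nsq x < r ^ 2 → AnalyticAt ℂ h x) (hP : PE f s r θ O)
    (hT : DifferentiableAt ℂ T w) (hTe : ∀ᶠ y in 𝓝 w, T y ∈ O ∧ θ' y = θ (T y)) :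
    dV h θ' w = (Jac T w)ᵀ *ᵥ dV h θ (T w) := by
  have e : (fun y => h (θ' y)) =ᶠ[𝓝 w] fun y => (fun z => h (θ z)) (T y) := by
    filter_upwards [hTe] with y hy
    show h (θ' y) = h (θ (T y))
    rw [hy.2]
  have hTw := hTe.self_of_nhds.1
  have hd : DifferentiableAt ℂ (fun z => h (θ z)) (T w) :=
    (comp_hol hh hP).differentiableAt (hP.par.isOpen.mem_nhds hTw)
  funext c
  show fderiv ℂ (fun y => h (θ' y)) w (EuclideanSpace.single c 1) = _
  rw [e.fderiv_eq]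
  have h1 : fderiv ℂ (fun y => (fun z => h (θ z)) (T y)) w =
      (fderiv ℂ (fun z => h (θ z)) (T w)).comp (fderiv ℂ T w) := fderiv_fun_comp w hd hT
  rw [h1, ContinuousLinearMap.comp_apply, fderiv_eq_dV]
  simp only [Matrix.mulVec, dotProduct, Matrix.transpose_apply, Jac, Matrix.of_apply]

/-- **the bundle `Ω¹ ⊗ L_φ` with the section `dh`** -/
theorem bunO (L : LvlOK f s r) {u φ : E3 → ℝ} (hu : SmL f s r u)
    (hpos : ∀ θ O, PE f s r θ O → ∀ z ∈ O, ∀ v, v ≠ 0 → 0 < lev (fun z => u (θ z)) z v)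
    (hφ : SmL f s r φ) {h : E3 → ℂ} (hh : ∀ x, nsq x < r ^ 2 → AnalyticAt ℂ h x) :
    Bun f s r (HO u φ) (dV h) where
  bv θ O hP z hz := by
    have hO := hP.par.isOpen
    have hψ : ∀ y ∈ O, ContDiffAt ℝ ∞ (fun z => φ (θ z)) y := fun y hy =>
      (hφ θ O hP).contDiffAt (hO.mem_nhds hy)
    have hpt : ∀ y ∈ O, Pot (fun z => u (θ z)) y := fun y hy =>
      Pot.of_on hO (hu θ O hP) (hpos θ O hP) hy
    refine ⟨?_, ?_, fun i => ?_⟩
    · filter_upwards [hO.mem_nhds hz] with y hy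
      refine Hc_smM (hpt y hy) ?_
      filter_upwards [hO.mem_nhds hy] with y' hy' using hψ y' hy'
    · filter_upwards [hO.mem_nhds hz] with y hy
      exact Hc_posDef (hpt y hy) (fun z => φ (θ z))
    · filter_upwards [hO.mem_nhds hz] with y hy
      exact (dV_hol hh hP i).differentiableAt (hO.mem_nhds hy)
  tr θ O hP θ' z' T hT hTO hTe hdet := by
    have hO := hP.par.isOpen
    have hTe' := eventually_eventually_nhds.2 hTe
    have hT' := eventually_eventually_nhds.2 hT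
    have hJij : ∀ i j, ∀ᶠ y in 𝓝 z', DifferentiableAt ℂ (fun w => Jac T w i j) y :=
      fun i j => J_hol hT i j
    have hdc : ∀ᶠ y in 𝓝 z', (Jac T y).det ≠ 0 := by
      have h1 : ContinuousAt (fun y => (Jac T y).det) z' := by
        have : (fun y => (Jac T y).det) = fun y => Jac T y 0 0 * Jac T y 1 1 -
            Jac T y 0 1 * Jac T y 1 0 := funext fun y => Matrix.det_fin_two _
        rw [this]
        exact ((hJij 0 0).self_of_nhds.continuousAt.mul
          (hJij 1 1).self_of_nhds.continuousAt).sub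
          ((hJij 0 1).self_of_nhds.continuousAt.mul (hJij 1 0).self_of_nhds.continuousAt)
      exact h1.eventually_ne hdet
    refine ⟨fun w => ((Jac T w)ᵀ)⁻¹, hT, ?_, ?_, ?_, ?_⟩
    · -- holomorphic
      intro i j
      have e : ∀ y, ((Jac T y)ᵀ)⁻¹ i j = ((Jac T y).det)⁻¹ * (Jac T y)ᵀ.adjugate i j := by
        intro y
        rw [Matrix.inv_def, Ring.inverse_eq_inv', Matrix.det_transpose]
        rfl
      have ha : ∀ᶠ y in 𝓝 z', DifferentiableAt ℂ (fun w => (Jac T w)ᵀ.adjugate i j) y := by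
        have e2 : ∀ w, (Jac T w)ᵀ.adjugate i j =
            !![Jac T w 1 1, -Jac T w 1 0; -Jac T w 0 1, Jac T w 0 0] i j := by
          intro w
          rw [Matrix.adjugate_fin_two]
          rfl
        simp only [e2]
        filter_upwards [hJij 0 0, hJij 0 1, hJij 1 0, hJij 1 1] with y a b c d
        fin_cases i <;> fin_cases j
        · exact d
        · exact c.neg
        · exact b.neg
        · exact a
      have hdd : ∀ᶠ y in 𝓝 z', DifferentiableAt ℂ (fun w => (Jac T w).det) y := by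
        have : (fun y => (Jac T y).det) = fun y => Jac T y 0 0 * Jac T y 1 1 -
            Jac T y 0 1 * Jac T y 1 0 := funext fun y => Matrix.det_fin_two _
        rw [this]
        filter_upwards [hJij 0 0, hJij 0 1, hJij 1 0, hJij 1 1] with y a b c d
        exact (a.fun_mul d).fun_sub (b.fun_mul c)
      simp only [e]
      filter_upwards [ha, hdd, hdc] with y h1 h2 h3
      exact (h2.fun_inv h3).fun_mul h1
    · -- invertible
      rw [Matrix.det_nonsing_inv, Ring.inverse_eq_inv', Matrix.det_transpose]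
      exact inv_ne_zero hdet
    · -- metrics
      filter_upwards [hTe', hT', hdc] with w h1 h2 h3
      have hTw := h1.self_of_nhds
      have hP' : ContDiffAt ℝ ∞ (fun z => u (θ z)) (T w) :=
        (hu θ O hP).contDiffAt (hO.mem_nhds hTw.1)
      obtain ⟨a1, a2⟩ := hess_trans h2 h1 (a := u) hP'
      have e1 : cH (fun z => u (θ' z)) w = (Jac T w)ᵀ * cH (fun z => u (θ z)) (T w) *
          (Jac T w).map conj := by
        rw [cH_eq_hess a1, a2, cH_eq_hess hP']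
        rfl
      unfold HO
      rw [e1, hTw.2, Matrix.mul_inv_rev, Matrix.mul_inv_rev]
      have e2 : ((Jac T w)ᵀ⁻¹)ᴴ = ((Jac T w).map conj)⁻¹ := by
        rw [Matrix.conjTranspose_nonsing_inv]
        rfl
      rw [e2]
      simp only [Matrix.mul_smul, Matrix.smul_mul, Matrix.mul_assoc]
    · -- sections
      filter_upwards [hTe', hT', hdc] with w h1 h2 h3
      rw [dV_trans hh hP h2.self_of_nhds h1, Matrix.mulVec_mulVec, Matrix.nonsing_inv_mul _
        (by rw [Matrix.det_transpose]; exact isUnit_iff_ne_zero.2 h3), Matrix.one_mulVec]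

/-! ### Kähler–Einstein weights -/

theorem ke_pot {u : E3 → ℝ} (hu : KEon f s r u) {θ : Cn 2 → E3} {O : Set (Cn 2)}
    (hP : PE f s r θ O) {z : Cn 2} (hz : z ∈ O) : Pot (fun z => u (θ z)) z :=
  Pot.of_on hP.par.isOpen (hu.sm θ O hP) (hu.pos θ O hP) hz

/-- `∂∂̄ log det ∂∂̄u = ∂∂̄u` -/
theorem hess_ldt (L : LvlOK f s r) {u : E3 → ℝ} (hu : KEon f s r u) {θ : Cn 2 → E3}
    {O : Set (Cn 2)} (hP : PE f s r θ O) {z : Cn 2} (hz : z ∈ O) :
    hess (ldt fun z => u (θ z)) z = hess (fun z => u (θ z)) z := by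
  have hO := hP.par.isOpen
  have hva : ∀ y ∈ O, ContDiffAt ℝ ∞ (fun z => u (θ z)) y := fun y hy =>
    (hu.sm θ O hP).contDiffAt (hO.mem_nhds hy)
  obtain ⟨q, hq, hq0, hqe⟩ := eta2a_norm (n := 2) hP.par hz (L.an _ (hP.lt z hz))
    (L.sm _ (hP.ne z hz) (hP.lt z hz) (hP.par.lvl z hz))
  have hqd : ∀ᶠ w in 𝓝 z, DifferentiableAt ℂ q w :=
    hq.eventually_analyticAt.mono fun w hw => hw.differentiableAt
  set g : Cn 2 → ℝ := fun w => Real.log (‖q w‖ ^ 2) with hg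
  have hgs : ContDiffAt ℝ ∞ g z := KEl_835.c2_log hq hq0 ∞
  have e3 : (ldt fun z => u (θ z)) =ᶠ[𝓝 z] fun y => (fun z => u (θ z)) y + g y := by
    filter_upwards [hO.mem_nhds hz, hqe, hq.continuousAt.eventually_ne hq0] with y hy hy' hy0
    have h1 : eta2a (n := 2) f θ y = ‖q y‖ ^ 2 := hy'
    have h2 : 0 < ‖q y‖ := norm_pos_iff.2 hy0
    unfold ldt
    rw [← cH_eq_hess (hva y hy), hu.ma θ O hP y hy, ofReal_re, h1,
      Real.log_mul (Real.exp_pos _).ne' (by positivity), Real.log_exp]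
  rw [hess_congr e3, hess_add (hva z hz) hgs, hess_log_norm hqd hq0, add_zero]

/-- **the second Chern form of `Ω¹ ⊗ L_φ`** -/
theorem c2x_HO (L : LvlOK f s r) {u φ : E3 → ℝ} (hu : KEon f s r u) (hφ : SmL f s r φ)
    {x : E3} (hx : f x = s) (h0 : x ≠ 0) (hr : nsq x < r ^ 2) :
    c2x f (HO u φ) x = c2d f u x + mxd f u φ x + mxd f φ φ x := by
  obtain ⟨θ, O, z, hP, hz, -, -, e⟩ := dns_rep L hx h0 hr
  have hO := hP.par.isOpen
  have hψ : ∀ᶠ y in 𝓝 z, ContDiffAt ℝ ∞ (fun z => φ (θ z)) y := by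
    filter_upwards [hO.mem_nhds hz] with y hy
    exact (hφ θ O hP).contDiffAt (hO.mem_nhds hy)
  have e1 := c2_dual (ke_pot hu hP hz) hψ
  rw [hess_ldt L hu hP hz, ← cH_eq_hess (ke_pot hu hP hz).sm.self_of_nhds,
    ← cH_eq_hess hψ.self_of_nhds] at e1
  unfold c2x c2d mxd
  rw [e, e, e, e]
  show (c2 (Hc (fun z => u (θ z)) (fun z => φ (θ z))) z).re / _ = _
  rw [e1, Complex.add_re, Complex.add_re, add_div, add_div]

theorem mxd_zero_right {u : E3 → ℝ} (L : LvlOK f s r) {x : E3} (hx : f x = s) (h0 : x ≠ 0)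
    (hr : nsq x < r ^ 2) : mxd f u (fun _ => 0) x = 0 := by
  refine dns_zero L (fun θ O h z hz hzx => ?_) hx h0 hr
  rw [cH_zero (χ := fun _ => (0 : ℝ)) h hz (Eventually.of_forall fun _ => rfl)]
  simp [pd]

theorem smL_const (c : ℝ) : SmL f s r (fun _ => c) := fun _ _ _ => contDiffOn_const

theorem c2x_HO_zero (L : LvlOK f s r) {u : E3 → ℝ} (hu : KEon f s r u)
    {x : E3} (hx : f x = s) (h0 : x ≠ 0) (hr : nsq x < r ^ 2) :
    c2x f (HO u fun _ => 0) x = c2d f u x := by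
  rw [c2x_HO L hu (smL_const 0) hx h0 hr, mxd_zero_right L hx h0 hr, mxd_zero_right L hx h0 hr]
  ring

theorem cut_tsupport {χ : E3 → ℝ} (hχ : Cut r χ) :
    ∃ r' : ℝ, 0 < r' ∧ r' < r ∧ tsupport χ ⊆ {x | nsq x ≤ r' ^ 2} := by
  obtain ⟨r', h1, h2, h3⟩ := hχ.supp
  refine ⟨r', h1, h2, closure_minimal (fun x hx => ?_)
    (isClosed_le continuous_nsq continuous_const)⟩
  by_contra h4
  exact hx (h3 x (not_le.1 h4).le)

theorem cut_lt {χ : E3 → ℝ} (hχ : Cut r χ) {x : E3} (hx : x ∈ tsupport χ) :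
    nsq x < r ^ 2 := by
  obtain ⟨r', h1, h2, h3⟩ := cut_tsupport hχ
  have h4 : nsq x ≤ r' ^ 2 := h3 hx
  nlinarith

theorem isCompact_nsq_le (R : ℝ) : IsCompact {x : E3 | nsq x ≤ R} := by
  refine Metric.isCompact_of_isClosed_isBounded (isClosed_le continuous_nsq continuous_const) ?_
  rw [isBounded_iff_forall_norm_le]
  refine ⟨√ (max R 0), fun x hx => ?_⟩
  refine (pi_norm_le_iff_of_nonneg (Real.sqrt_nonneg _)).2 fun i => ?_
  refine Real.le_sqrt_of_sq_le ?_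
  have h1 : ‖x i‖ ^ 2 ≤ nsq x := by
    unfold nsq
    exact Finset.single_le_sum (f := fun i => ‖x i‖ ^ 2) (fun j _ => by positivity)
      (Finset.mem_univ i)
  exact (h1.trans hx).trans (le_max_left _ _)

theorem cut_cpt {χ : E3 → ℝ} (hχ : Cut r χ) : HasCompactSupport χ := by
  obtain ⟨r', -, -, h3⟩ := cut_tsupport hχ
  exact (isCompact_nsq_le (r' ^ 2)).of_isClosed_subset (isClosed_tsupport _) h3

/-- **`E1Stmt`** -/
theorem e1Stmt : E1Stmt := by
  intro f s r L hf0 u hu ν hν χ hχ h hh hnd Z hZ hZV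
  have B := bunO L hu.sm hu.pos (smL_const 0) hh (φ := fun _ => 0)
  obtain ⟨a1, a2, a3⟩ := B.e1 L hν hχ.sm (cut_cpt hχ) (fun x hx => cut_lt hχ hx)
    (fun x _ hx hx0 => hf0 (by rw [← hx0]; exact hx)) hnd Z (fun x hx => (hZ x hx).1) hZV
  have hlv : ∀ᵐ x ∂ν, f x = s ∧ x ≠ 0 ∧ nsq x < r ^ 2 := by
    rw [ae_iff]; exact hν.null
  have e : (fun x => χ x * c2x f (HO u fun _ => 0) x) =ᵐ[ν] fun x => χ x * c2d f u x := by
    filter_upwards [hlv] with x hx
    rw [c2x_HO_zero L hu hx.1 hx.2.1 hx.2.2]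
  refine ⟨a1.congr e, a2, ?_⟩
  rw [← integral_congr_ae e, a3]
  rfl

/-- the same on the punctured level -/
theorem e1_off (L : LvlOK f s r) {u φ : E3 → ℝ} (hu : KEon f s r u) (hφ : SmL f s r φ)
    {ν : Measure E3} (hν : IsNu f s r ν) {χ : E3 → ℝ} (hχ : ContDiff ℝ ∞ χ)
    (hc : HasCompactSupport χ) (hr : ∀ x ∈ tsupport χ, nsq x < r ^ 2)
    (h0 : ∀ x ∈ tsupport χ, f x = s → x ≠ 0) {h : E3 → ℂ}
    (hh : ∀ x, nsq x < r ^ 2 → AnalyticAt ℂ h x)
    (hnz : ∀ θ O, PE f s r θ O → ∀ z ∈ O, dV h θ z ≠ 0) :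
    Integrable (fun x => χ x * (c2d f u x + mxd f u φ x + mxd f φ φ x)) ν ∧
    Integrable (oxd f u φ h χ) ν ∧
    ∫ x, χ x * (c2d f u x + mxd f u φ x + mxd f φ φ x) ∂ν = ∫ x, oxd f u φ h χ x ∂ν := by
  have B := bunO L hu.sm hu.pos hφ hh (φ := φ)
  obtain ⟨a1, a2, a3⟩ := B.e1 L hν hχ hc hr h0 (fun θ O h z hz h1 => absurd h1 (hnz θ O h z hz))
    ∅ (by simp) (fun θ O h z hz _ => by simp [hnz θ O h z hz])
  have hlv : ∀ᵐ x ∂ν, f x = s ∧ x ≠ 0 ∧ nsq x < r ^ 2 := by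
    rw [ae_iff]; exact hν.null
  have e : (fun x => χ x * c2x f (HO u φ) x) =ᵐ[ν]
      fun x => χ x * (c2d f u x + mxd f u φ x + mxd f φ φ x) := by
    filter_upwards [hlv] with x hx
    rw [c2x_HO L hu hφ hx.1 hx.2.1 hx.2.2]
  refine ⟨a1.congr e, a2, ?_⟩
  rw [← integral_congr_ae e, a3, Finset.sum_empty, mul_zero, add_zero]
  rfl

end

end Crest.Agent.R257.OutD_309
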