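import Crest.Agent.R257.Srd_761
import Crest.Agent.R257.LossD_309

/-!
R257 / SrdS_761 (helper761, task GB-SARD): `SardStmt` of `LossD_309` in its literal form.
-/

set_option autoImplicit false

open Topology Filter MeasureTheory Set
open scoped ENNReal ContDiff Matrix

noncomputable section

namespace Crest.Agent.R257.SrdS_761

open Complex (I)
open Crest.Agent.R275.Geo
open Crest.Agent.R257.Defs_219
open Crest.Agent.R257.KED_952
open Crest.Agent.R257.PN_835 (nsq)
open Crest.Agent.R257.OutB_309 (Nd)
open Crest.Agent.R257.LossD_309 (dV ptb)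
open Crest.Agent.R257.V1Defs_822 (LvlOK)
open Crest.Agent.R273.Calc_243
open Crest.Agent.R257.Srd_761

theorem sardStmt : LossD_309.SardStmt := by
  intro f s r hL _ h hh
  have h1 := sard_pe (f := f) (g := h) (s := s) (r := r) hL.an hL.sm hh
  refine h1.mono fun a ha θ O hp z hz h0 => ?_
  have hcr : ∀ v, fderiv ℂ (fun z => h (θ z) + ∑ i, a i * θ z i) z v = 0 := by
    intro v
    have hv : v = ∑ i : Fin 2, v i • (EuclideanSpace.single i (1 : ℂ) : Cn 2) := by
      ext j
      fin_cases j <;> simp
    rw [hv, map_sum]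
    refine Finset.sum_eq_zero fun i _ => ?_
    rw [map_smul]
    have h2 : fderiv ℂ (fun z => h (θ z) + ∑ i, a i * θ z i) z (EuclideanSpace.single i 1) = 0 :=
      congrFun h0 i
    rw [h2, smul_zero]
  have h3 := (ha θ O hp z hz hcr).1
  have hF : DifferentiableOn ℂ (fun z => h (θ z) + ∑ i, a i * θ z i) O := by
    intro y hy
    refine DifferentiableAt.differentiableWithinAt ?_
    refine ((hh _ (hp.lt y hy)).differentiableAt.comp y (hp.par.diffAt hy)).add ?_
    refine DifferentiableAt.fun_sum fun i _ => ?_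
    exact (differentiableAt_pi.1 (hp.par.diffAt hy) i).const_mul _
  have hFz := Crest.Agent.R266.SCV.analyticOnNhd_of_differentiableOn hp.par.isOpen hF z hz
  have h4 : (Matrix.of fun i a' : Fin 2 => dS (-I) a' (fun w => dV (ptb h a) θ w i) z) =
      (Matrix.of fun i j : Fin 2 => fderiv ℂ (fun y => fderiv ℂ (fun z => h (θ z) +
        ∑ i, a i * θ z i) y (EuclideanSpace.single j 1)) z (EuclideanSpace.single i 1))ᵀ := by
    ext i j
    show dS (-I) j (fun w => fderiv ℂ (fun z => h (θ z) + ∑ i, a i * θ z i) w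
      (EuclideanSpace.single i 1)) z = _
    rw [dS_hol]
    · rfl
    · exact (ContinuousLinearMap.apply ℂ ℂ (EuclideanSpace.single i (1 : ℂ))).differentiableAt.comp z
        hFz.fderiv.differentiableAt
  show (Matrix.of fun i a' : Fin 2 => dS (-I) a' (fun w => dV (ptb h a) θ w i) z).det ≠ 0
  rw [h4, Matrix.det_transpose]
  exact h3

end Crest.Agent.R257.SrdS_761

end
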