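import Crest.Agent.R257.OxCv3_397
import Crest.Agent.R257.LossT_309
import Crest.Agent.R257.OutD_309
import Crest.Agent.R257.SrdS_761
import Crest.Agent.R257.Mnr_149

/-!
# R257 (S0395), the limit of the second Chern integrals (helper397)

* `c2i_eq`   : `C2I = ∫ χ c₂` when integrable
* `exists_pt` : small generic perturbations
* `one_level` : the identity on a near smooth level, with `col (mnr f h)` zeros
* `tendStmt` : `TendStmt` from `CntStmt`
-/

set_option autoImplicit false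

open Topology Filter MeasureTheory Set
open scoped ENNReal ContDiff Matrix

noncomputable section

namespace Crest.Agent.R257.Lim_397

open Crest.Agent.R275.Geo
open Crest.Agent.R257.Defs_219
open Crest.Agent.R257.KED_952 Crest.Agent.R257.KEG_952
open Crest.Agent.R257.V1Defs_822 (SmL LvlOK)
open Crest.Agent.R257.V1Pe_822 (continuous_nsq3 isNu_ae)
open Crest.Agent.R257.PN_835 (nsq)
open Crest.Agent.R257.Ked2_397
open Crest.Agent.R257.LossD_309 Crest.Agent.R257.LossT_309 Crest.Agent.R257.OutB_309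
open Crest.Agent.R257.OxCv1_397 Crest.Agent.R257.OxCv3_397

variable {Φ : E3 × PP → ℂ} {τ₀ : PP} {l : Filter PP} {r C : ℝ} {w : PP → E3 → ℝ} {u : E3 → ℝ}

/-- `C2I` as a Bochner integral -/
theorem c2i_eq {f : E3 → ℂ} {s : ℂ} {χ : E3 → ℝ} {ν : Measure E3} (hL : LvlOK f s r)
    (hu : KEon f s r u) (hν : IsNu f s r ν) (hχ : Cut r χ)
    (hi : Integrable (fun x => χ x * c2d f u x) ν) :
    C2I ν f u χ < ⊤ ∧ (C2I ν f u χ).toReal = ∫ x, χ x * c2d f u x ∂ν := by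
  have h0 : ∀ᵐ x ∂ν, 0 ≤ χ x * c2d f u x := isNu_ae hν fun x h1 h2 h3 => by
    have := bmyStmt f s r u hL.pos hL.an hL.sm hu x h3 h1 h2
    have h4 := Real.exp_pos (u x)
    exact mul_nonneg (hχ.nn x) (by linarith)
  constructor
  · have := (hasFiniteIntegral_iff_ofReal h0).1 hi.2
    exact this
  · rw [integral_eq_lintegral_of_nonneg_ae h0 hi.1]
    rfl

/-- small generic perturbations -/
theorem exists_pt {f : E3 → ℂ} {s : ℂ} (hL : LvlOK f s r) (h0 : f 0 ≠ s) {h : E3 → ℂ}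
    (hh : ∀ x, nsq x < r ^ 2 → AnalyticAt ℂ h x) {ε : ℝ} (hε : 0 < ε) :
    ∃ a : E3, ‖a‖ < ε ∧ ∀ θ O, PE f s r θ O → ∀ z ∈ O, dV (ptb h a) θ z = 0 →
      Nd (dV (ptb h a) θ) z := by
  have h1 := SrdS_761.sardStmt f s r hL h0 h hh
  have h2 := Measure.dense_of_ae h1
  obtain ⟨a, ha1, ha2⟩ := h2.inter_open_nonempty (Metric.ball (0 : E3) ε) Metric.isOpen_ball
    ⟨0, Metric.mem_ball_self hε⟩
  exact ⟨a, mem_ball_zero_iff.1 ha1, ha2⟩

/-- **`TendStmt` from `CntStmt`** -/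
theorem tendStmt (cnt : CntStmt) : TendStmt := by
  intro Φ τ₀ l r C w u hS f hf χ hχ ν ν₀ hν hν₀ h hh hfin hN
  subst hf
  classical
  have hF : FamD Φ τ₀ l r C w u := hS.toFamD
  have hL0 := Vol_397.lvl0 hF.toFam
  have hh' : ∀ x, nsq x < r ^ 2 → AnalyticAt ℂ h x := fun x hx => hh x hx.le
  have hne : l.NeBot := hS.ne
  -- radii
  obtain ⟨r₁, -, hr₁, -, hχ1, -⟩ := V1Top_822.cut_locconst hχ
  obtain ⟨ρ₂, b1, b2, b3⟩ := hχ.supp
  set r₂ := (ρ₂ + r) / 2 with hr₂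
  have c1 : 0 ≤ r₂ := by rw [hr₂]; linarith
  have c2 : r₂ < r := by rw [hr₂]; linarith
  have c3 : ρ₂ < r₂ := by rw [hr₂]; linarith
  have hts : ∀ x, x ∈ tsupport χ → nsq x ≤ r₂ ^ 2 := by
    intro x hx
    have h1 : tsupport χ ⊆ {x | nsq x ≤ ρ₂ ^ 2} := by
      refine closure_minimal (fun y hy => ?_) (isClosed_le continuous_nsq3 continuous_const)
      by_contra hcon
      exact hy (b3 y (not_le.1 hcon).le)
    have h2 : nsq x ≤ ρ₂ ^ 2 := h1 hx
    nlinarith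
  -- count
  have hΦ0 : AnalyticAt ℂ Φ (0, τ₀) := hS.an 0 (by
    rw [V1Pe_822.nsq_zero3]
    positivity)
  obtain ⟨ρ, hρ, hcnt⟩ := cnt Φ τ₀ hΦ0 _ rfl hS.iso h (hh 0 (by
    rw [V1Pe_822.nsq_zero3]
    positivity)) hfin
  set ε := min (min ρ r₁) (r / 2) with hε
  have hεp : 0 < ε := lt_min (lt_min hρ hr₁) (by linarith [hS.r_pos])
  have hε1 : ε ≤ ρ := (min_le_left _ _).trans (min_le_left _ _)
  have hε2 : ε ≤ r₁ := (min_le_left _ _).trans (min_le_right _ _)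
  have hε3 : ε < r := lt_of_le_of_lt (min_le_right _ _) (by linarith [hS.r_pos])
  have hcnt' := hcnt ε hεp
  -- the perturbations
  have hLev := Vol_397.ev_lvl hF.toFam
  have hfz : Φ (0, τ₀) = 0 := hS.iso.zero
  have hex : ∀ τ, ∃ a : E3, ‖a‖ ≤ dist τ τ₀ ∧ (LvlOK (fun x => Φ (x, τ)) 0 r → Φ (0, τ) ≠ 0 →
      ∀ θ O, PE (fun x => Φ (x, τ)) 0 r θ O → ∀ z ∈ O, dV (ptb h a) θ z = 0 →
        Nd (dV (ptb h a) θ) z) := by
    intro τ
    by_cases h1 : LvlOK (fun x => Φ (x, τ)) 0 r ∧ Φ (0, τ) ≠ 0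
    · have h2 : 0 < dist τ τ₀ := by
        refine dist_pos.2 ?_
        rintro rfl
        exact h1.2 hfz
      obtain ⟨a, ha1, ha2⟩ := exists_pt h1.1 h1.2 hh' h2
      exact ⟨a, ha1.le, fun _ _ => ha2⟩
    · exact ⟨0, by rw [norm_zero]; exact dist_nonneg, fun h2 h3 => absurd ⟨h2, h3⟩ h1⟩
  choose a ha hgen using hex
  have ha0 : Tendsto a l (𝓝 0) := by
    have h1 : Tendsto (fun τ => dist τ τ₀) l (𝓝 0) := by
      have h2 : Tendsto (fun τ => dist τ τ₀) (𝓝 τ₀) (𝓝 (dist τ₀ τ₀)) :=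
        (continuous_id.dist continuous_const).tendsto τ₀
      rw [dist_self] at h2
      exact h2.mono_left hS.lim
    exact squeeze_zero_norm ha h1
  have hta : Tendsto (fun τ => (τ, a τ)) l (𝓝 (τ₀, 0)) := by
    rw [nhds_prod_eq]
    exact (tendsto_id.mono_left hS.lim).prodMk ha0
  -- the identity on the levels
  have key : ∀ᶠ τ in l, C2I (ν τ) (fun x => Φ (x, τ)) (w τ) χ < ⊤ ∧
      (C2I (ν τ) (fun x => Φ (x, τ)) (w τ) χ).toReal =
        ∫ x, oxd (fun x => Φ (x, τ)) (w τ) (fun _ => 0) (ptb h (a τ)) χ x ∂(ν τ) +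
          Real.pi ^ 2 * col (mnr (fun x => Φ (x, τ₀)) h) := by
    filter_upwards [hLev, hS.nz, hS.ke, hν, hta.eventually hcnt',
      ev_ne hF.toFam hh' hN (by positivity : (0 : ℝ) < ε / 2) c1 c2 ha0] with τ t1 t2 t3 t4 t5 t6
    obtain ⟨u1, u2, u3⟩ := t5
    have hhp : ∀ x, nsq x < r ^ 2 → AnalyticAt ℂ (ptb h (a τ)) x := fun x hx => ptb_an (hh' x hx)
    have hnd := hgen τ t1 t2
    set g : E3 → ℂ := fun x => Φ (x, τ) with hg
    -- points of the zero set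
    have hZ : ∀ x ∈ ZM Φ h ρ (τ, a τ), g x = 0 ∧ x ≠ 0 ∧ nsq x < r ^ 2 := by
      intro x hx
      have e1 : g x = 0 := hx.2 0
      refine ⟨e1, ?_, ?_⟩
      · rintro rfl
        exact t2 e1
      · have := u2 x hx
        nlinarith
    have hmn : ∀ θ O, PE g 0 r θ O → ∀ z ∈ O, (dV (ptb h (a τ)) θ z = 0 ↔
        ∀ j, mnr g (ptb h (a τ)) j (θ z) = 0) := fun θ O hP z hz =>
      (Mnr_149.mnrStmt g r t1 (ptb h (a τ)) hhp θ O hP z hz).1
    have hcard := u3 fun x hx v hv => by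
      obtain ⟨e1, e2, e3⟩ := hZ x hx
      obtain ⟨θ, O, z, hP, hz, rfl⟩ := exists_pe (t1.an x e3) (t1.sm x e2 e3 e1) e1 e2 e3
      have e4 := (hmn θ O hP z hz).2 hx.2
      exact (Mnr_149.mnrStmt g r t1 (ptb h (a τ)) hhp θ O hP z hz).2 e4
        (hnd θ O hP z hz e4) v hv
    have hE := OutD_309.e1Stmt g 0 r t1 t2 (w τ) t3.1 (ν τ) t4 χ hχ (ptb h (a τ)) hhp hnd
      u1.toFinset (fun x hx => by
        have := hZ x (u1.mem_toFinset.1 hx)
        exact ⟨this.1, this.2.2⟩) (fun θ O hP z hz hzs => by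
        rw [u1.mem_toFinset]
        constructor
        · intro hx
          exact (hmn θ O hP z hz).2 hx.2
        · intro hv
          have e1 : nsq (θ z) < (ε / 2) ^ 2 := by
            by_contra hcon
            obtain ⟨v, hv1, hv2⟩ := t6 _ (not_lt.1 hcon) (hts _ hzs) (hP.par.lvl z hz)
            exact ((dV_ne_iff hP.par hz (t1.an _ (hP.lt z hz)).differentiableAt
              (t1.sm _ (hP.ne z hz) (hP.lt z hz) (hP.par.lvl z hz))
              (hhp _ (hP.lt z hz)).differentiableAt).2 ⟨v, hv1, hv2⟩) hv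
          refine ⟨?_, (hmn θ O hP z hz).1 hv⟩
          nlinarith)
    obtain ⟨i1, i2, i3⟩ := hE
    obtain ⟨j1, j2⟩ := c2i_eq t1 t3.1 t4 hχ i1
    refine ⟨j1, ?_⟩
    rw [j2, i3]
    have hsum : ∑ x ∈ u1.toFinset, χ x = (col (mnr (fun x => Φ (x, τ₀)) h) : ℝ) := by
      have e1 : ∑ x ∈ u1.toFinset, χ x = ∑ x ∈ u1.toFinset, (1 : ℝ) := by
        refine Finset.sum_congr rfl fun x hx => ?_
        have e2 := u2 x (u1.mem_toFinset.1 hx)
        exact (hχ1 x (by nlinarith)).self_of_nhds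
      rw [e1, Finset.sum_const, nsmul_eq_mul, mul_one, ← hcard, Set.ncard_eq_toFinset_card _ u1]
    rw [hsum]
  refine ⟨key.mono fun τ hτ => hτ.1, ?_⟩
  obtain ⟨o1, o2, o3⟩ := oxCvStmt Φ τ₀ l r C w u hS _ rfl χ hχ h hh hN a ha0
  have hint := KedM_941.cvIStmt Φ τ₀ l r hF.toFam ν ν₀ hν hν₀
    (fun τ => oxd (fun x => Φ (x, τ)) (w τ) (fun _ => 0) (ptb h (a τ)) χ)
    (oxd (fun x => Φ (x, τ₀)) u (fun _ => 0) h χ) o3 o2 o1
    ⟨r₁, r₂, hr₁, by linarith, c2, fun x hx => by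
      have key2 : ∀ (f' : E3 → ℂ) (u' φ' : E3 → ℝ) (h' : E3 → ℂ), oxd f' u' φ' h' χ x = 0 := by
        intro f' u' φ' h'
        rcases hx with hx | hx
        · exact oxd_zero (hχ1 x hx)
        · refine oxd_zero (c := 0) ?_
          have h6 : ∀ᶠ y in 𝓝 x, ρ₂ ^ 2 < nsq y := by
            refine continuousAt_const.eventually_lt continuous_nsq3.continuousAt ?_
            nlinarith
          exact h6.mono fun y hy => b3 y hy.le
      exact ⟨fun τ => key2 _ _ _ _, key2 _ _ _ _⟩⟩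
  have hlim := hint.add_const (Real.pi ^ 2 * (col (mnr (fun x => Φ (x, τ₀)) h) : ℝ))
  refine hlim.congr' ?_
  filter_upwards [key] with τ hτ
  exact hτ.2.symm

end Crest.Agent.R257.Lim_397
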