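import Crest.Agent.R257.LossU_309
import Crest.Agent.R257.Lim_397
import Crest.Agent.R257.Cnt3_812
import Crest.Agent.R257.KUP_952

/-!
R257 / Bd_309 (helper309): **`BdStmt`**, `TendStmt`, `E2Stmt`; `LossStmt` from `V0Stmt`.
-/

set_option autoImplicit false

namespace Crest.Agent.R257.Bd_309

open Crest.Agent.R257.KED_952 Crest.Agent.R257.KEG_952

theorem tendStmt : LossT_309.TendStmt := Lim_397.tendStmt Det_812.cntStmt

/-- the second Chern integrals of the smooth levels are bounded -/
theorem bdStmt : BdStmt := LossU_309.bdStmt_of tendStmt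

/-- limit of the second Chern integrals -/
theorem e2Stmt : KUP_952.E2Stmt := fun Φ τ₀ l r C w u hD f hf χ hχ ν ν₀ hν hν₀ h hh _ hcf hnz =>
  (tendStmt Φ τ₀ l r C w u hD f hf χ hχ ν ν₀ hν hν₀ h hh hcf hnz).2

/-- the loss statement -/
theorem lossStmt (v0 : LossD_309.V0Stmt) : LossStmt := LossU_309.lossStmt_of tendStmt v0

end Crest.Agent.R257.Bd_309
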