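import Crest.Agent.R257.MtM_822
import Crest.Agent.R257.BCUP_532
import Crest.Agent.R257.Bridge_822

/-!
# R257 (S0395) (helper822): Hermitian metrics on a level as bundles over the atlas of 941 / 938

* `hbE hf hH`      : `HB ((LX hf).A 0) (Fin 2)` from `Mt f r H`
* `lfE`            : the logarithm of `G⁻¹ H`
* `re_bridge`      : `∫ ψ dν = Re intD P D`
* `q2_re`          : `tr F²` in terms of `mxd`, `c2h`
-/

set_option autoImplicit false
set_option linter.unusedSectionVars false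

open Set Filter Topology Complex MeasureTheory
open scoped ContDiff Matrix ComplexConjugate ComplexOrder ENNReal

namespace Crest.Agent.R257.BrH_822

open Crest.Agent.R275.Geo Crest.Agent.R275.Core144 Crest.Agent.R275.EDR890
open Crest.Agent.R275.Pai323 Crest.Agent.R275.C1d194
open Crest.Agent.R275.SerG398 (lint dens)
open Crest.Agent.R273.StokesV_332
open Crest.Agent.R273.GreenM_5
open Crest.Agent.R273.Fock_243
open Crest.Agent.R273.Calc_243 hiding dV dj
open Crest.Agent.R273.Bkn_243 Crest.Agent.R273.Pos_243 Crest.Agent.R273.BochA_101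
open Crest.Agent.R273.BochB_101
open Crest.Agent.R273.BochC_101 Crest.Agent.R273.BochD_101
open Crest.Agent.R273.Defs_333 Crest.Agent.R273.Vm_333 Crest.Agent.R273.Kah_333
open Crest.Agent.R273.Hess_333 Crest.Agent.R273.HessB_333
open Crest.Agent.R273.YauDefs_635 (cH)
open Crest.Agent.R273.YauMax_635 (cH_eq_hess)
open Crest.Agent.R257.C2F1_625 Crest.Agent.R257.C2F2_625 Crest.Agent.R257.C2F3_625
open Crest.Agent.R257.C2F4_335 Crest.Agent.R257.C2F5_335 Crest.Agent.R257.C2F6_335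
open Crest.Agent.R257.Defs_219
open Crest.Agent.R257.PN_835 (nsq)
open Crest.Agent.R257.Aff_835 (eta2a)
open Crest.Agent.R257.KED_952 Crest.Agent.R257.KEG_952
open Crest.Agent.R257.Ked1_397 Crest.Agent.R257.Ked2_397
open Crest.Agent.R257.V1Defs_822 (SmL LvlOK)
open Crest.Agent.R257.V1Pe_822 (smAt)
open Crest.Agent.R257.UpK_938 Crest.Agent.R257.Bridge_822
open Crest.Agent.R257.OutA_309 (eta2a_nn)
open Crest.Agent.R257.OutC_309 (c2x)
open Crest.Agent.R257.KUP_952
open Crest.Agent.R257.LossA_625 (Lv)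
open Crest.Agent.R257.MtM_822
open Crest.Agent.R257.BCU4_532 Crest.Agent.R257.BCU7_532 Crest.Agent.R257.BCUP_532
open Crest.Agent.R257.BCU2_532 (ex)

noncomputable section

variable {f : E3 → ℂ} {r : ℝ} (hf : LvlOK f 0 r)

/-! ### coordinate changes -/

theorem tr_chart {i j : ((LX hf).A 0).ι} {x : (LX hf).M 0}
    (hx : x ∈ (((LX hf).A 0).e i).source ∩ (((LX hf).A 0).e j).source) :
    ∀ᶠ w in 𝓝 (((LX hf).A 0).e i x), Tr ((LX hf).A 0) i j w ∈ (((LX hf).A 0).e j).target ∧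
      thc hf i w = thc hf j (Tr ((LX hf).A 0) i j w) := by
  filter_upwards [ev_ov hx] with w hw
  refine ⟨(((LX hf).A 0).e j).map_source hw.2, ?_⟩
  unfold thc Tr
  rw [(((LX hf).A 0).e j).left_inv hw.2]

theorem tr_det {i j : ((LX hf).A 0).ι} {x : (LX hf).M 0}
    (hx : x ∈ (((LX hf).A 0).e i).source ∩ (((LX hf).A 0).e j).source) :
    (Jac (Tr ((LX hf).A 0) i j) (((LX hf).A 0).e i x)).det ≠ 0 :=
  det_trans (pe_chart hf i).par (pe_chart hf j).par ((((LX hf).A 0).e i).map_source hx.1)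
    (Tr_hol hx) (tr_chart hf hx)

/-- the bundle `Ω¹` with the metric `H` -/
def hbE {H : Form} (hH : Mt f r H) : HB ((LX hf).A 0) (Fin 2) where
  H i x := H (thc hf i) (((LX hf).A 0).e i x)
  F i j x := ((Jm ((LX hf).A 0) i j x)ᵀ)⁻¹
  sm i a b := by
    show ContDiffOn ℝ ∞ (fun z => H (thc hf i) (((LX hf).A 0).e i
      ((((LX hf).A 0).e i).symm z)) a b) _
    refine (hH.sm _ _ (pe_chart hf i) a b).congr fun z hz => ?_
    rw [(((LX hf).A 0).e i).right_inv hz]
  pos i x hx := hH.pos _ _ (pe_chart hf i) _ ((((LX hf).A 0).e i).map_source hx)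
  hol i j a b := by
    intro z hz
    have hx : (((LX hf).A 0).e i).symm z ∈ (((LX hf).A 0).e i).source ∩
        (((LX hf).A 0).e j).source := ⟨(((LX hf).A 0).e i).map_target hz.1, hz.2⟩
    have h1 := trF (Tr_hol hx) (tr_det hf hx) a b
    rw [(((LX hf).A 0).e i).right_inv hz.1] at h1
    refine (h1.self_of_nhds.congr_of_eventuallyEq ?_).differentiableWithinAt
    filter_upwards [(isOpen_ov i j).mem_nhds hz] with w hw
    rw [← Jac_Tr, (((LX hf).A 0).e i).right_inv hw.1]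
  det_ne i j x hx := by
    rw [Matrix.det_nonsing_inv, Ring.inverse_eq_inv', Matrix.det_transpose, ← Jac_Tr]
    exact inv_ne_zero (tr_det hf hx)
  tr i j x hx := by
    have h1 := Mt.tr_eq hH (pe_chart hf j) (pe_chart hf i)
      ((((LX hf).A 0).e i).map_source hx.1) (T := Tr ((LX hf).A 0) i j)
      (Tr_hol hx).self_of_nhds (tr_chart hf hx) (tr_det hf hx)
    rw [Jac_Tr, Tr_at hx.1] at h1
    exact h1

theorem rdM_hbE {H : Form} (hH : Mt f r H) {i : ((LX hf).A 0).ι} {z : Cn 2}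
    (hz : z ∈ (((LX hf).A 0).e i).target) :
    rdM ((LX hf).A 0) i ((hbE hf hH).H i) z = H (thc hf i) z := by
  show H (thc hf i) (((LX hf).A 0).e i ((((LX hf).A 0).e i).symm z)) = _
  rw [(((LX hf).A 0).e i).right_inv hz]

theorem rdM_ev {H : Form} (hH : Mt f r H) {i : ((LX hf).A 0).ι} {x : (LX hf).M 0}
    (hx : x ∈ (((LX hf).A 0).e i).source) :
    rdM ((LX hf).A 0) i ((hbE hf hH).H i) =ᶠ[𝓝 (((LX hf).A 0).e i x)] H (thc hf i) := by
  filter_upwards [(((LX hf).A 0).e i).open_target.mem_nhds ((((LX hf).A 0).e i).map_source hx)]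
    with z hz
  exact rdM_hbE hf hH hz

/-- the logarithm -/
def lfE {lg : Matrix (Fin 2) (Fin 2) ℂ → Matrix (Fin 2) (Fin 2) ℂ} (hlg : Lgm lg)
    {G H : Form} (hG : Mt f r G) (hH : Mt f r H) : LF (hbE hf hG) where
  L i x := lg ((G (thc hf i) (((LX hf).A 0).e i x))⁻¹ * H (thc hf i) (((LX hf).A 0).e i x))
  sm i a b := by
    have hO := (((LX hf).A 0).e i).open_target
    have hP := pe_chart hf i
    show ContDiffOn ℝ ∞ (fun z => lg ((G (thc hf i) (((LX hf).A 0).e i
      ((((LX hf).A 0).e i).symm z)))⁻¹ * H (thc hf i) (((LX hf).A 0).e i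
      ((((LX hf).A 0).e i).symm z))) a b) _
    intro z hz
    refine ContDiffAt.contDiffWithinAt ?_
    have h1 := hlg.sm (G (thc hf i)) (H (thc hf i)) z
      (fun c d => (hG.sm _ _ hP c d).contDiffAt (hO.mem_nhds hz))
      (fun c d => (hH.sm _ _ hP c d).contDiffAt (hO.mem_nhds hz))
      (by filter_upwards [hO.mem_nhds hz] with y hy using hG.pos _ _ hP y hy)
      (by filter_upwards [hO.mem_nhds hz] with y hy using hH.pos _ _ hP y hy) a b
    refine h1.congr_of_eventuallyEq ?_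
    filter_upwards [hO.mem_nhds hz] with y hy
    rw [(((LX hf).A 0).e i).right_inv hy]
  sa i x hx := by
    have hz := (((LX hf).A 0).e i).map_source hx
    exact hlg.sa _ _ (hG.pos _ _ (pe_chart hf i) _ hz) (hH.pos _ _ (pe_chart hf i) _ hz)
  tr i j x hx := by
    have hF := (hbE hf hG).det_ne i j x hx
    refine hlg.conj _ _ _ hF ?_
    have e1 := (hbE hf hG).tr i j x hx
    have e2 := (hbE hf hH).tr i j x hx
    have h1 : G (thc hf i) (((LX hf).A 0).e i x) = ((hbE hf hG).F i j x)ᴴ *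
      G (thc hf j) (((LX hf).A 0).e j x) * (hbE hf hG).F i j x := e1
    have h2 : H (thc hf i) (((LX hf).A 0).e i x) = ((hbE hf hG).F i j x)ᴴ *
      H (thc hf j) (((LX hf).A 0).e j x) * (hbE hf hG).F i j x := e2
    rw [h1, h2]
    have hF' : (((hbE hf hG).F i j x)ᴴ).det ≠ 0 := by
      rw [Matrix.det_conjTranspose]; exact (star_ne_zero).2 hF
    have i1 : (hbE hf hG).F i j x * ((hbE hf hG).F i j x)⁻¹ = 1 :=
      Matrix.mul_nonsing_inv _ (isUnit_iff_ne_zero.2 hF)
    have i2 : (((hbE hf hG).F i j x)ᴴ)⁻¹ * ((hbE hf hG).F i j x)ᴴ = 1 :=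
      Matrix.nonsing_inv_mul _ (isUnit_iff_ne_zero.2 hF')
    rw [Matrix.mul_inv_rev, Matrix.mul_inv_rev]
    calc (hbE hf hG).F i j x * (((hbE hf hG).F i j x)⁻¹ *
          ((G (thc hf j) (((LX hf).A 0).e j x))⁻¹ * (((hbE hf hG).F i j x)ᴴ)⁻¹) *
          (((hbE hf hG).F i j x)ᴴ * H (thc hf j) (((LX hf).A 0).e j x) *
            (hbE hf hG).F i j x))
        = ((hbE hf hG).F i j x * ((hbE hf hG).F i j x)⁻¹) *
          (G (thc hf j) (((LX hf).A 0).e j x))⁻¹ * ((((hbE hf hG).F i j x)ᴴ)⁻¹ *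
          ((hbE hf hG).F i j x)ᴴ) * H (thc hf j) (((LX hf).A 0).e j x) *
            (hbE hf hG).F i j x := by simp only [Matrix.mul_assoc]
      _ = _ := by rw [i1, i2, Matrix.one_mul, Matrix.mul_one]

/-- the end of the geodesic -/
theorem gE_one {lg : Matrix (Fin 2) (Fin 2) ℂ → Matrix (Fin 2) (Fin 2) ℂ} (hlg : Lgm lg)
    {G H : Form} (hG : Mt f r G) (hH : Mt f r H) {i : ((LX hf).A 0).ι} {x : (LX hf).M 0}
    (hx : x ∈ (((LX hf).A 0).e i).source) :
    (gE (lfE hf hlg hG hH) 1).H i x = (hbE hf hH).H i x := by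
  have hz := (((LX hf).A 0).e i).map_source hx
  have hp := hG.pos _ _ (pe_chart hf i) _ hz
  have hd : (G (thc hf i) (((LX hf).A 0).e i x)).det ≠ 0 := hp.det_pos.ne'
  show G (thc hf i) (((LX hf).A 0).e i x) * ex (lg ((G (thc hf i) (((LX hf).A 0).e i x))⁻¹ *
    H (thc hf i) (((LX hf).A 0).e i x))) 1 = H (thc hf i) (((LX hf).A 0).e i x)
  unfold BCU2_532.ex
  rw [one_smul, hlg.exp _ _ hp (hH.pos _ _ (pe_chart hf i) _ hz),
    Matrix.mul_nonsing_inv_cancel_left _ _ (isUnit_iff_ne_zero.2 hd)]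

theorem q2_congr {G H : Cn 2 → Matrix (Fin 2) (Fin 2) ℂ} {z : Cn 2} (h : G =ᶠ[𝓝 z] H) :
    q2 G z = q2 H z := by
  unfold q2 Th
  rw [h.self_of_nhds]
  simp only [rm_congr h]

theorem q2D_gE {lg : Matrix (Fin 2) (Fin 2) ℂ → Matrix (Fin 2) (Fin 2) ℂ} (hlg : Lgm lg)
    {G H : Form} (hG : Mt f r G) (hH : Mt f r H) {i : ((LX hf).A 0).ι} {x : (LX hf).M 0}
    (hx : x ∈ (((LX hf).A 0).e i).source) :
    q2D (gE (lfE hf hlg hG hH) 1) i x = q2D (hbE hf hH) i x := by
  refine q2_congr ?_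
  filter_upwards [(((LX hf).A 0).e i).open_target.mem_nhds ((((LX hf).A 0).e i).map_source hx)]
    with z hz
  exact gE_one hf hlg hG hH ((((LX hf).A 0).e i).map_target hz)

end

end Crest.Agent.R257.BrH_822
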