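import Crest.Agent.R257.Cmp3_101

/-!
# Row 257 (S0395), leaf CMP (helper101), part 4: comparison of residual masses

* `tot_trunc` : `∫ u (∂∂̄u) ∧ (∂∂̄chi) = ∫ chi (∂∂̄ kp K u)²` for `K` large
* `cmp`       : `u ≤ w + C` at the end, `(∂∂̄w)² = 0`:
  `∫ w ∂∂̄w ∧ ∂∂̄chi + ∫ zeta (∂∂̄u)² ≤ ∫ u ∂∂̄u ∧ ∂∂̄chi`
-/

set_option autoImplicit false
set_option linter.unusedSectionVars false

open Set Filter Topology Complex MeasureTheory
open scoped ContDiff Matrix ComplexConjugate ComplexOrder

namespace Crest.Agent.R257.Cmp4_101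

open Crest.Agent.R275.Geo
open Crest.Agent.R275.Core144 Crest.Agent.R273
open Crest.Agent.R273.Hess_333 Crest.Agent.R273.HessB_333 Crest.Agent.R273.Kah_333
open Crest.Agent.R273.StokesV_332
open Crest.Agent.R257.C2F1_625
open Crest.Agent.R257.Cmp1_101 Crest.Agent.R257.Cmp2_101 Crest.Agent.R257.Cmp3_101
open Crest.Agent.R257.GBLcut_844 (pd_nonneg pd_im_zero pd_herm_im)

noncomputable section

variable {M : Type} [TopologicalSpace M] [T2Space M] {B : Atl 2 M}

/-- hypotheses on the outer cut-off function: `w → -∞` is the end -/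
structure EndCut (B : Atl 2 M) (w chi : M → ℝ) (c₀ : ℝ) : Prop where
  smw : B.Sm w
  smc : B.Sm chi
  cpt : ∀ c : ℝ, IsCompact (tsupport chi ∩ {x | c ≤ w x})
  one : ∀ x ∈ tsupport chi, w x < c₀ → ∀ᶠ y in 𝓝 x, chi y = 1

variable {w chi : M → ℝ} {c₀ : ℝ}

theorem EndCut.hsf_chi (h : EndCut B w chi c₀) {i : B.ι} {x : M} (hx : x ∈ (B.e i).source)
    (hn : ¬ (x ∈ tsupport chi ∧ c₀ ≤ w x)) : hsf B chi i x = 0 := by
  by_cases hxX : x ∈ tsupport chi
  · have h1 : w x < c₀ := by
      by_contra h2
      exact hn ⟨hxX, not_lt.1 h2⟩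
    exact hsf_zero_of_eventually hx (h.one x hxX h1)
  · refine hsf_zero_of_eventually hx (c := 0) ?_
    filter_upwards [(isClosed_tsupport chi).isOpen_compl.mem_nhds hxX] with y hy
    exact image_eq_zero_of_notMem_tsupport hy

/-- a truncation of `u` has zero Hessian at the end -/
theorem EndCut.kp_end (h : EndCut B w chi c₀) {u : M → ℝ} {C K R₀ : ℝ}
    (hle : ∀ x ∈ tsupport chi, u x ≤ w x + C) (hK : 0 < K) (hR : 2 * K + C ≤ R₀) (hRc : -R₀ ≤ c₀)
    {i : B.ι} {x : M} (hx : x ∈ (B.e i).source) (hxX : x ∈ tsupport chi) (hwx : w x < -R₀) :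
    hsf B (fun y => kp K (u y)) i x = 0 := by
  refine hsf_zero_of_eventually hx (c := K * kap (-2)) ?_
  have h1 := h.one x hxX (hwx.trans_le hRc)
  filter_upwards [h1, (cont h.smw).continuousAt.eventually (gt_mem_nhds hwx)] with y hy hy2
  have h2 : y ∈ tsupport chi := subset_tsupport chi (by
    rw [Function.mem_support, hy]
    exact one_ne_zero)
  have h3 := hle y h2
  exact kp_const hK (by linarith)

/-- `∫ u (∂∂̄u) ∧ (∂∂̄chi) = ∫ chi (∂∂̄ kp K u)²` for `K` large -/
theorem EndCut.tot_trunc (h : EndCut B w chi c₀) (P : Part B) {u : M → ℝ} (hu : B.Sm u) {C K : ℝ}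
    (hle : ∀ x ∈ tsupport chi, u x ≤ w x + C) (hK : 0 < K)
    (hKu : ∀ x ∈ tsupport chi, c₀ ≤ w x → -K < u x) :
    intD P (fun i x => (u x : ℂ) * pd (hsf B u i x) (hsf B chi i x))
      = intD P (fun i x => (chi x : ℂ) * pd (hsf B (fun y => kp K (u y)) i x)
        (hsf B (fun y => kp K (u y)) i x)) := by
  set a : M → ℝ := fun y => kp K (u y) with had
  have ha : B.Sm a := sm_comp (kp_sm K) hu
  set R₀ : ℝ := max (2 * K + C) (max (-c₀) 1) with hR
  have hR0 : 0 < R₀ := lt_of_lt_of_le one_pos ((le_max_right _ _).trans (le_max_right _ _))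
  have hRc : -R₀ ≤ c₀ := by
    have := (le_max_left (-c₀) 1).trans (le_max_right (2 * K + C) _)
    linarith
  have h1 := stokes_end P (w := w) (f := chi) (a := a) (b := a) (isClosed_tsupport chi) h.smw h.cpt
    h.smc (fun x hx => image_eq_zero_of_notMem_tsupport hx) ha ha hR0
    fun i x hx hxX hwx => h.kp_end hle hK (le_max_left _ _) hRc hx hxX hwx
  rw [h1]
  refine intD_congr P fun i x hx => ?_
  by_cases hn : x ∈ tsupport chi ∧ c₀ ≤ w x
  · have h2 : a =ᶠ[𝓝 x] u := by
      filter_upwards [(cont hu).continuousAt.eventually (lt_mem_nhds (hKu x hn.1 hn.2))] with y hy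
      exact kp_id hK hy.le
    rw [hsf_congr hx h2, h2.self_of_nhds, pd_comm]
  · rw [h.hsf_chi hx hn, pd_zero, zero_pd, mul_zero, mul_zero]

/-- **CMP**: comparison of residual masses -/
theorem cmp (P : Part B) {u w chi zeta : M → ℝ} (C : ℝ) {c₀ : ℝ} (hu : B.Sm u)
    (h : EndCut B w chi c₀) (hz : B.Sm zeta) (cz : HasCompactSupport zeta)
    (h0 : ∀ x, 0 ≤ zeta x) (hzc : ∀ x, zeta x ≤ chi x)
    (pu : ∀ i, ∀ x ∈ (B.e i).source, (hsf B u i x).PosSemidef)
    (pw : ∀ i, ∀ x ∈ (B.e i).source, (hsf B w i x).PosSemidef)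
    (ww : ∀ i, ∀ x ∈ (B.e i).source, pd (hsf B w i x) (hsf B w i x) = 0)
    (hle : ∀ x ∈ tsupport chi, u x ≤ w x + C) :
    (intD P (fun i x => (w x : ℂ) * pd (hsf B w i x) (hsf B chi i x))).re
      + (intD P (fun i x => (zeta x : ℂ) * pd (hsf B u i x) (hsf B u i x))).re
      ≤ (intD P (fun i x => (u x : ℂ) * pd (hsf B u i x) (hsf B chi i x))).re := by
  set Tw := (intD P (fun i x => (w x : ℂ) * pd (hsf B w i x) (hsf B chi i x))).re with hTw
  set Tu := (intD P (fun i x => (u x : ℂ) * pd (hsf B u i x) (hsf B chi i x))).re with hTu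
  set Z := (intD P (fun i x => (zeta x : ℂ) * pd (hsf B u i x) (hsf B u i x))).re with hZ
  have hchi0 : ∀ x, 0 ≤ chi x := fun x => (h0 x).trans (hzc x)
  -- the inequality for every `e`
  have main : ∀ e ∈ Ioo (0 : ℝ) 1, Tw ≤ (1 + e) ^ 2 * (Tu - Z) := by
    intro e he
    have he0 := he.1
    -- compact set
    set K0 : Set M := tsupport zeta ∪ (tsupport chi ∩ {x | c₀ ≤ w x}) with hK0
    have hK0c : IsCompact K0 := cz.isCompact.union (h.cpt c₀)
    obtain ⟨Bu, hBu⟩ := hK0c.exists_bound_of_continuousOn (cont hu).continuousOn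
    obtain ⟨Bw, hBw⟩ := hK0c.exists_bound_of_continuousOn (cont h.smw).continuousOn
    simp only [Real.norm_eq_abs] at hBu hBw
    set Bc : ℝ := |Bw| + 2 * |Bu| + 2 with hBc
    set L : ℝ := max ((2 * |C| + Bc + 1) / e) (|Bw| + 1) with hL
    set K : ℝ := max (2 * L + |C|) (|Bu| + 1) with hKd
    have hL1 : |Bw| + 1 ≤ L := le_max_right _ _
    have hL2 : (2 * |C| + Bc + 1) / e ≤ L := le_max_left _ _
    have hL0 : 0 < L := by linarith [abs_nonneg Bw]
    have hKK1 : 2 * L + |C| ≤ K := le_max_left _ _
    have hKK2 : |Bu| + 1 ≤ K := le_max_right _ _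
    have hK1 : 0 < K := by linarith [abs_nonneg Bu]
    set a : M → ℝ := fun y => kp L (w y) with had
    set uK : M → ℝ := fun y => kp K (u y) with huK
    set b : M → ℝ := fun y => (1 + e) * uK y + Bc with hbd
    have ha : B.Sm a := sm_comp (kp_sm L) h.smw
    have huKs : B.Sm uK := sm_comp (kp_sm K) hu
    have hb1 : B.Sm (fun y => (1 + e) * uK y) := sm_mul (sm_cst _) huKs
    have hb : B.Sm b := sm_add hb1 (sm_cst _)
    have hsfb : ∀ i, ∀ x ∈ (B.e i).source, hsf B b i x = ((1 + e : ℝ) : ℂ) • hsf B uK i x := by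
      intro i x hx
      rw [hbd, hsf_add hb1 (sm_cst _) hx, hsf_const, add_zero, hsf_const_mul huKs _ hx]
    have pa : ∀ i, ∀ x ∈ (B.e i).source, (hsf B a i x).PosSemidef := fun i x hx =>
      kp_psd hL0 h.smw i hx (pw i x hx)
    have puK : ∀ i, ∀ x ∈ (B.e i).source, (hsf B uK i x).PosSemidef := fun i x hx =>
      kp_psd hK1 hu i hx (pu i x hx)
    have pb : ∀ i, ∀ x ∈ (B.e i).source, (hsf B b i x).PosSemidef := fun i x hx => by
      rw [hsfb i x hx]
      exact psd_smul (puK i x hx) (by linarith)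
    -- on `K0`
    have hK0u : ∀ x ∈ K0, -K < u x ∧ -L < w x ∧ a x - b x < 0 := by
      intro x hx
      have h1 := abs_le.1 (hBu x hx)
      have h2 := abs_le.1 (hBw x hx)
      have h3 := le_abs_self Bu
      have h4 := le_abs_self Bw
      refine ⟨by linarith, by linarith, ?_⟩
      have h5 : a x = w x := kp_id hL0 (by linarith)
      have h6 : u x ≤ uK x := le_kp hK1 _
      have h7 : -(2 * |Bu|) ≤ (1 + e) * uK x := by
        have h8 : -|Bu| ≤ uK x := by linarith
        have h9 : 0 ≤ |Bu| := abs_nonneg _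
        nlinarith [he.2]
      simp only [hbd]
      rw [h5]
      linarith
    set R₀ : ℝ := max (2 * K + |C|) (max (2 * L) (max (-c₀) 1)) with hR
    have hRa : 2 * L ≤ R₀ := (le_max_left _ _).trans (le_max_right _ _)
    have hRb : 2 * K + C ≤ R₀ := by
      have := le_max_left (2 * K + |C|) (max (2 * L) (max (-c₀) 1))
      have := le_abs_self C
      linarith
    have hRc : -R₀ ≤ c₀ := by
      have h1 : -c₀ ≤ R₀ := ((le_max_left (-c₀) 1).trans (le_max_right (2 * L) _)).trans
        (le_max_right _ _)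
      linarith
    have hR0 : 0 < R₀ := lt_of_lt_of_le one_pos
      (((le_max_right (-c₀) 1).trans (le_max_right (2 * L) _)).trans (le_max_right _ _))
    have ea : ∀ i, ∀ x ∈ (B.e i).source, x ∈ tsupport chi → w x < -R₀ → hsf B a i x = 0 := by
      intro i x hx hxX hwx
      exact h.kp_end (u := w) (C := 0) (fun y _ => by linarith) hL0 (by linarith) hRc hx hxX hwx
    have euK : ∀ i, ∀ x ∈ (B.e i).source, x ∈ tsupport chi → w x < -R₀ → hsf B uK i x = 0 :=
      fun i x hx hxX hwx => h.kp_end hle hK1 hRb hRc hx hxX hwx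
    have eb : ∀ i, ∀ x ∈ (B.e i).source, x ∈ tsupport chi → w x < -R₀ → hsf B b i x = 0 := by
      intro i x hx hxX hwx
      rw [hsfb i x hx, euK i x hx hxX hwx, smul_zero]
    -- comparison
    have h1 := compare P h.smw h.smc h.cpt h.one ha hb pa pb
      (fun x hx hw => (hK0u x (Or.inr ⟨hx, hw⟩)).2.2) hR0 ea eb
    -- the truncated integrals
    have h2 := h.tot_trunc P h.smw (C := 0) (fun y _ => by linarith) hL0
      fun x hx hw => (hK0u x (Or.inr ⟨hx, hw⟩)).2.1
    have h3 := h.tot_trunc P hu hle hK1 fun x hx hw => (hK0u x (Or.inr ⟨hx, hw⟩)).1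
    -- (3)
    have h4 : intD P (fun i x => (chi x : ℂ) * pd (hsf B a i x) (hsf B a i x))
        = intD P (fun i x => ((chi x * st (a x - b x) : ℝ) : ℂ) *
          pd (hsf B a i x) (hsf B a i x)) := by
      refine intD_congr P fun i x hx => ?_
      by_cases hxX : x ∈ tsupport chi
      · rcases lt_trichotomy (w x) (-L) with hw | hw | hw
        · rcases lt_or_ge (w x) (-(2 * L)) with hw2 | hw2
          · have e1 : hsf B a i x = 0 := by
              refine hsf_zero_of_eventually hx (c := L * kap (-2)) ?_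
              filter_upwards [(cont h.smw).continuousAt.eventually (gt_mem_nhds hw2)] with y hy
              exact kp_const hL0 hy.le
            rw [e1, pd_zero, mul_zero, mul_zero]
          · have e1 : 1 ≤ a x - b x := by
              have c1 : w x ≤ a x := le_kp hL0 _
              have c2 : uK x ≤ w x + |C| := by
                have c3 : u x ≤ w x + |C| := (hle x hxX).trans (by linarith [le_abs_self C])
                have c4 := kp_mono hK1 c3
                have c5 : kp K (w x + |C|) = w x + |C| := kp_id hK1 (by linarith [abs_nonneg C])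
                rw [c5] at c4
                exact c4
              have c6 : 2 * |C| + Bc + 1 ≤ e * L := by
                rw [div_le_iff₀ he0] at hL2
                linarith
              have c7 : (1 + e) * uK x ≤ (1 + e) * (w x + |C|) :=
                mul_le_mul_of_nonneg_left c2 (by linarith)
              have c8 : e * w x ≤ e * (-L) := mul_le_mul_of_nonneg_left hw.le he0.le
              have c9 : e * |C| ≤ |C| := by nlinarith [abs_nonneg C, he.2]
              simp only [hbd]
              nlinarith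
            have e2 : st (a x - b x) = 1 := Real.smoothTransition.one_of_one_le e1
            rw [e2, mul_one]
        · have e1 : 1 ≤ a x - b x := by
            have c1 : w x ≤ a x := le_kp hL0 _
            have c2 : uK x ≤ w x + |C| := by
              have c3 : u x ≤ w x + |C| := (hle x hxX).trans (by linarith [le_abs_self C])
              have c4 := kp_mono hK1 c3
              have c5 : kp K (w x + |C|) = w x + |C| := kp_id hK1 (by linarith [abs_nonneg C])
              rw [c5] at c4
              exact c4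
            have c6 : 2 * |C| + Bc + 1 ≤ e * L := by
              rw [div_le_iff₀ he0] at hL2
              linarith
            have c7 : (1 + e) * uK x ≤ (1 + e) * (w x + |C|) :=
              mul_le_mul_of_nonneg_left c2 (by linarith)
            have c8 : e * w x ≤ e * (-L) := mul_le_mul_of_nonneg_left hw.le he0.le
            have c9 : e * |C| ≤ |C| := by nlinarith [abs_nonneg C, he.2]
            simp only [hbd]
            nlinarith
          have e2 : st (a x - b x) = 1 := Real.smoothTransition.one_of_one_le e1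
          rw [e2, mul_one]
        · have e1 : a =ᶠ[𝓝 x] w := by
            filter_upwards [(cont h.smw).continuousAt.eventually (lt_mem_nhds hw)] with y hy
            exact kp_id hL0 hy.le
          rw [hsf_congr hx e1, ww i x hx, mul_zero, mul_zero]
      · rw [image_eq_zero_of_notMem_tsupport hxX, zero_mul]
    -- (2')
    have h5 : intD P (fun i x => ((chi x * st (a x - b x) : ℝ) : ℂ) *
        pd (hsf B b i x) (hsf B b i x))
        = (((1 + e) ^ 2 : ℝ) : ℂ) * intD P (fun i x => ((chi x * st (a x - b x) : ℝ) : ℂ) *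
          pd (hsf B uK i x) (hsf B uK i x)) := by
      rw [← intD_smul P _ (h.cpt (-R₀)) ?_]
      · refine intD_congr P fun i x hx => ?_
        rw [hsfb i x hx, pd_smul, smul_pd]
        push_cast
        ring
      · intro i x hx hxK
        show ((chi x * st (a x - b x) : ℝ) : ℂ) * pd (hsf B uK i x) (hsf B uK i x) = 0
        by_cases hxX : x ∈ tsupport chi
        · have hwx : w x < -R₀ := by
            by_contra h2
            exact hxK ⟨hxX, not_lt.1 h2⟩
          rw [euK i x hx hxX hwx, pd_zero, mul_zero]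
        · rw [image_eq_zero_of_notMem_tsupport hxX]; simp
    -- (4)
    have hhs : B.Sm (fun x => chi x * st (a x - b x)) := sm_mul h.smc (sm_comp st_sm (sm_sub ha hb))
    set Kc : Set M := tsupport zeta ∪ (tsupport chi ∩ {x | -R₀ ≤ w x}) with hKc
    have hKcc : IsCompact Kc := cz.isCompact.union (h.cpt _)
    have offz : OffK B (fun i x => (zeta x : ℂ) * pd (hsf B u i x) (hsf B u i x)) Kc := by
      intro i x hx hxK
      show (zeta x : ℂ) * pd (hsf B u i x) (hsf B u i x) = 0
      rw [image_eq_zero_of_notMem_tsupport fun h' => hxK (Or.inl h')]; simp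
    have offh : OffK B (fun i x => ((chi x * st (a x - b x) : ℝ) : ℂ) *
        pd (hsf B uK i x) (hsf B uK i x)) Kc := by
      intro i x hx hxK
      show ((chi x * st (a x - b x) : ℝ) : ℂ) * pd (hsf B uK i x) (hsf B uK i x) = 0
      by_cases hxX : x ∈ tsupport chi
      · have hwx : w x < -R₀ := by
          by_contra h2
          exact hxK (Or.inr ⟨hxX, not_lt.1 h2⟩)
        rw [euK i x hx hxX hwx, pd_zero, mul_zero]
      · rw [image_eq_zero_of_notMem_tsupport hxX]; simp
    have offc : OffK B (fun i x => (chi x : ℂ) * pd (hsf B uK i x) (hsf B uK i x)) Kc := by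
      intro i x hx hxK
      show (chi x : ℂ) * pd (hsf B uK i x) (hsf B uK i x) = 0
      by_cases hxX : x ∈ tsupport chi
      · have hwx : w x < -R₀ := by
          by_contra h2
          exact hxK (Or.inr ⟨hxX, not_lt.1 h2⟩)
        rw [euK i x hx hxX hwx, pd_zero, mul_zero]
      · rw [image_eq_zero_of_notMem_tsupport hxX]; simp
    have h6 := re_intD_le P ((den_pdh hhs huKs huKs).add (den_pdh hz hu hu))
      (den_pdh h.smc huKs huKs) hKcc (offh.add offz) offc (by
      intro i x hx
      have p1 := pd_nonneg (puK i x hx) (puK i x hx)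
      have p2 := pd_im_zero (puK i x hx) (puK i x hx)
      have p3 := pd_nonneg (pu i x hx) (pu i x hx)
      have p4 := pd_im_zero (pu i x hx) (pu i x hx)
      refine ⟨?_, ?_⟩
      · rw [Complex.add_re, Complex.re_ofReal_mul, Complex.re_ofReal_mul, Complex.re_ofReal_mul]
        by_cases hxz : x ∈ tsupport zeta
        · obtain ⟨q1, -, q3⟩ := hK0u x (Or.inl hxz)
          have e1 : uK =ᶠ[𝓝 x] u := by
            filter_upwards [(cont hu).continuousAt.eventually (lt_mem_nhds q1)] with y hy
            exact kp_id hK1 hy.le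
          have e2 : st (a x - b x) = 0 := Real.smoothTransition.zero_of_nonpos q3.le
          rw [e2, hsf_congr hx e1]
          have := mul_le_mul_of_nonneg_right (hzc x) p3
          linarith
        · rw [image_eq_zero_of_notMem_tsupport hxz, zero_mul, add_zero]
          have e1 : chi x * st (a x - b x) ≤ chi x :=
            mul_le_of_le_one_right (hchi0 x) (Real.smoothTransition.le_one _)
          exact mul_le_mul_of_nonneg_right e1 p1
      · rw [Complex.add_im, Complex.im_ofReal_mul, Complex.im_ofReal_mul, Complex.im_ofReal_mul,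
          p2, p4]
        ring)
    rw [intD_add P (den_pdh hhs huKs huKs).sm (den_pdh hz hu hu).sm hKcc offh offz,
      Complex.add_re] at h6
    -- conclusion
    rw [h5, Complex.re_ofReal_mul, ← h4, ← h2] at h1
    rw [← h3] at h6
    have h7 : 0 ≤ (1 + e) ^ 2 := by positivity
    calc Tw ≤ (1 + e) ^ 2 * (intD P (fun i x => ((chi x * st (a x - b x) : ℝ) : ℂ) *
          pd (hsf B uK i x) (hsf B uK i x))).re := h1
      _ ≤ (1 + e) ^ 2 * (Tu - Z) := by
        refine mul_le_mul_of_nonneg_left ?_ h7
        linarith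
  -- limit
  have hlim : Tendsto (fun e : ℝ => (1 + e) ^ 2 * (Tu - Z)) (𝓝[>] 0) (𝓝 ((1 + 0) ^ 2 * (Tu - Z))) :=
    (by fun_prop : Continuous fun e : ℝ => (1 + e) ^ 2 * (Tu - Z)).continuousAt.tendsto.mono_left
      nhdsWithin_le_nhds
  have h8 : Tw ≤ (1 + 0) ^ 2 * (Tu - Z) := by
    refine ge_of_tendsto hlim ?_
    filter_upwards [Ioo_mem_nhdsGT (zero_lt_one (α := ℝ))] with e he
    exact main e he
  linarith

end

end Crest.Agent.R257.Cmp4_101
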