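import Crest.Agent.R257.Bridge_822
import Crest.Agent.R257.Cmp4_101
import Crest.Agent.R257.V1Top_822

/-!
R257 / CmpL_822 (helper822): `CmpStmt` (comparison of residual masses on a level) from `Cmp4_101.cmp`.
-/

set_option autoImplicit false
set_option linter.unusedSectionVars false

open Topology Filter MeasureTheory Set
open scoped ENNReal ContDiff Matrix ComplexOrder

noncomputable section

namespace Crest.Agent.R257.CmpL_822

open Crest.Agent.R275.Geo Crest.Agent.R275.Core144 Crest.Agent.R275.EDR890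
open Crest.Agent.R275.Pai323 Crest.Agent.R275.C1d194
open Crest.Agent.R273.StokesV_332
open Crest.Agent.R273.Defs_333 Crest.Agent.R273.Vm_333 Crest.Agent.R273.Kah_333
open Crest.Agent.R273.Hess_333 Crest.Agent.R273.HessB_333
open Crest.Agent.R273.YauDefs_635 (cH)
open Crest.Agent.R257.Defs_219 Crest.Agent.R257.KED_952 Crest.Agent.R257.V1Defs_822
open Crest.Agent.R257.V1Pe_822 Crest.Agent.R257.V1W_822 Crest.Agent.R257.UpK_938
open Crest.Agent.R257.Bridge_822
open Crest.Agent.R257.PN_835 (nsq)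
open Crest.Agent.R257.Aff_835 (eta2a)
open Crest.Agent.R257.C2F1_625 (pd)

section lvl

variable {f : E3 → ℂ} {s : ℂ} {r : ℝ} (hf : LvlOK f s r)

theorem aemeas_nu {ν : Measure E3} (hν : IsNu f s r ν) {g : E3 → ℝ}
    (hg : Continuous fun x : (LX hf).M 0 => g x.1) : AEMeasurable g ν := by
  rw [← nu_eq hf hν]
  exact (val_emb hf).aemeasurable_map_iff.2 hg.measurable.aemeasurable

theorem psd_val {a : E3 → ℝ} (ha : SmL f s r a)
    (h : ∀ θ O, PE f s r θ O → ∀ z ∈ O, ∀ v, 0 ≤ lev (fun z => a (θ z)) z v)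
    (i : ((LX hf).A 0).ι) {x : (LX hf).M 0} (hx : x ∈ (((LX hf).A 0).e i).source) :
    (hsf ((LX hf).A 0) (fun x => a x.1) i x).PosSemidef :=
  posSemidef_hess (smAt ha (pe_chart hf i) ((((LX hf).A 0).e i).map_source hx))
    (h _ _ (pe_chart hf i) _ ((((LX hf).A 0).e i).map_source hx))

theorem pd_det_zero {a : E3 → ℝ} (ha : SmL f s r a)
    (h : ∀ θ O, PE f s r θ O → ∀ z ∈ O, (cH (fun z => a (θ z)) z).det = 0)
    (i : ((LX hf).A 0).ι) {x : (LX hf).M 0} (hx : x ∈ (((LX hf).A 0).e i).source) :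
    pd (hsf ((LX hf).A 0) (fun x => a x.1) i x) (hsf ((LX hf).A 0) (fun x => a x.1) i x) = 0 := by
  have hz := (((LX hf).A 0).e i).map_source hx
  have e1 : hsf ((LX hf).A 0) (fun x => a x.1) i x =
      cH (fun z => a (thc hf i z)) (((LX hf).A 0).e i x) :=
    (Crest.Agent.R273.YauMax_635.cH_eq_hess (smAt ha (pe_chart hf i) hz)).symm
  rw [C2F1_625.pd_self, e1, h _ _ (pe_chart hf i) _ hz, mul_zero]

theorem smL_mul {a b : E3 → ℝ} (ha : SmL f s r a) (hb : SmL f s r b) :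
    SmL f s r fun x => a x * b x := fun θ O hθ => (ha θ O hθ).mul (hb θ O hθ)

theorem smL_one_sub {a : E3 → ℝ} (ha : SmL f s r a) :
    SmL f s r fun x => 1 - a x := fun θ O hθ => contDiffOn_const.sub (ha θ O hθ)

theorem smL_ctl {a : E3 → ℝ} (ha : SmL f s r a) : CtL f s r a :=
  fun θ O hθ => (ha θ O hθ).continuousOn

end lvl

/-- the measure statement -/
theorem measStmt : MeasStmt := by
  intro f s r h1 h2 h3 ν hν φ hφ
  have hf : LvlOK f s r := ⟨h1, h2, h3⟩
  exact aemeas_nu hf hν (cont_val hf hφ)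

section

variable {f : E3 → ℂ} {s : ℂ} {r : ℝ}

/-- the two constancy radii of a cut-off -/
theorem cut_rad {χ : E3 → ℝ} (h : Cut r χ) : ∃ r₁ ρ : ℝ, 0 < r₁ ∧ 0 < ρ ∧ ρ < r ∧
    (∀ x, nsq x < r₁ ^ 2 → ∀ᶠ y in 𝓝 x, χ y = 1) ∧
    (∀ x, ρ ^ 2 ≤ nsq x → χ x = 0) ∧ (∀ x, ρ ^ 2 < nsq x → ∀ᶠ y in 𝓝 x, χ y = 0) := by
  obtain ⟨ρ, h1, h2, h3⟩ := h.supp
  obtain ⟨ε, hε, h4⟩ := nsq_lt_of h.one
  refine ⟨ε, ρ, hε, h1, h2, fun x hx => ?_, h3, fun x hx => ?_⟩
  · filter_upwards [continuous_nsq3.continuousAt.eventually_lt continuousAt_const hx] with y hy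
    exact h4 y hy
  · filter_upwards [continuousAt_const.eventually_lt continuous_nsq3.continuousAt hx] with y hy
    exact h3 y hy.le

/-- the total mass and `intD` -/
theorem tot_bridge (hf : LvlOK f s r) {ν : Measure E3} (hν : IsNu f s r ν) {a χ : E3 → ℝ}
    (ha : SmL f s r a) (hχ : Cut r χ) (P : Part ((LX hf).A 0)) :
    Integrable (fun x => a x * mxd f a χ x) ν ∧
    ((TOT ν f a χ : ℝ) : ℂ) =
      intD P (fun i x => (a x.1 : ℂ) * pd (hsf ((LX hf).A 0) (fun x => a x.1) i x)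
        (hsf ((LX hf).A 0) (fun x => χ x.1) i x)) := by
  obtain ⟨r₁, ρ, h1, h2, h3, h4, h5, h6⟩ := cut_rad hχ
  refine bridge hf hν ha (cut_smL hχ) P (ann_compact hf h1 h2.le h3)
    ((cont_val hf (smL_ctl ha)).mul (cont_mxd hf ha (cut_smL hχ))) fun x hx => ?_
  have h7 : nsq x.1 < r₁ ^ 2 ∨ ρ ^ 2 < nsq x.1 := by
    by_contra hcon
    push Not at hcon
    exact hx hcon
  rcases h7 with h7 | h7
  · rw [V1Top_822.mxd_const (h4 _ h7), mul_zero]
  · rw [mxd_zero (h6 _ h7), mul_zero]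

theorem int_exp (hf : LvlOK f s r) {ν : Measure E3} (hν : IsNu f s r ν) {u χ : E3 → ℝ}
    (hu : SmL f s r u) (hχ : Cut r χ) (hV : VOL ν u χ < ⊤) :
    Integrable (fun x => χ x * Real.exp (u x)) ν ∧
      ∫ x, χ x * Real.exp (u x) ∂ν = (VOL ν u χ).toReal := by
  have h1 : Continuous fun x : (LX hf).M 0 => χ x.1 * Real.exp (u x.1) :=
    (cont_val hf (smL_ctl (cut_smL hχ))).mul (Real.continuous_exp.comp (cont_val hf (smL_ctl hu)))
  have h2 : AEMeasurable (fun x => χ x * Real.exp (u x)) ν := aemeas_nu hf hν h1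
  have h3 : ∀ x, 0 ≤ χ x * Real.exp (u x) := fun x => mul_nonneg (hχ.nn x) (Real.exp_pos _).le
  refine ⟨⟨h2.aestronglyMeasurable, ?_⟩, ?_⟩
  · rw [hasFiniteIntegral_iff_ofReal (Eventually.of_forall h3)]
    exact hV
  · rw [integral_eq_lintegral_of_nonneg_ae (Eventually.of_forall h3) h2.aestronglyMeasurable]
    rfl

/-- one cut-off -/
theorem cmp_zeta (hf : LvlOK f s r) {ν : Measure E3} (hν : IsNu f s r ν) {χ u w : E3 → ℝ} {C : ℝ}
    (hχ : Cut r χ) (hu : KEon f s r u) (hw : SmL f s r w)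
    (plw : ∀ θ O, PE f s r θ O → ∀ z ∈ O, ∀ v, 0 ≤ lev (fun z => w (θ z)) z v)
    (dw : ∀ θ O, PE f s r θ O → ∀ z ∈ O, (cH (fun z => w (θ z)) z).det = 0)
    (wi : ∀ c : ℝ, ∃ ρ : ℝ, 0 < ρ ∧ ∀ x, f x = s → x ≠ 0 → nsq x < ρ ^ 2 → w x < c)
    (hle : ∀ x, f x = s → x ≠ 0 → nsq x < r ^ 2 → u x ≤ w x + C) {ε : ℝ} (hεr : ε ≤ r)
    {κ : E3 → ℝ} (hκ : Cut ε κ) :
    Integrable (fun x => χ x * (1 - κ x) * mxd f u u x) ν ∧
    TOT ν f w χ + ∫ x, χ x * (1 - κ x) * mxd f u u x ∂ν ≤ TOT ν f u χ := by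
  have hcI := (LX hf).countable 0
  have P := (LX hf).part 0
  set B := (LX hf).A 0 with hB
  have hκr : Cut r κ := cut_mono hκ hεr
  obtain ⟨r₁, ρ, h1, h2, h3, h4, h5, h6⟩ := cut_rad hχ
  obtain ⟨r₁', ρ', h1', h2', h3', h4', h5', h6'⟩ := cut_rad hκr
  have cw : Continuous fun x : (LX hf).M 0 => w x.1 := cont_val hf (smL_ctl hw)
  have cn : Continuous fun x : (LX hf).M 0 => nsq x.1 :=
    continuous_nsq3.comp continuous_subtype_val
  have hts : ∀ x ∈ tsupport (fun x : (LX hf).M 0 => χ x.1), nsq x.1 ≤ ρ ^ 2 := by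
    intro x hx
    have : tsupport (fun x : (LX hf).M 0 => χ x.1) ⊆ {x | nsq x.1 ≤ ρ ^ 2} := by
      refine closure_minimal (fun y hy => ?_) (isClosed_le cn continuous_const)
      by_contra hcon
      exact hy (h5 _ (not_le.1 hcon).le)
    exact this hx
  have hK1 : IsCompact {x : (LX hf).M 0 | r₁ ^ 2 ≤ nsq x.1 ∧ nsq x.1 ≤ ρ ^ 2} :=
    ann_compact hf h1 h2.le h3
  obtain ⟨Bw, hBw⟩ := hK1.exists_bound_of_continuousOn cw.continuousOn
  have hE : Cmp4_101.EndCut B (fun x => w x.1) (fun x => χ x.1) (-Bw) := by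
    refine ⟨sm_val hf hw, sm_val hf (cut_smL hχ), fun c => ?_, fun x hx hwx => ?_⟩
    · obtain ⟨ρc, k1, k2⟩ := wi c
      refine (ann_compact hf k1 h2.le h3).of_isClosed_subset
        ((isClosed_tsupport _).inter (isClosed_le continuous_const cw)) ?_
      rintro x ⟨hx1, hx2⟩
      refine ⟨?_, hts x hx1⟩
      by_contra hcon
      have := k2 x.1 (mem_M hf x).1 (mem_M hf x).2.1 (not_le.1 hcon)
      exact absurd hx2 (not_le.2 this)
    · refine evconst_val hf (h4 _ ?_)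
      by_contra hcon
      have h7 := hBw x ⟨not_lt.1 hcon, hts x hx⟩
      rw [Real.norm_eq_abs] at h7
      have := (abs_le.1 h7).1
      have h8 : w x.1 < -Bw := hwx
      linarith
  set ζ : E3 → ℝ := fun x => χ x * (1 - κ x) with hζ
  have sζ : SmL f s r ζ := smL_mul (cut_smL hχ) (smL_one_sub (cut_smL hκr))
  have hKz : IsCompact {x : (LX hf).M 0 | r₁' ^ 2 ≤ nsq x.1 ∧ nsq x.1 ≤ ρ ^ 2} :=
    ann_compact hf h1' h2.le h3
  have zz : ∀ x : (LX hf).M 0, x ∉ {x : (LX hf).M 0 | r₁' ^ 2 ≤ nsq x.1 ∧ nsq x.1 ≤ ρ ^ 2} →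
      ζ x.1 = 0 := by
    intro x hx
    have h7 : nsq x.1 < r₁' ^ 2 ∨ ρ ^ 2 < nsq x.1 := by
      by_contra hcon
      push Not at hcon
      exact hx hcon
    rcases h7 with h7 | h7
    · simp only [hζ, (h4' _ h7).self_of_nhds]
      ring
    · simp only [hζ, h5 _ h7.le, zero_mul]
  have z0 : ∀ x, 0 ≤ ζ x := fun x => mul_nonneg (hχ.nn x) (by linarith [hκ.le x])
  have z1 : ∀ x, ζ x ≤ χ x := fun x =>
    mul_le_of_le_one_right (hχ.nn x) (by linarith [hκ.nn x])
  obtain ⟨i3, e3⟩ := bridge hf hν (φ := ζ) hu.sm hu.sm P hKz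
    ((cont_val hf (smL_ctl sζ)).mul (cont_mxd hf hu.sm hu.sm)) fun x hx => by
      rw [zz x hx, zero_mul]
  refine ⟨i3, ?_⟩
  have e1 := (tot_bridge hf hν hw hχ P).2
  have e2 := (tot_bridge hf hν (a := u) hu.sm hχ P).2
  have h7 := Cmp4_101.cmp P (u := fun x => u x.1) (w := fun x => w x.1) (chi := fun x => χ x.1)
    (zeta := fun x => ζ x.1) C (sm_val hf hu.sm) hE (sm_val hf sζ)
    (HasCompactSupport.intro hKz zz) (fun x => z0 _) (fun x => z1 _)
    (fun i x hx => psd_val hf hu.sm (fun θ O hθ z hz v => by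
      by_cases hv : v = 0
      · rw [hv]
        have : lev (fun z => u (θ z)) z 0 = 0 := by
          unfold lev
          rw [ContinuousMultilinearMap.map_coord_zero _ (0 : Fin 2) (by simp),
            ContinuousMultilinearMap.map_coord_zero _ (0 : Fin 2) (by simp), add_zero]
        exact this.ge
      · exact (hu.pos θ O hθ z hz v hv).le) i hx)
    (fun i x hx => psd_val hf hw plw i hx)
    (fun i x hx => pd_det_zero hf hw dw i hx)
    (fun x hx => hle x.1 (mem_M hf x).1 (mem_M hf x).2.1 (mem_M hf x).2.2)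
  rw [← e1, ← e2, ← e3, Complex.ofReal_re, Complex.ofReal_re, Complex.ofReal_re] at h7
  exact h7

end

/-- **CmpStmt** -/
theorem cmpStmt : CmpStmt := by
  intro f s r ν χ u w C hf hν hχ hu hw plw dw wi hle hV
  have hr := hf.pos
  have hε : ∀ n : ℕ, 0 < r / (n + 1) := fun n => by positivity
  have hεr : ∀ n : ℕ, r / ((n : ℝ) + 1) ≤ r := fun n => by
    rw [div_le_iff₀ (by positivity)]
    nlinarith [(Nat.cast_nonneg n : (0 : ℝ) ≤ n)]
  choose κ hκ using fun n : ℕ => exists_cut (hε n)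
  have key := fun n : ℕ => cmp_zeta hf hν hχ hu hw plw dw wi hle (hεr n) (hκ n)
  obtain ⟨i1, e1⟩ := int_exp hf hν (u := u) hu.sm hχ hV
  have hlim : Tendsto (fun n : ℕ => ∫ x, χ x * (1 - κ n x) * mxd f u u x ∂ν) atTop
      (𝓝 (∫ x, 2 * (χ x * Real.exp (u x)) ∂ν)) := by
    refine tendsto_integral_of_dominated_convergence (fun x => 2 * (χ x * Real.exp (u x)))
      (fun n => (key n).1.aestronglyMeasurable) (i1.const_mul 2) (fun n => ?_) ?_
    · refine isNu_ae hν fun x hx1 hx2 hx3 => ?_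
      rw [mxd_ke hf hu hx1 hx2 hx3]
      have k1 := (hκ n).nn x
      have k2 := (hκ n).le x
      have k3 := hχ.nn x
      have k4 := Real.exp_pos (u x)
      rw [Real.norm_eq_abs, abs_of_nonneg (by
        refine mul_nonneg (mul_nonneg k3 (by linarith)) (by positivity))]
      have k5 : χ x * (1 - κ n x) ≤ χ x := mul_le_of_le_one_right k3 (by linarith)
      nlinarith [mul_le_mul_of_nonneg_right k5 k4.le]
    · refine isNu_ae hν fun x hx1 hx2 hx3 => ?_
      rw [mxd_ke hf hu hx1 hx2 hx3]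
      have k0 : 0 < nsq x := Crest.Agent.R257.PN_835.nsq_pos hx1
      have k1 : ∀ᶠ n : ℕ in atTop, κ n x = 0 := by
        have k2 : Tendsto (fun n : ℕ => (r / ((n : ℝ) + 1)) ^ 2) atTop (𝓝 (0 ^ 2)) :=
          (by
            have := (tendsto_one_div_add_atTop_nhds_zero_nat (𝕜 := ℝ)).const_mul r
            simpa [div_eq_mul_inv] using this : Tendsto (fun n : ℕ => r / ((n : ℝ) + 1)) atTop
              (𝓝 0)).pow 2
        have k3 : ∀ᶠ n : ℕ in atTop, (r / ((n : ℝ) + 1)) ^ 2 < nsq x := by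
          rw [zero_pow two_ne_zero] at k2
          exact k2.eventually_lt_const k0
        filter_upwards [k3] with n hn
        obtain ⟨ρ, a1, a2, a3⟩ := (hκ n).supp
        exact a3 x ((pow_le_pow_left₀ a1.le a2.le 2).trans hn.le)
      refine tendsto_const_nhds.congr' ?_
      filter_upwards [k1] with n hn
      rw [hn]
      ring
  have h2 : TOT ν f w χ + ∫ x, 2 * (χ x * Real.exp (u x)) ∂ν ≤ TOT ν f u χ :=
    le_of_tendsto (tendsto_const_nhds.add hlim) (Eventually.of_forall fun n => (key n).2)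
  rw [integral_const_mul, e1] at h2
  exact h2

end Crest.Agent.R257.CmpL_822
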