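import Crest.Agent.R257.BrH_822
import Crest.Agent.R257.CmpL_822
import Crest.Agent.R257.MassLe_218

/-!
# R257 (S0395) (helper822): `UpperStmt` (KUP_952) from the logarithm and the pointwise bound

* `exists_fun`, `re_bridge` : densities as functions, `∫ ψ dν = Re intD P D`
* `q2_re`                   : `tr F²` in terms of `mxd`, `c2h`
* `upperStmt_of (lg : LgStmt) (pt : PtwStmt) : UpperStmt`
-/

set_option autoImplicit false
set_option linter.unusedSectionVars false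

open Set Filter Topology Complex MeasureTheory
open scoped ContDiff Matrix ComplexConjugate ComplexOrder ENNReal

namespace Crest.Agent.R257.BrI_822

open Crest.Agent.R275.Geo Crest.Agent.R275.Core144 Crest.Agent.R275.EDR890
open Crest.Agent.R275.Pai323 Crest.Agent.R275.C1d194
open Crest.Agent.R275.SerG398 (lint dens)
open Crest.Agent.R273.StokesV_332
open Crest.Agent.R273.GreenM_5
open Crest.Agent.R273.Fock_243
open Crest.Agent.R273.Calc_243 hiding dV dj
open Crest.Agent.R273.Bkn_243 Crest.Agent.R273.Pos_243 Crest.Agent.R273.BochA_101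
open Crest.Agent.R273.BochB_101
open Crest.Agent.R273.BochC_101 Crest.Agent.R273.BochD_101
open Crest.Agent.R273.Defs_333 Crest.Agent.R273.Vm_333 Crest.Agent.R273.Kah_333
open Crest.Agent.R273.Hess_333 Crest.Agent.R273.HessB_333
open Crest.Agent.R273.YauDefs_635 (cH)
open Crest.Agent.R273.YauMax_635 (cH_eq_hess)
open Crest.Agent.R257.C2F1_625 Crest.Agent.R257.C2F2_625 Crest.Agent.R257.C2F3_625
open Crest.Agent.R257.C2F4_335 Crest.Agent.R257.C2F5_335
open Crest.Agent.R257.C2F6_335 hiding ddD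
open Crest.Agent.R257.Defs_219
open Crest.Agent.R257.PN_835 (nsq)
open Crest.Agent.R257.Aff_835 (eta2a)
open Crest.Agent.R257.KED_952 Crest.Agent.R257.KEG_952
open Crest.Agent.R257.Ked1_397 Crest.Agent.R257.Ked2_397
open Crest.Agent.R257.V1Defs_822 (SmL LvlOK)
open Crest.Agent.R257.V1Pe_822 (smAt)
open Crest.Agent.R257.UpK_938 Crest.Agent.R257.Bridge_822
open Crest.Agent.R257.OutA_309 (eta2a_nn)
open Crest.Agent.R257.OutC_309 (c2x Bun)
open Crest.Agent.R257.KUP_952
open Crest.Agent.R257.LossA_625 (Lv)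
open Crest.Agent.R257.MtM_822 Crest.Agent.R257.BrH_822
open Crest.Agent.R257.BCU4_532 Crest.Agent.R257.BCU7_532 Crest.Agent.R257.BCUP_532

noncomputable section

variable {f : E3 → ℂ} {r : ℝ} (hf : LvlOK f 0 r)

/-! ### densities as functions -/

theorem w_pos {i : ((LX hf).A 0).ι} {x : (LX hf).M 0} (hx : x ∈ (((LX hf).A 0).e i).source) :
    0 < ((LX hf).eta 0).w i x := ((LX hf).eta 0).pos i x hx

theorem w_eta {i : ((LX hf).A 0).ι} {x : (LX hf).M 0} (hx : x ∈ (((LX hf).A 0).e i).source) :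
    ((LX hf).eta 0).w i x = eta2a (n := 2) f (thc hf i) (((LX hf).A 0).e i x) := by
  have h := e2_eta hf ((((LX hf).A 0).e i).map_source hx)
  rwa [(((LX hf).A 0).e i).left_inv hx] at h

theorem w_tr {i j : ((LX hf).A 0).ι} {x : (LX hf).M 0}
    (hx : x ∈ (((LX hf).A 0).e i).source ∩ (((LX hf).A 0).e j).source) :
    ((LX hf).eta 0).w i x = (dens ((LX hf).A 0) i j x).re * ((LX hf).eta 0).w j x := by
  rw [w_eta hf hx.1, w_eta hf hx.2]
  have h := eta2a_trans (pe_chart hf i).par (pe_chart hf j).par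
    ((((LX hf).A 0).e i).map_source hx.1) (Tr_hol hx) (tr_chart hf hx)
  rw [h, Tr_at hx.1, dens_Jm, Jac_Tr, Complex.mul_conj, Complex.normSq_eq_norm_sq,
    Complex.ofReal_re]

theorem dens_im {i j : ((LX hf).A 0).ι} {x : (LX hf).M 0} :
    (dens ((LX hf).A 0) i j x).im = 0 := by
  rw [dens_Jm, Complex.mul_conj]
  exact Complex.ofReal_im _

/-- a density as a function on `E3` -/
theorem exists_fun {D : ((LX hf).A 0).ι → (LX hf).M 0 → ℂ} (hD : Dn ((LX hf).A 0) D) :
    ∃ ψ : E3 → ℝ, ∀ i, ∀ x ∈ (((LX hf).A 0).e i).source,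
      (D i x).re = ((LX hf).eta 0).w i x * ψ x.1 := by
  classical
  refine ⟨fun y => if h : ∃ x : (LX hf).M 0, x.1 = y then
    (D (ci ((LX hf).A 0) h.choose) h.choose).re /
      ((LX hf).eta 0).w (ci ((LX hf).A 0) h.choose) h.choose else 0, fun i x hx => ?_⟩
  have hex : ∃ x' : (LX hf).M 0, x'.1 = x.1 := ⟨x, rfl⟩
  have e : hex.choose = x := Subtype.ext hex.choose_spec
  simp only
  rw [dif_pos hex, e]
  have hx' : x ∈ (((LX hf).A 0).e i).source ∩ (((LX hf).A 0).e (ci ((LX hf).A 0) x)).source :=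
    ⟨hx, mem_ci x⟩
  have h1 := hD i _ x hx'
  have h2 := w_tr hf hx'
  have h3 := w_pos hf (mem_ci (A := (LX hf).A 0) x)
  rw [h1, h2, Complex.mul_re, dens_im, zero_mul, sub_zero]
  field_simp

/-- **the bridge for real parts of densities** -/
theorem re_bridge {ν : Measure E3} (hν : IsNu f 0 r ν) (P : Part ((LX hf).A 0))
    {D : ((LX hf).A 0).ι → (LX hf).M 0 → ℂ} (hD : Den ((LX hf).A 0) D)
    {K : Set ((LX hf).M 0)} (hK : IsCompact K) (h0 : OffK ((LX hf).A 0) D K) {ψ : E3 → ℝ}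
    (hψ : ∀ i, ∀ x ∈ (((LX hf).A 0).e i).source,
      (D i x).re = ((LX hf).eta 0).w i x * ψ x.1) :
    Integrable ψ ν ∧ ∫ x, ψ x ∂ν = (intD P D).re := by
  have hcI := (LX hf).countable 0
  have hct : Continuous fun x : (LX hf).M 0 => ψ x.1 := by
    rw [continuous_iff_continuousAt]
    intro x
    obtain ⟨i, hi⟩ := ((LX hf).A 0).cover x
    have hw : ContinuousOn (fun z => ((LX hf).eta 0).w i ((((LX hf).A 0).e i).symm z))
      (((LX hf).A 0).e i).target := (((LX hf).eta 0).sm i).continuousOn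
    have hd : ContinuousOn (fun z => (D i ((((LX hf).A 0).e i).symm z)).re)
      (((LX hf).A 0).e i).target :=
      Complex.continuous_re.comp_continuousOn (hD.sm i).continuousOn
    have h3 : ContinuousOn (fun z => (D i ((((LX hf).A 0).e i).symm z)).re /
        ((LX hf).eta 0).w i ((((LX hf).A 0).e i).symm z)) (((LX hf).A 0).e i).target :=
      hd.div hw fun z hz => (w_pos hf ((((LX hf).A 0).e i).map_target hz)).ne'
    have h4 : ContinuousOn (fun y => (D i ((((LX hf).A 0).e i).symm (((LX hf).A 0).e i y))).re /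
        ((LX hf).eta 0).w i ((((LX hf).A 0).e i).symm (((LX hf).A 0).e i y)))
        (((LX hf).A 0).e i).source :=
      h3.comp (((LX hf).A 0).e i).continuousOn fun y hy => (((LX hf).A 0).e i).map_source hy
    have h5 : ContinuousOn (fun y : (LX hf).M 0 => ψ y.1) (((LX hf).A 0).e i).source := by
      refine h4.congr fun y hy => ?_
      simp only
      rw [(((LX hf).A 0).e i).left_inv hy, hψ i y hy, mul_comm,
        mul_div_assoc, div_self (w_pos hf hy).ne', mul_one]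
    exact h5.continuousAt ((((LX hf).A 0).e i).open_source.mem_nhds hi)
  have hoff : ∀ x : (LX hf).M 0, x ∉ K → ψ x.1 = 0 := by
    intro x hx
    obtain ⟨i, hi⟩ := ((LX hf).A 0).cover x
    have h1 := hψ i x hi
    rw [h0 i x hi hx, Complex.zero_re] at h1
    rcases mul_eq_zero.1 h1.symm with h2 | h2
    · exact absurd h2 (w_pos hf hi).ne'
    · exact h2
  have hi := integrable_vol hf hct hK hoff
  refine ⟨integrable_nu hf hν hi, ?_⟩
  have h1 : ((∫ x, ψ x ∂ν : ℝ) : ℂ) =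
      ∫ x : (LX hf).M 0, ((ψ x.1 : ℝ) : ℂ) ∂((LX hf).vol 0) := by
    rw [int_nu hf hν]
    exact integral_ofReal.symm
  have h2 := integral_vm_intD ((LX hf).eta 0) P
    (f := fun x : (LX hf).M 0 => ((ψ x.1 : ℝ) : ℂ)) hi.ofReal hK
    (fun x hx => by rw [hoff x hx, Complex.ofReal_zero])
  have hc := hD.conjD
  have h0c : OffK ((LX hf).A 0) (fun i x => conj (D i x)) K := fun i x hx hxK => by
    show conj (D i x) = 0
    rw [h0 i x hx hxK, map_zero]
  have h3 : intD P (fun i x => (2 : ℂ) * (((((LX hf).eta 0).w i x : ℝ) : ℂ) * ((ψ x.1 : ℝ) : ℂ)))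
      = intD P (fun i x => D i x + conj (D i x)) := by
    refine intD_congr P fun i x hx => ?_
    rw [Complex.add_conj, hψ i x hx]
    push_cast
    ring
  have h4 : intD P (fun i x => (2 : ℂ) * (((((LX hf).eta 0).w i x : ℝ) : ℂ) *
      ((ψ x.1 : ℝ) : ℂ))) = 2 * intD P (fun i x => ((((LX hf).eta 0).w i x : ℝ) : ℂ) *
      ((ψ x.1 : ℝ) : ℂ)) := by
    refine intD_smul P 2 hK fun i x hx hxK => ?_
    show (((((LX hf).eta 0).w i x : ℝ) : ℂ) * ((ψ x.1 : ℝ) : ℂ)) = 0
    rw [hoff x hxK]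
    simp
  rw [intD_add P hD.sm hc.sm hK h0 h0c, intD_conj P hK h0, Complex.add_conj, h4] at h3
  have h5 : ((∫ x, ψ x ∂ν : ℝ) : ℂ) = intD P (fun i x => ((((LX hf).eta 0).w i x : ℝ) : ℂ) *
      ((ψ x.1 : ℝ) : ℂ)) := h1.trans h2
  rw [← h5] at h3
  have h6 : (2 : ℝ) * ∫ x, ψ x ∂ν = 2 * (intD P D).re := by exact_mod_cast h3
  linarith

/-! ### `tr F²` -/

variable {H : Form}

include hf in
theorem hess_U {U : E3 → ℝ} (hH : Mt f r H) (hU : Vl f r H U) {θ : Cn 2 → E3} {O : Set (Cn 2)}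
    (hP : PE f 0 r θ O) {z : Cn 2} (hz : z ∈ O) :
    Matrix.of (ric (H θ) z) = hess (fun y => U (θ y)) z := by
  have hO := hP.par.isOpen
  have hs : SmM z (H θ) := fun a b => (hH.sm θ O hP a b).contDiffAt (hO.mem_nhds hz)
  have hh : ∀ᶠ y in 𝓝 z, (H θ y).IsHermitian := by
    filter_upwards [hO.mem_nhds hz] with y hy using (hH.pos θ O hP y hy).isHermitian
  obtain ⟨q, hq, hq0, hqe⟩ := eta2a_norm (n := 2) hP.par hz (hf.an _ (hP.lt z hz))
    (hf.sm _ (hP.ne z hz) (hP.lt z hz) (hP.par.lvl z hz))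
  have hqd : ∀ᶠ w in 𝓝 z, DifferentiableAt ℂ q w :=
    hq.eventually_analyticAt.mono fun w hw => hw.differentiableAt
  have e1 : (fun y => - Real.log ((H θ y).det.re)) =ᶠ[𝓝 z]
      fun y => U (θ y) + Real.log (‖q y‖ ^ 2) := by
    filter_upwards [hO.mem_nhds hz, hqe, hq.continuousAt.eventually_ne hq0] with y hy hy' hy0
    have h1 : eta2a (n := 2) f θ y = ‖q y‖ ^ 2 := hy'
    have h2 := hU.eq θ O hP y hy
    have h3 := det_re_pos'' (hH.pos θ O hP y hy)
    have h4 : (0 : ℝ) < ‖q y‖ ^ 2 := by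
      have := norm_pos_iff.2 hy0
      positivity
    rw [h1] at h2
    have h5 := congrArg Real.log h2
    rw [Real.log_mul h3.ne' h4.ne', Real.log_exp] at h5
    linarith
  have hUz : ContDiffAt ℝ ∞ (fun y => U (θ y)) z := (hU.sm θ O hP).contDiffAt (hO.mem_nhds hz)
  ext a b
  rw [Matrix.of_apply, ← hess_neg_log_det hs hh (det_re_pos'' (hH.pos θ O hP z hz)) a b,
    hess_congr e1, hess_add (u := fun y => U (θ y)) (v := fun y => Real.log (‖q y‖ ^ 2)) hUz
      (KEl_835.c2_log hq hq0 ∞), hess_log_norm hqd hq0, add_zero]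

theorem q2_re {U : E3 → ℝ} (hH : Mt f r H) (hU : Vl f r H U) {i : ((LX hf).A 0).ι}
    {x : (LX hf).M 0} (hx : x ∈ (((LX hf).A 0).e i).source) :
    (q2D (hbE hf hH) i x).re =
      ((LX hf).eta 0).w i x * (mxd f U U x.1 / 2 - c2h f H x.1) := by
  have hz := (((LX hf).A 0).e i).map_source hx
  have hP := pe_chart hf i
  set z := ((LX hf).A 0).e i x with hzd
  have hd : (H (thc hf i) z).det ≠ 0 := (hH.pos _ _ hP z hz).det_pos.ne'
  have e0 : q2D (hbE hf hH) i x = q2 (H (thc hf i)) z := q2_congr (rdM_ev hf hH hx)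
  have e1 := q2_eq hd
  rw [hess_U hf hH hU hP hz] at e1
  have e2 : pd (hess (fun y => U (thc hf i y)) z) (hess (fun y => U (thc hf i y)) z) =
      ((((LX hf).eta 0).w i x * mxd f U U x.1 : ℝ) : ℂ) := dens_chart hf hU.sm hU.sm hx
  have e3 : (c2 (H (thc hf i)) z).re = c2h f H x.1 * ((LX hf).eta 0).w i x := by
    have := Bun.c2x_eq (Mt.bun hH (h := fun _ => 0) fun _ _ => analyticAt_const) hf hP hz
    rw [thc_eq hf hx, ← w_eta hf hx] at this
    exact this.symm
  rw [e2] at e1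
  have e4 : (q2 (H (thc hf i)) z).re = (((LX hf).eta 0).w i x * mxd f U U x.1) / 2 -
      (c2 (H (thc hf i)) z).re := by
    have h := congrArg Complex.re e1
    rw [Complex.sub_re] at h
    have h6 : ((((((LX hf).eta 0).w i x * mxd f U U x.1 : ℝ) : ℂ)) / 2).re =
      (((LX hf).eta 0).w i x * mxd f U U x.1) / 2 := by
      rw [show (2 : ℂ) = ((2 : ℝ) : ℂ) by norm_num, ← Complex.ofReal_div, Complex.ofReal_re]
    rw [h6] at h
    linarith
  rw [e0, e4, e3]
  ring

/-! ### the signed Bott-Chern inequality on a level -/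

theorem qK_psd {a u : E3 → ℝ} {θ : Cn 2 → E3} {z : Cn 2} {q : ℝ}
    (hsa : ContDiffAt ℝ ∞ (fun y => a (θ y)) z) (hsu : ContDiffAt ℝ ∞ (fun y => u (θ y)) z)
    (hl : ∀ v, 0 ≤ lev (fun y => a (θ y)) z v ∧
      lev (fun y => a (θ y)) z v ≤ q * lev (fun y => u (θ y)) z v) :
    ((q : ℂ) • cH (fun y => u (θ y)) z - cH (fun y => a (θ y)) z).PosSemidef := by
  have h6 := (GBLcut_844.psd_of_lev (c := q) hsa hsu fun v => by
    obtain ⟨h7, h8⟩ := hl v
    rw [Crest.Agent.R273.YauDefs_635.lev333_eq_lev145] at h7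
    rw [Crest.Agent.R273.YauDefs_635.lev333_eq_lev145,
      Crest.Agent.R273.YauDefs_635.lev333_eq_lev145] at h8
    rw [abs_of_nonneg (by linarith)]
    linarith).1
  rwa [← cH_eq_hess hsa, ← cH_eq_hess hsu] at h6

theorem bD_eq {lg : Matrix (Fin 2) (Fin 2) ℂ → Matrix (Fin 2) (Fin 2) ℂ} (hlg : Lgm lg)
    {G H : Form} (hG : Mt f r G) (hH : Mt f r H) {i : ((LX hf).A 0).ι} {x : (LX hf).M 0}
    (hx : x ∈ (((LX hf).A 0).e i).source) :
    bD (lfE hf hlg hG hH) i x = bf (G (thc hf i))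
      (fun z => lg ((G (thc hf i) z)⁻¹ * H (thc hf i) z)) (((LX hf).A 0).e i x) := by
  have hz := (((LX hf).A 0).e i).map_source hx
  have e1 : rm (rdM ((LX hf).A 0) i ((hbE hf hG).H i)) (((LX hf).A 0).e i x) =
      rm (G (thc hf i)) (((LX hf).A 0).e i x) := by
    funext c d
    exact rm_congr (rdM_ev hf hG hx) c d
  have e2 : rdM ((LX hf).A 0) i ((lfE hf hlg hG hH).L i) (((LX hf).A 0).e i x) =
      lg ((G (thc hf i) (((LX hf).A 0).e i x))⁻¹ * H (thc hf i) (((LX hf).A 0).e i x)) := by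
    rw [rdM_at hx]
    rfl
  unfold bD bf Th
  rw [e1, e2, (rdM_ev hf hG hx).self_of_nhds]

theorem bf_zero {G L : Cn 2 → Matrix (Fin 2) (Fin 2) ℂ} {z : Cn 2} (h : L z = 0) :
    bf G L z = 0 := by
  ext c d
  show (L z * Th G c d z).trace = 0
  rw [h, Matrix.zero_mul, Matrix.trace_zero]

/-- **`UpperStmt`** -/
theorem upperStmt_of (lgs : LgStmt) (pt : PtwStmt) : UpperStmt := by
  obtain ⟨lg, hlg⟩ := lgs
  obtain ⟨C₀, hC₀, pt⟩ := pt
  refine ⟨2 * C₀, by positivity, ?_⟩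
  intro f r u H U ν a q V L hu hH hU hν ha hq hV hint hcase
  have hG : Mt f r (HK u) := mt_HK L hu
  have hGv : Vl f r (HK u) u := vl_HK L hu
  obtain ⟨r₁, r₂, h1, h2, h3, h4⟩ := ha.supp
  have P : Part ((LX L).A 0) := (LX L).part 0
  set K : Set ((LX L).M 0) := {x | r₁ ^ 2 ≤ nsq x.1 ∧ nsq x.1 ≤ r₂ ^ 2} with hKd
  have hK : IsCompact K := ann_compact L h1 h2.le h3
  set χ : (LX L).M 0 → ℝ := fun x => a x.1 with hχd
  have hχ : ((LX L).A 0).Sm χ := sm_val L ha.sm
  have h0 : ∀ x, x ∉ K → χ x = 0 := fun x hx => by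
    refine h4 x.1 (mem_M L x) ?_
    by_contra hcon
    push Not at hcon
    exact hx ⟨hcon.1.le, hcon.2.le⟩
  have hoffW : ∀ i, ∀ x ∈ (((LX L).A 0).e i).source, x ∉ {x | ¬ EqN f r u H x.1} →
      (lfE L hlg hG hH).L i x = 0 := by
    intro i x hx hxW
    have hE : EqN f r u H x.1 := not_not.1 hxW
    have hz := (((LX L).A 0).e i).map_source hx
    have e1 : H (thc L i) (((LX L).A 0).e i x) = HK u (thc L i) (((LX L).A 0).e i x) :=
      hE.self_of_nhds _ _ (pe_chart L i) _ hz (thc_eq L hx)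
    have hd : (HK u (thc L i) (((LX L).A 0).e i x)).det ≠ 0 :=
      (hG.pos _ _ (pe_chart L i) _ hz).det_pos.ne'
    show lg ((HK u (thc L i) (((LX L).A 0).e i x))⁻¹ * H (thc L i) (((LX L).A 0).e i x)) = 0
    rw [e1, Matrix.nonsing_inv_mul _ (isUnit_iff_ne_zero.2 hd), hlg.one]
  have hWc : IsClosed {x : (LX L).M 0 | ¬ EqN f r u H x.1} := by
    have ho : IsOpen {x : E3 | EqN f r u H x} := isOpen_setOfPred_eventually_nhds
    exact (ho.preimage continuous_subtype_val).isClosed_compl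
  have hW2 : ∀ i, ∀ x ∈ (((LX L).A 0).e i).source, x ∈ {x : (LX L).M 0 | ¬ EqN f r u H x.1} →
      (∀ v, 0 ≤ lev (fun y => a (thc L i y)) (((LX L).A 0).e i x) v ∧
      lev (fun y => a (thc L i y)) (((LX L).A 0).e i x) v ≤
        q x.1 * lev (fun y => u (thc L i y)) (((LX L).A 0).e i x) v) ∧
        Cpr u H V (thc L i) (((LX L).A 0).e i x) := by
    intro i x hx hxW
    rcases hcase x.1 (mem_M L x) with h | h
    · exact absurd h hxW
    · exact h _ _ (pe_chart L i) _ ((((LX L).A 0).e i).map_source hx) (thc_eq L hx)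
  have hXe : ∀ i, ∀ x ∈ (((LX L).A 0).e i).source, hsf ((LX L).A 0) χ i x =
      cH (fun y => a (thc L i y)) (((LX L).A 0).e i x) := fun i x hx =>
    (cH_eq_hess (smAt ha.sm (pe_chart L i) ((((LX L).A 0).e i).map_source hx))).symm
  have hpsd : ∀ i, ∀ x ∈ (((LX L).A 0).e i).source, x ∈ {x : (LX L).M 0 | ¬ EqN f r u H x.1} →
      (hsf ((LX L).A 0) χ i x).PosSemidef := by
    intro i x hx hxW
    rw [hXe i x hx]
    exact LossA_625.psd_cH (smAt ha.sm (pe_chart L i) ((((LX L).A 0).e i).map_source hx))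
      fun v => ((hW2 i x hx hxW).1 v).1
  have hup := BCU9_532.upper P (lfE L hlg hG hH) hχ hK h0 hWc hoffW hpsd
  -- the three integrals
  have off : ∀ f : ((LX L).A 0).ι → (LX L).M 0 → ℂ,
      OffK ((LX L).A 0) (fun i x => (χ x : ℂ) * f i x) K := fun f i x _ hx => by
    show (χ x : ℂ) * _ = 0
    rw [h0 x hx]; simp
  have eH : intD P (fun i x => (χ x : ℂ) * q2D (gE (lfE L hlg hG hH) 1) i x) =
      intD P (fun i x => (χ x : ℂ) * q2D (hbE L hH) i x) :=
    intD_congr P fun i x hx => by rw [q2D_gE L hlg hG hH hx]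
  have key : ∀ {H' : Form} (hH' : Mt f r H') {U' : E3 → ℝ}, Vl f r H' U' →
      Integrable (fun x => a x * (mxd f U' U' x / 2 - c2h f H' x)) ν ∧
      ∫ x, a x * (mxd f U' U' x / 2 - c2h f H' x) ∂ν =
        (intD P (fun i x => (χ x : ℂ) * q2D (hbE L hH') i x)).re := by
    intro H' hH' U' hU'
    refine re_bridge L hν P (Crest.Agent.R257.MassLe218.den_mul hχ (q2_den _)) hK (off _)
      fun i x hx => ?_
    rw [Complex.re_ofReal_mul, q2_re L hH' hU' hx]
    ring
  obtain ⟨iH, kH⟩ := key hH hU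
  obtain ⟨iG, kG⟩ := key hG hGv
  have d3 : Den ((LX L).A 0) (fun i x => pd (hsf ((LX L).A 0) χ i x)
      (bD (lfE L hlg hG hH) i x)) :=
    GBL4_625.den_hsf hχ hK.isClosed (subset_univ K) h0 (bD_sm _ univ) (bD_tn _ univ)
  have o3 : OffK ((LX L).A 0) (fun i x => pd (hsf ((LX L).A 0) χ i x)
      (bD (lfE L hlg hG hH) i x)) K :=
    GBL4_625.off_hsf hK.isClosed h0 _
  obtain ⟨ψ, hψ⟩ := exists_fun L d3.tr
  obtain ⟨iψ, kψ⟩ := re_bridge L hν P d3 hK o3 hψ
  -- pointwise bound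
  have hbd : ∀ y ∈ Lv f r, - ψ y ≤
      C₀ * (q y * V y * Real.sqrt (c2d f u y * Real.exp (u y))) := by
    intro y hy
    obtain ⟨i, hi⟩ := ((LX L).A 0).cover (mkM L hy.1 hy.2.1 hy.2.2)
    have hz := (((LX L).A 0).e i).map_source hi
    have hw := w_pos L hi
    have hxy : thc L i (((LX L).A 0).e i (mkM L hy.1 hy.2.1 hy.2.2)) = y := thc_eq L hi
    have hnn : 0 ≤ C₀ * (q y * V y * Real.sqrt (c2d f u y * Real.exp (u y))) :=
      mul_nonneg hC₀ (mul_nonneg (mul_nonneg (hq y) (hV y)) (Real.sqrt_nonneg _))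
    have h5 : ‖pd (hsf ((LX L).A 0) χ i (mkM L hy.1 hy.2.1 hy.2.2))
        (bD (lfE L hlg hG hH) i (mkM L hy.1 hy.2.1 hy.2.2))‖ ≤
        C₀ * (q y * V y * Real.sqrt (c2d f u y * Real.exp (u y))) *
          ((LX L).eta 0).w i (mkM L hy.1 hy.2.1 hy.2.2) := by
      rw [hXe i _ hi, bD_eq L hlg hG hH hi, w_eta L hi]
      by_cases hxW : EqN f r u H y
      · have hL0 := hoffW i _ hi (not_not.2 hxW)
        have h6 : bf (HK u (thc L i)) (fun z => lg ((HK u (thc L i) z)⁻¹ * H (thc L i) z))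
            (((LX L).A 0).e i (mkM L hy.1 hy.2.1 hy.2.2)) = 0 := bf_zero hL0
        rw [h6]
        have h8 : ∀ X : Matrix (Fin 2) (Fin 2) ℂ, pd X 0 = 0 := fun X => by simp [pd]
        rw [h8, norm_zero]
        refine mul_nonneg hnn ?_
        rw [← w_eta L hi]
        exact hw.le
      · obtain ⟨hl, hc⟩ := hW2 i _ hi hxW
        have hsa := smAt ha.sm (pe_chart L i) hz
        have hsu : ContDiffAt ℝ ∞ (fun y => u (thc L i y)) _ := smAt hu.sm (pe_chart L i) hz
        unfold Cpr at hc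
        rw [hxy] at hc
        obtain ⟨b1, b2⟩ := hlg.bd _ _ (V y) (hG.pos _ _ (pe_chart L i) _ hz)
          (hH.pos _ _ (pe_chart L i) _ hz) hc.1 hc.2
        have h6 := pt f r u L hu _ _ (pe_chart L i) _ hz
          (fun z => lg ((HK u (thc L i) z)⁻¹ * H (thc L i) z)) _ (q y) (V y) (hq y) (hV y)
          (LossA_625.psd_cH hsa fun v => (hl v).1) (qK_psd hsa hsu hl) b1 b2
        rw [hxy] at h6
        exact h6
    have h6 := hψ i _ hi
    have h7 := (abs_le.1 (Complex.abs_re_le_norm (pd (hsf ((LX L).A 0) χ i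
      (mkM L hy.1 hy.2.1 hy.2.2)) (bD (lfE L hlg hG hH) i (mkM L hy.1 hy.2.1 hy.2.2))))).1
    have h8 : -(((LX L).eta 0).w i (mkM L hy.1 hy.2.1 hy.2.2) * ψ y) ≤
        C₀ * (q y * V y * Real.sqrt (c2d f u y * Real.exp (u y))) *
          ((LX L).eta 0).w i (mkM L hy.1 hy.2.1 hy.2.2) := by
      have h9 : (pd (hsf ((LX L).A 0) χ i (mkM L hy.1 hy.2.1 hy.2.2))
        (bD (lfE L hlg hG hH) i (mkM L hy.1 hy.2.1 hy.2.2))).re =
        ((LX L).eta 0).w i (mkM L hy.1 hy.2.1 hy.2.2) * ψ y := h6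
      rw [← h9]
      linarith
    have h9 : ((LX L).eta 0).w i (mkM L hy.1 hy.2.1 hy.2.2) * (- ψ y) ≤
        ((LX L).eta 0).w i (mkM L hy.1 hy.2.1 hy.2.2) *
        (C₀ * (q y * V y * Real.sqrt (c2d f u y * Real.exp (u y)))) := by linarith
    exact le_of_mul_le_mul_left h9 hw
  have hlast : - ∫ x, ψ x ∂ν ≤
      C₀ * ∫ x, q x * V x * Real.sqrt (c2d f u x * Real.exp (u x)) ∂ν := by
    rw [← integral_neg, ← integral_const_mul]
    refine integral_mono_ae iψ.neg (hint.const_mul C₀) ?_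
    filter_upwards [ae_lv hν] with x hx
    exact hbd x hx
  rw [eH, ← kH, ← kG, ← kψ] at hup
  have e1 : ∫ x, a x * (2 * c2h f H x - mxd f U U x) ∂ν =
      -2 * ∫ x, a x * (mxd f U U x / 2 - c2h f H x) ∂ν := by
    rw [← integral_const_mul]
    exact integral_congr_ae (Eventually.of_forall fun x => by ring)
  have e2 : ∫ x, a x * (2 * c2d f u x - mxd f u u x) ∂ν =
      -2 * ∫ x, a x * (mxd f u u x / 2 - c2h f (HK u) x) ∂ν := by
    rw [← integral_const_mul]
    refine integral_congr_ae ?_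
    filter_upwards [ae_lv hν] with x hx
    have : c2h f (HK u) x = c2d f u x := (mtOStmt f r u L hu).2.2 x hx
    rw [this]
    ring
  rw [e1, e2]
  linarith

end

end Crest.Agent.R257.BrI_822
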