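import Crest.Agent.R257.C2F1_625

/-!
# R257 (S0395), part (GB), leaf GB-C2 (helper625): frames, the identity for a holomorphic section

* `rm_frame`, `c2_frame` : change of holomorphic frame
* `hV H V`  : `|V|²_H`;  `bb H V` : the second fundamental form term `∂∂̄ log |V|² + ⟨Θ V, V⟩ / |V|²`
* `c2_eq`   : `c₂(H) = ∂∂̄ Λ ∧ ∂∂̄ (log det H - Λ) + ∂∂̄ (bb H V)`, `Λ = log |V|²_H`
* `bb_rank` : `bb H V` is of the form `conj (w c) * w d`
-/

set_option autoImplicit false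
set_option linter.unusedSectionVars false
set_option linter.unusedSimpArgs false

open Finset Matrix Complex Filter Topology
open scoped ContDiff ComplexConjugate ComplexOrder

namespace Crest.Agent.R257.C2F2_625

open Crest.Agent.R275.Geo Crest.Agent.R275.EDR890
open Crest.Agent.R273.Fock_243 Crest.Agent.R273.Calc_243
open Crest.Agent.R273.Bkn_243 Crest.Agent.R273.Pos_243 Crest.Agent.R273.BochA_101
open Crest.Agent.R273.BochB_101
open Crest.Agent.R273.BochC_101 Crest.Agent.R273.BochD_101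
open Crest.Agent.R273.Hess_333 Crest.Agent.R273.HessB_333
open Crest.Agent.R257.C2F1_625

noncomputable section

variable {n : ℕ} {κ : Type} [Fintype κ] [DecidableEq κ]

/-! ### change of frame -/

theorem rm_frame {H F : Cn n → Matrix κ κ ℂ} {z : Cn n} (hH : ∀ᶠ y in 𝓝 z, SmM y H)
    (hH0 : (H z).det ≠ 0) (hF : HolM z F) (hF0 : (F z).det ≠ 0) (c d : Fin n) :
    rm (fun y => (F y)ᴴ * H y * F y) z c d = (F z)ᴴ * rm H z c d * F z := by
  have hHz := hH.self_of_nhds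
  have i1 : F z * (F z)⁻¹ = 1 := Matrix.mul_nonsing_inv _ (isUnit_iff_ne_zero.2 hF0)
  have hF0' : ((F z)ᴴ).det ≠ 0 := by
    rw [Matrix.det_conjTranspose]; exact (star_ne_zero).2 hF0
  have i2 : ((F z)ᴴ)⁻¹ * (F z)ᴴ = 1 := Matrix.nonsing_inv_mul _ (isUnit_iff_ne_zero.2 hF0')
  have i3 : H z * (H z)⁻¹ = 1 := Matrix.mul_nonsing_inv _ (isUnit_iff_ne_zero.2 hH0)
  have i4 : (H z)⁻¹ * H z = 1 := Matrix.nonsing_inv_mul _ (isUnit_iff_ne_zero.2 hH0)
  unfold rm
  rw [ddbar_gram hH hF, dbar_gram hHz hF, del_gram hHz hF, Matrix.mul_inv_rev, Matrix.mul_inv_rev]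
  have e1 : ((dM (-I) d F z)ᴴ * H z + (F z)ᴴ * dM I d H z) * F z *
      ((F z)⁻¹ * ((H z)⁻¹ * ((F z)ᴴ)⁻¹)) *
      ((F z)ᴴ * (dM (-I) c H z * F z + H z * dM (-I) c F z))
      = ((dM (-I) d F z)ᴴ * H z + (F z)ᴴ * dM I d H z) * (F z * (F z)⁻¹) * (H z)⁻¹ *
        (((F z)ᴴ)⁻¹ * (F z)ᴴ) * (dM (-I) c H z * F z + H z * dM (-I) c F z) := by
    simp only [Matrix.mul_assoc]
  rw [e1, i1, i2, Matrix.mul_one, Matrix.mul_one]
  have e2 : ((dM (-I) d F z)ᴴ * H z + (F z)ᴴ * dM I d H z) * (H z)⁻¹ *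
      (dM (-I) c H z * F z + H z * dM (-I) c F z)
      = (dM (-I) d F z)ᴴ * (H z * (H z)⁻¹) * (dM (-I) c H z * F z + H z * dM (-I) c F z)
        + (F z)ᴴ * dM I d H z * (H z)⁻¹ * dM (-I) c H z * F z
        + (F z)ᴴ * dM I d H z * ((H z)⁻¹ * H z) * dM (-I) c F z := by
    simp only [Matrix.mul_add, Matrix.add_mul, Matrix.mul_assoc]
    abel
  rw [e2, i3, i4, Matrix.mul_one, Matrix.mul_one]
  simp only [Matrix.mul_add, Matrix.add_mul, Matrix.neg_mul, Matrix.mul_neg, Matrix.mul_assoc]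
  abel

theorem c2_frame {H F : Cn 2 → Matrix (Fin 2) (Fin 2) ℂ} {z : Cn 2}
    (hH : ∀ᶠ y in 𝓝 z, SmM y H) (hH0 : (H z).det ≠ 0) (hF : HolM z F) (hF0 : (F z).det ≠ 0) :
    c2 (fun y => (F y)ᴴ * H y * F y) z = c2 H z := by
  have hF0' : ((F z)ᴴ).det ≠ 0 := by
    rw [Matrix.det_conjTranspose]; exact (star_ne_zero).2 hF0
  unfold c2
  rw [rm_frame hH hH0 hF hF0, rm_frame hH hH0 hF hF0, rm_frame hH hH0 hF hF0,
    rm_frame hH hH0 hF hF0, pd_mul, pd_mul, Matrix.det_mul, Matrix.det_mul]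
  field_simp

theorem rm_congr {H H' : Cn n → Matrix κ κ ℂ} {z : Cn n} (h : H =ᶠ[𝓝 z] H') (c d : Fin n) :
    rm H z c d = rm H' z c d := by
  unfold rm
  rw [dM_congr h, dM_congr h, dM_congr (dM_congr' h), h.eq_of_nhds]

theorem c2_congr {H H' : Cn 2 → Matrix (Fin 2) (Fin 2) ℂ} {z : Cn 2} (h : H =ᶠ[𝓝 z] H') :
    c2 H z = c2 H' z := by
  unfold c2
  rw [rm_congr h, rm_congr h, rm_congr h, rm_congr h, h.eq_of_nhds]

theorem ddm_congr {b b' : Cn 2 → Matrix (Fin 2) (Fin 2) ℂ} {z : Cn 2} (h : b =ᶠ[𝓝 z] b') :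
    ddm b z = ddm b' z := by
  have h' : ∀ i j, (fun y => b y i j) =ᶠ[𝓝 z] fun y => b' y i j := fun i j =>
    h.mono fun y hy => by simp only [hy]
  unfold ddm
  rw [dS_congr (dS_congr' (h' 1 1)), dS_congr (dS_congr' (h' 0 0)), dS_congr (dS_congr' (h' 1 0)),
    dS_congr (dS_congr' (h' 0 1))]

/-! ### logarithms -/

/-- `lg` of a positive function is the Hessian of its logarithm -/
theorem lg_eq_hess {f : Cn n → ℂ} {z : Cn n} (hf : Sm z f) (hr : ∀ᶠ y in 𝓝 z, (f y).im = 0)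
    (h0 : 0 < (f z).re) (c d : Fin n) :
    lg f z c d = hess (fun y => Real.log (f y).re) z c d := by
  have hre : ContDiffAt ℝ ∞ (fun y => (f y).re) z := Complex.reCLM.contDiff.contDiffAt.comp z hf
  have hlog : ContDiffAt ℝ ∞ (fun y => Real.log (f y).re) z := hre.log h0.ne'
  have hg : Sm z (cu fun y => Real.log (f y).re) := contDiffAt_cu hlog
  have hpos : ∀ᶠ y in 𝓝 z, 0 < (f y).re := hre.continuousAt.eventually (lt_mem_nhds h0)
  have he : (fun y => Complex.exp (cu (fun y => Real.log (f y).re) y)) =ᶠ[𝓝 z] f := by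
    filter_upwards [hr, hpos] with y h1 h2
    unfold cu
    rw [← Complex.ofReal_exp, Real.exp_log h2]
    exact Complex.ext (by simp) (by simp [h1])
  have hfe : f z ≠ 0 := fun h => by rw [h] at h0; simp at h0
  have d1 : ∀ s a, ∀ᶠ y in 𝓝 z, dS s a f y = f y * dS s a (cu fun y => Real.log (f y).re) y := by
    intro s a
    filter_upwards [he.eventually_nhds, ev_diff hg] with y h1 h2
    have h3 : Complex.exp (cu (fun y => Real.log (f y).re) y) = f y := h1.self_of_nhds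
    rw [← dS_congr h1, dS_exp h2, h3]
  have d2 : dS (-I) c (dS I d f) z = dS (-I) c f z * dS I d (cu fun y => Real.log (f y).re) z
      + f z * dS (-I) c (dS I d (cu fun y => Real.log (f y).re)) z := by
    rw [dS_congr (d1 I d), dS_mul hf.diff (hg.dS I d).diff]
  rw [lg, d2, (d1 (-I) c).self_of_nhds, (d1 I d).self_of_nhds, hess_eq]
  field_simp
  ring

/-! ### a frame starting with a given section -/

theorem det_re_pos'' {κ : Type} [Fintype κ] [DecidableEq κ] {m : Matrix κ κ ℂ} (h : m.PosDef) :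
    0 < m.det.re := (Complex.lt_def.1 h.det_pos).1

/-- `|V|²_H` -/
def hV {κ : Type} [Fintype κ] (H : Cn n → Matrix κ κ ℂ) (V : Cn n → κ → ℂ) (y : Cn n) : ℝ :=
  (star (V y) ⬝ᵥ (H y *ᵥ V y)).re

/-- the second fundamental form term -/
def bb {κ : Type} [Fintype κ] [DecidableEq κ] (H : Cn n → Matrix κ κ ℂ) (V : Cn n → κ → ℂ)
    (y : Cn n) : Matrix (Fin n) (Fin n) ℂ :=
  Matrix.of fun c d => hess (fun w => Real.log (hV H V w)) y c d
    + (star (V y) ⬝ᵥ (rm H y c d *ᵥ V y)) / (hV H V y : ℂ)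

/-- the frame `V, e_k` -/
def fr (V : Cn n → Fin 2 → ℂ) (k : Fin 2) (y : Cn n) : Matrix (Fin 2) (Fin 2) ℂ :=
  !![V y 0, if k = 0 then 0 else 1; V y 1, if k = 0 then 1 else 0]

theorem det_fr (V : Cn n → Fin 2 → ℂ) (k : Fin 2) (y : Cn n) :
    (fr V k y).det = if k = 0 then V y 0 else - V y 1 := by
  simp only [fr, Matrix.det_fin_two_of]
  split_ifs <;> simp

theorem det_fr_ne {V : Cn n → Fin 2 → ℂ} {k : Fin 2} {y : Cn n} (h : V y k ≠ 0) :
    (fr V k y).det ≠ 0 := by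
  rw [det_fr]
  fin_cases k
  · simpa using h
  · simpa using h

theorem hol_fr {V : Cn n → Fin 2 → ℂ} {z : Cn n}
    (hV : ∀ i, ∀ᶠ y in 𝓝 z, DifferentiableAt ℂ (fun w => V w i) y) (k : Fin 2) :
    HolM z (fr V k) := by
  intro S T
  fin_cases T
  · fin_cases S
    · exact (hV 0).mono fun y hy => by simpa [fr] using hy
    · exact (hV 1).mono fun y hy => by simpa [fr] using hy
  · fin_cases S
    · exact Eventually.of_forall fun y => by simp [fr]
    · exact Eventually.of_forall fun y => by simp [fr]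

theorem fr_zero (V : Cn n → Fin 2 → ℂ) (k : Fin 2) (y : Cn n) (X : Matrix (Fin 2) (Fin 2) ℂ) :
    ((fr V k y)ᴴ * X * fr V k y) 0 0 = star (V y) ⬝ᵥ (X *ᵥ V y) := by
  simp [fr, Matrix.mul_apply, Fin.sum_univ_two, dotProduct, Matrix.mulVec,
    Matrix.conjTranspose_apply]
  ring

theorem posDef_frame {H F : Matrix κ κ ℂ} (hH : H.PosDef) (hF : F.det ≠ 0) :
    (Fᴴ * H * F).PosDef := by
  have hu : IsUnit F := (Matrix.isUnit_iff_isUnit_det F).2 (isUnit_iff_ne_zero.2 hF)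
  exact (Matrix.IsUnit.posDef_star_left_conjugate_iff hu).2 hH

/-- data of the frame at one point near `z` -/
theorem frame_pt {H : Cn 2 → Matrix (Fin 2) (Fin 2) ℂ} {V : Cn 2 → Fin 2 → ℂ} {z : Cn 2}
    (hH : ∀ᶠ y in 𝓝 z, SmM y H) (hp : ∀ᶠ y in 𝓝 z, (H y).PosDef)
    (hV' : ∀ i, ∀ᶠ y in 𝓝 z, DifferentiableAt ℂ (fun w => V w i) y) {k : Fin 2}
    (hk : V z k ≠ 0) :
    ∃ h q τ σ : Cn 2 → ℂ, (∀ᶠ y in 𝓝 z, Sm y h ∧ Sm y q ∧ Sm y τ ∧ Sm y σ ∧ 0 < h y ∧ 0 < q y ∧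
      h y = (hV H V y : ℂ) ∧ σ y = conj (τ y) ∧
      (q y).re = ‖(fr V k y).det‖ ^ 2 * (H y).det.re / hV H V y) ∧
      ((fun y => (fr V k y)ᴴ * H y * fr V k y) =ᶠ[𝓝 z] ldu h q τ σ) := by
  have hF := hol_fr hV' k
  have hFE : ∀ᶠ y in 𝓝 z, HolM y (fr V k) := hF.smE
  have hVk : ∀ᶠ y in 𝓝 z, V y k ≠ 0 := (hV' k).self_of_nhds.continuousAt.eventually_ne hk
  set H' : Cn 2 → Matrix (Fin 2) (Fin 2) ℂ := fun y => (fr V k y)ᴴ * H y * fr V k y with hH'
  have hpd : ∀ᶠ y in 𝓝 z, (H' y).PosDef := by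
    filter_upwards [hp, hVk] with y h1 h2
    exact posDef_frame h1 (det_fr_ne h2)
  have hsm : ∀ᶠ y in 𝓝 z, SmM y H' := by
    filter_upwards [hH, hFE] with y h1 h2
    exact SmM.mul (SmM.mul (SmM.conjTranspose h2.sm) h1) h2.sm
  refine ⟨fun y => H' y 0 0, fun y => (H' y).det / H' y 0 0, fun y => H' y 0 1 / H' y 0 0,
    fun y => H' y 1 0 / H' y 0 0, ?_, ?_⟩
  · filter_upwards [hpd, hsm] with y h1 h2
    have h00 : 0 < H' y 0 0 := h1.diag_pos
    have hne : H' y 0 0 ≠ 0 := h00.ne'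
    have hdet : 0 < (H' y).det := h1.det_pos
    have e1 : H' y 0 0 = (hV H V y : ℂ) := by
      have e : H' y 0 0 = star (V y) ⬝ᵥ (H y *ᵥ V y) := fr_zero V k y (H y)
      have : (H' y 0 0).im = 0 := (Complex.lt_def.1 h00).2.symm
      exact Complex.ext (by rw [ofReal_re, hV, ← e]) (by rw [this, ofReal_im])
    have hreal : conj (H' y 0 0) = H' y 0 0 := by rw [e1, Complex.conj_ofReal]
    have hherm : conj (H' y 0 1) = H' y 1 0 := by
      have := congrFun (congrFun h1.isHermitian.eq 1) 0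
      simpa [Matrix.conjTranspose_apply] using this
    have hhV : (0:ℝ) < hV H V y := by
      have := h00
      rw [e1] at this
      exact_mod_cast this
    refine ⟨h2 0 0, ?_, ?_, ?_, h00, ?_, e1, ?_, ?_⟩
    · simp only [div_eq_mul_inv]
      exact (SmM.det h2).mul ((h2 0 0).inv hne)
    · simp only [div_eq_mul_inv]
      exact (h2 0 1).mul ((h2 0 0).inv hne)
    · simp only [div_eq_mul_inv]
      exact (h2 1 0).mul ((h2 0 0).inv hne)
    · exact div_pos hdet h00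
    · rw [map_div₀, hherm, hreal]
    · have e2 : (H' y).det = (‖(fr V k y).det‖ ^ 2 : ℝ) * (H y).det := by
        rw [hH']
        simp only
        rw [Matrix.det_mul, Matrix.det_mul, Matrix.det_conjTranspose]
        have : star (fr V k y).det * (fr V k y).det = ((‖(fr V k y).det‖ ^ 2 : ℝ) : ℂ) := by
          rw [RCLike.star_def, ← Complex.normSq_eq_conj_mul_self, Complex.normSq_eq_norm_sq]
        rw [← this]
        ring
      show ((H' y).det / H' y 0 0).re = _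
      rw [e1, Complex.div_ofReal_re, e2, Complex.re_ofReal_mul]
  · filter_upwards [hpd] with y h1
    have hne : H' y 0 0 ≠ 0 := h1.diag_pos.ne'
    show H' y = _
    ext i j
    fin_cases i <;> fin_cases j
    · simp [ldu]
    · simp [ldu]; field_simp
    · simp [ldu]; field_simp
    · simp only [ldu, Matrix.of_apply, Matrix.cons_val', Matrix.cons_val_one, Matrix.cons_val_fin_one,
        Matrix.det_fin_two]
      simp
      field_simp
      ring

/-- the `(0,0)` entry in LDU coordinates -/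
theorem rm_ldu_zero {h q τ σ : Cn n → ℂ} {z : Cn n} (hh : Sm z h) (hq : Sm z q) (hτ : Sm z τ)
    (hσ : Sm z σ) (h0 : h z ≠ 0) (q0 : q z ≠ 0) (c d : Fin n) :
    rm (ldu h q τ σ) z c d 0 0 = h z * (- lg h z c d + bt h q τ σ z c d) := by
  rw [rm_ldu hh hq hτ hσ h0 q0]
  simp [Matrix.mul_apply, Fin.sum_univ_two, Matrix.vecMul, dotProduct]

/-- `bt` in intrinsic form -/
theorem bt_eq_bb {H : Cn 2 → Matrix (Fin 2) (Fin 2) ℂ} {V : Cn 2 → Fin 2 → ℂ} {z : Cn 2}
    {k : Fin 2} {h q τ σ : Cn 2 → ℂ} (hH : ∀ᶠ y in 𝓝 z, SmM y H) (hH0 : (H z).det ≠ 0)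
    (hV' : ∀ i, ∀ᶠ y in 𝓝 z, DifferentiableAt ℂ (fun w => V w i) y) (hk : V z k ≠ 0)
    (hall : ∀ᶠ y in 𝓝 z, Sm y h ∧ Sm y q ∧ Sm y τ ∧ Sm y σ ∧ 0 < h y ∧ 0 < q y ∧
      h y = (hV H V y : ℂ))
    (hE : (fun y => (fr V k y)ᴴ * H y * fr V k y) =ᶠ[𝓝 z] ldu h q τ σ) (c d : Fin 2) :
    bt h q τ σ z c d = bb H V z c d := by
  obtain ⟨s1, s2, s3, s4, p1, p2, e1⟩ := hall.self_of_nhds
  have h0 : h z ≠ 0 := p1.ne'
  have hre : 0 < (h z).re := (Complex.lt_def.1 p1).1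
  have hr : ∀ᶠ y in 𝓝 z, (h y).im = 0 := hall.mono fun y hy => by
    rw [hy.2.2.2.2.2.2]; exact ofReal_im _
  have hhess : hess (fun y => Real.log (h y).re) z = hess (fun w => Real.log (hV H V w)) z := by
    refine hess_congr ?_
    filter_upwards [hall] with y hy
    rw [hy.2.2.2.2.2.2, ofReal_re]
  have r1 : rm (ldu h q τ σ) z c d 0 0 = h z * (- lg h z c d + bt h q τ σ z c d) :=
    rm_ldu_zero s1 s2 s3 s4 h0 p2.ne' c d
  rw [← rm_congr hE, rm_frame hH hH0 (hol_fr hV' k) (det_fr_ne hk), fr_zero,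
    lg_eq_hess s1 hr hre, hhess] at r1
  rw [bb, Matrix.of_apply, r1, ← e1]
  field_simp
  ring

/-- **the second Chern form and a holomorphic section without zeros** -/
theorem c2_eq {H : Cn 2 → Matrix (Fin 2) (Fin 2) ℂ} {V : Cn 2 → Fin 2 → ℂ} {z : Cn 2}
    (hH : ∀ᶠ y in 𝓝 z, SmM y H) (hp : ∀ᶠ y in 𝓝 z, (H y).PosDef)
    (hV' : ∀ i, ∀ᶠ y in 𝓝 z, DifferentiableAt ℂ (fun w => V w i) y) (hV0 : V z ≠ 0) :
    c2 H z = pd (hess (fun y => Real.log (hV H V y)) z)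
      (hess (fun y => Real.log (H y).det.re) z - hess (fun y => Real.log (hV H V y)) z)
      + ddm (bb H V) z := by
  obtain ⟨k, hk⟩ : ∃ k, V z k ≠ 0 := by
    by_contra hcon
    push Not at hcon
    exact hV0 (funext hcon)
  obtain ⟨h, q, τ, σ, hall, hE⟩ := frame_pt hH hp hV' hk
  obtain ⟨s1, s2, s3, s4, p1, p2, e1, e2, e3⟩ := hall.self_of_nhds
  have hpd := hp.self_of_nhds
  have hH0 : (H z).det ≠ 0 := hpd.det_pos.ne'
  have hr : ∀ᶠ y in 𝓝 z, (h y).im = 0 := hall.mono fun y hy => by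
    rw [hy.2.2.2.2.2.2.1]; exact ofReal_im _
  have hqr : ∀ᶠ y in 𝓝 z, (q y).im = 0 := hall.mono fun y hy =>
    (Complex.lt_def.1 hy.2.2.2.2.2.1).2.symm
  have hre : 0 < (h z).re := (Complex.lt_def.1 p1).1
  have hqre : 0 < (q z).re := (Complex.lt_def.1 p2).1
  have hhess : hess (fun y => Real.log (h y).re) z = hess (fun w => Real.log (hV H V w)) z := by
    refine hess_congr ?_
    filter_upwards [hall] with y hy
    rw [hy.2.2.2.2.2.2.1, ofReal_re]
  have hVk : ∀ᶠ y in 𝓝 z, V y k ≠ 0 := (hV' k).self_of_nhds.continuousAt.eventually_ne hk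
  have hdetf : ∀ᶠ y in 𝓝 z, DifferentiableAt ℂ (fun w => (fr V k w).det) y := by
    filter_upwards [hV' 0, hV' 1] with y h0 h1
    have : (fun w => (fr V k w).det) = fun w => if k = 0 then V w 0 else - V w 1 :=
      funext fun w => det_fr V k w
    rw [this]
    split_ifs
    · exact h0
    · exact h1.neg
  -- smoothness
  have sΛ : ContDiffAt ℝ ∞ (fun y => Real.log (hV H V y)) z := by
    have a1 : ContDiffAt ℝ ∞ (fun y => (h y).re) z := Complex.reCLM.contDiff.contDiffAt.comp z s1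
    have a2 : ContDiffAt ℝ ∞ (fun y => Real.log (h y).re) z := a1.log hre.ne'
    refine a2.congr_of_eventuallyEq ?_
    filter_upwards [hall] with y hy
    rw [hy.2.2.2.2.2.2.1, ofReal_re]
  have hdre : 0 < (H z).det.re := det_re_pos'' hpd
  have sD : ContDiffAt ℝ ∞ (fun y => Real.log (H y).det.re) z :=
    (Complex.reCLM.contDiff.contDiffAt.comp z (SmM.det hH.self_of_nhds)).log hdre.ne'
  have sF : ContDiffAt ℝ ∞ (fun y => Real.log (‖(fr V k y).det‖ ^ 2)) z := by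
    have a1 : Sm z (fun w => (fr V k w).det) := sm_of_hol hdetf
    have a2 : ContDiffAt ℝ ∞ (fun y => ‖(fr V k y).det‖ ^ 2) z := a1.norm_sq ℝ
    exact a2.log (pow_ne_zero 2 (norm_ne_zero_iff.2 (det_fr_ne hk)))
  have hqhess : hess (fun y => Real.log (q y).re) z = hess (fun y => Real.log (H y).det.re) z
      - hess (fun y => Real.log (hV H V y)) z := by
    have e : (fun y => Real.log (q y).re) =ᶠ[𝓝 z] fun y =>
        (Real.log (‖(fr V k y).det‖ ^ 2) + Real.log (H y).det.re) - Real.log (hV H V y) := by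
      filter_upwards [hall, hp, hVk] with y hy hy2 hy3
      have b1 : (0:ℝ) < hV H V y := by
        have := hy.2.2.2.2.1
        rw [hy.2.2.2.2.2.2.1] at this
        exact_mod_cast this
      rw [hy.2.2.2.2.2.2.2.2, Real.log_div, Real.log_mul]
      · exact pow_ne_zero 2 (norm_ne_zero_iff.2 (det_fr_ne hy3))
      · exact (det_re_pos'' hy2).ne'
      · exact mul_ne_zero (pow_ne_zero 2 (norm_ne_zero_iff.2 (det_fr_ne hy3)))
          (det_re_pos'' hy2).ne'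
      · exact b1.ne'
    rw [hess_congr e, hess_sub (sF.add sD) sΛ, hess_add sF sD, hess_log_norm hdetf (det_fr_ne hk),
      zero_add]
  rw [← c2_frame hH hH0 (hol_fr hV' k) (det_fr_ne hk), c2_congr hE,
    c2_ldu s1 s2 (hall.mono fun y hy => hy.2.2.1) (hall.mono fun y hy => hy.2.2.2.1) p1.ne' p2.ne']
  have f1 : Matrix.of (lg h z) = hess (fun y => Real.log (hV H V y)) z := by
    ext c d
    rw [Matrix.of_apply, lg_eq_hess s1 hr hre, hhess]
  have f2 : Matrix.of (lg q z) = hess (fun y => Real.log (H y).det.re) z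
      - hess (fun y => Real.log (hV H V y)) z := by
    ext c d
    rw [Matrix.of_apply, lg_eq_hess s2 hqr hqre, hqhess]
  have f3 : (fun y => Matrix.of (bt h q τ σ y)) =ᶠ[𝓝 z] bb H V := by
    have hV'' : ∀ᶠ y in 𝓝 z, ∀ i, ∀ᶠ w in 𝓝 y, DifferentiableAt ℂ (fun x => V x i) w := by
      rw [eventually_all]
      exact fun i => (hV' i).eventually_nhds
    filter_upwards [hH.eventually_nhds, hp, hV'', hVk, hall.eventually_nhds, hE.eventually_nhds]
      with y g1 g2 g3 g4 g5 g6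
    ext c d
    rw [Matrix.of_apply]
    exact bt_eq_bb g1 g2.det_pos.ne' g3 g4
      (g5.mono fun w hw => ⟨hw.1, hw.2.1, hw.2.2.1, hw.2.2.2.1, hw.2.2.2.2.1, hw.2.2.2.2.2.1,
        hw.2.2.2.2.2.2.1⟩) g6 c d
  rw [f1, f2, ddm_congr f3]

/-- `bb` is a positive semidefinite rank one matrix -/
theorem bb_rank {H : Cn 2 → Matrix (Fin 2) (Fin 2) ℂ} {V : Cn 2 → Fin 2 → ℂ} {z : Cn 2}
    (hH : ∀ᶠ y in 𝓝 z, SmM y H) (hp : ∀ᶠ y in 𝓝 z, (H y).PosDef)
    (hV' : ∀ i, ∀ᶠ y in 𝓝 z, DifferentiableAt ℂ (fun w => V w i) y) (hV0 : V z ≠ 0) :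
    ∃ w : Fin 2 → ℂ, ∀ c d, bb H V z c d = conj (w c) * w d := by
  obtain ⟨k, hk⟩ : ∃ k, V z k ≠ 0 := by
    by_contra hcon
    push Not at hcon
    exact hV0 (funext hcon)
  obtain ⟨h, q, τ, σ, hall, hE⟩ := frame_pt hH hp hV' hk
  obtain ⟨s1, s2, s3, s4, p1, p2, e1, e2, e3⟩ := hall.self_of_nhds
  have hH0 : (H z).det ≠ 0 := hp.self_of_nhds.det_pos.ne'
  have hre : 0 < (h z).re := (Complex.lt_def.1 p1).1
  have hqre : 0 < (q z).re := (Complex.lt_def.1 p2).1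
  have hh : h z = ((h z).re : ℂ) := Complex.ext (by simp) (by simpa using (Complex.lt_def.1 p1).2.symm)
  have hq : q z = ((q z).re : ℂ) := Complex.ext (by simp) (by simpa using (Complex.lt_def.1 p2).2.symm)
  refine ⟨fun d => (Real.sqrt ((h z).re / (q z).re) : ℂ) * dS I d τ z, fun c d => ?_⟩
  rw [← bt_eq_bb hH hH0 hV' hk (hall.mono fun w hw => ⟨hw.1, hw.2.1, hw.2.2.1, hw.2.2.2.1,
    hw.2.2.2.2.1, hw.2.2.2.2.2.1, hw.2.2.2.2.2.2.1⟩) hE c d]
  have hσ : dS (-I) c σ z = conj (dS I c τ z) := by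
    have : σ =ᶠ[𝓝 z] fun y => conj (τ y) := hall.mono fun y hy => hy.2.2.2.2.2.2.2.1
    rw [dS_congr this, dS_conj s3.diff, conjnI]
  rw [bt, hσ, map_mul, Complex.conj_ofReal]
  have hs : (Real.sqrt ((h z).re / (q z).re) : ℂ) * (Real.sqrt ((h z).re / (q z).re) : ℂ)
      = h z / q z := by
    rw [← Complex.ofReal_mul, Real.mul_self_sqrt (div_pos hre hqre).le, Complex.ofReal_div, ← hh,
      ← hq]
  rw [← hs]
  ring

end

end Crest.Agent.R257.C2F2_625
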