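import Crest.Agent.R257.C2F2_625

/-!
# R257 (S0395), part (GB), leaf GB-C2 (helper625): Kähler metrics

* `trace_bb`  : `tr_K (bb K V) = tr_K (∂∂̄ log |V|²) - 1` for `Ric = - ω`
* `einstein_ge` : `c₂(K) ≥ (2/3) det K` for Kähler-Einstein `K`, `Ric = - ω`
-/

set_option autoImplicit false
set_option linter.unusedSectionVars false
set_option linter.unusedSimpArgs false

open Finset Matrix Complex Filter Topology
open scoped ContDiff ComplexConjugate ComplexOrder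

namespace Crest.Agent.R257.C2F3_625

open Crest.Agent.R275.Geo Crest.Agent.R275.EDR890
open Crest.Agent.R273.Fock_243 Crest.Agent.R273.Calc_243
open Crest.Agent.R273.Bkn_243 Crest.Agent.R273.Pos_243 Crest.Agent.R273.BochA_101
open Crest.Agent.R273.BochB_101
open Crest.Agent.R273.BochC_101 Crest.Agent.R273.BochD_101
open Crest.Agent.R273.Hess_333 Crest.Agent.R273.HessB_333
open Crest.Agent.R257.C2F1_625 Crest.Agent.R257.C2F2_625

noncomputable section

variable {n : ℕ}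

/-! ### the trace identity -/

theorem trace_rm_VV {K : Cn n → Matrix (Fin n) (Fin n) ℂ} {V : Fin n → ℂ} {z : Cn n}
    (hK : SmM z K) (hk : ∀ᶠ y in 𝓝 z, KahAt K y) (hE : ∀ a b, ric K z a b = - K z b a) :
    ∑ c, ∑ d, (K z)⁻¹ c d * (star V ⬝ᵥ (rm K z c d *ᵥ V)) = - (star V ⬝ᵥ (K z *ᵥ V)) := by
  have h1 : ∀ c d, (K z)⁻¹ c d * (star V ⬝ᵥ (rm K z c d *ᵥ V))
      = ∑ b, ∑ a, star V b * V a * ((K z)⁻¹ c d * rm K z c d b a) := by
    intro c d
    simp only [dotProduct, Matrix.mulVec, Finset.mul_sum]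
    exact Finset.sum_congr rfl fun b _ => Finset.sum_congr rfl fun a _ => by ring
  simp only [h1]
  have h2 : ∑ c, ∑ d, ∑ b, ∑ a, star V b * V a * ((K z)⁻¹ c d * rm K z c d b a)
      = ∑ b, ∑ a, star V b * V a * ∑ c, ∑ d, (K z)⁻¹ c d * rm K z c d b a := by
    simp only [Finset.mul_sum]
    have e1 : ∀ c : Fin n, ∑ d, ∑ b, ∑ a, star V b * V a * ((K z)⁻¹ c d * rm K z c d b a)
        = ∑ b, ∑ a, ∑ d, star V b * V a * ((K z)⁻¹ c d * rm K z c d b a) := by
      intro c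
      rw [Finset.sum_comm]
      exact Finset.sum_congr rfl fun b _ => Finset.sum_comm
    rw [Finset.sum_congr rfl fun c _ => e1 c, Finset.sum_comm]
    exact Finset.sum_congr rfl fun b _ => Finset.sum_comm
  rw [h2]
  simp only [tr_rm hK hk, hE, dotProduct, Matrix.mulVec, Finset.mul_sum]
  rw [← Finset.sum_neg_distrib]
  refine Finset.sum_congr rfl fun b _ => ?_
  rw [← Finset.sum_neg_distrib]
  exact Finset.sum_congr rfl fun a _ => by ring

/-- trace of the second fundamental form term for a Kähler-Einstein metric -/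
theorem trace_bb {K : Cn 2 → Matrix (Fin 2) (Fin 2) ℂ} {V : Cn 2 → Fin 2 → ℂ} {z : Cn 2}
    (hK : SmM z K) (hk : ∀ᶠ y in 𝓝 z, KahAt K y) (hE : ∀ a b, ric K z a b = - K z b a)
    (hp : (K z).PosDef) (hV0 : V z ≠ 0) :
    ∑ c, ∑ d, (K z)⁻¹ c d * bb K V z c d
      = ∑ c, ∑ d, (K z)⁻¹ c d * hess (fun w => Real.log (hV K V w)) z c d - 1 := by
  have h0 : 0 < star (V z) ⬝ᵥ (K z *ᵥ V z) := hp.dotProduct_mulVec_pos hV0
  have e0 : star (V z) ⬝ᵥ (K z *ᵥ V z) = (hV K V z : ℂ) :=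
    Complex.ext rfl (by rw [ofReal_im]; exact (Complex.lt_def.1 h0).2.symm)
  have hne : (hV K V z : ℂ) ≠ 0 := by rw [← e0]; exact h0.ne'
  have h1 : ∑ c, ∑ d, (K z)⁻¹ c d * bb K V z c d
      = ∑ c, ∑ d, (K z)⁻¹ c d * hess (fun w => Real.log (hV K V w)) z c d
        + (∑ c, ∑ d, (K z)⁻¹ c d * (star (V z) ⬝ᵥ (rm K z c d *ᵥ V z))) / (hV K V z : ℂ) := by
    simp only [bb, Matrix.of_apply, mul_add, Finset.sum_add_distrib, Finset.sum_div, mul_div_assoc]
  rw [h1, trace_rm_VV hK hk hE, e0, neg_div, div_self hne]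
  ring

/-! ### symmetries of the curvature -/

/-- swap of the holomorphic indices -/
theorem rm_hol {K : Cn n → Matrix (Fin n) (Fin n) ℂ} {z : Cn n}
    (hK : SmM z K) (hk : ∀ᶠ y in 𝓝 z, KahAt K y) (a b c d : Fin n) :
    rm K z c d b a = rm K z a d b c := by
  have hkz := hk.self_of_nhds
  have h1 : dM (-I) c (dM I d K) z b a = dM (-I) a (dM I d K) z b c := by
    rw [dM_comm (s := -I) (t := I) (a := c) (b := d) hK,
      dM_comm (s := -I) (t := I) (a := a) (b := d) hK]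
    refine dS_congr ?_
    filter_upwards [hk] with y hy
    exact hy.hol c a b
  have h2 : (dM I d K z * (K z)⁻¹ * dM (-I) c K z) b a
      = (dM I d K z * (K z)⁻¹ * dM (-I) a K z) b c := by
    simp only [Matrix.mul_apply]
    exact Finset.sum_congr rfl fun f _ => by rw [hkz.hol c a f]
  unfold rm
  rw [Matrix.add_apply, Matrix.neg_apply, h1, h2, Matrix.add_apply, Matrix.neg_apply]

/-- swap of the antiholomorphic indices -/
theorem rm_bar {K : Cn n → Matrix (Fin n) (Fin n) ℂ} {z : Cn n}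
    (hK : SmM z K) (hk : ∀ᶠ y in 𝓝 z, KahAt K y) (a b c d : Fin n) :
    rm K z c d b a = rm K z c b d a := by
  rw [rm_symm hK hk, rm_hol hK hk]

/-- Hermitian symmetry -/
theorem rm_herm {κ : Type} [Fintype κ] [DecidableEq κ] {K : Cn n → Matrix κ κ ℂ} {z : Cn n}
    (hK : ∀ᶠ y in 𝓝 z, SmM y K) (hh : ∀ᶠ y in 𝓝 z, (K y).IsHermitian) (c d : Fin n) :
    (rm K z c d)ᴴ = rm K z d c := by
  have hKz := hK.self_of_nhds
  have hhz := hh.self_of_nhds
  have hinv : ((K z)⁻¹)ᴴ = (K z)⁻¹ := by rw [Matrix.conjTranspose_nonsing_inv, hhz.eq]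
  have h1 : ∀ᶠ y in 𝓝 z, ∀ (s : ℂ) (a : Fin n), (dM s a K y)ᴴ = dM (conj s) a K y := by
    filter_upwards [hK, hh.eventually_nhds] with y hy hy2 s a
    have e : (fun w => (K w)ᴴ) =ᶠ[𝓝 y] K := hy2.mono fun w hw => hw.eq
    have := dM_conjTranspose (s := conj s) (a := a) hy
    rw [Complex.conj_conj] at this
    rw [← this]
    exact dM_congr e
  have h1z := h1.self_of_nhds
  have h2 : (dM (-I) c (dM I d K) z)ᴴ = dM (-I) d (dM I c K) z := by
    have hs : SmM z (dM I d K) := fun S T => (hKz S T).dS I d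
    have e1 := dM_conjTranspose (s := I) (a := c) hs
    have e2 : dM I c (fun y => (dM I d K y)ᴴ) z = dM I c (dM (-I) d K) z := by
      refine dM_congr ?_
      filter_upwards [h1] with y hy
      rw [hy, conjI]
    rw [conjI, e2] at e1
    rw [← e1]
    exact dM_comm hKz
  unfold rm
  rw [Matrix.conjTranspose_add, Matrix.conjTranspose_neg, h2, Matrix.conjTranspose_mul,
    Matrix.conjTranspose_mul, hinv, h1z, h1z, conjI, conjnI, ← Matrix.mul_assoc]

/-! ### the algebraic inequality at a point where `K = 1` -/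

theorem quad_ge {Z : Fin 2 → Fin 2 → Matrix (Fin 2) (Fin 2) ℂ}
    (s1 : ∀ a b c d, Z c d b a = Z a d b c) (s2 : ∀ a b c d, Z c d b a = Z c b d a)
    (hh : ∀ c d, (Z c d)ᴴ = Z d c) (ht : ∀ c d, (Z c d).trace = if c = d then -1 else 0) :
    (2 / 3 : ℝ) ≤ (pd (Z 0 0) (Z 1 1) - pd (Z 0 1) (Z 1 0)).re := by
  have hh' : ∀ a b c d, conj (Z c d a b) = Z d c b a := fun a b c d => by
    rw [← hh c d, Matrix.conjTranspose_apply]; rfl
  have t00 := ht 0 0
  have t11 := ht 1 1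
  have t01 := ht 0 1
  have t10 := ht 1 0
  simp only [Matrix.trace_fin_two] at t00 t11 t01 t10
  simp only [if_true, Fin.isValue, zero_ne_one, one_ne_zero, if_false] at t00 t11 t01 t10
  have e1 : Z 1 1 0 0 = Z 0 0 1 1 := by rw [s1 0 0 1 1, s2 1 0 0 1, s1]
  have e2 : Z 0 0 0 1 = Z 1 0 0 0 := s1 1 0 0 0
  have e3 : Z 0 0 1 0 = Z 0 1 0 0 := s2 0 1 0 0
  have e4 : Z 1 1 1 0 = Z 0 1 1 1 := s1 0 1 1 1
  have e5 : Z 1 1 0 1 = Z 1 0 1 1 := s2 1 0 1 1
  have e6 : Z 0 1 0 1 = Z 0 0 1 1 := (s1 1 0 0 1).trans e1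
  have e7 : Z 1 0 1 0 = Z 0 0 1 1 := s1 0 1 1 0
  have e8 : Z 1 0 0 1 = conj (Z 0 1 1 0) := (hh' 1 0 0 1).symm
  have e9 : Z 1 0 0 0 = conj (Z 0 1 0 0) := (hh' 0 0 0 1).symm
  have e10 : Z 0 1 1 1 = - Z 0 1 0 0 := by linear_combination t01
  have e11 : Z 1 0 1 1 = - conj (Z 0 1 0 0) := by rw [← e9]; linear_combination t10
  have e12 : Z 0 0 1 1 = -1 - Z 0 0 0 0 := by linear_combination t00
  have e13 : Z 1 1 1 1 = Z 0 0 0 0 := by
    have : Z 1 1 1 1 = -1 - Z 1 1 0 0 := by linear_combination t11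
    rw [this, e1, e12]; ring
  have eA : Z 0 0 0 0 = ((Z 0 0 0 0).re : ℂ) := (Complex.conj_eq_iff_real.1 (hh' 0 0 0 0)).elim
    fun r hr => by rw [hr, ofReal_re]
  have key : pd (Z 0 0) (Z 1 1) - pd (Z 0 1) (Z 1 0) = (((Z 0 0 0 0).re ^ 2
      + 2 * (1 + (Z 0 0 0 0).re) ^ 2 + 4 * normSq (Z 0 1 0 0) + normSq (Z 0 1 1 0) : ℝ) : ℂ) := by
    unfold pd
    rw [e2, e3, e4, e5, e6, e7, e8, e9, e10, e11, e13, e1, e12]
    push_cast
    rw [Complex.normSq_eq_conj_mul_self, Complex.normSq_eq_conj_mul_self, ← eA]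
    ring
  rw [key, ofReal_re]
  nlinarith [Complex.normSq_nonneg (Z 0 1 0 0), Complex.normSq_nonneg (Z 0 1 1 0),
    sq_nonneg ((Z 0 0 0 0).re + 2 / 3)]

/-! ### reduction to `K = 1` -/

/-- transformation of all four indices -/
def tf (M : Matrix (Fin 2) (Fin 2) ℂ) (X : Fin 2 → Fin 2 → Matrix (Fin 2) (Fin 2) ℂ)
    (c d : Fin 2) : Matrix (Fin 2) (Fin 2) ℂ :=
  ∑ r, ∑ s, (M r c * conj (M s d)) • (Mᴴ * X r s * M)

theorem tf_apply (M : Matrix (Fin 2) (Fin 2) ℂ) (X : Fin 2 → Fin 2 → Matrix (Fin 2) (Fin 2) ℂ)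
    (a b c d : Fin 2) : tf M X c d b a = ∑ r, ∑ s, ∑ q, ∑ p,
      M r c * conj (M s d) * conj (M q b) * M p a * X r s q p := by
  simp only [tf, Fin.sum_univ_two, Matrix.add_apply, Matrix.smul_apply, smul_eq_mul,
    Matrix.mul_apply, Matrix.conjTranspose_apply, RCLike.star_def]
  ring

theorem tf_pd (M : Matrix (Fin 2) (Fin 2) ℂ) (X : Fin 2 → Fin 2 → Matrix (Fin 2) (Fin 2) ℂ) :
    pd (tf M X 0 0) (tf M X 1 1) - pd (tf M X 0 1) (tf M X 1 0)
      = (M.det * conj M.det) ^ 2 * (pd (X 0 0) (X 1 1) - pd (X 0 1) (X 1 0)) := by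
  have h1 : ∀ r s r' s', pd (Mᴴ * X r s * M) (Mᴴ * X r' s' * M)
      = conj M.det * M.det * pd (X r s) (X r' s') := fun r s r' s' => by
    rw [pd_mul, Matrix.det_conjTranspose]; rfl
  simp only [tf, Fin.sum_univ_two, pd_add, add_pd, pd_smul, smul_pd, h1]
  rw [pd_comm (X 0 1) (X 0 0), pd_comm (X 1 0) (X 0 0), pd_comm (X 1 1) (X 0 0),
    pd_comm (X 1 0) (X 0 1), pd_comm (X 1 1) (X 0 1), pd_comm (X 1 1) (X 1 0)]
  simp only [Matrix.det_fin_two, map_sub, map_mul]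
  ring

open scoped MatrixOrder in
theorem exists_fac {κ : Type} [Fintype κ] [DecidableEq κ] {m : Matrix κ κ ℂ}
    (h : m.PosSemidef) : ∃ B : Matrix κ κ ℂ, m = Bᴴ * B := by
  obtain ⟨B, hB⟩ := CStarAlgebra.nonneg_iff_eq_star_mul_self.mp h.nonneg
  exact ⟨B, hB⟩

theorem einstein_ge {K : Cn 2 → Matrix (Fin 2) (Fin 2) ℂ} {z : Cn 2}
    (hK : ∀ᶠ y in 𝓝 z, SmM y K) (hh : ∀ᶠ y in 𝓝 z, (K y).IsHermitian) (hp : (K z).PosDef)
    (hk : ∀ᶠ y in 𝓝 z, KahAt K y) (hE : ∀ a b, ric K z a b = - K z b a) :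
    2 / 3 * (K z).det.re ≤ (c2 K z).re := by
  have hKz := hK.self_of_nhds
  obtain ⟨B, hB⟩ := exists_fac hp.posSemidef
  have hdet : 0 < (K z).det := hp.det_pos
  have hB0 : B.det ≠ 0 := by
    intro h0
    rw [hB, Matrix.det_mul, h0, mul_zero] at hdet
    exact lt_irrefl _ hdet
  set M := B⁻¹ with hM
  have i1 : B * M = 1 := Matrix.mul_nonsing_inv _ (isUnit_iff_ne_zero.2 hB0)
  have i2 : M * B = 1 := Matrix.nonsing_inv_mul _ (isUnit_iff_ne_zero.2 hB0)
  have i3 : Mᴴ * Bᴴ = 1 := by rw [← Matrix.conjTranspose_mul, i1, Matrix.conjTranspose_one]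
  have hMK : Mᴴ * K z * M = 1 := by
    rw [hB, ← Matrix.mul_assoc, i3, Matrix.one_mul, i1]
  have hMM : M * Mᴴ = (K z)⁻¹ := by
    refine (Matrix.inv_eq_right_inv ?_).symm
    rw [hB]
    calc Bᴴ * B * (M * Mᴴ) = Bᴴ * (B * M) * Mᴴ := by simp only [Matrix.mul_assoc]
      _ = Bᴴ * Mᴴ := by rw [i1, Matrix.mul_one]
      _ = (M * B)ᴴ := by rw [Matrix.conjTranspose_mul]
      _ = 1 := by rw [i2, Matrix.conjTranspose_one]
  have x1 : ∀ s q, rm K z 0 s q 1 = rm K z 1 s q 0 := fun s q => rm_hol hKz hk 1 q 0 s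
  have x2 : ∀ r p, rm K z r 0 1 p = rm K z r 1 0 p := fun r p => rm_bar hKz hk p 1 r 0
  have x3 : ∀ r s, (rm K z r s)ᴴ = rm K z s r := fun r s => rm_herm hK hh r s
  have s1 : ∀ a b c d, tf M (rm K z) c d b a = tf M (rm K z) a d b c := by
    intro a b c d
    rw [tf_apply, tf_apply]
    simp only [Fin.sum_univ_two, x1]
    ring
  have s2 : ∀ a b c d, tf M (rm K z) c d b a = tf M (rm K z) c b d a := by
    intro a b c d
    rw [tf_apply, tf_apply]
    simp only [Fin.sum_univ_two, x2]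
    ring
  have s3 : ∀ c d, (tf M (rm K z) c d)ᴴ = tf M (rm K z) d c := by
    intro c d
    have e : ∀ r s, (Mᴴ * rm K z r s * M)ᴴ = Mᴴ * rm K z s r * M := fun r s => by
      rw [Matrix.conjTranspose_mul, Matrix.conjTranspose_mul, Matrix.conjTranspose_conjTranspose,
        x3, ← Matrix.mul_assoc]
    simp only [tf, Fin.sum_univ_two, Matrix.conjTranspose_add, Matrix.conjTranspose_smul, e,
      star_mul', RCLike.star_def, Complex.conj_conj]
    simp only [mul_comm (conj (M _ c)) (M _ d)]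
    abel
  have s4 : ∀ c d, (tf M (rm K z) c d).trace = if c = d then -1 else 0 := by
    intro c d
    have e : ∀ r s, (Mᴴ * rm K z r s * M).trace = - K z s r := fun r s => by
      rw [Matrix.mul_assoc, Matrix.trace_mul_comm, Matrix.mul_assoc, hMM, Matrix.trace_mul_comm]
      exact hE r s
    have h1 : (tf M (rm K z) c d).trace = - (Mᴴ * K z * M) d c := by
      simp only [tf, Fin.sum_univ_two, Matrix.trace_add, Matrix.trace_smul, e, smul_eq_mul,
        Matrix.mul_apply, Matrix.conjTranspose_apply, RCLike.star_def]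
      ring
    rw [h1, hMK, Matrix.one_apply]
    by_cases hcd : c = d
    · rw [if_pos hcd, if_pos hcd.symm]
    · rw [if_neg hcd, if_neg fun h => hcd h.symm, neg_zero]
  have h5 := quad_ge s1 s2 s3 s4
  rw [tf_pd] at h5
  have hdM : (M.det * conj M.det) * (K z).det = 1 := by
    have := congrArg Matrix.det hMK
    rw [Matrix.det_mul, Matrix.det_mul, Matrix.det_conjTranspose, Matrix.det_one] at this
    rw [← this]
    simp only [RCLike.star_def]
    ring
  have hdre : (K z).det = ((K z).det.re : ℂ) :=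
    Complex.ext (by simp) (by simpa using (Complex.lt_def.1 hdet).2.symm)
  have hd0 : 0 < (K z).det.re := (Complex.lt_def.1 hdet).1
  have h6 : (M.det * conj M.det) ^ 2 * (pd (rm K z 0 0) (rm K z 1 1)
      - pd (rm K z 0 1) (rm K z 1 0)) = (((K z).det.re)⁻¹ : ℝ) * c2 K z := by
    have e1 : M.det * conj M.det = ((K z).det)⁻¹ := eq_inv_of_mul_eq_one_left hdM
    rw [e1, c2, Complex.ofReal_inv, ← hdre]
    have : (K z).det ≠ 0 := hdet.ne'
    field_simp
  rw [h6, Complex.re_ofReal_mul] at h5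
  have h7 : (K z).det.re * (2 / 3) ≤ (K z).det.re * (((K z).det.re)⁻¹ * (c2 K z).re) :=
    mul_le_mul_of_nonneg_left h5 hd0.le
  rw [mul_inv_cancel_left₀ hd0.ne'] at h7
  linarith

end

end Crest.Agent.R257.C2F3_625
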