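import Crest.Agent.R257.C2F3_625

/-!
# R257 (S0395), part (GB) (helper335): the second Chern form under coordinate changes and twists

* `Jac T y a c`  : `∂T_a/∂z_c`
* `dS_hol`, `dS_bar` : chain rules for `∂_c`, `∂_{d̄}` with a holomorphic map
* `rm_comp`    : the lowered curvature of `K ∘ T`
* `c2_comp`    : `c2 (K ∘ T) z = |det T'(z)|² c2 K (T z)`
-/

set_option autoImplicit false
set_option linter.unusedSectionVars false
set_option linter.unusedSimpArgs false

open Finset Matrix Complex Filter Topology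
open scoped ContDiff ComplexConjugate ComplexOrder

namespace Crest.Agent.R257.C2F4_335

open Crest.Agent.R275.Geo Crest.Agent.R275.EDR890
open Crest.Agent.R273.Fock_243 Crest.Agent.R273.Calc_243
open Crest.Agent.R273.Bkn_243 Crest.Agent.R273.Pos_243 Crest.Agent.R273.BochA_101
open Crest.Agent.R273.BochB_101
open Crest.Agent.R273.BochC_101 Crest.Agent.R273.BochD_101
open Crest.Agent.R273.Hess_333 Crest.Agent.R273.HessB_333
open Crest.Agent.R257.C2F1_625 Crest.Agent.R257.C2F2_625 Crest.Agent.R257.C2F3_625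

noncomputable section

variable {n : ℕ}

/-- the Jacobian matrix `∂T_a/∂z_c` -/
def Jac (T : Cn n → Cn n) (y : Cn n) : Matrix (Fin n) (Fin n) ℂ :=
  Matrix.of fun a c => (fderiv ℂ T y (EuclideanSpace.single c 1)) a

theorem dS_hol {f : Cn n → ℂ} {T : Cn n → Cn n} {z : Cn n}
    (hf : DifferentiableAt ℝ f (T z)) (hT : DifferentiableAt ℂ T z) (c : Fin n) :
    dS (-I) c (fun y => f (T y)) z = ∑ a, Jac T z a c * dS (-I) a f (T z) := by
  have h := wd_comp (f := f) hf hT (false, c)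
  simp only [smul_eq_mul, cj_false] at h
  exact h

theorem dS_bar {f : Cn n → ℂ} {T : Cn n → Cn n} {z : Cn n}
    (hf : DifferentiableAt ℝ f (T z)) (hT : DifferentiableAt ℂ T z) (d : Fin n) :
    dS I d (fun y => f (T y)) z = ∑ b, conj (Jac T z b d) * dS I b f (T z) := by
  have h := wd_comp (f := f) hf hT (true, d)
  simp only [smul_eq_mul, cj_true] at h
  exact h

theorem T_sm {T : Cn n → Cn n} {z : Cn n} (hT : ∀ᶠ y in 𝓝 z, DifferentiableAt ℂ T y) :
    ContDiffAt ℝ ∞ T z := by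
  obtain ⟨U, hU, hUo, hUz⟩ := eventually_nhds_iff.1 hT
  have h1 : DifferentiableOn ℂ T U := fun w hw => (hU w hw).differentiableWithinAt
  exact (((Crest.Agent.R266.SCV.contDiffOn_omega_of_differentiableOn hUo h1).restrict_scalars
    ℝ).of_le le_top).contDiffAt (hUo.mem_nhds hUz)

theorem J_hol {T : Cn n → Cn n} {z : Cn n} (hT : ∀ᶠ y in 𝓝 z, DifferentiableAt ℂ T y)
    (a c : Fin n) : ∀ᶠ y in 𝓝 z, DifferentiableAt ℂ (fun w => Jac T w a c) y := by
  obtain ⟨U, hU, hUo, hUz⟩ := eventually_nhds_iff.1 hT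
  have h2 : DifferentiableOn ℂ T U := fun w hw => (hU w hw).differentiableWithinAt
  have h3 : AnalyticOnNhd ℂ (fderiv ℂ T) U :=
    (Crest.Agent.R266.SCV.analyticOnNhd_of_differentiableOn hUo h2).fderiv
  have h5 : DifferentiableOn ℂ (fun w => (fderiv ℂ T w (EuclideanSpace.single c 1))) U :=
    h3.differentiableOn.clm_apply (differentiableOn_const _)
  have h4 : DifferentiableOn ℂ (fun w => Jac T w a c) U :=
    ((EuclideanSpace.proj a : Cn n →L[ℂ] ℂ).differentiable).comp_differentiableOn h5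
  filter_upwards [hUo.mem_nhds hUz] with y hy
  exact h4.differentiableAt (hUo.mem_nhds hy)

/-- a holomorphic function is killed by `∂̄` -/
theorem dS_I_hol {g : Cn n → ℂ} {z : Cn n} (hg : DifferentiableAt ℂ g z) (a : Fin n) :
    dS I a g z = 0 := by
  have h7 : fderiv ℝ g z = (fderiv ℂ g z).restrictScalars ℝ := hg.fderiv_restrictScalars ℝ
  have hI : (EuclideanSpace.single a I : Cn n) = I • EuclideanSpace.single a (1 : ℂ) := by
    ext c
    simp [PiLp.single_apply]
  rw [dS, h7]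
  simp only [ContinuousLinearMap.coe_restrictScalars', hI, map_smul, smul_eq_mul]
  linear_combination ((1 : ℂ) / 2 * (fderiv ℂ g z) (EuclideanSpace.single a 1)) * I_sq

theorem dS_conj_hol {g : Cn n → ℂ} {z : Cn n} (hg : DifferentiableAt ℂ g z) (a : Fin n) :
    dS (-I) a (fun y => conj (g y)) z = 0 := by
  rw [dS_conj (hg.restrictScalars ℝ)]
  simp [dS_I_hol hg]

/-- second mixed derivative of a composition -/
theorem dS2_comp {f : Cn n → ℂ} {T : Cn n → Cn n} {z : Cn n} (hf : Sm (T z) f)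
    (hT : ∀ᶠ y in 𝓝 z, DifferentiableAt ℂ T y) (c d : Fin n) :
    dS (-I) c (dS I d (fun y => f (T y))) z
      = ∑ a, ∑ b, Jac T z a c * conj (Jac T z b d) * dS (-I) a (dS I b f) (T z) := by
  have hTz := hT.self_of_nhds
  have hev : ∀ᶠ y in 𝓝 z, DifferentiableAt ℝ f (T y) :=
    hTz.continuousAt.eventually (ev_diff hf)
  have h1 : dS I d (fun y => f (T y)) =ᶠ[𝓝 z] fun y => ∑ b, conj (Jac T y b d) * dS I b f (T y) := by
    filter_upwards [hT, hev] with y h1 h2
    exact dS_bar h2 h1 d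
  rw [dS_congr h1]
  have hJd : ∀ b, DifferentiableAt ℝ (fun y => conj (Jac T y b d)) z := fun b =>
    (conjCLE : ℂ →L[ℝ] ℂ).differentiableAt.comp z
      (((J_hol hT b d).self_of_nhds).restrictScalars ℝ)
  have hf2 : ∀ b, DifferentiableAt ℝ (dS I b f) (T z) := fun b => (hf.dS I b).diff
  have hfT : ∀ b, DifferentiableAt ℝ (fun y => dS I b f (T y)) z := fun b =>
    (hf2 b).comp z (hTz.restrictScalars ℝ)
  rw [dS_sum univ (f := fun b y => conj (Jac T y b d) * dS I b f (T y))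
    fun b _ => (hJd b).mul (hfT b)]
  rw [Finset.sum_comm]
  refine Finset.sum_congr rfl fun b _ => ?_
  rw [dS_mul (hJd b) (hfT b), dS_conj_hol (J_hol hT b d).self_of_nhds, zero_mul, zero_add,
    dS_hol (f := dS I b f) (hf2 b) hTz, Finset.mul_sum]
  refine Finset.sum_congr rfl fun a _ => ?_
  ring

section

variable {κ : Type} [Fintype κ] [DecidableEq κ]

theorem dM_hol {K : Cn n → Matrix κ κ ℂ} {T : Cn n → Cn n} {z : Cn n} (hK : SmM (T z) K)
    (hT : DifferentiableAt ℂ T z) (c : Fin n) :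
    dM (-I) c (fun y => K (T y)) z = ∑ a, Jac T z a c • dM (-I) a K (T z) := by
  ext i j
  rw [Matrix.sum_apply]
  exact dS_hol (hK i j).diff hT c

theorem dM_bar {K : Cn n → Matrix κ κ ℂ} {T : Cn n → Cn n} {z : Cn n} (hK : SmM (T z) K)
    (hT : DifferentiableAt ℂ T z) (d : Fin n) :
    dM I d (fun y => K (T y)) z = ∑ b, conj (Jac T z b d) • dM I b K (T z) := by
  ext i j
  rw [Matrix.sum_apply]
  exact dS_bar (hK i j).diff hT d

theorem dM2_comp {K : Cn n → Matrix κ κ ℂ} {T : Cn n → Cn n} {z : Cn n} (hK : SmM (T z) K)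
    (hT : ∀ᶠ y in 𝓝 z, DifferentiableAt ℂ T y) (c d : Fin n) :
    dM (-I) c (dM I d (fun y => K (T y))) z
      = ∑ a, ∑ b, (Jac T z a c * conj (Jac T z b d)) • dM (-I) a (dM I b K) (T z) := by
  ext i j
  simp only [Matrix.sum_apply, Matrix.smul_apply, smul_eq_mul]
  exact dS2_comp (hK i j) hT c d

/-- curvature of a pull-back -/
theorem rm_comp {K : Cn n → Matrix κ κ ℂ} {T : Cn n → Cn n} {z : Cn n} (hK : SmM (T z) K)
    (hT : ∀ᶠ y in 𝓝 z, DifferentiableAt ℂ T y) (c d : Fin n) :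
    rm (fun y => K (T y)) z c d
      = ∑ a, ∑ b, (Jac T z a c * conj (Jac T z b d)) • rm K (T z) a b := by
  unfold rm
  rw [dM2_comp hK hT, dM_hol hK hT.self_of_nhds, dM_bar hK hT.self_of_nhds]
  have h1 : (∑ b, conj (Jac T z b d) • dM I b K (T z)) * (K (T z))⁻¹ *
      (∑ a, Jac T z a c • dM (-I) a K (T z))
      = ∑ a, ∑ b, (Jac T z a c * conj (Jac T z b d)) •
        (dM I b K (T z) * (K (T z))⁻¹ * dM (-I) a K (T z)) := by
    rw [Finset.mul_sum]
    refine Finset.sum_congr rfl fun a _ => ?_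
    rw [Finset.sum_mul, Finset.sum_mul]
    refine Finset.sum_congr rfl fun b _ => ?_
    rw [Matrix.smul_mul, Matrix.smul_mul, Matrix.mul_smul, smul_smul, mul_comm]
  rw [h1]
  simp only [smul_add, smul_neg, Finset.sum_add_distrib, Finset.sum_neg_distrib]

end

/-- the quadratic expression of `c2` -/
def qd (R : Fin 2 → Fin 2 → Matrix (Fin 2) (Fin 2) ℂ) : ℂ :=
  pd (R 0 0) (R 1 1) - pd (R 0 1) (R 1 0)

theorem c2_eq_qd (H : Cn 2 → Matrix (Fin 2) (Fin 2) ℂ) (z : Cn 2) :
    c2 H z = qd (rm H z) / (H z).det := rfl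

theorem qd_comp (R : Fin 2 → Fin 2 → Matrix (Fin 2) (Fin 2) ℂ) (P Q : Matrix (Fin 2) (Fin 2) ℂ) :
    qd (fun c d => ∑ a, ∑ b, (P a c * Q b d) • R a b) = P.det * Q.det * qd R := by
  simp only [qd, pd, Fin.sum_univ_two, Matrix.add_apply, Matrix.smul_apply, smul_eq_mul,
    Matrix.det_fin_two]
  ring

theorem c2_comp {H : Cn 2 → Matrix (Fin 2) (Fin 2) ℂ} {T : Cn 2 → Cn 2} {z : Cn 2}
    (hH : SmM (T z) H) (hT : ∀ᶠ y in 𝓝 z, DifferentiableAt ℂ T y) :
    c2 (fun y => H (T y)) z = (Jac T z).det * conj (Jac T z).det * c2 H (T z) := by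
  have h1 : rm (fun y => H (T y)) z
      = fun c d => ∑ a, ∑ b, (Jac T z a c * ((Jac T z).map conj) b d) • rm H (T z) a b := by
    funext c d
    exact rm_comp hH hT c d
  have h2 : ((Jac T z).map conj).det = conj (Jac T z).det := by
    have := (RingHom.map_det (starRingEnd ℂ) (Jac T z)).symm
    simpa [RingHom.mapMatrix_apply] using this
  rw [c2_eq_qd, h1, qd_comp, c2_eq_qd, h2]
  ring

end

end Crest.Agent.R257.C2F4_335
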