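import Crest.Agent.R257.C2F3_625

/-!
# R257 (S0395), part (GB), leaf GB-LIM (helper625): coordinate changes and twists

* `rm_comp`  : curvature of `H ∘ T`, `T` holomorphic
* `c2_comp`  : `c₂ (H ∘ T) = |det T'|² (c₂ H) ∘ T`
* `rm_twist`, `c2_twist` : the metric `e^{-φ} H`
-/

set_option autoImplicit false
set_option linter.unusedSectionVars false
set_option linter.unusedSimpArgs false

open Finset Matrix Complex Filter Topology
open scoped ContDiff ComplexConjugate ComplexOrder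

namespace Crest.Agent.R257.C2F4_625

open Crest.Agent.R275.Geo Crest.Agent.R275.EDR890
open Crest.Agent.R273.Fock_243 Crest.Agent.R273.Calc_243
open Crest.Agent.R273.Bkn_243 Crest.Agent.R273.Pos_243 Crest.Agent.R273.BochA_101
open Crest.Agent.R273.BochB_101
open Crest.Agent.R273.BochC_101 Crest.Agent.R273.BochD_101
open Crest.Agent.R273.Hess_333 Crest.Agent.R273.HessB_333
open Crest.Agent.R257.C2F1_625 Crest.Agent.R257.C2F2_625

noncomputable section

variable {n : ℕ} {κ : Type} [Fintype κ] [DecidableEq κ]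

/-- Jacobian entries: `JT T z b a = ∂ T_b / ∂ z_a` -/
def JT (T : Cn n → Cn n) (z : Cn n) (b a : Fin n) : ℂ :=
  (fderiv ℂ T z (EuclideanSpace.single a 1)) b

theorem dS_comp_hol {f : Cn n → ℂ} {T : Cn n → Cn n} {z : Cn n}
    (hf : DifferentiableAt ℝ f (T z)) (hT : DifferentiableAt ℂ T z) (a : Fin n) :
    dS (-I) a (fun w => f (T w)) z = ∑ b, JT T z b a * dS (-I) b f (T z) := by
  have h := wd_comp hf hT (false, a)
  simpa only [wd_false, cj_false, smul_eq_mul, JT] using h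

theorem dS_comp_bar {f : Cn n → ℂ} {T : Cn n → Cn n} {z : Cn n}
    (hf : DifferentiableAt ℝ f (T z)) (hT : DifferentiableAt ℂ T z) (a : Fin n) :
    dS I a (fun w => f (T w)) z = ∑ b, conj (JT T z b a) * dS I b f (T z) := by
  have h := wd_comp hf hT (true, a)
  simpa only [wd_tr, cj_true, smul_eq_mul, JT] using h

theorem dS2_cu (f : Cn n → ℂ) {z : Cn n} (hf : Sm z f) (c d : Fin n) :
    dS (-I) c (dS I d f) z = hess (fun y => (f y).re) z c d
      + I * hess (fun y => (f y).im) z c d := by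
  have h1 : ContDiffAt ℝ ∞ (fun y => (f y).re) z := Complex.reCLM.contDiff.contDiffAt.comp z hf
  have h2 : ContDiffAt ℝ ∞ (fun y => (f y).im) z := Complex.imCLM.contDiff.contDiffAt.comp z hf
  have e : f = fun y => cu (fun y => (f y).re) y + I * cu (fun y => (f y).im) y := by
    funext y
    simp only [cu]
    rw [mul_comm I]
    exact (Complex.re_add_im (f y)).symm
  have h3 : Sm z (fun _ : Cn n => I) := contDiffAt_const
  have h4 : dS (-I) c (dS I d (fun y => (fun _ => I) y * cu (fun y => (f y).im) y)) z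
      = I * hess (fun y => (f y).im) z c d := by
    rw [dS2_mul h3 (contDiffAt_cu h2)]
    have z1 : dS (-I) c (dS I d (fun _ : Cn n => I)) z = 0 := by
      have : dS I d (fun _ : Cn n => I) = fun _ => (0 : ℂ) := funext fun _ => dS_const
      rw [this, dS_const]
    rw [z1, dS_const, dS_const, hess_eq]
    ring
  conv_lhs => rw [e]
  rw [dS2_add (contDiffAt_cu h1) (h3.mul (contDiffAt_cu h2)), h4, ← hess_eq]

theorem dS2_comp {f : Cn n → ℂ} {T : Cn n → Cn n} {z : Cn n} (hf : Sm (T z) f)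
    (hT : ∀ᶠ w in 𝓝 z, DifferentiableAt ℂ T w) (c d : Fin n) :
    dS (-I) c (dS I d (fun w => f (T w))) z
      = ∑ a, ∑ b, JT T z a c * conj (JT T z b d) * dS (-I) a (dS I b f) (T z) := by
  have h1 : ContDiffAt ℝ ∞ (fun y => (f y).re) (T z) :=
    Complex.reCLM.contDiff.contDiffAt.comp _ hf
  have h2 : ContDiffAt ℝ ∞ (fun y => (f y).im) (T z) :=
    Complex.imCLM.contDiff.contDiffAt.comp _ hf
  have hTs : ContDiffAt ℝ ∞ T z := by
    obtain ⟨U, hU, hUo, hUz⟩ := eventually_nhds_iff.1 hT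
    have h1 : DifferentiableOn ℂ T U := fun w hw => (hU w hw).differentiableWithinAt
    exact (((Crest.Agent.R266.SCV.contDiffOn_omega_of_differentiableOn hUo h1).restrict_scalars
      ℝ).of_le le_top).contDiffAt (hUo.mem_nhds hUz)
  have hfT : Sm z (fun w => f (T w)) := hf.comp z hTs
  rw [dS2_cu _ hfT, hess_comp (u := fun y => (f y).re) h1 hT, hess_comp (u := fun y => (f y).im) h2 hT,
    Finset.mul_sum, ← Finset.sum_add_distrib]
  refine Finset.sum_congr rfl fun a _ => ?_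
  rw [Finset.mul_sum, ← Finset.sum_add_distrib]
  refine Finset.sum_congr rfl fun b _ => ?_
  rw [dS2_cu f hf, JT, JT]
  ring

theorem dM_comp_hol {H : Cn n → Matrix κ κ ℂ} {T : Cn n → Cn n} {z : Cn n}
    (hH : SmM (T z) H) (hT : DifferentiableAt ℂ T z) (a : Fin n) :
    dM (-I) a (fun w => H (T w)) z = ∑ b, JT T z b a • dM (-I) b H (T z) := by
  ext i j
  rw [Matrix.sum_apply]
  exact dS_comp_hol (hH i j).diff hT a

theorem dM_comp_bar {H : Cn n → Matrix κ κ ℂ} {T : Cn n → Cn n} {z : Cn n}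
    (hH : SmM (T z) H) (hT : DifferentiableAt ℂ T z) (a : Fin n) :
    dM I a (fun w => H (T w)) z = ∑ b, conj (JT T z b a) • dM I b H (T z) := by
  ext i j
  rw [Matrix.sum_apply]
  exact dS_comp_bar (hH i j).diff hT a

theorem dM2_comp {H : Cn n → Matrix κ κ ℂ} {T : Cn n → Cn n} {z : Cn n}
    (hH : SmM (T z) H) (hT : ∀ᶠ w in 𝓝 z, DifferentiableAt ℂ T w) (c d : Fin n) :
    dM (-I) c (dM I d (fun w => H (T w))) z
      = ∑ a, ∑ b, (JT T z a c * conj (JT T z b d)) • dM (-I) a (dM I b H) (T z) := by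
  ext i j
  rw [Matrix.sum_apply]
  simp only [Matrix.sum_apply, Matrix.smul_apply, smul_eq_mul]
  exact dS2_comp (hH i j) hT c d

/-- curvature of a pulled back metric -/
theorem rm_comp {H : Cn n → Matrix κ κ ℂ} {T : Cn n → Cn n} {z : Cn n}
    (hH : SmM (T z) H) (hT : ∀ᶠ w in 𝓝 z, DifferentiableAt ℂ T w) (c d : Fin n) :
    rm (fun w => H (T w)) z c d
      = ∑ a, ∑ b, (JT T z a c * conj (JT T z b d)) • rm H (T z) a b := by
  have hTz := hT.self_of_nhds
  unfold rm
  rw [dM2_comp hH hT, dM_comp_bar hH hTz, dM_comp_hol hH hTz]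
  simp only [smul_add, smul_neg, Finset.sum_add_distrib, Finset.sum_neg_distrib]
  congr 1
  rw [Finset.sum_mul, Finset.sum_mul, Finset.sum_comm]
  refine Finset.sum_congr rfl fun b _ => ?_
  rw [Finset.mul_sum]
  refine Finset.sum_congr rfl fun a _ => ?_
  rw [Matrix.smul_mul, Matrix.smul_mul, Matrix.mul_smul, smul_smul, mul_comm]

theorem pd_sum_J (J : Fin 2 → Fin 2 → ℂ) (X : Fin 2 → Fin 2 → Matrix (Fin 2) (Fin 2) ℂ) :
    pd (∑ a, ∑ b, (J a 0 * conj (J b 0)) • X a b) (∑ a, ∑ b, (J a 1 * conj (J b 1)) • X a b)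
      - pd (∑ a, ∑ b, (J a 0 * conj (J b 1)) • X a b) (∑ a, ∑ b, (J a 1 * conj (J b 0)) • X a b)
      = ((Matrix.of J).det * conj (Matrix.of J).det) * (pd (X 0 0) (X 1 1) - pd (X 0 1) (X 1 0)) := by
  simp only [Fin.sum_univ_two, pd_add, add_pd, pd_smul, smul_pd]
  rw [pd_comm (X 0 1) (X 0 0), pd_comm (X 1 0) (X 0 0), pd_comm (X 1 1) (X 0 0),
    pd_comm (X 1 0) (X 0 1), pd_comm (X 1 1) (X 0 1), pd_comm (X 1 1) (X 1 0)]
  simp only [Matrix.det_fin_two, map_sub, map_mul, Matrix.of_apply]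
  ring

theorem c2_comp {H : Cn 2 → Matrix (Fin 2) (Fin 2) ℂ} {T : Cn 2 → Cn 2} {z : Cn 2}
    (hH : SmM (T z) H) (hT : ∀ᶠ w in 𝓝 z, DifferentiableAt ℂ T w) :
    c2 (fun w => H (T w)) z
      = ((Matrix.of (JT T z)).det * conj (Matrix.of (JT T z)).det) * c2 H (T z) := by
  unfold c2
  rw [rm_comp hH hT, rm_comp hH hT, rm_comp hH hT, rm_comp hH hT, pd_sum_J, mul_div_assoc]

/-! ### twists -/

theorem rm_smul {H : Cn n → Matrix κ κ ℂ} {E : Cn n → ℂ} {z : Cn n} (hH : SmM z H)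
    (hH0 : (H z).det ≠ 0) (hE : Sm z E) (hE0 : E z ≠ 0) (c d : Fin n) :
    rm (fun y => E y • H y) z c d = E z • rm H z c d
      + ((E z)⁻¹ * (dS I d E z * dS (-I) c E z) - dS (-I) c (dS I d E) z) • H z := by
  have i3 : H z * (H z)⁻¹ = 1 := Matrix.mul_nonsing_inv _ (isUnit_iff_ne_zero.2 hH0)
  have i4 : (H z)⁻¹ * H z = 1 := Matrix.nonsing_inv_mul _ (isUnit_iff_ne_zero.2 hH0)
  have hinv : (E z • H z)⁻¹ = (E z)⁻¹ • (H z)⁻¹ := by
    refine Matrix.inv_eq_right_inv ?_
    rw [Matrix.smul_mul, Matrix.mul_smul, smul_smul, i3, mul_inv_cancel₀ hE0, one_smul]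
  have d1 : ∀ (s : ℂ) (a : Fin n), dM s a (fun y => E y • H y) z
      = dS s a E z • H z + E z • dM s a H z := by
    intro s a
    ext i j
    simp only [Matrix.add_apply, Matrix.smul_apply, smul_eq_mul, dM_apply]
    exact dS_mul hE.diff (hH i j).diff
  have d2 : dM (-I) c (dM I d (fun y => E y • H y)) z
      = dS (-I) c (dS I d E) z • H z + dS I d E z • dM (-I) c H z
        + dS (-I) c E z • dM I d H z + E z • dM (-I) c (dM I d H) z := by
    ext i j
    simp only [Matrix.add_apply, Matrix.smul_apply, smul_eq_mul, dM_apply]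
    exact dS2_mul hE (hH i j) _ _ c d
  unfold rm
  rw [d1, d1, d2, hinv]
  have e1 : (dS I d E z • H z + E z • dM I d H z) * (E z)⁻¹ • (H z)⁻¹ *
      (dS (-I) c E z • H z + E z • dM (-I) c H z)
      = ((E z)⁻¹ * (dS I d E z * dS (-I) c E z)) • (H z * (H z)⁻¹ * H z)
        + ((E z)⁻¹ * (dS I d E z * E z)) • (H z * (H z)⁻¹ * dM (-I) c H z)
        + ((E z)⁻¹ * (E z * dS (-I) c E z)) • (dM I d H z * ((H z)⁻¹ * H z))
        + ((E z)⁻¹ * (E z * E z)) • (dM I d H z * (H z)⁻¹ * dM (-I) c H z) := by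
    simp only [Matrix.mul_add, Matrix.add_mul, Matrix.smul_mul, Matrix.mul_smul, smul_smul,
      smul_add, Matrix.mul_assoc]
    module
  have q1 : (E z)⁻¹ * (dS I d E z * E z) = dS I d E z := by field_simp
  have q2 : (E z)⁻¹ * (E z * dS (-I) c E z) = dS (-I) c E z := by field_simp
  have q3 : (E z)⁻¹ * (E z * E z) = E z := by field_simp
  rw [e1, i3, i4, Matrix.one_mul, Matrix.one_mul, Matrix.mul_one, q1, q2, q3]
  module

theorem rm_twist {H : Cn n → Matrix κ κ ℂ} {φ : Cn n → ℝ} {z : Cn n} (hH : SmM z H)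
    (hH0 : (H z).det ≠ 0) (hφ : ContDiffAt ℝ ∞ φ z) (c d : Fin n) :
    rm (fun y => cu (fun y => Real.exp (- φ y)) y • H y) z c d
      = cu (fun y => Real.exp (- φ y)) z • (rm H z c d + hess φ z c d • H z) := by
  have hu : ContDiffAt ℝ ∞ (fun y => Real.exp (- φ y)) z := Real.contDiff_exp.contDiffAt.comp z hφ.neg
  have h0 : (0 : ℝ) < Real.exp (- φ z) := Real.exp_pos _
  have hE0 : cu (fun y => Real.exp (- φ y)) z ≠ 0 := by
    simp only [cu]
    exact_mod_cast h0.ne'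
  rw [rm_smul hH hH0 (contDiffAt_cu hu) hE0]
  have h2 := Crest.Agent.R273.FS_333.hess_log hu h0 c d
  simp only [Real.log_exp] at h2
  have h3 : hess (fun w => - φ w) z c d = - hess φ z c d := by rw [hess_neg hφ]; rfl
  rw [h3, hess_eq (u := fun y => Real.exp (- φ y)), wd_false, wd_tr] at h2
  have h4 : hess φ z c d = -((cu (fun y => Real.exp (- φ y)) z)⁻¹ *
        dS (-I) c (dS I d (cu fun y => Real.exp (- φ y))) z -
      (cu (fun y => Real.exp (- φ y)) z)⁻¹ ^ 2 * (dS (-I) c (cu fun y => Real.exp (- φ y)) z *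
        dS I d (cu fun y => Real.exp (- φ y)) z)) := by
    rw [← neg_eq_iff_eq_neg]
    exact h2
  rw [h4, smul_add, smul_smul]
  congr 2
  field_simp
  ring

/-- the curvature trace against the metric: `tr (H⁻¹ rm H c d) = - ∂∂̄ log det H` -/
theorem c2_twist {H : Cn 2 → Matrix (Fin 2) (Fin 2) ℂ} {φ : Cn 2 → ℝ} {z : Cn 2} (hH : SmM z H)
    (hH0 : (H z).det ≠ 0) (hφ : ContDiffAt ℝ ∞ φ z) :
    c2 (fun y => cu (fun y => Real.exp (- φ y)) y • H y) z
      = c2 H z + (pd (rm H z 0 0) (H z) * hess φ z 1 1 + pd (rm H z 1 1) (H z) * hess φ z 0 0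
          - pd (rm H z 0 1) (H z) * hess φ z 1 0 - pd (rm H z 1 0) (H z) * hess φ z 0 1) / (H z).det
        + (2 * (hess φ z 0 0 * hess φ z 1 1 - hess φ z 0 1 * hess φ z 1 0)) := by
  have h0 : (0 : ℝ) < Real.exp (- φ z) := Real.exp_pos _
  have hE0 : cu (fun y => Real.exp (- φ y)) z ≠ 0 := by
    simp only [cu]
    exact_mod_cast h0.ne'
  unfold c2
  rw [rm_twist hH hH0 hφ, rm_twist hH hH0 hφ, rm_twist hH hH0 hφ, rm_twist hH hH0 hφ]
  beta_reduce
  generalize cu (fun y => Real.exp (- φ y)) z = E at hE0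
  rw [Matrix.det_smul, Fintype.card_fin]
  simp only [pd_smul, smul_pd, pd_add, add_pd]
  have h1 : pd (H z) (H z) = 2 * (H z).det := by
    simp only [pd, Matrix.det_fin_two]; ring
  rw [h1, pd_comm (H z) (rm H z 1 1), pd_comm (H z) (rm H z 1 0)]
  field_simp
  ring

end

end Crest.Agent.R257.C2F4_625
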