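import Crest.Agent.R257.C2F4_335

/-!
# R257 (S0395), part (GB) (helper335): (1,1) forms, `ddm`, `bb`, `c2` under coordinate changes and
twists

* `pbk T b`    : the pull-back `Jᵀ * b (T z) * conj J` of a `(1,1)` form
* `hess_comp'` : `hess (u ∘ T) = pbk T (hess u)`
* `pd_pbk`     : `pd (pbk b) (pbk b') = |det J|² pd b b'`
* `ddm_comp`   : `ddm (pbk T b) z = |det J|² ddm b (T z)`
* `bb_comp`, `bb_frame` : `bb` is a `(1,1)` form
* `rm_twist`, `c2_twist` : curvature and `c2` of `e^{-φ} H`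
* `rm_diag`, `c2_diag` : sums of line bundles
-/

set_option autoImplicit false
set_option linter.unusedSectionVars false
set_option linter.unusedSimpArgs false

open Finset Matrix Complex Filter Topology
open scoped ContDiff ComplexConjugate ComplexOrder

namespace Crest.Agent.R257.C2F5_335

open Crest.Agent.R275.Geo Crest.Agent.R275.EDR890
open Crest.Agent.R273.Fock_243 Crest.Agent.R273.Calc_243
open Crest.Agent.R273.Bkn_243 Crest.Agent.R273.Pos_243 Crest.Agent.R273.BochA_101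
open Crest.Agent.R273.BochB_101
open Crest.Agent.R273.BochC_101 Crest.Agent.R273.BochD_101
open Crest.Agent.R273.Hess_333 Crest.Agent.R273.HessB_333
open Crest.Agent.R257.C2F1_625 Crest.Agent.R257.C2F2_625 Crest.Agent.R257.C2F3_625
open Crest.Agent.R257.C2F4_335

noncomputable section

variable {n : ℕ}

/-- pull-back of a `(1,1)` form -/
def pbk (T : Cn n → Cn n) (b : Cn n → Matrix (Fin n) (Fin n) ℂ) (y : Cn n) :
    Matrix (Fin n) (Fin n) ℂ := (Jac T y)ᵀ * b (T y) * (Jac T y).map conj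

theorem pbk_apply (T : Cn n → Cn n) (b : Cn n → Matrix (Fin n) (Fin n) ℂ) (y : Cn n)
    (c d : Fin n) : pbk T b y c d = ∑ i, ∑ j, Jac T y i c * (conj (Jac T y j d) * b (T y) i j) := by
  simp only [pbk, Matrix.mul_apply, Matrix.transpose_apply, Matrix.map_apply, Finset.sum_mul]
  rw [Finset.sum_comm]
  refine Finset.sum_congr rfl fun i _ => Finset.sum_congr rfl fun j _ => ?_
  ring

theorem hess_comp' {u : Cn n → ℝ} {T : Cn n → Cn n} {z : Cn n} (hu : ContDiffAt ℝ ∞ u (T z))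
    (hT : ∀ᶠ w in 𝓝 z, DifferentiableAt ℂ T w) :
    hess (fun w => u (T w)) z = pbk T (hess u) z := by
  ext a b
  rw [hess_comp hu hT, pbk_apply]
  refine Finset.sum_congr rfl fun i _ => Finset.sum_congr rfl fun j _ => ?_
  simp only [Jac, Matrix.of_apply]
  ring

theorem det_mc (m : Matrix (Fin n) (Fin n) ℂ) : (m.map conj).det = conj m.det := by
  rw [← RingHom.mapMatrix_apply, ← RingHom.map_det]

theorem pd_pbk (T : Cn 2 → Cn 2) (b b' : Cn 2 → Matrix (Fin 2) (Fin 2) ℂ) (z : Cn 2) :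
    pd (pbk T b z) (pbk T b' z) = (Jac T z).det * conj (Jac T z).det * pd (b (T z)) (b' (T z)) := by
  unfold pbk
  rw [pd_mul, Matrix.det_transpose, det_mc]

theorem J_eq_dS {T : Cn n → Cn n} {z : Cn n} (hT : ∀ᶠ y in 𝓝 z, DifferentiableAt ℂ T y)
    (a c : Fin n) : (fun y => Jac T y a c) =ᶠ[𝓝 z] dS (-I) c (fun y => T y a) := by
  filter_upwards [hT] with y hy
  have h1 : DifferentiableAt ℂ (fun w => T w a) y :=
    ((EuclideanSpace.proj a : Cn n →L[ℂ] ℂ).differentiableAt).comp y hy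
  have h2 := dS_hol (f := fun w => w a) (T := T) (z := y)
    (((EuclideanSpace.proj a : Cn n →L[ℂ] ℂ).restrictScalars ℝ).differentiableAt) hy c
  rw [show dS (-I) c (fun y => T y a) y = _ from h2]
  have h3 : ∀ b, dS (-I) b (fun w : Cn n => w a) (T y) = if b = a then 1 else 0 := by
    intro b
    have h4 : fderiv ℝ (fun w : Cn n => w a) (T y)
        = (EuclideanSpace.proj a : Cn n →L[ℂ] ℂ).restrictScalars ℝ :=
      ((EuclideanSpace.proj a : Cn n →L[ℂ] ℂ).restrictScalars ℝ).fderiv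
    rw [dS, h4]
    by_cases h : b = a
    · subst h
      have e1 : (EuclideanSpace.proj b : Cn n →L[ℂ] ℂ) (EuclideanSpace.single b (1 : ℂ)) = 1 := by
        simp
      have e2 : (EuclideanSpace.proj b : Cn n →L[ℂ] ℂ) (EuclideanSpace.single b I) = I := by
        simp
      simp only [ContinuousLinearMap.coe_restrictScalars', e1, e2, if_pos]
      linear_combination (-(1 : ℂ) / 2) * I_sq
    · have h' : a ≠ b := fun e => h e.symm
      simp [h, h', PiLp.single_apply]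
  simp [h3]

theorem J_symm {T : Cn n → Cn n} {z : Cn n} (hT : ∀ᶠ y in 𝓝 z, DifferentiableAt ℂ T y)
    (a c d : Fin n) : dS (-I) d (fun y => Jac T y a c) z = dS (-I) c (fun y => Jac T y a d) z := by
  have hTa : Sm z (fun y => T y a) :=
    ((EuclideanSpace.proj a : Cn n →L[ℂ] ℂ).restrictScalars ℝ).contDiff.contDiffAt.comp z (T_sm hT)
  rw [dS_congr (J_eq_dS hT a c), dS_congr (J_eq_dS hT a d), dS_comm hTa]

/-- second derivative of one term of a pull-back -/
theorem dS2_term {f g β : Cn n → ℂ} {T : Cn n → Cn n} {z : Cn n}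
    (hf : ∀ᶠ y in 𝓝 z, DifferentiableAt ℂ f y) (hg : ∀ᶠ y in 𝓝 z, DifferentiableAt ℂ g y)
    (hβ : Sm (T z) β) (hT : ∀ᶠ y in 𝓝 z, DifferentiableAt ℂ T y) (c d : Fin n) :
    dS (-I) c (dS I d (fun y => f y * (conj (g y) * β (T y)))) z =
      dS (-I) c f z * (conj (dS (-I) d g z) * β (T z)
        + conj (g z) * ∑ b, conj (Jac T z b d) * dS I b β (T z))
      + f z * (conj (dS (-I) d g z) * (∑ a, Jac T z a c * dS (-I) a β (T z))
        + conj (g z) * ∑ a, ∑ b, Jac T z a c * conj (Jac T z b d) * dS (-I) a (dS I b β) (T z)) := by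
  have hfs : Sm z f := sm_of_hol hf
  have hgs : Sm z g := sm_of_hol hg
  have hgc : Sm z (fun y => conj (g y)) := conjCLE.contDiff.contDiffAt.comp z hgs
  have hβT : Sm z (fun y => β (T y)) := hβ.comp z (T_sm hT)
  have hTz := hT.self_of_nhds
  have z1 : dS I d f =ᶠ[𝓝 z] fun _ => 0 := hf.mono fun y hy => dS_I_hol hy d
  have z2 : dS (-I) c (dS I d f) z = 0 := by
    rw [dS_congr z1]; exact dS_const
  have z3 : dS (-I) c (fun y => conj (g y)) =ᶠ[𝓝 z] fun _ => 0 :=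
    hg.mono fun y hy => dS_conj_hol hy c
  have z4 : dS (-I) c (dS I d (fun y => conj (g y))) z = 0 := by
    rw [dS_comm hgc, dS_congr z3]; exact dS_const
  have e1 : dS I d (fun y => conj (g y)) z = conj (dS (-I) d g z) := by
    rw [dS_conj hgs.diff]; simp
  rw [dS2_mul hfs (hgc.mul hβT), z2, z1.self_of_nhds, dS2_mul hgc hβT, z4,
    dS_mul hgc.diff hβT.diff, dS_mul hgc.diff hβT.diff, z3.self_of_nhds, e1,
    dS_bar hβ.diff hTz, dS_hol hβ.diff hTz, dS2_comp hβ hT]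
  ring

theorem sm_term {f g β : Cn n → ℂ} {T : Cn n → Cn n} {z : Cn n}
    (hf : ∀ᶠ y in 𝓝 z, DifferentiableAt ℂ f y) (hg : ∀ᶠ y in 𝓝 z, DifferentiableAt ℂ g y)
    (hβ : Sm (T z) β) (hT : ∀ᶠ y in 𝓝 z, DifferentiableAt ℂ T y) :
    Sm z (fun y => f y * (conj (g y) * β (T y))) :=
  (sm_of_hol hf).mul ((conjCLE.contDiff.contDiffAt.comp z (sm_of_hol hg)).mul
    (hβ.comp z (T_sm hT)))

theorem dS2_pbk {b : Cn 2 → Matrix (Fin 2) (Fin 2) ℂ} {T : Cn 2 → Cn 2} {z : Cn 2}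
    (hb : ∀ i j, Sm (T z) (fun y => b y i j)) (hT : ∀ᶠ y in 𝓝 z, DifferentiableAt ℂ T y)
    (c' d' c d : Fin 2) :
    dS (-I) c' (dS I d' (fun y => pbk T b y c d)) z = ∑ i, ∑ j,
      dS (-I) c' (dS I d' (fun y => Jac T y i c * (conj (Jac T y j d) * b (T y) i j))) z := by
  have h1 : (fun y => pbk T b y c d) = fun y =>
      (Jac T y 0 c * (conj (Jac T y 0 d) * b (T y) 0 0) + Jac T y 0 c * (conj (Jac T y 1 d) * b (T y) 0 1))
      + (Jac T y 1 c * (conj (Jac T y 0 d) * b (T y) 1 0)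
        + Jac T y 1 c * (conj (Jac T y 1 d) * b (T y) 1 1)) := by
    funext y
    rw [pbk_apply]
    simp only [Fin.sum_univ_two]
  have hs : ∀ i j, Sm z (fun y => Jac T y i c * (conj (Jac T y j d) * b (T y) i j)) := fun i j =>
    sm_term (J_hol hT i c) (J_hol hT j d) (hb i j) hT
  rw [h1, dS2_add ((hs 0 0).add (hs 0 1)) ((hs 1 0).add (hs 1 1)), dS2_add (hs 0 0) (hs 0 1),
    dS2_add (hs 1 0) (hs 1 1)]
  simp only [Fin.sum_univ_two]

theorem ddm_comp {b : Cn 2 → Matrix (Fin 2) (Fin 2) ℂ} {T : Cn 2 → Cn 2} {z : Cn 2}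
    (hb : ∀ i j, Sm (T z) (fun y => b y i j)) (hT : ∀ᶠ y in 𝓝 z, DifferentiableAt ℂ T y) :
    ddm (pbk T b) z = (Jac T z).det * conj (Jac T z).det * ddm b (T z) := by
  have key : ∀ c' d' c d : Fin 2, dS (-I) c' (dS I d' (fun y => pbk T b y c d)) z =
      ∑ i, ∑ j, (dS (-I) c' (fun y => Jac T y i c) z *
          (conj (dS (-I) d' (fun y => Jac T y j d) z) * b (T z) i j
          + conj (Jac T z j d) * ∑ b', conj (Jac T z b' d') * dS I b' (fun y => b y i j) (T z))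
        + Jac T z i c * (conj (dS (-I) d' (fun y => Jac T y j d) z) *
          (∑ a, Jac T z a c' * dS (-I) a (fun y => b y i j) (T z))
          + conj (Jac T z j d) * ∑ a, ∑ b', Jac T z a c' * conj (Jac T z b' d') *
            dS (-I) a (dS I b' (fun y => b y i j)) (T z))) := by
    intro c' d' c d
    rw [dS2_pbk hb hT]
    refine Finset.sum_congr rfl fun i _ => Finset.sum_congr rfl fun j _ => ?_
    exact dS2_term (β := fun y => b y i j) (J_hol hT i c) (J_hol hT j d) (hb i j) hT c' d'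
  have s : ∀ a, dS (-I) 1 (fun y => Jac T y a 0) z = dS (-I) 0 (fun y => Jac T y a 1) z := fun a =>
    J_symm hT a 0 1
  unfold ddm
  rw [key 0 0 1 1, key 1 1 0 0, key 0 1 1 0, key 1 0 0 1]
  simp only [Fin.sum_univ_two, s, Matrix.det_fin_two, map_sub, map_mul]
  ring

section

variable {κ : Type} [Fintype κ] [DecidableEq κ]

theorem hV_comp (H : Cn n → Matrix κ κ ℂ) (V : Cn n → κ → ℂ) (T : Cn n → Cn n) (y : Cn n) :
    hV (fun w => H (T w)) (fun w => V (T w)) y = hV H V (T y) := rfl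

theorem bb_comp {H : Cn n → Matrix κ κ ℂ} {V : Cn n → κ → ℂ} {T : Cn n → Cn n} {z : Cn n}
    (hH : SmM (T z) H) (hT : ∀ᶠ y in 𝓝 z, DifferentiableAt ℂ T y)
    (hV' : ContDiffAt ℝ ∞ (fun w => Real.log (hV H V w)) (T z)) :
    bb (fun y => H (T y)) (fun y => V (T y)) z = pbk T (bb H V) z := by
  ext c d
  rw [pbk_apply]
  unfold bb
  simp only [Matrix.of_apply]
  have h1 : hess (fun w => Real.log (hV (fun w => H (T w)) (fun w => V (T w)) w)) z c d
      = pbk T (hess fun w => Real.log (hV H V w)) z c d := by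
    rw [← hess_comp' hV' hT]
    rfl
  rw [h1, rm_comp hH hT, pbk_apply, hV_comp]
  have h2 : star (V (T z)) ⬝ᵥ ((∑ a, ∑ b, (Jac T z a c * conj (Jac T z b d)) • rm H (T z) a b) *ᵥ
      V (T z)) = ∑ a, ∑ b, (Jac T z a c * conj (Jac T z b d)) *
        (star (V (T z)) ⬝ᵥ (rm H (T z) a b *ᵥ V (T z))) := by
    rw [Matrix.sum_mulVec, dotProduct_sum]
    refine Finset.sum_congr rfl fun a _ => ?_
    rw [Matrix.sum_mulVec, dotProduct_sum]
    refine Finset.sum_congr rfl fun b _ => ?_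
    rw [Matrix.smul_mulVec, dotProduct_smul, smul_eq_mul]
  rw [h2, Finset.sum_div, ← Finset.sum_add_distrib]
  refine Finset.sum_congr rfl fun a _ => ?_
  rw [Finset.sum_div, ← Finset.sum_add_distrib]
  refine Finset.sum_congr rfl fun b _ => ?_
  ring


theorem star_gram (F H : Matrix κ κ ℂ) (V : κ → ℂ) :
    star V ⬝ᵥ ((Fᴴ * H * F) *ᵥ V) = star (F *ᵥ V) ⬝ᵥ (H *ᵥ (F *ᵥ V)) := by
  rw [Matrix.star_mulVec, ← Matrix.mulVec_mulVec, ← Matrix.mulVec_mulVec, Matrix.dotProduct_mulVec,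
    Matrix.dotProduct_mulVec, Matrix.dotProduct_mulVec, Matrix.vecMul_vecMul]

theorem bb_frame {H F : Cn n → Matrix κ κ ℂ} {V : Cn n → κ → ℂ} {z : Cn n}
    (hH : ∀ᶠ y in 𝓝 z, SmM y H) (hH0 : (H z).det ≠ 0) (hF : HolM z F) (hF0 : (F z).det ≠ 0) :
    bb (fun y => (F y)ᴴ * H y * F y) V z = bb H (fun y => F y *ᵥ V y) z := by
  have h1 : ∀ y, hV (fun y => (F y)ᴴ * H y * F y) V y = hV H (fun y => F y *ᵥ V y) y := by
    intro y
    unfold hV
    rw [star_gram]
  ext c d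
  unfold bb
  simp only [Matrix.of_apply, h1]
  rw [rm_frame hH hH0 hF hF0, star_gram]

/-! ### twists -/

theorem rm_smul {H : Cn n → Matrix κ κ ℂ} {f : Cn n → ℂ} {z : Cn n} (hH : SmM z H)
    (hH0 : (H z).det ≠ 0) (hf : Sm z f) (hf0 : f z ≠ 0) (c d : Fin n) :
    rm (fun y => f y • H y) z c d = f z • (rm H z c d - lg f z c d • H z) := by
  have i3 : H z * (H z)⁻¹ = 1 := Matrix.mul_nonsing_inv _ (isUnit_iff_ne_zero.2 hH0)
  have i4 : (H z)⁻¹ * H z = 1 := Matrix.nonsing_inv_mul _ (isUnit_iff_ne_zero.2 hH0)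
  have e1 : ∀ (s : ℂ) (a : Fin n), dM s a (fun y => f y • H y) z =
      dS s a f z • H z + f z • dM s a H z := by
    intro s a
    ext i j
    exact dS_mul hf.diff (hH i j).diff
  have e2 : dM (-I) c (dM I d (fun y => f y • H y)) z = dS (-I) c (dS I d f) z • H z
      + dS I d f z • dM (-I) c H z + dS (-I) c f z • dM I d H z
      + f z • dM (-I) c (dM I d H) z := by
    ext i j
    exact dS2_mul hf (hH i j) _ _ _ _
  have hinv : (f z • H z)⁻¹ = (f z)⁻¹ • (H z)⁻¹ := by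
    refine Matrix.inv_eq_right_inv ?_
    rw [Matrix.smul_mul, Matrix.mul_smul, i3, smul_smul, mul_inv_cancel₀ hf0, one_smul]
  unfold rm
  rw [e2, e1, e1, hinv]
  have e3 : (dS I d f z • H z + f z • dM I d H z) * (f z)⁻¹ • (H z)⁻¹ *
      (dS (-I) c f z • H z + f z • dM (-I) c H z)
      = ((f z)⁻¹ * dS I d f z * dS (-I) c f z) • H z + dS I d f z • dM (-I) c H z
        + dS (-I) c f z • dM I d H z + f z • (dM I d H z * (H z)⁻¹ * dM (-I) c H z) := by
    have g1 : H z * (H z)⁻¹ * H z = H z := by rw [i3, Matrix.one_mul]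
    have g2 : H z * (H z)⁻¹ * dM (-I) c H z = dM (-I) c H z := by rw [i3, Matrix.one_mul]
    have g3 : dM I d H z * (H z)⁻¹ * H z = dM I d H z := by
      rw [Matrix.mul_assoc, i4, Matrix.mul_one]
    simp only [Matrix.add_mul, Matrix.mul_add, Matrix.smul_mul, Matrix.mul_smul, smul_smul,
      smul_add, g1, g2, g3]
    match_scalars <;> field_simp
  rw [e3]
  unfold lg
  match_scalars <;> field_simp <;> ring

/-- curvature of a twist -/
theorem rm_twist {H : Cn n → Matrix κ κ ℂ} {φ : Cn n → ℝ} {z : Cn n} (hH : SmM z H)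
    (hH0 : (H z).det ≠ 0) (hφ : ContDiffAt ℝ ∞ φ z) (c d : Fin n) :
    rm (fun y => ((Real.exp (-φ y) : ℝ) : ℂ) • H y) z c d
      = ((Real.exp (-φ z) : ℝ) : ℂ) • (rm H z c d + hess φ z c d • H z) := by
  have hf : ContDiffAt ℝ ∞ (fun y => Real.exp (-φ y)) z := hφ.neg.exp
  have hfs : Sm z (fun y => ((Real.exp (-φ y) : ℝ) : ℂ)) := contDiffAt_cu hf
  have h1 := rm_smul hH hH0 hfs (by
    exact Complex.ofReal_ne_zero.2 (Real.exp_pos _).ne') c d
  have h2 : lg (fun y => ((Real.exp (-φ y) : ℝ) : ℂ)) z c d = - hess φ z c d := by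
    rw [lg_eq_hess hfs (Eventually.of_forall fun y => Complex.ofReal_im _)
      (by rw [Complex.ofReal_re]; exact Real.exp_pos _)]
    have h3 : (fun y => Real.log (((Real.exp (-φ y) : ℝ) : ℂ)).re) = fun y => - φ y := by
      funext y
      rw [Complex.ofReal_re, Real.log_exp]
    rw [h3, hess_neg hφ, Matrix.neg_apply]
  rw [h1, h2, neg_smul, sub_neg_eq_add]

end

theorem pd_det {R H : Matrix (Fin 2) (Fin 2) ℂ} (h : H.det ≠ 0) :
    pd R H = (H⁻¹ * R).trace * H.det := by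
  have h1 : H⁻¹ = (H.det)⁻¹ • !![H 1 1, -H 0 1; -H 1 0, H 0 0] := by
    rw [Matrix.inv_def, Ring.inverse_eq_inv', Matrix.adjugate_fin_two]
  rw [h1, Matrix.smul_mul, Matrix.trace_smul, Matrix.trace_fin_two]
  simp only [Matrix.mul_apply, Fin.sum_univ_two, smul_eq_mul, pd]
  simp
  field_simp
  ring

/-- the second Chern form of `f • H` -/
theorem c2_smul {H : Cn 2 → Matrix (Fin 2) (Fin 2) ℂ} {f : Cn 2 → ℂ} {z : Cn 2} (hH : SmM z H)
    (hH0 : (H z).det ≠ 0) (hf : Sm z f) (hf0 : f z ≠ 0) :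
    c2 (fun y => f y • H y) z = c2 H z - pd (Matrix.of (lg f z)) (Matrix.of (ric H z))
      + pd (Matrix.of (lg f z)) (Matrix.of (lg f z)) := by
  unfold c2
  rw [rm_smul hH hH0 hf hf0, rm_smul hH hH0 hf hf0, rm_smul hH hH0 hf hf0, rm_smul hH hH0 hf hf0,
    Matrix.det_smul, Fintype.card_fin]
  simp only [pd_smul, smul_pd, pd_sub, sub_pd, pd_self (H z), pd_comm (H z)]
  simp only [pd_det hH0]
  simp only [pd, Matrix.of_apply, ric]
  field_simp
  ring

theorem c2_twist {H : Cn 2 → Matrix (Fin 2) (Fin 2) ℂ} {φ : Cn 2 → ℝ} {z : Cn 2} (hH : SmM z H)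
    (hH0 : (H z).det ≠ 0) (hφ : ContDiffAt ℝ ∞ φ z) :
    c2 (fun y => ((Real.exp (-φ y) : ℝ) : ℂ) • H y) z = c2 H z
      + pd (hess φ z) (Matrix.of (ric H z)) + pd (hess φ z) (hess φ z) := by
  have hf : ContDiffAt ℝ ∞ (fun y => Real.exp (-φ y)) z := hφ.neg.exp
  have hfs : Sm z (fun y => ((Real.exp (-φ y) : ℝ) : ℂ)) := contDiffAt_cu hf
  have h2 : Matrix.of (lg (fun y => ((Real.exp (-φ y) : ℝ) : ℂ)) z) = - hess φ z := by
    ext c d
    rw [Matrix.of_apply, lg_eq_hess hfs (Eventually.of_forall fun y => Complex.ofReal_im _)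
      (by rw [Complex.ofReal_re]; exact Real.exp_pos _)]
    have h3 : (fun y => Real.log (((Real.exp (-φ y) : ℝ) : ℂ)).re) = fun y => - φ y := by
      funext y
      rw [Complex.ofReal_re, Real.log_exp]
    rw [h3, hess_neg hφ]
  rw [c2_smul hH hH0 hfs (Complex.ofReal_ne_zero.2 (Real.exp_pos _).ne'), h2]
  simp only [pd_neg, neg_pd]
  ring

/-! ### direct sums of line bundles -/

theorem diag_eq_ldu (h q : Cn 2 → ℂ) :
    (fun y => !![h y, 0; 0, q y]) = ldu h q (fun _ => 0) (fun _ => 0) := by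
  funext y
  simp [ldu]

theorem dS_zero (s : ℂ) (a : Fin n) : dS s a (fun _ : Cn n => (0 : ℂ)) = fun _ => 0 :=
  funext fun _ => dS_const

theorem rm_diag {h q : Cn 2 → ℂ} {z : Cn 2} (hh : Sm z h) (hq : Sm z q) (h0 : h z ≠ 0)
    (q0 : q z ≠ 0) (c d : Fin 2) :
    rm (fun y => !![h y, 0; 0, q y]) z c d = !![- (h z * lg h z c d), 0; 0, - (q z * lg q z c d)] := by
  rw [diag_eq_ldu, rm_ldu hh hq contDiffAt_const contDiffAt_const h0 q0]
  ext i j
  fin_cases i <;> fin_cases j <;> simp [bt, Pt, Qt, Matrix.mul_apply, Fin.sum_univ_two, dS_zero]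

/-- the second Chern form of a sum of line bundles -/
theorem c2_diag {h q : Cn 2 → ℂ} {z : Cn 2} (hh : Sm z h) (hq : Sm z q) (h0 : h z ≠ 0)
    (q0 : q z ≠ 0) :
    c2 (fun y => !![h y, 0; 0, q y]) z = pd (Matrix.of (lg h z)) (Matrix.of (lg q z)) := by
  unfold c2
  rw [rm_diag hh hq h0 q0, rm_diag hh hq h0 q0, rm_diag hh hq h0 q0, rm_diag hh hq h0 q0]
  simp only [pd, Matrix.det_fin_two_of, Matrix.of_apply]
  simp
  field_simp
  ring

/-- two weights -/
theorem c2_exp {φ ψ : Cn 2 → ℝ} {z : Cn 2} (hφ : ContDiffAt ℝ ∞ φ z) (hψ : ContDiffAt ℝ ∞ ψ z) :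
    c2 (fun y => !![((Real.exp (-φ y) : ℝ) : ℂ), 0; 0, ((Real.exp (-ψ y) : ℝ) : ℂ)]) z
      = pd (hess φ z) (hess ψ z) := by
  have key : ∀ {φ : Cn 2 → ℝ}, ContDiffAt ℝ ∞ φ z →
      Matrix.of (lg (fun y => ((Real.exp (-φ y) : ℝ) : ℂ)) z) = - hess φ z := by
    intro φ hφ
    have hf : ContDiffAt ℝ ∞ (fun y => Real.exp (-φ y)) z := hφ.neg.exp
    have hfs : Sm z (fun y => ((Real.exp (-φ y) : ℝ) : ℂ)) := contDiffAt_cu hf
    ext c d
    rw [Matrix.of_apply, lg_eq_hess hfs (Eventually.of_forall fun y => Complex.ofReal_im _)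
      (by rw [Complex.ofReal_re]; exact Real.exp_pos _)]
    have h3 : (fun y => Real.log (((Real.exp (-φ y) : ℝ) : ℂ)).re) = fun y => - φ y := by
      funext y
      rw [Complex.ofReal_re, Real.log_exp]
    rw [h3, hess_neg hφ]
  have hs : ∀ {φ : Cn 2 → ℝ}, ContDiffAt ℝ ∞ φ z →
      Sm z (fun y => ((Real.exp (-φ y) : ℝ) : ℂ)) := fun h => contDiffAt_cu h.neg.exp
  rw [c2_diag (hs hφ) (hs hψ) (Complex.ofReal_ne_zero.2 (Real.exp_pos _).ne')
    (Complex.ofReal_ne_zero.2 (Real.exp_pos _).ne'), key hφ, key hψ, pd_neg, neg_pd, neg_neg]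

end

end Crest.Agent.R257.C2F5_335
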