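import Crest.Agent.R273.YauC3_812

/-!
# Row 257 (S0395), leaf E-CL (helper39), part A: the Chern-Lu identity in jets

`G = u_{i j̄}`, `H = G⁻¹`, `f = log det G`, holomorphic one-forms `β k`, `γ k = conj (β k)`,
`S = ∑ H b a * β k a * γ k b = ∑ |β k|²_g`.  At a point with `G = 1`:

`Δ S = ∑ |∇β|² - ∑ f_{b ā} β_a γ_b`,  `∂_p S = ∑ (∇_p β)_b γ_b`.
-/

set_option autoImplicit false

namespace Crest.Agent.R257.CLA_39

open Finset Matrix Crest.Agent.R273.YJet_812

variable {n : ℕ} {R : Type*} [CommRing R] [Algebra ℂ R] (J : Jet n R)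

theorem ev_G (u : R) (hG : mE J.ev (J.Gm u) = 1) (x y : Fin n) :
    J.ev (J.Gm u x y) = if x = y then 1 else 0 := by
  have := congrFun (congrFun hG x) y
  simpa [mE, Matrix.one_apply] using this

variable {J}

theorem ev_H {u : R} {H : Matrix (Fin n) (Fin n) R} (hH : J.Gm u * H = 1)
    (hG : mE J.ev (J.Gm u) = 1) (x y : Fin n) : J.ev (H x y) = if x = y then 1 else 0 := by
  have := congrFun (congrFun (ev_inv hH hG) x) y
  simpa [mE, Matrix.one_apply] using this

theorem ev_dH {u : R} {H : Matrix (Fin n) (Fin n) R} (hH : J.Gm u * H = 1)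
    (hG : mE J.ev (J.Gm u) = 1) (d : Derivation ℂ R R) (x y : Fin n) :
    J.ev (d (H x y)) = - J.ev (d (J.Gm u x y)) := by
  have := congrFun (congrFun (ev_mD_inv d hH hG) x) y
  simpa [mE, mD] using this

/-- the traced curvature of the cotangent bundle -/
theorem curv {u f : R} {H : Matrix (Fin n) (Fin n) R} (hH : J.Gm u * H = 1)
    (hG : mE J.ev (J.Gm u) = 1) (hf : ∀ p, J.B p f = trace (H * mD (J.B p) (J.Gm u)))
    (a b : Fin n) :
    ∑ p, J.ev (J.D p (J.B p (H b a))) = - J.ev (J.D b (J.B a f))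
      + ∑ p, ∑ c, J.ev (J.B p (J.Gm u b c)) * J.ev (J.D p (J.Gm u c a)) := by
  have h1 : ∀ p, J.ev (J.D p (J.B p (H b a))) =
      ∑ c, J.ev (J.D p (J.Gm u b c)) * J.ev (J.B p (J.Gm u c a))
      - J.ev (J.D p (J.B p (J.Gm u b a)))
      + ∑ c, J.ev (J.B p (J.Gm u b c)) * J.ev (J.D p (J.Gm u c a)) := by
    intro p
    have := congrFun (congrFun (ev_mD2_inv (J.B p) (J.D p) hH hG) b) a
    simpa [mE, mD, Matrix.mul_apply] using this
  have h2 := ev_log2 (J.D b) (J.B a) hH hG (hf a)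
  have h3 : trace (mE J.ev (mD (J.D b) (mD (J.B a) (J.Gm u))))
      = ∑ p, J.ev (J.D p (J.B p (J.Gm u b a))) := by
    simp only [trace, Matrix.diag, mE, mD, Matrix.map_apply]
    refine Finset.sum_congr rfl fun q _ => ?_
    simp only [J.Gm_apply, ← J.DB]
    rw [J.DD q b, J.BB q a]
  have h4 : trace (mE J.ev (mD (J.D b) (J.Gm u)) * mE J.ev (mD (J.B a) (J.Gm u)))
      = ∑ p, ∑ c, J.ev (J.D p (J.Gm u b c)) * J.ev (J.B p (J.Gm u c a)) := by
    simp only [trace, Matrix.diag, mE, mD, Matrix.map_apply, Matrix.mul_apply]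
    refine Finset.sum_congr rfl fun q _ => Finset.sum_congr rfl fun x _ => ?_
    simp only [J.Gm_apply, ← J.DB]
    rw [J.DD q b, J.BB q a]
  rw [h2, h3, h4]
  simp only [h1, Finset.sum_add_distrib, Finset.sum_sub_distrib]
  ring

section forms

variable {ι : Type*} [Fintype ι] {u f : R} {H : Matrix (Fin n) (Fin n) R} (hH : J.Gm u * H = 1)
  (hG : mE J.ev (J.Gm u) = 1) (hf : ∀ p, J.B p f = trace (H * mD (J.B p) (J.Gm u)))
  (β γ : ι → Fin n → R) (hβ : ∀ q k a, J.B q (β k a) = 0) (hγ : ∀ q k a, J.D q (γ k a) = 0)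

/-- `∑ |β k|²_g` -/
def Sf (H : Matrix (Fin n) (Fin n) R) (β γ : ι → Fin n → R) : R :=
  ∑ k, ∑ a, ∑ b, H b a * (β k a * γ k b)

/-- `(∇_p β_k)_b` -/
def Ef (J : Jet n R) (u : R) (β : ι → Fin n → R) (k : ι) (p b : Fin n) : ℂ :=
  J.ev (J.D p (β k b)) - ∑ a, J.ev (β k a) * J.ev (J.D p (J.Gm u b a))

/-- `(∇̄_p γ_k)_b` -/
def Ff (J : Jet n R) (u : R) (γ : ι → Fin n → R) (k : ι) (p b : Fin n) : ℂ :=
  J.ev (J.B p (γ k b)) - ∑ a, J.ev (J.B p (J.Gm u a b)) * J.ev (γ k a)

include hH hG in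
theorem ev_Sf : J.ev (Sf H β γ) = ∑ k, ∑ b, J.ev (β k b) * J.ev (γ k b) := by
  simp only [Sf, map_sum, map_mul, ev_H hH hG, ite_mul, one_mul, zero_mul, Finset.sum_ite_eq',
    Finset.mem_univ, if_true]

include hH hG hγ in
theorem D_Sf (p : Fin n) :
    J.ev (J.D p (Sf H β γ)) = ∑ k, ∑ b, Ef J u β k p b * J.ev (γ k b) := by
  have h1 : ∀ k a b, J.ev (J.D p (H b a * (β k a * γ k b))) =
      (if b = a then 1 else 0) * (J.ev (J.D p (β k a)) * J.ev (γ k b))
      - J.ev (J.D p (J.Gm u b a)) * (J.ev (β k a) * J.ev (γ k b)) := by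
    intro k a b
    simp only [Derivation.leibniz, smul_eq_mul, hγ, mul_zero, zero_add, map_add, map_mul,
      ev_H hH hG, ev_dH hH hG]
    ring
  simp only [Sf, map_sum, h1, Finset.sum_sub_distrib, ite_mul, one_mul, zero_mul,
    Finset.sum_ite_eq', Finset.mem_univ, if_true]
  rw [← Finset.sum_sub_distrib]
  refine Finset.sum_congr rfl fun k _ => ?_
  rw [Finset.sum_comm (s := univ) (t := univ)
    (f := fun a b => J.ev (J.D p (J.Gm u b a)) * (J.ev (β k a) * J.ev (γ k b))),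
    ← Finset.sum_sub_distrib]
  refine Finset.sum_congr rfl fun b _ => ?_
  rw [Ef, sub_mul, Finset.sum_mul]
  congr 1
  refine Finset.sum_congr rfl fun a _ => ?_
  ring

include hH hG hβ in
theorem B_Sf (p : Fin n) :
    J.ev (J.B p (Sf H β γ)) = ∑ k, ∑ b, J.ev (β k b) * Ff J u γ k p b := by
  have h1 : ∀ k a b, J.ev (J.B p (H b a * (β k a * γ k b))) =
      (if b = a then 1 else 0) * (J.ev (β k a) * J.ev (J.B p (γ k b)))
      - J.ev (J.B p (J.Gm u b a)) * (J.ev (β k a) * J.ev (γ k b)) := by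
    intro k a b
    simp only [Derivation.leibniz, smul_eq_mul, hβ, mul_zero, add_zero, map_add, map_mul,
      ev_H hH hG, ev_dH hH hG]
    ring
  simp only [Sf, map_sum, h1, Finset.sum_sub_distrib, ite_mul, one_mul, zero_mul,
    Finset.sum_ite_eq', Finset.mem_univ, if_true]
  rw [← Finset.sum_sub_distrib]
  refine Finset.sum_congr rfl fun k _ => ?_
  rw [← Finset.sum_sub_distrib]
  refine Finset.sum_congr rfl fun a _ => ?_
  rw [Ff, mul_sub, Finset.mul_sum]
  congr 1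
  refine Finset.sum_congr rfl fun b _ => ?_
  ring

include hH hG hf hβ hγ in
/-- **Bochner formula** -/
theorem lap_Sf :
    ∑ p, J.ev (J.D p (J.B p (Sf H β γ))) =
      ∑ k, ∑ p, ∑ b, Ef J u β k p b * Ff J u γ k p b
      - ∑ k, ∑ a, ∑ b, J.ev (J.D b (J.B a f)) * (J.ev (β k a) * J.ev (γ k b)) := by
  have h1 : ∀ p k a b, J.ev (J.D p (J.B p (H b a * (β k a * γ k b)))) =
      J.ev (J.D p (J.B p (H b a))) * (J.ev (β k a) * J.ev (γ k b))
      - J.ev (J.B p (J.Gm u b a)) * (J.ev (J.D p (β k a)) * J.ev (γ k b))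
      - J.ev (J.D p (J.Gm u b a)) * (J.ev (β k a) * J.ev (J.B p (γ k b)))
      + (if b = a then 1 else 0) * (J.ev (J.D p (β k a)) * J.ev (J.B p (γ k b))) := by
    intro p k a b
    rw [J.DB_prod p (hβ p k a) (hγ p k b)]
    simp only [map_add, map_mul, ev_H hH hG, ev_dH hH hG]
    ring
  have h2 : ∀ k, ∑ p, ∑ a, ∑ b, J.ev (J.D p (J.B p (H b a * (β k a * γ k b)))) =
      ∑ p, ∑ b, Ef J u β k p b * Ff J u γ k p b
      - ∑ a, ∑ b, J.ev (J.D b (J.B a f)) * (J.ev (β k a) * J.ev (γ k b)) := by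
    intro k
    simp only [h1, Finset.sum_add_distrib, Finset.sum_sub_distrib, ite_mul, one_mul, zero_mul,
      Finset.sum_ite_eq', Finset.mem_univ, if_true]
    -- the curvature term
    have e1 : ∑ p, ∑ a, ∑ b, J.ev (J.D p (J.B p (H b a))) * (J.ev (β k a) * J.ev (γ k b))
        = - (∑ a, ∑ b, J.ev (J.D b (J.B a f)) * (J.ev (β k a) * J.ev (γ k b)))
          + ∑ p, ∑ a, ∑ b, ∑ c, J.ev (J.B p (J.Gm u b c)) * J.ev (J.D p (J.Gm u c a))
            * (J.ev (β k a) * J.ev (γ k b)) := by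
      rw [Finset.sum_comm (s := univ) (t := univ)
        (f := fun p a => ∑ b, J.ev (J.D p (J.B p (H b a))) * (J.ev (β k a) * J.ev (γ k b))),
        Finset.sum_comm (s := univ) (t := univ)
        (f := fun p a => ∑ b, ∑ c, J.ev (J.B p (J.Gm u b c)) * J.ev (J.D p (J.Gm u c a))
            * (J.ev (β k a) * J.ev (γ k b))), ← Finset.sum_neg_distrib, ← Finset.sum_add_distrib]
      refine Finset.sum_congr rfl fun a _ => ?_
      rw [Finset.sum_comm (s := univ) (t := univ)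
        (f := fun p b => J.ev (J.D p (J.B p (H b a))) * (J.ev (β k a) * J.ev (γ k b))),
        Finset.sum_comm (s := univ) (t := univ)
        (f := fun p b => ∑ c, J.ev (J.B p (J.Gm u b c)) * J.ev (J.D p (J.Gm u c a))
            * (J.ev (β k a) * J.ev (γ k b))), ← Finset.sum_neg_distrib, ← Finset.sum_add_distrib]
      refine Finset.sum_congr rfl fun b _ => ?_
      rw [← Finset.sum_mul, curv hH hG hf]
      rw [add_mul, neg_mul, Finset.sum_mul]
      congr 1
      refine Finset.sum_congr rfl fun p _ => ?_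
      rw [Finset.sum_mul]
    have e2 : ∀ p, ∑ b, Ef J u β k p b * Ff J u γ k p b
        = ∑ b, J.ev (J.D p (β k b)) * J.ev (J.B p (γ k b))
          - ∑ a, ∑ b, J.ev (J.B p (J.Gm u b a)) * (J.ev (J.D p (β k a)) * J.ev (γ k b))
          - ∑ a, ∑ b, J.ev (J.D p (J.Gm u b a)) * (J.ev (β k a) * J.ev (J.B p (γ k b)))
          + ∑ a, ∑ b, ∑ c, J.ev (J.B p (J.Gm u b c)) * J.ev (J.D p (J.Gm u c a))
            * (J.ev (β k a) * J.ev (γ k b)) := by
      intro p
      have e3 : ∑ a, ∑ b, J.ev (J.D p (J.Gm u b a)) * (J.ev (β k a) * J.ev (J.B p (γ k b)))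
          = ∑ b, (∑ a, J.ev (β k a) * J.ev (J.D p (J.Gm u b a))) * J.ev (J.B p (γ k b)) := by
        rw [Finset.sum_comm]
        refine Finset.sum_congr rfl fun b _ => ?_
        rw [Finset.sum_mul]
        exact Finset.sum_congr rfl fun a _ => by ring
      have e4 : ∑ a, ∑ b, J.ev (J.B p (J.Gm u b a)) * (J.ev (J.D p (β k a)) * J.ev (γ k b))
          = ∑ b, J.ev (J.D p (β k b)) * ∑ a, J.ev (J.B p (J.Gm u a b)) * J.ev (γ k a) := by
        refine Finset.sum_congr rfl fun b _ => ?_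
        rw [Finset.mul_sum]
        exact Finset.sum_congr rfl fun a _ => by ring
      have e5 : ∑ a, ∑ b, ∑ c, J.ev (J.B p (J.Gm u b c)) * J.ev (J.D p (J.Gm u c a))
            * (J.ev (β k a) * J.ev (γ k b))
          = ∑ c, (∑ a, J.ev (β k a) * J.ev (J.D p (J.Gm u c a)))
            * ∑ b, J.ev (J.B p (J.Gm u b c)) * J.ev (γ k b) := by
        have : ∀ c, (∑ a, J.ev (β k a) * J.ev (J.D p (J.Gm u c a)))
            * ∑ b, J.ev (J.B p (J.Gm u b c)) * J.ev (γ k b)
            = ∑ a, ∑ b, J.ev (J.B p (J.Gm u b c)) * J.ev (J.D p (J.Gm u c a))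
            * (J.ev (β k a) * J.ev (γ k b)) := by
          intro c
          rw [Finset.sum_mul_sum]
          exact Finset.sum_congr rfl fun a _ => Finset.sum_congr rfl fun b _ => by ring
        simp only [this]
        rw [Finset.sum_comm (s := univ) (t := univ)
          (f := fun c a => ∑ b, J.ev (J.B p (J.Gm u b c)) * J.ev (J.D p (J.Gm u c a))
            * (J.ev (β k a) * J.ev (γ k b)))]
        refine Finset.sum_congr rfl fun a _ => ?_
        rw [Finset.sum_comm]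
      rw [e3, e4, e5, ← Finset.sum_sub_distrib, ← Finset.sum_sub_distrib, ← Finset.sum_add_distrib]
      refine Finset.sum_congr rfl fun b _ => ?_
      rw [Ef, Ff]
      ring
    rw [e1]
    simp only [e2, Finset.sum_add_distrib, Finset.sum_sub_distrib]
    ring
  have h3 : ∑ p, J.ev (J.D p (J.B p (Sf H β γ)))
      = ∑ k, ∑ p, ∑ a, ∑ b, J.ev (J.D p (J.B p (H b a * (β k a * γ k b)))) := by
    rw [Finset.sum_comm]
    refine Finset.sum_congr rfl fun p _ => ?_
    simp only [Sf, map_sum]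
  rw [h3]
  simp only [h2, Finset.sum_sub_distrib]

end forms

end Crest.Agent.R257.CLA_39
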