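import Crest.Agent.R257.CLA_39

/-!
# Row 257 (S0395), leaf E-CL (helper39), part B: the Chern-Lu inequality at a point, in the algebra
of smooth functions

`core` : if `det u_{i j̄} = c₀ e^f`, `∂∂̄ f ≤ K ∂∂̄ u` and `e^L = ∑ |β_k|²_g` with holomorphic one-forms
`β_k`, then `Δ_g L ≥ -K`.
-/

set_option autoImplicit false
set_option linter.unusedSectionVars false

open Set Filter Topology Complex
open scoped ContDiff ComplexConjugate

namespace Crest.Agent.R257.CLB_39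

open Crest.Agent.R273.YSm_812 Crest.Agent.R273.YJet_812 Crest.Agent.R273.YC3_812
open Crest.Agent.R257.CLA_39

variable {n : ℕ} {ι : Type*} [Fintype ι] {V : Type*} [NormedAddCommGroup V] [NormedSpace ℂ V] {Ω : Set V}

theorem DAB_exp (hΩ : IsOpen Ω) {S L : Sm Ω} (h : ∀ z : Ω, S.1 z = exp (L.1 z)) (a b : ℂ)
    (ξ : V) : DAB hΩ a b ξ S = S * DAB hΩ a b ξ L := by
  refine Sm.ext' fun z => ?_
  show dab a b ξ (ex S.1) z = S.1 z * dab a b ξ (ex L.1) z
  have e : ∀ ζ : V, dr ζ (ex S.1) z = S.1 z * dr ζ (ex L.1) z := by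
    intro ζ
    have h1 := dr_exp hΩ L 1 ζ z
    rw [one_mul] at h1
    rw [h z, ← h1]
    exact dr_congr hΩ (fun w hw => by
      rw [ex_of_mem _ hw, ex_of_mem _ hw, one_mul]; exact h ⟨w, hw⟩) z.2 ζ
  simp only [dab, e]
  ring

theorem D_exp (hΩ : IsOpen Ω) {S L : Sm Ω} (h : ∀ z : Ω, S.1 z = exp (L.1 z)) (ξ : V) :
    D hΩ ξ S = S * D hΩ ξ L := DAB_exp hΩ h _ _ _

theorem B_exp (hΩ : IsOpen Ω) {S L : Sm Ω} (h : ∀ z : Ω, S.1 z = exp (L.1 z)) (ξ : V) :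
    B hΩ ξ S = S * B hΩ ξ L := DAB_exp hΩ h _ _ _

variable [FiniteDimensional ℂ V]

/-- the entries of the forms in a frame -/
abbrev bt (β : ι → V →ₗ[ℂ] Sm Ω) (w : Fin n → V) : ι → Fin n → Sm Ω :=
  fun k a => β k (w a)

abbrev ct (β : ι → V →ₗ[ℂ] Sm Ω) (w : Fin n → V) : ι → Fin n → Sm Ω :=
  fun k a => cj (β k (w a))

theorem Ff_eq (hΩ : IsOpen Ω) {u : Sm Ω} (hu : cj u = u) (w : Fin n → V) (O : Ω)
    (β : ι → V →ₗ[ℂ] Sm Ω) (k : ι) (p b : Fin n) :
    Ff (jet hΩ w O) u (ct β w) k p b = conj (Ef (jet hΩ w O) u (bt β w) k p b) := by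
  have h1 : ∀ a b, (jet hΩ w O).ev ((jet hΩ w O).B p ((jet hΩ w O).Gm u a b)) =
      conj ((jet hΩ w O).ev ((jet hΩ w O).D p ((jet hΩ w O).Gm u b a))) := by
    intro a b
    show (B hΩ (w p) (U2 hΩ u (w a) (w b))).1 O = (cj (D hΩ (w p) (U2 hΩ u (w b) (w a)))).1 O
    rw [← B_cj, cj_U2 hΩ hu]
  have h2 : ∀ b, (jet hΩ w O).ev ((jet hΩ w O).B p (ct β w k b)) =
      conj ((jet hΩ w O).ev ((jet hΩ w O).D p (bt β w k b))) := by
    intro b
    show (B hΩ (w p) (cj (β k (w b)))).1 O = (cj (D hΩ (w p) (β k (w b)))).1 O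
    rw [← B_cj]
  rw [Ff, Ef, map_sub, map_sum, h2]
  congr 1
  refine Finset.sum_congr rfl fun a _ => ?_
  rw [map_mul, h1, mul_comm]
  rfl

theorem core (hΩ : IsOpen Ω) {u f : Sm Ω} (hu : cj u = u)
    (e w : Module.Basis (Fin n) ℂ V) (O : Ω)
    (hw : ∀ a b, (U2 hΩ u (w a) (w b)).1 O = if a = b then 1 else 0)
    {c0 : ℂ} (hc0 : c0 ≠ 0)
    (hdet : ∀ z : Ω, ((Matrix.of fun i j => U2 hΩ u (e i) (e j)).det).1 z = c0 * exp (f.1 z))
    {K : ℝ} (hf : ∀ ξ : V, ((U2 hΩ f ξ ξ).1 O).re ≤ K * ((U2 hΩ u ξ ξ).1 O).re)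
    (β : ι → V →ₗ[ℂ] Sm Ω) (hβ : ∀ k ξ η, B hΩ η (β k ξ) = 0)
    {L : Sm Ω} (hL : cj L = L) {H : Matrix (Fin n) (Fin n) (Sm Ω)}
    (hH : (jet hΩ w O).Gm u * H = 1)
    (hS : ∀ z : Ω, (Sf H (bt β w) (ct β w)).1 z = exp (L.1 z)) :
    -K ≤ ∑ p, ((U2 hΩ L (w p) (w p)).1 O).re := by
  classical
  set J := jet hΩ w O with hJ
  -- `log det` in the frame
  obtain ⟨c, hc, hdet'⟩ := det_frame hΩ e w u
  have hdw : ∀ z : Ω, ((J.Gm u).det).1 z = (c * c0) * exp (f.1 z) := by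
    intro z
    have h2 := hdet' z
    rw [hdet z] at h2
    rw [mul_assoc]
    exact h2
  have hlog : ∀ p, J.B p f = Matrix.trace (H * mD (J.B p) (J.Gm u)) := fun p =>
    dlog hΩ hH (mul_ne_zero hc hc0) f hdw _ _ _
  have hG : mE J.ev (J.Gm u) = 1 := by
    ext a b
    show (U2 hΩ u (w a) (w b)).1 O = _
    rw [hw, Matrix.one_apply]
  have hβ' : ∀ q k a, J.B q (bt β w k a) = 0 := fun q k a => hβ k _ _
  have hγ' : ∀ q k a, J.D q (ct β w k a) = 0 := by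
    intro q k a
    show D hΩ (w q) (cj (β k (w a))) = 0
    rw [D_cj, hβ]
    exact Sm.ext' fun z => by simp
  set S : Sm Ω := Sf H (bt β w) (ct β w) with hSdef
  -- values
  set s : ℝ := ∑ k, ∑ b, ‖(β k (w b)).1 O‖ ^ 2 with hs
  have hnorm : ∀ x : ℂ, x * conj x = ((‖x‖ ^ 2 : ℝ) : ℂ) := fun x => by
    rw [mul_conj, normSq_eq_norm_sq]
  have hSO : S.1 O = (s : ℂ) := by
    have h1 := ev_Sf (J := J) hH hG (bt β w) (ct β w)
    rw [hs]
    push_cast
    refine Eq.trans h1 ?_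
    refine Finset.sum_congr rfl fun k _ => Finset.sum_congr rfl fun b _ => ?_
    have := hnorm ((β k (w b)).1 O)
    push_cast at this
    exact this
  have hspos : 0 < s := by
    have h1 := hS O
    rw [hSO, re_eq hL O, ← ofReal_exp] at h1
    have h2 : s = Real.exp (L.1 O).re := by exact_mod_cast h1
    rw [h2]; exact Real.exp_pos _
  set x : Fin n → ℂ := fun p => (D hΩ (w p) L).1 O with hx
  have hxB : ∀ p, (B hΩ (w p) L).1 O = conj (x p) := by
    intro p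
    have : B hΩ (w p) L = cj (D hΩ (w p) L) := by rw [← B_cj, hL]
    rw [this]; rfl
  set l : Fin n → ℂ := fun p => (U2 hΩ L (w p) (w p)).1 O with hl
  have hDS : ∀ p, J.ev (J.D p S) = s * x p := by
    intro p
    show (D hΩ (w p) S).1 O = _
    rw [D_exp hΩ hS]
    show S.1 O * (D hΩ (w p) L).1 O = _
    rw [hSO]
  have hDBS : ∀ p, J.ev (J.D p (J.B p S)) = s * (l p + x p * conj (x p)) := by
    intro p
    show (D hΩ (w p) (B hΩ (w p) S)).1 O = _
    rw [B_exp hΩ hS, Derivation.leibniz, D_exp hΩ hS]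
    show S.1 O * (D hΩ (w p) (B hΩ (w p) L)).1 O + (B hΩ (w p) L).1 O * (S.1 O * (D hΩ (w p) L).1 O)
      = _
    rw [hSO, hxB]
    show (s : ℂ) * l p + conj (x p) * (s * x p) = _
    ring
  -- the identities
  set E : ι → Fin n → Fin n → ℂ := Ef J u (bt β w) with hE
  have hF : ∀ k p b, Ff J u (ct β w) k p b = conj (E k p b) := fun k p b =>
    Ff_eq hΩ hu w O β k p b
  have hlap := lap_Sf (J := J) hH hG hlog (bt β w) (ct β w) hβ' hγ'
  have hdS : ∀ p, (s : ℂ) * x p = ∑ k, ∑ b, E k p b * conj ((β k (w b)).1 O) := by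
    intro p
    rw [← hDS p]
    exact D_Sf (J := J) hH hG (bt β w) (ct β w) hγ' p
  -- the Ricci term
  set ξ : ι → V := fun k => ∑ b, conj ((β k (w b)).1 O) • w b with hξ
  have hric : ∑ k, ∑ a, ∑ b, J.ev (J.D b (J.B a f)) * (J.ev (bt β w k a) * J.ev (ct β w k b))
      = ∑ k, (U2 hΩ f (ξ k) (ξ k)).1 O := by
    refine Finset.sum_congr rfl fun k _ => ?_
    rw [hξ]
    simp only
    rw [U2_expand, Finset.sum_comm]
    refine Finset.sum_congr rfl fun b _ => Finset.sum_congr rfl fun a _ => ?_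
    rw [conj_conj]
    show (U2 hΩ f (w b) (w a)).1 O * ((β k (w a)).1 O * conj ((β k (w b)).1 O)) = _
    ring
  have hricle : (∑ k, (U2 hΩ f (ξ k) (ξ k)).1 O).re ≤ K * s := by
    rw [re_sum, hs, Finset.mul_sum]
    refine Finset.sum_le_sum fun k _ => ?_
    refine (hf (ξ k)).trans (le_of_eq ?_)
    congr 1
    have h1 : (U2 hΩ u (ξ k) (ξ k)).1 O = ((∑ b, ‖(β k (w b)).1 O‖ ^ 2 : ℝ) : ℂ) := by
      rw [hξ]
      simp only
      rw [U2_expand]
      simp only [hw, mul_ite, mul_one, mul_zero, Finset.sum_ite_eq, Finset.mem_univ, if_true]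
      push_cast
      refine Finset.sum_congr rfl fun b _ => ?_
      rw [conj_conj, mul_comm]
      have := hnorm ((β k (w b)).1 O)
      push_cast at this
      exact this
    rw [h1, ofReal_re]
  -- Cauchy-Schwarz
  have hcs : ∀ p, s * ‖x p‖ ^ 2 ≤ ∑ k, ∑ b, ‖E k p b‖ ^ 2 := by
    intro p
    have h1 : ‖(s : ℂ) * x p‖ ^ 2 ≤ (∑ k, ∑ b, ‖E k p b‖ ^ 2) * s := by
      rw [hdS p, ← Finset.sum_product', ← Finset.sum_product' (f := fun k b => ‖E k p b‖ ^ 2), hs,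
        ← Finset.sum_product' (f := fun k b => ‖(β k (w b)).1 O‖ ^ 2)]
      refine (cs _ (fun i : ι × Fin n => E i.1 p i.2)
        (fun i => conj ((β i.1 (w i.2)).1 O))).trans (le_of_eq ?_)
      simp only [norm_conj]
    rw [norm_mul, norm_real, Real.norm_eq_abs, mul_pow, sq_abs] at h1
    have h2 : s * (s * ‖x p‖ ^ 2) ≤ s * ∑ k, ∑ b, ‖E k p b‖ ^ 2 := by nlinarith [h1]
    exact le_of_mul_le_mul_left h2 hspos
  -- real part of the Bochner formula
  have hre : s * (∑ p, ((l p).re + ‖x p‖ ^ 2)) = ∑ k, ∑ p, ∑ b, ‖E k p b‖ ^ 2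
      - (∑ k, (U2 hΩ f (ξ k) (ξ k)).1 O).re := by
    have h1 : ∑ p, J.ev (J.D p (J.B p S)) = ((s * ∑ p, ((l p).re + ‖x p‖ ^ 2) : ℝ) : ℂ) := by
      simp only [hDBS]
      push_cast
      rw [Finset.mul_sum]
      refine Finset.sum_congr rfl fun p _ => ?_
      have h2 : l p = ((l p).re : ℂ) := re_eq (cj_U2 hΩ hL (w p) (w p)) O
      have h3 := hnorm (x p)
      push_cast at h3
      rw [h3]
      conv_lhs => rw [h2]
    rw [h1, hric] at hlap
    have h4 : ∑ k, ∑ p, ∑ b, Ef J u (bt β w) k p b * Ff J u (ct β w) k p b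
        = ((∑ k, ∑ p, ∑ b, ‖E k p b‖ ^ 2 : ℝ) : ℂ) := by
      push_cast
      refine Finset.sum_congr rfl fun k _ => Finset.sum_congr rfl fun p _ =>
        Finset.sum_congr rfl fun b _ => ?_
      rw [hF]
      have := hnorm (E k p b)
      push_cast at this
      exact this
    rw [h4] at hlap
    have h5 := congrArg Complex.re hlap
    rw [ofReal_re, sub_re, ofReal_re] at h5
    exact h5
  have hsum : ∑ p, s * ‖x p‖ ^ 2 ≤ ∑ k, ∑ p, ∑ b, ‖E k p b‖ ^ 2 := by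
    rw [Finset.sum_comm]
    exact Finset.sum_le_sum fun p _ => hcs p
  have hfin : s * (-K) ≤ s * ∑ p, (l p).re := by
    have h1 : s * (∑ p, ((l p).re + ‖x p‖ ^ 2)) = s * (∑ p, (l p).re) + ∑ p, s * ‖x p‖ ^ 2 := by
      rw [Finset.sum_add_distrib, mul_add, Finset.mul_sum (f := fun p => ‖x p‖ ^ 2)]
    linarith [hre, hricle, hsum, h1]
  exact le_of_mul_le_mul_left hfin hspos

end Crest.Agent.R257.CLB_39
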