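import Crest.Agent.R257.CLB_39
import Crest.Agent.R266.Osgood

/-!
# Row 257 (S0395), leaf E-CL (helper39), part C: the Chern-Lu inequality for real functions

`trH u p z = tr ((∂∂̄u)⁻¹ ∂∂̄p)` (`= Δ_ω p`, `ω = i∂∂̄u`).  If `det ∂∂̄u = e^f`, `∂∂̄f ≤ K ∂∂̄u` and
`∂∂̄p = e^{-om} ∑ β_k β_k^*` with holomorphic `β_k`, then `Δ log Δp ≥ -K - Δ om` where `Δ p > 0`.
-/

set_option autoImplicit false
set_option linter.unusedSectionVars false

open Set Filter Topology Complex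
open scoped ContDiff ComplexConjugate Matrix

namespace Crest.Agent.R257.CLC_39

open Crest.Agent.R273.YSm_812 Crest.Agent.R273.YJet_812 Crest.Agent.R273.YC3_812
open Crest.Agent.R273.YauC3_812 Crest.Agent.R273.Defs_333 Crest.Agent.R273.YauDefs_635
open Crest.Agent.R257.CLA_39 Crest.Agent.R257.CLB_39

variable {n : ℕ} {ι : Type*} [Fintype ι]

/-- `Δ_ω p` for `ω = i∂∂̄u` -/
noncomputable def trH (u p : W n → ℝ) (z : W n) : ℝ := (((cH u z)⁻¹ * cH p z).trace).re

/-! ### linear algebra -/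

theorem trace_congr_frame (C G P : Matrix (Fin n) (Fin n) ℂ) (hC : IsUnit C.det) :
    ((C * G * Cᴴ)⁻¹ * (C * P * Cᴴ)).trace = (G⁻¹ * P).trace := by
  have hCH : IsUnit (Cᴴ).det := by
    rw [Matrix.det_conjTranspose]
    exact hC.star
  rw [Matrix.mul_inv_rev, Matrix.mul_inv_rev]
  have h1 : (Cᴴ)⁻¹ * (G⁻¹ * C⁻¹) * (C * P * Cᴴ) = (Cᴴ)⁻¹ * (G⁻¹ * P * Cᴴ) := by
    calc (Cᴴ)⁻¹ * (G⁻¹ * C⁻¹) * (C * P * Cᴴ) = (Cᴴ)⁻¹ * (G⁻¹ * ((C⁻¹ * C) * P) * Cᴴ) := by
          simp only [Matrix.mul_assoc]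
      _ = _ := by rw [Matrix.nonsing_inv_mul C hC, Matrix.one_mul]
  rw [h1, Matrix.trace_mul_comm, Matrix.mul_assoc, Matrix.mul_nonsing_inv _ hCH, Matrix.mul_one]

theorem trace_real {G P : Matrix (Fin n) (Fin n) ℂ} (hG : G.IsHermitian) (hP : P.IsHermitian) :
    ((G⁻¹ * P).trace).im = 0 := by
  have h1 : (starRingEnd ℂ) ((G⁻¹ * P).trace) = (G⁻¹ * P).trace := by
    have h2 := Matrix.trace_conjTranspose (G⁻¹ * P)
    rw [Matrix.conjTranspose_mul, hP.eq, hG.inv.eq, Matrix.trace_mul_comm] at h2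
    exact h2.symm
  exact Complex.conj_eq_iff_im.1 h1

/-! ### the algebra and real functions -/

theorem hermitian_cH {U : Set (W n)} (hU : IsOpen U) {u : W n → ℝ} (hu : ContDiffOn ℝ ∞ u U)
    {z : W n} (hz : z ∈ U) : (cH u z).IsHermitian := by
  ext a b
  rw [Matrix.conjTranspose_apply, cH_eq hU hu ⟨z, hz⟩, cH_eq hU hu ⟨z, hz⟩]
  exact conj_U2 hU (cj_rl u hu) _ _ _

/-- the matrix of `∂∂̄u` in a frame -/
noncomputable def fm {Ω : Set (W n)} (hΩ : IsOpen Ω) (u : Sm Ω) (w : Fin n → W n) (z : Ω) :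
    Matrix (Fin n) (Fin n) ℂ := Matrix.of fun i j => (U2 hΩ u (w i) (w j)).1 z

theorem fm_eb {Ω : Set (W n)} (hΩ : IsOpen Ω) {u : W n → ℝ} (hu : ContDiffOn ℝ ∞ u Ω) (z : Ω) :
    fm hΩ (rl u hu) (eb n) z = cH u z := by
  ext a b
  rw [cH_eq hΩ hu z]
  rfl

theorem fm_frame {Ω : Set (W n)} (hΩ : IsOpen Ω) (w : Module.Basis (Fin n) ℂ (W n)) :
    ∃ C : Matrix (Fin n) (Fin n) ℂ, IsUnit C.det ∧ ∀ (u : Sm Ω) (z : Ω),
      fm hΩ u w z = C * fm hΩ u (eb n) z * Cᴴ := by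
  let C : Matrix (Fin n) (Fin n) ℂ := ((eb n).toMatrix w).transpose
  have hC : C.det ≠ 0 := by
    rw [Matrix.det_transpose]
    have : Invertible ((eb n).toMatrix w) := (eb n).invertibleToMatrix w
    exact (Matrix.isUnit_det_of_invertible ((eb n).toMatrix w)).ne_zero
  refine ⟨C, isUnit_iff_ne_zero.2 hC, fun u z => ?_⟩
  have hw : ∀ a, w a = ∑ i, C a i • eb n i := fun a => by
    have := (eb n).sum_toMatrix_smul_self w a
    rw [← this]
    rfl
  ext a b
  rw [fm, Matrix.of_apply, hw a, hw b, U2_expand]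
  simp only [fm, Matrix.mul_apply, Matrix.conjTranspose_apply, Matrix.of_apply, Finset.sum_mul]
  rw [Finset.sum_comm]
  refine Finset.sum_congr rfl fun i _ => Finset.sum_congr rfl fun j _ => ?_
  simp only [RCLike.star_def]
  ring

/-- a holomorphic function in the algebra -/
theorem contDiffOn_of_hol {Ω : Set (W n)} (hΩ : IsOpen Ω) {g : W n → ℂ}
    (hg : DifferentiableOn ℂ g Ω) : ContDiffOn ℝ ∞ g Ω := by
  have h1 : AnalyticOnNhd ℂ g Ω := Crest.Agent.R266.SCV.analyticOnNhd_of_differentiableOn hΩ hg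
  have h2 : ContDiffOn ℂ ∞ g Ω := h1.contDiffOn hΩ.uniqueDiffOn
  exact h2.restrict_scalars ℝ

theorem B_hol {Ω : Set (W n)} (hΩ : IsOpen Ω) {g : W n → ℂ} (hg : DifferentiableOn ℂ g Ω)
    (η : W n) : B hΩ η (mk g (contDiffOn_of_hol hΩ hg)) = 0 := by
  rw [B_mk]
  refine Sm.ext' fun z => ?_
  show db η g z = 0
  have h1 : HasFDerivAt g ((fderiv ℂ g z).restrictScalars ℝ) (z : W n) :=
    ((hg.differentiableAt (hΩ.mem_nhds z.2)).hasFDerivAt).restrictScalars ℝ
  rw [db, h1.fderiv]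
  show (fderiv ℂ g z η + I * fderiv ℂ g z (I • η)) / 2 = 0
  rw [map_smul, smul_eq_mul, ← mul_assoc, I_mul_I]
  ring

/-- the one-form with the components `b a` -/
noncomputable def form {Ω : Set (W n)} (b : Fin n → Sm Ω) : W n →ₗ[ℂ] Sm Ω :=
  ∑ a, ((eb n).coord a).smulRight (b a)

theorem form_apply {Ω : Set (W n)} (b : Fin n → Sm Ω) (ξ : W n) (z : Ω) :
    (form b ξ).1 z = ∑ a, ξ a * (b a).1 z := by
  have h1 : form b ξ = ∑ a, ξ a • b a := by
    simp only [form, LinearMap.sum_apply, LinearMap.smulRight_apply, Module.Basis.coord_apply,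
      eb_repr]
  rw [h1]
  show (ev z) _ = _
  simp only [map_sum, map_smul, smul_eq_mul, ev_apply]

theorem B_form {Ω : Set (W n)} (hΩ : IsOpen Ω) (b : Fin n → Sm Ω)
    (hb : ∀ a η, B hΩ η (b a) = 0) (ξ η : W n) : B hΩ η (form b ξ) = 0 := by
  have h1 : form b ξ = ∑ a, ξ a • b a := by
    simp only [form, LinearMap.sum_apply, LinearMap.smulRight_apply, Module.Basis.coord_apply,
      eb_repr]
  rw [h1, map_sum]
  simp only [Derivation.map_smul, hb, smul_zero, Finset.sum_const_zero]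

section main

variable {U : Set (W n)} (hU : IsOpen U) {u f p om : W n → ℝ} (hu : ContDiffOn ℝ ∞ u U)
  (hf : ContDiffOn ℝ ∞ f U) (hp : ContDiffOn ℝ ∞ p U) (hom : ContDiffOn ℝ ∞ om U)
  (hdet : ∀ z ∈ U, (cH u z).det = (Real.exp (f z) : ℂ))

include hU hu hp hdet in
theorem contDiffOn_trH : ContDiffOn ℝ ∞ (trH u p) U := by
  let G : Matrix (Fin n) (Fin n) (Sm U) := Matrix.of fun i j => U2 hU (rl u hu) (eb n i) (eb n j)
  let P : Matrix (Fin n) (Fin n) (Sm U) := Matrix.of fun i j => U2 hU (rl p hp) (eb n i) (eb n j)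
  have hdG : ∀ z : U, (G.det).1 z ≠ 0 := by
    intro z
    rw [det_eq hU hu z, hdet z z.2]
    exact_mod_cast (Real.exp_pos _).ne'
  obtain ⟨H, hH⟩ := exists_inv G hdG
  have h1 : ∀ z : U, ((H * P).trace).1 z = ((cH u z)⁻¹ * cH p z).trace := by
    intro z
    show ev z (H * P).trace = _
    rw [trace_mE, mE_mul]
    have hG : mE (ev z) G = cH u z := by
      ext a b
      rw [cH_eq hU hu z]; rfl
    have hP : mE (ev z) P = cH p z := by
      ext a b
      rw [cH_eq hU hp z]; rfl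
    have hHz : mE (ev z) H = (cH u z)⁻¹ := by
      symm
      apply Matrix.inv_eq_right_inv
      rw [← hG, ← mE_mul, hH]
      ext i j
      by_cases h : i = j
      · subst h; simp [mE]
      · simp [mE, Matrix.one_apply_ne h]
    rw [hP, hHz]
  have h2 : ContDiffOn ℝ ∞ (fun z => (ex ((H * P).trace).1 z).re) U :=
    reCLM.contDiff.comp_contDiffOn ((H * P).trace).2
  refine h2.congr fun z hz => ?_
  rw [ex_of_mem _ hz, h1 ⟨z, hz⟩]
  rfl

include hU hu hf hp hom hdet in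
/-- **Chern-Lu inequality.** -/
theorem chern_lu (hpos : ∀ z ∈ U, ∀ v : W n, v ≠ 0 → 0 < lev u z v) {K : ℝ}
    (hK : ∀ z ∈ U, ∀ v : W n, lev f z v ≤ K * lev u z v)
    (β : ι → Fin n → W n → ℂ) (hβ : ∀ k a, DifferentiableOn ℂ (β k a) U)
    (hcH : ∀ z ∈ U, ∀ a b, cH p z a b
      = (Real.exp (-(om z)) : ℂ) * ∑ k, β k a z * conj (β k b z))
    {z₀ : W n} (hz₀ : z₀ ∈ U) (hT : 0 < trH u p z₀) :
    -K ≤ trH u (fun z => Real.log (trH u p z) + om z) z₀ := by
  classical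
  have hTs := contDiffOn_trH hU hu hp hdet
  -- the open set where the trace is positive
  set Ω : Set (W n) := U ∩ (trH u p) ⁻¹' (Ioi 0) with hΩdef
  have hΩ : IsOpen Ω := hTs.continuousOn.isOpen_inter_preimage hU isOpen_Ioi
  have hsub : Ω ⊆ U := inter_subset_left
  have hTpos : ∀ z ∈ Ω, 0 < trH u p z := fun z hz => hz.2
  set O : Ω := ⟨z₀, hz₀, hT⟩ with hO
  have hu' := hu.mono hsub
  have hf' := hf.mono hsub
  have hp' := hp.mono hsub
  have hom' := hom.mono hsub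
  have hL' : ContDiffOn ℝ ∞ (fun z => Real.log (trH u p z) + om z) Ω :=
    ((hTs.mono hsub).log fun z hz => (hTpos z hz).ne').add hom'
  set uS : Sm Ω := rl u hu' with huS
  set fS : Sm Ω := rl f hf' with hfS
  set pS : Sm Ω := rl p hp' with hpS
  set LS : Sm Ω := rl _ hL' with hLS
  have hbs : ∀ k a, DifferentiableOn ℂ (β k a) Ω := fun k a => (hβ k a).mono hsub
  set bS : ι → Fin n → Sm Ω := fun k a => mk (β k a) (contDiffOn_of_hol hΩ (hbs k a)) with hbS
  set βS : ι → W n →ₗ[ℂ] Sm Ω := fun k => form (bS k) with hβS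
  have hposU : ∀ (z : Ω) (ξ : W n), ξ ≠ 0 → 0 < ((U2 hΩ uS ξ ξ).1 z).re := by
    intro z ξ hξ
    have h1 := hpos z (hsub z.2) ξ hξ
    rw [lev_eq4 hΩ hu' z ξ] at h1
    linarith
  obtain ⟨w, hw⟩ := exists_frame hΩ (cj_rl u hu') (eb n) O (hposU O)
  obtain ⟨C, hC, hfr⟩ := fm_frame hΩ w
  have hdetU : ∀ z : Ω, IsUnit (cH u z).det := fun z => by
    rw [hdet z (hsub z.2)]
    exact isUnit_iff_ne_zero.2 (by exact_mod_cast (Real.exp_pos _).ne')
  have hdet1 : ∀ z : Ω, ((Matrix.of fun i j => U2 hΩ uS (eb n i) (eb n j)).det).1 z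
      = 1 * exp (fS.1 z) := by
    intro z
    rw [huS, det_eq hΩ hu' z, hdet z (hsub z.2), hfS, rl_apply, one_mul]
    push_cast
    rfl
  -- inverse matrix in the frame
  have hevG : ∀ z : Ω, mE (ev z) ((jet hΩ w O).Gm uS) = fm hΩ uS w z := fun z => rfl
  have hfmdet : ∀ z : Ω, IsUnit (fm hΩ uS w z).det := by
    intro z
    rw [hfr, Matrix.det_mul, Matrix.det_mul, huS, fm_eb hΩ hu' z, Matrix.det_conjTranspose]
    exact (hC.mul (hdetU z)).mul hC.star
  obtain ⟨H, hH⟩ := exists_inv ((jet hΩ w O).Gm uS) (fun z => by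
    have h1 : (((jet hΩ w O).Gm uS).det).1 z = (fm hΩ uS w z).det := by
      show (ev z) _ = _
      rw [AlgHom.map_det]
      rfl
    rw [h1]
    exact (hfmdet z).ne_zero)
  have hHz : ∀ z : Ω, mE (ev z) H = (fm hΩ uS w z)⁻¹ := by
    intro z
    symm
    apply Matrix.inv_eq_right_inv
    rw [← hevG z, ← mE_mul, hH]
    ext i j
    by_cases h : i = j
    · subst h; simp [mE]
    · simp [mE, Matrix.one_apply_ne h]
  -- the traces
  have htr : ∀ (q : W n → ℝ) (hq : ContDiffOn ℝ ∞ q Ω) (z : Ω),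
      ((fm hΩ uS w z)⁻¹ * fm hΩ (rl q hq) w z).trace = (trH u q z : ℂ) := by
    intro q hq z
    rw [hfr, hfr, fm_eb hΩ hq z, huS, fm_eb hΩ hu' z, trace_congr_frame _ _ _ hC]
    apply Complex.ext
    · rw [ofReal_re]; rfl
    · rw [ofReal_im]
      exact trace_real (hermitian_cH hΩ hu' z.2) (hermitian_cH hΩ hq z.2)
  -- `p` in the frame
  have hpform : ∀ (z : Ω) (ξ η : W n), (∑ k, (βS k ξ).1 z * conj ((βS k η).1 z))
      = (Real.exp (om z) : ℂ) * (U2 hΩ pS ξ η).1 z := by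
    intro z ξ η
    have h1 : (U2 hΩ pS ξ η).1 z = ∑ i, ∑ j, ξ i * conj (η j) * cH p z i j := by
      conv_lhs => rw [← sum_eb ξ, ← sum_eb η]
      rw [U2_expand]
      refine Finset.sum_congr rfl fun i _ => Finset.sum_congr rfl fun j _ => ?_
      rw [cH_eq hΩ hp' z]
    rw [h1]
    have h2 : (Real.exp (om z) : ℂ) * (Real.exp (-(om z)) : ℂ) = 1 := by
      rw [← ofReal_mul, ← Real.exp_add]; simp
    have h3 : ∀ i j, cH p z i j = (Real.exp (-(om z)) : ℂ) * ∑ k, β k i z * conj (β k j z) :=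
      fun i j => hcH z (hsub z.2) i j
    simp only [h3]
    have h4 : ∀ k, (βS k ξ).1 z * conj ((βS k η).1 z)
        = ∑ i, ∑ j, ξ i * conj (η j) * (β k i z * conj (β k j z)) := by
      intro k
      rw [hβS]
      simp only
      rw [form_apply, form_apply, map_sum, Finset.sum_mul_sum]
      refine Finset.sum_congr rfl fun i _ => Finset.sum_congr rfl fun j _ => ?_
      rw [map_mul]
      show ξ i * β k i z * (conj (η j) * conj (β k j z)) = _
      ring
    simp only [h4]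
    rw [Finset.sum_comm, Finset.mul_sum]
    refine Finset.sum_congr rfl fun i _ => ?_
    rw [Finset.sum_comm, Finset.mul_sum]
    refine Finset.sum_congr rfl fun j _ => ?_
    rw [← Finset.mul_sum]
    calc ξ i * conj (η j) * ∑ k, β k i z * conj (β k j z)
        = ((Real.exp (om z) : ℂ) * (Real.exp (-(om z)) : ℂ))
          * (ξ i * conj (η j) * ∑ k, β k i z * conj (β k j z)) := by rw [h2, one_mul]
      _ = _ := by ring
  have hS : ∀ z : Ω, (Sf H (bt βS w) (ct βS w)).1 z = exp (LS.1 z) := by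
    intro z
    have h1 : (Sf H (bt βS w) (ct βS w)).1 z
        = ∑ a, ∑ b, (mE (ev z) H) b a * ∑ k, (βS k (w a)).1 z * conj ((βS k (w b)).1 z) := by
      show (ev z) _ = _
      simp only [Sf, map_sum, map_mul, Finset.mul_sum]
      rw [Finset.sum_comm]
      refine Finset.sum_congr rfl fun a _ => ?_
      rw [Finset.sum_comm]
      rfl
    have h2 : (Sf H (bt βS w) (ct βS w)).1 z
        = (Real.exp (om z) : ℂ) * ((fm hΩ uS w z)⁻¹ * fm hΩ pS w z).trace := by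
      rw [h1, hHz, Matrix.trace, Finset.mul_sum]
      simp only [Matrix.diag, Matrix.mul_apply, hpform]
      rw [Finset.sum_comm]
      refine Finset.sum_congr rfl fun b _ => ?_
      rw [Finset.mul_sum]
      refine Finset.sum_congr rfl fun a _ => ?_
      show _ = (Real.exp (om z) : ℂ) * ((fm hΩ uS w z)⁻¹ b a * (U2 hΩ pS (w a) (w b)).1 z)
      ring
    rw [h2, hpS, htr p hp' z, hLS, rl_apply]
    rw [← ofReal_exp, ← ofReal_mul]
    congr 1
    rw [Real.exp_add, Real.exp_log (hTpos z z.2), mul_comm]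
  have hKf : ∀ ξ : W n, ((U2 hΩ fS ξ ξ).1 O).re ≤ K * ((U2 hΩ uS ξ ξ).1 O).re := by
    intro ξ
    have h1 := hK z₀ hz₀ ξ
    have h2 := lev_eq4 hΩ hu' O ξ
    have h3 := lev_eq4 hΩ hf' O ξ
    have h4 : lev f z₀ ξ = 4 * ((U2 hΩ fS ξ ξ).1 O).re := h3
    have h5 : lev u z₀ ξ = 4 * ((U2 hΩ uS ξ ξ).1 O).re := h2
    rw [h4, h5] at h1
    nlinarith [h1]
  have hmain := core hΩ (u := uS) (f := fS) (cj_rl u hu') (eb n) w O hw one_ne_zero hdet1 hKf
    βS (fun k ξ η => B_form hΩ _ (fun a η => B_hol hΩ (hbs k a) η) ξ η) (L := LS) (cj_rl _ hL')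
    hH hS
  refine hmain.trans (le_of_eq ?_)
  -- the trace at `O`
  have hfm1 : fm hΩ uS w O = 1 := by
    ext a b
    show (U2 hΩ uS (w a) (w b)).1 O = _
    rw [hw, Matrix.one_apply]
  have h1 := htr _ hL' O
  rw [hfm1, inv_one, Matrix.one_mul] at h1
  have h2 := congrArg Complex.re h1
  rw [ofReal_re] at h2
  rw [← h2, Matrix.trace, re_sum]
  rfl

end main

end Crest.Agent.R257.CLC_39
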