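import Crest.Agent.R257.CLD_39

/-!
# Row 257 (S0395), leaf E-CL (helper39), part E: the maximum principle for traces on `(M, A)`

* `HF A D w`       : local potentials `w i` of a closed real (1,1)-form on the open set `D ⊆ M`
* `trM A u p x`    : the trace of the form of `p` with respect to the metric of `u`; `trM_eq`:
                     it is `trH (u i) (p i) (A.e i x)` in every chart
* `cl_max`         : `Δ log T ≥ -K₁ - c T`, `Δ h ≥ (c + θ) T - K₂` on `interior K`
                     imply `T e^h ≤ max (boundary, (K₁ + K₂)/θ e^h)`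
-/

set_option autoImplicit false
set_option linter.unusedSectionVars false

open Set Filter Topology Complex
open scoped ContDiff ComplexConjugate Matrix ComplexOrder

namespace Crest.Agent.R257.CLE_39

open Crest.Agent.R275.Geo Crest.Agent.R275.Core144 Crest.Agent.R275.GC293
open Crest.Agent.R273 Crest.Agent.R273.Defs_333 Crest.Agent.R273.YauDefs_635
open Crest.Agent.R273.YauMax_635 Crest.Agent.R273.HM_333 Crest.Agent.R273.Kah_333
open Crest.Agent.R273.Hess_333 Crest.Agent.R273.HessB_333 Crest.Agent.R273.FS_333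
open Crest.Agent.R257.CLC_39 Crest.Agent.R257.CLD_39

noncomputable section

variable {n : ℕ} {M : Type} [TopologicalSpace M] {A : Atl n M}

/-- the part of a chart domain over `D` -/
def dom (A : Atl n M) (D : Set M) (i : A.ι) : Set (Cn n) :=
  (A.e i).target ∩ (A.e i).symm ⁻¹' D

theorem isOpen_dom {D : Set M} (hD : IsOpen D) (i : A.ι) : IsOpen (dom A D i) :=
  (A.e i).isOpen_inter_preimage_symm hD

theorem mem_dom {D : Set M} {i : A.ι} {x : M} (hi : x ∈ (A.e i).source) (hx : x ∈ D) :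
    A.e i x ∈ dom A D i :=
  ⟨(A.e i).map_source hi, by rwa [mem_preimage, (A.e i).left_inv hi]⟩

/-- local potentials of a closed real (1,1)-form on `D` -/
structure HF (A : Atl n M) (D : Set M) (w : A.ι → Cn n → ℝ) : Prop where
  sm : ∀ i, ContDiffOn ℝ ∞ (w i) (dom A D i)
  tr : ∀ i j, ∀ x ∈ D, x ∈ (A.e i).source → x ∈ (A.e j).source →
    hess (w i) (A.e i x) = (Jm A i j x)ᵀ * hess (w j) (A.e j x) * (Jm A i j x).map conj

theorem HF.at {D : Set M} (hD : IsOpen D) {w : A.ι → Cn n → ℝ} (h : HF A D w) {i : A.ι} {x : M}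
    (hi : x ∈ (A.e i).source) (hx : x ∈ D) : ContDiffAt ℝ ∞ (w i) (A.e i x) :=
  (h.sm i).contDiffAt ((isOpen_dom hD i).mem_nhds (mem_dom hi hx))

theorem HF.mono {D D' : Set M} {w : A.ι → Cn n → ℝ} (h : HF A D w) (hD : D' ⊆ D) : HF A D' w where
  sm i := (h.sm i).mono fun _ hz => ⟨hz.1, hD hz.2⟩
  tr i j x hx := h.tr i j x (hD hx)

/-- a function -/
theorem HF.of_fun {D : Set M} (hD : IsOpen D) {φ : M → ℝ}
    (hφ : ∀ i, ContDiffOn ℝ ∞ (inC A i φ) (dom A D i)) : HF A D (fun i => inC A i φ) where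
  sm := hφ
  tr i j x hx hi hj := by
    have ho : IsOpen (A.ov i j) := isOpen_ov i j
    have hm : A.e i x ∈ A.ov i j := mem_ov ⟨hi, hj⟩
    refine hess_tr (f := fun _ => (1 : ℂ)) ⟨hi, hj⟩
      ((hφ i).contDiffAt ((isOpen_dom hD i).mem_nhds (mem_dom hi hx)))
      ((hφ j).contDiffAt ((isOpen_dom hD j).mem_nhds (mem_dom hj hx)))
      (Eventually.of_forall fun w => differentiableAt_const _) one_ne_zero ?_
    filter_upwards [ho.mem_nhds hm] with w hw
    simp only [inC]
    rw [(A.e j).left_inv hw.2]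
    simp

/-- the weights of a metric on a line bundle -/
theorem HF.of_wt {D : Set M} {L : LB A} (H : HM L) : HF A D H.wt where
  sm i := (wt_smooth H i).mono inter_subset_left
  tr _ _ _ _ hi hj := cur_tr H ⟨hi, hj⟩

theorem HF.add {D : Set M} (hD : IsOpen D) {w w' : A.ι → Cn n → ℝ} (h : HF A D w)
    (h' : HF A D w') : HF A D (fun i z => w i z + w' i z) where
  sm i := (h.sm i).add (h'.sm i)
  tr i j x hx hi hj := by
    rw [hess_add (h.at hD hi hx) (h'.at hD hi hx), hess_add (h.at hD hj hx) (h'.at hD hj hx),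
      h.tr i j x hx hi hj, h'.tr i j x hx hi hj, Matrix.mul_add, Matrix.add_mul]

theorem HF.const_mul {D : Set M} (hD : IsOpen D) {w : A.ι → Cn n → ℝ} (h : HF A D w) (c : ℝ) :
    HF A D (fun i z => c * w i z) where
  sm i := contDiffOn_const.mul (h.sm i)
  tr i j x hx hi hj := by
    rw [hess_const_mul c (h.at hD hi hx), hess_const_mul c (h.at hD hj hx),
      h.tr i j x hx hi hj, Matrix.mul_smul, Matrix.smul_mul]

theorem HF.of_pot {D : Set M} (hD : IsOpen D) {L : LB A} (H : HM L) {φ : M → ℝ} (hφ : A.Sm φ) :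
    HF A D (pot H φ) :=
  HF.add hD (HF.of_wt H) (HF.of_fun hD fun i => (hφ i).mono inter_subset_left)

theorem isUnit_Jm {i j : A.ι} {x : M} (hi : x ∈ (A.e i).source) (hj : x ∈ (A.e j).source) :
    IsUnit ((Jm A i j x)ᵀ).det := by
  rw [Matrix.det_transpose, ← KB_g ⟨hi, hj⟩]
  exact isUnit_iff_ne_zero.2 ((KB A).ne_zero i j x)

/-- the trace does not depend on the chart -/
theorem trH_indep {D : Set M} (hD : IsOpen D) {u p : A.ι → Cn n → ℝ} (hu : HF A D u)
    (hp : HF A D p) {x : M} (hx : x ∈ D) {i j : A.ι} (hi : x ∈ (A.e i).source)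
    (hj : x ∈ (A.e j).source) : trH (u i) (p i) (A.e i x) = trH (u j) (p j) (A.e j x) := by
  rw [trH_hess (hu.at hD hi hx) (hp.at hD hi hx), trH_hess (hu.at hD hj hx) (hp.at hD hj hx),
    hu.tr i j x hx hi hj, hp.tr i j x hx hi hj]
  have h1 : (Jm A i j x).map conj = ((Jm A i j x)ᵀ)ᴴ := by
    ext a b
    simp [Matrix.conjTranspose_apply]
  rw [h1, trace_congr_frame _ _ _ (isUnit_Jm hi hj)]

/-- the trace as a function on `M` -/
def trM (A : Atl n M) (u p : A.ι → Cn n → ℝ) (x : M) : ℝ :=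
  trH (u (A.cover x).choose) (p (A.cover x).choose) (A.e (A.cover x).choose x)

theorem trM_eq {D : Set M} (hD : IsOpen D) {u p : A.ι → Cn n → ℝ} (hu : HF A D u)
    (hp : HF A D p) {x : M} (hx : x ∈ D) {i : A.ι} (hi : x ∈ (A.e i).source) :
    trM A u p x = trH (u i) (p i) (A.e i x) :=
  trH_indep hD hu hp hx (A.cover x).choose_spec hi

section cl

variable {D : Set M} (hD : IsOpen D) {u p f : A.ι → Cn n → ℝ} (hu : HF A D u) (hp : HF A D p)
  (hdet : ∀ i, ∀ z ∈ dom A D i, (cH (u i) z).det = (Real.exp (f i z) : ℂ))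
  (hpos : ∀ i, ∀ z ∈ dom A D i, ∀ v : Cn n, v ≠ 0 → 0 < lev (u i) z v)

include hD hu hp hdet in
theorem contDiffOn_tr (i : A.ι) : ContDiffOn ℝ ∞ (trH (u i) (p i)) (dom A D i) :=
  contDiffOn_trH (isOpen_dom hD i) (hu.sm i) (hp.sm i) (hdet i)

include hD hu hp hdet in
theorem continuousOn_trM : ContinuousOn (trM A u p) D := by
  intro x hx
  obtain ⟨i, hi⟩ := A.cover x
  have h1 : ContinuousAt (trH (u i) (p i)) (A.e i x) :=
    ((contDiffOn_tr hD hu hp hdet i).contDiffAt
      ((isOpen_dom hD i).mem_nhds (mem_dom hi hx))).continuousAt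
  have h2 : ContinuousAt (fun y => trH (u i) (p i) (A.e i y)) x :=
    ContinuousAt.comp (f := A.e i) h1 ((A.e i).continuousAt hi)
  refine (h2.congr ?_).continuousWithinAt
  filter_upwards [(A.e i).open_source.mem_nhds hi, hD.mem_nhds hx] with y hy hyD
  exact (trM_eq hD hu hp hyD hy).symm

include hD in
theorem continuousOn_fun {h : M → ℝ} (hh : ∀ i, ContDiffOn ℝ ∞ (inC A i h) (dom A D i)) :
    ContinuousOn h D := by
  intro x hx
  obtain ⟨i, hi⟩ := A.cover x
  have h1 : ContinuousAt (inC A i h) (A.e i x) :=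
    ((hh i).contDiffAt ((isOpen_dom hD i).mem_nhds (mem_dom hi hx))).continuousAt
  have h2 : ContinuousAt (fun y => inC A i h (A.e i y)) x :=
    ContinuousAt.comp (f := A.e i) h1 ((A.e i).continuousAt hi)
  refine (h2.congr ?_).continuousWithinAt
  filter_upwards [(A.e i).open_source.mem_nhds hi] with y hy
  simp [inC, (A.e i).left_inv hy]

include hD hu hp hdet hpos in
/-- **maximum principle for Chern-Lu** -/
theorem cl_max {K : Set M} (hK : IsCompact K) (hKD : K ⊆ D) {h : M → ℝ}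
    (hh : ∀ i, ContDiffOn ℝ ∞ (inC A i h) (dom A D i)) {K₁ K₂ c θ B : ℝ} (hθ : 0 < θ)
    (hCL : ∀ i, ∀ z ∈ dom A D i, 0 < trH (u i) (p i) z →
      -K₁ - c * trH (u i) (p i) z ≤ trH (u i) (fun z => Real.log (trH (u i) (p i) z)) z)
    (hlap : ∀ i, ∀ x ∈ interior K, x ∈ (A.e i).source →
      (c + θ) * trH (u i) (p i) (A.e i x) - K₂ ≤ trH (u i) (inC A i h) (A.e i x))
    (hB0 : 0 ≤ B) (hbd : ∀ x ∈ K, x ∉ interior K → trM A u p x * Real.exp (h x) ≤ B)
    (hB : ∀ x ∈ K, (K₁ + K₂) / θ * Real.exp (h x) ≤ B) :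
    ∀ x ∈ K, trM A u p x * Real.exp (h x) ≤ B := by
  intro x hx
  have hcont : ContinuousOn (fun x => trM A u p x * Real.exp (h x)) K :=
    ((continuousOn_trM hD hu hp hdet).mul
      (Real.continuous_exp.comp_continuousOn (continuousOn_fun hD hh))).mono hKD
  obtain ⟨y, hyK, hy⟩ := hK.exists_isMaxOn ⟨x, hx⟩ hcont
  refine le_trans (hy hx) ?_
  show trM A u p y * Real.exp (h y) ≤ B
  by_cases hyi : y ∈ interior K
  swap
  · exact hbd y hyK hyi
  obtain ⟨i, hi⟩ := A.cover y
  have hyD : y ∈ D := hKD hyK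
  set z := A.e i y with hz
  have hzd : z ∈ dom A D i := mem_dom hi hyD
  have hTy : trM A u p y = trH (u i) (p i) z := trM_eq hD hu hp hyD hi
  rcases le_or_gt (trM A u p y) 0 with h0 | h0
  · exact (mul_nonpos_of_nonpos_of_nonneg h0 (Real.exp_pos _).le).trans hB0
  have hT0 : 0 < trH (u i) (p i) z := by rwa [← hTy]
  have hn : dom A D i ∈ 𝓝 z := (isOpen_dom hD i).mem_nhds hzd
  have hTs : ContDiffAt ℝ ∞ (trH (u i) (p i)) z := (contDiffOn_tr hD hu hp hdet i).contDiffAt hn
  have hhs : ContDiffAt ℝ ∞ (inC A i h) z := (hh i).contDiffAt hn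
  have hus : ContDiffAt ℝ ∞ (u i) z := hu.at hD hi hyD
  have hls : ContDiffAt ℝ ∞ (fun z => Real.log (trH (u i) (p i) z)) z := hTs.log hT0.ne'
  -- local maximum in the chart
  have hev : ∀ w ∈ dom A D i, trM A u p ((A.e i).symm w) = trH (u i) (p i) w := fun w hw => by
    rw [trM_eq hD hu hp hw.2 ((A.e i).map_target hw.1), (A.e i).right_inv hw.1]
  have hloc : ∀ᶠ w in 𝓝 y, trM A u p w * Real.exp (h w) ≤ trM A u p y * Real.exp (h y) := by
    filter_upwards [mem_interior_iff_mem_nhds.1 hyi] with w hw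
    exact hy hw
  have htend : Tendsto (A.e i).symm (𝓝 z) (𝓝 y) := by
    have := (A.e i).continuousAt_symm ((A.e i).map_source hi)
    rw [ContinuousAt, (A.e i).left_inv hi] at this
    exact this
  have hmax : IsLocalMax (fun w => Real.log (trH (u i) (p i) w) + inC A i h w) z := by
    filter_upwards [htend.eventually hloc, hn,
      hTs.continuousAt.eventually (lt_mem_nhds hT0)] with w hw hwd hwT
    rw [hev w hwd, hTy] at hw
    have h1 : Real.log (trH (u i) (p i) w * Real.exp (h ((A.e i).symm w)))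
        ≤ Real.log (trH (u i) (p i) z * Real.exp (h y)) :=
      Real.log_le_log (mul_pos hwT (Real.exp_pos _)) hw
    rw [Real.log_mul hwT.ne' (Real.exp_pos _).ne', Real.log_mul hT0.ne' (Real.exp_pos _).ne',
      Real.log_exp, Real.log_exp] at h1
    have h2 : inC A i h z = h y := by simp only [inC, hz, (A.e i).left_inv hi]
    rw [h2]
    exact h1
  have h1 := trH_nonpos_of_localMax hus (hpos i z hzd) (hls.add hhs) hmax
  have h2 := trH_add hus hls hhs
  have h3 := hCL i z hzd hT0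
  have h4 := hlap i y hyi hi
  have h5 : θ * trH (u i) (p i) z ≤ K₁ + K₂ := by
    have h6 : trH (u i) (fun w => Real.log (trH (u i) (p i) w) + inC A i h w) z ≤ 0 := h1
    rw [h2] at h6
    nlinarith [h3, h4, h6]
  have h6 : trM A u p y ≤ (K₁ + K₂) / θ := by
    rw [hTy, le_div_iff₀ hθ]
    linarith
  exact (mul_le_mul_of_nonneg_right h6 (Real.exp_pos _).le).trans (hB y hyK)

end cl

end

end Crest.Agent.R257.CLE_39
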