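import Crest.Agent.R257.CLE_39

/-!
# Row 257 (S0395), leaf E-CL (helper39), part F: the global estimate (4a)

* `cl_global`  : `tr_ω ω_FS ≤ (K + 3n/κ) exp (3/κ (φ - ρ - m))` on a compact manifold
* `cl_local`   : (4b), abstract: a bound of `tr_ω ω_eucl` on the boundary propagates inside
-/

set_option autoImplicit false
set_option linter.unusedSectionVars false

open Set Filter Topology Complex
open scoped ContDiff ComplexConjugate Matrix ComplexOrder

namespace Crest.Agent.R257.CLF_39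

open Crest.Agent.R275.Geo Crest.Agent.R275.Core144 Crest.Agent.R275.GC293
open Crest.Agent.R273 Crest.Agent.R273.Defs_333 Crest.Agent.R273.YauDefs_635
open Crest.Agent.R273.YauMax_635 Crest.Agent.R273.HM_333 Crest.Agent.R273.Kah_333
open Crest.Agent.R273.Hess_333 Crest.Agent.R273.HessB_333 Crest.Agent.R273.FS_333
open Crest.Agent.R257.CLC_39 Crest.Agent.R257.CLD_39 Crest.Agent.R257.CLE_39

noncomputable section

variable {n : ℕ} {M : Type} [TopologicalSpace M] {A : Atl n M}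

theorem dom_univ (i : A.ι) : dom A univ i = (A.e i).target := by
  simp [dom]

/-- the local lift in a chart -/
def FF (P : ProjD A) (i : A.ι) : Cn n → Fin (P.N + 1) → ℂ := fun w => P.F i ((A.e i).symm w)

theorem wt_fs (P : ProjD A) (i : A.ι) :
    (fs P).wt i = fun w => Real.log (sq (FF P i) w) := by
  funext w
  simp only [HM.wt, fs, Real.log_inv, neg_neg]
  rfl

theorem hol_FF (P : ProjD A) (i : A.ι) (k : Fin (P.N + 1)) :
    DifferentiableOn ℂ (fun w => FF P i w k) (A.e i).target := by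
  have := P.hol i k
  unfold HolAt at this
  simpa [FF] using this

theorem FF_ne (P : ProjD A) (i : A.ι) {z : Cn n} (hz : z ∈ (A.e i).target) : FF P i z ≠ 0 :=
  P.ne i _ ((A.e i).map_target hz)

section glob

variable {L : LB A} (H : HM L) (P : ProjD A) {φ ρ : M → ℝ} (hφ : A.Sm φ) (hρ : A.Sm ρ)
  (hKP : KPos H φ) {f : A.ι → Cn n → ℝ} (hf : ∀ i, ContDiffOn ℝ ∞ (f i) (A.e i).target)
  (hdet : ∀ i, ∀ z ∈ (A.e i).target, (cH (pot H φ i) z).det = (Real.exp (f i z) : ℂ))
  {K κ : ℝ} (hK0 : 0 ≤ K)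
  (hfK : ∀ i, ∀ z ∈ (A.e i).target, ∀ v : Cn n, lev (f i) z v ≤ K * lev (pot H φ i) z v)
  (hκ : 0 < κ)
  (hρκ : ∀ i, ∀ z ∈ (A.e i).target, ∀ v : Cn n,
    κ * lev ((fs P).wt i) z v ≤ lev (pot H ρ i) z v)

include hφ hρ hKP hf hdet hK0 hfK hκ hρκ in
/-- **(4a)** -/
theorem cl_global [CompactSpace M] {m : ℝ} (hm : ∀ x, m ≤ φ x - ρ x) :
    ∀ x, trM A (pot H φ) (fs P).wt x
      ≤ (K + 3 * n / κ) * Real.exp (3 / κ * (φ x - ρ x - m)) := by
  have hDo : IsOpen (univ : Set M) := isOpen_univ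
  have hu : HF A univ (pot H φ) := HF.of_pot hDo H hφ
  have hp : HF A univ (fs P).wt := HF.of_wt (fs P)
  have hsm : A.Sm (fun x => -(3 / κ) * (φ x - ρ x)) := fun i =>
    contDiffOn_const.mul ((hφ i).sub (hρ i))
  have hdet' : ∀ i, ∀ z ∈ dom A univ i, (cH (pot H φ i) z).det = (Real.exp (f i z) : ℂ) :=
    fun i z hz => hdet i z hz.1
  have hpos' : ∀ i, ∀ z ∈ dom A univ i, ∀ v : Cn n, v ≠ 0 → 0 < lev (pot H φ i) z v :=
    fun i z hz => hKP i z hz.1
  have key := cl_max hDo hu hp hdet' hpos' (K := univ) isCompact_univ (subset_refl _)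
    (h := fun x => -(3 / κ) * (φ x - ρ x))
    (fun i => (hsm i).mono inter_subset_left) (K₁ := K) (K₂ := 3 * n / κ) (c := 2) (θ := 1)
    (B := (K + 3 * n / κ) * Real.exp (-(3 / κ) * m)) one_pos
    (fun i z hz hT => by
      have hz' : z ∈ (A.e i).target := hz.1
      have h1 := chern_lu_fs (A.e i).open_target
        (u := pot H φ i) (f := f i)
        (fun w hw => (pot_contDiffAt H hφ i hw).contDiffWithinAt) (hf i) (hdet i)
        (fun w hw => hKP i w hw) (hfK i) (hol_FF P i) (fun w hw => FF_ne P i hw) hz'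
        (by rw [← wt_fs]; exact hT)
      rw [← wt_fs] at h1
      exact h1)
    (fun i x _ hi => by
      have hz := (A.e i).map_source hi
      set z := A.e i x with hzd
      have c1 := pot_contDiffAt H hφ i hz
      have c2 := pot_contDiffAt H hρ i hz
      have c3 := wt_contDiffAt (fs P) i hz
      have e1 : inC A i (fun x => -(3 / κ) * (φ x - ρ x))
          = fun w => -(3 / κ) * (pot H φ i w - pot H ρ i w) := by
        funext w
        simp only [inC, pot]
        ring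
      rw [e1, trH_const_mul c1 (c1.sub c2), trH_sub c1 c1 c2, trH_self c1 (hKP i z hz)]
      have h2 := trH_mono c1 (hKP i z hz) (contDiffAt_const.mul c3) c2 (fun v => by
        rw [lev_const_mul' c3 κ]
        exact hρκ i z hz v)
      rw [trH_const_mul c1 c3] at h2
      have h3 : -(3 / κ) * ((n : ℝ) - trH (pot H φ i) (pot H ρ i) z)
          = 3 / κ * trH (pot H φ i) (pot H ρ i) z - 3 * n / κ := by ring
      rw [h3]
      have h4 : 3 / κ * (κ * trH (pot H φ i) ((fs P).wt i) z)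
          ≤ 3 / κ * trH (pot H φ i) (pot H ρ i) z :=
        mul_le_mul_of_nonneg_left h2 (by positivity)
      have h5 : 3 / κ * (κ * trH (pot H φ i) ((fs P).wt i) z)
          = 3 * trH (pot H φ i) ((fs P).wt i) z := by
        field_simp
      linarith)
    (by positivity)
    (fun x _ hx => absurd (by simp) hx)
    (fun x _ => by
      rw [div_one]
      refine mul_le_mul_of_nonneg_left (Real.exp_le_exp.2 ?_) (by positivity)
      have h1 := hm x
      have h2 : 0 ≤ 3 / κ := by positivity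
      nlinarith)
  intro x
  have h1 := key x (mem_univ x)
  have h2 : Real.exp (3 / κ * (φ x - ρ x - m))
      = Real.exp (-(3 / κ) * m) * (Real.exp (-(3 / κ) * (φ x - ρ x)))⁻¹ := by
    rw [← Real.exp_neg, ← Real.exp_add]
    congr 1
    ring
  rw [h2, ← mul_assoc, ← div_eq_mul_inv, le_div_iff₀ (Real.exp_pos _)]
  exact h1

end glob

section lev

variable {N : ℕ} {U : Set (Cn n)} (hU : IsOpen U) {F : Cn n → Fin N → ℂ}
  (hF : ∀ k, DifferentiableOn ℂ (fun z => F z k) U)

include hU hF in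
/-- the Levi form of `∑ |F_k|²` -/
theorem lev_sq {z : Cn n} (hz : z ∈ U) (v : Cn n) :
    lev (FS_333.sq F) z v = 4 * ∑ k, ‖fderiv ℂ (fun z => F z k) z v‖ ^ 2 := by
  have hs : ContDiffAt ℝ ∞ (FS_333.sq F) z := (contDiffOn_sq hU hF).contDiffAt (hU.mem_nhds hz)
  have hexp : ∀ k, fderiv ℂ (fun z => F z k) z v =
      ∑ a, v a * fderiv ℂ (fun z => F z k) z (EuclideanSpace.single a 1) := by
    intro k
    have hv : v = ∑ c, v c • (EuclideanSpace.single c (1 : ℂ) : Cn n) := by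
      ext d
      simp [Finset.sum_apply, Pi.single_apply]
    conv_lhs => rw [hv, map_sum]
    simp
  apply Complex.ofReal_injective
  rw [lev_eq hs]
  unfold hq
  simp only [hess_sq hU hF hz]
  push_cast
  congr 1
  have h1 : ∀ k, ((‖fderiv ℂ (fun z => F z k) z v‖ : ℂ)) ^ 2
      = ∑ a, ∑ b, (v a * fderiv ℂ (fun z => F z k) z (EuclideanSpace.single a 1)) *
        conj (v b * fderiv ℂ (fun z => F z k) z (EuclideanSpace.single b 1)) := by
    intro k
    rw [← Complex.mul_conj', hexp, map_sum, Finset.sum_mul_sum]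
  simp only [h1]
  rw [Finset.sum_comm (s := Finset.univ) (t := Finset.univ)
    (f := fun (k : Fin N) (a : Fin n) => ∑ b,
      (v a * fderiv ℂ (fun z => F z k) z (EuclideanSpace.single a 1)) *
        conj (v b * fderiv ℂ (fun z => F z k) z (EuclideanSpace.single b 1)))]
  refine Finset.sum_congr rfl fun a _ => ?_
  rw [Finset.sum_comm]
  refine Finset.sum_congr rfl fun b _ => ?_
  rw [Finset.sum_mul, Finset.sum_mul]
  refine Finset.sum_congr rfl fun k _ => ?_
  rw [map_mul]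
  ring

theorem lev_of_hess {p q : Cn n → ℝ} {z : Cn n} (hp : ContDiffAt ℝ ∞ p z)
    (hq' : ContDiffAt ℝ ∞ q z) (h : hess p z = hess q z) (v : Cn n) :
    lev p z v = lev q z v := by
  have h1 := hq_re hp v
  have h2 := hq_re hq' v
  unfold hq at h1 h2
  rw [h] at h1
  linarith

/-- `1, Y` -/
def cons1 (Y : Cn n → Fin N → ℂ) : Cn n → Fin (N + 1) → ℂ := fun z => Fin.cons 1 (Y z)

theorem sq_cons1 (Y : Cn n → Fin N → ℂ) (z : Cn n) :
    FS_333.sq (cons1 Y) z = 1 + FS_333.sq Y z := by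
  show ∑ k, ‖cons1 Y z k‖ ^ 2 = 1 + ∑ k, ‖Y z k‖ ^ 2
  rw [Fin.sum_univ_succ]
  simp [cons1]

include hF in
theorem hol_cons1 (k : Fin (N + 1)) : DifferentiableOn ℂ (fun z => cons1 F z k) U := by
  refine Fin.cases ?_ (fun k => ?_) k
  · exact differentiableOn_const _
  · exact hF k

include hU hF in
/-- the flat metric is bounded by the Fubini-Study metric -/
theorem lev_sq_le {z : Cn n} (hz : z ∈ U) {R : ℝ} (hR : FS_333.sq F z ≤ R) (v : Cn n) :
    lev (FS_333.sq F) z v
      ≤ (1 + R) ^ 2 * lev (fun w => Real.log (FS_333.sq (cons1 F) w)) z v := by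
  have h0 : cons1 F z ≠ 0 := fun h => by
    have := congrFun h 0
    simp [cons1] at this
  rw [lev_sq hU hF hz, lev_log_sq hU (hol_cons1 hF) hz h0, sq_cons1, Fin.sum_univ_succ,
    Fin.sum_univ_succ]
  have e0 : fderiv ℂ (fun z => cons1 F z 0) z v = 0 := by
    have : (fun z => cons1 F z 0) = fun _ => (1 : ℂ) := by
      funext w; simp [cons1]
    rw [this]
    simp
  have e1 : ∀ k : Fin N, (fun z => cons1 F z k.succ) = fun z => F z k := fun k => by
    funext w; simp [cons1]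
  have e2 : ∀ k : Fin N, cons1 F z k.succ = F z k := fun k => by simp [cons1]
  simp only [e0, e1, e2, norm_zero, zero_mul, zero_add, ne_eq, OfNat.ofNat_ne_zero,
    not_false_eq_true, zero_pow]
  set a : ℝ := ∑ k, ‖fderiv ℂ (fun z => F z k) z v‖ ^ 2 with ha
  set s : ℝ := FS_333.sq F z with hs
  have hs0 : 0 ≤ s := sq_nonneg' F z
  have ha0 : 0 ≤ a := Finset.sum_nonneg fun _ _ => by positivity
  have hcs : ‖∑ k, fderiv ℂ (fun z => F z k) z v * conj (F z k)‖ ^ 2 ≤ a * s := by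
    refine (Crest.Agent.R273.YC3_812.cs _ _ _).trans (le_of_eq ?_)
    rw [ha, hs]
    congr 1
    refine Finset.sum_congr rfl fun k _ => ?_
    rw [RCLike.norm_conj]
  have h1 : a ≤ (1 + s) * a - ‖∑ k, fderiv ℂ (fun z => F z k) z v * conj (F z k)‖ ^ 2 := by
    nlinarith
  have h2 : a / (1 + s) ^ 2 ≤ ((1 + s) * a
      - ‖∑ k, fderiv ℂ (fun z => F z k) z v * conj (F z k)‖ ^ 2) / (1 + s) ^ 2 :=
    div_le_div_of_nonneg_right h1 (by positivity)
  have h3 : a ≤ (1 + R) ^ 2 * (a / (1 + s) ^ 2) := by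
    have h4 : (1 + s) ^ 2 ≤ (1 + R) ^ 2 := by
      have : 1 + s ≤ 1 + R := by linarith
      exact pow_le_pow_left₀ (by linarith) this 2
    rw [← mul_div_assoc, le_div_iff₀ (by positivity)]
    nlinarith
  have h5 := mul_le_mul_of_nonneg_left h2 (by positivity : (0 : ℝ) ≤ (1 + R) ^ 2)
  linarith

end lev

/-- `∑ |Y_k|²` as a function on `M` -/
def sqM {N : ℕ} (Y : M → Fin N → ℂ) : M → ℝ := fun x => ∑ k, ‖Y x k‖ ^ 2

theorem inC_sqM {N : ℕ} (Y : M → Fin N → ℂ) (i : A.ι) :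
    inC A i (sqM Y) = FS_333.sq (fun z => Y ((A.e i).symm z)) := rfl

section loc

variable {D : Set M} (hD : IsOpen D) {u f : A.ι → Cn n → ℝ} (hu : HF A D u)
  (hf : ∀ i, ContDiffOn ℝ ∞ (f i) (dom A D i))
  (hdet : ∀ i, ∀ z ∈ dom A D i, (cH (u i) z).det = (Real.exp (f i z) : ℂ))
  (hpos : ∀ i, ∀ z ∈ dom A D i, ∀ v : Cn n, v ≠ 0 → 0 < lev (u i) z v)
  {K : ℝ} (hK0 : 0 ≤ K)
  (hfK : ∀ i, ∀ z ∈ dom A D i, ∀ v : Cn n, lev (f i) z v ≤ K * lev (u i) z v)
  {N : ℕ} {Y : M → Fin N → ℂ}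
  (hY : ∀ i k, DifferentiableOn ℂ (fun z => Y ((A.e i).symm z) k) (dom A D i))

include hD hY in
theorem sm_sqM (i : A.ι) : ContDiffOn ℝ ∞ (inC A i (sqM Y)) (dom A D i) :=
  contDiffOn_sq (isOpen_dom hD i) (hY i)

include hD hu hf hdet hpos hK0 hfK hY in
/-- **(4b)**: the trace of the flat metric is bounded by its values on the boundary -/
theorem cl_local {Kc : Set M} (hKc : IsCompact Kc) (hKD : Kc ⊆ D) {R b : ℝ} (hR : 0 < R)
    (hRK : ∀ x ∈ Kc, sqM Y x ≤ R) (hb0 : 0 ≤ b)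
    (hbd : ∀ x ∈ Kc, x ∉ interior Kc → trM A u (fun i => inC A i (sqM Y)) x ≤ b) :
    ∀ x ∈ Kc, trM A u (fun i => inC A i (sqM Y)) x ≤ max b (K * R) * Real.exp 1 := by
  have hp : HF A D (fun i => inC A i (sqM Y)) := HF.of_fun hD fun i => sm_sqM hD hY i
  have hB0 : 0 ≤ max b (K * R) := le_max_of_le_left hb0
  have hexp : ∀ x ∈ Kc, Real.exp (R⁻¹ * sqM Y x) ≤ Real.exp 1 := fun x hx => by
    refine Real.exp_le_exp.2 ?_
    rw [inv_mul_le_iff₀ hR, mul_one]
    exact hRK x hx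
  have hT0 : ∀ x ∈ D, 0 ≤ trM A u (fun i => inC A i (sqM Y)) x := fun x hx => by
    obtain ⟨i, hi⟩ := A.cover x
    rw [trM_eq hD hu hp hx hi]
    refine trH_nonneg (hu.at hD hi hx) (hpos i _ (mem_dom hi hx)) (hp.at hD hi hx) fun v => ?_
    rw [inC_sqM, lev_sq (isOpen_dom hD i) (hY i) (mem_dom hi hx)]
    exact mul_nonneg (by norm_num) (Finset.sum_nonneg fun _ _ => by positivity)
  have key := cl_max hD hu hp hdet hpos hKc hKD (h := fun x => R⁻¹ * sqM Y x)
    (fun i => contDiffOn_const.mul (sm_sqM hD hY i)) (K₁ := K) (K₂ := 0) (c := 0) (θ := R⁻¹)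
    (B := max b (K * R) * Real.exp 1) (inv_pos.2 hR)
    (fun i z hz hT => by
      have h1 := chern_lu_flat (isOpen_dom hD i) (hu.sm i) (hf i) (hdet i) (hpos i) (hfK i)
        (hY i) hz hT
      rw [zero_mul, sub_zero]
      exact h1)
    (fun i x hx hi => by
      have hxD : x ∈ D := hKD (interior_subset hx)
      have e1 : inC A i (fun x => R⁻¹ * sqM Y x) = fun w => R⁻¹ * inC A i (sqM Y) w := rfl
      rw [e1, trH_const_mul (hu.at hD hi hxD) (hp.at hD hi hxD), zero_add, sub_zero])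
    (mul_nonneg hB0 (Real.exp_pos _).le)
    (fun x hx hxi => mul_le_mul ((hbd x hx hxi).trans (le_max_left _ _)) (hexp x hx)
      (Real.exp_pos _).le hB0)
    (fun x hx => by
      have h1 : (K + 0) / R⁻¹ = K * R := by rw [add_zero, div_inv_eq_mul]
      rw [h1]
      exact mul_le_mul (le_max_right _ _) (hexp x hx) (Real.exp_pos _).le hB0)
  intro x hx
  have h1 := key x hx
  have h2 : 1 ≤ Real.exp (R⁻¹ * sqM Y x) := by
    rw [Real.one_le_exp_iff]
    exact mul_nonneg (inv_pos.2 hR).le (Finset.sum_nonneg fun _ _ => by positivity)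
  exact (le_mul_of_one_le_right (hT0 x (hKD hx)) h2).trans h1

end loc

end

end Crest.Agent.R257.CLF_39
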