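import Crest.Agent.R257.CLF_39

/-!
# Row 257 (S0395), leaf E-CL (helper39), part G: affine coordinates, the estimate up to the origin

* `D0 P`, `Yc P` : the affine patch `Z₀ ≠ 0` and the affine coordinates `Z_{k+1}/Z₀`
* `KR P R`       : the compact part `|x|² ≤ R`
* `eucl_bound`   : `tr_ω ω_eucl ≤ CB n K κ R E` on `|x|² ≤ R`
* `lev_eucl_le`  : `ω_eucl ≤ CB n K κ R E ω`
-/

set_option autoImplicit false
set_option linter.unusedSectionVars false

open Set Filter Topology Complex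
open scoped ContDiff ComplexConjugate Matrix ComplexOrder

namespace Crest.Agent.R257.CLG_39

open Crest.Agent.R275.Geo Crest.Agent.R275.Core144 Crest.Agent.R275.GC293
open Crest.Agent.R273 Crest.Agent.R273.Defs_333 Crest.Agent.R273.YauDefs_635
open Crest.Agent.R273.YauMax_635 Crest.Agent.R273.HM_333 Crest.Agent.R273.Kah_333
open Crest.Agent.R273.Hess_333 Crest.Agent.R273.HessB_333 Crest.Agent.R273.FS_333
open Crest.Agent.R257.CLC_39 Crest.Agent.R257.CLD_39 Crest.Agent.R257.CLE_39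
open Crest.Agent.R257.CLF_39

noncomputable section

variable {n : ℕ} {M : Type} [TopologicalSpace M] {A : Atl n M} (P : ProjD A)

/-- the affine patch `Z₀ ≠ 0` -/
def D0 : Set M := {x | ∀ i, x ∈ (A.e i).source → P.F i x 0 ≠ 0}

/-- the affine coordinates -/
def Yc : M → Fin P.N → ℂ := fun x k =>
  P.F (A.cover x).choose x k.succ / P.F (A.cover x).choose x 0

theorem gij_ne (i j : A.ι) (x : M) : gij P i j x ≠ 0 := (lb P).ne_zero i j x

theorem mem_D0 {i : A.ι} {x : M} (hi : x ∈ (A.e i).source) : x ∈ D0 P ↔ P.F i x 0 ≠ 0 := by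
  constructor
  · intro h
    exact h i hi
  · intro h j hj
    have h1 := gij_spec P (i := j) (j := i) ⟨hj, hi⟩
    rw [h1, Pi.smul_apply, smul_eq_mul]
    exact mul_ne_zero (gij_ne P j i x) h

theorem Yc_eq {i : A.ι} {x : M} (hi : x ∈ (A.e i).source) (k : Fin P.N) :
    Yc P x k = P.F i x k.succ / P.F i x 0 := by
  have hj := (A.cover x).choose_spec
  have h1 := gij_spec P (i := (A.cover x).choose) (j := i) ⟨hj, hi⟩
  show P.F (A.cover x).choose x k.succ / P.F (A.cover x).choose x 0 = _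
  rw [h1, Pi.smul_apply, Pi.smul_apply, smul_eq_mul, smul_eq_mul,
    mul_div_mul_left _ _ (gij_ne P _ i x)]

/-- `|Z₀|² / |Z|²` -/
def g0 : M → ℝ := fun x => nsq (fs P) (sec P 0) (A.cover x).choose x

theorem g0_eq {i : A.ι} {x : M} (hi : x ∈ (A.e i).source) :
    g0 P x = ‖P.F i x 0‖ ^ 2 * (∑ k, ‖P.F i x k‖ ^ 2)⁻¹ := by
  have hj := (A.cover x).choose_spec
  have h1 : g0 P x = nsq (fs P) (sec P 0) i x :=
    nsq_indep (fs P) (isHS_sec P 0) ⟨hj, hi⟩ (mem_univ x)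
  rw [h1, nsq, sec_eq P hi]
  rfl

theorem sum_pos {i : A.ι} {x : M} (hi : x ∈ (A.e i).source) : 0 < ∑ k, ‖P.F i x k‖ ^ 2 :=
  sq_pos (n := 0) (F := fun _ => P.F i x) (z := 0) (P.ne i x hi)

theorem continuous_g0 : Continuous (g0 P) := by
  rw [continuous_iff_continuousAt]
  intro x
  obtain ⟨i, hi⟩ := A.cover x
  have hz := (A.e i).map_source hi
  have hk : ∀ k, ContinuousAt (fun w => ‖FF P i w k‖ ^ 2) (A.e i x) := fun k =>
    ((((hol_FF P i k).differentiableAt ((A.e i).open_target.mem_nhds hz)).continuousAt).norm).pow 2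
  have h0 : (∑ k, ‖FF P i (A.e i x) k‖ ^ 2) ≠ 0 := by
    have := sum_pos P hi
    simp only [FF, (A.e i).left_inv hi]
    exact this.ne'
  have h1 : ContinuousAt (fun w => ‖FF P i w 0‖ ^ 2 * (∑ k, ‖FF P i w k‖ ^ 2)⁻¹) (A.e i x) :=
    (hk 0).mul ((tendsto_finsetSum _ fun k _ => hk k).inv₀ h0)
  have h2 : ContinuousAt (fun y => ‖FF P i (A.e i y) 0‖ ^ 2 * (∑ k, ‖FF P i (A.e i y) k‖ ^ 2)⁻¹) x :=
    ContinuousAt.comp (f := A.e i)
      (g := fun w => ‖FF P i w 0‖ ^ 2 * (∑ k, ‖FF P i w k‖ ^ 2)⁻¹) h1 ((A.e i).continuousAt hi)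
  refine h2.congr ?_
  filter_upwards [(A.e i).open_source.mem_nhds hi] with y hy
  rw [g0_eq P hy]
  simp only [FF, (A.e i).left_inv hy]

theorem g0_pos_iff (x : M) : 0 < g0 P x ↔ x ∈ D0 P := by
  obtain ⟨i, hi⟩ := A.cover x
  have hs := sum_pos P hi
  rw [g0_eq P hi, mem_D0 P hi]
  constructor
  · intro h h0
    rw [h0] at h
    simp at h
  · intro h
    positivity

theorem isOpen_D0 : IsOpen (D0 P) := by
  have h1 : D0 P = {x | 0 < g0 P x} := by
    ext x
    exact (g0_pos_iff P x).symm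
  rw [h1]
  exact isOpen_lt continuous_const (continuous_g0 P)

theorem g0_mul {x : M} (hx : x ∈ D0 P) : g0 P x * (1 + sqM (Yc P) x) = 1 := by
  obtain ⟨i, hi⟩ := A.cover x
  have hs := sum_pos P hi
  have h0 := (mem_D0 P hi).1 hx
  have h1 : ∑ k, ‖P.F i x k‖ ^ 2 = ‖P.F i x 0‖ ^ 2 * (1 + sqM (Yc P) x) := by
    rw [Fin.sum_univ_succ, sqM, mul_add, mul_one, Finset.mul_sum]
    congr 1
    refine Finset.sum_congr rfl fun k _ => ?_
    rw [Yc_eq P hi, norm_div, div_pow]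
    have : ‖P.F i x 0‖ ^ 2 ≠ 0 := by positivity
    field_simp
  rw [g0_eq P hi]
  have h2 : ‖P.F i x 0‖ ^ 2 * (∑ k, ‖P.F i x k‖ ^ 2)⁻¹ * (1 + sqM (Yc P) x)
      = (∑ k, ‖P.F i x k‖ ^ 2)⁻¹ * (‖P.F i x 0‖ ^ 2 * (1 + sqM (Yc P) x)) := by ring
  rw [h2, ← h1, inv_mul_cancel₀ hs.ne']

theorem sqM_nonneg {N : ℕ} (Y : M → Fin N → ℂ) (x : M) : 0 ≤ sqM Y x :=
  Finset.sum_nonneg fun _ _ => by positivity

/-- the compact part `|x|² ≤ R` -/
def KR (R : ℝ) : Set M := {x | x ∈ D0 P ∧ sqM (Yc P) x ≤ R}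

theorem KR_eq {R : ℝ} (hR : 0 ≤ R) : KR P R = {x | 1 ≤ (1 + R) * g0 P x} := by
  ext x
  constructor
  · rintro ⟨hx, hxR⟩
    have h1 := g0_mul P hx
    have h2 : 0 < g0 P x := (g0_pos_iff P x).2 hx
    show 1 ≤ (1 + R) * g0 P x
    nlinarith
  · intro h
    have h' : 1 ≤ (1 + R) * g0 P x := h
    have hx : x ∈ D0 P := by
      rw [← g0_pos_iff]
      by_contra h0
      push Not at h0
      nlinarith
    refine ⟨hx, ?_⟩
    have h1 := g0_mul P hx
    have h2 : 0 < g0 P x := (g0_pos_iff P x).2 hx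
    have h3 : g0 P x * (1 + sqM (Yc P) x) ≤ g0 P x * (1 + R) := by linarith
    have h4 := le_of_mul_le_mul_left h3 h2
    linarith

theorem isCompact_KR [CompactSpace M] {R : ℝ} (hR : 0 ≤ R) : IsCompact (KR P R) := by
  refine IsClosed.isCompact ?_
  rw [KR_eq P hR]
  exact isClosed_le continuous_const (continuous_const.mul (continuous_g0 P))

theorem interior_KR {R : ℝ} (hR : 0 ≤ R) {x : M} (hx : x ∈ D0 P) (h : sqM (Yc P) x < R) :
    x ∈ interior (KR P R) := by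
  rw [KR_eq P hR]
  refine mem_interior.2 ⟨{x | 1 < (1 + R) * g0 P x}, fun y hy =>
    (le_of_lt (show 1 < (1 + R) * g0 P y from hy) : 1 ≤ (1 + R) * g0 P y),
    isOpen_lt continuous_const (continuous_const.mul (continuous_g0 P)), ?_⟩
  have h1 := g0_mul P hx
  have h2 : 0 < g0 P x := (g0_pos_iff P x).2 hx
  show 1 < (1 + R) * g0 P x
  nlinarith

theorem KR_sub (R : ℝ) : KR P R ⊆ D0 P := fun _ hx => hx.1

/-- the affine coordinates in a chart -/
theorem Yc_read {i : A.ι} {w : Cn n} (hw : w ∈ (A.e i).target) (k : Fin P.N) :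
    Yc P ((A.e i).symm w) k = FF P i w k.succ / FF P i w 0 :=
  Yc_eq P ((A.e i).map_target hw) k

theorem FF_zero_ne {i : A.ι} {w : Cn n} (hw : w ∈ dom A (D0 P) i) : FF P i w 0 ≠ 0 :=
  hw.2 i ((A.e i).map_target hw.1)

theorem hol_Yc (i : A.ι) (k : Fin P.N) :
    DifferentiableOn ℂ (fun z => Yc P ((A.e i).symm z) k) (dom A (D0 P) i) := by
  have h1 : DifferentiableOn ℂ (fun z => FF P i z k.succ * (FF P i z 0)⁻¹) (dom A (D0 P) i) :=
    ((hol_FF P i k.succ).mono inter_subset_left).mul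
      (((hol_FF P i 0).mono inter_subset_left).inv fun w hw => FF_zero_ne P hw)
  exact h1.congr fun w hw => by rw [Yc_read P hw.1 k, div_eq_mul_inv]

/-- the Fubini-Study weight and the affine coordinates -/
theorem hess_fs {i : A.ι} {z : Cn n} (hz : z ∈ dom A (D0 P) i) :
    hess ((fs P).wt i) z
      = hess (fun w => Real.log (FS_333.sq (cons1 (fun z => Yc P ((A.e i).symm z))) w)) z := by
  have ho := isOpen_dom (A := A) (isOpen_D0 P) i
  have hYs : ContDiffAt ℝ ∞ (fun w => Real.log (FS_333.sq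
      (cons1 (fun z => Yc P ((A.e i).symm z))) w)) z :=
    ((contDiffOn_sq ho (hol_cons1 (hol_Yc P i))).contDiffAt (ho.mem_nhds hz)).log (by
      rw [sq_cons1]
      have := sq_nonneg' (fun z => Yc P ((A.e i).symm z)) z
      linarith)
  have hF0 : ∀ᶠ w in 𝓝 z, DifferentiableAt ℂ (fun w => FF P i w 0) w := by
    filter_upwards [ho.mem_nhds hz] with w hw
    exact (hol_FF P i 0).differentiableAt ((A.e i).open_target.mem_nhds hw.1)
  have hlog : ContDiffAt ℝ ∞ (fun w => Real.log (‖FF P i w 0‖ ^ 2)) z :=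
    ((contDiffAt_of_hol (A.e i).open_target (hol_FF P i 0) hz.1).norm_sq ℝ).log (by
      have := FF_zero_ne P hz
      positivity)
  have h1 : (fs P).wt i =ᶠ[𝓝 z] fun w => Real.log (‖FF P i w 0‖ ^ 2)
      + Real.log (FS_333.sq (cons1 (fun z => Yc P ((A.e i).symm z))) w) := by
    filter_upwards [ho.mem_nhds hz] with w hw
    rw [wt_fs]
    have h0 := FF_zero_ne P hw
    have h2 : FS_333.sq (FF P i) w = ‖FF P i w 0‖ ^ 2
        * FS_333.sq (cons1 (fun z => Yc P ((A.e i).symm z))) w := by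
      rw [sq_cons1]
      show ∑ k, ‖FF P i w k‖ ^ 2 = ‖FF P i w 0‖ ^ 2
        * (1 + ∑ k, ‖Yc P ((A.e i).symm w) k‖ ^ 2)
      rw [Fin.sum_univ_succ, mul_add, mul_one, Finset.mul_sum]
      congr 1
      refine Finset.sum_congr rfl fun k _ => ?_
      rw [Yc_read P hw.1, norm_div, div_pow]
      have : ‖FF P i w 0‖ ^ 2 ≠ 0 := by positivity
      field_simp
    have h3 : FS_333.sq (cons1 (fun z => Yc P ((A.e i).symm z))) w ≠ 0 := by
      rw [sq_cons1]
      have := sq_nonneg' (fun z => Yc P ((A.e i).symm z)) w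
      linarith
    show Real.log (FS_333.sq (FF P i) w) = _
    rw [h2, Real.log_mul (by positivity) h3]
  rw [hess_congr h1, hess_add hlog hYs, hess_log_norm hF0 (FF_zero_ne P hz), zero_add]

/-- the flat metric is bounded by the Fubini-Study metric on `|x|² ≤ R` -/
theorem lev_flat_le {i : A.ι} {x : M} (hi : x ∈ (A.e i).source) {R : ℝ} (hx : x ∈ KR P R)
    (v : Cn n) : lev (inC A i (sqM (Yc P))) (A.e i x) v
      ≤ (1 + R) ^ 2 * lev ((fs P).wt i) (A.e i x) v := by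
  have ho := isOpen_dom (A := A) (isOpen_D0 P) i
  have hz : A.e i x ∈ dom A (D0 P) i := mem_dom hi hx.1
  have hYs : ContDiffAt ℝ ∞ (fun w => Real.log (FS_333.sq
      (cons1 (fun z => Yc P ((A.e i).symm z))) w)) (A.e i x) :=
    ((contDiffOn_sq ho (hol_cons1 (hol_Yc P i))).contDiffAt (ho.mem_nhds hz)).log (by
      rw [sq_cons1]
      have := sq_nonneg' (fun z => Yc P ((A.e i).symm z)) (A.e i x)
      linarith)
  rw [lev_of_hess (wt_contDiffAt (fs P) i hz.1) hYs (hess_fs P hz) v]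
  refine lev_sq_le ho (hol_Yc P i) hz ?_ v
  show ∑ k, ‖Yc P ((A.e i).symm (A.e i x)) k‖ ^ 2 ≤ R
  rw [(A.e i).left_inv hi]
  exact hx.2

/-- the constant -/
def CB (n : ℕ) (K κ R E : ℝ) : ℝ :=
  max ((1 + R) ^ 2 * ((K + 3 * n / κ) * Real.exp (3 / κ * E))) (K * R) * Real.exp 1

section glob

variable {L : LB A} (H : HM L) {φ ρ : M → ℝ} (hφ : A.Sm φ) (hρ : A.Sm ρ)
  (hKP : KPos H φ) {f : A.ι → Cn n → ℝ} (hf : ∀ i, ContDiffOn ℝ ∞ (f i) (A.e i).target)
  (hdet : ∀ i, ∀ z ∈ (A.e i).target, (cH (pot H φ i) z).det = (Real.exp (f i z) : ℂ))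
  {K κ : ℝ} (hK0 : 0 ≤ K)
  (hfK : ∀ i, ∀ z ∈ (A.e i).target, ∀ v : Cn n, lev (f i) z v ≤ K * lev (pot H φ i) z v)
  (hκ : 0 < κ)
  (hρκ : ∀ i, ∀ z ∈ (A.e i).target, ∀ v : Cn n,
    κ * lev ((fs P).wt i) z v ≤ lev (pot H ρ i) z v)

include hφ hρ hKP hf hdet hK0 hfK hκ hρκ in
/-- **the trace of the flat metric is bounded up to the origin** -/
theorem eucl_bound [CompactSpace M] {m : ℝ} (hm : ∀ x, m ≤ φ x - ρ x) {R E : ℝ} (hR : 0 < R)
    (hE : ∀ x ∈ D0 P, sqM (Yc P) x = R → φ x - ρ x - m ≤ E) :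
    ∀ x ∈ KR P R, trM A (pot H φ) (fun i => inC A i (sqM (Yc P))) x ≤ CB n K κ R E := by
  have hD := isOpen_D0 P
  have hu : HF A (D0 P) (pot H φ) := HF.of_pot hD H hφ
  have hp : HF A (D0 P) (fun i => inC A i (sqM (Yc P))) :=
    HF.of_fun hD fun i => sm_sqM hD (hol_Yc P) i
  have hfs : HF A (D0 P) (fs P).wt := HF.of_wt (fs P)
  have hc : 0 ≤ K + 3 * n / κ := by positivity
  refine cl_local hD hu (fun i => (hf i).mono inter_subset_left) (fun i z hz => hdet i z hz.1)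
    (fun i z hz => hKP i z hz.1) hK0 (fun i z hz => hfK i z hz.1) (hol_Yc P)
    (isCompact_KR P hR.le) (KR_sub P R) hR (fun x hx => hx.2) (by positivity) ?_
  intro x hx hxi
  have hxR : sqM (Yc P) x = R := by
    refine le_antisymm hx.2 (not_lt.1 fun h => hxi ?_)
    exact interior_KR P hR.le hx.1 h
  obtain ⟨i, hi⟩ := A.cover x
  have hz := (A.e i).map_source hi
  have h1 := cl_global H P hφ hρ hKP hf hdet hK0 hfK hκ hρκ hm x
  have h2 : trM A (pot H φ) (fun i => inC A i (sqM (Yc P))) x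
      ≤ (1 + R) ^ 2 * trM A (pot H φ) (fs P).wt x := by
    rw [trM_eq hD hu hp hx.1 hi, trM_eq hD hu hfs hx.1 hi]
    have c1 := pot_contDiffAt H hφ i hz
    have c2 := wt_contDiffAt (fs P) i hz
    have h3 := trH_mono c1 (hKP i _ hz) (hp.at hD hi hx.1) (contDiffAt_const.mul c2)
      (fun v => by
        rw [lev_const_mul' c2 ((1 + R) ^ 2)]
        exact lev_flat_le P hi hx v)
    rwa [trH_const_mul c1 c2] at h3
  refine h2.trans (mul_le_mul_of_nonneg_left (h1.trans ?_) (by positivity))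
  refine mul_le_mul_of_nonneg_left (Real.exp_le_exp.2 ?_) hc
  exact mul_le_mul_of_nonneg_left (hE x hx.1 hxR) (by positivity)

include hφ hρ hKP hf hdet hK0 hfK hκ hρκ in
/-- **`ω_eucl ≤ C ω`** -/
theorem lev_eucl_le [CompactSpace M] {m : ℝ} (hm : ∀ x, m ≤ φ x - ρ x) {R E : ℝ} (hR : 0 < R)
    (hE : ∀ x ∈ D0 P, sqM (Yc P) x = R → φ x - ρ x - m ≤ E) {x : M} (hx : x ∈ KR P R)
    {i : A.ι} (hi : x ∈ (A.e i).source) (v : Cn n) :
    lev (inC A i (sqM (Yc P))) (A.e i x) v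
      ≤ CB n K κ R E * lev (pot H φ i) (A.e i x) v := by
  have hD := isOpen_D0 P
  have hu : HF A (D0 P) (pot H φ) := HF.of_pot hD H hφ
  have hp : HF A (D0 P) (fun i => inC A i (sqM (Yc P))) :=
    HF.of_fun hD fun i => sm_sqM hD (hol_Yc P) i
  have hz := (A.e i).map_source hi
  have h1 := eucl_bound P H hφ hρ hKP hf hdet hK0 hfK hκ hρκ hm hR hE x hx
  rw [trM_eq hD hu hp hx.1 hi] at h1
  have c1 := pot_contDiffAt H hφ i hz
  have h2 := lev_le_trH c1 (hKP i _ hz) (hp.at hD hi hx.1) (fun v => by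
    rw [inC_sqM, lev_sq (isOpen_dom hD i) (hol_Yc P i) (mem_dom hi hx.1)]
    exact mul_nonneg (by norm_num) (Finset.sum_nonneg fun _ _ => by positivity)) v
  have h3 : 0 ≤ lev (pot H φ i) (A.e i x) v := by
    rcases eq_or_ne v 0 with h0 | h0
    · rw [h0, lev_zero']
    · exact (hKP i _ hz v h0).le
  exact h2.trans (mul_le_mul_of_nonneg_right h1 h3)

end glob

end

end Crest.Agent.R257.CLG_39
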