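import Crest.Agent.R257.Est2_37

/-!
Row 257 (S0395), leaf E-C0, helper37: the comparison principle for `det cH u = e^u * e`, i.e. for
`MA H φ (F + φ)`.

* `det_cH_mono`  : `κ lev b ≤ lev u` implies `κ^n det cH b ≤ det cH u`
* `le_at_min`, `le_at_max` : pointwise comparison with a sub/supersolution (local, in `Cn n`)
* `upper`        : `MA H φ (F + φ)`, `-C ≤ F` imply `φ ≤ C`
* `lower`        : `ψ` global subsolution: `ψ + n log κ - C ≤ φ`
* `SmU`, `sub_le`, `le_super` : comparison on a compact part `K ⊆ U` of a manifold with boundary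
                   condition on `K \ interior K`
-/

set_option autoImplicit false
set_option linter.unusedSimpArgs false
set_option linter.unusedSectionVars false

open Set Filter Topology Complex
open scoped ContDiff ComplexConjugate ComplexOrder

namespace Crest.Agent.R257.Est3_37

open Crest.Agent.R275.Geo Crest.Agent.R275.Core144 Crest.Agent.R275.GC293
open Crest.Agent.R273.Defs_333 Crest.Agent.R273.YauDefs_635 Crest.Agent.R273.HM_333
open Crest.Agent.R273.YauCh_635 Crest.Agent.R273.YauMax_635 Crest.Agent.R273.Hess_333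
open Crest.Agent.R273.HessB_333 Crest.Agent.R257.Est2_37 Crest.Agent.R273.Kah_333

noncomputable section

variable {n : ℕ}

theorem two_inf : (2 : WithTop ℕ∞) ≤ ∞ := WithTop.coe_le_coe.2 (le_top : (2 : ℕ∞) ≤ ⊤)

/-! ### determinants -/

theorem det_pos_of {b : Cn n → ℝ} {z : Cn n} (hb : ContDiffAt ℝ ∞ b z)
    (hp : ∀ v : Cn n, v ≠ 0 → 0 < lev b z v) :
    0 < (cH b z).det.re ∧ (cH b z).det = (((cH b z).det.re : ℝ) : ℂ) := by
  have h1 := (posDef_hess hb hp).det_pos
  rw [← cH_eq_hess hb] at h1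
  have h2 := Complex.pos_iff.1 h1
  exact ⟨h2.1, Complex.ext (by simp) (by simp [h2.2])⟩

theorem hess_real_smul {b : Cn n → ℝ} {z : Cn n} (hb : ContDiffAt ℝ ∞ b z) (κ : ℝ) :
    hess (fun w => κ * b w) z = (κ : ℂ) • hess b z := hess_const_mul κ hb

theorem lev_real_smul {b : Cn n → ℝ} {z : Cn n} (hb : ContDiffAt ℝ 2 b z) (κ : ℝ) (v : Cn n) :
    lev (fun w => κ * b w) z v = κ * lev b z v := by
  rw [lev333_eq_lev145, lev333_eq_lev145, Crest.Agent.R273.Levi_145.lev_const_mul κ hb]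
  ring

/-- monotonicity of the Monge-Ampere operator -/
theorem det_cH_mono {u b : Cn n → ℝ} {z : Cn n} (hu : ContDiffAt ℝ ∞ u z)
    (hb : ContDiffAt ℝ ∞ b z) (hp : ∀ v : Cn n, v ≠ 0 → 0 < lev b z v) {κ : ℝ} (hκ : 0 < κ)
    (h : ∀ v, κ * lev b z v ≤ lev u z v) :
    κ ^ n * (cH b z).det.re ≤ (cH u z).det.re := by
  have hb2 := hb.of_le two_inf
  have hu2 := hu.of_le two_inf
  have hκb : ContDiffAt ℝ ∞ (fun w => κ * b w) z := contDiffAt_const.mul hb
  have h1 : (hess (fun w => κ * b w) z).PosDef := posDef_hess hκb fun v hv => by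
    rw [lev_real_smul hb2]
    exact mul_pos hκ (hp v hv)
  have h2 : (hess (fun w => u w - κ * b w) z).PosSemidef :=
    posSemidef_hess (hu.sub hκb) fun v => by
      rw [lev_sub' hu2 (hκb.of_le two_inf), lev_real_smul hb2]
      linarith [h v]
  have h3 := det_le_det_add h1 h2
  rw [hess_sub hu hκb, add_sub_cancel, hess_real_smul hb, Matrix.det_smul, Fintype.card_fin,
    ← cH_eq_hess hb, ← cH_eq_hess hu] at h3
  rw [(det_pos_of hb hp).2, ← ofReal_pow, ← ofReal_mul] at h3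
  have h4 := (Complex.le_def.1 h3).1
  rw [ofReal_re] at h4
  exact h4

/-! ### local comparison -/

/-- comparison with a subsolution at a minimum of `u - ψ` -/
theorem le_at_min {u ψ b : Cn n → ℝ} {z : Cn n} (hu : ContDiffAt ℝ ∞ u z)
    (hψ : ContDiffAt ℝ ∞ ψ z) (hb : ContDiffAt ℝ ∞ b z)
    (hmin : IsLocalMin (fun w => u w - ψ w) z) (hp : ∀ v : Cn n, v ≠ 0 → 0 < lev b z v)
    {κ e : ℝ} (hκ : 0 < κ) (he : 0 < e) (hsub : ∀ v, κ * lev b z v ≤ lev ψ z v)
    (hdet : (cH u z).det = ((Real.exp (u z) * e : ℝ) : ℂ))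
    (hE : Real.exp (ψ z) * e ≤ κ ^ n * (cH b z).det.re) : ψ z ≤ u z := by
  have h1 := lev_nonneg_of_localMin ((hu.sub hψ).of_le two_inf) hmin
  have h2 : ∀ v, κ * lev b z v ≤ lev u z v := fun v => by
    have := h1 v
    rw [lev_sub' (hu.of_le two_inf) (hψ.of_le two_inf)] at this
    linarith [hsub v]
  have h3 := det_cH_mono hu hb hp hκ h2
  rw [hdet, ofReal_re] at h3
  have h4 : Real.exp (ψ z) ≤ Real.exp (u z) := le_of_mul_le_mul_right (hE.trans h3) he
  exact Real.exp_le_exp.1 h4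

/-- comparison with a supersolution at a maximum of `u - χ` -/
theorem le_at_max {u χ : Cn n → ℝ} {z : Cn n} (hu : ContDiffAt ℝ ∞ u z)
    (hχ : ContDiffAt ℝ ∞ χ z) (hmax : IsLocalMax (fun w => u w - χ w) z)
    (hp : ∀ v : Cn n, v ≠ 0 → 0 < lev u z v) {e : ℝ} (he : 0 < e)
    (hdet : (cH u z).det = ((Real.exp (u z) * e : ℝ) : ℂ))
    (hE : (cH χ z).det.re ≤ Real.exp (χ z) * e) : u z ≤ χ z := by
  have hmin : IsLocalMin (fun w => χ w - u w) z := by
    filter_upwards [hmax] with w hw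
    linarith
  have h1 := lev_nonneg_of_localMin ((hχ.sub hu).of_le two_inf) hmin
  have h2 : ∀ v, 1 * lev u z v ≤ lev χ z v := fun v => by
    have := h1 v
    rw [lev_sub' (hχ.of_le two_inf) (hu.of_le two_inf)] at this
    linarith
  have h3 := det_cH_mono hχ hu hp one_pos h2
  rw [hdet, ofReal_re, one_pow, one_mul] at h3
  have h4 : Real.exp (u z) ≤ Real.exp (χ z) := le_of_mul_le_mul_right (h3.trans hE) he
  exact Real.exp_le_exp.1 h4

/-! ### global comparison on a compact manifold -/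

variable {M : Type} [TopologicalSpace M] {A : Atl n M} {L : LB A}

theorem pot_sub (H : HM L) (φ ψ : M → ℝ) (i : A.ι) :
    (fun w => pot H φ i w - pot H ψ i w) = inC A i (fun x => φ x - ψ x) := by
  funext w
  simp only [pot, inC]
  ring

/-- upper bound of the solution -/
theorem upper [CompactSpace M] [Nonempty M] {H : HM L} (hH : H.Pos) {φ F : M → ℝ}
    (hφ : A.Sm φ) (hK : KPos H φ) (hMA : MA H φ (fun x => F x + φ x)) {C : ℝ}
    (hF : ∀ x, -C ≤ F x) : ∀ x, φ x ≤ C := by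
  obtain ⟨y, -, hy⟩ := isCompact_univ.exists_isMaxOn univ_nonempty
    (continuous_of_sm hφ).continuousOn
  have h1 := f_nonpos_of_max hH hφ hK hMA (hy.isLocalMax univ_mem)
  intro x
  have h2 : φ x ≤ φ y := hy (mem_univ x)
  linarith [hF y]

/-- lower bound of the solution by a global subsolution -/
theorem lower [CompactSpace M] [Nonempty M] {H : HM L} (hH : H.Pos) {φ ψ F : M → ℝ}
    (hφ : A.Sm φ) (hψ : A.Sm ψ) (hMA : MA H φ (fun x => F x + φ x)) {κ C : ℝ} (hκ : 0 < κ)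
    (hsub : ∀ i, ∀ z ∈ (A.e i).target, ∀ v, κ * lev (H.wt i) z v ≤ lev (pot H ψ i) z v)
    (hF : ∀ x, ψ x ≤ -F x + C) : ∀ x, ψ x + n * Real.log κ - C ≤ φ x := by
  have hd : A.Sm (fun x => φ x - ψ x) := fun i => (hφ i).sub (hψ i)
  obtain ⟨y, -, hy⟩ := isCompact_univ.exists_isMinOn univ_nonempty
    (continuous_of_sm hd).continuousOn
  obtain ⟨i, hi⟩ := A.cover y
  have hz := (A.e i).map_source hi
  set z := A.e i y with hzdef
  have hmin : IsLocalMin (inC A i (fun x => φ x - ψ x)) z :=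
    inC_localMin (hy.isLocalMin univ_mem) hi
  have h1 := lev_nonneg_of_localMin (inC_c2 hd i hz) hmin
  have c1 := pot_contDiffAt H hφ i hz
  have c2 := pot_contDiffAt H hψ i hz
  have c3 := wt_contDiffAt H i hz
  have h2 : ∀ v, κ * lev (H.wt i) z v ≤ lev (pot H φ i) z v := fun v => by
    have h3 := h1 v
    rw [← pot_sub H φ ψ i, lev_sub' (c1.of_le two_inf) (c2.of_le two_inf)] at h3
    linarith [hsub i z hz v]
  have h3 := det_cH_mono c1 c3 (fun v hv => hH i z hz v hv) hκ h2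
  have h4 := hMA i z hz
  obtain ⟨h5, h6⟩ := det_pos_of c3 (fun v hv => hH i z hz v hv)
  rw [h6, ← ofReal_mul] at h4
  rw [h4, ofReal_re] at h3
  have h7 : κ ^ n ≤ Real.exp (inC A i (fun x => F x + φ x) z) := le_of_mul_le_mul_right h3 h5
  have h8 : inC A i (fun x => F x + φ x) z = F y + φ y := by
    simp only [inC, hzdef, (A.e i).left_inv hi]
  rw [h8, ← Real.exp_log hκ, ← Real.exp_nat_mul, Real.exp_le_exp] at h7
  intro x
  have h9 : φ y - ψ y ≤ φ x - ψ x := hy (mem_univ x)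
  linarith [hF y]

/-! ### comparison on a compact part -/

/-- `φ` is smooth on the open set `U` (read in all charts) -/
def SmU (A : Atl n M) (U : Set M) (φ : M → ℝ) : Prop :=
  ∀ i, ∀ x ∈ (A.e i).source ∩ U, ContDiffAt ℝ ∞ (inC A i φ) (A.e i x)

theorem SmU.continuousOn {U : Set M} {φ : M → ℝ} (h : SmU A U φ) : ContinuousOn φ U := by
  intro x hx
  obtain ⟨i, hi⟩ := A.cover x
  have h1 : ContinuousAt (inC A i φ) (A.e i x) := (h i x ⟨hi, hx⟩).continuousAt
  have h2 : ContinuousAt (fun y => inC A i φ (A.e i y)) x :=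
    ContinuousAt.comp (f := A.e i) h1 ((A.e i).continuousAt hi)
  refine (h2.congr ?_).continuousWithinAt
  filter_upwards [(A.e i).open_source.mem_nhds hi] with y hy
  simp [inC, (A.e i).left_inv hy]

theorem SmU.sub {U : Set M} {φ ψ : M → ℝ} (h : SmU A U φ) (h' : SmU A U ψ) :
    SmU A U (fun x => φ x - ψ x) := fun i x hx => (h i x hx).sub (h' i x hx)

theorem SmU.add {U : Set M} {φ ψ : M → ℝ} (h : SmU A U φ) (h' : SmU A U ψ) :
    SmU A U (fun x => φ x + ψ x) := fun i x hx => (h i x hx).add (h' i x hx)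

theorem SmU.const_mul {U : Set M} {φ : M → ℝ} (h : SmU A U φ) (c : ℝ) :
    SmU A U (fun x => c * φ x) := fun i x hx => contDiffAt_const.mul (h i x hx)

theorem SmU.of_sm {U : Set M} {φ : M → ℝ} (h : A.Sm φ) : SmU A U φ :=
  fun i _ hx => inC_contDiffAt h i ((A.e i).map_source hx.1)

theorem SmU.mono {U V : Set M} {φ : M → ℝ} (h : SmU A U φ) (hV : V ⊆ U) : SmU A V φ :=
  fun i x hx => h i x ⟨hx.1, hV hx.2⟩

/-- minimum principle on a compact set -/
theorem min_compact {K U : Set M} (hK : IsCompact K) (hKU : K ⊆ U) {g : M → ℝ}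
    (hg : SmU A U g) (hint : ∀ x ∈ interior K, IsLocalMin g x → 0 ≤ g x)
    (hbd : ∀ x ∈ K, x ∉ interior K → 0 ≤ g x) : ∀ x ∈ K, 0 ≤ g x := by
  intro x hx
  obtain ⟨y, hyK, hy⟩ := hK.exists_isMinOn ⟨x, hx⟩ (hg.continuousOn.mono hKU)
  have h1 : 0 ≤ g y := by
    by_cases hyi : y ∈ interior K
    · exact hint y hyi (hy.isLocalMin (mem_interior_iff_mem_nhds.1 hyi))
    · exact hbd y hyK hyi
  exact h1.trans (hy hx)

/-- **comparison with a subsolution `ψ` on a compact part**: `det cH u = e^u * e`,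
`ω_ψ ≥ κ ω_b`, `e^ψ * e ≤ κ^n det cH b` inside, `ψ ≤ u` on the boundary -/
theorem sub_le {K U : Set M} (hK : IsCompact K) (hKU : K ⊆ U) {u ψ b : M → ℝ}
    (hu : SmU A U u) (hψ : SmU A U ψ) (hb : SmU A U b) {κ : ℝ} (hκ : 0 < κ)
    (e : A.ι → Cn n → ℝ)
    (he : ∀ i, ∀ x ∈ (A.e i).source ∩ interior K, 0 < e i (A.e i x))
    (hp : ∀ i, ∀ x ∈ (A.e i).source ∩ interior K, ∀ v : Cn n, v ≠ 0 →
      0 < lev (inC A i b) (A.e i x) v)
    (hsub : ∀ i, ∀ x ∈ (A.e i).source ∩ interior K, ∀ v,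
      κ * lev (inC A i b) (A.e i x) v ≤ lev (inC A i ψ) (A.e i x) v)
    (hdet : ∀ i, ∀ x ∈ (A.e i).source ∩ interior K,
      (cH (inC A i u) (A.e i x)).det = ((Real.exp (u x) * e i (A.e i x) : ℝ) : ℂ))
    (hE : ∀ i, ∀ x ∈ (A.e i).source ∩ interior K,
      Real.exp (ψ x) * e i (A.e i x) ≤ κ ^ n * (cH (inC A i b) (A.e i x)).det.re)
    (hbd : ∀ x ∈ K, x ∉ interior K → ψ x ≤ u x) : ∀ x ∈ K, ψ x ≤ u x := by
  have key : ∀ x ∈ K, 0 ≤ u x - ψ x := by
    refine min_compact hK hKU (hu.sub hψ) (fun x hx hm => ?_) fun x hx hxi => by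
      linarith [hbd x hx hxi]
    obtain ⟨i, hi⟩ := A.cover x
    have hxU : x ∈ (A.e i).source ∩ U := ⟨hi, hKU (interior_subset hx)⟩
    have hxK : x ∈ (A.e i).source ∩ interior K := ⟨hi, hx⟩
    have hm' : IsLocalMin (fun w => inC A i u w - inC A i ψ w) (A.e i x) :=
      inC_localMin (φ := fun x => u x - ψ x) hm hi
    have ev : ∀ φ : M → ℝ, inC A i φ (A.e i x) = φ x := fun φ => by
      simp [inC, (A.e i).left_inv hi]
    have h1 := le_at_min (hu i x hxU) (hψ i x hxU) (hb i x hxU) hm' (hp i x hxK) hκ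
      (he i x hxK) (hsub i x hxK) (by rw [ev]; exact hdet i x hxK) (by rw [ev]; exact hE i x hxK)
    rw [ev, ev] at h1
    linarith
  intro x hx
  linarith [key x hx]

/-- **comparison with a supersolution `χ` on a compact part** -/
theorem le_super {K U : Set M} (hK : IsCompact K) (hKU : K ⊆ U) {u χ : M → ℝ}
    (hu : SmU A U u) (hχ : SmU A U χ) (e : A.ι → Cn n → ℝ)
    (he : ∀ i, ∀ x ∈ (A.e i).source ∩ interior K, 0 < e i (A.e i x))
    (hp : ∀ i, ∀ x ∈ (A.e i).source ∩ interior K, ∀ v : Cn n, v ≠ 0 →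
      0 < lev (inC A i u) (A.e i x) v)
    (hdet : ∀ i, ∀ x ∈ (A.e i).source ∩ interior K,
      (cH (inC A i u) (A.e i x)).det = ((Real.exp (u x) * e i (A.e i x) : ℝ) : ℂ))
    (hE : ∀ i, ∀ x ∈ (A.e i).source ∩ interior K,
      (cH (inC A i χ) (A.e i x)).det.re ≤ Real.exp (χ x) * e i (A.e i x))
    (hbd : ∀ x ∈ K, x ∉ interior K → u x ≤ χ x) : ∀ x ∈ K, u x ≤ χ x := by
  have key : ∀ x ∈ K, 0 ≤ χ x - u x := by
    refine min_compact hK hKU (hχ.sub hu) (fun x hx hm => ?_) fun x hx hxi => by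
      linarith [hbd x hx hxi]
    obtain ⟨i, hi⟩ := A.cover x
    have hxU : x ∈ (A.e i).source ∩ U := ⟨hi, hKU (interior_subset hx)⟩
    have hxK : x ∈ (A.e i).source ∩ interior K := ⟨hi, hx⟩
    have hm0 : IsLocalMin (fun w => inC A i χ w - inC A i u w) (A.e i x) :=
      inC_localMin (φ := fun x => χ x - u x) hm hi
    have hm' : IsLocalMax (fun w => inC A i u w - inC A i χ w) (A.e i x) := by
      filter_upwards [hm0] with w hw
      linarith
    have ev : ∀ φ : M → ℝ, inC A i φ (A.e i x) = φ x := fun φ => by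
      simp [inC, (A.e i).left_inv hi]
    have h1 := le_at_max (hu i x hxU) (hχ i x hxU) hm' (hp i x hxK)
      (he i x hxK) (by rw [ev]; exact hdet i x hxK) (by rw [ev]; exact hE i x hxK)
    rw [ev, ev] at h1
    linarith
  intro x hx
  linarith [key x hx]

end

end Crest.Agent.R257.Est3_37
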