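import Crest.Agent.R257.Unif_835
import Crest.Agent.R257.Est3_37

/-!
# R257 (S0395), Part E (helper835): uniform global bounds of the Kaehler-Einstein weights

For `X = S_(t,s)`, `W` the Kaehler-Einstein weight, `κ = d - n - 2 > mu`, uniformly in `(t,s)`:
`κ log |Z|² + mu log (|x|²/|Z|²) - C ≤ W Z ≤ κ log |Z|² + C`  (`GD.bounds`).
-/

set_option autoImplicit false
set_option linter.unusedSectionVars false

open Set Filter Topology Complex
open scoped ContDiff Matrix ComplexConjugate Manifold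

namespace Crest.Agent.R257.EHyp_835

open Crest.Agent.R275.Geo Crest.Agent.R275.Core144 Crest.Agent.R275.GC293
open Crest.Agent.R273.Defs_333 Crest.Agent.R273.YauDefs_635 Crest.Agent.R273.YauCh_635
open Crest.Agent.R273
open Crest.Agent.R257.PN_835 Crest.Agent.R257.Gram_835 Crest.Agent.R257.Hyp_835
open Crest.Agent.R257.KEl_835
open Crest.Agent.R257.KE_835 Crest.Agent.R257.Aff_835 Crest.Agent.R257.Hom_835
open Crest.Agent.R257.Unif_835
open Crest.Agent.R273.FS_333 (sq)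

noncomputable section

variable {n d mu : ℕ}

theorem nsq_div_smul {a : ℂ} (ha : a ≠ 0) (Z : HC (n + 1)) :
    nsq (tl (a • Z)) / nsq (a • Z) = nsq (tl Z) / nsq Z := by
  rw [tl_smul, nsq_smul, nsq_smul, mul_div_mul_left]
  positivity

/-- the weight `mu log (|x|²/|Z|²)` -/
def psc (mu : ℕ) (Z : HC (n + 1)) : ℝ := mu * Real.log (nsq (tl Z) / nsq Z)

theorem psc_smul {a : ℂ} (ha : a ≠ 0) (Z : HC (n + 1)) : psc mu (a • Z) = psc mu Z := by
  unfold psc
  rw [nsq_div_smul ha]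

variable {X : Hyp n d}

/-- the weight on the surface -/
def psS (X : Hyp n d) (mu : ℕ) (x : X.S) : ℝ := psc mu (rep x)

theorem psS_eq {Z : HC (n + 1)} (hZ : Z ≠ 0) {x : X.S} (h : cls Z hZ = x.1) :
    psS X mu x = psc mu Z := by
  have h1 : cls (rep x) (rep_ne x) = cls Z hZ := (cls_rep x).trans h.symm
  obtain ⟨c, hc⟩ := (cls_eq_iff _ _).1 h1
  have hc0 : c ≠ 0 := by
    rintro rfl
    rw [zero_smul] at hc
    exact rep_ne x hc
  rw [psS, hc, psc_smul hc0]

section Surf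

variable (B : HAtl X) (htl : ∀ Z, Z ≠ 0 → X.H Z = 0 → tl Z ≠ 0)
include htl

theorem tl_Fi {i : B.A.ι} {z : Cn n} (hz : z ∈ (B.A.e i).target) : tl (Fi B i z) ≠ 0 :=
  htl _ ((lift_Fi B i).ne z hz) ((lift_Fi B i).zero z hz)

theorem contDiffAt_log_tl {i : B.A.ι} {z : Cn n} (hz : z ∈ (B.A.e i).target) :
    ContDiffAt ℝ ∞ (fun z => Real.log (nsq (tl (Fi B i z)))) z := by
  have hL := lift_Fi B i
  have h1 : ContDiffAt ℝ ∞ (fun z => nsq (tl (Fi B i z))) z := by
    refine ContDiffAt.sum fun k _ => ?_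
    exact (Crest.Agent.R273.FS_333.contDiffAt_of_hol hL.isOpen (hL.holk k.succ) hz).norm_sq ℝ
  exact h1.log (nsq_pos (tl_Fi B htl hz)).ne'

omit htl in
theorem contDiffAt_log_Fi {i : B.A.ι} {z : Cn n} (hz : z ∈ (B.A.e i).target) :
    ContDiffAt ℝ ∞ (fun z => Real.log (nsq (Fi B i z))) z := by
  have hL := lift_Fi B i
  exact (contDiffAt_nsq hL.isOpen hL.hol hz).log (nsq_pos (hL.ne z hz)).ne'

theorem psS_chart {i : B.A.ι} {z : Cn n} (hz : z ∈ (B.A.e i).target) :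
    psS X mu ((B.A.e i).symm z) = mu * Real.log (nsq (tl (Fi B i z))) -
      mu * Real.log (nsq (Fi B i z)) := by
  rw [psS_eq (HAtl.F_ne ((B.A.e i).map_target hz)) (HAtl.cls_F ((B.A.e i).map_target hz))]
  show mu * Real.log (nsq (tl (Fi B i z)) / nsq (Fi B i z)) = _
  rw [Real.log_div (nsq_pos (tl_Fi B htl hz)).ne' (nsq_pos ((lift_Fi B i).ne z hz)).ne']
  ring

theorem psS_sm : B.A.Sm (psS X mu) := by
  intro i z hz
  refine ContDiffAt.contDiffWithinAt ?_
  have h1 := contDiffAt_log_tl B htl hz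
  have h2 := contDiffAt_log_Fi B hz
  refine ((contDiffAt_const.mul h1).sub (contDiffAt_const.mul h2)).congr_of_eventuallyEq
    (f := fun z => (mu : ℝ) * Real.log (nsq (tl (Fi B i z))) -
      (mu : ℝ) * Real.log (nsq (Fi B i z))) ?_
  filter_upwards [(B.A.e i).open_target.mem_nhds hz] with w hw
  exact psS_chart B htl hw

/-- the global subsolution -/
theorem psS_lev {κ : ℕ} (hκ : mu < κ) (i : B.A.ι) {z : Cn n} (hz : z ∈ (B.A.e i).target)
    (v : Cn n) : (((κ - mu : ℝ)) / κ) * lev ((H0 B κ).wt i) z v ≤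
      lev (pot (H0 B κ) (psS X mu) i) z v := by
  have hL := lift_Fi B i
  have h1 := contDiffAt_log_tl B htl hz
  have h2 := contDiffAt_log_Fi B hz
  have hκ0 : (0 : ℝ) < κ := by
    have : 0 < κ := by omega
    exact_mod_cast this
  have e1 : (H0 B κ).wt i = fun w => (κ : ℝ) * Real.log (nsq (Fi B i w)) := by
    funext w
    rw [wt_H0]
    rfl
  have e2 : pot (H0 B κ) (psS X mu) i =ᶠ[𝓝 z] fun w =>
      ((κ - mu : ℝ)) * Real.log (nsq (Fi B i w)) + mu * Real.log (nsq (tl (Fi B i w))) := by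
    filter_upwards [(B.A.e i).open_target.mem_nhds hz] with w hw
    rw [pot_eq, psS_chart B htl hw]
    ring
  rw [lev_congr e2, e1, lev_mul (h2.of_le two_le_inf)]
  have h3 : lev (fun w => ((κ - mu : ℝ)) * Real.log (nsq (Fi B i w)) +
      mu * Real.log (nsq (tl (Fi B i w)))) z v =
      (κ - mu : ℝ) * lev (fun w => Real.log (nsq (Fi B i w))) z v +
      mu * lev (fun w => Real.log (nsq (tl (Fi B i w)))) z v := by
    rw [lev333_eq_lev145, Levi_145.lev_add (contDiffAt_const.mul (h2.of_le two_le_inf))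
      (contDiffAt_const.mul (h1.of_le two_le_inf)), mul_add,
      ← lev333_eq_lev145 (fun w => ((κ - mu : ℝ)) * Real.log (nsq (Fi B i w))),
      ← lev333_eq_lev145 (fun w => (mu : ℝ) * Real.log (nsq (tl (Fi B i w)))),
      lev_mul (h2.of_le two_le_inf), lev_mul (h1.of_le two_le_inf)]
  have h4 : 0 ≤ lev (fun w => Real.log (nsq (tl (Fi B i w)))) z v := by
    rw [lev333_eq_lev145]
    have h5 : ∀ j : Fin (n + 1), AnalyticAt ℂ (fun z => Fi B i z j.succ) z := fun j =>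
      Crest.Agent.R266.SCV.analyticOnNhd_of_differentiableOn hL.isOpen (hL.holk j.succ) z hz
    obtain ⟨j, hj⟩ := Function.ne_iff.1 (tl_Fi B htl hz)
    have h6 := Levi_145.lev_log_sumSq_nonneg (F := fun (j : Fin (n + 1)) z => Fi B i z j.succ)
      h5 ⟨j, hj⟩ v
    have h7 : 0 ≤ 4 * Levi_145.lev (fun w => Real.log (Levi_145.sumSq
        (fun (j : Fin (n + 1)) z => Fi B i z j.succ) w)) z v := by linarith
    exact h7
  rw [h3]
  have h8 : (κ - mu : ℝ) / κ * (κ * lev (fun w => Real.log (nsq (Fi B i w))) z v) =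
      (κ - mu : ℝ) * lev (fun w => Real.log (nsq (Fi B i w))) z v := by
    field_simp
  rw [h8]
  have h9 : (0 : ℝ) ≤ mu * lev (fun w => Real.log (nsq (tl (Fi B i w)))) z v :=
    mul_nonneg (Nat.cast_nonneg _) h4
  linarith

end Surf

/-! ### the uniform bounds -/

variable (D : GD n d mu)

theorem GD.tl_ne {t s : ℂ} (ht : ‖t‖ < D.R) (hs : s ≠ 0) {Z : HC (n + 1)} (hZ : Z ≠ 0)
    (h0 : D.H (t, s) Z = 0) : tl Z ≠ 0 := by
  intro h
  have hZ0 : Z 0 ≠ 0 := by
    intro h1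
    apply hZ
    funext k
    refine Fin.cases h1 (fun k => congrFun h k) k
  have h1 : Z = Z 0 • hc (0 : AC n) := by
    funext k
    refine Fin.cases ?_ (fun k => ?_) k
    · simp
    · rw [Pi.smul_apply, hc_succ, Pi.zero_apply, smul_zero]
      exact congrFun h k
  have h2 : HH d (D.P t) D.c s (Z 0 • hc (0 : AC n)) = 0 := by rw [← h1]; exact h0
  rw [HH_smul (D.deg t ht), HH_hc (D.deg t ht), D.zero t ht, zero_sub] at h2
  exact (mul_ne_zero (pow_ne_zero _ hZ0) (neg_ne_zero.2 hs)) h2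

theorem ng_div_smul {τ : ℂ × ℂ} (hτ : ‖τ.1‖ < D.R) {a : ℂ} (ha : a ≠ 0) (Z : HC (n + 1)) :
    D.ng τ (a • Z) / nsq (a • Z) ^ (d - 1) = D.ng τ Z / nsq Z ^ (d - 1) := by
  rw [D.ng_smul hτ ha, nsq_smul, mul_pow, mul_div_mul_left]
  exact pow_ne_zero _ (by positivity)

/-- **uniform global bounds** -/
theorem GD.bounds {κ : ℕ} (hd : d = n + 2 + κ) (hκ : mu < κ) : ∃ e > 0, e ≤ D.R ∧ ∃ C : ℝ,
    ∀ (t s : ℂ) (ht : ‖t‖ < D.R) (hs : 0 < ‖s‖ ∧ ‖s‖ < D.R), ‖t‖ < e → ‖s‖ < e →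
      ∀ (B : HAtl (D.X ht hs)) (φ : (D.X ht hs).S → ℝ), B.A.Sm φ → KPos (H0 B κ) φ →
        MA (H0 B κ) φ (fun x => FF κ x + φ x) → ∀ Z : HC (n + 1), Z ≠ 0 → D.H (t, s) Z = 0 →
          Wc κ φ Z ≤ κ * Real.log (nsq Z) + C ∧
          κ * Real.log (nsq Z) + mu * Real.log (nsq (tl Z) / nsq Z) - C ≤ Wc κ φ Z := by
  obtain ⟨Cu, hCu, hup⟩ := D.upper
  obtain ⟨c1, hc1, e, he, heR, hlo⟩ := D.lower
  have hR := D.R_pos
  have hκ0 : 0 < κ := by omega
  have hκr : (0 : ℝ) < κ := by exact_mod_cast hκ0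
  have hκmu : (0 : ℝ) < κ - mu := by
    have : (mu : ℝ) < κ := by exact_mod_cast hκ
    linarith
  have hd0 : 0 < d := by omega
  refine ⟨min e (D.R / 2), lt_min he (by positivity), (min_le_left _ _).trans heR,
    max (Real.log Cu + n * Real.log κ) (-(n * Real.log (κ - mu) + Real.log c1)), ?_⟩
  intro t s ht hs hte hse B φ hφ hpos hMA Z hZ hHZ
  have hte' : ‖t‖ < e := hte.trans_le (min_le_left _ _)
  have hse' : ‖s‖ < e := hse.trans_le (min_le_left _ _)
  have hs0 : s ≠ 0 := norm_pos_iff.1 hs.1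
  have htl : ∀ Z, Z ≠ 0 → (D.X ht hs).H Z = 0 → tl Z ≠ 0 := fun Z hZ h => GD.tl_ne D ht hs0 hZ h
  have hne : Nonempty (D.X ht hs).S := ⟨⟨cls Z hZ, ((D.X ht hs).cls_mem hZ).2 hHZ⟩⟩
  -- the gradient
  have hngpos : ∀ Z : HC (n + 1), Z ≠ 0 → D.H (t, s) Z = 0 → 0 < D.ng (t, s) Z := fun Z hZ h =>
    (D.X ht hs).ng_pos hZ h
  have hFF : ∀ Z : HC (n + 1), FFc (D.X ht hs) κ Z =
      - Real.log (D.ng (t, s) Z / nsq Z ^ (d - 1)) - n * Real.log κ := fun Z => rfl
  -- upper bound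
  have h1 : ∀ x : (D.X ht hs).S, -(Real.log Cu + n * Real.log κ) ≤ FF κ x := by
    intro x
    have hx := rep_ne x
    have hx0 : D.H (t, s) (rep x) = 0 := by
      have h2 := (D.X ht hs).cls_mem hx
      rw [cls_rep] at h2
      exact h2.1 x.2
    show _ ≤ FFc (D.X ht hs) κ (rep x)
    rw [hFF]
    have h2 := hup t s (hte.le.trans (min_le_right _ _)) hs.2.le (rep x) hx
    have h3 : 0 < nsq (rep x) ^ (d - 1) := pow_pos (nsq_pos hx) _
    have h4 : D.ng (t, s) (rep x) / nsq (rep x) ^ (d - 1) ≤ Cu := by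
      rw [div_le_iff₀ h3]
      exact h2
    have h5 : 0 < D.ng (t, s) (rep x) / nsq (rep x) ^ (d - 1) := div_pos (hngpos _ hx hx0) h3
    have h6 := Real.log_le_log h5 h4
    linarith
  have hup' := Est3_37.upper (H0_pos B hκ0) hφ hpos hMA h1
  -- lower bound
  have h2 : ∀ x : (D.X ht hs).S, psS (D.X ht hs) mu x ≤
      -FF κ x + (-(n * Real.log κ) - Real.log c1) := by
    intro x
    obtain ⟨a, Z', ha, hZ1, hxZ⟩ := exists_unit (rep_ne x)
    have hZ' : Z' ≠ 0 := by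
      rintro rfl
      simp [nsq] at hZ1
    have hx0 : D.H (t, s) (rep x) = 0 := by
      have h2 := (D.X ht hs).cls_mem (rep_ne x)
      rw [cls_rep] at h2
      exact h2.1 x.2
    have hZ0 : D.H (t, s) Z' = 0 := by
      rw [hxZ] at hx0
      have h3 : D.H (t, s) (a • Z') = a ^ d * D.H (t, s) Z' := (D.X ht hs).hom a Z'
      rw [h3] at hx0
      exact (mul_eq_zero.1 hx0).resolve_left (pow_ne_zero _ ha)
    show psc mu (rep x) ≤ -FFc (D.X ht hs) κ (rep x) + _
    rw [hxZ, psc_smul ha, FFc_smul hd0 κ ha, hFF, psc, hZ1, one_pow, div_one, div_one]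
    have h3 := hlo t s hte' hse' Z' hZ1 hZ0
    have h4 : 0 < nsq (tl Z') := nsq_pos (htl Z' hZ' hZ0)
    have h5 := Real.log_le_log (by positivity) h3
    rw [Real.log_mul hc1.ne' (pow_pos h4 _).ne', Real.log_pow] at h5
    linarith
  have hκ' : 0 < ((κ - mu : ℝ)) / κ := div_pos hκmu hκr
  have hlo' := Est3_37.lower (H0_pos B hκ0) hφ (psS_sm B htl) hMA hκ'
    (fun i z hz v => psS_lev B htl hκ i hz v) h2
  set x : (D.X ht hs).S := ⟨cls Z hZ, ((D.X ht hs).cls_mem hZ).2 hHZ⟩ with hx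
  have hW : Wc κ φ Z = κ * Real.log (nsq Z) + φ x := by
    rw [Wc, phE_eq φ hZ hHZ (x := x) rfl]
  have hps : psS (D.X ht hs) mu x = mu * Real.log (nsq (tl Z) / nsq Z) :=
    psS_eq hZ (x := x) rfl
  have h3 := hup' x
  have h4 := hlo' x
  rw [hps, Real.log_div hκmu.ne' hκr.ne'] at h4
  rw [hW]
  constructor
  · linarith [le_max_left (Real.log Cu + n * Real.log κ) (-(n * Real.log (κ - mu) + Real.log c1))]
  · have := le_max_right (Real.log Cu + n * Real.log κ) (-(n * Real.log (κ - mu) + Real.log c1))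
    have h5 : (n : ℝ) * (Real.log (κ - mu) - Real.log κ) = n * Real.log (κ - mu) -
      n * Real.log κ := by ring
    rw [h5] at h4
    linarith

end

end Crest.Agent.R257.EHyp_835
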