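import Crest.Agent.R257.CLH_39
import Crest.Agent.R257.EHyp_835

/-!
# Row 257 (S0395), E-CLS (helper39), part A: the residue form, charts

* `eta2_sm`, `eta2_hess`, `eta2_pos` : `|η|²` of a lift is smooth, positive, `log |η|²` is
  pluriharmonic.
-/

set_option autoImplicit false
set_option linter.unusedSectionVars false

open Set Filter Topology Complex
open scoped ContDiff ComplexConjugate Matrix ComplexOrder

namespace Crest.Agent.R257.CLSA_39

open Crest.Agent.R275.Geo Crest.Agent.R275.Core144 Crest.Agent.R275.GC293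
open Crest.Agent.R273 Crest.Agent.R273.Defs_333 Crest.Agent.R273.YauDefs_635
open Crest.Agent.R273.YauMax_635 Crest.Agent.R273.HM_333
open Crest.Agent.R273.Hess_333 Crest.Agent.R273.HessB_333 Crest.Agent.R273.FS_333
open Crest.Agent.R257.CLC_39 Crest.Agent.R257.CLD_39 Crest.Agent.R257.CLE_39
open Crest.Agent.R257.CLF_39 Crest.Agent.R257.CLG_39 Crest.Agent.R257.CLH_39
open Crest.Agent.R257.PN_835 Crest.Agent.R257.Gram_835 Crest.Agent.R257.Hyp_835
open Crest.Agent.R257.KEl_835 Crest.Agent.R257.KE_835 Crest.Agent.R257.Aff_835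

noncomputable section

variable {n d : ℕ} {X : Hyp n d}

/-- holomorphic derivative in a fixed direction -/
theorem hol_pd {F : Cn n → HC (n + 1)} {U : Set (Cn n)} (hF : Lift X F U) (a : Fin n)
    (k : Fin (n + 2)) : DifferentiableOn ℂ (fun z => pd F z a k) U := by
  have h1 : DifferentiableOn ℂ (fderiv ℂ (fun z => F z k)) U := fun z hz =>
    ((Crest.Agent.R266.SCV.analyticOnNhd_of_differentiableOn hF.isOpen
      (hF.holk k)).fderiv z hz).differentiableAt.differentiableWithinAt
  exact h1.clm_apply (differentiableOn_const _)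

theorem diffOn_prod {ι : Type*} (s : Finset ι) {f : ι → Cn n → ℂ} {U : Set (Cn n)}
    (h : ∀ i ∈ s, DifferentiableOn ℂ (f i) U) :
    DifferentiableOn ℂ (fun z => ∏ i ∈ s, f i z) U := by
  classical
  induction s using Finset.induction_on with
  | empty => simp
  | insert a s ha ih =>
    simp only [Finset.prod_insert ha]
    exact (h a (Finset.mem_insert_self a s)).mul
      (ih fun i hi => h i (Finset.mem_insert_of_mem hi))

/-- the determinant -/
def dN (F : Cn n → HC (n + 1)) (W : HC (n + 1)) (z : Cn n) : ℂ :=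
  ((addRow (RF F z) W).submatrix (rowE n) id).det

theorem hol_dN {F : Cn n → HC (n + 1)} {U : Set (Cn n)} (hF : Lift X F U) (W : HC (n + 1)) :
    DifferentiableOn ℂ (dN F W) U := by
  unfold dN
  simp only [Matrix.det_apply]
  refine DifferentiableOn.fun_sum fun σ _ => ?_
  refine DifferentiableOn.const_smul ?_ _
  have h1 : ∀ b ∈ (Finset.univ : Finset (Fin (n + 2))),
      DifferentiableOn ℂ (fun z => (addRow (RF F z) W) (rowE n (σ b)) b) U := by
    intro b _
    rcases rowE n (σ b) with (a | a) | a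
    · exact hF.holk b
    · exact hol_pd hF a b
    · exact differentiableOn_const _
  exact diffOn_prod _ h1

theorem eta2_dN {F : Cn n → HC (n + 1)} {U : Set (Cn n)} (hF : Lift X F U) {z : Cn n}
    (hz : z ∈ U) (W : HC (n + 1)) :
    ‖dN F W z‖ ^ 2 = eta2 X F z * ‖fderiv ℂ X.H (F z) W‖ ^ 2 := by
  have h1 := hF.eta2_spec hz W
  rw [gdet_submatrix _ (rowE n), Complex.mul_conj, Complex.normSq_eq_norm_sq] at h1
  exact_mod_cast h1

theorem hol_dH {F : Cn n → HC (n + 1)} {U : Set (Cn n)} (hF : Lift X F U) (W : HC (n + 1)) :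
    DifferentiableOn ℂ (fun z => fderiv ℂ X.H (F z) W) U := by
  have hA : Differentiable ℂ (fderiv ℂ X.H) := by
    have h1 := (Crest.Agent.R266.SCV.analyticOnNhd_of_differentiableOn isOpen_univ
      X.diff.differentiableOn).fderiv
    exact fun Z => (h1 Z (mem_univ _)).differentiableAt
  have h2 : DifferentiableOn ℂ (fun z => fderiv ℂ X.H (F z)) U :=
    hA.comp_differentiableOn hF.hol
  exact h2.clm_apply (differentiableOn_const _)

/-- the local form of `|η|²` -/
theorem eta2_loc {F : Cn n → HC (n + 1)} {U : Set (Cn n)} (hF : Lift X F U) {z : Cn n}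
    (hz : z ∈ U) : ∃ (W : HC (n + 1)), fderiv ℂ X.H (F z) W ≠ 0 ∧ ∀ᶠ w in 𝓝 z,
      eta2 X F w = ‖dN F W w‖ ^ 2 / ‖fderiv ℂ X.H (F w) W‖ ^ 2 := by
  have h1 := X.ns (F z) (hF.ne z hz) (hF.zero z hz)
  obtain ⟨W, hW⟩ : ∃ W, fderiv ℂ X.H (F z) W ≠ 0 := by
    by_contra h
    push Not at h
    exact h1 (by ext W; rw [h W]; rfl)
  refine ⟨W, hW, ?_⟩
  have hc : ContinuousAt (fun w => fderiv ℂ X.H (F w) W) z :=
    ((hol_dH hF W).differentiableAt (hF.isOpen.mem_nhds hz)).continuousAt
  filter_upwards [hF.isOpen.mem_nhds hz, hc.eventually_ne hW] with w hw hw0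
  rw [eta2_dN hF hw W, mul_div_cancel_right₀]
  have := norm_ne_zero_iff.2 hw0
  positivity

theorem eta2_sm {F : Cn n → HC (n + 1)} {U : Set (Cn n)} (hF : Lift X F U) :
    ContDiffOn ℝ ∞ (eta2 X F) U := by
  intro z hz
  refine ContDiffAt.contDiffWithinAt ?_
  obtain ⟨W, hW, hev⟩ := eta2_loc hF hz
  refine ContDiffAt.congr_of_eventuallyEq ?_ hev
  have h1 := (contDiffAt_of_hol hF.isOpen (hol_dN hF W) hz).norm_sq ℝ
  have h2 := (contDiffAt_of_hol hF.isOpen (hol_dH hF W) hz).norm_sq ℝ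
  refine h1.div h2 ?_
  have := norm_ne_zero_iff.2 hW
  positivity

theorem eta2_hess {F : Cn n → HC (n + 1)} {U : Set (Cn n)} (hF : Lift X F U) {z : Cn n}
    (hz : z ∈ U) (hpos : 0 < eta2 X F z) :
    hess (fun w => Real.log (eta2 X F w)) z = 0 := by
  obtain ⟨W, hW, hev⟩ := eta2_loc hF hz
  have hn := hF.isOpen.mem_nhds hz
  have hN0 : dN F W z ≠ 0 := by
    intro h0
    have h1 := eta2_dN hF hz W
    rw [h0] at h1
    have := norm_pos_iff.2 hW
    simp only [norm_zero, ne_eq, OfNat.ofNat_ne_zero, not_false_eq_true, zero_pow] at h1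
    have h2 : 0 < eta2 X F z * ‖fderiv ℂ X.H (F z) W‖ ^ 2 := by positivity
    linarith
  have d1 : ∀ᶠ w in 𝓝 z, DifferentiableAt ℂ (dN F W) w := by
    filter_upwards [hF.isOpen.mem_nhds hz] with w hw
    exact (hol_dN hF W).differentiableAt (hF.isOpen.mem_nhds hw)
  have d2 : ∀ᶠ w in 𝓝 z, DifferentiableAt ℂ (fun w => fderiv ℂ X.H (F w) W) w := by
    filter_upwards [hF.isOpen.mem_nhds hz] with w hw
    exact (hol_dH hF W).differentiableAt (hF.isOpen.mem_nhds hw)
  have c1 : ContDiffAt ℝ ∞ (fun w => Real.log (‖dN F W w‖ ^ 2)) z :=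
    ((contDiffAt_of_hol hF.isOpen (hol_dN hF W) hz).norm_sq ℝ).log (by
      have := norm_ne_zero_iff.2 hN0
      positivity)
  have c2 : ContDiffAt ℝ ∞ (fun w => Real.log (‖fderiv ℂ X.H (F w) W‖ ^ 2)) z :=
    ((contDiffAt_of_hol hF.isOpen (hol_dH hF W) hz).norm_sq ℝ).log (by
      have := norm_ne_zero_iff.2 hW
      positivity)
  have h1 : (fun w => Real.log (eta2 X F w)) =ᶠ[𝓝 z]
      fun w => Real.log (‖dN F W w‖ ^ 2) - Real.log (‖fderiv ℂ X.H (F w) W‖ ^ 2) := by
    filter_upwards [hev, d1.self_of_nhds.continuousAt.eventually_ne hN0,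
      d2.self_of_nhds.continuousAt.eventually_ne hW] with w hw h3 h4
    rw [hw, Real.log_div]
    · have := norm_ne_zero_iff.2 h3
      positivity
    · have := norm_ne_zero_iff.2 h4
      positivity
  rw [hess_congr h1, hess_sub c1 c2, hess_log_norm d1 hN0, hess_log_norm d2 hW, sub_zero]

end

end Crest.Agent.R257.CLSA_39
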