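import Crest.Agent.R257.CLSA_39

/-!
# Row 257 (S0395), E-CLS (helper39), part B: `ω_eucl ≤ C ω` on a level

* `eucl_X` : one hypersurface, explicit constant
-/

set_option autoImplicit false
set_option linter.unusedSectionVars false

open Set Filter Topology Complex
open scoped ContDiff ComplexConjugate Matrix ComplexOrder

namespace Crest.Agent.R257.CLSB_39

open Crest.Agent.R275.Geo Crest.Agent.R275.Core144 Crest.Agent.R275.GC293
open Crest.Agent.R273 Crest.Agent.R273.Defs_333 Crest.Agent.R273.YauDefs_635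
open Crest.Agent.R273.YauMax_635
open Crest.Agent.R273.HM_333 hiding nsq
open Crest.Agent.R273.Hess_333 Crest.Agent.R273.HessB_333
open Crest.Agent.R273.FS_333
open Crest.Agent.R257.CLC_39 Crest.Agent.R257.CLD_39 Crest.Agent.R257.CLE_39
open Crest.Agent.R257.CLF_39 hiding FF
open Crest.Agent.R257.CLG_39 Crest.Agent.R257.CLH_39 Crest.Agent.R257.CLSA_39
open Crest.Agent.R257.PN_835 Crest.Agent.R257.Gram_835 Crest.Agent.R257.Hyp_835
open Crest.Agent.R257.KEl_835 Crest.Agent.R257.KE_835 Crest.Agent.R257.Aff_835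
open Crest.Agent.R257.Unif_835 Crest.Agent.R257.EHyp_835

noncomputable section

variable {n d : ℕ} {X : Hyp n d}

theorem det_pos {u : Cn n → ℝ} {z : Cn n} (hu : ContDiffAt ℝ ∞ u z)
    (h : ∀ v : Cn n, v ≠ 0 → 0 < lev u z v) {r : ℝ} (hd : (cH u z).det = (r : ℂ)) : 0 < r := by
  have e1 : C2a_793.Um u z = cH u z := by
    ext a b
    rw [cH_eq_hs (two_le' hu)]
    rfl
  have h1 : (C2a_793.Um u z).PosDef := C2c_793.Um_posDef (two_le' hu) fun v hv => by
    have := h v hv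
    rw [lev333_eq_lev145] at this
    linarith
  have h2 := h1.det_pos
  rw [e1, hd] at h2
  exact_mod_cast h2

section fixed

variable (B : HAtl X) {κ mu : ℕ} (hd : d = n + 2 + κ) (hκ : mu < κ)
  (htl : ∀ Z, Z ≠ 0 → X.H Z = 0 → tl Z ≠ 0) {φ : X.S → ℝ}
  (hφ : B.A.Sm φ) (hpos : KPos (H0 B κ) φ) (hMA : MA (H0 B κ) φ (fun x => FF κ x + φ x))

include hd hκ hφ hpos hMA in
theorem eta2_Fi_pos {i : B.A.ι} {z : Cn n} (hz : z ∈ (B.A.e i).target) :
    0 < eta2 X (Fi B i) z := by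
  have h1 := det_pos (pot_sm hφ κ hz) (hpos i z hz) (ma_chart hd (by omega) hMA hz)
  exact (mul_pos_iff_of_pos_left (Real.exp_pos _)).1 h1

theorem wt_fsP (i : B.A.ι) : (fs B.P).wt i = fun w => Real.log (nsq (Fi B i w)) := by
  rw [wt_fs]
  rfl

theorem nsq_FF (i : B.A.ι) (w : Cn n) : CLF_39.FF B.P i w = Fi B i w := rfl

include hκ htl in
/-- the subsolution -/
theorem sub_fs (i : B.A.ι) {z : Cn n} (hz : z ∈ (B.A.e i).target) (v : Cn n) :
    (κ - mu : ℝ) * lev ((fs B.P).wt i) z v ≤ lev (pot (H0 B κ) (psS X mu) i) z v := by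
  have h1 := psS_lev B htl hκ i hz v
  have hκ0 : (κ : ℝ) ≠ 0 := by
    have : 0 < κ := by omega
    positivity
  have h2 : lev ((H0 B κ).wt i) z v = κ * lev ((fs B.P).wt i) z v := by
    have e1 : (H0 B κ).wt i = fun w => (κ : ℝ) * Real.log (nsq (Fi B i w)) := by
      funext w
      rw [wt_H0]
      rfl
    rw [e1, wt_fsP, lev_mul ((contDiffAt_log_Fi B hz).of_le YauCh_635.two_le_inf)]
  rw [h2] at h1
  have h3 : (κ - mu : ℝ) / κ * (κ * lev ((fs B.P).wt i) z v)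
      = (κ - mu : ℝ) * lev ((fs B.P).wt i) z v := by
    field_simp
  linarith

/-- class of a representative -/
theorem Wc_rep (x : X.S) : X.H (rep x) = 0 ∧
    Wc κ φ (rep x) = κ * Real.log (nsq (rep x)) + φ x ∧
    psS X mu x = mu * Real.log (nsq (tl (rep x)) / nsq (rep x)) := by
  have hx := rep_ne x
  have h0 : X.H (rep x) = 0 := (X.cls_mem hx).1 (by rw [cls_rep]; exact x.2)
  refine ⟨h0, ?_, psS_eq hx (cls_rep x)⟩
  rw [Wc, phE_eq φ hx h0 (x := x) (cls_rep x).symm]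

/-- the same for an arbitrary representative -/
theorem Wc_of {Z : HC (n + 1)} (hZ : Z ≠ 0) (h0 : X.H Z = 0) {x : X.S} (hx : cls Z hZ = x.1) :
    Wc κ φ Z = κ * Real.log (nsq Z) + φ x ∧ psS X mu x = mu * Real.log (nsq (tl Z) / nsq Z) :=
  ⟨by rw [Wc, phE_eq φ hZ h0 (x := x) hx.symm], psS_eq hZ hx⟩

variable {C : ℝ} (hup : ∀ Z, Z ≠ 0 → X.H Z = 0 → Wc κ φ Z ≤ κ * Real.log (nsq Z) + C)
  (hlo : ∀ Z, Z ≠ 0 → X.H Z = 0 →
    κ * Real.log (nsq Z) + mu * Real.log (nsq (tl Z) / nsq Z) - C ≤ Wc κ φ Z)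

include hlo in
theorem low_phi (x : X.S) : -C ≤ φ x - psS X mu x := by
  obtain ⟨h0, h1, h2⟩ := Wc_rep (κ := κ) (mu := mu) (φ := φ) x
  have h3 := hlo _ (rep_ne x) h0
  rw [h1] at h3
  rw [h2]
  linarith

include hup in
theorem up_phi {R : ℝ} (hR : 0 < R) {x : X.S} (hx : x ∈ D0 B.P) (hxR : sqM (Yc B.P) x = R) :
    φ x - psS X mu x - (-C) ≤ 2 * C - mu * Real.log (R / (1 + R)) := by
  obtain ⟨i, hi⟩ := B.A.cover x
  have hF0 : B.F i x 0 ≠ 0 := (mem_D0 B.P hi).1 hx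
  have hne : B.F i x ≠ 0 := HAtl.F_ne hi
  have h0 : X.H (B.F i x) = 0 := HAtl.H_F hi
  obtain ⟨h1, h2⟩ := Wc_of (κ := κ) (mu := mu) (φ := φ) hne h0 (HAtl.cls_F hi)
  have h3 := hup _ hne h0
  rw [h1] at h3
  have h4 : nsq (tl (B.F i x)) = ‖B.F i x 0‖ ^ 2 * R := by
    rw [← hxR, sqM, Finset.mul_sum]
    refine Finset.sum_congr rfl fun k _ => ?_
    have h5 : Yc B.P x k = B.F i x k.succ / B.F i x 0 := Yc_eq B.P hi k
    rw [h5, norm_div, div_pow]
    have : ‖B.F i x 0‖ ^ 2 ≠ 0 := by positivity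
    show ‖B.F i x k.succ‖ ^ 2 = _
    field_simp
  have h5 : nsq (B.F i x) = ‖B.F i x 0‖ ^ 2 * (1 + R) := by
    rw [nsq_eq, h4]
    ring
  have h6 : nsq (tl (B.F i x)) / nsq (B.F i x) = R / (1 + R) := by
    rw [h4, h5, mul_div_mul_left]
    positivity
  rw [h2, h6]
  linarith

include hd hκ htl hφ hpos hMA hup hlo in
/-- `ω_eucl ≤ C ω` in the charts -/
theorem eucl_chart {R : ℝ} (hR : 0 < R) {x : X.S} (hx : x ∈ KR B.P R) {i : B.A.ι}
    (hi : x ∈ (B.A.e i).source) (v : Cn n) :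
    lev (inC B.A i (sqM (Yc B.P))) (B.A.e i x) v
      ≤ CB n 1 (κ - mu) R (2 * C - mu * Real.log (R / (1 + R))) *
        lev (pot (H0 B κ) φ i) (B.A.e i x) v := by
  have hκ' : (0 : ℝ) < (κ : ℝ) - mu := by
    have : (mu : ℝ) < κ := by exact_mod_cast hκ
    linarith
  exact ke_eucl_le B.P (H0 B κ) hφ (psS_sm B htl) hpos (e := fun i => eta2 X (Fi B i))
    (fun i => eta2_sm (lift_Fi B i))
    (fun i z hz => eta2_Fi_pos B hd hκ hφ hpos hMA hz)
    (fun i z hz => eta2_hess (lift_Fi B i) hz (eta2_Fi_pos B hd hκ hφ hpos hMA hz))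
    (fun i z hz => ma_chart hd (by omega) hMA hz) hκ'
    (fun i z hz v => sub_fs B hκ htl i hz v)
    (m := -C) (low_phi hlo) hR (fun x hx hxR => up_phi B hup hR hx hxR) hx hi v

end fixed

end

end Crest.Agent.R257.CLSB_39
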