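import Crest.Agent.R257.CLSB_39

/-!
# Row 257 (S0395), E-CLS (helper39), part C: parametrisations of the level

* `eucl_X`  : `lev (sq θ) ≤ C lev (u ∘ θ)` on `|x|² ≤ R`, one level, explicit constant
-/

set_option autoImplicit false
set_option linter.unusedSectionVars false

open Set Filter Topology Complex
open scoped ContDiff ComplexConjugate Matrix ComplexOrder

namespace Crest.Agent.R257.CLSC_39

open Crest.Agent.R275.Geo Crest.Agent.R275.Core144 Crest.Agent.R275.GC293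
open Crest.Agent.R273 Crest.Agent.R273.Defs_333 Crest.Agent.R273.YauDefs_635
open Crest.Agent.R273.YauMax_635
open Crest.Agent.R273.HM_333 hiding nsq
open Crest.Agent.R273.Hess_333 Crest.Agent.R273.HessB_333
open Crest.Agent.R273.FS_333
open Crest.Agent.R257.CLC_39 Crest.Agent.R257.CLD_39 Crest.Agent.R257.CLE_39
open Crest.Agent.R257.CLF_39 hiding FF
open Crest.Agent.R257.CLG_39 Crest.Agent.R257.CLH_39 Crest.Agent.R257.CLSA_39
open Crest.Agent.R257.CLSB_39
open Crest.Agent.R257.PN_835 Crest.Agent.R257.Gram_835 Crest.Agent.R257.Hyp_835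
open Crest.Agent.R257.KEl_835 Crest.Agent.R257.KE_835 Crest.Agent.R257.Aff_835
open Crest.Agent.R257.Unif_835 Crest.Agent.R257.EHyp_835

noncomputable section

variable {n d : ℕ} {X : Hyp n d}

section fixed

variable (B : HAtl X) {κ mu : ℕ} (hd : d = n + 2 + κ) (hκ : mu < κ)
  (htl : ∀ Z, Z ≠ 0 → X.H Z = 0 → tl Z ≠ 0) {φ : X.S → ℝ}
  (hφ : B.A.Sm φ) (hpos : KPos (H0 B κ) φ) (hMA : MA (H0 B κ) φ (fun x => FF κ x + φ x))
  {C : ℝ} (hup : ∀ Z, Z ≠ 0 → X.H Z = 0 → Wc κ φ Z ≤ κ * Real.log (nsq Z) + C)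
  (hlo : ∀ Z, Z ≠ 0 → X.H Z = 0 →
    κ * Real.log (nsq Z) + mu * Real.log (nsq (tl Z) / nsq Z) - C ≤ Wc κ φ Z)
  {g : AC n → ℂ} {s : ℂ} (hX : Cl X g s) {θ : Cn n → AC n} {U : Set (Cn n)}
  (hθ : Par g s θ U)

include hd hκ htl hφ hpos hMA hup hlo hX hθ in
/-- **`ω_eucl ≤ C ω` on a level** -/
theorem eucl_X {R : ℝ} (hR : 0 < R) {z : Cn n} (hz : z ∈ U) (hzR : nsq (θ z) ≤ R) (v : Cn n) :
    lev (sq θ) z v ≤ CB n 1 (κ - mu) R (2 * C - mu * Real.log (R / (1 + R))) *
      lev (fun z => Wc κ φ (hc (θ z))) z v := by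
  have hL := hθ.lift hX
  obtain ⟨i, g', c, V, hVo, hzV, hVU, hg, hca, hc0, ht, hm, hcl, him⟩ := hL.chart B hz
  set x : Cn n → X.S := fun w => (B.A.e i).symm (g' w) with hx
  have hxs : ∀ w ∈ V, x w ∈ (B.A.e i).source := fun w hw => (B.A.e i).map_target (ht w hw)
  have hex : ∀ w ∈ V, B.A.e i (x w) = g' w := fun w hw => (B.A.e i).right_inv (ht w hw)
  have hFx : ∀ w ∈ V, B.F i (x w) = Fi B i (g' w) := fun w hw => rfl
  -- homogeneous coordinates
  have h0 : ∀ w ∈ V, c w * Fi B i (g' w) 0 = 1 := fun w hw => by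
    have h1 := congrFun (hm w hw) 0
    rw [hc_zero, Pi.smul_apply, smul_eq_mul] at h1
    exact h1.symm
  have h1 : ∀ w ∈ V, ∀ k : Fin (n + 1), c w * Fi B i (g' w) k.succ = θ w k := fun w hw k => by
    have h1 := congrFun (hm w hw) k.succ
    rw [hc_succ, Pi.smul_apply, smul_eq_mul] at h1
    exact h1.symm
  have hF0 : ∀ w ∈ V, Fi B i (g' w) 0 ≠ 0 := fun w hw h => by
    have := h0 w hw
    rw [h, mul_zero] at this
    exact zero_ne_one this
  have hD : ∀ w ∈ V, x w ∈ D0 B.P := fun w hw => (mem_D0 B.P (hxs w hw)).2 (hF0 w hw)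
  have hYk : ∀ w ∈ V, ∀ k : Fin (n + 1), Yc B.P (x w) k = θ w k := fun w hw k => by
    have h2 : Yc B.P (x w) k = Fi B i (g' w) k.succ / Fi B i (g' w) 0 := Yc_eq B.P (hxs w hw) k
    have h3 := h0 w hw
    have h4 := h1 w hw k
    rw [h2, div_eq_iff (hF0 w hw), ← h4]
    linear_combination (-(Fi B i (g' w) k.succ)) * h3
  have hY : ∀ w ∈ V, Yc B.P (x w) = θ w := fun w hw => funext (hYk w hw)
  have hV : V ∈ 𝓝 z := hVo.mem_nhds hzV
  have hgc : ContinuousAt g' z := (hg z hzV).continuousAt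
  have hxc : ContinuousAt x z :=
    ((B.A.e i).continuousAt_symm (ht z hzV)).comp hgc
  have hKR : x z ∈ KR B.P R := by
    refine ⟨hD z hzV, ?_⟩
    rw [sqM, hY z hzV]
    exact hzR
  have key := lev_theta_le B.P (H0 B κ) hφ (x := x) (z := z) (i := i) hxc (hxs z hzV)
    (by
      filter_upwards [hV, hVo.eventually_mem hzV |>.eventually_nhds] with w hw hw2
      refine (hg w hw).differentiableAt.congr_of_eventuallyEq ?_
      filter_upwards [hw2] with y hy
      exact hex y hy)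
    (θ := θ)
    (by
      filter_upwards [hV] with w hw
      exact hY w hw)
    (c := fun w => c w ^ κ)
    (by
      filter_upwards [hV] with w hw
      exact (hca w hw).differentiableAt.pow κ)
    (pow_ne_zero _ (hc0 z hzV)) (u := fun z => Wc κ φ (hc (θ z)))
    (by
      filter_upwards [hV] with w hw
      have hcw := hc0 w hw
      have hne : hc (θ w) ≠ 0 := hc_ne _
      have e1 : Wc κ φ (hc (θ w)) = κ * Real.log (nsq (hc (θ w))) + phE φ (hc (θ w)) := rfl
      rw [hex w hw, pot_eq, e1, phE_eq φ hne (hL.zero w (hVU hw)) (hcl w hw hne), hm w hw,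
        nsq_smul, norm_pow, ← pow_mul, mul_comm κ 2, pow_mul, Real.log_pow,
        Real.log_mul (by positivity) (nsq_pos ((lift_Fi B i).ne _ (ht w hw))).ne']
      ring)
    (C := CB n 1 (κ - mu) R (2 * C - mu * Real.log (R / (1 + R)))) (hD z hzV)
    (fun v => eucl_chart B hd hκ htl hφ hpos hMA hup hlo hR hKR (hxs z hzV) v) v
  exact key

end fixed

end

end Crest.Agent.R257.CLSC_39
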