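import Crest.Agent.R257.KEU_952

/-!
# Row 257 (S0395), C-LOG (helper39): the systems of functions of post 3449

`q 0, …, q (L-1)` : finitely many germs, grouped into systems by `s : Fin L → ℕ`;
`φ_l = log ∑ |q_m|²`, the sum over the system of `l`.
* `phq q s l`   : `φ_l`
* `J2 f q s`    : `|J|² = ∑_{l<m} e^{-φ_l - φ_m} |{q_l, q_m}|²`
* `a2 f g q s`  : `|a|² = ∑_l e^{-φ_l} |{g, q_l}|²`
* `CLog f g h k q s` : (i) `|a|² ≥ c e^ψ |J|²`, (ii) `|J|² ≥ c e^{ψ/k}`, `ψ = log (|g|² + |h|²)`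
* `XLStmt`      : every isolated germ with `0 < mstar f` has an exact pair with `CLog`
-/

set_option autoImplicit false

open Topology Filter MeasureTheory Set
open scoped ENNReal ContDiff Matrix

noncomputable section

namespace Crest.Agent.R257.CLogD_39

open Crest.Agent.R257.Defs_219
open Crest.Agent.R257.V1Defs_822 (lgh)
open Crest.Agent.R257.KEU_952 (XPr)

/-- the system of `l` -/
def fib {L : ℕ} (s : Fin L → ℕ) (l : Fin L) : Finset (Fin L) :=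
  Finset.univ.filter fun m => s m = s l

/-- `∑ |q_m|²` over the system of `l` -/
def sqq {L : ℕ} (q : Fin L → E3 → ℂ) (s : Fin L → ℕ) (l : Fin L) (x : E3) : ℝ :=
  ∑ m ∈ fib s l, ‖q m x‖ ^ 2

/-- `φ_l` -/
def phq {L : ℕ} (q : Fin L → E3 → ℂ) (s : Fin L → ℕ) (l : Fin L) (x : E3) : ℝ :=
  Real.log (sqq q s l x)

/-- `|J|²` -/
def J2 {L : ℕ} (f : E3 → ℂ) (q : Fin L → E3 → ℂ) (s : Fin L → ℕ) (x : E3) : ℝ :=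
  (∑ l, ∑ m, ‖Dt f (q l) (q m) x‖ ^ 2 / (sqq q s l x * sqq q s m x)) / 2

/-- `|a|²` -/
def a2 {L : ℕ} (f g : E3 → ℂ) (q : Fin L → E3 → ℂ) (s : Fin L → ℕ) (x : E3) : ℝ :=
  ∑ l, ‖Dt f g (q l) x‖ ^ 2 / sqq q s l x

/-- the two inequalities of C-LOG -/
structure CLog (f g h : E3 → ℂ) (k : ℕ) {L : ℕ} (q : Fin L → E3 → ℂ) (s : Fin L → ℕ) : Prop where
  an : ∀ l, AnalyticAt ℂ (q l) 0
  z : ∀ l, q l 0 = 0
  lo : ∃ (N : ℕ) (c r : ℝ), 0 < c ∧ 0 < r ∧ ∀ x, ‖x‖ < r → f x = 0 → ∀ l,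
    c * ‖x‖ ^ N ≤ sqq q s l x
  i : ∃ c r : ℝ, 0 < c ∧ 0 < r ∧ ∀ x, ‖x‖ < r → f x = 0 → x ≠ 0 →
    c * (‖g x‖ ^ 2 + ‖h x‖ ^ 2) * J2 f q s x ≤ a2 f g q s x
  ii : ∃ c r : ℝ, 0 < c ∧ 0 < r ∧ ∀ x, ‖x‖ < r → f x = 0 → x ≠ 0 →
    c * (‖g x‖ ^ 2 + ‖h x‖ ^ 2) ^ (1 / (k : ℝ)) ≤ J2 f q s x

/-- exact pair with C-LOG -/
def XLStmt : Prop := ∀ f : E3 → ℂ, Iso f → 0 < mstar f →
  ∃ (k : ℕ) (g h : E3 → ℂ) (L : ℕ) (q : Fin L → E3 → ℂ) (s : Fin L → ℕ), XPr f k g h ∧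
    (∃ C r : ℝ, 0 < r ∧ ∀ x, ‖x‖ < r → f x = 0 →
      ‖Dt f g h x‖ ^ 2 ≤ C * (‖g x‖ ^ 2 + ‖h x‖ ^ 2) ^ (2 + 1 / (k : ℝ))) ∧
    CLog f g h k q s

end Crest.Agent.R257.CLogD_39
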