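import Mathlib
import Crest.Agent.R257.Defs_219
import Crest.Agent.R257.AJ4_387

/-!
Row 257 (S0395), part C, T-frame, **definitions** (helper387).

`TB f`: the base data of the germ `f`: a rotation `A` of the `(x₁,x₂)`-plane, the Weierstrass
polynomial `P` (in the ROTATED coordinates `(x', y')`, `(x₁,x₂) = A (x',y')`), and the Puiseux branches
of its discriminant over `x' = s₀ ^ N₀`.  With `M = d!` the T-frame uses `s₀ = s ^ M`, `x' = s ^ (N₀ M)`.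

`Ch m`: the charts; `T.map c : ℂ × ℂ → ℂ × ℂ`, `(α, β) ↦ (s, y')`.
-/

set_option autoImplicit false
set_option linter.unusedSectionVars false

open Polynomial Set Filter Topology Metric
open Crest.AlgGeometry.Germ Crest.Agent.R257.AJ387

noncomputable section

namespace Crest.Agent.R257.T387

/-- a point of `ℂ³` from `z` and `(x₁, x₂)` -/
def pt (z : ℂ) (q : ℂ × ℂ) : Fin 3 → ℂ := ![z, q.1, q.2]

/-- base data of the T-frame -/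
structure TB (f : (Fin 3 → ℂ) → ℂ) where
  /-- `(x₁, x₂) = A (x', y')` -/
  A : (ℂ × ℂ) ≃L[ℂ] (ℂ × ℂ)
  d : ℕ
  /-- Weierstrass polynomial, as a function of `(x', y')` -/
  P : ℂ × ℂ → ℂ[X]
  /-- `f = v * P` -/
  v : (ℂ × ℂ) × ℂ → ℂ
  R : ℝ
  rz : ℝ
  R_pos : 0 < R
  rz_pos : 0 < rz
  d_pos : 0 < d
  monic : ∀ q ∈ BD R R, (P q).Monic
  deg : ∀ q ∈ BD R R, (P q).natDegree = d
  coeff_an : ∀ i, AnalyticOnNhd ℂ (fun q => (P q).coeff i) (BD R R)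
  P_zero : P 0 = X ^ d
  f_an : ∀ q ∈ BD R R, ∀ z, ‖z‖ ≤ rz → AnalyticAt ℂ f (pt z (A q))
  v_an : ∀ q ∈ BD R R, ∀ z, ‖z‖ ≤ rz → AnalyticAt ℂ v (q, z)
  v_ne : ∀ q ∈ BD R R, ∀ z, ‖z‖ ≤ rz → v (q, z) ≠ 0
  f_eq : ∀ q ∈ BD R R, ∀ z, ‖z‖ ≤ rz → f (pt z (A q)) = v (q, z) * (P q).eval z
  roots_in : ∀ q ∈ BD R R, ∀ z, (P q).eval z = 0 → ‖z‖ < rz
  /-- `x' = s₀ ^ N₀` -/
  N₀ : ℕ
  N₀_pos : 0 < N₀
  /-- number of branches of the discriminant -/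
  m : ℕ
  m_pos : 0 < m
  /-- radius of the `s₀`-disc -/
  ρ : ℝ
  ρ_pos : 0 < ρ
  ρ_le : ρ ≤ 1
  ρ_R : ∀ s ∈ ball (0 : ℂ) ρ, ‖s ^ N₀‖ < R
  /-- the branches `y' = φ i s₀` -/
  φ : Fin m → ℂ → ℂ
  φ_an : ∀ i, AnalyticOnNhd ℂ (φ i) (ball 0 ρ)
  φ_zero : ∀ i, φ i 0 = 0
  φ_R : ∀ i, ∀ s ∈ ball (0 : ℂ) ρ, ‖φ i s‖ < R
  /-- contact orders and units, `φ i - φ j = s₀ ^ del i j * u i j s₀` -/
  del : Fin m → Fin m → ℕ
  u : Fin m → Fin m → ℂ → ℂ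
  del_pos : ∀ i j, 0 < del i j
  u_an : ∀ i j, i ≠ j → AnalyticOnNhd ℂ (u i j) (ball 0 ρ)
  u_ne : ∀ i j, i ≠ j → ∀ s ∈ ball (0 : ℂ) ρ, u i j s ≠ 0
  φ_sub : ∀ i j, i ≠ j → ∀ s ∈ ball (0 : ℂ) ρ, φ i s - φ j s = s ^ del i j * u i j s
  /-- off the branches the roots are simple -/
  nodup : ∀ s ∈ ball (0 : ℂ) ρ, ∀ y ∈ ball (0 : ℂ) R, (∀ i, y ≠ φ i s) →
    (P (s ^ N₀, y)).roots.Nodup

/-- charts: `edge i k k'` between the consecutive levels `k < k'` of the branch `i` (`k = 0` is the top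
edge), `leg i` along the branch `i`, `vert i k w₀` at an ordinary point of the vertex `(i, k)` -/
inductive Ch (m : ℕ) : Type
  | edge (i : Fin m) (k k' : ℕ) : Ch m
  | leg (i : Fin m) : Ch m
  | vert (i : Fin m) (k : ℕ) (w₀ : ℂ) : Ch m

namespace TB

variable {f : (Fin 3 → ℂ) → ℂ} (T : TB f)

/-- `d!` -/
def M : ℕ := T.d.factorial

lemma M_pos : 0 < T.M := Nat.factorial_pos _

/-- `x' = s ^ N` -/
def N : ℕ := T.N₀ * T.M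

lemma N_pos : 0 < T.N := Nat.mul_pos T.N₀_pos T.M_pos

/-- the Weierstrass polynomial over the `(s, y')`-plane -/
def Q (q : ℂ × ℂ) : ℂ[X] := T.P (q.1 ^ T.N, q.2)

/-- the map from the `(s, y')`-plane to the `(x₁, x₂)`-plane -/
def base (q : ℂ × ℂ) : ℂ × ℂ := T.A (q.1 ^ T.N, q.2)

/-- levels of the branch `i` (in `s₀`-units) -/
def lev (i : Fin T.m) : Finset ℕ := insert 1 ((Finset.univ.erase i).image (T.del i))

lemma one_mem_lev (i : Fin T.m) : 1 ∈ T.lev i := Finset.mem_insert_self _ _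

/-- the last level -/
def top (i : Fin T.m) : ℕ := (T.lev i).max' ⟨1, T.one_mem_lev i⟩

/-- `k < k'` are consecutive in `{0} ∪ lev i` -/
def Cons (i : Fin T.m) (k k' : ℕ) : Prop :=
  (k = 0 ∨ k ∈ T.lev i) ∧ k' ∈ T.lev i ∧ k < k' ∧ ∀ l ∈ T.lev i, l ≤ k ∨ k' ≤ l

/-- special points (other than `∞`) of the vertex `(i, k)`: the limits of `(φ j - φ i) / s₀ ^ k` -/
def Sp (i : Fin T.m) (k : ℕ) : Finset ℂ :=
  insert 0 ((Finset.univ.filter fun j => j ≠ i ∧ T.del i j = k).image fun j => -T.u i j 0)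

/-- the valid charts -/
def Valid : Ch T.m → Prop
  | .edge i k k' => T.Cons i k k'
  | .leg _ => True
  | .vert i k w₀ => k ∈ T.lev i ∧ w₀ ∉ T.Sp i k

/-- the chart maps `(α, β) ↦ (s, y')` -/
def map : Ch T.m → ℂ × ℂ → ℂ × ℂ
  | .edge i k k', p => (p.1 * p.2,
      T.φ i ((p.1 * p.2) ^ T.M) + p.1 ^ (T.M * k) * p.2 ^ (T.M * k'))
  | .leg i, p => (p.1, T.φ i (p.1 ^ T.M) + p.1 ^ (T.M * T.top i) * p.2 ^ T.M)
  | .vert i k w₀, p => (p.1, T.φ i (p.1 ^ T.M) + p.1 ^ (T.M * k) * (w₀ + p.2))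

/-- `p` is over `s ≠ 0` (and off the discriminant) -/
def Gen : Ch T.m → ℂ × ℂ → Prop
  | .edge _ _ _, p => p.1 ≠ 0 ∧ p.2 ≠ 0
  | .leg _, p => p.1 ≠ 0 ∧ p.2 ≠ 0
  | .vert _ _ _, p => p.1 ≠ 0

/-- `ζ` splits the Weierstrass polynomial in the chart `c` on the bidisc of radius `r` -/
structure Sheets (c : Ch T.m) (r : ℝ) (ζ : Fin T.d → ℂ × ℂ → ℂ) : Prop where
  r_pos : 0 < r
  mem : ∀ p ∈ BD r r, T.map c p ∈ BD 1 T.R ∧ ‖(T.map c p).1‖ ^ T.M < T.ρ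
  an : ∀ j, AnalyticOnNhd ℂ (ζ j) (BD r r)
  split : ∀ p ∈ BD r r, T.Q (T.map c p) = ∏ j, (X - C (ζ j p))
  inj : ∀ p ∈ BD r r, T.Gen c p → Function.Injective fun j => ζ j p

/-- the charts of the hypersurface -/
def th (c : Ch T.m) (z : ℂ × ℂ → ℂ) (p : ℂ × ℂ) : Fin 3 → ℂ := pt (z p) (T.base (T.map c p))

/-- every chart has sheets (file T3) -/
def SheetsStmt : Prop := ∀ c, T.Valid c → ∃ r₀ > 0, ∀ r > 0, r ≤ r₀ → ∃ ζ, T.Sheets c r ζ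

/-- coverage (file T2): for every choice of radii finitely many valid charts cover -/
def CoverStmt : Prop := ∀ r : Ch T.m → ℝ, (∀ c, 0 < r c) →
  ∃ F : Finset (Ch T.m), (∀ c ∈ F, T.Valid c) ∧ ∃ ε > 0, ∀ s y : ℂ, ‖s‖ < ε → ‖y‖ < ε →
    (s, y) ≠ 0 → ∃ c ∈ F, ∃ p : ℂ × ℂ, ‖p.1‖ ≤ r c ∧ ‖p.2‖ ≤ r c ∧ T.map c p = (s, y)

end TB

end Crest.Agent.R257.T387
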