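import Crest.Agent.R257.FrDefs_808
import Crest.Agent.R257.TDefs_387

/-!
R257 / CLogDefs_68 (task C-LOG, helper68): statements.

* `fib s l`, `phq q s l` : the system of `q l`, its weight `log ∑ ‖q m‖²` (format of helper39);
* `J2`, `a2`             : `∑_{l<m} e^{-φ_l-φ_m} |{q_l,q_m}|²`, `∑_l e^{-φ_l} |{g,q_l}|²`;
* `Sys`, `CI`, `CII`     : admissible list; inequalities (i), (ii) of #3449;
* `CLogStmt`             : the list depends on `f` only; (ii) for every pair in `⋂ p < k, J_p`;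
                           (i) for one exact pair (with (JU));
* `NVStmt`               : nearest branch vector (pure complex analysis);
* `GenQ`                 : generic pairs with respect to a finite list (frame level);
* `Com T ρ F`            : the charts of `F` are scaled charts of `T` with radii `≤ ρ`.
-/

set_option autoImplicit false

open Topology Filter MeasureTheory Set
open Crest.AlgGeometry.Germ

noncomputable section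

namespace Crest.Agent.R257.CLog_68

open Crest.Agent.R257.Defs_219
open Crest.Agent.R257.Fr_808
open Crest.Agent.R257.T387

section Lists

variable {L : ℕ}

/-- the indices of the system of `l` -/
def fib (s : Fin L → ℕ) (l : Fin L) : Finset (Fin L) := Finset.univ.filter fun m => s m = s l

/-- the sum of squares of the system of `l` -/
def sq (q : Fin L → E3 → ℂ) (s : Fin L → ℕ) (l : Fin L) (x : E3) : ℝ :=
  ∑ m ∈ fib s l, ‖q m x‖ ^ 2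

/-- the weight of the system of `l` -/
def phq (q : Fin L → E3 → ℂ) (s : Fin L → ℕ) (l : Fin L) (x : E3) : ℝ := Real.log (sq q s l x)

/-- `|J|²` -/
def J2 (f : E3 → ℂ) (q : Fin L → E3 → ℂ) (s : Fin L → ℕ) (x : E3) : ℝ :=
  (∑ l, ∑ m, Real.exp (-(phq q s l x + phq q s m x)) * ‖Dt f (q l) (q m) x‖ ^ 2) / 2

/-- `|a|²` -/
def a2 (f g : E3 → ℂ) (q : Fin L → E3 → ℂ) (s : Fin L → ℕ) (x : E3) : ℝ :=
  ∑ l, Real.exp (-phq q s l x) * ‖Dt f g (q l) x‖ ^ 2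

/-- admissible lists: germs vanishing at `0`; no common zeros of a system but `0` -/
structure Sys (f : E3 → ℂ) (q : Fin L → E3 → ℂ) (s : Fin L → ℕ) : Prop where
  an : ∀ l, AnalyticAt ℂ (q l) 0
  z : ∀ l, q l 0 = 0
  lo : ∃ (N : ℕ) (c r : ℝ), 0 < c ∧ 0 < r ∧ ∀ x, ‖x‖ < r → f x = 0 → ∀ l,
    c * ‖x‖ ^ N ≤ sq q s l x

/-- inequality (i) -/
def CI (f g h : E3 → ℂ) (q : Fin L → E3 → ℂ) (s : Fin L → ℕ) : Prop :=
  ∃ c r : ℝ, 0 < c ∧ 0 < r ∧ ∀ x, ‖x‖ < r → f x = 0 → x ≠ 0 →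
    c * (‖g x‖ ^ 2 + ‖h x‖ ^ 2) * J2 f q s x ≤ a2 f g q s x

/-- inequality (ii) -/
def CII (f g h : E3 → ℂ) (k : ℕ) (q : Fin L → E3 → ℂ) (s : Fin L → ℕ) : Prop :=
  ∃ c r : ℝ, 0 < c ∧ 0 < r ∧ ∀ x, ‖x‖ < r → f x = 0 → x ≠ 0 →
    c * (‖g x‖ ^ 2 + ‖h x‖ ^ 2) ^ (1 / (k : ℝ)) ≤ J2 f q s x

end Lists

/-- **C-LOG** -/
def CLogStmt : Prop := ∀ f : E3 → ℂ, Iso f → 0 < mstar f →
  ∃ (L : ℕ) (q : Fin L → E3 → ℂ) (s : Fin L → ℕ), Sys f q s ∧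
    (∀ (k : ℕ) (g h : E3 → ℂ), 2 ≤ k → AnalyticAt ℂ g 0 → AnalyticAt ℂ h 0 →
      (∀ p : ℝ, 1 ≤ p → p < k → InJ p f g ∧ InJ p f h) → CII f g h k q s) ∧
    ∃ (k : ℕ) (g h : E3 → ℂ), XF_157.Exact f k g h ∧ JU f k g h ∧ CI f g h q s

/-- **nearest branch vector**: near every point of `{α = 0}`, for a finite family `q j` and
`g = α ^ m₁ β ^ m₂ unit`, `m₁ > 0`, there are vectors `v(p)` with `|dq_j(v)| ≤ C |q_j|` and
`|dg(v)| ≥ c |g|`. -/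
def NVStmt : Prop := ∀ (J : Type) (_ : Fintype J) (q : J → ℂ × ℂ → ℂ) (g : ℂ × ℂ → ℂ) (b : ℂ)
  (m₁ m₂ : ℕ), (∀ j, AnalyticAt ℂ (q j) (0, b)) → (m₂ = 0 ∨ b = 0) → 0 < m₁ →
  (∃ U : ℂ × ℂ → ℂ, AnalyticAt ℂ U (0, b) ∧ U (0, b) ≠ 0 ∧
    ∀ᶠ p in 𝓝 ((0 : ℂ), b), g p = p.1 ^ m₁ * p.2 ^ m₂ * U p) →
  ∃ c C : ℝ, 0 < c ∧ ∀ᶠ p in 𝓝 ((0 : ℂ), b), p.1 ≠ 0 → ∃ v : ℂ × ℂ,
    (∀ j, ‖fderiv ℂ (q j) p v‖ ≤ C * ‖q j p‖) ∧ c * ‖g p‖ ≤ ‖fderiv ℂ g p v‖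

/-- **generic pairs with respect to a finite list**: at the zeros of `g` on the special fibre all
members of the list are monomial times unit -/
def GenQStmt : Prop := ∀ (f : E3 → ℂ) (F : Frame f) (y : F.I → ℝ) (k : ℕ) (m : F.I → ℕ),
  F.IsP y → (∀ i, 0 < y i) → 2 ≤ k → (∀ i, (m i : ℝ) = k * y i) →
  (∀ c, ∀ p₀ ∈ F.SF c, ∃ g : E3 → ℂ, AnalyticAt ℂ g 0 ∧ F.Ge g m ∧ F.Gen g m c p₀) →
  ∀ (L : ℕ) (Q : Fin L → E3 → ℂ), (∀ l, AnalyticAt ℂ (Q l) 0) →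
  ∃ g h : E3 → ℂ, AnalyticAt ℂ g 0 ∧ AnalyticAt ℂ h 0 ∧
    (∀ c, ∀ p₀ ∈ F.SF c, ∃ G H, F.Fac g m c p₀ G ∧ F.Fac h m c p₀ H ∧
      (G p₀ ≠ 0 ∨ H p₀ ≠ 0 ∧
        ((p₀.1 = 0 ∧ p₀.2 ≠ 0 ∧ deriv (fun z => G (0, z)) p₀.2 ≠ 0) ∨
          (F.e2 c ≠ none ∧ p₀.2 = 0 ∧ p₀.1 ≠ 0 ∧ deriv (fun z => G (z, 0)) p₀.1 ≠ 0)) ∧
        ∀ l, (∀ᶠ x in 𝓝 (0 : E3), f x = 0 → Q l x = 0) ∨ ∃ v : F.I → ℕ, F.Gen (Q l) v c p₀))

/-- the charts of the frame `F` are scaled charts of `T`, with radii `≤ ρ` (for the top edges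
`k = 0` the two coordinates are swapped, since there `{α = 0}` is not exceptional) -/
def Com {f : E3 → ℂ} (T : TB f) (ρ : Ch T.m → ℝ) (F : Frame f) : Prop :=
  ∀ c : F.K, ∃ (c' : Ch T.m) (r r' : ℝ) (ζ : Fin T.d → ℂ × ℂ → ℂ) (j : Fin T.d),
    T.Valid c' ∧ T.Sheets c' r ζ ∧ 0 < r' ∧ r' < r ∧ r' ≤ ρ c' ∧
    match c' with
    | .edge _ 0 _ => F.e2 c = none ∧ F.nu2 c ≤ - (T.N : ℤ) ∧
        ∀ p, F.th c p = T.th c' (ζ j) ((r' : ℂ) * p.2, (r' : ℂ) * p.1)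
    | .edge _ _ _ => F.e2 c ≠ none ∧
        ∀ p, F.th c p = T.th c' (ζ j) ((r' : ℂ) * p.1, (r' : ℂ) * p.2)
    | _ => F.e2 c = none ∧
        ∀ p, F.th c p = T.th c' (ζ j) ((r' : ℂ) * p.1, (r' : ℂ) * p.2)

end Crest.Agent.R257.CLog_68
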