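import Mathlib

/-!
Row 257 (S0395), leaf CN-SUM (helper812), part 1: the Cohen-Macaulay property in elementary form.
`R` a Noetherian local algebra over an infinite field `k` with a regular sequence of length `n` in
its maximal ideal, `a : Fin n → R` with `m ^ K ≤ (a)`.  Then every syzygy of `a` is an
antisymmetric combination of `a` (Koszul), and `a i` is a non zero divisor modulo the others.
-/

set_option autoImplicit false

open IsLocalRing

namespace Crest.Agent.R257.CM_812

universe u

variable {R : Type u} [CommRing R]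

/-- non zero divisor modulo `I` -/
def Nz (I : Ideal R) (a : R) : Prop := ∀ b, a * b ∈ I → b ∈ I

/-- regular sequence modulo `I` -/
def RS : Ideal R → List R → Prop
  | _, [] => True
  | I, a :: L => Nz I a ∧ RS (I ⊔ Ideal.span {a}) L

/-- the ideal generated by a list -/
def LI (L : List R) : Ideal R := Ideal.span {x | x ∈ L}

lemma LI_nil : LI ([] : List R) = ⊥ := by simp [LI]

lemma LI_cons (a : R) (L : List R) : LI (a :: L) = Ideal.span {a} ⊔ LI L := by
  unfold LI
  rw [← Ideal.span_union]
  congr 1
  ext x
  simp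

lemma LI_append (L L' : List R) : LI (L ++ L') = LI L ⊔ LI L' := by
  unfold LI
  rw [← Ideal.span_union]
  congr 1
  ext x
  simp

lemma RS_append (L L' : List R) : ∀ I : Ideal R, RS I (L ++ L') ↔ RS I L ∧ RS (I ⊔ LI L) L' := by
  induction L with
  | nil => intro I; simp [RS, LI_nil]
  | cons a L ih =>
    intro I
    rw [List.cons_append, RS, RS, ih, LI_cons, sup_assoc, and_assoc]

section Local

variable [IsLocalRing R] [IsNoetherianRing R]

lemma RS_swap {a b : R} {L : List R} {I : Ideal R} (ha : a ∈ maximalIdeal R)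
    (h : RS I (a :: b :: L)) : RS I (b :: a :: L) := by
  obtain ⟨h1, h2, h3⟩ := h
  refine ⟨?_, ?_, ?_⟩
  · -- Nakayama
    set K : Ideal R := { carrier := {c | b * c ∈ I}
                         add_mem' := fun {x y} hx hy => by
                           simp only [Set.mem_ofPred_eq] at *
                           rw [mul_add]; exact I.add_mem hx hy
                         zero_mem' := by simp
                         smul_mem' := fun r x hx => by
                           simp only [Set.mem_ofPred_eq, smul_eq_mul] at *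
                           rw [mul_left_comm]; exact I.mul_mem_left _ hx } with hK
    have hK1 : K ≤ I ⊔ Ideal.span {a} • K := by
      intro c hc
      have hc' : b * c ∈ I := hc
      have hc1 : c ∈ I ⊔ Ideal.span {a} := h2 c (Ideal.mem_sup_left hc')
      obtain ⟨i, hi, y, hy, rfl⟩ := Submodule.mem_sup.1 hc1
      obtain ⟨c', rfl⟩ := Ideal.mem_span_singleton'.1 hy
      refine Submodule.add_mem_sup hi ?_
      have : a * (b * c') ∈ I := by
        have e : a * (b * c') = b * (i + c' * a) - b * i := by ring
        rw [e]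
        exact I.sub_mem hc' (I.mul_mem_left _ hi)
      have h5 : c' ∈ K := h1 _ this
      rw [mul_comm]
      exact Submodule.smul_mem_smul (Ideal.mem_span_singleton_self a) h5
    have hK2 : K ≤ I := by
      refine Submodule.le_of_le_smul_of_le_jacobson_bot (IsNoetherian.noetherian K) ?_ hK1
      rw [IsLocalRing.jacobson_eq_maximalIdeal ⊥ bot_ne_top, Ideal.span_singleton_le_iff_mem]
      exact ha
    intro c hc
    exact hK2 hc
  · intro c hc
    obtain ⟨i, hi, y, hy, h4⟩ := Submodule.mem_sup.1 hc
    obtain ⟨d, rfl⟩ := Ideal.mem_span_singleton'.1 hy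
    have h5 : b * d ∈ I ⊔ Ideal.span {a} := by
      have : b * d = a * c - i := by rw [← h4]; ring
      rw [this]
      exact Submodule.sub_mem _ (Ideal.mem_sup_right (Ideal.mul_mem_right _ _
        (Ideal.mem_span_singleton_self a))) (Ideal.mem_sup_left hi)
    obtain ⟨i', hi', y', hy', h6⟩ := Submodule.mem_sup.1 (h2 d h5)
    obtain ⟨d', rfl⟩ := Ideal.mem_span_singleton'.1 hy'
    have h7 : a * (c - b * d') ∈ I := by
      have : a * (c - b * d') = i + b * i' := by
        have e : a * c = i + d * b := h4.symm
        have e2 : d = i' + d' * a := h6.symm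
        rw [mul_sub, e, e2]; ring
      rw [this]
      exact I.add_mem hi (I.mul_mem_left _ hi')
    have h8 := h1 _ h7
    have : c = (c - b * d') + d' * b := by ring
    rw [this]
    exact Submodule.add_mem_sup h8 (Ideal.mul_mem_left _ _ (Ideal.mem_span_singleton_self b))
  · have : I ⊔ Ideal.span {b} ⊔ Ideal.span {a} = I ⊔ Ideal.span {a} ⊔ Ideal.span {b} := by
      rw [sup_right_comm]
    rw [this]
    exact h3

lemma RS_perm {L L' : List R} (h : L.Perm L') : ∀ I : Ideal R, (∀ x ∈ L, x ∈ maximalIdeal R) →
    RS I L → RS I L' := by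
  induction h with
  | nil => intro I _ h; exact h
  | cons x _ ih =>
    intro I hm h
    exact ⟨h.1, ih _ (fun y hy => hm y (List.mem_cons_of_mem _ hy)) h.2⟩
  | swap x y L =>
    intro I hm h
    exact RS_swap (hm y (by simp)) h
  | trans h1 _ ih1 ih2 =>
    intro I hm h
    exact ih2 I (fun y hy => hm y (h1.mem_iff.2 hy)) (ih1 I hm h)

variable {k : Type*} [Field k] [Infinite k] [Algebra k R]

/-- generic combinations are non zero divisors -/
lemma exists_nz (J : Ideal R) (e : R) (he : e ∈ maximalIdeal R) (hJe : Nz J e) {n : ℕ}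
    (a : Fin n → R) (K : ℕ) (ha : maximalIdeal R ^ K ≤ Ideal.span (Set.range a) ⊔ J)
    (W : Submodule k (Fin n → k)) (hW : W ≠ ⊤) :
    ∃ c : Fin n → k, c ∉ W ∧ Nz J (∑ i, c i • a i) := by
  classical
  set comb : (Fin n → k) →ₗ[k] R := Fintype.linearCombination k a with hcomb
  set V : Ideal R → Submodule k (Fin n → k) :=
    fun P => (P.restrictScalars k).comap comb with hV
  have hfin : (associatedPrimes R (R ⧸ J)).Finite := associatedPrimes.finite R (R ⧸ J)
  set S : Finset (Subspace k (Fin n → k)) := insert W (hfin.toFinset.image V) with hS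
  have htop : (⊤ : Subspace k (Fin n → k)) ∉ S := by
    rw [hS, Finset.mem_insert, not_or]
    refine ⟨fun h => hW h.symm, ?_⟩
    rw [Finset.mem_image]
    rintro ⟨P, hP, hPV⟩
    rw [Set.Finite.mem_toFinset] at hP
    have hPp : P.IsPrime := hP.isPrime
    obtain ⟨-, x, hx⟩ := (isAssociatedPrime_iff).1 hP
    have hxm : ∀ r, r ∈ P ↔ r • x = 0 := by
      intro r
      rw [hx, Submodule.mem_colon_singleton, Submodule.mem_bot]
    obtain ⟨z, rfl⟩ := Ideal.Quotient.mk_surjective x
    have hxz : ∀ r, r ∈ P ↔ r * z ∈ J := by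
      intro r
      rw [hxm, ← Ideal.Quotient.eq_zero_iff_mem, map_mul]
      rfl
    have h1 : ∀ i, a i ∈ P := by
      intro i
      have : (Pi.single i 1 : Fin n → k) ∈ V P := by rw [hPV]; trivial
      have h2 : comb (Pi.single i 1) ∈ P := this
      rwa [hcomb, Fintype.linearCombination_apply_single, one_smul] at h2
    have h2 : Ideal.span (Set.range a) ⊔ J ≤ P := by
      refine sup_le (Ideal.span_le.2 ?_) ?_
      · rintro _ ⟨i, rfl⟩; exact h1 i
      · intro r hr
        rw [hxz]
        exact J.mul_mem_right _ hr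
    have h3 : maximalIdeal R ≤ P := hPp.le_of_pow_le (ha.trans h2)
    have h4 : e * z ∈ J := (hxz e).1 (h3 he)
    have h5 : z ∈ J := hJe _ h4
    have h6 : (1 : R) ∈ P := by rw [hxz, one_mul]; exact h5
    exact hPp.ne_top ((Ideal.eq_top_iff_one _).2 h6)
  have hne := Subspace.biUnion_ne_univ_of_top_notMem htop
  rw [Set.ne_univ_iff_exists_notMem] at hne
  obtain ⟨c, hc⟩ := hne
  simp only [Set.mem_iUnion, not_exists] at hc
  refine ⟨c, hc W (Finset.mem_insert_self _ _), ?_⟩
  have hr : IsSMulRegular (R ⧸ J) (comb c) := by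
    by_contra hcon
    have : comb c ∈ ⋃ p ∈ associatedPrimes R (R ⧸ J), (p : Set R) := by
      rw [biUnion_associatedPrimes_eq_compl_regular]
      exact hcon
    simp only [Set.mem_iUnion] at this
    obtain ⟨P, hP, hcP⟩ := this
    exact hc (V P) (Finset.mem_insert_of_mem (Finset.mem_image_of_mem _
      ((Set.Finite.mem_toFinset _).2 hP))) hcP
  intro b hb
  have e1 : (∑ i, c i • a i) = comb c := by rw [hcomb, Fintype.linearCombination_apply]
  rw [e1] at hb
  have h2 : comb c • (Ideal.Quotient.mk J b) = comb c • (0 : R ⧸ J) := by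
    rw [smul_zero]
    have : comb c • (Ideal.Quotient.mk J b) = Ideal.Quotient.mk J (comb c * b) := by
      rw [map_mul]; rfl
    rw [this, Ideal.Quotient.eq_zero_iff_mem]
    exact hb
  exact Ideal.Quotient.eq_zero_iff_mem.1 (hr h2)

/-- exchange: replace a regular sequence by generic combinations of `a` -/
theorem exists_comb {n : ℕ} (a : Fin n → R) (ham : ∀ i, a i ∈ maximalIdeal R) (K : ℕ)
    (ha : maximalIdeal R ^ K ≤ Ideal.span (Set.range a)) :
    ∀ (xs : List R) (us : List (Fin n → k)), xs.length + us.length = n →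
      (∀ x ∈ xs, x ∈ maximalIdeal R) → LinearIndependent k us.get →
      RS ⊥ (xs ++ us.map fun c => ∑ i, c i • a i) →
      ∃ vs : List (Fin n → k), vs.length = n ∧ LinearIndependent k vs.get ∧
        RS ⊥ (vs.map fun c => ∑ i, c i • a i) := by
  classical
  intro xs
  induction xs with
  | nil =>
    intro us hlen _ hli h
    exact ⟨us, by simpa using hlen, hli, by simpa using h⟩
  | cons x xs ih =>
    intro us hlen hxm hli h
    have hcm : ∀ c : Fin n → k, (∑ i, c i • a i) ∈ maximalIdeal R := fun c =>
      Submodule.sum_mem _ fun i _ => by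
        rw [Algebra.smul_def]; exact Ideal.mul_mem_left _ _ (ham i)
    set f : (Fin n → k) → R := fun c => ∑ i, c i • a i with hf
    have hp : (x :: xs ++ us.map f).Perm ((xs ++ us.map f) ++ [x]) := by
      rw [List.cons_append]
      exact (List.perm_append_singleton x (xs ++ us.map f)).symm
    have h2 : RS ⊥ ((xs ++ us.map f) ++ [x]) := RS_perm hp ⊥ (by
      intro y hy
      rw [List.cons_append, List.mem_cons, List.mem_append] at hy
      rcases hy with rfl | hy | hy
      · exact hxm _ (by simp)
      · exact hxm _ (List.mem_cons_of_mem _ hy)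
      · obtain ⟨c, -, rfl⟩ := List.mem_map.1 hy
        exact hcm c) h
    rw [RS_append] at h2
    obtain ⟨h3, h4, -⟩ := h2
    rw [bot_sup_eq] at h4
    have hW : Submodule.span k (Set.range us.get) ≠ ⊤ := by
      intro htop
      have h5 : Module.finrank k (Submodule.span k (Set.range us.get)) = us.length := by
        rw [finrank_span_eq_card hli, Fintype.card_fin]
      rw [htop, finrank_top, Module.finrank_fin_fun] at h5
      simp only [List.length_cons] at hlen
      omega
    obtain ⟨c, hc1, hc2⟩ := exists_nz (k := k) (LI (xs ++ us.map f)) x (hxm x (by simp)) h4 a K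
      (ha.trans le_sup_left) _ hW
    refine ih (us ++ [c]) (by simp only [List.length_cons, List.length_append] at *; simp; omega)
      (fun y hy => hxm y (List.mem_cons_of_mem _ hy)) ?_ ?_
    · -- linear independence of the extended list
      have h6 : LinearIndependent k (Fin.snoc (α := fun _ => Fin n → k) us.get c) := by
        rw [linearIndependent_finSnoc]
        exact ⟨hli, hc1⟩
      have hlen' : (us ++ [c]).length = us.length + 1 := by simp
      have h7 : (us ++ [c]).get = (Fin.snoc (α := fun _ => Fin n → k) us.get c) ∘ (Fin.cast hlen') := by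
        funext i
        simp only [Function.comp_apply, List.get_eq_getElem, Fin.snoc, Fin.val_cast]
        split_ifs with hi
        · simp [List.getElem_append_left hi]
        · have : (i : ℕ) = us.length := by have := i.2; simp at this; omega
          simp [this]
      rw [h7]
      exact h6.comp _ (Fin.cast_injective _)
    · rw [List.map_append, ← List.append_assoc, RS_append]
      refine ⟨h3, ?_⟩
      rw [bot_sup_eq]
      exact ⟨hc2, trivial⟩

end Local

/-- all syzygies are antisymmetric combinations -/
def KS {n : ℕ} (a : Fin n → R) : Prop := ∀ c : Fin n → R, ∑ i, c i * a i = 0 →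
  ∃ S : Matrix (Fin n) (Fin n) R, (∀ i, S i i = 0) ∧ (∀ i j, S j i = - S i j) ∧
    ∀ i, c i = ∑ j, S i j * a j

lemma LI_ofFn {n : ℕ} (a : Fin n → R) : LI (List.ofFn a) = Ideal.span (Set.range a) := by
  unfold LI
  congr 1
  ext x
  simp [List.mem_ofFn]

theorem KS_of_RS : ∀ {n : ℕ} (a : Fin n → R), RS ⊥ (List.ofFn a) → KS a := by
  intro n
  induction n with
  | zero => intro a _ c _; exact ⟨0, fun i => i.elim0, fun i => i.elim0, fun i => i.elim0⟩
  | succ n ih =>
    intro a h c hc
    rw [List.ofFn_succ', List.concat_eq_append, RS_append, bot_sup_eq, LI_ofFn] at h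
    obtain ⟨h1, h2, -⟩ := h
    rw [Fin.sum_univ_castSucc] at hc
    have h3 : a (Fin.last n) * c (Fin.last n) ∈ Ideal.span (Set.range fun i => a (Fin.castSucc i)) := by
      have : a (Fin.last n) * c (Fin.last n) = - ∑ i : Fin n, c (Fin.castSucc i) * a (Fin.castSucc i) := by
        linear_combination hc
      rw [this]
      exact Submodule.neg_mem _ (Submodule.sum_mem _ fun i _ => Ideal.mul_mem_left _ _
        (Ideal.subset_span ⟨i, rfl⟩))
    obtain ⟨s, hs⟩ := Ideal.mem_span_range_iff_exists_fun.1 (h2 _ h3)
    have h4 : ∑ i : Fin n, (c (Fin.castSucc i) + s i * a (Fin.last n)) * a (Fin.castSucc i) = 0 := by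
      have : ∑ i : Fin n, (c (Fin.castSucc i) + s i * a (Fin.last n)) * a (Fin.castSucc i) =
          ∑ i : Fin n, c (Fin.castSucc i) * a (Fin.castSucc i) +
            a (Fin.last n) * ∑ i : Fin n, s i * a (Fin.castSucc i) := by
        rw [Finset.mul_sum, ← Finset.sum_add_distrib]
        exact Finset.sum_congr rfl fun i _ => by ring
      rw [this, hs]
      linear_combination hc
    obtain ⟨S, hS1, hS2, hS3⟩ := ih (fun i => a (Fin.castSucc i)) h1 _ h4
    refine ⟨Matrix.of fun i j => Fin.lastCases (motive := fun _ => R)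
      (Fin.lastCases (motive := fun _ => R) 0 (fun j' => s j') j)
      (fun i' => Fin.lastCases (motive := fun _ => R) (- s i') (fun j' => S i' j') j) i, ?_, ?_, ?_⟩
    · intro i
      refine Fin.lastCases ?_ (fun i' => ?_) i
      · simp
      · simp [hS1 i']
    · intro i j
      refine Fin.lastCases ?_ (fun i' => ?_) i <;> refine Fin.lastCases ?_ (fun j' => ?_) j
      · simp
      · simp
      · simp
      · simp [hS2 i' j']
    · intro i
      rw [Fin.sum_univ_castSucc]
      refine Fin.lastCases ?_ (fun i' => ?_) i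
      · simp [hs]
      · have := hS3 i'
        simp only [Matrix.of_apply, Fin.lastCases_castSucc, Fin.lastCases_last]
        linear_combination this

theorem KS_transport {k : Type*} [Field k] [CharZero k] [Algebra k R] {n : ℕ} (a b : Fin n → R)
    (U : Matrix (Fin n) (Fin n) k) (hU : IsUnit U) (hb : ∀ i, b i = ∑ j, U i j • a j)
    (h : KS b) : KS a := by
  classical
  obtain ⟨V, hV1, hV2⟩ : ∃ V : Matrix (Fin n) (Fin n) k, U * V = 1 ∧ V * U = 1 := by
    obtain ⟨u, rfl⟩ := hU
    exact ⟨((u⁻¹ : (Matrix (Fin n) (Fin n) k)ˣ) : Matrix (Fin n) (Fin n) k), u.mul_inv, u.inv_mul⟩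
  -- matrices over `R`
  set U' : Matrix (Fin n) (Fin n) R := U.map (algebraMap k R) with hU'
  set V' : Matrix (Fin n) (Fin n) R := V.map (algebraMap k R) with hV'
  have hVU : V' * U' = 1 := by
    rw [hU', hV', ← Matrix.map_mul, hV2, Matrix.map_one _ (map_zero _) (map_one _)]
  have hb' : b = U'.mulVec a := by
    funext i
    rw [hb i, Matrix.mulVec, dotProduct]
    exact Finset.sum_congr rfl fun j _ => by rw [hU', Matrix.map_apply, Algebra.smul_def]
  have ha' : a = V'.mulVec b := by
    rw [hb', Matrix.mulVec_mulVec, hVU, Matrix.one_mulVec]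
  intro c hc
  have hc' : c ⬝ᵥ a = 0 := hc
  set c' : Fin n → R := Matrix.vecMul c V' with hc'd
  have h1 : ∑ i, c' i * b i = 0 := by
    have : c' ⬝ᵥ b = 0 := by
      rw [hc'd, ← Matrix.dotProduct_mulVec, ← ha', hc']
    exact this
  obtain ⟨S, hS1, hS2, hS3⟩ := h c' h1
  have hS3' : c' = S.mulVec b := by
    funext i; exact hS3 i
  have hc2 : c = Matrix.vecMul c' U' := by
    rw [hc'd, Matrix.vecMul_vecMul, hVU, Matrix.vecMul_one]
  have hST : S.transpose = -S := by
    ext i j
    rw [Matrix.transpose_apply, Matrix.neg_apply, hS2 i j]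
  set T : Matrix (Fin n) (Fin n) R := U'.transpose * S * U' with hT
  have hTT : T.transpose = -T := by
    rw [hT, Matrix.transpose_mul, Matrix.transpose_mul, Matrix.transpose_transpose, hST]
    simp [Matrix.mul_assoc]
  refine ⟨T, ?_, ?_, ?_⟩
  · intro i
    have h2 : T i i = - T i i := by
      have := congrFun (congrFun hTT i) i
      simpa using this
    have h3 : (2 : R) * T i i = 0 := by linear_combination h2
    have h4 : (2 : k) • T i i = 0 := by
      rw [Algebra.smul_def, map_ofNat]; exact h3
    have h5 : T i i = (2⁻¹ : k) • ((2 : k) • T i i) := by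
      rw [smul_smul, inv_mul_cancel₀ (two_ne_zero), one_smul]
    rw [h5, h4, smul_zero]
  · intro i j
    have := congrFun (congrFun hTT i) j
    simpa using this
  · intro i
    have h6 : c = T.mulVec a := by
      rw [hc2, hS3', hb', Matrix.mulVec_mulVec, hT, ← Matrix.mulVec_transpose, Matrix.mulVec_mulVec,
        Matrix.mul_assoc]
    exact congrFun h6 i

/-- Koszul syzygies: the last one is a non zero divisor modulo the others -/
theorem nz_of_KS {n : ℕ} {a : Fin (n + 1) → R} (h : KS a) :
    Nz (Ideal.span (Set.range fun i : Fin n => a (Fin.castSucc i))) (a (Fin.last n)) := by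
  intro b hb
  obtain ⟨s, hs⟩ := Ideal.mem_span_range_iff_exists_fun.1 hb
  obtain ⟨S, hS1, -, hS3⟩ := h (Fin.snoc (α := fun _ => R) (fun i => - s i) b) (by
    rw [Fin.sum_univ_castSucc]
    simp only [Fin.snoc_castSucc, Fin.snoc_last, neg_mul, Finset.sum_neg_distrib]
    linear_combination -hs)
  have h1 := hS3 (Fin.last n)
  rw [Fin.snoc_last, Fin.sum_univ_castSucc, hS1, zero_mul, add_zero] at h1
  rw [h1]
  exact Submodule.sum_mem _ fun i _ => Ideal.mul_mem_left _ _ (Ideal.subset_span ⟨i, rfl⟩)

/-- **Cohen-Macaulay property**: all syzygies of a system of parameters are Koszul. -/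
theorem koszul [IsLocalRing R] [IsNoetherianRing R] {k : Type*} [Field k] [CharZero k]
    [Algebra k R] {n : ℕ} (x : List R) (hx : x.length = n) (hxm : ∀ y ∈ x, y ∈ maximalIdeal R)
    (hxr : RS ⊥ x) (a : Fin n → R) (ham : ∀ i, a i ∈ maximalIdeal R) (K : ℕ)
    (ha : maximalIdeal R ^ K ≤ Ideal.span (Set.range a)) : KS a := by
  classical
  obtain ⟨vs, hlen, hli, hRS⟩ := exists_comb (k := k) a ham K ha x [] (by simpa using hx) hxm
    (by
      have : IsEmpty (Fin ([] : List (Fin n → k)).length) := by simpa using Fin.isEmpty'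
      exact linearIndependent_empty_type) (by simpa using hxr)
  set U : Matrix (Fin n) (Fin n) k := Matrix.of fun i j => vs.get (Fin.cast hlen.symm i) j with hU
  have hUu : IsUnit U := by
    rw [← Matrix.linearIndependent_rows_iff_isUnit]
    exact hli.comp _ (Fin.cast_injective hlen.symm)
  refine KS_transport a (fun i => ∑ j, U i j • a j) U hUu (fun i => rfl) (KS_of_RS _ ?_)
  have e : (List.ofFn fun i => ∑ j, U i j • a j) = vs.map fun c => ∑ i, c i • a i := by
    apply List.ext_get
    · simp [hlen]
    · intro i h1 h2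
      simp [hU]
  rw [e]
  exact hRS

end Crest.Agent.R257.CM_812
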