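import Crest.Agent.R257.TDefs_387

/-!
Row 257 (S0395), part C, T-frame (helper554): `TB.CoverStmt`, finitely many valid charts cover a
punctured neighbourhood of the origin of the `(s,y')`-plane.
-/

set_option autoImplicit false

open Polynomial Set Filter Topology Metric
open Crest.AlgGeometry.Germ Crest.Agent.R257.AJ387

noncomputable section

namespace Crest.Agent.R257.TCov554

open Crest.Agent.R257.T387 Crest.Agent.R257.T387.TB

variable {f : (Fin 3 → ℂ) → ℂ} (T : TB f)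

/-- the part of the vertex line not covered by edges, legs and smaller branches -/
def KK (a : ℝ) (i : Fin T.m) (k : ℕ) : Set ℂ :=
  {w | a ≤ ‖w‖ ∧ ‖w‖ ≤ a⁻¹ ∧ ∀ j, j ≠ i → T.del i j = k → ‖T.u i j 0‖ / 8 ≤ ‖w + T.u i j 0‖}

lemma isCompact_KK (a : ℝ) (i : Fin T.m) (k : ℕ) : IsCompact (KK T a i k) := by
  refine (isCompact_closedBall (0 : ℂ) a⁻¹).of_isClosed_subset ?_ ?_
  · have h1 : IsClosed {w : ℂ | a ≤ ‖w‖} := isClosed_le continuous_const continuous_norm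
    have h2 : IsClosed {w : ℂ | ‖w‖ ≤ a⁻¹} := isClosed_le continuous_norm continuous_const
    have h3 : IsClosed {w : ℂ | ∀ j, j ≠ i → T.del i j = k →
        ‖T.u i j 0‖ / 8 ≤ ‖w + T.u i j 0‖} := by
      simp only [ofPred_forall]
      refine isClosed_iInter (fun j => isClosed_iInter (fun _ => isClosed_iInter (fun _ => ?_)))
      exact isClosed_le continuous_const (continuous_id.add continuous_const).norm
    exact h1.inter (h2.inter h3)
  · rintro w ⟨-, h, -⟩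
    rwa [mem_closedBall_zero_iff]

lemma KK_valid {a : ℝ} (ha : 0 < a) {i : Fin T.m} {k : ℕ} {w : ℂ} (hw : w ∈ KK T a i k) :
    w ∉ T.Sp i k := by
  obtain ⟨h1, -, h3⟩ := hw
  intro hs
  rw [Sp, Finset.mem_insert] at hs
  rcases hs with rfl | hs
  · rw [norm_zero] at h1; linarith
  · rw [Finset.mem_image] at hs
    obtain ⟨j, hj, rfl⟩ := hs
    rw [Finset.mem_filter] at hj
    have h4 := h3 j hj.2.1 hj.2.2
    have h5 : 0 < ‖T.u i j 0‖ := norm_pos_iff.2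
      (T.u_ne i j (Ne.symm hj.2.1) 0 (mem_ball_self T.ρ_pos))
    rw [neg_add_cancel, norm_zero] at h4
    linarith

/-- the edge chart covers -/
lemma edge_cov {e : ℝ} (he : 0 < e) {i : Fin T.m} {k k' : ℕ} (hk : k < k') {s y : ℂ}
    (hs : s ≠ 0)
    (h1 : ‖y - T.φ i (s ^ T.M)‖ ≤ ‖s‖ ^ (T.M * k) * e ^ (T.M * (k' - k)))
    (h2 : ‖s‖ ^ (T.M * k') ≤ ‖y - T.φ i (s ^ T.M)‖ * e ^ (T.M * (k' - k))) :
    ∃ p : ℂ × ℂ, ‖p.1‖ ≤ e ∧ ‖p.2‖ ≤ e ∧ T.map (.edge i k k') p = (s, y) := by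
  set η := y - T.φ i (s ^ T.M) with hη
  have hn : 0 < T.M * (k' - k) := Nat.mul_pos T.M_pos (by omega)
  have hs0 : 0 < ‖s‖ := norm_pos_iff.2 hs
  have hη0 : 0 < ‖η‖ := by
    by_contra h
    have h3 : ‖η‖ = 0 := le_antisymm (not_lt.1 h) (norm_nonneg _)
    rw [h3, zero_mul] at h2
    exact absurd (pow_pos hs0 (T.M * k')) (not_lt.2 h2)
  obtain ⟨β, hβ⟩ := IsAlgClosed.exists_pow_nat_eq (η / s ^ (T.M * k)) hn
  have hβn : ‖β‖ ^ (T.M * (k' - k)) = ‖η‖ / ‖s‖ ^ (T.M * k) := by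
    rw [← norm_pow, hβ, norm_div, norm_pow]
  have hβ0 : β ≠ 0 := by
    rintro rfl
    rw [norm_zero, zero_pow hn.ne'] at hβn
    exact (div_pos hη0 (pow_pos hs0 _)).ne hβn
  have hβ0' : 0 < ‖β‖ := norm_pos_iff.2 hβ0
  have hsk : 0 < ‖s‖ ^ (T.M * k) := pow_pos hs0 _
  refine ⟨(s / β, β), ?_, ?_, ?_⟩
  · simp only
    refine (pow_le_pow_iff_left₀ (norm_nonneg _) he.le hn.ne').1 ?_
    rw [norm_div, div_pow, hβn, div_div_eq_mul_div, div_le_iff₀ hη0, ← pow_add, mul_comm _ ‖η‖]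
    have : T.M * (k' - k) + T.M * k = T.M * k' := by
      rw [← mul_add, Nat.sub_add_cancel hk.le]
    rw [this]
    exact h2
  · refine (pow_le_pow_iff_left₀ (norm_nonneg _) he.le hn.ne').1 ?_
    rw [hβn, div_le_iff₀ hsk, mul_comm]
    exact h1
  · have h4 : s / β * β = s := div_mul_cancel₀ s hβ0
    have h5 : (s / β) ^ (T.M * k) * β ^ (T.M * k') = η := by
      have h6 : T.M * k' = T.M * k + T.M * (k' - k) := by
        rw [← mul_add]; congr 1; omega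
      rw [h6, pow_add, ← mul_assoc, ← mul_pow, h4, hβ]
      exact mul_div_cancel₀ _ (pow_ne_zero _ hs)
    simp only [TB.map, h4, h5]
    rw [hη, add_sub_cancel]

lemma leg_cov {e : ℝ} (he : 0 < e) {i : Fin T.m} {s y : ℂ} (hs : s ≠ 0) (hse : ‖s‖ ≤ e)
    (h1 : ‖y - T.φ i (s ^ T.M)‖ ≤ ‖s‖ ^ (T.M * T.top i) * e ^ T.M) :
    ∃ p : ℂ × ℂ, ‖p.1‖ ≤ e ∧ ‖p.2‖ ≤ e ∧ T.map (.leg i) p = (s, y) := by
  set η := y - T.φ i (s ^ T.M) with hη
  have hs0 : 0 < ‖s‖ := norm_pos_iff.2 hs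
  obtain ⟨β, hβ⟩ := IsAlgClosed.exists_pow_nat_eq (η / s ^ (T.M * T.top i)) T.M_pos
  have hβn : ‖β‖ ^ T.M = ‖η‖ / ‖s‖ ^ (T.M * T.top i) := by
    rw [← norm_pow, hβ, norm_div, norm_pow]
  refine ⟨(s, β), hse, ?_, ?_⟩
  · refine (pow_le_pow_iff_left₀ (norm_nonneg _) he.le T.M_pos.ne').1 ?_
    rw [hβn, div_le_iff₀ (pow_pos hs0 _), mul_comm]
    exact h1
  · have h5 : s ^ (T.M * T.top i) * β ^ T.M = η := by
      rw [hβ]
      exact mul_div_cancel₀ _ (pow_ne_zero _ hs)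
    simp only [TB.map, h5]
    rw [hη, add_sub_cancel]

lemma vert_cov {i : Fin T.m} {k : ℕ} {w₀ : ℂ} {r : ℝ} {s y : ℂ} (hs : s ≠ 0) (hsr : ‖s‖ ≤ r)
    (h1 : ‖(y - T.φ i (s ^ T.M)) / s ^ (T.M * k) - w₀‖ ≤ r) :
    ∃ p : ℂ × ℂ, ‖p.1‖ ≤ r ∧ ‖p.2‖ ≤ r ∧ T.map (.vert i k w₀) p = (s, y) := by
  refine ⟨(s, (y - T.φ i (s ^ T.M)) / s ^ (T.M * k) - w₀), hsr, h1, ?_⟩
  have h2 : s ^ (T.M * k) * (w₀ + ((y - T.φ i (s ^ T.M)) / s ^ (T.M * k) - w₀)) =
      y - T.φ i (s ^ T.M) := by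
    rw [add_sub_cancel]
    exact mul_div_cancel₀ _ (pow_ne_zero _ hs)
  simp only [TB.map, h2]
  rw [add_sub_cancel]

lemma top_mem (i : Fin T.m) : T.top i ∈ T.lev i := Finset.max'_mem _ _

lemma le_top {i : Fin T.m} {k : ℕ} (hk : k ∈ T.lev i) : k ≤ T.top i := Finset.le_max' _ _ hk

lemma lev_pos {i : Fin T.m} {k : ℕ} (hk : k ∈ T.lev i) : 0 < k := by
  rw [lev, Finset.mem_insert, Finset.mem_image] at hk
  rcases hk with rfl | ⟨j, -, rfl⟩
  · exact one_pos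
  · exact T.del_pos i j

theorem cover : T.CoverStmt := by
  classical
  intro r hr
  set K : ℕ := Finset.univ.sup fun i => T.top i with hK
  have htopK : ∀ i, T.top i ≤ K := fun i => Finset.le_sup (f := fun i => T.top i) (Finset.mem_univ i)
  have hlevK : ∀ i, ∀ k ∈ T.lev i, k ≤ K := fun i k hk => (le_top T hk).trans (htopK i)
  have hmne : Nonempty (Fin T.m) := ⟨⟨0, T.m_pos⟩⟩
  obtain ⟨i₀⟩ := hmne
  have hmne : Nonempty (Fin T.m) := ⟨i₀⟩
  have hK1 : 1 ≤ K := hlevK i₀ 1 (T.one_mem_lev i₀)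
  -- the common radius
  obtain ⟨e, ⟨heE, heL, he1⟩, he0⟩ : ∃ e : ℝ, ((∀ i, ∀ k : Fin (K + 1), ∀ k' : Fin (K + 1),
      e ≤ r (.edge i k k')) ∧ (∀ i, e ≤ r (.leg i)) ∧ e ≤ 1) ∧ 0 < e := by
    have h1 : ∀ c : ℝ, 0 < c → ∀ᶠ e in 𝓝[>] (0 : ℝ), e ≤ c := fun c hc =>
      (eventually_le_nhds hc).filter_mono nhdsWithin_le_nhds
    have h2 : ∀ᶠ e in 𝓝[>] (0 : ℝ), ((∀ i, ∀ k : Fin (K + 1), ∀ k' : Fin (K + 1),
      e ≤ r (.edge i k k')) ∧ (∀ i, e ≤ r (.leg i)) ∧ e ≤ 1) := by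
      refine Filter.Eventually.and ?_ (Filter.Eventually.and ?_ (h1 1 one_pos))
      · rw [Filter.eventually_all]; intro i
        rw [Filter.eventually_all]; intro k
        rw [Filter.eventually_all]; intro k'
        exact h1 _ (hr _)
      · rw [Filter.eventually_all]; intro i
        exact h1 _ (hr _)
    exact (h2.and self_mem_nhdsWithin).exists
  have heE' : ∀ i k k', k ≤ K → k' ≤ K → e ≤ r (.edge i k k') := fun i k k' h h' =>
    heE i ⟨k, by omega⟩ ⟨k', by omega⟩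
  set a : ℝ := e ^ (T.M * K) with ha
  have ha0 : 0 < a := pow_pos he0 _
  have ha1 : a ≤ 1 := pow_le_one₀ he0.le he1
  have hapow : ∀ n, n ≤ T.M * K → a ≤ e ^ n := fun n hn => pow_le_pow_of_le_one he0.le he1 hn
  -- vertex charts
  have hcov : ∀ (i : Fin T.m) (k : ℕ), ∃ t : Finset ℂ, (∀ w ∈ t, w ∈ KK T a i k) ∧
      KK T a i k ⊆ ⋃ w ∈ t, ball w (r (.vert i k w)) := fun i k =>
    (isCompact_KK T a i k).elim_nhds_subcover (fun w => ball w (r (.vert i k w)))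
      (fun w _ => ball_mem_nhds w (hr _))
  choose t ht htc using hcov
  set F1 : Finset (Ch T.m) := ((Finset.univ ×ˢ Finset.range (K + 1) ×ˢ
    Finset.range (K + 1)).filter (fun x : Fin T.m × ℕ × ℕ => T.Cons x.1 x.2.1 x.2.2)).image
    (fun x => Ch.edge x.1 x.2.1 x.2.2) with hF1
  set F2 : Finset (Ch T.m) := Finset.univ.image Ch.leg with hF2
  set F3 : Finset (Ch T.m) := Finset.univ.biUnion fun i => (T.lev i).biUnion fun k =>
    (t i k).image (Ch.vert i k) with hF3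
  have m1 : ∀ i k k', T.Cons i k k' → k ≤ K → k' ≤ K → Ch.edge i k k' ∈ F1 ∪ F2 ∪ F3 := by
    intro i k k' h1 h2 h3
    refine Finset.mem_union_left _ (Finset.mem_union_left _ ?_)
    rw [hF1, Finset.mem_image]
    refine ⟨(i, k, k'), ?_, rfl⟩
    simp only [Finset.mem_filter, Finset.mem_product, Finset.mem_univ, Finset.mem_range, true_and]
    exact ⟨⟨by omega, by omega⟩, h1⟩
  have m2 : ∀ i, Ch.leg i ∈ F1 ∪ F2 ∪ F3 := by
    intro i
    refine Finset.mem_union_left _ (Finset.mem_union_right _ ?_)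
    rw [hF2]
    exact Finset.mem_image_of_mem _ (Finset.mem_univ i)
  have m3 : ∀ i, ∀ k ∈ T.lev i, ∀ w ∈ t i k, Ch.vert i k w ∈ F1 ∪ F2 ∪ F3 := by
    intro i k hk w hw
    refine Finset.mem_union_right _ ?_
    rw [hF3, Finset.mem_biUnion]
    refine ⟨i, Finset.mem_univ i, ?_⟩
    rw [Finset.mem_biUnion]
    exact ⟨k, hk, Finset.mem_image_of_mem _ hw⟩
  refine ⟨F1 ∪ F2 ∪ F3, ?_, ?_⟩
  · intro c hc
    rw [Finset.mem_union, Finset.mem_union] at hc
    rcases hc with (hc | hc) | hc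
    · rw [hF1, Finset.mem_image] at hc
      obtain ⟨x, hx, rfl⟩ := hc
      exact (Finset.mem_filter.1 hx).2
    · rw [hF2, Finset.mem_image] at hc
      obtain ⟨i, -, rfl⟩ := hc
      trivial
    · rw [hF3, Finset.mem_biUnion] at hc
      obtain ⟨i, -, hc⟩ := hc
      rw [Finset.mem_biUnion] at hc
      obtain ⟨k, hk, hc⟩ := hc
      rw [Finset.mem_image] at hc
      obtain ⟨w, hw, rfl⟩ := hc
      exact ⟨hk, KK_valid T ha0 (ht i k w hw)⟩
  -- smallness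
  have hpow : Tendsto (fun s : ℂ => s ^ T.M) (𝓝 0) (𝓝 0) := by
    have := (continuous_pow T.M (M := ℂ)).tendsto 0
    rwa [zero_pow T.M_pos.ne'] at this
  have e1 : ∀ᶠ s in 𝓝 (0 : ℂ), ‖s‖ ≤ e := by
    have : Tendsto (fun s : ℂ => ‖s‖) (𝓝 0) (𝓝 0) := by
      simpa using (continuous_norm (E := ℂ)).tendsto 0
    exact this.eventually (eventually_le_nhds he0)
  have e1' : ∀ᶠ s in 𝓝 (0 : ℂ), ‖s‖ < 1 := by
    have : Tendsto (fun s : ℂ => ‖s‖) (𝓝 0) (𝓝 0) := by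
      simpa using (continuous_norm (E := ℂ)).tendsto 0
    exact this.eventually (eventually_lt_nhds one_pos)
  have e2 : ∀ᶠ s in 𝓝 (0 : ℂ), ∀ c ∈ F1 ∪ F2 ∪ F3, ‖s‖ ≤ r c := by
    rw [Filter.eventually_all_finset]
    intro c _
    have : Tendsto (fun s : ℂ => ‖s‖) (𝓝 0) (𝓝 0) := by
      simpa using (continuous_norm (E := ℂ)).tendsto 0
    exact this.eventually (eventually_le_nhds (hr c))
  have e3 : ∀ᶠ s in 𝓝 (0 : ℂ), s ^ T.M ∈ ball (0 : ℂ) T.ρ :=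
    hpow.eventually (ball_mem_nhds _ T.ρ_pos)
  have e4 : ∀ᶠ s in 𝓝 (0 : ℂ), ∀ i j, i ≠ j →
      ‖T.u i j (s ^ T.M) - T.u i j 0‖ ≤ ‖T.u i j 0‖ / 4 := by
    rw [Filter.eventually_all]; intro i
    rw [Filter.eventually_all]; intro j
    by_cases hij : i ≠ j
    · have h0 : (0 : ℂ) ∈ ball (0 : ℂ) T.ρ := mem_ball_self T.ρ_pos
      have hc : ContinuousAt (T.u i j) 0 := (T.u_an i j hij 0 h0).continuousAt
      have h1 : 0 < ‖T.u i j 0‖ / 4 := by
        have := norm_pos_iff.2 (T.u_ne i j hij 0 h0)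
        positivity
      have h2 := (hc.tendsto.comp hpow).eventually (closedBall_mem_nhds _ h1)
      filter_upwards [h2] with s hs _
      rwa [Function.comp_apply, dist_eq_norm] at hs
    · exact Eventually.of_forall (fun s h => absurd h hij)
  have e5 : ∀ᶠ q in 𝓝 ((0 : ℂ), (0 : ℂ)), ∀ i, ‖q.2 - T.φ i (q.1 ^ T.M)‖ ≤ a := by
    rw [Filter.eventually_all]; intro i
    have h0 : (0 : ℂ) ∈ ball (0 : ℂ) T.ρ := mem_ball_self T.ρ_pos
    have hc : ContinuousAt (T.φ i) 0 := (T.φ_an i 0 h0).continuousAt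
    have h1 : Tendsto (fun q : ℂ × ℂ => q.2 - T.φ i (q.1 ^ T.M)) (𝓝 (0, 0)) (𝓝 (0 - T.φ i 0)) := by
      refine Tendsto.sub (continuous_snd.tendsto _) ?_
      have h2 : Tendsto (fun q : ℂ × ℂ => q.1) (𝓝 ((0 : ℂ), (0 : ℂ))) (𝓝 0) :=
        continuous_fst.tendsto _
      exact hc.tendsto.comp (hpow.comp h2)
    rw [T.φ_zero, sub_zero] at h1
    have h3 := h1.eventually (closedBall_mem_nhds _ ha0)
    filter_upwards [h3] with q hq
    rwa [dist_zero_right] at hq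
  have efst : Tendsto (fun q : ℂ × ℂ => q.1) (𝓝 ((0 : ℂ), (0 : ℂ))) (𝓝 0) :=
    continuous_fst.tendsto _
  have eall := (efst.eventually e1).and ((efst.eventually e2).and ((efst.eventually e3).and
    ((efst.eventually e4).and (e5.and (efst.eventually e1')))))
  obtain ⟨ε, hε, hball⟩ := Metric.eventually_nhds_iff.1 eall
  refine ⟨ε, hε, fun s y hs hy hne => ?_⟩
  obtain ⟨g1, g2, g3, g4, g5, g6⟩ := hball (y := (s, y)) (by
    rw [Prod.dist_eq, max_lt_iff]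
    simp only [dist_zero_right]
    exact ⟨hs, hy⟩)
  simp only at g1 g2 g3 g4 g5 g6
  have hle : ∀ {c : Ch T.m} {p : ℂ × ℂ}, e ≤ r c → ‖p.1‖ ≤ e → ‖p.2‖ ≤ e →
      ‖p.1‖ ≤ r c ∧ ‖p.2‖ ≤ r c := fun h1 h2 h3 => ⟨h2.trans h1, h3.trans h1⟩
  by_cases hs0 : s = 0
  · -- the top edge
    subst hs0
    obtain ⟨β, hβ⟩ := IsAlgClosed.exists_pow_nat_eq y T.M_pos
    have hC : T.Cons i₀ 0 1 := ⟨Or.inl rfl, T.one_mem_lev i₀, one_pos, fun l hl =>
      Or.inr (lev_pos T hl)⟩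
    refine ⟨_, m1 i₀ 0 1 hC (Nat.zero_le _) hK1, (0, β), ?_⟩
    have h1 := g5 i₀
    rw [zero_pow T.M_pos.ne', T.φ_zero, sub_zero, ← hβ, norm_pow] at h1
    have h2 : ‖β‖ ≤ e := by
      refine (pow_le_pow_iff_left₀ (norm_nonneg _) he0.le T.M_pos.ne').1 ?_
      exact h1.trans (hapow _ (by nlinarith [T.M_pos]))
    obtain ⟨h3, h4⟩ := hle (c := Ch.edge i₀ 0 1) (p := (0, β)) (heE' i₀ 0 1 (Nat.zero_le _) hK1)
      (by simpa using he0.le) h2
    refine ⟨h3, h4, ?_⟩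
    simp only [TB.map, zero_mul, mul_zero, pow_zero, one_mul, mul_one, zero_pow T.M_pos.ne',
      T.φ_zero, zero_add, hβ]
  -- the nearest branch
  obtain ⟨i, hi⟩ := Finite.exists_min (fun i => ‖y - T.φ i (s ^ T.M)‖)
  set η := y - T.φ i (s ^ T.M) with hη
  have hsn : 0 < ‖s‖ := norm_pos_iff.2 hs0
  -- vertex charts
  have hvert : ∀ k ∈ T.lev i, ‖s‖ ^ (T.M * k) * a ≤ ‖η‖ → ‖η‖ * a ≤ ‖s‖ ^ (T.M * k) →
      ∃ c ∈ F1 ∪ F2 ∪ F3, ∃ p : ℂ × ℂ, ‖p.1‖ ≤ r c ∧ ‖p.2‖ ≤ r c ∧ T.map c p = (s, y) := by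
    intro k hk h1 h2
    have hsk : 0 < ‖s‖ ^ (T.M * k) := pow_pos hsn _
    set w := η / s ^ (T.M * k) with hw
    have hwn : ‖w‖ = ‖η‖ / ‖s‖ ^ (T.M * k) := by rw [hw, norm_div, norm_pow]
    have hwK : w ∈ KK T a i k := by
      refine ⟨?_, ?_, ?_⟩
      · rw [hwn, le_div_iff₀ hsk, mul_comm]; exact h1
      · rw [hwn, div_le_iff₀ hsk, inv_mul_eq_div, le_div_iff₀ ha0]; exact h2
      · intro j hj hjk
        have h3 : ‖η‖ ≤ ‖y - T.φ j (s ^ T.M)‖ := hi j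
        have h4 : y - T.φ j (s ^ T.M) = s ^ (T.M * k) * (w + T.u i j (s ^ T.M)) := by
          have h5 := T.φ_sub i j (Ne.symm hj) (s ^ T.M) g3
          rw [hjk, ← pow_mul] at h5
          have h6 : s ^ (T.M * k) * w = η := by
            rw [hw]; exact mul_div_cancel₀ _ (pow_ne_zero _ hs0)
          rw [mul_add, h6, ← h5, hη]
          ring
        have h7 : ‖w‖ ≤ ‖w + T.u i j (s ^ T.M)‖ := by
          rw [h4, norm_mul, norm_pow] at h3
          rw [hwn, div_le_iff₀ hsk, mul_comm]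
          exact h3
        have h8 := g4 i j (Ne.symm hj)
        have h9 : ‖T.u i j (s ^ T.M)‖ ≤ ‖w + T.u i j (s ^ T.M)‖ + ‖w‖ := by
          have : T.u i j (s ^ T.M) = (w + T.u i j (s ^ T.M)) - w := by ring
          calc ‖T.u i j (s ^ T.M)‖ = ‖(w + T.u i j (s ^ T.M)) - w‖ := by rw [← this]
            _ ≤ _ := norm_sub_le _ _
        have h10 : ‖T.u i j 0‖ ≤ ‖T.u i j (s ^ T.M)‖ + ‖T.u i j (s ^ T.M) - T.u i j 0‖ := by
          have : T.u i j 0 = T.u i j (s ^ T.M) - (T.u i j (s ^ T.M) - T.u i j 0) := by ring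
          calc ‖T.u i j 0‖ = ‖T.u i j (s ^ T.M) - (T.u i j (s ^ T.M) - T.u i j 0)‖ := by
                rw [← this]
            _ ≤ _ := norm_sub_le _ _
        have h11 : ‖w + T.u i j (s ^ T.M)‖ ≤ ‖w + T.u i j 0‖ +
            ‖T.u i j (s ^ T.M) - T.u i j 0‖ := by
          have : w + T.u i j (s ^ T.M) = (w + T.u i j 0) + (T.u i j (s ^ T.M) - T.u i j 0) := by
            ring
          rw [this]
          exact norm_add_le _ _
        have h12 := norm_nonneg (T.u i j 0)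
        linarith
    have h13 := htc i k hwK
    rw [mem_iUnion₂] at h13
    obtain ⟨w₀, hw₀, hww⟩ := h13
    refine ⟨_, m3 i k hk w₀ hw₀, ?_⟩
    rw [mem_ball, dist_eq_norm] at hww
    exact vert_cov T hs0 (g2 _ (m3 i k hk w₀ hw₀)) hww.le
  -- the level
  set L : Finset ℕ := (insert 0 (T.lev i)).filter (fun k => ‖η‖ ≤ ‖s‖ ^ (T.M * k)) with hL
  have hη1 : ‖η‖ ≤ a := g5 i
  have h0L : 0 ∈ L := by
    rw [hL, Finset.mem_filter]
    refine ⟨Finset.mem_insert_self _ _, ?_⟩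
    rw [mul_zero, pow_zero]
    exact hη1.trans ha1
  set k := L.max' ⟨0, h0L⟩ with hk
  have hkL : k ∈ L := Finset.max'_mem _ _
  have hkmax : ∀ l ∈ L, l ≤ k := fun l hl => Finset.le_max' _ _ hl
  rw [hL, Finset.mem_filter, Finset.mem_insert] at hkL
  obtain ⟨hk1, hk2⟩ := hkL
  have hkK : k ≤ K := by
    rcases hk1 with h | h
    · rw [h]; exact Nat.zero_le _
    · exact hlevK i k h
  by_cases hkt : T.top i ≤ k
  · -- at the top
    have hkt' : k = T.top i := by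
      rcases hk1 with h | h
      · have := lev_pos T (top_mem T i); omega
      · exact le_antisymm (le_top T h) hkt
    by_cases hleg : ‖η‖ ≤ ‖s‖ ^ (T.M * T.top i) * e ^ T.M
    · obtain ⟨p, hp1, hp2, hp3⟩ := leg_cov T he0 hs0 g1 hleg
      obtain ⟨h3, h4⟩ := hle (c := Ch.leg i) (heL i) hp1 hp2
      exact ⟨_, m2 i, p, h3, h4, hp3⟩
    · push Not at hleg
      refine hvert (T.top i) (top_mem T i) ?_ ?_
      · refine (mul_le_mul_of_nonneg_left (hapow T.M ?_) (by positivity)).trans hleg.le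
        nlinarith [T.M_pos]
      · rw [hkt'] at hk2
        calc ‖η‖ * a ≤ ‖η‖ * 1 := mul_le_mul_of_nonneg_left ha1 (norm_nonneg _)
          _ = ‖η‖ := mul_one _
          _ ≤ _ := hk2
  · push Not at hkt
    -- the next level
    set L' : Finset ℕ := (T.lev i).filter (fun l => k < l) with hL'
    have hL'ne : L'.Nonempty := ⟨T.top i, by
      rw [hL', Finset.mem_filter]; exact ⟨top_mem T i, hkt⟩⟩
    set k' := L'.min' hL'ne with hk'
    have hk'L : k' ∈ L' := Finset.min'_mem _ _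
    rw [hL', Finset.mem_filter] at hk'L
    obtain ⟨hk'1, hkk'⟩ := hk'L
    have hk'K : k' ≤ K := hlevK i k' hk'1
    have hCons : T.Cons i k k' := by
      refine ⟨hk1, hk'1, hkk', fun l hl => ?_⟩
      by_cases h : l ≤ k
      · exact Or.inl h
      · right
        refine Finset.min'_le _ _ ?_
        rw [hL', Finset.mem_filter]
        exact ⟨hl, not_le.1 h⟩
    have hk'2 : ‖s‖ ^ (T.M * k') < ‖η‖ := by
      by_contra h
      have : k' ∈ L := by
        rw [hL, Finset.mem_filter, Finset.mem_insert]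
        exact ⟨Or.inr hk'1, not_lt.1 h⟩
      have := hkmax k' this
      omega
    have hn : T.M * (k' - k) ≤ T.M * K := Nat.mul_le_mul_left _ (by omega)
    by_cases h1 : ‖η‖ ≤ ‖s‖ ^ (T.M * k) * e ^ (T.M * (k' - k))
    · by_cases h2 : ‖s‖ ^ (T.M * k') ≤ ‖η‖ * e ^ (T.M * (k' - k))
      · obtain ⟨p, hp1, hp2, hp3⟩ := edge_cov T he0 hkk' hs0 h1 h2
        obtain ⟨h3, h4⟩ := hle (c := Ch.edge i k k') (heE' i k k' hkK hk'K) hp1 hp2
        exact ⟨_, m1 i k k' hCons hkK hk'K, p, h3, h4, hp3⟩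
      · push Not at h2
        refine hvert k' hk'1 ?_ ?_
        · calc ‖s‖ ^ (T.M * k') * a ≤ ‖s‖ ^ (T.M * k') * 1 :=
              mul_le_mul_of_nonneg_left ha1 (by positivity)
            _ = ‖s‖ ^ (T.M * k') := mul_one _
            _ ≤ ‖η‖ := hk'2.le
        · exact (mul_le_mul_of_nonneg_left (hapow _ hn) (norm_nonneg _)).trans h2.le
    · push Not at h1
      rcases hk1 with h0 | hkl
      · exfalso
        rw [h0, mul_zero, pow_zero, one_mul] at h1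
        have h5 := hapow (T.M * (k' - 0)) (by rw [← h0]; exact hn)
        linarith
      · refine hvert k hkl ?_ ?_
        · exact (mul_le_mul_of_nonneg_left (hapow _ hn) (by positivity)).trans h1.le
        · calc ‖η‖ * a ≤ ‖η‖ * 1 := mul_le_mul_of_nonneg_left ha1 (norm_nonneg _)
            _ = ‖η‖ := mul_one _
            _ ≤ _ := hk2

end Crest.Agent.R257.TCov554
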