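import Crest.Agent.R257.FrmA_547
import Crest.Agent.R257.TCov_554

/-!
R257 / Can_287 (task C-CANON, (CANON) of post 3898): canonical charts cover.

* `Can c`    : the chart `c` is canonical (`edge i k k'` with `rep i k' = i`, `vert i k w` with
               `rep i k = i`, all legs)
* `cn c`     : the canonical chart containing (a smaller copy of) the chart `c`
* `cn_cov`   : pointwise comparison of `c` and `cn c`
* `canon`    : for all radii finitely many canonical valid charts cover a punctured neighbourhood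
-/

set_option autoImplicit false

open Polynomial Set Filter Topology Metric
open Crest.AlgGeometry.Germ Crest.Agent.R257.AJ387 Crest.Agent.R257.T387 Crest.Agent.R257.Frm_547

noncomputable section

namespace Crest.Agent.R257.Can_287

variable {f : (Fin 3 → ℂ) → ℂ} (T : TB f)

/-- canonical charts -/
def Can : Ch T.m → Prop
  | .edge i _ k' => rep T i k' = i
  | .leg _ => True
  | .vert i k _ => rep T i k = i

/-- the canonical chart of a chart -/
def cn : Ch T.m → Ch T.m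
  | .edge j k k' => .edge (rep T j k') k k'
  | .leg i => .leg i
  | .vert j k w => .vert (rep T j k) k (w + sh T k j (rep T j k) 0)

theorem can_cn (c : Ch T.m) : Can T (cn T c) := by
  cases c with
  | edge j k k' => exact rep_rep T j k'
  | leg i => trivial
  | vert j k w => exact rep_rep T j k

theorem cons_of_eqv {i j : Fin T.m} {k k' : ℕ} (h : Eqv T k' j i) (hc : T.Cons j k k') :
    T.Cons i k k' := by
  obtain ⟨h1, h2, h3, h4⟩ := hc
  refine ⟨h1.imp id fun h5 => lev_of_eqv T (h.mono h3.le) h5, lev_of_eqv T h h2, h3,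
    fun l hl => ?_⟩
  rcases le_or_gt k' l with h5 | h5
  · exact Or.inr h5
  · exact h4 l (lev_of_eqv T (h.mono h5.le).symm hl)

theorem valid_cn {c : Ch T.m} (hc : T.Valid c) : T.Valid (cn T c) := by
  cases c with
  | edge j k k' => exact cons_of_eqv T (rep_eqv T j k') hc
  | leg i => trivial
  | vert j k w =>
    refine ⟨rep_lev T hc.1, fun h => hc.2 ?_⟩
    exact (sp_shift T (rep_eqv T j k)).2 h

theorem sD_ev : ∀ᶠ s in 𝓝 (0 : ℂ), s ∈ sD T := (isOpen_sD T).mem_nhds (zero_mem_sD T)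

/-- vertex charts -/
theorem map_vert {i j : Fin T.m} {k : ℕ} (h : Eqv T k j i) {w s β : ℂ} (hs : s ∈ sD T) :
    T.map (.vert i k (w + sh T k j i 0)) (s, β + sh T k j i s - sh T k j i 0) =
      T.map (.vert j k w) (s, β) := by
  simp only [TB.map]
  rw [φ_sh T h hs]
  congr 1
  ring

/-- edge charts -/
theorem map_edge {i j : Fin T.m} {k k' : ℕ} (hk : k < k') (h : Eqv T k' j i) {α β e : ℂ}
    (hs : α * β ∈ sD T) (he0 : e ≠ 0)
    (he : e ^ (T.M * (k' - k)) = 1 + α ^ (T.M * (k' - k)) * sh T k' j i (α * β)) :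
    T.map (.edge i k k') (α / e, β * e) = T.map (.edge j k k') (α, β) := by
  have h1 : α / e * (β * e) = α * β := by field_simp
  simp only [TB.map]
  rw [h1, φ_sh T h hs]
  congr 1
  have h2 : T.M * k' = T.M * k + T.M * (k' - k) := by
    rw [← mul_add]; congr 1; omega
  have h3 : (α / e) ^ (T.M * k) * (β * e) ^ (T.M * k') =
      α ^ (T.M * k) * β ^ (T.M * k') * e ^ (T.M * (k' - k)) := by
    rw [div_pow, mul_pow, h2, pow_add e]
    field_simp
  rw [h3, he]
  have h4 : (α * β) ^ (T.M * k') =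
      α ^ (T.M * k) * β ^ (T.M * k') * α ^ (T.M * (k' - k)) := by
    rw [mul_pow]
    conv_lhs => rw [h2, pow_add α]
    rw [← h2]
    ring
  rw [h4]
  ring

/-- the canonical chart covers a smaller copy of the chart -/
theorem cn_cov {c : Ch T.m} (hc : T.Valid c) {R : ℝ} (hR : 0 < R) :
    ∃ r' > 0, ∃ δ > 0, ∀ p : ℂ × ℂ, ‖p.1‖ ≤ r' → ‖p.2‖ ≤ r' → ‖(T.map c p).1‖ < δ →
      ∃ p' : ℂ × ℂ, ‖p'.1‖ ≤ R ∧ ‖p'.2‖ ≤ R ∧ T.map (cn T c) p' = T.map c p := by
  cases c with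
  | leg i => exact ⟨R, hR, 1, one_pos, fun p h1 h2 _ => ⟨p, h1, h2, rfl⟩⟩
  | vert j k w =>
    set i := rep T j k with hi
    have he : Eqv T k j i := rep_eqv T j k
    have hcont : ContinuousAt (sh T k j i) 0 := (sh_an T 0 (zero_mem_sD T)).continuousAt
    have h1 : ∀ᶠ s in 𝓝 (0 : ℂ), s ∈ sD T ∧ ‖sh T k j i s - sh T k j i 0‖ ≤ R / 2 := by
      refine (sD_ev T).and ?_
      have := hcont.tendsto.eventually (closedBall_mem_nhds _ (half_pos hR))
      filter_upwards [this] with s hs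
      rwa [← dist_eq_norm]
    obtain ⟨δ, hδ, hball⟩ := Metric.eventually_nhds_iff.1 h1
    refine ⟨R / 2, half_pos hR, δ, hδ, ?_⟩
    rintro ⟨s, β⟩ h2 h3 h4
    have h5 : ‖s‖ < δ := h4
    obtain ⟨h6, h7⟩ := hball (y := s) (by rwa [dist_zero_right])
    refine ⟨(s, β + sh T k j i s - sh T k j i 0), ?_, ?_, map_vert T he h6⟩
    · exact h2.trans (by linarith)
    · have h8 : β + sh T k j i s - sh T k j i 0 = β + (sh T k j i s - sh T k j i 0) := by ring
      show ‖β + sh T k j i s - sh T k j i 0‖ ≤ R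
      rw [h8]
      refine (norm_add_le _ _).trans ?_
      have h9 : ‖β‖ ≤ R / 2 := h3
      linarith
  | edge j k k' =>
    set i := rep T j k' with hi
    have he : Eqv T k' j i := rep_eqv T j k'
    have hk : k < k' := hc.2.2.1
    have hn : T.M * (k' - k) ≠ 0 := (Nat.mul_pos T.M_pos (by omega)).ne'
    have hcont : ContinuousAt (fun q : ℂ × ℂ => q.1 ^ (T.M * (k' - k)) * sh T k' j i q.2) (0, 0) := by
      refine (continuousAt_fst.pow _).mul ?_
      exact ContinuousAt.comp (g := sh T k' j i) (f := fun q : ℂ × ℂ => q.2)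
        (sh_an T 0 (zero_mem_sD T)).continuousAt continuousAt_snd
    have h0 : ∀ᶠ q in 𝓝 ((0 : ℂ), (0 : ℂ)), q.2 ∈ sD T ∧
        ‖q.1 ^ (T.M * (k' - k)) * sh T k' j i q.2‖ ≤ 1 / 2 := by
      refine ((continuous_snd.tendsto ((0 : ℂ), (0 : ℂ))).eventually (sD_ev T)).and ?_
      have h1 := hcont.tendsto.norm.eventually (eventually_le_nhds
        (show ‖(0 : ℂ) ^ (T.M * (k' - k)) * sh T k' j i 0‖ < 1 / 2 by
          rw [zero_pow hn, zero_mul, norm_zero]; norm_num))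
      exact h1
    obtain ⟨δ, hδ, hball⟩ := Metric.eventually_nhds_iff.1 h0
    refine ⟨min (R / 2) (δ / 2), lt_min (half_pos hR) (half_pos hδ), δ, hδ, ?_⟩
    rintro ⟨α, β⟩ h2 h3 h4
    have h5 : ‖α * β‖ < δ := h4
    have h2' : ‖α‖ ≤ min (R / 2) (δ / 2) := h2
    have h3' : ‖β‖ ≤ min (R / 2) (δ / 2) := h3
    have h6 : ‖α‖ < δ := (h2'.trans (min_le_right _ _)).trans_lt (by linarith)
    obtain ⟨h7, h8⟩ := hball (y := (α, α * β)) (by
      rw [Prod.dist_eq, max_lt_iff]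
      simp only [dist_zero_right]
      exact ⟨h6, h5⟩)
    simp only at h7 h8
    obtain ⟨e, hE⟩ := IsAlgClosed.exists_pow_nat_eq
      (1 + α ^ (T.M * (k' - k)) * sh T k' j i (α * β)) (Nat.pos_of_ne_zero hn)
    have h9 : ‖e‖ ^ (T.M * (k' - k)) ≤ 3 / 2 := by
      rw [← norm_pow, hE]
      refine (norm_add_le _ _).trans ?_
      rw [norm_one]
      linarith
    have h10 : 1 / 2 ≤ ‖e‖ ^ (T.M * (k' - k)) := by
      rw [← norm_pow, hE]
      have h11 : ‖(1 : ℂ)‖ ≤ ‖1 + α ^ (T.M * (k' - k)) * sh T k' j i (α * β)‖ +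
          ‖α ^ (T.M * (k' - k)) * sh T k' j i (α * β)‖ := by
        have h12 : (1 : ℂ) = (1 + α ^ (T.M * (k' - k)) * sh T k' j i (α * β)) -
            α ^ (T.M * (k' - k)) * sh T k' j i (α * β) := by ring
        calc ‖(1 : ℂ)‖ = ‖(1 + α ^ (T.M * (k' - k)) * sh T k' j i (α * β)) -
            α ^ (T.M * (k' - k)) * sh T k' j i (α * β)‖ := by rw [← h12]
          _ ≤ _ := norm_sub_le _ _
      rw [norm_one] at h11
      linarith
    have h13 : ‖e‖ ≤ 2 := by
      by_contra hcon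
      push Not at hcon
      have h14 : (2 : ℝ) ^ 1 ≤ ‖e‖ ^ (T.M * (k' - k)) := by
        calc (2 : ℝ) ^ 1 ≤ 2 ^ (T.M * (k' - k)) :=
              pow_le_pow_right₀ (by norm_num) (Nat.pos_of_ne_zero hn)
          _ ≤ _ := pow_le_pow_left₀ (by norm_num) hcon.le _
      linarith
    have h15 : 1 / 2 ≤ ‖e‖ := by
      by_contra hcon
      push Not at hcon
      have h16 : ‖e‖ ^ (T.M * (k' - k)) ≤ ‖e‖ ^ 1 :=
        pow_le_pow_of_le_one (norm_nonneg _) (by linarith) (Nat.pos_of_ne_zero hn)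
      linarith
    have he0 : e ≠ 0 := norm_pos_iff.1 (by linarith)
    refine ⟨(α / e, β * e), ?_, ?_, map_edge T hk he h7 he0 hE⟩
    · show ‖α / e‖ ≤ R
      rw [norm_div, div_le_iff₀ (norm_pos_iff.2 he0)]
      have h17 : ‖α‖ ≤ R / 2 := h2'.trans (min_le_left _ _)
      nlinarith
    · show ‖β * e‖ ≤ R
      rw [norm_mul]
      have h17 : ‖β‖ ≤ R / 2 := h3'.trans (min_le_left _ _)
      have h18 : ‖β‖ * ‖e‖ ≤ R / 2 * 2 :=
        mul_le_mul h17 h13 (norm_nonneg _) (by positivity)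
      linarith

/-- **canonical charts cover** -/
theorem canon (r : Ch T.m → ℝ) (hr : ∀ c, 0 < r c) :
    ∃ F : Finset (Ch T.m), (∀ c ∈ F, T.Valid c ∧ Can T c) ∧ ∃ ε > 0, ∀ s y : ℂ, ‖s‖ < ε → ‖y‖ < ε →
      (s, y) ≠ 0 → ∃ c ∈ F, ∃ p : ℂ × ℂ, ‖p.1‖ ≤ r c ∧ ‖p.2‖ ≤ r c ∧ T.map c p = (s, y) := by
  classical
  have h1 : ∀ c : Ch T.m, ∃ r' > 0, ∃ δ > 0, T.Valid c → ∀ p : ℂ × ℂ, ‖p.1‖ ≤ r' → ‖p.2‖ ≤ r' →
      ‖(T.map c p).1‖ < δ →
      ∃ p' : ℂ × ℂ, ‖p'.1‖ ≤ r (cn T c) ∧ ‖p'.2‖ ≤ r (cn T c) ∧ T.map (cn T c) p' = T.map c p := by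
    intro c
    by_cases hc : T.Valid c
    · obtain ⟨r', hr', δ, hδ, h⟩ := cn_cov T hc (hr (cn T c))
      exact ⟨r', hr', δ, hδ, fun _ => h⟩
    · exact ⟨1, one_pos, 1, one_pos, fun h => absurd h hc⟩
  choose r' hr' δ hδ h2 using h1
  obtain ⟨F, hF, ε, hε, h3⟩ := TCov554.cover T r' hr'
  obtain ⟨η, hη, hηF⟩ : ∃ η > 0, ∀ c ∈ F, η ≤ δ c := by
    rcases F.eq_empty_or_nonempty with hE | hE
    · exact ⟨1, one_pos, by simp [hE]⟩
    · refine ⟨F.inf' hE δ, (Finset.lt_inf'_iff _).2 fun c _ => hδ c, fun c hc =>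
        Finset.inf'_le _ hc⟩
  refine ⟨F.image (cn T), ?_, min ε η, lt_min hε hη, ?_⟩
  · intro c hc
    obtain ⟨c', hc', rfl⟩ := Finset.mem_image.1 hc
    exact ⟨valid_cn T (hF c' hc'), can_cn T c'⟩
  · intro s y hs hy hne
    obtain ⟨c, hc, p, hp1, hp2, hp3⟩ := h3 s y (hs.trans_le (min_le_left _ _))
      (hy.trans_le (min_le_left _ _)) hne
    obtain ⟨p', h4, h5, h6⟩ := h2 c (hF c hc) p hp1 hp2 (by
      rw [hp3]
      exact (hs.trans_le (min_le_right _ _)).trans_le (hηF c hc))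
    exact ⟨cn T c, Finset.mem_image_of_mem _ hc, p', h4, h5, by rw [h6, hp3]⟩

end Crest.Agent.R257.Can_287
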