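import Crest.Agent.R257.Fr13_808

/-!
# Row 257 (S0395), C-LOG (helper39): inequality (ii) from chart estimates

* `Frame.mr`     : `|α|^(2 ν₁)`, times `|β|^(2 ν₂)` if the second axis is exceptional
* `Frame.g_bd`   : `|g|² ≤ C mr^k` for `g ∈ ⋂ J_p`, `p < k`
* `J2_ge_of`     : `J2` from the Jacobian of two members in the chart
* `Frame.cii_of` : (ii) for all pairs from the lower bound `c mr ≤ J2` in the charts
* `Frame.cii_of_jc` : the same from `c ≤ e^{-φ_l-φ_m} |jac(q_l,q_m)|² |α|² |β|²` (`|β|^(2 ν₂ + 2)`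
  if the second axis is not exceptional)
-/

set_option autoImplicit false

open Topology Filter MeasureTheory Set Function
open Crest.AlgGeometry.Germ

noncomputable section

namespace Crest.Agent.R257.Cii_39

open Crest.Agent.R257.Defs_219
open Crest.Agent.R257.Gr1_157
open Crest.Agent.R257.Fr_808
open Crest.Agent.R257.CLog_68 (sq phq J2 a2 Sys CII fib)

variable {f : E3 → ℂ}

/-- `|α|^(2 ν₁)`, times `|β|^(2 ν₂)` if the second axis is exceptional -/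
def mr (F : Frame f) (c : F.K) (p : ℂ × ℂ) : ℝ :=
  ‖p.1‖ ^ (2 * F.nu (F.e1 c)) * (if F.e2 c = none then 1 else ‖p.2‖ ^ (2 * F.nu2 c))

variable {F : Frame f}

theorem mr_pos {c : F.K} {p : ℂ × ℂ} (h1 : p.1 ≠ 0) (h2 : p.2 ≠ 0) : 0 < mr F c p := by
  unfold mr
  have := norm_pos_iff.2 h1
  have := norm_pos_iff.2 h2
  split_ifs <;> positivity

/-- orders on `⋂ J_p` -/
theorem ord_ge {k : ℕ} (hk : 2 ≤ k) (hf : AnalyticAt ℂ f 0) {g : E3 → ℂ} (hg : AnalyticAt ℂ g 0)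
    (hJ : ∀ p : ℝ, 1 ≤ p → p < k → InJ p f g) {v : F.I → ℕ} (hv : F.Ord g v) (i : F.I) :
    (k : ℤ) * F.nu i ≤ v i := by
  obtain ⟨y, hy⟩ := F.exists_P
  have hk1 : (1 : ℝ) ≤ k := by exact_mod_cast (by omega : 1 ≤ k)
  have h1 := hv.ge_of_InJ hf hy hg hk1 (fun h => by
    have : k = 1 := by exact_mod_cast h
    omega) hJ i
  have h2 := hy.ge i
  have h3 : (k : ℝ) * F.nu i ≤ v i :=
    (mul_le_mul_of_nonneg_left h2 (by positivity)).trans h1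
  exact_mod_cast h3

theorem pow_le_zpow {t : ℝ} (h0 : 0 < t) (h1 : t ≤ 1) {n : ℕ} {ν : ℤ} {k : ℕ}
    (h : (k : ℤ) * ν ≤ n) : t ^ (2 * n) ≤ (t ^ (2 * ν)) ^ k := by
  have e1 : t ^ (2 * n) = t ^ (2 * (n : ℤ)) := by
    rw [← zpow_natCast]
    push_cast
    rfl
  have e2 : (t ^ (2 * ν)) ^ k = t ^ (2 * ((k : ℤ) * ν)) := by
    rw [← zpow_natCast, ← zpow_mul]
    congr 1
    ring
  rw [e1, e2]
  exact zpow_le_zpow_right_of_le_one₀ h0 h1 (by linarith)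

/-- upper bound for the elements of `⋂ J_p` -/
theorem g_bd {k : ℕ} (hk : 2 ≤ k) (hf : AnalyticAt ℂ f 0) {g : E3 → ℂ} (hg : AnalyticAt ℂ g 0)
    (hJ : ∀ p : ℝ, 1 ≤ p → p < k → InJ p f g) {c : F.K} {p₀ : ℂ × ℂ} (hp₀ : p₀ ∈ F.SF c) :
    ∃ C : ℝ, 0 ≤ C ∧ ∀ᶠ p in 𝓝 p₀, p ∈ BD → p.1 ≠ 0 → p.2 ≠ 0 →
      ‖g (F.th c p)‖ ^ 2 ≤ C * mr F c p ^ k := by
  by_cases hne : ∃ᶠ x in 𝓝 (0 : E3), f x = 0 ∧ g x ≠ 0
  · obtain ⟨v, hv⟩ := F.exists_Ord hg hne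
    obtain ⟨G, hG, -⟩ := hv.2 c p₀ hp₀
    have hGb : ∀ᶠ p in 𝓝 p₀, ‖G p‖ < ‖G p₀‖ + 1 :=
      hG.1.continuousAt.norm.eventually_lt continuousAt_const (by linarith)
    refine ⟨(‖G p₀‖ + 1) ^ 2, by positivity, ?_⟩
    filter_upwards [hG.2, hGb] with p h1 h2 hB hp1 hp2
    have n1 := norm_pos_iff.2 hp1
    have n2 := norm_pos_iff.2 hp2
    rw [h1, norm_mul, mul_pow]
    have h3 : ‖F.mo v c p‖ ^ 2 ≤ mr F c p ^ k := by
      unfold Frame.mo mr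
      rw [norm_mul, norm_pow, norm_pow, mul_pow, mul_pow, ← pow_mul, ← pow_mul,
        mul_comm (v (F.e1 c)) 2, mul_comm (ex2 v (F.e2 c)) 2]
      have h4 := pow_le_zpow n1 hB.1 (ord_ge hk hf hg hJ hv (F.e1 c))
      refine mul_le_mul h4 ?_ (by positivity) (by positivity)
      rcases he : F.e2 c with _ | i
      · simp [ex2]
      · have h5 := pow_le_zpow n2 hB.2 (ord_ge hk hf hg hJ hv i)
        simp only [ex2, Option.elim, reduceCtorEq, if_false]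
        rw [F.nu2_some c i he]
        exact h5
    have h4 : ‖G p‖ ^ 2 ≤ (‖G p₀‖ + 1) ^ 2 := pow_le_pow_left₀ (norm_nonneg _) h2.le 2
    calc ‖F.mo v c p‖ ^ 2 * ‖G p‖ ^ 2 ≤ mr F c p ^ k * (‖G p₀‖ + 1) ^ 2 :=
          mul_le_mul h3 h4 (by positivity) (pow_nonneg (mr_pos hp1 hp2).le _)
      _ = _ := by ring
  · rw [not_frequently] at hne
    refine ⟨0, le_rfl, ?_⟩
    have hcont : ContinuousAt (F.th c) p₀ := (F.an c _ hp₀.1).continuousAt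
    have hth0 := F.th_SF hp₀
    rw [← hth0] at hne
    filter_upwards [hcont.eventually hne] with p h1 hB hp1 hp2
    have h2 : g (F.th c p) = 0 := by
      by_contra hcon
      exact h1 ⟨F.onV c p hB, hcon⟩
    rw [h2]
    simp

/-- the pair -/
theorem pair_bd {k : ℕ} (hk : 2 ≤ k) (hf : AnalyticAt ℂ f 0) {g h : E3 → ℂ}
    (hg : AnalyticAt ℂ g 0) (hh : AnalyticAt ℂ h 0)
    (hJ : ∀ p : ℝ, 1 ≤ p → p < k → InJ p f g ∧ InJ p f h) {c : F.K} {p₀ : ℂ × ℂ}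
    (hp₀ : p₀ ∈ F.SF c) :
    ∃ C : ℝ, 0 ≤ C ∧ ∀ᶠ p in 𝓝 p₀, p ∈ BD → p.1 ≠ 0 → p.2 ≠ 0 →
      (‖g (F.th c p)‖ ^ 2 + ‖h (F.th c p)‖ ^ 2) ^ (1 / (k : ℝ)) ≤ C * mr F c p := by
  obtain ⟨C₁, hC₁, h1⟩ := g_bd (F := F) hk hf hg (fun p a b => (hJ p a b).1) hp₀
  obtain ⟨C₂, hC₂, h2⟩ := g_bd (F := F) hk hf hh (fun p a b => (hJ p a b).2) hp₀
  have hk0 : (k : ℝ) ≠ 0 := by
    have : (0 : ℝ) < k := by exact_mod_cast (by omega : 0 < k)
    exact this.ne'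
  refine ⟨(C₁ + C₂) ^ (1 / (k : ℝ)), by positivity, ?_⟩
  filter_upwards [h1, h2] with p h3 h4 hB hp1 hp2
  have h5 := h3 hB hp1 hp2
  have h6 := h4 hB hp1 hp2
  have hm := mr_pos (c := c) hp1 hp2
  have h7 : ‖g (F.th c p)‖ ^ 2 + ‖h (F.th c p)‖ ^ 2 ≤ (C₁ + C₂) * mr F c p ^ k := by
    rw [add_mul]
    exact add_le_add h5 h6
  refine (Real.rpow_le_rpow (by positivity) h7 (by positivity)).trans (le_of_eq ?_)
  rw [Real.mul_rpow (by positivity) (by positivity), ← Real.rpow_natCast, ← Real.rpow_mul hm.le,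
    mul_one_div_cancel hk0, Real.rpow_one]

/-- **(ii) for all pairs from the chart estimates** -/
theorem cii_of (hf : AnalyticAt ℂ f 0) (F : Frame f) {L : ℕ} {q : Fin L → E3 → ℂ}
    {s : Fin L → ℕ} (hS : Sys f q s)
    (hloc : ∀ c, ∀ p₀ ∈ F.SF c, ∃ c₀ : ℝ, 0 < c₀ ∧ ∀ᶠ p in 𝓝 p₀, p.1 ≠ 0 → p.2 ≠ 0 →
      c₀ * mr F c p ≤ J2 f q s (F.th c p))
    {k : ℕ} {g h : E3 → ℂ} (hk : 2 ≤ k) (hg : AnalyticAt ℂ g 0) (hh : AnalyticAt ℂ h 0)
    (hJ : ∀ p : ℝ, 1 ≤ p → p < k → InJ p f g ∧ InJ p f h) : CII f g h k q s := by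
  have hkp : (0 : ℝ) ≤ 1 / (k : ℝ) := by positivity
  obtain ⟨C, hC⟩ := F.glob
    (fun C x => (‖g x‖ ^ 2 + ‖h x‖ ^ 2) ^ (1 / (k : ℝ)) ≤ C * J2 f q s x)
    (fun C C' x hCC h => h.trans (mul_le_mul_of_nonneg_right hCC (J2_nonneg f q s x)))
    (fun c p₀ hp₀ => by
      obtain ⟨c₀, hc₀, h1⟩ := hloc c p₀ hp₀
      obtain ⟨C, hC, h2⟩ := pair_bd (F := F) hk hf hg hh hJ hp₀
      refine ⟨C / c₀, ?_⟩
      have hcont : ContinuousAt (F.th c) p₀ := (F.an c _ hp₀.1).continuousAt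
      have hth0 := F.th_SF hp₀
      have hto : ∀ {P : E3 → Prop}, (∀ᶠ x in 𝓝 (0 : E3), P x) → ∀ᶠ p in 𝓝 p₀, P (F.th c p) := by
        intro P hP
        rw [← hth0] at hP
        exact hcont.eventually hP
      have hmain : ∀ᶠ p in 𝓝 p₀, p.1 ≠ 0 → p.2 ≠ 0 → p ∈ BD →
          (‖g (F.th c p)‖ ^ 2 + ‖h (F.th c p)‖ ^ 2) ^ (1 / (k : ℝ)) ≤
            C / c₀ * J2 f q s (F.th c p) := by
        filter_upwards [h1, h2] with p h3 h4 hp1 hp2 hB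
        refine (h4 hB hp1 hp2).trans ?_
        rw [div_mul_eq_mul_div, le_div_iff₀ hc₀]
        calc C * mr F c p * c₀ = C * (c₀ * mr F c p) := by ring
          _ ≤ C * J2 f q s (F.th c p) := mul_le_mul_of_nonneg_left (h3 hp1 hp2) hC
      filter_upwards [hmain, hmain.eventually_nhds,
        (F.an c _ hp₀.1).eventually_analyticAt, hto hf.eventually_analyticAt,
        hto hg.eventually_analyticAt, hto hh.eventually_analyticAt,
        hto (Filter.eventually_all.2 fun l => (hS.an l).eventually_analyticAt),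
        hto (sys_pos hS)] with p h1 h1' h2 h3 h4 h5 h6 h7 hB hSF
      obtain ⟨hp1, -⟩ := F.off hB hSF
      by_cases hp2 : p.2 ≠ 0
      · exact h1 hp1 hp2 hB
      · -- by continuity
        have hp2' : p.2 = 0 := not_not.1 hp2
        have hs := h7 (F.th_ne hB hSF) (F.onV c p hB)
        have hc1 : ContinuousAt (fun p => (‖g (F.th c p)‖ ^ 2 + ‖h (F.th c p)‖ ^ 2) ^
            (1 / (k : ℝ))) p := by
          refine ContinuousAt.rpow_const (ContinuousAt.add ?_ ?_) (Or.inr hkp)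
          · exact (ContinuousAt.comp (g := g) (f := F.th c) h4.continuousAt
              h2.continuousAt).norm.pow 2
          · exact (ContinuousAt.comp (g := h) (f := F.th c) h5.continuousAt
              h2.continuousAt).norm.pow 2
        have hc2 : ContinuousAt (fun p => C / c₀ * J2 f q s (F.th c p)) p :=
          continuousAt_const.mul
            (ContinuousAt.comp (g := J2 f q s) (f := F.th c) (J2_cont h3 h6 hs) h2.continuousAt)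
        have hto' : Tendsto (fun t : ℝ => (p.1, (t : ℂ))) (𝓝[>] 0) (𝓝 p) := by
          have h8 : ContinuousAt (fun t : ℝ => (p.1, (t : ℂ))) 0 := by fun_prop
          have h9 : (p.1, ((0 : ℝ) : ℂ)) = p := Prod.ext rfl (by simp [hp2'])
          have h10 := h8.tendsto
          simp only [h9] at h10
          exact h10.mono_left nhdsWithin_le_nhds
        refine le_of_tendsto_of_tendsto (hc1.tendsto.comp hto') (hc2.tendsto.comp hto') ?_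
        have h8 : ∀ᶠ t : ℝ in 𝓝[>] 0, t < 1 :=
          Filter.Eventually.filter_mono nhdsWithin_le_nhds (eventually_lt_nhds one_pos)
        filter_upwards [hto'.eventually h1', h8, self_mem_nhdsWithin] with t h9 h10 h11
        have h11' : (0 : ℝ) < t := h11
        refine h9 hp1 (by simpa using h11'.ne') ⟨hB.1, ?_⟩
        simp only [Complex.norm_real, Real.norm_eq_abs, abs_of_pos h11']
        exact h10.le)
  obtain ⟨r, hr, hball⟩ := Metric.eventually_nhds_iff_ball.1 hC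
  have hD : 0 < max C 1 := lt_of_lt_of_le one_pos (le_max_right _ _)
  refine ⟨(max C 1)⁻¹, r, inv_pos.2 hD, hr, fun x hx hfx hx0 => ?_⟩
  have h1 := hball x (by simpa using hx) hx0 hfx
  rw [inv_mul_le_iff₀ hD]
  exact h1.trans (mul_le_mul_of_nonneg_right (le_max_left _ _) (J2_nonneg f q s x))

/-- `e^{-φ_l-φ_m} |{q_l, q_m}|² ≤ J2` -/
theorem term_le_J2 {L : ℕ} (q : Fin L → E3 → ℂ) (s : Fin L → ℕ) (l m : Fin L) (x : E3)
    (hlm : l ≠ m) :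
    Real.exp (-(phq q s l x + phq q s m x)) * ‖Dt f (q l) (q m) x‖ ^ 2 ≤ J2 f q s x := by
  have hsymm : ∀ l m, ‖Dt f (q l) (q m) x‖ = ‖Dt f (q m) (q l) x‖ := by
    intro l m
    have : Dt f (q l) (q m) x = - Dt f (q m) (q l) x := by
      unfold Dt
      rw [Matrix.det_fin_three, Matrix.det_fin_three]
      simp only [Matrix.of_apply, Matrix.cons_val_zero, Matrix.cons_val_one, Matrix.cons_val]
      ring
    rw [this, norm_neg]
  unfold J2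
  set T : Fin L → Fin L → ℝ := fun l m =>
    Real.exp (-(phq q s l x + phq q s m x)) * ‖Dt f (q l) (q m) x‖ ^ 2 with hT
  have hT0 : ∀ l m, 0 ≤ T l m := fun l m => by positivity
  have hTs : T l m = T m l := by
    show Real.exp (-(phq q s l x + phq q s m x)) * ‖Dt f (q l) (q m) x‖ ^ 2 =
      Real.exp (-(phq q s m x + phq q s l x)) * ‖Dt f (q m) (q l) x‖ ^ 2
    rw [add_comm, hsymm]
  have h1 : T l m + T m l ≤ ∑ l, ∑ m, T l m := by
    have h2 : T l m ≤ ∑ m, T l m := Finset.single_le_sum (fun m _ => hT0 l m) (Finset.mem_univ m)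
    have h3 : T m l ≤ ∑ l, T m l := Finset.single_le_sum (fun l _ => hT0 m l) (Finset.mem_univ l)
    have h4 : (∑ j, T l j) + ∑ j, T m j ≤ ∑ i, ∑ j, T i j := by
      have := Finset.add_le_sum (s := Finset.univ) (f := fun i => ∑ j, T i j)
        (fun i _ => Finset.sum_nonneg fun j _ => hT0 i j) (Finset.mem_univ l)
        (Finset.mem_univ m) hlm
      exact this
    linarith
  show T l m ≤ (∑ l, ∑ m, T l m) / 2
  linarith

/-- `J2` from the Jacobian in a chart -/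
theorem J2_ge_of (hf : AnalyticAt ℂ f 0) {L : ℕ} {q : Fin L → E3 → ℂ} {s : Fin L → ℕ}
    (hS : Sys f q s) {c : F.K} {p₀ : ℂ × ℂ} (hp₀ : p₀ ∈ F.SF c)
    (h : ∃ c₀ : ℝ, 0 < c₀ ∧ ∀ᶠ p in 𝓝 p₀, p.1 ≠ 0 → p.2 ≠ 0 → ∃ l m,
      c₀ ≤ Real.exp (-(phq q s l (F.th c p) + phq q s m (F.th c p))) *
        ‖jc (fun p => q l (F.th c p)) (fun p => q m (F.th c p)) p‖ ^ 2 * ‖p.1‖ ^ 2 *
        (if F.e2 c = none then ‖p.2‖ ^ (2 * F.nu2 c + 2) else ‖p.2‖ ^ 2)) :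
    ∃ c₀ : ℝ, 0 < c₀ ∧ ∀ᶠ p in 𝓝 p₀, p.1 ≠ 0 → p.2 ≠ 0 →
      c₀ * mr F c p ≤ J2 f q s (F.th c p) := by
  obtain ⟨c₀, hc₀, h1⟩ := h
  have hcont : ContinuousAt (F.th c) p₀ := (F.an c _ hp₀.1).continuousAt
  have hth0 := F.th_SF hp₀
  have hto : ∀ {P : E3 → Prop}, (∀ᶠ x in 𝓝 (0 : E3), P x) → ∀ᶠ p in 𝓝 p₀, P (F.th c p) := by
    intro P hP
    rw [← hth0] at hP
    exact hcont.eventually hP
  obtain ⟨U, hU, hU0, hj⟩ := F.jac c p₀ hp₀
  have hUb : ∀ᶠ p in 𝓝 p₀, ‖U p‖ < ‖U p₀‖ + 1 :=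
    hU.continuousAt.norm.eventually_lt continuousAt_const (by linarith)
  set D : ℝ := (‖U p₀‖ + 1) ^ 2 with hD
  have hD0 : 0 < D := by positivity
  refine ⟨c₀ / D, by positivity, ?_⟩
  filter_upwards [h1, hUb, hj, hU.continuousAt.eventually_ne hU0,
    (F.an c _ hp₀.1).eventually_analyticAt, hto hf.eventually_analyticAt,
    hto (Filter.eventually_all.2 fun l => (hS.an l).eventually_analyticAt),
    (F.onV' hf hp₀).eventually_nhds] with p h2 h3 h4 h5 h6 h7 h8 h9 hp1 hp2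
  obtain ⟨l, m, h10⟩ := h2 hp1 hp2
  obtain ⟨h11, h12⟩ := h4 hp1 hp2
  have n1 := norm_pos_iff.2 hp1
  have n2 := norm_pos_iff.2 hp2
  have e1 := jc_eq h6.differentiableAt h7.differentiableAt (h8 l).differentiableAt
    (h8 m).differentiableAt h9
  -- `|jc|² = |Dt|² |α|^(-2ν-2) |β|^(-2ν₂-2) |U|²`
  have e2 : jc (fun p => q l (F.th c p)) (fun p => q m (F.th c p)) p =
      Dt f (q l) (q m) (F.th c p) *
        (p.1 ^ (-F.nu (F.e1 c) - 1) * p.2 ^ (-F.nu2 c - 1) * U p) := by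
    refine mul_left_cancel₀ h11 ?_
    rw [e1, h12]
    ring
  have e3 : ‖jc (fun p => q l (F.th c p)) (fun p => q m (F.th c p)) p‖ ^ 2 * ‖p.1‖ ^ 2 *
      (if F.e2 c = none then ‖p.2‖ ^ (2 * F.nu2 c + 2) else ‖p.2‖ ^ 2) * mr F c p =
      ‖Dt f (q l) (q m) (F.th c p)‖ ^ 2 * ‖U p‖ ^ 2 := by
    rw [e2, norm_mul, norm_mul, norm_mul, norm_zpow, norm_zpow]
    unfold mr
    have a1 : (‖p.1‖ ^ (-F.nu (F.e1 c) - 1)) ^ 2 * ‖p.1‖ ^ 2 * ‖p.1‖ ^ (2 * F.nu (F.e1 c)) = 1 := by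
      rw [← zpow_natCast, ← zpow_natCast, ← zpow_mul, ← zpow_add₀ n1.ne', ← zpow_add₀ n1.ne']
      have : (-F.nu (F.e1 c) - 1) * ((2 : ℕ) : ℤ) + ((2 : ℕ) : ℤ) + 2 * F.nu (F.e1 c) = 0 := by
        push_cast; ring
      rw [this, zpow_zero]
    have a2 : (‖p.2‖ ^ (-F.nu2 c - 1)) ^ 2 *
        (if F.e2 c = none then ‖p.2‖ ^ (2 * F.nu2 c + 2) else ‖p.2‖ ^ 2) *
        (if F.e2 c = none then 1 else ‖p.2‖ ^ (2 * F.nu2 c)) = 1 := by
      split_ifs with he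
      · rw [← zpow_natCast, ← zpow_mul, mul_one, ← zpow_add₀ n2.ne']
        have : (-F.nu2 c - 1) * ((2 : ℕ) : ℤ) + (2 * F.nu2 c + 2) = 0 := by push_cast; ring
        rw [this, zpow_zero]
      · rw [← zpow_natCast, ← zpow_natCast, ← zpow_mul, ← zpow_add₀ n2.ne', ← zpow_add₀ n2.ne']
        have : (-F.nu2 c - 1) * ((2 : ℕ) : ℤ) + ((2 : ℕ) : ℤ) + 2 * F.nu2 c = 0 := by
          push_cast; ring
        rw [this, zpow_zero]
    calc _ = ‖Dt f (q l) (q m) (F.th c p)‖ ^ 2 * ‖U p‖ ^ 2 *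
          ((‖p.1‖ ^ (-F.nu (F.e1 c) - 1)) ^ 2 * ‖p.1‖ ^ 2 * ‖p.1‖ ^ (2 * F.nu (F.e1 c))) *
          ((‖p.2‖ ^ (-F.nu2 c - 1)) ^ 2 *
            (if F.e2 c = none then ‖p.2‖ ^ (2 * F.nu2 c + 2) else ‖p.2‖ ^ 2) *
            (if F.e2 c = none then 1 else ‖p.2‖ ^ (2 * F.nu2 c))) := by ring
      _ = _ := by rw [a1, a2, mul_one, mul_one]
  have hlm : l ≠ m := by
    intro hlm
    rw [hlm] at h10
    have : jc (fun p => q m (F.th c p)) (fun p => q m (F.th c p)) p = 0 := by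
      unfold jc
      ring
    rw [this] at h10
    simp at h10
    linarith
  have h13 := term_le_J2 (f := f) q s l m (F.th c p) hlm
  have hm := mr_pos (c := c) hp1 hp2
  set X := Real.exp (-(phq q s l (F.th c p) + phq q s m (F.th c p))) with hX
  have hX0 : 0 < X := Real.exp_pos _
  have h14 : c₀ * mr F c p ≤ X * (‖Dt f (q l) (q m) (F.th c p)‖ ^ 2 * ‖U p‖ ^ 2) := by
    rw [← e3]
    calc c₀ * mr F c p ≤ _ * mr F c p := mul_le_mul_of_nonneg_right h10 hm.le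
      _ = _ := by ring
  have h15 : ‖U p‖ ^ 2 ≤ D := pow_le_pow_left₀ (norm_nonneg _) h3.le 2
  rw [div_mul_eq_mul_div, div_le_iff₀ hD0]
  calc c₀ * mr F c p ≤ X * (‖Dt f (q l) (q m) (F.th c p)‖ ^ 2 * ‖U p‖ ^ 2) := h14
    _ = X * ‖Dt f (q l) (q m) (F.th c p)‖ ^ 2 * ‖U p‖ ^ 2 := by ring
    _ ≤ J2 f q s (F.th c p) * D := mul_le_mul h13 h15 (by positivity) (J2_nonneg f q s _)

/-- **(ii) for all pairs from the chart Jacobians** -/
theorem cii_of_jc (hf : AnalyticAt ℂ f 0) (F : Frame f) {L : ℕ} {q : Fin L → E3 → ℂ}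
    {s : Fin L → ℕ} (hS : Sys f q s)
    (hloc : ∀ c, ∀ p₀ ∈ F.SF c, ∃ c₀ : ℝ, 0 < c₀ ∧ ∀ᶠ p in 𝓝 p₀, p.1 ≠ 0 → p.2 ≠ 0 → ∃ l m,
      c₀ ≤ Real.exp (-(phq q s l (F.th c p) + phq q s m (F.th c p))) *
        ‖jc (fun p => q l (F.th c p)) (fun p => q m (F.th c p)) p‖ ^ 2 * ‖p.1‖ ^ 2 *
        (if F.e2 c = none then ‖p.2‖ ^ (2 * F.nu2 c + 2) else ‖p.2‖ ^ 2))
    {k : ℕ} {g h : E3 → ℂ} (hk : 2 ≤ k) (hg : AnalyticAt ℂ g 0) (hh : AnalyticAt ℂ h 0)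
    (hJ : ∀ p : ℝ, 1 ≤ p → p < k → InJ p f g ∧ InJ p f h) : CII f g h k q s :=
  cii_of hf F hS (fun c p₀ hp₀ => J2_ge_of hf hS hp₀ (hloc c p₀ hp₀)) hk hg hh hJ

end Crest.Agent.R257.Cii_39
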