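import Crest.Agent.R257.Kp5_405

/-!
R257 / Cl2A_475: plane germs `q` with `q = O(|w|³)`, smooth zero set off `0`, `q(0,·)` of order 3:
either `q` has an Euler field of trace `1/2 + 1/h`, or, up to a unit and a shear,
`q = y³ + z⁴ b₄(z) y + z⁶ c₆(z)`.  (Classification of Kp5_405 without integrability.)
-/

set_option autoImplicit false
set_option linter.unusedSectionVars false
set_option linter.deprecated false

open Set Filter Topology Metric MeasureTheory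
open scoped ENNReal

noncomputable section

namespace Crest.Agent.R257.Cl2_475

open Crest.Agent.R257.Kp_405

/-- the zero set is smooth off the origin -/
def NS (p : ℂ × ℂ → ℂ) : Prop := ∀ᶠ w in 𝓝 (0 : ℂ × ℂ), w ≠ 0 → p w = 0 → fderiv ℂ p w ≠ 0

lemma NS.congr {p q : ℂ × ℂ → ℂ} (h : NS p) (he : p =ᶠ[𝓝 0] q) : NS q := by
  unfold NS at *
  filter_upwards [h, he, he.fderiv (𝕜 := ℂ)] with w a b c h0 h1
  rw [← c]
  exact a h0 (by rw [b, h1])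

lemma NS.of_unit_mul {p u : ℂ × ℂ → ℂ} (hp : AnalyticAt ℂ p 0) (hu : AnalyticAt ℂ u 0)
    (h : NS (fun w => u w * p w)) : NS p := by
  unfold NS at *
  filter_upwards [h, hp.eventually_analyticAt, hu.eventually_analyticAt] with w a b c h0 h1 h2
  refine a h0 (by simp [h1]) ?_
  have e1 := c.differentiableAt.hasFDerivAt.mul b.differentiableAt.hasFDerivAt
  have e2 : fderiv ℂ (fun w => u w * p w) w = u w • fderiv ℂ p w + p w • fderiv ℂ u w := e1.fderiv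
  rw [e2, h1, h2]
  ext v <;> simp

lemma NS.comp {p : ℂ × ℂ → ℂ} (hp : AnalyticAt ℂ p 0) (h : NS p) {Φ Ψ : ℂ × ℂ → ℂ × ℂ}
    (hL : LB Φ Ψ) : NS (fun w => p (Φ w)) := by
  unfold NS at *
  filter_upwards [hL.tendsto.eventually h, hL.left, hL.fderiv_comp, hL.an.eventually_analyticAt,
    hL.tendsto.eventually hp.eventually_analyticAt] with w a b c d e h0 h1 h2
  have hne : Φ w ≠ 0 := by
    intro h3
    rw [h3, hL.map0'] at b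
    exact h0 b.symm
  refine a hne h1 ?_
  have e1 : HasFDerivAt (fun w => p (Φ w)) ((fderiv ℂ p (Φ w)).comp (fderiv ℂ Φ w)) w :=
    e.differentiableAt.hasFDerivAt.comp w d.differentiableAt.hasFDerivAt
  rw [e1.fderiv] at h2
  ext v
  · have h3 := congrArg (fun T : ℂ × ℂ →L[ℂ] ℂ × ℂ => T (1, 0)) c
    simp only [ContinuousLinearMap.comp_apply, ContinuousLinearMap.id_apply] at h3
    have h4 := congrArg (fun T : ℂ × ℂ →L[ℂ] ℂ => T (fderiv ℂ Ψ (Φ w) (1, 0))) h2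
    simp only [ContinuousLinearMap.comp_apply, ContinuousLinearMap.zero_apply] at h4
    rw [h3] at h4
    simpa using h4
  · have h3 := congrArg (fun T : ℂ × ℂ →L[ℂ] ℂ × ℂ => T (0, 1)) c
    simp only [ContinuousLinearMap.comp_apply, ContinuousLinearMap.id_apply] at h3
    have h4 := congrArg (fun T : ℂ × ℂ →L[ℂ] ℂ => T (fderiv ℂ Ψ (Φ w) (0, 1))) h2
    simp only [ContinuousLinearMap.comp_apply, ContinuousLinearMap.zero_apply] at h4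
    rw [h3] at h4
    simpa using h4

/-- the case D -/
theorem ns_D {B : ℂ → ℂ} (hB : AnalyticAt ℂ B 0) (hB0 : B 0 = 0)
    (hK : NS (fun w : ℂ × ℂ => w.1 * (w.2 ^ 2 + B w.1))) :
    PRes (fun w : ℂ × ℂ => w.1 * (w.2 ^ 2 + B w.1)) := by
  have hne : ¬ ∀ᶠ y in 𝓝 (0 : ℂ), B y = 0 := by
    intro h0
    have h1 : (fun w : ℂ × ℂ => w.1 * (w.2 ^ 2 + B w.1)) =ᶠ[𝓝 0]
        fun w : ℂ × ℂ => w.1 * w.2 ^ 2 := by
      filter_upwards [ev_fst h0] with w hw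
      rw [hw, add_zero]
    have h2 := hK.congr h1
    unfold NS at h2
    have t1 : Tendsto (fun y : ℂ => (y, (0 : ℂ))) (𝓝 0) (𝓝 (0 : ℂ × ℂ)) :=
      (by fun_prop : Continuous (fun y : ℂ => (y, (0 : ℂ)))).tendsto' _ _ rfl
    have h3 : ∀ᶠ y in 𝓝[≠] (0 : ℂ), y ≠ 0 ∧ ((y, (0 : ℂ)) ≠ 0 →
        (fun w : ℂ × ℂ => w.1 * w.2 ^ 2) (y, 0) = 0 →
        fderiv ℂ (fun w : ℂ × ℂ => w.1 * w.2 ^ 2) (y, 0) ≠ 0) :=
      (eventually_mem_nhdsWithin).and ((t1.eventually h2).filter_mono nhdsWithin_le_nhds)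
    obtain ⟨y, hy0, hy⟩ := h3.exists
    refine hy (by simpa using hy0) (by simp) ?_
    have e2 : HasFDerivAt (fun w : ℂ × ℂ => w.2 ^ 2)
        ((2 * (y, (0 : ℂ)).2) • (ContinuousLinearMap.snd ℂ ℂ ℂ)) (y, 0) := by
      have := (hasFDerivAt_snd (𝕜 := ℂ) (E := ℂ) (F := ℂ) (p := (y, (0 : ℂ)))).pow 2
      refine this.congr_fderiv ?_
      ext v <;> simp
    have e3 : HasFDerivAt (fun w : ℂ × ℂ => w.1 * w.2 ^ 2) _ (y, 0) :=
      (hasFDerivAt_fst (𝕜 := ℂ) (E := ℂ) (F := ℂ) (p := (y, (0 : ℂ)))).mul e2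
    rw [e3.fderiv]
    ext v <;> simp
  obtain ⟨n, g, hg, hg0, he⟩ := exists_ord hB hB0 hne
  exact model_D hg hg0 hB he

/-- transfer from the sheared model -/
theorem ns_shear {M : ℂ × ℂ → ℂ} (hM : AnalyticAt ℂ M 0) (hres : NS M → PRes M) {θ : ℂ → ℂ}
    (hθ : AnalyticAt ℂ θ 0) (h0 : θ 0 = 0) (hK : NS (fun w => M (shear θ w))) :
    PRes (fun w => M (shear θ w)) := by
  have hL := LB_shear hθ h0
  have hMs : AnalyticAt ℂ (fun w => M (shear θ w)) 0 := by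
    refine AnalyticAt.comp (g := M) (f := shear θ) ?_ hL.an
    rw [hL.map0]; exact hM
  have h1 : NS (fun w => (fun w => M (shear θ w)) (shear (fun z => - θ z) w)) :=
    hK.comp hMs hL.symm
  have h2 : NS M := h1.congr (by
    filter_upwards [hL.right] with w hw
    simp only [hw])
  exact (hres h2).comp hM hL

/-- transfer from `F = u M` -/
theorem ns_unit {F M u : ℂ × ℂ → ℂ} (hM : AnalyticAt ℂ M 0) (hres : NS M → PRes M)
    (hu : AnalyticAt ℂ u 0) (hu0 : u 0 ≠ 0) (he : ∀ᶠ w in 𝓝 (0 : ℂ × ℂ), F w = u w * M w)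
    (hK : NS F) : PRes F := by
  have h1 : NS (fun w => u w * M w) := hK.congr he
  have h2 : NS M := NS.of_unit_mul hM hu h1
  refine ((hres h2).unit_mul hM hu hu0).congr ?_
  filter_upwards [he] with w hw using hw.symm

theorem ns_simple {b c β γ : ℂ → ℂ} (hβ : AnalyticAt ℂ β 0) (hγ : AnalyticAt ℂ γ 0)
    (hb : AnalyticAt ℂ b 0) (hc : AnalyticAt ℂ c 0)
    (hbe : ∀ᶠ y in 𝓝 (0 : ℂ), b y = y ^ 2 * β y) (hce : ∀ᶠ y in 𝓝 (0 : ℂ), c y = y ^ 3 * γ y)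
    (h : β 0 ≠ 0 ∨ γ 0 ≠ 0) (hK : NS (fun w : ℂ × ℂ => w.2 ^ 3 + b w.1 * w.2 + c w.1)) :
    PRes (fun w : ℂ × ℂ => w.2 ^ 3 + b w.1 * w.2 + c w.1) := by
  obtain ⟨ρ, h1, h2⟩ := exists_simple_root h
  obtain ⟨σ, hσ, hσ0, hσe⟩ := exists_root_fun hβ hγ h1 h2
  set M : ℂ × ℂ → ℂ := fun w => w.2 ^ 3 + b w.1 * w.2 + c w.1 with hM
  have hMa : AnalyticAt ℂ M 0 :=
    ((analyticAt_snd.pow 3).add ((an_fst hb).mul analyticAt_snd)).add (an_fst hc)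
  set θ : ℂ → ℂ := fun y => y * σ y with hθ
  have hθa : AnalyticAt ℂ θ 0 := analyticAt_id.mul hσ
  have hθ0 : θ 0 = 0 := by simp [hθ]
  -- the change of variables
  set R : ℂ × ℂ → ℂ := fun w => w.1 ^ 2 + 3 * θ w.2 * w.1 + (3 * θ w.2 ^ 2 + b w.2) with hR
  have hθs : AnalyticAt ℂ (fun w : ℂ × ℂ => θ w.2) 0 :=
    AnalyticAt.comp (g := θ) (f := Prod.snd) hθa analyticAt_snd
  have hbs : AnalyticAt ℂ (fun w : ℂ × ℂ => b w.2) 0 :=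
    AnalyticAt.comp (g := b) (f := Prod.snd) hb analyticAt_snd
  have hRa : AnalyticAt ℂ R 0 :=
    ((analyticAt_fst.pow 2).add ((analyticAt_const.mul hθs).mul analyticAt_fst)).add
      ((analyticAt_const.mul (hθs.pow 2)).add hbs)
  have hord : analyticOrderAt (fun w : ℂ => R (0, w)) 0 = 2 := by
    have ha : AnalyticAt ℂ (fun w : ℂ => R (0, w)) 0 :=
      AnalyticAt.comp (g := R) (f := fun w : ℂ => ((0 : ℂ), w)) hRa
        (analyticAt_const.prod analyticAt_id)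
    have h3 : analyticOrderAt (fun w : ℂ => R (0, w)) 0 = ((2 : ℕ) : ℕ∞) := by
      rw [ha.analyticOrderAt_eq_natCast]
      refine ⟨fun s => 3 * σ s ^ 2 + β s, (analyticAt_const.mul (hσ.pow 2)).add hβ, ?_, ?_⟩
      · change 3 * σ 0 ^ 2 + β 0 ≠ 0
        rw [hσ0]; exact h2
      · filter_upwards [hbe] with s hs
        simp only [hR, hs, hθ, sub_zero, smul_eq_mul]
        ring
    exact_mod_cast h3
  -- `M ∘ shear θ ∘ swap = ξ R`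
  have hcomp : ∀ᶠ w in 𝓝 (0 : ℂ × ℂ), M (shear θ (Prod.swap w)) = w.1 * R w := by
    have h4 : ∀ᶠ w in 𝓝 (0 : ℂ × ℂ), b w.2 = w.2 ^ 2 * β w.2 ∧ c w.2 = w.2 ^ 3 * γ w.2 ∧
        σ w.2 ^ 3 + β w.2 * σ w.2 + γ w.2 = 0 := by
      have t1 : Tendsto (Prod.snd : ℂ × ℂ → ℂ) (𝓝 0) (𝓝 0) := continuous_snd.tendsto' _ _ rfl
      filter_upwards [t1.eventually hbe, t1.eventually hce, t1.eventually hσe] with w a1 a2 a3
        using ⟨a1, a2, a3⟩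
    filter_upwards [h4] with w hw
    obtain ⟨e1, e2, e3⟩ := hw
    simp only [hM, hR, shear, Prod.swap, hθ, e1, e2]
    linear_combination (w.2 ^ 3) * e3
  have hL1 := LB_shear hθa hθ0
  have hL2 : LB (fun w : ℂ × ℂ => shear θ (Prod.swap w))
      (fun w : ℂ × ℂ => Prod.swap (shear (fun z => - θ z) w)) := hL1.comp LB_swap
  -- it suffices to treat `ξ R`
  have hfin : NS (fun w : ℂ × ℂ => w.1 * R w) → PRes (fun w : ℂ × ℂ => w.1 * R w) := by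
    intro hK'
    obtain ⟨u, a₀, a₁, hu, hu0, ha₀, ha₁, h00, h10, he⟩ := wprep2 hRa hord
    set B : ℂ → ℂ := fun y => a₀ y - a₁ y ^ 2 / 4 with hB
    have hBa : AnalyticAt ℂ B 0 := ha₀.sub ((ha₁.pow 2).div analyticAt_const (by norm_num))
    have hB0 : B 0 = 0 := by simp [hB, h00, h10]
    have hθ' : AnalyticAt ℂ (fun y => a₁ y / 2) 0 := ha₁.div analyticAt_const (by norm_num)
    have hθ0' : a₁ 0 / 2 = 0 := by simp [h10]
    have hN : AnalyticAt ℂ (fun w : ℂ × ℂ => w.1 * (w.2 ^ 2 + B w.1)) 0 :=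
      analyticAt_fst.mul (an_A hBa)
    have hNs : AnalyticAt ℂ (fun w : ℂ × ℂ => (fun v : ℂ × ℂ => v.1 * (v.2 ^ 2 + B v.1))
        (shear (fun y => a₁ y / 2) w)) 0 := by
      refine AnalyticAt.comp (g := fun v : ℂ × ℂ => v.1 * (v.2 ^ 2 + B v.1))
        (f := shear (fun y => a₁ y / 2)) ?_ (LB_shear hθ' hθ0').an
      rw [(LB_shear hθ' hθ0').map0]; exact hN
    refine ns_unit hNs (fun h => ns_shear hN (ns_D hBa hB0) hθ' hθ0' h) hu hu0 ?_ hK'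
    filter_upwards [he] with w hw
    rw [hw]
    simp only [shear, hB]
    ring
  -- transfer
  have hK1 : NS (fun w : ℂ × ℂ => w.1 * R w) := (hK.comp hMa hL2).congr hcomp
  have h5 := hfin hK1
  have h6 : PRes (fun w : ℂ × ℂ => M (shear θ (Prod.swap w))) :=
    h5.congr (by filter_upwards [hcomp] with w hw using hw.symm)
  have hMc : AnalyticAt ℂ (fun w : ℂ × ℂ => M (shear θ (Prod.swap w))) 0 := by
    refine AnalyticAt.comp (g := M) (f := fun w : ℂ × ℂ => shear θ (Prod.swap w)) ?_ hL2.an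
    rw [hL2.map0]; exact hMa
  refine (h6.comp hMc hL2.symm).congr ?_
  filter_upwards [hL2.right] with w hw
  exact congrArg M hw

theorem ns_cubic {b c : ℂ → ℂ} (hb : AnalyticAt ℂ b 0) (hc : AnalyticAt ℂ c 0)
    {β γ : ℂ → ℂ} (hβ : AnalyticAt ℂ β 0) (hγ : AnalyticAt ℂ γ 0)
    (hbe : ∀ᶠ y in 𝓝 (0 : ℂ), b y = y ^ 2 * β y) (hce : ∀ᶠ y in 𝓝 (0 : ℂ), c y = y ^ 3 * γ y)
    (hK : NS (fun w : ℂ × ℂ => w.2 ^ 3 + b w.1 * w.2 + c w.1)) :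
    PRes (fun w : ℂ × ℂ => w.2 ^ 3 + b w.1 * w.2 + c w.1) ∨
    ∃ b₄ c₆ : ℂ → ℂ, AnalyticAt ℂ b₄ 0 ∧ AnalyticAt ℂ c₆ 0 ∧
      (∀ᶠ y in 𝓝 (0 : ℂ), b y = y ^ 4 * b₄ y) ∧ ∀ᶠ y in 𝓝 (0 : ℂ), c y = y ^ 6 * c₆ y := by
  have hMa : AnalyticAt ℂ (fun w : ℂ × ℂ => w.2 ^ 3 + b w.1 * w.2 + c w.1) 0 :=
    ((analyticAt_snd.pow 3).add ((an_fst hb).mul analyticAt_snd)).add (an_fst hc)
  have hc00 : c 0 = 0 := by have := hce.self_of_nhds; simpa using this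
  have hM0 : (fun w : ℂ × ℂ => w.2 ^ 3 + b w.1 * w.2 + c w.1) 0 = 0 := by simp [hc00]
  by_cases h0 : β 0 ≠ 0 ∨ γ 0 ≠ 0
  · exact Or.inl (ns_simple hβ hγ hb hc hbe hce h0 hK)
  push Not at h0
  obtain ⟨b3, hb3, hb3e⟩ := pow_step hβ h0.1 hbe
  obtain ⟨c4, hc4, hc4e⟩ := pow_step hγ h0.2 hce
  by_cases h4 : c4 0 ≠ 0
  · -- E6
    left
    have hδ : (0:ℂ) ^ 1 * b3 0 * ((((1:ℕ):ℂ) + ((0:ℕ):ℂ) + 2) * b3 0) ^ 2 +
      3 * 0 ^ 0 * ((((1:ℕ):ℂ) + 2 * ((0:ℕ):ℂ) + 3) * c4 0) ^ 2 = 48 * c4 0 ^ 2 := by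
      push_cast; ring
    have hν : 2 / 3 * (0:ℂ) ^ 1 * b3 0 ^ 2 * ((((1:ℕ):ℂ) + ((0:ℕ):ℂ) + 2) * b3 0) +
      3 * 0 ^ 0 * c4 0 * ((((1:ℕ):ℂ) + 2 * ((0:ℕ):ℂ) + 3) * c4 0) = 12 * c4 0 ^ 2 := by
      push_cast; ring
    have h5 := cubic_field (i := 1) (j := 0) hb3 hc4 hb hc hb3e hc4e hδ.symm
      (mul_ne_zero (by norm_num) (pow_ne_zero 2 h4)) hν.symm
    refine PRes_of_Eul hMa hM0 (h := 12) (by norm_num) (by norm_num) ?_
    have e1 : (1:ℂ) / 3 + 12 * c4 0 ^ 2 / (48 * c4 0 ^ 2) = 1 / 2 + 1 / ((12:ℕ) : ℂ) := by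
      field_simp
      push_cast
      norm_num
    rw [← e1]
    exact h5
  push Not at h4
  obtain ⟨c5, hc5, hc5e⟩ := pow_step hc4 h4 hc4e
  by_cases h5 : b3 0 ≠ 0
  · -- E7
    left
    have hδ : (0:ℂ) ^ 0 * b3 0 * ((((0:ℕ):ℂ) + ((1:ℕ):ℂ) + 2) * b3 0) ^ 2 +
      3 * 0 ^ 1 * ((((0:ℕ):ℂ) + 2 * ((1:ℕ):ℂ) + 3) * c5 0) ^ 2 = 9 * b3 0 ^ 3 := by
      push_cast; ring
    have hν : 2 / 3 * (0:ℂ) ^ 0 * b3 0 ^ 2 * ((((0:ℕ):ℂ) + ((1:ℕ):ℂ) + 2) * b3 0) +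
      3 * 0 ^ 1 * c5 0 * ((((0:ℕ):ℂ) + 2 * ((1:ℕ):ℂ) + 3) * c5 0) = 2 * b3 0 ^ 3 := by
      push_cast; ring
    have h6 := cubic_field (i := 0) (j := 1) hb3 hc5 hb hc hb3e hc5e hδ.symm
      (mul_ne_zero (by norm_num) (pow_ne_zero 3 h5)) hν.symm
    refine PRes_of_Eul hMa hM0 (h := 18) (by norm_num) (by norm_num) ?_
    have e1 : (1:ℂ) / 3 + 2 * b3 0 ^ 3 / (9 * b3 0 ^ 3) = 1 / 2 + 1 / ((18:ℕ) : ℂ) := by
      field_simp
      push_cast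
      norm_num
    rw [← e1]
    exact h6
  push Not at h5
  obtain ⟨b4, hb4, hb4e⟩ := pow_step hb3 h5 hb3e
  by_cases h6 : c5 0 ≠ 0
  · -- E8
    left
    have hδ : (0:ℂ) ^ 2 * b4 0 * ((((2:ℕ):ℂ) + ((0:ℕ):ℂ) + 2) * b4 0) ^ 2 +
      3 * 0 ^ 0 * ((((2:ℕ):ℂ) + 2 * ((0:ℕ):ℂ) + 3) * c5 0) ^ 2 = 75 * c5 0 ^ 2 := by
      push_cast; ring
    have hν : 2 / 3 * (0:ℂ) ^ 2 * b4 0 ^ 2 * ((((2:ℕ):ℂ) + ((0:ℕ):ℂ) + 2) * b4 0) +
      3 * 0 ^ 0 * c5 0 * ((((2:ℕ):ℂ) + 2 * ((0:ℕ):ℂ) + 3) * c5 0) = 15 * c5 0 ^ 2 := by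
      push_cast; ring
    have h7 := cubic_field (i := 2) (j := 0) hb4 hc5 hb hc hb4e hc5e hδ.symm
      (mul_ne_zero (by norm_num) (pow_ne_zero 2 h6)) hν.symm
    refine PRes_of_Eul hMa hM0 (h := 30) (by norm_num) (by norm_num) ?_
    have e1 : (1:ℂ) / 3 + 15 * c5 0 ^ 2 / (75 * c5 0 ^ 2) = 1 / 2 + 1 / ((30:ℕ) : ℂ) := by
      field_simp
      push_cast
      norm_num
    rw [← e1]
    exact h7
  push Not at h6
  obtain ⟨c6, hc6, hc6e⟩ := pow_step hc5 h6 hc5e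
  exact Or.inr ⟨b4, c6, hb4, hc6, hb4e, hc6e⟩

/-- the result in the remaining case -/
def Bad (q : ℂ × ℂ → ℂ) : Prop :=
  ∃ (u : ℂ × ℂ → ℂ) (θ b₄ c₆ : ℂ → ℂ), AnalyticAt ℂ u 0 ∧ u 0 ≠ 0 ∧ AnalyticAt ℂ θ 0 ∧ θ 0 = 0 ∧
    AnalyticAt ℂ b₄ 0 ∧ AnalyticAt ℂ c₆ 0 ∧ ∀ᶠ w in 𝓝 (0 : ℂ × ℂ),
      q w = u w * ((w.2 + θ w.1) ^ 3 + w.1 ^ 4 * b₄ w.1 * (w.2 + θ w.1) + w.1 ^ 6 * c₆ w.1)

theorem ns_ord3 {q : ℂ × ℂ → ℂ} (hq : AnalyticAt ℂ q 0)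
    (hn : analyticOrderAt (fun w : ℂ => q (0, w)) 0 = 3)
    {C : ℝ} (hC : 0 < C) (hbd : ∀ᶠ w in 𝓝 (0 : ℂ × ℂ), ‖q w‖ ≤ C * ‖w‖ ^ 3) (hK : NS q) :
    PRes q ∨ Bad q := by
  obtain ⟨u, a₀, a₁, a₂, hu, hu0, ha₀, ha₁, ha₂, h00, h10, h20, he⟩ := wprep3 hq hn
  set b : ℂ → ℂ := fun y => a₁ y - a₂ y ^ 2 / 3 with hb
  set c : ℂ → ℂ := fun y => a₀ y - a₁ y * a₂ y / 3 + 2 * a₂ y ^ 3 / 27 with hc
  have hba : AnalyticAt ℂ b 0 := ha₁.sub ((ha₂.pow 2).div analyticAt_const (by norm_num))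
  have hca : AnalyticAt ℂ c 0 :=
    (ha₀.sub ((ha₁.mul ha₂).div analyticAt_const (by norm_num))).add
      ((analyticAt_const.mul (ha₂.pow 3)).div analyticAt_const (by norm_num))
  have hb0 : b 0 = 0 := by simp [hb, h10, h20]
  have hc0 : c 0 = 0 := by simp [hc, h00, h10, h20]
  set M : ℂ × ℂ → ℂ := fun w => w.2 ^ 3 + b w.1 * w.2 + c w.1 with hM
  have hMa : AnalyticAt ℂ M 0 :=
    ((analyticAt_snd.pow 3).add ((an_fst hba).mul analyticAt_snd)).add (an_fst hca)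
  set θ : ℂ → ℂ := fun y => a₂ y / 3 with hθ
  have hθa : AnalyticAt ℂ θ 0 := ha₂.div analyticAt_const (by norm_num)
  have hθ0 : θ 0 = 0 := by simp [hθ, h20]
  have hL := LB_shear hθa hθ0
  have hMs : AnalyticAt ℂ (fun w : ℂ × ℂ => M (shear θ w)) 0 := by
    refine AnalyticAt.comp (g := M) (f := shear θ) ?_ hL.an
    rw [hL.map0]; exact hMa
  have heq : ∀ᶠ w in 𝓝 (0 : ℂ × ℂ), q w = u w * M (shear θ w) := by
    filter_upwards [he] with w hw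
    rw [hw]
    simp only [hM, shear, hb, hc, hθ]
    ring
  -- the bound for `M`
  obtain ⟨C', hC', hMb⟩ : ∃ C' : ℝ, 0 < C' ∧ ∀ᶠ w in 𝓝 (0 : ℂ × ℂ), ‖M w‖ ≤ C' * ‖w‖ ^ 3 := by
    have hO : (fun w => shear (fun z => - θ z) w) =O[𝓝 0] (fun w : ℂ × ℂ => w) := by
      have := hL.an'.differentiableAt.hasFDerivAt.isBigO_sub
      simpa [hL.map0'] using this
    obtain ⟨K, hK0, hK'⟩ := hO.exists_pos
    have huinv : ∀ᶠ w in 𝓝 (0 : ℂ × ℂ), ‖u 0‖ / 2 ≤ ‖u w‖ := by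
      have hu0' : 0 < ‖u 0‖ := norm_pos_iff.2 hu0
      have := (continuousAt_const (y := ‖u 0‖ / 2)).eventually_lt hu.continuousAt.norm (by linarith)
      filter_upwards [this] with w hw using hw.le
    have hu0' : 0 < ‖u 0‖ := norm_pos_iff.2 hu0
    refine ⟨C * K ^ 3 / (‖u 0‖ / 2), by positivity, ?_⟩
    filter_upwards [hK'.bound, hL.symm.tendsto.eventually heq, hL.symm.tendsto.eventually hbd,
      hL.symm.tendsto.eventually huinv, hL.right] with w h1 h2 h3 h4 h5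
    rw [h5] at h2
    rw [div_mul_eq_mul_div, le_div_iff₀ (by positivity)]
    calc ‖M w‖ * (‖u 0‖ / 2) ≤ ‖M w‖ * ‖u (shear (fun z => - θ z) w)‖ := by gcongr
      _ = ‖q (shear (fun z => - θ z) w)‖ := by rw [h2, norm_mul, mul_comm]
      _ ≤ C * ‖shear (fun z => - θ z) w‖ ^ 3 := h3
      _ ≤ C * (K * ‖w‖) ^ 3 := by gcongr
      _ = C * K ^ 3 * ‖w‖ ^ 3 := by ring
  have hcb : ∀ᶠ y in 𝓝 (0 : ℂ), ‖c y‖ ≤ C' * ‖y‖ ^ 3 := by
    have t1 : Tendsto (fun y : ℂ => (y, (0 : ℂ))) (𝓝 0) (𝓝 (0 : ℂ × ℂ)) :=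
      (by fun_prop : Continuous (fun y : ℂ => (y, (0 : ℂ)))).tendsto' _ _ rfl
    filter_upwards [t1.eventually hMb] with y hy
    simpa [hM, Prod.norm_def] using hy
  have hbb : ∀ᶠ y in 𝓝 (0 : ℂ), ‖b y‖ ≤ (C' + 1 + C') * ‖y‖ ^ 2 := by
    have t1 : Tendsto (fun y : ℂ => (y, y)) (𝓝 0) (𝓝 (0 : ℂ × ℂ)) :=
      (by fun_prop : Continuous (fun y : ℂ => (y, y))).tendsto' _ _ rfl
    filter_upwards [t1.eventually hMb, hcb] with y hy hy2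
    rcases eq_or_ne y 0 with rfl | hy0
    · simp [hb0]
    have hyp : 0 < ‖y‖ := norm_pos_iff.2 hy0
    have h1 : ‖M (y, y)‖ ≤ C' * ‖y‖ ^ 3 := by simpa [Prod.norm_def] using hy
    have h2 : b y * y = M (y, y) - y ^ 3 - c y := by simp only [hM]; ring
    have h3 : ‖b y‖ * ‖y‖ ≤ (C' + 1 + C') * ‖y‖ ^ 2 * ‖y‖ := by
      rw [← norm_mul, h2]
      calc ‖M (y, y) - y ^ 3 - c y‖ ≤ ‖M (y, y)‖ + ‖y ^ 3‖ + ‖c y‖ :=
            (norm_sub_le _ _).trans (by gcongr; exact norm_sub_le _ _)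
        _ ≤ C' * ‖y‖ ^ 3 + ‖y‖ ^ 3 + C' * ‖y‖ ^ 3 := by rw [norm_pow]; gcongr
        _ = (C' + 1 + C') * ‖y‖ ^ 2 * ‖y‖ := by ring
    exact le_of_mul_le_mul_right h3 hyp
  obtain ⟨β, hβ, hβe⟩ := exists_pow_mul_of_bound hba hbb
  obtain ⟨γ, hγ, hγe⟩ := exists_pow_mul_of_bound hca hcb
  -- `NS` for the model
  have hNM : NS M := by
    have h1 : NS (fun w => u w * M (shear θ w)) := hK.congr heq
    have h2 : NS (fun w => M (shear θ w)) := NS.of_unit_mul hMs hu h1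
    have h3 : NS (fun w => (fun w => M (shear θ w)) (shear (fun z => - θ z) w)) :=
      h2.comp hMs hL.symm
    exact h3.congr (by
      filter_upwards [hL.right] with w hw
      simp only [hw])
  rcases ns_cubic hba hca hβ hγ hβe hγe hNM with h | ⟨b₄, c₆, hb₄, hc₆, hbe, hce⟩
  · left
    exact ((h.comp hMa hL).unit_mul hMs hu hu0).congr (by
      filter_upwards [heq] with w hw using hw.symm)
  · right
    refine ⟨u, θ, b₄, c₆, hu, hu0, hθa, hθ0, hb₄, hc₆, ?_⟩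
    filter_upwards [heq, ev_fst hbe, ev_fst hce] with w h1 h2 h3
    rw [h1]
    simp only [hM, shear, h2, h3]

end Crest.Agent.R257.Cl2_475
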