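import Crest.Agent.R257.GBL1_625
import Crest.Agent.R257.C2F6_335

/-!
# Row 257 (S0395), leaf CMP (helper101), part 1: Stokes for `∂∂̄a ∧ ∂∂̄b`

`M` with an atlas `A : Atl 2 M` and a partition of unity `P : Part A`, `M` need not be compact.
* `ddm_mul_hess`  : `∂∂̄ (b ∂∂̄c) = ∂∂̄b ∧ ∂∂̄c`
* `den_pdh`       : `θ pd (∂∂̄a) (∂∂̄b)` is a density
* `stokes_pd`     : `∫ θ ∂∂̄a ∧ ∂∂̄b = ∫ a ∂∂̄θ ∧ ∂∂̄b` for `θ` with compact support
* `stokes_one`    : `∫ ∂∂̄θ ∧ ∂∂̄b = 0`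
-/

set_option autoImplicit false
set_option linter.unusedSectionVars false

open Set Filter Topology Complex MeasureTheory
open scoped ContDiff Matrix ComplexConjugate ComplexOrder

namespace Crest.Agent.R257.Cmp1_101

open Crest.Agent.R275.Geo Crest.Agent.R275.TorS666
open Crest.Agent.R275.Tor812 hiding pd
open Crest.Agent.R275.C1d194 Crest.Agent.R275.Pai323 Crest.Agent.R275.OmT75
open Crest.Agent.R275.SerG398 (lint dens)
open Crest.Agent.R273.StokesV_332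
open Crest.Agent.R273.Fock_243
open Crest.Agent.R273.Calc_243 hiding dj
open Crest.Agent.R273.Bkn_243 Crest.Agent.R273.Pos_243 Crest.Agent.R273.BochA_101
open Crest.Agent.R273.BochB_101 Crest.Agent.R273.BochC_101 Crest.Agent.R273.BochD_101
open Crest.Agent.R275.Core144 Crest.Agent.R273.Defs_333 Crest.Agent.R273.HM_333
open Crest.Agent.R273.Hess_333 Crest.Agent.R273.HessB_333 Crest.Agent.R273.Kah_333
open Crest.Agent.R257.C2F1_625 Crest.Agent.R257.C2F2_625
open Crest.Agent.R257.GBL1_625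

noncomputable section

/-- `∂∂̄ (b ∂∂̄c) = ∂∂̄b ∧ ∂∂̄c` -/
theorem ddm_mul_hess {b c : Cn 2 → ℝ} {z : Cn 2} (hb : ContDiffAt ℝ ∞ b z)
    (hcc : ∀ᶠ y in 𝓝 z, ContDiffAt ℝ ∞ c y) :
    ddm (fun y => (b y : ℂ) • hess c y) z = pd (hess b z) (hess c z) := by
  have hB : Sm z (cu b) := contDiffAt_cu hb
  have hc := hcc.self_of_nhds
  have hC : Sm z (cu c) := contDiffAt_cu hc
  have e : ∀ p q : Fin 2, (fun y => ((b y : ℂ) • hess c y) p q)
      = fun y => cu b y * dS (-I) p (dS I q (cu c)) y := by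
    intro p q
    funext y
    rw [Matrix.smul_apply, smul_eq_mul, hess_eq]
    rfl
  have s1 : ∀ p q : Fin 2, Sm z (dS (-I) p (dS I q (cu c))) := fun p q => (hC.dS _ _).dS _ _
  have hev : ∀ᶠ y in 𝓝 z, Sm y (cu c) := hcc.mono fun y hy => contDiffAt_cu hy
  -- closedness of the Hessian
  have k1 : ∀ (r p q : Fin 2), dS (-I) r (dS (-I) p (dS I q (cu c))) z
      = dS (-I) p (dS (-I) r (dS I q (cu c))) z := fun r p q => dS_comm (hC.dS _ _)
  have k2 : ∀ (r p q : Fin 2), dS I r (dS (-I) p (dS I q (cu c))) z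
      = dS I q (dS (-I) p (dS I r (cu c))) z := by
    intro r p q
    rw [dS_comm (hC.dS I q)]
    have h1 : dS I r (dS I q (cu c)) =ᶠ[𝓝 z] dS I q (dS I r (cu c)) := by
      filter_upwards [hev] with y hy
      exact dS_comm hy
    rw [dS_congr h1, ← dS_comm (hC.dS I r)]
  have k3 : ∀ (r s p q : Fin 2), dS (-I) r (dS I s (dS (-I) p (dS I q (cu c)))) z
      = dS (-I) p (dS I s (dS (-I) r (dS I q (cu c)))) z := by
    intro r s p q
    rw [← dS_comm (s1 p q), ← dS_comm (s1 r q)]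
    refine dS_congr ?_
    filter_upwards [hev] with y hy
    exact dS_comm (hy.dS _ _)
  unfold ddm
  rw [e, e, e, e, dS2_mul hB (s1 _ _), dS2_mul hB (s1 _ _), dS2_mul hB (s1 _ _),
    dS2_mul hB (s1 _ _)]
  unfold pd
  simp only [hess_eq]
  have a1 := k1 0 1 1
  have a2 := k1 0 1 0
  have b1 := k2 0 1 1
  have b2 := k2 0 0 1
  have c1 := k3 0 0 1 1
  have c3 := k3 1 1 0 0
  linear_combination (dS I 0 (cu b) z) * a1 - (dS I 1 (cu b) z) * a2
    + (dS (-I) 0 (cu b) z) * b1 - (dS (-I) 1 (cu b) z) * b2 + (cu b z) * c1 + (cu b z) * c3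

variable {M : Type} [TopologicalSpace M] [T2Space M] {B : Atl 2 M}

theorem sm_hsf {b : M → ℝ} (hb : B.Sm b) (i : B.ι) (c d : Fin 2) :
    B.SmAt i (fun x => hsf B b i x c d) := by
  have h1 := smAt_dl (Atl.SmAt.db (smAt_ofReal (hb i)) d) c
  refine h1.congr fun z hz => ?_
  show hsf B b i ((B.e i).symm z) c d = _
  rw [← hc_ofReal]
  show dS (-I) c (dS I d (fun z => (b ((B.e i).symm z) : ℂ))) (B.e i ((B.e i).symm z)) = _
  rw [dl_db_eq c d (fun y => (b y : ℂ)) ((B.e i).map_target hz)]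

theorem smAt_ofReal' {a : M → ℝ} (ha : B.Sm a) (i : B.ι) : B.SmAt i (fun x => (a x : ℂ)) :=
  smAt_ofReal (ha i)

/-- the field `a ∂∂̄b` -/
def fld (B : Atl 2 M) (a b : M → ℝ) (i : B.ι) (x : M) : Matrix (Fin 2) (Fin 2) ℂ :=
  (a x : ℂ) • hsf B b i x

theorem ddD_fld {a b : M → ℝ} (ha : B.Sm a) (hb : B.Sm b) {i : B.ι} {x : M}
    (hx : x ∈ (B.e i).source) :
    ddD B (fld B a b) i x = pd (hsf B a i x) (hsf B b i x) := by
  have ht := (B.e i).open_target.mem_nhds ((B.e i).map_source hx)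
  have h1 : rdS B (fld B a b) i =ᶠ[𝓝 (B.e i x)] fun z =>
      ((a ((B.e i).symm z) : ℝ) : ℂ) • hess (fun z => b ((B.e i).symm z)) z := by
    filter_upwards [ht] with z hz
    show ((a ((B.e i).symm z) : ℝ) : ℂ) • hsf B b i ((B.e i).symm z) = _
    rw [hsf_read b i hz]
  unfold ddD
  rw [ddm_congr h1, ddm_mul_hess (b := fun z => a ((B.e i).symm z))
    (c := fun z => b ((B.e i).symm z)) ((ha i).contDiffAt ht) ?_]
  · rfl
  · filter_upwards [ht] with z hz
    exact (hb i).contDiffAt ((B.e i).open_target.mem_nhds hz)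

theorem smS_fld {a b : M → ℝ} (ha : B.Sm a) (hb : B.Sm b) (U : Set M) : SmS B U (fld B a b) := by
  intro i c d
  refine SmAt.smO ?_ U
  exact (smAt_ofReal' ha i).mul (sm_hsf hb i c d)

theorem tnO_fld {a b : M → ℝ} (hb : B.Sm b) (U : Set M) : TnO B U (fld B a b) := by
  intro i j x hx _
  unfold fld
  rw [hsf_tr hb hx, Matrix.mul_smul, Matrix.smul_mul]

/-- **Stokes**: `∫ θ ∂∂̄a ∧ ∂∂̄b = ∫ a ∂∂̄θ ∧ ∂∂̄b`, `θ` with compact support -/
theorem stokes_pd (P : Part B) {θ a b : M → ℝ} (hθ : B.Sm θ) (ha : B.Sm a) (hb : B.Sm b)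
    {K : Set M} (hK : IsCompact K) (h0 : ∀ x, x ∉ K → θ x = 0) :
    intD P (fun i x => (θ x : ℂ) * pd (hsf B a i x) (hsf B b i x))
      = intD P (fun i x => (a x : ℂ) * pd (hsf B θ i x) (hsf B b i x)) := by
  have h1 := tensor_stokes P isOpen_univ hθ hK (subset_univ _) h0 (smS_fld ha hb univ)
    (tnO_fld (a := a) hb univ)
  have e1 : intD P (fun i x => (θ x : ℂ) * ddD B (fld B a b) i x)
      = intD P (fun i x => (θ x : ℂ) * pd (hsf B a i x) (hsf B b i x)) :=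
    intD_congr P fun i x hx => by rw [ddD_fld ha hb hx]
  have e2 : intD P (fun i x => pd (hsf B θ i x) (fld B a b i x))
      = intD P (fun i x => (a x : ℂ) * pd (hsf B θ i x) (hsf B b i x)) :=
    intD_congr P fun i x hx => by rw [fld, pd_smul]
  rw [← e1, h1, e2]

theorem hsf_const (c : ℝ) (i : B.ι) (x : M) : hsf B (fun _ => c) i x = 0 := by
  rw [← hc_ofReal, hc_const]

theorem hsf_congr {a b : M → ℝ} {i : B.ι} {x : M} (hx : x ∈ (B.e i).source) (h : a =ᶠ[𝓝 x] b) :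
    hsf B a i x = hsf B b i x := by
  rw [← hc_ofReal, ← hc_ofReal]
  refine hc_congr hx ?_
  filter_upwards [h] with y hy
  rw [hy]

/-- `∫ ∂∂̄θ ∧ ∂∂̄b = 0`, `θ` with compact support -/
theorem stokes_one (P : Part B) {θ b : M → ℝ} (hθ : B.Sm θ) (hb : B.Sm b)
    {K : Set M} (hK : IsCompact K) (h0 : ∀ x, x ∉ K → θ x = 0) :
    intD P (fun i x => pd (hsf B θ i x) (hsf B b i x)) = 0 := by
  have h1 := stokes_pd P hθ (a := fun _ => (1 : ℝ)) (fun i => contDiffOn_const) hb hK h0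
  have e1 : intD P (fun i x => (θ x : ℂ) * pd (hsf B (fun _ => (1 : ℝ)) i x) (hsf B b i x)) = 0 := by
    rw [← intD_zero P]
    refine intD_congr P fun i x _ => ?_
    rw [hsf_const]
    simp [pd]
  rw [e1] at h1
  rw [h1]
  exact intD_congr P fun i x _ => by simp

/-- `θ ∂∂̄a ∧ ∂∂̄b` is a density -/
theorem den_pdh {θ a b : M → ℝ} (hθ : B.Sm θ) (ha : B.Sm a) (hb : B.Sm b) :
    Den B (fun i x => (θ x : ℂ) * pd (hsf B a i x) (hsf B b i x)) where
  sm i := by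
    have h := sm_hsf ha i
    have h' := sm_hsf hb i
    exact (smAt_ofReal' hθ i).mul (((((h 0 0).mul (h' 1 1)).add ((h 1 1).mul (h' 0 0))).sub
      ((h 0 1).mul (h' 1 0))).sub ((h 1 0).mul (h' 0 1)))
  tr i j x hx := by
    rw [hsf_tr ha hx, hsf_tr hb hx, pd_tn, Crest.Agent.R273.GreenM_5.dens_Jm]
    ring

end

end Crest.Agent.R257.Cmp1_101
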