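import Crest.Agent.R257.Cmp1_101
import Crest.Agent.R257.GBLcut_844

/-!
# Row 257 (S0395), leaf CMP (helper101), part 2: convex functions of psh functions

* `prim h c`      : primitive of `h`; `prim_deriv`, `prim_contDiff`
* `kap`           : smooth convex, `kap s = s` for `s ≥ -1`, constant for `s ≤ -2`, `kap s ≥ s`
* `kp K s`        : `K kap (s / K)`
* `Qp`            : primitive of `Real.smoothTransition`
* `psd_cv`        : `∂∂̄ Q(φ) - Q'(φ) ∂∂̄φ ≥ 0` for `Q'' ≥ 0`
-/

set_option autoImplicit false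
set_option linter.unusedSectionVars false

open Set Filter Topology Complex MeasureTheory
open scoped ContDiff Matrix ComplexConjugate ComplexOrder

namespace Crest.Agent.R257.Cmp2_101

open Crest.Agent.R275.Geo
open Crest.Agent.R275.Core144 Crest.Agent.R273
open Crest.Agent.R273.Hess_333 Crest.Agent.R273.HessB_333 Crest.Agent.R273.Kah_333
open Crest.Agent.R257.Cmp1_101

noncomputable section

/-! ### one variable -/

/-- primitive -/
def prim (h : ℝ → ℝ) (c s : ℝ) : ℝ := ∫ σ in c..s, h σ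

theorem prim_deriv {h : ℝ → ℝ} (hh : Continuous h) (c s : ℝ) :
    HasDerivAt (prim h c) (h s) s :=
  intervalIntegral.integral_hasDerivAt_right (hh.intervalIntegrable _ _)
    hh.stronglyMeasurable.stronglyMeasurableAtFilter hh.continuousAt

theorem prim_contDiff {h : ℝ → ℝ} (hh : ContDiff ℝ ∞ h) (c : ℝ) : ContDiff ℝ ∞ (prim h c) := by
  have hd := prim_deriv hh.continuous c
  refine contDiff_infty_iff_deriv.2 ⟨fun s => (hd s).differentiableAt, ?_⟩
  have : deriv (prim h c) = h := funext fun s => (hd s).deriv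
  rwa [this]

theorem prim_const {h : ℝ → ℝ} {c s t : ℝ} (hh : Continuous h) (hst : ∀ σ ∈ uIcc s t, h σ = 0) :
    prim h c s = prim h c t := by
  unfold prim
  have h1 := intervalIntegral.integral_add_adjacent_intervals
    (hh.intervalIntegrable (μ := volume) c s) (hh.intervalIntegrable s t)
  have h2 : ∫ σ in s..t, h σ = 0 := by
    rw [intervalIntegral.integral_congr (g := fun _ => (0 : ℝ)) fun σ hσ => hst σ hσ]
    simp
  rw [← h1, h2, add_zero]

/-- the derivative of `kap` -/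
def th (s : ℝ) : ℝ := Real.smoothTransition (s + 2)

theorem th_sm : ContDiff ℝ ∞ th := Real.smoothTransition.contDiff.comp (contDiff_id.add contDiff_const)
theorem th_nonneg (s : ℝ) : 0 ≤ th s := Real.smoothTransition.nonneg _
theorem th_le_one (s : ℝ) : th s ≤ 1 := Real.smoothTransition.le_one _
theorem th_one {s : ℝ} (h : -1 ≤ s) : th s = 1 :=
  Real.smoothTransition.one_of_one_le (by linarith)
theorem th_zero {s : ℝ} (h : s ≤ -2) : th s = 0 :=
  Real.smoothTransition.zero_of_nonpos (by linarith)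
theorem th_mono : Monotone th := fun a b h => Real.smoothTransition.monotone (by linarith)
theorem th_deriv_nonneg (s : ℝ) : 0 ≤ deriv th s := th_mono.deriv_nonneg
theorem th_hasDeriv (s : ℝ) : HasDerivAt th (deriv th s) s :=
  (th_sm.differentiable (by simp)).differentiableAt.hasDerivAt

/-- smooth convex truncation -/
def kap (s : ℝ) : ℝ := -1 + prim th (-1) s

theorem kap_deriv (s : ℝ) : HasDerivAt kap (th s) s := (prim_deriv th_sm.continuous (-1) s).const_add _

theorem kap_sm : ContDiff ℝ ∞ kap := contDiff_const.add (prim_contDiff th_sm _)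

theorem kap_id {s : ℝ} (h : -1 ≤ s) : kap s = s := by
  unfold kap prim
  have h1 : ∫ σ in (-1)..s, th σ = ∫ _ in (-1)..s, (1 : ℝ) :=
    intervalIntegral.integral_congr fun σ hσ => by
      rw [uIcc_of_le h] at hσ
      exact th_one hσ.1
  rw [h1, intervalIntegral.integral_const, smul_eq_mul]
  ring

theorem kap_const {s : ℝ} (h : s ≤ -2) : kap s = kap (-2) := by
  unfold kap
  rw [prim_const (s := s) (t := -2) th_sm.continuous fun σ hσ => ?_]
  rw [uIcc_of_le h] at hσ
  exact th_zero hσ.2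

theorem kap_mono : Monotone kap :=
  monotone_of_deriv_nonneg (fun s => (kap_deriv s).differentiableAt) fun s => by
    rw [(kap_deriv s).deriv]; exact th_nonneg s

theorem le_kap (s : ℝ) : s ≤ kap s := by
  rcases le_or_gt (-1) s with h | h
  · rw [kap_id h]
  · have hd : ∀ t, HasDerivAt (fun t => kap t - t) (th t - 1) t := fun t =>
      (kap_deriv t).sub (hasDerivAt_id t)
    have h1 : Antitone fun t => kap t - t :=
      antitone_of_deriv_nonpos (fun t => (hd t).differentiableAt)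
        fun t => by
          rw [(hd t).deriv]
          linarith [th_le_one t]
    have h2 := h1 h.le
    have h3 : kap (-1) - (-1) ≤ kap s - s := h2
    rw [kap_id le_rfl] at h3
    linarith

/-- `K kap (s / K)` -/
def kp (K s : ℝ) : ℝ := K * kap (s / K)

theorem kp_deriv {K : ℝ} (hK : 0 < K) (s : ℝ) : HasDerivAt (kp K) (th (s / K)) s := by
  have h1 : HasDerivAt (fun s : ℝ => s / K) (1 / K) s := (hasDerivAt_id s).div_const K
  have h2 := ((kap_deriv (s / K)).comp s h1).const_mul K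
  refine h2.congr_deriv ?_
  field_simp

theorem thK_deriv {K : ℝ} (s : ℝ) :
    HasDerivAt (fun s => th (s / K)) (deriv th (s / K) / K) s := by
  have h1 : HasDerivAt (fun s : ℝ => s / K) (1 / K) s := (hasDerivAt_id s).div_const K
  have h2 := HasDerivAt.comp (h₂ := th) (h := fun s : ℝ => s / K) s (th_hasDeriv (s / K)) h1
  exact h2.congr_deriv (by ring)

theorem kp_sm (K : ℝ) : ContDiff ℝ ∞ (kp K) :=
  contDiff_const.mul (kap_sm.comp (contDiff_id.div_const K))

theorem kp_id {K s : ℝ} (hK : 0 < K) (h : -K ≤ s) : kp K s = s := by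
  unfold kp
  rw [kap_id, mul_div_cancel₀ _ hK.ne']
  rw [le_div_iff₀ hK]
  linarith

theorem kp_const {K s : ℝ} (hK : 0 < K) (h : s ≤ -(2 * K)) : kp K s = K * kap (-2) := by
  unfold kp
  rw [kap_const]
  rw [div_le_iff₀ hK]
  linarith

theorem kp_mono {K : ℝ} (hK : 0 < K) : Monotone (kp K) := fun a b h => by
  unfold kp
  have : a / K ≤ b / K := by gcongr
  have := kap_mono this
  gcongr

theorem le_kp {K : ℝ} (hK : 0 < K) (s : ℝ) : s ≤ kp K s := by
  have h1 := le_kap (s / K)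
  unfold kp
  calc s = K * (s / K) := by field_simp
    _ ≤ _ := by gcongr

/-- the primitive of `Real.smoothTransition` -/
def Qp (s : ℝ) : ℝ := prim Real.smoothTransition 0 s

theorem Qp_deriv (s : ℝ) : HasDerivAt Qp (Real.smoothTransition s) s :=
  prim_deriv Real.smoothTransition.continuous 0 s

theorem Qp_sm : ContDiff ℝ ∞ Qp := prim_contDiff Real.smoothTransition.contDiff _

theorem Qp_zero {s : ℝ} (h : s ≤ 0) : Qp s = 0 := by
  unfold Qp
  have h1 : prim Real.smoothTransition 0 s = prim Real.smoothTransition 0 0 :=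
    prim_const Real.smoothTransition.continuous fun σ hσ => by
      rw [uIcc_of_le h] at hσ
      exact Real.smoothTransition.zero_of_nonpos hσ.2
  rw [h1]
  simp [prim]

theorem st_deriv_nonneg (s : ℝ) : 0 ≤ deriv Real.smoothTransition s :=
  Real.smoothTransition.monotone.deriv_nonneg

theorem st_hasDeriv (s : ℝ) :
    HasDerivAt Real.smoothTransition (deriv Real.smoothTransition s) s :=
  ((Real.smoothTransition.contDiff (n := ⊤)).differentiable (by simp)).differentiableAt.hasDerivAt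

/-! ### Hessians of convex functions -/

/-- `∂∂̄ Q(φ) - Q'(φ) ∂∂̄φ ≥ 0` for `Q'' ≥ 0` -/
theorem psd_cv {n : ℕ} {φ : Cn n → ℝ} {z : Cn n} {Q H H' : ℝ → ℝ} (hQs : ContDiff ℝ ∞ Q)
    (hQ : ∀ t, HasDerivAt Q (H t) t) (hH : ∀ t, HasDerivAt H (H' t) t) (h0 : 0 ≤ H' (φ z))
    (hφ : ContDiffAt ℝ ∞ φ z) :
    (hess (fun y => Q (φ y)) z - (H (φ z) : ℂ) • hess φ z).PosSemidef := by
  have hQφ : ContDiffAt ℝ ∞ (fun y => Q (φ y)) z := hQs.contDiffAt.comp z hφ
  have hcφ : ContDiffAt ℝ ∞ (fun y => H (φ z) * φ y) z := contDiffAt_const.mul hφ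
  have e : hess (fun y => Q (φ y) - H (φ z) * φ y) z
      = hess (fun y => Q (φ y)) z - (H (φ z) : ℂ) • hess φ z := by
    rw [hess_sub (u := fun y => Q (φ y)) hQφ hcφ, hess_const_mul _ hφ]
  rw [← e]
  refine posSemidef_hess (hQφ.sub hcφ) fun v => ?_
  rw [YauDefs_635.lev333_eq_lev145]
  have h2 : ∀ {f : Cn n → ℝ}, ContDiffAt ℝ ∞ f z → ContDiffAt ℝ 2 f z := fun hf =>
    hf.of_le (WithTop.coe_le_coe.2 le_top)
  rw [Levi_145.lev_sub (u := fun y => Q (φ y)) (h2 hQφ) (h2 hcφ),
    Levi_145.lev_const_mul _ (h2 hφ),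
    Levi_145.lev_comp_real (χ := Q) (χ' := H) (χ'' := H' (φ z)) (h2 hφ)
      (Eventually.of_forall hQ) (hH _)]
  have : 0 ≤ H' (φ z) * ‖Levi_145.gr φ z v‖ ^ 2 := by positivity
  linarith

variable {M : Type} [TopologicalSpace M] [T2Space M] {B : Atl 2 M}

theorem sm_comp {Q : ℝ → ℝ} (hQ : ContDiff ℝ ∞ Q) {φ : M → ℝ} (hφ : B.Sm φ) :
    B.Sm (fun x => Q (φ x)) := fun i => hQ.comp_contDiffOn (hφ i)

theorem hsf_psd_cv {Q H H' : ℝ → ℝ} (hQs : ContDiff ℝ ∞ Q) (hQ : ∀ t, HasDerivAt Q (H t) t)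
    (hH : ∀ t, HasDerivAt H (H' t) t) (h0 : ∀ t, 0 ≤ H' t) {φ : M → ℝ} (hφ : B.Sm φ) (i : B.ι)
    {x : M} (hx : x ∈ (B.e i).source) :
    (hsf B (fun y => Q (φ y)) i x - (H (φ x) : ℂ) • hsf B φ i x).PosSemidef := by
  have h := psd_cv (φ := fun z => φ ((B.e i).symm z)) (z := B.e i x) hQs hQ hH (h0 _)
    (sm_contDiffAt hφ i ((B.e i).map_source hx))
  rw [(B.e i).left_inv hx] at h
  exact h

theorem psd_smul {X : Matrix (Fin 2) (Fin 2) ℂ} (hX : X.PosSemidef) {c : ℝ} (hc : 0 ≤ c) :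
    ((c : ℂ) • X).PosSemidef := hX.smul (by exact_mod_cast hc)

/-- a convex nondecreasing function of a psh function is psh -/
theorem hsf_psd_comp {Q H H' : ℝ → ℝ} (hQs : ContDiff ℝ ∞ Q) (hQ : ∀ t, HasDerivAt Q (H t) t)
    (hH : ∀ t, HasDerivAt H (H' t) t) (h0 : ∀ t, 0 ≤ H' t) (hH0 : ∀ t, 0 ≤ H t) {φ : M → ℝ}
    (hφ : B.Sm φ) (i : B.ι) {x : M} (hx : x ∈ (B.e i).source) (hp : (hsf B φ i x).PosSemidef) :
    (hsf B (fun y => Q (φ y)) i x).PosSemidef := by
  have h1 := (hsf_psd_cv hQs hQ hH h0 hφ i hx).add (psd_smul hp (hH0 (φ x)))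
  rwa [sub_add_cancel] at h1

theorem kp_psd {K : ℝ} (hK : 0 < K) {φ : M → ℝ} (hφ : B.Sm φ) (i : B.ι) {x : M}
    (hx : x ∈ (B.e i).source) (hp : (hsf B φ i x).PosSemidef) :
    (hsf B (fun y => kp K (φ y)) i x).PosSemidef :=
  hsf_psd_comp (kp_sm K) (kp_deriv hK) thK_deriv
    (fun _ => div_nonneg (th_deriv_nonneg _) hK.le) (fun _ => th_nonneg _) hφ i hx hp

end

end Crest.Agent.R257.Cmp2_101
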