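import Crest.Agent.R257.Cmp2_101

/-!
# Row 257 (S0395), leaf CMP (helper101), part 3: Stokes at the end of `M`, comparison

`X = tsupport chi`, `X ∩ {c ≤ w}` compact for all `c` ("the end" is `w → -∞`).
* `stokes_end` : `∫ f ∂∂̄a ∧ ∂∂̄b = ∫ a ∂∂̄f ∧ ∂∂̄b` if `f = 0` off `X` and `∂∂̄b = 0` at the end
* `stokes_end_one`
* `compare`    : `∫ chi H(a - b) (∂∂̄a)² ≤ ∫ chi H(a - b) (∂∂̄b)²`
-/

set_option autoImplicit false
set_option linter.unusedSectionVars false

open Set Filter Topology Complex MeasureTheory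
open scoped ContDiff Matrix ComplexConjugate ComplexOrder

namespace Crest.Agent.R257.Cmp3_101

open Crest.Agent.R275.Geo
open Crest.Agent.R275.Core144 Crest.Agent.R273
open Crest.Agent.R273.Hess_333 Crest.Agent.R273.HessB_333 Crest.Agent.R273.Kah_333
open Crest.Agent.R273.StokesV_332
open Crest.Agent.R257.C2F1_625
open Crest.Agent.R257.GBL1_625 (hc hc_ofReal hc_add)
open Crest.Agent.R257.Cmp1_101 Crest.Agent.R257.Cmp2_101
open Crest.Agent.R257.GBLcut_844 (pd_nonneg pd_im_zero pd_herm_im)

noncomputable section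

variable {M : Type} [TopologicalSpace M] [T2Space M] {B : Atl 2 M}

theorem pd_zero (X : Matrix (Fin 2) (Fin 2) ℂ) : pd X 0 = 0 := by simp [pd]
theorem zero_pd (X : Matrix (Fin 2) (Fin 2) ℂ) : pd 0 X = 0 := by simp [pd]

/-- monotonicity of the integral -/
theorem re_intD_le (P : Part B) {f g : B.ι → M → ℂ} (hf : Den B f) (hg : Den B g) {K : Set M}
    (hK : IsCompact K) (h0 : OffK B f K) (h0' : OffK B g K)
    (hle : ∀ i, ∀ x ∈ (B.e i).source, (f i x).re ≤ (g i x).re ∧ (f i x).im = (g i x).im) :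
    (intD P f).re ≤ (intD P g).re := by
  have hd : Den B (fun i x => g i x - f i x) := by
    have := hg.add (hf.smul (-1))
    refine ⟨fun i => ?_, fun i j x hx => ?_⟩
    · have h1 := this.sm i
      refine h1.congr fun z _ => ?_
      ring
    · have h1 := this.tr i j x hx
      linear_combination h1
  have hoff : OffK B (fun i x => g i x - f i x) K := fun i x hx hxK => by
    show g i x - f i x = 0
    rw [h0 i x hx hxK, h0' i x hx hxK, sub_zero]
  have h1 := intD_nonneg P hd (fun i x hx => by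
    rw [Complex.sub_re, Complex.sub_im]
    obtain ⟨h1, h2⟩ := hle i x hx
    exact ⟨by linarith, by rw [h2, sub_self]⟩) hK hoff
  rw [intD_sub P hg.sm hf.sm hK h0' h0, Complex.sub_re] at h1
  linarith [h1.1]

theorem hsf_zero_of_eventually {a : M → ℝ} {c : ℝ} {i : B.ι} {x : M} (hx : x ∈ (B.e i).source)
    (h : ∀ᶠ y in 𝓝 x, a y = c) : hsf B a i x = 0 := by
  rw [hsf_congr hx (b := fun _ => c) h, hsf_const]

theorem hsf_add {a b : M → ℝ} (ha : B.Sm a) (hb : B.Sm b) {i : B.ι} {x : M}
    (hx : x ∈ (B.e i).source) : hsf B (fun y => a y + b y) i x = hsf B a i x + hsf B b i x :=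
  hess_add (sm_contDiffAt ha i ((B.e i).map_source hx))
    (sm_contDiffAt hb i ((B.e i).map_source hx))

theorem hsf_sub {a b : M → ℝ} (ha : B.Sm a) (hb : B.Sm b) {i : B.ι} {x : M}
    (hx : x ∈ (B.e i).source) : hsf B (fun y => a y - b y) i x = hsf B a i x - hsf B b i x :=
  hess_sub (sm_contDiffAt ha i ((B.e i).map_source hx))
    (sm_contDiffAt hb i ((B.e i).map_source hx))

theorem hsf_const_mul {a : M → ℝ} (ha : B.Sm a) (c : ℝ) {i : B.ι} {x : M}
    (hx : x ∈ (B.e i).source) : hsf B (fun y => c * a y) i x = (c : ℂ) • hsf B a i x :=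
  hess_const_mul c (sm_contDiffAt ha i ((B.e i).map_source hx))

theorem sm_add {a b : M → ℝ} (ha : B.Sm a) (hb : B.Sm b) : B.Sm (fun x => a x + b x) :=
  fun i => (ha i).add (hb i)

theorem sm_sub {a b : M → ℝ} (ha : B.Sm a) (hb : B.Sm b) : B.Sm (fun x => a x - b x) :=
  fun i => (ha i).sub (hb i)

theorem sm_mul {a b : M → ℝ} (ha : B.Sm a) (hb : B.Sm b) : B.Sm (fun x => a x * b x) :=
  fun i => (ha i).mul (hb i)

theorem sm_cst (c : ℝ) : B.Sm (fun _ : M => c) := fun _ => contDiffOn_const

theorem cont {a : M → ℝ} (ha : B.Sm a) : Continuous a := YauMax_635.continuous_of_sm ha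

/-- Stokes at the end -/
theorem stokes_end (P : Part B) {w f a b : M → ℝ} {X : Set M} (hX : IsClosed X) (hw : B.Sm w)
    (hcpt : ∀ c : ℝ, IsCompact (X ∩ {x | c ≤ w x})) (hf : B.Sm f) (hfX : ∀ x ∉ X, f x = 0)
    (ha : B.Sm a) (hb : B.Sm b) {R₀ : ℝ} (hR : 0 < R₀)
    (hend : ∀ i, ∀ x ∈ (B.e i).source, x ∈ X → w x < -R₀ → hsf B b i x = 0) :
    intD P (fun i x => (f x : ℂ) * pd (hsf B a i x) (hsf B b i x))
      = intD P (fun i x => (a x : ℂ) * pd (hsf B f i x) (hsf B b i x)) := by
  set R : ℝ := R₀ + 1 with hRd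
  have hR1 : 0 < R := by linarith
  set θ : M → ℝ := fun x => f x * th (w x / R) with hθd
  have hwR : B.Sm (fun x => w x / R) := fun i => (hw i).div_const R
  have hθ : B.Sm θ := sm_mul hf (sm_comp th_sm hwR)
  have hθ0 : ∀ x, x ∉ X ∩ {x | -(2 * R) ≤ w x} → θ x = 0 := by
    intro x hx
    by_cases hxX : x ∈ X
    · have h1 : w x < -(2 * R) := by
        by_contra h
        exact hx ⟨hxX, not_lt.1 h⟩
      have h2 : th (w x / R) = 0 := by
        apply th_zero
        rw [div_le_iff₀ hR1]
        linarith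
      simp only [hθd, h2, mul_zero]
    · simp only [hθd, hfX x hxX, zero_mul]
  have h1 := stokes_pd P hθ ha hb (hcpt (-(2 * R))) hθ0
  have e1 : intD P (fun i x => (f x : ℂ) * pd (hsf B a i x) (hsf B b i x))
      = intD P (fun i x => (θ x : ℂ) * pd (hsf B a i x) (hsf B b i x)) := by
    refine intD_congr P fun i x hx => ?_
    by_cases hxX : x ∈ X
    · by_cases hwx : w x < -R₀
      · rw [hend i x hx hxX hwx, pd_zero, mul_zero, mul_zero]
      · have h2 : th (w x / R) = 1 := by
          apply th_one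
          rw [le_div_iff₀ hR1]
          linarith
        simp only [hθd, h2, mul_one]
    · simp only [hθd, hfX x hxX, zero_mul]
  have e2 : intD P (fun i x => (a x : ℂ) * pd (hsf B θ i x) (hsf B b i x))
      = intD P (fun i x => (a x : ℂ) * pd (hsf B f i x) (hsf B b i x)) := by
    refine intD_congr P fun i x hx => ?_
    by_cases hxX : x ∈ X
    · by_cases hwx : w x < -R₀
      · rw [hend i x hx hxX hwx, pd_zero, pd_zero]
      · have h2 : θ =ᶠ[𝓝 x] f := by
          have h3 : -R < w x := by linarith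
          filter_upwards [(cont hw).continuousAt.eventually (lt_mem_nhds h3)] with y hy
          have h4 : th (w y / R) = 1 := by
            apply th_one
            rw [le_div_iff₀ hR1]
            linarith
          simp only [hθd, h4, mul_one]
        rw [hsf_congr hx h2]
    · have h2 : ∀ᶠ y in 𝓝 x, f y = 0 := by
        filter_upwards [hX.isOpen_compl.mem_nhds hxX] with y hy
        exact hfX y hy
      have h3 : ∀ᶠ y in 𝓝 x, θ y = 0 := by
        filter_upwards [h2] with y hy
        simp only [hθd, hy, zero_mul]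
      rw [hsf_zero_of_eventually hx h2, hsf_zero_of_eventually hx h3]
  rw [e1, h1, e2]

theorem stokes_end_one (P : Part B) {w f b : M → ℝ} {X : Set M} (hX : IsClosed X) (hw : B.Sm w)
    (hcpt : ∀ c : ℝ, IsCompact (X ∩ {x | c ≤ w x})) (hf : B.Sm f) (hfX : ∀ x ∉ X, f x = 0)
    (hb : B.Sm b) {R₀ : ℝ} (hR : 0 < R₀)
    (hend : ∀ i, ∀ x ∈ (B.e i).source, x ∈ X → w x < -R₀ → hsf B b i x = 0) :
    intD P (fun i x => pd (hsf B f i x) (hsf B b i x)) = 0 := by
  have h1 := stokes_end P hX hw hcpt hf hfX (sm_cst 1) hb hR hend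
  have e1 : intD P (fun i x => (f x : ℂ) * pd (hsf B (fun _ => (1 : ℝ)) i x) (hsf B b i x)) = 0 := by
    rw [← intD_zero P]
    refine intD_congr P fun i x _ => ?_
    rw [hsf_const, zero_pd, mul_zero]
  rw [e1] at h1
  rw [h1]
  exact intD_congr P fun i x _ => by simp

/-- the transition function -/
def st (s : ℝ) : ℝ := Real.smoothTransition s

theorem st_sm : ContDiff ℝ ∞ st := Real.smoothTransition.contDiff

/-- **comparison**: `∫ chi H(a - b) (∂∂̄a)² ≤ ∫ chi H(a - b) (∂∂̄b)²` -/
theorem compare (P : Part B) {w chi a b : M → ℝ} (hw : B.Sm w) (hchi : B.Sm chi)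
    (hcpt : ∀ c : ℝ, IsCompact (tsupport chi ∩ {x | c ≤ w x})) {c₀ : ℝ}
    (hone : ∀ x ∈ tsupport chi, w x < c₀ → ∀ᶠ y in 𝓝 x, chi y = 1)
    (ha : B.Sm a) (hb : B.Sm b)
    (pa : ∀ i, ∀ x ∈ (B.e i).source, (hsf B a i x).PosSemidef)
    (pb : ∀ i, ∀ x ∈ (B.e i).source, (hsf B b i x).PosSemidef)
    (hneg : ∀ x ∈ tsupport chi, c₀ ≤ w x → a x - b x < 0) {R₀ : ℝ} (hR : 0 < R₀)
    (ea : ∀ i, ∀ x ∈ (B.e i).source, x ∈ tsupport chi → w x < -R₀ → hsf B a i x = 0)
    (eb : ∀ i, ∀ x ∈ (B.e i).source, x ∈ tsupport chi → w x < -R₀ → hsf B b i x = 0) :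
    (intD P (fun i x => ((chi x * st (a x - b x) : ℝ) : ℂ) *
      pd (hsf B a i x) (hsf B a i x))).re ≤
    (intD P (fun i x => ((chi x * st (a x - b x) : ℝ) : ℂ) *
      pd (hsf B b i x) (hsf B b i x))).re := by
  have hX : IsClosed (tsupport chi) := isClosed_tsupport chi
  set φ : M → ℝ := fun x => a x - b x with hφd
  have hφ : B.Sm φ := sm_sub ha hb
  set h : M → ℝ := fun x => chi x * st (φ x) with hh
  set q : M → ℝ := fun x => chi x * Qp (φ x) with hq
  have hhs : B.Sm h := sm_mul hchi (sm_comp st_sm hφ)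
  have hqs : B.Sm q := sm_mul hchi (sm_comp Qp_sm hφ)
  have hchi0 : ∀ x ∉ tsupport chi, chi x = 0 := fun x hx => image_eq_zero_of_notMem_tsupport hx
  have hab : B.Sm (fun x => a x + b x) := sm_add ha hb
  have hS : ∀ i, ∀ x ∈ (B.e i).source, hsf B (fun x => a x + b x) i x
      = hsf B a i x + hsf B b i x := fun i x hx => hsf_add ha hb hx
  -- Stokes
  have h1 : intD P (fun i x => pd (hsf B q i x) (hsf B (fun x => a x + b x) i x)) = 0 :=
    stokes_end_one P hX hw hcpt hqs (fun x hx => by simp only [hq, hchi0 x hx, zero_mul]) hab hR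
      fun i x hx hxX hwx => by rw [hS i x hx, ea i x hx hxX hwx, eb i x hx hxX hwx, add_zero]
  -- the Hessian of `q`
  have key : ∀ i, ∀ x ∈ (B.e i).source,
      (hsf B q i x - (h x : ℂ) • hsf B φ i x).PosSemidef := by
    intro i x hx
    by_cases hxX : x ∈ tsupport chi
    · by_cases hwx : w x < c₀
      · have h2 := hone x hxX hwx
        have e1 : q =ᶠ[𝓝 x] fun y => Qp (φ y) := by
          filter_upwards [h2] with y hy
          simp only [hq, hy, one_mul]
        have e2 : h x = Real.smoothTransition (φ x) := by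
          simp only [hh, h2.self_of_nhds, one_mul]; rfl
        rw [hsf_congr hx e1, e2]
        exact hsf_psd_cv Qp_sm Qp_deriv st_hasDeriv st_deriv_nonneg hφ i hx
      · have h2 : φ x < 0 := hneg x hxX (not_lt.1 hwx)
        have e1 : ∀ᶠ y in 𝓝 x, q y = 0 := by
          filter_upwards [(cont hφ).continuousAt.eventually (gt_mem_nhds h2)] with y hy
          simp only [hq, Qp_zero hy.le, mul_zero]
        have e2 : h x = 0 := by
          simp only [hh, st, Real.smoothTransition.zero_of_nonpos h2.le, mul_zero]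
        rw [hsf_zero_of_eventually hx e1, e2]
        simpa using Matrix.PosSemidef.zero
    · have e1 : ∀ᶠ y in 𝓝 x, q y = 0 := by
        filter_upwards [hX.isOpen_compl.mem_nhds hxX] with y hy
        simp only [hq, hchi0 y hy, zero_mul]
      have e2 : h x = 0 := by simp only [hh, hchi0 x hxX, zero_mul]
      rw [hsf_zero_of_eventually hx e1, e2]
      simpa using Matrix.PosSemidef.zero
  -- supports
  set K : Set M := tsupport chi ∩ {x | -R₀ ≤ w x} with hK
  have hKc : IsCompact K := hcpt _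
  have hcase : ∀ i, ∀ x ∈ (B.e i).source, x ∉ K →
      (h x = 0 ∧ hsf B q i x = 0) ∨ (hsf B a i x = 0 ∧ hsf B b i x = 0) := by
    intro i x hx hxK
    by_cases hxX : x ∈ tsupport chi
    · have hwx : w x < -R₀ := by
        by_contra h2
        exact hxK ⟨hxX, not_lt.1 h2⟩
      exact Or.inr ⟨ea i x hx hxX hwx, eb i x hx hxX hwx⟩
    · refine Or.inl ⟨by simp only [hh, hchi0 x hxX, zero_mul], hsf_zero_of_eventually hx (c := 0) ?_⟩
      filter_upwards [hX.isOpen_compl.mem_nhds hxX] with y hy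
      simp only [hq, hchi0 y hy, zero_mul]
  have offa : OffK B (fun i x => (h x : ℂ) * pd (hsf B a i x) (hsf B a i x)) K := by
    intro i x hx hxK
    show (h x : ℂ) * pd (hsf B a i x) (hsf B a i x) = 0
    rcases hcase i x hx hxK with h2 | h2
    · rw [h2.1]; simp
    · rw [h2.1, pd_zero, mul_zero]
  have offb : OffK B (fun i x => (h x : ℂ) * pd (hsf B b i x) (hsf B b i x)) K := by
    intro i x hx hxK
    show (h x : ℂ) * pd (hsf B b i x) (hsf B b i x) = 0
    rcases hcase i x hx hxK with h2 | h2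
    · rw [h2.1]; simp
    · rw [h2.2, pd_zero, mul_zero]
  have offq : OffK B (fun i x => pd (hsf B q i x) (hsf B (fun x => a x + b x) i x)) K := by
    intro i x hx hxK
    show pd (hsf B q i x) (hsf B (fun x => a x + b x) i x) = 0
    rw [hS i x hx]
    rcases hcase i x hx hxK with h2 | h2
    · rw [h2.2, zero_pd]
    · rw [h2.1, h2.2, add_zero, pd_zero]
  have dq : Den B (fun i x => pd (hsf B q i x) (hsf B (fun x => a x + b x) i x)) := by
    have := den_pdh (sm_cst (B := B) 1) hqs hab
    refine ⟨fun i => (this.sm i).congr fun z _ => by simp, fun i j x hx => ?_⟩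
    have h2 := this.tr i j x hx
    simpa using h2
  have dsum : Den B (fun i x => (h x : ℂ) * pd (hsf B a i x) (hsf B a i x)
      + (-1) * pd (hsf B q i x) (hsf B (fun x => a x + b x) i x)) :=
    (den_pdh hhs ha ha).add (dq.smul (-1))
  have hoff2 : OffK B (fun i x => (h x : ℂ) * pd (hsf B a i x) (hsf B a i x)
      + (-1) * pd (hsf B q i x) (hsf B (fun x => a x + b x) i x)) K := by
    intro i x hx hxK
    have h2 := offa i x hx hxK
    have h3 := offq i x hx hxK
    simp only at h2 h3 ⊢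
    rw [h2, h3]; simp
  have h3 := re_intD_le P dsum (den_pdh hhs hb hb) hKc hoff2 offb (by
    intro i x hx
    have hpd := pd_nonneg (key i x hx) ((pa i x hx).add (pb i x hx))
    have hpi := pd_im_zero (key i x hx) ((pa i x hx).add (pb i x hx))
    have e1 : hsf B φ i x = hsf B a i x - hsf B b i x := hsf_sub ha hb hx
    have e2 : (h x : ℂ) * pd (hsf B b i x) (hsf B b i x) =
        ((h x : ℂ) * pd (hsf B a i x) (hsf B a i x)
          + (-1) * pd (hsf B q i x) (hsf B (fun x => a x + b x) i x))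
        + pd (hsf B q i x - (h x : ℂ) • hsf B φ i x) (hsf B a i x + hsf B b i x) := by
      rw [hS i x hx, e1]
      simp only [pd, Matrix.add_apply, Matrix.sub_apply, Matrix.smul_apply, smul_eq_mul]
      ring
    have e3 := congrArg Complex.re e2
    have e4 := congrArg Complex.im e2
    rw [Complex.add_re (_ + _) (pd _ _)] at e3
    rw [Complex.add_im (_ + _) (pd _ _), hpi, add_zero] at e4
    exact ⟨by linarith, e4.symm⟩)
  have h4 : intD P (fun i x => (h x : ℂ) * pd (hsf B a i x) (hsf B a i x)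
      + (-1) * pd (hsf B q i x) (hsf B (fun x => a x + b x) i x))
      = intD P (fun i x => (h x : ℂ) * pd (hsf B a i x) (hsf B a i x)) := by
    have hoff3 : OffK B (fun i x => (-1) * pd (hsf B q i x) (hsf B (fun x => a x + b x) i x)) K :=
      offq.mul_left fun _ _ => -1
    rw [intD_add P (den_pdh hhs ha ha).sm (dq.smul (-1)).sm hKc offa hoff3,
      intD_smul P (-1) hKc offq, h1, mul_zero, add_zero]
  rw [h4] at h3
  exact h3

end

end Crest.Agent.R257.Cmp3_101
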