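import Crest.Agent.R257.Cnm3_889

/-!
Row 257 (S0395), leaf CNM (helper889), part 5 (Mathlib only): from commuting matrices to the algebra.
-/

set_option autoImplicit false

open Module Filter Topology Matrix
open scoped IsMulCommutative

noncomputable section

namespace Crest.Agent.R257.Cnm5_889

open Crest.Agent.R257.Cnm3_889

section Alg

variable {n N : ℕ} (M : Fin n → Matrix (Fin N) (Fin N) ℂ)

/-- the algebra generated by the matrices -/
abbrev SA : Subalgebra ℂ (Matrix (Fin N) (Fin N) ℂ) := Algebra.adjoin ℂ (Set.range M)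

/-- the generators -/
def mA (k : Fin n) : SA M := ⟨M k, Algebra.subset_adjoin ⟨k, rfl⟩⟩

lemma comm_SA (hc : ∀ i j, M i * M j = M j * M i) : IsMulCommutative (SA M) :=
  Algebra.isMulCommutative_adjoin ℂ (by rintro _ ⟨i, rfl⟩ _ ⟨j, rfl⟩; exact hc i j)

/-- the cyclic vector -/
def phi (u : Fin N → ℂ) : SA M →ₗ[ℂ] (Fin N → ℂ) where
  toFun s := s.1 *ᵥ u
  map_add' s t := by rw [Subalgebra.coe_add, Matrix.add_mulVec]
  map_smul' c s := by rw [Subalgebra.coe_smul, Matrix.smul_mulVec, RingHom.id_apply]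

@[simp] lemma phi_apply (u : Fin N → ℂ) (s : SA M) : phi M u s = s.1 *ᵥ u := rfl

lemma coe_wd (w : List (Fin n)) : ((wd w (mA M) : SA M) : Matrix (Fin N) (Fin N) ℂ) = wd w M :=
  wd_map ((SA M).val : SA M →* Matrix (Fin N) (Fin N) ℂ) _ _

lemma phi_mul (u : Fin N → ℂ) (s t : SA M) : phi M u (s * t) = s.1 *ᵥ (phi M u t) := by
  rw [phi_apply, phi_apply, Subalgebra.coe_mul, Matrix.mulVec_mulVec]

variable {M}

lemma phi_bij {u : Fin N → ℂ} {w : Fin N → List (Fin n)} (hc : ∀ i j, M i * M j = M j * M i)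
    (hw : ∀ l, wd (w l) M *ᵥ u = Pi.single l 1) : Function.Bijective (phi M u) := by
  have hcS := comm_SA M hc
  constructor
  · rw [injective_iff_map_eq_zero]
    intro s hs
    apply Subtype.ext
    have h1 : ∀ l, s.1 *ᵥ (Pi.single l 1 : Fin N → ℂ) = 0 := by
      intro l
      have h2 : s * wd (w l) (mA M) = wd (w l) (mA M) * s := mul_comm _ _
      have h3 := phi_mul M u s (wd (w l) (mA M))
      rw [h2, phi_mul, hs, Matrix.mulVec_zero, phi_apply, coe_wd, hw] at h3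
      exact h3.symm
    ext i j
    have h4 := congrFun (h1 j) i
    rw [Matrix.mulVec_single_one] at h4
    exact h4
  · intro v
    refine ⟨∑ l, v l • wd (w l) (mA M), ?_⟩
    rw [map_sum]
    have h1 : ∀ l, phi M u (v l • wd (w l) (mA M)) = v l • (Pi.single l 1 : Fin N → ℂ) := by
      intro l
      rw [map_smul, phi_apply, coe_wd, hw]
    simp only [h1]
    exact (pi_eq_sum_univ' v).symm

end Alg

/-- matrix data -/
structure MDat (n N : ℕ) (ι : Type) [Fintype ι] where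
  w : Fin N → List (Fin n)
  M : Fin n → Matrix (Fin N) (Fin N) ℂ
  u : Fin N → ℂ
  hcomm : ∀ i j, M i * M j = M j * M i
  hw : ∀ l, wd (w l) M *ᵥ u = Pi.single l 1
  r : ℝ
  G : ι → (Fin n → ℂ) → ℂ
  α : ι → (Fin n → ℂ) → ℂ
  β : Fin n → Fin N → ι → (Fin n → ℂ) → ℂ
  g : ι → ℂ
  R : ι → Fin n → (Fin n → ℂ) → ℂ
  ρ : ι → Fin n → Fin N → ℂ
  a : ι → Fin n → ι → (Fin n → ℂ) → ℂ
  D1 : ∀ x, ‖x‖ < r → 1 = ∑ l, u l * wd (w l) x + ∑ j, α j x * G j x
  D2 : ∀ x, ‖x‖ < r → ∀ k l, x k * wd (w l) x = ∑ i, M k i l * wd (w i) x + ∑ j, β k l j x * G j x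
  D3 : ∀ x, ‖x‖ < r → ∀ j, G j x = g j + ∑ k, x k * R j k x
  D4 : ∀ x, ‖x‖ < r → ∀ j k, R j k x = ∑ l, ρ j k l * wd (w l) x + ∑ j', a j k j' x * G j' x
  S1 : ∀ j, g j • u + ∑ k, M k *ᵥ ρ j k = 0
  C : ℝ
  hC : ∀ x, ‖x‖ < r → ∀ j k j', ‖a j k j' x‖ ≤ C
  ε : ℝ
  hε0 : 0 < ε
  hεr : ε ≤ r
  hε : (Fintype.card ι : ℝ) * (n * (ε * C)) < 1
  K : ℕ
  hK : ∀ k l, ∑ i, ‖(M k ^ K) i l‖ < ε ^ K
  dG : ∀ x, ‖x‖ < r → ∀ j, DifferentiableAt ℂ (G j) x
  dR : ∀ x, ‖x‖ < r → ∀ j k, DifferentiableAt ℂ (R j k) x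
  da : ∀ x, ‖x‖ < r → ∀ j k j', DifferentiableAt ℂ (a j k j') x

namespace MDat

variable {n N : ℕ} {ι : Type} [Fintype ι] (d : MDat n N ι)

instance : IsMulCommutative (SA d.M) := comm_SA d.M d.hcomm

/-- the basis -/
def equiv : SA d.M ≃ₗ[ℂ] (Fin N → ℂ) := LinearEquiv.ofBijective (phi d.M d.u) (phi_bij d.hcomm d.hw)

lemma equiv_apply (s : SA d.M) : d.equiv s = s.1 *ᵥ d.u := rfl

/-- the basis -/
def b : Basis (Fin N) ℂ (SA d.M) := (Pi.basisFun ℂ (Fin N)).map d.equiv.symm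

lemma equiv_b (l : Fin N) : d.equiv (d.b l) = Pi.single l 1 := by
  rw [b, Basis.map_apply, LinearEquiv.apply_symm_apply, Pi.basisFun_apply]

lemma equiv_sum (v : Fin N → ℂ) : d.equiv (∑ l, v l • d.b l) = v := by
  rw [map_sum]
  simp only [map_smul, equiv_b]
  exact (pi_eq_sum_univ' v).symm

lemma equiv_mul (s t : SA d.M) : d.equiv (s * t) = s.1 *ᵥ d.equiv t := phi_mul _ _ _ _

lemma mul_b (s : SA d.M) (l : Fin N) : s * d.b l = ∑ i, s.1 i l • d.b i := by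
  apply d.equiv.injective
  rw [equiv_mul, equiv_b, d.equiv_sum (fun i => s.1 i l), Matrix.mulVec_single_one]
  rfl

lemma hb (l : Fin N) : d.b l = wd (d.w l) (mA d.M) := by
  apply d.equiv.injective
  rw [equiv_b, equiv_apply, coe_wd, d.hw]

lemma norm_chi_le (χ : SA d.M →ₐ[ℂ] ℂ) (s : SA d.M) {δ : ℝ} (h : ∀ l, ∑ i, ‖s.1 i l‖ < δ) :
    ‖χ s‖ < δ := by
  have h1 : ∃ l, χ (d.b l) ≠ 0 := by
    by_contra hcon
    push Not at hcon
    have h2 : χ.toLinearMap = 0 := d.b.ext (fun l => by rw [AlgHom.toLinearMap_apply, hcon]; rfl)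
    have h3 : χ 1 = 0 := by
      have := LinearMap.congr_fun h2 1
      rwa [AlgHom.toLinearMap_apply] at this
    rw [map_one] at h3
    exact one_ne_zero h3
  obtain ⟨l₀, hl₀⟩ := h1
  obtain ⟨l, -, hl⟩ := Finset.exists_max_image Finset.univ (fun l => ‖χ (d.b l)‖)
    ⟨l₀, Finset.mem_univ _⟩
  have hpos : 0 < ‖χ (d.b l)‖ := (norm_pos_iff.2 hl₀).trans_le (hl l₀ (Finset.mem_univ _))
  have h2 : χ s * χ (d.b l) = ∑ i, s.1 i l * χ (d.b i) := by
    rw [← map_mul, d.mul_b, map_sum]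
    exact Finset.sum_congr rfl (fun i _ => by rw [map_smul, smul_eq_mul])
  have h3 : ‖χ s‖ * ‖χ (d.b l)‖ ≤ (∑ i, ‖s.1 i l‖) * ‖χ (d.b l)‖ := by
    rw [← norm_mul, h2, Finset.sum_mul]
    refine (norm_sum_le _ _).trans (Finset.sum_le_sum (fun i _ => ?_))
    rw [norm_mul]
    exact mul_le_mul_of_nonneg_left (hl i (Finset.mem_univ _)) (norm_nonneg _)
  exact (le_of_mul_le_mul_right h3 hpos).trans_lt (h l)

/-- the algebra data -/
def toDat : Dat n N ι (SA d.M) where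
  b := d.b
  m := mA d.M
  w := d.w
  hb := d.hb
  M := d.M
  hM k l := d.mul_b (mA d.M k) l
  u := d.u
  hu := by
    apply d.equiv.injective
    rw [d.equiv_sum, equiv_apply, Subalgebra.coe_one, Matrix.one_mulVec]
  r := d.r
  G := d.G
  α := d.α
  β := d.β
  g := d.g
  R := d.R
  ρ := d.ρ
  a := d.a
  D1 := d.D1
  D2 := d.D2
  D3 := d.D3
  D4 := d.D4
  S1 j := by
    apply d.equiv.injective
    rw [map_add, map_smul, map_sum, map_zero]
    have h1 : d.equiv 1 = d.u := by rw [equiv_apply, Subalgebra.coe_one, Matrix.one_mulVec]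
    rw [h1, ← d.S1 j]
    congr 1
    refine Finset.sum_congr rfl (fun k _ => ?_)
    rw [equiv_mul, d.equiv_sum]
    rfl
  C := d.C
  hC := d.hC
  ε := d.ε
  hε0 := d.hε0
  hεr := d.hεr
  hε := d.hε
  hχ χ k := by
    have h1 : ‖χ (mA d.M k ^ d.K)‖ < d.ε ^ d.K := by
      refine d.norm_chi_le χ _ (fun l => ?_)
      have h2 : ((mA d.M k ^ d.K : SA d.M) : Matrix (Fin N) (Fin N) ℂ) = d.M k ^ d.K := rfl
      rw [h2]
      exact d.hK k l
    rw [map_pow, norm_pow] at h1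
    exact lt_of_pow_lt_pow_left₀ _ d.hε0.le h1
  dG := d.dG
  dR := d.dR
  da := d.da

/-- the zero set -/
def Z : Set (Fin n → ℂ) := {x | ‖x‖ < d.r ∧ ∀ j, d.G j x = 0}

theorem finite_Z : d.Z.Finite := d.toDat.finite_Z

theorem ncard_le : d.Z.ncard ≤ N := d.toDat.ncard_le

theorem norm_lt_of_mem {x : Fin n → ℂ} (hx : x ∈ d.Z) : ‖x‖ < d.ε := d.toDat.norm_lt_of_mem hx

theorem ncard_eq (hnd : ∀ x ∈ d.Z, ∀ v : Fin n → ℂ, (∀ j, fderiv ℂ (d.G j) x v = 0) → v = 0) :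
    d.Z.ncard = N := d.toDat.ncard_eq hnd

end MDat

end Crest.Agent.R257.Cnm5_889
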