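import Crest.Agent.R257.Tay_812
import Crest.Agent.R257.Cnm5_889

/-!
Row 257 (S0395), leaf CNE (helper812), part 1: if the zero set of `G` in the ball is the origin,
the local ring `O_n/(G)` has dimension at least `N = dim S` (algebra data of helper889).
-/

set_option autoImplicit false
set_option linter.unusedSectionVars false

open Set Filter Topology
open Crest.Agent.R275.Loc2879
open Crest.Agent.R257.Fin554 Crest.Agent.R257.Uni554
open Crest.Agent.R257.Cnm3_889 Crest.Agent.R257.Cnm4_889 Crest.Agent.R257.Tay_812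

noncomputable section

namespace Crest.Agent.R257.Cne_812

variable {n : ℕ}

lemma an_wd (w : List (Fin n)) (p : Fin n → ℂ) : AnalyticAt ℂ (fun x : Fin n → ℂ => wd w x) p := by
  induction w with
  | nil => simpa using analyticAt_const
  | cons k w ih =>
    have : (fun x : Fin n → ℂ => wd (k :: w) x) = fun x => x k * wd w x := by
      funext x; rw [wd_cons]
    rw [this]
    exact (analyticAt_coord' k p).mul ih

lemma wd_Xo (w : List (Fin n)) : wd w Xo = gm (fun x : Fin n → ℂ => wd w x) (an_wd w 0) := by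
  induction w with
  | nil => rfl
  | cons k w ih =>
    rw [wd_cons, ih, Xo, gm_mul, gm_eq_gm]
    exact Eventually.of_forall fun x => by simp

variable {N : ℕ} {ι : Type} [Fintype ι] {S : Type} [CommRing S] [Algebra ℂ S]

theorem finrank_ge (d : Dat n N ι S) (hZ : d.Z ⊆ {0})
    (hG : ∀ j, AnalyticAt ℂ (d.G j) 0) (hR : ∀ j k, AnalyticAt ℂ (d.R j k) 0)
    (ha : ∀ j k j', AnalyticAt ℂ (d.a j k j') 0)
    (hfin : Module.Finite ℂ (On n ⧸ Ideal.span (range fun j => gm (d.G j) (hG j)))) :
    N ≤ Module.finrank ℂ (On n ⧸ Ideal.span (range fun j => gm (d.G j) (hG j))) := by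
  have hS : Module.Finite ℂ S := Module.Finite.of_basis d.b
  have hnil : ∀ k, IsNilpotent (d.m k) := by
    intro k
    refine isNilpotent_of_chars fun χ => ?_
    have h1 := hZ (d.chi_mem χ)
    exact congrFun (mem_singleton_iff.1 h1) k
  obtain ⟨K, hK⟩ := exists_pow_eq_bot hnil
  have hr : 0 < d.r := d.hε0.trans_le d.hεr
  have hball : ∀ᶠ x in 𝓝 (0 : Fin n → ℂ), ‖x‖ < d.r := by
    have : Tendsto (fun x : Fin n → ℂ => ‖x‖) (𝓝 0) (𝓝 0) := by
      simpa using (continuous_norm (E := Fin n → ℂ)).tendsto 0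
    exact this.eventually (gt_mem_nhds hr)
  have e1 : ∀ j, gm (d.G j) (hG j) = algebraMap ℂ (On n) (d.g j) +
      ∑ k, Xo k * gm (d.R j k) (hR j k) := by
    intro j
    obtain ⟨h', h2⟩ := gm_sum (p := (0 : Fin n → ℂ)) Finset.univ (fun k x => x k * d.R j k x)
      (fun k => (analyticAt_coord' k 0).mul (hR j k))
    have h3 : (∑ k, Xo k * gm (d.R j k) (hR j k) : On n) = gm _ h' := by
      rw [← h2]
      exact Finset.sum_congr rfl fun k _ => by rw [Xo, gm_mul]; rfl
    rw [h3, Crest.Agent.R275.Loc2879.algebraMap_apply, gm_add, gm_eq_gm]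
    filter_upwards [hball] with x hx
    exact d.D3 x hx j
  have e2 : ∀ j k, gm (d.R j k) (hR j k) = ∑ l, algebraMap ℂ (On n) (d.ρ j k l) * wd (d.w l) Xo +
      ∑ j', gm (d.a j k j') (ha j k j') * gm (d.G j') (hG j') := by
    intro j k
    obtain ⟨h', h2⟩ := gm_sum (p := (0 : Fin n → ℂ)) Finset.univ
      (fun l x => d.ρ j k l * wd (d.w l) x) (fun l => analyticAt_const.mul (an_wd _ 0))
    obtain ⟨h'', h3⟩ := gm_sum (p := (0 : Fin n → ℂ)) Finset.univ
      (fun j' x => d.a j k j' x * d.G j' x) (fun j' => (ha j k j').mul (hG j'))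
    have h4 : (∑ l, algebraMap ℂ (On n) (d.ρ j k l) * wd (d.w l) Xo : On n) = gm _ h' := by
      rw [← h2]
      exact Finset.sum_congr rfl fun k _ => by
        rw [wd_Xo, Crest.Agent.R275.Loc2879.algebraMap_apply, gm_mul]; rfl
    have h5 : (∑ j', gm (d.a j k j') (ha j k j') * gm (d.G j') (hG j') : On n) = gm _ h'' := by
      rw [← h3]
      exact Finset.sum_congr rfl fun k _ => by rw [gm_mul]; rfl
    rw [h4, h5, gm_add, gm_eq_gm]
    filter_upwards [hball] with x hx
    exact d.D4 x hx j k
  set ev := evm d.m K hK with hev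
  have e3 : ∀ j, ev (gm (d.G j) (hG j)) =
      ∑ k, d.m k * ∑ j', ev (gm (d.a j k j') (ha j k j')) * ev (gm (d.G j') (hG j')) := by
    intro j
    have h1 := congrArg ev (e1 j)
    rw [map_add, map_sum, AlgHom.commutes] at h1
    have h2 : ∀ k, ev (Xo k * gm (d.R j k) (hR j k)) = d.m k * ∑ l, d.ρ j k l • d.b l +
        d.m k * ∑ j', ev (gm (d.a j k j') (ha j k j')) * ev (gm (d.G j') (hG j')) := by
      intro k
      rw [map_mul, hev, evm_Xo, ← hev, e2 j k, map_add, map_sum, map_sum, mul_add]
      congr 2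
      · refine Finset.sum_congr rfl fun l _ => ?_
        rw [map_mul, AlgHom.commutes, hev, evm_wd, ← d.hb, Algebra.smul_def]
      · exact Finset.sum_congr rfl fun l _ => by rw [map_mul]
    simp only [h2] at h1
    rw [Finset.sum_add_distrib] at h1
    have h3 := d.S1 j
    rw [Algebra.smul_def, mul_one] at h3
    rw [h1, ← add_assoc, h3, zero_add]
  have e4 : ∀ r : ℕ, ∀ j, ev (gm (d.G j) (hG j)) ∈ Ideal.span (range d.m) ^ r := by
    intro r
    induction r with
    | zero => intro j; simp
    | succ r ih =>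
      intro j
      rw [e3 j, pow_succ']
      refine Ideal.sum_mem _ fun k _ => ?_
      exact Ideal.mul_mem_mul (Ideal.subset_span (mem_range_self k))
        (Ideal.sum_mem _ fun j' _ => Ideal.mul_mem_left _ _ (ih j'))
  have e5 : ∀ j, ev (gm (d.G j) (hG j)) = 0 := by
    intro j
    have := e4 K j
    rwa [hK, Ideal.mem_bot] at this
  have e6 : ∀ b ∈ Ideal.span (range fun j => gm (d.G j) (hG j)), ev b = 0 := by
    intro b hb
    have h1 : Ideal.span (range fun j => gm (d.G j) (hG j)) ≤ RingHom.ker (ev : On n →+* S) := by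
      rw [Ideal.span_le]
      rintro _ ⟨j, rfl⟩
      exact e5 j
    exact h1 hb
  let L : (On n ⧸ Ideal.span (range fun j => gm (d.G j) (hG j))) →ₐ[ℂ] S :=
    Ideal.Quotient.liftₐ _ ev e6
  have hL : Function.Surjective L := by
    intro s
    have h1 : s ∈ LinearMap.range L.toLinearMap := by
      rw [← d.b.sum_repr s]
      refine Submodule.sum_mem _ fun l _ => Submodule.smul_mem _ _ ?_
      refine ⟨Ideal.Quotient.mk _ (wd (d.w l) Xo), ?_⟩
      rw [AlgHom.toLinearMap_apply]
      show ev (wd (d.w l) Xo) = _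
      rw [hev, evm_wd, d.hb]
    exact h1
  have h7 := LinearMap.finrank_le_finrank_of_surjective (f := L.toLinearMap) hL
  rwa [Module.finrank_eq_card_basis d.b, Fintype.card_fin] at h7

end Crest.Agent.R257.Cne_812
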