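import Crest.Agent.R257.Uni2_554
import Crest.Agent.R257.CNS_939

/-!
Row 257 (S0395), task JU-DOM (helper142), part 1: families of germs of functions on `ℂⁿ` with
SEVERAL parameters `t ∈ ℂᵏ`: data at `t = 0`, upper semicontinuity of `col`, uniform inclusion when
`col` is constant, zeros only at `x = 0`.  (One parameter: helper554, helper939; same proof.)
-/

set_option autoImplicit false
set_option linter.unusedSectionVars false

open Set Filter Topology Metric Complex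
open Crest.Agent.R275.Loc2879
open Crest.Agent.R257.Defs_219
open Crest.Agent.R257.Fin554 (FinOver mM QF FinProp sndR finProp_sndR)
open Crest.Agent.R257.UI939 (BB Idl mem_Idl gz gz_eq xB xB_not_unit JJ mon JJ_le_of_finrank
  hadamard span_of_rel finite_of_span exists_sum_gm' gm_mon an_coord gz_mon)

noncomputable section

namespace Crest.Agent.R257.Par142

variable {n k : ℕ}

/-- `ℂⁿ × ℂᵏ` -/
abbrev PP (n k : ℕ) : Type := (Fin n → ℂ) × (Fin k → ℂ)

/-- germs on `ℂⁿ × ℂᵏ` -/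
abbrev AA (n k : ℕ) : Type := OO (((0 : Fin n → ℂ), (0 : Fin k → ℂ)))

/-- functions of `x` -/
def ll (n k : ℕ) : BB n →+* AA n k := pull Prod.fst analyticAt_fst rfl

/-- restriction to `t = 0` -/
def rr (n k : ℕ) : AA n k →+* BB n :=
  pull (fun x : Fin n → ℂ => ((x, 0) : PP n k)) (analyticAt_id.prod analyticAt_const) rfl

/-- the coordinates of the parameter space -/
def Tc (l : Fin k) : OO (0 : Fin k → ℂ) := gm (fun y => y l) (an_coord l 0)

lemma rr_ll (a : BB n) : rr n k (ll n k a) = a := by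
  obtain ⟨f, hf, rfl⟩ := exists_gm a
  rfl

lemma rr_surj : Function.Surjective (rr n k) := fun x => ⟨ll n k x, rr_ll x⟩

lemma rr_sndR (a : OO (0 : Fin k → ℂ)) :
    rr n k (sndR n 0 a) = algebraMap ℂ _ (evp 0 a) := by
  obtain ⟨f, hf, rfl⟩ := exists_gm a
  rfl

lemma Tc_mem (l : Fin k) : Tc l ∈ IsLocalRing.maximalIdeal (OO (0 : Fin k → ℂ)) := by
  rw [IsLocalRing.mem_maximalIdeal, mem_nonunits_iff, Tc, isUnit_gm]
  simp

/-- Hadamard in the parameters -/
theorem had_par (b : AA n k) : ∃ q : Fin k → AA n k,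
    b = ll n k (rr n k b) + ∑ l, sndR n 0 (Tc l) * q l := by
  -- swap the factors
  let sw : AA n k →+* OO (((0 : Fin k → ℂ), (0 : Fin n → ℂ))) :=
    pull (fun p : (Fin k → ℂ) × (Fin n → ℂ) => ((p.2, p.1) : PP n k))
      (analyticAt_snd.prod analyticAt_fst) rfl
  let ws : OO (((0 : Fin k → ℂ), (0 : Fin n → ℂ))) →+* AA n k :=
    pull (fun p : PP n k => ((p.2, p.1) : (Fin k → ℂ) × (Fin n → ℂ)))
      (analyticAt_snd.prod analyticAt_fst) rfl
  have hws : ∀ a, ws (sw a) = a := by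
    intro a
    obtain ⟨f, hf, rfl⟩ := exists_gm a
    rfl
  obtain ⟨c, q, h⟩ := Uni554.hadG (0 : Fin n → ℂ) k (sw b)
  have h1 := congrArg ws h
  rw [hws, map_add, map_sum] at h1
  simp only [map_mul] at h1
  have h2 : ws (sndR k 0 c) = ll n k c := by
    obtain ⟨f, hf, rfl⟩ := exists_gm c
    rfl
  have h3 : ∀ l : Fin k, ws (Uni554.Xc k (0 : Fin n → ℂ) l) = sndR n 0 (Tc l) := fun l => rfl
  have h4 : rr n k b = c := by
    rw [h1, map_add, h2, rr_ll, map_sum]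
    have : ∀ l : Fin k, rr n k (ws (Uni554.Xc k (0 : Fin n → ℂ) l) * ws (q l)) = 0 := by
      intro l
      rw [map_mul, h3, rr_sndR, Tc, evp_gm]
      simp
    simp [this]
  refine ⟨fun l => ws (q l), ?_⟩
  rw [h4, ← h2]
  simp only [← h3]
  exact h1

/-- Nakayama's lemma for `B/I` over `A` -/
theorem nak {A B : Type*} [CommRing A] [IsLocalRing A] [CommRing B] (φ : A →+* B) (I : Ideal B)
    (hF : FinOver φ (B ⧸ I)) {μ : ℕ} (e : Fin μ → B)
    (h : ∀ b : B, ∃ (c : Fin μ → A) (i : B) (a : Fin k → A) (q : Fin k → B), i ∈ I ∧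
      (∀ l, a l ∈ IsLocalRing.maximalIdeal A) ∧
        b = ∑ j, φ (c j) * e j + (i + ∑ l, φ (a l) * q l)) :
    ∀ b : B, ∃ c : Fin μ → A, b - ∑ j, φ (c j) * e j ∈ I := by
  let _ : Module A (B ⧸ I) := Module.compHom (B ⧸ I) φ
  let N : Submodule A (B ⧸ I) := Submodule.span _ (range fun j => Ideal.Quotient.mk I (e j))
  have hfg : (⊤ : Submodule A (B ⧸ I)).FG := by
    classical
    obtain ⟨m, e, he⟩ := hF
    refine ⟨Finset.univ.image e, ?_⟩
    rw [eq_top_iff]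
    intro x _
    obtain ⟨c, hc⟩ := he x
    rw [hc]
    refine Submodule.sum_mem _ (fun i _ => ?_)
    exact Submodule.smul_mem _ (c i) (Submodule.subset_span (by simp))
  have hN : (⊤ : Submodule A (B ⧸ I)) ≤ N := by
    refine Submodule.le_of_le_smul_of_le_jacobson_bot (I := IsLocalRing.maximalIdeal A)
      hfg (IsLocalRing.maximalIdeal_le_jacobson _) ?_
    intro x _
    obtain ⟨b, rfl⟩ := Ideal.Quotient.mk_surjective x
    obtain ⟨c, i, a, q, hi, ha, hb⟩ := h b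
    have h3 : Ideal.Quotient.mk I b = (∑ j, (c j) • Ideal.Quotient.mk I (e j)) +
        ∑ l, a l • Ideal.Quotient.mk I (q l) := by
      rw [hb, map_add, map_add, Ideal.Quotient.eq_zero_iff_mem.2 hi, zero_add, map_sum, map_sum]
      rfl
    rw [h3]
    refine Submodule.add_mem_sup ?_ (Submodule.sum_mem _ fun l _ =>
      Submodule.smul_mem_smul (ha l) trivial)
    exact Submodule.sum_mem _ (fun j _ => Submodule.smul_mem _ _
      (Submodule.subset_span ⟨j, rfl⟩))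
  intro b
  have h1 : Ideal.Quotient.mk I b ∈ N := hN trivial
  obtain ⟨c, hc⟩ := (Submodule.mem_span_range_iff_exists_fun _).1 h1
  refine ⟨c, ?_⟩
  rw [← Ideal.Quotient.eq, ← hc, map_sum]
  rfl

lemma rr_max {b : AA n k} {μ : ℕ} (hb : b ∈ (IsLocalRing.maximalIdeal (AA n k)) ^ μ) :
    rr n k b ∈ (IsLocalRing.maximalIdeal (BB n)) ^ μ := by
  have h3 : (IsLocalRing.maximalIdeal (AA n k)).map (rr n k) ≤
      IsLocalRing.maximalIdeal (BB n) := by
    rw [Ideal.map_le_iff_le_comap]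
    intro a ha
    rw [Ideal.mem_comap]
    rw [IsLocalRing.mem_maximalIdeal, mem_nonunits_iff] at ha ⊢
    intro h4
    apply ha
    obtain ⟨f, hf, rfl⟩ := exists_gm a
    rw [rr, pull_gm, isUnit_gm] at h4
    rw [isUnit_gm]
    exact h4
  have h4 : ((IsLocalRing.maximalIdeal (AA n k)) ^ μ).map (rr n k) ≤
      (IsLocalRing.maximalIdeal (BB n)) ^ μ := by
    rw [Ideal.map_pow]
    exact Ideal.pow_right_mono h3 μ
  exact h4 (Ideal.mem_map_of_mem _ hb)

variable {κ : Type*} [Fintype κ]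

lemma an_slice {f : PP n k → ℂ} {t : Fin k → ℂ} (hf : AnalyticAt ℂ f (0, t)) :
    AnalyticAt ℂ (fun x => f (x, t)) (0 : Fin n → ℂ) :=
  AnalyticAt.comp (g := f) (f := fun x : Fin n → ℂ => (x, t)) hf
      (analyticAt_id.prod analyticAt_const)

lemma tendsto_0t : Tendsto (fun t : Fin k → ℂ => ((0, t) : PP n k)) (𝓝 0) (𝓝 0) := by
  have : Continuous (fun t : Fin k → ℂ => ((0, t) : PP n k)) := by fun_prop
  exact this.tendsto' _ _ rfl

/-- the quotient of the slice at `t` -/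
abbrev QQ (G : κ → PP n k → ℂ) (t : Fin k → ℂ) : Type :=
  BB n ⧸ Idl (0 : Fin n → ℂ) (fun j x => G j (x, t))

/-- preparation: generators of `B/(G)` over the germs in `t` -/
theorem generators (G : κ → PP n k → ℂ) (hG : ∀ i, AnalyticAt ℂ (G i) 0) (μ : ℕ)
    (hfin : Module.Finite ℂ (QQ G 0)) (hrk : Module.finrank ℂ (QQ G 0) = μ) :
    ∃ e : Fin μ → BB n, ∀ b : AA n k, ∃ c : Fin μ → OO (0 : Fin k → ℂ),
      b - ∑ j, sndR n 0 (c j) * ll n k (e j) ∈
        Ideal.span (range fun i => (gm (G i) (hG i) : AA n k)) := by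
  set I : Ideal (AA n k) := Ideal.span (range fun i => (gm (G i) (hG i) : AA n k)) with hI
  set J : Ideal (BB n) := Idl (0 : Fin n → ℂ) (fun i x => G i (x, 0)) with hJ
  have hmap : I.map (rr n k) = J := by
    rw [hI, Ideal.map_span, hJ, Idl]
    congr 1
    rw [← range_comp]
    refine congrArg range (funext fun i => ?_)
    rw [gz_eq (an_slice (hG i))]
    rfl
  have hker : ∀ b : AA n k, rr n k b = 0 → ∃ q : Fin k → AA n k,
      b = ∑ l, sndR n 0 (Tc l) * q l := by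
    intro b hb
    obtain ⟨q, hq⟩ := had_par b
    exact ⟨q, by rw [hb, map_zero, zero_add] at hq; exact hq⟩
  have hrJ : ∀ b : AA n k, rr n k b ∈ J → ∃ i ∈ I, ∃ q : Fin k → AA n k,
      b = i + ∑ l, sndR n 0 (Tc l) * q l := by
    intro b hb
    rw [← hmap] at hb
    obtain ⟨i, hi, hib⟩ := (Ideal.mem_map_iff_of_surjective _ rr_surj).1 hb
    obtain ⟨q, hq⟩ := hker (b - i) (by rw [map_sub, hib, sub_self])
    exact ⟨i, hi, q, by rw [← hq]; ring⟩
  -- finiteness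
  have hF : FinOver (sndR n (0 : Fin k → ℂ)) (AA n k ⧸ I) := by
    refine finProp_sndR (0 : Fin k → ℂ) n (AA n k ⧸ I) ?_ ?_
    · refine ⟨1, fun _ => 1, fun x => ?_⟩
      obtain ⟨b, rfl⟩ := Ideal.Quotient.mk_surjective x
      refine ⟨fun _ => b, ?_⟩
      simp only [Finset.univ_unique, Finset.sum_singleton, RingHom.id_apply]
      rw [Algebra.smul_def, mul_one]; rfl
    · refine ⟨μ, fun b hb x => ?_⟩
      have h1 : rr n k b ∈ J := Uni554.pow_le J hfin hrk (rr_max hb)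
      obtain ⟨i, hi, q, rfl⟩ := hrJ b h1
      obtain ⟨y, rfl⟩ := Ideal.Quotient.mk_surjective x
      have h2 : (i + ∑ l, sndR n 0 (Tc l) * q l) • Ideal.Quotient.mk I y =
          ∑ l, sndR n (0 : Fin k → ℂ) (Tc l) • Ideal.Quotient.mk I (q l * y) := by
        have h3 : ∑ l, sndR n (0 : Fin k → ℂ) (Tc l) • Ideal.Quotient.mk I (q l * y) =
            Ideal.Quotient.mk I (∑ l, sndR n (0 : Fin k → ℂ) (Tc l) * (q l * y)) := by
          rw [map_sum]; rfl
        rw [h3]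
        change Ideal.Quotient.mk I ((i + ∑ l, sndR n 0 (Tc l) * q l) * y) = _
        rw [Ideal.Quotient.eq]
        have : (i + ∑ l, sndR n (0 : Fin k → ℂ) (Tc l) * q l) * y -
            ∑ l, sndR n (0 : Fin k → ℂ) (Tc l) * (q l * y) = i * y := by
          rw [add_mul, Finset.sum_mul]
          simp only [mul_assoc]
          ring
        rw [this]
        exact Ideal.mul_mem_right _ _ hi
      rw [h2]
      exact AddSubmonoid.sum_mem _ fun l _ =>
        AddSubmonoid.subset_closure ⟨Tc l, Tc_mem l, _, rfl⟩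
  -- the basis
  have hfree : Module.Free ℂ (BB n ⧸ J) := Module.Free.of_divisionRing ℂ _
  let bas : Module.Basis (Fin μ) ℂ (BB n ⧸ J) := Module.finBasisOfFinrankEq _ _ hrk
  choose g hg using fun j => Ideal.Quotient.mk_surjective (I := J) (bas j)
  refine ⟨fun j => g j, nak (k := k) _ _ hF _ (fun b => ?_)⟩
  have h1 := bas.sum_repr (Ideal.Quotient.mk J (rr n k b))
  set γ := bas.repr (Ideal.Quotient.mk J (rr n k b)) with hγ
  have h2 : rr n k (b - ∑ j, sndR n 0 (algebraMap ℂ _ (γ j)) * ll n k (g j)) ∈ J := by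
    rw [map_sub, ← Ideal.Quotient.eq_zero_iff_mem, map_sub, ← h1, map_sum, map_sum, sub_eq_zero]
    refine Finset.sum_congr rfl (fun j _ => ?_)
    rw [map_mul, rr_ll, rr_sndR, evp_algebraMap, map_mul, hg, Algebra.smul_def]
    rfl
  obtain ⟨i, hi, q, hq⟩ := hrJ _ h2
  refine ⟨fun j => algebraMap ℂ _ (γ j), i, Tc, q, hi, Tc_mem, ?_⟩
  rw [← hq]; ring

/-- DATA: lifts of a basis at `t = 0` generate over the germs in the parameters -/
theorem exists_data (G : κ → PP n k → ℂ) (hG : ∀ j, AnalyticAt ℂ (G j) 0) (μ : ℕ)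
    (hf0 : Module.Finite ℂ (QQ G 0)) (hd0 : Module.finrank ℂ (QQ G 0) = μ) :
    ∃ Ef : Fin μ → (Fin n → ℂ) → ℂ, (∀ i, AnalyticAt ℂ (Ef i) 0) ∧
      ∀ f : PP n k → ℂ, AnalyticAt ℂ f 0 →
      ∃ (c : Fin μ → (Fin k → ℂ) → ℂ) (b : κ → PP n k → ℂ),
      (∀ i, AnalyticAt ℂ (c i) 0) ∧ (∀ j, AnalyticAt ℂ (b j) 0) ∧
      ∀ᶠ p in 𝓝 (0 : PP n k),
        f p = ∑ i, c i p.2 * Ef i p.1 + ∑ j, b j p * G j p := by
  obtain ⟨e, he⟩ := generators G hG μ hf0 hd0
  choose Ef hEf hEe using fun i => exists_gm (e i)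
  refine ⟨Ef, hEf, fun f hf => ?_⟩
  obtain ⟨c, hc⟩ := he (gm f hf)
  rw [Ideal.mem_span_range_iff_exists_fun] at hc
  obtain ⟨b, hb⟩ := hc
  choose cf hcf hce using fun i => exists_gm (c i)
  choose bf hbf hbe using fun j => exists_gm (b j)
  obtain rfl : (fun i => gm (cf i) (hcf i)) = c := funext hce
  obtain rfl : (fun j => gm (bf j) (hbf j)) = b := funext hbe
  obtain rfl : (fun i => gm (Ef i) (hEf i)) = e := funext hEe
  refine ⟨cf, bf, hcf, hbf, ?_⟩
  obtain ⟨h1, e1⟩ := exists_sum_gm' Finset.univ bf G hbf hG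
  obtain ⟨h2, e2⟩ := exists_sum_gm' Finset.univ (fun i (p : PP n k) => cf i p.2)
    (fun i (p : PP n k) => Ef i p.1) (p := 0)
    (fun i => AnalyticAt.comp (g := cf i) (f := Prod.snd) (hcf i) analyticAt_snd)
    (fun i => AnalyticAt.comp (g := Ef i) (f := Prod.fst) (hEf i) analyticAt_fst)
  have e4 : (gm f hf : AA n k) =
      ∑ i, sndR n 0 (gm (cf i) (hcf i)) * ll n k (gm (Ef i) (hEf i)) +
      ∑ j, gm (bf j) (hbf j) * gm (G j) (hG j) := by
    rw [hb]; ring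
  have e6 : ∑ i, sndR n 0 (gm (cf i) (hcf i)) * ll n k (gm (Ef i) (hEf i)) =
      (gm (fun x => ∑ i, cf i x.2 * Ef i x.1) h2 : AA n k) := e2
  rw [e6] at e4
  have e7 : (gm f hf : AA n k) = gm (fun x => ∑ i, cf i x.2 * Ef i x.1) h2 +
      gm (fun x => ∑ j, bf j x * G j x) h1 := by
    rw [e4]; congr 1
  rw [gm_add, gm_eq_gm] at e7
  exact e7

/-- slices of a relation -/
theorem slice_rel (G : κ → PP n k → ℂ) (hG : ∀ j, AnalyticAt ℂ (G j) 0) {μ : ℕ}
    {Ef : Fin μ → (Fin n → ℂ) → ℂ} (hEf : ∀ i, AnalyticAt ℂ (Ef i) 0)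
    {f : PP n k → ℂ} (hf : AnalyticAt ℂ f 0)
    {c : Fin μ → (Fin k → ℂ) → ℂ} {b : κ → PP n k → ℂ}
    (hb : ∀ j, AnalyticAt ℂ (b j) 0)
    (hid : ∀ᶠ p in 𝓝 (0 : PP n k),
        f p = ∑ i, c i p.2 * Ef i p.1 + ∑ j, b j p * G j p) :
    ∀ᶠ t in 𝓝 (0 : Fin k → ℂ), (gz (fun x => f (x, t)) : BB n) -
      ∑ i, algebraMap ℂ (BB n) (c i t) * gm (Ef i) (hEf i) ∈
        Idl (0 : Fin n → ℂ) (fun j x => G j (x, t)) := by
  have h1 : ∀ᶠ t in 𝓝 (0 : Fin k → ℂ), AnalyticAt ℂ f (0, t) :=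
    tendsto_0t.eventually hf.eventually_analyticAt
  have h2 : ∀ᶠ t in 𝓝 (0 : Fin k → ℂ), ∀ j, AnalyticAt ℂ (b j) (0, t) :=
    tendsto_0t.eventually (Filter.eventually_all.2 fun j => (hb j).eventually_analyticAt)
  have h3 : ∀ᶠ t in 𝓝 (0 : Fin k → ℂ), ∀ j, AnalyticAt ℂ (G j) (0, t) :=
    tendsto_0t.eventually (Filter.eventually_all.2 fun j => (hG j).eventually_analyticAt)
  have h4 := tendsto_0t.eventually (eventually_eventually_nhds.2 hid)
  filter_upwards [h1, h2, h3, h4] with t k1 k2 k3 k4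
  have k5 : Tendsto (fun x : Fin n → ℂ => ((x, t) : PP n k)) (𝓝 0) (𝓝 (0, t)) := by
    have : Continuous (fun x : Fin n → ℂ => ((x, t) : PP n k)) := by fun_prop
    exact this.tendsto' _ _ rfl
  have k6 := k5.eventually k4
  rw [gz_eq (an_slice k1), mem_Idl (fun j => an_slice (k3 j))]
  refine ⟨fun j => gm (fun x => b j (x, t)) (an_slice (k2 j)), ?_⟩
  obtain ⟨h5, e5⟩ := exists_sum_gm' (p := (0 : Fin n → ℂ)) Finset.univ
    (fun j x => b j (x, t)) (fun j x => G j (x, t)) (fun j => an_slice (k2 j))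
    (fun j => an_slice (k3 j))
  obtain ⟨h6, e6⟩ := exists_sum_gm' (p := (0 : Fin n → ℂ)) Finset.univ
    (fun i _ => c i t) Ef (fun i => analyticAt_const) hEf
  have e9 : ∑ i, algebraMap ℂ (BB n) (c i t) * gm (Ef i) (hEf i) =
    gm (fun x => ∑ i, c i t * Ef i x) h6 := e6
  rw [e5, e9, gm_sub, gm_eq_gm]
  filter_upwards [k6] with x hx
  simp only [Pi.sub_apply]
  rw [hx]
  ring

lemma an_x (i : Fin n) (p : PP n k) : AnalyticAt ℂ (fun p : PP n k => p.1 i) p :=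
  (((ContinuousLinearMap.proj (R := ℂ) (φ := fun _ : Fin n => ℂ) i).comp
    (ContinuousLinearMap.fst ℂ (Fin n → ℂ) (Fin k → ℂ))).analyticAt p)

lemma an_mon (β : Fin n → ℕ) (p : PP n k) :
    AnalyticAt ℂ (fun p : PP n k => ∏ i, p.1 i ^ β i) p :=
  Finset.analyticAt_fun_prod _ fun i _ => (an_x i p).pow _

/-- SEMICONTINUITY with generators -/
theorem usc_aux (G : κ → PP n k → ℂ) (hG : ∀ j, AnalyticAt ℂ (G j) 0) {μ : ℕ}
    {Ef : Fin μ → (Fin n → ℂ) → ℂ} (hEf : ∀ i, AnalyticAt ℂ (Ef i) 0)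
    (hrel : ∀ f : PP n k → ℂ, AnalyticAt ℂ f 0 →
      ∃ (c : Fin μ → (Fin k → ℂ) → ℂ) (b : κ → PP n k → ℂ),
      (∀ i, AnalyticAt ℂ (c i) 0) ∧ (∀ j, AnalyticAt ℂ (b j) 0) ∧
      ∀ᶠ p in 𝓝 (0 : PP n k),
        f p = ∑ i, c i p.2 * Ef i p.1 + ∑ j, b j p * G j p) :
    ∀ᶠ t in 𝓝 (0 : Fin k → ℂ), ⊤ ≤ Submodule.span ℂ (Set.range fun i =>
      (Ideal.Quotient.mkₐ ℂ (Idl (0 : Fin n → ℂ) (fun j x => G j (x, t)))).toLinearMap
        (gm (Ef i) (hEf i))) := by
  classical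
  have hfinset : {β : Fin n → ℕ | ∑ i, β i ≤ n * μ}.Finite := by
    refine (Set.Finite.subset (Set.finite_Iic (fun _ : Fin n => n * μ)) ?_)
    intro β hβ
    rw [Set.mem_Iic]
    intro i
    exact (Finset.single_le_sum (fun j _ => Nat.zero_le (β j)) (Finset.mem_univ i)).trans hβ
  have hall : ∀ᶠ t in 𝓝 (0 : Fin k → ℂ), ∀ β ∈ {β : Fin n → ℕ | ∑ i, β i ≤ n * μ},
      ∃ c : Fin μ → ℂ, mon xB β - ∑ i, algebraMap ℂ (BB n) (c i) * gm (Ef i) (hEf i) ∈
        Idl (0 : Fin n → ℂ) (fun j x => G j (x, t)) := by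
    rw [Filter.eventually_all_finite hfinset]
    intro β _
    obtain ⟨c, b, _, hb, hid⟩ := hrel _ (an_mon β 0)
    filter_upwards [slice_rel G hG hEf (an_mon β 0) hb hid] with t ht
    exact ⟨fun i => c i t, by rw [gz_mon] at ht; exact ht⟩
  filter_upwards [hall] with t ht
  exact span_of_rel (xB (n := n)) xB_not_unit hadamard _ _ ht

/-- **UPPER SEMICONTINUITY of the multiplicity** -/
theorem usc (G : κ → PP n k → ℂ) (hG : ∀ j, AnalyticAt ℂ (G j) 0) (μ : ℕ)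
    (hf0 : Module.Finite ℂ (QQ G 0)) (hd0 : Module.finrank ℂ (QQ G 0) = μ) :
    ∀ᶠ t in 𝓝 (0 : Fin k → ℂ), Module.Finite ℂ (QQ G t) ∧ Module.finrank ℂ (QQ G t) ≤ μ := by
  obtain ⟨Ef, hEf, hrel⟩ := exists_data G hG μ hf0 hd0
  filter_upwards [usc_aux G hG hEf hrel] with t ht
  exact finite_of_span ht

/-- **UNIFORM INCLUSION when the multiplicity is constant** -/
theorem ui (G : κ → PP n k → ℂ) (hG : ∀ j, AnalyticAt ℂ (G j) 0) (μ : ℕ)
    (hf0 : Module.Finite ℂ (QQ G 0)) (hd0 : Module.finrank ℂ (QQ G 0) = μ)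
    (hfr : ∀ᶠ t in 𝓝 (0 : Fin k → ℂ), μ ≤ Module.finrank ℂ (QQ G t))
    (α : Fin n → ℕ) (hα : ∑ i, α i = μ) :
    ∃ b : κ → PP n k → ℂ, (∀ j, AnalyticAt ℂ (b j) 0) ∧
      ∀ᶠ p in 𝓝 (0 : PP n k), ∏ i, p.1 i ^ α i = ∑ j, b j p * G j p := by
  obtain ⟨Ef, hEf, hrel⟩ := exists_data G hG μ hf0 hd0
  obtain ⟨c, b, hc, hb, hid⟩ := hrel _ (an_mon α 0)
  have hsl := slice_rel G hG hEf (an_mon α 0) hb hid
  have hz : ∀ᶠ t in 𝓝 (0 : Fin k → ℂ), ∀ i, c i t = 0 := by
    filter_upwards [hsl, usc_aux G hG hEf hrel, hfr] with t ht k2 k1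
    obtain ⟨k4, k5⟩ := finite_of_span k2
    have k6 : Module.finrank ℂ (QQ G t) = μ := le_antisymm k5 k1
    rw [gz_mon] at ht
    have h1 : mon xB α ∈ Idl (0 : Fin n → ℂ) (fun j x => G j (x, t)) := by
      have h2 := JJ_le_of_finrank (xB (n := n)) xB_not_unit
        (Idl (0 : Fin n → ℂ) (fun j x => G j (x, t)))
      rw [k6] at h2
      exact h2 (Ideal.subset_span ⟨α, hα, rfl⟩)
    have k7 := (Idl (0 : Fin n → ℂ) (fun j x => G j (x, t))).sub_mem h1 ht
    rw [sub_sub_cancel] at k7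
    have hli : LinearIndependent ℂ (fun i =>
        (Ideal.Quotient.mkₐ ℂ (Idl (0 : Fin n → ℂ) (fun j x => G j (x, t)))).toLinearMap
          (gm (Ef i) (hEf i))) := by
      refine linearIndependent_of_top_le_span_of_card_eq_finrank k2 ?_
      rw [Fintype.card_fin]
      exact k6.symm
    have k8 : ∑ i, c i t •
        (Ideal.Quotient.mkₐ ℂ (Idl (0 : Fin n → ℂ) (fun j x => G j (x, t)))).toLinearMap
          (gm (Ef i) (hEf i)) = 0 := by
      have k9 := (Ideal.Quotient.eq_zero_iff_mem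
        (I := Idl (0 : Fin n → ℂ) (fun j x => G j (x, t)))).2 k7
      rw [map_sum] at k9
      rw [← k9]
      refine Finset.sum_congr rfl fun i _ => ?_
      rw [← map_smul, Algebra.smul_def]
      rfl
    exact (Fintype.linearIndependent_iff.1 hli) _ k8
  refine ⟨b, hb, ?_⟩
  have h2 : Tendsto (fun p : PP n k => p.2) (𝓝 0) (𝓝 0) :=
    continuous_snd.tendsto' _ _ rfl
  filter_upwards [hid, h2.eventually hz] with p h3 h4
  rw [h3]
  simp [h4]

/-- constant multiplicity: the only zeros are on the axis -/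
theorem zero_of_const (G : κ → PP n k → ℂ) (hG : ∀ j, AnalyticAt ℂ (G j) 0) (μ : ℕ)
    (hf0 : Module.Finite ℂ (QQ G 0)) (hd0 : Module.finrank ℂ (QQ G 0) = μ)
    (hfr : ∀ᶠ t in 𝓝 (0 : Fin k → ℂ), μ ≤ Module.finrank ℂ (QQ G t)) :
    ∀ᶠ p in 𝓝 (0 : PP n k), (∀ j, G j p = 0) → p.1 = 0 := by
  classical
  have h1 : ∀ i : Fin n, ∀ᶠ p in 𝓝 (0 : PP n k), (∀ j, G j p = 0) → p.1 i = 0 := by
    intro i
    obtain ⟨b, -, hb⟩ := ui G hG μ hf0 hd0 hfr (Pi.single i μ) (by simp)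
    filter_upwards [hb] with p hp h0
    have e1 : ∏ j, p.1 j ^ (Pi.single i μ : Fin n → ℕ) j = p.1 i ^ μ := by
      rw [Finset.prod_eq_single i]
      · simp
      · intro j _ hj
        simp [Pi.single_eq_of_ne hj]
      · intro h; exact absurd (Finset.mem_univ _) h
    rw [e1] at hp
    simp only [h0, mul_zero, Finset.sum_const_zero] at hp
    exact eq_zero_of_pow_eq_zero hp
  filter_upwards [Filter.eventually_all.2 h1] with p hp h0
  funext i
  exact hp i h0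

/-! ### in the language of `Defs_219` -/

variable {m : ℕ}

lemma ev_an {G : Fin m → PP n k → ℂ} (hG : ∀ j, AnalyticAt ℂ (G j) 0) :
    ∀ᶠ t in 𝓝 (0 : Fin k → ℂ), ∀ j, AnalyticAt ℂ (fun x => G j (x, t)) 0 := by
  have h1 : ∀ᶠ t in 𝓝 (0 : Fin k → ℂ), ∀ j, AnalyticAt ℂ (G j) (0, t) :=
    tendsto_0t.eventually (Filter.eventually_all.2 fun j => (hG j).eventually_analyticAt)
  filter_upwards [h1] with t ht j
  exact an_slice (ht j)

/-- **upper semicontinuity of `col` in several parameters** -/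
theorem usc_col (G : Fin m → PP n k → ℂ) (hG : ∀ j, AnalyticAt ℂ (G j) 0)
    (hfin : ColFin (fun j x => G j (x, 0))) :
    ∀ᶠ t in 𝓝 (0 : Fin k → ℂ), ColFin (fun j x => G j (x, t)) ∧
      col (fun j x => G j (x, t)) ≤ col (fun j x => G j (x, 0)) := by
  have h0 : ∀ j, AnalyticAt ℂ (fun x => G j (x, 0)) (0 : Fin n → ℂ) := (ev_an hG).self_of_nhds
  have h1 := (UI939.colFin_iff h0).1 hfin
  have h2 := usc G hG _ h1 (UI939.col_eq h0).symm
  filter_upwards [h2, ev_an hG] with t ht hta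
  exact ⟨(UI939.colFin_iff hta).2 ht.1, by rw [UI939.col_eq hta]; exact ht.2⟩

/-- **constant `col` in several parameters: zeros only at `x = 0`** -/
theorem zero_col (G : Fin m → PP n k → ℂ) (hG : ∀ j, AnalyticAt ℂ (G j) 0)
    (hfin : ColFin (fun j x => G j (x, 0)))
    (hfr : ∀ᶠ t in 𝓝 (0 : Fin k → ℂ),
      col (fun j x => G j (x, 0)) ≤ col (fun j x => G j (x, t))) :
    ∀ᶠ p in 𝓝 (0 : PP n k), (∀ j, G j p = 0) → p.1 = 0 := by
  have h0 : ∀ j, AnalyticAt ℂ (fun x => G j (x, 0)) (0 : Fin n → ℂ) := (ev_an hG).self_of_nhds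
  have h1 := (UI939.colFin_iff h0).1 hfin
  refine zero_of_const G hG _ h1 (UI939.col_eq h0).symm ?_
  filter_upwards [hfr, ev_an hG] with t ht hta
  rw [← UI939.col_eq hta]
  exact ht

end Crest.Agent.R257.Par142
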