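import Crest.Agent.R257.Defs_219

/-!
R257 / XFDefs_157: the interface of part C.

* `Exact f k g h` : the pair `(g, h)` is exact of level `k` on `{f = 0}` (four inequalities on
  `{f = 0}` near `0`, no resolution in the statement);
* `EPStmt` : such a pair exists when `0 < mstar f`;
* `CmpStmt` : comparison of intersection numbers;
* `MulStmt`, `IsoFinStmt`, `CNEStmt` : germ algebra;
* `XUStmt` : the exact pair of `XStmt` with the inequality (JU).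
-/

set_option autoImplicit false

open Topology Filter MeasureTheory Set
open scoped ENNReal
open Crest.AlgGeometry.Germ

noncomputable section

namespace Crest.Agent.R257.XF_157

open Crest.Agent.R257.Defs_219

/-- an exact pair of level `k` on `{f = 0}` -/
structure Exact (f : E3 → ℂ) (k : ℕ) (g h : E3 → ℂ) : Prop where
  k2 : 2 ≤ k
  ang : AnalyticAt ℂ g 0
  anh : AnalyticAt ℂ h 0
  g0 : g 0 = 0
  h0 : h 0 = 0
  /-- integrability -/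
  e1 : ∀ p : ℝ, 1 ≤ p → p < k → InJ p f g ∧ InJ p f h
  /-- every `q ∈ ⋂ p < a, J_p` satisfies `|q|^k ≤ C (|g| + |h|)^a` on `{f = 0}` -/
  e2 : ∀ a : ℝ, 1 ≤ a → ∀ q : E3 → ℂ, AnalyticAt ℂ q 0 → (a = 1 → InJ 1 f q) →
    (∀ p : ℝ, 1 ≤ p → p < a → InJ p f q) →
    ∃ C r : ℝ, 0 < r ∧ ∀ x, ‖x‖ < r → f x = 0 → ‖q x‖ ^ k ≤ C * (‖g x‖ + ‖h x‖) ^ a
  /-- the Jacobian determinant is large on `{g = 0}` -/
  e3 : ∃ C r : ℝ, 0 < r ∧ ∀ x, ‖x‖ < r → f x = 0 →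
    ‖h x‖ ^ (2 * k + 1) ≤ C * (‖g x‖ ^ (2 * k + 1) + ‖Dt f g h x‖ ^ k)
  /-- the only common zero is `0` -/
  e4 : ∀ᶠ x in 𝓝 (0 : E3), f x = 0 → g x = 0 → h x = 0 → x = 0

/-- existence of an exact pair: the output of the resolution / `L²` part -/
def EPStmt : Prop := ∀ f : E3 → ℂ, Iso f → 0 < mstar f → ∃ (k : ℕ) (g h : E3 → ℂ), Exact f k g h

/-- the comparison theorem -/
def CmpStmt : Prop := ∀ f g h p q : E3 → ℂ, AnalyticAt ℂ f 0 → AnalyticAt ℂ g 0 →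
  AnalyticAt ℂ h 0 → AnalyticAt ℂ p 0 → AnalyticAt ℂ q 0 → f 0 = 0 → g 0 = 0 → h 0 = 0 →
  p 0 = 0 → q 0 = 0 → ColFin ![f, p, q] → ColFin ![f, g, h] → ∀ α β : ℝ, 0 < α → 0 < β →
  (∃ C r : ℝ, 0 < r ∧ ∀ x, ‖x‖ < r → f x = 0 →
    ‖g x‖ ≤ C * (‖p x‖ + ‖q x‖) ^ α ∧ ‖h x‖ ≤ C * (‖p x‖ + ‖q x‖) ^ β) →
  α * β * (col ![f, p, q] : ℝ) ≤ (col ![f, g, h] : ℝ)

/-- additivity of intersection numbers in the last entry -/
def MulStmt : Prop := ∀ f g h h' : E3 → ℂ, AnalyticAt ℂ f 0 → AnalyticAt ℂ g 0 →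
  AnalyticAt ℂ h 0 → AnalyticAt ℂ h' 0 → f 0 = 0 → g 0 = 0 → h 0 = 0 → h' 0 = 0 →
  ColFin ![f, g, h] → ColFin ![f, g, h'] →
  ColFin ![f, g, h * h'] ∧ col ![f, g, h * h'] = col ![f, g, h] + col ![f, g, h']

/-- isolated common zero ⟹ finite colength -/
def IsoFinStmt : Prop := ∀ G : Fin 3 → E3 → ℂ, (∀ j, AnalyticAt ℂ (G j) 0) →
  (∀ᶠ x in 𝓝 (0 : E3), (∀ j, G j x = 0) → x = 0) → ColFin G

/-- zeros only on the axis ⟹ the colength is constant (complete intersections) -/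
def CNEStmt : Prop := ∀ G : Fin 3 → E3 × ℂ → ℂ, (∀ j, AnalyticAt ℂ (G j) (0, 0)) →
  ColFin (fun j => sl (G j) 0) →
  (∀ᶠ q in 𝓝 ((0 : E3), (0 : ℂ)), (∀ j, G j q = 0) → q.1 = 0) →
  ∀ᶠ t in 𝓝 (0 : ℂ), ColFin (fun j => sl (G j) t) ∧
    col (fun j => sl (G j) t) = col (fun j => sl (G j) 0)

/-- the exact pair of `XStmt` with one more line (JU) -/
def XUStmt : Prop := ∀ f : E3 → ℂ, Iso f → 0 < mstar f →
  ∃ (k : ℕ) (g h : E3 → ℂ), 2 ≤ k ∧ AnalyticAt ℂ g 0 ∧ AnalyticAt ℂ h 0 ∧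
    ColFin ![f, g, h] ∧ (col ![f, g, h] : ℝ) = (k : ℝ) ^ 2 * mstar f ∧
    ∃ C r : ℝ, 0 < r ∧ ∀ x, ‖x‖ < r → f x = 0 →
      ‖Dt f g h x‖ ^ 2 ≤ C * (‖g x‖ ^ 2 + ‖h x‖ ^ 2) ^ (2 + 1 / (k : ℝ))

end Crest.Agent.R257.XF_157
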