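import Crest.Agent.R257.Cne1_812
import Crest.Agent.R257.Cnm7_889
import Crest.Agent.R257.Par1_142
import Crest.Agent.R257.ColAdd_812
import Crest.Agent.R257.NS0c_554
import Crest.Agent.R257.XFDefs_157

/-!
Row 257 (S0395), leaf CNE (helper812), part 2: zeros only on the axis ⟹ the colength is constant
(`n` equations in `n` variables, any number of parameters).
-/

set_option autoImplicit false
set_option linter.unusedSectionVars false

open Set Filter Topology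
open scoped IsMulCommutative
open Crest.Agent.R275.Loc2879
open Crest.Agent.R257.Uni554 (On)
open Crest.Agent.R257.Cnm3_889 Crest.Agent.R257.Cnm5_889
open Crest.Agent.R257.Defs_219 Crest.Agent.R257.UI939 Crest.Agent.R257.Tay_812

noncomputable section

namespace Crest.Agent.R257.Cne_812

/-- the pointwise statement in `col` language -/
theorem col_ge {n N : ℕ} {m : ℕ} (T : MDat n N (Fin m)) (hZ : T.Z ⊆ {0})
    (hG : ∀ j, AnalyticAt ℂ (T.G j) 0) (hR : ∀ j k, AnalyticAt ℂ (T.R j k) 0)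
    (ha : ∀ j k j', AnalyticAt ℂ (T.a j k j') 0) (hfin : ColFin T.G) : N ≤ col T.G := by
  have h1 := (colFin_iff hG).1 hfin
  have h2 := col_eq hG
  rw [CM_812.Idl_eq_span hG] at h1 h2
  rw [h2]
  exact finrank_ge T.toDat hZ hG hR ha h1

/-- zeros only on the axis ⟹ constant colength, from the existence of the algebra data -/
theorem cne_of {n : ℕ} (G : Fin n → (Fin n → ℂ) × ℂ → ℂ) (hG : ∀ j, AnalyticAt ℂ (G j) (0, 0))
    (hfin : ColFin (fun j => sl (G j) 0))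
    (hz : ∀ᶠ q in 𝓝 ((0 : Fin n → ℂ), (0 : ℂ)), (∀ j, G j q = 0) → q.1 = 0)
    (h : ∃ r₀ : ℝ, 0 < r₀ ∧ ∀ ε : ℝ, 0 < ε → ∀ᶠ t in 𝓝 (0 : ℂ),
      ∃ T : MDat n (col (fun j => sl (G j) 0)) (Fin n), T.G = (fun j => sl (G j) t) ∧ T.ε ≤ ε ∧
        (∀ j k, AnalyticAt ℂ (T.R j k) 0) ∧ (∀ j k j', AnalyticAt ℂ (T.a j k j') 0)) :
    ∀ᶠ t in 𝓝 (0 : ℂ), ColFin (fun j => sl (G j) t) ∧
      col (fun j => sl (G j) t) = col (fun j => sl (G j) 0) := by
  have hG0 : ∀ j, AnalyticAt ℂ (G j) 0 := hG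
  obtain ⟨r₀, hr₀, h1⟩ := h
  obtain ⟨ρ, hρ, hball⟩ := Metric.eventually_nhds_iff_ball.1 hz
  have h2 : ∀ᶠ t in 𝓝 (0 : ℂ), ‖t‖ < ρ := by
    filter_upwards [Metric.ball_mem_nhds (0 : ℂ) hρ] with t ht
    simpa using ht
  filter_upwards [h1 ρ hρ, usc_col G hG0 hfin, ev_an hG0, h2] with t ht hu han htρ
  obtain ⟨T, hTG, hTε, hTR, hTa⟩ := ht
  refine ⟨hu.1, le_antisymm hu.2 ?_⟩
  have hZ : T.Z ⊆ {0} := by
    intro x hx
    have h3 := T.norm_lt_of_mem hx
    have h4 : (x, t) ∈ Metric.ball ((0 : Fin n → ℂ), (0 : ℂ)) ρ := by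
      rw [Metric.mem_ball, dist_eq_norm]
      have : (x, t) - ((0 : Fin n → ℂ), (0 : ℂ)) = (x, t) := by simp
      rw [this, Prod.norm_def]
      exact max_lt (h3.trans_le hTε) htρ
    refine hball (x, t) h4 fun j => ?_
    have h5 := hx.2 j
    rw [hTG] at h5
    exact h5
  have := col_ge T hZ (by rw [hTG]; exact han) hTR hTa (by rw [hTG]; exact hu.1)
  rwa [hTG] at this

end Crest.Agent.R257.Cne_812
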