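import Crest.Agent.R257.Cnm7_889
import Crest.Agent.R257.Cne2_812

/-!
Row 257 (S0395), leaf CNE (helper812), part 3: the literal `CNEStmt`.
-/

set_option autoImplicit false
set_option linter.unusedSectionVars false

open Set Filter Topology
open Crest.Agent.R275.Loc2879

noncomputable section

namespace Crest.Agent.R257.Cne_812

open Crest.Agent.R257.Cnm3_889 Crest.Agent.R257.Defs_219
open Crest.Agent.R257.Cnm4_889 Crest.Agent.R257.Cnm5_889 Crest.Agent.R257.Cnm6_889
open Crest.Agent.R257.Cnm7_889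
open Crest.Agent.R257.UI939 (Idl gz gz_eq BB colFin_iff col_eq usc_col)

/-- **zeros only on the axis ⟹ the colength is constant** (`n` equations in `n` variables) -/
theorem cne {n : ℕ} (G : Fin n → (Fin n → ℂ) × ℂ → ℂ) (hG : ∀ j, AnalyticAt ℂ (G j) (0, 0))
    (hfin : ColFin (fun j => sl (G j) 0))
    (hz : ∀ᶠ q in 𝓝 ((0 : Fin n → ℂ), (0 : ℂ)), (∀ j, G j q = 0) → q.1 = 0) :
    ∀ᶠ t in 𝓝 (0 : ℂ), ColFin (fun j => sl (G j) t) ∧
      col (fun j => sl (G j) t) = col (fun j => sl (G j) 0) := by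
  have h1 : ∀ j, AnalyticAt ℂ (sl (G j) 0) (0 : Fin n → ℂ) := fun j =>
    AnalyticAt.comp (g := G j) (f := fun x => (x, 0)) (hG j) (analyticAt_id.prod analyticAt_const)
  by_cases hu : ∀ j, G j (0, 0) = 0
  · refine cne_of G hG hfin hz ?_
    let H : Fin n → (Fin n → ℂ) × (Fin 1 → ℂ) → ℂ := fun j q => G j (q.1, q.2 0)
    have hH : ∀ j, AnalyticAt ℂ (H j) (0, 0) := fun j =>
      AnalyticAt.comp (g := G j) (f := fun q : (Fin n → ℂ) × (Fin 1 → ℂ) => (q.1, q.2 0)) (hG j)
        (analyticAt_fst.prod (((ContinuousLinearMap.proj (R := ℂ) (φ := fun _ : Fin 1 => ℂ) 0).comp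
          (ContinuousLinearMap.snd ℂ (Fin n → ℂ) (Fin 1 → ℂ))).analyticAt _))
    have hf1 := (colFin_iff h1).1 hfin
    have hc1 := col_eq h1
    have hJ := J0_eq H hH
    have e0 : (fun (j : Fin n) (x : Fin n → ℂ) => H j (x, 0)) = fun j => sl (G j) 0 := rfl
    rw [e0] at hJ
    rw [← hJ] at hf1 hc1
    have hK : Kos (fun j => rk n 1 (gm (H j) (hH j))) := by
      refine kos_of_KS ?_
      refine Crest.Agent.R257.CM_812.koszul_BB _ (fun j => ?_) hf1
      rw [IsLocalRing.mem_maximalIdeal, mem_nonunits_iff, rk, pull_gm, isUnit_gm, not_not]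
      exact hu j
    obtain ⟨D⟩ := exists_gdat _ hf1 hc1.symm hK
    obtain ⟨r₀, hr₀, h2⟩ := mdat_of_gdat H hH D
    refine ⟨r₀, hr₀, fun ε hε => ?_⟩
    have hχ : Tendsto (fun t : ℂ => fun _ : Fin 1 => t) (𝓝 0) (𝓝 0) := by
      have : Continuous (fun t : ℂ => fun _ : Fin 1 => t) := by fun_prop
      exact this.tendsto 0
    filter_upwards [hχ.eventually (h2 ε hε)] with t ht
    obtain ⟨T, hr, hε', hTG, hT⟩ := ht
    have h3 := hT 0 (by rw [norm_zero]; exact hr₀)
    exact ⟨T, hTG, hε', h3.2.1, h3.2.2⟩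
  · push Not at hu
    obtain ⟨j, hj⟩ := hu
    have hcol : col (fun j => sl (G j) 0) = 0 := by
      rw [col_eq h1]
      have h2 : Idl (0 : Fin n → ℂ) (fun j => sl (G j) 0) = ⊤ := by
        rw [Ideal.eq_top_iff_one]
        have h3 : IsUnit (gz (sl (G j) 0) : BB n) := by
          rw [gz_eq (h1 j), isUnit_gm]; exact hj
        have h4 : (gz (sl (G j) 0) : BB n) ∈ Idl (0 : Fin n → ℂ)
            (fun j => sl (G j) 0) := Ideal.subset_span ⟨j, rfl⟩
        exact (Ideal.eq_top_iff_one _).1 (Ideal.eq_top_of_isUnit_mem _ h4 h3)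
      rw [h2]
      exact Module.finrank_zero_of_subsingleton
    filter_upwards [usc_col G hG hfin] with t ht
    refine ⟨ht.1, ?_⟩
    have := ht.2
    omega

theorem cneStmt : XF_157.CNEStmt := fun G hG hfin hz => cne G hG hfin hz

end Crest.Agent.R257.Cne_812
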