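import Crest.Agent.R257.Uni_554

/-!
Row 257 (S0395), leaf CNM (helper889), part 1: Koszul exactness for three germs in `ℂ³` with
finite dimensional quotient.  Only Weierstrass division and unique factorisation are used.
-/

set_option autoImplicit false

open Set Filter Topology
open Crest.Agent.R275.Loc2879
open scoped Polynomial

noncomputable section

namespace Crest.Agent.R257.Cnm1_889

universe u

section Base

variable {E : Type u} [NormedAddCommGroup E] [NormedSpace ℂ E] [FiniteDimensional ℂ E] {z₀ : E}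

/-- splitting off a coefficient modulo a regular germ -/
lemma split_off {f : OO ((z₀, (0 : ℂ)) : E × ℂ)} {n : ℕ} (hf : Reg f n) {a b : OO z₀}
    (hab : IsRelPrime a b) {β β' : OO ((z₀, (0 : ℂ)) : E × ℂ)}
    (h : f ∣ iot z₀ b * β - iot z₀ a * β') :
    ∃ β'' δ, β = iot z₀ a * β'' + f * δ := by
  obtain ⟨q, c, hc⟩ := div_exists hf β
  obtain ⟨q', c', hc'⟩ := div_exists hf β'
  obtain ⟨g, hg⟩ := h
  have h1 : (iot z₀ b * q - iot z₀ a * q' - g) * f +
      ∑ j : Fin n, iot z₀ (b * c j - a * c' j) * Wv z₀ ^ (j : ℕ) = 0 := by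
    have h2 : ∑ j : Fin n, iot z₀ (b * c j - a * c' j) * Wv z₀ ^ (j : ℕ) =
        iot z₀ b * ∑ j : Fin n, iot z₀ (c j) * Wv z₀ ^ (j : ℕ) -
        iot z₀ a * ∑ j : Fin n, iot z₀ (c' j) * Wv z₀ ^ (j : ℕ) := by
      rw [Finset.mul_sum, Finset.mul_sum, ← Finset.sum_sub_distrib]
      refine Finset.sum_congr rfl (fun j _ => ?_)
      rw [map_sub, map_mul, map_mul]; ring
    rw [h2]
    linear_combination hg - iot z₀ b * hc + iot z₀ a * hc'
  obtain ⟨-, h3⟩ := div_unique hf h1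
  have h4 : ∀ j, a ∣ c j := by
    intro j
    have h5 : b * c j - a * c' j = 0 := congrFun h3 j
    refine IsRelPrime.dvd_of_dvd_mul_left hab ?_
    exact ⟨c' j, sub_eq_zero.1 h5⟩
  choose d hd using h4
  refine ⟨∑ j : Fin n, iot z₀ (d j) * Wv z₀ ^ (j : ℕ), q, ?_⟩
  rw [hc, Finset.mul_sum, add_comm, mul_comm q f]
  congr 1
  refine Finset.sum_congr rfl (fun j _ => ?_)
  rw [hd j, map_mul]; ring

/-- a regular germ is relatively prime to the base -/
lemma relPrime_iot {f : OO ((z₀, (0 : ℂ)) : E × ℂ)} {n : ℕ} (hf : Reg f n) {a : OO z₀}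
    (ha : a ≠ 0) : IsRelPrime f (iot z₀ a) := by
  intro h h1 h2
  obtain ⟨g, hg⟩ := h1
  rw [hg] at hf
  obtain ⟨m, hm⟩ : ∃ m, Reg h m := by
    obtain ⟨m, m', hm, -⟩ := hf.of_mul
    exact ⟨m, hm⟩
  rcases Nat.eq_zero_or_pos m with rfl | hpos
  · exact reg_zero_iff.1 hm
  · exfalso
    obtain ⟨g', hg'⟩ := h2
    have h3 : (-g') * h + ∑ j : Fin m, iot z₀ ((fun j : Fin m => if (j : ℕ) = 0 then a else 0) j) *
        Wv z₀ ^ (j : ℕ) = 0 := by
      have h4 : ∑ j : Fin m, iot z₀ ((fun j : Fin m => if (j : ℕ) = 0 then a else 0) j) *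
          Wv z₀ ^ (j : ℕ) = iot z₀ a := by
        rw [Finset.sum_eq_single (⟨0, hpos⟩ : Fin m)]
        · simp
        · intro j _ hj
          have : (j : ℕ) ≠ 0 := fun h => hj (Fin.ext h)
          simp [this]
        · intro hh; exact absurd (Finset.mem_univ _) hh
      rw [h4, hg']; ring
    have h5 := congrFun (div_unique hm h3).2 ⟨0, hpos⟩
    simp at h5
    exact ha h5

/-- **no embedded point** : `O/(f,p)` has no element killed by two relatively prime
elements of the base -/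
lemma no_embedded {f : OO ((z₀, (0 : ℂ)) : E × ℂ)} {n : ℕ} (hf : Reg f n) {a b : OO z₀}
    (ha : a ≠ 0) (hab : IsRelPrime a b) {p g : OO ((z₀, (0 : ℂ)) : E × ℂ)}
    (hfp : IsRelPrime f p) (h1 : ∃ s t, iot z₀ a * g = f * s + p * t)
    (h2 : ∃ s t, iot z₀ b * g = f * s + p * t) : ∃ s t, g = f * s + p * t := by
  obtain ⟨s, t, h1⟩ := h1
  obtain ⟨s', t', h2⟩ := h2
  have h3 : f ∣ p * (iot z₀ b * t - iot z₀ a * t') :=
    ⟨iot z₀ a * s' - iot z₀ b * s, by linear_combination iot z₀ a * h2 - iot z₀ b * h1⟩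
  have h4 := IsRelPrime.dvd_of_dvd_mul_left hfp h3
  obtain ⟨t'', δ, h5⟩ := split_off hf hab h4
  have h6 : f ∣ iot z₀ a * (g - p * t'') :=
    ⟨s + p * δ, by linear_combination h1 + p * h5⟩
  obtain ⟨s'', h7⟩ := IsRelPrime.dvd_of_dvd_mul_left (relPrime_iot hf ha) h6
  exact ⟨s'', t'', by linear_combination h7⟩

/-- two germs in `ℂ^{≥3}` never generate powers of two relatively prime elements of the base -/
lemma two_not_enough {d q : OO ((z₀, (0 : ℂ)) : E × ℂ)} {n : ℕ} (hd : Reg d n) {a b : OO z₀}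
    (ha : a ≠ 0) (hab : IsRelPrime a b) (hdu : ¬ IsUnit d) (hqu : ¬ IsUnit q)
    (h1 : ∃ s t, iot z₀ a = d * s + q * t) (h2 : ∃ s t, iot z₀ b = d * s + q * t) : False := by
  by_cases h : IsRelPrime d q
  · obtain ⟨s, t, h3⟩ := no_embedded (g := 1) hd ha hab h (by simpa using h1) (by simpa using h2)
    rw [Crest.Agent.R275.Loc2879.isUnit_iff, not_not] at hdu hqu
    have := congrArg (evp (z₀, (0 : ℂ))) h3
    rw [map_add, map_mul, map_mul, hdu, hqu, map_one] at this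
    simp at this
  · apply h
    intro c hcd hcq
    obtain ⟨s, t, h1⟩ := h1
    refine relPrime_iot hd ha hcd ?_
    rw [h1]
    exact dvd_add (hcd.mul_right s) (hcq.mul_right t)

/-- Koszul exactness over a base -/
lemma koszul_base {f p q : OO ((z₀, (0 : ℂ)) : E × ℂ)} {n : ℕ} (hf : Reg f n) {a b : OO z₀}
    (ha : a ≠ 0) (hab : IsRelPrime a b) (hqu : ¬ IsUnit q)
    (h1 : ∃ r s t, iot z₀ a = r * f + s * p + t * q)
    (h2 : ∃ r s t, iot z₀ b = r * f + s * p + t * q)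
    {x y z : OO ((z₀, (0 : ℂ)) : E × ℂ)} (h : x * f + y * p + z * q = 0) :
    ∃ r s t, x = r * p + s * q ∧ y = - r * f + t * q ∧ z = - s * f - t * p := by
  obtain ⟨r₁, s₁, t₁, h1⟩ := h1
  obtain ⟨r₂, s₂, t₂, h2⟩ := h2
  have hfp : IsRelPrime f p := by
    intro c hcf hcp
    by_contra hcu
    obtain ⟨f', hf'⟩ := hcf
    obtain ⟨p', hp'⟩ := hcp
    have hf2 := hf
    rw [hf'] at hf2
    obtain ⟨m, m', hm, -⟩ := hf2.of_mul
    refine two_not_enough (q := q) hm ha hab hcu hqu ⟨r₁ * f' + s₁ * p', t₁, ?_⟩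
      ⟨r₂ * f' + s₂ * p', t₂, ?_⟩
    · rw [h1, hf', hp']; ring
    · rw [h2, hf', hp']; ring
  obtain ⟨c₁, c₂, hz⟩ : ∃ s t, z = f * s + p * t := by
    refine no_embedded hf ha hab hfp ⟨r₁ * z - t₁ * x, s₁ * z - t₁ * y, ?_⟩
      ⟨r₂ * z - t₂ * x, s₂ * z - t₂ * y, ?_⟩
    · linear_combination z * h1 + t₁ * h
    · linear_combination z * h2 + t₂ * h
  have h3 : f ∣ p * (y + c₂ * q) := ⟨-(x + c₁ * q), by rw [hz] at h; linear_combination h⟩
  obtain ⟨s₀, hs₀⟩ := IsRelPrime.dvd_of_dvd_mul_left hfp h3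
  have hf0 : f ≠ 0 := hf.ne_zero
  refine ⟨-s₀, -c₁, -c₂, ?_, ?_, ?_⟩
  · refine mul_right_cancel₀ hf0 ?_
    rw [hz] at h
    linear_combination h - p * hs₀
  · linear_combination hs₀
  · linear_combination hz

end Base

section Three

/-- the first coordinate of the base plane -/
def c0 : OO ((0 : ℂ), (0 : ℂ)) := iot (0 : ℂ) (TT 0)

lemma reg_Wv_pow (k : ℕ) : Reg (Wv (0 : ℂ) ^ k) k := ⟨1, by simp⟩

lemma relPrime_cc (k : ℕ) : IsRelPrime (Wv (0 : ℂ) ^ k) (c0 ^ k) := by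
  have := relPrime_iot (z₀ := (0 : ℂ)) (reg_Wv_pow k) (a := TT 0 ^ k)
    (pow_ne_zero _ TT_ne_zero)
  rwa [map_pow] at this

lemma exists_chart3 {F : Type u} [NormedAddCommGroup F] [NormedSpace ℂ F]
    [FiniteDimensional ℂ F] (hF : Module.finrank ℂ F = 3) {p : F} {f : OO p}
    (hf : f ≠ 0) : ∃ (e : ((ℂ × ℂ) × ℂ) ≃L[ℂ] F) (m : ℕ), Reg (z₀ := ((0 : ℂ), (0 : ℂ)))
      (affEquiv e p f) m := by
  have hnt : Nontrivial F := by
    rw [← Module.finrank_pos_iff (R := ℂ), hF]; omega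
  obtain ⟨v, hv, h⟩ := exists_regular_direction hf
  have hdim : Module.finrank ℂ ((ℂ × ℂ) × ℂ) = Module.finrank ℂ F := by
    rw [hF]; simp
  let e0 : ((ℂ × ℂ) × ℂ) ≃L[ℂ] F := ContinuousLinearEquiv.ofFinrankEq hdim
  have h01 : e0 (((0 : ℂ), (0 : ℂ)), (1 : ℂ)) ≠ 0 := by
    rw [Ne, map_eq_zero_iff _ e0.injective]
    simp [Prod.ext_iff]
  obtain ⟨A, hA⟩ := SeparatingDual.exists_continuousLinearEquiv_apply_eq (R := ℂ) h01 hv
  refine ⟨e0.trans A, ?_⟩
  obtain ⟨G, hG, rfl⟩ := exists_gm f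
  refine exists_reg ?_
  intro hcon
  apply h G hG rfl
  rw [affEquiv_gm] at hcon
  change rho ((0 : ℂ), (0 : ℂ)) (gm (fun x : (ℂ × ℂ) × ℂ => G (p + (e0.trans A) x)) _) = 0
    at hcon
  rw [rho, pull_gm, gm_eq_zero] at hcon
  filter_upwards [hcon] with t ht
  have e1 : (e0.trans A) (((0 : ℂ), (0 : ℂ)), t) = t • v := by
    have : (((0 : ℂ), (0 : ℂ)), t) = t • (((0 : ℂ), (0 : ℂ)), (1 : ℂ)) := by
      ext <;> simp
    rw [this, map_smul]
    congr 1
  simp only [Function.comp_apply] at ht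
  rw [e1] at ht
  exact ht

/-- the ring of germs in three variables -/
abbrev O3 := OO (0 : Fin 3 → ℂ)

/-- two non-units of `O₃` do not generate an ideal containing a power of every non-unit -/
lemma two_not_enough3 {d q : O3} (hd : ¬ IsUnit d) (hq : ¬ IsUnit q) {k : ℕ}
    (h : ∀ y : O3, ¬ IsUnit y → ∃ s t, y ^ k = d * s + q * t) : False := by
  -- reduce to `d ≠ 0`
  wlog hd0 : d ≠ 0 generalizing d q with H
  · rw [not_not] at hd0
    subst hd0
    by_cases hq0 : q = 0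
    · subst hq0
      refine H (d := Uni554.Xo 0) (q := 0) ?_ hq ?_ ?_
      · have := Uni554.Xo_mem (0 : Fin 3)
        rwa [IsLocalRing.mem_maximalIdeal, mem_nonunits_iff] at this
      · intro y hy
        obtain ⟨s, t, hst⟩ := h y hy
        exact ⟨0, 0, by rw [hst]; ring⟩
      · intro h0
        have h1 : (Uni554.Xo (0 : Fin 3)) = 0 := h0
        rw [Uni554.Xo, gm_eq_zero] at h1
        have hc : Tendsto (fun t : ℂ => (fun _ : Fin 3 => t)) (𝓝 0) (𝓝 (0 : Fin 3 → ℂ)) := by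
          have : Continuous (fun t : ℂ => (fun _ : Fin 3 => t)) := by fun_prop
          exact this.tendsto 0
        have h2 : ∀ᶠ t in 𝓝[≠] (0 : ℂ), t = 0 :=
          (hc.eventually h1).filter_mono nhdsWithin_le_nhds
        obtain ⟨t, ht, ht'⟩ := (h2.and self_mem_nhdsWithin).exists
        exact ht' ht
    · refine H (d := q) (q := 0) hq hd ?_ hq0
      intro y hy
      obtain ⟨s, t, hst⟩ := h y hy
      exact ⟨t, 0, by rw [hst]; ring⟩
  obtain ⟨e, m, hm⟩ := exists_chart3 (F := Fin 3 → ℂ) (by simp) hd0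
  set φ := affEquiv e (0 : Fin 3 → ℂ) with hφ
  have hpow : ∀ a : OO ((0 : ℂ), (0 : ℂ)), ¬ IsUnit a →
      ∃ s t, iot ((0 : ℂ), (0 : ℂ)) (a ^ k) = φ d * s + φ q * t := by
    intro a ha
    have h1 : ¬ IsUnit (φ.symm (iot ((0 : ℂ), (0 : ℂ)) a)) := by
      intro hu
      apply ha
      have h2 := hu.map φ
      rw [RingEquiv.apply_symm_apply] at h2
      exact (isUnit_map_iff (iot ((0 : ℂ), (0 : ℂ))) a).1 h2
    obtain ⟨s, t, hst⟩ := h _ h1
    refine ⟨φ s, φ t, ?_⟩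
    have := congrArg φ hst
    rw [map_pow, RingEquiv.apply_symm_apply, map_add, map_mul, map_mul] at this
    rw [map_pow, this]
  refine two_not_enough (z₀ := ((0 : ℂ), (0 : ℂ))) hm (a := Wv (0 : ℂ) ^ k) (b := c0 ^ k) ?_
    (relPrime_cc k) ?_ ?_ (hpow _ ?_) (hpow _ ?_)
  · exact (reg_Wv_pow k).ne_zero
  · exact fun hu => hd (by simpa using hu.map φ.symm)
  · exact fun hu => hq (by simpa using hu.map φ.symm)
  · rw [Wv, isUnit_gm]; simp
  · rw [c0, TT, iot, pull_gm, isUnit_gm]; simp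

/-- **Koszul exactness** for three germs in three variables -/
theorem koszul3 {f p q : O3} (hf : ¬ IsUnit f) (hp : ¬ IsUnit p) (hq : ¬ IsUnit q) {k : ℕ}
    (h : ∀ y : O3, ¬ IsUnit y → ∃ r s t, y ^ k = r * f + s * p + t * q)
    {x y z : O3} (h0 : x * f + y * p + z * q = 0) :
    ∃ r s t, x = r * p + s * q ∧ y = - r * f + t * q ∧ z = - s * f - t * p := by
  have hf0 : f ≠ 0 := by
    rintro rfl
    refine two_not_enough3 hp hq (k := k) ?_
    intro y hy
    obtain ⟨r, s, t, hrst⟩ := h y hy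
    exact ⟨s, t, by rw [hrst]; ring⟩
  obtain ⟨e, m, hm⟩ := exists_chart3 (F := Fin 3 → ℂ) (by simp) hf0
  set φ := affEquiv e (0 : Fin 3 → ℂ) with hφ
  have hpow : ∀ a : OO ((0 : ℂ), (0 : ℂ)), ¬ IsUnit a →
      ∃ r s t, iot ((0 : ℂ), (0 : ℂ)) (a ^ k) = r * φ f + s * φ p + t * φ q := by
    intro a ha
    have h1 : ¬ IsUnit (φ.symm (iot ((0 : ℂ), (0 : ℂ)) a)) := by
      intro hu
      apply ha
      have h2 := hu.map φ
      rw [RingEquiv.apply_symm_apply] at h2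
      exact (isUnit_map_iff (iot ((0 : ℂ), (0 : ℂ))) a).1 h2
    obtain ⟨r, s, t, hst⟩ := h _ h1
    refine ⟨φ r, φ s, φ t, ?_⟩
    have := congrArg φ hst
    rw [map_pow, RingEquiv.apply_symm_apply, map_add, map_add, map_mul, map_mul,
      map_mul] at this
    rw [map_pow, this]
  have h1 : φ x * φ f + φ y * φ p + φ z * φ q = 0 := by
    have := congrArg φ h0
    rwa [map_add, map_add, map_mul, map_mul, map_mul, map_zero] at this
  obtain ⟨r, s, t, e1, e2, e3⟩ := koszul_base (z₀ := ((0 : ℂ), (0 : ℂ))) hm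
    (a := Wv (0 : ℂ) ^ k) (b := c0 ^ k) (reg_Wv_pow k).ne_zero (relPrime_cc k)
    (fun hu => hq (by simpa using hu.map φ.symm))
    (hpow _ (by rw [Wv, isUnit_gm]; simp)) (hpow _ (by rw [c0, TT, iot, pull_gm, isUnit_gm]; simp))
    h1
  refine ⟨φ.symm r, φ.symm s, φ.symm t, ?_, ?_, ?_⟩
  · apply φ.injective; simp [e1]
  · apply φ.injective; simp [e2]
  · apply φ.injective; simp [e3]

end Three

end Crest.Agent.R257.Cnm1_889
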