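import Mathlib

/-!
Row 257 (S0395), leaf CNM (helper889), part 2 (Mathlib only): a finite dimensional commutative
`ℂ`-algebra without point derivations has exactly `finrank` characters.
-/

set_option autoImplicit false

open Module

noncomputable section

namespace Crest.Agent.R257.Cnm2_889

universe u

variable {S : Type u} [CommRing S] [Algebra ℂ S]

/-- no point derivations implies unramified -/
theorem subsingleton_kaehler [Module.Finite ℂ S]
    (h : ∀ (χ : S →ₐ[ℂ] ℂ) (D : S →ₗ[ℂ] ℂ), (∀ a b, D (a * b) = χ a * D b + χ b * D a) → D = 0) :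
    Subsingleton (Ω[S⁄ℂ]) := by
  by_contra hns
  rw [not_subsingleton_iff_nontrivial] at hns
  obtain ⟨N, hN⟩ : ∃ N : Submodule S (Ω[S⁄ℂ]), IsCoatom N := by
    obtain ⟨N, hN, -⟩ := (eq_top_or_exists_le_coatom (⊥ : Submodule S (Ω[S⁄ℂ]))).resolve_left
      bot_ne_top
    exact ⟨N, hN⟩
  have hsimple : IsSimpleModule S (Ω[S⁄ℂ] ⧸ N) := isSimpleModule_iff_isCoatom.2 hN
  obtain ⟨m, hm, ⟨φ⟩⟩ := isSimpleModule_iff_quot_maximal.1 hsimple
  letI : Field (S ⧸ m) := Ideal.Quotient.field m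
  have hbij : Function.Bijective (algebraMap ℂ (S ⧸ m)) :=
    IsAlgClosed.algebraMap_bijective_of_isIntegral
  let ψ : ℂ ≃ₐ[ℂ] (S ⧸ m) := AlgEquiv.ofBijective (Algebra.ofId ℂ (S ⧸ m)) hbij
  let χ : S →ₐ[ℂ] ℂ := (ψ.symm : (S ⧸ m) →ₐ[ℂ] ℂ).comp (Ideal.Quotient.mkₐ ℂ m)
  let L : Ω[S⁄ℂ] →ₗ[S] (S ⧸ m) := (φ : (Ω[S⁄ℂ] ⧸ N) →ₗ[S] (S ⧸ m)).comp N.mkQ
  let D : S →ₗ[ℂ] ℂ := (ψ.symm.toLinearMap).comp
    ((L.restrictScalars ℂ).comp (KaehlerDifferential.D ℂ S : S →ₗ[ℂ] Ω[S⁄ℂ]))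
  have hD : ∀ a, D a = ψ.symm (L (KaehlerDifferential.D ℂ S a)) := fun a => rfl
  have hχ : ∀ a, χ a = ψ.symm (Ideal.Quotient.mk m a) := fun a => rfl
  have hleib : ∀ a b, D (a * b) = χ a * D b + χ b * D a := by
    intro a b
    rw [hD, hD, hD, hχ, hχ, Derivation.leibniz, map_add, map_smul, map_smul, map_add]
    congr 1
    · rw [Algebra.smul_def, map_mul]; rfl
    · rw [Algebra.smul_def, map_mul]; rfl
  have h0 := h χ D hleib
  have hL : ∀ a, L (KaehlerDifferential.D ℂ S a) = 0 := by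
    intro a
    have h1 : D a = 0 := by rw [h0]; rfl
    rw [hD] at h1
    exact (map_eq_zero_iff _ ψ.symm.injective).1 h1
  have hL0 : L = 0 := by
    have h2 : (⊤ : Submodule S (Ω[S⁄ℂ])) ≤ LinearMap.ker L := by
      rw [← KaehlerDifferential.span_range_derivation ℂ S, Submodule.span_le]
      rintro _ ⟨a, rfl⟩
      exact hL a
    ext x
    exact h2 trivial
  apply hN.1
  rw [eq_top_iff]
  intro x _
  have h3 : L x = 0 := by rw [hL0]; rfl
  have h4 : N.mkQ x = 0 := by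
    apply φ.injective
    rw [map_zero]
    exact h3
  simpa using h4

/-- the number of characters -/
theorem card_algHom_eq [Module.Finite ℂ S]
    (h : ∀ (χ : S →ₐ[ℂ] ℂ) (D : S →ₗ[ℂ] ℂ), (∀ a b, D (a * b) = χ a * D b + χ b * D a) → D = 0) :
    Nat.card (S →ₐ[ℂ] ℂ) = finrank ℂ S := by
  refine le_antisymm (card_algHom_le_finrank ℂ S ℂ) ?_
  have hs := subsingleton_kaehler h
  have hu : Algebra.FormallyUnramified ℂ S := ⟨hs⟩
  have he : Algebra.FormallyEtale ℂ S := Algebra.FormallyEtale.of_formallyUnramified_of_field ℂ S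
  let e := Algebra.FormallyEtale.equivPiOfIsSepClosed ℂ S
  have hfin : Finite (PrimeSpectrum S) := by
    have : IsArtinianRing S := IsArtinianRing.of_finite ℂ S
    infer_instance
  letI := Fintype.ofFinite (PrimeSpectrum S)
  have h1 : finrank ℂ S = Nat.card (PrimeSpectrum S) := by
    rw [e.toLinearEquiv.finrank_eq, Module.finrank_pi, Nat.card_eq_fintype_card]
  rw [h1]
  refine Nat.card_le_card_of_injective
    (fun p : PrimeSpectrum S => (Pi.evalAlgHom ℂ (fun _ : PrimeSpectrum S => ℂ) p).comp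
      (e : S →ₐ[ℂ] (PrimeSpectrum S → ℂ))) ?_
  intro p q hpq
  by_contra hne
  classical
  have h2 := congrArg (fun f : S →ₐ[ℂ] ℂ => f (e.symm (Pi.single p 1))) hpq
  simp [Pi.single_apply, Ne.symm hne] at h2

end Crest.Agent.R257.Cnm2_889
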