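import Crest.Agent.R257.Cnm2_889

/-!
Row 257 (S0395), leaf CNM (helper889), part 3 (Mathlib only): the pointwise statement.
`S` is a finite dimensional algebra with generators `m_k`, a basis of words in the `m_k`, and the
functions `G_j` on a ball are related to `S` by finitely many identities.  Then the zeros of `G` in
the ball are the characters of `S`; if all zeros are nondegenerate their number is `dim S`.
-/

set_option autoImplicit false

open Module Filter Topology

noncomputable section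

namespace Crest.Agent.R257.Cnm3_889

open Crest.Agent.R257.Cnm2_889

/-- the value of a word -/
def wd {A : Type*} [Monoid A] {n : ℕ} (w : List (Fin n)) (x : Fin n → A) : A := (w.map x).prod

@[simp] lemma wd_nil {A : Type*} [Monoid A] {n : ℕ} (x : Fin n → A) : wd [] x = 1 := rfl
@[simp] lemma wd_cons {A : Type*} [Monoid A] {n : ℕ} (k : Fin n) (w : List (Fin n))
    (x : Fin n → A) : wd (k :: w) x = x k * wd w x := by simp [wd]

lemma wd_map {A B : Type*} [Monoid A] [Monoid B] {n : ℕ} (φ : A →* B) (w : List (Fin n))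
    (x : Fin n → A) : φ (wd w x) = wd w (fun k => φ (x k)) := by
  induction w with
  | nil => simp
  | cons k w ih => simp [ih]

/-- the data at one parameter value -/
structure Dat (n N : ℕ) (ι : Type) [Fintype ι] (S : Type) [CommRing S] [Algebra ℂ S] where
  /-- basis -/
  b : Basis (Fin N) ℂ S
  /-- generators -/
  m : Fin n → S
  w : Fin N → List (Fin n)
  hb : ∀ l, b l = wd (w l) m
  M : Fin n → Fin N → Fin N → ℂ
  hM : ∀ k l, m k * b l = ∑ i, M k i l • b i
  u : Fin N → ℂ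
  hu : (1 : S) = ∑ l, u l • b l
  /-- radius -/
  r : ℝ
  G : ι → (Fin n → ℂ) → ℂ
  α : ι → (Fin n → ℂ) → ℂ
  β : Fin n → Fin N → ι → (Fin n → ℂ) → ℂ
  g : ι → ℂ
  R : ι → Fin n → (Fin n → ℂ) → ℂ
  ρ : ι → Fin n → Fin N → ℂ
  a : ι → Fin n → ι → (Fin n → ℂ) → ℂ
  D1 : ∀ x, ‖x‖ < r → 1 = ∑ l, u l * wd (w l) x + ∑ j, α j x * G j x
  D2 : ∀ x, ‖x‖ < r → ∀ k l, x k * wd (w l) x = ∑ i, M k i l * wd (w i) x + ∑ j, β k l j x * G j x
  D3 : ∀ x, ‖x‖ < r → ∀ j, G j x = g j + ∑ k, x k * R j k x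
  D4 : ∀ x, ‖x‖ < r → ∀ j k, R j k x = ∑ l, ρ j k l * wd (w l) x + ∑ j', a j k j' x * G j' x
  S1 : ∀ j, g j • (1 : S) + ∑ k, m k * ∑ l, ρ j k l • b l = 0
  C : ℝ
  hC : ∀ x, ‖x‖ < r → ∀ j k j', ‖a j k j' x‖ ≤ C
  ε : ℝ
  hε0 : 0 < ε
  hεr : ε ≤ r
  hε : (Fintype.card ι : ℝ) * (n * (ε * C)) < 1
  hχ : ∀ (χ : S →ₐ[ℂ] ℂ) (k : Fin n), ‖χ (m k)‖ < ε
  dG : ∀ x, ‖x‖ < r → ∀ j, DifferentiableAt ℂ (G j) x
  dR : ∀ x, ‖x‖ < r → ∀ j k, DifferentiableAt ℂ (R j k) x
  da : ∀ x, ‖x‖ < r → ∀ j k j', DifferentiableAt ℂ (a j k j') x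

namespace Dat

variable {n N : ℕ} {ι : Type} [Fintype ι] {S : Type} [CommRing S] [Algebra ℂ S]
  (d : Dat n N ι S)

/-- the zero set -/
def Z : Set (Fin n → ℂ) := {x | ‖x‖ < d.r ∧ ∀ j, d.G j x = 0}

/-- a vector which is a small linear combination of itself vanishes -/
lemma eq_zero_of_small {d : Dat n N ι S} {X : Fin n → ℂ} (hX : ∀ k, ‖X k‖ ≤ d.ε)
    {A : ι → Fin n → ι → ℂ} (hA : ∀ j k j', ‖A j k j'‖ ≤ d.C) {v : ι → ℂ}
    (h : ∀ j, v j = ∑ k, X k * ∑ j', A j k j' * v j') : ∀ j, v j = 0 := by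
  set s := ∑ j, ‖v j‖ with hs
  have hs0 : 0 ≤ s := Finset.sum_nonneg (fun j _ => norm_nonneg _)
  have h1 : ∀ j, ‖v j‖ ≤ n * (d.ε * d.C) * s := by
    intro j
    rw [h j]
    refine (norm_sum_le _ _).trans ?_
    have h2 : ∀ k ∈ (Finset.univ : Finset (Fin n)), ‖X k * ∑ j', A j k j' * v j'‖ ≤
        d.ε * d.C * s := by
      intro k _
      rw [norm_mul, mul_assoc]
      refine mul_le_mul (hX k) ?_ (norm_nonneg _) d.hε0.le
      refine (norm_sum_le _ _).trans ?_
      rw [hs, Finset.mul_sum]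
      refine Finset.sum_le_sum (fun j' _ => ?_)
      rw [norm_mul]
      exact mul_le_mul_of_nonneg_right (hA j k j') (norm_nonneg _)
    refine (Finset.sum_le_sum h2).trans ?_
    simp [mul_assoc]
  have h3 : s ≤ (Fintype.card ι : ℝ) * (n * (d.ε * d.C)) * s := by
    conv_lhs => rw [hs]
    refine (Finset.sum_le_sum (fun j _ => h1 j)).trans ?_
    simp [mul_assoc]
  have h4 : s = 0 := by
    by_contra hne
    have hpos : 0 < s := lt_of_le_of_ne hs0 (Ne.symm hne)
    have := d.hε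
    nlinarith
  intro j
  have h5 : ‖v j‖ ≤ s := by
    rw [hs]
    exact Finset.single_le_sum (f := fun j => ‖v j‖) (fun j _ => norm_nonneg _) (Finset.mem_univ j)
  rw [h4] at h5
  exact norm_le_zero_iff.1 h5

lemma chi_word (χ : S →ₐ[ℂ] ℂ) (l : Fin N) : χ (d.b l) = wd (d.w l) (fun k => χ (d.m k)) := by
  rw [d.hb]
  exact wd_map (χ : S →* ℂ) _ _

/-- points of the zero set are characters -/
theorem exists_chi {x : Fin n → ℂ} (hx : x ∈ d.Z) : ∃ χ : S →ₐ[ℂ] ℂ, ∀ k, χ (d.m k) = x k := by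
  obtain ⟨hxr, hx0⟩ := hx
  let L : S →ₗ[ℂ] ℂ := d.b.constr ℂ (fun l => wd (d.w l) x)
  have hL : ∀ l, L (d.b l) = wd (d.w l) x := fun l => d.b.constr_basis ℂ _ l
  have hL1 : L 1 = 1 := by
    have h1 := d.D1 x hxr
    simp only [hx0, mul_zero, Finset.sum_const_zero, add_zero] at h1
    rw [d.hu, map_sum, h1]
    refine Finset.sum_congr rfl (fun l _ => ?_)
    rw [map_smul, hL, smul_eq_mul]
  have hLm : ∀ k s, L (d.m k * s) = x k * L s := by
    intro k s
    have h2 : L ∘ₗ (LinearMap.mulLeft ℂ (d.m k)) = (x k) • L := by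
      refine d.b.ext (fun l => ?_)
      have h3 := d.D2 x hxr k l
      simp only [hx0, mul_zero, Finset.sum_const_zero, add_zero] at h3
      rw [LinearMap.comp_apply, LinearMap.mulLeft_apply, d.hM, map_sum, LinearMap.smul_apply,
        smul_eq_mul, hL, h3]
      refine Finset.sum_congr rfl (fun i _ => ?_)
      rw [map_smul, hL, smul_eq_mul]
    exact LinearMap.congr_fun h2 s
  have hLw : ∀ (w : List (Fin n)) (s : S), L (wd w d.m * s) = wd w x * L s := by
    intro w s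
    induction w with
    | nil => simp
    | cons k w ih => rw [wd_cons, wd_cons, mul_assoc, hLm, ih, mul_assoc]
  have hmul : ∀ s t, L (s * t) = L s * L t := by
    intro s t
    have h2 : L ∘ₗ (LinearMap.mulRight ℂ t) = (L t) • L := by
      refine d.b.ext (fun l => ?_)
      rw [LinearMap.comp_apply, LinearMap.mulRight_apply, LinearMap.smul_apply, smul_eq_mul, hL,
        d.hb, hLw, mul_comm]
    have := LinearMap.congr_fun h2 s
    rw [LinearMap.comp_apply, LinearMap.mulRight_apply, LinearMap.smul_apply, smul_eq_mul] at this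
    rw [this, mul_comm]
  refine ⟨AlgHom.ofLinearMap L hL1 hmul, fun k => ?_⟩
  rw [AlgHom.ofLinearMap_apply]
  have := hLm k 1
  rwa [mul_one, hL1, mul_one] at this

lemma norm_chi (χ : S →ₐ[ℂ] ℂ) : ‖fun k => χ (d.m k)‖ < d.ε :=
  (pi_norm_lt_iff d.hε0).2 (fun k => d.hχ χ k)

/-- characters are points of the zero set -/
theorem chi_mem (χ : S →ₐ[ℂ] ℂ) : (fun k => χ (d.m k)) ∈ d.Z := by
  set X : Fin n → ℂ := fun k => χ (d.m k) with hX
  have hXr : ‖X‖ < d.r := (d.norm_chi χ).trans_le d.hεr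
  refine ⟨hXr, ?_⟩
  refine eq_zero_of_small (d := d) (X := X) (fun k => (d.hχ χ k).le)
    (A := fun j k j' => d.a j k j' X) (fun j k j' => d.hC X hXr j k j') (fun j => ?_)
  have h1 := congrArg χ (d.S1 j)
  rw [map_add, map_smul, map_one, map_sum, map_zero, smul_eq_mul, mul_one] at h1
  have h2 : ∀ k, χ (d.m k * ∑ l, d.ρ j k l • d.b l) = X k * ∑ l, d.ρ j k l * wd (d.w l) X := by
    intro k
    rw [map_mul, map_sum]
    congr 1
    refine Finset.sum_congr rfl (fun l _ => ?_)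
    rw [map_smul, d.chi_word, smul_eq_mul]
  simp only [h2] at h1
  rw [d.D3 X hXr j]
  have h3 : ∀ k, X k * d.R j k X = X k * ∑ l, d.ρ j k l * wd (d.w l) X +
      X k * ∑ j', d.a j k j' X * d.G j' X := by
    intro k
    rw [d.D4 X hXr j k]; ring
  simp only [h3]
  rw [Finset.sum_add_distrib]
  linear_combination h1

lemma chi_injective : Function.Injective (fun χ : S →ₐ[ℂ] ℂ => fun k => χ (d.m k)) := by
  intro χ χ' h
  have h1 : χ.toLinearMap = χ'.toLinearMap := by
    refine d.b.ext (fun l => ?_)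
    rw [AlgHom.toLinearMap_apply, AlgHom.toLinearMap_apply, d.chi_word, d.chi_word]
    exact congrArg _ h
  exact AlgHom.toLinearMap_injective h1

lemma Z_eq : d.Z = Set.range (fun χ : S →ₐ[ℂ] ℂ => fun k => χ (d.m k)) := by
  ext x
  constructor
  · intro hx
    obtain ⟨χ, hχ⟩ := d.exists_chi hx
    exact ⟨χ, funext hχ⟩
  · rintro ⟨χ, rfl⟩
    exact d.chi_mem χ

theorem finite_Z : d.Z.Finite := by
  have : Module.Finite ℂ S := Module.Finite.of_basis d.b
  rw [d.Z_eq]
  exact Set.finite_range _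

theorem ncard_Z : d.Z.ncard = Nat.card (S →ₐ[ℂ] ℂ) := by
  rw [d.Z_eq, ← Set.image_univ, Set.ncard_image_of_injective _ d.chi_injective, Set.ncard_univ]

theorem ncard_le : d.Z.ncard ≤ N := by
  have : Module.Finite ℂ S := Module.Finite.of_basis d.b
  rw [d.ncard_Z]
  refine (card_algHom_le_finrank ℂ S ℂ).trans ?_
  rw [Module.finrank_eq_card_basis d.b, Fintype.card_fin]

theorem norm_lt_of_mem {x : Fin n → ℂ} (hx : x ∈ d.Z) : ‖x‖ < d.ε := by
  rw [d.Z_eq] at hx
  obtain ⟨χ, rfl⟩ := hx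
  exact d.norm_chi χ

/-- no point derivations at a nondegenerate zero -/
theorem derivation_zero (hnd : ∀ x ∈ d.Z, ∀ v : Fin n → ℂ, (∀ j, fderiv ℂ (d.G j) x v = 0) → v = 0)
    (χ : S →ₐ[ℂ] ℂ) (D : S →ₗ[ℂ] ℂ) (hD : ∀ a b, D (a * b) = χ a * D b + χ b * D a) : D = 0 := by
  set X : Fin n → ℂ := fun k => χ (d.m k) with hX
  have hXZ : X ∈ d.Z := d.chi_mem χ
  have hXr : ‖X‖ < d.r := hXZ.1
  have hG0 : ∀ j, d.G j X = 0 := hXZ.2
  set v : Fin n → ℂ := fun k => D (d.m k) with hv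
  have hD1 : D 1 = 0 := by
    have := hD 1 1
    rw [mul_one, map_one χ, one_mul] at this
    linear_combination -this
  let γ : ℂ → (Fin n → ℂ) := fun t => X + t • v
  have hγ0 : γ 0 = X := by simp [γ]
  have hγ : HasDerivAt γ v 0 := by
    have := ((hasDerivAt_id (0 : ℂ)).smul_const v).const_add X
    simpa [γ] using this
  have hγc : ContinuousAt γ 0 := hγ.continuousAt
  have hball : ∀ᶠ t in 𝓝 (0 : ℂ), ‖γ t‖ < d.r := by
    have h1 : Tendsto (fun t => ‖γ t‖) (𝓝 0) (𝓝 ‖γ 0‖) := hγc.norm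
    rw [hγ0] at h1
    exact h1.eventually (gt_mem_nhds hXr)
  have hγk : ∀ k, HasDerivAt (fun t => γ t k) (v k) 0 := fun k => (hasDerivAt_pi.1 hγ) k
  have hword : ∀ w : List (Fin n), HasDerivAt (fun t => wd w (γ t)) (D (wd w d.m)) 0 ∧
      wd w (γ 0) = χ (wd w d.m) := by
    intro w
    induction w with
    | nil =>
      refine ⟨?_, by simp⟩
      simp only [wd_nil, hD1]
      exact hasDerivAt_const _ _
    | cons k w ih =>
      refine ⟨?_, ?_⟩
      · have h1 := (hγk k).fun_mul ih.1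
        have h2 : D (wd (k :: w) d.m) = v k * wd w (γ 0) + γ 0 k * D (wd w d.m) := by
          rw [wd_cons, hD, ih.2, hγ0, mul_comm (v k)]
          ring
        rw [h2]
        simpa only [wd_cons] using h1
      · rw [wd_cons, wd_cons, map_mul, ih.2, hγ0]
  have hcomp : ∀ f : (Fin n → ℂ) → ℂ, DifferentiableAt ℂ f X →
      HasDerivAt (fun t => f (γ t)) (fderiv ℂ f X v) 0 := by
    intro f hf
    have h1 : HasFDerivAt f (fderiv ℂ f X) (γ 0) := by rw [hγ0]; exact hf.hasFDerivAt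
    exact h1.comp_hasDerivAt 0 hγ
  -- the coefficients
  have hχρ : ∀ j k, χ (∑ l, d.ρ j k l • d.b l) = d.R j k X := by
    intro j k
    rw [d.D4 X hXr j k]
    simp only [hG0, mul_zero, Finset.sum_const_zero, add_zero]
    rw [map_sum]
    refine Finset.sum_congr rfl (fun l _ => ?_)
    rw [map_smul, d.chi_word, smul_eq_mul]
  have hRd : ∀ j k, fderiv ℂ (d.R j k) X v = D (∑ l, d.ρ j k l • d.b l) +
      ∑ j', d.a j k j' X * fderiv ℂ (d.G j') X v := by
    intro j k
    have h1 := hcomp _ (d.dR X hXr j k)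
    have h2 : HasDerivAt (fun t => ∑ l, d.ρ j k l * wd (d.w l) (γ t) +
        ∑ j', d.a j k j' (γ t) * d.G j' (γ t))
        (∑ l, d.ρ j k l * D (wd (d.w l) d.m) + ∑ j', (fderiv ℂ (d.a j k j') X v * d.G j' (γ 0) +
          d.a j k j' (γ 0) * fderiv ℂ (d.G j') X v)) 0 := by
      refine HasDerivAt.add ?_ ?_
      · refine HasDerivAt.fun_sum (fun l _ => ?_)
        exact ((hword (d.w l)).1).const_mul _
      · refine HasDerivAt.fun_sum (fun j' _ => ?_)
        exact (hcomp _ (d.da X hXr j k j')).fun_mul (hcomp _ (d.dG X hXr j'))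
    have h3 : (fun t => d.R j k (γ t)) =ᶠ[𝓝 0] (fun t => ∑ l, d.ρ j k l * wd (d.w l) (γ t) +
        ∑ j', d.a j k j' (γ t) * d.G j' (γ t)) := by
      filter_upwards [hball] with t ht
      exact d.D4 _ ht j k
    have h4 := h1.unique (h2.congr_of_eventuallyEq h3)
    rw [h4, hγ0]
    simp only [hG0, mul_zero, zero_add]
    rw [map_sum]
    congr 1
    refine Finset.sum_congr rfl (fun l _ => ?_)
    rw [map_smul, d.hb, smul_eq_mul]
  have hGd : ∀ j, fderiv ℂ (d.G j) X v = ∑ k, (v k * d.R j k X + X k * fderiv ℂ (d.R j k) X v) := by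
    intro j
    have h1 := hcomp _ (d.dG X hXr j)
    have h2 : HasDerivAt (fun t => d.g j + ∑ k, γ t k * d.R j k (γ t))
        (∑ k, (v k * d.R j k (γ 0) + γ 0 k * fderiv ℂ (d.R j k) X v)) 0 := by
      refine HasDerivAt.const_add _ ?_
      refine HasDerivAt.fun_sum (fun k _ => ?_)
      exact (hγk k).fun_mul (hcomp _ (d.dR X hXr j k))
    have h3 : (fun t => d.G j (γ t)) =ᶠ[𝓝 0] (fun t => d.g j + ∑ k, γ t k * d.R j k (γ t)) := by
      filter_upwards [hball] with t ht
      exact d.D3 _ ht j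
    have h4 := h1.unique (h2.congr_of_eventuallyEq h3)
    rw [h4, hγ0]
  have hS : ∀ j, ∑ k, (v k * d.R j k X + X k * D (∑ l, d.ρ j k l • d.b l)) = 0 := by
    intro j
    have h1 := congrArg D (d.S1 j)
    rw [map_add, map_smul, hD1, smul_zero, zero_add, map_sum, map_zero] at h1
    rw [← h1]
    refine Finset.sum_congr rfl (fun k _ => ?_)
    rw [hD, hχρ]
    simp only [hX, hv]
    ring
  have hz : ∀ j, fderiv ℂ (d.G j) X v = 0 := by
    refine eq_zero_of_small (d := d) (X := X) (fun k => (d.hχ χ k).le)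
      (A := fun j k j' => d.a j k j' X) (fun j k j' => d.hC X hXr j k j') (fun j => ?_)
    rw [hGd j]
    have h1 := hS j
    rw [Finset.sum_add_distrib] at h1 ⊢
    have h2 : ∑ k, X k * fderiv ℂ (d.R j k) X v = ∑ k, X k * D (∑ l, d.ρ j k l • d.b l) +
        ∑ k, X k * ∑ j', d.a j k j' X * fderiv ℂ (d.G j') X v := by
      rw [← Finset.sum_add_distrib]
      refine Finset.sum_congr rfl (fun k _ => ?_)
      rw [hRd]; ring
    rw [h2]
    linear_combination h1
  have hv0 : v = 0 := hnd X hXZ v hz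
  refine d.b.ext (fun l => ?_)
  rw [d.hb, LinearMap.zero_apply]
  have hw : ∀ w : List (Fin n), D (wd w d.m) = 0 := by
    intro w
    induction w with
    | nil => simpa using hD1
    | cons k w ih =>
      rw [wd_cons, hD, ih, mul_zero, zero_add]
      have : D (d.m k) = 0 := congrFun hv0 k
      rw [this, mul_zero]
  exact hw _

/-- **count** : if all zeros are nondegenerate there are exactly `N` of them -/
theorem ncard_eq (hnd : ∀ x ∈ d.Z, ∀ v : Fin n → ℂ, (∀ j, fderiv ℂ (d.G j) x v = 0) → v = 0) :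
    d.Z.ncard = N := by
  have : Module.Finite ℂ S := Module.Finite.of_basis d.b
  rw [d.ncard_Z, card_algHom_eq (fun χ D hD => d.derivation_zero hnd χ D hD),
    Module.finrank_eq_card_basis d.b, Fintype.card_fin]

end Dat

end Crest.Agent.R257.Cnm3_889
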