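import Crest.Agent.R257.Uni_554

/-!
Row 257 (S0395), leaf E-GLOB, part 2b (helper554): the uniform ideal lemma (U), main statement.
-/

set_option autoImplicit false

open Set Filter Topology
open Crest.Agent.R275.Loc2879

noncomputable section

namespace Crest.Agent.R257.Uni554

open Crest.Agent.R257.Fin554

lemma gm_sum {E : Type*} [NormedAddCommGroup E] [NormedSpace ℂ E] {p : E} {ι : Type*}
    (s : Finset ι) (f : ι → E → ℂ) (h : ∀ i, AnalyticAt ℂ (f i) p) :
    ∃ h', ∑ i ∈ s, gm (f i) (h i) = gm (fun x => ∑ i ∈ s, f i x) h' := by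
  classical
  induction s using Finset.induction_on with
  | empty =>
    refine ⟨by simpa using analyticAt_const, ?_⟩
    rw [Finset.sum_empty, gm_zero, gm_eq_gm]
    exact Eventually.of_forall (fun x => by simp)
  | insert i s hi ih =>
    obtain ⟨h1, e1⟩ := ih
    refine ⟨by simpa only [Finset.sum_insert hi] using (h i).fun_add h1, ?_⟩
    rw [Finset.sum_insert hi, e1, gm_add, gm_eq_gm]
    exact Eventually.of_forall (fun x => by simp [Finset.sum_insert hi])

lemma gm_prod {E : Type*} [NormedAddCommGroup E] [NormedSpace ℂ E] {p : E} {ι : Type*}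
    (s : Finset ι) (f : ι → E → ℂ) (h : ∀ i, AnalyticAt ℂ (f i) p) :
    ∃ h', ∏ i ∈ s, gm (f i) (h i) = gm (fun x => ∏ i ∈ s, f i x) h' := by
  classical
  induction s using Finset.induction_on with
  | empty =>
    refine ⟨by simpa using analyticAt_const, ?_⟩
    rw [Finset.prod_empty, gm_one, gm_eq_gm]
    exact Eventually.of_forall (fun x => by simp)
  | insert i s hi ih =>
    obtain ⟨h1, e1⟩ := ih
    refine ⟨by simpa only [Finset.prod_insert hi] using (h i).fun_mul h1, ?_⟩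
    rw [Finset.prod_insert hi, e1, gm_mul, gm_eq_gm]
    exact Eventually.of_forall (fun x => by simp [Finset.prod_insert hi])

variable {n : ℕ} {ι : Type*}

/-- the ideal of germs generated by (the analytic members of) a family of functions -/
def JI (g : ι → (Fin n → ℂ) → ℂ) : Ideal (On n) :=
  Ideal.span {y | ∃ i, ∃ h : AnalyticAt ℂ (g i) 0, y = gm (g i) h}

lemma JI_eq_span {g : ι → (Fin n → ℂ) → ℂ} (h : ∀ i, AnalyticAt ℂ (g i) 0) :
    JI g = Ideal.span (range fun i => gm (g i) (h i)) := by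
  rw [JI]
  congr 1
  ext y
  constructor
  · rintro ⟨i, h', rfl⟩
    exact ⟨i, rfl⟩
  · rintro ⟨i, rfl⟩
    exact ⟨i, h i, rfl⟩

lemma eventually_swap {P : (Fin n → ℂ) × ℂ → Prop}
    (h : ∀ᶠ p in 𝓝 (((0 : Fin n → ℂ), (0 : ℂ))), P p) :
    ∀ᶠ t in 𝓝 (0 : ℂ), ∀ᶠ x in 𝓝 (0 : Fin n → ℂ), P (x, t) := by
  rw [nhds_prod_eq] at h
  have h2 : ∀ᶠ p in 𝓝 (0 : ℂ) ×ˢ 𝓝 (0 : Fin n → ℂ), P p.swap := by
    rw [Filter.prod_comm] at h
    exact h
  exact h2.curry

lemma analyticAt_slice {f : (Fin n → ℂ) × ℂ → ℂ} {t : ℂ} (hf : AnalyticAt ℂ f (0, t)) :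
    AnalyticAt ℂ (fun x => f (x, t)) 0 :=
  AnalyticAt.comp (g := f) (f := fun x : Fin n → ℂ => (x, t)) hf
    (analyticAt_id.prod analyticAt_const)

lemma eventually_slice {f : (Fin n → ℂ) × ℂ → ℂ} (hf : AnalyticAt ℂ f (0, 0)) :
    ∀ᶠ t in 𝓝 (0 : ℂ), AnalyticAt ℂ (fun x => f (x, t)) 0 := by
  have h1 : Tendsto (fun t : ℂ => ((0 : Fin n → ℂ), t)) (𝓝 0) (𝓝 (0, 0)) := by
    have : Continuous (fun t : ℂ => ((0 : Fin n → ℂ), t)) := by fun_prop
    exact this.tendsto 0
  filter_upwards [h1.eventually hf.eventually_analyticAt] with t ht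
  exact analyticAt_slice ht

variable [Fintype ι]

omit [Fintype ι] in
/-- Nakayama's lemma for `B/I` over `A` -/
theorem nak {A B : Type*} [CommRing A] [IsLocalRing A] [CommRing B] (φ : A →+* B) (I : Ideal B)
    (hF : FinOver φ (B ⧸ I)) {μ : ℕ} (e : Fin μ → B)
    (h : ∀ b : B, ∃ (c : Fin μ → A) (i : B) (a : A) (q : B), i ∈ I ∧
      a ∈ IsLocalRing.maximalIdeal A ∧ b = ∑ j, φ (c j) * e j + (i + φ a * q)) :
    ∀ b : B, ∃ c : Fin μ → A, b - ∑ j, φ (c j) * e j ∈ I := by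
  let _ : Module A (B ⧸ I) := Module.compHom (B ⧸ I) φ
  let N : Submodule A (B ⧸ I) := Submodule.span _ (range fun j => Ideal.Quotient.mk I (e j))
  have hfg : (⊤ : Submodule A (B ⧸ I)).FG := by
    classical
    obtain ⟨m, e, he⟩ := hF
    refine ⟨Finset.univ.image e, ?_⟩
    rw [eq_top_iff]
    intro x _
    obtain ⟨c, hc⟩ := he x
    rw [hc]
    refine Submodule.sum_mem _ (fun i _ => ?_)
    exact Submodule.smul_mem _ (c i) (Submodule.subset_span (by simp))
  have hN : (⊤ : Submodule A (B ⧸ I)) ≤ N := by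
    refine Submodule.le_of_le_smul_of_le_jacobson_bot (I := IsLocalRing.maximalIdeal A)
      hfg (IsLocalRing.maximalIdeal_le_jacobson _) ?_
    intro x _
    obtain ⟨b, rfl⟩ := Ideal.Quotient.mk_surjective x
    obtain ⟨c, i, a, q, hi, ha, hb⟩ := h b
    have h3 : Ideal.Quotient.mk I b = (∑ j, (c j) • Ideal.Quotient.mk I (e j)) +
        a • Ideal.Quotient.mk I q := by
      rw [hb, map_add, map_add, Ideal.Quotient.eq_zero_iff_mem.2 hi, zero_add, map_sum]
      rfl
    rw [h3]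
    refine Submodule.add_mem_sup ?_ (Submodule.smul_mem_smul ha trivial)
    exact Submodule.sum_mem _ (fun j _ => Submodule.smul_mem _ _
      (Submodule.subset_span ⟨j, rfl⟩))
  intro b
  have h1 : Ideal.Quotient.mk I b ∈ N := hN trivial
  obtain ⟨c, hc⟩ := (Submodule.mem_span_range_iff_exists_fun _).1 h1
  refine ⟨c, ?_⟩
  rw [← Ideal.Quotient.eq, ← hc, map_sum]
  rfl

omit [Fintype ι] in
lemma rr_max {b : Bn n} {μ : ℕ} (hb : b ∈ (IsLocalRing.maximalIdeal (Bn n)) ^ μ) :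
    rr n b ∈ (IsLocalRing.maximalIdeal (On n)) ^ μ := by
  have h3 : (IsLocalRing.maximalIdeal (Bn n)).map (rr n) ≤
      IsLocalRing.maximalIdeal (On n) := by
    rw [Ideal.map_le_iff_le_comap]
    intro a ha
    rw [Ideal.mem_comap]
    rw [IsLocalRing.mem_maximalIdeal, mem_nonunits_iff] at ha ⊢
    intro h4
    apply ha
    obtain ⟨f, hf, rfl⟩ := exists_gm a
    rw [rr, pull_gm, isUnit_gm] at h4
    rw [isUnit_gm]
    exact h4
  have h4 : ((IsLocalRing.maximalIdeal (Bn n)) ^ μ).map (rr n) ≤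
      (IsLocalRing.maximalIdeal (On n)) ^ μ := by
    rw [Ideal.map_pow]
    exact Ideal.pow_right_mono h3 μ
  exact h4 (Ideal.mem_map_of_mem _ hb)

/-- preparation: generators of `B/(G)` over the germs in `t` -/
theorem generators (G : ι → (Fin n → ℂ) × ℂ → ℂ) (hG : ∀ i, AnalyticAt ℂ (G i) (0, 0)) (μ : ℕ)
    (hfin : Module.Finite ℂ (On n ⧸ JI (fun i x => G i (x, 0))))
    (hrk : Module.finrank ℂ (On n ⧸ JI (fun i x => G i (x, 0))) = μ) :
    ∃ e : Fin μ → Bn n, ∀ b : Bn n, ∃ c : Fin μ → OO (0 : ℂ),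
      b - ∑ j, sndR n 0 (c j) * e j ∈ Ideal.span (range fun i => gm (G i) (hG i)) := by
  set I : Ideal (Bn n) := Ideal.span (range fun i => gm (G i) (hG i)) with hI
  set J : Ideal (On n) := JI (fun i x => G i (x, 0)) with hJ
  have hmap : I.map (rr n) = J := by
    rw [hI, Ideal.map_span, hJ, JI_eq_span (fun i => analyticAt_slice (hG i))]
    congr 1
    rw [← range_comp]
    rfl
  have hrJ : ∀ b : Bn n, rr n b ∈ J → ∃ i ∈ I, ∃ q, b = i + Tv n * q := by
    intro b hb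
    rw [← hmap] at hb
    obtain ⟨i, hi, hib⟩ := (Ideal.mem_map_iff_of_surjective _ rr_surj).1 hb
    obtain ⟨q, hq⟩ := ker_rr (b := b - i) (by rw [map_sub, hib, sub_self])
    exact ⟨i, hi, q, by rw [← hq]; ring⟩
  have hTm : TT (0 : ℂ) ∈ IsLocalRing.maximalIdeal (OO (0 : ℂ)) := by
    rw [IsLocalRing.mem_maximalIdeal, mem_nonunits_iff]
    exact TT_not_unit
  -- finiteness
  have hF : FinOver (sndR n (0 : ℂ)) (Bn n ⧸ I) := by
    refine finProp_sndR (0 : ℂ) n (Bn n ⧸ I) ?_ ?_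
    · refine ⟨1, fun _ => 1, fun x => ?_⟩
      obtain ⟨b, rfl⟩ := Ideal.Quotient.mk_surjective x
      refine ⟨fun _ => b, ?_⟩
      simp only [Finset.univ_unique, Finset.sum_singleton, RingHom.id_apply]
      rw [Algebra.smul_def, mul_one]; rfl
    · refine ⟨μ, fun b hb x => ?_⟩
      have h1 : rr n b ∈ J := pow_le J hfin hrk (rr_max hb)
      obtain ⟨i, hi, q, rfl⟩ := hrJ b h1
      obtain ⟨y, rfl⟩ := Ideal.Quotient.mk_surjective x
      refine AddSubmonoid.subset_closure ⟨TT 0, hTm, Ideal.Quotient.mk I (q * y), ?_⟩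
      change Ideal.Quotient.mk I ((i + Tv n * q) * y) = Ideal.Quotient.mk I (sndR n 0 (TT 0) * (q * y))
      rw [Ideal.Quotient.eq]
      have : (i + Tv n * q) * y - sndR n 0 (TT 0) * (q * y) = i * y := by
        rw [Tv]; ring
      rw [this]
      exact Ideal.mul_mem_right _ _ hi
  -- the basis
  have hfree : Module.Free ℂ (On n ⧸ J) := Module.Free.of_divisionRing ℂ _
  subst hrk
  let bas := Module.finBasis ℂ (On n ⧸ J)
  choose g hg using fun j => Ideal.Quotient.mk_surjective (bas j)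
  refine ⟨fun j => ll n (g j), nak _ _ hF _ (fun b => ?_)⟩
  have h1 := bas.sum_repr (Ideal.Quotient.mk J (rr n b))
  set γ := bas.repr (Ideal.Quotient.mk J (rr n b)) with hγ
  have h2 : rr n (b - ∑ j, sndR n 0 (algebraMap ℂ _ (γ j)) * ll n (g j)) ∈ J := by
    rw [map_sub, ← Ideal.Quotient.eq_zero_iff_mem, map_sub, ← h1, map_sum, map_sum, sub_eq_zero]
    refine Finset.sum_congr rfl (fun j _ => ?_)
    rw [map_mul, rr_ll, rr_sndR, evp_algebraMap, map_mul, hg, Algebra.smul_def]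
    rfl
  obtain ⟨i, hi, q, hq⟩ := hrJ _ h2
  refine ⟨fun j => algebraMap ℂ _ (γ j), i, TT 0, q, hi, hTm, ?_⟩
  rw [← Tv, ← hq]; ring

end Crest.Agent.R257.Uni554
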