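import Crest.Agent.R257.Cnm1_889
import Crest.Agent.R257.Cnm3_889
import Crest.Agent.R257.Uni2_554

/-!
Row 257 (S0395), leaf CNM (helper889), part 4: germs on `ℂⁿ × ℂᵏ`: words generate the quotient over
the germs in the parameters; they are independent when the fibre is Koszul exact.
-/

set_option autoImplicit false

open Set Filter Topology
open Crest.Agent.R275.Loc2879

noncomputable section

namespace Crest.Agent.R257.Cnm4_889

open Crest.Agent.R257.Fin554 Crest.Agent.R257.Uni554 Crest.Agent.R257.Cnm3_889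

/-- germs at the origin of `ℂⁿ × ℂᵏ` -/
abbrev Bk (n k : ℕ) := OO (((0 : Fin n → ℂ), (0 : Fin k → ℂ)))

/-- germs of the parameters -/
abbrev Rk (k : ℕ) := OO (0 : Fin k → ℂ)

variable {n k : ℕ}

/-- restriction to the fibre over the origin -/
def rk (n k : ℕ) : Bk n k →+* On n :=
  pull (fun x => (x, 0)) (analyticAt_id.prod analyticAt_const) rfl

/-- functions of `x` as functions of `(x,y)` -/
def lk (n k : ℕ) : On n →+* Bk n k := pull Prod.fst analyticAt_fst rfl

/-- functions of `y` -/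
abbrev sR (n k : ℕ) : Rk k →+* Bk n k := sndR n (0 : Fin k → ℂ)

/-- the coordinates -/
abbrev Xk (n k : ℕ) (i : Fin n) : Bk n k := Xc n (0 : Fin k → ℂ) i

@[simp] lemma rk_lk (x : On n) : rk n k (lk n k x) = x := by
  obtain ⟨f, hf, rfl⟩ := exists_gm x
  rfl

lemma rk_surj : Function.Surjective (rk n k) := fun x => ⟨lk n k x, rk_lk x⟩

@[simp] lemma rk_sR (a : Rk k) : rk n k (sR n k a) = algebraMap ℂ _ (evp 0 a) := by
  obtain ⟨f, hf, rfl⟩ := exists_gm a
  rfl

@[simp] lemma rk_Xk (i : Fin n) : rk n k (Xk n k i) = Xo i := rfl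

/-- swapping the factors -/
def sw (n k : ℕ) : Bk n k ≃+* Bk k n :=
  pullEquiv Prod.swap ((ContinuousLinearEquiv.prodComm ℂ (Fin k → ℂ) (Fin n → ℂ)).toContinuousLinearMap.analyticAt _)
    rfl Prod.swap
    ((ContinuousLinearEquiv.prodComm ℂ (Fin n → ℂ) (Fin k → ℂ)).toContinuousLinearMap.analyticAt _)
    rfl (Eventually.of_forall (fun _ => Prod.swap_swap _))
    (Eventually.of_forall (fun _ => Prod.swap_swap _))

lemma sw_Xk (j : Fin k) : sw k n (Xk k n j) = sR n k (Xo j) := rfl

lemma sw_sR (c : On n) : sw k n (sR k n c) = lk n k c := by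
  obtain ⟨f, hf, rfl⟩ := exists_gm c
  rfl

lemma sw_sw (b : Bk n k) : sw k n (sw n k b) = b := (sw n k).symm_apply_apply b

/-- the kernel of the restriction -/
lemma ker_rk {b : Bk n k} (hb : rk n k b = 0) :
    ∃ q : Fin k → Bk n k, b = ∑ j, sR n k (Xo j) * q j := by
  obtain ⟨c, q, h⟩ := hadG (0 : Fin n → ℂ) k (sw n k b)
  have h1 := congrArg (sw k n) h
  rw [sw_sw, map_add, map_sum] at h1
  have h2 : ∀ j, sw k n (Xc k (0 : Fin n → ℂ) j * q j) = sR n k (Xo j) * sw k n (q j) := by
    intro j; rw [map_mul]; rfl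
  simp only [h2] at h1
  have h3 : sw k n (sndR k (0 : Fin n → ℂ) c) = lk n k c := sw_sR c
  rw [h3] at h1
  have h4 := congrArg (rk n k) h1
  rw [hb, map_add, rk_lk, map_sum] at h4
  have h5 : ∀ j, rk n k (sR n k (Xo j) * sw k n (q j)) = 0 := by
    intro j
    rw [map_mul, rk_sR, Xo, evp_gm]; simp
  simp only [h5, Finset.sum_const_zero, add_zero] at h4
  rw [← h4, map_zero, zero_add] at h1
  exact ⟨fun j => sw k n (q j), h1⟩

lemma Xo_mem' (i : Fin k) : (Xo i : Rk k) ∈ IsLocalRing.maximalIdeal (Rk k) := Xo_mem i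

/-- Nakayama's lemma, several parameters -/
theorem nak' {A B : Type*} [CommRing A] [IsLocalRing A] [CommRing B] (φ : A →+* B) (I : Ideal B)
    (hF : FinOver φ (B ⧸ I)) {N : ℕ} (e : Fin N → B)
    (h : ∀ b : B, ∃ (c : Fin N → A) (i : B) (a : Fin k → A) (q : Fin k → B), i ∈ I ∧
      (∀ j, a j ∈ IsLocalRing.maximalIdeal A) ∧
      b = ∑ j, φ (c j) * e j + (i + ∑ j, φ (a j) * q j)) :
    ∀ b : B, ∃ c : Fin N → A, b - ∑ j, φ (c j) * e j ∈ I := by
  let _ : Module A (B ⧸ I) := Module.compHom (B ⧸ I) φ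
  let P : Submodule A (B ⧸ I) := Submodule.span _ (range fun j => Ideal.Quotient.mk I (e j))
  have hfg : (⊤ : Submodule A (B ⧸ I)).FG := by
    classical
    obtain ⟨m, e, he⟩ := hF
    refine ⟨Finset.univ.image e, ?_⟩
    rw [eq_top_iff]
    intro x _
    obtain ⟨c, hc⟩ := he x
    rw [hc]
    refine Submodule.sum_mem _ (fun i _ => ?_)
    exact Submodule.smul_mem _ (c i) (Submodule.subset_span (by simp))
  have hN : (⊤ : Submodule A (B ⧸ I)) ≤ P := by
    refine Submodule.le_of_le_smul_of_le_jacobson_bot (I := IsLocalRing.maximalIdeal A)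
      hfg (IsLocalRing.maximalIdeal_le_jacobson _) ?_
    intro x _
    obtain ⟨b, rfl⟩ := Ideal.Quotient.mk_surjective x
    obtain ⟨c, i, a, q, hi, ha, hb⟩ := h b
    have h3 : Ideal.Quotient.mk I b = (∑ j, (c j) • Ideal.Quotient.mk I (e j)) +
        ∑ j, a j • Ideal.Quotient.mk I (q j) := by
      rw [hb, map_add, map_add, Ideal.Quotient.eq_zero_iff_mem.2 hi, zero_add, map_sum, map_sum]
      rfl
    rw [h3]
    refine Submodule.add_mem_sup ?_
      (Submodule.sum_mem _ (fun j _ => Submodule.smul_mem_smul (ha j) trivial))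
    exact Submodule.sum_mem _ (fun j _ => Submodule.smul_mem _ _
      (Submodule.subset_span ⟨j, rfl⟩))
  intro b
  have h1 : Ideal.Quotient.mk I b ∈ P := hN trivial
  obtain ⟨c, hc⟩ := (Submodule.mem_span_range_iff_exists_fun _).1 h1
  refine ⟨c, ?_⟩
  rw [← Ideal.Quotient.eq, ← hc, map_sum]
  rfl

lemma rk_max {b : Bk n k} {μ : ℕ} (hb : b ∈ (IsLocalRing.maximalIdeal (Bk n k)) ^ μ) :
    rk n k b ∈ (IsLocalRing.maximalIdeal (On n)) ^ μ := by
  have h3 : (IsLocalRing.maximalIdeal (Bk n k)).map (rk n k) ≤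
      IsLocalRing.maximalIdeal (On n) := by
    rw [Ideal.map_le_iff_le_comap]
    intro a ha
    rw [Ideal.mem_comap]
    rw [IsLocalRing.mem_maximalIdeal, mem_nonunits_iff] at ha ⊢
    intro h4
    apply ha
    obtain ⟨f, hf, rfl⟩ := exists_gm a
    rw [rk, pull_gm, isUnit_gm] at h4
    rw [isUnit_gm]
    exact h4
  have h4 : ((IsLocalRing.maximalIdeal (Bk n k)) ^ μ).map (rk n k) ≤
      (IsLocalRing.maximalIdeal (On n)) ^ μ := by
    rw [Ideal.map_pow]
    exact Ideal.pow_right_mono h3 μ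
  exact h4 (Ideal.mem_map_of_mem _ hb)

/-- the value of a word on the coordinates of the quotient by `J` -/
def wq (J : Ideal (On n)) (w : List (Fin n)) : On n ⧸ J := Ideal.Quotient.mk J (wd w Xo)

lemma wq_span (J : Ideal (On n)) (hfin : Module.Finite ℂ (On n ⧸ J)) :
    Submodule.span ℂ (range (wq J)) = ⊤ := by
  refine span_top J hfin _ (Submodule.subset_span ⟨[], by simp [wq]⟩) ?_
  intro s hs i
  induction hs using Submodule.span_induction with
  | mem x hx =>
    obtain ⟨w, rfl⟩ := hx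
    exact Submodule.subset_span ⟨i :: w, by simp [wq]⟩
  | zero => rw [mul_zero]; exact Submodule.zero_mem _
  | add x y _ _ hx hy => rw [mul_add]; exact Submodule.add_mem _ hx hy
  | smul a x _ hx => rw [mul_smul_comm]; exact Submodule.smul_mem _ _ hx

/-- a basis of words -/
theorem exists_words (J : Ideal (On n)) (hfin : Module.Finite ℂ (On n ⧸ J)) {N : ℕ}
    (hN : Module.finrank ℂ (On n ⧸ J) = N) : ∃ w : Fin N → List (Fin n),
      LinearIndependent ℂ (fun l => wq J (w l)) ∧
      Submodule.span ℂ (range fun l => wq J (w l)) = ⊤ := by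
  obtain ⟨κ, a, ha, h1, h2⟩ := exists_linearIndependent' ℂ (wq J)
  rw [wq_span J hfin] at h1
  have hκ : Finite κ := h2.finite
  let b : Module.Basis κ ℂ (On n ⧸ J) := Module.Basis.mk h2 (by rw [h1])
  have := Fintype.ofFinite κ
  have hcard : Fintype.card κ = N := by rw [← hN, Module.finrank_eq_card_basis b]
  let e : Fin N ≃ κ := (Fintype.equivFinOfCardEq hcard).symm
  refine ⟨fun l => a (e l), ?_, ?_⟩
  · exact h2.comp e e.injective
  · rw [← h1]
    congr 1
    ext x
    constructor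
    · rintro ⟨l, rfl⟩
      exact ⟨e l, rfl⟩
    · rintro ⟨i, rfl⟩
      exact ⟨e.symm i, by simp⟩

section Gen

variable {ι : Type} (g : ι → Bk n k)

/-- the fibre ideal -/
abbrev J0 : Ideal (On n) := Ideal.span (range fun j => rk n k (g j))

/-- the words generate over the parameters -/
theorem gen (hfin : Module.Finite ℂ (On n ⧸ J0 g)) {N : ℕ} (w : Fin N → List (Fin n))
    (hw : Submodule.span ℂ (range fun l => wq (J0 g) (w l)) = ⊤) (b : Bk n k) :
    ∃ c : Fin N → Rk k, b - ∑ l, sR n k (c l) * wd (w l) (Xk n k) ∈ Ideal.span (range g) := by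
  set I : Ideal (Bk n k) := Ideal.span (range g) with hI
  have hmap : I.map (rk n k) = J0 g := by
    rw [hI, Ideal.map_span, J0]
    congr 1
    rw [← range_comp]
    rfl
  have hrJ : ∀ b : Bk n k, rk n k b ∈ J0 g →
      ∃ i ∈ I, ∃ q : Fin k → Bk n k, b = i + ∑ j, sR n k (Xo j) * q j := by
    intro b hb
    rw [← hmap] at hb
    obtain ⟨i, hi, hib⟩ := (Ideal.mem_map_iff_of_surjective _ rk_surj).1 hb
    obtain ⟨q, hq⟩ := ker_rk (b := b - i) (by rw [map_sub, hib, sub_self])
    exact ⟨i, hi, q, by rw [← hq]; ring⟩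
  have hF : FinOver (sR n k) (Bk n k ⧸ I) := by
    refine finProp_sndR (0 : Fin k → ℂ) n (Bk n k ⧸ I) ?_ ?_
    · refine ⟨1, fun _ => 1, fun x => ?_⟩
      obtain ⟨b, rfl⟩ := Ideal.Quotient.mk_surjective x
      refine ⟨fun _ => b, ?_⟩
      simp only [Finset.univ_unique, Finset.sum_singleton, RingHom.id_apply]
      rw [Algebra.smul_def, mul_one]; rfl
    · refine ⟨Module.finrank ℂ (On n ⧸ J0 g), fun b hb x => ?_⟩
      have h1 : rk n k b ∈ J0 g := pow_le _ hfin rfl (rk_max hb)
      obtain ⟨i, hi, q, rfl⟩ := hrJ b h1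
      obtain ⟨y, rfl⟩ := Ideal.Quotient.mk_surjective x
      have h2 : (i + ∑ j, sR n k (Xo j) * q j) • Ideal.Quotient.mk I y =
          ∑ j, sR n k (Xo j) • Ideal.Quotient.mk I (q j * y) := by
        change Ideal.Quotient.mk I ((i + ∑ j, sR n k (Xo j) * q j) * y) = _
        have h3 : (i + ∑ j, sR n k (Xo j) * q j) * y = i * y + ∑ j, sR n k (Xo j) * (q j * y) := by
          rw [add_mul, Finset.sum_mul]
          congr 1
          exact Finset.sum_congr rfl (fun j _ => by ring)
        rw [h3, map_add, Ideal.Quotient.eq_zero_iff_mem.2 (Ideal.mul_mem_right _ _ hi), zero_add,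
          map_sum]
        rfl
      rw [h2]
      refine AddSubmonoid.sum_mem _ (fun j _ => AddSubmonoid.subset_closure ?_)
      exact ⟨Xo j, Xo_mem j, _, rfl⟩
  refine nak' (k := k) _ _ hF _ (fun b => ?_) b
  have h1 : Ideal.Quotient.mk (J0 g) (rk n k b) ∈
      Submodule.span ℂ (range fun l => wq (J0 g) (w l)) := by rw [hw]; trivial
  obtain ⟨γ, hγ⟩ := (Submodule.mem_span_range_iff_exists_fun _).1 h1
  have h2 : rk n k (b - ∑ l, sR n k (algebraMap ℂ _ (γ l)) * wd (w l) (Xk n k)) ∈ J0 g := by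
    rw [map_sub, ← Ideal.Quotient.eq_zero_iff_mem, map_sub, ← hγ, map_sum, map_sum, sub_eq_zero]
    refine Finset.sum_congr rfl (fun j _ => ?_)
    have h5 : rk n k (wd (w j) (Xk n k)) = wd (w j) Xo := wd_map (rk n k : Bk n k →* On n) _ _
    rw [map_mul, rk_sR, evp_algebraMap, map_mul, h5, Algebra.smul_def]
    rfl
  obtain ⟨i, hi, q, hq⟩ := hrJ _ h2
  refine ⟨fun j => algebraMap ℂ _ (γ j), i, fun j => Xo j, q, hi, fun j => Xo_mem j, ?_⟩
  rw [← hq]; ring

end Gen

section Ind

variable {ι : Type} [Fintype ι]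

/-- Koszul exactness at the first step -/
def Kos (g : ι → On n) : Prop :=
  ∀ b : ι → On n, ∑ j, b j * g j = 0 →
    ∃ s : ι → ι → On n, (∀ i j, s i j = - s j i) ∧ ∀ j, b j = ∑ i, s j i * g i

lemma sum_antisymm {A : Type*} [CommRing A] (s : ι → ι → A) (hs : ∀ i j, s i j = - s j i)
    (h2 : ∀ a : A, a + a = 0 → a = 0) (g : ι → A) : ∑ j, (∑ i, s j i * g i) * g j = 0 := by
  apply h2
  have h1 : ∑ j, (∑ i, s j i * g i) * g j = ∑ j, ∑ i, s j i * (g i * g j) := by
    refine Finset.sum_congr rfl (fun j _ => ?_)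
    rw [Finset.sum_mul]
    exact Finset.sum_congr rfl (fun i _ => by ring)
  have h3 : ∑ j, ∑ i, s j i * (g i * g j) = ∑ j, ∑ i, - (s j i * (g i * g j)) := by
    rw [Finset.sum_comm]
    refine Finset.sum_congr rfl (fun j _ => Finset.sum_congr rfl (fun i _ => ?_))
    rw [hs i j]; ring
  rw [h1]
  nth_rewrite 2 [h3]
  rw [← Finset.sum_add_distrib]
  refine Finset.sum_eq_zero (fun j _ => ?_)
  rw [← Finset.sum_add_distrib]
  exact Finset.sum_eq_zero (fun i _ => by ring)

lemma two_torsion {E : Type*} [NormedAddCommGroup E] [NormedSpace ℂ E] {p : E} (a : OO p)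
    (h : a + a = 0) : a = 0 := by
  have h1 : algebraMap ℂ (OO p) 2 * a = 0 := by
    have : algebraMap ℂ (OO p) 2 = 1 + 1 := by
      rw [← map_one (algebraMap ℂ (OO p)), ← map_add]; norm_num
    rw [this]; linear_combination h
  rcases mul_eq_zero.1 h1 with h2 | h2
  · exfalso
    have := congrArg (evp p) h2
    simp at this
  · exact h2

/-- independence, one parameter -/
theorem ind1 (g : ι → Bn n) (hK : Kos (fun j => rr n (g j))) {N : ℕ} (w : Fin N → List (Fin n))
    (hw : LinearIndependent ℂ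
      (fun l => wq (Ideal.span (range fun j => rr n (g j))) (w l))) {c : Fin N → OO (0 : ℂ)}
    {b : ι → Bn n} (h : ∑ l, sndR n 0 (c l) * wd (w l) (Xc n (0 : ℂ)) = ∑ j, b j * g j) :
    ∀ l, c l = 0 := by
  have key : ∀ (K : ℕ) (c : Fin N → OO (0 : ℂ)) (b : ι → Bn n),
      ∑ l, sndR n 0 (c l) * wd (w l) (Xc n (0 : ℂ)) = ∑ j, b j * g j → ∀ l, TT (0 : ℂ) ^ K ∣ c l := by
    intro K
    induction K with
    | zero => intro c b _ l; simp
    | succ K ih =>
      intro c b h
      have h1 := congrArg (rr n) h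
      rw [map_sum, map_sum] at h1
      have hwd : ∀ l, rr n (wd (w l) (Xc n (0 : ℂ))) = wd (w l) Xo :=
        fun l => wd_map (rr n : Bn n →* On n) _ _
      simp only [map_mul, rr_sndR, hwd] at h1
      have h2 : ∑ l, evp 0 (c l) • wq (Ideal.span (range fun j => rr n (g j))) (w l) = 0 := by
        have h3 := congrArg (Ideal.Quotient.mk (Ideal.span (range fun j => rr n (g j)))) h1
        rw [map_sum, map_sum] at h3
        have h4 : ∑ j, Ideal.Quotient.mk (Ideal.span (range fun j => rr n (g j)))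
            (rr n (b j) * rr n (g j)) = 0 := by
          refine Finset.sum_eq_zero (fun j _ => ?_)
          rw [Ideal.Quotient.eq_zero_iff_mem]
          exact Ideal.mul_mem_left _ _ (Ideal.subset_span ⟨j, rfl⟩)
        rw [h4] at h3
        rw [← h3]
        refine Finset.sum_congr rfl (fun l _ => ?_)
        rw [map_mul, Algebra.smul_def]
        rfl
      have h5 := Fintype.linearIndependent_iff.1 hw _ h2
      have h6 : ∀ l, TT (0 : ℂ) ∣ c l := by
        intro l
        apply TT_dvd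
        rw [Crest.Agent.R275.Loc2879.isUnit_iff, not_not]
        exact h5 l
      choose c' hc' using h6
      have h7 : ∑ j, rr n (b j) * rr n (g j) = 0 := by
        rw [← h1]
        refine Finset.sum_eq_zero (fun l _ => ?_)
        rw [h5 l, map_zero, zero_mul]
      obtain ⟨s, hs1, hs2⟩ := hK _ h7
      let b' : ι → Bn n := fun j => b j - ∑ i, ll n (s j i) * g i
      have h8 : ∀ j, rr n (b' j) = 0 := by
        intro j
        simp only [b', map_sub, map_sum, map_mul, rr_ll]
        rw [hs2 j, sub_self]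
      choose q hq using fun j => ker_rr (h8 j)
      have h9 : ∑ j, b' j * g j = ∑ j, b j * g j := by
        simp only [b', sub_mul]
        rw [Finset.sum_sub_distrib, sum_antisymm (fun j i => ll n (s j i))
          (fun i j => by rw [hs1 i j, map_neg]) two_torsion g, sub_zero]
      have h10 : Tv n * ∑ l, sndR n 0 (c' l) * wd (w l) (Xc n (0 : ℂ)) =
          Tv n * ∑ j, q j * g j := by
        have h11 : Tv n * ∑ l, sndR n 0 (c' l) * wd (w l) (Xc n (0 : ℂ)) =
            ∑ l, sndR n 0 (c l) * wd (w l) (Xc n (0 : ℂ)) := by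
          rw [Finset.mul_sum]
          refine Finset.sum_congr rfl (fun l _ => ?_)
          rw [hc' l, map_mul, Tv]; ring
        have h12 : Tv n * ∑ j, q j * g j = ∑ j, b' j * g j := by
          rw [Finset.mul_sum]
          refine Finset.sum_congr rfl (fun l _ => ?_)
          rw [hq l]; ring
        rw [h11, h12, h9, h]
      have hT0 : Tv n ≠ 0 := by
        intro h0
        rw [Tv, TT, sndR_gm, gm_eq_zero] at h0
        have hc : Tendsto (fun t : ℂ => ((0 : Fin n → ℂ), t)) (𝓝 0) (𝓝 (0, 0)) := by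
          have : Continuous (fun t : ℂ => ((0 : Fin n → ℂ), t)) := by fun_prop
          exact this.tendsto 0
        have h2 : ∀ᶠ t in 𝓝[≠] (0 : ℂ), t - 0 = 0 :=
          (hc.eventually h0).filter_mono nhdsWithin_le_nhds
        obtain ⟨t, ht, ht'⟩ := (h2.and self_mem_nhdsWithin).exists
        exact ht' (by simpa using ht)
      have h13 := ih c' q (mul_left_cancel₀ hT0 h10)
      intro l
      rw [hc' l, pow_succ']
      exact mul_dvd_mul_left _ (h13 l)
  intro l
  by_contra hne
  obtain ⟨m, u, hu⟩ := exists_pow_mul (c l) hne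
  have h1 := key (m + 1) c b h l
  rw [hu, pow_succ] at h1
  have h2 := (mul_dvd_mul_iff_left (pow_ne_zero m (TT_ne_zero (a := (0 : ℂ))))).1 h1
  exact TT_not_unit (isUnit_of_dvd_unit h2 u.isUnit)

/-- restriction to a line of parameters -/
def lnB (n : ℕ) {k : ℕ} (v : Fin k → ℂ) : Bk n k →+* Bn n :=
  pull (fun p : (Fin n → ℂ) × ℂ => (p.1, p.2 • v))
    (analyticAt_fst.prod (analyticAt_snd.smul analyticAt_const)) (by simp)

/-- restriction to a line of parameters -/
def ln {k : ℕ} (v : Fin k → ℂ) : Rk k →+* OO (0 : ℂ) :=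
  pull (fun t : ℂ => t • v) (analyticAt_id.smul analyticAt_const) (by simp)

lemma lnB_sR (v : Fin k → ℂ) (c : Rk k) : lnB n v (sR n k c) = sndR n 0 (ln v c) := by
  obtain ⟨f, hf, rfl⟩ := exists_gm c
  rfl

lemma lnB_Xk (v : Fin k → ℂ) (i : Fin n) : lnB n v (Xk n k i) = Xc n (0 : ℂ) i := rfl

lemma rr_lnB (v : Fin k → ℂ) (b : Bk n k) : rr n (lnB n v b) = rk n k b := by
  obtain ⟨f, hf, rfl⟩ := exists_gm b
  rw [lnB, rr, rk, pull_gm, pull_gm, pull_gm, gm_eq_gm]
  exact Eventually.of_forall (fun p => by simp [Function.comp])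

lemma eq_zero_of_ln [NeZero k] {c : Rk k} (h : ∀ v, ln v c = 0) : c = 0 := by
  by_contra hne
  have : Nontrivial (Fin k → ℂ) := inferInstance
  obtain ⟨v, -, hv⟩ := exists_regular_direction hne
  obtain ⟨f, hf, rfl⟩ := exists_gm c
  apply hv f hf rfl
  have h1 := h v
  rw [ln, pull_gm, gm_eq_zero] at h1
  filter_upwards [h1] with t ht
  simpa using ht

/-- **independence** of the words over the parameters -/
theorem ind [NeZero k] (g : ι → Bk n k) (hK : Kos (fun j => rk n k (g j))) {N : ℕ}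
    (w : Fin N → List (Fin n)) (hw : LinearIndependent ℂ (fun l => wq (J0 g) (w l)))
    {c : Fin N → Rk k}
    (h : ∑ l, sR n k (c l) * wd (w l) (Xk n k) ∈ Ideal.span (range g)) : ∀ l, c l = 0 := by
  obtain ⟨b, hb⟩ := (Ideal.mem_span_range_iff_exists_fun).1 h
  intro l
  refine eq_zero_of_ln (fun v => ?_)
  have h1 := congrArg (lnB n v) hb
  rw [map_sum, map_sum] at h1
  have hwd : ∀ l, lnB n v (wd (w l) (Xk n k)) = wd (w l) (Xc n (0 : ℂ)) :=
    fun l => wd_map (lnB n v : Bk n k →* Bn n) _ _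
  simp only [map_mul, lnB_sR, hwd] at h1
  refine ind1 (fun j => lnB n v (g j)) ?_ w ?_ (c := fun l => ln v (c l))
    (b := fun j => lnB n v (b j)) h1.symm l
  · have e : (fun j => rr n (lnB n v (g j))) = fun j => rk n k (g j) :=
      funext (fun j => rr_lnB v (g j))
    rw [e]; exact hK
  · have e : (fun j => rr n (lnB n v (g j))) = fun j => rk n k (g j) :=
      funext (fun j => rr_lnB v (g j))
    rw [e]; exact hw

end Ind

end Crest.Agent.R257.Cnm4_889
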