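import Crest.Agent.R257.Cnm4_889
import Crest.Agent.R257.Cnm5_889

/-!
Row 257 (S0395), leaf CNM (helper889), part 6: germ data with parameters, evaluation at small
parameters, and the count of zeros.
-/

set_option autoImplicit false

open Set Filter Topology Matrix
open Crest.Agent.R275.Loc2879

noncomputable section

namespace Crest.Agent.R257.Cnm6_889

open Crest.Agent.R257.Fin554 Crest.Agent.R257.Uni554 Crest.Agent.R257.Cnm3_889
open Crest.Agent.R257.Cnm4_889 Crest.Agent.R257.Cnm5_889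

lemma wd_mapR {A B : Type*} [Semiring A] [Semiring B] {n : ℕ} (φ : A →+* B) (w : List (Fin n))
    (x : Fin n → A) : φ (wd w x) = wd w (fun k => φ (x k)) := wd_map (φ : A →* B) w x

/-! ### abstract relations -/

section Rel

variable {A Q : Type*} [CommRing A] [CommRing Q] {N n : ℕ} (σ : A →+* Q) (ω : Fin N → Q)

/-- `x` acts on the generators by the matrix `P` -/
def Rel (x : Q) (P : Matrix (Fin N) (Fin N) A) : Prop :=
  ∀ l, x * ω l = ∑ i, σ (P i l) * ω i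

variable {σ ω}

lemma Rel.mulVec {x : Q} {P : Matrix (Fin N) (Fin N) A} (h : Rel σ ω x P) (c : Fin N → A) :
    x * ∑ l, σ (c l) * ω l = ∑ i, σ ((P *ᵥ c) i) * ω i := by
  have h1 : ∀ i, σ ((P *ᵥ c) i) * ω i = ∑ l, σ (c l) * (σ (P i l) * ω i) := by
    intro i
    rw [Matrix.mulVec, dotProduct, map_sum, Finset.sum_mul]
    exact Finset.sum_congr rfl (fun l _ => by rw [map_mul]; ring)
  simp only [h1]
  rw [Finset.sum_comm, Finset.mul_sum]
  refine Finset.sum_congr rfl (fun l _ => ?_)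
  rw [← Finset.mul_sum, ← h l]; ring

lemma Rel.mul {x y : Q} {P R : Matrix (Fin N) (Fin N) A} (h : Rel σ ω x P) (h' : Rel σ ω y R) :
    Rel σ ω (x * y) (P * R) := by
  intro l
  rw [mul_assoc, h' l, h.mulVec (fun i => R i l)]
  rfl

lemma Rel.one : Rel σ ω 1 1 := by
  intro l
  rw [one_mul, Finset.sum_eq_single l]
  · simp
  · intro i _ hi
    rw [Matrix.one_apply_ne hi, map_zero, zero_mul]
  · simp

lemma Rel.wd {x : Fin n → Q} {M : Fin n → Matrix (Fin N) (Fin N) A} (h : ∀ k, Rel σ ω (x k) (M k))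
    (w : List (Fin n)) : Rel σ ω (Cnm3_889.wd w x) (Cnm3_889.wd w M) := by
  induction w with
  | nil => exact Rel.one
  | cons k w ih => rw [wd_cons, wd_cons]; exact (h k).mul ih

lemma Rel.pow {x : Q} {P : Matrix (Fin N) (Fin N) A} (h : Rel σ ω x P) (K : ℕ) :
    Rel σ ω (x ^ K) (P ^ K) := by
  induction K with
  | zero => rw [pow_zero, pow_zero]; exact Rel.one
  | succ K ih => rw [pow_succ, pow_succ]; exact ih.mul h

lemma vec_unique (hind : ∀ c : Fin N → A, ∑ l, σ (c l) * ω l = 0 → ∀ l, c l = 0)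
    {a b : Fin N → A} (h : ∑ l, σ (a l) * ω l = ∑ l, σ (b l) * ω l) : a = b := by
  ext l
  have h1 := hind (fun l => a l - b l) (by
    simp only [map_sub, sub_mul]
    rw [Finset.sum_sub_distrib, h, sub_self]) l
  exact sub_eq_zero.1 h1

lemma Rel.unique (hind : ∀ c : Fin N → A, ∑ l, σ (c l) * ω l = 0 → ∀ l, c l = 0) {x : Q}
    {P P' : Matrix (Fin N) (Fin N) A} (h : Rel σ ω x P) (h' : Rel σ ω x P') : P = P' := by
  ext i l
  exact congrFun (vec_unique hind (a := fun i => P i l) (b := fun i => P' i l)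
    ((h l).symm.trans (h' l))) i

lemma Rel.comm (hind : ∀ c : Fin N → A, ∑ l, σ (c l) * ω l = 0 → ∀ l, c l = 0) {x y : Q}
    {P P' : Matrix (Fin N) (Fin N) A} (h : Rel σ ω x P) (h' : Rel σ ω y P') :
    P * P' = P' * P := by
  refine Rel.unique hind (h.mul h') ?_
  rw [mul_comm]
  exact h'.mul h

lemma rel_words (hind : ∀ c : Fin N → A, ∑ l, σ (c l) * ω l = 0 → ∀ l, c l = 0)
    {x : Fin n → Q} {M : Fin n → Matrix (Fin N) (Fin N) A} (h : ∀ k, Rel σ ω (x k) (M k))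
    {w : Fin N → List (Fin n)} (hw : ∀ l, ω l = Cnm3_889.wd (w l) x) {u : Fin N → A}
    (hu : 1 = ∑ l, σ (u l) * ω l) (l : Fin N) :
    Cnm3_889.wd (w l) M *ᵥ u = Pi.single l 1 := by
  refine vec_unique hind (σ := σ) (ω := ω) ?_
  rw [← (Rel.wd h (w l)).mulVec u, ← hu, mul_one, ← hw, Finset.sum_eq_single l]
  · simp
  · intro i _ hi
    rw [Pi.single_eq_of_ne hi, map_zero, zero_mul]
  · simp

end Rel

/-! ### germ data -/

section Germ

variable {n k N : ℕ} {ι : Type} [Fintype ι]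

/-- the relations over the parameters -/
structure GDat (g : ι → Bk n k) (N : ℕ) where
  w : Fin N → List (Fin n)
  u : Fin N → Rk k
  α : ι → Bk n k
  e1 : 1 = ∑ l, sR n k (u l) * wd (w l) (Xk n k) + ∑ j, α j * g j
  M : Fin n → Matrix (Fin N) (Fin N) (Rk k)
  β : Fin n → Fin N → ι → Bk n k
  e2 : ∀ i l, Xk n k i * wd (w l) (Xk n k) =
    ∑ j, sR n k (M i j l) * wd (w j) (Xk n k) + ∑ j, β i l j * g j
  γ : ι → Rk k
  R : ι → Fin n → Bk n k
  e3 : ∀ j, g j = sR n k (γ j) + ∑ i, Xk n k i * R j i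
  ρ : ι → Fin n → Fin N → Rk k
  a : ι → Fin n → ι → Bk n k
  e4 : ∀ j i, R j i = ∑ l, sR n k (ρ j i l) * wd (w l) (Xk n k) + ∑ j', a j i j' * g j'
  comm : ∀ i j, M i * M j = M j * M i
  hw : ∀ l, wd (w l) M *ᵥ u = Pi.single l 1
  s1 : ∀ j, γ j • u + ∑ i, M i *ᵥ ρ j i = 0
  K : ℕ
  nil : ∀ i, (evp (0 : Fin k → ℂ)).mapMatrix (M i ^ K) = 0

set_option maxHeartbeats 2000000 in
theorem exists_gdat [NeZero k] (g : ι → Bk n k) (hfin : Module.Finite ℂ (On n ⧸ J0 g))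
    (hN : Module.finrank ℂ (On n ⧸ J0 g) = N) (hK : Kos (fun j => rk n k (g j))) :
    Nonempty (GDat g N) := by
  obtain ⟨w, hw1, hw2⟩ := exists_words (J0 g) hfin hN
  set I : Ideal (Bk n k) := Ideal.span (range g) with hI
  have hexp : ∀ b : Bk n k, ∃ (c : Fin N → Rk k) (a : ι → Bk n k),
      b = ∑ l, sR n k (c l) * wd (w l) (Xk n k) + ∑ j, a j * g j := by
    intro b
    obtain ⟨c, hc⟩ := gen g hfin w hw2 b
    obtain ⟨a, ha⟩ := Ideal.mem_span_range_iff_exists_fun.1 hc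
    exact ⟨c, a, by rw [ha]; ring⟩
  obtain ⟨u, α, e1⟩ := hexp 1
  choose M' β e2 using fun i l => hexp (Xk n k i * wd (w l) (Xk n k))
  choose γ R e3 using fun j => hadG (0 : Fin k → ℂ) n (g j)
  choose ρ a e4 using fun j i => hexp (R j i)
  let M : Fin n → Matrix (Fin N) (Fin N) (Rk k) := fun i => Matrix.of (fun j l => M' i l j)
  let q : Bk n k →+* Bk n k ⧸ I := Ideal.Quotient.mk I
  let σ : Rk k →+* Bk n k ⧸ I := q.comp (sR n k)
  let ω : Fin N → Bk n k ⧸ I := fun l => q (wd (w l) (Xk n k))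
  let x : Fin n → Bk n k ⧸ I := fun i => q (Xk n k i)
  have hq0 : ∀ a : ι → Bk n k, q (∑ j, a j * g j) = 0 := by
    intro a
    rw [Ideal.Quotient.eq_zero_iff_mem]
    exact Ideal.sum_mem _ (fun j _ => Ideal.mul_mem_left _ _ (Ideal.subset_span ⟨j, rfl⟩))
  have hqs : ∀ c : Fin N → Rk k, q (∑ l, sR n k (c l) * wd (w l) (Xk n k)) =
      ∑ l, σ (c l) * ω l := by
    intro c
    rw [map_sum]
    exact Finset.sum_congr rfl (fun l _ => by rw [map_mul]; rfl)
  have hind : ∀ c : Fin N → Rk k, ∑ l, σ (c l) * ω l = 0 → ∀ l, c l = 0 := by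
    intro c hc
    rw [← hqs] at hc
    exact ind g hK w hw1 (Ideal.Quotient.eq_zero_iff_mem.1 hc)
  have hx : ∀ i, Rel σ ω (x i) (M i) := by
    intro i l
    have h1 := congrArg q (e2 i l)
    rw [map_add, hq0, add_zero, hqs, map_mul] at h1
    exact h1
  have hu : 1 = ∑ l, σ (u l) * ω l := by
    have h1 := congrArg q e1
    rwa [map_add, hq0, add_zero, hqs, map_one] at h1
  have hω : ∀ l, ω l = wd (w l) x := fun l => wd_mapR q _ _
  refine ⟨⟨w, u, α, e1, M, β, e2, γ, R, e3, ρ, a, e4, fun i j => (hx i).comm hind (hx j),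
    fun l => rel_words hind hx hω hu l, fun j => ?_, N, fun i => ?_⟩⟩
  · refine vec_unique hind (σ := σ) (ω := ω) ?_
    have h1 : q (g j) = 0 := Ideal.Quotient.eq_zero_iff_mem.2 (Ideal.subset_span ⟨j, rfl⟩)
    have h2 : ∀ i, q (R j i) = ∑ l, σ (ρ j i l) * ω l := by
      intro i
      rw [e4 j i, map_add, hq0, add_zero, hqs]
    have h3 : q (g j) = σ (γ j) * ∑ l, σ (u l) * ω l + ∑ i, ∑ l, σ ((M i *ᵥ ρ j i) l) * ω l := by
      conv_lhs => rw [e3 j]
      rw [map_add, map_sum, ← hu, mul_one]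
      congr 1
      refine Finset.sum_congr rfl (fun i _ => ?_)
      rw [map_mul, h2, ← (hx i).mulVec]
    rw [h1] at h3
    simp only [Pi.add_apply, Pi.smul_apply, smul_eq_mul, map_add, map_mul, Finset.sum_apply,
      map_sum, Pi.zero_apply, map_zero, zero_mul, Finset.sum_const_zero]
    rw [h3, Finset.mul_sum, Finset.sum_comm, ← Finset.sum_add_distrib]
    refine Finset.sum_congr rfl (fun l _ => ?_)
    rw [add_mul, Finset.sum_mul]; ring
  · -- nilpotency at the origin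
    have h1 := (hx i).pow N
    ext l l'
    have h2 := h1 l'
    have h3 : Xk n k i ^ N * wd (w l') (Xk n k) -
        ∑ j, sR n k ((M i ^ N) j l') * wd (w j) (Xk n k) ∈ I := by
      rw [← Ideal.Quotient.eq, map_mul, map_pow]
      exact h2.trans (hqs (fun j => (M i ^ N) j l')).symm
    have hmap : I.map (rk n k) = J0 g := by
      rw [hI, Ideal.map_span, J0]
      congr 1
      rw [← range_comp]
      rfl
    have h4 : rk n k (Xk n k i ^ N * wd (w l') (Xk n k) -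
        ∑ j, sR n k ((M i ^ N) j l') * wd (w j) (Xk n k)) ∈ J0 g := by
      rw [← hmap]; exact Ideal.mem_map_of_mem _ h3
    have hwd : ∀ l, rk n k (wd (w l) (Xk n k)) = wd (w l) Xo :=
      fun l => wd_map (rk n k : Bk n k →* On n) _ _
    rw [map_sub, map_mul, map_pow, rk_Xk, map_sum, hwd] at h4
    have h5 : (Xo i : On n) ^ N * wd (w l') Xo ∈ J0 g :=
      Ideal.mul_mem_right _ _ (pow_le _ hfin hN (Ideal.pow_mem_pow (Xo_mem i) N))
    have h6 : ∑ j, rk n k (sR n k ((M i ^ N) j l') * wd (w j) (Xk n k)) ∈ J0 g := by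
      have := (Submodule.sub_mem_iff_right _ h5).1 h4
      exact this
    have h7 : ∑ j, evp 0 ((M i ^ N) j l') • wq (J0 g) (w j) = 0 := by
      rw [← Ideal.Quotient.eq_zero_iff_mem, map_sum] at h6
      rw [← h6]
      refine Finset.sum_congr rfl (fun j _ => ?_)
      rw [map_mul, rk_sR, hwd, map_mul, Algebra.smul_def]
      rfl
    have h8 := Fintype.linearIndependent_iff.1 hw1 _ h7 l
    simpa using h8

end Germ

/-! ### evaluation -/

section Ev

variable {E : Type} [NormedAddCommGroup E] [NormedSpace ℂ E]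

/-- functions analytic at `p` -/
def AF (p : E) : Subring (E → ℂ) where
  carrier := {f | AnalyticAt ℂ f p}
  mul_mem' h h' := AnalyticAt.mul h h'
  one_mem' := analyticAt_const
  add_mem' h h' := AnalyticAt.add h h'
  zero_mem' := analyticAt_const
  neg_mem' h := AnalyticAt.neg h

/-- the germ -/
def gmH (p : E) : AF p →+* OO p where
  toFun f := gm f.1 f.2
  map_one' := rfl
  map_mul' _ _ := rfl
  map_zero' := rfl
  map_add' _ _ := rfl

lemma gmH_surj (p : E) (x : OO p) : ∃ f : AF p, gmH p f = x := by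
  obtain ⟨f, hf, rfl⟩ := exists_gm x
  exact ⟨⟨f, hf⟩, rfl⟩

/-- evaluation at a point -/
def ev (p x : E) : AF p →+* ℂ := (Pi.evalRingHom (fun _ => ℂ) x).comp (AF p).subtype

@[simp] lemma ev_apply (p x : E) (f : AF p) : ev p x f = f.1 x := rfl

lemma ev_eq {p : E} {a b : AF p} (h : gmH p a = gmH p b) : ∀ᶠ x in 𝓝 p, ev p x a = ev p x b :=
  gm_eq_gm.1 (show gm a.1 a.2 = gm b.1 b.2 from h)

lemma ev_mat {p : E} {N : ℕ} {A B : Matrix (Fin N) (Fin N) (AF p)}
    (h : (gmH p).mapMatrix A = (gmH p).mapMatrix B) :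
    ∀ᶠ x in 𝓝 p, (ev p x).mapMatrix A = (ev p x).mapMatrix B := by
  have h1 : ∀ᶠ x in 𝓝 p, ∀ i j, ev p x (A i j) = ev p x (B i j) := by
    rw [Filter.eventually_all]; intro i
    rw [Filter.eventually_all]; intro j
    exact ev_eq (congrFun (congrFun h i) j)
  filter_upwards [h1] with x hx
  ext i j
  exact hx i j

lemma ev_vec {p : E} {N : ℕ} {a b : Fin N → AF p} (h : (gmH p) ∘ a = (gmH p) ∘ b) :
    ∀ᶠ x in 𝓝 p, (ev p x) ∘ a = (ev p x) ∘ b := by
  have h1 : ∀ᶠ x in 𝓝 p, ∀ i, ev p x (a i) = ev p x (b i) := by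
    rw [Filter.eventually_all]; intro i
    exact ev_eq (congrFun h i)
  filter_upwards [h1] with x hx
  ext i
  exact hx i

lemma comp_mulVec {A B : Type*} [CommRing A] [CommRing B] (φ : A →+* B) {N : ℕ}
    (M : Matrix (Fin N) (Fin N) A) (v : Fin N → A) :
    φ ∘ (M *ᵥ v) = (φ.mapMatrix M) *ᵥ (φ ∘ v) := by
  ext i
  exact RingHom.map_mulVec φ M v i

end Ev

section Count

variable {n k N : ℕ} {ι : Type} [Fintype ι]

/-- the origin -/
abbrev Pz (n k : ℕ) : (Fin n → ℂ) × (Fin k → ℂ) := ((0 : Fin n → ℂ), (0 : Fin k → ℂ))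

/-- functions of the parameter -/
def sA (n k : ℕ) : AF (0 : Fin k → ℂ) →+* AF (Pz n k) where
  toFun f := ⟨fun p => f.1 p.2, AnalyticAt.comp (g := f.1) (f := Prod.snd) f.2 analyticAt_snd⟩
  map_one' := rfl
  map_mul' _ _ := rfl
  map_zero' := rfl
  map_add' _ _ := rfl

/-- the coordinates -/
def XA (n k : ℕ) (i : Fin n) : AF (Pz n k) :=
  ⟨fun p => p.1 i, analyticAt_coord i _⟩

lemma gmH_sA (f : AF (0 : Fin k → ℂ)) : gmH (Pz n k) (sA n k f) = sR n k (gmH _ f) := rfl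

lemma gmH_XA (i : Fin n) : gmH (Pz n k) (XA n k i) = Xk n k i := rfl

lemma gmH_wd (w : List (Fin n)) : gmH (Pz n k) (wd w (XA n k)) = wd w (Xk n k) :=
  wd_mapR (gmH _) _ _

lemma ev_sA (x : Fin n → ℂ) (y : Fin k → ℂ) (f : AF (0 : Fin k → ℂ)) :
    ev (Pz n k) (x, y) (sA n k f) = ev _ y f := rfl

lemma ev_wd (x : Fin n → ℂ) (y : Fin k → ℂ) (w : List (Fin n)) :
    ev (Pz n k) (x, y) (wd w (XA n k)) = wd w x :=
  wd_mapR (ev _ (x, y)) _ _

/-- the zero set in a ball -/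
def ZZ (G : ι → (Fin n → ℂ) × (Fin k → ℂ) → ℂ) (r : ℝ) (y : Fin k → ℂ) : Set (Fin n → ℂ) :=
  {x | ‖x‖ < r ∧ ∀ j, G j (x, y) = 0}

/-- the conclusions -/
structure Cnt (G : ι → (Fin n → ℂ) × (Fin k → ℂ) → ℂ) (r : ℝ) (N : ℕ) (ε : ℝ)
    (y : Fin k → ℂ) : Prop where
  fin : (ZZ G r y).Finite
  small : ∀ x ∈ ZZ G r y, ‖x‖ < ε
  le : (ZZ G r y).ncard ≤ N
  eq : (∀ x ∈ ZZ G r y, ∀ v : Fin n → ℂ, (∀ j, fderiv ℂ (fun x => G j (x, y)) x v = 0) → v = 0) →
    (ZZ G r y).ncard = N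

/-- the matrix data at small parameters from the germ data -/
theorem mdat_of_gdat (G : ι → (Fin n → ℂ) × (Fin k → ℂ) → ℂ)
    (hG : ∀ j, AnalyticAt ℂ (G j) ((0, 0)))
    (D : GDat (fun j => gm (G j) (hG j) : ι → Bk n k) N) :
    ∃ r₀ : ℝ, 0 < r₀ ∧ ∀ ε : ℝ, 0 < ε → ∀ᶠ y in 𝓝 (0 : Fin k → ℂ), ∃ T : MDat n N ι,
      T.r = r₀ ∧ T.ε ≤ ε ∧ T.G = (fun j x => G j (x, y)) ∧ ∀ x, ‖x‖ < r₀ →
        (∀ j, AnalyticAt ℂ (T.G j) x) ∧ (∀ j i, AnalyticAt ℂ (T.R j i) x) ∧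
        (∀ j i j', AnalyticAt ℂ (T.a j i j') x) := by
  classical
  let Gt : ι → AF (Pz n k) := fun j => ⟨G j, hG j⟩
  have hGt : ∀ j, gmH (Pz n k) (Gt j) = gm (G j) (hG j) := fun j => rfl
  choose ut hut using fun l => gmH_surj _ (D.u l)
  choose αt hαt using fun j => gmH_surj (Pz n k) (D.α j)
  choose Mt' hMt' using fun i j l => gmH_surj _ (D.M i j l)
  choose βt hβt using fun i l j => gmH_surj (Pz n k) (D.β i l j)
  choose γt hγt using fun j => gmH_surj _ (D.γ j)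
  choose Rt hRt using fun j i => gmH_surj (Pz n k) (D.R j i)
  choose ρt hρt using fun j i l => gmH_surj _ (D.ρ j i l)
  choose at' hat using fun j i j' => gmH_surj (Pz n k) (D.a j i j')
  let Mt : Fin n → Matrix (Fin N) (Fin N) (AF (0 : Fin k → ℂ)) :=
    fun i => Matrix.of (fun j l => Mt' i j l)
  have hMt : ∀ i, (gmH _).mapMatrix (Mt i) = D.M i := by
    intro i; ext j l
    exact congrArg Subtype.val (hMt' i j l)
  -- relations on a neighbourhood of the origin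
  have E1 : ∀ᶠ p in 𝓝 (Pz n k), 1 = ∑ l, ev _ p.2 (ut l) * wd (D.w l) p.1 +
      ∑ j, (αt j).1 p * G j p := by
    have h : gmH (Pz n k) 1 = gmH (Pz n k) (∑ l, sA n k (ut l) * wd (D.w l) (XA n k) + ∑ j, αt j * Gt j) := by
      simp only [map_add, map_sum, map_mul, gmH_sA, gmH_wd, hut, hαt, hGt, map_one]
      exact D.e1
    filter_upwards [ev_eq h] with p hp
    simp only [map_add, map_sum, map_mul, map_one] at hp
    rw [hp]
    congr 1
    refine Finset.sum_congr rfl (fun l _ => ?_)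
    have h2 := ev_wd (k := k) p.1 p.2 (D.w l)
    rw [← h2]; rfl
  have E2 : ∀ᶠ p in 𝓝 (Pz n k), ∀ i l, p.1 i * wd (D.w l) p.1 =
      ∑ j, (ev _ p.2).mapMatrix (Mt i) j l * wd (D.w j) p.1 + ∑ j, (βt i l j).1 p * G j p := by
    rw [Filter.eventually_all]; intro i
    rw [Filter.eventually_all]; intro l
    have h : gmH (Pz n k) (XA n k i * wd (D.w l) (XA n k)) =
        gmH (Pz n k) (∑ j, sA n k (Mt' i j l) * wd (D.w j) (XA n k) + ∑ j, βt i l j * Gt j) := by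
      simp only [map_add, map_sum, map_mul, gmH_sA, gmH_wd, hMt', hβt, hGt, gmH_XA]
      exact D.e2 i l
    filter_upwards [ev_eq h] with p hp
    simp only [map_add, map_sum, map_mul] at hp
    have h2 := fun l => ev_wd (k := k) p.1 p.2 (D.w l)
    have h3 : ev (Pz n k) p (wd (D.w l) (XA n k)) = wd (D.w l) p.1 := h2 l
    rw [h3] at hp
    refine hp.trans ?_
    congr 1
    refine Finset.sum_congr rfl (fun j _ => ?_)
    rw [← h2 j]; rfl
  have E3 : ∀ᶠ p in 𝓝 (Pz n k), ∀ j, G j p = ev _ p.2 (γt j) + ∑ i, p.1 i * (Rt j i).1 p := by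
    rw [Filter.eventually_all]; intro j
    have h : gmH (Pz n k) (Gt j) = gmH (Pz n k) (sA n k (γt j) + ∑ i, XA n k i * Rt j i) := by
      simp only [map_add, map_sum, map_mul, gmH_sA, hγt, hRt, hGt, gmH_XA]
      exact D.e3 j
    filter_upwards [ev_eq h] with p hp
    simp only [map_add, map_sum, map_mul] at hp
    exact hp
  have E4 : ∀ᶠ p in 𝓝 (Pz n k), ∀ j i, (Rt j i).1 p = ∑ l, ev _ p.2 (ρt j i l) * wd (D.w l) p.1 +
      ∑ j', (at' j i j').1 p * G j' p := by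
    rw [Filter.eventually_all]; intro j
    rw [Filter.eventually_all]; intro i
    have h : gmH (Pz n k) (Rt j i) = gmH (Pz n k) (∑ l, sA n k (ρt j i l) * wd (D.w l) (XA n k) +
        ∑ j', at' j i j' * Gt j') := by
      simp only [map_add, map_sum, map_mul, gmH_sA, gmH_wd, hρt, hat, hGt, hRt]
      exact D.e4 j i
    filter_upwards [ev_eq h] with p hp
    simp only [map_add, map_sum, map_mul] at hp
    refine Eq.trans hp ?_
    congr 1
    refine Finset.sum_congr rfl (fun l _ => ?_)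
    have h2 := ev_wd (k := k) p.1 p.2 (D.w l)
    rw [← h2]; rfl
  have E5 : ∀ᶠ p in 𝓝 (Pz n k), (∀ j, AnalyticAt ℂ (G j) p) ∧ (∀ j i, AnalyticAt ℂ (Rt j i).1 p) ∧
      (∀ j i j', AnalyticAt ℂ (at' j i j').1 p) := by
    refine (Filter.eventually_all.2 fun j => (hG j).eventually_analyticAt).and
      ((Filter.eventually_all.2 fun j => Filter.eventually_all.2 fun i =>
        (Rt j i).2.eventually_analyticAt).and ?_)
    exact Filter.eventually_all.2 fun j => Filter.eventually_all.2 fun i =>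
      Filter.eventually_all.2 fun j' => (at' j i j').2.eventually_analyticAt
  set C : ℝ := ∑ j, ∑ i, ∑ j', (‖(at' j i j').1 (Pz n k)‖ + 1) with hC
  have hCle : ∀ j i j', ‖(at' j i j').1 (Pz n k)‖ + 1 ≤ C := by
    intro j i j'
    rw [hC]
    refine le_trans ?_ (Finset.single_le_sum (f := fun j => ∑ i, ∑ j', (‖(at' j i j').1 (Pz n k)‖ + 1))
      (fun j _ => by positivity) (Finset.mem_univ j))
    refine le_trans ?_ (Finset.single_le_sum (f := fun i => ∑ j', (‖(at' j i j').1 (Pz n k)‖ + 1))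
      (fun j _ => by positivity) (Finset.mem_univ i))
    exact Finset.single_le_sum (f := fun j' => (‖(at' j i j').1 (Pz n k)‖ + 1))
      (fun j _ => by positivity) (Finset.mem_univ j')
  have E6 : ∀ᶠ p in 𝓝 (Pz n k), ∀ j i j', ‖(at' j i j').1 p‖ ≤ C := by
    refine Filter.eventually_all.2 fun j => Filter.eventually_all.2 fun i =>
      Filter.eventually_all.2 fun j' => ?_
    have h1 : Tendsto (fun p => ‖(at' j i j').1 p‖) (𝓝 (Pz n k)) (𝓝 ‖(at' j i j').1 (Pz n k)‖) :=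
      ((at' j i j').2.continuousAt).norm
    have h2 : ‖(at' j i j').1 (Pz n k)‖ < ‖(at' j i j').1 (Pz n k)‖ + 1 := by linarith
    filter_upwards [h1.eventually (gt_mem_nhds h2)] with p hp
    exact hp.le.trans (hCle j i j')
  obtain ⟨r₀, hr₀, hball⟩ := Metric.eventually_nhds_iff_ball.1
    (E1.and (E2.and (E3.and (E4.and (E5.and E6)))))
  have hmem : ∀ x : Fin n → ℂ, ∀ y : Fin k → ℂ, ‖x‖ < r₀ → ‖y‖ < r₀ → (x, y) ∈ Metric.ball (Pz n k) r₀ := by
    intro x y hx hy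
    rw [Metric.mem_ball, dist_eq_norm]
    have : (x, y) - Pz n k = (x, y) := by simp [Pz]
    rw [this, Prod.norm_def]
    exact max_lt hx hy
  refine ⟨r₀, hr₀, fun ε' hε' => ?_⟩
  -- the choice of `ε`
  obtain ⟨ε, hε0, hεε', hεr, hεs⟩ : ∃ ε : ℝ, 0 < ε ∧ ε ≤ ε' ∧ ε ≤ r₀ ∧
      (Fintype.card ι : ℝ) * (n * (ε * C)) < 1 := by
    have h1 : Tendsto (fun ε : ℝ => (Fintype.card ι : ℝ) * (n * (ε * C))) (𝓝 0) (𝓝 0) := by
      have : Continuous (fun ε : ℝ => (Fintype.card ι : ℝ) * (n * (ε * C))) := by fun_prop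
      have h2 := this.tendsto 0
      simpa using h2
    have h3 : ∀ᶠ ε in 𝓝[>] (0 : ℝ), (Fintype.card ι : ℝ) * (n * (ε * C)) < 1 :=
      (h1.eventually (gt_mem_nhds one_pos)).filter_mono nhdsWithin_le_nhds
    have h4 : ∀ᶠ ε in 𝓝[>] (0 : ℝ), ε ≤ min ε' r₀ := by
      filter_upwards [Ioc_mem_nhdsGT (lt_min hε' hr₀)] with e he using he.2
    obtain ⟨e, he, he1, he2⟩ := (h3.and (h4.and self_mem_nhdsWithin)).exists
    exact ⟨e, he2, he1.trans (min_le_left _ _), he1.trans (min_le_right _ _), he⟩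
  -- matrix relations
  have F1 : ∀ᶠ y in 𝓝 (0 : Fin k → ℂ), ∀ i j, (ev _ y).mapMatrix (Mt i) * (ev _ y).mapMatrix (Mt j) =
      (ev _ y).mapMatrix (Mt j) * (ev _ y).mapMatrix (Mt i) := by
    refine Filter.eventually_all.2 fun i => Filter.eventually_all.2 fun j => ?_
    have h : (gmH (0 : Fin k → ℂ)).mapMatrix (Mt i * Mt j) =
        (gmH (0 : Fin k → ℂ)).mapMatrix (Mt j * Mt i) := by
      rw [map_mul, map_mul, hMt, hMt]; exact D.comm i j
    filter_upwards [ev_mat h] with y hy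
    rwa [map_mul, map_mul] at hy
  have F2 : ∀ᶠ y in 𝓝 (0 : Fin k → ℂ), ∀ l,
      wd (D.w l) (fun i => (ev _ y).mapMatrix (Mt i)) *ᵥ ((ev _ y) ∘ ut) = Pi.single l 1 := by
    refine Filter.eventually_all.2 fun l => ?_
    have h : gmH (0 : Fin k → ℂ) ∘ (wd (D.w l) Mt *ᵥ ut) =
        gmH (0 : Fin k → ℂ) ∘ (Pi.single l 1 : Fin N → AF (0 : Fin k → ℂ)) := by
      rw [comp_mulVec]
      have h1 : (gmH (0 : Fin k → ℂ)).mapMatrix (wd (D.w l) Mt) = wd (D.w l) D.M := by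
        have h2 := wd_mapR ((gmH (0 : Fin k → ℂ)).mapMatrix :
          Matrix (Fin N) (Fin N) (AF (0 : Fin k → ℂ)) →+* Matrix (Fin N) (Fin N) (Rk k)) (D.w l) Mt
        refine h2.trans ?_
        exact congrArg _ (funext hMt)
      have h3 : (gmH (0 : Fin k → ℂ)) ∘ ut = D.u := funext hut
      rw [h1, h3, D.hw]
      ext i
      rw [Function.comp_apply, Pi.single_apply, Pi.single_apply]
      split_ifs <;> simp
    filter_upwards [ev_vec h] with y hy
    rw [comp_mulVec] at hy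
    have h2 := wd_mapR ((ev (0 : Fin k → ℂ) y).mapMatrix :
          Matrix (Fin N) (Fin N) (AF (0 : Fin k → ℂ)) →+* Matrix (Fin N) (Fin N) ℂ) (D.w l) Mt
    rw [show (ev (0 : Fin k → ℂ) y).mapMatrix (wd (D.w l) Mt) =
      wd (D.w l) (fun i => (ev _ y).mapMatrix (Mt i)) from h2] at hy
    rw [hy]
    ext i
    rw [Function.comp_apply, Pi.single_apply, Pi.single_apply]
    split_ifs <;> simp
  have F3 : ∀ᶠ y in 𝓝 (0 : Fin k → ℂ), ∀ j, ev _ y (γt j) • ((ev _ y) ∘ ut) +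
      ∑ i, (ev _ y).mapMatrix (Mt i) *ᵥ ((ev _ y) ∘ ρt j i) = 0 := by
    refine Filter.eventually_all.2 fun j => ?_
    have hc : ∀ {B : Type} [CommRing B] (φ : AF (0 : Fin k → ℂ) →+* B),
        φ ∘ (γt j • ut + ∑ i, Mt i *ᵥ ρt j i) = φ (γt j) • (φ ∘ ut) +
          ∑ i, (φ.mapMatrix (Mt i)) *ᵥ (φ ∘ ρt j i) := by
      intro B _ φ
      ext l
      simp only [Function.comp_apply, Pi.add_apply, Pi.smul_apply, smul_eq_mul, map_add, map_mul,
        Finset.sum_apply, map_sum]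
      congr 1
      refine Finset.sum_congr rfl (fun i _ => ?_)
      rw [← comp_mulVec]; rfl
    have h : gmH (0 : Fin k → ℂ) ∘ (γt j • ut + ∑ i, Mt i *ᵥ ρt j i) =
        gmH (0 : Fin k → ℂ) ∘ (0 : Fin N → AF (0 : Fin k → ℂ)) := by
      rw [hc]
      have h3 : (gmH (0 : Fin k → ℂ)) ∘ ut = D.u := funext hut
      have h4 : ∀ i, (gmH (0 : Fin k → ℂ)) ∘ ρt j i = D.ρ j i := fun i => funext (hρt j i)
      simp only [h3, h4, hMt, hγt]
      rw [D.s1 j]
      ext l; simp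
    filter_upwards [ev_vec h] with y hy
    rw [hc] at hy
    rw [hy]
    ext l; simp
  have F4 : ∀ᶠ y in 𝓝 (0 : Fin k → ℂ), ∀ (i : Fin n) (l : Fin N),
      ∑ j, ‖((ev _ y).mapMatrix (Mt i) ^ D.K) j l‖ < ε ^ D.K := by
    refine Filter.eventually_all.2 fun i => Filter.eventually_all.2 fun l => ?_
    have h1 : ∀ j, Tendsto (fun y => ‖ev (0 : Fin k → ℂ) y ((Mt i ^ D.K) j l)‖) (𝓝 0) (𝓝 0) := by
      intro j
      have h2 : ContinuousAt ((Mt i ^ D.K) j l).1 (0 : Fin k → ℂ) :=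
        ((Mt i ^ D.K) j l).2.continuousAt
      have h3 : ((Mt i ^ D.K) j l).1 (0 : Fin k → ℂ) = 0 := by
        have h4 := congrFun (congrFun (D.nil i) j) l
        rw [← hMt i, ← map_pow] at h4
        exact h4
      have h5 := h2.norm
      unfold ContinuousAt at h5
      beta_reduce at h5
      rw [h3, norm_zero] at h5
      exact h5
    have h2 : Tendsto (fun y => ∑ j, ‖ev (0 : Fin k → ℂ) y ((Mt i ^ D.K) j l)‖) (𝓝 0) (𝓝 0) := by
      have := tendsto_finsetSum Finset.univ (fun j _ => h1 j)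
      simpa using this
    filter_upwards [h2.eventually (gt_mem_nhds (pow_pos hε0 D.K))] with y hy
    rw [← map_pow]
    exact hy
  have F5 : ∀ᶠ y in 𝓝 (0 : Fin k → ℂ), ‖y‖ < r₀ := by
    have : Metric.ball (0 : Fin k → ℂ) r₀ ∈ 𝓝 (0 : Fin k → ℂ) := Metric.ball_mem_nhds _ hr₀
    filter_upwards [this] with y hy
    simpa using hy
  filter_upwards [F1, F2, F3, F4, F5] with y f1 f2 f3 f4 f5
  have hb := fun x (hx : ‖x‖ < r₀) => hball (x, y) (hmem x y hx f5)
  have hana : ∀ (f : (Fin n → ℂ) × (Fin k → ℂ) → ℂ) (x : Fin n → ℂ), AnalyticAt ℂ f (x, y) →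
      AnalyticAt ℂ (fun x => f (x, y)) x := fun f x hf =>
    AnalyticAt.comp (g := f) (f := fun x => (x, y)) hf (analyticAt_id.prod analyticAt_const)
  let T : MDat n N ι :=
    { w := D.w
      M := fun i => (ev _ y).mapMatrix (Mt i)
      u := (ev _ y) ∘ ut
      hcomm := f1
      hw := f2
      r := r₀
      G := fun j x => G j (x, y)
      α := fun j x => (αt j).1 (x, y)
      β := fun i l j x => (βt i l j).1 (x, y)
      g := fun j => ev _ y (γt j)
      R := fun j i x => (Rt j i).1 (x, y)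
      ρ := fun j i => (ev _ y) ∘ ρt j i
      a := fun j i j' x => (at' j i j').1 (x, y)
      D1 := fun x hx => (hb x hx).1
      D2 := fun x hx => (hb x hx).2.1
      D3 := fun x hx => (hb x hx).2.2.1
      D4 := fun x hx => (hb x hx).2.2.2.1
      S1 := f3
      C := C
      hC := fun x hx => (hb x hx).2.2.2.2.2
      ε := ε
      hε0 := hε0
      hεr := hεr
      hε := hεs
      K := D.K
      hK := f4
      dG := fun x hx j => (hana _ x ((hb x hx).2.2.2.2.1.1 j)).differentiableAt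
      dR := fun x hx j i => (hana _ x ((hb x hx).2.2.2.2.1.2.1 j i)).differentiableAt
      da := fun x hx j i j' => (hana _ x ((hb x hx).2.2.2.2.1.2.2 j i j')).differentiableAt }
  exact ⟨T, rfl, hεε', rfl, fun x hx => ⟨fun j => hana _ x ((hb x hx).2.2.2.2.1.1 j),
    fun j i => hana _ x ((hb x hx).2.2.2.2.1.2.1 j i),
    fun j i j' => hana _ x ((hb x hx).2.2.2.2.1.2.2 j i j')⟩⟩

/-- **count of zeros** from the germ data -/
theorem count_of_gdat (G : ι → (Fin n → ℂ) × (Fin k → ℂ) → ℂ)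
    (hG : ∀ j, AnalyticAt ℂ (G j) ((0, 0)))
    (D : GDat (fun j => gm (G j) (hG j) : ι → Bk n k) N) :
    ∃ r₀ : ℝ, 0 < r₀ ∧ ∀ ε : ℝ, 0 < ε → ∀ᶠ y in 𝓝 (0 : Fin k → ℂ), Cnt G r₀ N ε y := by
  obtain ⟨r₀, hr₀, H⟩ := mdat_of_gdat G hG D
  refine ⟨r₀, hr₀, fun ε hε => ?_⟩
  filter_upwards [H ε hε] with y hy
  obtain ⟨T, rfl, hTε, hTG, -⟩ := hy
  have hZ : ZZ G T.r y = T.Z := by
    ext x
    simp only [ZZ, MDat.Z, hTG]
  have hfd : ∀ j, (fun x => G j (x, y)) = T.G j := fun j => by rw [hTG]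
  refine ⟨?_, ?_, ?_, ?_⟩
  · rw [hZ]; exact T.finite_Z
  · rw [hZ]; exact fun x hx => (T.norm_lt_of_mem hx).trans_le hTε
  · rw [hZ]; exact T.ncard_le
  · rw [hZ]; simp only [hfd]; exact T.ncard_eq

open scoped IsMulCommutative in
/-- the algebra data at small parameters -/
theorem dat_of_gdat (G : ι → (Fin n → ℂ) × (Fin k → ℂ) → ℂ)
    (hG : ∀ j, AnalyticAt ℂ (G j) ((0, 0)))
    (D : GDat (fun j => gm (G j) (hG j) : ι → Bk n k) N) :
    ∃ r₀ : ℝ, 0 < r₀ ∧ ∀ ε : ℝ, 0 < ε → ∀ᶠ y in 𝓝 (0 : Fin k → ℂ),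
      ∃ (S : Type) (_ : CommRing S) (_ : Algebra ℂ S) (d : Dat n N ι S),
      d.r = r₀ ∧ d.ε ≤ ε ∧ d.G = (fun j x => G j (x, y)) ∧ ∀ x, ‖x‖ < r₀ →
        (∀ j, AnalyticAt ℂ (d.G j) x) ∧ (∀ j i, AnalyticAt ℂ (d.R j i) x) ∧
        (∀ j i j', AnalyticAt ℂ (d.a j i j') x) := by
  obtain ⟨r₀, hr₀, H⟩ := mdat_of_gdat G hG D
  refine ⟨r₀, hr₀, fun ε hε => ?_⟩
  filter_upwards [H ε hε] with y hy
  obtain ⟨T, h1, h2, h3, h4⟩ := hy
  exact ⟨SA T.M, inferInstance, inferInstance, T.toDat, h1, h2, h3, h4⟩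

/-- existence of the algebra data : `N = dim O_n/(G(.,0))` under Koszul exactness -/
theorem exists_dat [NeZero k] (G : ι → (Fin n → ℂ) × (Fin k → ℂ) → ℂ)
    (hG : ∀ j, AnalyticAt ℂ (G j) ((0, 0)))
    (hfin : Module.Finite ℂ (On n ⧸ J0 (fun j => gm (G j) (hG j) : ι → Bk n k)))
    (hN : Module.finrank ℂ (On n ⧸ J0 (fun j => gm (G j) (hG j) : ι → Bk n k)) = N)
    (hK : Kos (fun j => rk n k (gm (G j) (hG j)))) :
    ∃ r₀ : ℝ, 0 < r₀ ∧ ∀ ε : ℝ, 0 < ε → ∀ᶠ y in 𝓝 (0 : Fin k → ℂ),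
      ∃ (S : Type) (_ : CommRing S) (_ : Algebra ℂ S) (d : Dat n N ι S),
      d.r = r₀ ∧ d.ε ≤ ε ∧ d.G = (fun j x => G j (x, y)) ∧ ∀ x, ‖x‖ < r₀ →
        (∀ j, AnalyticAt ℂ (d.G j) x) ∧ (∀ j i, AnalyticAt ℂ (d.R j i) x) ∧
        (∀ j i j', AnalyticAt ℂ (d.a j i j') x) := by
  obtain ⟨D⟩ := exists_gdat _ hfin hN hK
  exact dat_of_gdat G hG D

/-- **count of zeros** : `N = dim O_n/(G(.,0))` under Koszul exactness -/
theorem count [NeZero k] (G : ι → (Fin n → ℂ) × (Fin k → ℂ) → ℂ)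
    (hG : ∀ j, AnalyticAt ℂ (G j) ((0, 0)))
    (hfin : Module.Finite ℂ (On n ⧸ J0 (fun j => gm (G j) (hG j) : ι → Bk n k)))
    (hN : Module.finrank ℂ (On n ⧸ J0 (fun j => gm (G j) (hG j) : ι → Bk n k)) = N)
    (hK : Kos (fun j => rk n k (gm (G j) (hG j)))) :
    ∃ r₀ : ℝ, 0 < r₀ ∧ ∀ ε : ℝ, 0 < ε → ∀ᶠ y in 𝓝 (0 : Fin k → ℂ), Cnt G r₀ N ε y := by
  obtain ⟨D⟩ := exists_gdat _ hfin hN hK
  exact count_of_gdat G hG D

end Count

end Crest.Agent.R257.Cnm6_889
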