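import Mathlib

/-!
R257 / Syz_846 (helper846): syzygies of `(f, M₀, M₁, M₂)`, `M = F × H`
(algebra of `CntStmt`, #3822 (2) of helper812; shapes of #3962).

`R` a UFD.
* `hb`    : `b · M = 0 → ∃ p q, b = p F + q H`   (Hilbert–Burch), if `gcd (M) = 1`;
* `link`  : `b F₂, b H₂ ∈ (M₀, M₁) → b ∈ (M₀, M₁, M₂)`;
* `nzd`   : `f` a nonzerodivisor modulo `(M₀, M₁)` → nonzerodivisor modulo `(M)`;
* `syz`   : the syzygies of `(f, M)` are `(c · M, - f c + p F + q H)`.
-/

set_option autoImplicit false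

namespace Crest.Agent.R257.Syz_846

variable {R : Type*} [CommRing R]

/-- the cross product -/
def M (F H : Fin 3 → R) : Fin 3 → R :=
  ![F 1 * H 2 - F 2 * H 1, F 2 * H 0 - F 0 * H 2, F 0 * H 1 - F 1 * H 0]

@[simp] theorem M0 (F H : Fin 3 → R) : M F H 0 = F 1 * H 2 - F 2 * H 1 := rfl
@[simp] theorem M1 (F H : Fin 3 → R) : M F H 1 = F 2 * H 0 - F 0 * H 2 := rfl
@[simp] theorem M2 (F H : Fin 3 → R) : M F H 2 = F 0 * H 1 - F 1 * H 0 := rfl

theorem dot_F (F H : Fin 3 → R) : ∑ i, F i * M F H i = 0 := by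
  simp only [Fin.sum_univ_three, M0, M1, M2]; ring

theorem dot_H (F H : Fin 3 → R) : ∑ i, H i * M F H i = 0 := by
  simp only [Fin.sum_univ_three, M0, M1, M2]; ring

/-- `(b × H) × M = 0` if `b · M = 0` -/
theorem par_H {F H b : Fin 3 → R} (hb : ∑ i, b i * M F H i = 0) (i j : Fin 3) :
    M b H i * M F H j = M b H j * M F H i := by
  simp only [Fin.sum_univ_three, M0, M1, M2] at hb
  fin_cases i <;> fin_cases j <;> simp
  · linear_combination (H 2) * hb
  · linear_combination (-(H 1)) * hb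
  · linear_combination (-(H 2)) * hb
  · linear_combination (H 0) * hb
  · linear_combination (H 1) * hb
  · linear_combination (-(H 0)) * hb

/-- `(F × b) × M = 0` if `b · M = 0` -/
theorem par_F {F H b : Fin 3 → R} (hb : ∑ i, b i * M F H i = 0) (i j : Fin 3) :
    M F b i * M F H j = M F b j * M F H i := by
  simp only [Fin.sum_univ_three, M0, M1, M2] at hb
  fin_cases i <;> fin_cases j <;> simp
  · linear_combination (-(F 2)) * hb
  · linear_combination (F 1) * hb
  · linear_combination (F 2) * hb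
  · linear_combination (-(F 0)) * hb
  · linear_combination (-(F 1)) * hb
  · linear_combination (F 0) * hb

/-- `d × H = 0`, `F × d = 0` ⟹ `M_k d_l = 0` -/
theorem kill {F H d : Fin 3 → R} (h1 : ∀ i, M d H i = 0) (h2 : ∀ i, M F d i = 0) (k l : Fin 3) :
    M F H k * d l = 0 := by
  have a0 := h1 0
  have a1 := h1 1
  have a2 := h1 2
  have b0 := h2 0
  have b1 := h2 1
  have b2 := h2 2
  simp only [M0, M1, M2] at a0 a1 a2 b0 b1 b2
  fin_cases k <;> fin_cases l <;> simp
  · linear_combination (-(F 1)) * a1 - F 2 * a2 + H 0 * b0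
  · linear_combination (F 1) * a0 + H 1 * b0
  · linear_combination (F 2) * a0 + H 2 * b0
  · linear_combination (F 0) * a1 + H 0 * b1
  · linear_combination (-(F 0)) * a0 - F 2 * a2 + H 1 * b1
  · linear_combination (F 2) * a1 + H 2 * b1
  · linear_combination (F 0) * a2 + H 0 * b2
  · linear_combination (F 1) * a2 + H 1 * b2
  · linear_combination (-(F 0)) * a0 - F 1 * a1 + H 2 * b2

theorem mem_span_range {F H : Fin 3 → R} {b : R} :
    b ∈ Ideal.span (Set.range (M F H)) ↔ ∃ c : Fin 3 → R, b = ∑ i, c i * M F H i := by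
  rw [Ideal.mem_span_range_iff_exists_fun]
  exact ⟨fun ⟨c, h⟩ => ⟨c, h.symm⟩, fun ⟨c, h⟩ => ⟨c, h.symm⟩⟩

variable [IsDomain R]

/-- one divisibility is enough -/
theorem hb_of_dvd {F H b : Fin 3 → R} (hb : ∑ i, b i * M F H i = 0) (k : Fin 3)
    (h0 : M F H k ≠ 0) (hp : M F H k ∣ M b H k) (hq : M F H k ∣ M F b k) :
    ∃ p q : R, ∀ i, b i = p * F i + q * H i := by
  obtain ⟨p, hp⟩ := hp
  obtain ⟨q, hq⟩ := hq
  have hp' : ∀ j, M b H j = p * M F H j := by
    intro j
    have := par_H hb k j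
    rw [hp] at this
    refine mul_right_cancel₀ h0 ?_
    rw [← this]; ring
  have hq' : ∀ j, M F b j = q * M F H j := by
    intro j
    have := par_F hb k j
    rw [hq] at this
    refine mul_right_cancel₀ h0 ?_
    rw [← this]; ring
  refine ⟨p, q, ?_⟩
  set d : Fin 3 → R := fun i => b i - (p * F i + q * H i) with hd
  have h1 : ∀ i, M d H i = 0 := by
    intro i
    have := hp' i
    fin_cases i <;> simp [hd] at this ⊢ <;> linear_combination this
  have h2 : ∀ i, M F d i = 0 := by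
    intro i
    have := hq' i
    fin_cases i <;> simp [hd] at this ⊢ <;> linear_combination this
  intro i
  have h3 := kill h1 h2 k i
  rcases mul_eq_zero.mp h3 with h | h
  · exact absurd h h0
  · exact sub_eq_zero.mp h

/-- **(HB)** with a regular sequence -/
theorem hb_reg {F H b : Fin 3 → R} (h0 : M F H 0 ≠ 0)
    (hreg : ∀ c, M F H 0 ∣ c * M F H 1 → M F H 0 ∣ c)
    (hb : ∑ i, b i * M F H i = 0) : ∃ p q : R, ∀ i, b i = p * F i + q * H i := by
  refine hb_of_dvd hb 0 h0 (hreg _ ?_) (hreg _ ?_)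
  · rw [par_H hb 0 1]; exact dvd_mul_left _ _
  · rw [par_F hb 0 1]; exact dvd_mul_left _ _

/-- **(HB)** -/
theorem hb [UniqueFactorizationMonoid R] (F H : Fin 3 → R) (h0 : ∃ i, M F H i ≠ 0)
    (hg : ∀ p : R, Prime p → ∃ i, ¬ p ∣ M F H i) (b : Fin 3 → R)
    (h : ∑ i, b i * M F H i = 0) : ∃ p q : R, ∀ i, b i = p * F i + q * H i := by
  obtain ⟨k, h0⟩ := h0
  have key : ∀ m : R, m ≠ 0 → ∀ c : R, (∀ j, m ∣ c * M F H j) → m ∣ c := by
    intro m
    refine UniqueFactorizationMonoid.induction_on_prime m ?_ ?_ ?_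
    · intro h; exact absurd rfl h
    · intro u hu _ c _; exact hu.dvd
    · intro m r hm hr ih _ c hc
      have hr' : r ∣ c := by
        obtain ⟨i, hi⟩ := hg r hr
        have : r ∣ c * M F H i := (dvd_mul_right r m).trans (hc i)
        exact (hr.dvd_or_dvd this).resolve_right hi
      obtain ⟨c', rfl⟩ := hr'
      have := ih hm c' (fun j => by
        have h3 := hc j
        rw [mul_assoc] at h3
        exact (mul_dvd_mul_iff_left hr.ne_zero).mp h3)
      exact mul_dvd_mul_left r this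
  refine hb_of_dvd h k h0 (key _ h0 _ fun j => ?_) (key _ h0 _ fun j => ?_)
  · rw [par_H h k j]; exact dvd_mul_left _ _
  · rw [par_F h k j]; exact dvd_mul_left _ _

/-- the same if there is a prime -/
theorem hb_prime [UniqueFactorizationMonoid R] (F H : Fin 3 → R) (h0 : ∃ p : R, Prime p)
    (hg : ∀ p : R, Prime p → ∃ i, ¬ p ∣ M F H i) (b : Fin 3 → R)
    (h : ∑ i, b i * M F H i = 0) : ∃ p q : R, ∀ i, b i = p * F i + q * H i := by
  refine hb F H ?_ hg b h
  obtain ⟨p, hp⟩ := h0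
  obtain ⟨i, hi⟩ := hg p hp
  exact ⟨i, fun h => hi (by rw [h]; exact dvd_zero p)⟩

/-- **(LINK)**: `(M₀, M₁) : (F₂, H₂) = (M)` -/
theorem link_reg (F H : Fin 3 → R)
    (hreg : ∀ x y : R, x * M F H 0 + y * M F H 1 = 0 →
      ∃ s, x = s * M F H 1 ∧ y = -(s * M F H 0)) (hF : F 2 ≠ 0)
    (hFH : ∀ c, F 2 ∣ c * H 2 → F 2 ∣ c) {b x y z w : R}
    (h1 : b * F 2 = x * M F H 0 + y * M F H 1) (h2 : b * H 2 = z * M F H 0 + w * M F H 1) :
    b ∈ Ideal.span (Set.range (M F H)) := by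
  have e1 : (x * H 2 - z * F 2) * M F H 0 + (y * H 2 - w * F 2) * M F H 1 = 0 := by
    linear_combination (-(H 2)) * h1 + F 2 * h2
  obtain ⟨s, hs1, hs2⟩ := hreg _ _ e1
  have e2 : (x + s * F 0) * H 2 = (z + s * H 0) * F 2 := by
    simp only [M1] at hs1
    linear_combination hs1
  have e3 : (y + s * F 1) * H 2 = (w + s * H 1) * F 2 := by
    simp only [M0] at hs2
    linear_combination hs2
  obtain ⟨e, he⟩ := hFH _ ⟨z + s * H 0, by rw [e2]; ring⟩
  obtain ⟨e', he'⟩ := hFH _ ⟨w + s * H 1, by rw [e3]; ring⟩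
  refine mem_span_range.mpr ⟨![e, e', s], ?_⟩
  refine mul_right_cancel₀ hF ?_
  have hx : x = F 2 * e - s * F 0 := by linear_combination he
  have hy : y = F 2 * e' - s * F 1 := by linear_combination he'
  rw [h1, hx, hy]
  simp only [Fin.sum_univ_three, M0, M1, M2, Matrix.cons_val_zero, Matrix.cons_val_one,
    Matrix.cons_val]
  ring

/-- **(LINK)** -/
theorem link [UniqueFactorizationMonoid R] (F H : Fin 3 → R)
    (hg : ∀ p : R, Prime p → ¬ (p ∣ F 2 ∧ p ∣ H 2))
    (hreg : ∀ x y : R, x * M F H 0 + y * M F H 1 = 0 →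
      ∃ s, x = s * M F H 1 ∧ y = -(s * M F H 0)) (b : R)
    (h1 : b * F 2 ∈ Ideal.span {M F H 0, M F H 1})
    (h2 : b * H 2 ∈ Ideal.span {M F H 0, M F H 1}) : b ∈ Ideal.span (Set.range (M F H)) := by
  by_cases hF : F 2 = 0
  · by_cases hH : H 2 = 0
    · exfalso
      obtain ⟨s, hs, -⟩ := hreg 1 0 (by simp [M0, hF, hH])
      simp [M1, hF, hH] at hs
    · have hu : IsUnit (H 2) := by
        by_contra hu
        obtain ⟨p, hp, hd⟩ := WfDvdMonoid.exists_irreducible_factor hu hH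
        exact hg p hp.prime ⟨by rw [hF]; exact dvd_zero p, hd⟩
      obtain ⟨v, hv⟩ := hu
      have : b = (b * H 2) * ((v⁻¹ : Rˣ) : R) := by
        rw [← hv, mul_assoc, Units.mul_inv, mul_one]
      rw [this]
      refine Ideal.mul_mem_right _ _ ?_
      refine Ideal.span_mono ?_ h2
      intro a ha
      rcases ha with rfl | ha
      · exact ⟨0, rfl⟩
      · rw [Set.mem_singleton_iff] at ha
        exact ⟨1, ha.symm⟩
  · obtain ⟨x, y, e1⟩ := Ideal.mem_span_pair.mp h1
    obtain ⟨z, w, e2⟩ := Ideal.mem_span_pair.mp h2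
    refine link_reg F H hreg hF (fun c hc => ?_) e1.symm e2.symm
    have : IsRelPrime (F 2) (H 2) := by
      rw [UniqueFactorizationMonoid.isRelPrime_iff_no_prime_factors hF]
      intro d hd1 hd2 hd
      exact hg d hd ⟨hd1, hd2⟩
    exact this.dvd_of_dvd_mul_right hc

theorem mul_F_mem (F H : Fin 3 → R) {c : R} (h : c ∈ Ideal.span (Set.range (M F H))) :
    c * F 2 ∈ Ideal.span {M F H 0, M F H 1} ∧ c * H 2 ∈ Ideal.span {M F H 0, M F H 1} := by
  obtain ⟨c, rfl⟩ := mem_span_range.mp h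
  have e1 := dot_F F H
  have e2 := dot_H F H
  simp only [Fin.sum_univ_three] at e1 e2 ⊢
  constructor
  · exact Ideal.mem_span_pair.mpr ⟨c 0 * F 2 - c 2 * F 0, c 1 * F 2 - c 2 * F 1, by
      linear_combination (- c 2) * e1⟩
  · exact Ideal.mem_span_pair.mpr ⟨c 0 * H 2 - c 2 * H 0, c 1 * H 2 - c 2 * H 1, by
      linear_combination (- c 2) * e2⟩

/-- **(NZD)** -/
theorem nzd [UniqueFactorizationMonoid R] (F H : Fin 3 → R)
    (hg : ∀ p : R, Prime p → ¬ (p ∣ F 2 ∧ p ∣ H 2))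
    (hreg : ∀ x y : R, x * M F H 0 + y * M F H 1 = 0 →
      ∃ s, x = s * M F H 1 ∧ y = -(s * M F H 0)) (f : R)
    (hf : ∀ x, f * x ∈ Ideal.span {M F H 0, M F H 1} → x ∈ Ideal.span {M F H 0, M F H 1}) (b : R)
    (h : f * b ∈ Ideal.span (Set.range (M F H))) : b ∈ Ideal.span (Set.range (M F H)) := by
  obtain ⟨h1, h2⟩ := mul_F_mem F H h
  refine link F H hg hreg b (hf _ ?_) (hf _ ?_)
  · rw [← mul_assoc]; exact h1
  · rw [← mul_assoc]; exact h2

/-- **the syzygies of `(f, M₀, M₁, M₂)`** -/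
theorem syz (f : R) (F H : Fin 3 → R)
    (hb : ∀ b : Fin 3 → R, ∑ i, b i * M F H i = 0 → ∃ p q : R, ∀ i, b i = p * F i + q * H i)
    (hn : ∀ b, f * b ∈ Ideal.span (Set.range (M F H)) → b ∈ Ideal.span (Set.range (M F H)))
    (b0 : R) (b : Fin 3 → R) (h : b0 * f + ∑ i, b i * M F H i = 0) :
    ∃ (c : Fin 3 → R) (p q : R), b0 = ∑ i, c i * M F H i ∧
      ∀ i, b i = - (c i * f) + p * F i + q * H i := by
  obtain ⟨c, hc⟩ := mem_span_range.mp (hn b0 (mem_span_range.mpr ⟨fun i => - b i, by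
    simp only [Fin.sum_univ_three] at h ⊢; linear_combination h⟩))
  obtain ⟨p, q, hpq⟩ := hb (fun i => c i * f + b i) (by
    simp only [Fin.sum_univ_three] at h hc ⊢
    linear_combination h - f * hc)
  exact ⟨c, p, q, hc, fun i => by linear_combination hpq i⟩

end Crest.Agent.R257.Syz_846
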