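import Crest.Agent.R257.Dim_812
import Crest.Agent.R257.Syz_846

/-!
Row 257 (S0395), leaf CntStmt (helper812), part 1: the syzygies of `(f, ∇f × ∇h)` in `O_3` when the
quotient is finite dimensional.
-/

set_option autoImplicit false
set_option linter.unusedSectionVars false

open Set Filter Topology Metric Complex
open Crest.AlgGeometry.Germ
open Crest.Agent.R275.Loc2879 hiding AA
open Crest.Agent.R257.UI939 Crest.Agent.R257.Defs_219 Crest.Agent.R257.Num488
open Crest.Agent.R257.Gen_812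

noncomputable section

namespace Crest.Agent.R257.Det_812

open Crest.Agent.R257.Syz_846

section Alg

variable {f : BB 3} {F H : Fin 3 → BB 3}

/-- the ideal `(f, M)` -/
abbrev IM (f : BB 3) (F H : Fin 3 → BB 3) : Ideal (BB 3) :=
  Ideal.span {f} ⊔ Ideal.span (Set.range (M F H))

/-- no common factor -/
lemma gcd_M (hf : ¬ IsUnit f) (hfin : dl (BB 3 ⧸ IM f F H) ≠ ⊤) {p : BB 3} (hp : Prime p) :
    ∃ i, ¬ p ∣ M F H i := by
  by_contra hcon
  push Not at hcon
  refine hfin (not_fin_two hf hp.not_isUnit (sup_le ?_ ?_))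
  · rw [Ideal.span_singleton_le_iff_mem]; exact Ideal.subset_span (by simp)
  · rw [Ideal.span_le]
    rintro _ ⟨i, rfl⟩
    obtain ⟨c, hc⟩ := hcon i
    show M F H i ∈ _
    rw [hc]
    exact Ideal.mul_mem_right _ _ (Ideal.subset_span (by simp))

lemma exists_M_ne (hf : ¬ IsUnit f) (hfin : dl (BB 3 ⧸ IM f F H) ≠ ⊤) : ∃ i, M F H i ≠ 0 := by
  by_contra hcon
  push Not at hcon
  refine hfin (not_fin_two hf hf (sup_le ?_ ?_))
  · rw [Ideal.span_singleton_le_iff_mem]; exact Ideal.subset_span (by simp)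
  · rw [Ideal.span_le]
    rintro _ ⟨i, rfl⟩
    show M F H i ∈ _
    rw [hcon i]
    exact Ideal.zero_mem _

/-- rotation of the rows -/
lemma M_rot (F H : Fin 3 → BB 3) (w w' w'' : Fin 3 → BB 3) :
    M ![(w' 1 * w'' 2 - w' 2 * w'' 1) * F 0 + (w' 2 * w'' 0 - w' 0 * w'' 2) * F 1 +
          (w' 0 * w'' 1 - w' 1 * w'' 0) * F 2,
        (w'' 1 * w 2 - w'' 2 * w 1) * F 0 + (w'' 2 * w 0 - w'' 0 * w 2) * F 1 +
          (w'' 0 * w 1 - w'' 1 * w 0) * F 2,
        (w 1 * w' 2 - w 2 * w' 1) * F 0 + (w 2 * w' 0 - w 0 * w' 2) * F 1 +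
          (w 0 * w' 1 - w 1 * w' 0) * F 2]
      ![(w' 1 * w'' 2 - w' 2 * w'' 1) * H 0 + (w' 2 * w'' 0 - w' 0 * w'' 2) * H 1 +
          (w' 0 * w'' 1 - w' 1 * w'' 0) * H 2,
        (w'' 1 * w 2 - w'' 2 * w 1) * H 0 + (w'' 2 * w 0 - w'' 0 * w 2) * H 1 +
          (w'' 0 * w 1 - w'' 1 * w 0) * H 2,
        (w 1 * w' 2 - w 2 * w' 1) * H 0 + (w 2 * w' 0 - w 0 * w' 2) * H 1 +
          (w 0 * w' 1 - w 1 * w' 0) * H 2] =
    ![((w 1 * w' 2 - w 2 * w' 1) * w'' 0 + (w 2 * w' 0 - w 0 * w' 2) * w'' 1 +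
        (w 0 * w' 1 - w 1 * w' 0) * w'' 2) * (∑ i, w i * M F H i),
      ((w 1 * w' 2 - w 2 * w' 1) * w'' 0 + (w 2 * w' 0 - w 0 * w' 2) * w'' 1 +
        (w 0 * w' 1 - w 1 * w' 0) * w'' 2) * (∑ i, w' i * M F H i),
      ((w 1 * w' 2 - w 2 * w' 1) * w'' 0 + (w 2 * w' 0 - w 0 * w' 2) * w'' 1 +
        (w 0 * w' 1 - w 1 * w' 0) * w'' 2) * (∑ i, w'' i * M F H i)] := by
  funext i
  fin_cases i
  · simp [M, Fin.sum_univ_three]; ring
  · simp [M, Fin.sum_univ_three]; ring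
  · simp [M, Fin.sum_univ_three]; ring

/-- a family generating an ideal of finite colength together with `f` has two coprime members -/
lemma fin_prime {a b : BB 3} (hf : ¬ IsUnit f)
    (h3 : dl (BB 3 ⧸ Ideal.span {a, b, f}) ≠ ⊤) {p : BB 3} (hp : ¬ IsUnit p)
    (ha : p ∣ a) (hb : p ∣ b) : False := by
  refine h3 (not_fin_two hf hp ?_)
  rw [Ideal.span_le]
  intro z hz
  simp only [Set.mem_insert_iff, Set.mem_singleton_iff] at hz
  rcases hz with rfl | rfl | rfl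
  · obtain ⟨c, rfl⟩ := ha
    exact Ideal.mul_mem_right _ _ (Ideal.subset_span (by simp))
  · obtain ⟨c, rfl⟩ := hb
    exact Ideal.mul_mem_right _ _ (Ideal.subset_span (by simp))
  · exact Ideal.subset_span (by simp)

lemma reg_of_fin {a b : BB 3} (hf : ¬ IsUnit f) (ha : ¬ IsUnit a) (hb : ¬ IsUnit b)
    (h3 : dl (BB 3 ⧸ Ideal.span {a, b, f}) ≠ ⊤) (x y : BB 3) (h : x * a + y * b = 0) :
    ∃ s, x = s * b ∧ y = -(s * a) := by
  have hb0 : b ≠ 0 := by
    rintro rfl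
    exact fin_prime hf h3 ha (dvd_refl a) (dvd_zero a)
  have hrel : IsRelPrime b a := by
    intro p h1 h2
    by_contra hp
    exact fin_prime hf h3 hp h2 h1
  have h1 : b ∣ x * a := ⟨-y, by linear_combination h⟩
  obtain ⟨s, hs⟩ := hrel.dvd_of_dvd_mul_right h1
  refine ⟨s, by rw [hs]; ring, ?_⟩
  refine mul_right_cancel₀ hb0 ?_
  rw [hs] at h
  linear_combination h

/-- **`f` is a non zero divisor modulo the minors** -/
theorem nzd_M (hf : ¬ IsUnit f) (hf0 : f ≠ 0) (hM : ∀ i, ¬ IsUnit (M F H i))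
    (hfin : dl (BB 3 ⧸ IM f F H) ≠ ⊤) (b : BB 3)
    (hb : f * b ∈ Ideal.span (Set.range (M F H))) : b ∈ Ideal.span (Set.range (M F H)) := by
  classical
  obtain ⟨w, w', hw, hw', hQ⟩ := exists_two hf0 (M F H) hfin {⊥}
    (by
      rw [Finset.mem_singleton]
      exact top_ne_bot) (fun w => {Submodule.span ℂ {w}})
    (fun w => by rw [Finset.mem_singleton]; exact fun h => span_ne_top w h.symm)
  have hw0 : w ≠ 0 := by
    intro h
    exact hw ⊥ (Finset.mem_singleton_self _) (by rw [h]; exact Submodule.zero_mem _)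
  obtain ⟨w'', hD⟩ : ∃ w'' : Fin 3 → ℂ, (w 1 * w' 2 - w 2 * w' 1) * w'' 0 +
      (w 2 * w' 0 - w 0 * w' 2) * w'' 1 + (w 0 * w' 1 - w 1 * w' 0) * w'' 2 ≠ 0 := by
    by_contra hcon
    push Not at hcon
    have c0 : w 1 * w' 2 - w 2 * w' 1 = 0 := by simpa using hcon ![1, 0, 0]
    have c1 : w 2 * w' 0 - w 0 * w' 2 = 0 := by simpa using hcon ![0, 1, 0]
    have c2 : w 0 * w' 1 - w 1 * w' 0 = 0 := by simpa using hcon ![0, 0, 1]
    obtain ⟨i, j, hij⟩ := exists_minor hw0 (hw' _ (Finset.mem_singleton_self _))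
    apply hij
    fin_cases i <;> fin_cases j <;> simp only [Fin.zero_eta, Fin.mk_one, Fin.reduceFinMk] <;>
      first | ring1 | linear_combination c0 | linear_combination c1 | linear_combination c2 |
      linear_combination -c0 | linear_combination -c1 | linear_combination -c2
  set D : ℂ := (w 1 * w' 2 - w 2 * w' 1) * w'' 0 +
      (w 2 * w' 0 - w 0 * w' 2) * w'' 1 + (w 0 * w' 1 - w 1 * w' 0) * w'' 2 with hDdef
  set A : ℂ →+* BB 3 := algebraMap ℂ (BB 3) with hA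
  set F' : Fin 3 → BB 3 := ![(A (w' 1) * A (w'' 2) - A (w' 2) * A (w'' 1)) * F 0 +
      (A (w' 2) * A (w'' 0) - A (w' 0) * A (w'' 2)) * F 1 +
      (A (w' 0) * A (w'' 1) - A (w' 1) * A (w'' 0)) * F 2,
    (A (w'' 1) * A (w 2) - A (w'' 2) * A (w 1)) * F 0 +
      (A (w'' 2) * A (w 0) - A (w'' 0) * A (w 2)) * F 1 +
      (A (w'' 0) * A (w 1) - A (w'' 1) * A (w 0)) * F 2,
    (A (w 1) * A (w' 2) - A (w 2) * A (w' 1)) * F 0 +
      (A (w 2) * A (w' 0) - A (w 0) * A (w' 2)) * F 1 +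
      (A (w 0) * A (w' 1) - A (w 1) * A (w' 0)) * F 2] with hF'
  set H' : Fin 3 → BB 3 := ![(A (w' 1) * A (w'' 2) - A (w' 2) * A (w'' 1)) * H 0 +
      (A (w' 2) * A (w'' 0) - A (w' 0) * A (w'' 2)) * H 1 +
      (A (w' 0) * A (w'' 1) - A (w' 1) * A (w'' 0)) * H 2,
    (A (w'' 1) * A (w 2) - A (w'' 2) * A (w 1)) * H 0 +
      (A (w'' 2) * A (w 0) - A (w'' 0) * A (w 2)) * H 1 +
      (A (w'' 0) * A (w 1) - A (w'' 1) * A (w 0)) * H 2,
    (A (w 1) * A (w' 2) - A (w 2) * A (w' 1)) * H 0 +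
      (A (w 2) * A (w' 0) - A (w 0) * A (w' 2)) * H 1 +
      (A (w 0) * A (w' 1) - A (w 1) * A (w' 0)) * H 2] with hH'
  have hAD : A D = (A (w 1) * A (w' 2) - A (w 2) * A (w' 1)) * A (w'' 0) +
      (A (w 2) * A (w' 0) - A (w 0) * A (w' 2)) * A (w'' 1) +
      (A (w 0) * A (w' 1) - A (w 1) * A (w' 0)) * A (w'' 2) := by
    rw [hDdef]; simp only [map_add, map_mul, map_sub]
  have hrot := M_rot F H (fun i => A (w i)) (fun i => A (w' i)) (fun i => A (w'' i))
  simp only [← hAD] at hrot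
  rw [← hF', ← hH'] at hrot
  set u : BB 3 := ∑ i, A (w i) * M F H i with hu
  set v : BB 3 := ∑ i, A (w' i) * M F H i with hv
  set z : BB 3 := ∑ i, A (w'' i) * M F H i with hz
  have m0 : M F' H' 0 = A D * u := by rw [hrot]; rfl
  have m1 : M F' H' 1 = A D * v := by rw [hrot]; rfl
  have m2 : M F' H' 2 = A D * z := by rw [hrot]; rfl
  have hDu : IsUnit (A D) := (IsUnit.mk0 _ hD).map A
  obtain ⟨δ, hδ⟩ := hDu
  -- the two spans agree
  have hspan : Ideal.span (Set.range (M F' H')) = Ideal.span (Set.range (M F H)) := by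
    refine le_antisymm ?_ ?_
    · rw [Ideal.span_le]
      rintro _ ⟨i, rfl⟩
      have hall : ∀ W : Fin 3 → BB 3, ∑ i, W i * M F H i ∈ Ideal.span (Set.range (M F H)) :=
        fun W => Ideal.sum_mem _ fun i _ => Ideal.mul_mem_left _ _ (Ideal.subset_span ⟨i, rfl⟩)
      fin_cases i
      · exact m0 ▸ Ideal.mul_mem_left _ _ (hall _)
      · exact m1 ▸ Ideal.mul_mem_left _ _ (hall _)
      · exact m2 ▸ Ideal.mul_mem_left _ _ (hall _)
    · rw [Ideal.span_le]
      have hmem : ∀ i, M F' H' i ∈ Ideal.span (Set.range (M F' H')) :=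
        fun i => Ideal.subset_span ⟨i, rfl⟩
      have hcomb : ∀ (x y t : BB 3), x * u + y * v + t * z ∈ Ideal.span (Set.range (M F' H')) := by
        intro x y t
        have e : x * u + y * v + t * z = ((δ⁻¹ : (BB 3)ˣ) : BB 3) * (x * M F' H' 0 +
            y * M F' H' 1 + t * M F' H' 2) := by
          rw [m0, m1, m2, ← hδ]
          have h1 : ((δ⁻¹ : (BB 3)ˣ) : BB 3) * (δ : BB 3) = 1 := Units.inv_mul δ
          linear_combination -(x * u + y * v + t * z) * h1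
        rw [e]
        exact Ideal.mul_mem_left _ _ (Ideal.add_mem _ (Ideal.add_mem _
          (Ideal.mul_mem_left _ _ (hmem 0)) (Ideal.mul_mem_left _ _ (hmem 1)))
          (Ideal.mul_mem_left _ _ (hmem 2)))
      rintro _ ⟨i, rfl⟩
      have hinv : ∀ y : BB 3, A D * y ∈ Ideal.span (Set.range (M F' H')) →
          y ∈ Ideal.span (Set.range (M F' H')) := by
        intro y hy
        rw [← hδ] at hy
        have := Ideal.mul_mem_left (Ideal.span (Set.range (M F' H'))) ((δ⁻¹ : (BB 3)ˣ) : BB 3) hy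
        rwa [← mul_assoc, Units.inv_mul, one_mul] at this
      refine hinv _ ?_
      fin_cases i
      · have := hcomb (A (w' 1) * A (w'' 2) - A (w' 2) * A (w'' 1))
          (A (w'' 1) * A (w 2) - A (w'' 2) * A (w 1)) (A (w 1) * A (w' 2) - A (w 2) * A (w' 1))
        convert this using 1
        rw [hAD, hu, hv, hz]
        simp only [Fin.sum_univ_three]
        show _ * M F H 0 = _
        ring
      · have := hcomb (A (w' 2) * A (w'' 0) - A (w' 0) * A (w'' 2))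
          (A (w'' 2) * A (w 0) - A (w'' 0) * A (w 2)) (A (w 2) * A (w' 0) - A (w 0) * A (w' 2))
        convert this using 1
        rw [hAD, hu, hv, hz]
        simp only [Fin.sum_univ_three]
        show _ * M F H 1 = _
        ring
      · have := hcomb (A (w' 0) * A (w'' 1) - A (w' 1) * A (w'' 0))
          (A (w'' 0) * A (w 1) - A (w'' 1) * A (w 0)) (A (w 0) * A (w' 1) - A (w 1) * A (w' 0))
        convert this using 1
        rw [hAD, hu, hv, hz]
        simp only [Fin.sum_univ_three]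
        show _ * M F H 2 = _
        ring
  have hnu : ∀ W : Fin 3 → BB 3, ∑ i, W i * M F H i ∈ IsLocalRing.maximalIdeal (BB 3) :=
    fun W => Ideal.sum_mem _ fun i _ => Ideal.mul_mem_left _ _
      ((IsLocalRing.mem_maximalIdeal _).2 (hM i))
  have n0 : ¬ IsUnit (M F' H' 0) := by
    rw [m0, ← mem_nonunits_iff, ← IsLocalRing.mem_maximalIdeal]
    exact Ideal.mul_mem_left _ _ (hnu _)
  have n1 : ¬ IsUnit (M F' H' 1) := by
    rw [m1, ← mem_nonunits_iff, ← IsLocalRing.mem_maximalIdeal]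
    exact Ideal.mul_mem_left _ _ (hnu _)
  have hfin3 : dl (BB 3 ⧸ Ideal.span {M F' H' 0, M F' H' 1, f}) ≠ ⊤ := by
    rw [fin_iff]
    intro Q hQp hQle
    have hinv : ∀ y : BB 3, A D * y ∈ Q → y ∈ Q := by
      intro y hy
      rw [← hδ] at hy
      have := Ideal.mul_mem_left Q ((δ⁻¹ : (BB 3)ˣ) : BB 3) hy
      rwa [← mul_assoc, Units.inv_mul, one_mul] at this
    refine hQ Q hQp (hQle (Ideal.subset_span (by simp))) (hinv _ ?_) (hinv _ ?_)
    · rw [← m0]; exact hQle (Ideal.subset_span (by simp))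
    · rw [← m1]; exact hQle (Ideal.subset_span (by simp))
  rw [← hspan] at hb ⊢
  refine Syz_846.nzd F' H' ?_ (reg_of_fin hf n0 n1 hfin3) f (fun x hx => Num488.nzd hfin3 hx) b hb
  rintro p hp ⟨hpF, hpH⟩
  refine fin_prime hf hfin3 hp.not_isUnit ?_ ?_
  · have : M F' H' 0 = F' 1 * H' 2 - F' 2 * H' 1 := rfl
    rw [this]
    exact dvd_sub (hpH.mul_left _) (hpF.mul_right _)
  · have : M F' H' 1 = F' 2 * H' 0 - F' 0 * H' 2 := rfl
    rw [this]
    exact dvd_sub (hpF.mul_right _) (hpH.mul_left _)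

/-- **the syzygies of `(f, M)`** -/
theorem syz_M (hf : ¬ IsUnit f) (hf0 : f ≠ 0) (hM : ∀ i, ¬ IsUnit (M F H i))
    (hfin : dl (BB 3 ⧸ IM f F H) ≠ ⊤) (b0 : BB 3) (b : Fin 3 → BB 3)
    (h : b0 * f + ∑ i, b i * M F H i = 0) :
    ∃ (c : Fin 3 → BB 3) (p q : BB 3), b0 = ∑ i, c i * M F H i ∧
      ∀ i, b i = - (c i * f) + p * F i + q * H i :=
  Syz_846.syz f F H (Syz_846.hb F H (exists_M_ne hf hfin) fun _ hp => gcd_M hf hfin hp)
    (fun b hb => nzd_M hf hf0 hM hfin b hb) b0 b h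

end Alg

end Crest.Agent.R257.Det_812
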