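import Crest.Agent.R257.Lift_812
import Crest.Agent.R257.Cnm7_889

/-!
Row 257 (S0395), leaf CntStmt (helper812): conservation of number with parameters in a finite
dimensional space, for systems whose syzygies lift along all lines of parameters.
-/

set_option autoImplicit false
set_option linter.unusedSectionVars false

open Set Filter Topology
open Crest.Agent.R275.Loc2879

noncomputable section

namespace Crest.Agent.R257.Lift_812

open Crest.Agent.R257.Uni554 (On Bn rr)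
open Crest.Agent.R257.Cnm3_889 Crest.Agent.R257.Defs_219
open Crest.Agent.R257.Cnm4_889 Crest.Agent.R257.Cnm5_889 Crest.Agent.R257.Cnm6_889
open Crest.Agent.R257.Cnm7_889
open Crest.Agent.R257.UI939 (Idl gz gz_eq BB colFin_iff col_eq)

/-- the syzygies of the fibre lift, one parameter -/
def LftL {n : ℕ} {ι : Type} [Fintype ι] (g : ι → Bn n) : Prop := ∀ b : ι → On n,
  ∑ j, b j * rr n (g j) = 0 →
    ∃ b' : ι → Bn n, (∀ j, rr n (b' j) = b j) ∧ ∑ j, b' j * g j = 0

/-- **conservation of number** for systems whose syzygies lift -/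
theorem count_lift {n m : ℕ} {P : Type} [NormedAddCommGroup P] [NormedSpace ℂ P]
    [FiniteDimensional ℂ P] (p₀ : P) (G : Fin m → (Fin n → ℂ) × P → ℂ)
    (hG : ∀ j, AnalyticAt ℂ (G j) ((0, p₀))) (hfin : ColFin (fun j x => G j (x, p₀)))
    (hL : ∀ v : P, ∀ h : ∀ j, AnalyticAt ℂ (fun p : (Fin n → ℂ) × ℂ => G j (p.1, p₀ + p.2 • v))
      ((0 : Fin n → ℂ), (0 : ℂ)), LftL fun j => (gm _ (h j) : Bn n)) :
    ∃ r₀ : ℝ, 0 < r₀ ∧ ∀ ε : ℝ, 0 < ε → ∀ᶠ y in 𝓝 p₀,
      CntP G r₀ (col (fun j x => G j (x, p₀))) ε y := by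
  -- add a dummy parameter
  let k := Module.finrank ℂ (P × ℂ)
  have hk : NeZero k := ⟨by
    have : 0 < Module.finrank ℂ (P × ℂ) := Module.finrank_pos
    exact this.ne'⟩
  let e : (P × ℂ) ≃L[ℂ] (Fin k → ℂ) := ContinuousLinearEquiv.ofFinrankEq (by simp [k])
  let φ : (Fin k → ℂ) → P := fun y => p₀ + (e.symm y).1
  have hφ0 : φ 0 = p₀ := by simp [φ]
  let ψ : (Fin n → ℂ) × (Fin k → ℂ) → (Fin n → ℂ) × P := fun q => (q.1, φ q.2)
  have hφan : ∀ y, AnalyticAt ℂ φ y := fun y =>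
    analyticAt_const.add (((ContinuousLinearMap.fst ℂ P ℂ).comp
      (e.symm : (Fin k → ℂ) →L[ℂ] P × ℂ)).analyticAt y)
  have hψ : ∀ q, AnalyticAt ℂ ψ q := fun q =>
    analyticAt_fst.prod ((hφan q.2).comp analyticAt_snd)
  have hψ0 : ψ (0, 0) = (0, p₀) := by simp only [ψ, hφ0]
  let H : Fin m → (Fin n → ℂ) × (Fin k → ℂ) → ℂ := fun j q => G j (ψ q)
  have hH : ∀ j, AnalyticAt ℂ (H j) ((0, 0)) := fun j =>
    AnalyticAt.comp (g := G j) (f := ψ) (by rw [hψ0]; exact hG j) (hψ _)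
  have hsl : (fun j x => H j (x, 0)) = fun j x => G j (x, p₀) := by
    ext j x
    simp only [H, ψ, hφ0]
  have h1 : ∀ j, AnalyticAt ℂ (fun x => H j (x, 0)) (0 : Fin n → ℂ) := fun j =>
    AnalyticAt.comp (g := H j) (f := fun x => (x, 0)) (hH j) (analyticAt_id.prod analyticAt_const)
  have hfin' : ColFin (fun j x => H j (x, 0)) := by rw [hsl]; exact hfin
  have hf1 := (colFin_iff h1).1 hfin'
  have hc1 := col_eq h1
  rw [← J0_eq H hH] at hf1 hc1
  have hLft : Lft (fun j => (gm (H j) (hH j) : Bk n k)) := by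
    intro v b hb
    have hline : ∀ j, AnalyticAt ℂ (fun p : (Fin n → ℂ) × ℂ => G j (p.1, p₀ + p.2 • (e.symm v).1))
        ((0 : Fin n → ℂ), (0 : ℂ)) := by
      intro j
      refine AnalyticAt.comp (g := G j)
        (f := fun p : (Fin n → ℂ) × ℂ => (p.1, p₀ + p.2 • (e.symm v).1)) ?_ ?_
      · simpa using hG j
      · exact analyticAt_fst.prod (analyticAt_const.add (analyticAt_snd.smul analyticAt_const))
    have h2 : ∀ j, lnB n v (gm (H j) (hH j) : Bk n k) = gm _ (hline j) := by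
      intro j
      rw [lnB, pull_gm, gm_eq_gm]
      refine Eventually.of_forall fun p => ?_
      simp only [Function.comp, H, ψ, φ, map_smul, Prod.smul_fst]
    have h3 := hL (e.symm v).1 hline b
    have h4 : ∀ j, rr n (gm _ (hline j)) = rk n k (gm (H j) (hH j) : Bk n k) := by
      intro j
      rw [← h2 j, rr_lnB]
    simp only [h4] at h3
    obtain ⟨b', hb1, hb2⟩ := h3 hb
    refine ⟨b', hb1, ?_⟩
    simp only [h2]
    exact hb2
  obtain ⟨D⟩ := exists_gdat' _ hf1 hc1.symm hLft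
  obtain ⟨r₀, hr₀, hcnt⟩ := count_of_gdat H hH D
  refine ⟨r₀, hr₀, fun ε hε => ?_⟩
  have h1 := hcnt ε hε
  rw [hsl] at h1
  let χ : P → (Fin k → ℂ) := fun y => e (y - p₀, 0)
  have hχ : Tendsto χ (𝓝 p₀) (𝓝 0) := by
    have hc : Continuous χ := by
      have : Continuous (fun y : P => (y - p₀, (0 : ℂ))) := by fun_prop
      exact e.continuous.comp this
    have h2 := hc.tendsto p₀
    have h3 : χ p₀ = 0 := by
      simp only [χ, sub_self]
      exact map_zero e
    rwa [h3] at h2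
  filter_upwards [hχ.eventually h1] with y hy
  have hφχ : φ (χ y) = y := by simp [φ, χ]
  have hZ : ZZ H r₀ (χ y) = ZP G r₀ y := by
    ext x
    simp only [ZZ, ZP, H, ψ, hφχ]
  have hfd : ∀ j, (fun x => H j (x, χ y)) = fun x => G j (x, y) := by
    intro j; ext x
    simp only [H, ψ, hφχ]
  have g1 := hy.fin
  have g2 := hy.small
  have g3 := hy.le
  have g4 := hy.eq
  simp only [hZ, hfd] at g1 g2 g3 g4
  exact ⟨g1, g2, g3, g4⟩

end Crest.Agent.R257.Lift_812
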