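import Crest.Agent.R257.Cnt1_812
import Crest.Agent.R257.Lift2_812

/-!
Row 257 (S0395), leaf CntStmt (helper812), part 2: conservation of number for the determinantal
ideals `(f_p, ∇f_p × ∇h_p)` (any parameter space).
-/

set_option autoImplicit false
set_option linter.unusedSectionVars false

open Set Filter Topology Metric Complex
open Crest.AlgGeometry.Germ
open Crest.Agent.R275.Loc2879 hiding AA
open Crest.Agent.R257.UI939 Crest.Agent.R257.Defs_219 Crest.Agent.R257.Num488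
open Crest.Agent.R257.Gen_812

noncomputable section

namespace Crest.Agent.R257.Det_812

open Crest.Agent.R257.Syz_846 Crest.Agent.R257.Lift_812
open Crest.Agent.R257.Uni554 (On Bn rr ll rr_ll)

variable {P : Type} [NormedAddCommGroup P] [NormedSpace ℂ P]

lemma cd_slice {Φ : E3 × P → ℂ} {x : E3} {τ : P} (h : DifferentiableAt ℂ Φ (x, τ)) (i : Fin 3) :
    coordDeriv (fun x => Φ (x, τ)) i x = fderiv ℂ Φ (x, τ) (Pi.single i 1, 0) := by
  have h1 : HasFDerivAt (fun x : E3 => (x, τ)) (ContinuousLinearMap.inl ℂ E3 P) x :=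
    hasFDerivAt_prodMk_left x τ
  have h2 : HasFDerivAt (fun x => Φ (x, τ)) ((fderiv ℂ Φ (x, τ)).comp
      (ContinuousLinearMap.inl ℂ E3 P)) x := h.hasFDerivAt.comp x h1
  rw [coordDeriv, h2.fderiv]
  rfl

lemma an_cd {Φ : E3 × P → ℂ} {p₀ : P} (h : AnalyticAt ℂ Φ (0, p₀)) (i : Fin 3) :
    AnalyticAt ℂ (fun q : E3 × P => coordDeriv (fun x => Φ (x, q.2)) i q.1) (0, p₀) := by
  have h1 : AnalyticAt ℂ (fderiv ℂ Φ) (0, p₀) := h.fderiv
  have h2 : AnalyticAt ℂ (fun q : E3 × P => fderiv ℂ Φ q (Pi.single i 1, 0)) (0, p₀) :=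
    ((ContinuousLinearMap.apply ℂ ℂ ((Pi.single i (1 : ℂ), (0 : P)) : E3 × P)).analyticAt _).comp h1
  refine h2.congr ?_
  filter_upwards [h.eventually_analyticAt] with q hq
  exact (cd_slice hq.differentiableAt i).symm

/-- the family of minors -/
def Gf (Φ Ψ : E3 × P → ℂ) (j : Fin 4) (q : E3 × P) : ℂ :=
  mnr (fun x => Φ (x, q.2)) (fun x => Ψ (x, q.2)) j q.1

lemma an_Gf {Φ Ψ : E3 × P → ℂ} {p₀ : P} (h : AnalyticAt ℂ Φ (0, p₀)) (h' : AnalyticAt ℂ Ψ (0, p₀))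
    (j : Fin 4) : AnalyticAt ℂ (Gf Φ Ψ j) (0, p₀) := by
  have e1 := an_cd h
  have e2 := an_cd h'
  fin_cases j
  · exact h
  · exact ((e1 1).mul (e2 2)).sub ((e1 2).mul (e2 1))
  · exact ((e1 2).mul (e2 0)).sub ((e1 0).mul (e2 2))
  · exact ((e1 0).mul (e2 1)).sub ((e1 1).mul (e2 0))

/-- **the syzygies lift** -/
theorem lift_Gf {Φ Ψ : E3 × P → ℂ} {p₀ : P} (h : AnalyticAt ℂ Φ (0, p₀))
    (h' : AnalyticAt ℂ Ψ (0, p₀)) (h0 : Φ (0, p₀) = 0)
    (hcrit : ∀ i, coordDeriv (fun x => Φ (x, p₀)) i 0 = 0)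
    (hfin : ColFin (mnr (fun x => Φ (x, p₀)) (fun x => Ψ (x, p₀)))) (v : P)
    (hA : ∀ j, AnalyticAt ℂ (fun q : E3 × ℂ => Gf Φ Ψ j (q.1, p₀ + q.2 • v)) (0, 0)) :
    LftL fun j => (gm _ (hA j) : Bn 3) := by
  have hline : ∀ {K : E3 × P → ℂ}, AnalyticAt ℂ K (0, p₀) →
      AnalyticAt ℂ (fun q : E3 × ℂ => K (q.1, p₀ + q.2 • v)) ((0 : E3), (0 : ℂ)) := by
    intro K hK
    refine AnalyticAt.comp (g := K) (f := fun q : E3 × ℂ => (q.1, p₀ + q.2 • v)) ?_ ?_
    · simpa using hK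
    · exact analyticAt_fst.prod (analyticAt_const.add (analyticAt_snd.smul analyticAt_const))
  set F1 : Fin 3 → Bn 3 := fun i => gm _ (hline (an_cd h i)) with hF1
  set H1 : Fin 3 → Bn 3 := fun i => gm _ (hline (an_cd h' i)) with hH1
  set f1 : Bn 3 := gm _ (hline h) with hf1
  have g0 : (gm _ (hA 0) : Bn 3) = f1 := rfl
  have gs : ∀ i : Fin 3, (gm _ (hA i.succ) : Bn 3) = M F1 H1 i := by
    intro i
    fin_cases i
    · rfl
    · rfl
    · rfl
  intro b hb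
  rw [Fin.sum_univ_succ] at hb
  simp only [g0, gs] at hb
  have hfa : AnalyticAt ℂ (fun x => Φ (x, p₀)) (0 : E3) :=
    AnalyticAt.comp (g := Φ) (f := fun x => (x, p₀)) h (analyticAt_id.prod analyticAt_const)
  have hha : AnalyticAt ℂ (fun x => Ψ (x, p₀)) (0 : E3) :=
    AnalyticAt.comp (g := Ψ) (f := fun x => (x, p₀)) h' (analyticAt_id.prod analyticAt_const)
  set F : Fin 3 → BB 3 := fun i => gm _ (an_gr hfa i) with hF
  set H : Fin 3 → BB 3 := fun i => gm _ (an_gr hha i) with hH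
  set f : BB 3 := gm _ hfa with hf
  have rF : ∀ i, rr 3 (F1 i) = F i := by
    intro i
    rw [hF1, hF, rr, pull_gm, gm_eq_gm]
    refine Eventually.of_forall fun x => ?_
    simp only [Function.comp, zero_smul, add_zero]
    rfl
  have rH : ∀ i, rr 3 (H1 i) = H i := by
    intro i
    rw [hH1, hH, rr, pull_gm, gm_eq_gm]
    refine Eventually.of_forall fun x => ?_
    simp only [Function.comp, zero_smul, add_zero]
    rfl
  have rf : rr 3 f1 = f := by
    rw [hf1, hf, rr, pull_gm, gm_eq_gm]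
    refine Eventually.of_forall fun x => ?_
    simp only [Function.comp, zero_smul, add_zero]
  have rM : ∀ i, rr 3 (M F1 H1 i) = M F H i := by
    intro i
    fin_cases i
    · show rr 3 (F1 1 * H1 2 - F1 2 * H1 1) = F 1 * H 2 - F 2 * H 1
      simp only [map_sub, map_mul, rF, rH]
    · show rr 3 (F1 2 * H1 0 - F1 0 * H1 2) = F 2 * H 0 - F 0 * H 2
      simp only [map_sub, map_mul, rF, rH]
    · show rr 3 (F1 0 * H1 1 - F1 1 * H1 0) = F 0 * H 1 - F 1 * H 0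
      simp only [map_sub, map_mul, rF, rH]
  rw [rf] at hb
  simp only [rM] at hb
  have hfu : ¬ IsUnit f := by
    rw [hf, isUnit_gm]; simpa using h0
  have hF00 : ∀ i, evp (0 : E3) (F i) = 0 := fun i => hcrit i
  have hMu : ∀ i, ¬ IsUnit (M F H i) := by
    intro i
    rw [Crest.Agent.R275.Loc2879.isUnit_iff, not_not]
    fin_cases i
    · show evp (0 : E3) (F 1 * H 2 - F 2 * H 1) = 0
      rw [map_sub, map_mul, map_mul, hF00, hF00]; ring
    · show evp (0 : E3) (F 2 * H 0 - F 0 * H 2) = 0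
      rw [map_sub, map_mul, map_mul, hF00, hF00]; ring
    · show evp (0 : E3) (F 0 * H 1 - F 1 * H 0) = 0
      rw [map_sub, map_mul, map_mul, hF00, hF00]; ring
  have hdl : dl (BB 3 ⧸ IM f F H) ≠ ⊤ := by
    have h1 := (colFin_iff_dl (fun i => an_mnr hfa hha i)).1 hfin
    have h2 : Ideal.span (Set.range fun j => (gm (mnr (fun x => Φ (x, p₀)) (fun x => Ψ (x, p₀)) j)
        (an_mnr hfa hha j) : BB 3)) = IM f F H := by
      rw [IM, ← Ideal.span_union]
      congr 1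
      ext z
      constructor
      · rintro ⟨j, rfl⟩
        fin_cases j
        · exact Or.inl rfl
        · exact Or.inr ⟨0, rfl⟩
        · exact Or.inr ⟨1, rfl⟩
        · exact Or.inr ⟨2, rfl⟩
      · rintro (hz | ⟨i, rfl⟩)
        · rw [Set.mem_singleton_iff] at hz
          exact ⟨0, hz.symm⟩
        · fin_cases i
          · exact ⟨1, rfl⟩
          · exact ⟨2, rfl⟩
          · exact ⟨3, rfl⟩
    rwa [h2] at h1
  have hf0 : f ≠ 0 := by
    intro hz
    obtain ⟨i, hi⟩ := exists_M_ne hfu hdl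
    apply hi
    rw [hf, gm_eq_zero] at hz
    have hFz : ∀ i, F i = 0 := by
      intro i
      rw [hF, gm_eq_zero]
      filter_upwards [hz.eventually_nhds] with x hx
      show fderiv ℂ (fun x => Φ (x, p₀)) x (Pi.single i 1) = 0
      rw [Filter.EventuallyEq.fderiv_eq (f₁ := fun x => Φ (x, p₀)) (f := fun _ => 0) hx]
      simp
    fin_cases i
    · show F 1 * H 2 - F 2 * H 1 = 0
      rw [hFz, hFz]; ring
    · show F 2 * H 0 - F 0 * H 2 = 0
      rw [hFz, hFz]; ring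
    · show F 0 * H 1 - F 1 * H 0 = 0
      rw [hFz, hFz]; ring
  obtain ⟨c, p, q, hb0, hbs⟩ := syz_M hfu hf0 hMu hdl (b 0) (fun i => b i.succ) hb
  refine ⟨Fin.cons (∑ i, ll 3 (c i) * M F1 H1 i)
    (fun i => -(ll 3 (c i) * f1) + ll 3 p * F1 i + ll 3 q * H1 i), ?_, ?_⟩
  · intro j
    refine Fin.cases ?_ (fun i => ?_) j
    · rw [Fin.cons_zero, map_sum, hb0]
      exact Finset.sum_congr rfl fun i _ => by rw [map_mul, rr_ll, rM]
    · rw [Fin.cons_succ]
      simp only [map_add, map_neg, map_mul, rr_ll, rf, rF, rH]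
      exact (hbs i).symm
  · rw [Fin.sum_univ_succ]
    simp only [Fin.cons_zero, Fin.cons_succ, g0, gs]
    have e1 := dot_F F1 H1
    have e2 := dot_H F1 H1
    have e3 : ∑ i, (-(ll 3 (c i) * f1) + ll 3 p * F1 i + ll 3 q * H1 i) * M F1 H1 i =
        -(∑ i, ll 3 (c i) * M F1 H1 i) * f1 + ll 3 p * ∑ i, F1 i * M F1 H1 i +
          ll 3 q * ∑ i, H1 i * M F1 H1 i := by
      rw [Finset.mul_sum, Finset.mul_sum, neg_mul, Finset.sum_mul, ← Finset.sum_neg_distrib,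
        ← Finset.sum_add_distrib, ← Finset.sum_add_distrib]
      exact Finset.sum_congr rfl fun i _ => by ring
    rw [e3, e1, e2]
    ring

/-- **conservation of number** for `(f_p, ∇f_p × ∇h_p)` -/
theorem count_mnr [FiniteDimensional ℂ P] {Φ Ψ : E3 × P → ℂ} {p₀ : P}
    (h : AnalyticAt ℂ Φ (0, p₀)) (h' : AnalyticAt ℂ Ψ (0, p₀)) (h0 : Φ (0, p₀) = 0)
    (hcrit : ∀ i, coordDeriv (fun x => Φ (x, p₀)) i 0 = 0)
    (hfin : ColFin (mnr (fun x => Φ (x, p₀)) (fun x => Ψ (x, p₀)))) :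
    ∃ r₀ : ℝ, 0 < r₀ ∧ ∀ ε : ℝ, 0 < ε → ∀ᶠ y in 𝓝 p₀,
      Cnm7_889.CntP (Gf Φ Ψ) r₀ (col (mnr (fun x => Φ (x, p₀)) (fun x => Ψ (x, p₀)))) ε y :=
  count_lift p₀ (Gf Φ Ψ) (an_Gf h h') hfin fun v hA => lift_Gf h h' h0 hcrit hfin v hA

end Crest.Agent.R257.Det_812
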