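import Crest.Agent.R257.UI5_939

/-!
Row 257 (S0395), leaf COR (helper788), part 1: families of ideals of constant colength.
`basis` : common basis of the quotients, `memU` : membership for frequently many `t → 0`
implies membership with coefficients analytic at `(0,0)`.
-/

set_option autoImplicit false
set_option linter.unusedSectionVars false

open Set Filter Topology Metric Complex
open Crest.Agent.R275.Loc2879 hiding AA
open Crest.Agent.R257.UI939

noncomputable section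

namespace Crest.Agent.R257.Cor1_788

universe u v w

variable {n : ℕ} {κ : Type*} [Fintype κ]

lemma slice_an {f : (Fin n → ℂ) × ℂ → ℂ} {t : ℂ} (hf : AnalyticAt ℂ f (0, t)) :
    AnalyticAt ℂ (fun x => f (x, t)) (0 : Fin n → ℂ) :=
  AnalyticAt.comp (g := f) (f := fun x : Fin n → ℂ => (x, t)) hf
      (analyticAt_id.prod analyticAt_const)

lemma tendsto_axis : Tendsto (fun t : ℂ => ((0, t) : (Fin n → ℂ) × ℂ)) (𝓝 0) (𝓝 0) := by
  have : Continuous (fun t : ℂ => ((0, t) : (Fin n → ℂ) × ℂ)) := by fun_prop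
  exact this.tendsto' _ _ rfl

lemma tendsto_slice (t : ℂ) :
    Tendsto (fun x : Fin n → ℂ => ((x, t) : (Fin n → ℂ) × ℂ)) (𝓝 0) (𝓝 (0, t)) := by
  have : Continuous (fun x : Fin n → ℂ => ((x, t) : (Fin n → ℂ) × ℂ)) := by fun_prop
  exact this.tendsto' _ _ rfl

set_option maxHeartbeats 4000000 in
set_option synthInstance.maxHeartbeats 200000 in
/-- common basis of the quotients in a family of constant finite colength -/
theorem basis (G : κ → (Fin n → ℂ) × ℂ → ℂ) (hG : ∀ j, AnalyticAt ℂ (G j) 0) (μ : ℕ)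
    (hdim : ∀ᶠ t in 𝓝 (0 : ℂ),
      Module.Finite ℂ (BB n ⧸ Idl (0 : Fin n → ℂ) (fun j x => G j (x, t))) ∧
      dimQ (0 : Fin n → ℂ) (fun j x => G j (x, t)) = μ) :
    ∃ Ef : Fin μ → (Fin n → ℂ) → ℂ, (∀ i, AnalyticAt ℂ (Ef i) 0) ∧
      (∀ H : (Fin n → ℂ) × ℂ → ℂ, AnalyticAt ℂ H 0 →
        ∃ (c : Fin μ → ℂ → ℂ) (b : κ → (Fin n → ℂ) × ℂ → ℂ),
        (∀ i, AnalyticAt ℂ (c i) 0) ∧ (∀ j, AnalyticAt ℂ (b j) 0) ∧
        ∀ᶠ p in 𝓝 (0 : (Fin n → ℂ) × ℂ),
          H p = ∑ i, c i p.2 * Ef i p.1 + ∑ j, b j p * G j p) ∧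
      ∀ᶠ t in 𝓝 (0 : ℂ), ∀ c : Fin μ → ℂ,
        (gz (fun x => ∑ i, c i * Ef i x) : BB n) ∈
          Idl (0 : Fin n → ℂ) (fun j x => G j (x, t)) → ∀ i, c i = 0 := by
  classical
  -- Step (a): the slice t = 0
  obtain ⟨hf0, hd0⟩ := hdim.self_of_nhds
  set I0 : Ideal (BB n) := Idl (0 : Fin n → ℂ) (fun j x => G j (x, 0)) with hI0
  have hd0' : Module.finrank ℂ (BB n ⧸ I0) = μ := hd0
  have hfree : Module.Free ℂ (BB n ⧸ I0) := Module.Free.of_divisionRing _ _
  let bas : Module.Basis (Fin μ) ℂ (BB n ⧸ I0) := Module.finBasisOfFinrankEq _ _ hd0'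
  choose e he using fun i => Ideal.Quotient.mk_surjective (I := I0) (bas i)
  choose Ef hEf hEe using fun i => exists_gm (e i)
  -- the big ideal
  set I : Ideal (AA n) := Ideal.span (Set.range fun j => gm (G j) (hG j)) with hI
  have hGI : ∀ j, gm (G j) (hG j) ∈ I := fun j => Ideal.subset_span ⟨j, rfl⟩
  have hres : ∀ j, res0 n (gm (G j) (hG j)) = gm (fun x => G j (x, 0)) (slice_an (hG j)) :=
    fun j => rfl
  -- elements of I0 come from I modulo T
  have hI0I : ∀ a ∈ I0, ∃ a1 : AA n, emb n a + Tv n * a1 ∈ I := by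
    intro a ha
    rw [hI0, mem_Idl (fun j => slice_an (hG j))] at ha
    obtain ⟨c, hc⟩ := ha
    choose H hH using fun j => split_T' (gm (G j) (hG j))
    refine ⟨∑ j, emb n (c j) * H j, ?_⟩
    have : emb n a + Tv n * ∑ j, emb n (c j) * H j = ∑ j, emb n (c j) * gm (G j) (hG j) := by
      rw [hc, map_sum, Finset.mul_sum, ← Finset.sum_add_distrib]
      refine Finset.sum_congr rfl (fun j _ => ?_)
      conv_rhs => rw [hH j, hres j]
      rw [map_mul]
      ring
    rw [this]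
    exact Ideal.sum_mem _ fun j _ => Ideal.mul_mem_left _ _ (hGI j)
  -- monomials of degree μ at t = 0
  have hJ0 : JJ (xB (n := n)) μ ≤ I0 := by
    have := JJ_le_of_finrank (xB (n := n)) xB_not_unit I0
    rwa [hd0'] at this
  -- Step (b): finiteness
  have hfin1 : FG (RingHom.id (AA n)) (AA n ⧸ I) := by
    refine ⟨1, fun _ => 1, fun m => ?_⟩
    obtain ⟨a, rfl⟩ := Ideal.Quotient.mk_surjective m
    refine ⟨fun _ => a, ?_⟩
    simp only [RingHom.id_apply, Finset.univ_unique, Finset.sum_singleton]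
    rw [← map_one (Ideal.Quotient.mk I)]
    change _ = Ideal.Quotient.mk I (a • (1 : AA n))
    rw [smul_eq_mul, mul_one]
  have hfin2 : FG (par n) (AA n ⧸ I) := by
    refine fin_all hfin1 (fun i => ⟨μ, fun m => ?_⟩)
    obtain ⟨a, rfl⟩ := Ideal.Quotient.mk_surjective m
    have h1 : xB i ^ μ ∈ I0 := by
      refine hJ0 (Ideal.subset_span ⟨Pi.single i μ, by simp, ?_⟩)
      unfold mon
      rw [Finset.prod_eq_single i]
      · simp
      · intro j _ hj
        simp [Pi.single_eq_of_ne hj]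
      · intro h; exact absurd (Finset.mem_univ _) h
    obtain ⟨a1, ha1⟩ := hI0I _ h1
    rw [map_pow, emb_xB] at ha1
    refine ⟨Ideal.Quotient.mk I (-(a1 * a)), ?_⟩
    change Ideal.Quotient.mk I (Xv i ^ μ • a) = Ideal.Quotient.mk I (Tv n • (-(a1 * a)))
    rw [Ideal.Quotient.eq, smul_eq_mul, smul_eq_mul]
    have : Xv i ^ μ * a - Tv n * (-(a1 * a)) = a * (Xv i ^ μ + Tv n * a1) := by ring
    rw [this]
    exact Ideal.mul_mem_left _ _ ha1
  have hgen : ∀ a : AA n, ∃ c : Fin μ → OO (0 : ℂ),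
      a - ∑ i, par n (c i) * emb n (e i) ∈ I := by
    have := nak hfin2 (fun i => Ideal.Quotient.mk I (emb n (e i))) ?_
    · intro a
      obtain ⟨c, hc⟩ := this (Ideal.Quotient.mk I a)
      refine ⟨c, ?_⟩
      rw [← Ideal.Quotient.eq, hc, map_sum]
      rfl
    · intro m
      obtain ⟨a, rfl⟩ := Ideal.Quotient.mk_surjective m
      obtain ⟨a0, a1, rfl⟩ := split_T a
      -- expand a0 in the basis
      have h1 : a0 - ∑ i, algebraMap ℂ (BB n) (bas.repr (Ideal.Quotient.mk I0 a0) i) * e i ∈ I0 := by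
        rw [← Ideal.Quotient.eq, map_sum]
        conv_lhs => rw [← bas.sum_repr (Ideal.Quotient.mk I0 a0)]
        refine Finset.sum_congr rfl (fun i _ => ?_)
        rw [map_mul, he i, Algebra.smul_def]
        rfl
      obtain ⟨a2, ha2⟩ := hI0I _ h1
      refine ⟨fun i => bas.repr (Ideal.Quotient.mk I0 a0) i, Ideal.Quotient.mk I (a1 - a2), ?_⟩
      have e1 : ∑ i, algebraMap ℂ (AA n) (bas.repr (Ideal.Quotient.mk I0 a0) i) •
          Ideal.Quotient.mk I (emb n (e i)) + Tv n • Ideal.Quotient.mk I (a1 - a2) =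
          Ideal.Quotient.mk I (∑ i, algebraMap ℂ (AA n) (bas.repr (Ideal.Quotient.mk I0 a0) i) *
          emb n (e i) + Tv n * (a1 - a2)) := by
        rw [map_add, map_sum]
        rfl
      rw [e1, Ideal.Quotient.eq]
      rw [map_sub, map_sum] at ha2
      simp only [map_mul, emb_algebraMap] at ha2
      have e2 : emb n a0 + Tv n * a1 - (∑ i, algebraMap ℂ (AA n)
          (bas.repr (Ideal.Quotient.mk I0 a0) i) * emb n (e i) + Tv n * (a1 - a2)) =
          emb n a0 - ∑ i, algebraMap ℂ (AA n) (bas.repr (Ideal.Quotient.mk I0 a0) i) *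
            emb n (e i) + Tv n * a2 := by ring
      rw [e2]
      exact ha2
  -- Step (c): functions
  have hfun : ∀ H : (Fin n → ℂ) × ℂ → ℂ, AnalyticAt ℂ H 0 →
      ∃ (c : Fin μ → ℂ → ℂ) (b : κ → (Fin n → ℂ) × ℂ → ℂ),
      (∀ i, AnalyticAt ℂ (c i) 0) ∧ (∀ j, AnalyticAt ℂ (b j) 0) ∧
      ∀ᶠ p in 𝓝 (0 : (Fin n → ℂ) × ℂ),
        H p = ∑ i, c i p.2 * Ef i p.1 + ∑ j, b j p * G j p := by
    intro H hH
    obtain ⟨c, hc⟩ := hgen (gm H hH)
    rw [hI, Ideal.mem_span_range_iff_exists_fun] at hc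
    obtain ⟨b, hb⟩ := hc
    choose cf hcf hce using fun i => exists_gm (c i)
    choose bf hbf hbe using fun j => exists_gm (b j)
    obtain rfl : (fun i => gm (cf i) (hcf i)) = c := funext hce
    obtain rfl : (fun j => gm (bf j) (hbf j)) = b := funext hbe
    obtain rfl : (fun i => gm (Ef i) (hEf i)) = e := funext hEe
    refine ⟨cf, bf, hcf, hbf, ?_⟩
    obtain ⟨h1, e1⟩ := exists_sum_gm' Finset.univ bf G hbf hG
    obtain ⟨h2, e2⟩ := exists_sum_gm' Finset.univ (fun i (p : (Fin n → ℂ) × ℂ) => cf i p.2)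
      (fun i (p : (Fin n → ℂ) × ℂ) => Ef i p.1) (p := 0)
      (fun i => AnalyticAt.comp (g := cf i) (f := Prod.snd) (hcf i) analyticAt_snd)
      (fun i => AnalyticAt.comp (g := Ef i) (f := Prod.fst) (hEf i) analyticAt_fst)
    have e4 : (gm H hH : AA n) = ∑ i, par n (gm (cf i) (hcf i)) * emb n (gm (Ef i) (hEf i)) +
        ∑ j, gm (bf j) (hbf j) * gm (G j) (hG j) := by
      rw [hb]; ring
    have e6 : ∑ i, par n (gm (cf i) (hcf i)) * emb n (gm (Ef i) (hEf i)) =
        gm (fun x => ∑ i, cf i x.2 * Ef i x.1) h2 := e2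
    rw [e6, e1, gm_add, gm_eq_gm] at e4
    exact e4
  refine ⟨Ef, hEf, hfun, ?_⟩
  -- the monomials
  have hfunm : ∀ β : Fin n → ℕ, ∃ (c : Fin μ → ℂ → ℂ) (b : κ → (Fin n → ℂ) × ℂ → ℂ),
      (∀ i, AnalyticAt ℂ (c i) 0) ∧ (∀ j, AnalyticAt ℂ (b j) 0) ∧
      ∀ᶠ p in 𝓝 (0 : (Fin n → ℂ) × ℂ),
        ∏ i, p.1 i ^ β i = ∑ i, c i p.2 * Ef i p.1 + ∑ j, b j p * G j p := by
    intro β
    refine hfun (fun p => ∏ i, p.1 i ^ β i) ?_
    exact Finset.analyticAt_fun_prod _ (fun i _ => (an_x i 0).pow _)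
  choose c b hc hb hid using hfunm
  -- finitely many β
  have hfinset : {β : Fin n → ℕ | ∑ i, β i ≤ μ}.Finite := by
    refine (Set.Finite.subset (Set.finite_Iic (fun _ : Fin n => μ)) ?_)
    intro β hβ
    rw [Set.mem_Iic]
    intro i
    exact (Finset.single_le_sum (fun j _ => Nat.zero_le (β j)) (Finset.mem_univ i)).trans hβ
  have hall : ∀ᶠ t in 𝓝 (0 : ℂ), ∀ β ∈ {β : Fin n → ℕ | ∑ i, β i ≤ μ},
      (∀ j, AnalyticAt ℂ (b β j) (0, t)) ∧ ∀ᶠ p in 𝓝 ((0, t) : (Fin n → ℂ) × ℂ),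
        ∏ i, p.1 i ^ β i = ∑ i, c β i p.2 * Ef i p.1 + ∑ j, b β j p * G j p := by
    rw [Filter.eventually_all_finite hfinset]
    intro β _
    refine tendsto_axis.eventually
      ((Filter.eventually_all.2 fun j => (hb β j).eventually_analyticAt).and
      (eventually_eventually_nhds.2 (hid β)))
  have hGt : ∀ᶠ t in 𝓝 (0 : ℂ), ∀ j, AnalyticAt ℂ (G j) (0, t) :=
    tendsto_axis.eventually (Filter.eventually_all.2 fun j => (hG j).eventually_analyticAt)
  filter_upwards [hdim, hall, hGt] with t ht hallt hGtt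
  obtain ⟨hft, hdt⟩ := ht
  set It : Ideal (BB n) := Idl (0 : Fin n → ℂ) (fun j x => G j (x, t)) with hIt
  have hdt' : Module.finrank ℂ (BB n ⧸ It) = μ := hdt
  have hJt : JJ (xB (n := n)) μ ≤ It := by
    have := JJ_le_of_finrank (xB (n := n)) xB_not_unit It
    rwa [hdt'] at this
  let πt : BB n →ₗ[ℂ] (BB n ⧸ It) := (Ideal.Quotient.mkₐ ℂ It).toLinearMap
  have hrel : ∀ β : Fin n → ℕ, ∑ i, β i ≤ μ → πt (mon xB β) = ∑ i, c β i t • πt (e i) := by
    intro β hβ
    obtain ⟨h1, h2⟩ := hallt β hβ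
    have h4 := (tendsto_slice t).eventually h2
    obtain ⟨h5, e5⟩ := exists_sum_gm' (p := (0 : Fin n → ℂ)) Finset.univ
      (fun j x => b β j (x, t)) (fun j x => G j (x, t)) (fun j => slice_an (h1 j))
      (fun j => slice_an (hGtt j))
    obtain ⟨h6, e6⟩ := exists_sum_gm' (p := (0 : Fin n → ℂ)) Finset.univ
      (fun i _ => c β i t) Ef (fun i => analyticAt_const) hEf
    obtain ⟨h7, e7⟩ := gm_mon (p := (0 : Fin n → ℂ)) (fun i x => x i) (fun i => an_coord i 0) β
    have e8 : (mon xB β : BB n) = ∑ i, algebraMap ℂ (BB n) (c β i t) * gm (Ef i) (hEf i) +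
        ∑ j, gm (fun x => b β j (x, t)) (slice_an (h1 j)) *
          gm (fun x => G j (x, t)) (slice_an (hGtt j)) := by
      have e9 : ∑ i, algebraMap ℂ (BB n) (c β i t) * gm (Ef i) (hEf i) =
        gm (fun x => ∑ i, c β i t * Ef i x) h6 := e6
      rw [e5, e9]
      refine (show (mon xB β : BB n) = gm (fun x => ∏ i, x i ^ β i) h7 from e7).trans ?_
      rw [gm_add, gm_eq_gm]
      filter_upwards [h4] with x hx
      exact hx
    obtain rfl : (fun i => gm (Ef i) (hEf i)) = e := funext hEe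
    rw [e8, map_add, map_sum]
    have e10 : πt (∑ j, gm (fun x => b β j (x, t)) (slice_an (h1 j)) *
          gm (fun x => G j (x, t)) (slice_an (hGtt j))) = 0 := by
      refine (Ideal.Quotient.eq_zero_iff_mem (I := It)).2 ?_
      rw [hIt, mem_Idl (fun j => slice_an (hGtt j))]
      exact ⟨_, rfl⟩
    rw [e10, add_zero]
    refine Finset.sum_congr rfl (fun i _ => ?_)
    rw [← Algebra.smul_def, map_smul]
  -- e_i span
  have hspan : ⊤ ≤ Submodule.span ℂ (Set.range fun i => πt (e i)) := by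
    intro q hq
    clear hq
    obtain ⟨a, rfl⟩ := Ideal.Quotient.mk_surjective q
    change πt a ∈ _
    obtain ⟨v, hv, w, hw, rfl⟩ := Submodule.mem_sup.1 (mem_VV_sup (xB (n := n)) hadamard μ a)
    have hw0 : πt w = 0 := (Ideal.Quotient.eq_zero_iff_mem (I := It)).2 (hJt hw)
    rw [map_add, hw0, add_zero]
    clear hw hw0
    unfold VV at hv
    induction hv using Submodule.span_induction with
    | mem z hz =>
      obtain ⟨β, h1, rfl⟩ := hz
      rw [hrel β h1.le]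
      exact Submodule.sum_mem _ fun i _ =>
        Submodule.smul_mem _ _ (Submodule.subset_span ⟨i, rfl⟩)
    | zero => rw [map_zero]; exact Submodule.zero_mem _
    | add y z _ _ h1 h2 => rw [map_add]; exact Submodule.add_mem _ h1 h2
    | smul s z _ hz => rw [map_smul]; exact Submodule.smul_mem _ _ hz
  have hli : LinearIndependent ℂ (fun i => πt (e i)) := by
    refine linearIndependent_of_top_le_span_of_card_eq_finrank hspan ?_
    rw [hdt']; simp
  intro c hc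
  have han : AnalyticAt ℂ (fun x => ∑ i, c i * Ef i x) (0 : Fin n → ℂ) := by
    obtain ⟨h, _⟩ := exists_sum_gm' (p := (0 : Fin n → ℂ)) Finset.univ
      (fun i _ => c i) Ef (fun i => analyticAt_const) hEf
    exact h
  rw [gz_eq han] at hc
  have h1 : πt (gm (fun x => ∑ i, c i * Ef i x) han) = 0 :=
    (Ideal.Quotient.eq_zero_iff_mem (I := It)).2 hc
  have h2 : (gm (fun x => ∑ i, c i * Ef i x) han : BB n) =
      ∑ i, algebraMap ℂ (BB n) (c i) * gm (Ef i) (hEf i) := by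
    obtain ⟨h6, e6⟩ := exists_sum_gm' (p := (0 : Fin n → ℂ)) Finset.univ
      (fun i _ => c i) Ef (fun i => analyticAt_const) hEf
    exact e6.symm
  obtain rfl : (fun i => gm (Ef i) (hEf i)) = e := funext hEe
  rw [h2, map_sum] at h1
  have h3 : ∑ i, c i • πt (gm (Ef i) (hEf i)) = 0 := by
    rw [← h1]
    refine Finset.sum_congr rfl (fun i _ => ?_)
    rw [← Algebra.smul_def, map_smul]
  exact (Fintype.linearIndependent_iff.1 hli) _ h3

/-- **membership at generic `t`**: coefficients analytic at `(0,0)` -/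
theorem memU (G : κ → (Fin n → ℂ) × ℂ → ℂ) (hG : ∀ j, AnalyticAt ℂ (G j) 0) (μ : ℕ)
    (hdim : ∀ᶠ t in 𝓝 (0 : ℂ),
      Module.Finite ℂ (BB n ⧸ Idl (0 : Fin n → ℂ) (fun j x => G j (x, t))) ∧
      dimQ (0 : Fin n → ℂ) (fun j x => G j (x, t)) = μ)
    (H : (Fin n → ℂ) × ℂ → ℂ) (hH : AnalyticAt ℂ H 0)
    (hmem : ∃ᶠ t in 𝓝[≠] (0 : ℂ),
      (gz (fun x => H (x, t)) : BB n) ∈ Idl (0 : Fin n → ℂ) (fun j x => G j (x, t))) :
    ∃ a : κ → (Fin n → ℂ) × ℂ → ℂ, (∀ j, AnalyticAt ℂ (a j) 0) ∧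
      ∀ᶠ p in 𝓝 (0 : (Fin n → ℂ) × ℂ), H p = ∑ j, a j p * G j p := by
  classical
  obtain ⟨Ef, hEf, hfun, hli⟩ := basis G hG μ hdim
  obtain ⟨c, b, hc, hb, hid⟩ := hfun H hH
  refine ⟨b, hb, ?_⟩
  have hGt : ∀ᶠ t in 𝓝 (0 : ℂ), ∀ j, AnalyticAt ℂ (G j) (0, t) :=
    tendsto_axis.eventually (Filter.eventually_all.2 fun j => (hG j).eventually_analyticAt)
  have hbt : ∀ᶠ t in 𝓝 (0 : ℂ), ∀ j, AnalyticAt ℂ (b j) (0, t) :=
    tendsto_axis.eventually (Filter.eventually_all.2 fun j => (hb j).eventually_analyticAt)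
  have hHt : ∀ᶠ t in 𝓝 (0 : ℂ), AnalyticAt ℂ H (0, t) :=
    tendsto_axis.eventually hH.eventually_analyticAt
  have hidt : ∀ᶠ t in 𝓝 (0 : ℂ), ∀ᶠ p in 𝓝 ((0, t) : (Fin n → ℂ) × ℂ),
      H p = ∑ i, c i p.2 * Ef i p.1 + ∑ j, b j p * G j p :=
    tendsto_axis.eventually (eventually_eventually_nhds.2 hid)
  have hev : ∀ᶠ t in 𝓝 (0 : ℂ), (gz (fun x => H (x, t)) : BB n) ∈
      Idl (0 : Fin n → ℂ) (fun j x => G j (x, t)) → ∀ i, c i t = 0 := by
    filter_upwards [hli, hGt, hbt, hHt, hidt] with t hlit hGtt hbtt hHtt hidtt hmt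
    refine hlit (fun i => c i t) ?_
    have h4 := (tendsto_slice t).eventually hidtt
    obtain ⟨h5, e5⟩ := exists_sum_gm' (p := (0 : Fin n → ℂ)) Finset.univ
      (fun j x => b j (x, t)) (fun j x => G j (x, t)) (fun j => slice_an (hbtt j))
      (fun j => slice_an (hGtt j))
    obtain ⟨h6, e6⟩ := exists_sum_gm' (p := (0 : Fin n → ℂ)) Finset.univ
      (fun i _ => c i t) Ef (fun i => analyticAt_const) hEf
    have h7 : (gz (fun x => ∑ i, c i t * Ef i x) : BB n) =
        gm (fun x => H (x, t)) (slice_an hHtt) - ∑ j, gm (fun x => b j (x, t))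
          (slice_an (hbtt j)) * gm (fun x => G j (x, t)) (slice_an (hGtt j)) := by
      rw [gz_eq h6, e5, eq_sub_iff_add_eq, gm_add, gm_eq_gm]
      filter_upwards [h4] with x hx
      exact hx.symm
    rw [h7, ← gz_eq (slice_an hHtt)]
    refine Ideal.sub_mem _ hmt ?_
    rw [mem_Idl (fun j => slice_an (hGtt j))]
    exact ⟨_, rfl⟩
  have hc0 : ∀ i, ∀ᶠ t in 𝓝 (0 : ℂ), c i t = 0 := by
    intro i
    rw [← (hc i).frequently_zero_iff_eventually_zero]
    refine (hmem.and_eventually (hev.filter_mono nhdsWithin_le_nhds)).mono ?_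
    intro t ht
    exact ht.2 ht.1 i
  have h2 : Tendsto (fun p : (Fin n → ℂ) × ℂ => p.2) (𝓝 0) (𝓝 0) :=
    continuous_snd.tendsto' _ _ rfl
  filter_upwards [hid, h2.eventually (Filter.eventually_all.2 hc0)] with p h3 h4
  rw [h3]
  simp [h4]

end Crest.Agent.R257.Cor1_788
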