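import Crest.Agent.R257.Uni3_554

/-!
Row 257 (S0395), leaf E-GLOB, part 3a (helper554): Taylor expansion in `x` with analytic
coefficients in the parameter `t`.
-/

set_option autoImplicit false

open Set Filter Topology
open Crest.Agent.R275.Loc2879

noncomputable section

namespace Crest.Agent.R257.Glob554

open Crest.Agent.R257.Fin554 Crest.Agent.R257.Uni554
open MvPolynomial

variable {n : ℕ}

/-- Hadamard's lemma for functions -/
theorem had_fun (F : (Fin n → ℂ) × ℂ → ℂ) (hF : AnalyticAt ℂ F (0, 0)) :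
    ∃ (c : ℂ → ℂ) (q : Fin n → (Fin n → ℂ) × ℂ → ℂ), AnalyticAt ℂ c 0 ∧
      (∀ i, AnalyticAt ℂ (q i) (0, 0)) ∧
      ∀ᶠ p in 𝓝 ((0 : Fin n → ℂ), (0 : ℂ)), F p = c p.2 + ∑ i, p.1 i * q i p := by
  obtain ⟨c, q, h⟩ := hadG (0 : ℂ) n (gm F hF)
  obtain ⟨c, hc, rfl⟩ := exists_gm c
  choose A hA hAa using fun i => exists_gm (q i)
  obtain rfl : (fun i => gm (A i) (hA i)) = q := funext hAa
  refine ⟨c, A, hc, hA, ?_⟩
  simp only [Xc, gm_mul] at h
  obtain ⟨h2, e2⟩ := gm_sum Finset.univ (fun i => (fun p : (Fin n → ℂ) × ℂ => p.1 i) * A i)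
    (fun i => (analyticAt_coord i _).mul (hA i))
  rw [e2, sndR_gm, gm_add, gm_eq_gm] at h
  filter_upwards [h] with p hp
  rw [hp]
  simp

theorem taylor_family (F : (Fin n → ℂ) × ℂ → ℂ) (hF : AnalyticAt ℂ F (0, 0)) : ∀ d : ℕ,
    ∃ (P : ℂ → MvPolynomial (Fin n) ℂ) (q : (Fin d → Fin n) → (Fin n → ℂ) × ℂ → ℂ),
      (∀ t, (P t).totalDegree ≤ d - 1) ∧
      (∀ᶠ t in 𝓝 (0 : ℂ), ∀ m, AnalyticAt ℂ (fun t => (P t).coeff m) t) ∧
      (∀ w, AnalyticAt ℂ (q w) (0, 0)) ∧
      ∀ᶠ p in 𝓝 ((0 : Fin n → ℂ), (0 : ℂ)),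
        F p = eval p.1 (P p.2) + ∑ w, (∏ j, p.1 (w j)) * q w p
  | 0 => by
    refine ⟨fun _ => 0, fun _ => F, fun t => by simp, ?_, fun w => hF, ?_⟩
    · refine Eventually.of_forall (fun t m => ?_)
      simp only [coeff_zero]
      exact analyticAt_const
    · exact Eventually.of_forall (fun p => by simp)
  | d + 1 => by
    obtain ⟨P, q, hP, hPa, hq, h⟩ := taylor_family F hF d
    choose c q' hc hq' hcq using fun w => had_fun (q w) (hq w)
    refine ⟨fun t => P t + ∑ w : Fin d → Fin n, C (c w t) * ∏ j, X (w j),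
      fun w => q' (Fin.tail w) (w 0), ?_, ?_, fun w => hq' _ _, ?_⟩
    · intro t
      refine (totalDegree_add _ _).trans (max_le ((hP t).trans (by omega)) ?_)
      refine (totalDegree_finsetSum _ _).trans (Finset.sup_le (fun w _ => ?_))
      refine (totalDegree_mul _ _).trans ?_
      rw [totalDegree_C, zero_add]
      refine (totalDegree_finsetProd _ _).trans ?_
      simp
    · have h1 : ∀ᶠ t in 𝓝 (0 : ℂ), ∀ w, AnalyticAt ℂ (c w) t :=
        Filter.eventually_all.2 (fun w => (hc w).eventually_analyticAt)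
      filter_upwards [hPa, h1] with t h2 h3 m
      have : (fun t => coeff m (P t + ∑ w : Fin d → Fin n, C (c w t) * ∏ j, X (w j))) =
          fun t => coeff m (P t) + ∑ w : Fin d → Fin n, c w t *
            coeff m (∏ j, X (w j) : MvPolynomial (Fin n) ℂ) := by
        funext t
        rw [coeff_add, coeff_sum]
        simp only [coeff_C_mul]
      rw [this]
      refine (h2 m).add ?_
      exact Finset.analyticAt_fun_sum _ (fun w _ => (h3 w).mul analyticAt_const)
    · have h1 : ∀ᶠ p in 𝓝 ((0 : Fin n → ℂ), (0 : ℂ)), ∀ w : Fin d → Fin n,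
          q w p = c w p.2 + ∑ i, p.1 i * q' w i p := Filter.eventually_all.2 hcq
      filter_upwards [h, h1] with p hp h2
      rw [hp, map_add, map_sum, add_assoc]
      congr 1
      have e1 : ∑ w : Fin (d + 1) → Fin n, (∏ j, p.1 (w j)) * q' (Fin.tail w) (w 0) p =
          ∑ w : Fin d → Fin n, ∑ i, (∏ j, p.1 (w j)) * (p.1 i * q' w i p) := by
        rw [← Fintype.sum_prod_type', ← (Fin.consEquiv (fun _ : Fin (d + 1) => Fin n)).sum_comp,
          ← (Equiv.prodComm _ _).sum_comp]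
        refine Finset.sum_congr rfl (fun x _ => ?_)
        obtain ⟨w, i⟩ := x
        have ht : Fin.tail ((Fin.consEquiv fun _ : Fin (d + 1) => Fin n) (i, w)) = w := by
          funext j; rfl
        simp only [Equiv.prodComm_apply, Prod.swap, ht]
        simp only [Fin.consEquiv_apply, Fin.prod_univ_succ, Fin.cons_zero, Fin.cons_succ]
        ring
      rw [e1, ← Finset.sum_add_distrib]
      refine Finset.sum_congr rfl (fun w _ => ?_)
      rw [h2 w, map_mul, eval_C, map_prod]
      simp only [eval_X]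
      rw [mul_add, Finset.mul_sum]
      ring

end Crest.Agent.R257.Glob554
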