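import Crest.Agent.R257.LCDefs_472
import Crest.Agent.R257.SkelA_219

/-!
R257 / LCa_472: local biholomorphisms at the origin, invariance of the colength of the Jacobian
ideal.
-/

set_option autoImplicit false
set_option linter.unusedVariables false
set_option linter.unusedSectionVars false

open Topology Filter Set
open Crest.AlgGeometry.Germ

noncomputable section

namespace Crest.Agent.R257.LCa_472

open Crest.Agent.R257.Defs_219 Crest.Agent.R257.Skel_219 Crest.Agent.R257.LCDefs_472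

section General

variable {E : Type} [NormedAddCommGroup E] [NormedSpace ℂ E] [FiniteDimensional ℂ E]

/-- an injective endomorphism is an equivalence -/
def eqv (A : E →L[ℂ] E) (hA : Function.Injective A) : E ≃L[ℂ] E :=
  (LinearEquiv.ofInjectiveEndo (A : E →ₗ[ℂ] E) hA).toContinuousLinearEquiv

theorem eqv_coe (A : E →L[ℂ] E) (hA : Function.Injective A) : (eqv A hA : E →L[ℂ] E) = A := by
  ext x
  rfl

/-- **inverse function theorem**, as an open partial homeomorphism with the given function -/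
theorem exists_oph {θ : E → E} {a : E} (h : AnalyticAt ℂ θ a)
    (hi : Function.Injective (fderiv ℂ θ a)) :
    ∃ e : OpenPartialHomeomorph E E, (e : E → E) = θ ∧ a ∈ e.source ∧
      AnalyticAt ℂ e.symm (θ a) := by
  have : CompleteSpace E := FiniteDimensional.complete ℂ E
  have h1 : HasStrictFDerivAt θ (eqv (fderiv ℂ θ a) hi : E →L[ℂ] E) a := by
    rw [eqv_coe]
    exact h.hasStrictFDerivAt
  refine ⟨h1.toOpenPartialHomeomorph θ, h1.toOpenPartialHomeomorph_coe,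
    h1.mem_toOpenPartialHomeomorph_source, ?_⟩
  have h2 := (h1.toOpenPartialHomeomorph θ).analyticAt_symm' (a := a)
    (i := eqv (fderiv ℂ θ a) hi) h1.mem_toOpenPartialHomeomorph_source
    (by rw [h1.toOpenPartialHomeomorph_coe]; exact h)
    (by rw [h1.toOpenPartialHomeomorph_coe, eqv_coe])
  rwa [h1.toOpenPartialHomeomorph_coe] at h2

/-- **inverse function theorem** at the origin -/
theorem exists_inv {θ : E → E} (h : AnalyticAt ℂ θ 0) (h0 : θ 0 = 0)
    (hi : Function.Injective (fderiv ℂ θ 0)) :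
    ∃ η : E → E, AnalyticAt ℂ η 0 ∧ η 0 = 0 ∧ (∀ᶠ x in 𝓝 0, θ (η x) = x) ∧
      ∀ᶠ x in 𝓝 0, η (θ x) = x := by
  obtain ⟨e, he, hs, ha⟩ := exists_oph h hi
  rw [h0] at ha
  have ht : (0 : E) ∈ e.target := by
    have := e.map_source hs
    rwa [he, h0] at this
  refine ⟨e.symm, ha, ?_, ?_, ?_⟩
  · have := e.left_inv hs
    rwa [he, h0] at this
  · filter_upwards [e.open_target.mem_nhds ht] with x hx
    have := e.right_inv hx
    rwa [he] at this
  · filter_upwards [e.open_source.mem_nhds hs] with x hx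
    have := e.left_inv hx
    rwa [he] at this

end General

section Col

variable {n : ℕ}

/-- chain rule in coordinates -/
theorem coordDeriv_comp {g : (Fin n → ℂ) → ℂ} {θ : (Fin n → ℂ) → (Fin n → ℂ)} {x : Fin n → ℂ}
    (hg : DifferentiableAt ℂ g (θ x)) (hθ : DifferentiableAt ℂ θ x) (i : Fin n) :
    coordDeriv (g ∘ θ) i x = ∑ j, coordDeriv g j (θ x) * coordDeriv (fun y => θ y j) i x := by
  unfold coordDeriv
  rw [fderiv_comp x hg hθ, ContinuousLinearMap.comp_apply]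
  have h1 : fderiv ℂ θ x (Pi.single i 1) = ∑ j, (fderiv ℂ θ x (Pi.single i 1) j) •
      (Pi.single j (1 : ℂ) : Fin n → ℂ) := by
    ext k
    simp [Finset.sum_apply, Pi.single_apply]
  rw [h1, map_sum]
  refine Finset.sum_congr rfl fun j _ => ?_
  rw [map_smul, smul_eq_mul, mul_comm]
  congr 1
  have h2 := hasFDerivAt_pi'.1 hθ.hasFDerivAt j
  rw [h2.fderiv]
  rfl

/-- pulling back the Jacobian ideal -/
theorem mem_par_comp {f g : (Fin n → ℂ) → ℂ} {θ η : (Fin n → ℂ) → (Fin n → ℂ)}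
    (hg : AnalyticAt ℂ g 0) (hθ : AnalyticAt ℂ θ 0) (hθ0 : θ 0 = 0)
    (hη : AnalyticAt ℂ η 0) (hη0 : η 0 = 0) (h1 : ∀ᶠ x in 𝓝 0, θ (η x) = x)
    (h2 : ∀ᶠ x in 𝓝 0, η (θ x) = x) (hf : AnalyticAt ℂ f 0)
    (hfg : ∀ᶠ x in 𝓝 0, f x = g (θ x)) (a : analyticAtOrigin n)
    (b : analyticAtOrigin n) (hb : ∀ᶠ x in 𝓝 0, (b : (Fin n → ℂ) → ℂ) x =
      (a : (Fin n → ℂ) → ℂ) (θ x)) (ha : a ∈ gens (par g)) : b ∈ gens (par f) := by
  obtain ⟨c, hc, hce⟩ := ha
  have tη : Tendsto η (𝓝 0) (𝓝 0) := by simpa [hη0] using hη.continuousAt.tendsto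
  have tθ : Tendsto θ (𝓝 0) (𝓝 0) := by simpa [hθ0] using hθ.continuousAt.tendsto
  -- `g = f ∘ η` near `0`
  have hgf : ∀ᶠ y in 𝓝 0, g y = f (η y) := by
    filter_upwards [h1, tη.eventually hfg] with y e1 e2
    rw [e2, e1]
  have hgd : ∀ᶠ y in 𝓝 0, ∀ j, coordDeriv g j y =
      ∑ i, coordDeriv f i (η y) * coordDeriv (fun y => η y i) j y := by
    filter_upwards [hgf.eventually_nhds, hη.eventually_analyticAt,
      tη.eventually hf.eventually_analyticAt] with y e1 e2 e3 j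
    have e4 : g =ᶠ[𝓝 y] f ∘ η := e1
    have : coordDeriv g j y = coordDeriv (f ∘ η) j y := by
      unfold coordDeriv
      rw [e4.fderiv_eq]
    rw [this, coordDeriv_comp e3.differentiableAt e2.differentiableAt]
  have hηi : ∀ i, AnalyticAt ℂ (fun y => η y i) 0 := fun i =>
    (analyticAt_pi_iff.1 hη) i
  have hcomp : ∀ {u : (Fin n → ℂ) → ℂ}, AnalyticAt ℂ u 0 → AnalyticAt ℂ (fun x => u (θ x)) 0 :=
    fun hu => AnalyticAt.fun_comp (by rwa [hθ0]) hθ
  refine ⟨fun i x => ∑ j, c j (θ x) * coordDeriv (fun y => η y i) j (θ x), fun i => ?_, ?_⟩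
  · refine Finset.analyticAt_fun_sum _ fun j _ => ?_
    exact (hcomp (hc j)).mul (hcomp (analyticAt_coordDeriv (hηi i) j))
  · filter_upwards [hb, tθ.eventually hce, tθ.eventually hgd, h2] with x e1 e2 e3 e4
    rw [e1, e2]
    simp only [par, e3, e4, Finset.mul_sum, Finset.sum_mul]
    rw [Finset.sum_comm]
    exact Finset.sum_congr rfl fun i _ => Finset.sum_congr rfl fun j _ => by ring

/-- composition with a map analytic at `0`, preserving `0` -/
def pull {m : ℕ} (θ : (Fin m → ℂ) → (Fin n → ℂ)) (hθ : AnalyticAt ℂ θ 0) (h0 : θ 0 = 0) :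
    analyticAtOrigin n →ₗ[ℂ] analyticAtOrigin m where
  toFun a := ⟨fun x => (a : (Fin n → ℂ) → ℂ) (θ x),
    AnalyticAt.fun_comp (by rw [h0]; exact a.2) hθ⟩
  map_add' a b := rfl
  map_smul' c a := rfl

@[simp] theorem pull_apply {m : ℕ} (θ : (Fin m → ℂ) → (Fin n → ℂ)) (hθ : AnalyticAt ℂ θ 0)
    (h0 : θ 0 = 0) (a : analyticAtOrigin n) (x : Fin m → ℂ) :
    (pull θ hθ h0 a : (Fin m → ℂ) → ℂ) x = (a : (Fin n → ℂ) → ℂ) (θ x) := rfl

/-- functions with the same germ as a member -/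
theorem gens_congr_mem {m : ℕ} {G : Fin m → (Fin n → ℂ) → ℂ} {a b : analyticAtOrigin n}
    (ha : a ∈ gens G) (h : ∀ᶠ x in 𝓝 0, (b : (Fin n → ℂ) → ℂ) x = (a : (Fin n → ℂ) → ℂ) x) :
    b ∈ gens G := by
  obtain ⟨c, hc, hce⟩ := ha
  refine ⟨c, hc, ?_⟩
  filter_upwards [h, hce] with x h1 h2
  rw [h1, h2]

/-- a linear equivalence between quotients from a map surjective up to germs -/
theorem quo_equiv {m k l : ℕ} {G : Fin k → (Fin n → ℂ) → ℂ} {G' : Fin l → (Fin m → ℂ) → ℂ}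
    (T : analyticAtOrigin n →ₗ[ℂ] analyticAtOrigin m)
    (hs : ∀ b : analyticAtOrigin m, ∃ a, b - T a ∈ gens G')
    (hk : ∀ a, T a ∈ gens G' ↔ a ∈ gens G) : Nonempty (Quo G ≃ₗ[ℂ] Quo G') := by
  let S : analyticAtOrigin n →ₗ[ℂ] Quo G' := (gens G').mkQ.comp T
  have hS : Function.Surjective S := by
    intro q
    obtain ⟨b, rfl⟩ := Submodule.mkQ_surjective _ q
    obtain ⟨a, ha⟩ := hs b
    refine ⟨a, ?_⟩
    have := (Submodule.Quotient.eq (gens G')).2 ha
    exact this.symm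
  have hker : LinearMap.ker S = gens G := by
    ext a
    rw [LinearMap.mem_ker, ← hk a]
    exact Submodule.Quotient.mk_eq_zero _
  exact ⟨(Submodule.quotEquivOfEq _ _ hker.symm).trans (S.quotKerEquivOfSurjective hS)⟩

theorem col_of_equiv {m k l : ℕ} {G : Fin k → (Fin n → ℂ) → ℂ} {G' : Fin l → (Fin m → ℂ) → ℂ}
    (h : Nonempty (Quo G ≃ₗ[ℂ] Quo G')) : (ColFin G ↔ ColFin G') ∧ col G = col G' := by
  obtain ⟨e⟩ := h
  refine ⟨⟨fun h => ?_, fun h => ?_⟩, e.finrank_eq⟩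
  · have : Module.Finite ℂ (Quo G) := h
    exact Module.Finite.equiv e
  · have : Module.Finite ℂ (Quo G') := h
    exact Module.Finite.equiv e.symm

/-- **invariance of the Milnor number** -/
theorem par_comp {f g : (Fin n → ℂ) → ℂ} {θ : (Fin n → ℂ) → (Fin n → ℂ)}
    (hg : AnalyticAt ℂ g 0) (hθ : AnalyticAt ℂ θ 0) (hθ0 : θ 0 = 0)
    (hi : Function.Injective (fderiv ℂ θ 0)) (hf : AnalyticAt ℂ f 0)
    (hfg : ∀ᶠ x in 𝓝 0, f x = g (θ x)) :
    (ColFin (par g) ↔ ColFin (par f)) ∧ col (par g) = col (par f) := by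
  obtain ⟨η, hη, hη0, h1, h2⟩ := exists_inv hθ hθ0 hi
  have tη : Tendsto η (𝓝 0) (𝓝 0) := by simpa [hη0] using hη.continuousAt.tendsto
  have hgf : ∀ᶠ y in 𝓝 0, g y = f (η y) := by
    filter_upwards [h1, tη.eventually hfg] with y e1 e2
    rw [e2, e1]
  refine col_of_equiv (quo_equiv (pull θ hθ hθ0) (fun b => ?_) fun a => ⟨fun h => ?_, fun h => ?_⟩)
  · refine ⟨pull η hη hη0 b, 0, fun _ => analyticAt_const, ?_⟩
    filter_upwards [h2] with x hx
    change (b : (Fin n → ℂ) → ℂ) x - (b : (Fin n → ℂ) → ℂ) (η (θ x)) = _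
    rw [hx]
    simp
  · have h3 := mem_par_comp hf hη hη0 hθ hθ0 h2 h1 hg hgf (pull θ hθ hθ0 a)
      (pull η hη hη0 (pull θ hθ hθ0 a)) (Eventually.of_forall fun x => rfl) h
    refine gens_congr_mem h3 ?_
    filter_upwards [h1] with x hx
    change (a : (Fin n → ℂ) → ℂ) x = (a : (Fin n → ℂ) → ℂ) (θ (η x))
    rw [hx]
  · exact mem_par_comp hg hθ hθ0 hη hη0 h1 h2 hf hfg a _ (Eventually.of_forall fun x => rfl) h

end Col

end Crest.Agent.R257.LCa_472
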