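import Crest.Agent.R257.LcxDefs_759
import Crest.Agent.R257.LCa_472
import Crest.Agent.R257.GA_554

/-!
R257 / CountA_148 (helper148): `CountStmt` of LcxDefs_759, the weighted lower bound of the Milnor
number (leaf LCX-COUNT, task 1069).
-/

set_option autoImplicit false

open Topology Filter Set
open Crest.AlgGeometry.Germ

noncomputable section

namespace Crest.Agent.R257.Count_148

open Crest.Agent.R257.Defs_219 Crest.Agent.R257.LCDefs_472 Crest.Agent.R257.LcxDefs_759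

variable {w : Fin 3 → ℕ}

/-! ### weighted order -/

theorem box_norm (hw : ∀ i, 0 < w i) {κ s : ℝ} (hκ : 0 < κ) (hs : 0 < s) (hs1 : s ≤ 1) {X : E3}
    (hX : ∀ i, ‖X i‖ ≤ κ * s ^ w i) : ‖X‖ ≤ κ * s := by
  refine (pi_norm_le_iff_of_nonneg (by positivity)).2 fun i => (hX i).trans ?_
  refine mul_le_mul_of_nonneg_left ?_ hκ.le
  calc s ^ w i ≤ s ^ 1 := pow_le_pow_of_le_one hs.le hs1 (hw i)
    _ = s := pow_one s

/-- normalised form -/
theorem ev (hw : ∀ i, 0 < w i) {e : ℕ} {g : E3 → ℂ} (h : BoxO w e g) {Q : E3 → Prop}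
    (hQ : ∀ᶠ x in 𝓝 (0 : E3), Q x) : ∃ κ K s₀ : ℝ, 0 < κ ∧ 0 ≤ K ∧ 0 < s₀ ∧ s₀ ≤ 1 ∧
      ∀ s : ℝ, 0 < s → s ≤ s₀ → ∀ X : E3, (∀ i, ‖X i‖ ≤ κ * s ^ w i) →
        ‖g X‖ ≤ K * s ^ e ∧ Q X := by
  obtain ⟨κ, K, s₀, hκ, hs₀, hb⟩ := h
  obtain ⟨ε, hε, hQ⟩ := Metric.eventually_nhds_iff.1 hQ
  refine ⟨κ, |K|, min (min s₀ 1) (ε / (2 * κ)), hκ, abs_nonneg _, by positivity,
    (min_le_left _ _).trans (min_le_right _ _), fun s hs hs1 X hX => ⟨?_, ?_⟩⟩
  · refine (hb s hs (hs1.trans ((min_le_left _ _).trans (min_le_left _ _))) X hX).trans ?_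
    exact mul_le_mul_of_nonneg_right (le_abs_self K) (by positivity)
  · refine hQ ?_
    rw [dist_zero_right]
    have h1 := box_norm hw hκ hs (hs1.trans ((min_le_left _ _).trans (min_le_right _ _))) hX
    have h2 : s ≤ ε / (2 * κ) := hs1.trans (min_le_right _ _)
    have h3 : κ * s ≤ ε / 2 := by
      calc κ * s ≤ κ * (ε / (2 * κ)) := mul_le_mul_of_nonneg_left h2 hκ.le
        _ = ε / 2 := by field_simp
    linarith

theorem BoxO_add {e : ℕ} {g h : E3 → ℂ} (hg : BoxO w e g) (hh : BoxO w e h) :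
    BoxO w e (fun x => g x + h x) := by
  obtain ⟨κ, K, s₀, hκ, hs₀, hb⟩ := hg
  obtain ⟨κ', K', s₀', hκ', hs₀', hb'⟩ := hh
  refine ⟨min κ κ', K + K', min s₀ s₀', by positivity, by positivity, fun s hs hs1 X hX => ?_⟩
  have h1 : ∀ i, ‖X i‖ ≤ κ * s ^ w i := fun i => (hX i).trans
    (mul_le_mul_of_nonneg_right (min_le_left _ _) (by positivity))
  have h2 : ∀ i, ‖X i‖ ≤ κ' * s ^ w i := fun i => (hX i).trans
    (mul_le_mul_of_nonneg_right (min_le_right _ _) (by positivity))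
  calc ‖g X + h X‖ ≤ ‖g X‖ + ‖h X‖ := norm_add_le _ _
    _ ≤ K * s ^ e + K' * s ^ e := add_le_add (hb s hs (hs1.trans (min_le_left _ _)) X h1)
        (hb' s hs (hs1.trans (min_le_right _ _)) X h2)
    _ = (K + K') * s ^ e := by ring

theorem BoxO_smul {e : ℕ} {g : E3 → ℂ} (c : ℂ) (hg : BoxO w e g) :
    BoxO w e (fun x => c * g x) := by
  obtain ⟨κ, K, s₀, hκ, hs₀, hb⟩ := hg
  refine ⟨κ, ‖c‖ * K, s₀, hκ, hs₀, fun s hs hs1 X hX => ?_⟩
  rw [norm_mul, mul_assoc]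
  exact mul_le_mul_of_nonneg_left (hb s hs hs1 X hX) (norm_nonneg _)

theorem BoxO_mul {e e' : ℕ} {g h : E3 → ℂ} (hg : BoxO w e g) (hh : BoxO w e' h) :
    BoxO w (e + e') (fun x => g x * h x) := by
  obtain ⟨κ, K, s₀, hκ, hs₀, hb⟩ := hg
  obtain ⟨κ', K', s₀', hκ', hs₀', hb'⟩ := hh
  refine ⟨min κ κ', K * K', min s₀ s₀', by positivity, by positivity, fun s hs hs1 X hX => ?_⟩
  have h1 : ∀ i, ‖X i‖ ≤ κ * s ^ w i := fun i => (hX i).trans
    (mul_le_mul_of_nonneg_right (min_le_left _ _) (by positivity))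
  have h2 : ∀ i, ‖X i‖ ≤ κ' * s ^ w i := fun i => (hX i).trans
    (mul_le_mul_of_nonneg_right (min_le_right _ _) (by positivity))
  have e1 := hb s hs (hs1.trans (min_le_left _ _)) X h1
  have e2 := hb' s hs (hs1.trans (min_le_right _ _)) X h2
  calc ‖g X * h X‖ = ‖g X‖ * ‖h X‖ := norm_mul _ _
    _ ≤ (K * s ^ e) * (K' * s ^ e') := mul_le_mul e1 e2 (norm_nonneg _)
        ((norm_nonneg _).trans e1)
    _ = K * K' * s ^ (e + e') := by rw [pow_add]; ring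

theorem BoxO_congr (hw : ∀ i, 0 < w i) {e : ℕ} {g h : E3 → ℂ} (hg : BoxO w e g)
    (hh : h =ᶠ[𝓝 0] g) : BoxO w e h := by
  obtain ⟨κ, K, s₀, hκ, -, hs₀, -, hb⟩ := ev hw hg hh
  exact ⟨κ, K, s₀, hκ, hs₀, fun s hs hs1 X hX => by
    rw [(hb s hs hs1 X hX).2]; exact (hb s hs hs1 X hX).1⟩

theorem BoxO_mono (hw : ∀ i, 0 < w i) {e e' : ℕ} {g : E3 → ℂ} (hg : BoxO w e g)
    (hle : e' ≤ e) : BoxO w e' g := by
  obtain ⟨κ, K, s₀, hκ, hK, hs₀, hs1, hb⟩ := ev hw hg (Q := fun _ => True)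
    (Eventually.of_forall fun _ => trivial)
  refine ⟨κ, K, s₀, hκ, hs₀, fun s hs hs2 X hX => (hb s hs hs2 X hX).1.trans ?_⟩
  exact mul_le_mul_of_nonneg_left (pow_le_pow_of_le_one hs.le (hs2.trans hs1) hle) hK

theorem BoxO_zero (e : ℕ) : BoxO w e (fun _ => 0) :=
  ⟨1, 1, 1, one_pos, one_pos, fun s hs _ X _ => by rw [norm_zero]; positivity⟩

theorem BoxO_an (hw : ∀ i, 0 < w i) {g : E3 → ℂ} (hg : AnalyticAt ℂ g 0) : BoxO w 0 g := by
  have h1 : ∀ᶠ x in 𝓝 (0 : E3), ‖g x‖ < ‖g 0‖ + 1 :=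
    hg.continuousAt.norm.eventually (gt_mem_nhds (by simp))
  obtain ⟨κ, K, s₀, hκ, -, hs₀, -, hb⟩ := ev hw (BoxO_zero (w := w) 0) h1
  exact ⟨κ, ‖g 0‖ + 1, s₀, hκ, hs₀, fun s hs hs1 X hX => by
    rw [pow_zero, mul_one]; exact (hb s hs hs1 X hX).2.le⟩

theorem BoxO_coord (i : Fin 3) : BoxO w (w i) (fun X => X i) :=
  ⟨1, 1, 1, one_pos, one_pos, fun _ _ _ _ hX => hX i⟩

/-- Cauchy estimate -/
theorem BoxO_deriv (hw : ∀ i, 0 < w i) {d : ℕ} {g : E3 → ℂ} (hg : AnalyticAt ℂ g 0)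
    (h : BoxO w d g) (j : Fin 3) (hj : w j ≤ d) : BoxO w (d - w j) (coordDeriv g j) := by
  obtain ⟨κ, K, s₀, hκ, hK, hs₀, hs1, hb⟩ := ev hw h hg.eventually_analyticAt
  refine ⟨κ / 2, 2 * K / κ, s₀, by positivity, hs₀, fun s hs hs2 X hX => ?_⟩
  have hR : 0 < κ / 2 * s ^ w j := by positivity
  have hin : ∀ t : ℂ, ‖t‖ ≤ κ / 2 * s ^ w j →
      ∀ i, ‖(X + t • (Pi.single j 1 : E3)) i‖ ≤ κ * s ^ w i := by
    intro t ht i
    rw [Pi.add_apply, Pi.smul_apply]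
    by_cases hij : i = j
    · subst hij
      rw [Pi.single_eq_same, smul_eq_mul, mul_one]
      calc ‖X i + t‖ ≤ ‖X i‖ + ‖t‖ := norm_add_le _ _
        _ ≤ κ / 2 * s ^ w i + κ / 2 * s ^ w i := add_le_add (hX i) ht
        _ = κ * s ^ w i := by ring
    · rw [Pi.single_eq_of_ne hij, smul_zero, add_zero]
      refine (hX i).trans (mul_le_mul_of_nonneg_right (by linarith) (by positivity))
  have hline : ∀ t : ℂ, HasDerivAt (fun t : ℂ => X + t • (Pi.single j 1 : E3))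
      (Pi.single j 1 : E3) t := by
    intro t
    have := ((hasDerivAt_id t).smul_const (Pi.single j 1 : E3)).const_add X
    simpa using this
  have hd : ∀ t : ℂ, ‖t‖ ≤ κ / 2 * s ^ w j →
      HasDerivAt (fun t : ℂ => g (X + t • (Pi.single j 1 : E3)))
        (fderiv ℂ g (X + t • (Pi.single j 1 : E3)) (Pi.single j 1)) t := by
    intro t ht
    have h1 := (hb s hs hs2 _ (hin t ht)).2
    exact h1.differentiableAt.hasFDerivAt.comp_hasDerivAt t (hline t)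
  have hdc : DiffContOnCl ℂ (fun t : ℂ => g (X + t • (Pi.single j 1 : E3)))
      (Metric.ball 0 (κ / 2 * s ^ w j)) := by
    refine DifferentiableOn.diffContOnCl ?_
    rw [closure_ball _ hR.ne']
    intro t ht
    exact (hd t (by simpa using ht)).differentiableAt.differentiableWithinAt
  have hC : ∀ z ∈ Metric.sphere (0 : ℂ) (κ / 2 * s ^ w j),
      ‖(fun t : ℂ => g (X + t • (Pi.single j 1 : E3))) z‖ ≤ K * s ^ d := by
    intro z hz
    exact (hb s hs hs2 _ (hin z (by simpa using (le_of_eq (by simpa using hz))))).1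
  have h2 := Complex.norm_deriv_le_of_forall_mem_sphere_norm_le hR hdc hC
  rw [(hd 0 (by simpa using hR.le)).deriv, zero_smul, add_zero] at h2
  refine h2.trans (le_of_eq ?_)
  have hs3 : s ^ d = s ^ (d - w j) * s ^ w j := by rw [← pow_add, Nat.sub_add_cancel hj]
  rw [hs3]
  field_simp

/-! ### submodules -/

/-- germs of weighted order at least `e` -/
def WO (w : Fin 3 → ℕ) (e : ℕ) : Submodule ℂ (analyticAtOrigin 3) where
  carrier := {h | BoxO w e (h : E3 → ℂ)}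
  add_mem' := fun ha hb => BoxO_add ha hb
  zero_mem' := BoxO_zero e
  smul_mem' := fun c _ ha => BoxO_smul c ha

theorem mem_WO {e : ℕ} {h : analyticAtOrigin 3} : h ∈ WO w e ↔ BoxO w e (h : E3 → ℂ) := Iff.rfl

theorem WO_mono (hw : ∀ i, 0 < w i) {e e' : ℕ} (hle : e' ≤ e) : WO w e ≤ WO w e' :=
  fun _ hh => BoxO_mono hw hh hle

/-- multiplication -/
def mulR (G : E3 → ℂ) (hG : AnalyticAt ℂ G 0) : analyticAtOrigin 3 →ₗ[ℂ] analyticAtOrigin 3 where
  toFun h := ⟨fun x => (h : E3 → ℂ) x * G x, AnalyticAt.mul h.2 hG⟩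
  map_add' a b := by
    ext x
    simp [add_mul]
  map_smul' c a := by
    ext x
    simp [mul_assoc]

@[simp] theorem mulR_apply (G : E3 → ℂ) (hG : AnalyticAt ℂ G 0) (h : analyticAtOrigin 3) (x : E3) :
    (mulR G hG h : E3 → ℂ) x = (h : E3 → ℂ) x * G x := rfl

theorem an_coord (i : Fin 3) : AnalyticAt ℂ (fun x : E3 => x i) 0 :=
  (ContinuousLinearMap.proj (R := ℂ) (φ := fun _ : Fin 3 => ℂ) i).analyticAt _

/-- monomials -/
def mono (a : ℕ × ℕ × ℕ) : analyticAtOrigin 3 :=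
  ⟨fun X => X 0 ^ a.1 * X 1 ^ a.2.1 * X 2 ^ a.2.2,
    (((an_coord 0).pow _).mul ((an_coord 1).pow _)).mul ((an_coord 2).pow _)⟩

@[simp] theorem mono_apply (a : ℕ × ℕ × ℕ) (X : E3) :
    (mono a : E3 → ℂ) X = X 0 ^ a.1 * X 1 ^ a.2.1 * X 2 ^ a.2.2 := rfl

/-- the weight -/
def wt (w : Fin 3 → ℕ) (a : ℕ × ℕ × ℕ) : ℕ := w 0 * a.1 + w 1 * a.2.1 + w 2 * a.2.2

/-- exponents plus a unit vector -/
def up (i : Fin 3) (a : ℕ × ℕ × ℕ) : ℕ × ℕ × ℕ :=
  match i with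
  | 0 => (a.1 + 1, a.2.1, a.2.2)
  | 1 => (a.1, a.2.1 + 1, a.2.2)
  | 2 => (a.1, a.2.1, a.2.2 + 1)

theorem wt_up (i : Fin 3) (a : ℕ × ℕ × ℕ) : wt w (up i a) = wt w a + w i := by
  fin_cases i <;> simp [wt, up] <;> ring

theorem mulR_mono (i : Fin 3) (a : ℕ × ℕ × ℕ) :
    mulR (fun x => x i) (an_coord i) (mono a) = mono (up i a) := by
  ext x
  rw [mulR_apply, mono_apply, mono_apply]
  fin_cases i <;> simp [up] <;> ring

/-- polynomials of weight at most `M` plus germs of order at least `M + 1` -/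
def T (w : Fin 3 → ℕ) (M : ℕ) : Submodule ℂ (analyticAtOrigin 3) :=
  Submodule.span ℂ (mono '' {a | wt w a ≤ M}) ⊔ WO w (M + 1)

theorem T_up (i : Fin 3) (M : ℕ) :
    T w M ≤ (T w (M + w i)).comap (mulR (fun x => x i) (an_coord i)) := by
  refine sup_le (Submodule.span_le.2 ?_) ?_
  · rintro _ ⟨a, ha, rfl⟩
    change mulR (fun x => x i) (an_coord i) (mono a) ∈ T w (M + w i)
    rw [mulR_mono]
    refine Submodule.mem_sup_left (Submodule.subset_span ⟨_, ?_, rfl⟩)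
    change wt w (up i a) ≤ M + w i
    rw [wt_up]
    exact Nat.add_le_add_right ha _
  · intro h hh
    refine Submodule.mem_sup_right ?_
    have := BoxO_mul hh (BoxO_coord (w := w) i)
    change BoxO w (M + w i + 1) _
    have e : M + w i + 1 = M + 1 + w i := by ring
    rw [e]
    exact this

theorem had {h : E3 → ℂ} (hh : AnalyticAt ℂ h 0) : ∃ (c : ℂ) (q : Fin 3 → E3 → ℂ),
    (∀ i, AnalyticAt ℂ (q i) 0) ∧ ∀ᶠ x in 𝓝 (0 : E3), h x = c + ∑ i, x i * q i x := by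
  have h1 : AnalyticAt ℂ (fun p : E3 × ℂ => h p.1) (0, 0) :=
    AnalyticAt.fun_comp (g := h) (f := fun p : E3 × ℂ => p.1) (by exact hh) analyticAt_fst
  obtain ⟨c, q, -, hq, he⟩ := Glob554.had_fun _ h1
  have h2 : AnalyticAt ℂ (fun x : E3 => ((x, 0) : E3 × ℂ)) 0 :=
    analyticAt_id.prod analyticAt_const
  refine ⟨c 0, fun i x => q i (x, 0), fun i => ?_, ?_⟩
  · exact AnalyticAt.fun_comp (g := q i) (f := fun x : E3 => ((x, 0) : E3 × ℂ)) (hq i) h2
  · have h3 : Tendsto (fun x : E3 => ((x, 0) : E3 × ℂ)) (𝓝 0) (𝓝 ((0 : E3), (0 : ℂ))) :=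
      h2.continuousAt.tendsto
    filter_upwards [h3.eventually he] with x hx
    exact hx

theorem mem_WO_of_ev (hw : ∀ i, 0 < w i) {e : ℕ} {h : analyticAtOrigin 3}
    (hh : ∀ᶠ x in 𝓝 (0 : E3), (h : E3 → ℂ) x = 0) : h ∈ WO w e :=
  BoxO_congr hw (BoxO_zero e) hh

/-- **Taylor expansion** -/
theorem T_top (hw : ∀ i, 0 < w i) : ∀ M : ℕ, T w M = ⊤ := by
  intro M
  induction M using Nat.strong_induction_on with
  | _ M ih =>
  rw [eq_top_iff]
  rintro h -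
  obtain ⟨c, q, hq, he⟩ := had h.2
  let Q : Fin 3 → analyticAtOrigin 3 := fun i => ⟨q i, hq i⟩
  have h1 : ∀ i, mulR (fun x => x i) (an_coord i) (Q i) ∈ T w M := by
    intro i
    by_cases hi : w i ≤ M
    · have h2 : Q i ∈ T w (M - w i) := by
        rw [ih (M - w i) (by have := hw i; omega)]
        trivial
      have h3 := T_up i (M - w i) h2
      rwa [Nat.sub_add_cancel hi] at h3
    · refine Submodule.mem_sup_right ?_
      have h2 := BoxO_mul (BoxO_an hw (hq i)) (BoxO_coord (w := w) i)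
      rw [zero_add] at h2
      exact BoxO_mono hw h2 (by omega)
  have h2 : c • mono (0, 0, 0) + ∑ i, mulR (fun x => x i) (an_coord i) (Q i) ∈ T w M := by
    refine Submodule.add_mem _ (Submodule.smul_mem _ _ ?_) (Submodule.sum_mem _ fun i _ => h1 i)
    exact Submodule.mem_sup_left (Submodule.subset_span ⟨_, by simp [wt], rfl⟩)
  have h3 : h - (c • mono (0, 0, 0) + ∑ i, mulR (fun x => x i) (an_coord i) (Q i)) ∈ T w M := by
    refine Submodule.mem_sup_right (mem_WO_of_ev hw ?_)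
    filter_upwards [he] with x hx
    have e1 : ((∑ i, mulR (fun x => x i) (an_coord i) (Q i) : analyticAtOrigin 3) : E3 → ℂ) x =
        ∑ i, q i x * x i := by
      rw [AddSubmonoidClass.coe_finsetSum, Finset.sum_apply]
      rfl
    change (h : E3 → ℂ) x - (c * (x 0 ^ 0 * x 1 ^ 0 * x 2 ^ 0) + _) = 0
    rw [e1, hx]
    simp only [pow_zero, mul_one]
    rw [sub_eq_zero]
    congr 1
    exact Finset.sum_congr rfl fun i _ => mul_comm _ _
  have := Submodule.add_mem _ h3 h2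
  simpa using this

end Crest.Agent.R257.Count_148
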