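import Crest.Agent.R257.CountA_148

/-!
R257 / CountB_148 (helper148): injectivity of polynomials of weight `≤ N` modulo germs of weighted
order `≥ N + 1`, and `CountStmt`.
-/

set_option autoImplicit false

open Topology Filter Set
open Crest.AlgGeometry.Germ

noncomputable section

namespace Crest.Agent.R257.Count_148

open Crest.Agent.R257.Defs_219 Crest.Agent.R257.LCDefs_472 Crest.Agent.R257.LcxDefs_759

variable {w : Fin 3 → ℕ}

/-- a polynomial of size `O(s^N)` at `0+` is divisible by `X^N` -/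
theorem dvd_of_bound : ∀ (N : ℕ) (q : Polynomial ℂ) (K s₀ : ℝ), 0 < s₀ →
    (∀ s : ℝ, 0 < s → s ≤ s₀ → ‖q.eval (s : ℂ)‖ ≤ K * s ^ N) → Polynomial.X ^ N ∣ q := by
  intro N
  induction N with
  | zero => intro q K s₀ _ _; simp
  | succ N ih =>
    intro q K s₀ hs₀ hb
    have h0 : q.eval 0 = 0 := by
      have t1 : Tendsto (fun s : ℝ => ‖q.eval (s : ℂ)‖) (𝓝[>] 0) (𝓝 ‖q.eval 0‖) := by
        have hc : Continuous fun s : ℝ => ‖q.eval (s : ℂ)‖ :=
          (q.continuous.comp Complex.continuous_ofReal).norm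
        have := (hc.tendsto 0).mono_left (nhdsWithin_le_nhds (s := Ioi (0 : ℝ)))
        simpa using this
      have t2 : Tendsto (fun s : ℝ => K * s ^ (N + 1)) (𝓝[>] 0) (𝓝 0) := by
        have hc : Continuous fun s : ℝ => K * s ^ (N + 1) := by fun_prop
        have := (hc.tendsto 0).mono_left (nhdsWithin_le_nhds (s := Ioi (0 : ℝ)))
        simpa using this
      have h1 : ‖q.eval 0‖ ≤ 0 := by
        refine le_of_tendsto_of_tendsto t1 t2 ?_
        filter_upwards [Ioc_mem_nhdsGT hs₀] with s hs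
        exact hb s hs.1 hs.2
      exact norm_le_zero_iff.1 h1
    obtain ⟨q', rfl⟩ : Polynomial.X ∣ q := by
      rw [Polynomial.X_dvd_iff, Polynomial.coeff_zero_eq_eval_zero, h0]
    have h2 : Polynomial.X ^ N ∣ q' := by
      refine ih q' K s₀ hs₀ fun s hs hs1 => ?_
      have h3 := hb s hs hs1
      rw [Polynomial.eval_mul, Polynomial.eval_X, norm_mul, Complex.norm_real, Real.norm_eq_abs,
        abs_of_pos hs, pow_succ] at h3
      have h4 : s * ‖q'.eval (s : ℂ)‖ ≤ s * (K * s ^ N) := by linarith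
      exact le_of_mul_le_mul_left h4 hs
    rw [pow_succ, mul_comm]
    exact mul_dvd_mul_left _ h2

/-- exponents as finitely supported functions -/
def ex (a : ℕ × ℕ × ℕ) : Fin 3 →₀ ℕ := Finsupp.equivFunOnFinite.symm ![a.1, a.2.1, a.2.2]

theorem ex_inj : Function.Injective ex := by
  intro a b h
  have h1 := Finsupp.equivFunOnFinite.symm.injective h
  have h0 := congrFun h1 0
  have h2 := congrFun h1 1
  have h3 := congrFun h1 2
  simp only [Matrix.cons_val_zero, Matrix.cons_val_one, Matrix.cons_val] at h0 h2 h3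
  exact Prod.ext h0 (Prod.ext h2 h3)

theorem eval_ex (ξ : E3) (a : ℕ × ℕ × ℕ) (c : ℂ) :
    MvPolynomial.eval ξ (MvPolynomial.monomial (ex a) c) =
      c * (ξ 0 ^ a.1 * ξ 1 ^ a.2.1 * ξ 2 ^ a.2.2) := by
  rw [MvPolynomial.eval_monomial, Finsupp.prod_fintype _ _ (fun i => pow_zero _),
    Fin.prod_univ_three]
  simp [ex]

/-- polynomials of weight `≤ N` and weighted order `≥ N + 1` vanish -/
theorem inj {N : ℕ} (S : Finset (ℕ × ℕ × ℕ)) (hS : ∀ a ∈ S, wt w a ≤ N)
    (c : ℕ × ℕ × ℕ → ℂ)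
    (h : BoxO w (N + 1) fun X => ∑ a ∈ S, c a * (X 0 ^ a.1 * X 1 ^ a.2.1 * X 2 ^ a.2.2)) :
    ∀ a ∈ S, c a = 0 := by
  obtain ⟨κ, K, s₀, hκ, hs₀, hb⟩ := h
  have h1 : ∀ ξ : E3, (∀ i, ‖ξ i‖ ≤ κ) →
      ∑ a ∈ S, c a * (ξ 0 ^ a.1 * ξ 1 ^ a.2.1 * ξ 2 ^ a.2.2) = 0 := by
    intro ξ hξ
    let q : Polynomial ℂ := ∑ a ∈ S,
      Polynomial.C (c a * (ξ 0 ^ a.1 * ξ 1 ^ a.2.1 * ξ 2 ^ a.2.2)) * Polynomial.X ^ wt w a
    have hq : ∀ s : ℂ, q.eval s = ∑ a ∈ S,
        c a * (ξ 0 ^ a.1 * ξ 1 ^ a.2.1 * ξ 2 ^ a.2.2) * s ^ wt w a := by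
      intro s
      simp only [q, Polynomial.eval_finsetSum, Polynomial.eval_mul, Polynomial.eval_C,
        Polynomial.eval_pow, Polynomial.eval_X]
    have hd : Polynomial.X ^ (N + 1) ∣ q := by
      refine dvd_of_bound (N + 1) q K s₀ hs₀ fun s hs hs1 => ?_
      have h2 := hb s hs hs1 (fun i => ξ i * (s : ℂ) ^ w i) (fun i => by
        rw [norm_mul, norm_pow, Complex.norm_real, Real.norm_eq_abs, abs_of_pos hs]
        exact mul_le_mul_of_nonneg_right (hξ i) (by positivity))
      rw [hq]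
      refine le_trans (le_of_eq ?_) h2
      congr 1
      refine Finset.sum_congr rfl fun a _ => ?_
      rw [wt, pow_add, pow_add, pow_mul, pow_mul, pow_mul, mul_pow, mul_pow, mul_pow]
      ring
    have hdeg : q.natDegree ≤ N := by
      refine Polynomial.natDegree_sum_le_of_forall_le _ _ fun a ha => ?_
      exact (Polynomial.natDegree_C_mul_X_pow_le _ _).trans (hS a ha)
    have h0 : q = 0 := by
      by_contra hne
      have := Polynomial.natDegree_le_of_dvd hd hne
      rw [Polynomial.natDegree_X_pow] at this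
      omega
    have h2 := hq 1
    rw [h0, Polynomial.eval_zero] at h2
    simpa using h2.symm
  have h2 : (∑ a ∈ S, MvPolynomial.monomial (ex a) (c a) : MvPolynomial (Fin 3) ℂ) = 0 := by
    refine MvPolynomial.funext_set (fun _ => Metric.closedBall (0 : ℂ) κ)
      (fun _ => infinite_of_mem_nhds 0 (Metric.closedBall_mem_nhds 0 hκ)) ?_
    intro ξ hξ
    rw [map_zero, map_sum]
    simp only [eval_ex]
    refine h1 ξ fun i => ?_
    have := hξ i (Set.mem_univ i)
    simpa using this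
  intro a ha
  have h3 := congrArg (MvPolynomial.coeff (ex a)) h2
  rw [MvPolynomial.coeff_sum, MvPolynomial.coeff_zero] at h3
  simp only [MvPolynomial.coeff_monomial] at h3
  rw [Finset.sum_eq_single a] at h3
  · simpa using h3
  · intro b _ hb'
    rw [if_neg (fun h => hb' (ex_inj h))]
  · intro h; exact absurd ha h

/-! ### counting -/

/-- the monomials counted by `cnt` -/
def bx (w : Fin 3 → ℕ) (N e : ℕ) : Finset (ℕ × ℕ × ℕ) :=
  (Finset.range (N / w 0 + 1) ×ˢ Finset.range (N / w 1 + 1) ×ˢ Finset.range (N / w 2 + 1)).filter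
    fun a => w 0 * a.1 + w 1 * a.2.1 + w 2 * a.2.2 + e ≤ N

theorem card_bx (w : Fin 3 → ℕ) (N e : ℕ) : (bx w N e).card = cnt w N e := rfl

theorem mem_bx (hw : ∀ i, 0 < w i) {N e : ℕ} {a : ℕ × ℕ × ℕ} :
    a ∈ bx w N e ↔ wt w a + e ≤ N := by
  unfold bx wt
  rw [Finset.mem_filter, Finset.mem_product, Finset.mem_product, Finset.mem_range,
    Finset.mem_range, Finset.mem_range]
  refine ⟨fun h => h.2, fun h => ⟨⟨?_, ?_, ?_⟩, h⟩⟩
  · have : a.1 ≤ N / w 0 := (Nat.le_div_iff_mul_le (hw 0)).2 (by rw [mul_comm]; omega)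
    omega
  · have : a.2.1 ≤ N / w 1 := (Nat.le_div_iff_mul_le (hw 1)).2 (by rw [mul_comm]; omega)
    omega
  · have : a.2.2 ≤ N / w 2 := (Nat.le_div_iff_mul_le (hw 2)).2 (by rw [mul_comm]; omega)
    omega

theorem an_par {f : E3 → ℂ} (hf : AnalyticAt ℂ f 0) (j : Fin 3) :
    AnalyticAt ℂ (coordDeriv f j) 0 := by
  have h1 : AnalyticAt ℂ (fderiv ℂ f) 0 := hf.fderiv
  exact ((ContinuousLinearMap.apply ℂ ℂ (Pi.single j 1 : E3)).analyticAt _).comp h1

/-- the count for one germ -/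
theorem count (hw : ∀ i, 0 < w i) {d N : ℕ} (hd : ∀ i, w i ≤ d) {g : E3 → ℂ}
    (hg : AnalyticAt ℂ g 0) (hfin : ColFin (par g)) (hb : BoxO w d g) :
    cnt w N 0 ≤ col (par g) + ∑ j, cnt w N (d - w j) := by
  classical
  have hG : ∀ j, AnalyticAt ℂ (coordDeriv g j) 0 := an_par hg
  have hGb : ∀ j, BoxO w (d - w j) (coordDeriv g j) := fun j => BoxO_deriv hw hg hb j (hd j)
  let P : (bx w N 0 → ℂ) →ₗ[ℂ] analyticAtOrigin 3 :=
    ∑ a : bx w N 0, (LinearMap.toSpanSingleton ℂ (analyticAtOrigin 3) (mono a.1)).comp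
      (LinearMap.proj a)
  have hP : ∀ c : bx w N 0 → ℂ, P c = ∑ a, c a • mono a.1 := by
    intro c
    simp [P, LinearMap.sum_apply]
  let q : analyticAtOrigin 3 →ₗ[ℂ] Quo (par g) := (gens (par g)).mkQ
  let π : analyticAtOrigin 3 →ₗ[ℂ] (analyticAtOrigin 3 ⧸ WO w (N + 1)) := (WO w (N + 1)).mkQ
  have hq : ∀ a, q a = 0 ↔ a ∈ gens (par g) := fun a => Submodule.Quotient.mk_eq_zero _
  have hπ : ∀ a, π a = 0 ↔ a ∈ WO w (N + 1) := fun a => Submodule.Quotient.mk_eq_zero _
  -- the relations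
  let I : Type := Σ j : Fin 3, bx w N (d - w j)
  let v : I → (analyticAtOrigin 3 ⧸ WO w (N + 1)) := fun p =>
    π (mulR (coordDeriv g p.1) (hG p.1) (mono p.2.1))
  set W := Submodule.span ℂ (Set.range v) with hW
  have hmul : ∀ j, ∀ a : analyticAtOrigin 3, π (mulR (coordDeriv g j) (hG j) a) ∈ W := by
    intro j a
    by_cases hj : d - w j ≤ N
    · have h1 : a ∈ T w (N - (d - w j)) := by rw [T_top hw]; trivial
      have h2 : T w (N - (d - w j)) ≤ W.comap (π ∘ₗ mulR (coordDeriv g j) (hG j)) := by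
        refine sup_le (Submodule.span_le.2 ?_) ?_
        · rintro _ ⟨b, hb', rfl⟩
          have hb2 : wt w b ≤ N - (d - w j) := hb'
          exact Submodule.subset_span ⟨⟨j, ⟨b, (mem_bx hw).2 (by omega)⟩⟩, rfl⟩
        · intro b hb'
          change π (mulR (coordDeriv g j) (hG j) b) ∈ W
          have h3 : π (mulR (coordDeriv g j) (hG j) b) = 0 := by
            rw [hπ]
            have := BoxO_mul hb' (hGb j)
            have e : N - (d - w j) + 1 + (d - w j) = N + 1 := by omega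
            rw [e] at this
            exact this
          rw [h3]
          exact Submodule.zero_mem _
      exact h2 h1
    · have h3 : π (mulR (coordDeriv g j) (hG j) a) = 0 := by
        rw [hπ]
        have := BoxO_mul (BoxO_an hw a.2) (hGb j)
        exact BoxO_mono hw this (by omega)
      rw [h3]
      exact Submodule.zero_mem _
  set K := LinearMap.ker (q ∘ₗ P) with hK
  have hKW : ∀ c ∈ K, π (P c) ∈ W := by
    intro c hc
    have h1 : P c ∈ gens (par g) := (hq _).1 hc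
    obtain ⟨a, ha, hae⟩ := h1
    have h2 : π (P c) = ∑ j, π (mulR (coordDeriv g j) (hG j) ⟨a j, ha j⟩) := by
      rw [← map_sum, ← sub_eq_zero, ← map_sub, hπ]
      refine mem_WO_of_ev hw ?_
      filter_upwards [hae] with x hx
      have e1 : ((∑ j, mulR (coordDeriv g j) (hG j) ⟨a j, ha j⟩ : analyticAtOrigin 3) :
          E3 → ℂ) x = ∑ j, a j x * coordDeriv g j x := by
        rw [AddSubmonoidClass.coe_finsetSum, Finset.sum_apply]
        rfl
      change (P c : E3 → ℂ) x - _ = 0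
      rw [e1, hx, sub_eq_zero]
      rfl
    rw [h2]
    exact Submodule.sum_mem _ fun j _ => hmul j _
  have hWf : Module.Finite ℂ W := Module.Finite.span_of_finite ℂ (Set.finite_range v)
  have hWc : Module.finrank ℂ W ≤ ∑ j, cnt w N (d - w j) := by
    have h1 := finrank_range_le_card (R := ℂ) v
    have h2 : Fintype.card I = ∑ j, cnt w N (d - w j) := by
      rw [Fintype.card_sigma]
      exact Finset.sum_congr rfl fun j _ => by rw [Fintype.card_coe, card_bx]
    rw [h2] at h1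
    simpa [Set.finrank, hW] using h1
  let B : K →ₗ[ℂ] W := LinearMap.codRestrict W ((π ∘ₗ P) ∘ₗ K.subtype) fun c => hKW c c.2
  have hB : Function.Injective B := by
    rw [← LinearMap.ker_eq_bot, LinearMap.ker_eq_bot']
    intro c hc
    have h1 : π (P c) = 0 := congrArg Subtype.val hc
    have h2 := (hπ _).1 h1
    have h3 : ∀ a ∈ bx w N 0, (fun a => if h : a ∈ bx w N 0 then c.1 ⟨a, h⟩ else 0) a = 0 := by
      refine inj (w := w) (N := N) (bx w N 0) (fun a ha => ?_) _ ?_
      · have := (mem_bx hw).1 ha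
        omega
      · refine BoxO_congr hw h2 (Eventually.of_forall fun X => ?_)
        have e1 : ((P c.1 : analyticAtOrigin 3) : E3 → ℂ) X =
            ∑ a : bx w N 0, c.1 a * (X 0 ^ a.1.1 * X 1 ^ a.1.2.1 * X 2 ^ a.1.2.2) := by
          rw [hP, AddSubmonoidClass.coe_finsetSum, Finset.sum_apply]
          rfl
        rw [e1]
        refine (Finset.sum_coe_sort (bx w N 0) (fun a : ℕ × ℕ × ℕ =>
          (if h : a ∈ bx w N 0 then c.1 ⟨a, h⟩ else 0) *
            (X 0 ^ a.1 * X 1 ^ a.2.1 * X 2 ^ a.2.2))).symm.trans ?_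
        refine Finset.sum_congr rfl fun a _ => ?_
        rw [dif_pos a.2]
    refine Subtype.ext (funext fun a => ?_)
    have := h3 a.1 a.2
    simp only [dif_pos a.2] at this
    exact this
  have h3 : Module.finrank ℂ K ≤ ∑ j, cnt w N (d - w j) :=
    (LinearMap.finrank_le_finrank_of_injective hB).trans hWc
  have h4 := LinearMap.finrank_range_add_finrank_ker (q ∘ₗ P)
  have : Module.Finite ℂ (Quo (par g)) := hfin
  have h5 : Module.finrank ℂ (LinearMap.range (q ∘ₗ P)) ≤ Module.finrank ℂ (Quo (par g)) :=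
    Submodule.finrank_le _
  have h6 : Module.finrank ℂ (bx w N 0 → ℂ) = cnt w N 0 := by
    rw [Module.finrank_fintype_fun_eq_card, Fintype.card_coe, card_bx]
  rw [h6] at h4
  have h7 : Module.finrank ℂ (LinearMap.range (q ∘ₗ P)) + Module.finrank ℂ K = cnt w N 0 := h4
  have h8 : col (par g) = Module.finrank ℂ (Quo (par g)) := rfl
  omega

/-- **CountStmt** (LCX-COUNT) -/
theorem countStmt : CountStmt := by
  intro w d N f A hw hd hf hfin hb
  have hA : AnalyticAt ℂ (fun x : E3 => A x) 0 := (A : E3 →L[ℂ] E3).analyticAt 0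
  have hA0 : (fun x : E3 => A x) 0 = 0 := map_zero A
  have hfd : fderiv ℂ (fun x : E3 => A x) 0 = (A : E3 →L[ℂ] E3) :=
    (A : E3 →L[ℂ] E3).fderiv
  have hfA : AnalyticAt ℂ (fun x => f (A x)) 0 :=
    AnalyticAt.fun_comp (g := f) (f := fun x : E3 => A x) (by rw [map_zero]; exact hf) hA
  have h1 := LCa_472.par_comp (g := f) (f := fun x => f (A x)) (θ := fun x => A x) hf hA hA0
    (by rw [hfd]; exact A.injective) hfA (Eventually.of_forall fun x => rfl)
  rw [h1.2]
  exact count hw hd hfA (h1.1.1 hfin) hb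

end Crest.Agent.R257.Count_148
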