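import Mathlib

/-!
Row 257 (S0395), part X, leaf C-CPT, file 1 (helper419): finite coverings over a punctured disc.

`FCov S X`  : finite covering of the complement of `S ⊂ ℂ` (closed local homeomorphism with finite
              fibres; restricts to clopen subsets of `X`);
`PD S`      : a punctured disc in the complement of `S` (`b : {0 < |q| < r} → ℂ ∖ S`);
`Lf P D`    : lifts of `ζ ↦ b (exp ζ)` to `X` over the half plane; `per F` the period;
`uu F`      : `{τ ≠ 0, |τ| ^ e < r} → X`, `p (uu F τ) = b (τ ^ e)`, injective, continuous, open.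
-/

set_option autoImplicit false

open Set Filter Topology Metric

noncomputable section

namespace Crest.Agent.R257.Cpt1_419

/-- left half plane -/
abbrev HL (r : ℝ) : Type := {ζ : ℂ // ζ.re < Real.log r}

lemma isOpen_hl (r : ℝ) : IsOpen {ζ : ℂ | ζ.re < Real.log r} :=
  isOpen_lt Complex.continuous_re continuous_const

lemma convex_hl (r : ℝ) : Convex ℝ {ζ : ℂ | ζ.re < Real.log r} := convex_halfSpace_re_lt _

instance contractible_hl (r : ℝ) : ContractibleSpace (HL r) :=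
  (convex_hl r).contractibleSpace ⟨((Real.log r - 1 : ℝ) : ℂ), by simp⟩

instance lpc_hl (r : ℝ) : LocallyPathConnectedSpace (HL r) :=
  (isOpen_hl r).locallyPathConnectedSpace

instance pre_hl (r : ℝ) : PreconnectedSpace (HL r) :=
  isPreconnected_iff_preconnectedSpace.1 (convex_hl r).isPreconnected

/-- base point -/
def pt0 (r : ℝ) : HL r := ⟨((Real.log r - 1 : ℝ) : ℂ), by simp⟩

/-- translation by `2 π i k` -/
def sh (r : ℝ) (k : ℤ) : C(HL r, HL r) where
  toFun ζ := ⟨ζ.1 + k * (2 * Real.pi * Complex.I), by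
    have h := ζ.2
    simp only [Complex.add_re, Complex.mul_re, Complex.intCast_re, Complex.intCast_im,
      Complex.ofReal_re, Complex.I_re, Complex.I_im, Complex.ofReal_im, Complex.mul_im,
      Complex.re_ofNat, Complex.im_ofNat]
    simpa using h⟩
  continuous_toFun := by
    refine Continuous.subtype_mk ?_ _
    fun_prop

lemma sh_val {r : ℝ} (k : ℤ) (ζ : HL r) : (sh r k ζ).1 = ζ.1 + k * (2 * Real.pi * Complex.I) := rfl

lemma sh_zero {r : ℝ} (ζ : HL r) : sh r 0 ζ = ζ := by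
  apply Subtype.ext; rw [sh_val]; simp

lemma sh_sh {r : ℝ} (k l : ℤ) (ζ : HL r) : sh r k (sh r l ζ) = sh r (k + l) ζ := by
  apply Subtype.ext; rw [sh_val, sh_val, sh_val]; push_cast; ring

/-- the point of the half plane, with junk value -/
def ptH (r : ℝ) (ζ : ℂ) : HL r := if h : ζ.re < Real.log r then ⟨ζ, h⟩ else pt0 r

lemma ptH_val {r : ℝ} {ζ : ℂ} (h : ζ.re < Real.log r) : (ptH r ζ) = ⟨ζ, h⟩ := dif_pos h

/-- finite covering of the complement of `S` -/
structure FCov (S : Set ℂ) (X : Type) [TopologicalSpace X] where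
  p : X → {w : ℂ // w ∉ S}
  cl : IsClosedMap p
  lh : IsLocalHomeomorph p
  fin : ∀ b, (p ⁻¹' {b}).Finite

/-- a punctured disc in the complement of `S` -/
structure PD (S : Set ℂ) where
  b : ℂ → ℂ
  r : ℝ
  hr : 0 < r
  mem : ∀ q, q ≠ 0 → ‖q‖ < r → b q ∉ S
  inj : ∀ q q', q ≠ 0 → ‖q‖ < r → q' ≠ 0 → ‖q'‖ < r → b q = b q' → q = q'
  b' : ℂ → ℂ
  der : ∀ q, q ≠ 0 → ‖q‖ < r → HasStrictDerivAt b (b' q) q
  ne : ∀ q, q ≠ 0 → ‖q‖ < r → b' q ≠ 0

namespace PD

variable {S : Set ℂ} (D : PD S)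

lemma norm_exp_lt (ζ : HL D.r) : ‖Complex.exp ζ.1‖ < D.r := by
  rw [Complex.norm_exp]
  exact (Real.lt_log_iff_exp_lt D.hr).1 ζ.2

/-- the universal covering of the punctured disc -/
def phi : C(HL D.r, {w : ℂ // w ∉ S}) where
  toFun ζ := ⟨D.b (Complex.exp ζ.1), D.mem _ (Complex.exp_ne_zero _) (D.norm_exp_lt ζ)⟩
  continuous_toFun := by
    refine Continuous.subtype_mk ?_ _
    rw [continuous_iff_continuousAt]
    intro ζ
    have h1 : ContinuousAt D.b (Complex.exp ζ.1) :=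
      (D.der _ (Complex.exp_ne_zero _) (D.norm_exp_lt ζ)).hasDerivAt.continuousAt
    exact ContinuousAt.comp (f := fun ζ : HL D.r => Complex.exp ζ.1) h1
      (by fun_prop)

lemma phi_val (ζ : HL D.r) : (D.phi ζ).1 = D.b (Complex.exp ζ.1) := rfl

lemma phi_sh (k : ℤ) (ζ : HL D.r) : D.phi (sh D.r k ζ) = D.phi ζ := by
  apply Subtype.ext
  rw [phi_val, phi_val, sh_val, Complex.exp_add, Complex.exp_int_mul_two_pi_mul_I, mul_one]

lemma phi_eq_iff (ζ ζ' : HL D.r) : D.phi ζ = D.phi ζ' ↔ ∃ k : ℤ, ζ = sh D.r k ζ' := by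
  constructor
  · intro h
    have h1 := congrArg Subtype.val h
    rw [phi_val, phi_val] at h1
    have h2 := D.inj _ _ (Complex.exp_ne_zero _) (D.norm_exp_lt ζ) (Complex.exp_ne_zero _)
      (D.norm_exp_lt ζ') h1
    obtain ⟨k, hk⟩ := Complex.exp_eq_exp_iff_exists_int.1 h2
    exact ⟨k, Subtype.ext (by rw [sh_val]; exact hk)⟩
  · rintro ⟨k, rfl⟩
    exact D.phi_sh k ζ'

end PD

variable {S : Set ℂ} {X : Type} [TopologicalSpace X]

namespace FCov

/-- restriction to a clopen subset -/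
def restrict (P : FCov S X) (Y : Set X) (hY : IsClopen Y) : FCov S Y where
  p y := P.p y.1
  cl := P.cl.comp hY.1.isClosedMap_subtype_val
  lh := P.lh.comp hY.2.isOpenEmbedding_subtypeVal.isLocalHomeomorph
  fin b := by
    refine Set.Finite.of_finite_image (f := Subtype.val) ((P.fin b).subset ?_)
      Subtype.val_injective.injOn
    rintro _ ⟨y, hy, rfl⟩
    exact hy

variable [T2Space X] (P : FCov S X) (D : PD S)

theorem cov : IsCoveringMap P.p := by
  rw [isCoveringMap_iff_isCoveringMapOn_univ]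
  exact P.cl.isCoveringMapOn_of_isLocalHomeomorphOn (fun s _ => P.fin s) (fun e _ => P.lh e)

end FCov

/-- lifts of the universal covering of a punctured disc -/
def Lf (P : FCov S X) (D : PD S) : Type :=
  {F : C(HL D.r, X) // ∀ ζ, P.p (F ζ) = D.phi ζ}

namespace Lf

variable [T2Space X] {P : FCov S X} {D : PD S}

omit [T2Space X] in
lemma p_apply (F : Lf P D) (ζ : HL D.r) : P.p (F.1 ζ) = D.phi ζ := F.2 ζ

lemma exists_lift (x : X) (ζ₀ : HL D.r) (h : P.p x = D.phi ζ₀) : ∃ F : Lf P D, F.1 ζ₀ = x := by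
  obtain ⟨F, ⟨hF0, hF⟩, -⟩ := P.cov.existsUnique_continuousMap_lifts D.phi ζ₀ x h
  exact ⟨⟨F, fun ζ => congrFun hF ζ⟩, hF0⟩

lemma unique {F G : Lf P D} {ζ₀ : HL D.r} (h : F.1 ζ₀ = G.1 ζ₀) : F = G := by
  apply Subtype.ext
  apply ContinuousMap.coe_injective
  exact P.cov.eq_of_comp_eq F.1.continuous G.1.continuous
    (funext fun ζ => (F.2 ζ).trans (G.2 ζ).symm) ζ₀ h

instance : Finite (Lf P D) := by
  have h1 : Finite (P.p ⁻¹' {D.phi (pt0 D.r)}) := P.fin _
  refine Finite.of_injective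
    (fun F : Lf P D => (⟨F.1 (pt0 D.r), F.2 _⟩ : P.p ⁻¹' {D.phi (pt0 D.r)})) ?_
  intro F G h
  exact unique (congrArg Subtype.val h)

omit [T2Space X] in
/-- translation of a lift -/
def act (k : ℤ) (F : Lf P D) : Lf P D :=
  ⟨F.1.comp (sh D.r k), fun ζ => (F.2 _).trans (D.phi_sh k ζ)⟩

omit [T2Space X] in
lemma act_apply (k : ℤ) (F : Lf P D) (ζ : HL D.r) : (act k F).1 ζ = F.1 (sh D.r k ζ) := rfl

omit [T2Space X] in
lemma act_zero (F : Lf P D) : act 0 F = F := by
  apply Subtype.ext; ext ζ; rw [act_apply, sh_zero]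

omit [T2Space X] in
lemma act_act (k l : ℤ) (F : Lf P D) : act k (act l F) = act (l + k) F := by
  apply Subtype.ext; ext ζ; rw [act_apply, act_apply, act_apply, sh_sh]

omit [T2Space X] in
lemma act_inj {k : ℤ} {F G : Lf P D} (h : act k F = act k G) : F = G := by
  have h1 := congrArg (act (-k)) h
  rwa [act_act, act_act, add_neg_cancel, act_zero, act_zero] at h1

lemma exists_per (F : Lf P D) : ∃ n : ℕ, 0 < n ∧ act (n : ℤ) F = F := by
  obtain ⟨k, l, hkl, h⟩ := Finite.exists_ne_map_eq_of_infinite (fun k : ℕ => act (k : ℤ) F)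
  wlog hlt : k < l generalizing k l
  · exact this l k hkl.symm h.symm (lt_of_le_of_ne (not_lt.1 hlt) hkl.symm)
  refine ⟨l - k, Nat.sub_pos_of_lt hlt, ?_⟩
  apply act_inj (k := (k : ℤ))
  rw [act_act, h]
  congr 1
  rw [Nat.cast_sub hlt.le]; ring

open Classical in
/-- the period -/
def per (F : Lf P D) : ℕ := Nat.find (exists_per F)

lemma per_pos (F : Lf P D) : 0 < per F := by
  classical
  exact (Nat.find_spec (exists_per F)).1

lemma act_per (F : Lf P D) : act (per F : ℤ) F = F := by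
  classical
  exact (Nat.find_spec (exists_per F)).2

lemma per_le (F : Lf P D) {n : ℕ} (hn : 0 < n) (h : act (n : ℤ) F = F) : per F ≤ n := by
  classical
  exact Nat.find_min' _ ⟨hn, h⟩

lemma act_mul_per (F : Lf P D) (k : ℤ) : act (k * per F) F = F := by
  have hnat : ∀ n : ℕ, act ((n : ℤ) * per F) F = F := by
    intro n
    induction n with
    | zero => simp [act_zero]
    | succ n ih =>
      have h1 : ((n + 1 : ℕ) : ℤ) * per F = per F + n * per F := by push_cast; ring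
      rw [h1, ← act_act, act_per, ih]
  obtain ⟨n, rfl | rfl⟩ := k.eq_nat_or_neg
  · exact hnat n
  · apply act_inj (k := (n : ℤ) * per F)
    rw [act_act, hnat]
    have h1 : -(n : ℤ) * per F + n * per F = 0 := by ring
    rw [h1, act_zero]

lemma act_eq_self_iff (F : Lf P D) (k : ℤ) : act k F = F ↔ (per F : ℤ) ∣ k := by
  have hp : (0 : ℤ) < per F := by exact_mod_cast per_pos F
  constructor
  · intro h
    have h1 : act (k % per F) F = F := by
      have h2 : k % per F = k + (-(k / per F)) * per F := by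
        have := Int.emod_add_mul_ediv k (per F)
        linear_combination this
      rw [h2, ← act_act, h, act_mul_per]
    by_contra hnd
    have h3 : 0 < k % per F := by
      refine lt_of_le_of_ne (Int.emod_nonneg _ hp.ne') ?_
      intro h0
      exact hnd (Int.dvd_of_emod_eq_zero h0.symm)
    have h4 : k % per F < per F := Int.emod_lt_of_pos _ hp
    obtain ⟨m, hm⟩ := Int.eq_ofNat_of_zero_le h3.le
    rw [hm] at h1 h3 h4
    have h5 := per_le F (by exact_mod_cast h3) h1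
    have h6 : m < per F := by exact_mod_cast h4
    omega
  · rintro ⟨l, rfl⟩
    rw [mul_comm]; exact act_mul_per F l

lemma per_act (k : ℤ) (F : Lf P D) : per (act k F) = per F := by
  have h : ∀ n : ℤ, act n (act k F) = act k F ↔ act n F = F := by
    intro n
    rw [act_act]
    constructor
    · intro h
      apply act_inj (k := k)
      rw [act_act, add_comm, h]
    · intro h
      rw [add_comm, ← act_act, h]
  apply Nat.dvd_antisymm
  · have := (h (per F)).2 (act_per F)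
    exact_mod_cast (act_eq_self_iff (act k F) _).1 this
  · have := (h (per (act k F))).1 (act_per (act k F))
    exact_mod_cast (act_eq_self_iff F _).1 this

/-- the coordinate of the end -/
def uu (F : Lf P D) (τ : ℂ) : X := F.1 (ptH D.r (per F * Complex.log τ))

/-- the domain of the coordinate -/
def Dst (e : ℕ) (r : ℝ) : Set ℂ := {τ | τ ≠ 0 ∧ ‖τ‖ ^ e < r}

lemma isOpen_Dst (e : ℕ) (r : ℝ) : IsOpen (Dst e r) :=
  isOpen_ne.inter (isOpen_lt (continuous_norm.pow e) continuous_const)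

lemma re_lt {e : ℕ} {r : ℝ} (_he : 0 < e) {τ : ℂ} (h : τ ∈ Dst e r) {l : ℂ}
    (hl : Complex.exp l = τ) : ((e : ℂ) * l).re < Real.log r := by
  have h0 : 0 < ‖τ‖ := norm_pos_iff.2 h.1
  have h1 : l.re = Real.log ‖τ‖ := by rw [← hl, Complex.norm_exp, Real.log_exp]
  have h2 : ((e : ℂ) * l).re = Real.log (‖τ‖ ^ e) := by
    rw [Real.log_pow, ← h1]; simp
  rw [h2]
  exact Real.log_lt_log (by positivity) h.2

/-- the coordinate computed with any logarithm -/
lemma uu_of_exp (F : Lf P D) {τ l : ℂ} (h : τ ∈ Dst (per F) D.r) (hl : Complex.exp l = τ) :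
    uu F τ = F.1 ⟨per F * l, re_lt (per_pos F) h hl⟩ := by
  have hlog : Complex.exp (Complex.log τ) = τ := Complex.exp_log h.1
  have h1 : Complex.exp (Complex.log τ) = Complex.exp l := by rw [hlog, hl]
  obtain ⟨k, hk⟩ := Complex.exp_eq_exp_iff_exists_int.1 h1
  unfold uu
  rw [ptH_val (re_lt (per_pos F) h hlog)]
  have h2 : (⟨per F * Complex.log τ, re_lt (per_pos F) h hlog⟩ : HL D.r) =
      sh D.r (k * per F) ⟨per F * l, re_lt (per_pos F) h hl⟩ := by
    apply Subtype.ext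
    rw [sh_val]
    simp only [hk]
    push_cast; ring
  rw [h2, ← act_apply, act_mul_per]

lemma exp_div_mem (F : Lf P D) (ζ : HL D.r) : Complex.exp (ζ.1 / per F) ∈ Dst (per F) D.r := by
  refine ⟨Complex.exp_ne_zero _, ?_⟩
  rw [← norm_pow, ← Complex.exp_nat_mul, mul_div_cancel₀]
  · exact D.norm_exp_lt ζ
  · exact_mod_cast (per_pos F).ne'

lemma uu_exp (F : Lf P D) (ζ : HL D.r) : uu F (Complex.exp (ζ.1 / per F)) = F.1 ζ := by
  rw [uu_of_exp F (exp_div_mem F ζ) rfl]
  congr 1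
  apply Subtype.ext
  change (per F : ℂ) * (ζ.1 / per F) = ζ.1
  rw [mul_div_cancel₀]
  exact_mod_cast (per_pos F).ne'

lemma p_uu (F : Lf P D) {τ : ℂ} (h : τ ∈ Dst (per F) D.r) : (P.p (uu F τ)).1 = D.b (τ ^ per F) := by
  have hlog : Complex.exp (Complex.log τ) = τ := Complex.exp_log h.1
  rw [uu_of_exp F h hlog, F.2, PD.phi_val]
  simp only
  rw [Complex.exp_nat_mul, hlog]

lemma uu_injOn (F : Lf P D) : InjOn (uu F) (Dst (per F) D.r) := by
  intro τ h τ' h' he
  have hlog : Complex.exp (Complex.log τ) = τ := Complex.exp_log h.1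
  have hlog' : Complex.exp (Complex.log τ') = τ' := Complex.exp_log h'.1
  rw [uu_of_exp F h hlog, uu_of_exp F h' hlog'] at he
  have h1 := congrArg P.p he
  rw [F.2, F.2, PD.phi_eq_iff] at h1
  obtain ⟨k, hk⟩ := h1
  rw [hk, ← act_apply] at he
  have h2 : act k F = F := unique he
  rw [act_eq_self_iff] at h2
  obtain ⟨l, rfl⟩ := h2
  have h3 := congrArg Subtype.val hk
  rw [sh_val] at h3
  simp only at h3
  have hp : (per F : ℂ) ≠ 0 := by exact_mod_cast (per_pos F).ne'
  have h4 : Complex.log τ = Complex.log τ' + l * (2 * Real.pi * Complex.I) := by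
    apply mul_left_cancel₀ hp
    rw [h3]; push_cast; ring
  rw [← hlog, ← hlog', h4, Complex.exp_add, Complex.exp_int_mul_two_pi_mul_I, mul_one]

lemma uu_continuousOn (F : Lf P D) : ContinuousOn (uu F) (Dst (per F) D.r) := by
  intro τ₀ h₀
  refine ContinuousAt.continuousWithinAt ?_
  let lb : ℂ → ℂ := fun a => Complex.log (a / τ₀) + Complex.log τ₀
  have hlb : ContinuousAt lb τ₀ := by
    have h1 : ContinuousAt (fun a : ℂ => Complex.log (a / τ₀)) τ₀ := by
      refine ContinuousAt.clog ?_ ?_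
      · exact continuousAt_id.div continuousAt_const h₀.1
      · rw [div_self h₀.1]; exact Complex.one_mem_slitPlane
    exact h1.add continuousAt_const
  have hexp : ∀ a : ℂ, a ≠ 0 → Complex.exp (lb a) = a := fun a ha => by
    simp only [lb]
    rw [Complex.exp_add, Complex.exp_log (div_ne_zero ha h₀.1), Complex.exp_log h₀.1,
      div_mul_cancel₀ _ h₀.1]
  have hnb : Dst (per F) D.r ∈ 𝓝 τ₀ := (isOpen_Dst _ _).mem_nhds h₀
  have h3 : ContinuousAt (fun τ => F.1 (ptH D.r (per F * lb τ))) τ₀ := by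
    refine ContinuousAt.comp (g := F.1) F.1.continuous.continuousAt ?_
    refine (Topology.IsInducing.subtypeVal (t := {ζ : ℂ | ζ.re < Real.log D.r})).continuousAt_iff.2 ?_
    refine ContinuousAt.congr (f := fun τ => (per F : ℂ) * lb τ) (continuousAt_const.mul hlb) ?_
    filter_upwards [hnb] with τ hτ
    simp only [Function.comp]
    rw [ptH_val (re_lt (per_pos F) hτ (hexp τ hτ.1))]
  refine h3.congr ?_
  filter_upwards [hnb] with τ hτ
  rw [uu_of_exp F hτ (hexp τ hτ.1), ptH_val (re_lt (per_pos F) hτ (hexp τ hτ.1))]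

omit [T2Space X] in
/-- equality of values of two lifts -/
lemma eq_of_apply [T2Space X] {F G : Lf P D} {ζ ζ' : HL D.r} (h : F.1 ζ = G.1 ζ') :
    ∃ k : ℤ, G = act k F ∧ ζ = sh D.r k ζ' := by
  have h1 := congrArg P.p h
  rw [F.2, G.2, PD.phi_eq_iff] at h1
  obtain ⟨k, hk⟩ := h1
  refine ⟨k, ?_, hk⟩
  rw [hk, ← act_apply] at h
  exact (unique h).symm

lemma uu_eq {F G : Lf P D} {τ τ' : ℂ} (h : τ ∈ Dst (per F) D.r) (h' : τ' ∈ Dst (per G) D.r)
    (he : uu F τ = uu G τ') : ∃ k : ℤ, G = act k F := by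
  rw [uu_of_exp F h (Complex.exp_log h.1), uu_of_exp G h' (Complex.exp_log h'.1)] at he
  obtain ⟨k, hk, -⟩ := eq_of_apply he
  exact ⟨k, hk⟩

/-- every point over the punctured disc is on an end -/
lemma exists_uu {x : X} {q : ℂ} (hq : q ≠ 0) (hqr : ‖q‖ < D.r) (hx : (P.p x).1 = D.b q) :
    ∃ F : Lf P D, ∃ τ ∈ Dst (per F) D.r, uu F τ = x ∧ τ ^ per F = q := by
  have hre : (Complex.log q).re < Real.log D.r := by
    rw [Complex.log_re]; exact Real.log_lt_log (norm_pos_iff.2 hq) hqr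
  obtain ⟨F, hF⟩ := exists_lift (P := P) (D := D) x ⟨Complex.log q, hre⟩ (by
    apply Subtype.ext
    rw [hx, PD.phi_val]
    simp only
    rw [Complex.exp_log hq])
  refine ⟨F, Complex.exp (Complex.log q / per F), exp_div_mem F ⟨Complex.log q, hre⟩, ?_, ?_⟩
  · rw [← hF, ← uu_exp F ⟨Complex.log q, hre⟩]
  · rw [← Complex.exp_nat_mul, mul_div_cancel₀, Complex.exp_log hq]
    exact_mod_cast (per_pos F).ne'

/-- the ends of `act k F` and `F` have the same image, with the same radii -/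
lemma exists_uu_act (k : ℤ) (F : Lf P D) {τ : ℂ} (h : τ ∈ Dst (per F) D.r) :
    ∃ τ' ∈ Dst (per F) D.r, uu (act k F) τ = uu F τ' ∧ ‖τ'‖ = ‖τ‖ := by
  have hp : (per F : ℂ) ≠ 0 := by exact_mod_cast (per_pos F).ne'
  have h' : τ ∈ Dst (per (act k F)) D.r := by rw [per_act]; exact h
  have hl : Complex.exp (Complex.log τ + k * (2 * Real.pi * Complex.I) / per F) =
      τ * Complex.exp (k * (2 * Real.pi * Complex.I) / per F) := by
    rw [Complex.exp_add, Complex.exp_log h.1]
  have hn : ‖τ * Complex.exp (k * (2 * Real.pi * Complex.I) / per F)‖ = ‖τ‖ := by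
    rw [norm_mul, Complex.norm_exp]
    have : ((k : ℂ) * (2 * Real.pi * Complex.I) / per F).re = 0 := by
      have h1 : ((k : ℂ) * (2 * Real.pi * Complex.I) / per F) =
          ((k * (2 * Real.pi) / per F : ℝ) : ℂ) * Complex.I := by push_cast; ring
      rw [h1]; simp
    rw [this, Real.exp_zero, mul_one]
  have hm : τ * Complex.exp (k * (2 * Real.pi * Complex.I) / per F) ∈ Dst (per F) D.r :=
    ⟨mul_ne_zero h.1 (Complex.exp_ne_zero _), by rw [hn]; exact h.2⟩
  refine ⟨_, hm, ?_, hn⟩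
  rw [uu_of_exp (act k F) h' (Complex.exp_log h.1), uu_of_exp F hm hl, act_apply]
  congr 1
  apply Subtype.ext
  rw [sh_val]
  simp only [per_act]
  rw [mul_add, mul_div_cancel₀ _ hp]

omit [T2Space X] in
lemma isOpen_image_of [T2Space X] (F : Lf P D) {U : Set ℂ} (hU : IsOpen U)
    (hUD : U ⊆ Dst (per F) D.r) : IsOpen (uu F '' U) := by
  rw [isOpen_iff_mem_nhds]
  rintro _ ⟨τ₀, hτ₀, rfl⟩
  have h₀ := hUD hτ₀
  -- the local homeomorphism `p`
  obtain ⟨e, hxe, hee⟩ := P.lh (uu F τ₀)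
  have hc : ContinuousAt (uu F) τ₀ :=
    (uu_continuousOn F).continuousAt ((isOpen_Dst _ _).mem_nhds h₀)
  have hV : U ∩ uu F ⁻¹' e.source ∈ 𝓝 τ₀ :=
    inter_mem (hU.mem_nhds hτ₀) (hc (e.open_source.mem_nhds hxe))
  -- `τ ↦ b (τ ^ e)` is open at `τ₀`
  have hpe : per F ≠ 0 := (per_pos F).ne'
  have hq0 : τ₀ ^ per F ≠ 0 := pow_ne_zero _ h₀.1
  have hqr : ‖τ₀ ^ per F‖ < D.r := by rw [norm_pow]; exact h₀.2
  have hder : HasStrictDerivAt (fun τ : ℂ => D.b (τ ^ per F))
      (D.b' (τ₀ ^ per F) * (per F * τ₀ ^ (per F - 1))) τ₀ := by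
    have h1 : HasStrictDerivAt (fun τ : ℂ => τ ^ per F) (per F * τ₀ ^ (per F - 1)) τ₀ :=
      hasStrictDerivAt_pow _ _
    exact HasStrictDerivAt.comp τ₀ (D.der _ hq0 hqr) h1
  have hne : D.b' (τ₀ ^ per F) * (per F * τ₀ ^ (per F - 1)) ≠ 0 :=
    mul_ne_zero (D.ne _ hq0 hqr) (mul_ne_zero (by exact_mod_cast hpe) (pow_ne_zero _ h₀.1))
  have hmap := hder.map_nhds_eq hne
  have hW : (fun τ : ℂ => D.b (τ ^ per F)) '' (U ∩ uu F ⁻¹' e.source) ∈ 𝓝 (D.b (τ₀ ^ per F)) := by
    rw [← hmap]; exact image_mem_map hV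
  have hpc : ContinuousAt (fun x => (P.p x).1) (uu F τ₀) :=
    (continuous_subtype_val.comp P.lh.continuous).continuousAt
  have hW2 : (fun x => (P.p x).1) ⁻¹' ((fun τ : ℂ => D.b (τ ^ per F)) ''
      (U ∩ uu F ⁻¹' e.source)) ∈ 𝓝 (uu F τ₀) := by
    apply hpc
    change _ ∈ 𝓝 (P.p (uu F τ₀)).1
    rw [p_uu F h₀]
    exact hW
  filter_upwards [hW2, e.open_source.mem_nhds hxe] with x hx hxs
  obtain ⟨τ, ⟨hτU, hτe⟩, hτx⟩ := hx
  refine ⟨τ, hτU, ?_⟩
  apply e.injOn hτe hxs
  have h3 : P.p (uu F τ) = P.p x := by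
    apply Subtype.ext
    rw [p_uu F (hUD hτU)]; exact hτx
  have h4 : ∀ y, e y = P.p y := fun y => by rw [hee]
  rw [h4, h4, h3]

end Lf

end Crest.Agent.R257.Cpt1_419
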