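import Mathlib

/-!
# Row 257, part C, one-dimensional input (helper176), file A

`Srf X`: a finite étale cover `pr : X → ℂ ∖ S` together with its ends (coordinates `γ i` of the
punctured discs over the points of `S` and over `∞`), i.e. a compact Riemann surface minus
finitely many points.
-/

set_option autoImplicit false

open Set Filter Topology Metric

noncomputable section

namespace Crest.Agent.R257.RS_176

/-- the value of the projection at the parameter `τ` of an end of ramification `m` over `c`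
(`none` is the point at infinity) -/
def endPr (c : Option ℂ) (m : ℕ) (τ : ℂ) : ℂ :=
  match c with
  | some a => a + τ ^ m
  | none => (τ ^ m)⁻¹

/-- A finite étale cover of `ℂ ∖ S` with its ends. -/
structure Srf (X : Type*) [TopologicalSpace X] where
  /-- the projection -/
  pr : X → ℂ
  /-- the finite branch points -/
  S : Finset ℂ
  /-- the number of sheets -/
  n : ℕ
  npos : 0 < n
  contPr : Continuous pr
  pr_notMem : ∀ x, pr x ∉ S
  sec : ∀ w, w ∉ S → ∃ r > 0, ∃ σ : Fin n → ℂ → X,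
    (∀ j, ContinuousOn (σ j) (ball w r)) ∧ (∀ j, ∀ z ∈ ball w r, pr (σ j z) = z) ∧
    (∀ z ∈ ball w r, Function.Injective fun j => σ j z) ∧
    (∀ x, pr x ∈ ball w r → ∃ j, σ j (pr x) = x)
  /-- the ends -/
  ι : Type
  fι : Fintype ι
  /-- the point below an end -/
  c : ι → Option ℂ
  /-- the ramification index -/
  m : ι → ℕ
  mpos : ∀ i, 0 < m i
  /-- the radius of the coordinate discs -/
  ε : ℝ
  εpos : 0 < ε
  /-- the coordinate of an end -/
  γ : ι → ℂ → X
  γ_cont : ∀ i, ContinuousOn (γ i) {τ | 0 < ‖τ‖ ∧ ‖τ‖ < ε}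
  pr_γ : ∀ i τ, 0 < ‖τ‖ → ‖τ‖ < ε → pr (γ i τ) = endPr (c i) (m i) τ
  γ_inj : ∀ i i' τ τ', 0 < ‖τ‖ → ‖τ‖ < ε → 0 < ‖τ'‖ → ‖τ'‖ < ε → γ i τ = γ i' τ' →
    i = i' ∧ τ = τ'
  c_mem : ∀ i a, c i = some a → a ∈ S
  cover_fin : ∀ a ∈ S, ∃ δ > 0, ∀ x, ‖pr x - a‖ < δ →
    ∃ i τ, c i = some a ∧ 0 < ‖τ‖ ∧ ‖τ‖ < ε ∧ γ i τ = x
  cover_inf : ∃ R : ℝ, ∀ x, R < ‖pr x‖ → ∃ i τ, c i = none ∧ 0 < ‖τ‖ ∧ ‖τ‖ < ε ∧ γ i τ = x

attribute [instance] Srf.fι

variable {X : Type*} [TopologicalSpace X] (T : Srf X)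

namespace Srf

/-- `f` is holomorphic on `X` -/
def Hol (f : X → ℂ) : Prop :=
  ∀ (w : ℂ) (r : ℝ) (s : ℂ → X), ContinuousOn s (ball w r) →
    (∀ z ∈ ball w r, T.pr (s z) = z) → DifferentiableOn ℂ (fun z => f (s z)) (ball w r)

lemma Hol.zero : T.Hol (fun _ => (0 : ℂ)) := fun _ _ _ _ _ => differentiableOn_const _

lemma Hol.const (a : ℂ) : T.Hol (fun _ => a) := fun _ _ _ _ _ => differentiableOn_const _

variable {T}

lemma Hol.add {f g : X → ℂ} (hf : T.Hol f) (hg : T.Hol g) : T.Hol (fun x => f x + g x) :=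
  fun w r s h1 h2 => (hf w r s h1 h2).add (hg w r s h1 h2)

lemma Hol.mul {f g : X → ℂ} (hf : T.Hol f) (hg : T.Hol g) : T.Hol (fun x => f x * g x) :=
  fun w r s h1 h2 => (hf w r s h1 h2).mul (hg w r s h1 h2)

lemma Hol.const_mul {f : X → ℂ} (a : ℂ) (hf : T.Hol f) : T.Hol (fun x => a * f x) :=
  fun w r s h1 h2 => (hf w r s h1 h2).const_mul a

lemma Hol.pow {f : X → ℂ} (hf : T.Hol f) (k : ℕ) : T.Hol (fun x => f x ^ k) :=
  fun w r s h1 h2 => (hf w r s h1 h2).pow k

lemma Hol.comp_pr {q : ℂ → ℂ} (hq : ∀ z, z ∉ T.S → DifferentiableAt ℂ q z) :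
    T.Hol (fun x => q (T.pr x)) := by
  intro w r s h1 h2
  have : ∀ z ∈ ball w r, q (T.pr (s z)) = q z := fun z hz => by rw [h2 z hz]
  refine DifferentiableOn.congr (f := q) ?_ this
  intro z hz
  refine (hq z ?_).differentiableWithinAt
  have := T.pr_notMem (s z)
  rwa [h2 z hz] at this

/-- the fibre over `w` as a set is finite for `w ∉ S` -/
lemma fib_finite {w : ℂ} (hw : w ∉ T.S) : {x | T.pr x = w}.Finite := by
  obtain ⟨r, hr, σ, -, -, -, h4⟩ := T.sec w hw
  refine (Set.finite_range fun j => σ j w).subset ?_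
  intro x hx
  obtain ⟨j, hj⟩ := h4 x (by rw [show T.pr x = w from hx]; exact mem_ball_self hr)
  exact ⟨j, by rw [← hj, show T.pr x = w from hx]⟩

variable (T)

open Classical in
/-- the fibre over `w`, as a finset -/
def fib (w : ℂ) : Finset X := if hw : w ∉ T.S then (fib_finite hw).toFinset else ∅

variable {T}

lemma mem_fib {w : ℂ} {x : X} (hw : w ∉ T.S) : x ∈ T.fib w ↔ T.pr x = w := by
  rw [fib, dif_pos hw]; simp

variable (T) in
/-- the norm of a function on `X` -/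
def nrm (f : X → ℂ) (w : ℂ) : ℂ := ∏ x ∈ T.fib w, f x

lemma prod_fib {w : ℂ} {r : ℝ} {σ : Fin T.n → ℂ → X}
    (h2 : ∀ j, ∀ z ∈ ball w r, T.pr (σ j z) = z)
    (h3 : ∀ z ∈ ball w r, Function.Injective fun j => σ j z)
    (h4 : ∀ x, T.pr x ∈ ball w r → ∃ j, σ j (T.pr x) = x) {z : ℂ} (hz : z ∈ ball w r)
    {M : Type*} [CommMonoid M] (f : X → M) : ∏ x ∈ T.fib z, f x = ∏ j, f (σ j z) := by
  classical
  have hzS : z ∉ T.S := by
    have := T.pr_notMem (σ ⟨0, T.npos⟩ z)
    rwa [h2 _ z hz] at this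
  have : T.fib z = Finset.univ.image fun j => σ j z := by
    ext x
    rw [mem_fib hzS, Finset.mem_image]
    constructor
    · intro hx
      obtain ⟨j, hj⟩ := h4 x (by rwa [hx])
      exact ⟨j, Finset.mem_univ _, by rw [← hj, hx]⟩
    · rintro ⟨j, -, rfl⟩
      exact h2 j z hz
  rw [this, Finset.prod_image]
  intro i _ j _ hij
  exact h3 z hz hij

lemma card_fib {w : ℂ} (hw : w ∉ T.S) : (T.fib w).card = T.n := by
  obtain ⟨r, hr, σ, -, h2, h3, h4⟩ := T.sec w hw
  have := prod_fib (T := T) h2 h3 h4 (mem_ball_self hr)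
    (f := fun _ => Multiplicative.ofAdd (1 : ℕ))
  simp only [Finset.prod_const, Finset.card_univ, Fintype.card_fin] at this
  have h := congrArg Multiplicative.toAdd this
  simpa using h

lemma differentiableAt_nrm {f : X → ℂ} (hf : T.Hol f) {w : ℂ} (hw : w ∉ T.S) :
    DifferentiableAt ℂ (T.nrm f) w := by
  obtain ⟨r, hr, σ, h1, h2, h3, h4⟩ := T.sec w hw
  have hd : DifferentiableOn ℂ (fun z => ∏ j, f (σ j z)) (ball w r) :=
    DifferentiableOn.fun_finsetProd fun j _ => hf w r (σ j) (h1 j) (h2 j)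
  have hd' : DifferentiableOn ℂ (T.nrm f) (ball w r) :=
    hd.congr fun z hz => prod_fib h2 h3 h4 hz f
  exact (hd' w (mem_ball_self hr)).differentiableAt (ball_mem_nhds w hr)

/-- the images of the sections are open -/
lemma section_image_nhds [T2Space X] {w : ℂ} {r : ℝ} {σ : Fin T.n → ℂ → X}
    (h1 : ∀ j, ContinuousOn (σ j) (ball w r))
    (h2 : ∀ j, ∀ z ∈ ball w r, T.pr (σ j z) = z)
    (h3 : ∀ z ∈ ball w r, Function.Injective fun j => σ j z)
    (h4 : ∀ x, T.pr x ∈ ball w r → ∃ j, σ j (T.pr x) = x) (j : Fin T.n) {z : ℂ}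
    (hz : z ∈ ball w r) : ∀ᶠ y in 𝓝 (σ j z), T.pr y ∈ ball w r ∧ σ j (T.pr y) = y := by
  set x := σ j z with hx
  have hxpr : T.pr x = z := h2 j z hz
  have hball : ∀ᶠ y in 𝓝 x, T.pr y ∈ ball w r := by
    have := T.contPr.continuousAt (x := x)
    exact this.eventually (isOpen_ball.mem_nhds (by rw [hxpr]; exact hz))
  -- every other section stays away from `x`
  have hne : ∀ i, i ≠ j → ∀ᶠ y in 𝓝 x, σ i (T.pr y) ≠ y := by
    intro i hij
    have hc : ContinuousAt (fun y => σ i (T.pr y)) x := by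
      refine ContinuousAt.comp (f := T.pr) (g := σ i) ?_ T.contPr.continuousAt
      exact (h1 i).continuousAt (isOpen_ball.mem_nhds (by rw [hxpr]; exact hz))
    have hne : σ i (T.pr x) ≠ x := by
      rw [hxpr]
      intro h
      exact hij (h3 z hz (h.trans hx))
    have := hc.prodMk (continuousAt_id (x := x))
    have hop : IsOpen {p : X × X | p.1 ≠ p.2} := isOpen_ne_fun continuous_fst continuous_snd
    exact this.eventually (hop.mem_nhds hne)
  have hall : ∀ᶠ y in 𝓝 x, ∀ i, i ≠ j → σ i (T.pr y) ≠ y := by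
    rw [eventually_all]
    intro i
    by_cases hij : i = j
    · exact Eventually.of_forall fun y h => absurd hij h
    · filter_upwards [hne i hij] with y hy _ using hy
  filter_upwards [hball, hall] with y hy1 hy2
  refine ⟨hy1, ?_⟩
  obtain ⟨i, hi⟩ := h4 y hy1
  by_cases hij : i = j
  · rwa [hij] at hi
  · exact absurd hi (hy2 i hij)

/-- identity theorem -/
lemma Hol.eq_zero [T2Space X] [PreconnectedSpace X] {f : X → ℂ} (hf : T.Hol f) {x₀ : X}
    (h : ∀ᶠ y in 𝓝 x₀, f y = 0) (x : X) : f x = 0 := by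
  have hopen : IsOpen {x | ∀ᶠ y in 𝓝 x, f y = 0} := isOpen_setOfPred_eventually_nhds
  have hclosed : IsClosed {x | ∀ᶠ y in 𝓝 x, f y = 0} := by
    rw [← closure_subset_iff_isClosed]
    intro x hx
    obtain ⟨r, hr, σ, h1, h2, h3, h4⟩ := T.sec (T.pr x) (T.pr_notMem x)
    obtain ⟨j, hj⟩ := h4 x (mem_ball_self hr)
    have hnb := section_image_nhds h1 h2 h3 h4 j (mem_ball_self hr)
    rw [hj] at hnb
    -- a point of `A` in the image of the section
    obtain ⟨y, hy1, hy2⟩ := (mem_closure_iff_nhds.1 hx _ hnb)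
    obtain ⟨hyb, hyj⟩ := hy1
    have hy2' : ∀ᶠ z in 𝓝 y, f z = 0 := hy2
    -- `f ∘ σ j` vanishes near `pr y`
    have hc : ContinuousAt (σ j) (T.pr y) := (h1 j).continuousAt (isOpen_ball.mem_nhds hyb)
    have hev : ∀ᶠ z in 𝓝 (T.pr y), f (σ j z) = 0 := by
      have := hc.tendsto
      rw [hyj] at this
      exact this.eventually hy2'
    have hd : DifferentiableOn ℂ (fun z => f (σ j z)) (ball (T.pr x) r) :=
      hf _ _ _ (h1 j) (h2 j)
    have han : AnalyticOnNhd ℂ (fun z => f (σ j z)) (ball (T.pr x) r) :=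
      hd.analyticOnNhd isOpen_ball
    have hz : EqOn (fun z => f (σ j z)) 0 (ball (T.pr x) r) :=
      han.eqOn_zero_of_preconnected_of_eventuallyEq_zero (convex_ball _ _).isPreconnected hyb hev
    change ∀ᶠ y in 𝓝 x, f y = 0
    filter_upwards [hnb] with u hu
    have := hz hu.1
    simp only [Pi.zero_apply] at this
    rwa [hu.2] at this
  have huniv : {x | ∀ᶠ y in 𝓝 x, f y = 0} = univ :=
    IsClopen.eq_univ ⟨hclosed, hopen⟩ ⟨x₀, h⟩
  have hx : x ∈ {x | ∀ᶠ y in 𝓝 x, f y = 0} := by rw [huniv]; trivial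
  have hx' : ∀ᶠ y in 𝓝 x, f y = 0 := hx
  exact Filter.Eventually.self_of_nhds (p := fun y => f y = 0) hx'

end Srf

end Crest.Agent.R257.RS_176
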