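import Mathlib
import Crest.Agent.R257.Cpt1_419
import Crest.Agent.R257.RSA_176

/-!
Row 257 (S0395), part X, leaf C-CPT, file 2 (helper419): a finite covering of `ℂ ∖ S` is a
`RS_176.Srf`, i.e. it has ends.

`exists_sec`, `sec_unique` : sections over discs;
`exists_srf`               : `FCov ↑S X → Srf X`.
-/

set_option autoImplicit false

open Set Filter Topology Metric

noncomputable section

namespace Crest.Agent.R257.Cpt1_419

open Crest.Agent.R257.RS_176

variable {S : Set ℂ} {X : Type} [TopologicalSpace X]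

namespace FCov

section sections

variable [T2Space X] (P : FCov S X)

omit [T2Space X] in
lemma continuous_p : Continuous P.p := P.lh.continuous

/-- sections over a disc -/
lemma exists_sec {w : ℂ} {r : ℝ} (hB : ∀ z ∈ ball w r, z ∉ S) {x₀ : X}
    (h₀ : (P.p x₀).1 ∈ ball w r) :
    ∃ s : ℂ → X, ContinuousOn s (ball w r) ∧ (∀ z ∈ ball w r, (P.p (s z)).1 = z) ∧
      s (P.p x₀).1 = x₀ := by
  classical
  have hne : (ball w r).Nonempty := ⟨_, h₀⟩
  have : ContractibleSpace (ball w r) := (convex_ball w r).contractibleSpace hne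
  have : LocallyPathConnectedSpace (ball w r) := isOpen_ball.locallyPathConnectedSpace
  let f : C(ball w r, {w : ℂ // w ∉ S}) :=
    ⟨fun z => ⟨z.1, hB z.1 z.2⟩, Continuous.subtype_mk continuous_subtype_val _⟩
  obtain ⟨F, ⟨hF0, hF⟩, -⟩ := P.cov.existsUnique_continuousMap_lifts f ⟨_, h₀⟩ x₀
    (Subtype.ext rfl)
  refine ⟨fun z => if h : z ∈ ball w r then F ⟨z, h⟩ else x₀, ?_, ?_, ?_⟩
  · rw [continuousOn_iff_continuous_domRestrict]
    have : (ball w r).domRestrict (fun z => if h : z ∈ ball w r then F ⟨z, h⟩ else x₀) = F := by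
      funext z
      exact dif_pos z.2
    rw [this]; exact F.continuous
  · intro z hz
    simp only
    rw [dif_pos hz]
    exact congrArg Subtype.val (congrFun hF ⟨z, hz⟩)
  · simp only
    rw [dif_pos h₀]
    exact hF0

lemma sec_unique {U : Set ℂ} (hU : IsPreconnected U) {s t : ℂ → X}
    (hs : ContinuousOn s U) (ht : ContinuousOn t U)
    (hs' : ∀ z ∈ U, (P.p (s z)).1 = z) (ht' : ∀ z ∈ U, (P.p (t z)).1 = z)
    {z₀ : ℂ} (h₀ : z₀ ∈ U) (h : s z₀ = t z₀) : ∀ z ∈ U, s z = t z := by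
  have := P.cov.eqOn_of_comp_eqOn hU hs ht
    (fun z hz => Subtype.ext ((hs' z hz).trans (ht' z hz).symm)) h₀ h
  exact fun z hz => this hz

/-- the fibre -/
def fb (w : ℂ) : Set X := {x | (P.p x).1 = w}

omit [T2Space X] in
lemma fb_finite (w : ℂ) : (P.fb w).Finite := by
  by_cases hw : w ∈ S
  · have : P.fb w = ∅ := by
      ext x
      simp only [fb, Set.mem_ofPred_eq, mem_empty_iff_false, iff_false]
      intro h
      exact (P.p x).2 (h ▸ hw)
    rw [this]; exact finite_empty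
  · refine (P.fin ⟨w, hw⟩).subset ?_
    intro x hx
    exact Subtype.ext hx

lemma sec_enum {w : ℂ} {r : ℝ} (hr : 0 < r) (hB : ∀ z ∈ ball w r, z ∉ S) {n : ℕ}
    (hn : (P.fb w).ncard = n) :
    ∃ σ : Fin n → ℂ → X,
      (∀ j, ContinuousOn (σ j) (ball w r)) ∧ (∀ j, ∀ z ∈ ball w r, (P.p (σ j z)).1 = z) ∧
      (∀ z ∈ ball w r, Function.Injective fun j => σ j z) ∧
      (∀ x, (P.p x).1 ∈ ball w r → ∃ j, σ j (P.p x).1 = x) := by
  classical
  have hw : w ∈ ball w r := mem_ball_self hr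
  have hfin : Finite (P.fb w) := (P.fb_finite w)
  have : Fintype (P.fb w) := Fintype.ofFinite _
  have hcard : Fintype.card (P.fb w) = n := by
    rw [← Nat.card_eq_fintype_card]; exact hn
  let e : Fin n ≃ P.fb w := (Fintype.equivFinOfCardEq hcard).symm
  have h1 : ∀ j : Fin n, ∃ s : ℂ → X, ContinuousOn s (ball w r) ∧
      (∀ z ∈ ball w r, (P.p (s z)).1 = z) ∧ s w = (e j).1 := by
    intro j
    have h2 : (P.p (e j).1).1 = w := (e j).2
    obtain ⟨s, hs1, hs2, hs3⟩ := P.exists_sec hB (x₀ := (e j).1) (by rw [h2]; exact hw)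
    rw [h2] at hs3
    exact ⟨s, hs1, hs2, hs3⟩
  choose σ hσ1 hσ2 hσ3 using h1
  have hpc : IsPreconnected (ball w r) := (convex_ball w r).isPreconnected
  refine ⟨σ, hσ1, hσ2, ?_, ?_⟩
  · intro z hz i j hij
    have := P.sec_unique hpc (hσ1 i) (hσ1 j) (hσ2 i) (hσ2 j) hz hij w hw
    rw [hσ3, hσ3] at this
    exact e.injective (Subtype.ext this)
  · intro x hx
    obtain ⟨s, hs1, hs2, hs3⟩ := P.exists_sec hB hx
    refine ⟨e.symm ⟨s w, hs2 w hw⟩, ?_⟩
    have h3 : σ (e.symm ⟨s w, hs2 w hw⟩) w = s w := by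
      rw [hσ3, Equiv.apply_symm_apply]
    rw [← hs3]
    have := P.sec_unique hpc (hσ1 _) hs1 (hσ2 _) hs2 hw h3 _ hx
    rw [hs3] at this ⊢
    exact this

lemma ncard_eq {w : ℂ} {r : ℝ} (hr : 0 < r) (hB : ∀ z ∈ ball w r, z ∉ S) {z : ℂ}
    (hz : z ∈ ball w r) : (P.fb z).ncard = (P.fb w).ncard := by
  obtain ⟨σ, -, h2, h3, h4⟩ := P.sec_enum hr hB rfl
  have h5 : P.fb z = range fun j => σ j z := by
    ext x
    constructor
    · intro hx
      have hx' : (P.p x).1 = z := hx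
      obtain ⟨j, hj⟩ := h4 x (by rw [hx']; exact hz)
      exact ⟨j, by rw [← hj, hx']⟩
    · rintro ⟨j, rfl⟩
      exact h2 j z hz
  rw [h5, ← Set.image_univ, Set.ncard_image_of_injective _ (h3 z hz)]
  simp

end sections

end FCov

/-! ### finite branch set -/

section finite

variable {S : Finset ℂ} [T2Space X]

lemma exists_ball (S : Finset ℂ) {w : ℂ} (hw : w ∉ S) :
    ∃ r > 0, ∀ z ∈ ball w r, z ∉ (S : Set ℂ) := by
  have h1 : IsOpen ((S : Set ℂ)ᶜ) := S.finite_toSet.isClosed.isOpen_compl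
  obtain ⟨r, hr, h⟩ := Metric.isOpen_iff.1 h1 w (by simpa using hw)
  exact ⟨r, hr, fun z hz => h hz⟩

lemma preconn_compl (S : Finset ℂ) : IsPreconnected ((S : Set ℂ)ᶜ) := by
  have h1 : (1 : Cardinal) < Module.rank ℝ ℂ := by
    rw [Complex.rank_real_complex]; norm_num
  exact (S.finite_toSet.countable.isPathConnected_compl_of_one_lt_rank h1).isConnected.2

lemma ncard_const (P : FCov (S : Set ℂ) X) {w w' : ℂ} (hw : w ∉ S) (hw' : w' ∉ S) :
    (P.fb w).ncard = (P.fb w').ncard := by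
  have hc : IsPreconnected ((S : Set ℂ)ᶜ) := preconn_compl S
  have h1 : ContinuousOn (fun w => (P.fb w).ncard) ((S : Set ℂ)ᶜ) := by
    intro w hw
    obtain ⟨r, hr, hB⟩ := exists_ball S (by simpa using hw)
    refine ContinuousAt.continuousWithinAt ?_
    refine ContinuousAt.congr (f := fun _ => (P.fb w).ncard) continuousAt_const ?_
    filter_upwards [ball_mem_nhds w hr] with z hz
    exact (P.ncard_eq hr hB hz).symm
  exact hc.constant h1 (by simpa using hw) (by simpa using hw')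

/-- separation radius -/
def Sep (S : Finset ℂ) (r : ℝ) : Prop :=
  0 < r ∧ r ≤ 1 ∧ (∀ c ∈ S, ∀ c' ∈ S, c ≠ c' → 2 * r ≤ ‖c - c'‖) ∧ ∀ c ∈ S, ‖c‖ + r < r⁻¹

lemma exists_sep (S : Finset ℂ) : ∃ r, Sep S r := by
  have h1 : ∀ᶠ r : ℝ in 𝓝[>] 0, 0 < r := self_mem_nhdsWithin
  have h2 : ∀ᶠ r : ℝ in 𝓝[>] 0, r ≤ 1 :=
    Filter.Eventually.filter_mono nhdsWithin_le_nhds (eventually_le_nhds one_pos)
  have h3 : ∀ᶠ r : ℝ in 𝓝[>] 0, ∀ c ∈ S, ∀ c' ∈ S, c ≠ c' → 2 * r ≤ ‖c - c'‖ := by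
    rw [Filter.eventually_all_finset]
    intro c _
    rw [Filter.eventually_all_finset]
    intro c' _
    by_cases hcc : c = c'
    · exact Filter.Eventually.of_forall fun r h => absurd hcc h
    · have h4 : (0 : ℝ) < ‖c - c'‖ / 2 := by
        have := norm_pos_iff.2 (sub_ne_zero.2 hcc)
        linarith
      filter_upwards [Filter.Eventually.filter_mono nhdsWithin_le_nhds (eventually_le_nhds h4)]
        with r hr _
      linarith
  have h4 : ∀ᶠ r : ℝ in 𝓝[>] 0, ∀ c ∈ S, ‖c‖ + r < r⁻¹ := by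
    rw [Filter.eventually_all_finset]
    intro c _
    have h5 : Tendsto (fun r : ℝ => r⁻¹) (𝓝[>] 0) atTop := tendsto_inv_nhdsGT_zero
    filter_upwards [h5.eventually_gt_atTop (‖c‖ + 1), h2] with r hr hr1
    linarith
  obtain ⟨r, hr⟩ := (h1.and (h2.and (h3.and h4))).exists
  exact ⟨r, hr.1, hr.2.1, hr.2.2.1, hr.2.2.2⟩

/-- the base punctured discs -/
def bs (c : Option ℂ) (q : ℂ) : ℂ :=
  match c with
  | some a => a + q
  | none => q⁻¹

lemma endPr_eq (c : Option ℂ) (m : ℕ) (τ : ℂ) : endPr c m τ = bs c (τ ^ m) := by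
  cases c <;> rfl

/-- the index set of the punctures of the base -/
abbrev Cen (S : Finset ℂ) : Type := Option {c : ℂ // c ∈ S}

/-- the centre -/
def Cen.c {S : Finset ℂ} (i : Cen S) : Option ℂ := i.map Subtype.val

/-- the punctured disc at a puncture of the base -/
def pd {S : Finset ℂ} {r : ℝ} (h : Sep S r) : Cen S → PD (S : Set ℂ)
  | some c =>
    { b := fun q => c.1 + q
      r := r
      hr := h.1
      mem := fun q hq hqr hmem => by
        have h1 : c.1 + q ≠ c.1 := by simpa using hq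
        have h2 := h.2.2.1 _ hmem _ c.2 h1
        rw [add_sub_cancel_left] at h2
        have := h.1
        linarith
      inj := fun q q' _ _ _ _ he => add_left_cancel he
      b' := fun _ => 1
      der := fun q _ _ => by
        simpa using (hasStrictDerivAt_id q).const_add c.1
      ne := fun _ _ _ => one_ne_zero }
  | none =>
    { b := fun q => q⁻¹
      r := r
      hr := h.1
      mem := fun q hq hqr hmem => by
        have h1 := h.2.2.2 _ hmem
        rw [norm_inv] at h1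
        have h2 : r⁻¹ < ‖q‖⁻¹ := by
          apply inv_strictAnti₀ (norm_pos_iff.2 hq) hqr
        have := h.1
        linarith
      inj := fun q q' _ _ _ _ he => inv_injective he
      b' := fun q => -(q ^ 2)⁻¹
      der := fun q hq _ => hasStrictDerivAt_inv hq
      ne := fun q hq _ => neg_ne_zero.2 (inv_ne_zero (pow_ne_zero _ hq)) }

lemma pd_b {r : ℝ} (h : Sep S r) (c : Cen S) : (pd h c).b = bs c.c := by
  cases c <;> rfl

lemma pd_r {r : ℝ} (h : Sep S r) (c : Cen S) : (pd h c).r = r := by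
  cases c <;> rfl

/-- the base discs are disjoint -/
lemma bs_disj {r : ℝ} (h : Sep S r) {c c' : Cen S} {q q' : ℂ} (hq : q ≠ 0) (hqr : ‖q‖ < r)
    (hq' : q' ≠ 0) (hqr' : ‖q'‖ < r) (he : bs c.c q = bs c'.c q') : c = c' := by
  have hr := h.1
  have key : ∀ (a : {c : ℂ // c ∈ S}) (q q' : ℂ), ‖q‖ < r → q' ≠ 0 → ‖q'‖ < r → a.1 + q = q'⁻¹ →
      False := by
    intro a q q' h1 h2 h3 h4
    have h5 := h.2.2.2 _ a.2
    have h6 : ‖a.1 + q‖ ≤ ‖a.1‖ + ‖q‖ := norm_add_le _ _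
    rw [h4, norm_inv] at h6
    have h7 : r⁻¹ < ‖q'‖⁻¹ := inv_strictAnti₀ (norm_pos_iff.2 h2) h3
    linarith
  rcases c with _ | a <;> rcases c' with _ | a'
  · rfl
  · exact (key a' q' q hqr' hq hqr he.symm).elim
  · exact (key a q q' hqr hq' hqr' he).elim
  · by_cases haa : a.1 = a'.1
    · rw [Subtype.ext haa]
    · exfalso
      have h1 := h.2.2.1 _ a.2 _ a'.2 haa
      have h2 : a.1 - a'.1 = q' - q := by
        have : a.1 + q = a'.1 + q' := he
        linear_combination this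
      rw [h2] at h1
      have := norm_sub_le q' q
      linarith

/-- lifts up to translation -/
def stL {T : Set ℂ} (P : FCov T X) (D : PD T) : Setoid (Lf P D) where
  r F G := ∃ k : ℤ, G = Lf.act k F
  iseqv := by
    refine ⟨fun F => ⟨0, (Lf.act_zero F).symm⟩, ?_, ?_⟩
    · rintro F G ⟨k, rfl⟩
      exact ⟨-k, by rw [Lf.act_act, add_neg_cancel, Lf.act_zero]⟩
    · rintro F G H ⟨k, rfl⟩ ⟨l, rfl⟩
      exact ⟨k + l, by rw [Lf.act_act]⟩

/-- the ends -/
def Ed {r : ℝ} (P : FCov (S : Set ℂ) X) (h : Sep S r) : Type :=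
  Σ c : Cen S, Quotient (stL P (pd h c))

instance {r : ℝ} (P : FCov (S : Set ℂ) X) (h : Sep S r) : Finite (Ed P h) := by
  unfold Ed; infer_instance

/-- the lift representing an end -/
def Ed.lf {r : ℝ} {P : FCov (S : Set ℂ) X} {h : Sep S r} (i : Ed P h) : Lf P (pd h i.1) :=
  Quotient.out i.2

theorem exists_srf [Nonempty X] (P : FCov (S : Set ℂ) X) :
    ∃ T : Srf X, (T.pr = fun x => (P.p x).1) ∧ T.S = S := by
  classical
  obtain ⟨r, h⟩ := exists_sep S
  have x₀ : X := Classical.arbitrary X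
  have hfin : Finite (Ed P h) := inferInstance
  let m : Ed P h → ℕ := fun i => Lf.per i.lf
  have hm : ∀ i, 0 < m i := fun i => Lf.per_pos _
  have hsub : ∀ (i : Ed P h) (τ : ℂ), 0 < ‖τ‖ → ‖τ‖ < r → τ ∈ Lf.Dst (m i) (pd h i.1).r := by
    intro i τ h1 h2
    refine ⟨norm_pos_iff.1 h1, ?_⟩
    rw [pd_r]
    refine lt_of_le_of_lt ?_ h2
    exact pow_le_of_le_one h1.le (h2.le.trans h.2.1) (hm i).ne'
  have hpr : ∀ (i : Ed P h) (τ : ℂ), 0 < ‖τ‖ → ‖τ‖ < r →
      (P.p (Lf.uu i.lf τ)).1 = endPr i.1.c (m i) τ := by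
    intro i τ h1 h2
    rw [Lf.p_uu _ (hsub i τ h1 h2), pd_b, endPr_eq]
  have hpow : ∀ (i : Ed P h) (τ : ℂ), 0 < ‖τ‖ → ‖τ‖ < r → τ ^ m i ≠ 0 ∧ ‖τ ^ m i‖ < r := by
    intro i τ h1 h2
    have h3 := hsub i τ h1 h2
    refine ⟨pow_ne_zero _ h3.1, ?_⟩
    rw [norm_pow]
    have h4 := h3.2
    rwa [pd_r] at h4
  -- uniform bound
  obtain ⟨N, hN⟩ : ∃ N : ℕ, ∀ i, m i ≤ N := by
    have : Fintype (Ed P h) := Fintype.ofFinite _
    exact ⟨∑ i, m i, fun i => Finset.single_le_sum (f := m) (fun _ _ => Nat.zero_le _)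
      (Finset.mem_univ i)⟩
  have hcov : ∀ (c : Cen S) (x : X) (q : ℂ), q ≠ 0 → ‖q‖ < r ^ (N + 1) → (P.p x).1 = bs c.c q →
      ∃ (i : Ed P h) (τ : ℂ), i.1 = c ∧ 0 < ‖τ‖ ∧ ‖τ‖ < r ∧ Lf.uu i.lf τ = x := by
    intro c x q hq hqN hx
    have hr0 := h.1
    have hqr : ‖q‖ < (pd h c).r := by
      rw [pd_r]
      exact hqN.trans_le (pow_le_of_le_one hr0.le h.2.1 (Nat.succ_ne_zero N))
    obtain ⟨F, τ, hτ, hFx, hτq⟩ := Lf.exists_uu (P := P) (D := pd h c) hq hqr
      (by rw [hx, pd_b])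
    let i : Ed P h := ⟨c, Quotient.mk _ F⟩
    obtain ⟨k, hk⟩ : ∃ k : ℤ, F = Lf.act k i.lf := by
      have : (stL P (pd h c)).r i.lf F := Quotient.exact (Quotient.out_eq (Quotient.mk _ F))
      exact this
    have hper : Lf.per F = m i := by
      rw [hk]; exact Lf.per_act k i.lf
    have hτ' : τ ∈ Lf.Dst (Lf.per i.lf) (pd h c).r := by
      have h1 := hτ
      rwa [hper] at h1
    obtain ⟨τ', hτ'm, h1, h2⟩ := Lf.exists_uu_act k i.lf hτ'
    refine ⟨i, τ', rfl, norm_pos_iff.2 hτ'm.1, ?_, ?_⟩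
    · rw [h2]
      by_contra hcon
      push Not at hcon
      have h3 : r ^ (N + 1) ≤ ‖q‖ := by
        rw [← hτq, norm_pow, hper]
        calc r ^ (N + 1) ≤ r ^ (m i) := pow_le_pow_of_le_one hr0.le h.2.1 ((hN i).trans (by omega))
          _ ≤ ‖τ‖ ^ (m i) := pow_le_pow_left₀ hr0.le hcon _
      linarith
    · rw [← h1, ← hFx, hk]
  have hn : ∀ w : ℂ, w ∉ S → (P.fb w).ncard = (P.fb (P.p x₀).1).ncard := fun w hw =>
    ncard_const P hw (by simpa using (P.p x₀).2)
  refine ⟨{ pr := fun x => (P.p x).1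
            S := S
            n := (P.fb (P.p x₀).1).ncard
            npos := ?_
            contPr := continuous_subtype_val.comp P.continuous_p
            pr_notMem := fun x => by simpa using (P.p x).2
            sec := ?_
            ι := Ed P h
            fι := Fintype.ofFinite _
            c := fun i => i.1.c
            m := m
            mpos := hm
            ε := r
            εpos := h.1
            γ := fun i τ => Lf.uu i.lf τ
            γ_cont := fun i => (Lf.uu_continuousOn i.lf).mono fun τ hτ => hsub i τ hτ.1 hτ.2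
            pr_γ := hpr
            γ_inj := ?_
            c_mem := ?_
            cover_fin := ?_
            cover_inf := ?_ }, rfl, rfl⟩
  · rw [Set.ncard_pos (P.fb_finite _)]
    exact ⟨x₀, rfl⟩
  · intro w hw
    obtain ⟨ρ, hρ, hB⟩ := exists_ball S hw
    exact ⟨ρ, hρ, P.sec_enum hρ hB (hn w hw)⟩
  · rintro i i' τ τ' h1 h2 h3 h4 he
    have h5 : bs i.1.c (τ ^ m i) = bs i'.1.c (τ' ^ m i') := by
      rw [← endPr_eq, ← endPr_eq, ← hpr i τ h1 h2, ← hpr i' τ' h3 h4, he]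
    obtain ⟨c, F⟩ := i
    obtain ⟨c', F'⟩ := i'
    have hcc : c = c' := bs_disj h (hpow _ τ h1 h2).1 (hpow _ τ h1 h2).2 (hpow _ τ' h3 h4).1
      (hpow _ τ' h3 h4).2 h5
    subst hcc
    obtain ⟨k, hk⟩ := Lf.uu_eq (F := Ed.lf (⟨c, F⟩ : Ed P h)) (G := Ed.lf (⟨c, F'⟩ : Ed P h))
      (hsub ⟨c, F⟩ τ h1 h2) (hsub ⟨c, F'⟩ τ' h3 h4) he
    have hFF : F = F' := by
      rw [← Quotient.out_eq F, ← Quotient.out_eq F']
      exact Quotient.sound ⟨k, hk⟩
    subst hFF
    exact ⟨rfl, Lf.uu_injOn _ (hsub _ τ h1 h2) (hsub _ τ' h3 h4) he⟩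
  · intro i a hi
    rcases hc : i.1 with _ | b
    · rw [hc] at hi; simp [Cen.c] at hi
    · rw [hc] at hi
      simp only [Cen.c, Option.map_some, Option.some.injEq] at hi
      rw [← hi]; exact b.2
  · intro a ha
    refine ⟨r ^ (N + 1), pow_pos h.1 _, ?_⟩
    intro x hx
    have hne : (P.p x).1 - a ≠ 0 := by
      intro h0
      exact (P.p x).2 (by rw [sub_eq_zero.1 h0]; exact ha)
    obtain ⟨i, τ, hi, h1, h2, h3⟩ := hcov (some ⟨a, ha⟩) x _ hne hx (by simp [bs, Cen.c])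
    exact ⟨i, τ, by rw [hi]; rfl, h1, h2, h3⟩
  · refine ⟨(r ^ (N + 1))⁻¹, ?_⟩
    intro x hx
    have hpos : (0 : ℝ) < r ^ (N + 1) := pow_pos h.1 _
    have hx0 : 0 < ‖(P.p x).1‖ := (inv_pos.2 hpos).trans hx
    have hne : (P.p x).1 ≠ 0 := norm_pos_iff.1 hx0
    have hlt : ‖((P.p x).1)⁻¹‖ < r ^ (N + 1) := by
      rw [norm_inv]
      exact inv_lt_of_inv_lt₀ hpos hx
    obtain ⟨i, τ, hi, h1, h2, h3⟩ := hcov none x _ (inv_ne_zero hne) hlt (by simp [bs, Cen.c])
    exact ⟨i, τ, by rw [hi]; rfl, h1, h2, h3⟩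

end finite

end Crest.Agent.R257.Cpt1_419
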