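import Mathlib
import Crest.Agent.R257.AJ1_387
import Crest.Agent.R257.Cpt2_419

/-!
Row 257 (S0395), part X, leaf C-CPT, file 3 (helper419): the covering of roots of a continuous
family of polynomials over `ℂ ∖ S` (`AJ387.Fam`) as an `FCov`, and its clopen parts.
-/

set_option autoImplicit false

open Set Filter Topology Metric

noncomputable section

namespace Crest.Agent.R257.Cpt1_419

open Crest.Agent.R257.RS_176

variable {S : Finset ℂ} {d : ℕ}

/-- the covering of roots -/
def ofFam (Q : AJ387.Fam {w : ℂ // w ∉ (S : Set ℂ)} d) : FCov (S : Set ℂ) Q.E where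
  p := Q.pr
  cl := Q.pr_closed
  lh := Q.pr_localHomeo
  fin s := by
    refine Set.Finite.of_finite_image (f := fun e : Q.E => e.1.2)
      ((Q.rts s).finite_toSet.subset ?_) ?_
    · rintro _ ⟨e, he, rfl⟩
      have he' : e.1.1 = s := he
      have := e.2
      rw [he'] at this
      exact Q.mem_rts.2 this
    · intro e he e' he' h
      have h1 : e.1.1 = s := he
      have h2 : e'.1.1 = s := he'
      exact Subtype.ext (Prod.ext (h1.trans h2.symm) h)

/-- a non-empty clopen part of the covering of roots is a `Srf` -/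
theorem exists_srf_fam (Q : AJ387.Fam {w : ℂ // w ∉ (S : Set ℂ)} d) (Y : Set Q.E)
    (hY : IsClopen Y) (hne : Y.Nonempty) :
    ∃ T : Srf Y, (T.pr = fun y => (y.1.1.1 : ℂ)) ∧ T.S = S := by
  have : Nonempty Y := hne.to_subtype
  exact exists_srf ((ofFam Q).restrict Y hY)


end Crest.Agent.R257.Cpt1_419
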