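import Crest.Agent.R257.P8c_472

/-!
R257 / Cub1_89: a smooth plane cubic has no infinitesimal symmetries: `D (L v) v v = 0` for all `v`
implies `L = 0`.
-/

set_option autoImplicit false
set_option linter.unusedVariables false
set_option linter.unusedSectionVars false

noncomputable section

namespace Crest.Agent.R257.Cub1_89

open Crest.Agent.R257.Defs_219 Crest.Agent.R257.P8c_472

variable {D : E3 → E3 → E3 → ℂ}

section Pol

variable (hD : Tri D) {L : E3 →ₗ[ℂ] E3} (h : ∀ v, D (L v) v v = 0)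

include hD h

theorem pol2 (v w : E3) : 2 * D (L v) v w + D v v (L w) = 0 := by
  have h1 := h (v + w)
  have h2 := h (v + (-1 : ℂ) • w)
  simp only [map_add, map_smul, hD.add1, hD.smul1, hD.add2, hD.smul2, hD.add, hD.smul] at h1 h2
  have h3 := h v
  have h4 := h w
  have e1 : D v v (L w) = D (L w) v v := by rw [hD.sw23, hD.sw12]
  have e2 : D (L v) w v = D (L v) v w := hD.sw23 _ _ _
  have e3 : D (L w) w v = D (L w) v w := hD.sw23 _ _ _
  rw [e1]
  rw [e2, e3] at h1 h2
  linear_combination (1 / 2 : ℂ) * h1 - (1 / 2 : ℂ) * h2 - h4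

theorem pol3 (u v w : E3) : D (L u) v w + D (L v) u w + D u v (L w) = 0 := by
  have h1 := pol2 hD h (u + v) w
  have h2 := pol2 hD h u w
  have h3 := pol2 hD h v w
  simp only [map_add, hD.add1, hD.add2] at h1
  rw [hD.sw12 v u (L w)] at h1
  linear_combination (1 / 2 : ℂ) * h1 - (1 / 2 : ℂ) * h2 - (1 / 2 : ℂ) * h3

end Pol

/-- the functional `w ↦ D u v w` -/
def fn (hD : Tri D) (u v : E3) : E3 →ₗ[ℂ] ℂ where
  toFun w := D u v w
  map_add' := hD.add u v
  map_smul' := fun c w => by rw [hD.smul]; rfl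

theorem eig_step (hD : Tri D) {L : E3 →ₗ[ℂ] E3} (h : ∀ v, D (L v) v v = 0)
    (hs : ∀ v : E3, v ≠ 0 → ∃ w, D v v w ≠ 0) {c : ℂ}
    (hc : Module.End.HasEigenvalue L c) : Module.End.HasEigenvalue L (-2 * c) := by
  obtain ⟨v, hv⟩ := hc.exists_hasEigenvector
  have hLv : L v = c • v := hv.apply_eq_smul
  have hv0 : v ≠ 0 := hv.2
  obtain ⟨w, hw⟩ := hs v hv0
  -- `φ ∘ (L + 2c) = 0`
  have h1 : ∀ x, D v v (L x + (2 * c) • x) = 0 := by
    intro x
    have h2 := pol2 hD h v x
    rw [hLv, hD.smul1] at h2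
    rw [hD.add, hD.smul]
    linear_combination h2
  let K : E3 →ₗ[ℂ] E3 := L - (-2 * c) • LinearMap.id
  have hK : ∀ x, K x = L x + (2 * c) • x := by
    intro x
    simp only [K, LinearMap.sub_apply, LinearMap.smul_apply, LinearMap.id_apply]
    rw [sub_eq_add_neg, ← neg_smul]
    congr 2
    ring
  have h2 : ¬ Function.Surjective K := by
    intro hsur
    obtain ⟨x, hx⟩ := hsur w
    apply hw
    rw [← hx, hK]
    exact h1 x
  have h3 : ¬ Function.Injective K := fun hi => h2 (LinearMap.injective_iff_surjective.1 hi)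
  rw [injective_iff_map_eq_zero] at h3
  push Not at h3
  obtain ⟨x, hx, hx0⟩ := h3
  refine Module.End.hasEigenvalue_of_hasEigenvector (x := x) ⟨?_, hx0⟩
  rw [Module.End.mem_eigenspace_iff]
  have h4 : L x - (-2 * c) • x = 0 := hx
  exact sub_eq_zero.1 h4

theorem eig_zero (hD : Tri D) {L : E3 →ₗ[ℂ] E3} (h : ∀ v, D (L v) v v = 0)
    (hs : ∀ v : E3, v ≠ 0 → ∃ w, D v v w ≠ 0) {c : ℂ}
    (hc : Module.End.HasEigenvalue L c) : c = 0 := by
  by_contra hc0
  have h1 : ∀ n : ℕ, Module.End.HasEigenvalue L ((-2) ^ n * c) := by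
    intro n
    induction n with
    | zero => simpa using hc
    | succ n ih =>
      have h2 := eig_step hD h hs ih
      have h3 : -2 * ((-2) ^ n * c) = (-2) ^ (n + 1) * c := by ring
      rw [h3] at h2
      exact h2
  have hfin : (spectrum ℂ L).Finite := Module.End.finite_spectrum L
  have hinj : Function.Injective fun n : ℕ => (-2 : ℂ) ^ n * c := by
    intro m n hmn
    have h2 : (-2 : ℂ) ^ m = (-2) ^ n := mul_right_cancel₀ hc0 hmn
    have h3 : ‖(-2 : ℂ) ^ m‖ = ‖(-2 : ℂ) ^ n‖ := by rw [h2]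
    rw [norm_pow, norm_pow, norm_neg] at h3
    have h4 : ‖(2 : ℂ)‖ = 2 := by norm_num
    rw [h4] at h3
    exact pow_right_injective₀ (by norm_num : (0 : ℝ) < 2) (by norm_num) h3
  refine Set.infinite_range_of_injective hinj (hfin.subset ?_)
  rintro _ ⟨n, rfl⟩
  exact Module.End.hasEigenvalue_iff_mem_spectrum.1 (h1 n)

theorem pow3 {L : E3 →ₗ[ℂ] E3} (h : ∀ c, Module.End.HasEigenvalue L c → c = 0) (x : E3) :
    L (L (L x)) = 0 := by
  have hsp := IsAlgClosed.splits (LinearMap.charpoly L)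
  have hprod := hsp.eq_prod_roots_of_monic (LinearMap.charpoly_monic L)
  have hroots : (LinearMap.charpoly L).roots =
      Multiset.replicate (Multiset.card (LinearMap.charpoly L).roots) 0 := by
    refine Multiset.eq_replicate.2 ⟨rfl, fun b hb => ?_⟩
    refine h b ((Module.End.hasEigenvalue_iff_isRoot_charpoly L b).2 ?_)
    exact (Polynomial.mem_roots'.1 hb).2
  have hcard : Multiset.card (LinearMap.charpoly L).roots ≤ 3 := by
    refine (Polynomial.card_roots' _).trans ?_
    rw [LinearMap.charpoly_natDegree]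
    simp
  set m := Multiset.card (LinearMap.charpoly L).roots with hm
  rw [hroots] at hprod
  simp only [Multiset.map_replicate, map_zero, sub_zero, Multiset.prod_replicate] at hprod
  have h1 := LinearMap.aeval_self_charpoly L
  rw [hprod, map_pow, Polynomial.aeval_X] at h1
  have h2 : L ^ 3 = 0 := pow_eq_zero_of_le hcard h1
  have h3 := LinearMap.congr_fun h2 x
  simpa [pow_succ] using h3

/-- **no infinitesimal symmetries** -/
theorem no_syz (hD : Tri D) {L : E3 →ₗ[ℂ] E3} (h : ∀ v, D (L v) v v = 0)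
    (hs : ∀ v : E3, v ≠ 0 → ∃ w, D v v w ≠ 0) : L = 0 := by
  by_contra hL0
  have hL3 := pow3 (L := L) fun c hc => eig_zero hD h hs hc
  -- `u = L w₀ ≠ 0`, `L u = 0`, `L² w ∈ ℂ u`
  obtain ⟨w₀, hu0, hLu, hspan⟩ : ∃ w₀ : E3, L w₀ ≠ 0 ∧ L (L w₀) = 0 ∧
      ∀ w, ∃ c : ℂ, L (L w) = c • L w₀ := by
    by_cases h2 : ∀ x, L (L x) = 0
    · obtain ⟨w₀, hw₀⟩ : ∃ w₀, L w₀ ≠ 0 := by
        by_contra hne
        push Not at hne
        exact hL0 (LinearMap.ext hne)
      exact ⟨w₀, hw₀, h2 _, fun w => ⟨0, by rw [h2, zero_smul]⟩⟩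
    · push Not at h2
      obtain ⟨w₁, hw₁⟩ := h2
      refine ⟨L w₁, hw₁, hL3 _, ?_⟩
      have hind : LinearIndependent ℂ ![w₁, L w₁, L (L w₁)] := by
        rw [Fintype.linearIndependent_iff]
        intro g hg
        simp only [Fin.sum_univ_three, Matrix.cons_val_zero, Matrix.cons_val_one,
          Matrix.cons_val] at hg
        have h3 : g 0 = 0 := by
          have h4 := congrArg (fun v => L (L v)) hg
          simp only [map_add, map_smul, hL3, map_zero, smul_zero, add_zero] at h4
          exact (smul_eq_zero.1 h4).resolve_right hw₁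
        rw [h3, zero_smul, zero_add] at hg
        have h5 : g 1 = 0 := by
          have h4 := congrArg (fun v => L v) hg
          simp only [map_add, map_smul, hL3, map_zero, smul_zero, add_zero] at h4
          exact (smul_eq_zero.1 h4).resolve_right hw₁
        rw [h5, zero_smul, zero_add] at hg
        have h6 : g 2 = 0 := (smul_eq_zero.1 hg).resolve_right hw₁
        intro i
        fin_cases i
        · exact h3
        · exact h5
        · exact h6
      intro w
      have htop := hind.span_eq_top_of_card_eq_finrank (by simp)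
      have hw : w ∈ Submodule.span ℂ (Set.range ![w₁, L w₁, L (L w₁)]) := by
        rw [htop]; trivial
      obtain ⟨g, hg⟩ := (Submodule.mem_span_range_iff_exists_fun ℂ).1 hw
      simp only [Fin.sum_univ_three, Matrix.cons_val_zero, Matrix.cons_val_one,
          Matrix.cons_val] at hg
      refine ⟨g 0, ?_⟩
      rw [← hg]
      simp only [map_add, map_smul, hL3, smul_zero, add_zero]
  -- `B v w = D u v w`, `u = L w₀`
  set u := L w₀ with hu
  obtain ⟨w, hw⟩ := hs u hu0
  apply hw
  have p3 := fun a b c => pol3 hD h a b c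
  have z : ∀ a b, D 0 a b = 0 := fun a b => by
    have := hD.smul1 0 a b 0
    rwa [zero_smul, zero_mul] at this
  have z3 : ∀ a b, D a b 0 = 0 := fun a b => by
    have := hD.smul a b 0 0
    rwa [zero_smul, zero_mul] at this
  -- `B (L v) w = - B v (L w)`
  have b1 : ∀ v w, D u (L v) w = - D u v (L w) := by
    intro v w
    have h1 := p3 u v w
    rw [hLu, z, hD.sw12 (L v) u w] at h1
    linear_combination h1
  have b2 : ∀ w, D u w₀ w = -(1 / 2) * D w₀ w₀ (L w) := by
    intro w
    have h1 := p3 w₀ w₀ w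
    rw [← hu] at h1
    linear_combination (1 / 2 : ℂ) * h1
  obtain ⟨c, hc⟩ := hspan w
  have b3 : D u u w = (1 / 2) * D w₀ w₀ (L (L w)) := by
    have h1 := b1 w₀ w
    rw [← hu, b2] at h1
    linear_combination h1
  have b4 : D u w₀ w₀ = 0 := by
    have h1 := b2 w₀
    rw [← hu] at h1
    have h2 : D w₀ w₀ u = D u w₀ w₀ := by rw [hD.sw23, hD.sw12]
    rw [h2] at h1
    linear_combination (2 / 3 : ℂ) * h1
  have h2 : D w₀ w₀ u = D u w₀ w₀ := by rw [hD.sw23, hD.sw12]
  rw [b3, hc, hD.smul, h2, b4]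
  ring

end Crest.Agent.R257.Cub1_89
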