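import Mathlib

/-!
R257 / Cub2_89: three ternary quadratic forms `q_j` without common zero and without linear syzygy:
* `P4_le` : every quartic form is a combination of the `X_a X_b q_j`;
* `le8`   : a local algebra with maximal ideal `(x_0, x_1, x_2)` modulo an ideal containing `q_j(x)`
            modulo `M³` has dimension at most `8`.
-/

set_option autoImplicit false
set_option linter.unusedVariables false
set_option linter.unusedSectionVars false

noncomputable section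

open MvPolynomial
open scoped Pointwise

namespace Crest.Agent.R257.Cub2_89

/-- polynomials in three variables -/
abbrev R : Type := MvPolynomial (Fin 3) ℂ

/-! ### forms -/

/-- the monomials of degree `d` -/
def mon (d : ℕ) (s : Sym (Fin 3) d) : R := ((s : Multiset (Fin 3)).map X).prod

/-- the forms of degree `d` -/
def P (d : ℕ) : Submodule ℂ R := Submodule.span ℂ (Set.range (mon d))

instance (d : ℕ) : FiniteDimensional ℂ (P d) :=
  FiniteDimensional.span_of_finite ℂ (Set.finite_range _)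

theorem finrank_P (d : ℕ) : Module.finrank ℂ (P d) ≤ Nat.multichoose 3 d := by
  have h1 := finrank_range_le_card (R := ℂ) (mon d)
  rw [Sym.card_sym_eq_multichoose, Fintype.card_fin] at h1
  exact h1

theorem mon_cons {d : ℕ} (i : Fin 3) (s : Sym (Fin 3) d) :
    mon (d + 1) (i ::ₛ s) = X i * mon d s := by
  show ((i ::ₘ (s : Multiset (Fin 3))).map X).prod = _
  rw [Multiset.map_cons, Multiset.prod_cons]
  rfl

theorem mon_zero (s : Sym (Fin 3) 0) : mon 0 s = 1 := by
  rw [Sym.eq_nil_of_card_zero s]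
  simp [mon]

theorem mon_mem (d : ℕ) (s : Sym (Fin 3) d) : mon d s ∈ P d := Submodule.subset_span ⟨s, rfl⟩

theorem one_mem_P : (1 : R) ∈ P 0 := by
  rw [← mon_zero Sym.nil]
  exact mon_mem 0 _

theorem P_ind {d : ℕ} {W : Submodule ℂ R} (h : ∀ i, ∀ m ∈ P d, X i * m ∈ W) : P (d + 1) ≤ W := by
  refine Submodule.span_le.2 ?_
  rintro _ ⟨s, rfl⟩
  obtain ⟨i, s', rfl⟩ := Sym.exists_eq_cons_of_succ s
  rw [mon_cons]
  exact h i _ (mon_mem d s')

theorem X_mul_mem {d : ℕ} (i : Fin 3) {p : R} (hp : p ∈ P d) : X i * p ∈ P (d + 1) := by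
  refine Submodule.span_induction (p := fun p _ => X i * p ∈ P (d + 1)) ?_ ?_ ?_ ?_ hp
  · rintro _ ⟨s, rfl⟩
    rw [← mon_cons]
    exact mon_mem _ _
  · rw [mul_zero]; exact zero_mem _
  · intro p q _ _ hp hq
    rw [mul_add]; exact add_mem hp hq
  · intro c p _ hp
    rw [mul_smul_comm]; exact Submodule.smul_mem _ _ hp

/-- the complement of an independent family -/
theorem exists_compl {V : Type*} [AddCommGroup V] [Module ℂ V] {P : Submodule ℂ V}
    [FiniteDimensional ℂ P] {ι : Type*} [Fintype ι] {v : ι → V} (hv : LinearIndependent ℂ v)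
    (hP : ∀ i, v i ∈ P) {m : ℕ} (hm : Module.finrank ℂ P ≤ Fintype.card ι + m) :
    ∃ C : Submodule ℂ V, C ≤ P ∧ Module.finrank ℂ C ≤ m ∧
      P ≤ Submodule.span ℂ (Set.range v) ⊔ C := by
  set Q := Submodule.span ℂ (Set.range v) with hQ
  have hQP : Q ≤ P := Submodule.span_le.2 (by rintro _ ⟨i, rfl⟩; exact hP i)
  obtain ⟨C', hC'⟩ := Submodule.exists_isCompl Q
  have hsup : Q ⊔ C' ⊓ P = P := by
    rw [← sup_inf_assoc_of_le C' hQP, hC'.sup_eq_top, top_inf_eq]
  have hinf : Q ⊓ (C' ⊓ P) = ⊥ := by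
    rw [← inf_assoc, hC'.inf_eq_bot, bot_inf_eq]
  have : FiniteDimensional ℂ (C' ⊓ P : Submodule ℂ V) :=
    Submodule.finiteDimensional_of_le (inf_le_right : C' ⊓ P ≤ P)
  have : FiniteDimensional ℂ Q := Submodule.finiteDimensional_of_le hQP
  refine ⟨C' ⊓ P, inf_le_right, ?_, hsup.ge⟩
  have h1 := Submodule.finrank_sup_add_finrank_inf_eq Q (C' ⊓ P)
  rw [hsup, hinf, finrank_bot, add_zero] at h1
  have h2 : Module.finrank ℂ Q = Fintype.card ι := finrank_span_eq_card hv
  omega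

/-! ### three quadratic forms -/

section Quad

variable (c : Fin 3 → Fin 3 → Fin 3 → ℂ)

/-- the quadratic forms -/
def q (j : Fin 3) : R := ∑ k, ∑ l, c j k l • (X k * X l)

theorem q_mem (j : Fin 3) : q c j ∈ P 2 := by
  unfold q
  refine Submodule.sum_mem _ fun k _ => Submodule.sum_mem _ fun l _ =>
    Submodule.smul_mem _ _ (X_mul_mem k ?_)
  have h1 := X_mul_mem l one_mem_P
  rwa [mul_one] at h1

/-- no linear syzygy, no common zero -/
structure Nice : Prop where
  syz : LinearIndependent ℂ fun p : Fin 3 × Fin 3 => (X p.1 : R) * q c p.2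
  zero : ∀ a : Fin 3 → ℂ, a ≠ 0 → ∃ j, ∑ k, ∑ l, c j k l * (a k * a l) ≠ 0

variable {c}

theorem Nice.q_ind (h : Nice c) : LinearIndependent ℂ (q c) := by
  have h1 : LinearIndependent ℂ fun j : Fin 3 => (X 0 : R) * q c j :=
    h.syz.comp (fun j => ((0 : Fin 3), j)) fun a b hab => (Prod.mk.inj hab).2
  exact LinearIndependent.of_comp (LinearMap.mulLeft ℂ (X 0 : R)) h1

theorem Nice.P3 (h : Nice c) : ∃ C : Submodule ℂ R, C ≤ P 3 ∧ Module.finrank ℂ C ≤ 1 ∧
    P 3 ≤ Submodule.span ℂ (Set.range fun p : Fin 3 × Fin 3 => (X p.1 : R) * q c p.2) ⊔ C := by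
  refine exists_compl h.syz (fun p => X_mul_mem p.1 (q_mem c p.2)) ?_
  refine (finrank_P 3).trans ?_
  simp [Nat.multichoose_eq, Nat.choose]

theorem Nice.P2 (h : Nice c) : ∃ C : Submodule ℂ R, C ≤ P 2 ∧ Module.finrank ℂ C ≤ 3 ∧
    P 2 ≤ Submodule.span ℂ (Set.range (q c)) ⊔ C := by
  refine exists_compl h.q_ind (q_mem c) ?_
  refine (finrank_P 2).trans ?_
  simp [Nat.multichoose_eq, Nat.choose]

theorem P1_le {W : Submodule ℂ R} (h : ∀ l : Fin 3, (X l : R) ∈ W) : P 1 ≤ W := by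
  have h1 : P (0 + 1) ≤ W := by
    refine P_ind fun l m hm => ?_
    refine Submodule.span_induction (p := fun m _ => (X l : R) * m ∈ W) ?_ ?_ ?_ ?_ hm
    · rintro _ ⟨s, rfl⟩
      rw [mon_zero, mul_one]
      exact h l
    · rw [mul_zero]; exact zero_mem _
    · intro p q _ _ hp hq
      rw [mul_add]; exact add_mem hp hq
    · intro c p _ hp
      rw [mul_smul_comm]; exact Submodule.smul_mem _ _ hp
  exact h1

theorem X_mem_P1 (l : Fin 3) : (X l : R) ∈ P 1 := by
  have h1 := X_mul_mem l one_mem_P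
  rwa [mul_one] at h1

theorem ker_le {f : R →ₗ[ℂ] ℂ} {r : R} {p : R}
    (h : p ∈ LinearMap.ker (f.comp (LinearMap.mulLeft ℂ r))) : f (r * p) = 0 := h

theorem fun_zero {f : R →ₗ[ℂ] ℂ} {a : Fin 3 → ℂ} {o : Fin 3} (ho : a o ≠ 0)
    (star2 : ∀ p ∈ P 3, ∀ i j, f (X i * p) * a j = f (X j * p) * a i) {j : Fin 3}
    (hj : ∑ k, ∑ l, c j k l * (a k * a l) ≠ 0) (hQ : f (X o * (X o * q c j)) = 0) :
    ∀ p ∈ P 3, ∀ i, f (X i * p) = 0 := by
  have hX2 : ∀ k l, (X k * X l : R) ∈ P 2 := fun k l => X_mul_mem k (X_mem_P1 l)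
  -- `G = f (X_o⁴)`
  have g1 : ∀ l, f (X o * (X o * (X o * X l))) * a o = f (X o * (X o * (X o * X o))) * a l := by
    intro l
    have h1 := star2 (X o * (X o * X o)) (X_mul_mem o (hX2 o o)) l o
    rw [show (X l * (X o * (X o * X o)) : R) = X o * (X o * (X o * X l)) by ring] at h1
    exact h1
  have g2 : ∀ k l, f (X o * (X o * (X k * X l))) * (a o * a o) =
      f (X o * (X o * (X o * X o))) * (a k * a l) := by
    intro k l
    have h1 := star2 (X o * (X o * X l)) (X_mul_mem o (hX2 o l)) k o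
    rw [show (X k * (X o * (X o * X l)) : R) = X o * (X o * (X k * X l)) by ring] at h1
    linear_combination a o * h1 + a k * g1 l
  have hG : f (X o * (X o * (X o * X o))) = 0 := by
    have h2 : f (X o * (X o * q c j)) * (a o * a o) =
        f (X o * (X o * (X o * X o))) * ∑ k, ∑ l, c j k l * (a k * a l) := by
      unfold q
      simp only [Finset.mul_sum, mul_smul_comm, map_sum, map_smul, smul_eq_mul, Finset.sum_mul]
      refine Finset.sum_congr rfl fun k _ => Finset.sum_congr rfl fun l _ => ?_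
      linear_combination c j k l * g2 k l
    rw [hQ, zero_mul] at h2
    exact (mul_eq_zero.1 h2.symm).resolve_right hj
  have e0 : ∀ k, ∀ m ∈ P 1, f (X o * (X o * (X k * m))) = 0 := by
    intro k m hm
    have h1 : P 1 ≤ LinearMap.ker (f.comp (LinearMap.mulLeft ℂ (X o * X o * X k : R))) := by
      refine P1_le fun l => ?_
      rw [LinearMap.mem_ker, LinearMap.comp_apply, LinearMap.mulLeft_apply]
      have h1 := g2 k l
      rw [hG, zero_mul] at h1
      rw [mul_assoc, mul_assoc]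
      exact (mul_eq_zero.1 h1).resolve_right (mul_ne_zero ho ho)
    have h2 := ker_le (h1 hm)
    rw [mul_assoc, mul_assoc] at h2
    exact h2
  have e1 : ∀ m ∈ P 2, f (X o * (X o * m)) = 0 := by
    intro m hm
    have h1 : P 2 ≤ LinearMap.ker (f.comp (LinearMap.mulLeft ℂ (X o * X o : R))) := by
      refine P_ind fun k m hm => ?_
      rw [LinearMap.mem_ker, LinearMap.comp_apply, LinearMap.mulLeft_apply, mul_assoc]
      exact e0 k m hm
    have h2 := ker_le (h1 hm)
    rw [mul_assoc] at h2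
    exact h2
  have e3 : ∀ p ∈ P 3, f (X o * p) = 0 := by
    intro p hp
    have h1 : P 3 ≤ LinearMap.ker (f.comp (LinearMap.mulLeft ℂ (X o : R))) := by
      refine P_ind fun k m hm => ?_
      rw [LinearMap.mem_ker, LinearMap.comp_apply, LinearMap.mulLeft_apply]
      have h1 := star2 (X o * m) (X_mul_mem o hm) k o
      rw [e1 m hm, zero_mul, show (X k * (X o * m) : R) = X o * (X k * m) by ring] at h1
      exact (mul_eq_zero.1 h1).resolve_right ho
    exact ker_le (h1 hp)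
  intro p hp i
  have h1 := star2 p hp i o
  rw [e3 p hp, zero_mul] at h1
  exact (mul_eq_zero.1 h1).resolve_right ho

/-- **quartic forms** -/
theorem Nice.P4 (h : Nice c) : P 4 ≤ Submodule.span ℂ
    (Set.range fun t : Fin 3 × Fin 3 × Fin 3 => (X t.1 : R) * (X t.2.1 * q c t.2.2)) := by
  set Q4 := Submodule.span ℂ
    (Set.range fun t : Fin 3 × Fin 3 × Fin 3 => (X t.1 : R) * (X t.2.1 * q c t.2.2)) with hQ4
  have hQ : ∀ a b j, (X a : R) * (X b * q c j) ∈ Q4 := fun a b j =>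
    Submodule.subset_span ⟨(a, b, j), rfl⟩
  intro p₀ hp₀
  by_contra hne
  obtain ⟨f, hf, hfQ⟩ := Submodule.exists_le_ker_of_notMem hne
  obtain ⟨C, hCP, hC1, hC⟩ := h.P3
  have : FiniteDimensional ℂ C := Submodule.finiteDimensional_of_le hCP
  obtain ⟨κ, hκ⟩ := finrank_le_one_iff.1 hC1
  have hQf : ∀ x ∈ Q4, f x = 0 := fun x hx => hfQ hx
  let a : Fin 3 → ℂ := fun i => f (X i * (κ : R))
  have ha : ∀ i, f (X i * (κ : R)) = a i := fun i => rfl
  clear_value a
  -- on cubics, `f (X_i p) = s a_i`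
  have star : ∀ p ∈ P 3, ∃ s : ℂ, ∀ i, f (X i * p) = s * a i := by
    intro p hp
    obtain ⟨l, hl, m, hm, rfl⟩ := Submodule.mem_sup.1 (hC hp)
    obtain ⟨s, hs⟩ := hκ ⟨m, hm⟩
    refine ⟨s, fun i => ?_⟩
    have h1 : f (X i * l) = 0 := by
      refine hQf _ ?_
      refine Submodule.span_induction (p := fun l _ => X i * l ∈ Q4) ?_ ?_ ?_ ?_ hl
      · rintro _ ⟨⟨b, j⟩, rfl⟩
        exact hQ i b j
      · rw [mul_zero]; exact zero_mem _
      · intro p q _ _ hp hq
        rw [mul_add]; exact add_mem hp hq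
      · intro c p _ hp
        rw [mul_smul_comm]; exact Submodule.smul_mem _ _ hp
    have h2 : m = s • (κ : R) := by rw [← Submodule.coe_smul, hs]
    rw [mul_add, map_add, h1, zero_add, h2, mul_smul_comm, map_smul, smul_eq_mul, ha]
  have star2 : ∀ p ∈ P 3, ∀ i j, f (X i * p) * a j = f (X j * p) * a i := by
    intro p hp i j
    obtain ⟨s, hs⟩ := star p hp
    rw [hs, hs]
    ring
  have hvan : ¬ ∀ p ∈ P 3, ∀ i, f (X i * p) = 0 := by
    intro hall
    have h1 : P 4 ≤ LinearMap.ker f := P_ind fun i m hm => hall m hm i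
    exact hf (h1 hp₀)
  have ha0 : a ≠ 0 := by
    intro ha0
    apply hvan
    intro p hp i
    obtain ⟨s, hs⟩ := star p hp
    rw [hs, ha0]
    simp
  obtain ⟨o, ho⟩ : ∃ o, a o ≠ 0 := Function.ne_iff.1 ha0
  obtain ⟨j, hj⟩ := h.zero a ha0
  exact hvan (fun_zero ho star2 hj (hQf _ (hQ o o j)))

end Quad

/-! ### local algebras -/

section Loc

open IsLocalRing

variable {A : Type*} [CommRing A] [IsLocalRing A] [Algebra ℂ A] (x : Fin 3 → A)

local notation "M" => maximalIdeal A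

/-- evaluation -/
def ev : R →ₐ[ℂ] A := aeval x

theorem ev_X (i : Fin 3) : ev x (X i) = x i := aeval_X x i

variable {x}

theorem pow_eq (hM : M = Ideal.span (Set.range x)) (d : ℕ) :
    M ^ d = Ideal.span (Set.range fun s => ev x (mon d s)) := by
  induction d with
  | zero =>
    rw [pow_zero, Ideal.one_eq_top, eq_comm, Ideal.eq_top_iff_one]
    refine Ideal.subset_span ⟨Sym.nil, ?_⟩
    show ev x (mon 0 Sym.nil) = 1
    rw [mon_zero, map_one]
  | succ d ih =>
    rw [pow_succ', ih]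
    conv_lhs => rw [hM]
    rw [Ideal.span_mul_span']
    congr 1
    ext y
    constructor
    · rintro ⟨_, ⟨i, rfl⟩, _, ⟨s, rfl⟩, rfl⟩
      refine ⟨i ::ₛ s, ?_⟩
      show ev x (mon (d + 1) (i ::ₛ s)) = x i * ev x (mon d s)
      rw [mon_cons, map_mul, ev_X]
    · rintro ⟨s, rfl⟩
      obtain ⟨i, s', rfl⟩ := Sym.exists_eq_cons_of_succ s
      refine ⟨x i, ⟨i, rfl⟩, ev x (mon d s'), ⟨s', rfl⟩, ?_⟩
      show x i * ev x (mon d s') = ev x (mon (d + 1) (i ::ₛ s'))
      rw [mon_cons, map_mul, ev_X]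

/-- one layer -/
theorem layer (hres : ∀ a : A, ∃ c : ℂ, a - algebraMap ℂ A c ∈ M) (S : Set A) (W : Submodule ℂ A)
    (hS : ∀ s ∈ S, s ∈ W) (hM : ∀ a ∈ M * Ideal.span S, a ∈ W) :
    ∀ a ∈ Ideal.span S, a ∈ W := by
  intro a ha
  induction ha using Submodule.span_induction with
  | mem a ha => exact hS a ha
  | zero => exact W.zero_mem
  | add a b _ _ ha hb => exact W.add_mem ha hb
  | smul r a ha' ha =>
    obtain ⟨c, hc⟩ := hres r
    have e : r • a = c • a + (r - algebraMap ℂ A c) * a := by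
      rw [smul_eq_mul, Algebra.smul_def]
      ring
    rw [e]
    exact W.add_mem (W.smul_mem c ha) (hM _ (Ideal.mul_mem_mul hc ha'))

variable {c : Fin 3 → Fin 3 → Fin 3 → ℂ}

/-- **dimension at most eight** -/
theorem le8 (h : Nice c) (hres : ∀ a : A, ∃ c : ℂ, a - algebraMap ℂ A c ∈ M)
    (hM : M = Ideal.span (Set.range x)) (I : Ideal A)
    (hq : ∀ j, ev x (q c j) ∈ I ⊔ M ^ 3) :
    Module.Finite ℂ (A ⧸ I) ∧ Module.finrank ℂ (A ⧸ I) ≤ 8 := by
  have hxM : ∀ i, x i ∈ M := fun i => by rw [hM]; exact Ideal.subset_span ⟨i, rfl⟩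
  have hmul : ∀ (i : Fin 3) (n : ℕ) (y : A), y ∈ I ⊔ M ^ n → x i * y ∈ I ⊔ M ^ (n + 1) := by
    intro i n y hy
    obtain ⟨u, hu, v, hv, rfl⟩ := Submodule.mem_sup.1 hy
    rw [mul_add]
    refine add_mem (Submodule.mem_sup_left (I.mul_mem_left _ hu)) (Submodule.mem_sup_right ?_)
    rw [pow_succ']
    exact Ideal.mul_mem_mul (hxM i) hv
  -- `M⁴ ≤ I`
  have h4 : M ^ 4 ≤ I := by
    have h5 : M ^ 4 ≤ I ⊔ M • M ^ 4 := by
      have h6 : M • M ^ 4 = M ^ 5 := by rw [smul_eq_mul, ← pow_succ']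
      rw [h6]
      conv_lhs => rw [pow_eq hM 4]
      refine Ideal.span_le.2 ?_
      rintro _ ⟨s, rfl⟩
      have h7 := h.P4 (mon_mem 4 s)
      refine Submodule.span_induction (p := fun p _ => ev x p ∈ I ⊔ M ^ 5) ?_ ?_ ?_ ?_ h7
      · rintro _ ⟨⟨a, b, j⟩, rfl⟩
        show ev x (X a * (X b * q c j)) ∈ _
        rw [map_mul, map_mul, ev_X, ev_X]
        exact hmul a 4 _ (hmul b 3 _ (hq j))
      · rw [map_zero]; exact zero_mem _
      · intro p q _ _ hp hq
        rw [map_add]; exact add_mem hp hq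
      · intro c p _ hp
        rw [map_smul, Algebra.smul_def]; exact Ideal.mul_mem_left _ _ hp
    refine Submodule.le_of_le_smul_of_le_jacobson_bot (I := M) ?_ ?_ h5
    · exact Ideal.FG.pow (hM ▸ Submodule.fg_span (Set.finite_range x))
    · rw [IsLocalRing.jacobson_eq_maximalIdeal ⊥ bot_ne_top]
  obtain ⟨C3, hC3P, hC3, hP3⟩ := h.P3
  obtain ⟨C2, hC2P, hC2, hP2⟩ := h.P2
  have f3 : FiniteDimensional ℂ C3 := Submodule.finiteDimensional_of_le hC3P
  have f2 : FiniteDimensional ℂ C2 := Submodule.finiteDimensional_of_le hC2P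
  set C : Submodule ℂ R := (P 0 ⊔ P 1) ⊔ (C2 ⊔ C3) with hC
  have hCfin : Module.finrank ℂ C ≤ 8 := by
    have h1 := finrank_P 0
    have h2 := finrank_P 1
    have h3 := Submodule.finrank_add_le_finrank_add_finrank (P 0) (P 1)
    have h4 := Submodule.finrank_add_le_finrank_add_finrank C2 C3
    have h5 := Submodule.finrank_add_le_finrank_add_finrank (P 0 ⊔ P 1) (C2 ⊔ C3)
    have e0 : Nat.multichoose 3 0 = 1 := by simp
    have e1 : Nat.multichoose 3 1 = 3 := by simp
    rw [hC]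
    omega
  set W : Submodule ℂ A := I.restrictScalars ℂ ⊔ C.map (ev x).toLinearMap with hW
  have hIW : ∀ y ∈ I, y ∈ W := fun y hy => Submodule.mem_sup_left hy
  have hCW : ∀ p ∈ C, ev x p ∈ W := fun p hp =>
    Submodule.mem_sup_right (Submodule.mem_map_of_mem hp)
  have hIM : ∀ n, (∀ y ∈ M ^ n, y ∈ W) → ∀ y ∈ I ⊔ M ^ n, y ∈ W := by
    intro n hn y hy
    obtain ⟨u, hu, v, hv, rfl⟩ := Submodule.mem_sup.1 hy
    exact add_mem (hIW u hu) (hn v hv)
  have hlay : ∀ n, (∀ s, ev x (mon n s) ∈ W) → (∀ y ∈ M ^ (n + 1), y ∈ W) →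
      ∀ y ∈ M ^ n, y ∈ W := by
    intro n h1 h2 y hy
    rw [pow_eq hM n] at hy
    refine layer hres _ W ?_ ?_ y hy
    · rintro _ ⟨s, rfl⟩
      exact h1 s
    · intro b hb
      rw [← pow_eq hM n, ← pow_succ'] at hb
      exact h2 b hb
  have w4 : ∀ y ∈ M ^ 4, y ∈ W := fun y hy => hIW y (h4 hy)
  have w3 : ∀ y ∈ M ^ 3, y ∈ W := by
    refine hlay 3 (fun s => ?_) w4
    obtain ⟨l, hl, m, hm, he⟩ := Submodule.mem_sup.1 (hP3 (mon_mem 3 s))
    rw [← he, map_add]
    refine add_mem ?_ (hCW m (Submodule.mem_sup_right (Submodule.mem_sup_right hm)))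
    refine Submodule.span_induction (p := fun p _ => ev x p ∈ W) ?_ ?_ ?_ ?_ hl
    · rintro _ ⟨⟨b, j⟩, rfl⟩
      show ev x (X b * q c j) ∈ _
      rw [map_mul, ev_X]
      exact hIM 4 w4 _ (hmul b 3 _ (hq j))
    · rw [map_zero]; exact zero_mem _
    · intro p q _ _ hp hq
      rw [map_add]; exact add_mem hp hq
    · intro c p _ hp
      rw [map_smul]; exact Submodule.smul_mem _ _ hp
  have w2 : ∀ y ∈ M ^ 2, y ∈ W := by
    refine hlay 2 (fun s => ?_) w3
    obtain ⟨l, hl, m, hm, he⟩ := Submodule.mem_sup.1 (hP2 (mon_mem 2 s))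
    rw [← he, map_add]
    refine add_mem ?_ (hCW m (Submodule.mem_sup_right (Submodule.mem_sup_left hm)))
    refine Submodule.span_induction (p := fun p _ => ev x p ∈ W) ?_ ?_ ?_ ?_ hl
    · rintro _ ⟨j, rfl⟩
      exact hIM 3 w3 _ (hq j)
    · rw [map_zero]; exact zero_mem _
    · intro p q _ _ hp hq
      rw [map_add]; exact add_mem hp hq
    · intro c p _ hp
      rw [map_smul]; exact Submodule.smul_mem _ _ hp
  have w1 : ∀ y ∈ M ^ 1, y ∈ W := hlay 1 (fun s => hCW _ (Submodule.mem_sup_left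
    (Submodule.mem_sup_right (mon_mem 1 s)))) w2
  have w0 : ∀ y ∈ M ^ 0, y ∈ W := hlay 0 (fun s => hCW _ (Submodule.mem_sup_left
    (Submodule.mem_sup_left (mon_mem 0 s)))) w1
  have htop : ∀ y : A, y ∈ W := fun y => w0 y (by rw [pow_zero, Ideal.one_eq_top]; trivial)
  -- the surjection
  let g : C →ₗ[ℂ] A ⧸ I :=
    ((Ideal.Quotient.mkₐ ℂ I).toLinearMap.comp (ev x).toLinearMap).comp C.subtype
  have hg : Function.Surjective g := by
    intro b
    obtain ⟨a, rfl⟩ := Ideal.Quotient.mk_surjective b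
    obtain ⟨u, hu, v, hv, rfl⟩ := Submodule.mem_sup.1 (htop a)
    obtain ⟨p, hp, rfl⟩ := hv
    refine ⟨⟨p, hp⟩, ?_⟩
    show Ideal.Quotient.mk I (ev x p) = Ideal.Quotient.mk I (u + ev x p)
    rw [map_add, Ideal.Quotient.eq_zero_iff_mem.2 (show u ∈ I from hu), zero_add]
  have : FiniteDimensional ℂ C := by
    rw [hC]
    infer_instance
  exact ⟨Module.Finite.of_surjective g hg, (LinearMap.finrank_le_finrank_of_surjective hg).trans hCfin⟩

end Loc

end Crest.Agent.R257.Cub2_89
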