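import Crest.Agent.R257.Defs_219

set_option autoImplicit false

/-!
R257 / EVa_929 (helper929): ARC, the trace sum of `f` on the arcs of a polar curve (post 3263 of 838, (EV)/(EV2)).
-/

open Topology Filter Set
open Crest.AlgGeometry.Germ

noncomputable section

namespace Crest.Agent.R257.EVa_929

open Crest.Agent.R257.Defs_219

/-- an `m`-th root of a function of order `m` as a local coordinate -/
theorem root_chart {φ : ℂ → ℂ} {m : ℕ} (hm : 1 ≤ m) {g : ℂ → ℂ} (hg : AnalyticAt ℂ g 0)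
    (hg0 : g 0 ≠ 0) (hge : ∀ᶠ z in 𝓝 (0 : ℂ), φ z = z ^ m * g z) :
    ∃ e : OpenPartialHomeomorph ℂ ℂ, 0 ∈ e.source ∧ e 0 = 0 ∧
      ∀ᶠ τ in 𝓝 (0 : ℂ), φ τ = (e τ) ^ m := by
  obtain ⟨c, hc⟩ := IsAlgClosed.exists_pow_nat_eq (g 0) (n := m) (by omega)
  have hm0 : (m : ℂ) ≠ 0 := by exact_mod_cast (by omega : m ≠ 0)
  have hc0 : c ≠ 0 := by
    rintro rfl
    rw [zero_pow (by omega)] at hc
    exact hg0 hc.symm
  let u : ℂ → ℂ := fun z => c * Complex.exp (Complex.log (g z / g 0) / m)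
  have hq : AnalyticAt ℂ (fun z => g z / g 0) 0 := hg.div analyticAt_const hg0
  have hu : AnalyticAt ℂ u 0 := by
    refine analyticAt_const.mul (AnalyticAt.cexp ((AnalyticAt.clog hq ?_).div analyticAt_const hm0))
    simp [div_self hg0]
  have hu0 : u 0 = c := by simp [u, div_self hg0]
  have hum : ∀ᶠ z in 𝓝 (0 : ℂ), u z ^ m = g z := by
    filter_upwards [hg.continuousAt.eventually_ne hg0] with z hz
    simp only [u]
    rw [mul_pow, hc, ← Complex.exp_nat_mul, mul_div_cancel₀ _ hm0, Complex.exp_log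
      (div_ne_zero hz hg0), mul_div_cancel₀ _ hg0]
  let s : ℂ → ℂ := fun z => z * u z
  have hs : AnalyticAt ℂ s 0 := analyticAt_id.mul hu
  have hsd : HasStrictDerivAt s c 0 := by
    have h1 : HasStrictDerivAt s (1 * u 0 + 0 * deriv u 0) 0 :=
      (hasStrictDerivAt_id (0 : ℂ)).mul hu.hasStrictDerivAt
    simpa [hu0] using h1
  have hE := hsd.hasStrictFDerivAt_equiv hc0
  refine ⟨hE.toOpenPartialHomeomorph s, hE.mem_toOpenPartialHomeomorph_source, ?_, ?_⟩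
  · change s 0 = 0
    simp [s]
  · filter_upwards [hge, hum] with z h1 h2
    change φ z = (z * u z) ^ m
    rw [h1, mul_pow, h2]


lemma an_cd {n : ℕ} {f : (Fin n → ℂ) → ℂ} {p : Fin n → ℂ} (hf : AnalyticAt ℂ f p) (i : Fin n) :
    AnalyticAt ℂ (coordDeriv f i) p :=
  (ContinuousLinearMap.analyticAt
    (ContinuousLinearMap.apply ℂ ℂ (Pi.single i 1 : Fin n → ℂ)) _).comp hf.fderiv

lemma fd_sum {n : ℕ} (f : (Fin n → ℂ) → ℂ) (x v : Fin n → ℂ) :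
    fderiv ℂ f x v = ∑ j, v j * coordDeriv f j x := by
  have h1 : v = ∑ j, v j • (Pi.single j 1 : Fin n → ℂ) := by
    ext k
    simp [Finset.sum_apply, Pi.single_apply]
  conv_lhs => rw [h1]
  rw [map_sum]
  refine Finset.sum_congr rfl fun j _ => ?_
  rw [map_smul]
  rfl

/-- derivative of a function along a curve -/
lemma hd_comp {n : ℕ} {G : (Fin n → ℂ) → ℂ} {γ : ℂ → Fin n → ℂ} {τ : ℂ} {v : Fin n → ℂ}
    (hG : AnalyticAt ℂ G (γ τ)) (hγ : HasDerivAt γ v τ) :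
    HasDerivAt (fun s => G (γ s)) (∑ j, v j * coordDeriv G j (γ τ)) τ := by
  have h := (hG.differentiableAt.hasFDerivAt).comp_hasDerivAt τ hγ
  rwa [fd_sum] at h

/-- the Hessian determinant (same body as in RtD_838) -/
def hs (f : E3 → ℂ) (x : E3) : ℂ :=
  (Matrix.of fun i j : Fin 3 => coordDeriv (coordDeriv f j) i x).det

/-- the minor of the indices `1`, `2` -/
def mi (f : E3 → ℂ) (p : E3) : ℂ :=
  coordDeriv (coordDeriv f 1) 1 p * coordDeriv (coordDeriv f 2) 2 p -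
    coordDeriv (coordDeriv f 1) 2 p * coordDeriv (coordDeriv f 2) 1 p

/-- `det D²f = ψ'' * minor` on a curve of `f_1 = f_2 = 0` parametrised by `x_0` -/
theorem det_arc {f : E3 → ℂ} {γ : ℂ → E3} {τ : ℂ} (hf : AnalyticAt ℂ f (γ τ))
    (hγ : AnalyticAt ℂ γ τ) (h0 : ∀ᶠ s in 𝓝 τ, γ s 0 = s)
    (h1 : ∀ᶠ s in 𝓝 τ, coordDeriv f 1 (γ s) = 0) (h2 : ∀ᶠ s in 𝓝 τ, coordDeriv f 2 (γ s) = 0) :
    hs f (γ τ) = deriv (fun s => coordDeriv f 0 (γ s)) τ * mi f (γ τ) := by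
  have hv : HasDerivAt γ (deriv γ τ) τ := hγ.differentiableAt.hasDerivAt
  set v := deriv γ τ with hvd
  have e0 := (hd_comp (an_cd hf 0) hv).deriv
  have e1 : (0 : ℂ) = ∑ j, v j * coordDeriv (coordDeriv f 1) j (γ τ) := by
    rw [← (hd_comp (an_cd hf 1) hv).deriv, Filter.EventuallyEq.deriv_eq (f := fun _ => (0 : ℂ)) h1]
    simp
  have e2 : (0 : ℂ) = ∑ j, v j * coordDeriv (coordDeriv f 2) j (γ τ) := by
    rw [← (hd_comp (an_cd hf 2) hv).deriv, Filter.EventuallyEq.deriv_eq (f := fun _ => (0 : ℂ)) h2]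
    simp
  have hv0 : v 0 = 1 := by
    have h3 : HasDerivAt (fun s => γ s 0) (v 0) τ := hasDerivAt_pi.1 hv 0
    have h4 : HasDerivAt (fun s : ℂ => s) 1 τ := hasDerivAt_id τ
    exact (h3.congr_of_eventuallyEq (f₁ := fun s : ℂ => s)
      (h0.mono fun s hs => hs.symm)).unique h4
  rw [e0, hs, mi, Matrix.det_fin_three]
  simp only [Fin.sum_univ_three, hv0, one_mul] at e1 e2 ⊢
  simp only [Matrix.of_apply]
  set H00 := coordDeriv (coordDeriv f 0) 0 (γ τ)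
  set H01 := coordDeriv (coordDeriv f 0) 1 (γ τ)
  set H02 := coordDeriv (coordDeriv f 0) 2 (γ τ)
  set H10 := coordDeriv (coordDeriv f 1) 0 (γ τ)
  set H11 := coordDeriv (coordDeriv f 1) 1 (γ τ)
  set H12 := coordDeriv (coordDeriv f 1) 2 (γ τ)
  set H20 := coordDeriv (coordDeriv f 2) 0 (γ τ)
  set H21 := coordDeriv (coordDeriv f 2) 1 (γ τ)
  set H22 := coordDeriv (coordDeriv f 2) 2 (γ τ)
  have a1 : H10 = -(v 1 * H11 + v 2 * H12) := by linear_combination -e1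
  have a2 : H20 = -(v 1 * H21 + v 2 * H22) := by linear_combination -e2
  rw [a1, a2]
  ring

/-- expansion of the derivatives of `τ^p g` -/
theorem order_two {ψ g : ℂ → ℂ} {p : ℕ} (hp : 2 ≤ p) (hg : AnalyticAt ℂ g 0)
    (hψ : ∀ᶠ z in 𝓝 (0 : ℂ), ψ z = z ^ p * g z) :
    ∃ G₁ G₂ : ℂ → ℂ, AnalyticAt ℂ G₁ 0 ∧ AnalyticAt ℂ G₂ 0 ∧ G₁ 0 = p * g 0 ∧
      G₂ 0 = p * (p - 1) * g 0 ∧
      (∀ᶠ z in 𝓝 (0 : ℂ), deriv ψ z = z ^ (p - 1) * G₁ z) ∧
      (∀ᶠ z in 𝓝 (0 : ℂ), deriv (deriv ψ) z = z ^ (p - 2) * G₂ z) := by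
  obtain ⟨q, rfl⟩ : ∃ q, p = q + 2 := ⟨p - 2, by omega⟩
  have hd : AnalyticAt ℂ (deriv g) 0 := hg.deriv
  let G₁ : ℂ → ℂ := fun z => (q + 1 + 1 : ℕ) * g z + z * deriv g z
  have hG₁ : AnalyticAt ℂ G₁ 0 := (analyticAt_const.mul hg).add (analyticAt_id.mul hd)
  have key : ∀ (n : ℕ) (φ h : ℂ → ℂ), AnalyticAt ℂ h 0 →
      (∀ᶠ z in 𝓝 (0 : ℂ), φ z = z ^ (n + 1) * h z) →
      ∀ᶠ z in 𝓝 (0 : ℂ), deriv φ z = z ^ n * ((n + 1 : ℕ) * h z + z * deriv h z) := by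
    intro n φ h hh hφ
    filter_upwards [hφ.eventually_nhds, hh.eventually_analyticAt] with z h1 h2
    rw [Filter.EventuallyEq.deriv_eq h1]
    have h3 : HasDerivAt (fun z => z ^ (n + 1) * h z)
        (((n + 1 : ℕ) : ℂ) * z ^ n * h z + z ^ (n + 1) * deriv h z) z := by
      have := (hasDerivAt_pow (n + 1) z).fun_mul h2.differentiableAt.hasDerivAt
      rw [Nat.add_sub_cancel] at this
      exact this
    rw [h3.deriv]
    ring
  have k1 := key (q + 1) ψ g hg hψ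
  have k2 := key q (deriv ψ) G₁ hG₁ k1
  refine ⟨G₁, fun z => (q + 1 : ℕ) * G₁ z + z * deriv G₁ z, hG₁,
    (analyticAt_const.mul hG₁).add (analyticAt_id.mul hG₁.deriv), ?_, ?_, ?_, ?_⟩
  · simp only [G₁, zero_mul, add_zero]
  · simp only [G₁, zero_mul, add_zero]
    push_cast
    ring
  · exact k1
  · exact k2

/-- the arcs of `f_1 = f_2 = 0`, parametrised by `x_0` -/
structure Arcs (f : E3 → ℂ) {ι : Type} (γ : ι → ℂ → E3) (D : ι → ℂ → ℂ) : Prop where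
  an : ∀ i, AnalyticAt ℂ (γ i) 0
  z0 : ∀ i, γ i 0 = 0
  par : ∀ i, ∀ᶠ τ in 𝓝 (0 : ℂ), γ i τ 0 = τ
  c1 : ∀ i, ∀ᶠ τ in 𝓝 (0 : ℂ), coordDeriv f 1 (γ i τ) = 0
  c2 : ∀ i, ∀ᶠ τ in 𝓝 (0 : ℂ), coordDeriv f 2 (γ i τ) = 0
  full : ∀ᶠ p in 𝓝 (0 : E3), coordDeriv f 1 p = 0 → coordDeriv f 2 p = 0 → ∃ i, p = γ i (p 0)
  inj : ∀ i j, i ≠ j → ∀ᶠ τ in 𝓝[≠] (0 : ℂ), γ i τ ≠ γ j τ
  minor : ∀ i, ∀ᶠ τ in 𝓝 (0 : ℂ), mi f (γ i τ) = τ ^ 2 * D i τ
  D_cont : ∀ i, ContinuousAt (D i) 0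
  D_ne : ∀ i, D i 0 ≠ 0

/-- one arc -/
theorem one_arc {f : E3 → ℂ} (hf : AnalyticAt ℂ f 0) (f0 : f 0 = 0)
    (crit : ∀ i, coordDeriv f i 0 = 0)
    (iso : ∀ᶠ p in 𝓝 (0 : E3), (∀ i, coordDeriv f i p = 0) → p = 0)
    {ι : Type} {γ : ι → ℂ → E3} {D : ι → ℂ → ℂ} (h : Arcs f γ D) (i : ι) :
    ∃ (p : ℕ) (g : ℂ → ℂ) (e : OpenPartialHomeomorph ℂ ℂ), 2 ≤ p ∧ AnalyticAt ℂ g 0 ∧ g 0 ≠ 0 ∧
      (∀ᶠ τ in 𝓝 (0 : ℂ), f (γ i τ) = τ ^ p * g τ) ∧ 0 ∈ e.source ∧ e 0 = 0 ∧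
      (∀ᶠ τ in 𝓝 (0 : ℂ), coordDeriv f 0 (γ i τ) = (e τ) ^ (p - 1)) ∧
      (∀ᶠ τ in 𝓝[≠] (0 : ℂ), hs f (γ i τ) ≠ 0) ∧
      Tendsto (fun τ => f (γ i τ) / hs f (γ i τ)) (𝓝[≠] 0)
        (𝓝 (1 / (p * (p - 1) * D i 0))) := by
  have hγ0 : Tendsto (γ i) (𝓝 0) (𝓝 0) := by
    have := (h.an i).continuousAt.tendsto
    rwa [h.z0 i] at this
  have hψ : AnalyticAt ℂ (fun τ => f (γ i τ)) 0 :=
    AnalyticAt.comp (g := f) (by rw [h.z0 i]; exact hf) (h.an i)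
  -- derivative of `ψ`
  have hd : ∀ᶠ τ in 𝓝 (0 : ℂ), deriv (fun τ => f (γ i τ)) τ = coordDeriv f 0 (γ i τ) := by
    filter_upwards [(h.an i).eventually_analyticAt, hγ0.eventually hf.eventually_analyticAt,
      (h.par i).eventually_nhds, h.c1 i, h.c2 i] with τ h1 h2 h3 h4 h5
    have hv : HasDerivAt (γ i) (deriv (γ i) τ) τ := h1.differentiableAt.hasDerivAt
    have hv0 : deriv (γ i) τ 0 = 1 := by
      have h3' : HasDerivAt (fun s => γ i s 0) (deriv (γ i) τ 0) τ := hasDerivAt_pi.1 hv 0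
      have h4' : HasDerivAt (fun s : ℂ => s) 1 τ := hasDerivAt_id τ
      exact (h3'.congr_of_eventuallyEq (f₁ := fun s : ℂ => s)
        (h3.mono fun s hs => hs.symm)).unique h4'
    rw [(hd_comp h2 hv).deriv]
    simp only [Fin.sum_univ_three, hv0, h4, h5]
    ring
  -- the order is finite
  have hne : analyticOrderAt (fun τ => f (γ i τ)) 0 ≠ ⊤ := by
    intro htop
    rw [analyticOrderAt_eq_top] at htop
    have h1 : ∀ᶠ τ in 𝓝 (0 : ℂ), coordDeriv f 0 (γ i τ) = 0 := by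
      filter_upwards [hd, htop.eventually_nhds] with τ h1 h2
      rw [← h1, Filter.EventuallyEq.deriv_eq (f := fun _ => (0 : ℂ)) h2]
      simp
    have h2 : ∀ᶠ τ in 𝓝 (0 : ℂ), γ i τ = 0 := by
      filter_upwards [h1, h.c1 i, h.c2 i, hγ0.eventually iso] with τ a b c d
      refine d fun j => ?_
      fin_cases j
      · exact a
      · exact b
      · exact c
    have h3 : ∀ᶠ τ in 𝓝[≠] (0 : ℂ), False := by
      filter_upwards [nhdsWithin_le_nhds h2, nhdsWithin_le_nhds (h.par i), self_mem_nhdsWithin]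
        with τ a b c
      rw [a] at b
      exact c b.symm
    exact h3.exists.elim fun _ hF => hF
  obtain ⟨p, hp⟩ := ENat.ne_top_iff_exists.1 hne
  obtain ⟨g, hg, hg0, hge⟩ := (hψ.analyticOrderAt_eq_natCast).1 hp.symm
  simp only [sub_zero, smul_eq_mul] at hge
  have hp2 : 2 ≤ p := by
    rcases Nat.lt_or_ge p 2 with hlt | hge'
    · exfalso
      interval_cases p
      · have h1 := hge.self_of_nhds
        simp only [h.z0 i, f0, pow_zero, one_mul] at h1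
        exact hg0 h1.symm
      · have h1 : deriv (fun τ => f (γ i τ)) 0 = g 0 := by
          rw [Filter.EventuallyEq.deriv_eq hge]
          have h2 : HasDerivAt (fun z : ℂ => z ^ 1 * g z) (1 * g 0 + (0 : ℂ) * deriv g 0) 0 := by
            have := (hasDerivAt_id (0 : ℂ)).fun_mul hg.differentiableAt.hasDerivAt
            simpa using this
          rw [h2.deriv]
          ring
        have h3 := hd.self_of_nhds
        rw [h1, h.z0 i, crit 0] at h3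
        exact hg0 h3
    · exact hge'
  obtain ⟨G₁, G₂, hG₁, hG₂, e1, e2, d1, d2⟩ := order_two hp2 hg hge
  have hpC : (p : ℂ) ≠ 0 := by exact_mod_cast (by omega : p ≠ 0)
  have hpC1 : (p : ℂ) - 1 ≠ 0 := by
    have : ((p - 1 : ℕ) : ℂ) ≠ 0 := by exact_mod_cast (by omega : p - 1 ≠ 0)
    rwa [Nat.cast_sub (by omega), Nat.cast_one] at this
  have hG₁0 : G₁ 0 ≠ 0 := by rw [e1]; exact mul_ne_zero hpC hg0
  have hG₂0 : G₂ 0 ≠ 0 := by rw [e2]; exact mul_ne_zero (mul_ne_zero hpC hpC1) hg0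
  have d1' : ∀ᶠ z in 𝓝 (0 : ℂ), coordDeriv f 0 (γ i z) = z ^ (p - 1) * G₁ z := by
    filter_upwards [d1, hd] with z a b
    rw [← b, a]
  obtain ⟨e, he0, he1, he2⟩ := root_chart (m := p - 1) (by omega) hG₁ hG₁0 d1'
  have hdet : ∀ᶠ τ in 𝓝 (0 : ℂ), hs f (γ i τ) = τ ^ (p - 2) * G₂ τ * (τ ^ 2 * D i τ) := by
    filter_upwards [hd.eventually_nhds, d2, (h.an i).eventually_analyticAt,
      hγ0.eventually hf.eventually_analyticAt, (h.par i).eventually_nhds,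
      (h.c1 i).eventually_nhds, (h.c2 i).eventually_nhds, h.minor i] with τ a b c d e' f' g' k
    rw [det_arc d c e' f' g', k]
    congr 1
    rw [← b]
    exact (Filter.EventuallyEq.deriv_eq a).symm
  have hDne : ∀ᶠ τ in 𝓝 (0 : ℂ), D i τ ≠ 0 := (h.D_cont i).eventually_ne (h.D_ne i)
  have hG₂ne : ∀ᶠ τ in 𝓝 (0 : ℂ), G₂ τ ≠ 0 := hG₂.continuousAt.eventually_ne hG₂0
  refine ⟨p, g, e, hp2, hg, hg0, hge, he0, he1, he2, ?_, ?_⟩
  · filter_upwards [nhdsWithin_le_nhds hdet, nhdsWithin_le_nhds hDne, nhdsWithin_le_nhds hG₂ne,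
      self_mem_nhdsWithin] with τ a b c d
    rw [a]
    exact mul_ne_zero (mul_ne_zero (pow_ne_zero _ d) c) (mul_ne_zero (pow_ne_zero _ d) b)
  · have hlim : Tendsto (fun τ => g τ / (G₂ τ * D i τ)) (𝓝[≠] 0)
        (𝓝 (g 0 / (G₂ 0 * D i 0))) := by
      have : ContinuousAt (fun τ => g τ / (G₂ τ * D i τ)) 0 :=
        hg.continuousAt.div (hG₂.continuousAt.mul (h.D_cont i)) (mul_ne_zero hG₂0 (h.D_ne i))
      exact this.tendsto.mono_left nhdsWithin_le_nhds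
    have hval : g 0 / (G₂ 0 * D i 0) = 1 / (p * (p - 1) * D i 0) := by
      rw [e2]
      have := h.D_ne i
      field_simp
    rw [hval] at hlim
    refine hlim.congr' ?_
    filter_upwards [nhdsWithin_le_nhds hdet, nhdsWithin_le_nhds hDne, nhdsWithin_le_nhds hG₂ne,
      nhdsWithin_le_nhds hge, self_mem_nhdsWithin] with τ a b c d e'
    have hτ : τ ≠ 0 := e'
    have hpow : τ ^ p = τ ^ (p - 2) * τ ^ 2 := by rw [← pow_add]; congr 1; omega
    rw [a, d, hpow]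
    have hk : τ ^ (p - 2) ≠ 0 := pow_ne_zero _ hτ
    field_simp

/-- small gradients are attained near the origin only -/
theorem proper {f : E3 → ℂ} {r ε : ℝ} (hε : 0 < ε)
    (han : ∀ x : E3, ‖x‖ ≤ r → AnalyticAt ℂ f x)
    (hcr : ∀ x : E3, ‖x‖ ≤ r → (∀ i, coordDeriv f i x = 0) → x = 0) :
    ∀ᶠ η in 𝓝 (0 : ℂ), ∀ x : E3, ‖x‖ ≤ r → (∀ i, coordDeriv f i x = (![η, 0, 0] : E3) i) →
      ‖x‖ < ε := by
  have hK : IsCompact {x : E3 | ‖x‖ ≤ r ∧ ε ≤ ‖x‖} := by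
    refine (isCompact_closedBall (0 : E3) r).of_isClosed_subset ?_ ?_
    · exact (isClosed_le continuous_norm continuous_const).inter
        (isClosed_le continuous_const continuous_norm)
    · rintro x ⟨hx, -⟩
      simpa using hx
  by_cases hne : {x : E3 | ‖x‖ ≤ r ∧ ε ≤ ‖x‖}.Nonempty
  · have hcont : ContinuousOn (fun x => ‖gr f x‖) {x : E3 | ‖x‖ ≤ r ∧ ε ≤ ‖x‖} := by
      intro x hx
      have : ContinuousAt (gr f) x := continuousAt_pi.2 fun i => (an_cd (han x hx.1) i).continuousAt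
      exact this.norm.continuousWithinAt
    obtain ⟨x₀, hx₀, hmin⟩ := hK.exists_isMinOn hne hcont
    have hpos : 0 < ‖gr f x₀‖ := by
      rw [norm_pos_iff]
      intro h0
      have h1 := hcr x₀ hx₀.1 fun i => congrFun h0 i
      have h2 : ε ≤ ‖x₀‖ := hx₀.2
      rw [h1, norm_zero] at h2
      exact absurd h2 (not_le.2 hε)
    have h1 : ∀ᶠ η in 𝓝 (0 : ℂ), ‖η‖ < ‖gr f x₀‖ := by
      have : Tendsto (fun η : ℂ => ‖η‖) (𝓝 0) (𝓝 0) := by
        simpa using (continuous_norm (E := ℂ)).tendsto 0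
      exact this.eventually_lt_const hpos
    filter_upwards [h1] with η hη x hx hg
    by_contra hcon
    have h2 : ‖gr f x₀‖ ≤ ‖gr f x‖ := hmin (show x ∈ {x : E3 | ‖x‖ ≤ r ∧ ε ≤ ‖x‖} from
      ⟨hx, not_lt.1 hcon⟩)
    have h3 : gr f x = ![η, 0, 0] := funext hg
    have h4 : ‖gr f x‖ ≤ ‖η‖ := by
      rw [h3, pi_norm_le_iff_of_nonneg (norm_nonneg _)]
      intro i
      fin_cases i <;> simp
    linarith
  · refine Eventually.of_forall fun η x hx _ => ?_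
    by_contra hcon
    exact hne ⟨x, hx, not_lt.1 hcon⟩

/-- **ARC**: the trace sum of `f` along `grad f = (η,0,0)` -/
theorem arc_sum {f : E3 → ℂ} (hf : AnalyticAt ℂ f 0) (f0 : f 0 = 0)
    (crit : ∀ i, coordDeriv f i 0 = 0)
    {ι : Type} [Fintype ι] {γ : ι → ℂ → E3} {D : ι → ℂ → ℂ} (h : Arcs f γ D)
    {r : ℝ} (hr : 0 < r) (han : ∀ x : E3, ‖x‖ ≤ r → AnalyticAt ℂ f x)
    (hcr : ∀ x : E3, ‖x‖ ≤ r → (∀ i, coordDeriv f i x = 0) → x = 0) :
    ∃ p : ι → ℕ, (∀ i, 2 ≤ p i) ∧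
      (∀ i, ∃ g : ℂ → ℂ, AnalyticAt ℂ g 0 ∧ g 0 ≠ 0 ∧
        ∀ᶠ τ in 𝓝 (0 : ℂ), f (γ i τ) = τ ^ (p i) * g τ) ∧
      ∃ Z : ℂ → Finset E3,
        (∀ᶠ η in 𝓝[≠] (0 : ℂ), (∀ x, x ∈ Z η ↔ x ∈ Metric.ball (0 : E3) r ∧
            ∀ i, coordDeriv f i x = (![η, 0, 0] : E3) i) ∧ ∀ x ∈ Z η, hs f x ≠ 0) ∧
        Tendsto (fun η => ∑ x ∈ Z η, f x / hs f x) (𝓝[≠] 0)
          (𝓝 (∑ i, 1 / (p i * D i 0))) := by
  classical
  have iso : ∀ᶠ p in 𝓝 (0 : E3), (∀ i, coordDeriv f i p = 0) → p = 0 := by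
    filter_upwards [Metric.ball_mem_nhds (0 : E3) hr] with p hp h1
    exact hcr p (by simpa using (mem_ball_zero_iff.1 hp).le) h1
  choose p g e hp hg hg0 hge he0 he1 he2 hh hlim using fun i => one_arc hf f0 crit iso h i
  refine ⟨p, hp, fun i => ⟨g i, hg i, hg0 i, hge i⟩, ?_⟩
  have hm : ∀ i, p i - 1 ≠ 0 := fun i => by have := hp i; omega
  have hζ : ∀ i, IsPrimitiveRoot (Complex.exp (2 * Real.pi * Complex.I / (p i - 1 : ℕ))) (p i - 1) :=
    fun i => Complex.isPrimitiveRoot_exp _ (hm i)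
  set ζ : ι → ℂ := fun i => Complex.exp (2 * Real.pi * Complex.I / (p i - 1 : ℕ)) with hζd
  have hζn : ∀ i, ‖ζ i‖ = 1 := fun i => (hζ i).norm'_eq_one (hm i)
  -- roots of `η`
  choose α hα using fun (η : ℂ) (i : ι) => IsAlgClosed.exists_pow_nat_eq η
    (n := p i - 1) (Nat.pos_of_ne_zero (hm i))
  have hα0 : ∀ i, Tendsto (fun η => α η i) (𝓝 0) (𝓝 0) := by
    intro i
    rw [tendsto_zero_iff_norm_tendsto_zero, Metric.tendsto_nhds]
    intro ε hε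
    have h1 : ∀ᶠ η in 𝓝 (0 : ℂ), ‖η‖ < ε ^ (p i - 1) := by
      have : Tendsto (fun η : ℂ => ‖η‖) (𝓝 0) (𝓝 0) := by
        simpa using (continuous_norm (E := ℂ)).tendsto 0
      exact this.eventually_lt_const (pow_pos hε _)
    filter_upwards [h1] with η hη
    rw [dist_zero_right, norm_norm]
    rw [← hα η i, norm_pow] at hη
    exact lt_of_pow_lt_pow_left₀ _ hε.le hη
  -- the parameters
  let J : Type := Σ i : ι, Fin (p i - 1)
  let s : ℂ → J → ℂ := fun η j => ζ j.1 ^ (j.2 : ℕ) * α η j.1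
  let T : ℂ → J → ℂ := fun η j => (e j.1).symm (s η j)
  let P : ℂ → J → E3 := fun η j => γ j.1 (T η j)
  have hs0 : ∀ j : J, Tendsto (fun η => s η j) (𝓝 0) (𝓝 0) := by
    intro j
    rw [tendsto_zero_iff_norm_tendsto_zero]
    have : (fun η => ‖s η j‖) = fun η => ‖α η j.1‖ := by
      funext η
      simp only [s, norm_mul, norm_pow, hζn, one_pow, one_mul]
    rw [this]
    exact tendsto_zero_iff_norm_tendsto_zero.1 (hα0 j.1)
  have hspow : ∀ η (j : J), s η j ^ (p j.1 - 1) = η := by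
    intro η j
    simp only [s]
    rw [mul_pow, ← pow_mul, mul_comm (j.2 : ℕ), pow_mul, (hζ j.1).pow_eq_one, one_pow, one_mul, hα]
  have htgt : ∀ i, (0 : ℂ) ∈ (e i).target := fun i => by
    have := (e i).map_source (he0 i)
    rwa [he1 i] at this
  have hsymm0 : ∀ i, (e i).symm 0 = 0 := fun i => by
    have := (e i).left_inv (he0 i)
    rwa [he1 i] at this
  have hT0 : ∀ j : J, Tendsto (fun η => T η j) (𝓝 0) (𝓝 0) := by
    intro j
    have h1 : ContinuousAt (e j.1).symm 0 := (e j.1).continuousAt_symm (htgt j.1)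
    have h2 : Tendsto (e j.1).symm (𝓝 0) (𝓝 0) := by
      have := h1.tendsto
      rwa [hsymm0] at this
    exact h2.comp (hs0 j)
  have hsne : ∀ η (j : J), η ≠ 0 → s η j ≠ 0 := by
    intro η j hη h0
    have := hspow η j
    rw [h0, zero_pow (hm j.1)] at this
    exact hη this.symm
  have heT : ∀ j : J, ∀ᶠ η in 𝓝 (0 : ℂ), T η j ∈ (e j.1).source ∧ e j.1 (T η j) = s η j := by
    intro j
    filter_upwards [(hs0 j).eventually ((e j.1).open_target.mem_nhds (htgt j.1))] with η h1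
    exact ⟨(e j.1).map_target h1, (e j.1).right_inv h1⟩
  have hTne : ∀ j : J, ∀ᶠ η in 𝓝[≠] (0 : ℂ), T η j ≠ 0 := by
    intro j
    filter_upwards [nhdsWithin_le_nhds (heT j), self_mem_nhdsWithin] with η h1 h2 h3
    have := h1.2
    rw [h3, he1] at this
    exact hsne η j h2 this.symm
  have hTn : ∀ j : J, Tendsto (fun η => T η j) (𝓝[≠] 0) (𝓝[≠] 0) := fun j =>
    tendsto_nhdsWithin_iff.2 ⟨(hT0 j).mono_left nhdsWithin_le_nhds, hTne j⟩
  have hγ0 : ∀ i, Tendsto (γ i) (𝓝 0) (𝓝 0) := fun i => by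
    have := (h.an i).continuousAt.tendsto
    rwa [h.z0 i] at this
  -- a good neighbourhood of the origin
  have hgood : ∀ᶠ x in 𝓝 (0 : E3), (coordDeriv f 1 x = 0 → coordDeriv f 2 x = 0 →
      ∃ i, x = γ i (x 0)) ∧ ∀ i, x 0 ∈ (e i).source ∧ coordDeriv f 0 (γ i (x 0)) =
        (e i (x 0)) ^ (p i - 1) := by
    have hx0 : Tendsto (fun x : E3 => x 0) (𝓝 0) (𝓝 0) := by
      have := (continuous_apply (0 : Fin 3) (A := fun _ => ℂ)).tendsto (0 : E3)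
      simpa using this
    refine h.full.and (eventually_all.2 fun i => ?_)
    filter_upwards [hx0.eventually ((e i).open_source.mem_nhds (he0 i)),
      hx0.eventually (he2 i)] with x a b
    exact ⟨a, b⟩
  obtain ⟨ε, hε, hεg⟩ := Metric.eventually_nhds_iff_ball.1 hgood
  have hprop := proper (r := r) hε han hcr
  have hA : ∀ᶠ η in 𝓝[≠] (0 : ℂ), ∀ j : J, P η j ∈ Metric.ball (0 : E3) r ∧
      (∀ i, coordDeriv f i (P η j) = (![η, 0, 0] : E3) i) ∧ hs f (P η j) ≠ 0 ∧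
      T η j ≠ 0 ∧ P η j 0 = T η j ∧ e j.1 (T η j) = s η j := by
    refine eventually_all.2 fun j => ?_
    filter_upwards [nhdsWithin_le_nhds ((hγ0 j.1).comp (hT0 j) |>.eventually
        (Metric.ball_mem_nhds (0 : E3) hr)), (hTn j).eventually (hh j.1), hTne j,
      nhdsWithin_le_nhds ((hT0 j).eventually (h.par j.1)),
      nhdsWithin_le_nhds ((hT0 j).eventually (h.c1 j.1)),
      nhdsWithin_le_nhds ((hT0 j).eventually (h.c2 j.1)),
      nhdsWithin_le_nhds ((hT0 j).eventually (he2 j.1)),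
      nhdsWithin_le_nhds (heT j)] with η a b c d e' f' g' k
    refine ⟨a, ?_, b, c, d, k.2⟩
    intro i
    fin_cases i
    · change coordDeriv f 0 (γ j.1 (T η j)) = η
      rw [g', k.2, hspow]
    · exact e'
    · exact f'
  have hB : ∀ᶠ η in 𝓝[≠] (0 : ℂ), ∀ i i' : ι, i ≠ i' → ∀ j : J, γ i (T η j) ≠ γ i' (T η j) := by
    refine eventually_all.2 fun i => eventually_all.2 fun i' => ?_
    by_cases hii : i = i'
    · exact Eventually.of_forall fun η h1 => absurd hii h1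
    · have : ∀ᶠ η in 𝓝[≠] (0 : ℂ), ∀ j : J, γ i (T η j) ≠ γ i' (T η j) :=
        eventually_all.2 fun j => (hTn j).eventually (h.inj i i' hii)
      exact this.mono fun η h1 _ => h1
  have hinj : ∀ᶠ η in 𝓝[≠] (0 : ℂ), Function.Injective (P η) := by
    filter_upwards [hA, hB, self_mem_nhdsWithin] with η a b hη
    intro j j' hjj
    have h1 : T η j = T η j' := by rw [← (a j).2.2.2.2.1, ← (a j').2.2.2.2.1, hjj]
    obtain ⟨i, k⟩ := j
    obtain ⟨i', k'⟩ := j'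
    by_cases hii : i = i'
    · subst hii
      have h2 : s η ⟨i, k⟩ = s η ⟨i, k'⟩ := by
        rw [← (a ⟨i, k⟩).2.2.2.2.2, ← (a ⟨i, k'⟩).2.2.2.2.2, h1]
      have h3 : α η i ≠ 0 := by
        intro h0
        exact hsne η ⟨i, k⟩ hη (by simp [s, h0])
      have h4 : ζ i ^ (k : ℕ) = ζ i ^ (k' : ℕ) := mul_right_cancel₀ h3 h2
      have h5 : (k : ℕ) = k' := (hζ i).pow_inj k.2 k'.2 h4
      rw [Fin.ext h5]
    · exfalso
      refine b i i' hii ⟨i, k⟩ ?_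
      have h2 : P η ⟨i, k⟩ = P η ⟨i', k'⟩ := hjj
      simp only [P] at h2
      rw [h2, h1]
  have hsurj : ∀ᶠ η in 𝓝[≠] (0 : ℂ), ∀ x ∈ Metric.ball (0 : E3) r,
      (∀ i, coordDeriv f i x = (![η, 0, 0] : E3) i) → ∃ j, P η j = x := by
    filter_upwards [nhdsWithin_le_nhds hprop, self_mem_nhdsWithin] with η a hη x hx hgx
    have hx' : ‖x‖ < r := mem_ball_zero_iff.1 hx
    obtain ⟨h1, h2⟩ := hεg x (mem_ball_zero_iff.2 (a x hx'.le hgx))
    obtain ⟨i, hi⟩ := h1 (hgx 1) (hgx 2)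
    obtain ⟨h3, h4⟩ := h2 i
    rw [← hi, hgx 0] at h4
    have h5 : (α η i) ^ (p i - 1) = η := hα η i
    have h6 : e i (x 0) ∈ Polynomial.nthRoots (p i - 1) η :=
      (Polynomial.mem_nthRoots (Nat.pos_of_ne_zero (hm i))).2 h4.symm
    rw [(hζ i).nthRoots_eq h5, Multiset.mem_map] at h6
    obtain ⟨k, hk, hk2⟩ := h6
    refine ⟨⟨i, ⟨k, Multiset.mem_range.1 hk⟩⟩, ?_⟩
    simp only [P, T, s]
    rw [hk2, (e i).left_inv h3]
    exact hi.symm
  refine ⟨fun η => Finset.univ.image (P η), ?_, ?_⟩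
  · filter_upwards [hA, hsurj] with η a b
    refine ⟨fun x => ⟨fun hx => ?_, fun hx => ?_⟩, fun x hx => ?_⟩
    · obtain ⟨j, -, rfl⟩ := Finset.mem_image.1 hx
      exact ⟨(a j).1, (a j).2.1⟩
    · obtain ⟨j, rfl⟩ := b x hx.1 hx.2
      exact Finset.mem_image_of_mem _ (Finset.mem_univ _)
    · obtain ⟨j, -, rfl⟩ := Finset.mem_image.1 hx
      exact (a j).2.2.1
  · have h1 : Tendsto (fun η => ∑ j : J, f (P η j) / hs f (P η j)) (𝓝[≠] 0)
        (𝓝 (∑ j : J, 1 / (p j.1 * (p j.1 - 1) * D j.1 0))) :=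
      tendsto_finsetSum _ fun j _ => (hlim j.1).comp (hTn j)
    have h2 : (∑ j : J, 1 / ((p j.1 : ℂ) * (p j.1 - 1) * D j.1 0)) =
        ∑ i, 1 / (p i * D i 0) := by
      rw [Fintype.sum_sigma]
      refine Finset.sum_congr rfl fun i _ => ?_
      simp only [Finset.sum_const, Finset.card_univ, Fintype.card_fin, nsmul_eq_mul]
      have h3 : ((p i - 1 : ℕ) : ℂ) = (p i : ℂ) - 1 := by
        rw [Nat.cast_sub (by have := hp i; omega), Nat.cast_one]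
      have h4 : (p i : ℂ) - 1 ≠ 0 := by
        rw [← h3]
        exact_mod_cast hm i
      have h5 : (p i : ℂ) ≠ 0 := by exact_mod_cast (by have := hp i; omega : p i ≠ 0)
      have h6 := h.D_ne i
      rw [h3]
      field_simp
    rw [h2] at h1
    refine h1.congr' ?_
    filter_upwards [hinj] with η a
    rw [Finset.sum_image fun j _ j' _ hjj => a hjj]

/-- the bound of the point sums of `f` on the ball (output of RtD_838.rt3 at one `t`) -/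
def TB (f : E3 → ℂ) (r C : ℝ) : Prop :=
  ∃ δ > 0, ∀ y : E3, ‖y‖ < δ →
    (∀ x ∈ Metric.ball (0 : E3) r, (∀ i, coordDeriv f i x = y i) → hs f x ≠ 0) →
    ∀ Z : Finset E3, (∀ x, x ∈ Z ↔ x ∈ Metric.ball (0 : E3) r ∧ ∀ i, coordDeriv f i x = y i) →
      ‖∑ x ∈ Z, f x / hs f x‖ ≤ C

theorem arc_bound {f : E3 → ℂ} (hf : AnalyticAt ℂ f 0) (f0 : f 0 = 0)
    (crit : ∀ i, coordDeriv f i 0 = 0)
    {ι : Type} [Fintype ι] {γ : ι → ℂ → E3} {D : ι → ℂ → ℂ} (h : Arcs f γ D)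
    {r C : ℝ} (hr : 0 < r) (han : ∀ x : E3, ‖x‖ ≤ r → AnalyticAt ℂ f x)
    (hcr : ∀ x : E3, ‖x‖ ≤ r → (∀ i, coordDeriv f i x = 0) → x = 0) (hC : TB f r C) :
    ∃ p : ι → ℕ, (∀ i, 2 ≤ p i) ∧
      (∀ i, ∃ g : ℂ → ℂ, AnalyticAt ℂ g 0 ∧ g 0 ≠ 0 ∧
        ∀ᶠ τ in 𝓝 (0 : ℂ), f (γ i τ) = τ ^ (p i) * g τ) ∧
      ‖∑ i, 1 / (p i * D i 0)‖ ≤ C := by
  obtain ⟨p, hp, hg, Z, hZ, hlim⟩ := arc_sum hf f0 crit h hr han hcr
  refine ⟨p, hp, hg, ?_⟩
  obtain ⟨δ, hδ, hb⟩ := hC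
  refine le_of_tendsto hlim.norm ?_
  have h1 : ∀ᶠ η in 𝓝[≠] (0 : ℂ), ‖η‖ < δ := by
    refine nhdsWithin_le_nhds ?_
    have : Tendsto (fun η : ℂ => ‖η‖) (𝓝 0) (𝓝 0) := by
      simpa using (continuous_norm (E := ℂ)).tendsto 0
    exact this.eventually_lt_const hδ
  filter_upwards [hZ, h1] with η a b
  refine hb ![η, 0, 0] ?_ ?_ (Z η) a.1
  · refine lt_of_le_of_lt ?_ b
    rw [pi_norm_le_iff_of_nonneg (norm_nonneg _)]
    intro i
    fin_cases i <;> simp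
  · intro x hx hxi
    exact a.2 x ((a.1 x).2 ⟨hx, hxi⟩)

end Crest.Agent.R257.EVa_929
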