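import Crest.Agent.R257.LCDefs_472
import Crest.Agent.R257.EVa_929

/-!
R257 / LcxDefs_759 (helper759): interface of LCX (`PosStmt3` of Skel2_219): in a `μ`-constant family
with `f_0` of multiplicity `≥ 3` and non nodal cubic, `f_t` is never log canonical.

* `nd i k g` : `(∂_i)^k g / k!`;  `cf g i j` : the Taylor coefficient of `y^i z^j` (`y = p 0`,
  `z = p 1`) of a plane germ `g`;
* `Dcp g u v w` : `g = x_0² u + x_0 v(x_1,x_2) + w(x_1,x_2)`, `u 0 ≠ 0`, `v ∈ m²`, `w ∈ m³`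
  (a germ with 2-jet of rank one, in adapted linear coordinates);
* `Dsc u v w` : the discriminant `4 u(0,·) w - v²`;
* `Good g r C` : `0` is the only critical point of `g` in the closed ball, and the trace bound `TB`;
* `LC0 f` : `f` is log canonical and not klt (`mstar f = 0`, `1 ∉ J_1(f)`).
-/

set_option autoImplicit false

open Topology Filter Set Asymptotics
open Crest.AlgGeometry.Germ

noncomputable section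

namespace Crest.Agent.R257.LcxDefs_759

open Crest.Agent.R257.Defs_219 Crest.Agent.R257.LCDefs_472
open Crest.Agent.R257.EVa_929 (TB)

/-- normalised iterated partial derivatives `∂_i^k g / k!` -/
def nd {n : ℕ} (i : Fin n) : ℕ → ((Fin n → ℂ) → ℂ) → (Fin n → ℂ) → ℂ
  | 0, g => g
  | k + 1, g => fun x => coordDeriv (nd i k g) i x / (k + 1)

/-- Taylor coefficients of plane germs: coefficient of `(p 0)^i (p 1)^j` -/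
def cf (g : (Fin 2 → ℂ) → ℂ) (i j : ℕ) : ℂ := nd 1 j (nd 0 i g) 0

/-- `c` is the Taylor polynomial of order `n` of the plane germ `g` -/
def Tay (n : ℕ) (g : (Fin 2 → ℂ) → ℂ) (c : ℕ → ℕ → ℂ) : Prop :=
  (fun p : Fin 2 → ℂ => g p - ∑ i ∈ Finset.range (n + 1), ∑ j ∈ Finset.range (n + 1 - i),
    c i j * p 0 ^ i * p 1 ^ j) =O[𝓝 0] fun p : Fin 2 → ℂ => ‖p‖ ^ (n + 1)

/-- decomposition of a germ with 2-jet `u(0) x_0²` -/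
structure Dcp (g : E3 → ℂ) (u : E3 → ℂ) (v w : (Fin 2 → ℂ) → ℂ) : Prop where
  au : AnalyticAt ℂ u 0
  av : AnalyticAt ℂ v 0
  aw : AnalyticAt ℂ w 0
  eq : ∀ᶠ x : E3 in 𝓝 0, g x = x 0 ^ 2 * u x + x 0 * v (Fin.tail x) + w (Fin.tail x)
  u0 : u 0 ≠ 0
  v0 : ∀ i j, i + j ≤ 1 → cf v i j = 0
  w0 : ∀ i j, i + j ≤ 2 → cf w i j = 0

/-- the discriminant -/
def Dsc (u : E3 → ℂ) (v w : (Fin 2 → ℂ) → ℂ) (p : Fin 2 → ℂ) : ℂ :=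
  4 * u (Fin.cons 0 p) * w p - v p ^ 2

/-- `g` is good on the ball of radius `r`, trace bound `C` -/
structure Good (g : E3 → ℂ) (r C : ℝ) : Prop where
  r_pos : 0 < r
  an : ∀ x, ‖x‖ ≤ r → AnalyticAt ℂ g x
  zero : g 0 = 0
  crit0 : ∀ i, coordDeriv g i 0 = 0
  crit : ∀ x, ‖x‖ ≤ r → (∀ i, coordDeriv g i x = 0) → x = 0
  tb : TB g r C

/-- log canonical and not klt -/
structure LC0 (f : E3 → ℂ) : Prop where
  iso : Iso f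
  nklt : ¬ InJ 1 f fun _ => 1
  lc : ¬ 0 < mstar f

/-- the normal cubics -/
def nrm (a b : ℂ) (x : E3) : ℂ := x 0 * x 1 * x 2 + a * x 1 ^ 3 + b * x 2 ^ 3

/-! ### the leaves -/

/-- (B0) [475]: the cubic part of `w` is a cube of a linear form -/
def CubeStmt : Prop := ∀ (f : E3 → ℂ) (A : E3 ≃L[ℂ] E3) (u : E3 → ℂ) (v w : (Fin 2 → ℂ) → ℂ),
  LC0 f → Dcp (fun x => f (A x)) u v w →
  cf w 2 1 ^ 2 = 3 * cf w 3 0 * cf w 1 2 ∧ cf w 1 2 ^ 2 = 3 * cf w 2 1 * cf w 0 3 ∧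
    cf w 2 1 * cf w 1 2 = 9 * cf w 3 0 * cf w 0 3

/-- (B1) [475, 929, MU]: `w ∈ m⁴` -/
def QuartStmt : Prop := ∃ k : ℝ, 0 < k ∧
  ∀ (f : E3 → ℂ) (A : E3 ≃L[ℂ] E3) (u : E3 → ℂ) (v w : (Fin 2 → ℂ) → ℂ) (r C : ℝ),
  LC0 f → Dcp (fun x => f (A x)) u v w → Good (fun x => f (A x)) r C →
  (∀ i j, i + j = 3 → cf w i j = 0) →
  col (par f) ≤ 9 ∨
  1 ≤ k * C ^ 2 * ‖12 * cf (Dsc u v w) 4 0 * cf (Dsc u v w) 0 4 -
      3 * cf (Dsc u v w) 3 1 * cf (Dsc u v w) 1 3 + cf (Dsc u v w) 2 2 ^ 2‖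

/-- (B2) [475, 929, MU]: the cubic part of `w` is `κ y³`, `κ ≠ 0` -/
def SextStmt : Prop := ∃ k : ℝ, 0 < k ∧
  ∀ (f : E3 → ℂ) (A : E3 ≃L[ℂ] E3) (u : E3 → ℂ) (v w : (Fin 2 → ℂ) → ℂ) (r C : ℝ),
  LC0 f → Dcp (fun x => f (A x)) u v w → Good (fun x => f (A x)) r C →
  cf w 3 0 ≠ 0 → cf w 2 1 = 0 → cf w 1 2 = 0 → cf w 0 3 = 0 →
  (cf (Dsc u v w) 0 4 = 0 ∧ cf (Dsc u v w) 1 3 = 0 ∧ cf (Dsc u v w) 0 5 = 0) ∧
  (col (par f) ≤ 10 ∨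
  1 ≤ k * C ^ 2 * ‖cf (Dsc u v w) 2 2 ^ 2 - 3 * cf (Dsc u v w) 3 0 * cf (Dsc u v w) 1 4‖)

/-- (A2) [838]: nodal cubic with a singular point -/
def NodalStmt : Prop := ∃ k : ℝ, 0 < k ∧ ∀ (f : E3 → ℂ) (r C : ℝ), Good f r C →
  (∀ i j, H2 f i j = 0) → Nodal f → (∃ v : E3, v ≠ 0 ∧ ∀ w, D3 f v v w = 0) →
  ∃ (L : Matrix (Fin 3) (Fin 3) ℂ) (a b : ℂ), (∀ x, D3 f x x x = 6 * nrm a b (L.mulVec x)) ∧
    1 ≤ k * C * ‖L.det‖ ^ 2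

/-- (A1): smooth cubic, `μ ≤ 8` -/
def P8MuStmt : Prop := ∀ f : E3 → ℂ, AnalyticAt ℂ f 0 → f 0 = 0 → (∀ i, coordDeriv f i 0 = 0) →
  (∀ i j, H2 f i j = 0) → (∀ v : E3, v ≠ 0 → ∃ w, D3 f v v w ≠ 0) → col (par f) ≤ 8

/-- weighted order `≥ e` -/
def BoxO (w : Fin 3 → ℕ) (e : ℕ) (g : E3 → ℂ) : Prop := ∃ κ K s₀ : ℝ, 0 < κ ∧ 0 < s₀ ∧
  ∀ s : ℝ, 0 < s → s ≤ s₀ → ∀ X : E3, (∀ i, ‖X i‖ ≤ κ * s ^ w i) → ‖g X‖ ≤ K * s ^ e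

/-- number of monomials `x^α` with `w·α + e ≤ N` -/
def cnt (w : Fin 3 → ℕ) (N e : ℕ) : ℕ :=
  ((Finset.range (N / w 0 + 1) ×ˢ Finset.range (N / w 1 + 1) ×ˢ Finset.range (N / w 2 + 1)).filter
    fun a => w 0 * a.1 + w 1 * a.2.1 + w 2 * a.2.2 + e ≤ N).card

/-- lower bound of `μ` for germs of weighted order `≥ d` -/
def CountStmt : Prop := ∀ (w : Fin 3 → ℕ) (d N : ℕ) (f : E3 → ℂ) (A : E3 ≃L[ℂ] E3),
  (∀ i, 0 < w i) → (∀ i, w i ≤ d) → AnalyticAt ℂ f 0 → ColFin (par f) →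
  BoxO w d (fun x => f (A x)) → cnt w N 0 ≤ col (par f) + ∑ j, cnt w N (d - w j)

end Crest.Agent.R257.LcxDefs_759
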