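import Crest.Agent.R257.LCa_472

/-!
R257 / LCb_472: fibred changes of coordinates; transport of `Fam` and of `Concl`.
-/

set_option autoImplicit false
set_option linter.unusedVariables false
set_option linter.unusedSectionVars false

open Topology Filter Set
open Crest.AlgGeometry.Germ

noncomputable section

namespace Crest.Agent.R257.LCb_472

open Crest.Agent.R257.Defs_219 Crest.Agent.R257.Skel_219 Crest.Agent.R257.LCDefs_472
open Crest.Agent.R257.LCa_472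

variable {n : ℕ}

/-- a fibred change of coordinates preserving the axis -/
structure Chg (θ : (Fin n → ℂ) × ℂ → (Fin n → ℂ)) : Prop where
  an : AnalyticAt ℂ θ (0, 0)
  ax : ∀ᶠ t in 𝓝 (0 : ℂ), θ (0, t) = 0
  inj : Function.Injective (fderiv ℂ (fun x => θ (x, 0)) 0)

/-- the fibred map -/
def fib (θ : (Fin n → ℂ) × ℂ → (Fin n → ℂ)) (q : (Fin n → ℂ) × ℂ) : (Fin n → ℂ) × ℂ := (θ q, q.2)

/-- the derivative of the slice -/
theorem slice_fderiv {m : ℕ} {θ : (Fin n → ℂ) × ℂ → (Fin m → ℂ)} {q : (Fin n → ℂ) × ℂ}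
    (h : DifferentiableAt ℂ θ q) :
    HasFDerivAt (fun x => θ (x, q.2)) ((fderiv ℂ θ q).comp (ContinuousLinearMap.inl ℂ _ ℂ)) q.1 := by
  have h1 : HasFDerivAt (fun x : Fin n → ℂ => ((x, q.2) : (Fin n → ℂ) × ℂ))
      (ContinuousLinearMap.inl ℂ (Fin n → ℂ) ℂ) q.1 := hasFDerivAt_prodMk_left q.1 q.2
  have h2 : HasFDerivAt θ (fderiv ℂ θ q) ((fun x : Fin n → ℂ =>
      ((x, q.2) : (Fin n → ℂ) × ℂ)) q.1) := h.hasFDerivAt
  exact h2.comp q.1 h1

theorem slice_analytic {m : ℕ} {θ : (Fin n → ℂ) × ℂ → (Fin m → ℂ)} {q : (Fin n → ℂ) × ℂ}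
    (h : AnalyticAt ℂ θ q) : AnalyticAt ℂ (fun x => θ (x, q.2)) q.1 := by
  have : AnalyticAt ℂ (fun x : Fin n → ℂ => ((x, q.2) : (Fin n → ℂ) × ℂ)) q.1 :=
    analyticAt_id.prod analyticAt_const
  exact AnalyticAt.fun_comp (f := fun x : Fin n → ℂ => ((x, q.2) : (Fin n → ℂ) × ℂ)) (g := θ)
    (by simpa using h) this

theorem slice_fderiv_sl {G : (Fin n → ℂ) × ℂ → ℂ} {q : (Fin n → ℂ) × ℂ}
    (h : DifferentiableAt ℂ G q) :
    HasFDerivAt (sl G q.2) ((fderiv ℂ G q).comp (ContinuousLinearMap.inl ℂ _ ℂ)) q.1 := by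
  have h1 : HasFDerivAt (fun x : Fin n → ℂ => ((x, q.2) : (Fin n → ℂ) × ℂ))
      (ContinuousLinearMap.inl ℂ (Fin n → ℂ) ℂ) q.1 := hasFDerivAt_prodMk_left q.1 q.2
  have h2 : HasFDerivAt G (fderiv ℂ G q) ((fun x : Fin n → ℂ =>
      ((x, q.2) : (Fin n → ℂ) × ℂ)) q.1) := h.hasFDerivAt
  exact h2.comp q.1 h1

variable {θ : (Fin n → ℂ) × ℂ → (Fin n → ℂ)}

theorem Chg.zero (h : Chg θ) : θ (0, 0) = 0 := h.ax.self_of_nhds

theorem axis_tendsto : Tendsto (fun t : ℂ => ((0, t) : (Fin n → ℂ) × ℂ)) (𝓝 0) (𝓝 (0, 0)) :=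
  (Continuous.prodMk_right (0 : Fin n → ℂ)).tendsto 0

/-- the slices are local diffeomorphisms near the origin -/
theorem Chg.inj_near (h : Chg θ) : ∀ᶠ q in 𝓝 ((0 : Fin n → ℂ), (0 : ℂ)),
    AnalyticAt ℂ θ q ∧ Function.Injective (fderiv ℂ (fun x => θ (x, q.2)) q.1) := by
  have h1 : ContinuousAt (fun q => (fderiv ℂ θ q).comp (ContinuousLinearMap.inl ℂ (Fin n → ℂ) ℂ))
      ((0 : Fin n → ℂ), (0 : ℂ)) := by
    have := h.an.fderiv.continuousAt
    exact this.clm_comp continuousAt_const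
  have h2 : Function.Injective
      ((fderiv ℂ θ (0, 0)).comp (ContinuousLinearMap.inl ℂ (Fin n → ℂ) ℂ)) := by
    have := h.inj
    rwa [(slice_fderiv (q := (0, 0)) h.an.differentiableAt).fderiv] at this
  have h3 := h1.eventually (ContinuousLinearMap.isOpen_injective.mem_nhds h2)
  filter_upwards [h3, h.an.eventually_analyticAt] with q h4 h5
  refine ⟨h5, ?_⟩
  rw [(slice_fderiv h5.differentiableAt).fderiv]
  exact h4

theorem fib_analytic (h : Chg θ) : AnalyticAt ℂ (fib θ) (0, 0) := h.an.prod analyticAt_snd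

/-- the fibred map is a local diffeomorphism -/
theorem Chg.oph (h : Chg θ) : ∃ e : OpenPartialHomeomorph ((Fin n → ℂ) × ℂ) ((Fin n → ℂ) × ℂ),
    (e : (Fin n → ℂ) × ℂ → (Fin n → ℂ) × ℂ) = fib θ ∧ ((0, 0) : (Fin n → ℂ) × ℂ) ∈ e.source := by
  have h1 : HasFDerivAt (fib θ) ((fderiv ℂ θ (0, 0)).prod (ContinuousLinearMap.snd ℂ _ ℂ))
      ((0, 0) : (Fin n → ℂ) × ℂ) :=
    h.an.differentiableAt.hasFDerivAt.prodMk hasFDerivAt_snd
  have hi : Function.Injective (fderiv ℂ (fib θ) ((0, 0) : (Fin n → ℂ) × ℂ)) := by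
    rw [h1.fderiv, injective_iff_map_eq_zero]
    rintro ⟨u, s⟩ hus
    have h2 : s = 0 := congrArg Prod.snd hus
    have h3 : fderiv ℂ θ (0, 0) (u, s) = 0 := congrArg Prod.fst hus
    subst h2
    have h4 : fderiv ℂ (fun x => θ (x, 0)) 0 u = 0 := by
      rw [(slice_fderiv (q := (0, 0)) h.an.differentiableAt).fderiv]
      exact h3
    have h5 : u = 0 := (injective_iff_map_eq_zero _).1 h.inj u h4
    rw [h5]
    rfl
  obtain ⟨e, he, hs, -⟩ := exists_oph (fib_analytic h) hi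
  exact ⟨e, he, hs⟩

/-- gradient zero in terms of `fderiv` -/
theorem fderiv_eq_zero_iff {f : (Fin n → ℂ) → ℂ} {x : Fin n → ℂ} :
    fderiv ℂ f x = 0 ↔ ∀ i, coordDeriv f i x = 0 := by
  constructor
  · intro h i
    unfold coordDeriv
    rw [h]
    rfl
  · intro h
    ext v
    have h1 : v = ∑ i, v i • (Pi.single i (1 : ℂ) : Fin n → ℂ) := by
      ext k
      simp [Finset.sum_apply, Pi.single_apply]
    rw [h1, map_sum]
    simp only [map_smul]
    exact Finset.sum_eq_zero fun i _ => by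
      have := h i
      unfold coordDeriv at this
      rw [this, smul_zero]

/-- critical points correspond -/
theorem crit_iff {f g : (Fin n → ℂ) → ℂ} {φ : (Fin n → ℂ) → (Fin n → ℂ)} {x : Fin n → ℂ}
    (hg : DifferentiableAt ℂ g (φ x)) (hφ : DifferentiableAt ℂ φ x)
    (hi : Function.Injective (fderiv ℂ φ x)) (h : f =ᶠ[𝓝 x] g ∘ φ) :
    (∀ i, coordDeriv f i x = 0) ↔ ∀ i, coordDeriv g i (φ x) = 0 := by
  rw [← fderiv_eq_zero_iff, ← fderiv_eq_zero_iff, h.fderiv_eq, fderiv_comp x hg hφ]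
  constructor
  · intro h1
    ext v
    have hs : Function.Surjective (fderiv ℂ φ x : (Fin n → ℂ) →ₗ[ℂ] (Fin n → ℂ)) :=
      LinearMap.injective_iff_surjective.1 hi
    obtain ⟨w, rfl⟩ := hs v
    have := congrArg (fun L : (Fin n → ℂ) →L[ℂ] ℂ => L w) h1
    simpa using this
  · intro h1
    rw [h1]
    ext v
    rfl

/-- **transport of `Fam`** -/
theorem Fam.comp {F G : (Fin n → ℂ) × ℂ → ℂ} {μ : ℕ} (hF : Fam F μ) (h : Chg θ)
    (hG : AnalyticAt ℂ G (0, 0)) (hFG : ∀ᶠ q in 𝓝 ((0 : Fin n → ℂ), (0 : ℂ)),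
      F q = G (θ q, q.2)) : Fam G μ := by
  have tθ : Tendsto (fib θ) (𝓝 (0, 0)) (𝓝 ((0 : Fin n → ℂ), (0 : ℂ))) := by
    have := (fib_analytic h).continuousAt.tendsto
    simpa [fib, h.zero] using this
  -- the pointwise correspondence of critical points
  have key : ∀ᶠ q in 𝓝 ((0 : Fin n → ℂ), (0 : ℂ)),
      ((∀ i, coordDeriv (sl F q.2) i q.1 = 0) ↔ ∀ i, coordDeriv (sl G q.2) i (θ q) = 0) := by
    filter_upwards [h.inj_near, tθ.eventually hG.eventually_analyticAt, hFG.eventually_nhds]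
      with q h1 h2 h3
    have e1 : DifferentiableAt ℂ (sl G q.2) (θ q) :=
      (slice_fderiv_sl h2.differentiableAt).differentiableAt
    have e2 : DifferentiableAt ℂ (fun x => θ (x, q.2)) q.1 :=
      (slice_fderiv h1.1.differentiableAt).differentiableAt
    have e3 : sl F q.2 =ᶠ[𝓝 q.1] sl G q.2 ∘ fun x => θ (x, q.2) := by
      have : Tendsto (fun x : Fin n → ℂ => ((x, q.2) : (Fin n → ℂ) × ℂ)) (𝓝 q.1) (𝓝 q) :=
        (Continuous.prodMk_left q.2).tendsto q.1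
      filter_upwards [this.eventually h3] with x hx
      exact hx
    exact crit_iff (φ := fun x => θ (x, q.2)) (x := q.1) e1 e2 h1.2 e3
  have hax := axis_tendsto (n := n)
  refine ⟨hG, ?_, ?_, ?_, ?_⟩
  · filter_upwards [hF.zero, hax.eventually hFG, h.ax] with t h1 h2 h3
    rw [h1] at h2
    rw [show θ ((0 : Fin n → ℂ), t) = 0 from h3] at h2
    exact h2.symm
  · filter_upwards [hF.crit, hax.eventually key, h.ax] with t h1 h2 h3
    have h4 := h2.1 h1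
    rwa [show θ ((0 : Fin n → ℂ), t) = 0 from h3] at h4
  · filter_upwards [hF.fin, hax.eventually h.inj_near, h.ax, eventually_sl hG, eventually_sl hF.an,
      hax.eventually hFG.eventually_nhds] with t h1 h2 h3 h4 h5 h6
    have e3 : ∀ᶠ x in 𝓝 (0 : Fin n → ℂ), sl F t x = sl G t (θ (x, t)) := by
      have : Tendsto (fun x : Fin n → ℂ => ((x, t) : (Fin n → ℂ) × ℂ)) (𝓝 0) (𝓝 (0, t)) :=
        (Continuous.prodMk_left t).tendsto 0
      filter_upwards [this.eventually h6] with x hx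
      exact hx
    have := par_comp (analyticAt_sl h4) (slice_analytic (q := (0, t)) h2.1) h3 h2.2
      (analyticAt_sl h5) e3
    exact ⟨this.1.2 h1.1, this.2.trans h1.2⟩
  · obtain ⟨e, he, hs⟩ := h.oph
    have he0 : e (0, 0) = (0, 0) := by
      rw [he]
      simp [fib, h.zero]
    have ht : ((0, 0) : (Fin n → ℂ) × ℂ) ∈ e.target := by
      have := e.map_source hs
      rwa [he0] at this
    have hinv : Tendsto e.symm (𝓝 ((0 : Fin n → ℂ), (0 : ℂ))) (𝓝 (0, 0)) := by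
      have h1 := e.tendsto_symm hs
      rwa [he0] at h1
    have hax2 : ∀ᶠ q in 𝓝 ((0 : Fin n → ℂ), (0 : ℂ)), θ (0, q.2) = 0 :=
      (continuous_snd.tendsto ((0 : Fin n → ℂ), (0 : ℂ))).eventually h.ax
    filter_upwards [e.open_target.mem_nhds ht, hinv.eventually key, hinv.eventually hF.iso,
      hax2] with q h1 h2 h3 h4 h5
    have h6 : fib θ (e.symm q) = q := by
      rw [← he]
      exact e.right_inv h1
    have h7 : (e.symm q).2 = q.2 := (congrArg Prod.snd h6 : (fib θ (e.symm q)).2 = q.2)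
    have h8 : θ (e.symm q) = q.1 := (congrArg Prod.fst h6 : (fib θ (e.symm q)).1 = q.1)
    rw [h7, h8] at h2
    rw [h7] at h3
    have h9 := h3 (h2.2 h5)
    rw [← h8]
    have h10 : e.symm q = (0, q.2) := Prod.ext h9 h7
    rw [h10, h4]

/-- **transport of the conclusion** -/
theorem concl_comp {θ : E3 × ℂ → E3} {F G : E3 × ℂ → ℂ} (h : Chg θ)
    (hFG : ∀ᶠ q in 𝓝 ((0 : E3), (0 : ℂ)), F q = G (θ q, q.2)) (hG : Concl G) : Concl F := by
  obtain ⟨δ, hδ, Φ, h1, h2, h3⟩ := hG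
  obtain ⟨e, he, hs⟩ := h.oph
  have hsl : AnalyticAt ℂ (fun x : E3 => θ (x, 0)) 0 := slice_analytic (q := (0, 0)) h.an
  obtain ⟨e0, he0, hs0, -⟩ := exists_oph hsl h.inj
  have he0' : ∀ x, e0 x = θ (x, 0) := fun x => by rw [he0]
  have he' : ∀ q, e q = (θ q, q.2) := fun q => by rw [he]; rfl
  -- the composite
  let Ψ : OpenPartialHomeomorph (E3 × ℂ) (E3 × ℂ) :=
    ((e0.prod (OpenPartialHomeomorph.refl ℂ)).trans Φ).trans e.symm
  have hΨ : ∀ q, Ψ q = e.symm (Φ (e0 q.1, q.2)) := fun q => rfl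
  have hΨs : ∀ q, q ∈ Ψ.source ↔ (q.1 ∈ e0.source ∧ (e0 q.1, q.2) ∈ Φ.source) ∧
      Φ (e0 q.1, q.2) ∈ e.target := by
    intro q
    simp [Ψ, OpenPartialHomeomorph.trans_source, Set.mem_inter_iff, Set.mem_preimage]
  have e00 : e0 0 = 0 := by rw [he0']; exact h.zero
  have ax0 : ∀ᶠ t in 𝓝 (0 : ℂ), ((0 : E3), t) ∈ Ψ.source ∧ Ψ (0, t) = (0, t) := by
    have c1 : ∀ᶠ t in 𝓝 (0 : ℂ), ((0 : E3), t) ∈ e.source :=
      (axis_tendsto (n := 3)).eventually (e.open_source.mem_nhds hs)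
    filter_upwards [Metric.ball_mem_nhds (0 : ℂ) hδ, c1, h.ax] with t ht hc hx
    obtain ⟨d1, d2⟩ := h1 t (by simpa using ht)
    have d3 : e ((0 : E3), t) = (0, t) := by
      rw [he', show θ ((0 : E3), t) = 0 from hx]
    have d4 : ((0 : E3), t) ∈ e.target := by
      have := e.map_source hc
      rwa [d3] at this
    refine ⟨(hΨs _).2 ⟨⟨hs0, ?_⟩, ?_⟩, ?_⟩
    · change (e0 0, t) ∈ Φ.source
      rw [e00]
      exact d1
    · change Φ (e0 0, t) ∈ e.target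
      rw [e00, d2]
      exact d4
    · rw [hΨ]
      change e.symm (Φ (e0 0, t)) = (0, t)
      rw [e00, d2]
      have := e.left_inv hc
      rwa [d3] at this
  have hz := ax0.self_of_nhds
  -- the good set
  let N : Set (E3 × ℂ) := {q | F q = G (θ q, q.2) ∧ q ∈ e.source}
  have hN : N ∈ 𝓝 ((0 : E3), (0 : ℂ)) := hFG.and (e.open_source.mem_nhds hs)
  let S : Set (E3 × ℂ) := {q | Ψ q ∈ N ∧ (q.1, (0 : ℂ)) ∈ N}
  have hS : S ∈ 𝓝 ((0 : E3), (0 : ℂ)) := by
    have c1 : Tendsto Ψ (𝓝 ((0 : E3), (0 : ℂ))) (𝓝 (0, 0)) := by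
      have := (Ψ.continuousAt hz.1).tendsto
      rwa [hz.2] at this
    have c2 : Tendsto (fun q : E3 × ℂ => (q.1, (0 : ℂ))) (𝓝 ((0 : E3), (0 : ℂ))) (𝓝 (0, 0)) := by
      have : Continuous (fun q : E3 × ℂ => (q.1, (0 : ℂ))) := by fun_prop
      exact this.tendsto' _ _ rfl
    exact (c1.eventually hN).and (c2.eventually hN)
  have hSi : ∀ᶠ t in 𝓝 (0 : ℂ), ((0 : E3), t) ∈ interior S :=
    (axis_tendsto (n := 3)).eventually (interior_mem_nhds.2 hS)
  obtain ⟨δ', hδ', hb⟩ := Metric.eventually_nhds_iff.1 (ax0.and hSi)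
  refine ⟨δ', hδ', Ψ.restr S, fun t ht => ?_, fun p hp => ?_, fun x hx => ?_⟩
  · obtain ⟨⟨a1, a2⟩, a3⟩ := hb (by simpa using ht)
    refine ⟨?_, a2⟩
    rw [OpenPartialHomeomorph.restr_source]
    exact ⟨a1, a3⟩
  · rw [OpenPartialHomeomorph.restr_source] at hp
    obtain ⟨a1, a2⟩ := hp
    obtain ⟨⟨b1, b2⟩, b3, b4⟩ := interior_subset a2
    obtain ⟨⟨c1, c2⟩, c3⟩ := (hΨs p).1 a1
    have d0 : (Ψ.restr S) p = Ψ p := rfl
    have d1 : e (Ψ p) = Φ (e0 p.1, p.2) := by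
      rw [hΨ]
      exact e.right_inv c3
    have d2 : (Ψ p).2 = p.2 := by
      have e1 : (e (Ψ p)).2 = (Ψ p).2 := by rw [he']
      rw [← e1, d1]
      exact (h2 _ c2).1
    refine ⟨by rw [d0]; exact d2, ?_⟩
    rw [d0, b1, ← he', d1, (h2 _ c2).2, b3, he0']
  · rw [OpenPartialHomeomorph.restr_source] at hx
    obtain ⟨a1, a2⟩ := hx
    obtain ⟨⟨b1, b2⟩, b3, b4⟩ := interior_subset a2
    obtain ⟨⟨c1, c2⟩, c3⟩ := (hΨs _).1 a1
    have d0 : (Ψ.restr S) (x, 0) = Ψ (x, 0) := rfl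
    rw [d0, hΨ]
    change e.symm (Φ (e0 x, 0)) = (x, 0)
    rw [h3 _ c2]
    have : e (x, 0) = (e0 x, 0) := by rw [he', he0']
    rw [← this]
    exact e.left_inv b4

end Crest.Agent.R257.LCb_472
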