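import Crest.Agent.R257.LCDefs_472
import Crest.Agent.R257.GA_554
import Crest.Agent.R257.SkelA_219

/-!
R257 / Line1_648: expansion of order two of the gradient of a family, symmetry of `H3`,
and persistence of a nondegenerate critical point of the lowest part of `F(t^a x, t)`.
-/

set_option autoImplicit false

open Topology Filter Set
open Crest.AlgGeometry.Germ

noncomputable section

namespace Crest.Agent.R257.Line_648

open Crest.Agent.R257.Defs_219 Crest.Agent.R257.LCDefs_472 Crest.Agent.R257.Skel_219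
open Crest.Agent.R257.Glob554

variable {n : ℕ}

/-- product rule for `c + ∑ x_j q_j` -/
lemma cd_lin (c : ℂ) (q : Fin n → (Fin n → ℂ) → ℂ) (x : Fin n → ℂ)
    (hq : ∀ j, DifferentiableAt ℂ (q j) x) (k : Fin n) :
    coordDeriv (fun x => c + ∑ j, x j * q j x) k x =
      q k x + ∑ j, x j * coordDeriv (q j) k x := by
  unfold coordDeriv
  have h1 : ∀ j, HasFDerivAt (fun x : Fin n → ℂ => x j * q j x)
      (x j • fderiv ℂ (q j) x + q j x • (ContinuousLinearMap.proj (R := ℂ)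
        (φ := fun _ : Fin n => ℂ) j)) x := by
    intro j
    exact ((ContinuousLinearMap.proj (R := ℂ) (φ := fun _ : Fin n => ℂ) j).hasFDerivAt (x := x)).mul
      (hq j).hasFDerivAt
  have h2 : HasFDerivAt (fun x : Fin n → ℂ => c + ∑ j, x j * q j x) _ x :=
    (HasFDerivAt.fun_sum (u := Finset.univ) (fun j _ => h1 j)).const_add c
  rw [h2.fderiv]
  simp only [FunLike.coe_sum, Finset.sum_apply, add_apply, smul_apply,
    ContinuousLinearMap.proj_apply, smul_eq_mul,
    Finset.sum_add_distrib]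
  rw [add_comm]
  congr 1
  rw [Finset.sum_eq_single k]
  · simp
  · intro b _ hb
    simp [Pi.single_eq_of_ne hb]
  · intro h; exact absurd (Finset.mem_univ k) h

lemma cd_of {f : (Fin n → ℂ) → ℂ} {x : Fin n → ℂ} {L : (Fin n → ℂ) →L[ℂ] ℂ}
    (h : HasFDerivAt f L x) (k : Fin n) : coordDeriv f k x = L (Pi.single k 1) := by
  unfold coordDeriv
  rw [h.fderiv]

lemma cd_congr {f g : (Fin n → ℂ) → ℂ} {x : Fin n → ℂ} (h : f =ᶠ[𝓝 x] g) (k : Fin n) :
    coordDeriv f k x = coordDeriv g k x := by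
  unfold coordDeriv
  rw [h.fderiv_eq]

/-- curry for neighbourhoods of `(0,0)` -/
lemma curry0 {P : (Fin n → ℂ) × ℂ → Prop} (h : ∀ᶠ p in 𝓝 ((0 : Fin n → ℂ), (0 : ℂ)), P p) :
    ∀ᶠ t in 𝓝 (0 : ℂ), ∀ᶠ x in 𝓝 (0 : Fin n → ℂ), P (x, t) := by
  have h1 := h.eventually_nhds
  have h2 : Tendsto (fun t : ℂ => ((0 : Fin n → ℂ), t)) (𝓝 0) (𝓝 (0, 0)) :=
    (Continuous.prodMk_right (0 : Fin n → ℂ)).tendsto 0
  filter_upwards [h2.eventually h1] with t ht
  have h3 : Tendsto (fun x : Fin n → ℂ => (x, t)) (𝓝 0) (𝓝 (0, t)) :=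
    (Continuous.prodMk_left t).tendsto 0
  exact h3.eventually ht

lemma first {g : (Fin n → ℂ) × ℂ → ℂ} {c : ℂ → ℂ} {q : Fin n → (Fin n → ℂ) × ℂ → ℂ}
    (hq : ∀ j, AnalyticAt ℂ (q j) (0, 0))
    (h : ∀ᶠ p in 𝓝 ((0 : Fin n → ℂ), (0 : ℂ)), g p = c p.2 + ∑ j, p.1 j * q j p) :
    ∀ᶠ t in 𝓝 (0 : ℂ), ∀ᶠ x in 𝓝 (0 : Fin n → ℂ), ∀ k, coordDeriv (sl g t) k x =
      q k (x, t) + ∑ m, x m * coordDeriv (sl (q m) t) k x := by
  have h1 := curry0 h
  have h2 : ∀ᶠ p in 𝓝 ((0 : Fin n → ℂ), (0 : ℂ)), ∀ j, AnalyticAt ℂ (q j) p :=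
    eventually_all.2 fun j => (hq j).eventually_analyticAt
  filter_upwards [h1, curry0 h2] with t ht h3
  filter_upwards [ht.eventually_nhds, h3] with x hx h4 k
  have e1 : sl g t =ᶠ[𝓝 x] fun x => c t + ∑ j, x j * sl (q j) t x := hx
  rw [cd_congr e1, cd_lin]
  · rfl
  · intro j
    have := (h4 j).differentiableAt
    exact DifferentiableAt.comp (g := q j) (f := fun x : Fin n → ℂ => (x, t)) x this
      (differentiableAt_id.prodMk (differentiableAt_const _))

/-- expansion of order two -/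
theorem expand {g : (Fin n → ℂ) × ℂ → ℂ} (hg : AnalyticAt ℂ g (0, 0))
    (h0 : ∀ᶠ t in 𝓝 (0 : ℂ), g (0, t) = 0) :
    ∃ R : Fin n → Fin n → (Fin n → ℂ) × ℂ → ℂ, (∀ j k, AnalyticAt ℂ (R j k) (0, 0)) ∧
      (∀ᶠ p in 𝓝 ((0 : Fin n → ℂ), (0 : ℂ)),
        g p = ∑ j, p.1 j * coordDeriv (sl g p.2) j 0 + ∑ j, ∑ k, p.1 j * p.1 k * R j k p) ∧
      ∀ j k, R j k (0, 0) + R k j (0, 0) = coordDeriv (coordDeriv (sl g 0) j) k 0 := by
  obtain ⟨c, q, -, hq, h⟩ := had_fun g hg
  choose c' R hc' hR hcR using fun j => had_fun (q j) (hq j)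
  have f1 := first hq h
  have f2 : ∀ j, ∀ᶠ t in 𝓝 (0 : ℂ), ∀ᶠ x in 𝓝 (0 : Fin n → ℂ), ∀ k, coordDeriv (sl (q j) t) k x =
      R j k (x, t) + ∑ m, x m * coordDeriv (sl (R j m) t) k x := fun j => first (hR j) (hcR j)
  have g1 : ∀ᶠ t in 𝓝 (0 : ℂ), ∀ k, coordDeriv (sl g t) k 0 = q k (0, t) := by
    filter_upwards [f1] with t ht k
    have := ht.self_of_nhds k
    simpa using this
  have g2 : ∀ j k, coordDeriv (sl (q j) 0) k 0 = R j k (0, 0) := by
    intro j k
    have := (f2 j).self_of_nhds.self_of_nhds k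
    simpa using this
  have hc0 : ∀ᶠ t in 𝓝 (0 : ℂ), c t = 0 := by
    filter_upwards [h0, curry0 h] with t ht h1
    have := h1.self_of_nhds
    simp only [Pi.zero_apply, zero_mul, Finset.sum_const_zero, add_zero] at this
    rw [← this, ht]
  have hc'0 : ∀ j, ∀ᶠ t in 𝓝 (0 : ℂ), c' j t = q j (0, t) := by
    intro j
    filter_upwards [curry0 (hcR j)] with t h1
    have := h1.self_of_nhds
    simp only [Pi.zero_apply, zero_mul, Finset.sum_const_zero, add_zero] at this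
    exact this.symm
  refine ⟨R, hR, ?_, ?_⟩
  · have h2 : Tendsto (fun p : (Fin n → ℂ) × ℂ => p.2) (𝓝 ((0 : Fin n → ℂ), (0 : ℂ))) (𝓝 0) :=
      continuous_snd.tendsto _
    have h3 : ∀ᶠ p in 𝓝 ((0 : Fin n → ℂ), (0 : ℂ)), ∀ j, q j p = c' j p.2 + ∑ k, p.1 k * R j k p :=
      eventually_all.2 hcR
    have h4 : ∀ᶠ t in 𝓝 (0 : ℂ), ∀ j, c' j t = q j (0, t) := eventually_all.2 hc'0
    filter_upwards [h, h2.eventually hc0, h2.eventually g1, h3, h2.eventually h4]
      with p e1 e2 e3 e4 e5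
    rw [e1, e2, zero_add, ← Finset.sum_add_distrib]
    refine Finset.sum_congr rfl fun j _ => ?_
    rw [e3, e4, e5, mul_add, Finset.mul_sum]
    congr 1
    exact Finset.sum_congr rfl fun k _ => by ring
  · intro j k
    have h5 := f1.self_of_nhds
    have e1 : coordDeriv (sl g 0) j =ᶠ[𝓝 0] fun x => q j (x, 0) +
        ∑ m, x m * coordDeriv (sl (q m) 0) j x := by
      filter_upwards [h5] with x hx
      exact hx j
    have han : ∀ j, AnalyticAt ℂ (sl (q j) 0) 0 := fun j => analyticAt_sl (hq j)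
    have e2 : HasFDerivAt (fun x => q j (x, 0) + ∑ m, x m * coordDeriv (sl (q m) 0) j x)
        (fderiv ℂ (sl (q j) 0) 0 + fderiv ℂ (fun x : Fin n → ℂ => 0 +
          ∑ m, x m * coordDeriv (sl (q m) 0) j x) 0) 0 := by
      refine (han j).differentiableAt.hasFDerivAt.add ?_
      have : DifferentiableAt ℂ (fun x : Fin n → ℂ => (0 : ℂ) +
          ∑ m, x m * coordDeriv (sl (q m) 0) j x) 0 := by
        refine (differentiableAt_const _).add (DifferentiableAt.fun_sum fun m _ => ?_)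
        exact (ContinuousLinearMap.proj (R := ℂ) (φ := fun _ : Fin n => ℂ) m).differentiableAt.mul
          (analyticAt_coordDeriv (han m) j).differentiableAt
      simpa using this.hasFDerivAt
    rw [cd_congr e1, cd_of e2]
    have e3 := cd_lin 0 (fun m => coordDeriv (sl (q m) 0) j) 0
      (fun m => (analyticAt_coordDeriv (han m) j).differentiableAt) k
    have e4 := g2 j k
    have e5 := g2 k j
    change _ = coordDeriv (sl (q j) 0) k 0 + coordDeriv (fun x : Fin n → ℂ => 0 +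
          ∑ m, x m * coordDeriv (sl (q m) 0) j x) k 0
    rw [e3, e4, e5]
    simp

/-- symmetry of the second derivatives -/
theorem cd_symm {f : (Fin n → ℂ) → ℂ} {x : Fin n → ℂ} (hf : AnalyticAt ℂ f x) (i j : Fin n) :
    coordDeriv (coordDeriv f i) j x = coordDeriv (coordDeriv f j) i x := by
  have key : ∀ i j : Fin n, coordDeriv (coordDeriv f i) j x =
      fderiv ℂ (fderiv ℂ f) x (Pi.single j 1) (Pi.single i 1) := by
    intro i j
    have h1 : DifferentiableAt ℂ (fderiv ℂ f) x := hf.fderiv.differentiableAt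
    have h2 : HasFDerivAt (fun y => fderiv ℂ f y (Pi.single i 1))
        ((ContinuousLinearMap.apply ℂ ℂ (Pi.single i 1 : Fin n → ℂ)).comp
          (fderiv ℂ (fderiv ℂ f) x)) x :=
      (ContinuousLinearMap.apply ℂ ℂ (Pi.single i 1 : Fin n → ℂ)).hasFDerivAt.comp x
        h1.hasFDerivAt
    unfold coordDeriv
    rw [h2.fderiv]
    rfl
  rw [key, key]
  have h3 : IsSymmSndFDerivAt ℂ f x := by
    apply hf.contDiffAt.isSymmSndFDerivAt (n := 2)
    simp
  exact h3 _ _

theorem H3_symm12 {f : (Fin n → ℂ) → ℂ} (hf : AnalyticAt ℂ f 0) (i j k : Fin n) :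
    H3 f i j k = H3 f j i k := by
  unfold H3
  refine cd_congr ?_ k
  filter_upwards [hf.eventually_analyticAt] with x hx
  exact cd_symm hx i j

theorem H3_symm23 {f : (Fin n → ℂ) → ℂ} (hf : AnalyticAt ℂ f 0) (i j k : Fin n) :
    H3 f i j k = H3 f i k j :=
  cd_symm (analyticAt_coordDeriv hf i) j k

end Crest.Agent.R257.Line_648
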