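import Crest.Agent.R257.P8d_472
import Crest.Agent.R257.Line1_648
import Crest.Agent.R257.LCb_472

/-!
R257 / P8e_472: `P8Stmt` from the lower bound `8 ≤ μ` for `f ∈ m³`.
-/

set_option autoImplicit false
set_option linter.unusedVariables false
set_option linter.unusedSectionVars false

open Set Filter Topology
open Crest.AlgGeometry.Germ
open Crest.Agent.R257.Defs_219 Crest.Agent.R257.Skel_219 Crest.Agent.R257.LCDefs_472
open Crest.Agent.R257.LCa_472 Crest.Agent.R257.P8c_472 Crest.Agent.R257.P8d_472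

noncomputable section

namespace Crest.Agent.R257.P8e_472

section Lin

variable {n m : ℕ}

/-- linear changes of coordinates, arbitrary generators -/
theorem quo_lin (L : (Fin n → ℂ) ≃L[ℂ] (Fin n → ℂ)) (G : Fin m → (Fin n → ℂ) → ℂ) :
    Nonempty (Quo G ≃ₗ[ℂ] Quo (fun i x => G i (L x))) := by
  have tL : Tendsto L (𝓝 0) (𝓝 0) := L.continuous.tendsto' _ _ (map_zero L)
  have tL' : Tendsto L.symm (𝓝 0) (𝓝 0) := L.symm.continuous.tendsto' _ _ (map_zero L.symm)
  refine quo_equiv (pull L (L.toContinuousLinearMap.analyticAt 0) (map_zero L)) (fun b => ?_)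
    fun a => ⟨fun h => ?_, fun h => ?_⟩
  · refine ⟨pull L.symm (L.symm.toContinuousLinearMap.analyticAt 0) (map_zero L.symm) b, 0,
      fun _ => analyticAt_const, Eventually.of_forall fun x => ?_⟩
    change (b : (Fin n → ℂ) → ℂ) x - (b : (Fin n → ℂ) → ℂ) (L.symm (L x)) = _
    simp
  · obtain ⟨k, hk, hke⟩ := h
    refine ⟨fun i x => k i (L.symm x), fun i => AnalyticAt.fun_comp (g := k i) (f := L.symm)
      (by rw [map_zero]; exact hk i) (L.symm.toContinuousLinearMap.analyticAt 0), ?_⟩
    filter_upwards [tL'.eventually hke] with x hx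
    have hx' : (a : (Fin n → ℂ) → ℂ) (L (L.symm x)) = ∑ i, k i (L.symm x) * G i (L (L.symm x)) := hx
    simpa using hx'
  · obtain ⟨k, hk, hke⟩ := h
    refine ⟨fun i x => k i (L x), fun i => AnalyticAt.fun_comp (g := k i) (f := L)
      (by rw [map_zero]; exact hk i) (L.toContinuousLinearMap.analyticAt 0), ?_⟩
    filter_upwards [tL.eventually hke] with x hx
    exact hx

/-- constant matrices of generators -/
theorem gens_matrix {G : Fin m → (Fin n → ℂ) → ℂ} {l : ℕ} {G' : Fin l → (Fin n → ℂ) → ℂ}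
    (U : Fin m → Fin l → ℂ) (h : ∀ i, ∀ᶠ x in 𝓝 0, G i x = ∑ j, U i j * G' j x) :
    gens G ≤ gens G' :=
  gens_le fun i => ⟨fun j _ => U i j, fun _ => analyticAt_const, h i⟩

theorem colFin_of_gens {k : ℕ} {G : Fin m → (Fin n → ℂ) → ℂ} {G' : Fin k → (Fin n → ℂ) → ℂ}
    (h : gens G = gens G') : (ColFin G ↔ ColFin G') ∧ col G = col G' := by
  unfold ColFin col Quo
  rw [h]
  exact ⟨Iff.rfl, rfl⟩

end Lin

/-- the third derivative is a symmetric trilinear form -/
theorem tri_D3 {f : E3 → ℂ} (hf : AnalyticAt ℂ f 0) : Tri (D3 f) where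
  add u v w w' := by
    unfold D3
    simp only [Pi.add_apply, mul_add, Finset.sum_add_distrib]
  smul u v w c := by
    unfold D3
    simp only [Pi.smul_apply, smul_eq_mul, Finset.mul_sum]
    refine Finset.sum_congr rfl fun i _ => Finset.sum_congr rfl fun j _ =>
      Finset.sum_congr rfl fun k _ => ?_
    ring
  sw12 u v w := by
    unfold D3
    rw [Finset.sum_comm]
    refine Finset.sum_congr rfl fun i _ => Finset.sum_congr rfl fun j _ =>
      Finset.sum_congr rfl fun k _ => ?_
    rw [Line_648.H3_symm12 hf j i k]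
    ring
  sw23 u v w := by
    unfold D3
    refine Finset.sum_congr rfl fun i _ => ?_
    rw [Finset.sum_comm]
    refine Finset.sum_congr rfl fun j _ => Finset.sum_congr rfl fun k _ => ?_
    rw [Line_648.H3_symm23 hf i k j]
    ring

/-- the lower bound of the Milnor number -/
def Mu8Stmt : Prop := ∀ f : E3 → ℂ, AnalyticAt ℂ f 0 → (∀ i, coordDeriv f i 0 = 0) →
  (∀ i j, H2 f i j = 0) → ColFin (par f) → 8 ≤ col (par f)

/-- the limit generators have colength at most 7 -/
theorem limit_le {f : E3 → ℂ} (hf : AnalyticAt ℂ f 0) (l : Fin 3 → ℂ) (hl : ∃ i, l i ≠ 0)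
    (hs : ∀ v : E3, v ≠ 0 → ∃ w, D3 f v v w ≠ 0) :
    ColFin (fun (i : Fin 3) (y : E3) =>
      2 * (l i * ∑ j, l j * y j) + ∑ j, ∑ k, H3 f i j k * y j * y k) ∧
    col (fun (i : Fin 3) (y : E3) =>
      2 * (l i * ∑ j, l j * y j) + ∑ j, ∑ k, H3 f i j k * y j * y k) ≤ 7 := by
  set G : Fin 3 → E3 → ℂ := fun i y =>
    2 * (l i * ∑ j, l j * y j) + ∑ j, ∑ k, H3 f i j k * y j * y k with hG
  have hD := tri_D3 hf
  let lam : E3 →ₗ[ℂ] ℂ := ∑ i, l i • LinearMap.proj i
  have hlam : ∀ v, lam v = ∑ i, l i * v i := fun v => by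
    simp [lam, LinearMap.sum_apply]
  have hlam0 : lam ≠ 0 := by
    obtain ⟨i, hi⟩ := hl
    intro h0
    apply hi
    have := congrArg (fun φ : E3 →ₗ[ℂ] ℂ => φ (Pi.single i 1)) h0
    simpa [hlam, Pi.single_apply] using this
  obtain ⟨u, hu0, hu1, hu2, hind, hcase⟩ := normal hD lam hlam0 hs
  set c : Fin 3 → Fin 3 → Fin 3 → ℂ := fun i j k => D3 f (u i) (u j) (u k) with hc
  -- the linear map
  let Lm : E3 →ₗ[ℂ] E3 := Fintype.linearCombination ℂ u
  have hLm : ∀ y : E3, Lm y = ∑ i, y i • u i := fun y => Fintype.linearCombination_apply ℂ u y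
  have hlL : ∀ y : E3, lam (Lm y) = y 0 := by
    intro y
    rw [hLm, map_sum, Fin.sum_univ_three, map_smul, map_smul, map_smul, hu0, hu1, hu2]
    simp
  have hinj : Function.Injective Lm := by
    rw [injective_iff_map_eq_zero]
    intro y hy
    have h0 : y 0 = 0 := by
      have h1 := hlL y
      rw [hy, map_zero] at h1
      exact h1.symm
    have h1 : y 1 • u 1 + y 2 • u 2 = 0 := by
      rw [hLm, Fin.sum_univ_three, h0, zero_smul, zero_add] at hy
      exact hy
    obtain ⟨h2, h3⟩ := hind _ _ h1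
    ext i
    fin_cases i
    · exact h0
    · exact h2
    · exact h3
  let L : E3 ≃L[ℂ] E3 := (LinearEquiv.ofInjectiveEndo Lm hinj).toContinuousLinearEquiv
  have hL : ∀ y, L y = Lm y := fun y => rfl
  -- comparison of the generators
  have key : ∀ j y, gq c j y = ∑ i, u j i * G i (L y) := by
    intro j y
    have e1 : ∑ i, u j i * G i (L y) = 2 * (lam (u j) * lam (L y)) + D3 f (u j) (L y) (L y) := by
      have e0 : ∀ (S : ℂ) (Q : Fin 3 → ℂ), ∑ i, u j i * (2 * (l i * S) + Q i) =
          2 * ((∑ i, l i * u j i) * S) + ∑ i, u j i * Q i := by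
        intro S Q
        simp only [mul_add, Finset.sum_add_distrib, Finset.sum_mul, Finset.mul_sum]
        congr 1
        exact Finset.sum_congr rfl fun i _ => by ring
      rw [hlam (u j), hlam (L y)]
      simp only [hG]
      rw [e0]
      congr 1
      unfold D3
      simp only [Finset.mul_sum]
      refine Finset.sum_congr rfl fun i _ => Finset.sum_congr rfl fun k _ =>
        Finset.sum_congr rfl fun m _ => ?_
      ring
    have e2 : D3 f (u j) (L y) (L y) = ∑ a, ∑ b, c j a b * y a * y b := by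
      rw [hL, hLm]
      simp only [Fin.sum_univ_three, hD.add, hD.smul, hD.add2, hD.smul2, hc]
      ring
    rw [e1, e2, hL, hlL]
    unfold gq
    congr 1
    fin_cases j
    · simp [hu0]
    · simp [hu1]
    · simp [hu2]
  have key' : ∀ i y, G i (L y) = ∑ j, (L.symm (Pi.single i 1)) j * gq c j y := by
    intro i y
    have e1 : ∀ k, ∑ j, (L.symm (Pi.single i 1)) j * u j k = (Pi.single i 1 : E3) k := by
      intro k
      have h1 : L (L.symm (Pi.single i 1)) = Pi.single i 1 := L.apply_symm_apply _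
      rw [hL, hLm] at h1
      have := congrFun h1 k
      rw [← this, Finset.sum_apply]
      rfl
    simp only [key, Finset.mul_sum]
    rw [Finset.sum_comm]
    have e2 : ∀ k, ∑ j, (L.symm (Pi.single i 1)) j * (u j k * G k (L y)) =
        (Pi.single i 1 : E3) k * G k (L y) := by
      intro k
      rw [← e1, Finset.sum_mul]
      exact Finset.sum_congr rfl fun j _ => by ring
    simp only [e2]
    rw [Finset.sum_eq_single i]
    · simp
    · intro b _ hb
      simp [Pi.single_eq_of_ne hb]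
    · simp
  have hgens : gens (gq c) = gens (fun i y => G i (L y)) :=
    le_antisymm (gens_matrix (fun j i => u j i) fun j => Eventually.of_forall fun y => key j y)
      (gens_matrix (fun i j => (L.symm (Pi.single i 1)) j) fun i =>
        Eventually.of_forall fun y => key' i y)
  have h7 := col_gq (c := c) (fun i j k => hD.sw12 _ _ _) (fun i j k => hD.sw23 _ _ _) hcase
  have h8 := colFin_of_gens hgens
  have h9 := col_of_equiv (quo_lin L G)
  exact ⟨h9.1.2 (h8.1.1 h7.1), by rw [h9.2, ← h8.2]; exact h7.2⟩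

theorem p8_of (h8 : Mu8Stmt) : P8Stmt := by
  intro F μ hF h2 hs a T hT hTe l hl hlT
  have hf0 : AnalyticAt ℂ (sl F 0) 0 := analyticAt_sl hF.an
  have ha : a ≠ 0 := by
    rintro rfl
    obtain ⟨i, hi⟩ := hl
    have h1 := hTe.self_of_nhds i i
    rw [h2, pow_zero, one_mul, hlT] at h1
    exact mul_ne_zero hi hi h1.symm
  -- the expansions
  have hpd : ∀ i, AnalyticAt ℂ (fun q : E3 × ℂ => coordDeriv (sl F q.2) i q.1) (0, 0) :=
    fun i => analyticAt_pd hF.an i
  choose R hR hRe hR0 using fun i => Line_648.expand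
    (g := fun q : E3 × ℂ => coordDeriv (sl F q.2) i q.1) (hpd i) (hF.crit.mono fun t ht => ht i)
  -- the rescaled generators
  let Gh : Fin 3 → E3 × ℂ → ℂ := fun i p =>
    2 * (∑ j, T i j p.2 * p.1 j) + 2 * ∑ j, ∑ k, p.1 j * p.1 k * R i j k (p.2 ^ a • p.1, p.2)
  have hsc : AnalyticAt ℂ (fun p : E3 × ℂ => ((p.2 ^ a • p.1, p.2) : E3 × ℂ)) (0, 0) :=
    ((analyticAt_snd.pow a).smul analyticAt_fst).prod analyticAt_snd
  have hx : ∀ j : Fin 3, AnalyticAt ℂ (fun p : E3 × ℂ => p.1 j) (0, 0) := fun j =>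
    ((ContinuousLinearMap.proj (R := ℂ) (φ := fun _ : Fin 3 => ℂ) j).analyticAt _).fun_comp
      analyticAt_fst
  have hGh : ∀ i, AnalyticAt ℂ (Gh i) 0 := by
    intro i
    have a1 : ∀ j, AnalyticAt ℂ (fun p : E3 × ℂ => T i j p.2) ((0, 0) : E3 × ℂ) := fun j =>
      AnalyticAt.fun_comp (g := T i j) (f := fun p : E3 × ℂ => p.2) (by exact hT i j)
        analyticAt_snd
    have a2 : ∀ j k, AnalyticAt ℂ (fun p : E3 × ℂ => R i j k (p.2 ^ a • p.1, p.2))
        ((0, 0) : E3 × ℂ) := fun j k =>
      AnalyticAt.fun_comp (g := R i j k) (f := fun p : E3 × ℂ =>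
        ((p.2 ^ a • p.1, p.2) : E3 × ℂ)) (by simpa using hR i j k) hsc
    exact (analyticAt_const.mul (Finset.analyticAt_fun_sum _ fun j _ => (a1 j).mul (hx j))).add
      (analyticAt_const.mul (Finset.analyticAt_fun_sum _ fun j _ =>
        Finset.analyticAt_fun_sum _ fun k _ => ((hx j).mul (hx k)).mul (a2 j k)))
  -- at `t = 0`
  have h0 : (fun i => sl (Gh i) 0) = fun (i : Fin 3) (y : E3) =>
      2 * (l i * ∑ j, l j * y j) + ∑ j, ∑ k, H3 (sl F 0) i j k * y j * y k := by
    funext i y
    change 2 * (∑ j, T i j 0 * y j) + 2 * ∑ j, ∑ k, y j * y k * R i j k ((0 : ℂ) ^ a • y, 0) = _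
    rw [zero_pow ha, zero_smul]
    have e0 : ∑ j, T i j 0 * y j = l i * ∑ j, l j * y j := by
      rw [Finset.mul_sum]
      exact Finset.sum_congr rfl fun j _ => by rw [hlT]; ring
    rw [e0]
    congr 1
    have e1 : ∀ j k, H3 (sl F 0) i j k = R i j k (0, 0) + R i k j (0, 0) := fun j k =>
      (hR0 i j k).symm
    simp only [e1, add_mul, Finset.sum_add_distrib]
    rw [two_mul]
    congr 1
    · refine Finset.sum_congr rfl fun j _ => Finset.sum_congr rfl fun k _ => ?_
      ring
    · rw [Finset.sum_comm]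
      refine Finset.sum_congr rfl fun j _ => Finset.sum_congr rfl fun k _ => ?_
      ring
  have hlim := limit_le hf0 l hl hs
  rw [← h0] at hlim
  have husc := UI939.usc_col Gh hGh hlim.1
  -- at `t ≠ 0`
  have hexp : ∀ᶠ t in 𝓝 (0 : ℂ), ∀ i, ∀ᶠ x in 𝓝 (0 : E3), coordDeriv (sl F t) i x =
      ∑ j, x j * H2 (sl F t) i j + ∑ j, ∑ k, x j * x k * R i j k (x, t) := by
    refine eventually_all.2 fun i => ?_
    exact Line_648.curry0 (hRe i)
  have hne : ∀ᶠ t in 𝓝[≠] (0 : ℂ), col (fun i => sl (Gh i) t) = μ := by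
    filter_upwards [(hexp.and (hTe.and hF.fin)).filter_mono nhdsWithin_le_nhds,
      self_mem_nhdsWithin] with t ht ht0
    obtain ⟨h3, h4, h5⟩ := ht
    have hta : t ^ a ≠ 0 := pow_ne_zero _ ht0
    let L : E3 ≃L[ℂ] E3 := (LinearEquiv.smulOfNeZero ℂ E3 (t ^ a) hta).toContinuousLinearEquiv
    have hL : ∀ y : E3, L y = t ^ a • y := fun y => rfl
    have tL : Tendsto L (𝓝 0) (𝓝 0) := L.continuous.tendsto' _ _ (map_zero L)
    have hid : ∀ i, ∀ᶠ y in 𝓝 (0 : E3), t ^ a * t ^ a * sl (Gh i) t y =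
        2 * par (sl F t) i (L y) := by
      intro i
      filter_upwards [tL.eventually (h3 i)] with y hy
      change _ = 2 * coordDeriv (sl F t) i (L y)
      rw [hy, hL]
      change t ^ a * t ^ a * (2 * (∑ j, T i j t * y j) +
        2 * ∑ j, ∑ k, y j * y k * R i j k (t ^ a • y, t)) = _
      simp only [h4, Pi.smul_apply, smul_eq_mul, mul_add, Finset.mul_sum]
      congr 1
      · refine Finset.sum_congr rfl fun j _ => ?_
        ring
      · refine Finset.sum_congr rfl fun j _ => Finset.sum_congr rfl fun k _ => ?_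
        ring
    have hg : gens (fun i => sl (Gh i) t) = gens (fun i y => par (sl F t) i (L y)) := by
      refine le_antisymm (gens_matrix (fun i j => if j = i then 2 / (t ^ a * t ^ a) else 0)
        fun i => ?_) (gens_matrix (fun i j => if j = i then (t ^ a * t ^ a) / 2 else 0)
        fun i => ?_)
      · filter_upwards [hid i] with y hy
        rw [Finset.sum_eq_single i]
        · rw [if_pos rfl]
          field_simp
          linear_combination hy
        · intro b _ hb
          simp [hb]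
        · simp
      · filter_upwards [hid i] with y hy
        rw [Finset.sum_eq_single i]
        · rw [if_pos rfl]
          linear_combination (-1 / 2 : ℂ) * hy
        · intro b _ hb
          simp [hb]
        · simp
    rw [(colFin_of_gens hg).2, ← (col_of_equiv (quo_lin L (par (sl F t)))).2]
    exact h5.2
  obtain ⟨t, ht1, ht2⟩ := (hne.and (husc.filter_mono nhdsWithin_le_nhds)).exists
  have h7 : μ ≤ 7 := by
    rw [← ht1]
    exact ht2.2.trans hlim.2
  have h9 := hF.fin.self_of_nhds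
  have h10 := h8 (sl F 0) hf0 hF.crit.self_of_nhds h2 h9.1
  rw [h9.2] at h10
  omega

end Crest.Agent.R257.P8e_472
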