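import Crest.Agent.R257.Cub1_89
import Crest.Agent.R257.Cub2_89
import Crest.Agent.R257.P8e_472
import Crest.Agent.R257.LcxDefs_759

/-!
R257 / Cub3_89: `P8MuStmt`: a germ `f ∈ m³` with smooth cubic part has Milnor number at most `8`.
-/

set_option autoImplicit false
set_option linter.unusedVariables false
set_option linter.unusedSectionVars false

open Set Filter Topology IsLocalRing
open Crest.AlgGeometry.Germ
open Crest.Agent.R275.Loc2879
open Crest.Agent.R257.Defs_219 Crest.Agent.R257.UI939 Crest.Agent.R257.LCDefs_472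
open Crest.Agent.R257.P8c_472 Crest.Agent.R257.P8d_472 Crest.Agent.R257.P8e_472
open Crest.Agent.R257.Cub1_89 Crest.Agent.R257.LcxDefs_759

noncomputable section

namespace Crest.Agent.R257.Cub3_89

/-- the coefficients of the quadratic forms -/
def hc (f : E3 → ℂ) (i j k : Fin 3) : ℂ := H3 f i j k / 2

theorem eval_q (c : Fin 3 → Fin 3 → Fin 3 → ℂ) (j : Fin 3) (v : Fin 3 → ℂ) :
    MvPolynomial.eval v (Cub2_89.q c j) = ∑ k, ∑ l, c j k l * (v k * v l) := by
  unfold Cub2_89.q
  simp [MvPolynomial.smul_eval]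

/-- the polar quadratic forms of a smooth cubic -/
theorem nice {f : E3 → ℂ} (hf : AnalyticAt ℂ f 0)
    (hs : ∀ v : E3, v ≠ 0 → ∃ w, D3 f v v w ≠ 0) : Cub2_89.Nice (hc f) := by
  have hD := tri_D3 hf
  have key : ∀ w v : E3, D3 f w v v = 2 * ∑ j, w j * ∑ k, ∑ l, hc f j k l * (v k * v l) := by
    intro w v
    unfold D3 hc
    simp only [Finset.mul_sum]
    refine Finset.sum_congr rfl fun i _ => Finset.sum_congr rfl fun j _ =>
      Finset.sum_congr rfl fun k _ => ?_
    ring
  constructor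
  · rw [Fintype.linearIndependent_iff]
    intro g hg
    let L : E3 →ₗ[ℂ] E3 :=
      { toFun := fun v j => ∑ i, g (i, j) * v i
        map_add' := fun v w => by
          funext j
          simp only [Pi.add_apply, mul_add, Finset.sum_add_distrib]
        map_smul' := fun c v => by
          funext j
          simp only [Pi.smul_apply, smul_eq_mul, RingHom.id_apply, Finset.mul_sum]
          exact Finset.sum_congr rfl fun i _ => by ring }
    have hL : ∀ v j, L v j = ∑ i, g (i, j) * v i := fun v j => rfl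
    have h1 : ∀ v, D3 f (L v) v v = 0 := by
      intro v
      rw [key]
      have h2 := congrArg (MvPolynomial.eval v) hg
      rw [map_sum, map_zero] at h2
      simp only [MvPolynomial.smul_eval, map_mul, MvPolynomial.eval_X, eval_q] at h2
      rw [Fintype.sum_prod_type, Finset.sum_comm] at h2
      have h3 : ∑ j, L v j * ∑ k, ∑ l, hc f j k l * (v k * v l) = 0 := by
        rw [← h2]
        refine Finset.sum_congr rfl fun j _ => ?_
        rw [hL, Finset.sum_mul]
        exact Finset.sum_congr rfl fun i _ => by ring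
      rw [h3, mul_zero]
    have h4 := no_syz hD h1 hs
    rintro ⟨i, j⟩
    have h5 := congrFun (LinearMap.congr_fun h4 (Pi.single i 1)) j
    rw [hL] at h5
    simpa [Pi.single_apply] using h5
  · intro a ha
    obtain ⟨w, hw⟩ := hs a ha
    by_contra hall
    push Not at hall
    apply hw
    have h1 : D3 f a a w = D3 f w a a := by rw [hD.sw23, hD.sw12]
    rw [h1, key]
    simp [hall]

/-- **`P8MuStmt`** -/
theorem p8Mu : P8MuStmt := by
  intro f hf h0 hcrit h2 hs
  have hN := nice hf hs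
  have hpd : ∀ i, AnalyticAt ℂ (par f i) 0 := fun i => EVa_929.an_cd hf i
  -- expansion
  have hex : ∀ i, ∃ r : Fin 3 → Fin 3 → E3 → ℂ, (∀ j k, AnalyticAt ℂ (r j k) 0) ∧
      (∀ᶠ x in 𝓝 (0 : E3), par f i x = ∑ j, ∑ k, x j * x k * r j k x) ∧
      ∀ j k, r j k 0 + r k j 0 = H3 f i j k := by
    intro i
    have hg : AnalyticAt ℂ (fun q : E3 × ℂ => par f i q.1) (0, 0) :=
      AnalyticAt.fun_comp (g := par f i) (f := fun q : E3 × ℂ => q.1) (by exact hpd i)
        analyticAt_fst
    obtain ⟨Rr, hR, hRe, hR0⟩ := Line_648.expand hg (Eventually.of_forall fun t => hcrit i)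
    refine ⟨fun j k x => Rr j k (x, 0), fun j k => ?_, ?_, ?_⟩
    · exact AnalyticAt.fun_comp (g := Rr j k) (f := fun x : E3 => ((x, 0) : E3 × ℂ))
        (by exact hR j k) (analyticAt_id.prod analyticAt_const)
    · have ht : Tendsto (fun x : E3 => ((x, 0) : E3 × ℂ)) (𝓝 0) (𝓝 (0, 0)) :=
        (Continuous.prodMk continuous_id continuous_const).tendsto' _ _ rfl
      filter_upwards [ht.eventually hRe] with x hx
      have h3 : ∀ j, coordDeriv (sl (fun q : E3 × ℂ => par f i q.1) 0) j 0 = 0 := fun j => h2 i j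
      simp only [h3, mul_zero, Finset.sum_const_zero, zero_add] at hx
      exact hx
    · intro j k
      exact hR0 j k
  set I : Ideal (BB 3) := Idl (0 : Fin 3 → ℂ) (par f) with hI
  have hM : maximalIdeal (BB 3) = Ideal.span (Set.range (xB : Fin 3 → BB 3)) := by
    rw [max_eq]
    congr 1
    ext y
    simp [Fin.exists_fin_succ, eq_comm]
  have hres : ∀ b : BB 3, ∃ k : ℂ, b - algebraMap ℂ (BB 3) k ∈ maximalIdeal (BB 3) := by
    intro a
    refine ⟨evp 0 a, ?_⟩
    rw [IsLocalRing.mem_maximalIdeal]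
    intro hu
    refine (isUnit_iff.1 hu) ?_
    rw [map_sub]
    have : evp (0 : Fin 3 → ℂ) (algebraMap ℂ (BB 3) (evp 0 a)) = evp 0 a := rfl
    rw [this, sub_self]
  have hq : ∀ j, Cub2_89.ev (xB : Fin 3 → BB 3) (Cub2_89.q (hc f) j) ∈
      I ⊔ maximalIdeal (BB 3) ^ 3 := by
    intro i
    obtain ⟨r, hr, hre, hr0⟩ := hex i
    have hmem : gm (par f i) (hpd i) ∈ I := by
      refine (mem_Idl hpd).2 ⟨Pi.single i 1, ?_⟩
      rw [Finset.sum_eq_single i]
      · simp
      · intro j _ hj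
        simp [hj]
      · simp
    have hx : ∀ p : Fin 3 × Fin 3, AnalyticAt ℂ (fun x : E3 => x p.1 * x p.2) 0 := fun p =>
      (an_coord p.1 0).mul (an_coord p.2 0)
    obtain ⟨ha, he⟩ := exists_sum_gm' (p := (0 : E3)) Finset.univ
      (fun p : Fin 3 × Fin 3 => fun x : E3 => x p.1 * x p.2) (fun p => r p.1 p.2) hx
      (fun p => hr p.1 p.2)
    have e1 : gm (par f i) (hpd i) =
        ∑ p : Fin 3 × Fin 3, (xB p.1 * xB p.2 : BB 3) * gm (r p.1 p.2) (hr p.1 p.2) := by
      have e2 : ∑ p : Fin 3 × Fin 3, (xB p.1 * xB p.2 : BB 3) * gm (r p.1 p.2) (hr p.1 p.2) =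
          ∑ p : Fin 3 × Fin 3, gm (fun x : E3 => x p.1 * x p.2) (hx p) *
            gm (r p.1 p.2) (hr p.1 p.2) := rfl
      rw [e2, he, gm_eq_gm]
      filter_upwards [hre] with x hx
      rw [hx, Fintype.sum_prod_type]
    have e3 : Cub2_89.ev (xB : Fin 3 → BB 3) (Cub2_89.q (hc f) i) =
        ∑ p : Fin 3 × Fin 3, algebraMap ℂ (BB 3) (r p.1 p.2 0) * (xB p.1 * xB p.2) := by
      unfold Cub2_89.q
      rw [map_sum, Fintype.sum_prod_type]
      simp only [map_sum, map_smul, map_mul, Cub2_89.ev_X]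
      simp only [Algebra.smul_def]
      have e4 : ∀ j k, algebraMap ℂ (BB 3) (hc f i j k) =
          algebraMap ℂ (BB 3) (1 / 2) * (algebraMap ℂ (BB 3) (r j k 0) +
            algebraMap ℂ (BB 3) (r k j 0)) := by
        intro j k
        rw [← map_add, hr0, ← map_mul]
        congr 1
        unfold hc
        ring
      have e5 : algebraMap ℂ (BB 3) (1 / 2) + algebraMap ℂ (BB 3) (1 / 2) = 1 := by
        rw [← map_add]
        norm_num
      simp only [e4]
      simp only [Fin.sum_univ_three]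
      linear_combination (algebraMap ℂ (BB 3) (r 0 0 0) * (xB 0 * xB 0) +
        algebraMap ℂ (BB 3) (r 1 1 0) * (xB 1 * xB 1) +
        algebraMap ℂ (BB 3) (r 2 2 0) * (xB 2 * xB 2) +
        algebraMap ℂ (BB 3) (r 0 1 0) * (xB 0 * xB 1) +
        algebraMap ℂ (BB 3) (r 1 0 0) * (xB 0 * xB 1) +
        algebraMap ℂ (BB 3) (r 0 2 0) * (xB 0 * xB 2) +
        algebraMap ℂ (BB 3) (r 2 0 0) * (xB 0 * xB 2) +
        algebraMap ℂ (BB 3) (r 1 2 0) * (xB 1 * xB 2) +
        algebraMap ℂ (BB 3) (r 2 1 0) * (xB 1 * xB 2)) * e5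
    have e6 : Cub2_89.ev (xB : Fin 3 → BB 3) (Cub2_89.q (hc f) i) = gm (par f i) (hpd i) +
        ∑ p : Fin 3 × Fin 3, (xB p.1 * xB p.2 : BB 3) *
          (algebraMap ℂ (BB 3) (r p.1 p.2 0) - gm (r p.1 p.2) (hr p.1 p.2)) := by
      rw [e1, e3, ← Finset.sum_add_distrib]
      exact Finset.sum_congr rfl fun p _ => by ring
    rw [e6]
    refine add_mem (Submodule.mem_sup_left hmem) (Submodule.mem_sup_right ?_)
    refine Ideal.sum_mem _ fun p _ => ?_
    have hxM : ∀ i, (xB i : BB 3) ∈ maximalIdeal (BB 3) := fun i => by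
      rw [hM]; exact Ideal.subset_span ⟨i, rfl⟩
    have hrM : algebraMap ℂ (BB 3) (r p.1 p.2 0) - gm (r p.1 p.2) (hr p.1 p.2) ∈
        maximalIdeal (BB 3) := by
      rw [IsLocalRing.mem_maximalIdeal]
      intro hu
      refine (isUnit_iff.1 hu) ?_
      rw [map_sub]
      have h5 : evp (0 : Fin 3 → ℂ) (gm (r p.1 p.2) (hr p.1 p.2)) = r p.1 p.2 0 := rfl
      have h6 : evp (0 : Fin 3 → ℂ) (algebraMap ℂ (BB 3) (r p.1 p.2 0)) = r p.1 p.2 0 := rfl
      rw [h5, h6, sub_self]
    have h7 : maximalIdeal (BB 3) ^ 3 =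
        (maximalIdeal (BB 3) * maximalIdeal (BB 3)) * maximalIdeal (BB 3) := by
      rw [pow_succ, pow_two]
    rw [h7]
    exact Ideal.mul_mem_mul (Ideal.mul_mem_mul (hxM _) (hxM _)) hrM
  have h8 := Cub2_89.le8 hN hres hM I hq
  rw [col_eq hpd]
  exact h8.2

end Crest.Agent.R257.Cub3_89
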