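import Crest.Agent.R273.YauC3_812

/-!
Row 257 (S0395), task E-CUT (helper268): Cheng-Yau gradient estimate and cut-offs for
Kaehler-Einstein potentials, part 1: the computation at a maximum point.

`Ric ≥ - K ω`, `ω = i∂∂̄u`; `χ²|∂_v h|² ≤ A g(v,v)` near `O` with equality for one unit vector.
-/

set_option autoImplicit false
set_option linter.unusedSimpArgs false
set_option linter.unusedSectionVars false
set_option linter.unusedVariables false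

open Set Filter Topology Complex
open scoped ContDiff ComplexConjugate ComplexOrder

namespace Crest.Agent.R257.Cut1_268

open Crest.Agent.R273.YSm_812 Crest.Agent.R273.YJet_812 Crest.Agent.R273.YC3_812

variable {n : ℕ} {V : Type*} [NormedAddCommGroup V] [NormedSpace ℂ V] {Ω : Set V}
  [FiniteDimensional ℂ V]

/-- local data: `det u_{i j̄} = c0 e^f` with `i∂∂̄ f ≤ K i∂∂̄ u` (i.e. `Ric ≥ -K ω`) -/
structure KE (hΩ : IsOpen Ω) (e : Module.Basis (Fin n) ℂ V) where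
  u : Sm Ω
  f : Sm Ω
  K : ℝ
  c0 : ℂ
  hu : cj u = u
  c0ne : c0 ≠ 0
  det : ∀ z : Ω, ((Matrix.of fun i j => U2 hΩ u (e i) (e j)).det).1 z
    = c0 * exp (f.1 z)
  hK : ∀ (z : Ω) (ξ : V), ((U2 hΩ f ξ ξ).1 z).re ≤ K * ((U2 hΩ u ξ ξ).1 z).re

section core

variable {hΩ : IsOpen Ω} {e : Module.Basis (Fin n) ℂ V}
  (d : KE hΩ e) (w : Module.Basis (Fin n) ℂ V) (O : Ω)
  (hw : ∀ a b, (U2 hΩ d.u (w a) (w b)).1 O = if a = b then 1 else 0)

include hw in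
theorem mE_one : mE (jet hΩ w O).ev ((jet hΩ w O).Gm d.u) = 1 := by
  ext a b
  show (U2 hΩ d.u (w a) (w b)).1 O = _
  rw [hw, Matrix.one_apply]

theorem exists_H : ∃ H : Matrix (Fin n) (Fin n) (Sm Ω), (jet hΩ w O).Gm d.u * H = 1 ∧
    ∀ (a b : ℂ) (ξ : V), DAB hΩ a b ξ d.f
      = Matrix.trace (H * mD (DAB hΩ a b ξ) ((jet hΩ w O).Gm d.u)) := by
  obtain ⟨c, hc, hdet⟩ := det_frame hΩ e w d.u
  have h1 : ∀ z : Ω, (((jet hΩ w O).Gm d.u).det).1 z = (c * d.c0) * exp (d.f.1 z) := by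
    intro z
    have h2 := hdet z
    rw [d.det z] at h2
    rw [mul_assoc]
    exact h2
  have hc0 : c * d.c0 ≠ 0 := mul_ne_zero hc d.c0ne
  obtain ⟨H, hH⟩ := exists_inv ((jet hΩ w O).Gm d.u) (fun z => by
    rw [h1]; exact mul_ne_zero hc0 (exp_ne_zero _))
  exact ⟨H, hH, fun a b ξ => dlog hΩ hH hc0 d.f h1 a b ξ⟩

include hw in
/-- `Δ g = f_{ξ ξ̄}` -/
theorem lap_g_val (c : Fin n → ℂ) :
    ∑ q, ev O (D hΩ (w q) (B hΩ (w q)
      ((fr hΩ w O d.u d.hu).g c (fun k => conj (c k)))))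
      = (U2 hΩ d.f (∑ i, c i • w i) (∑ i, c i • w i)).1 O := by
  obtain ⟨H, hH, hf⟩ := exists_H d w O
  have h := (fr hΩ w O d.u d.hu).lap_g hH (mE_one d w O hw) (fun p => hf _ _ _) c
    (fun k => conj (c k))
  rw [U2_expand]
  exact h

include hw in
theorem lap_g_le (c : Fin n → ℂ) (hc : ∑ k, c k * conj (c k) = 1) :
    (∑ q, ev O (D hΩ (w q) (B hΩ (w q)
      ((fr hΩ w O d.u d.hu).g c (fun k => conj (c k)))))).re ≤ d.K := by
  rw [lap_g_val d w O hw]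
  refine (d.hK O _).trans (le_of_eq ?_)
  rw [U2_expand]
  simp only [hw, mul_ite, mul_one, mul_zero, Finset.sum_ite_eq, Finset.mem_univ, if_true, hc]
  simp

/-- the derivative of `h` along the field `Z` -/
noncomputable def Wf (c : Fin n → ℂ) (h : Sm Ω) : Sm Ω :=
  ∑ x, (fr hΩ w O d.u d.hu).Z c x * D hΩ (w x) h

theorem Wf_val (c : Fin n → ℂ) (h : Sm Ω) (z : Ω) :
    (Wf d w O c h).1 z = (D hΩ (Zv hΩ w O d.u d.hu c z) h).1 z := by
  rw [Zv, D_sum]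
  show (ev z) _ = (ev z) _
  rw [Wf, map_sum, map_sum]
  refine Finset.sum_congr rfl fun x _ => ?_
  rw [map_mul, map_smul]
  rfl

theorem Z_O (c : Fin n → ℂ) (x : Fin n) : (jet hΩ w O).ev ((fr hΩ w O d.u d.hu).Z c x) = c x := by
  simp only [Fr.Z, map_sum, map_smul, (fr hΩ w O d.u d.hu).M0, smul_eq_mul, mul_ite, mul_one,
    mul_zero, Finset.sum_ite_eq', Finset.mem_univ, if_true]

theorem B_Z (c : Fin n → ℂ) (q x : Fin n) :
    (jet hΩ w O).B q ((fr hΩ w O d.u d.hu).Z c x) = 0 := by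
  simp only [Fr.Z, map_sum, Derivation.map_smul, (fr hΩ w O d.u d.hu).MB, smul_zero,
    Finset.sum_const_zero]

theorem D_Z (c : Fin n → ℂ) (q x : Fin n) :
    (jet hΩ w O).ev ((jet hΩ w O).D q ((fr hΩ w O d.u d.hu).Z c x))
      = - ∑ k, c k * (jet hΩ w O).ev ((jet hΩ w O).D q ((jet hΩ w O).Gm d.u k x)) := by
  simp only [Fr.Z, map_sum, Derivation.map_smul, map_smul, smul_eq_mul,
    (fr hΩ w O d.u d.hu).MD, mul_neg, Finset.sum_neg_distrib]

theorem Wf_O (c : Fin n → ℂ) (h : Sm Ω) :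
    (Wf d w O c h).1 O = ∑ x, c x * (D hΩ (w x) h).1 O := by
  have : (Wf d w O c h).1 O = (jet hΩ w O).ev (Wf d w O c h) := rfl
  rw [this, Wf, map_sum]
  refine Finset.sum_congr rfl fun x _ => ?_
  rw [map_mul, Z_O]
  rfl

theorem B_Wf (c : Fin n → ℂ) (h : Sm Ω) (q : Fin n) :
    B hΩ (w q) (Wf d w O c h)
      = ∑ x, (fr hΩ w O d.u d.hu).Z c x * B hΩ (w q) (D hΩ (w x) h) := by
  rw [Wf, map_sum]
  refine Finset.sum_congr rfl fun x _ => ?_
  rw [Derivation.leibniz]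
  have := B_Z d w O c q x
  change B hΩ (w q) ((fr hΩ w O d.u d.hu).Z c x) = 0 at this
  rw [this]
  simp only [smul_eq_mul, mul_zero, add_zero]

theorem B_Wf_O (c : Fin n → ℂ) (h : Sm Ω) (q : Fin n) :
    (B hΩ (w q) (Wf d w O c h)).1 O = ∑ x, c x * (B hΩ (w q) (D hΩ (w x) h)).1 O := by
  have : (B hΩ (w q) (Wf d w O c h)).1 O = (jet hΩ w O).ev (B hΩ (w q) (Wf d w O c h)) := rfl
  rw [this, B_Wf, map_sum]
  refine Finset.sum_congr rfl fun x _ => ?_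
  rw [map_mul, Z_O]
  rfl

theorem DB_Wf_O (c : Fin n → ℂ) (h : Sm Ω) (q : Fin n) :
    (D hΩ (w q) (B hΩ (w q) (Wf d w O c h))).1 O
      = ∑ x, (-(∑ k, c k * (D hΩ (w q) (U2 hΩ d.u (w k) (w x))).1 O)
          * (B hΩ (w q) (D hΩ (w x) h)).1 O
        + c x * (D hΩ (w q) (B hΩ (w q) (D hΩ (w x) h))).1 O) := by
  have : (D hΩ (w q) (B hΩ (w q) (Wf d w O c h))).1 O
    = (jet hΩ w O).ev (D hΩ (w q) (B hΩ (w q) (Wf d w O c h))) := rfl
  rw [this, B_Wf, map_sum, map_sum]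
  refine Finset.sum_congr rfl fun x _ => ?_
  rw [Derivation.leibniz, map_add, smul_eq_mul, smul_eq_mul, map_mul, map_mul, Z_O]
  have h1 := D_Z d w O c q x
  change (jet hΩ w O).ev (D hΩ (w q) ((fr hΩ w O d.u d.hu).Z c x)) = _ at h1
  rw [h1]
  have h2 : ∀ k, (jet hΩ w O).ev ((jet hΩ w O).D q ((jet hΩ w O).Gm d.u k x))
      = (D hΩ (w q) (U2 hΩ d.u (w k) (w x))).1 O := fun k => rfl
  have h3 : (jet hΩ w O).ev (B hΩ (w q) (D hΩ (w x) h)) = (B hΩ (w q) (D hΩ (w x) h)).1 O := rfl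
  have h4 : (jet hΩ w O).ev (D hΩ (w q) (B hΩ (w q) (D hΩ (w x) h)))
      = (D hΩ (w q) (B hΩ (w q) (D hΩ (w x) h))).1 O := rfl
  simp only [h2]
  rw [h3, h4]
  ring

end core

end Crest.Agent.R257.Cut1_268
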