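import Crest.Agent.R257.Cut1_268
import Crest.Agent.R273.YC3c_812

/-!
Row 257 (S0395), task E-CUT (helper268), part 2: first and second order conditions at a point where
`χ² |∂_v h|² ≤ A g(v,v)` is an equality for one vector.
-/

set_option autoImplicit false
set_option linter.unusedSimpArgs false
set_option linter.unusedSectionVars false
set_option linter.unusedVariables false

open Set Filter Topology Complex
open scoped ContDiff ComplexConjugate ComplexOrder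

namespace Crest.Agent.R257.Cut2_268

open Crest.Agent.R273.YSm_812 Crest.Agent.R273.YJet_812 Crest.Agent.R273.YC3_812
open Crest.Agent.R257.Cut1_268

variable {n : ℕ} {V : Type*} [NormedAddCommGroup V] [NormedSpace ℂ V] {Ω : Set V}
  [FiniteDimensional ℂ V]

/-- first derivative test in the algebra -/
theorem dr_zero (hΩ : IsOpen Ω) (g : Sm Ω) (hg : cj g = g) (O : Ω)
    (hmin : ∀ᶠ z in 𝓝 (O : V), (ex g.1 O).re ≤ (ex g.1 z).re) (ξ : V) :
    dr ξ (ex g.1) O = 0 := by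
  have hd := (diffAt hΩ g.2 O.2).hasFDerivAt
  have h1 : HasFDerivAt (fun z => (ex g.1 z).re) (reCLM.comp (fderiv ℝ (ex g.1) O)) (O : V) :=
    reCLM.hasFDerivAt.comp _ hd
  have h2 : IsLocalMin (fun z => (ex g.1 z).re) (O : V) := hmin
  have h3 := h2.hasFDerivAt_eq_zero h1
  have h4 : HasFDerivAt (fun z => (ex g.1 z).im) (imCLM.comp (fderiv ℝ (ex g.1) O)) (O : V) :=
    imCLM.hasFDerivAt.comp _ hd
  have h5 : (fun z => (ex g.1 z).im) =ᶠ[𝓝 (O : V)] fun _ => 0 := by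
    filter_upwards [hΩ.mem_nhds O.2] with z hz
    rw [ex_of_mem _ hz]
    exact im_zero hg ⟨z, hz⟩
  have h6 := (h4.congr_of_eventuallyEq h5.symm).unique (hasFDerivAt_const (0 : ℝ) (O : V))
  apply Complex.ext
  · have := congrArg (fun l => l ξ) h3
    simpa [dr] using this
  · have := congrArg (fun l => l ξ) h6
    simpa [dr] using this

theorem D_zero (hΩ : IsOpen Ω) (g : Sm Ω) (hg : cj g = g) (O : Ω)
    (hmin : ∀ᶠ z in 𝓝 (O : V), (ex g.1 O).re ≤ (ex g.1 z).re) (ξ : V) :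
    (D hΩ ξ g).1 O = 0 := by
  rw [D_apply, dz_dab, dab, dr_zero hΩ g hg O hmin, dr_zero hΩ g hg O hmin]
  simp

section core

variable {hΩ : IsOpen Ω} {e : Module.Basis (Fin n) ℂ V}
  (d : KE hΩ e) (w : Module.Basis (Fin n) ℂ V) (O : Ω)
  (hw : ∀ a b, (U2 hΩ d.u (w a) (w b)).1 O = if a = b then 1 else 0)

/-- the algebraic expansion of first derivatives -/
theorem D_s {R : Type*} [CommRing R] [Algebra ℂ R] (J : Jet n R) (q : Fin n) (A g χ t t' : R)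
    (h1 : J.ev g = 1) (d1 : J.ev (J.D q g) = 0) :
    J.ev (J.D q (A * g - χ * χ * (t * t'))) = J.ev (J.D q A)
      - (2 * J.ev χ * J.ev (J.D q χ) * (J.ev t * J.ev t')
        + J.ev χ ^ 2 * (J.ev (J.D q t) * J.ev t' + J.ev t * J.ev (J.D q t'))) := by
  simp only [Derivation.leibniz, smul_eq_mul, map_add, map_mul, map_sub, h1, d1]
  ring

theorem DB_A1 {R : Type*} [CommRing R] [Algebra ℂ R] (J : Jet n R) (q : Fin n) (A g1 : R)
    (h1 : J.ev g1 = 1) (d1 : J.ev (J.D q g1) = 0) (b1 : J.ev (J.B q g1) = 0) :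
    J.ev (J.D q (J.B q (A * g1))) = J.ev (J.D q (J.B q A))
      + J.ev A * J.ev (J.D q (J.B q g1)) := by
  simp only [Derivation.leibniz, smul_eq_mul, map_add, map_mul, h1, d1, b1]
  ring

/-- the integrand of the second order condition -/
noncomputable def QQ (X : ℝ) (T z l a b t : ℂ) : ℂ :=
  (2 * z * conj z + 2 * X * l) * (T * conj T)
    + 2 * X * z * (b * conj T + T * conj a) + 2 * X * conj z * (a * conj T + T * conj b)
    + (X : ℂ) ^ 2 * (t * conj T + b * conj b + a * conj a + T * conj t)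

include hw in
/-- **first and second order conditions** -/
theorem conditions (χ A h : Sm Ω) (hχ : cj χ = χ) (hA : cj A = A)
    (c : Fin n → ℂ) (hc : ∑ k, c k * conj (c k) = 1)
    (hmax : ∀ᶠ z in 𝓝 (O : V), ∀ (hz : z ∈ Ω) (ξ : V),
      (χ.1 ⟨z, hz⟩).re ^ 2 * ‖(D hΩ ξ h).1 ⟨z, hz⟩‖ ^ 2
        ≤ (A.1 ⟨z, hz⟩).re * ((U2 hΩ d.u ξ ξ).1 ⟨z, hz⟩).re)
    (heq : (χ.1 O).re ^ 2 * ‖∑ x, c x * (D hΩ (w x) h).1 O‖ ^ 2 = (A.1 O).re) :
    (∀ q, (D hΩ (w q) A).1 O = 2 * ((χ.1 O).re : ℂ) * (D hΩ (w q) χ).1 O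
        * ((Wf d w O c h).1 O * conj ((Wf d w O c h).1 O))
      + ((χ.1 O).re : ℂ) ^ 2 * ((D hΩ (w q) (Wf d w O c h)).1 O * conj ((Wf d w O c h).1 O)
        + (Wf d w O c h).1 O * conj ((B hΩ (w q) (Wf d w O c h)).1 O))) ∧
    0 ≤ (∑ q, ((U2 hΩ A (w q) (w q)).1 O).re) + (A.1 O).re * d.K
      - ∑ q, (QQ (χ.1 O).re ((Wf d w O c h).1 O) ((D hΩ (w q) χ).1 O)
        ((U2 hΩ χ (w q) (w q)).1 O) ((D hΩ (w q) (Wf d w O c h)).1 O)
        ((B hΩ (w q) (Wf d w O c h)).1 O) ((D hΩ (w q) (B hΩ (w q) (Wf d w O c h))).1 O)).re := by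
  obtain ⟨g, hg⟩ : ∃ g, g = (fr hΩ w O d.u d.hu).g c (fun k => conj (c k)) := ⟨_, rfl⟩
  obtain ⟨t, ht⟩ : ∃ t, t = Wf d w O c h := ⟨_, rfl⟩
  rw [← ht]
  have hG := mE_one d w O hw
  have hT : t.1 O = ∑ x, c x * (D hΩ (w x) h).1 O := by rw [ht, Wf_O]
  obtain ⟨s, hs⟩ : ∃ s : Sm Ω, s = A * g - χ * χ * (t * cj t) := ⟨_, rfl⟩
  have e1 : (jet hΩ w O).ev g = 1 := by
    rw [hg, (fr hΩ w O d.u d.hu).ev_g hG]; exact hc
  have hsA : ∀ z : Ω, s.1 z
      = A.1 z * g.1 z - χ.1 z * χ.1 z * (t.1 z * conj (t.1 z)) := by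
    intro z; rw [hs]; rfl
  have hgv : ∀ z : Ω, g.1 z = (((U2 hΩ d.u (Zv hΩ w O d.u d.hu c z)
        (Zv hΩ w O d.u d.hu c z)).1 z).re : ℂ) := by
    intro z
    rw [hg, g_val]; exact re_eq (cj_U2 hΩ d.hu _ _) z
  have hsc : ∀ z : Ω, s.1 z = (((A.1 z).re *
      ((U2 hΩ d.u (Zv hΩ w O d.u d.hu c z) (Zv hΩ w O d.u d.hu c z)).1 z).re
      - (χ.1 z).re ^ 2 * ‖(D hΩ (Zv hΩ w O d.u d.hu c z) h).1 z‖ ^ 2 : ℝ) : ℂ) := by
    intro z
    have r4 : t.1 z = (D hΩ (Zv hΩ w O d.u d.hu c z) h).1 z := by rw [ht, Wf_val]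
    have r5 : t.1 z * conj (t.1 z) = ((‖t.1 z‖ ^ 2 : ℝ) : ℂ) := by
      rw [mul_conj, normSq_eq_norm_sq]
    rw [hsA, r5, hgv z, re_eq hA z, re_eq hχ z, ← r4]
    push_cast
    simp only [ofReal_re]
    ring
  have hcs : cj s = s := Sm.ext' fun z => by rw [cj_apply, hsc z, conj_ofReal]
  have hs0 : (ex s.1 O).re = 0 := by
    rw [ex_coe]
    have b1 : g.1 O = 1 := e1
    have r5 : t.1 O * conj (t.1 O) = ((‖t.1 O‖ ^ 2 : ℝ) : ℂ) := by
      rw [mul_conj, normSq_eq_norm_sq]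
    rw [hsA, b1, r5, re_eq hχ O, re_eq hA O, hT, ← heq]
    simp only [mul_one, ← ofReal_mul, ← ofReal_sub, ofReal_re]
    ring
  have hmin : ∀ᶠ z in 𝓝 (O : V), (ex s.1 O).re ≤ (ex s.1 z).re := by
    filter_upwards [hmax, hΩ.mem_nhds O.2] with z hz hz'
    rw [hs0, ex_of_mem _ hz', hsc, ofReal_re]
    have := hz hz' (Zv hΩ w O d.u d.hu c ⟨z, hz'⟩)
    linarith
  have dg : ∀ q, (jet hΩ w O).ev ((jet hΩ w O).D q g) = 0 := fun q => by
    rw [hg]; exact (fr hΩ w O d.u d.hu).D_g hG _ _ q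
  have bg : ∀ q, (jet hΩ w O).ev ((jet hΩ w O).B q g) = 0 := fun q => by
    rw [hg]; exact (fr hΩ w O d.u d.hu).B_g hG _ _ q
  have b1 : ∀ q, (jet hΩ w O).ev ((jet hΩ w O).B q χ) = conj ((D hΩ (w q) χ).1 O) := by
    intro q
    show (B hΩ (w q) χ).1 O = (cj (D hΩ (w q) χ)).1 O
    rw [← B_cj, hχ]
  have b3 : (jet hΩ w O).ev χ = ((χ.1 O).re : ℂ) := re_eq hχ O
  have b4 : ∀ q, (jet hΩ w O).ev ((jet hΩ w O).B q (cj t)) = conj ((D hΩ (w q) t).1 O) := by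
    intro q
    show (B hΩ (w q) (cj t)).1 O = (cj (D hΩ (w q) t)).1 O
    rw [B_cj]
  have b5 : ∀ q, (jet hΩ w O).ev ((jet hΩ w O).D q (cj t)) = conj ((B hΩ (w q) t).1 O) := by
    intro q
    show (D hΩ (w q) (cj t)).1 O = (cj (B hΩ (w q) t)).1 O
    rw [D_cj]
  have b6 : ∀ q, (jet hΩ w O).ev ((jet hΩ w O).D q ((jet hΩ w O).B q (cj t)))
      = conj ((D hΩ (w q) (B hΩ (w q) t)).1 O) := by
    intro q
    show (D hΩ (w q) (B hΩ (w q) (cj t))).1 O = (cj (D hΩ (w q) (B hΩ (w q) t))).1 O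
    rw [B_cj, D_cj, DB]
  have k2 : (jet hΩ w O).ev (cj t) = conj (t.1 O) := rfl
  refine ⟨fun q => ?_, ?_⟩
  · have h0 := D_zero hΩ s hcs O hmin (w q)
    have h1 := D_s (jet hΩ w O) q A g χ t (cj t) e1 (dg q)
    rw [← hs] at h1
    have h2 : (jet hΩ w O).ev ((jet hΩ w O).D q s) = 0 := h0
    rw [h2, b3, b5, k2] at h1
    have k1 : (jet hΩ w O).ev ((jet hΩ w O).D q χ) = (D hΩ (w q) χ).1 O := rfl
    have k3 : (jet hΩ w O).ev t = t.1 O := rfl
    have k4 : (jet hΩ w O).ev ((jet hΩ w O).D q t) = (D hΩ (w q) t).1 O := rfl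
    have k5 : (jet hΩ w O).ev ((jet hΩ w O).D q A) = (D hΩ (w q) A).1 O := rfl
    rw [k1, k3, k4, k5] at h1
    exact sub_eq_zero.1 h1.symm
  · have hL : 0 ≤ (∑ q, ev O (D hΩ (w q) (B hΩ (w q) s))).re := by
      rw [Complex.re_sum]
      exact Finset.sum_nonneg fun q _ => lap_nonneg hΩ s O hmin (w q)
    have hq : ∀ q, ev O (D hΩ (w q) (B hΩ (w q) s))
        = (U2 hΩ A (w q) (w q)).1 O
          + (((A.1 O).re : ℝ) : ℂ) * ev O (D hΩ (w q) (B hΩ (w q) g))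
          - QQ (χ.1 O).re (t.1 O) ((D hΩ (w q) χ).1 O)
        ((U2 hΩ χ (w q) (w q)).1 O) ((D hΩ (w q) t).1 O)
        ((B hΩ (w q) t).1 O) ((D hΩ (w q) (B hΩ (w q) t)).1 O) := by
      intro q
      have a1 := DB_A1 (jet hΩ w O) q A g e1 (dg q) (bg q)
      have a2 := DB_X (jet hΩ w O) q χ t (cj t)
      have a3 : (jet hΩ w O).D q ((jet hΩ w O).B q s)
          = (jet hΩ w O).D q ((jet hΩ w O).B q (A * g))
          - (jet hΩ w O).D q ((jet hΩ w O).B q (χ * χ * (t * cj t))) := by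
        rw [hs, map_sub, map_sub]
      have a5 : (jet hΩ w O).ev A = ((A.1 O).re : ℂ) := re_eq hA O
      have a6 : ev O (D hΩ (w q) (B hΩ (w q) s))
          = (jet hΩ w O).ev ((jet hΩ w O).D q ((jet hΩ w O).B q s)) := rfl
      have k1 : (jet hΩ w O).ev ((jet hΩ w O).D q χ) = (D hΩ (w q) χ).1 O := rfl
      have k3 : (jet hΩ w O).ev t = t.1 O := rfl
      have k4 : (jet hΩ w O).ev ((jet hΩ w O).D q t) = (D hΩ (w q) t).1 O := rfl
      have k5 : (jet hΩ w O).ev ((jet hΩ w O).B q t) = (B hΩ (w q) t).1 O := rfl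
      have k6 : (jet hΩ w O).ev ((jet hΩ w O).D q ((jet hΩ w O).B q g))
          = ev O (D hΩ (w q) (B hΩ (w q) g)) := rfl
      have k7 : (jet hΩ w O).ev ((jet hΩ w O).D q ((jet hΩ w O).B q A))
          = (U2 hΩ A (w q) (w q)).1 O := rfl
      have k8 : (jet hΩ w O).ev ((jet hΩ w O).D q ((jet hΩ w O).B q χ))
          = (U2 hΩ χ (w q) (w q)).1 O := rfl
      have k9 : (jet hΩ w O).ev ((jet hΩ w O).D q ((jet hΩ w O).B q t))
          = (D hΩ (w q) (B hΩ (w q) t)).1 O := rfl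
      rw [a6, a3, map_sub, a1, a2, a5, b1, b3, b4, b5, b6, k1, k2, k3, k4, k5, k6, k7, k8, k9]
      simp only [QQ]
    have l1 := lap_g_le d w O hw c hc
    rw [← hg] at l1
    have hA0 : 0 ≤ (A.1 O).re := by rw [← heq]; positivity
    simp only [hq] at hL
    rw [Finset.sum_sub_distrib, Finset.sum_add_distrib, ← Finset.mul_sum, sub_re, add_re,
      re_ofReal_mul, Complex.re_sum, Complex.re_sum, Complex.re_sum] at hL
    rw [Complex.re_sum] at l1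
    have l2 := mul_le_mul_of_nonneg_left l1 hA0
    linarith

end core

end Crest.Agent.R257.Cut2_268
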