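import Crest.Agent.R257.Cut2_268
import Crest.Agent.R273.YC3d_812

/-!
Row 257 (S0395), task E-CUT (helper268), part 3: the Cheng-Yau gradient estimate for the potential
at a maximum point (`grad_bound`), and the gradient estimate for holomorphic functions
(`hol_bound`).
-/

set_option autoImplicit false
set_option linter.unusedSimpArgs false
set_option linter.unusedSectionVars false
set_option linter.unusedVariables false

open Set Filter Topology Complex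
open scoped ContDiff ComplexConjugate ComplexOrder

namespace Crest.Agent.R257.Cut3_268

open Crest.Agent.R273.YSm_812 Crest.Agent.R273.YJet_812 Crest.Agent.R273.YC3_812
open Crest.Agent.R257.Cut1_268 Crest.Agent.R257.Cut2_268

variable {n : ℕ} {V : Type*} [NormedAddCommGroup V] [NormedSpace ℂ V] {Ω : Set V}
  [FiniteDimensional ℂ V]

theorem nsq (a : ℂ) : ((‖a‖ ^ 2 : ℝ) : ℂ) = a * conj a := by
  rw [mul_conj, normSq_eq_norm_sq]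

theorem QQ_id (X P α l : ℝ) (hP : P ≠ 0) (p z a b : ℂ)
    (hb : b * P = conj p)
    (hy : (X : ℂ) ^ 2 * P * a = -α * p - 2 * X * P ^ 2 * z) :
    ((X ^ 2 * P ^ 2 : ℝ) : ℂ) * QQ X P z l a b 0
      = ((-2 * X ^ 2 * P ^ 4 * ‖z‖ ^ 2 + 2 * X ^ 3 * P ^ 4 * l
        + (X ^ 4 + α ^ 2) * ‖p‖ ^ 2 : ℝ) : ℂ)
        + ((2 * X ^ 3 * P ^ 2 : ℝ) : ℂ) * (z * conj p + conj (z * conj p)) := by
  have hb' : conj b * P = p := by
    have := congrArg conj hb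
    simpa using this
  have hy' : (X : ℂ) ^ 2 * P * conj a = -α * conj p - 2 * X * P ^ 2 * conj z := by
    have := congrArg conj hy
    simpa only [map_mul, map_sub, map_neg, map_pow, conj_ofReal, map_ofNat] using this
  have h1 := nsq z
  have h2 := nsq p
  push_cast at h1 h2 ⊢
  rw [h1, h2]
  simp only [QQ, map_mul, conj_conj, conj_ofReal, map_zero]
  linear_combination (2 * X * z * P ^ 2) * hy' + (2 * X * conj z * P ^ 2) * hy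
    + (X ^ 2 * P * conj a) * hy + (-α * p - 2 * X * P ^ 2 * z) * hy'
    + (2 * X ^ 3 * P ^ 2 * z) * hb + (2 * X ^ 3 * P ^ 2 * conj z) * hb'
    + (X ^ 4 * P * conj b) * hb + (X ^ 4 * conj p) * hb'

theorem QQ_lower (X P α l : ℝ) (hP : 0 < P) (hX : 0 < X) (p z a b : ℂ)
    (hb : b * P = conj p)
    (hy : (X : ℂ) ^ 2 * P * a = -α * p - 2 * X * P ^ 2 * z) :
    -4 * X ^ 2 * P ^ 4 * ‖z‖ ^ 2 + 2 * X ^ 3 * P ^ 4 * l + (α ^ 2 - X ^ 4) * ‖p‖ ^ 2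
      ≤ X ^ 2 * P ^ 2 * (QQ X P z l a b 0).re := by
  have h := congrArg Complex.re (QQ_id X P α l hP.ne' p z a b hb hy)
  rw [re_ofReal_mul, add_re, ofReal_re, re_ofReal_mul, add_conj, ofReal_re] at h
  rw [h]
  have h1 : -(‖z‖ * ‖p‖) ≤ (z * conj p).re := by
    have := abs_re_le_norm (z * conj p)
    rw [norm_mul, norm_conj] at this
    exact neg_le_of_abs_le this
  have h2 : 0 ≤ X ^ 3 * P ^ 2 := by positivity
  have h3 := mul_le_mul_of_nonneg_left h1 h2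
  have h4 : 0 ≤ (X * P ^ 2 * ‖z‖ - X ^ 2 * ‖p‖) ^ 2 := sq_nonneg _
  nlinarith [h3, h4]

theorem QQ_hol (X l : ℝ) (T z a : ℂ) :
    (2 * X * l - 2 * ‖z‖ ^ 2) * ‖T‖ ^ 2 ≤ (QQ X T z l a 0 0).re := by
  have e : QQ X T z l a 0 0 = (((2 * X * l - 2 * ‖z‖ ^ 2) * ‖T‖ ^ 2
      + ‖X * a + 2 * z * T‖ ^ 2 : ℝ) : ℂ) := by
    have h1 := nsq z
    have h2 := nsq T
    have h3 := nsq (X * a + 2 * z * T)
    push_cast at h1 h2 h3 ⊢
    rw [h1, h2, h3]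
    simp only [QQ, map_add, map_mul, conj_conj, conj_ofReal, map_zero, map_ofNat]
    ring
  rw [e, ofReal_re]
  exact le_add_of_nonneg_right (sq_nonneg _)

theorem B_real (hΩ : IsOpen Ω) {u : Sm Ω} (hu : cj u = u) (ξ : V) (z : Ω) :
    (B hΩ ξ u).1 z = conj ((D hΩ ξ u).1 z) := by
  show _ = (cj (D hΩ ξ u)).1 z
  rw [← B_cj, hu]

/-- `m (C - u)²` -/
noncomputable def Aw (C m : ℝ) (u : Sm Ω) : Sm Ω :=
  (m : ℂ) • ((algebraMap ℂ (Sm Ω) C - u) * (algebraMap ℂ (Sm Ω) C - u))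

theorem Aw_val (C m : ℝ) {u : Sm Ω} (hu : cj u = u) (z : Ω) :
    (Aw C m u).1 z = ((m * (C - (u.1 z).re) ^ 2 : ℝ) : ℂ) := by
  have : (Aw C m u).1 z = (m : ℂ) * (((C : ℂ) - u.1 z) * ((C : ℂ) - u.1 z)) := rfl
  rw [this, re_eq hu z]
  push_cast
  simp only [ofReal_re]
  ring

theorem cj_Aw (C m : ℝ) {u : Sm Ω} (hu : cj u = u) : cj (Aw C m u) = Aw C m u :=
  Sm.ext' fun z => by rw [cj_apply, Aw_val C m hu, conj_ofReal]

theorem D_Aw (hΩ : IsOpen Ω) (C m : ℝ) (u : Sm Ω) (ξ : V) :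
    D hΩ ξ (Aw C m u) = (-(2 * m : ℂ)) • ((algebraMap ℂ (Sm Ω) C - u) * D hΩ ξ u) := by
  rw [Aw, Derivation.map_smul, Derivation.leibniz, map_sub, Derivation.map_algebraMap, zero_sub]
  refine Sm.ext' fun z => ?_
  show (m : ℂ) * (((C : ℂ) - u.1 z) * -((D hΩ ξ u).1 z) + ((C : ℂ) - u.1 z) * -((D hΩ ξ u).1 z))
    = (-(2 * m : ℂ)) * (((C : ℂ) - u.1 z) * (D hΩ ξ u).1 z)
  ring

theorem B_Aw (hΩ : IsOpen Ω) (C m : ℝ) (u : Sm Ω) (ξ : V) :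
    B hΩ ξ (Aw C m u) = (-(2 * m : ℂ)) • ((algebraMap ℂ (Sm Ω) C - u) * B hΩ ξ u) := by
  rw [Aw, Derivation.map_smul, Derivation.leibniz, map_sub, Derivation.map_algebraMap, zero_sub]
  refine Sm.ext' fun z => ?_
  show (m : ℂ) * (((C : ℂ) - u.1 z) * -((B hΩ ξ u).1 z) + ((C : ℂ) - u.1 z) * -((B hΩ ξ u).1 z))
    = (-(2 * m : ℂ)) * (((C : ℂ) - u.1 z) * (B hΩ ξ u).1 z)
  ring

theorem U2_Aw (hΩ : IsOpen Ω) (C m : ℝ) {u : Sm Ω} (hu : cj u = u) (ξ : V) (z : Ω) :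
    (U2 hΩ (Aw C m u) ξ ξ).1 z
      = ((2 * m * (‖(D hΩ ξ u).1 z‖ ^ 2 - (C - (u.1 z).re) * ((U2 hΩ u ξ ξ).1 z).re) : ℝ) : ℂ) := by
  rw [U2, B_Aw, Derivation.map_smul, Derivation.leibniz, map_sub, Derivation.map_algebraMap,
    zero_sub]
  have h1 : ((-(2 * m : ℂ)) • ((algebraMap ℂ (Sm Ω) C - u) • D hΩ ξ (B hΩ ξ u)
      + B hΩ ξ u • -(D hΩ ξ u))).1 z
      = (-(2 * m : ℂ)) * (((C : ℂ) - u.1 z) * (U2 hΩ u ξ ξ).1 z
        + (B hΩ ξ u).1 z * -((D hΩ ξ u).1 z)) := rfl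
  rw [h1, B_real hΩ hu, re_eq hu z, re_eq (cj_U2 hΩ hu ξ ξ) z]
  have h2 := nsq ((D hΩ ξ u).1 z)
  push_cast at h2 ⊢
  rw [h2]
  simp only [ofReal_re]
  ring

section main

variable {hΩ : IsOpen Ω} {e : Module.Basis (Fin n) ℂ V} (d : KE hΩ e) (O : Ω)

theorem exists_coord (w : Module.Basis (Fin n) ℂ V) (ξ : V) : ∃ x : Fin n → ℂ,
    ξ = ∑ i, x i • w i := ⟨fun i => w.repr ξ i, (w.sum_repr ξ).symm⟩

theorem U2_coord (w : Module.Basis (Fin n) ℂ V)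
    (hw : ∀ a b, (U2 hΩ d.u (w a) (w b)).1 O = if a = b then 1 else 0) (x : Fin n → ℂ) :
    ((U2 hΩ d.u (∑ i, x i • w i) (∑ i, x i • w i)).1 O).re = ∑ i, ‖x i‖ ^ 2 := by
  rw [U2_expand]
  simp only [hw, mul_ite, mul_one, mul_zero, Finset.sum_ite_eq, Finset.mem_univ, if_true]
  rw [Complex.re_sum]
  exact Finset.sum_congr rfl fun i _ => by rw [← nsq, ofReal_re]

theorem D_coord (w : Module.Basis (Fin n) ℂ V) (x : Fin n → ℂ) (h : Sm Ω) :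
    (D hΩ (∑ i, x i • w i) h).1 O = ∑ i, x i * (D hΩ (w i) h).1 O := by
  rw [D_sum]
  show (ev O) _ = _
  rw [map_sum]
  exact Finset.sum_congr rfl fun i _ => by rw [map_smul]; rfl

/-- a bound for the gradient of `h` in all directions bounds its norm in a unitary frame -/
theorem sum_D_le (w : Module.Basis (Fin n) ℂ V)
    (hw : ∀ a b, (U2 hΩ d.u (w a) (w b)).1 O = if a = b then 1 else 0) (h : Sm Ω) {X S : ℝ}
    (hS0 : 0 ≤ S)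
    (hS : ∀ ξ, X ^ 2 * ‖(D hΩ ξ h).1 O‖ ^ 2 ≤ S * ((U2 hΩ d.u ξ ξ).1 O).re) :
    X ^ 2 * ∑ q, ‖(D hΩ (w q) h).1 O‖ ^ 2 ≤ S := by
  have h1 := hS (∑ i, conj ((D hΩ (w i) h).1 O) • w i)
  rw [U2_coord d O w hw, D_coord O w] at h1
  simp only [norm_conj] at h1
  have h2 : ∑ i, conj ((D hΩ (w i) h).1 O) * (D hΩ (w i) h).1 O
      = ((∑ q, ‖(D hΩ (w q) h).1 O‖ ^ 2 : ℝ) : ℂ) := by
    push_cast
    exact Finset.sum_congr rfl fun i _ => by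
      have := nsq ((D hΩ (w i) h).1 O)
      push_cast at this
      rw [this, mul_comm]
  have h0 : 0 ≤ ∑ q, ‖(D hΩ (w q) h).1 O‖ ^ 2 := Finset.sum_nonneg fun i _ => sq_nonneg _
  rw [h2, norm_real, Real.norm_eq_abs, abs_of_nonneg h0] at h1
  rcases h0.eq_or_lt with h3 | h3
  · rw [← h3, mul_zero]; exact hS0
  · by_contra h4
    push Not at h4
    have := mul_lt_mul_of_pos_right h4 h3
    nlinarith

theorem sum_U2_ge (w : Module.Basis (Fin n) ℂ V)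
    (hw : ∀ a b, (U2 hΩ d.u (w a) (w b)).1 O = if a = b then 1 else 0) (χ : Sm Ω) {L0 : ℝ}
    (hL : ∀ ξ, -L0 * ((U2 hΩ d.u ξ ξ).1 O).re ≤ ((U2 hΩ χ ξ ξ).1 O).re) :
    -(n * L0) ≤ ∑ q, ((U2 hΩ χ (w q) (w q)).1 O).re := by
  have h1 : ∀ q, -L0 ≤ ((U2 hΩ χ (w q) (w q)).1 O).re := fun q => by
    have := hL (w q)
    rw [hw] at this
    simpa using this
  have h2 := Finset.sum_le_sum fun (q : Fin n) (_ : q ∈ Finset.univ) => h1 q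
  rw [Finset.sum_const, Finset.card_univ, Fintype.card_fin, nsmul_eq_mul] at h2
  linarith

theorem fin_num {X F m W s L R S L0 K N : ℝ} (hX : 0 < X) (hF0 : 0 < F) (hm : 0 < m) (hW0 : 0 < W)
    (hN : 0 ≤ N) (hmF : m * W ^ 2 = X ^ 2 * F)
    (hsum : -4 * X ^ 2 * F ^ 2 * s + 2 * X ^ 3 * F ^ 2 * L + ((2 * m * W + X ^ 2) ^ 2 - X ^ 4) * F
      ≤ X ^ 2 * F * R)
    (hS1 : 0 ≤ 2 * m * F - 2 * m * W * N + m * W ^ 2 * K - R)
    (hsS : s ≤ S) (hLL : -(N * L0) ≤ L) : 2 * m ≤ K * X ^ 2 + 4 * S + 2 * X * (N * L0) := by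
  have h1 : X ^ 2 * F * (-4 * F * s + 2 * X * F * L + 4 * m * F + 4 * m * W) ≤ X ^ 2 * F * R := by
    refine le_trans (le_of_eq ?_) hsum
    linear_combination (-4 * m * F) * hmF
  have h2 : -4 * F * s + 2 * X * F * L + 4 * m * F + 4 * m * W ≤ R :=
    le_of_mul_le_mul_left h1 (by positivity)
  rw [hmF] at hS1
  have e4 : 0 ≤ 2 * m * W * N := by positivity
  have e5 : 0 ≤ 4 * m * W := by positivity
  have h3 : F * (2 * m) ≤ F * (K * X ^ 2 + 4 * s - 2 * X * L) := by nlinarith only [hS1, h2, e4, e5]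
  have h4 := le_of_mul_le_mul_left h3 hF0
  have h5 := mul_le_mul_of_nonneg_left hLL (by positivity : 0 ≤ 2 * X)
  linarith

/-- **Cheng-Yau gradient estimate at a maximum point.** -/
theorem grad_bound (hpos : ∀ ξ : V, ξ ≠ 0 → 0 < ((U2 hΩ d.u ξ ξ).1 O).re)
    (C m : ℝ) (hm : 0 < m) (χ : Sm Ω) (hχ : cj χ = χ) (hX : 0 < (χ.1 O).re)
    (hC : (d.u.1 O).re < C)
    (hmax : ∀ᶠ z in 𝓝 (O : V), ∀ (hz : z ∈ Ω) (ξ : V),
      (χ.1 ⟨z, hz⟩).re ^ 2 * ‖(D hΩ ξ d.u).1 ⟨z, hz⟩‖ ^ 2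
        ≤ (m * (C - (d.u.1 ⟨z, hz⟩).re) ^ 2) * ((U2 hΩ d.u ξ ξ).1 ⟨z, hz⟩).re)
    (ξ0 : V) (hξ0 : ξ0 ≠ 0)
    (heq : (m * (C - (d.u.1 O).re) ^ 2) * ((U2 hΩ d.u ξ0 ξ0).1 O).re
      ≤ (χ.1 O).re ^ 2 * ‖(D hΩ ξ0 d.u).1 O‖ ^ 2)
    (S L0 : ℝ) (hS : ∀ ξ, ‖(D hΩ ξ χ).1 O‖ ^ 2 ≤ S * ((U2 hΩ d.u ξ ξ).1 O).re)
    (hL : ∀ ξ, -L0 * ((U2 hΩ d.u ξ ξ).1 O).re ≤ ((U2 hΩ χ ξ ξ).1 O).re) :
    2 * m ≤ d.K * (χ.1 O).re ^ 2 + 4 * S + 2 * (χ.1 O).re * (n * L0) := by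
  obtain ⟨w, hw⟩ := exists_frame hΩ d.hu e O hpos
  set X : ℝ := (χ.1 O).re with hXdef
  set W : ℝ := C - (d.u.1 O).re with hW
  have hW0 : 0 < W := by rw [hW]; linarith
  obtain ⟨p, hp⟩ : ∃ p : Fin n → ℂ, p = fun q => (D hΩ (w q) d.u).1 O := ⟨_, rfl⟩
  obtain ⟨F, hF⟩ : ∃ F : ℝ, F = ∑ q, ‖p q‖ ^ 2 := ⟨_, rfl⟩
  have hpq : ∀ q, (D hΩ (w q) d.u).1 O = p q := fun q => by rw [hp]
  have hA0 : 0 < m * W ^ 2 := by positivity
  -- upper bound for `X² F`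
  have hup : X ^ 2 * F ≤ m * W ^ 2 := by
    rw [hF, hp]
    exact sum_D_le d O w hw d.u hA0.le fun ξ => hmax.self_of_nhds O.2 ξ
  -- lower bound
  have hlo : m * W ^ 2 ≤ X ^ 2 * F := by
    obtain ⟨x, hx⟩ := exists_coord w ξ0
    have hx0 := hpos ξ0 hξ0
    rw [hx, U2_coord d O w hw, D_coord O w] at heq
    rw [hx, U2_coord d O w hw] at hx0
    simp only [hpq] at heq
    have h1 := cs Finset.univ x p
    rw [← hF] at h1
    have h2 := mul_le_mul_of_nonneg_left h1 (sq_nonneg X)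
    have h3 : m * W ^ 2 * (∑ i, ‖x i‖ ^ 2) ≤ (X ^ 2 * F) * ∑ i, ‖x i‖ ^ 2 := by
      refine heq.trans (h2.trans (le_of_eq ?_)); ring
    exact le_of_mul_le_mul_right h3 hx0
  have hmF : m * W ^ 2 = X ^ 2 * F := le_antisymm hlo hup
  have hF0 : 0 < F := by
    rw [hmF] at hA0
    exact pos_of_mul_pos_right hA0 (sq_nonneg X)
  obtain ⟨P, hPdef⟩ : ∃ P : ℝ, P = Real.sqrt F := ⟨_, rfl⟩
  have hP0 : 0 < P := by rw [hPdef]; exact Real.sqrt_pos.2 hF0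
  have hPF : P ^ 2 = F := by rw [hPdef]; exact Real.sq_sqrt hF0.le
  have hPc : (P : ℂ) ≠ 0 := by exact_mod_cast hP0.ne'
  obtain ⟨c, hcdef⟩ : ∃ c : Fin n → ℂ, c = fun q => conj (p q) / P := ⟨_, rfl⟩
  have hcq : ∀ q, c q * P = conj (p q) := fun q => by rw [hcdef]; field_simp
  have hFc : ((P : ℂ)) ^ 2 = ∑ q, p q * conj (p q) := by
    have : ((P : ℂ)) ^ 2 = ((P ^ 2 : ℝ) : ℂ) := by push_cast; ring
    rw [this, hPF, hF]
    push_cast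
    exact Finset.sum_congr rfl fun q _ => by
      have := nsq (p q)
      push_cast at this
      exact this
  have hc1 : ∑ k, c k * conj (c k) = 1 := by
    have h1 : ∀ k, c k * conj (c k) = (p k * conj (p k)) / (P : ℂ) ^ 2 := fun k => by
      rw [hcdef]
      simp only [map_div₀, conj_conj, conj_ofReal]
      field_simp
    simp only [h1]
    rw [← Finset.sum_div, ← hFc]
    exact div_self (pow_ne_zero 2 hPc)
  have hT : ∑ x, c x * p x = (P : ℂ) := by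
    have h1 : ∀ k, c k * p k = (p k * conj (p k)) / (P : ℂ) := fun k => by
      rw [hcdef]; field_simp
    simp only [h1]
    rw [← Finset.sum_div, ← hFc]
    field_simp
  have hA := cj_Aw C m d.hu
  have hAO : ((Aw C m d.u).1 O).re = m * W ^ 2 := by rw [Aw_val C m d.hu, ofReal_re]
  obtain ⟨hF1, hS1⟩ := conditions d w O hw χ (Aw C m d.u) d.u hχ hA c hc1
    (by
      filter_upwards [hmax] with z hz hz' ξ
      rw [Aw_val C m d.hu, ofReal_re]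
      exact hz hz' ξ)
    (by
      simp only [hpq]
      rw [hT, hAO, hmF, norm_real, Real.norm_eq_abs, sq_abs, hPF])
  have hTO : (Wf d w O c d.u).1 O = (P : ℂ) := by
    rw [Wf_O]; simp only [hpq]; exact hT
  have hBD : ∀ q x, B hΩ (w q) (D hΩ (w x) d.u) = U2 hΩ d.u (w x) (w q) := fun q x => by
    rw [U2, DB]
  have hb : ∀ q, (B hΩ (w q) (Wf d w O c d.u)).1 O = c q := by
    intro q
    rw [B_Wf_O]
    simp only [hBD, hw, mul_ite, mul_one, mul_zero, Finset.sum_ite_eq', Finset.mem_univ, if_true]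
  have ht : ∀ q, (D hΩ (w q) (B hΩ (w q) (Wf d w O c d.u))).1 O = 0 := by
    intro q
    rw [DB_Wf_O]
    simp only [hBD, hw, mul_ite, mul_one, mul_zero, Finset.sum_add_distrib, Finset.sum_ite_eq',
      Finset.mem_univ, if_true]
    ring
  simp only [hTO, hb, ht, hAO] at hF1 hS1
  obtain ⟨a, ha⟩ : ∃ a : Fin n → ℂ, a = fun q => (D hΩ (w q) (Wf d w O c d.u)).1 O := ⟨_, rfl⟩
  have haq : ∀ q, (D hΩ (w q) (Wf d w O c d.u)).1 O = a q := fun q => by rw [ha]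
  obtain ⟨z, hz⟩ : ∃ z : Fin n → ℂ, z = fun q => (D hΩ (w q) χ).1 O := ⟨_, rfl⟩
  have hzq : ∀ q, (D hΩ (w q) χ).1 O = z q := fun q => by rw [hz]
  simp only [haq, hzq] at hF1 hS1
  have hy : ∀ q, (X : ℂ) ^ 2 * P * a q
      = -((2 * m * W + X ^ 2 : ℝ) : ℂ) * p q - 2 * X * P ^ 2 * z q := by
    intro q
    have h1 := hF1 q
    have h2 : (D hΩ (w q) (Aw C m d.u)).1 O = -(2 * m : ℂ) * ((W : ℂ) * p q) := by
      rw [D_Aw]
      have h3 : ((-(2 * m : ℂ)) • ((algebraMap ℂ (Sm Ω) C - d.u) * D hΩ (w q) d.u)).1 O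
        = (-(2 * m : ℂ)) * (((C : ℂ) - d.u.1 O) * (D hΩ (w q) d.u).1 O) := rfl
      rw [h3, hpq, re_eq d.hu O, hW]
      push_cast
      rfl
    have h4 : (P : ℂ) * conj (c q) = p q := by
      have := congrArg conj (hcq q)
      simp only [map_mul, conj_conj, conj_ofReal] at this
      rw [mul_comm]; exact this
    rw [h2, conj_ofReal, h4] at h1
    push_cast
    linear_combination -h1
  have hlow : ∀ q, -4 * X ^ 2 * P ^ 4 * ‖z q‖ ^ 2 + 2 * X ^ 3 * P ^ 4 * ((U2 hΩ χ (w q) (w q)).1 O).re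
      + ((2 * m * W + X ^ 2) ^ 2 - X ^ 4) * ‖p q‖ ^ 2
      ≤ X ^ 2 * P ^ 2 * (QQ X P (z q) ((U2 hΩ χ (w q) (w q)).1 O) (a q) (c q) 0).re := by
    intro q
    have h1 := QQ_lower X P (2 * m * W + X ^ 2) ((U2 hΩ χ (w q) (w q)).1 O).re hP0 hX (p q) (z q)
      (a q) (c q) (hcq q) (hy q)
    have h2 : (((U2 hΩ χ (w q) (w q)).1 O).re : ℂ) = (U2 hΩ χ (w q) (w q)).1 O :=
      (re_eq (cj_U2 hΩ hχ (w q) (w q)) O).symm
    rw [h2] at h1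
    exact h1
  have hsum := Finset.sum_le_sum fun (q : Fin n) (_ : q ∈ Finset.univ) => hlow q
  simp only [Finset.sum_add_distrib, ← Finset.mul_sum] at hsum
  rw [← hF] at hsum
  obtain ⟨s, hs⟩ : ∃ s : ℝ, s = ∑ q, ‖z q‖ ^ 2 := ⟨_, rfl⟩
  obtain ⟨L, hLd⟩ : ∃ L : ℝ, L = ∑ q, ((U2 hΩ χ (w q) (w q)).1 O).re := ⟨_, rfl⟩
  obtain ⟨R, hR⟩ : ∃ R : ℝ, R = ∑ q, (QQ X P (z q) ((U2 hΩ χ (w q) (w q)).1 O) (a q) (c q) 0).re :=
    ⟨_, rfl⟩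
  rw [← hs, ← hLd, ← hR] at hsum
  rw [← hR] at hS1
  have hUA : ∑ q, ((U2 hΩ (Aw C m d.u) (w q) (w q)).1 O).re = 2 * m * F - 2 * m * W * n := by
    have h1 : ∀ q, ((U2 hΩ (Aw C m d.u) (w q) (w q)).1 O).re = 2 * m * (‖p q‖ ^ 2 - W) := by
      intro q
      rw [U2_Aw hΩ C m d.hu, ofReal_re, hw, hpq]
      simp [hW]
    simp only [h1]
    rw [← Finset.mul_sum, Finset.sum_sub_distrib, ← hF, Finset.sum_const, Finset.card_univ,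
      Fintype.card_fin, nsmul_eq_mul]
    ring
  rw [hUA] at hS1
  have hS0 : 0 ≤ S := by
    have h1 := hS ξ0
    have h2 := hpos ξ0 hξ0
    by_contra h3
    push Not at h3
    have := mul_neg_of_neg_of_pos h3 h2
    nlinarith [sq_nonneg ‖(D hΩ ξ0 χ).1 O‖]
  have hsS : s ≤ S := by
    have h1 := sum_D_le d O w hw χ (X := 1) hS0 fun ξ => by simpa using hS ξ
    rw [hs, hz]
    simpa using h1
  have hLL : -(n * L0) ≤ L := by rw [hLd]; exact sum_U2_ge d O w hw χ hL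
  have e1 : P ^ 4 = F ^ 2 := by rw [← hPF]; ring
  rw [e1, hPF] at hsum
  exact fin_num hX hF0 hm hW0 (Nat.cast_nonneg n) hmF hsum hS1 hsS hLL

/-- `Q - Λ |h|²` -/
noncomputable def Ah (Q Λ : ℝ) (h : Sm Ω) : Sm Ω :=
  algebraMap ℂ (Sm Ω) Q - (Λ : ℂ) • (h * cj h)

theorem Ah_val (Q Λ : ℝ) (h : Sm Ω) (z : Ω) :
    (Ah Q Λ h).1 z = ((Q - Λ * ‖h.1 z‖ ^ 2 : ℝ) : ℂ) := by
  have : (Ah Q Λ h).1 z = (Q : ℂ) - (Λ : ℂ) * (h.1 z * conj (h.1 z)) := rfl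
  rw [this, ← nsq]
  push_cast
  rfl

theorem cj_Ah (Q Λ : ℝ) (h : Sm Ω) : cj (Ah Q Λ h) = Ah Q Λ h :=
  Sm.ext' fun z => by rw [cj_apply, Ah_val, conj_ofReal]

theorem U2_Ah (hΩ : IsOpen Ω) (Q Λ : ℝ) {h : Sm Ω} (hh : ∀ ξ, B hΩ ξ h = 0) (ξ : V) (z : Ω) :
    (U2 hΩ (Ah Q Λ h) ξ ξ).1 z = ((-Λ * ‖(D hΩ ξ h).1 z‖ ^ 2 : ℝ) : ℂ) := by
  have h1 : B hΩ ξ (Ah Q Λ h) = (-(Λ : ℂ)) • (h * cj (D hΩ ξ h)) := by
    rw [Ah, map_sub, Derivation.map_algebraMap, zero_sub, Derivation.map_smul, Derivation.leibniz,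
      hh, B_cj, smul_zero, add_zero, neg_smul]
    rfl
  rw [U2, h1, Derivation.map_smul, Derivation.leibniz, D_cj, ← DB, hh, map_zero]
  have h2 : cj (0 : Sm Ω) = 0 := Sm.ext' fun z => by simp
  rw [h2, smul_zero, zero_add]
  have h3 : ((-(Λ : ℂ)) • (cj (D hΩ ξ h) • D hΩ ξ h)).1 z
    = (-(Λ : ℂ)) * (conj ((D hΩ ξ h).1 z) * (D hΩ ξ h).1 z) := rfl
  rw [h3, mul_comm (conj _), ← nsq]
  push_cast
  ring

/-- **gradient estimate for a holomorphic function at a maximum point.** -/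
theorem hol_bound (hpos : ∀ ξ : V, ξ ≠ 0 → 0 < ((U2 hΩ d.u ξ ξ).1 O).re)
    (Q Λ : ℝ) (χ h : Sm Ω) (hχ : cj χ = χ) (hX : 0 ≤ (χ.1 O).re) (hh : ∀ ξ, B hΩ ξ h = 0)
    (hmax : ∀ᶠ z in 𝓝 (O : V), ∀ (hz : z ∈ Ω) (ξ : V),
      (χ.1 ⟨z, hz⟩).re ^ 2 * ‖(D hΩ ξ h).1 ⟨z, hz⟩‖ ^ 2
        ≤ (Q - Λ * ‖h.1 ⟨z, hz⟩‖ ^ 2) * ((U2 hΩ d.u ξ ξ).1 ⟨z, hz⟩).re)
    (ξ0 : V) (hξ0 : ξ0 ≠ 0)
    (heq : (Q - Λ * ‖h.1 O‖ ^ 2) * ((U2 hΩ d.u ξ0 ξ0).1 O).re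
      ≤ (χ.1 O).re ^ 2 * ‖(D hΩ ξ0 h).1 O‖ ^ 2)
    (S L0 : ℝ) (hS : ∀ ξ, ‖(D hΩ ξ χ).1 O‖ ^ 2 ≤ S * ((U2 hΩ d.u ξ ξ).1 O).re)
    (hL : ∀ ξ, -L0 * ((U2 hΩ d.u ξ ξ).1 O).re ≤ ((U2 hΩ χ ξ ξ).1 O).re)
    (hΛ : d.K * (χ.1 O).re ^ 2 + 2 * S + 2 * (χ.1 O).re * (n * L0) < Λ) :
    Q ≤ Λ * ‖h.1 O‖ ^ 2 := by
  by_contra hcon
  push Not at hcon
  obtain ⟨w, hw⟩ := exists_frame hΩ d.hu e O hpos
  set X : ℝ := (χ.1 O).re with hXdef
  obtain ⟨A0, hA0d⟩ : ∃ A0 : ℝ, A0 = Q - Λ * ‖h.1 O‖ ^ 2 := ⟨_, rfl⟩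
  have hA0 : 0 < A0 := by rw [hA0d]; linarith
  obtain ⟨p, hp⟩ : ∃ p : Fin n → ℂ, p = fun q => (D hΩ (w q) h).1 O := ⟨_, rfl⟩
  obtain ⟨F, hF⟩ : ∃ F : ℝ, F = ∑ q, ‖p q‖ ^ 2 := ⟨_, rfl⟩
  have hpq : ∀ q, (D hΩ (w q) h).1 O = p q := fun q => by rw [hp]
  rw [← hA0d] at heq
  have hup : X ^ 2 * F ≤ A0 := by
    rw [hF, hp]
    refine sum_D_le d O w hw h hA0.le fun ξ => ?_
    rw [hA0d]
    exact hmax.self_of_nhds O.2 ξ
  have hlo : A0 ≤ X ^ 2 * F := by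
    obtain ⟨x, hx⟩ := exists_coord w ξ0
    have hx0 := hpos ξ0 hξ0
    rw [hx, U2_coord d O w hw, D_coord O w] at heq
    rw [hx, U2_coord d O w hw] at hx0
    simp only [hpq] at heq
    have h1 := cs Finset.univ x p
    rw [← hF] at h1
    have h2 := mul_le_mul_of_nonneg_left h1 (sq_nonneg X)
    have h3 : A0 * (∑ i, ‖x i‖ ^ 2) ≤ (X ^ 2 * F) * ∑ i, ‖x i‖ ^ 2 := by
      refine heq.trans (h2.trans (le_of_eq ?_)); ring
    exact le_of_mul_le_mul_right h3 hx0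
  have hmF : A0 = X ^ 2 * F := le_antisymm hlo hup
  have hF0 : 0 < F := by
    rw [hmF] at hA0
    exact pos_of_mul_pos_right hA0 (sq_nonneg X)
  obtain ⟨P, hPdef⟩ : ∃ P : ℝ, P = Real.sqrt F := ⟨_, rfl⟩
  have hP0 : 0 < P := by rw [hPdef]; exact Real.sqrt_pos.2 hF0
  have hPF : P ^ 2 = F := by rw [hPdef]; exact Real.sq_sqrt hF0.le
  have hPc : (P : ℂ) ≠ 0 := by exact_mod_cast hP0.ne'
  obtain ⟨c, hcdef⟩ : ∃ c : Fin n → ℂ, c = fun q => conj (p q) / P := ⟨_, rfl⟩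
  have hFc : ((P : ℂ)) ^ 2 = ∑ q, p q * conj (p q) := by
    have : ((P : ℂ)) ^ 2 = ((P ^ 2 : ℝ) : ℂ) := by push_cast; ring
    rw [this, hPF, hF]
    push_cast
    exact Finset.sum_congr rfl fun q _ => by
      have := nsq (p q)
      push_cast at this
      exact this
  have hc1 : ∑ k, c k * conj (c k) = 1 := by
    have h1 : ∀ k, c k * conj (c k) = (p k * conj (p k)) / (P : ℂ) ^ 2 := fun k => by
      rw [hcdef]
      simp only [map_div₀, conj_conj, conj_ofReal]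
      field_simp
    simp only [h1]
    rw [← Finset.sum_div, ← hFc]
    exact div_self (pow_ne_zero 2 hPc)
  have hT : ∑ x, c x * p x = (P : ℂ) := by
    have h1 : ∀ k, c k * p k = (p k * conj (p k)) / (P : ℂ) := fun k => by
      rw [hcdef]; field_simp
    simp only [h1]
    rw [← Finset.sum_div, ← hFc]
    field_simp
  have hAO : ((Ah Q Λ h).1 O).re = A0 := by rw [Ah_val, ofReal_re, hA0d]
  obtain ⟨-, hS1⟩ := conditions d w O hw χ (Ah Q Λ h) h hχ (cj_Ah Q Λ h) c hc1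
    (by
      filter_upwards [hmax] with z hz hz' ξ
      rw [Ah_val, ofReal_re]
      exact hz hz' ξ)
    (by
      simp only [hpq]
      rw [hT, hAO, hmF, norm_real, Real.norm_eq_abs, sq_abs, hPF])
  have hTO : (Wf d w O c h).1 O = (P : ℂ) := by
    rw [Wf_O]; simp only [hpq]; exact hT
  have hBW : ∀ q, B hΩ (w q) (Wf d w O c h) = 0 := by
    intro q
    rw [B_Wf]
    refine Finset.sum_eq_zero fun x _ => ?_
    rw [← DB, hh, map_zero, mul_zero]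
  have hb : ∀ q, (B hΩ (w q) (Wf d w O c h)).1 O = 0 := by
    intro q
    rw [hBW]; rfl
  have ht : ∀ q, (D hΩ (w q) (B hΩ (w q) (Wf d w O c h))).1 O = 0 := by
    intro q
    rw [hBW, map_zero]; rfl
  simp only [hTO, hb, ht, hAO] at hS1
  have hlow : ∀ q, (2 * X * ((U2 hΩ χ (w q) (w q)).1 O).re - 2 * ‖(D hΩ (w q) χ).1 O‖ ^ 2) * F
      ≤ (QQ X P ((D hΩ (w q) χ).1 O) ((U2 hΩ χ (w q) (w q)).1 O)
        ((D hΩ (w q) (Wf d w O c h)).1 O) 0 0).re := by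
    intro q
    have h1 := QQ_hol X ((U2 hΩ χ (w q) (w q)).1 O).re P ((D hΩ (w q) χ).1 O)
        ((D hΩ (w q) (Wf d w O c h)).1 O)
    have h2 : (((U2 hΩ χ (w q) (w q)).1 O).re : ℂ) = (U2 hΩ χ (w q) (w q)).1 O :=
      (re_eq (cj_U2 hΩ hχ (w q) (w q)) O).symm
    rw [h2, norm_real, Real.norm_eq_abs, sq_abs, hPF] at h1
    exact h1
  have hsum := Finset.sum_le_sum fun (q : Fin n) (_ : q ∈ Finset.univ) => hlow q
  rw [← Finset.sum_mul, Finset.sum_sub_distrib, ← Finset.mul_sum, ← Finset.mul_sum] at hsum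
  obtain ⟨s, hs⟩ : ∃ s : ℝ, s = ∑ q, ‖(D hΩ (w q) χ).1 O‖ ^ 2 := ⟨_, rfl⟩
  obtain ⟨L, hLd⟩ : ∃ L : ℝ, L = ∑ q, ((U2 hΩ χ (w q) (w q)).1 O).re := ⟨_, rfl⟩
  rw [← hs, ← hLd] at hsum
  have hUA : ∑ q, ((U2 hΩ (Ah Q Λ h) (w q) (w q)).1 O).re = -Λ * F := by
    have h1 : ∀ q, ((U2 hΩ (Ah Q Λ h) (w q) (w q)).1 O).re = -Λ * ‖p q‖ ^ 2 := by
      intro q
      rw [U2_Ah hΩ Q Λ hh, ofReal_re, hpq]
    simp only [h1]
    rw [← Finset.mul_sum, ← hF]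
  rw [hUA] at hS1
  have hS0 : 0 ≤ S := by
    have h1 := hS ξ0
    have h2 := hpos ξ0 hξ0
    by_contra h3
    push Not at h3
    have := mul_neg_of_neg_of_pos h3 h2
    nlinarith [sq_nonneg ‖(D hΩ ξ0 χ).1 O‖]
  have hsS : s ≤ S := by
    have h1 := sum_D_le d O w hw χ (X := 1) hS0 fun ξ => by simpa using hS ξ
    rw [hs]
    simpa using h1
  have hLL : -(n * L0) ≤ L := by rw [hLd]; exact sum_U2_ge d O w hw χ hL
  have h5 := mul_le_mul_of_nonneg_left hLL (by positivity : 0 ≤ 2 * X)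
  have h6 : 0 ≤ F * (d.K * X ^ 2 + 2 * S + 2 * X * (n * L0) - Λ) := by
    have h7 : 0 ≤ F * (d.K * X ^ 2 + 2 * s - 2 * X * L - Λ) := by
      rw [hmF] at hS1
      nlinarith only [hS1, hsum]
    refine h7.trans (mul_le_mul_of_nonneg_left ?_ hF0.le)
    linarith
  have h8 : F * (d.K * X ^ 2 + 2 * S + 2 * X * (n * L0) - Λ) < 0 :=
    mul_neg_of_pos_of_neg hF0 (by linarith)
  linarith

end main

end Crest.Agent.R257.Cut3_268
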