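import Crest.Agent.R257.Cut3_268
import Crest.Agent.R257.CLC_39

/-!
Row 257 (S0395), task E-CUT (helper268), part 4: the two local maximum point estimates in the
notation `lev`, `gr` of `R273/Levi_145`.

* `cy_local` : `ζ² |∂_v u|² ≤ m (C - u)² lev u v` near `x` with equality at `(x, v₀)`, `ζ x > 0`:
  then `2 m ≤ K ζ² + 4 S + 2 ζ n L₀`, where `|∂_v ζ|² ≤ S lev u v`, `lev ζ v ≥ - L₀ lev u v` at `x`
  and `det cH u = e^f`, `lev f ≤ K lev u`.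
* `hol_local` : the same for a holomorphic function `h`.
-/

set_option autoImplicit false
set_option linter.unusedSimpArgs false
set_option linter.unusedSectionVars false
set_option linter.unusedVariables false

open Set Filter Topology Complex
open scoped ContDiff ComplexConjugate ComplexOrder

namespace Crest.Agent.R257.Cut4_268

open Crest.Agent.R275.Geo Crest.Agent.R275.Core144 Crest.Agent.R275.GC293
open Crest.Agent.R273.YSm_812 Crest.Agent.R273.YJet_812 Crest.Agent.R273.YC3_812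
open Crest.Agent.R273.YauC3_812 Crest.Agent.R273.YauDefs_635
open Crest.Agent.R273.Levi_145 (lev gr gr_eq)
open Crest.Agent.R257.Cut1_268 Crest.Agent.R257.Cut2_268 Crest.Agent.R257.Cut3_268

variable {n : ℕ} {U : Set (Cn n)}

theorem lev_rl (hU : IsOpen U) {f : Cn n → ℝ} (hf : ContDiffOn ℝ ∞ f U) (z : U) (v : Cn n) :
    ((U2 hU (rl f hf) v v).1 z).re = lev f z v := by
  have h1 := lev_eq4 hU hf z v
  rw [lev333_eq_lev145] at h1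
  linarith

theorem D_rl (hU : IsOpen U) {f : Cn n → ℝ} (hf : ContDiffOn ℝ ∞ f U) (z : U) (v : Cn n) :
    (D hU v (rl f hf)).1 z = gr f z v := by
  have hd : DifferentiableAt ℝ f z :=
    (hf.differentiableOn (by simp)).differentiableAt (hU.mem_nhds z.2)
  have e : ∀ ζ : Cn n, dr ζ (ex (rl f hf).1) z = ((fderiv ℝ f z ζ : ℝ) : ℂ) := by
    intro ζ
    rw [← dr_ofReal hd ζ]
    exact dr_congr hU (fun w hw => by rw [ex_of_mem _ hw]; rfl) z.2 ζ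
  rw [D_apply, dz_eq, gr_eq hd]
  simp only [e]
  ring

/-- the data of a potential -/
noncomputable def ke (hU : IsOpen U) {u f : Cn n → ℝ} (hu : ContDiffOn ℝ ∞ u U)
    (hf : ContDiffOn ℝ ∞ f U) (hdet : ∀ z ∈ U, (cH u z).det = (Real.exp (f z) : ℂ)) {K : ℝ}
    (hK : ∀ z ∈ U, ∀ v, lev f z v ≤ K * lev u z v) : KE hU (eb n) where
  u := rl u hu
  f := rl f hf
  K := K
  c0 := 1
  hu := cj_rl u hu
  c0ne := one_ne_zero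
  det z := by
    rw [det_eq hU hu z, hdet z z.2, rl_apply, one_mul, Complex.ofReal_exp]
  hK z ξ := by
    rw [lev_rl, lev_rl]
    exact hK z z.2 ξ

/-- **Cheng-Yau gradient estimate with a cut-off, at a maximum point.** -/
theorem cy_local (hU : IsOpen U) {u f ζ : Cn n → ℝ} (hu : ContDiffOn ℝ ∞ u U)
    (hf : ContDiffOn ℝ ∞ f U) (hζ : ContDiffOn ℝ ∞ ζ U)
    (hdet : ∀ z ∈ U, (cH u z).det = (Real.exp (f z) : ℂ)) {K : ℝ}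
    (hK : ∀ z ∈ U, ∀ v, lev f z v ≤ K * lev u z v) {x : Cn n} (hx : x ∈ U)
    (hpos : ∀ v, v ≠ 0 → 0 < lev u x v) {v₀ : Cn n} (hv₀ : v₀ ≠ 0) {C m S L₀ : ℝ} (hm : 0 < m)
    (hζx : 0 < ζ x) (hC : u x < C)
    (hmax : ∀ᶠ z in 𝓝 x, ∀ v, ζ z ^ 2 * ‖gr u z v‖ ^ 2 ≤ m * (C - u z) ^ 2 * lev u z v)
    (heq : m * (C - u x) ^ 2 * lev u x v₀ ≤ ζ x ^ 2 * ‖gr u x v₀‖ ^ 2)
    (hS : ∀ v, ‖gr ζ x v‖ ^ 2 ≤ S * lev u x v) (hL : ∀ v, -L₀ * lev u x v ≤ lev ζ x v) :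
    2 * m ≤ K * ζ x ^ 2 + 4 * S + 2 * ζ x * (n * L₀) := by
  have h := grad_bound (ke hU hu hf hdet hK) ⟨x, hx⟩
    (fun ξ hξ => by
      show 0 < ((U2 hU (rl u hu) ξ ξ).1 ⟨x, hx⟩).re
      rw [lev_rl]; exact hpos ξ hξ)
    C m hm (rl ζ hζ) (cj_rl ζ hζ)
    (by rw [rl_apply, ofReal_re]; exact hζx)
    (by
      show ((rl u hu).1 ⟨x, hx⟩).re < C
      rw [rl_apply, ofReal_re]; exact hC)
    (by
      filter_upwards [hmax] with z hz hz' ξ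
      show ((rl ζ hζ).1 ⟨z, hz'⟩).re ^ 2 * ‖(D hU ξ (rl u hu)).1 ⟨z, hz'⟩‖ ^ 2
        ≤ (m * (C - ((rl u hu).1 ⟨z, hz'⟩).re) ^ 2) * ((U2 hU (rl u hu) ξ ξ).1 ⟨z, hz'⟩).re
      rw [D_rl, lev_rl, rl_apply, rl_apply, ofReal_re, ofReal_re]
      exact hz ξ)
    v₀ hv₀
    (by
      show (m * (C - ((rl u hu).1 ⟨x, hx⟩).re) ^ 2) * ((U2 hU (rl u hu) v₀ v₀).1 ⟨x, hx⟩).re
        ≤ ((rl ζ hζ).1 ⟨x, hx⟩).re ^ 2 * ‖(D hU v₀ (rl u hu)).1 ⟨x, hx⟩‖ ^ 2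
      rw [D_rl, lev_rl, rl_apply, rl_apply, ofReal_re, ofReal_re]
      exact heq)
    S L₀
    (fun ξ => by
      show ‖(D hU ξ (rl ζ hζ)).1 ⟨x, hx⟩‖ ^ 2 ≤ S * ((U2 hU (rl u hu) ξ ξ).1 ⟨x, hx⟩).re
      rw [D_rl, lev_rl]
      exact hS ξ)
    (fun ξ => by
      show -L₀ * ((U2 hU (rl u hu) ξ ξ).1 ⟨x, hx⟩).re ≤ ((U2 hU (rl ζ hζ) ξ ξ).1 ⟨x, hx⟩).re
      rw [lev_rl, lev_rl]
      exact hL ξ)
  rw [rl_apply, ofReal_re] at h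
  exact h

theorem D_hol (hU : IsOpen U) {g : Cn n → ℂ} (hg : DifferentiableOn ℂ g U) (z : U) (v : Cn n) :
    (D hU v (mk g (CLC_39.contDiffOn_of_hol hU hg))).1 z = fderiv ℂ g z v := by
  rw [D_mk]
  show dz v g z = _
  have h1 : HasFDerivAt g ((fderiv ℂ g z).restrictScalars ℝ) (z : Cn n) :=
    ((hg.differentiableAt (hU.mem_nhds z.2)).hasFDerivAt).restrictScalars ℝ
  rw [dz, h1.fderiv]
  show (fderiv ℂ g z v - I * fderiv ℂ g z (I • v)) / 2 = _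
  rw [map_smul, smul_eq_mul, ← mul_assoc, I_mul_I]
  ring

/-- **gradient estimate for holomorphic functions with a cut-off, at a maximum point.** -/
theorem hol_local (hU : IsOpen U) {u f ζ : Cn n → ℝ} {h : Cn n → ℂ} (hu : ContDiffOn ℝ ∞ u U)
    (hf : ContDiffOn ℝ ∞ f U) (hζ : ContDiffOn ℝ ∞ ζ U) (hh : DifferentiableOn ℂ h U)
    (hdet : ∀ z ∈ U, (cH u z).det = (Real.exp (f z) : ℂ)) {K : ℝ}
    (hK : ∀ z ∈ U, ∀ v, lev f z v ≤ K * lev u z v) {x : Cn n} (hx : x ∈ U)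
    (hpos : ∀ v, v ≠ 0 → 0 < lev u x v) {v₀ : Cn n} (hv₀ : v₀ ≠ 0) {Q Λ S L₀ : ℝ}
    (hζx : 0 ≤ ζ x)
    (hmax : ∀ᶠ z in 𝓝 x, ∀ v, ζ z ^ 2 * ‖fderiv ℂ h z v‖ ^ 2 ≤ (Q - Λ * ‖h z‖ ^ 2) * lev u z v)
    (heq : (Q - Λ * ‖h x‖ ^ 2) * lev u x v₀ ≤ ζ x ^ 2 * ‖fderiv ℂ h x v₀‖ ^ 2)
    (hS : ∀ v, ‖gr ζ x v‖ ^ 2 ≤ S * lev u x v) (hL : ∀ v, -L₀ * lev u x v ≤ lev ζ x v)
    (hΛ : K * ζ x ^ 2 + 2 * S + 2 * ζ x * (n * L₀) < Λ) :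
    Q ≤ Λ * ‖h x‖ ^ 2 := by
  have H := hol_bound (ke hU hu hf hdet hK) ⟨x, hx⟩
    (fun ξ hξ => by
      show 0 < ((U2 hU (rl u hu) ξ ξ).1 ⟨x, hx⟩).re
      rw [lev_rl]; exact hpos ξ hξ)
    Q Λ (rl ζ hζ) (mk h (CLC_39.contDiffOn_of_hol hU hh)) (cj_rl ζ hζ)
    (by rw [rl_apply, ofReal_re]; exact hζx)
    (fun ξ => CLC_39.B_hol hU hh ξ)
    (by
      filter_upwards [hmax] with z hz hz' ξ
      show ((rl ζ hζ).1 ⟨z, hz'⟩).re ^ 2 * ‖(D hU ξ (mk h _)).1 ⟨z, hz'⟩‖ ^ 2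
        ≤ (Q - Λ * ‖h z‖ ^ 2) * ((U2 hU (rl u hu) ξ ξ).1 ⟨z, hz'⟩).re
      rw [D_hol hU hh, lev_rl, rl_apply, ofReal_re]
      exact hz ξ)
    v₀ hv₀
    (by
      show (Q - Λ * ‖h x‖ ^ 2) * ((U2 hU (rl u hu) v₀ v₀).1 ⟨x, hx⟩).re
        ≤ ((rl ζ hζ).1 ⟨x, hx⟩).re ^ 2 * ‖(D hU v₀ (mk h _)).1 ⟨x, hx⟩‖ ^ 2
      rw [D_hol hU hh, lev_rl, rl_apply, ofReal_re]
      exact heq)
    S L₀
    (fun ξ => by
      show ‖(D hU ξ (rl ζ hζ)).1 ⟨x, hx⟩‖ ^ 2 ≤ S * ((U2 hU (rl u hu) ξ ξ).1 ⟨x, hx⟩).re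
      rw [D_rl, lev_rl]
      exact hS ξ)
    (fun ξ => by
      show -L₀ * ((U2 hU (rl u hu) ξ ξ).1 ⟨x, hx⟩).re ≤ ((U2 hU (rl ζ hζ) ξ ξ).1 ⟨x, hx⟩).re
      rw [lev_rl, lev_rl]
      exact hL ξ)
    (by
      show K * ((rl ζ hζ).1 ⟨x, hx⟩).re ^ 2 + 2 * S + 2 * ((rl ζ hζ).1 ⟨x, hx⟩).re * (n * L₀) < Λ
      rw [rl_apply, ofReal_re]
      exact hΛ)
  exact H

end Crest.Agent.R257.Cut4_268
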