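import Mathlib

/-!
# Row 257, leaf C-DEG (helper578), part 1: the degree formula on the Riemann sphere

* `rational` : `N` holomorphic on `ℂ ∖ S`, `|N| ≍ |w-c|^(k c)` at `c ∈ S`, `|N| ≍ |w|^(-M)` at `∞`;
  then `∑ k c + M ≤ 0`, and `= 0` only if `N` has no zero on `ℂ ∖ S`.
* `cover` : the same for a function on a finite covering (norm over the sheets); the sheets over a
  punctured neighbourhood of `c` are parametrised by `w = c + β^l`.
-/

set_option autoImplicit false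
set_option linter.unusedSectionVars false

open Set Filter Topology Complex Bornology

noncomputable section

namespace Crest.Agent.R257.Deg_578

/-! ### the rational function lemma -/

/-- removable singularities at the points of a finite set -/
theorem exists_entire {S : Finset ℂ} {F : ℂ → ℂ} (hF : DifferentiableOn ℂ F (S : Set ℂ)ᶜ)
    (hb : ∀ c ∈ S, ∃ A : ℝ, ∀ᶠ w in 𝓝[≠] c, ‖F w‖ ≤ A) :
    ∃ E : ℂ → ℂ, Differentiable ℂ E ∧ ∀ w ∉ S, E w = F w := by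
  classical
  refine ⟨fun w => if w ∈ S then limUnder (𝓝[≠] w) F else F w, ?_, fun w hw => if_neg hw⟩
  intro w
  have hfin : (S : Set ℂ).Finite := S.finite_toSet
  by_cases hw : w ∈ S
  · obtain ⟨A, hA⟩ := hb w hw
    have h1 : ((S : Set ℂ) \ {w})ᶜ ∈ 𝓝 w :=
      (hfin.sdiff).isClosed.isOpen_compl.mem_nhds (by simp)
    rw [eventually_nhdsWithin_iff] at hA
    obtain ⟨ε, hε, hsub⟩ := Metric.mem_nhds_iff.1 (Filter.inter_mem hA h1)
    have hd : DifferentiableOn ℂ F (Metric.ball w ε \ {w}) := by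
      intro y hy
      have h2 := (hsub hy.1).2
      have h3 : y ∉ S := fun h4 => h2 ⟨h4, hy.2⟩
      exact (hF y h3).mono fun z hz => by
        intro h4
        exact (hsub hz.1).2 ⟨h4, hz.2⟩
    have hbd : BddAbove (norm ∘ F '' (Metric.ball w ε \ {w})) := by
      refine ⟨A, ?_⟩
      rintro _ ⟨y, hy, rfl⟩
      exact (hsub hy.1).1 hy.2
    have h5 := Complex.differentiableOn_update_limUnder_of_bddAbove (Metric.ball_mem_nhds w hε) hd hbd
    have h6 : DifferentiableAt ℂ (Function.update F w (limUnder (𝓝[≠] w) F)) w :=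
      h5.differentiableAt (Metric.ball_mem_nhds w hε)
    refine h6.congr_of_eventuallyEq ?_
    filter_upwards [Metric.ball_mem_nhds w hε] with y hy
    by_cases hyw : y = w
    · subst hyw
      simp [hw]
    · have h3 : y ∉ S := fun h4 => (hsub hy).2 ⟨h4, hyw⟩
      simp [h3, hyw]
  · have h1 : (S : Set ℂ)ᶜ ∈ 𝓝 w := hfin.isClosed.isOpen_compl.mem_nhds hw
    refine ((hF w hw).differentiableAt h1).congr_of_eventuallyEq ?_
    filter_upwards [h1] with y hy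
    exact if_neg hy

/-- two-sided comparison with an integral power -/
def Cmp (l : Filter ℂ) (f : ℂ → ℂ) (g : ℂ → ℝ) (k : ℤ) : Prop :=
  ∃ a A : ℝ, 0 < a ∧ ∀ᶠ w in l, a * g w ^ k ≤ ‖f w‖ ∧ ‖f w‖ ≤ A * g w ^ k

theorem Cmp.mul {l : Filter ℂ} {f f' : ℂ → ℂ} {g : ℂ → ℝ} {k k' : ℤ} (h : Cmp l f g k)
    (h' : Cmp l f' g k') (hg : ∀ᶠ w in l, 0 < g w) : Cmp l (fun w => f w * f' w) g (k + k') := by
  obtain ⟨a, A, ha, h⟩ := h
  obtain ⟨a', A', ha', h'⟩ := h'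
  refine ⟨a * a', A * A', mul_pos ha ha', ?_⟩
  filter_upwards [h, h', hg] with w h1 h2 h3
  rw [norm_mul, zpow_add₀ h3.ne']
  have h4 : 0 < g w ^ k := zpow_pos h3 _
  have h5 : 0 < g w ^ k' := zpow_pos h3 _
  constructor
  · calc a * a' * (g w ^ k * g w ^ k') = (a * g w ^ k) * (a' * g w ^ k') := by ring
      _ ≤ ‖f w‖ * ‖f' w‖ := mul_le_mul h1.1 h2.1 (by positivity) (norm_nonneg _)
  · calc ‖f w‖ * ‖f' w‖ ≤ (A * g w ^ k) * (A' * g w ^ k') :=
        mul_le_mul h1.2 h2.2 (norm_nonneg _) ((norm_nonneg _).trans h1.2)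
      _ = _ := by ring

theorem Cmp.one {l : Filter ℂ} {g : ℂ → ℝ} : Cmp l (fun _ => 1) g 0 :=
  ⟨1, 1, one_pos, by simp⟩

theorem Cmp.prod {ι : Type*} {l : Filter ℂ} {f : ι → ℂ → ℂ} {g : ℂ → ℝ} {k : ι → ℤ}
    (s : Finset ι) (h : ∀ i ∈ s, Cmp l (f i) g (k i)) (hg : ∀ᶠ w in l, 0 < g w) :
    Cmp l (fun w => ∏ i ∈ s, f i w) g (∑ i ∈ s, k i) := by
  classical
  induction s using Finset.induction_on with
  | empty => simpa using Cmp.one
  | insert a s ha ih =>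
    simp only [Finset.prod_insert ha, Finset.sum_insert ha]
    exact (h a (Finset.mem_insert_self _ _)).mul
      (ih fun i hi => h i (Finset.mem_insert_of_mem hi)) hg

theorem Cmp.pow {l : Filter ℂ} {f : ℂ → ℂ} {g : ℂ → ℝ} {k : ℤ} (h : Cmp l f g k)
    (hg : ∀ᶠ w in l, 0 < g w) (n : ℕ) : Cmp l (fun w => f w ^ n) g (n * k) := by
  have h1 := Cmp.prod (f := fun _ : Fin n => f) (k := fun _ => k) Finset.univ (fun i _ => h) hg
  simpa using h1

/-- a function with a nonzero limit -/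
theorem Cmp.of_tendsto {l : Filter ℂ} {f : ℂ → ℂ} {g : ℂ → ℝ} {b : ℂ} (h : Tendsto f l (𝓝 b))
    (hb : b ≠ 0) : Cmp l f g 0 := by
  have hb' : 0 < ‖b‖ := norm_pos_iff.2 hb
  refine ⟨‖b‖ / 2, 2 * ‖b‖, by positivity, ?_⟩
  filter_upwards [h.norm.eventually (Ioo_mem_nhds (show ‖b‖ / 2 < ‖b‖ by linarith)
    (show ‖b‖ < 2 * ‖b‖ by linarith))] with w hw
  simp only [zpow_zero, mul_one]
  exact ⟨hw.1.le, hw.2.le⟩

theorem Cmp.zpow_self {l : Filter ℂ} {f : ℂ → ℂ} {g : ℂ → ℝ} (h : ∀ᶠ w in l, ‖f w‖ = g w)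
    (k : ℤ) : Cmp l (fun w => f w ^ k) g k := by
  refine ⟨1, 1, one_pos, ?_⟩
  filter_upwards [h] with w hw
  rw [norm_zpow, hw, one_mul]
  exact ⟨le_rfl, le_rfl⟩

theorem pos_near (c : ℂ) : ∀ᶠ w in 𝓝[≠] c, 0 < ‖w - c‖ := by
  filter_upwards [self_mem_nhdsWithin] with w hw
  exact norm_pos_iff.2 (sub_ne_zero.2 hw)

theorem pos_inf : ∀ᶠ w : ℂ in cobounded ℂ, 0 < ‖w‖ := by
  filter_upwards [tendsto_norm_cobounded_atTop.eventually_gt_atTop 0] with w hw using hw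

/-- `|w - c| ≍ |w|` at infinity -/
theorem cmp_inf_sub (c : ℂ) : Cmp (cobounded ℂ) (fun w => w - c) (fun w => ‖w‖) 1 := by
  refine ⟨1 / 2, 2, by norm_num, ?_⟩
  filter_upwards [tendsto_norm_cobounded_atTop.eventually_gt_atTop (2 * ‖c‖ + 1)] with w hw
  have h1 : ‖w‖ - ‖c‖ ≤ ‖w - c‖ := norm_sub_norm_le _ _
  have h2 : ‖w - c‖ ≤ ‖w‖ + ‖c‖ := norm_sub_le _ _
  have h3 := norm_nonneg c
  rw [zpow_one]
  constructor <;> linarith

theorem Cmp.inv {l : Filter ℂ} {f : ℂ → ℂ} {g : ℂ → ℝ} {k : ℤ} (h : Cmp l f g k)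
    (hg : ∀ᶠ w in l, 0 < g w) : Cmp l (fun w => (f w)⁻¹) g (-k) := by
  obtain ⟨a, A, ha, h⟩ := h
  refine ⟨(|A| + 1)⁻¹, a⁻¹, by positivity, ?_⟩
  filter_upwards [h, hg] with w h1 h2
  have h4 : 0 < g w ^ k := zpow_pos h2 _
  have h5 : 0 < ‖f w‖ := lt_of_lt_of_le (by positivity) h1.1
  rw [norm_inv, zpow_neg, ← mul_inv, ← mul_inv]
  constructor
  · refine inv_anti₀ h5 (h1.2.trans ?_)
    refine mul_le_mul_of_nonneg_right ?_ h4.le
    linarith [le_abs_self A]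
  · exact inv_anti₀ (by positivity) h1.1

theorem Cmp.zpow {l : Filter ℂ} {f : ℂ → ℂ} {g : ℂ → ℝ} {k : ℤ} (h : Cmp l f g k)
    (hg : ∀ᶠ w in l, 0 < g w) (n : ℤ) : Cmp l (fun w => f w ^ n) g (n * k) := by
  obtain ⟨m, rfl | rfl⟩ := n.eq_nat_or_neg
  · simpa using h.pow hg m
  · have h1 := (h.pow hg m).inv hg
    simpa using h1

/-- **the rational function lemma** -/
theorem rational {S : Finset ℂ} {N : ℂ → ℂ} (hN : DifferentiableOn ℂ N (S : Set ℂ)ᶜ)
    {k : ℂ → ℤ} (hk : ∀ c ∈ S, Cmp (𝓝[≠] c) N (fun w => ‖w - c‖) (k c)) {M : ℤ}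
    (hM : Cmp (cobounded ℂ) N (fun w => ‖w‖) (-M)) :
    ∑ c ∈ S, k c + M ≤ 0 ∧ (∑ c ∈ S, k c + M = 0 → ∀ w ∉ S, N w ≠ 0) := by
  classical
  set F : ℂ → ℂ := fun w => N w * ∏ c ∈ S, (w - c) ^ (- k c) with hF
  have hFd : DifferentiableOn ℂ F (S : Set ℂ)ᶜ := by
    intro w hw
    refine (hN w hw).mul ?_
    refine DifferentiableWithinAt.fun_finsetProd fun c hc => ?_
    have h1 : w - c ≠ 0 := sub_ne_zero.2 fun h => hw (h ▸ hc)
    exact (((differentiableAt_id.sub_const c).zpow (Or.inl h1))).differentiableWithinAt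
  have hFb : ∀ c ∈ S, Cmp (𝓝[≠] c) F (fun w => ‖w - c‖) 0 := by
    intro c hc
    have h1 : Cmp (𝓝[≠] c) (fun w => ∏ c' ∈ S.erase c, (w - c') ^ (- k c')) (fun w => ‖w - c‖) 0 := by
      have h2 : Tendsto (fun w => ∏ c' ∈ S.erase c, (w - c') ^ (- k c')) (𝓝[≠] c)
          (𝓝 (∏ c' ∈ S.erase c, (c - c') ^ (- k c'))) := by
        refine tendsto_finsetProd _ fun c' hc' => ?_
        have h3 : c - c' ≠ 0 := sub_ne_zero.2 (Finset.ne_of_mem_erase hc').symm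
        have h4 : ContinuousAt (fun w : ℂ => (w - c') ^ (- k c')) c :=
          (continuousAt_id.sub continuousAt_const).zpow₀ _ (Or.inl h3)
        exact h4.tendsto.mono_left nhdsWithin_le_nhds
      refine Cmp.of_tendsto h2 ?_
      rw [Finset.prod_ne_zero_iff]
      intro c' hc'
      exact zpow_ne_zero _ (sub_ne_zero.2 (Finset.ne_of_mem_erase hc').symm)
    have h2 : Cmp (𝓝[≠] c) (fun w => (w - c) ^ (- k c)) (fun w => ‖w - c‖) (- k c) :=
      Cmp.zpow_self (Eventually.of_forall fun w => rfl) _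
    have h3 := ((hk c hc).mul (h2.mul h1 (pos_near c)) (pos_near c))
    have h4 : F = fun w => N w * ((w - c) ^ (- k c) * ∏ c' ∈ S.erase c, (w - c') ^ (- k c')) := by
      funext w
      rw [hF, Finset.mul_prod_erase S (fun c' => (w - c') ^ (- k c')) hc]
    rw [h4]
    simpa using h3
  obtain ⟨E, hE, hEF⟩ := exists_entire hFd fun c hc => by
    obtain ⟨a, A, -, h⟩ := hFb c hc
    refine ⟨A, ?_⟩
    filter_upwards [h] with w hw
    simpa using hw.2
  have hSinf : ∀ᶠ w : ℂ in cobounded ℂ, w ∉ S := by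
    have h0 : IsBounded (S : Set ℂ) := S.finite_toSet.isBounded
    have h1 : (S : Set ℂ)ᶜ ∈ cobounded ℂ := Bornology.isBounded_def.1 h0
    filter_upwards [h1] with w hw using hw
  have hEinf : Cmp (cobounded ℂ) E (fun w => ‖w‖) (-M - ∑ c ∈ S, k c) := by
    have h1 : Cmp (cobounded ℂ) F (fun w => ‖w‖) (-M + ∑ c ∈ S, (- k c * 1)) :=
      hM.mul (Cmp.prod S (fun c _ => (cmp_inf_sub c).zpow pos_inf (- k c)) pos_inf) pos_inf
    obtain ⟨a, A, ha, h⟩ := h1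
    refine ⟨a, A, ha, ?_⟩
    filter_upwards [h, hSinf] with w hw hS
    rw [hEF w hS]
    have e1 : -M + ∑ c ∈ S, (- k c * 1) = -M - ∑ c ∈ S, k c := by
      simp [sub_eq_add_neg]
    rw [e1] at hw
    exact hw
  obtain ⟨a, A, ha, hbd⟩ := hEinf
  set κ : ℤ := -M - ∑ c ∈ S, k c with hκ
  have hle1 : ∀ᶠ w : ℂ in cobounded ℂ, 1 ≤ ‖w‖ :=
    tendsto_norm_cobounded_atTop.eventually_ge_atTop 1
  -- if `κ ≤ 0` then `E` is a nonzero constant
  have key : κ ≤ 0 → ∃ b : ℂ, b ≠ 0 ∧ ∀ w, E w = b := by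
    intro hκ0
    have hbd2 : ∀ᶠ w in cobounded ℂ, ‖E w‖ ≤ |A| := by
      filter_upwards [hbd, hle1] with w h1 h2
      have h3 : (‖w‖ : ℝ) ^ κ ≤ 1 := zpow_le_one_of_nonpos₀ h2 hκ0
      have h4 : 0 ≤ (‖w‖ : ℝ) ^ κ := zpow_nonneg (norm_nonneg _) _
      calc ‖E w‖ ≤ A * ‖w‖ ^ κ := h1.2
        _ ≤ |A| * ‖w‖ ^ κ := mul_le_mul_of_nonneg_right (le_abs_self A) h4
        _ ≤ |A| * 1 := mul_le_mul_of_nonneg_left h3 (abs_nonneg A)
        _ = |A| := mul_one _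
    have hbdd : IsBounded (range E) := by
      rw [Metric.cobounded_eq_cocompact] at hbd2
      obtain ⟨K, hK, hKs⟩ := mem_cocompact.1 hbd2
      have h1 : IsBounded (E '' K) := (hK.image hE.continuous).isBounded
      refine (h1.union (Metric.isBounded_closedBall (x := (0 : ℂ)) (r := |A|))).subset ?_
      rintro _ ⟨w, rfl⟩
      by_cases hw : w ∈ K
      · exact Or.inl ⟨w, hw, rfl⟩
      · exact Or.inr (by simpa using hKs hw)
    have hconst : ∀ w, E w = E 0 := fun w => hE.apply_eq_apply_of_bounded hbdd w 0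
    refine ⟨E 0, ?_, hconst⟩
    intro h0
    obtain ⟨w, hw1, hw2⟩ := (hbd.and pos_inf).exists
    have h3 : 0 < a * ‖w‖ ^ κ := mul_pos ha (zpow_pos hw2 _)
    have h4 := hw1.1
    rw [hconst w, h0, norm_zero] at h4
    linarith
  have hκ0 : 0 ≤ κ := by
    by_contra hneg
    push Not at hneg
    obtain ⟨b, hb, hconst⟩ := key hneg.le
    have h1 : Tendsto (fun w : ℂ => A * ‖w‖ ^ κ) (cobounded ℂ) (𝓝 (A * 0)) := by
      refine Tendsto.const_mul _ ?_
      exact (tendsto_zpow_atTop_zero hneg).comp tendsto_norm_cobounded_atTop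
    rw [mul_zero] at h1
    have h2 : ‖b‖ ≤ 0 := by
      refine ge_of_tendsto h1 ?_
      filter_upwards [hbd] with w hw
      rw [← hconst w]
      exact hw.2
    exact hb (norm_le_zero_iff.1 h2)
  refine ⟨by omega, fun h0 w hw hNw => ?_⟩
  obtain ⟨b, hb, hconst⟩ := key (by omega)
  apply hb
  rw [← hconst w, hEF w hw, hF]
  simp [hNw]

end Crest.Agent.R257.Deg_578
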