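import Crest.Agent.R257.Deg1_578

/-!
# Row 257, leaf C-DEG (helper578), part 2: the degree formula on a finite covering of `ℂ ∖ S`

Real exponents.  `cover` : per point enumeration of the fibre near the punctures;
`cover_param` : the sheets over a punctured neighbourhood are parametrised by `w = c + β^l`
(resp. `w = β^(-l)` at infinity).
-/

set_option autoImplicit false
set_option linter.unusedSectionVars false

open Set Filter Topology Complex Bornology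

noncomputable section

namespace Crest.Agent.R257.Deg_578

/-- two-sided comparison with a real power -/
def CmpR (l : Filter ℂ) (f : ℂ → ℂ) (g : ℂ → ℝ) (m : ℝ) : Prop :=
  ∃ a A : ℝ, 0 < a ∧ ∀ᶠ w in l, a * g w ^ m ≤ ‖f w‖ ∧ ‖f w‖ ≤ A * g w ^ m

theorem CmpR.toInt {l : Filter ℂ} {f : ℂ → ℂ} {g : ℂ → ℝ} {k : ℤ} (h : CmpR l f g k) :
    Cmp l f g k := by
  obtain ⟨a, A, ha, h⟩ := h
  refine ⟨a, A, ha, ?_⟩
  filter_upwards [h] with w hw
  rwa [Real.rpow_intCast] at hw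

/-- **the exponent at an isolated singularity is an integer** -/
theorem int_of_cmp {N : ℂ → ℂ} {c : ℂ} (hN : ∀ᶠ w in 𝓝[≠] c, DifferentiableAt ℂ N w) {m : ℝ}
    (h : CmpR (𝓝[≠] c) N (fun w => ‖w - c‖) m) : ∃ k : ℤ, m = k := by
  obtain ⟨a, A, ha, hb⟩ := h
  have hA : 0 < A := by
    obtain ⟨w, hw, hw2⟩ := (hb.and (pos_near c)).exists
    have h1 : 0 < ‖w - c‖ ^ m := Real.rpow_pos_of_pos hw2 _
    have h2 : 0 < A * ‖w - c‖ ^ m := lt_of_lt_of_le (mul_pos ha h1) (hw.1.trans hw.2)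
    exact (pos_iff_pos_of_mul_pos h2).2 h1
  -- multiply by a high power to get a bounded function
  obtain ⟨K, hK⟩ : ∃ K : ℕ, 0 ≤ K + m := by
    obtain ⟨K, hK⟩ := exists_nat_ge (-m)
    exact ⟨K, by linarith⟩
  set F : ℂ → ℂ := fun w => (w - c) ^ K * N w with hF
  have hsmall : ∀ᶠ w in 𝓝[≠] c, ‖w - c‖ < 1 := by
    have : ∀ᶠ w in 𝓝 c, ‖w - c‖ < 1 := by
      filter_upwards [Metric.ball_mem_nhds c one_pos] with w hw
      rwa [Metric.mem_ball, dist_eq_norm] at hw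
    exact this.filter_mono nhdsWithin_le_nhds
  have hFb : ∀ᶠ w in 𝓝[≠] c, ‖F w‖ = ‖w - c‖ ^ (K : ℝ) * ‖N w‖ := by
    filter_upwards with w
    rw [hF, norm_mul, norm_pow, Real.rpow_natCast]
  have hFu : ∀ᶠ w in 𝓝[≠] c, ‖F w‖ ≤ A := by
    filter_upwards [hFb, hb, hsmall, pos_near c] with w h1 h2 h3 h4
    rw [h1]
    calc ‖w - c‖ ^ (K : ℝ) * ‖N w‖ ≤ ‖w - c‖ ^ (K : ℝ) * (A * ‖w - c‖ ^ m) :=
          mul_le_mul_of_nonneg_left h2.2 (Real.rpow_nonneg h4.le _)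
      _ = A * ‖w - c‖ ^ ((K : ℝ) + m) := by rw [Real.rpow_add h4]; ring
      _ ≤ A * 1 := mul_le_mul_of_nonneg_left (Real.rpow_le_one h4.le h3.le hK) hA.le
      _ = A := mul_one A
  have hFd : ∀ᶠ w in 𝓝[≠] c, DifferentiableAt ℂ F w := by
    filter_upwards [hN] with w hw
    exact ((differentiableAt_id.sub_const c).pow K).mul hw
  -- removable singularity
  rw [eventually_nhdsWithin_iff] at hFd hFu
  obtain ⟨ε, hε, hsub⟩ := Metric.mem_nhds_iff.1 (Filter.inter_mem hFd hFu)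
  have hd : DifferentiableOn ℂ F (Metric.ball c ε \ {c}) := fun y hy =>
    ((hsub hy.1).1 hy.2).differentiableWithinAt
  have hbd : BddAbove (norm ∘ F '' (Metric.ball c ε \ {c})) := by
    refine ⟨A, ?_⟩
    rintro _ ⟨y, hy, rfl⟩
    exact (hsub hy.1).2 hy.2
  have h5 := Complex.differentiableOn_update_limUnder_of_bddAbove (Metric.ball_mem_nhds c hε) hd hbd
  set H := Function.update F c (limUnder (𝓝[≠] c) F) with hH
  have hHan : AnalyticAt ℂ H c := h5.analyticAt (Metric.ball_mem_nhds c hε)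
  have hHF : ∀ᶠ w in 𝓝[≠] c, H w = F w := by
    filter_upwards [self_mem_nhdsWithin] with w hw
    exact Function.update_of_ne hw _ _
  have hne : analyticOrderAt H c ≠ ⊤ := by
    intro htop
    rw [analyticOrderAt_eq_top] at htop
    have h6 : ∀ᶠ w in 𝓝[≠] c, H w = 0 := htop.filter_mono nhdsWithin_le_nhds
    obtain ⟨w, ⟨⟨hw1, hw2⟩, hw3⟩, hw4⟩ := (((hHF.and h6).and hb).and (pos_near c)).exists
    have h7 : F w = 0 := by rw [← hw1, hw2]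
    have h8 : N w = 0 := by
      rw [hF] at h7
      rcases mul_eq_zero.1 h7 with h9 | h9
      · exfalso
        have h11 : ‖(w - c) ^ K‖ = 0 := by rw [h9, norm_zero]
        rw [norm_pow] at h11
        exact (pow_pos hw4 K).ne' h11
      · exact h9
    have h9 : 0 < a * ‖w - c‖ ^ m := mul_pos ha (Real.rpow_pos_of_pos hw4 _)
    have h10 := hw3.1
    rw [h8, norm_zero] at h10
    linarith
  obtain ⟨p, hp⟩ : ∃ p : ℕ, analyticOrderAt H c = p := ⟨(analyticOrderAt H c).toNat,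
    (ENat.natCast_toNat hne).symm⟩
  obtain ⟨u, hu, hu0, hfac⟩ := (hHan.analyticOrderAt_eq_natCast).1 hp
  refine ⟨(p : ℤ) - K, ?_⟩
  -- compare exponents
  have hut : Tendsto (fun w => ‖u w‖) (𝓝[≠] c) (𝓝 ‖u c‖) :=
    (hu.continuousAt.norm.tendsto).mono_left nhdsWithin_le_nhds
  have hu0' : 0 < ‖u c‖ := norm_pos_iff.2 hu0
  have hub : ∀ᶠ w in 𝓝[≠] c, ‖u c‖ / 2 < ‖u w‖ ∧ ‖u w‖ < 2 * ‖u c‖ :=
    hut.eventually (Ioo_mem_nhds (by linarith) (by linarith))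
  have hrel : ∀ᶠ w in 𝓝[≠] c, ‖w - c‖ ^ (K : ℝ) * ‖N w‖ = ‖w - c‖ ^ (p : ℝ) * ‖u w‖ := by
    filter_upwards [hFb, hHF, hfac.filter_mono nhdsWithin_le_nhds] with w h1 h2 h3
    rw [← h1, ← h2, h3, smul_eq_mul, norm_mul, norm_pow, Real.rpow_natCast]
  set s : ℝ := K + m - p with hs
  have h6 : ∀ᶠ w in 𝓝[≠] c, a * ‖w - c‖ ^ s ≤ 2 * ‖u c‖ ∧ ‖u c‖ / 2 ≤ A * ‖w - c‖ ^ s := by
    filter_upwards [hrel, hub, hb, pos_near c] with w h1 h2 h3 h4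
    have h7 : ‖u w‖ = ‖w - c‖ ^ ((K : ℝ) - p) * ‖N w‖ := by
      rw [Real.rpow_sub h4, div_mul_eq_mul_div, h1, mul_div_assoc, mul_comm]
      rw [div_mul_cancel₀ _ (Real.rpow_pos_of_pos h4 _).ne']
    have h8 : ‖w - c‖ ^ s = ‖w - c‖ ^ ((K : ℝ) - p) * ‖w - c‖ ^ m := by
      rw [← Real.rpow_add h4]; congr 1; rw [hs]; ring
    have h9 : 0 < ‖w - c‖ ^ ((K : ℝ) - p) := Real.rpow_pos_of_pos h4 _
    constructor
    · calc a * ‖w - c‖ ^ s = ‖w - c‖ ^ ((K : ℝ) - p) * (a * ‖w - c‖ ^ m) := by rw [h8]; ring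
        _ ≤ ‖w - c‖ ^ ((K : ℝ) - p) * ‖N w‖ := mul_le_mul_of_nonneg_left h3.1 h9.le
        _ = ‖u w‖ := h7.symm
        _ ≤ _ := h2.2.le
    · calc ‖u c‖ / 2 ≤ ‖u w‖ := h2.1.le
        _ = ‖w - c‖ ^ ((K : ℝ) - p) * ‖N w‖ := h7
        _ ≤ ‖w - c‖ ^ ((K : ℝ) - p) * (A * ‖w - c‖ ^ m) := mul_le_mul_of_nonneg_left h3.2 h9.le
        _ = A * ‖w - c‖ ^ s := by rw [h8]; ring
  have htz : Tendsto (fun w : ℂ => ‖w - c‖) (𝓝[≠] c) (𝓝[>] 0) := by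
    refine tendsto_nhdsWithin_iff.2 ⟨?_, pos_near c⟩
    have h7 : Tendsto (fun w : ℂ => ‖w - c‖) (𝓝 c) (𝓝 ‖c - c‖) :=
      (continuous_id.sub continuous_const).norm.tendsto c
    rw [sub_self, norm_zero] at h7
    exact h7.mono_left nhdsWithin_le_nhds
  have hs0 : s = 0 := by
    rcases lt_trichotomy s 0 with hneg | h0 | hpos
    · exfalso
      have h7 : Tendsto (fun w : ℂ => a * ‖w - c‖ ^ s) (𝓝[≠] c) atTop :=
        ((tendsto_rpow_neg_nhdsGT_zero hneg).comp htz).const_mul_atTop ha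
      obtain ⟨w, hw1, hw2⟩ := ((h7.eventually_gt_atTop (2 * ‖u c‖)).and h6).exists
      linarith [hw2.1]
    · exact h0
    · exfalso
      have h7 : Tendsto (fun w : ℂ => A * ‖w - c‖ ^ s) (𝓝[≠] c) (𝓝 (A * 0)) := by
        refine Tendsto.const_mul _ ?_
        have h8 : Tendsto (fun x : ℝ => x ^ s) (𝓝[>] 0) (𝓝 0) := by
          have h9 := (Real.continuousAt_rpow_const (0 : ℝ) s (Or.inr hpos.le)).tendsto
          rw [Real.zero_rpow hpos.ne'] at h9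
          exact h9.mono_left nhdsWithin_le_nhds
        exact h8.comp htz
      rw [mul_zero] at h7
      obtain ⟨w, hw1, hw2⟩ := ((h7.eventually_lt_const (show 0 < ‖u c‖ / 2 by positivity)).and
        h6).exists
      linarith [hw2.2]
  have : m = (p : ℝ) - K := by rw [hs] at hs0; linarith
  rw [this]
  push_cast
  ring

theorem inv_tendsto : Tendsto (fun w : ℂ => w⁻¹) (𝓝[≠] 0) (cobounded ℂ) :=
  tendsto_inv₀_nhdsNE_zero

/-- **the rational function lemma, real exponents** -/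
theorem rationalR {S : Finset ℂ} {N : ℂ → ℂ} (hN : DifferentiableOn ℂ N (S : Set ℂ)ᶜ)
    {k : ℂ → ℝ} (hk : ∀ c ∈ S, CmpR (𝓝[≠] c) N (fun w => ‖w - c‖) (k c)) {M : ℝ}
    (hM : CmpR (cobounded ℂ) N (fun w => ‖w‖) (-M)) :
    ∑ c ∈ S, k c + M ≤ 0 ∧ (∑ c ∈ S, k c + M = 0 → ∀ w ∉ S, N w ≠ 0) := by
  classical
  have hfin : (S : Set ℂ).Finite := S.finite_toSet
  have hNat : ∀ w ∉ S, DifferentiableAt ℂ N w := fun w hw =>
    (hN w hw).differentiableAt (hfin.isClosed.isOpen_compl.mem_nhds hw)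
  have h1 : ∀ c ∈ S, ∃ z : ℤ, k c = z := by
    intro c hc
    refine int_of_cmp ?_ (hk c hc)
    have h2 : ((S : Set ℂ) \ {c})ᶜ ∈ 𝓝 c := (hfin.sdiff).isClosed.isOpen_compl.mem_nhds (by simp)
    filter_upwards [mem_nhdsWithin_of_mem_nhds h2, self_mem_nhdsWithin] with w hw1 hw2
    exact hNat w fun h3 => hw1 ⟨h3, hw2⟩
  have hSinf : ∀ᶠ w : ℂ in cobounded ℂ, w ∉ S := by
    have h0 : IsBounded (S : Set ℂ) := hfin.isBounded
    have h1 : (S : Set ℂ)ᶜ ∈ cobounded ℂ := Bornology.isBounded_def.1 h0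
    filter_upwards [h1] with w hw using hw
  have h2 : ∃ z : ℤ, M = z := by
    refine int_of_cmp (N := fun w => N w⁻¹) (c := 0) ?_ ?_
    · filter_upwards [inv_tendsto.eventually hSinf, self_mem_nhdsWithin] with w hw hw0
      exact (hNat _ hw).comp w (differentiableAt_inv hw0)
    · obtain ⟨a, A, ha, h⟩ := hM
      refine ⟨a, A, ha, ?_⟩
      filter_upwards [inv_tendsto.eventually h, self_mem_nhdsWithin] with w hw hw0
      have h3 : ‖w⁻¹‖ ^ (-M) = ‖w - 0‖ ^ M := by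
        rw [norm_inv, sub_zero, Real.inv_rpow (norm_nonneg _), Real.rpow_neg (norm_nonneg _),
          inv_inv]
      rw [← h3]
      exact hw
  choose! k' hk' using h1
  obtain ⟨M', rfl⟩ := h2
  have h3 := rational hN (k := k') (fun c hc => by
    have := hk c hc
    rw [hk' c hc] at this
    exact this.toInt) (M := M') (by
    have h4 : CmpR (cobounded ℂ) N (fun w => ‖w‖) ((-M' : ℤ) : ℝ) := by
      push_cast
      exact hM
    exact h4.toInt)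
  have h4 : ∑ c ∈ S, k c = ((∑ c ∈ S, k' c : ℤ) : ℝ) := by
    push_cast
    exact Finset.sum_congr rfl fun c hc => hk' c hc
  rw [h4]
  refine ⟨by exact_mod_cast h3.1, fun h5 => h3.2 (by exact_mod_cast h5)⟩

/-! ### coverings -/

variable {Z : Type*}

/-- enumeration of a fibre together with two-sided bounds -/
def EnumAt {J : Type*} (fib : ℂ → Set Z) (G : ℂ → Z → ℂ) (g : ℂ → ℝ) (e : J → ℝ) (a A : ℝ)
    (w : ℂ) : Prop :=
  ∃ z : J → Z, Function.Injective z ∧ (∀ x, x ∈ fib w ↔ ∃ j, z j = x) ∧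
    ∀ j, a * g w ^ e j ≤ ‖G w (z j)‖ ∧ ‖G w (z j)‖ ≤ A * g w ^ e j

/-- the norm over the fibre -/
def nrm (fib : ℂ → Set Z) (G : ℂ → Z → ℂ) (w : ℂ) : ℂ := ∏ᶠ z ∈ fib w, G w z

theorem nrm_eq {J : Type*} [Fintype J] {fib : ℂ → Set Z} {G : ℂ → Z → ℂ} {w : ℂ} {z : J → Z}
    (hz : Function.Injective z) (hf : ∀ x, x ∈ fib w ↔ ∃ j, z j = x) :
    nrm fib G w = ∏ j, G w (z j) := by
  have h1 : fib w = range z := by
    ext x
    rw [hf]
    rfl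
  rw [nrm, h1, finprod_mem_range hz, finprod_eq_prod_of_fintype]

theorem nrm_bounds {J : Type*} [Fintype J] {fib : ℂ → Set Z} {G : ℂ → Z → ℂ} {g : ℂ → ℝ}
    {e : J → ℝ} {a A : ℝ} {w : ℂ} (h : EnumAt fib G g e a A w) (ha : 0 < a) (hg : 0 < g w) :
    a ^ Fintype.card J * g w ^ (∑ j, e j) ≤ ‖nrm fib G w‖ ∧
      ‖nrm fib G w‖ ≤ A ^ Fintype.card J * g w ^ (∑ j, e j) := by
  obtain ⟨z, hz, hf, hb⟩ := h
  rw [nrm_eq hz hf, norm_prod, Real.rpow_sum_of_pos hg]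
  have h1 : ∀ c : ℝ, c ^ Fintype.card J * ∏ j, g w ^ e j = ∏ j, (c * g w ^ e j) := by
    intro c
    rw [Finset.prod_mul_distrib, Finset.prod_const, Finset.card_univ]
  rw [h1, h1]
  constructor
  · exact Finset.prod_le_prod (fun j _ => mul_nonneg ha.le (Real.rpow_nonneg hg.le _))
      fun j _ => (hb j).1
  · exact Finset.prod_le_prod (fun j _ => norm_nonneg _) fun j _ => (hb j).2

/-- **degree formula on a finite covering of `ℂ ∖ S`** -/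
theorem cover {S : Finset ℂ} {fib : ℂ → Set Z} {G : ℂ → Z → ℂ}
    (hloc : ∀ w₀ ∉ S, ∃ (J : Type) (_ : Fintype J) (ζ : J → ℂ → Z),
      (∀ᶠ w in 𝓝 w₀, Function.Injective (fun j => ζ j w) ∧ ∀ x, x ∈ fib w ↔ ∃ j, ζ j w = x) ∧
      ∀ j, DifferentiableAt ℂ (fun w => G w (ζ j w)) w₀)
    {J : ℂ → Type} [∀ c, Fintype (J c)] {e : ∀ c, J c → ℝ}
    (hS : ∀ c ∈ S, ∃ a A : ℝ, 0 < a ∧
      ∀ᶠ w in 𝓝[≠] c, EnumAt fib G (fun w => ‖w - c‖) (e c) a A w)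
    {J' : Type} [Fintype J'] {e' : J' → ℝ}
    (hinf : ∃ a A : ℝ, 0 < a ∧
      ∀ᶠ w in cobounded ℂ, EnumAt fib G (fun w => ‖w‖) (fun j => - e' j) a A w) :
    ∑ c ∈ S, ∑ j, e c j + ∑ j, e' j ≤ 0 ∧
      (∑ c ∈ S, ∑ j, e c j + ∑ j, e' j = 0 → ∀ w ∉ S, ∀ z ∈ fib w, G w z ≠ 0) := by
  classical
  have hN : DifferentiableOn ℂ (nrm fib G) (S : Set ℂ)ᶜ := by
    intro w₀ hw₀
    obtain ⟨J, hJ, ζ, hζ, hd⟩ := hloc w₀ hw₀
    have h1 : nrm fib G =ᶠ[𝓝 w₀] fun w => ∏ j, G w (ζ j w) := by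
      filter_upwards [hζ] with w hw
      exact nrm_eq hw.1 hw.2
    have h2 : DifferentiableAt ℂ (fun w => ∏ j, G w (ζ j w)) w₀ :=
      DifferentiableAt.fun_finsetProd fun j _ => hd j
    exact (h2.congr_of_eventuallyEq h1).differentiableWithinAt
  have h1 := rationalR hN (k := fun c => ∑ j, e c j) (fun c hc => by
    obtain ⟨a, A, ha, h⟩ := hS c hc
    refine ⟨a ^ Fintype.card (J c), A ^ Fintype.card (J c), by positivity, ?_⟩
    filter_upwards [h, pos_near c] with w hw hw0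
    exact nrm_bounds hw ha hw0) (M := ∑ j, e' j) (by
    obtain ⟨a, A, ha, h⟩ := hinf
    refine ⟨a ^ Fintype.card J', A ^ Fintype.card J', by positivity, ?_⟩
    filter_upwards [h, pos_inf] with w hw hw0
    have h2 := nrm_bounds hw ha hw0
    rwa [Finset.sum_neg_distrib] at h2)
  refine ⟨h1.1, fun h2 w hw z hz hGz => ?_⟩
  obtain ⟨J, hJ, ζ, hζ, hd⟩ := hloc w hw
  have h3 := hζ.self_of_nhds
  apply h1.2 h2 w hw
  rw [nrm_eq h3.1 h3.2]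
  obtain ⟨j, hj⟩ := (h3.2 z).1 hz
  exact Finset.prod_eq_zero (Finset.mem_univ j) (by simp only [hj, hGz])

/-- sheets over a punctured neighbourhood, parametrised by `w = φ β`, `‖β‖ ^ l = g (φ β)` -/
def Sheets {J : Type*} (fib : ℂ → Set Z) (G : ℂ → Z → ℂ) (φ : ℂ → ℂ) (ζ : J → ℂ → Z)
    (e : J → ℤ) : Prop :=
  (∀ᶠ β in 𝓝[≠] (0 : ℂ), Function.Injective (fun j => ζ j β) ∧
      ∀ x, x ∈ fib (φ β) ↔ ∃ j, ζ j β = x) ∧
    ∀ j, ∃ a A : ℝ, 0 < a ∧ ∀ᶠ β in 𝓝[≠] (0 : ℂ),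
      a * ‖β‖ ^ e j ≤ ‖G (φ β) (ζ j β)‖ ∧ ‖G (φ β) (ζ j β)‖ ≤ A * ‖β‖ ^ e j

theorem Sheets.enum {J : Type*} [Fintype J] {fib : ℂ → Set Z} {G : ℂ → Z → ℂ} {φ : ℂ → ℂ}
    {ζ : J → ℂ → Z} {e : J → ℤ} (h : Sheets fib G φ ζ e) :
    ∃ a A : ℝ, 0 < a ∧ ∃ r : ℝ, 0 < r ∧ ∀ β : ℂ, β ≠ 0 → ‖β‖ < r →
      ∀ (g : ℂ → ℝ) (s : ℝ), 0 ≤ g (φ β) → (‖β‖ = g (φ β) ^ s) →
        EnumAt fib G g (fun j => s * e j) a A (φ β) := by
  obtain ⟨h1, h2⟩ := h
  choose a A ha h2 using h2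
  have h3 := h1.and (Filter.eventually_all.2 h2)
  rw [eventually_nhdsWithin_iff] at h3
  obtain ⟨r, hr, hsub⟩ := Metric.eventually_nhds_iff_ball.1 h3
  obtain ⟨a₀, ha₀, ha₀'⟩ : ∃ a₀ > 0, ∀ j, a₀ ≤ a j := by
    rcases isEmpty_or_nonempty J with hJ | hJ
    · exact ⟨1, one_pos, fun j => (hJ.false j).elim⟩
    · obtain ⟨j₀, -, hj₀⟩ := Finset.univ.exists_min_image a ⟨Classical.arbitrary J, Finset.mem_univ _⟩
      exact ⟨a j₀, ha j₀, fun j => hj₀ j (Finset.mem_univ _)⟩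
  have hA₀ : ∀ j, A j ≤ ∑ j, |A j| := fun j =>
    (le_abs_self _).trans (Finset.single_le_sum (f := fun j => |A j|)
      (fun j _ => abs_nonneg _) (Finset.mem_univ j))
  refine ⟨a₀, ∑ j, |A j|, ha₀, r, hr, fun β hβ hβr g s hg hs => ?_⟩
  obtain ⟨h4, h5⟩ := hsub β (by simpa using hβr) hβ
  refine ⟨fun j => ζ j β, h4.1, h4.2, fun j => ?_⟩
  have h6 : g (φ β) ^ (s * e j) = ‖β‖ ^ e j := by
    rw [hs, Real.rpow_mul hg, Real.rpow_intCast]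
  rw [h6]
  have h7 : 0 ≤ ‖β‖ ^ e j := zpow_nonneg (norm_nonneg _) _
  exact ⟨(mul_le_mul_of_nonneg_right (ha₀' j) h7).trans (h5 j).1,
    (h5 j).2.trans (mul_le_mul_of_nonneg_right (hA₀ j) h7)⟩

/-- sheets at a finite puncture, `w = c + β ^ l` -/
theorem Sheets.near {J : Type*} [Fintype J] {fib : ℂ → Set Z} {G : ℂ → Z → ℂ} {c : ℂ} {l : ℕ}
    (hl : 0 < l) {ζ : J → ℂ → Z} {e : J → ℤ} (h : Sheets fib G (fun β => c + β ^ l) ζ e) :
    ∃ a A : ℝ, 0 < a ∧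
      ∀ᶠ w in 𝓝[≠] c, EnumAt fib G (fun w => ‖w - c‖) (fun j => (e j : ℝ) / l) a A w := by
  obtain ⟨a, A, ha, r, hr, h1⟩ := h.enum
  refine ⟨a, A, ha, ?_⟩
  rw [eventually_nhdsWithin_iff]
  filter_upwards [Metric.ball_mem_nhds c (show 0 < r ^ l by positivity)] with w hw hwc
  obtain ⟨β, hβ⟩ := IsAlgClosed.exists_pow_nat_eq (w - c) hl
  have hwβ : w = c + β ^ l := by rw [hβ]; ring
  have hn : ‖β‖ ^ l = ‖w - c‖ := by rw [← norm_pow, hβ]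
  have hβ0 : β ≠ 0 := by
    rintro rfl
    rw [zero_pow hl.ne'] at hβ
    exact hwc (sub_eq_zero.1 hβ.symm)
  have hβr : ‖β‖ < r := by
    rw [Metric.mem_ball, dist_eq_norm, ← hn] at hw
    exact lt_of_pow_lt_pow_left₀ l hr.le hw
  have hlR : (l : ℝ) ≠ 0 := by exact_mod_cast hl.ne'
  have h2 := h1 β hβ0 hβr (fun w => ‖w - c‖) (1 / l) (norm_nonneg _) (by
    simp only [← hwβ]
    rw [← hn, ← Real.rpow_natCast, ← Real.rpow_mul (norm_nonneg _), mul_one_div_cancel hlR,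
      Real.rpow_one])
  rw [hwβ]
  have h3 : (fun j => (e j : ℝ) / l) = fun j => (1 / (l : ℝ)) * e j := by
    funext j
    ring
  rw [h3]
  exact h2

/-- sheets at infinity, `w = (β ^ l)⁻¹` -/
theorem Sheets.inf {J : Type*} [Fintype J] {fib : ℂ → Set Z} {G : ℂ → Z → ℂ} {l : ℕ}
    (hl : 0 < l) {ζ : J → ℂ → Z} {e : J → ℤ} (h : Sheets fib G (fun β => (β ^ l)⁻¹) ζ e) :
    ∃ a A : ℝ, 0 < a ∧
      ∀ᶠ w in cobounded ℂ, EnumAt fib G (fun w => ‖w‖) (fun j => -((e j : ℝ) / l)) a A w := by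
  obtain ⟨a, A, ha, r, hr, h1⟩ := h.enum
  refine ⟨a, A, ha, ?_⟩
  filter_upwards [tendsto_norm_cobounded_atTop.eventually_gt_atTop ((r ^ l)⁻¹)] with w hw
  have hw0 : 0 < ‖w‖ := lt_trans (by positivity) hw
  obtain ⟨β, hβ⟩ := IsAlgClosed.exists_pow_nat_eq (w⁻¹) hl
  have hwβ : w = (β ^ l)⁻¹ := by rw [hβ, inv_inv]
  have hn : ‖β‖ ^ l = ‖w‖⁻¹ := by rw [← norm_pow, hβ, norm_inv]
  have hβ0 : β ≠ 0 := by
    rintro rfl
    rw [zero_pow hl.ne'] at hβ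
    exact (norm_pos_iff.1 hw0) (inv_eq_zero.1 hβ.symm)
  have hβr : ‖β‖ < r := by
    have h2 : ‖β‖ ^ l < r ^ l := by
      rw [hn]
      exact inv_lt_of_inv_lt₀ (by positivity) hw
    exact lt_of_pow_lt_pow_left₀ l hr.le h2
  have hlR : (l : ℝ) ≠ 0 := by exact_mod_cast hl.ne'
  have h2 := h1 β hβ0 hβr (fun w => ‖w‖) (-(1 / l)) (norm_nonneg _) (by
    simp only [← hwβ]
    have h3 : ‖w‖ = (‖β‖ ^ l)⁻¹ := by rw [hn, inv_inv]
    rw [h3, Real.rpow_neg (by positivity), Real.inv_rpow (by positivity), inv_inv,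
      ← Real.rpow_natCast, ← Real.rpow_mul (norm_nonneg _), mul_one_div_cancel hlR,
      Real.rpow_one])
  rw [hwβ]
  have h3 : (fun j => -((e j : ℝ) / l)) = fun j => (-(1 / (l : ℝ))) * e j := by
    funext j
    ring
  rw [h3]
  exact h2

/-- **degree formula, parametrised sheets**: at `c ∈ S` `w = c + β ^ l c`, at infinity
`w = (β ^ l')⁻¹`, `|G| ≍ |β| ^ e` on the sheets. -/
theorem cover_param {S : Finset ℂ} {fib : ℂ → Set Z} {G : ℂ → Z → ℂ}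
    (hloc : ∀ w₀ ∉ S, ∃ (J : Type) (_ : Fintype J) (ζ : J → ℂ → Z),
      (∀ᶠ w in 𝓝 w₀, Function.Injective (fun j => ζ j w) ∧ ∀ x, x ∈ fib w ↔ ∃ j, ζ j w = x) ∧
      ∀ j, DifferentiableAt ℂ (fun w => G w (ζ j w)) w₀)
    {J : ℂ → Type} [∀ c, Fintype (J c)] {l : ℂ → ℕ} (hl : ∀ c ∈ S, 0 < l c)
    {ζ : ∀ c, J c → ℂ → Z} {e : ∀ c, J c → ℤ}
    (hS : ∀ c ∈ S, Sheets fib G (fun β => c + β ^ l c) (ζ c) (e c))
    {J' : Type} [Fintype J'] {l' : ℕ} (hl' : 0 < l') {ζ' : J' → ℂ → Z} {e' : J' → ℤ}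
    (hinf : Sheets fib G (fun β => (β ^ l')⁻¹) ζ' e') :
    ∑ c ∈ S, ∑ j, (e c j : ℝ) / l c + ∑ j, (e' j : ℝ) / l' ≤ 0 ∧
      (∑ c ∈ S, ∑ j, (e c j : ℝ) / l c + ∑ j, (e' j : ℝ) / l' = 0 →
        ∀ w ∉ S, ∀ z ∈ fib w, G w z ≠ 0) :=
  cover hloc (e := fun c j => (e c j : ℝ) / l c) (fun c hc => (hS c hc).near (hl c hc))
    (e' := fun j => (e' j : ℝ) / l') (hinf.inf hl')

end Crest.Agent.R257.Deg_578
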