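import Crest.Agent.R257.Deg2_578

/-!
# Row 257, leaf C-DEG (helper578), part 3: the degree formula with analytic leading coefficients

`cover_an` : `G` on the sheet `ζ c j` over `w = c + β^l` is `β^(v c j) * H c j β`, `H c j` analytic
at `0` and not identically `0`; then `∑ v / l ≤ 0`, and `= 0` only if `G` has no zeros and all
`H c j 0 ≠ 0`.
-/

set_option autoImplicit false
set_option linter.unusedSectionVars false

open Set Filter Topology Complex Bornology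

noncomputable section

namespace Crest.Agent.R257.Deg_578

/-- two-sided bounds for a germ of an analytic function -/
theorem bounds_of_analytic {H : ℂ → ℂ} (hH : AnalyticAt ℂ H 0) (hne : ∃ᶠ β in 𝓝 (0 : ℂ), H β ≠ 0) :
    ∃ m : ℕ, (m = 0 → H 0 ≠ 0) ∧ ∃ a A : ℝ, 0 < a ∧ ∀ᶠ β in 𝓝 (0 : ℂ),
      a * ‖β‖ ^ m ≤ ‖H β‖ ∧ ‖H β‖ ≤ A * ‖β‖ ^ m := by
  have htop : analyticOrderAt H 0 ≠ ⊤ := by
    intro h
    rw [analyticOrderAt_eq_top] at h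
    exact hne (h.mono fun β hβ h2 => h2 hβ)
  obtain ⟨m, hm⟩ : ∃ m : ℕ, analyticOrderAt H 0 = m := ⟨(analyticOrderAt H 0).toNat,
    (ENat.natCast_toNat htop).symm⟩
  obtain ⟨u, hu, hu0, hfac⟩ := (hH.analyticOrderAt_eq_natCast).1 hm
  have hu0' : 0 < ‖u 0‖ := norm_pos_iff.2 hu0
  refine ⟨m, ?_, ‖u 0‖ / 2, 2 * ‖u 0‖, by positivity, ?_⟩
  · intro h0
    have h1 := hfac.self_of_nhds
    rw [h0, pow_zero, one_smul] at h1
    rw [h1]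
    exact hu0
  · filter_upwards [hfac, hu.continuousAt.norm.tendsto.eventually
      (Ioo_mem_nhds (show ‖u 0‖ / 2 < ‖u 0‖ by linarith) (show ‖u 0‖ < 2 * ‖u 0‖ by linarith))]
      with β h1 h2
    rw [h1, sub_zero, smul_eq_mul, norm_mul, norm_pow]
    have h3 : 0 ≤ ‖β‖ ^ m := by positivity
    constructor
    · rw [mul_comm]
      exact mul_le_mul_of_nonneg_left h2.1.le h3
    · rw [mul_comm]
      exact mul_le_mul_of_nonneg_right h2.2.le h3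

variable {Z : Type*}

/-- sheets with analytic leading coefficients -/
def SheetsA {J : Type*} (fib : ℂ → Set Z) (G : ℂ → Z → ℂ) (φ : ℂ → ℂ) (ζ : J → ℂ → Z)
    (v : J → ℤ) (H : J → ℂ → ℂ) : Prop :=
  (∀ᶠ β in 𝓝[≠] (0 : ℂ), Function.Injective (fun j => ζ j β) ∧
      ∀ x, x ∈ fib (φ β) ↔ ∃ j, ζ j β = x) ∧
    ∀ j, AnalyticAt ℂ (H j) 0 ∧ (∃ᶠ β in 𝓝 (0 : ℂ), H j β ≠ 0) ∧
      ∀ᶠ β in 𝓝[≠] (0 : ℂ), G (φ β) (ζ j β) = β ^ v j * H j β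

theorem SheetsA.sheets {J : Type*} {fib : ℂ → Set Z} {G : ℂ → Z → ℂ} {φ : ℂ → ℂ} {ζ : J → ℂ → Z}
    {v : J → ℤ} {H : J → ℂ → ℂ} (h : SheetsA fib G φ ζ v H) :
    ∃ m : J → ℕ, (∀ j, m j = 0 → H j 0 ≠ 0) ∧ Sheets fib G φ ζ (fun j => v j + m j) := by
  choose m hm1 hm2 using fun j => bounds_of_analytic (h.2 j).1 (h.2 j).2.1
  refine ⟨m, hm1, h.1, fun j => ?_⟩
  obtain ⟨a, A, ha, hb⟩ := hm2 j
  refine ⟨a, A, ha, ?_⟩
  filter_upwards [(h.2 j).2.2, hb.filter_mono nhdsWithin_le_nhds, self_mem_nhdsWithin]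
    with β h1 h2 h3
  have hβ : 0 < ‖β‖ := norm_pos_iff.2 h3
  rw [h1, norm_mul, norm_zpow, zpow_add₀ hβ.ne', zpow_natCast]
  have h4 : 0 < ‖β‖ ^ v j := zpow_pos hβ _
  constructor
  · calc a * (‖β‖ ^ v j * ‖β‖ ^ m j) = ‖β‖ ^ v j * (a * ‖β‖ ^ m j) := by ring
      _ ≤ _ := mul_le_mul_of_nonneg_left h2.1 h4.le
  · calc ‖β‖ ^ v j * ‖H j β‖ ≤ ‖β‖ ^ v j * (A * ‖β‖ ^ m j) :=
        mul_le_mul_of_nonneg_left h2.2 h4.le
      _ = _ := by ring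

/-- **degree formula, analytic leading coefficients** -/
theorem cover_an {S : Finset ℂ} {fib : ℂ → Set Z} {G : ℂ → Z → ℂ}
    (hloc : ∀ w₀ ∉ S, ∃ (J : Type) (_ : Fintype J) (ζ : J → ℂ → Z),
      (∀ᶠ w in 𝓝 w₀, Function.Injective (fun j => ζ j w) ∧ ∀ x, x ∈ fib w ↔ ∃ j, ζ j w = x) ∧
      ∀ j, DifferentiableAt ℂ (fun w => G w (ζ j w)) w₀)
    {J : ℂ → Type} [∀ c, Fintype (J c)] {l : ℂ → ℕ} (hl : ∀ c ∈ S, 0 < l c)
    {ζ : ∀ c, J c → ℂ → Z} {v : ∀ c, J c → ℤ} {H : ∀ c, J c → ℂ → ℂ}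
    (hS : ∀ c ∈ S, SheetsA fib G (fun β => c + β ^ l c) (ζ c) (v c) (H c))
    {J' : Type} [Fintype J'] {l' : ℕ} (hl' : 0 < l') {ζ' : J' → ℂ → Z} {v' : J' → ℤ}
    {H' : J' → ℂ → ℂ} (hinf : SheetsA fib G (fun β => (β ^ l')⁻¹) ζ' v' H') :
    ∑ c ∈ S, ∑ j, (v c j : ℝ) / l c + ∑ j, (v' j : ℝ) / l' ≤ 0 ∧
      (∑ c ∈ S, ∑ j, (v c j : ℝ) / l c + ∑ j, (v' j : ℝ) / l' = 0 →
        (∀ w ∉ S, ∀ z ∈ fib w, G w z ≠ 0) ∧ (∀ c ∈ S, ∀ j, H c j 0 ≠ 0) ∧ ∀ j, H' j 0 ≠ 0) := by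
  classical
  have h1 : ∀ c, ∃ m : J c → ℕ, (c ∈ S → (∀ j, m j = 0 → H c j 0 ≠ 0) ∧
      Sheets fib G (fun β => c + β ^ l c) (ζ c) (fun j => v c j + m j)) := by
    intro c
    by_cases hc : c ∈ S
    · obtain ⟨m, hm1, hm2⟩ := (hS c hc).sheets
      exact ⟨m, fun _ => ⟨hm1, hm2⟩⟩
    · exact ⟨fun _ => 0, fun h => absurd h hc⟩
  choose m hm using h1
  obtain ⟨m', hm1', hm2'⟩ := hinf.sheets
  have h2 := cover_param hloc hl (fun c hc => (hm c hc).2) hl' hm2'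
  have h3 : ∑ c ∈ S, ∑ j, ((v c j + m c j : ℤ) : ℝ) / l c + ∑ j, ((v' j + m' j : ℤ) : ℝ) / l' =
      (∑ c ∈ S, ∑ j, (v c j : ℝ) / l c + ∑ j, (v' j : ℝ) / l') +
      (∑ c ∈ S, ∑ j, (m c j : ℝ) / l c + ∑ j, (m' j : ℝ) / l') := by
    have e1 : ∀ c, ∑ j, ((v c j + m c j : ℤ) : ℝ) / l c =
        ∑ j, (v c j : ℝ) / l c + ∑ j, (m c j : ℝ) / l c := by
      intro c
      rw [← Finset.sum_add_distrib]
      refine Finset.sum_congr rfl fun j _ => ?_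
      push_cast
      ring
    have e2 : ∑ j, ((v' j + m' j : ℤ) : ℝ) / l' =
        ∑ j, (v' j : ℝ) / l' + ∑ j, (m' j : ℝ) / l' := by
      rw [← Finset.sum_add_distrib]
      refine Finset.sum_congr rfl fun j _ => ?_
      push_cast
      ring
    simp_rw [e1]
    rw [e2, Finset.sum_add_distrib]
    ring
  have hA : ∀ c ∈ S, 0 ≤ ∑ j, (m c j : ℝ) / l c := fun c _ =>
    Finset.sum_nonneg fun j _ => by positivity
  have hB : 0 ≤ ∑ j, (m' j : ℝ) / l' := Finset.sum_nonneg fun j _ => by positivity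
  have hC : 0 ≤ ∑ c ∈ S, ∑ j, (m c j : ℝ) / l c := Finset.sum_nonneg hA
  rw [h3] at h2
  refine ⟨by linarith [h2.1], fun h0 => ?_⟩
  have h4 : ∑ c ∈ S, ∑ j, (m c j : ℝ) / l c = 0 := by linarith [h2.1]
  have h5 : ∑ j, (m' j : ℝ) / l' = 0 := by linarith [h2.1]
  refine ⟨h2.2 (by rw [h0, h4, h5]; ring), fun c hc j => ?_, fun j => ?_⟩
  · have h6 := (Finset.sum_eq_zero_iff_of_nonneg hA).1 h4 c hc
    have h7 := (Finset.sum_eq_zero_iff_of_nonneg fun j _ => by positivity).1 h6 j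
      (Finset.mem_univ j)
    refine (hm c hc).1 j ?_
    have hlR : (l c : ℝ) ≠ 0 := by exact_mod_cast (hl c hc).ne'
    rw [div_eq_zero_iff] at h7
    exact_mod_cast h7.resolve_right hlR
  · have h7 := (Finset.sum_eq_zero_iff_of_nonneg fun j _ => by positivity).1 h5 j
      (Finset.mem_univ j)
    refine hm1' j ?_
    have hlR : (l' : ℝ) ≠ 0 := by exact_mod_cast hl'.ne'
    rw [div_eq_zero_iff] at h7
    exact_mod_cast h7.resolve_right hlR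

end Crest.Agent.R257.Deg_578
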