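import Crest.Agent.R257.Uni2_554

/-!
R257 / DegA_822 (helper822): relative Weierstrass finiteness with several parameters, and
the relations `f (x,s) = ∑ c_j (Ψ (x,s), s) e_j x` for a finite germ `Ψ (·,0)`.
-/

set_option autoImplicit false

open Set Filter Topology
open Crest.Agent.R275.Loc2879

noncomputable section

namespace Crest.Agent.R257.DegA_822

open Crest.Agent.R257.Fin554 Crest.Agent.R257.Uni554

section Had

variable {E : Type} [NormedAddCommGroup E] [NormedSpace ℂ E]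

/-- expansion in the space variables, function form -/
lemma had_fun [FiniteDimensional ℂ E] {n : ℕ} {f : (Fin n → ℂ) × E → ℂ}
    (hf : AnalyticAt ℂ f (0, 0)) :
    ∃ (g : E → ℂ) (q : Fin n → (Fin n → ℂ) × E → ℂ), AnalyticAt ℂ g 0 ∧
      (∀ i, AnalyticAt ℂ (q i) (0, 0)) ∧
      ∀ᶠ p in 𝓝 ((0 : Fin n → ℂ), (0 : E)), f p = g p.2 + ∑ i, p.1 i * q i p := by
  obtain ⟨c, q, h⟩ := hadG (0 : E) n (gm f hf)
  obtain ⟨g, hg, rfl⟩ := exists_gm c
  choose Q hQ hQq using fun i => exists_gm (q i)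
  obtain rfl : (fun i => gm (Q i) (hQ i)) = q := funext hQq
  simp only [Xc, gm_mul, sndR_gm] at h
  obtain ⟨h', e'⟩ := gm_sum Finset.univ
    (fun (i : Fin n) => (fun p : (Fin n → ℂ) × E => p.1 i) * Q i)
    (fun i => (analyticAt_coord i _).mul (hQ i))
  rw [e', gm_add, gm_eq_gm] at h
  refine ⟨g, Q, hg, hQ, ?_⟩
  filter_upwards [h] with p hp
  rw [hp]
  rfl

/-- restriction to the zero parameter -/
def rE (n : ℕ) (E : Type) [NormedAddCommGroup E] [NormedSpace ℂ E] :
    OO (((0 : Fin n → ℂ), (0 : E))) →+* On n :=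
  pull (fun x => (x, 0)) (analyticAt_id.prod analyticAt_const) rfl

/-- functions of `x` as functions of `(x,z)` -/
def lE (n : ℕ) (E : Type) [NormedAddCommGroup E] [NormedSpace ℂ E] :
    On n →+* OO (((0 : Fin n → ℂ), (0 : E))) := pull Prod.fst analyticAt_fst rfl

@[simp] lemma rE_lE {n : ℕ} (x : On n) : rE n E (lE n E x) = x := by
  obtain ⟨f, hf, rfl⟩ := exists_gm x
  rfl

lemma rE_surj {n : ℕ} : Function.Surjective (rE n E) := fun x => ⟨lE n E x, rE_lE x⟩

@[simp] lemma rE_sndR {n : ℕ} (a : OO (0 : E)) :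
    rE n E (sndR n 0 a) = algebraMap ℂ _ (evp 0 a) := by
  obtain ⟨f, hf, rfl⟩ := exists_gm a
  rfl

/-- the kernel of the restriction is generated by the parameters -/
lemma ker_rE [FiniteDimensional ℂ E] {n : ℕ} {b : OO (((0 : Fin n → ℂ), (0 : E)))}
    (hb : rE n E b = 0) :
    b ∈ (IsLocalRing.maximalIdeal (OO (0 : E))).map (sndR n (0 : E)) := by
  obtain ⟨f, hf, rfl⟩ := exists_gm b
  rw [rE, pull_gm, gm_eq_zero] at hb
  set k := Module.finrank ℂ E with hk
  have e : E ≃L[ℂ] (Fin k → ℂ) :=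
    ContinuousLinearEquiv.ofFinrankEq (by simp [hk])
  -- swap
  have hF : AnalyticAt ℂ (fun p : (Fin k → ℂ) × (Fin n → ℂ) => f (p.2, e.symm p.1)) (0, 0) := by
    have h1 : AnalyticAt ℂ (fun p : (Fin k → ℂ) × (Fin n → ℂ) =>
        ((p.2, e.symm p.1) : (Fin n → ℂ) × E)) (0, 0) := by
      refine analyticAt_snd.prod ?_
      exact AnalyticAt.comp (g := e.symm) (f := Prod.fst)
        (e.symm.toContinuousLinearMap.analyticAt _) analyticAt_fst
    refine AnalyticAt.comp (g := f) (f := fun p : (Fin k → ℂ) × (Fin n → ℂ) =>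
        ((p.2, e.symm p.1) : (Fin n → ℂ) × E)) ?_ h1
    simpa using hf
  obtain ⟨g, q, hg, hq, h⟩ := had_fun hF
  have hg0 : ∀ᶠ x in 𝓝 (0 : Fin n → ℂ), g x = 0 := by
    have h1 : Tendsto (fun x : Fin n → ℂ => ((0 : Fin k → ℂ), x)) (𝓝 0) (𝓝 (0, 0)) := by
      have : Continuous (fun x : Fin n → ℂ => ((0 : Fin k → ℂ), x)) := by fun_prop
      exact this.tendsto 0
    filter_upwards [h1.eventually h, hb] with x hx hbx
    simp only [map_zero, Pi.zero_apply, zero_mul, Finset.sum_const_zero, add_zero] at hx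
    rw [← hx]
    exact hbx
  have hlin : ∀ i : Fin k, AnalyticAt ℂ (fun z : E => e z i) 0 := fun i =>
    ((ContinuousLinearMap.proj (R := ℂ) (φ := fun _ : Fin k => ℂ) i).comp
      e.toContinuousLinearMap).analyticAt _
  have hQ : ∀ i : Fin k, AnalyticAt ℂ (fun p : (Fin n → ℂ) × E => q i (e p.2, p.1)) (0, 0) := by
    intro i
    have h1 : AnalyticAt ℂ (fun p : (Fin n → ℂ) × E =>
        ((e p.2, p.1) : (Fin k → ℂ) × (Fin n → ℂ))) (0, 0) := by
      refine AnalyticAt.prod ?_ analyticAt_fst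
      exact AnalyticAt.comp (g := e) (f := Prod.snd)
        (e.toContinuousLinearMap.analyticAt _) analyticAt_snd
    refine AnalyticAt.comp (g := q i) (f := fun p : (Fin n → ℂ) × E =>
        ((e p.2, p.1) : (Fin k → ℂ) × (Fin n → ℂ))) ?_ h1
    simpa using hq i
  have key : gm f hf = ∑ i : Fin k, sndR n (0 : E) (gm (fun z => e z i) (hlin i)) *
      gm (fun p : (Fin n → ℂ) × E => q i (e p.2, p.1)) (hQ i) := by
    simp only [sndR_gm, gm_mul]
    obtain ⟨h', e'⟩ := gm_sum Finset.univ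
      (fun (i : Fin k) => (fun p : (Fin n → ℂ) × E => e p.2 i) *
        (fun p : (Fin n → ℂ) × E => q i (e p.2, p.1)))
      (fun i => (AnalyticAt.comp (g := fun z => e z i) (f := Prod.snd) (hlin i)
        analyticAt_snd).mul (hQ i))
    rw [e', gm_eq_gm]
    have h1 : Tendsto (fun p : (Fin n → ℂ) × E => ((e p.2, p.1) : (Fin k → ℂ) × (Fin n → ℂ)))
        (𝓝 (0, 0)) (𝓝 (0, 0)) := by
      have : Continuous (fun p : (Fin n → ℂ) × E =>
          ((e p.2, p.1) : (Fin k → ℂ) × (Fin n → ℂ))) := by fun_prop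
      have h2 := this.tendsto (0, 0)
      simpa using h2
    have h3 : Tendsto (Prod.fst : (Fin n → ℂ) × E → (Fin n → ℂ)) (𝓝 (0, 0)) (𝓝 0) :=
      continuous_fst.tendsto _
    filter_upwards [h1.eventually h, h3.eventually hg0] with p hp hp2
    simp only [ContinuousLinearEquiv.symm_apply_apply, hp2, zero_add] at hp
    exact hp
  rw [key]
  refine Ideal.sum_mem _ (fun i _ => Ideal.mul_mem_right _ _ (Ideal.mem_map_of_mem _ ?_))
  rw [IsLocalRing.mem_maximalIdeal, mem_nonunits_iff, isUnit_gm]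
  simp

end Had

section Nak

/-- Nakayama's lemma for `B/I` over `A` -/
theorem nak {A B : Type*} [CommRing A] [IsLocalRing A] [CommRing B] (φ : A →+* B) (I : Ideal B)
    (hF : FinOver φ (B ⧸ I)) {μ : ℕ} (e : Fin μ → B)
    (h : ∀ b : B, ∃ (c : Fin μ → A) (i : B) (y : B), i ∈ I ∧
      y ∈ (IsLocalRing.maximalIdeal A).map φ ∧ b = ∑ j, φ (c j) * e j + (i + y)) :
    ∀ b : B, ∃ c : Fin μ → A, b - ∑ j, φ (c j) * e j ∈ I := by
  let _ : Module A (B ⧸ I) := Module.compHom (B ⧸ I) φ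
  have hsm : ∀ (a : A) (b : B), a • Ideal.Quotient.mk I b = Ideal.Quotient.mk I (φ a * b) :=
    fun a b => rfl
  let N : Submodule A (B ⧸ I) := Submodule.span _ (range fun j => Ideal.Quotient.mk I (e j))
  have hfg : (⊤ : Submodule A (B ⧸ I)).FG := by
    classical
    obtain ⟨m, e, he⟩ := hF
    refine ⟨Finset.univ.image e, ?_⟩
    rw [eq_top_iff]
    intro x _
    obtain ⟨c, hc⟩ := he x
    rw [hc]
    refine Submodule.sum_mem _ (fun i _ => ?_)
    exact Submodule.smul_mem _ (c i) (Submodule.subset_span (by simp))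
  have hy : ∀ y ∈ (IsLocalRing.maximalIdeal A).map φ, Ideal.Quotient.mk I y ∈
      (IsLocalRing.maximalIdeal A) • (⊤ : Submodule A (B ⧸ I)) := by
    intro y hy
    induction hy using Submodule.span_induction with
    | mem x hx =>
      obtain ⟨a, ha, rfl⟩ := hx
      have h1 : Ideal.Quotient.mk I (φ a) = a • Ideal.Quotient.mk I 1 := by
        rw [hsm, mul_one]
      rw [h1]
      exact Submodule.smul_mem_smul ha trivial
    | zero => rw [map_zero]; exact Submodule.zero_mem _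
    | add x y _ _ hx hy => rw [map_add]; exact Submodule.add_mem _ hx hy
    | smul r x _ hx =>
      rw [smul_eq_mul, map_mul]
      refine Submodule.smul_induction_on (p := fun z => Ideal.Quotient.mk I r * z ∈
        (IsLocalRing.maximalIdeal A) • (⊤ : Submodule A (B ⧸ I))) hx ?_ ?_
      · intro a ha z _
        obtain ⟨z, rfl⟩ := Ideal.Quotient.mk_surjective z
        have h1 : Ideal.Quotient.mk I r * a • Ideal.Quotient.mk I z =
            a • Ideal.Quotient.mk I (r * z) := by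
          rw [hsm, hsm, ← map_mul]; congr 1; ring
        rw [h1]
        exact Submodule.smul_mem_smul ha trivial
      · intro u v hu hv
        rw [mul_add]
        exact Submodule.add_mem _ hu hv
  have hN : (⊤ : Submodule A (B ⧸ I)) ≤ N := by
    refine Submodule.le_of_le_smul_of_le_jacobson_bot (I := IsLocalRing.maximalIdeal A)
      hfg (IsLocalRing.maximalIdeal_le_jacobson _) ?_
    intro x _
    obtain ⟨b, rfl⟩ := Ideal.Quotient.mk_surjective x
    obtain ⟨c, i, y, hi, ha, hb⟩ := h b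
    have h3 : Ideal.Quotient.mk I b = (∑ j, (c j) • Ideal.Quotient.mk I (e j)) +
        Ideal.Quotient.mk I y := by
      rw [hb, map_add, map_add, Ideal.Quotient.eq_zero_iff_mem.2 hi, zero_add, map_sum]
      rfl
    rw [h3]
    refine Submodule.add_mem_sup ?_ (hy y ha)
    exact Submodule.sum_mem _ (fun j _ => Submodule.smul_mem _ _
      (Submodule.subset_span ⟨j, rfl⟩))
  intro b
  have h1 : Ideal.Quotient.mk I b ∈ N := hN trivial
  obtain ⟨c, hc⟩ := (Submodule.mem_span_range_iff_exists_fun _).1 h1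
  refine ⟨c, ?_⟩
  rw [← Ideal.Quotient.eq, ← hc, map_sum]
  rfl

end Nak

section Gen

variable {E : Type} [NormedAddCommGroup E] [NormedSpace ℂ E] {n : ℕ} {ι : Type*}

lemma rE_max {b : OO (((0 : Fin n → ℂ), (0 : E)))} {μ : ℕ}
    (hb : b ∈ (IsLocalRing.maximalIdeal (OO (((0 : Fin n → ℂ), (0 : E))))) ^ μ) :
    rE n E b ∈ (IsLocalRing.maximalIdeal (On n)) ^ μ := by
  have h3 : (IsLocalRing.maximalIdeal (OO (((0 : Fin n → ℂ), (0 : E))))).map (rE n E) ≤
      IsLocalRing.maximalIdeal (On n) := by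
    rw [Ideal.map_le_iff_le_comap]
    intro a ha
    rw [Ideal.mem_comap]
    rw [IsLocalRing.mem_maximalIdeal, mem_nonunits_iff] at ha ⊢
    intro h4
    apply ha
    obtain ⟨f, hf, rfl⟩ := exists_gm a
    rw [rE, pull_gm, isUnit_gm] at h4
    rw [isUnit_gm]
    exact h4
  have h4 : ((IsLocalRing.maximalIdeal (OO (((0 : Fin n → ℂ), (0 : E))))) ^ μ).map (rE n E) ≤
      (IsLocalRing.maximalIdeal (On n)) ^ μ := by
    rw [Ideal.map_pow]
    exact Ideal.pow_right_mono h3 μ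
  exact h4 (Ideal.mem_map_of_mem _ hb)

lemma analyticAt_slE {f : (Fin n → ℂ) × E → ℂ} (hf : AnalyticAt ℂ f (0, 0)) :
    AnalyticAt ℂ (fun x => f (x, 0)) 0 :=
  AnalyticAt.comp (g := f) (f := fun x : Fin n → ℂ => (x, (0 : E))) hf
    (analyticAt_id.prod analyticAt_const)

/-- generators of `B/(Φ)` over the germs in the parameters -/
theorem generators [FiniteDimensional ℂ E] (Φ : ι → (Fin n → ℂ) × E → ℂ)
    (hΦ : ∀ i, AnalyticAt ℂ (Φ i) (0, 0))
    (hfin : Module.Finite ℂ (On n ⧸ JI (fun i x => Φ i (x, 0)))) {μ : ℕ} (g : Fin μ → On n)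
    (hg : Submodule.span ℂ (range fun j => Ideal.Quotient.mk (JI (fun i x => Φ i (x, 0))) (g j))
      = ⊤) :
    ∀ b : OO (((0 : Fin n → ℂ), (0 : E))), ∃ c : Fin μ → OO (0 : E),
      b - ∑ j, sndR n 0 (c j) * lE n E (g j) ∈ Ideal.span (range fun i => gm (Φ i) (hΦ i)) := by
  set I : Ideal (OO (((0 : Fin n → ℂ), (0 : E)))) :=
    Ideal.span (range fun i => gm (Φ i) (hΦ i)) with hI
  set J : Ideal (On n) := JI (fun i x => Φ i (x, 0)) with hJ
  have hmap : I.map (rE n E) = J := by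
    rw [hI, Ideal.map_span, hJ, JI_eq_span (fun i => analyticAt_slE (hΦ i))]
    congr 1
    rw [← range_comp]
    rfl
  have hrJ : ∀ b, rE n E b ∈ J →
      ∃ i ∈ I, ∃ y ∈ (IsLocalRing.maximalIdeal (OO (0 : E))).map (sndR n (0 : E)), b = i + y := by
    intro b hb
    rw [← hmap] at hb
    obtain ⟨i, hi, hib⟩ := (Ideal.mem_map_iff_of_surjective _ rE_surj).1 hb
    exact ⟨i, hi, b - i, ker_rE (by rw [map_sub, hib, sub_self]), by ring⟩
  -- finiteness
  have hF : FinOver (sndR n (0 : E)) (OO (((0 : Fin n → ℂ), (0 : E))) ⧸ I) := by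
    refine finProp_sndR (0 : E) n _ ?_ ?_
    · refine ⟨1, fun _ => 1, fun x => ?_⟩
      obtain ⟨b, rfl⟩ := Ideal.Quotient.mk_surjective x
      refine ⟨fun _ => b, ?_⟩
      simp only [Finset.univ_unique, Finset.sum_singleton, RingHom.id_apply]
      rw [Algebra.smul_def, mul_one]; rfl
    · refine ⟨Module.finrank ℂ (On n ⧸ J), fun b hb x => ?_⟩
      have h1 : rE n E b ∈ J := pow_le J hfin rfl (rE_max hb)
      obtain ⟨i, hi, y, hy, rfl⟩ := hrJ b h1
      obtain ⟨x, rfl⟩ := Ideal.Quotient.mk_surjective x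
      have h2 : (i + y) • Ideal.Quotient.mk I x = Ideal.Quotient.mk I (y * x) := by
        change Ideal.Quotient.mk I ((i + y) * x) = _
        rw [Ideal.Quotient.eq]
        have : (i + y) * x - y * x = i * x := by ring
        rw [this]
        exact Ideal.mul_mem_right _ _ hi
      rw [h2]
      have key : ∀ y ∈ (IsLocalRing.maximalIdeal (OO (0 : E))).map (sndR n (0 : E)), ∀ x,
          Ideal.Quotient.mk I (y * x) ∈ mM (sndR n (0 : E))
            (OO (((0 : Fin n → ℂ), (0 : E))) ⧸ I) := by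
        intro y hy
        induction hy using Submodule.span_induction with
        | mem z hz =>
          obtain ⟨a, ha, rfl⟩ := hz
          intro x
          exact AddSubmonoid.subset_closure ⟨a, ha, Ideal.Quotient.mk I x, rfl⟩
        | zero => intro x; rw [zero_mul, map_zero]; exact AddSubmonoid.zero_mem _
        | add u v _ _ hu hv =>
          intro x; rw [add_mul, map_add]; exact AddSubmonoid.add_mem _ (hu x) (hv x)
        | smul r z _ hz =>
          intro x
          have : r • z * x = z * (r * x) := by rw [smul_eq_mul]; ring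
          rw [this]
          exact hz _
      exact key y hy x
  refine nak _ _ hF _ (fun b => ?_)
  have h1 : Ideal.Quotient.mk J (rE n E b) ∈ Submodule.span ℂ (range fun j =>
    Ideal.Quotient.mk J (g j)) := by rw [hg]; trivial
  obtain ⟨γ, hγ⟩ := (Submodule.mem_span_range_iff_exists_fun _).1 h1
  have h2 : rE n E (b - ∑ j, sndR n 0 (algebraMap ℂ _ (γ j)) * lE n E (g j)) ∈ J := by
    rw [map_sub, ← Ideal.Quotient.eq_zero_iff_mem, map_sub, ← hγ, map_sum, map_sum, sub_eq_zero]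
    refine Finset.sum_congr rfl (fun j _ => ?_)
    rw [map_mul, rE_lE, rE_sndR, evp_algebraMap, map_mul, Algebra.smul_def]
    rfl
  obtain ⟨i, hi, y, hy, hq⟩ := hrJ _ h2
  refine ⟨fun j => algebraMap ℂ _ (γ j), i, y, hi, hy, ?_⟩
  rw [← hq]; ring

end Gen

section Rel

variable {S : Type} [NormedAddCommGroup S] [NormedSpace ℂ S] [FiniteDimensional ℂ S]
  {n : ℕ}

/-- **relations for a finite germ** -/
theorem rel {μ : ℕ} (Ψ : (Fin n → ℂ) × S → (Fin n → ℂ)) (hΨ : AnalyticAt ℂ Ψ (0, 0))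
    (h0 : Ψ (0, 0) = 0) (e : Fin μ → (Fin n → ℂ) → ℂ) (he : ∀ j, AnalyticAt ℂ (e j) 0)
    (hfin : Module.Finite ℂ (On n ⧸ JI (fun i x => Ψ (x, 0) i)))
    (hspan : Submodule.span ℂ (range fun j =>
      Ideal.Quotient.mk (JI (fun i x => Ψ (x, 0) i)) (gm (e j) (he j))) = ⊤)
    {f : (Fin n → ℂ) × S → ℂ} (hf : AnalyticAt ℂ f (0, 0)) :
    ∃ c : Fin μ → (Fin n → ℂ) × S → ℂ, (∀ j, AnalyticAt ℂ (c j) (0, 0)) ∧
      ∀ᶠ p in 𝓝 ((0 : Fin n → ℂ), (0 : S)), f p = ∑ j, c j (Ψ p, p.2) * e j p.1 := by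
  let Φ : Fin n → (Fin n → ℂ) × ((Fin n → ℂ) × S) → ℂ := fun i p => Ψ (p.1, p.2.2) i - p.2.1 i
  have hπ : AnalyticAt ℂ (fun p : (Fin n → ℂ) × ((Fin n → ℂ) × S) => (p.1, p.2.2))
      ((0 : Fin n → ℂ), ((0 : Fin n → ℂ), (0 : S))) :=
    analyticAt_fst.prod (AnalyticAt.comp (g := Prod.snd)
      (f := fun p : (Fin n → ℂ) × ((Fin n → ℂ) × S) => p.2) analyticAt_snd analyticAt_snd)
  have hΦ : ∀ i, AnalyticAt ℂ (Φ i) (0, 0) := by
    intro i
    refine AnalyticAt.sub ?_ ?_
    · have h1 : AnalyticAt ℂ (fun p : (Fin n → ℂ) × ((Fin n → ℂ) × S) => Ψ (p.1, p.2.2))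
          ((0 : Fin n → ℂ), ((0 : Fin n → ℂ), (0 : S))) :=
        AnalyticAt.comp (g := Ψ) (f := fun p : (Fin n → ℂ) × ((Fin n → ℂ) × S) => (p.1, p.2.2))
          hΨ hπ
      exact AnalyticAt.comp (g := fun y : Fin n → ℂ => y i)
        (f := fun p : (Fin n → ℂ) × ((Fin n → ℂ) × S) => Ψ (p.1, p.2.2))
        (analyticAt_coord' i _) h1
    · exact ((ContinuousLinearMap.proj (R := ℂ) (φ := fun _ : Fin n => ℂ) i).comp
        ((ContinuousLinearMap.fst ℂ (Fin n → ℂ) S).comp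
        (ContinuousLinearMap.snd ℂ (Fin n → ℂ) ((Fin n → ℂ) × S)))).analyticAt _
  have hJ : JI (fun i x => Φ i (x, 0)) = JI (fun i x => Ψ (x, 0) i) := by
    congr 1
    funext i x
    simp [Φ]
  have hF : AnalyticAt ℂ (fun p : (Fin n → ℂ) × ((Fin n → ℂ) × S) => f (p.1, p.2.2)) (0, 0) :=
    AnalyticAt.comp (g := f) (f := fun p : (Fin n → ℂ) × ((Fin n → ℂ) × S) => (p.1, p.2.2))
      hf hπ
  obtain ⟨cb, hcb⟩ := generators Φ hΦ (by rw [hJ]; exact hfin) (fun j => gm (e j) (he j))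
    (by rw [hJ]; exact hspan) (gm _ hF)
  rw [Ideal.mem_span_range_iff_exists_fun] at hcb
  obtain ⟨a, ha⟩ := hcb
  choose C hC hCc using fun j => exists_gm (cb j)
  choose A hA hAa using fun i => exists_gm (a i)
  refine ⟨C, hC, ?_⟩
  obtain rfl : (fun j => gm (C j) (hC j)) = cb := funext hCc
  obtain rfl : (fun i => gm (A i) (hA i)) = a := funext hAa
  simp only [sndR_gm, gm_mul, lE, pull_gm] at ha
  obtain ⟨h1, e1⟩ := gm_sum Finset.univ
    (fun j => (fun p : (Fin n → ℂ) × ((Fin n → ℂ) × S) => C j p.2) * (e j ∘ Prod.fst))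
    (fun j => (AnalyticAt.comp (g := C j) (f := Prod.snd) (hC j) analyticAt_snd).mul
      (AnalyticAt.comp (g := e j) (f := Prod.fst)
        (x := ((0 : Fin n → ℂ), ((0 : Fin n → ℂ), (0 : S)))) (he j) analyticAt_fst))
  obtain ⟨h2, e2⟩ := gm_sum Finset.univ (fun i => A i * Φ i) (fun i => (hA i).mul (hΦ i))
  rw [e1, e2, gm_sub, gm_eq_gm] at ha
  have ht : Tendsto (fun p : (Fin n → ℂ) × S => (p.1, (Ψ p, p.2))) (𝓝 (0, 0))
      (𝓝 ((0 : Fin n → ℂ), ((0 : Fin n → ℂ), (0 : S)))) := by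
    have h3 : ContinuousAt (fun p : (Fin n → ℂ) × S => (p.1, (Ψ p, p.2))) (0, 0) :=
      continuousAt_fst.prodMk (hΨ.continuousAt.prodMk continuousAt_snd)
    have h4 := h3.tendsto
    simpa [h0] using h4
  filter_upwards [ht.eventually ha] with p hp
  simp only [Pi.sub_apply, Pi.mul_apply, Function.comp_apply] at hp
  have h5 : ∑ i, A i (p.1, (Ψ p, p.2)) * Φ i (p.1, (Ψ p, p.2)) = 0 := by
    refine Finset.sum_eq_zero (fun i _ => ?_)
    simp [Φ]
  rw [h5] at hp
  exact (sub_eq_zero.1 hp.symm)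

end Rel

end Crest.Agent.R257.DegA_822
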