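import Crest.Agent.R257.C2F4_625
import Crest.Agent.R273.StokesV_332
import Crest.Agent.R273.GreenG_5
import Mathlib.Geometry.Manifold.PartitionOfUnity

/-!
# R257 (S0395), part (GB), leaf GB-LIM (helper625): Stokes for fields of type `(1,1)`

`M` with an atlas `A : Atl 2 M` and a partition of unity `P : Part A`, `M` need not be compact.

* `dl_eq`, `db_eq`            : `dl`, `db` are `dS`
* `lint_parts_db`, `lint_parts_dl`, `lint_parts2` : integration by parts in one chart
* `lint_ddm`                  : `∫ φ ddm S = ∫ pd (∂∂̄φ) S` in one chart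
* `tensor_stokes`             : `intD P (θ ddm S) = intD P (pd (hsf θ) S)`, `θ` compact support
-/

set_option autoImplicit false
set_option linter.unusedSectionVars false

open Set Filter Topology Complex MeasureTheory
open scoped ContDiff Matrix ComplexConjugate ComplexOrder

namespace Crest.Agent.R257.GBL1_625

open Crest.Agent.R275.Geo Crest.Agent.R275.TorS666
open Crest.Agent.R275.Tor812 hiding pd
open Crest.Agent.R275.C1d194 Crest.Agent.R275.Pai323 Crest.Agent.R275.OmT75
open Crest.Agent.R275.SerG398 (lint dens)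
open Crest.Agent.R273.StokesV_332
open Crest.Agent.R273.Fock_243
open Crest.Agent.R273.Calc_243 hiding dj
open Crest.Agent.R273.Bkn_243 Crest.Agent.R273.Pos_243 Crest.Agent.R273.BochA_101
open Crest.Agent.R273.BochB_101 Crest.Agent.R273.BochC_101 Crest.Agent.R273.BochD_101
open Crest.Agent.R275.Core144 Crest.Agent.R273.Defs_333 Crest.Agent.R273.HM_333
open Crest.Agent.R273.Hess_333 Crest.Agent.R273.HessB_333 Crest.Agent.R273.Kah_333
open Crest.Agent.R257.C2F1_625 Crest.Agent.R257.C2F2_625 Crest.Agent.R257.C2F4_625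

noncomputable section

variable {n : ℕ} {M : Type} [TopologicalSpace M] {A : Atl n M}

theorem dj_eq (a : Fin n) (f : Cn n → ℂ) (z : Cn n) : dj a f z = dS (-I) a f z := by
  unfold dj dS
  simp only [smul_eq_mul]
  ring

theorem dbj_eq (a : Fin n) (f : Cn n → ℂ) (z : Cn n) : dbj a f z = dS I a f z := by
  unfold dbj dS
  simp only [smul_eq_mul]

theorem dl_eq (i : A.ι) (a : Fin n) (f : M → ℂ) (x : M) :
    dl A i a f x = dS (-I) a (fun z => f ((A.e i).symm z)) (A.e i x) := dj_eq _ _ _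

theorem db_eq (i : A.ι) (a : Fin n) (f : M → ℂ) (x : M) :
    A.db i a f x = dS I a (fun z => f ((A.e i).symm z)) (A.e i x) := dbj_eq _ _ _

theorem dl_db_eq {i : A.ι} (c d : Fin n) (f : M → ℂ) {x : M} (hx : x ∈ (A.e i).source) :
    dl A i c (A.db i d f) x
      = dS (-I) c (dS I d (fun z => f ((A.e i).symm z))) (A.e i x) := by
  rw [dl_eq]
  refine dS_congr ?_
  filter_upwards [(A.e i).open_target.mem_nhds ((A.e i).map_source hx)] with z hz
  rw [db_eq, (A.e i).right_inv hz]

theorem db_dl_eq {i : A.ι} (c d : Fin n) (f : M → ℂ) {x : M} (hx : x ∈ (A.e i).source) :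
    A.db i d (dl A i c f) x
      = dS I d (dS (-I) c (fun z => f ((A.e i).symm z))) (A.e i x) := by
  rw [db_eq]
  refine dS_congr ?_
  filter_upwards [(A.e i).open_target.mem_nhds ((A.e i).map_source hx)] with z hz
  rw [dl_eq, (A.e i).right_inv hz]

section t2

variable [T2Space M] {i : A.ι} {K : Set M} {φ s : M → ℂ}

/-- integral of a derivative -/
theorem lint_db_off (hφ : A.SmAt i φ) (hK : IsCompact K) (hKi : K ⊆ (A.e i).source)
    (h0 : ∀ x ∈ (A.e i).source, x ∉ K → φ x = 0) (b : Fin n) :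
    lint A i (A.db i b φ) = 0 := by
  rw [← lint_db (cc_cut hφ hK hKi h0) b]
  refine lint_congr fun x hx => Atl.db_congr hx ?_ b
  filter_upwards [(A.e i).open_source.mem_nhds hx] with y hy
  exact (cut_of_mem hy).symm

theorem lint_dl_off (hφ : A.SmAt i φ) (hK : IsCompact K) (hKi : K ⊆ (A.e i).source)
    (h0 : ∀ x ∈ (A.e i).source, x ∉ K → φ x = 0) (b : Fin n) :
    lint A i (dl A i b φ) = 0 := by
  have h1 := lint_db_off (φ := fun x => conj (φ x)) (Den.smAt_conj hφ) hK hKi
    (fun x hx hxK => by rw [h0 x hx hxK, map_zero]) b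
  have h2 : lint A i (A.db i b fun x => conj (φ x)) = conj (lint A i (dl A i b φ)) := by
    rw [← lint_conj]
    exact lint_congr fun x _ => db_conj i b φ x
  rw [h2] at h1
  have h3 := congrArg conj h1
  rwa [map_zero, Complex.conj_conj] at h3

theorem off_db (hK : IsClosed K) (h0 : ∀ x ∈ (A.e i).source, x ∉ K → φ x = 0)
    (b : Fin n) : ∀ x ∈ (A.e i).source, x ∉ K → A.db i b φ x = 0 := by
  intro x hx hxK
  have h1 : φ =ᶠ[𝓝 x] fun _ => (0 : ℂ) := by
    filter_upwards [hK.isOpen_compl.mem_nhds hxK, (A.e i).open_source.mem_nhds hx] with y hy hy'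
    exact h0 y hy' hy
  rw [Atl.db_congr hx h1]
  exact dbj_const (0 : ℂ) _ b

theorem off_dl (hK : IsClosed K) (h0 : ∀ x ∈ (A.e i).source, x ∉ K → φ x = 0)
    (b : Fin n) : ∀ x ∈ (A.e i).source, x ∉ K → dl A i b φ x = 0 := by
  intro x hx hxK
  have h1 := off_db (φ := fun y => conj (φ y)) hK (fun y hy hyK => by rw [h0 y hy hyK, map_zero]) b
    x hx hxK
  rw [db_conj] at h1
  have h3 := congrArg conj h1
  rwa [map_zero, Complex.conj_conj] at h3

theorem lint_parts_db (hφ : A.SmAt i φ) (hs : A.SmAt i s) (hK : IsCompact K)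
    (hKi : K ⊆ (A.e i).source) (h0 : ∀ x ∈ (A.e i).source, x ∉ K → φ x = 0) (b : Fin n) :
    lint A i (fun x => φ x * A.db i b s x) = - lint A i (fun x => A.db i b φ x * s x) := by
  have h1 := lint_db_off (φ := fun x => φ x * s x) (hφ.mul hs) hK hKi
    (fun x hx hxK => by rw [h0 x hx hxK, zero_mul]) b
  have h2 : lint A i (A.db i b fun x => φ x * s x)
      = lint A i (fun x => φ x * A.db i b s x + A.db i b φ x * s x) := by
    refine lint_congr fun x hx => ?_
    rw [db_mul (Atl.SmAt.diffAt hφ hx) (Atl.SmAt.diffAt hs hx) hx]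
    ring
  have e1 : Integrable (rd A i (fun x => φ x * A.db i b s x)) :=
    integrable_of_off (hφ.mul (Atl.SmAt.db hs b)) hK hKi fun x hx hxK => by
      rw [h0 x hx hxK, zero_mul]
  have e2 : Integrable (rd A i (fun x => A.db i b φ x * s x)) :=
    integrable_of_off ((Atl.SmAt.db hφ b).mul hs) hK hKi fun x hx hxK => by
      rw [off_db hK.isClosed h0 b x hx hxK, zero_mul]
  rw [h2, lint_add e1 e2] at h1
  exact eq_neg_of_add_eq_zero_left h1

theorem lint_parts_dl (hφ : A.SmAt i φ) (hs : A.SmAt i s) (hK : IsCompact K)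
    (hKi : K ⊆ (A.e i).source) (h0 : ∀ x ∈ (A.e i).source, x ∉ K → φ x = 0) (b : Fin n) :
    lint A i (fun x => φ x * dl A i b s x) = - lint A i (fun x => dl A i b φ x * s x) := by
  have h1 := lint_dl_off (φ := fun x => φ x * s x) (hφ.mul hs) hK hKi
    (fun x hx hxK => by rw [h0 x hx hxK, zero_mul]) b
  have h2 : lint A i (dl A i b fun x => φ x * s x)
      = lint A i (fun x => φ x * dl A i b s x + dl A i b φ x * s x) := by
    refine lint_congr fun x hx => ?_
    rw [dl_mul (Atl.SmAt.diffAt hφ hx) (Atl.SmAt.diffAt hs hx) hx]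
    ring
  have e1 : Integrable (rd A i (fun x => φ x * dl A i b s x)) :=
    integrable_of_off (hφ.mul (smAt_dl hs b)) hK hKi fun x hx hxK => by
      rw [h0 x hx hxK, zero_mul]
  have e2 : Integrable (rd A i (fun x => dl A i b φ x * s x)) :=
    integrable_of_off ((smAt_dl hφ b).mul hs) hK hKi fun x hx hxK => by
      rw [off_dl hK.isClosed h0 b x hx hxK, zero_mul]
  rw [h2, lint_add e1 e2] at h1
  exact eq_neg_of_add_eq_zero_left h1

theorem lint_parts2 (hφ : A.SmAt i φ) (hs : A.SmAt i s) (hK : IsCompact K)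
    (hKi : K ⊆ (A.e i).source) (h0 : ∀ x ∈ (A.e i).source, x ∉ K → φ x = 0) (c d : Fin n) :
    lint A i (fun x => φ x * dS (-I) c (dS I d (fun z => s ((A.e i).symm z))) (A.e i x))
      = lint A i (fun x => dS (-I) c (dS I d (fun z => φ ((A.e i).symm z))) (A.e i x) * s x) := by
  have h1 : lint A i (fun x => φ x * dS (-I) c (dS I d (fun z => s ((A.e i).symm z))) (A.e i x))
      = lint A i (fun x => φ x * dl A i c (A.db i d s) x) :=
    lint_congr fun x hx => by rw [dl_db_eq c d s hx]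
  rw [h1, lint_parts_dl hφ (Atl.SmAt.db hs d) hK hKi h0 c,
    lint_parts_db (smAt_dl hφ c) hs hK hKi (off_dl hK.isClosed h0 c) d, neg_neg]
  refine lint_congr fun x hx => ?_
  rw [db_dl_eq c d φ hx]
  congr 1
  have hc : ContDiffAt ℝ ∞ (fun z => φ ((A.e i).symm z)) (A.e i x) :=
    hφ.contDiffAt ((A.e i).open_target.mem_nhds ((A.e i).map_source hx))
  exact dS_comm hc

/-- `f` is smooth on `U`, read in the chart `i` -/
def SmO {W : Type*} [NormedAddCommGroup W] [NormedSpace ℝ W] (A : Atl n M) (U : Set M) (i : A.ι)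
    (f : M → W) : Prop :=
  ∀ x ∈ (A.e i).source, x ∈ U → ContDiffAt ℝ ∞ (fun z => f ((A.e i).symm z)) (A.e i x)

theorem SmAt.smO {W : Type*} [NormedAddCommGroup W] [NormedSpace ℝ W] {f : M → W}
    (hf : A.SmAt i f) (U : Set M) : SmO A U i f := fun x hx _ =>
  hf.contDiffAt ((A.e i).open_target.mem_nhds ((A.e i).map_source hx))

/-- a product of a function vanishing off `K` with a function smooth near `K` is smooth -/
theorem smAt_mul_off {U : Set M} (hK : IsClosed K) (hKU : K ⊆ U) (hφ : A.SmAt i φ)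
    (h0 : ∀ x ∈ (A.e i).source, x ∉ K → φ x = 0) (hs : SmO A U i s) :
    A.SmAt i (fun x => φ x * s x) := by
  intro z hz
  have hx := (A.e i).map_target hz
  refine ContDiffAt.contDiffWithinAt ?_
  by_cases hxU : (A.e i).symm z ∈ U
  · have h1 := hs _ hx hxU
    rw [(A.e i).right_inv hz] at h1
    exact (hφ.contDiffAt ((A.e i).open_target.mem_nhds hz)).mul h1
  · have hxK : (A.e i).symm z ∉ K := fun h => hxU (hKU h)
    have h2 : (fun z => φ ((A.e i).symm z) * s ((A.e i).symm z)) =ᶠ[𝓝 z] fun _ => (0 : ℂ) := by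
      have h3 : ∀ᶠ w in 𝓝 z, (A.e i).symm w ∉ K :=
        ((A.e i).symm.continuousAt (by simpa using hz)).eventually (hK.isOpen_compl.mem_nhds hxK)
      filter_upwards [h3, (A.e i).open_target.mem_nhds hz] with w hw hw'
      rw [h0 _ ((A.e i).map_target hw') hw, zero_mul]
    exact contDiffAt_const.congr_of_eventuallyEq h2

theorem exists_bump {O C : Set (Cn n)} (hO : IsOpen O) (hC : IsClosed C) (hCO : C ⊆ O) :
    ∃ η : Cn n → ℝ, ContDiff ℝ ∞ η ∧ (∀ z ∉ O, ∀ᶠ w in 𝓝 z, η w = 0) ∧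
      ∀ z ∈ C, ∀ᶠ w in 𝓝 z, η w = 1 := by
  obtain ⟨f, h0, h1, -⟩ := exists_contMDiffMap_zero_one_nhds_of_isClosed
    (n := (⊤ : ℕ∞)) (modelWithCornersSelf ℝ (Cn n)) (s := Oᶜ) (t := C)
    hO.isClosed_compl hC (by
      rw [Set.disjoint_left]
      intro x hx hx'
      exact hx (hCO hx'))
  refine ⟨f, f.contMDiff.contDiff, fun z hz => ?_, fun z hz => ?_⟩
  · exact (eventually_nhdsSet_iff_forall.1 h0) z hz
  · exact (eventually_nhdsSet_iff_forall.1 h1) z hz

/-- integration by parts, `s` smooth near the support of `φ` only -/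
theorem lint_parts2' {U : Set M} (hU : IsOpen U) (hφ : A.SmAt i φ) (hs : SmO A U i s)
    (hK : IsCompact K) (hKi : K ⊆ (A.e i).source) (hKU : K ⊆ U)
    (h0 : ∀ x ∈ (A.e i).source, x ∉ K → φ x = 0) (c d : Fin n) :
    lint A i (fun x => φ x * dS (-I) c (dS I d (fun z => s ((A.e i).symm z))) (A.e i x))
      = lint A i (fun x => dS (-I) c (dS I d (fun z => φ ((A.e i).symm z))) (A.e i x) * s x) := by
  set O : Set (Cn n) := (A.e i).target ∩ (A.e i).symm ⁻¹' U with hO
  have hOo : IsOpen O := (A.e i).isOpen_inter_preimage_symm hU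
  have hCc : IsCompact ((A.e i) '' K) := hK.image_of_continuousOn ((A.e i).continuousOn.mono hKi)
  have hCO : (A.e i) '' K ⊆ O := by
    rintro _ ⟨x, hx, rfl⟩
    refine ⟨(A.e i).map_source (hKi hx), ?_⟩
    rw [Set.mem_preimage, (A.e i).left_inv (hKi hx)]
    exact hKU hx
  obtain ⟨η, hη, hη0, hη1⟩ := exists_bump hOo hCc.isClosed hCO
  set s' : M → ℂ := fun x => (η (A.e i x) : ℂ) * s x with hs'
  have hηc : ContDiff ℝ ∞ (fun z => (η z : ℂ)) := Complex.ofRealCLM.contDiff.comp hη
  have hs's : A.SmAt i s' := by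
    intro z hz
    refine ContDiffAt.contDiffWithinAt ?_
    have e1 : (fun w => s' ((A.e i).symm w)) =ᶠ[𝓝 z] fun w => (η w : ℂ) * s ((A.e i).symm w) := by
      filter_upwards [(A.e i).open_target.mem_nhds hz] with w hw
      simp only [hs']
      rw [(A.e i).right_inv hw]
    refine ContDiffAt.congr_of_eventuallyEq ?_ e1
    by_cases hzO : z ∈ O
    · have h1 := hs _ ((A.e i).map_target hz) hzO.2
      rw [(A.e i).right_inv hz] at h1
      exact hηc.contDiffAt.mul h1
    · have h2 : (fun w => (η w : ℂ) * s ((A.e i).symm w)) =ᶠ[𝓝 z] fun _ => (0 : ℂ) := by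
        filter_upwards [hη0 z hzO] with w hw
        rw [hw]; simp
      exact contDiffAt_const.congr_of_eventuallyEq h2
  have key := lint_parts2 hφ hs's hK hKi h0 c d
  have hL : lint A i (fun x => φ x * dS (-I) c (dS I d (fun z => s' ((A.e i).symm z))) (A.e i x))
      = lint A i
        (fun x => φ x * dS (-I) c (dS I d (fun z => s ((A.e i).symm z))) (A.e i x)) := by
    refine lint_congr fun x hx => ?_
    by_cases hxK : x ∈ K
    · congr 1
      refine dS_congr ?_
      have e1 : ∀ᶠ w in 𝓝 (A.e i x), ∀ᶠ v in 𝓝 w, η v = 1 :=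
        eventually_eventually_nhds.2 (hη1 _ ⟨x, hxK, rfl⟩)
      filter_upwards [e1, (A.e i).open_target.mem_nhds ((A.e i).map_source hx)] with w hw hw'
      refine dS_congr ?_
      filter_upwards [hw, (A.e i).open_target.mem_nhds hw'] with v hv hv'
      simp only [hs']
      rw [(A.e i).right_inv hv', hv]
      simp
    · rw [h0 x hx hxK, zero_mul, zero_mul]
  have hR : lint A i (fun x => dS (-I) c (dS I d (fun z => φ ((A.e i).symm z))) (A.e i x) * s' x)
      = lint A i
        (fun x => dS (-I) c (dS I d (fun z => φ ((A.e i).symm z))) (A.e i x) * s x) := by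
    refine lint_congr fun x hx => ?_
    by_cases hxK : x ∈ K
    · simp only [hs']
      rw [(hη1 _ ⟨x, hxK, rfl⟩).self_of_nhds]
      simp
    · rw [← dl_db_eq c d φ hx, off_dl hK.isClosed (off_db hK.isClosed h0 d) c x hx hxK, zero_mul,
        zero_mul]
  rw [← hL, key, hR]

end t2

/-! ### fields of type `(1,1)` on a surface -/

variable {B : Atl 2 M}

/-- the field `S` read in the chart `i` -/
def rdS (B : Atl 2 M) (S : B.ι → M → Matrix (Fin 2) (Fin 2) ℂ) (i : B.ι) (z : Cn 2) :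
    Matrix (Fin 2) (Fin 2) ℂ := S i ((B.e i).symm z)

/-- `∂∂̄ S` as a density -/
def ddD (B : Atl 2 M) (S : B.ι → M → Matrix (Fin 2) (Fin 2) ℂ) (i : B.ι) (x : M) : ℂ :=
  ddm (rdS B S i) (B.e i x)

/-- field smooth on `U` -/
def SmS (B : Atl 2 M) (U : Set M) (S : B.ι → M → Matrix (Fin 2) (Fin 2) ℂ) : Prop :=
  ∀ i a b, SmO B U i (fun x => S i x a b)

/-- transformation law on `U` -/
def TnO (B : Atl 2 M) (U : Set M) (S : B.ι → M → Matrix (Fin 2) (Fin 2) ℂ) : Prop :=
  ∀ i j, ∀ x ∈ (B.e i).source ∩ (B.e j).source, x ∈ U →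
    S i x = (Jm B i j x)ᵀ * S j x * (Jm B i j x).map conj

/-- the Hessian of a complex function in a chart -/
def hc (B : Atl 2 M) (φ : M → ℂ) (i : B.ι) (x : M) : Matrix (Fin 2) (Fin 2) ℂ :=
  Matrix.of fun c d => dS (-I) c (dS I d (fun z => φ ((B.e i).symm z))) (B.e i x)

theorem hc_ofReal (θ : M → ℝ) (i : B.ι) (x : M) :
    hc B (fun y => (θ y : ℂ)) i x = hsf B θ i x := by
  ext c d
  unfold hsf
  rw [hess_eq]
  rfl

theorem hc_add {φ ψ : M → ℂ} {i : B.ι} {x : M} (hx : x ∈ (B.e i).source) (hφ : B.SmAt i φ)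
    (hψ : B.SmAt i ψ) : hc B (fun y => φ y + ψ y) i x = hc B φ i x + hc B ψ i x := by
  have hz := (B.e i).open_target.mem_nhds ((B.e i).map_source hx)
  ext c d
  exact dS2_add (hφ.contDiffAt hz) (hψ.contDiffAt hz) _ _ c d

theorem hc_const (c : ℂ) (i : B.ι) (x : M) : hc B (fun _ => c) i x = 0 := by
  ext a b
  show dS (-I) a (dS I b (fun _ => c)) _ = 0
  have : dS I b (fun _ : Cn 2 => c) = fun _ => (0 : ℂ) := funext fun _ => dS_const
  rw [this, dS_const]

theorem hc_sum {σ : Type*} {s : Finset σ} {φ : σ → M → ℂ} {i : B.ι} {x : M}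
    (hx : x ∈ (B.e i).source) (hφ : ∀ t ∈ s, B.SmAt i (φ t)) :
    hc B (fun y => ∑ t ∈ s, φ t y) i x = ∑ t ∈ s, hc B (φ t) i x := by
  classical
  induction s using Finset.induction_on with
  | empty => simpa using hc_const (B := B) 0 i x
  | insert t s ht ih =>
    simp only [Finset.sum_insert ht]
    have h1 : B.SmAt i (fun y => ∑ t ∈ s, φ t y) := ContDiffOn.sum fun t' h =>
      hφ t' (Finset.mem_insert_of_mem h)
    rw [hc_add hx (hφ t (Finset.mem_insert_self t s)) h1,
      ih fun t' h => hφ t' (Finset.mem_insert_of_mem h)]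

theorem hc_congr {φ ψ : M → ℂ} {i : B.ι} {x : M} (hx : x ∈ (B.e i).source) (h : φ =ᶠ[𝓝 x] ψ) :
    hc B φ i x = hc B ψ i x := by
  ext c d
  have h1 : ContinuousAt (B.e i).symm (B.e i x) :=
    (B.e i).symm.continuousAt (by simpa using (B.e i).map_source hx)
  have h2 : Tendsto (B.e i).symm (𝓝 (B.e i x)) (𝓝 x) := by
    have := h1.tendsto
    rwa [(B.e i).left_inv hx] at this
  have h3 : ∀ᶠ z in 𝓝 (B.e i x), φ ((B.e i).symm z) = ψ ((B.e i).symm z) := h2.eventually h
  refine dS_congr ?_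
  filter_upwards [h3.eventually_nhds] with z hz
  exact dS_congr hz

theorem sum_pd {σ : Type*} (s : Finset σ) (X : σ → Matrix (Fin 2) (Fin 2) ℂ)
    (Y : Matrix (Fin 2) (Fin 2) ℂ) : pd (∑ t ∈ s, X t) Y = ∑ t ∈ s, pd (X t) Y := by
  simp only [pd, Matrix.sum_apply, Finset.sum_mul, ← Finset.sum_add_distrib,
    ← Finset.sum_sub_distrib]

theorem pd_tn {J X Y : Matrix (Fin 2) (Fin 2) ℂ} :
    pd (Jᵀ * X * J.map conj) (Jᵀ * Y * J.map conj) = J.det * conj J.det * pd X Y := by
  rw [pd_mul, Matrix.det_transpose, Crest.Agent.R273.GreenM_5.det_map_conj]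

theorem ddm_off {b : Cn 2 → Matrix (Fin 2) (Fin 2) ℂ} {z : Cn 2} (h : b =ᶠ[𝓝 z] fun _ => 0) :
    ddm b z = 0 := by
  rw [ddm_congr h]
  unfold ddm
  have h1 : ∀ (s t : ℂ) (a b : Fin 2), dS s a (dS t b (fun _ : Cn 2 => (0 : ℂ))) z = 0 := by
    intro s t a b
    have : dS t b (fun _ : Cn 2 => (0 : ℂ)) = fun _ => (0 : ℂ) := funext fun _ => dS_const
    rw [this, dS_const]
  simp [h1]

section t2

variable [T2Space M] {K : Set M} {U : Set M} {S : B.ι → M → Matrix (Fin 2) (Fin 2) ℂ}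

/-- Stokes in one chart -/
theorem lint_ddm {i : B.ι} {φ : M → ℂ} (hU : IsOpen U) (hφ : B.SmAt i φ)
    (hs : ∀ a b, SmO B U i (fun x => S i x a b)) (hK : IsCompact K) (hKi : K ⊆ (B.e i).source)
    (hKU : K ⊆ U) (h0 : ∀ x ∈ (B.e i).source, x ∉ K → φ x = 0) :
    lint B i (fun x => φ x * ddD B S i x) = lint B i (fun x => pd (hc B φ i x) (S i x)) := by
  have key := fun c d a b => lint_parts2' (s := fun x => S i x a b) hU hφ (hs a b) hK hKi hKU h0 c d
  have hd : ∀ c d, B.SmAt i (fun x => hc B φ i x c d) := by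
    intro c d
    have h1 := smAt_dl (Atl.SmAt.db hφ d) c
    refine h1.congr fun z hz => ?_
    show dS (-I) c (dS I d (fun z => φ ((B.e i).symm z))) (B.e i ((B.e i).symm z)) = _
    rw [dl_db_eq c d φ ((B.e i).map_target hz)]
  have hoff : ∀ c d, ∀ x ∈ (B.e i).source, x ∉ K → hc B φ i x c d = 0 := by
    intro c d x hx hxK
    show dS (-I) c (dS I d (fun z => φ ((B.e i).symm z))) (B.e i x) = 0
    rw [← dl_db_eq c d φ hx]
    exact off_dl hK.isClosed (off_db hK.isClosed h0 d) c x hx hxK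
  -- second derivatives of the entries of `S` are smooth on `U`
  have hsd : ∀ c d a b, SmO B U i (fun x => dS (-I) c (dS I d
      (fun z => S i ((B.e i).symm z) a b)) (B.e i x)) := by
    intro c d a b x hx hxU
    have h1 := hs a b x hx hxU
    refine ContDiffAt.congr_of_eventuallyEq
      (f := dS (-I) c (dS I d (fun z => S i ((B.e i).symm z) a b))) ?_ ?_
    · exact Sm.dS (Sm.dS h1 _ _) _ _
    · filter_upwards [(B.e i).open_target.mem_nhds ((B.e i).map_source hx)] with z hz
      rw [(B.e i).right_inv hz]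
  have hi1 : ∀ c d a b, Integrable (rd B i (fun x => φ x * dS (-I) c (dS I d
      (fun z => S i ((B.e i).symm z) a b)) (B.e i x))) := fun c d a b =>
    integrable_of_off (smAt_mul_off hK.isClosed hKU hφ h0 (hsd c d a b)) hK hKi fun x hx hxK => by
      rw [h0 x hx hxK, zero_mul]
  have hi2 : ∀ c d a b, Integrable (rd B i (fun x => hc B φ i x c d * S i x a b)) :=
    fun c d a b => integrable_of_off
      (smAt_mul_off hK.isClosed hKU (hd c d) (hoff c d) (hs a b)) hK hKi fun x hx hxK => by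
        rw [hoff c d x hx hxK, zero_mul]
  have ineg : ∀ {f : M → ℂ}, Integrable (rd B i f) → Integrable (rd B i (fun x => - f x)) := by
    intro f hf
    have : rd B i (fun x => - f x) = fun y => - rd B i f y := by
      funext y
      by_cases hy : y ∈ Ui B i
      · rw [rd_of_mem hy, rd_of_mem hy]
      · rw [rd_off hy, rd_off hy, neg_zero]
    rw [this]
    exact hf.neg
  have lneg : ∀ {f : M → ℂ}, lint B i (fun x => - f x) = - lint B i f := by
    intro f
    have := lint_smul (A := B) (i := i) (-1) f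
    simpa using this
  have iadd : ∀ {f g : M → ℂ}, Integrable (rd B i f) → Integrable (rd B i g) →
      Integrable (rd B i (fun x => f x + g x)) := by
    intro f g hf hg
    have : rd B i (fun x => f x + g x) = fun y => rd B i f y + rd B i g y := by
      funext y
      by_cases hy : y ∈ Ui B i
      · rw [rd_of_mem hy, rd_of_mem hy, rd_of_mem hy]
      · rw [rd_off hy, rd_off hy, rd_off hy, add_zero]
    rw [this]
    exact hf.add hg
  have l4 : ∀ {f1 f2 f3 f4 : M → ℂ}, Integrable (rd B i f1) → Integrable (rd B i f2) →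
      Integrable (rd B i f3) → Integrable (rd B i f4) →
      lint B i (fun x => (f1 x + f2 x) + (- f3 x + - f4 x)) =
        (lint B i f1 + lint B i f2) + (- lint B i f3 + - lint B i f4) := by
    intro f1 f2 f3 f4 h1 h2 h3 h4
    rw [lint_add (iadd h1 h2) (iadd (ineg h3) (ineg h4)), lint_add h1 h2,
      lint_add (ineg h3) (ineg h4), lneg, lneg]
  have e1 : lint B i (fun x => φ x * ddD B S i x) = lint B i (fun x =>
      (φ x * dS (-I) 0 (dS I 0 (fun z => S i ((B.e i).symm z) 1 1)) (B.e i x)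
        + φ x * dS (-I) 1 (dS I 1 (fun z => S i ((B.e i).symm z) 0 0)) (B.e i x))
      + (- (φ x * dS (-I) 0 (dS I 1 (fun z => S i ((B.e i).symm z) 1 0)) (B.e i x))
        + - (φ x * dS (-I) 1 (dS I 0 (fun z => S i ((B.e i).symm z) 0 1)) (B.e i x)))) := by
    refine lint_congr fun x _ => ?_
    unfold ddD ddm rdS
    ring
  have e2 : lint B i (fun x => pd (hc B φ i x) (S i x)) = lint B i (fun x =>
      (hc B φ i x 0 0 * S i x 1 1 + hc B φ i x 1 1 * S i x 0 0)
      + (- (hc B φ i x 0 1 * S i x 1 0) + - (hc B φ i x 1 0 * S i x 0 1))) := by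
    refine lint_congr fun x _ => ?_
    unfold pd
    ring
  rw [e1, e2, l4 (hi1 _ _ _ _) (hi1 _ _ _ _) (hi1 _ _ _ _) (hi1 _ _ _ _),
    l4 (hi2 _ _ _ _) (hi2 _ _ _ _) (hi2 _ _ _ _) (hi2 _ _ _ _),
    key 0 0 1 1, key 1 1 0 0, key 0 1 1 0, key 1 0 0 1]
  rfl

/-- the density `pd (∂∂̄θ) S` of a real function with compact support -/
theorem den_pd (hKc : IsClosed K) {θ : M → ℝ} (hθ : B.Sm θ) (hKU : K ⊆ U)
    (h0 : ∀ x, x ∉ K → θ x = 0) (hS : SmS B U S) (hT : TnO B U S) :
    Den B (fun i x => pd (hc B (fun y => (θ y : ℂ)) i x) (S i x)) where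
  sm i := by
    have hφ : B.SmAt i (fun y => (θ y : ℂ)) := smAt_ofReal (hθ i)
    have h0' : ∀ x ∈ (B.e i).source, x ∉ K → (θ x : ℂ) = 0 := fun x _ hx => by rw [h0 x hx]; simp
    have hd : ∀ c d, B.SmAt i (fun x => hc B (fun y => (θ y : ℂ)) i x c d) := by
      intro c d
      have h1 := smAt_dl (Atl.SmAt.db hφ d) c
      refine h1.congr fun z hz => ?_
      show dS (-I) c (dS I d (fun z => (θ ((B.e i).symm z) : ℂ))) (B.e i ((B.e i).symm z)) = _
      rw [dl_db_eq c d (fun y => (θ y : ℂ)) ((B.e i).map_target hz)]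
    have hoff : ∀ c d, ∀ x ∈ (B.e i).source, x ∉ K →
        hc B (fun y => (θ y : ℂ)) i x c d = 0 := by
      intro c d x hx hxK
      show dS (-I) c (dS I d (fun z => (θ ((B.e i).symm z) : ℂ))) (B.e i x) = 0
      rw [← dl_db_eq c d (fun y => (θ y : ℂ)) hx]
      exact off_dl hKc (off_db hKc h0' d) c x hx hxK
    have hm : ∀ c d a b, B.SmAt i (fun x => hc B (fun y => (θ y : ℂ)) i x c d * S i x a b) :=
      fun c d a b => smAt_mul_off hKc hKU (hd c d) (hoff c d) (hS i a b)
    exact (((hm 0 0 1 1).add (hm 1 1 0 0)).sub (hm 0 1 1 0)).sub (hm 1 0 0 1)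
  tr i j x hx := by
    rw [hc_ofReal, hc_ofReal]
    by_cases hxU : x ∈ U
    · rw [hT i j x hx hxU, hsf_tr hθ hx, pd_tn, Crest.Agent.R273.GreenM_5.dens_Jm]
    · have hxK : x ∉ K := fun h => hxU (hKU h)
      have hz : ∀ k, x ∈ (B.e k).source → hsf B θ k x = 0 := by
        intro k hk
        rw [← hc_ofReal]
        have : (fun y => (θ y : ℂ)) =ᶠ[𝓝 x] fun _ => (0 : ℂ) := by
          filter_upwards [hKc.isOpen_compl.mem_nhds hxK] with y hy
          rw [h0 y hy]; simp
        rw [hc_congr hk this, hc_const]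
      have hp : ∀ Y : Matrix (Fin 2) (Fin 2) ℂ, pd 0 Y = 0 := fun Y => by simp [pd]
      rw [hz i hx.1, hz j hx.2, hp, hp, mul_zero]

/-- **Stokes** for fields of type `(1,1)`: `∫ θ ∂∂̄S = ∫ ∂∂̄θ ∧ S` -/
theorem tensor_stokes (P : Part B) (hU : IsOpen U) {θ : M → ℝ} (hθ : B.Sm θ) (hK : IsCompact K)
    (hKU : K ⊆ U) (h0 : ∀ x, x ∉ K → θ x = 0) (hS : SmS B U S) (hT : TnO B U S) :
    intD P (fun i x => (θ x : ℂ) * ddD B S i x) = intD P (fun i x => pd (hsf B θ i x) (S i x)) := by
  classical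
  have hKc := hK.isClosed
  set F := Fn P hK with hF
  have hFF : Fn P hK ⊆ F := Finset.Subset.refl _
  have hO : OffK B (fun i x => (θ x : ℂ) * ddD B S i x) K := fun i x _ hxK => by
    show (θ x : ℂ) * _ = 0
    rw [h0 x hxK]; simp
  -- the pieces
  set θl : B.ι → M → ℝ := fun l x => P.ψ l x * θ x with hθl
  have hθls : ∀ l, B.Sm (θl l) := fun l i => (P.ψ_sm l i).mul (hθ i)
  set Kl : B.ι → Set M := fun l => K ∩ tsupport (P.χ l) with hKl
  have hKlc : ∀ l, IsCompact (Kl l) := fun l => hK.inter_right (isClosed_tsupport _)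
  have hKls : ∀ l, Kl l ⊆ (B.e l).source := fun l x hx => P.χ_sub l hx.2
  have hKlU : ∀ l, Kl l ⊆ U := fun l x hx => hKU hx.1
  have h0l : ∀ l, ∀ x, x ∉ Kl l → θl l x = 0 := by
    intro l x hx
    simp only [hθl]
    by_cases hxK : x ∈ K
    · rw [psi_zero_off P l fun h => hx ⟨hxK, h⟩, zero_mul]
    · rw [h0 x hxK, mul_zero]
  have hden : ∀ l, Den B (fun i x => pd (hc B (fun y => (θl l y : ℂ)) i x) (S i x)) := fun l =>
    den_pd (hKlc l).isClosed (hθls l) (hKlU l) (h0l l) hS hT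
  have hoffl : ∀ l, OffK B (fun i x => pd (hc B (fun y => (θl l y : ℂ)) i x) (S i x)) (Kl l) := by
    intro l i x hx hxK
    show pd (hc B (fun y => (θl l y : ℂ)) i x) (S i x) = 0
    have : (fun y => (θl l y : ℂ)) =ᶠ[𝓝 x] fun _ => (0 : ℂ) := by
      filter_upwards [(hKlc l).isClosed.isOpen_compl.mem_nhds hxK] with y hy
      rw [h0l l y hy]; simp
    rw [hc_congr hx this, hc_const]
    simp [pd]
  have h1 : ∀ l ∈ F, lint B l (fun x => (P.ψ l x : ℂ) * ((θ x : ℂ) * ddD B S l x))
      = intD P (fun i x => pd (hc B (fun y => (θl l y : ℂ)) i x) (S i x)) := by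
    intro l _
    rw [intD_local P (hden l) (hKlc l) (hKls l) (hoffl l),
      ← lint_ddm (φ := fun y => (θl l y : ℂ)) hU (smAt_ofReal (hθls l l)) (hS l) (hKlc l) (hKls l)
        (hKlU l) (fun x _ hx => by rw [h0l l x hx]; simp)]
    refine lint_congr fun x _ => ?_
    simp only [hθl]
    push_cast
    ring
  rw [intD_eq_sum P hK hFF hO, Finset.sum_congr rfl h1,
    ← intD_sum P F (fun l _ i => (hden l).sm i) hK fun l _ => (hoffl l).mono fun x hx => hx.1]
  refine intD_congr P fun i x hx => ?_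
  rw [← sum_pd, ← hc_ofReal, ← hc_sum hx fun l _ => smAt_ofReal (hθls l i)]
  congr 1
  have : (fun y => ∑ l ∈ F, (θl l y : ℂ)) = fun y => (θ y : ℂ) := by
    funext y
    simp only [hθl]
    push_cast
    rw [← Finset.sum_mul]
    by_cases hy : y ∈ K
    · rw [sum_psiC P hK hFF hy, one_mul]
    · rw [h0 y hy]; simp
  rw [this]

end t2

end

end Crest.Agent.R257.GBL1_625
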