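import Crest.Agent.R257.UpK1_938
import Crest.Agent.R257.Up3_938
import Crest.Agent.R257.Ked2_397
import Crest.Agent.R257.GBL1_625

/-!
# R257 (S0395) (helper5): the bridge between integrals on 941's atlas and the interface KED_952

* `dn_pd`    : `φ ∂∂̄a ∧ ∂∂̄b` is a density
* `intD_mxd` : `intD Pt (φ pd (∂∂̄a) (∂∂̄b)) = ∫ φ mxd f a b ∂ν` (compact support)
-/

set_option autoImplicit false
set_option linter.unusedSectionVars false

open Set Filter Topology Complex MeasureTheory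
open scoped ContDiff Matrix ComplexConjugate ENNReal

namespace Crest.Agent.R257.DegBr_5

open Crest.Agent.R275 Crest.Agent.R275.Geo Crest.Agent.R275.Core144 Crest.Agent.R275.EDR890
open Crest.Agent.R275.C1d194 Crest.Agent.R275.Pai323
open Crest.Agent.R275.SerG398 (lint dens)
open Crest.Agent.R273.Defs_333 Crest.Agent.R273.Hess_333 Crest.Agent.R273.Kah_333
open Crest.Agent.R273.StokesV_332 Crest.Agent.R273.Vm_333
open Crest.Agent.R273.StV_37 (tot)
open Crest.Agent.R273.GreenM_5 (Dn)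
open Crest.Agent.R273.Green_5 (hsf_cf)
open Crest.Agent.R273.YauDefs_635 (cH)
open Crest.Agent.R273.YauMax_635 (cH_eq_hess)
open Crest.Agent.R273.Mass_5 (w_dens fH wC_ne fH_div sm_fH)
open Crest.Agent.R257.Atl_941 (SFam dX dch inj_chart dch_tangent par_chart sm_comp_val)
open Crest.Agent.R257.Defs_219 (E3)
open Crest.Agent.R257.KED_952 Crest.Agent.R257.V1Defs_822 Crest.Agent.R257.UpK_938
open Crest.Agent.R257.C2F1_625 (pd)

noncomputable section

section gen

variable {M : Type} [TopologicalSpace M] {A : Atl 2 M}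

theorem pd_conj {X Y : Matrix (Fin 2) (Fin 2) ℂ} (hX : X.IsHermitian) (hY : Y.IsHermitian) :
    conj (pd X Y) = pd X Y := by
  have x01 := hX.apply 0 1
  have x00 := hX.apply 0 0
  have x11 := hX.apply 1 1
  have y01 := hY.apply 0 1
  have y00 := hY.apply 0 0
  have y11 := hY.apply 1 1
  have x10 := hX.apply 1 0
  have y10 := hY.apply 1 0
  simp only [pd, map_sub, map_add, map_mul]
  simp only [← Complex.star_def, x01, x00, x11, y01, y00, y11, x10, y10]
  ring

theorem dn_pd {φ a b : M → ℝ} (ha : A.Sm a) (hb : A.Sm b) :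
    Dn A (fun i x => (φ x : ℂ) * pd (hsf A a i x) (hsf A b i x)) := by
  intro i j x hx
  show (φ x : ℂ) * pd (hsf A a i x) (hsf A b i x) = _
  rw [hsf_tr ha hx, hsf_tr hb hx, Crest.Agent.R257.GBL1_625.pd_tn,
    Crest.Agent.R273.GreenM_5.dens_Jm]
  ring

theorem sm_pd {φ a b : M → ℝ} (hφ : A.Sm φ) (ha : A.Sm a) (hb : A.Sm b) (i : A.ι) :
    A.SmAt i (fun x => (φ x : ℂ) * pd (hsf A a i x) (hsf A b i x)) := by
  have h1 : A.SmAt i (fun y => (φ y : ℂ)) := smAt_ofReal (hφ i)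
  have h2 := fun c d => (hsf_cf ha).sm i c d
  have h3 := fun c d => (hsf_cf hb).sm i c d
  exact h1.mul (((((h2 0 0).mul (h3 1 1)).add ((h2 1 1).mul (h3 0 0))).sub
    ((h2 0 1).mul (h3 1 0))).sub ((h2 1 0).mul (h3 0 1)))

end gen

section br

variable {f : E3 → ℂ} {s : ℂ} {r : ℝ} (hf : LvlOK f s r)

/-- smooth functions on the level -/
theorem sm_val {a : E3 → ℝ} (ha : SmL f s r a) : ((LX hf).A 0).Sm (fun x => a x.1) := fun i =>
  ha _ _ (pe_chart hf i)

theorem hsf_cH {a : E3 → ℝ} (ha : SmL f s r a) {i : ((LX hf).A 0).ι} {x : (LX hf).M 0}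
    (hx : x ∈ (((LX hf).A 0).e i).source) :
    hsf ((LX hf).A 0) (fun x => a x.1) i x =
      cH (fun z => a (thc hf i z)) (((LX hf).A 0).e i x) := by
  have h := (ha _ _ (pe_chart hf i)).contDiffAt
    ((((LX hf).A 0).e i).open_target.mem_nhds ((((LX hf).A 0).e i).map_source hx))
  rw [cH_eq_hess h]
  rfl

/-- the density w.r.t. `|η|²` -/
theorem fH_mxd {φ a b : E3 → ℝ} (ha : SmL f s r a) (hb : SmL f s r b) (x : (LX hf).M 0) :
    fH ((LX hf).eta 0) (fun i x => (φ x.1 : ℂ) * pd (hsf ((LX hf).A 0) (fun x => a x.1) i x)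
      (hsf ((LX hf).A 0) (fun x => b x.1) i x)) x = ((φ x.1 * mxd f a b x.1 : ℝ) : ℂ) := by
  obtain ⟨i, hi⟩ := ((LX hf).A 0).cover x
  have hz := (((LX hf).A 0).e i).map_source hi
  rw [fH_div _ (dn_pd (sm_val hf ha) (sm_val hf hb)) hi]
  have hd := (Crest.Agent.R257.Ked2_397.denStmt f s r hf.pos hf.an hf.sm _ _ (pe_chart hf i)).1 a b
    (ha _ _ (pe_chart hf i)) (hb _ _ (pe_chart hf i)) _ hz
  rw [thc_eq hf hi, ← hsf_cH hf ha hi, ← hsf_cH hf hb hi] at hd
  have hw : ((LX hf).eta 0).w i x = Crest.Agent.R257.Aff_835.eta2a (n := 2) f (thc hf i)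
      (((LX hf).A 0).e i x) := by
    rw [← e2_eta hf hz, (((LX hf).A 0).e i).left_inv hi]
  have hne := wC_ne ((LX hf).eta 0) hi
  rw [div_eq_iff hne, hw]
  have hre : ((pd (hsf ((LX hf).A 0) (fun x => a x.1) i x)
      (hsf ((LX hf).A 0) (fun x => b x.1) i x)).re : ℂ) =
      pd (hsf ((LX hf).A 0) (fun x => a x.1) i x) (hsf ((LX hf).A 0) (fun x => b x.1) i x) :=
    Complex.conj_eq_iff_re.1 (pd_conj (Crest.Agent.R273.GreenM_5.hsf_herm (sm_val hf ha) hi)
      (Crest.Agent.R273.GreenM_5.hsf_herm (sm_val hf hb) hi))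
  rw [← hre, ← hd]
  push_cast
  ring

/-- integrals over the level -/
theorem integral_nu {ν : Measure E3} (hν : IsNu f s r ν) {W : Type*} [NormedAddCommGroup W]
    [NormedSpace ℝ W] (Φ : E3 → W) : ∫ x, Φ x.1 ∂((LX hf).vol 0) = ∫ x, Φ x ∂ν := by
  rw [← nu_eq hf hν]
  have h1 : MeasurableEmbedding (Subtype.val : (LX hf).M 0 → E3) :=
    MeasurableEmbedding.subtype_coe (meas_lvl hf)
  exact (h1.integral_map Φ).symm

/-- **the bridge** -/
theorem intD_mxd {ν : Measure E3} (hν : IsNu f s r ν) {φ a b : E3 → ℝ} (hφ : SmL f s r φ)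
    (ha : SmL f s r a) (hb : SmL f s r b) {K : Set ((LX hf).M 0)} (hK : IsCompact K)
    (h0 : ∀ x ∉ K, φ x.1 * mxd f a b x.1 = 0) (Pt : Part ((LX hf).A 0)) :
    intD Pt (fun i x => (φ x.1 : ℂ) * pd (hsf ((LX hf).A 0) (fun x => a x.1) i x)
      (hsf ((LX hf).A 0) (fun x => b x.1) i x)) = ((∫ x, φ x * mxd f a b x ∂ν : ℝ) : ℂ) := by
  have hc := (LX hf).countable 0
  set D : ((LX hf).A 0).ι → (LX hf).M 0 → ℂ := fun i x =>
    (φ x.1 : ℂ) * pd (hsf ((LX hf).A 0) (fun x => a x.1) i x)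
      (hsf ((LX hf).A 0) (fun x => b x.1) i x) with hD
  have hDn : Dn ((LX hf).A 0) D := dn_pd (sm_val hf ha) (sm_val hf hb)
  have hfH : ∀ x, fH ((LX hf).eta 0) D x = ((φ x.1 * mxd f a b x.1 : ℝ) : ℂ) :=
    fH_mxd hf ha hb
  have hoff : OffK ((LX hf).A 0) D K := by
    intro i x hx hxK
    have h1 := hfH x
    rw [h0 x hxK, fH_div _ hDn hx, Complex.ofReal_zero, div_eq_zero_iff] at h1
    exact h1.resolve_right (wC_ne _ hx)
  have h1 := Crest.Agent.R257.Up3_938.tot_eq ((LX hf).eta 0) Pt hDn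
    (fun i => sm_pd (sm_val hf hφ) (sm_val hf ha) (sm_val hf hb) i) hK (F := Fn Pt hK)
    Subset.rfl fun x hx => by rw [hfH, h0 x hx]; simp
  rw [intD_eq_sum Pt hK (Finset.Subset.refl _) hoff]
  refine Eq.trans (h1 : _ = _) ?_
  simp only [hfH]
  refine Eq.trans (integral_ofReal (𝕜 := ℂ)) ?_
  congr 1
  exact integral_nu hf hν (fun x => φ x * mxd f a b x)

end br

end

end Crest.Agent.R257.DegBr_5
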