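import Crest.Agent.R273.StokesV_332
import Crest.Agent.R273.Vm_333
import Crest.Agent.R257.Area_5

/-!
# R257 (S0395), leaf MASS-M3 (helper5), part 3: change of variables for a finite-to-one
holomorphic map `π : M → ℂⁿ` (on the open set `N`)

* `jm A π l x` : complex Jacobian matrix in the chart `l`
* `fsum_eq` : sum over the sheets
* `cov` : `intD P f = m ∫ G` when `f l = G(π) |det jm|²` and `π` is `m`-to-one on `{G ≠ 0}`
-/

set_option autoImplicit false
set_option linter.unusedSectionVars false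

open Set Filter Topology Complex MeasureTheory
open scoped ContDiff Matrix ComplexConjugate ENNReal

namespace Crest.Agent.R257.DegM_5

open Crest.Agent.R275 Crest.Agent.R275.Geo Crest.Agent.R275.C1d194 Crest.Agent.R275.Pai323
open Crest.Agent.R275.SerG398 (lint dens)
open Crest.Agent.R273.StokesV_332 Crest.Agent.R273.Vm_333
open Crest.Agent.R257.Area_5

noncomputable section

variable {n : ℕ} {M : Type} [TopologicalSpace M] {A : Atl n M}

/-- `(∂_a π_c)_{a c}` in the chart `l` -/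
def jm (A : Atl n M) (π : M → Cn n) (l : A.ι) (x : M) : Matrix (Fin n) (Fin n) ℂ :=
  Matrix.of fun a c => (fderiv ℂ (fun z => π ((A.e l).symm z)) (A.e l x)
    (EuclideanSpace.single a 1)) c

theorem det_jm (π : M → Cn n) (l : A.ι) (x : M) :
    (jm A π l x).det =
      LinearMap.det ((fderiv ℂ (fun z => π ((A.e l).symm z)) (A.e l x) : Cn n →L[ℂ] Cn n) :
        Cn n →ₗ[ℂ] Cn n) := by
  rw [← LinearMap.det_toMatrix (EuclideanSpace.basisFun (Fin n) ℂ).toBasis, ← Matrix.det_transpose]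
  congr 1

/-- `π` in real coordinates -/
def pr (A : Atl n M) (π : M → Cn n) (l : A.ι) (y : RI n → ℝ) : RI n → ℝ := rc (π (sg A l y))

/-- the part of the chart over `N` -/
def UN (A : Atl n M) (N : Set M) (l : A.ι) : Set (RI n → ℝ) := {y | y ∈ Ui A l ∧ sg A l y ∈ N}

variable {N : Set M} {π : M → Cn n}

theorem isOpen_UN (hN : IsOpen N) (l : A.ι) : IsOpen (UN A N l) :=
  (continuousOn_sg l).isOpen_inter_preimage (C1d194.isOpen_Ui l) hN

/-- `π` is holomorphic on `N` -/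
def HolN (A : Atl n M) (N : Set M) (π : M → Cn n) : Prop :=
  ∀ l, DifferentiableOn ℂ (fun z => π ((A.e l).symm z)) {z | z ∈ (A.e l).target ∧ (A.e l).symm z ∈ N}

theorem isOpen_TN (hN : IsOpen N) (l : A.ι) :
    IsOpen {z | z ∈ (A.e l).target ∧ (A.e l).symm z ∈ N} :=
  (A.e l).continuousOn_symm.isOpen_inter_preimage (A.e l).open_target hN

theorem HolN.diffAt (hπ : HolN A N π) (hN : IsOpen N) {l : A.ι} {y : RI n → ℝ} (hy : y ∈ UN A N l) :
    DifferentiableAt ℂ (fun z => π ((A.e l).symm z)) (cc y) :=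
  (hπ l).differentiableAt ((isOpen_TN hN l).mem_nhds hy)

theorem hasFDerivAt_pr (hπ : HolN A N π) (hN : IsOpen N) {l : A.ι} {y : RI n → ℝ}
    (hy : y ∈ UN A N l) :
    ∃ L : (RI n → ℝ) →L[ℝ] (RI n → ℝ), HasFDerivAt (pr A π l) L y ∧
      |L.det| = ‖(jm A π l (sg A l y)).det‖ ^ 2 := by
  have hd := hπ.diffAt hN hy
  set D := fderiv ℂ (fun z => π ((A.e l).symm z)) (cc y) with hD
  have h1 : HasFDerivAt (fun z => π ((A.e l).symm z)) (D.restrictScalars ℝ) (cc y) :=
    hd.hasFDerivAt.restrictScalars ℝ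
  let ccL : (RI n → ℝ) →L[ℝ] Cn n := ((rcE n).symm.toContinuousLinearEquiv : (RI n → ℝ) →L[ℝ] Cn n)
  have h2 : HasFDerivAt (cc : (RI n → ℝ) → Cn n) ccL y :=
    ((rcE n).symm.toContinuousLinearEquiv).hasFDerivAt
  have h3 : HasFDerivAt (rc : Cn n → RI n → ℝ) (rcL n) (π ((A.e l).symm (cc y))) := by
    rw [rc_eq]; exact (rcL n).hasFDerivAt
  have h4 := h3.comp y (h1.comp y h2)
  refine ⟨_, h4, ?_⟩
  have h5 : ((((rcL n).comp ((D.restrictScalars ℝ).comp ccL)) : (RI n → ℝ) →L[ℝ] (RI n → ℝ)) :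
      (RI n → ℝ) →ₗ[ℝ] (RI n → ℝ)) = ((rcE n : Cn n →ₗ[ℝ] (RI n → ℝ)) ∘ₗ
        ((D : Cn n →ₗ[ℂ] Cn n).restrictScalars ℝ)) ∘ₗ ((rcE n).symm : (RI n → ℝ) →ₗ[ℝ] Cn n) := by
    ext v p
    rfl
  have h6 : ((rcL n).comp ((D.restrictScalars ℝ).comp ccL)).det =
      ‖LinearMap.det (D : Cn n →ₗ[ℂ] Cn n)‖ ^ 2 := by
    rw [← det_real D, ← h5]
  have h7 : A.e l (sg A l y) = cc y := (A.e l).right_inv hy.1
  rw [h6, det_jm, h7, ← hD, abs_of_nonneg (by positivity)]

theorem contDiffOn_pr (hπ : HolN A N π) (hN : IsOpen N) (l : A.ι) :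
    ContDiffOn ℝ 1 (pr A π l) (UN A N l) := by
  have h1 : ContDiffOn ℝ 1 (fun z => π ((A.e l).symm z))
      {z | z ∈ (A.e l).target ∧ (A.e l).symm z ∈ N} :=
    ((Crest.Agent.R266.SCV.contDiffOn_omega_of_differentiableOn (isOpen_TN hN l)
      (hπ l)).restrict_scalars ℝ).of_le le_top
  have h2 : ContDiffOn ℝ 1 (fun y => π ((A.e l).symm (cc y))) (UN A N l) :=
    h1.comp (contDiff_cc.contDiffOn) fun y hy => hy
  have h3 : ContDiff ℝ 1 (rc : Cn n → RI n → ℝ) := by
    rw [rc_eq]; exact (rcL n).contDiff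
  exact h3.comp_contDiffOn h2

theorem fderiv_pr (hπ : HolN A N π) (hN : IsOpen N) {l : A.ι} {y : RI n → ℝ} (hy : y ∈ UN A N l) :
    |(fderiv ℝ (pr A π l) y).det| = ‖(jm A π l (sg A l y)).det‖ ^ 2 := by
  obtain ⟨L, h1, h2⟩ := hasFDerivAt_pr hπ hN hy
  rw [h1.fderiv, h2]

/-- the sum over the points of the fibre in one chart -/
theorem fs_chart (l : A.ι) {ρ : M → ℝ≥0∞} (hρ : ∀ x ∉ (A.e l).source, ρ x = 0)
    (y : RI n → ℝ) :
    fs (UN A N l) (pr A π l) (fun z => ρ (sg A l z)) y =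
      ∑' x : {x // x ∈ N ∧ π x = cc y}, ρ x := by
  classical
  rw [fs_eq]
  -- injection of the left index set
  let φ : {z // z ∈ UN A N l ∧ pr A π l z = y} → {x // x ∈ N ∧ π x = cc y} := fun z =>
    ⟨sg A l z, z.2.1.2, by
      have h := congrArg (cc (n := n)) z.2.2
      rw [← h]
      exact (cc_rc _).symm⟩
  have hφ : Function.Injective φ := by
    rintro ⟨z, hz⟩ ⟨z', hz'⟩ h
    have h1 : sg A l z = sg A l z' := congrArg Subtype.val h
    have h2 : cc z = cc z' := by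
      rw [← (A.e l).right_inv hz.1.1, ← (A.e l).right_inv hz'.1.1]
      exact congrArg _ h1
    have h3 : z = z' := by
      rw [← rc_cc z, ← rc_cc z', h2]
    exact Subtype.ext h3
  rw [← hφ.tsum_eq (f := fun x : {x // x ∈ N ∧ π x = cc y} => ρ x)]
  rintro ⟨x, hx⟩ hne
  have hxs : x ∈ (A.e l).source := by
    by_contra h
    exact hne (hρ x h)
  have h1 : sg A l (rc (A.e l x)) = x := sg_rc hxs
  refine ⟨⟨rc (A.e l x), ⟨mem_Ui hxs, by rw [h1]; exact hx.1⟩, ?_⟩, ?_⟩
  · unfold pr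
    rw [h1, hx.2, rc_cc]
  · exact Subtype.ext h1

/-- the sum over all charts -/
theorem fsum_eq {F : Finset A.ι} {ρ : A.ι → M → ℝ} (hρ0 : ∀ l x, 0 ≤ ρ l x)
    (hρ : ∀ l, ∀ x ∉ (A.e l).source, ρ l x = 0) {y : RI n → ℝ} {m : ℕ}
    (h1 : ∀ x ∈ N, π x = cc y → ∑ l ∈ F, ρ l x = 1) (hm : {x | x ∈ N ∧ π x = cc y}.encard = m) :
    ∑ l ∈ F, fs (UN A N l) (pr A π l) (fun z => ENNReal.ofReal (ρ l (sg A l z))) y = m := by
  classical
  have h2 : ∀ l ∈ F, fs (UN A N l) (pr A π l) (fun z => ENNReal.ofReal (ρ l (sg A l z))) y =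
      ∑' x : {x // x ∈ N ∧ π x = cc y}, ENNReal.ofReal (ρ l x) := fun l _ =>
    fs_chart l (ρ := fun x => ENNReal.ofReal (ρ l x)) (fun x hx => by rw [hρ l x hx]; simp) y
  rw [Finset.sum_congr rfl h2]
  have hfin : {x | x ∈ N ∧ π x = cc y}.Finite := Set.finite_of_encard_eq_coe hm
  have : Fintype {x // x ∈ N ∧ π x = cc y} := hfin.fintype
  have e : ∀ l, ∑' x : {x // x ∈ N ∧ π x = cc y}, ENNReal.ofReal (ρ l x) =
      ∑ x : {x // x ∈ N ∧ π x = cc y}, ENNReal.ofReal (ρ l x) := fun l => tsum_fintype _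
  simp only [e]
  rw [Finset.sum_comm]
  have e2 : ∀ x : {x // x ∈ N ∧ π x = cc y}, ∑ l ∈ F, ENNReal.ofReal (ρ l x) = 1 := fun x => by
    rw [← ENNReal.ofReal_sum_of_nonneg fun l _ => hρ0 l x, h1 x x.2.1 x.2.2, ENNReal.ofReal_one]
  simp only [e2]
  rw [Finset.sum_const, Finset.card_univ, nsmul_eq_mul, mul_one]
  have h3 : ENat.card {x // x ∈ N ∧ π x = cc y} = m := by
    rw [← hm]
    rfl
  rw [ENat.card_eq_coe_fintype_card] at h3
  exact_mod_cast h3

/-! ### the change of variables -/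

/-- the density in the chart `l` -/
def gl (A : Atl n M) (π : M → Cn n) (ρ : A.ι → M → ℝ) (G : Cn n → ℝ) (l : A.ι)
    (y : RI n → ℝ) : ℝ :=
  ρ l (sg A l y) * (G (π (sg A l y)) * ‖(jm A π l (sg A l y)).det‖ ^ 2)

theorem cov_lint (hN : IsOpen N) (hπ : HolN A N π) {F : Finset A.ι} {ρ : A.ι → M → ℝ}
    (hρc : ∀ l, ContinuousOn (fun y => ρ l (sg A l y)) (Ui A l))
    (hρ0 : ∀ l x, 0 ≤ ρ l x) (hρ : ∀ l, ∀ x ∉ (A.e l).source, ρ l x = 0)
    {G : Cn n → ℝ} (hG : Continuous G) {m : ℕ}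
    (hfib : ∀ᵐ y : RI n → ℝ, G (cc y) ≠ 0 → (∀ x ∈ N, π x = cc y → ∑ l ∈ F, ρ l x = 1) ∧
      {x | x ∈ N ∧ π x = cc y}.encard = m) :
    ∑ l ∈ F, ∫⁻ y in UN A N l, ENNReal.ofReal (gl A π ρ G l y) =
      m * ∫⁻ y : RI n → ℝ, ENNReal.ofReal (G (cc y)) := by
  classical
  have hpc : ∀ l, ContinuousOn (pr A π l) (UN A N l) := fun l =>
    (contDiffOn_pr hπ hN l).continuousOn
  set g : A.ι → (RI n → ℝ) → ℝ≥0∞ := fun l =>
    (UN A N l).indicator fun y => ENNReal.ofReal (ρ l (sg A l y) * G (π (sg A l y))) with hg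
  have hcc : ∀ l y, cc (pr A π l y) = π (sg A l y) := fun l y => cc_rc _
  have hgm : ∀ l, Measurable (g l) := by
    intro l
    have h1 : ContinuousOn (fun y => ENNReal.ofReal (ρ l (sg A l y) * G (π (sg A l y))))
        (UN A N l) := by
      refine ENNReal.continuous_ofReal.comp_continuousOn ?_
      refine ((hρc l).mono fun y hy => hy.1).mul ?_
      have h2 : ContinuousOn (fun y => G (cc (pr A π l y))) (UN A N l) :=
        (hG.comp continuous_cc).comp_continuousOn (hpc l)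
      simpa only [hcc] using h2
    have h3 := h1.measurable_piecewise (g := fun _ => (0 : ℝ≥0∞)) continuousOn_const
      (isOpen_UN hN l).measurableSet
    have h4 : g l = (UN A N l).piecewise
        (fun y => ENNReal.ofReal (ρ l (sg A l y) * G (π (sg A l y)))) (fun _ => 0) := by
      simp only [hg]
      exact (Set.piecewise_eq_indicator).symm
    rw [h4]
    exact h3
  have har := fun l => area' (volume : Measure (RI n → ℝ)) (isOpen_UN hN l) (contDiffOn_pr hπ hN l)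
    (hgm l)
  have h1 : ∀ l ∈ F, ∫⁻ y in UN A N l, ENNReal.ofReal (gl A π ρ G l y) =
      ∫⁻ y, fs (UN A N l) (pr A π l) (g l) y := by
    intro l _
    rw [(har l).2]
    refine setLIntegral_congr_fun (isOpen_UN hN l).measurableSet fun y hy => ?_
    simp only [hg]
    rw [indicator_of_mem hy, fderiv_pr hπ hN hy, ← ENNReal.ofReal_mul (by positivity)]
    congr 1
    unfold gl
    ring
  rw [Finset.sum_congr rfl h1, ← lintegral_finsetSum' _ fun l _ => (har l).1,
    ← lintegral_const_mul' _ _ (by simp)]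
  refine lintegral_congr_ae ?_
  filter_upwards [hfib] with y hy
  -- the fibre sums
  have h2 : ∀ l, fs (UN A N l) (pr A π l) (g l) y = ENNReal.ofReal (G (cc y)) *
      fs (UN A N l) (pr A π l) (fun z => ENNReal.ofReal (ρ l (sg A l z))) y := by
    intro l
    rw [fs_eq, fs_eq, ← ENNReal.tsum_mul_left]
    refine tsum_congr fun z => ?_
    simp only [hg]
    have h3 : π (sg A l z) = cc y := by
      have h := congrArg (cc (n := n)) z.2.2
      rw [← h]
      exact (cc_rc _).symm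
    rw [indicator_of_mem z.2.1, h3, ENNReal.ofReal_mul (hρ0 _ _), mul_comm]
  simp only [h2]
  rw [← Finset.mul_sum]
  by_cases h0 : G (cc y) = 0
  · rw [h0]; simp
  · rw [fsum_eq hρ0 hρ (hy h0).1 (hy h0).2, mul_comm]

/-- **change of variables**, real form -/
theorem cov_real (hN : IsOpen N) (hπ : HolN A N π) {F : Finset A.ι} {ρ : A.ι → M → ℝ}
    (hρc : ∀ l, ContinuousOn (fun y => ρ l (sg A l y)) (Ui A l))
    (hρ0 : ∀ l x, 0 ≤ ρ l x) (hρ : ∀ l, ∀ x ∉ (A.e l).source, ρ l x = 0)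
    {G : Cn n → ℝ} (hG : Continuous G) (hGi : Integrable fun y : RI n → ℝ => G (cc y)) {m : ℕ}
    (hfib : ∀ᵐ y : RI n → ℝ, G (cc y) ≠ 0 → (∀ x ∈ N, π x = cc y → ∑ l ∈ F, ρ l x = 1) ∧
      {x | x ∈ N ∧ π x = cc y}.encard = m) :
    ∑ l ∈ F, ∫ y in UN A N l, gl A π ρ G l y = m * ∫ y : RI n → ℝ, G (cc y) := by
  classical
  have hpc : ∀ l, ContinuousOn (pr A π l) (UN A N l) := fun l =>
    (contDiffOn_pr hπ hN l).continuousOn
  have hcc : ∀ l y, cc (pr A π l y) = π (sg A l y) := fun l y => cc_rc _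
  have hdc : ∀ l, ContinuousOn (fun y => ‖(jm A π l (sg A l y)).det‖ ^ 2) (UN A N l) := by
    intro l
    have h1 : ContinuousOn (fun y => |(fderiv ℝ (pr A π l) y).det|) (UN A N l) :=
      (ContinuousLinearMap.continuous_det.comp_continuousOn
        ((contDiffOn_pr hπ hN l).continuousOn_fderiv_of_isOpen (isOpen_UN hN l) le_rfl)).abs
    exact h1.congr fun y hy => (fderiv_pr hπ hN hy).symm
  -- nonnegative case
  have key : ∀ G : Cn n → ℝ, Continuous G → (∀ y, 0 ≤ G y) →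
      (Integrable fun y : RI n → ℝ => G (cc y)) →
      (∀ᵐ y : RI n → ℝ, G (cc y) ≠ 0 → (∀ x ∈ N, π x = cc y → ∑ l ∈ F, ρ l x = 1) ∧
        {x | x ∈ N ∧ π x = cc y}.encard = m) →
      (∀ l ∈ F, IntegrableOn (gl A π ρ G l) (UN A N l)) ∧
      ∑ l ∈ F, ∫ y in UN A N l, gl A π ρ G l y = m * ∫ y : RI n → ℝ, G (cc y) := by
    intro G hG hG0 hGi hfib
    have h1 := cov_lint hN hπ hρc hρ0 hρ hG hfib
    have hg0 : ∀ l y, 0 ≤ gl A π ρ G l y := fun l y =>
      mul_nonneg (hρ0 _ _) (mul_nonneg (hG0 _) (by positivity))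
    have hmeas : ∀ l, AEStronglyMeasurable (gl A π ρ G l) (volume.restrict (UN A N l)) := by
      intro l
      have h2 : ContinuousOn (gl A π ρ G l) (UN A N l) := by
        refine ((hρc l).mono fun y hy => hy.1).mul (ContinuousOn.mul ?_ (hdc l))
        have h2 : ContinuousOn (fun y => G (cc (pr A π l y))) (UN A N l) :=
          (hG.comp continuous_cc).comp_continuousOn (hpc l)
        simpa only [hcc] using h2
      exact h2.aestronglyMeasurable (isOpen_UN hN l).measurableSet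
    have hfin : (m : ℝ≥0∞) * ∫⁻ y : RI n → ℝ, ENNReal.ofReal (G (cc y)) ≠ ⊤ := by
      refine ENNReal.mul_ne_top (by simp) ?_
      rw [← ofReal_integral_eq_lintegral_ofReal hGi (Eventually.of_forall fun y => hG0 _)]
      exact ENNReal.ofReal_ne_top
    have hfl : ∀ l ∈ F, ∫⁻ y in UN A N l, ENNReal.ofReal (gl A π ρ G l y) ≠ ⊤ := by
      intro l hl
      rw [← h1] at hfin
      exact (ENNReal.sum_ne_top.1 hfin) l hl
    have hint : ∀ l ∈ F, IntegrableOn (gl A π ρ G l) (UN A N l) := by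
      intro l hl
      refine ⟨hmeas l, ?_⟩
      rw [hasFiniteIntegral_iff_ofReal (Eventually.of_forall fun y => hg0 l y)]
      exact (hfl l hl).lt_top
    refine ⟨hint, ?_⟩
    have h2 : ∀ l ∈ F, ∫ y in UN A N l, gl A π ρ G l y =
        (∫⁻ y in UN A N l, ENNReal.ofReal (gl A π ρ G l y)).toReal := fun l hl =>
      integral_eq_lintegral_of_nonneg_ae (Eventually.of_forall fun y => hg0 l y) (hmeas l)
    rw [Finset.sum_congr rfl h2, ← ENNReal.toReal_sum hfl, h1, ENNReal.toReal_mul,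
      integral_eq_lintegral_of_nonneg_ae (Eventually.of_forall fun y => hG0 _)
        hGi.aestronglyMeasurable]
    simp
  -- positive and negative parts
  have hp := key (fun y => max (G y) 0) (hG.max continuous_const) (fun y => le_max_right _ _)
    hGi.pos_part (hfib.mono fun y hy h => hy fun h' => h (by simp [h']))
  have hn := key (fun y => max (-G y) 0) (hG.neg.max continuous_const) (fun y => le_max_right _ _)
    hGi.neg_part (hfib.mono fun y hy h => hy fun h' => h (by simp [h']))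
  have e : ∀ t : ℝ, t = max t 0 - max (-t) 0 := fun t => by
    rcases le_total 0 t with h | h
    · rw [max_eq_left h, max_eq_right (by linarith)]; ring
    · rw [max_eq_right h, max_eq_left (by linarith)]; ring
  have h3 : ∀ l ∈ F, ∫ y in UN A N l, gl A π ρ G l y =
      (∫ y in UN A N l, gl A π ρ (fun y => max (G y) 0) l y) -
        ∫ y in UN A N l, gl A π ρ (fun y => max (-G y) 0) l y := by
    intro l hl
    rw [← integral_sub (hp.1 l hl) (hn.1 l hl)]
    refine integral_congr_ae (Eventually.of_forall fun y => ?_)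
    show gl A π ρ G l y = gl A π ρ (fun y => max (G y) 0) l y -
      gl A π ρ (fun y => max (-G y) 0) l y
    unfold gl
    conv_lhs => rw [e (G (π (sg A l y)))]
    ring
  rw [Finset.sum_congr rfl h3, Finset.sum_sub_distrib, hp.2, hn.2, ← mul_sub,
    ← integral_sub hGi.pos_part hGi.neg_part]
  congr 1
  refine integral_congr_ae (Eventually.of_forall fun y => ?_)
  exact (e _).symm

variable [T2Space M]

/-- **change of variables on `M`** -/
theorem cov (P : Part A) (hN : IsOpen N) (hπ : HolN A N π) {f : A.ι → M → ℂ} (hf : Den A f)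
    {K : Set M} (hK : IsCompact K) (hKf : OffK A f K)
    {G : Cn n → ℝ} (hG : Continuous G) (hGi : Integrable fun y : RI n → ℝ => G (cc y))
    (hfN : ∀ l, ∀ x ∈ (A.e l).source, x ∈ N →
      f l x = ((G (π x) * ‖(jm A π l x).det‖ ^ 2 : ℝ) : ℂ))
    (hfO : ∀ l, ∀ x ∈ (A.e l).source, x ∉ N → f l x = 0) {m : ℕ}
    (hfib : ∀ᵐ y : RI n → ℝ, G (cc y) ≠ 0 → (∀ x ∈ N, π x = cc y → x ∈ K) ∧
      {x | x ∈ N ∧ π x = cc y}.encard = m) :
    intD P f = ((m * ∫ y : RI n → ℝ, G (cc y) : ℝ) : ℂ) := by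
  rw [intD_rho P hf hK hKf]
  set ρ := rho P (Fn P hK) with hρ
  have h1 : ∀ l ∈ Fn P hK, lint A l (fun x => (ρ l x : ℂ) * f l x) =
      ((∫ y in UN A N l, gl A π ρ G l y : ℝ) : ℂ) := by
    intro l _
    have h2 : ∫ y in UN A N l, ((gl A π ρ G l y : ℝ) : ℂ) =
        ((∫ y in UN A N l, gl A π ρ G l y : ℝ) : ℂ) := integral_ofReal
    rw [← h2, ← integral_indicator (isOpen_UN hN l).measurableSet]
    show ∫ y, rd A l (fun x => (ρ l x : ℂ) * f l x) y = _
    refine integral_congr_ae (Eventually.of_forall fun y => ?_)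
    show rd A l (fun x => (ρ l x : ℂ) * f l x) y = _
    by_cases hy : y ∈ Ui A l
    · rw [rd_of_mem hy]
      have hs : sg A l y ∈ (A.e l).source := sg_mem hy
      by_cases hyN : sg A l y ∈ N
      · rw [indicator_of_mem (show y ∈ UN A N l from ⟨hy, hyN⟩)]
        show (ρ l (sg A l y) : ℂ) * f l (sg A l y) = _
        rw [hfN l _ hs hyN, gl]
        push_cast
        ring
      · rw [indicator_of_notMem (fun h : y ∈ UN A N l => hyN h.2)]
        show (ρ l (sg A l y) : ℂ) * f l (sg A l y) = _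
        rw [hfO l _ hs hyN, mul_zero]
    · rw [rd_off hy, indicator_of_notMem (fun h : y ∈ UN A N l => hy h.1)]
  rw [Finset.sum_congr rfl h1, ← Complex.ofReal_sum]
  congr 1
  refine cov_real hN hπ (fun l => ?_) (rho_nonneg P _) (fun l x hx => ?_) hG hGi ?_
  · have h2 : ContDiffOn ℝ ∞ (fun z => ρ l ((A.e l).symm z)) (A.e l).target := rho_sm P _ l l
    exact h2.continuousOn.comp continuous_cc.continuousOn fun y hy => hy
  · exact rho_off P _ l fun h => hx (P.χ_sub l h)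
  · filter_upwards [hfib] with y hy h0
    exact ⟨fun x hx hxy => sum_rho P hK (Finset.Subset.refl _) ((hy h0).1 x hx hxy), (hy h0).2⟩

end

end Crest.Agent.R257.DegM_5
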