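import Crest.Agent.R257.DegT_5

/-!
# R257 (S0395), leaf MASS-M3 (helper5), part 5: powers

`pwr p q π = (π_0^p, π_1^q)`; `CovD.pow : CovD A N (pwr p q π) δ' (p q m)`;
`tot_pow` : the mass of `(1/c) log (|π_0|^{2p} + |π_1|^{2q})` is `π² p q m / c²`.
-/

set_option autoImplicit false
set_option linter.unusedSectionVars false

open Set Filter Topology Complex MeasureTheory
open scoped ContDiff Matrix ComplexConjugate ComplexOrder

namespace Crest.Agent.R257.DegP_5

open Crest.Agent.R275.Geo Crest.Agent.R275.TorS666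
open Crest.Agent.R275.Tor812 hiding pd
open Crest.Agent.R275.C1d194 Crest.Agent.R275.Pai323 Crest.Agent.R275.OmT75
open Crest.Agent.R275.SerG398 (lint dens)
open Crest.Agent.R273.StokesV_332
open Crest.Agent.R275.Core144 Crest.Agent.R273.Defs_333 Crest.Agent.R273.HM_333
open Crest.Agent.R273.Hess_333 Crest.Agent.R273.HessB_333 Crest.Agent.R273.Kah_333
open Crest.Agent.R257.C2F1_625 Crest.Agent.R257.C2F2_625 Crest.Agent.R257.C2F4_625
open Crest.Agent.R257.GBL1_625 Crest.Agent.R257.DegM_5 Crest.Agent.R257.DegC_5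
open Crest.Agent.R257.DegT_5

noncomputable section

/-- `(y_0^p, y_1^q)` -/
def pw (p q : ℕ) (y : Cn 2) : Cn 2 := WithLp.toLp 2 ![(y 0) ^ p, (y 1) ^ q]

@[simp] theorem pw_zero (p q : ℕ) (y : Cn 2) : pw p q y 0 = (y 0) ^ p := rfl
@[simp] theorem pw_one (p q : ℕ) (y : Cn 2) : pw p q y 1 = (y 1) ^ q := rfl

theorem pw_diff (p q : ℕ) : Differentiable ℂ (pw p q) := by
  have h : Differentiable ℂ (fun y : Cn 2 => (![(y 0) ^ p, (y 1) ^ q] : Fin 2 → ℂ)) := by
    rw [differentiable_pi]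
    intro i
    fin_cases i
    · exact ((EuclideanSpace.proj 0 : Cn 2 →L[ℂ] ℂ).differentiable).pow p
    · exact ((EuclideanSpace.proj 1 : Cn 2 →L[ℂ] ℂ).differentiable).pow q
  exact ((PiLp.continuousLinearEquiv 2 ℂ (fun _ : Fin 2 => ℂ)).symm.differentiable).comp h

theorem norm_two (y : Cn 2) : ‖y‖ ^ 2 = ‖y 0‖ ^ 2 + ‖y 1‖ ^ 2 := by
  rw [EuclideanSpace.norm_sq_eq, Fin.sum_univ_two]

theorem coord_le (y : Cn 2) (i : Fin 2) : ‖y i‖ ≤ ‖y‖ := PiLp.norm_apply_le y i

theorem pw_ne {p q : ℕ} {y : Cn 2} (hy : y ≠ 0) : pw p q y ≠ 0 := by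
  intro h
  apply hy
  have h0 : (y 0) ^ p = 0 := by rw [← pw_zero p q y, h]; rfl
  have h1 : (y 1) ^ q = 0 := by rw [← pw_one p q y, h]; rfl
  ext i
  fin_cases i
  · exact eq_zero_of_pow_eq_zero h0
  · exact eq_zero_of_pow_eq_zero h1

/-- number of roots -/
theorem ncard_roots {p : ℕ} (hp : 0 < p) {c : ℂ} (hc : c ≠ 0) : {z : ℂ | z ^ p = c}.encard = p := by
  classical
  obtain ⟨b, hb⟩ := IsAlgClosed.exists_pow_nat_eq c hp
  have hb0 : b ≠ 0 := by
    rintro rfl
    rw [zero_pow hp.ne'] at hb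
    exact hc hb.symm
  have : NeZero p := ⟨hp.ne'⟩
  have h1 : {z : ℂ | z ^ p = c} = (fun u => b * u) '' ((Polynomial.nthRootsFinset p (1 : ℂ)) : Set ℂ) := by
    ext z
    simp only [mem_ofPred_eq, mem_image, Finset.mem_coe, Polynomial.mem_nthRootsFinset hp]
    constructor
    · intro hz
      refine ⟨z / b, ?_, by field_simp⟩
      rw [div_pow, hz, hb, div_self hc]
    · rintro ⟨u, hu, rfl⟩
      rw [mul_pow, hu, mul_one, hb]
  rw [h1, (mul_right_injective₀ hb0).injOn.encard_image, Set.encard_coe_eq_coe_finsetCard]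
  have h2 := (Complex.isPrimitiveRoot_exp p hp.ne').card_nthRootsFinset
  rw [h2]

theorem encard_iUnion_fin {α β : Type*} {s : Set α} (hs : s.Finite) {t : α → Set β}
    (hd : s.PairwiseDisjoint t) {m : ℕ} (ht : ∀ i ∈ s, (t i).encard = m) :
    (⋃ i ∈ s, t i).encard = s.encard * m := by
  classical
  induction s, hs using Set.Finite.induction_on with
  | empty => simp
  | @insert a s has hs ih =>
    rw [biUnion_insert, Set.encard_union_eq, ih (hd.subset (subset_insert _ _))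
      fun i hi => ht i (mem_insert_of_mem _ hi), ht a (mem_insert _ _), encard_insert_of_notMem has]
    · ring
    · rw [disjoint_iUnion₂_right]
      intro i hi
      exact hd (mem_insert _ _) (mem_insert_of_mem _ hi) (by rintro rfl; exact has hi)

variable {M : Type} [TopologicalSpace M] {A : Atl 2 M} {N : Set M} {π : M → Cn 2}

/-- `(π_0^p, π_1^q)` -/
def pwr (p q : ℕ) (π : M → Cn 2) (x : M) : Cn 2 := pw p q (π x)

/-- the power map in real coordinates -/
def pwR (p q : ℕ) (y : RI 2 → ℝ) : RI 2 → ℝ := rc (pw p q (cc y))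

theorem pwR_diff (p q : ℕ) : Differentiable ℝ (pwR p q) := by
  have h1 : Differentiable ℝ (rc : Cn 2 → RI 2 → ℝ) := by
    rw [rc_eq]; exact (rcL 2).differentiable
  have h2 : Differentiable ℝ (cc : (RI 2 → ℝ) → Cn 2) :=
    (contDiff_cc (n := 2) (m := 1)).differentiable (by norm_num)
  exact h1.comp (((pw_diff p q).restrictScalars ℝ).comp h2)

/-- null sets of points with a coordinate zero -/
theorem ae_coord_ne (i : Fin 2) : ∀ᵐ y : RI 2 → ℝ, (cc y : Cn 2) i ≠ 0 := by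
  have h1 : volume {y : RI 2 → ℝ | y (i, 0) = 0} = 0 := by
    have h2 : {y : RI 2 → ℝ | y (i, 0) = 0} =
        (LinearMap.ker (LinearMap.proj (i, 0) : (RI 2 → ℝ) →ₗ[ℝ] ℝ) : Set (RI 2 → ℝ)) := by
      ext y; simp
    rw [h2]
    refine Measure.addHaar_submodule _ _ fun h => ?_
    have h3 : (Pi.single (i, 0) (1 : ℝ) : RI 2 → ℝ) ∈
        LinearMap.ker (LinearMap.proj (i, 0) : (RI 2 → ℝ) →ₗ[ℝ] ℝ) := by rw [h]; trivial
    simp at h3
  have h4 : ∀ᵐ y : RI 2 → ℝ, y (i, 0) ≠ 0 := by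
    rw [ae_iff]
    simpa using h1
  filter_upwards [h4] with y hy h
  apply hy
  have h5 := congrArg Complex.re h
  rw [cc_apply] at h5
  simpa using h5

theorem CovD.continuousOn {δ : ℝ} {m : ℕ} (D : CovD A N π δ m) : ContinuousOn π N := by
  intro x hx
  obtain ⟨l, hl⟩ := A.cover x
  have h1 : A.e l x ∈ {z | z ∈ (A.e l).target ∧ (A.e l).symm z ∈ N} := by
    refine ⟨(A.e l).map_source hl, ?_⟩
    rw [(A.e l).left_inv hl]
    exact hx
  have h2 : ContinuousAt (fun z => π ((A.e l).symm z)) (A.e l x) :=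
    (D.hol l).continuousOn.continuousAt ((isOpen_TN D.hN l).mem_nhds h1)
  have h3 : ContinuousAt (fun y => π ((A.e l).symm (A.e l y))) x :=
    ContinuousAt.comp (f := A.e l) h2 ((A.e l).continuousAt hl)
  exact (h3.congr (by
    filter_upwards [(A.e l).open_source.mem_nhds hl] with y hy
    rw [(A.e l).left_inv hy])).continuousWithinAt

/-- the points with a given power -/
theorem encard_pw {p q : ℕ} (hp : 0 < p) (hq : 0 < q) {y : Cn 2} (h0 : y 0 ≠ 0) (h1 : y 1 ≠ 0) :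
    {c : Cn 2 | pw p q c = y}.encard = (p * q : ℕ) := by
  have h2 : {c : Cn 2 | pw p q c = y} =
      (fun z : ℂ × ℂ => (WithLp.toLp 2 ![z.1, z.2] : Cn 2)) ''
        ({z : ℂ | z ^ p = y 0} ×ˢ {z : ℂ | z ^ q = y 1}) := by
    ext c
    simp only [mem_ofPred_eq, mem_image, mem_prod, Prod.exists]
    constructor
    · intro h
      refine ⟨c 0, c 1, ⟨by rw [← h]; rfl, by rw [← h]; rfl⟩, ?_⟩
      ext i
      fin_cases i <;> rfl
    · rintro ⟨a, b, ⟨ha, hb⟩, rfl⟩
      ext i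
      fin_cases i
      · exact ha
      · exact hb
  have hinj : Function.Injective (fun z : ℂ × ℂ => (WithLp.toLp 2 ![z.1, z.2] : Cn 2)) := by
    rintro ⟨a, b⟩ ⟨a', b'⟩ h
    have e0 : a = a' := congrArg (fun c : Cn 2 => c 0) h
    have e1 : b = b' := congrArg (fun c : Cn 2 => c 1) h
    rw [e0, e1]
  rw [h2, hinj.encard_image, Set.encard_prod, ncard_roots hp h0, ncard_roots hq h1]
  norm_cast

theorem CovD.pow [T2Space M] {δ : ℝ} {m : ℕ} (D : CovD A N π δ m) {p q : ℕ} (hp : 0 < p) (hq : 0 < q) :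
    ∃ δ' : ℝ, CovD A N (pwr p q π) δ' (p * q * m) := by
  have hδ := D.pos
  set ρ : ℝ := min (δ / 2) (1 / 2) with hρ
  have hρ0 : 0 < ρ := lt_min (by linarith) (by norm_num)
  have hρ1 : ρ ≤ 1 / 2 := min_le_right _ _
  have hρδ : ρ ≤ δ / 2 := min_le_left _ _
  set δ' : ℝ := ρ ^ (max p q) with hδ'
  have hδ'0 : 0 < δ' := by positivity
  -- `‖pw y‖ ≤ δ'` implies `‖y‖ < δ`
  have key : ∀ y : Cn 2, ‖pw p q y‖ ≤ δ' → ‖y‖ < δ := by
    intro y hy
    have h0 : ‖y 0‖ ≤ ρ := by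
      have h1 : ‖y 0‖ ^ p ≤ ρ ^ p := by
        have h2 := (coord_le (pw p q y) 0).trans hy
        rw [pw_zero, norm_pow] at h2
        exact h2.trans (pow_le_pow_of_le_one hρ0.le (by linarith) (le_max_left _ _))
      exact le_of_pow_le_pow_left₀ hp.ne' hρ0.le h1
    have h1 : ‖y 1‖ ≤ ρ := by
      have h1 : ‖y 1‖ ^ q ≤ ρ ^ q := by
        have h2 := (coord_le (pw p q y) 1).trans hy
        rw [pw_one, norm_pow] at h2
        exact h2.trans (pow_le_pow_of_le_one hρ0.le (by linarith) (le_max_right _ _))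
      exact le_of_pow_le_pow_left₀ hq.ne' hρ0.le h1
    have h2 : ‖y‖ ^ 2 < δ ^ 2 := by
      rw [norm_two]
      have e0 : ‖y 0‖ ^ 2 ≤ ρ ^ 2 := pow_le_pow_left₀ (norm_nonneg _) h0 2
      have e1 : ‖y 1‖ ^ 2 ≤ ρ ^ 2 := pow_le_pow_left₀ (norm_nonneg _) h1 2
      have e2 : ρ ^ 2 ≤ (δ / 2) ^ 2 := pow_le_pow_left₀ hρ0.le hρδ 2
      nlinarith [mul_pos hδ hδ]
    exact lt_of_pow_lt_pow_left₀ 2 hδ.le h2
  have hc : ContinuousOn (pwr p q π) N := (pw_diff p q).continuous.comp_continuousOn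
    (CovD.continuousOn D)
  refine ⟨δ', D.hN, fun l => ?_, fun x hx => pw_ne (D.ne x hx), hδ'0, ?_, fun ε hε => ?_, ?_⟩
  · exact (pw_diff p q).comp_differentiableOn (D.hol l)
  · have h1 : N ∩ {x | ‖pwr p q π x‖ ≤ δ'} =
        (N ∩ {x | ‖π x‖ ≤ δ}) ∩ (fun x => ‖pwr p q π x‖) ⁻¹' Iic δ' := by
      ext x
      constructor
      · rintro ⟨h1, h2⟩
        exact ⟨⟨h1, (key _ h2).le⟩, h2⟩
      · rintro ⟨h1, h2⟩
        exact ⟨h1.1, h2⟩
    rw [h1]
    exact (hc.norm.mono inter_subset_left).preimage_isClosed_of_isClosed D.cl isClosed_Iic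
  · -- small `π` gives small power
    obtain ⟨r, hr0, hr⟩ : ∃ r > 0, ∀ y : Cn 2, ‖y‖ < r → ‖pw p q y‖ < ε := by
      have h1 : Continuous (pw p q) := (pw_diff p q).continuous
      have h2 : pw p q 0 = 0 := by
        ext i
        fin_cases i
        · exact zero_pow hp.ne'
        · exact zero_pow hq.ne'
      have h3 := Metric.continuousAt_iff.1 (h1.continuousAt (x := (0 : Cn 2))) ε hε
      obtain ⟨r, hr0, hr⟩ := h3
      refine ⟨r, hr0, fun y hy => ?_⟩
      have := hr (x := y) (by simpa using hy)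
      rwa [h2, dist_zero_right] at this
    have h1 : N ∩ {x | ε ≤ ‖pwr p q π x‖ ∧ ‖pwr p q π x‖ ≤ δ'} =
        (N ∩ {x | r ≤ ‖π x‖ ∧ ‖π x‖ ≤ δ}) ∩ (fun x => ‖pwr p q π x‖) ⁻¹' Icc ε δ' := by
      ext x
      constructor
      · rintro ⟨h1, h2, h3⟩
        refine ⟨⟨h1, ?_, (key _ h3).le⟩, h2, h3⟩
        by_contra h
        exact absurd (hr _ (not_le.1 h)) (not_lt.2 h2)
      · rintro ⟨h1, h2⟩
        exact ⟨h1.1, h2⟩
    rw [h1]
    have hK := D.cpt r hr0
    exact hK.of_isClosed_subset ((hc.norm.mono inter_subset_left).preimage_isClosed_of_isClosed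
      hK.isClosed isClosed_Icc) inter_subset_left
  · -- the number of points
    set Bad : Set (RI 2 → ℝ) :=
      {y | ¬ (‖(cc y : Cn 2)‖ < δ → {x | x ∈ N ∧ π x = cc y}.encard = m)} with hBad
    have hB0 : volume Bad = 0 := D.cnt
    have hB1 : volume (pwR p q '' Bad) = 0 :=
      addHaar_image_eq_zero_of_differentiableOn_of_addHaar_eq_zero _
        (pwR_diff p q).differentiableOn hB0
    have hB2 : ∀ᵐ y : RI 2 → ℝ, y ∉ pwR p q '' Bad := measure_eq_zero_iff_ae_notMem.1 hB1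
    filter_upwards [hB2, ae_coord_ne 0, ae_coord_ne 1] with y hy h0 h1 hyδ
    set S : Set (Cn 2) := {c | pw p q c = cc y} with hS
    have hSc : S.encard = (p * q : ℕ) := encard_pw hp hq h0 h1
    have hSf : S.Finite := Set.finite_of_encard_eq_coe hSc
    have h2 : {x | x ∈ N ∧ pwr p q π x = cc y} = ⋃ c ∈ S, {x | x ∈ N ∧ π x = c} := by
      ext x
      simp only [mem_ofPred_eq, mem_iUnion, exists_prop]
      constructor
      · rintro ⟨hx, hxy⟩
        exact ⟨π x, hxy, hx, rfl⟩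
      · rintro ⟨c, hc, hx, rfl⟩
        exact ⟨hx, hc⟩
    have h3 : ∀ c ∈ S, {x | x ∈ N ∧ π x = c}.encard = m := by
      intro c hc
      have h4 : ‖c‖ < δ := key c (by rw [show pw p q c = cc y from hc]; exact hyδ.le)
      have h5 : rc c ∉ Bad := fun h => hy ⟨rc c, h, by
        unfold pwR
        rw [cc_rc, show pw p q c = cc y from hc, rc_cc]⟩
      rw [hBad, mem_ofPred_eq, not_not, cc_rc] at h5
      exact h5 h4
    rw [h2, encard_iUnion_fin hSf ?_ h3, hSc]
    · push_cast; rfl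
    · intro c _ c' _ hcc
      show Disjoint {x | x ∈ N ∧ π x = c} {x | x ∈ N ∧ π x = c'}
      rw [Set.disjoint_left]
      rintro x ⟨_, h⟩ ⟨_, h'⟩
      exact hcc (h.symm.trans h')

theorem U0_pw (p q : ℕ) (y : Cn 2) : U0 (pw p q y) = ‖y 0‖ ^ (2 * p) + ‖y 1‖ ^ (2 * q) := by
  rw [U0, norm_two, pw_zero, pw_one, norm_pow, norm_pow, ← pow_mul, ← pow_mul, mul_comm p 2,
    mul_comm q 2]

/-- **(M3)** the mass of `(1/c) log (|π_0|^{2p} + |π_1|^{2q})` -/
theorem tot_pow [T2Space M] {δ : ℝ} {m : ℕ} (D : CovD A N π δ m) {p q : ℕ} (hp : 0 < p)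
    (hq : 0 < q) {c : ℝ} (hc : c ≠ 0) {w : M → ℝ}
    (hw : ∀ x ∈ N, w x = c⁻¹ * Real.log (‖π x 0‖ ^ (2 * p) + ‖π x 1‖ ^ (2 * q)))
    (P : Part A) {χ : M → ℝ} (hχ : A.Sm χ) (hχN : tsupport χ ⊆ N)
    {ε : ℝ} (hε : 0 < ε) (hχ1 : ∀ x ∈ N, ‖π x‖ < ε → χ x = 1)
    (hχK : ∀ r > 0, IsCompact (tsupport χ ∩ {x | r ≤ ‖π x‖})) :
    intD P (fun i x => (w x : ℂ) * pd (hsf A w i x) (hsf A χ i x)) =
      ((Real.pi ^ 2 * (p * q * m) / c ^ 2 : ℝ) : ℂ) := by
  obtain ⟨δ', D'⟩ := CovD.pow D hp hq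
  have hcont : ContinuousOn π N := CovD.continuousOn D
  have hc' : ContinuousOn (pwr p q π) N := (pw_diff p q).continuous.comp_continuousOn hcont
  -- conditions on `χ` relative to the powers
  have hpw0 : ∀ e > 0, ∃ r > 0, ∀ y : Cn 2, ‖y‖ < r → ‖pw p q y‖ < e := by
    intro e he
    have h1 : Continuous (pw p q) := (pw_diff p q).continuous
    have h2 : pw p q 0 = 0 := by
      ext i
      fin_cases i
      · exact zero_pow hp.ne'
      · exact zero_pow hq.ne'
    obtain ⟨r, hr0, hr⟩ := Metric.continuousAt_iff.1 (h1.continuousAt (x := (0 : Cn 2))) e he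
    refine ⟨r, hr0, fun y hy => ?_⟩
    have := hr (x := y) (by simpa using hy)
    rwa [h2, dist_zero_right] at this
  have hsmall : ∃ e > 0, ∀ y : Cn 2, ‖pw p q y‖ < e → ‖y‖ < ε := by
    set ρ : ℝ := min (ε / 2) (1 / 2) with hρ
    have hρ0 : 0 < ρ := lt_min (by linarith) (by norm_num)
    have hρ1 : ρ ≤ 1 / 2 := min_le_right _ _
    have hρδ : ρ ≤ ε / 2 := min_le_left _ _
    refine ⟨ρ ^ (max p q), by positivity, fun y hy => ?_⟩
    have h0 : ‖y 0‖ ≤ ρ := by
      have h1 : ‖y 0‖ ^ p ≤ ρ ^ p := by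
        have h2 := (coord_le (pw p q y) 0).trans hy.le
        rw [pw_zero, norm_pow] at h2
        exact h2.trans (pow_le_pow_of_le_one hρ0.le (by linarith) (le_max_left _ _))
      exact le_of_pow_le_pow_left₀ hp.ne' hρ0.le h1
    have h1 : ‖y 1‖ ≤ ρ := by
      have h1 : ‖y 1‖ ^ q ≤ ρ ^ q := by
        have h2 := (coord_le (pw p q y) 1).trans hy.le
        rw [pw_one, norm_pow] at h2
        exact h2.trans (pow_le_pow_of_le_one hρ0.le (by linarith) (le_max_right _ _))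
      exact le_of_pow_le_pow_left₀ hq.ne' hρ0.le h1
    have h2 : ‖y‖ ^ 2 < ε ^ 2 := by
      rw [norm_two]
      have e0 : ‖y 0‖ ^ 2 ≤ ρ ^ 2 := pow_le_pow_left₀ (norm_nonneg _) h0 2
      have e1 : ‖y 1‖ ^ 2 ≤ ρ ^ 2 := pow_le_pow_left₀ (norm_nonneg _) h1 2
      have e2 : ρ ^ 2 ≤ (ε / 2) ^ 2 := pow_le_pow_left₀ hρ0.le hρδ 2
      nlinarith [mul_pos hε hε]
    exact lt_of_pow_lt_pow_left₀ 2 hε.le h2
  obtain ⟨e, he0, he⟩ := hsmall
  -- apply `tot_eq` to `c w`
  set w' : M → ℝ := fun x => c * w x with hw'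
  have hw'N : ∀ x ∈ N, w' x = W0 (pwr p q π x) := by
    intro x hx
    simp only [hw', hw x hx, W0, pwr, U0_pw]
    rw [← mul_assoc, mul_inv_cancel₀ hc, one_mul]
  have hK' : ∀ r > 0, IsCompact (tsupport χ ∩ {x | r ≤ ‖pwr p q π x‖}) := by
    intro r hr
    obtain ⟨r', hr'0, hr'⟩ := hpw0 r hr
    have h1 : tsupport χ ∩ {x | r ≤ ‖pwr p q π x‖} =
        (tsupport χ ∩ {x | r' ≤ ‖π x‖}) ∩ (fun x => ‖pwr p q π x‖) ⁻¹' Ici r := by
      ext x
      constructor
      · rintro ⟨h1, h2⟩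
        refine ⟨⟨h1, ?_⟩, h2⟩
        by_contra h
        exact absurd (hr' _ (not_le.1 h)) (not_lt.2 h2)
      · rintro ⟨h1, h2⟩
        exact ⟨h1.1, h2⟩
    rw [h1]
    have hK := hχK r' hr'0
    exact hK.of_isClosed_subset ((hc'.norm.mono fun x hx => hχN hx.1).preimage_isClosed_of_isClosed
      hK.isClosed isClosed_Ici) inter_subset_left
  have h1 := D'.tot_eq hw'N P hχ hχN he0 (fun x hx h => hχ1 x hx (he _ h)) hK'
  -- compare
  have hz : ∀ i, ∀ x ∈ (A.e i).source, (w x : ℂ) * pd (hsf A w i x) (hsf A χ i x) =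
      ((c ^ 2 : ℝ) : ℂ)⁻¹ * ((w' x : ℂ) * pd (hsf A w' i x) (hsf A χ i x)) := by
    intro i x hx
    by_cases hxs : x ∈ tsupport χ
    · have hxN := hχN hxs
      have hwx : ContDiffAt ℝ ∞ (fun z => w ((A.e i).symm z)) (A.e i x) := by
        have h2 : ContDiffAt ℝ ∞ (fun z => w' ((A.e i).symm z)) (A.e i x) :=
          smO_comp D'.hN D'.hol hx hxN (W0_smooth (D'.ne x hxN)) hw'N
        have h3 := contDiffAt_const (c := c⁻¹) |>.mul h2
        refine h3.congr_of_eventuallyEq (Eventually.of_forall fun z => ?_)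
        simp only [hw']
        rw [← mul_assoc, inv_mul_cancel₀ hc, one_mul]
      have h4 : hsf A w' i x = (c : ℂ) • hsf A w i x := by
        show hess (fun z => c * w ((A.e i).symm z)) (A.e i x) = _
        rw [hess_const_mul c hwx]
        rfl
      rw [h4, smul_pd]
      simp only [hw']
      have hc0 : (c : ℂ) ≠ 0 := by exact_mod_cast hc
      push_cast
      field_simp
    · have h0 : hsf A χ i x = 0 := by
        refine D.hsf_zero_of hx (c := 0) ?_
        filter_upwards [(isClosed_tsupport χ).isOpen_compl.mem_nhds hxs] with y hy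
        exact image_eq_zero_of_notMem_tsupport hy
      rw [h0]
      simp [pd]
  have hoff : OffK A (fun i x => (w' x : ℂ) * pd (hsf A w' i x) (hsf A χ i x))
      (tsupport χ ∩ {x | ε ≤ ‖π x‖}) := by
    intro i x hx hxK
    have h0 : hsf A χ i x = 0 := by
      by_cases hxs : x ∈ tsupport χ
      · have h2 : ‖π x‖ < ε := by
          by_contra h
          exact hxK ⟨hxs, not_lt.1 h⟩
        refine D.hsf_zero_of hx (c := 1) ?_
        filter_upwards [D.pi_lt (hχN hxs) h2] with y hy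
        exact hχ1 y hy.1 hy.2
      · refine D.hsf_zero_of hx (c := 0) ?_
        filter_upwards [(isClosed_tsupport χ).isOpen_compl.mem_nhds hxs] with y hy
        exact image_eq_zero_of_notMem_tsupport hy
    show (w' x : ℂ) * pd (hsf A w' i x) (hsf A χ i x) = 0
    rw [h0]
    simp [pd]
  rw [intD_congr P hz, intD_smul P _ (hχK ε hε) hoff, h1]
  push_cast
  field_simp

end

end Crest.Agent.R257.DegP_5
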