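import Crest.Agent.R257.TrC_578

/-!
# Row 257, leaf (TR)/(DEG-CONST) (helper578)

`Ω ⊆ ℂⁿ` open, `closure Ω` compact, `G` holomorphic near `closure Ω`, `D` open with
`G (∂Ω) ∩ D = ∅`.

* `Dat.trace`     : for `r` holomorphic near `closure Ω` there is `t` holomorphic on `D` with
                    `t c = ∑_{x ∈ Ω, G x = c} r x` at EVERY regular value `c ∈ D`;
* `dense_reg`     : Sard, regular values are dense;
* `deg_const`     : the number of preimages is the same at all regular values in `D` (connected);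
* `trace_pi`, `dense_reg_pi`, `deg_const_pi` : the same on `Fin m → ℂ` (sup norm).
-/

set_option autoImplicit false
set_option linter.unusedSectionVars false

open Set Filter Topology Complex MeasureTheory
open scoped ContDiff Matrix ComplexConjugate

noncomputable section

namespace Crest.Agent.R257.Tr_578

open Crest.Agent.R275.Geo Crest.Agent.R275.EDR890 Crest.Agent.R273.HessB_333
open Crest.Agent.R273.Piola_5

variable {n : ℕ}

section H
variable {Ω U D : Set (Cn n)} {G : Cn n → Cn n} {r : Cn n → ℂ}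

/-- admissible scales -/
def Adm (D : Set (Cn n)) (c : Cn n) (q : ℝ) : Prop := 0 < q ∧ Metric.closedBall c (1 / √q) ⊆ D

theorem Adm.mono {c : Cn n} {q q' : ℝ} (h : Adm D c q) (hq : q ≤ q') : Adm D c q' :=
  ⟨h.1.trans_le hq, (Metric.closedBall_subset_closedBall
    (one_div_le_one_div_of_le (Real.sqrt_pos.2 h.1) (Real.sqrt_le_sqrt hq))).trans h.2⟩

theorem exists_adm (hD : IsOpen D) {c : Cn n} (hc : c ∈ D) :
    ∃ q, 0 < q ∧ ∀ c' ∈ Metric.ball c (1 / √q), Adm D c' q := by
  obtain ⟨ε, hε, hsub⟩ := Metric.isOpen_iff.1 hD c hc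
  refine ⟨(2 / ε) ^ 2, by positivity, fun c' hc' => ⟨by positivity, fun y hy => ?_⟩⟩
  have h1 : 1 / √((2 / ε) ^ 2) = ε / 2 := by
    rw [Real.sqrt_sq (by positivity)]
    field_simp
  rw [h1] at hc' hy
  apply hsub
  rw [Metric.mem_ball] at hc' ⊢
  rw [Metric.mem_closedBall] at hy
  calc dist y c ≤ dist y c' + dist c' c := dist_triangle _ _ _
    _ < ε / 2 + ε / 2 := add_lt_add_of_le_of_lt hy hc'
    _ = ε := by ring

open Classical in
/-- the trace function -/
def tr (Ω : Set (Cn n)) (D : Set (Cn n)) (G : Cn n → Cn n) (r : Cn n → ℂ) (c : Cn n) : ℂ :=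
  if h : ∃ q, Adm D c q then hh Ω G r c h.choose / c0 n else 0

theorem Dat.tr_eq (h : Dat Ω U D G r) {c : Cn n} {q : ℝ} (hq : Adm D c q) :
    tr Ω D G r c = hh Ω G r c q / c0 n := by
  have hex : ∃ q, Adm D c q := ⟨q, hq⟩
  have h1 : Adm D c hex.choose := hex.choose_spec
  rw [tr, dif_pos hex]
  congr 1
  rw [← h.hh_const h1.1 (le_max_left hex.choose q) h1.2,
    ← h.hh_const hq.1 (le_max_right hex.choose q) hq.2]

/-- **trace functions are holomorphic** -/
theorem Dat.tr_hol (h : Dat Ω U D G r) : DifferentiableOn ℂ (tr Ω D G r) D := by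
  intro c hc
  obtain ⟨q, hq, hadm⟩ := exists_adm h.hD hc
  have h1 : Adm D c q := hadm c (Metric.mem_ball_self (by positivity))
  have h2 : DifferentiableAt ℂ (fun c => hh Ω G r c q / (c0 n : ℂ)) c := by
    simp_rw [div_eq_mul_inv]
    exact (h.hh_hol h1.1 h1.2).mul_const _
  refine (h2.congr_of_eventuallyEq ?_).differentiableWithinAt
  filter_upwards [Metric.ball_mem_nhds c (show 0 < 1 / √q by positivity)] with c' hc'
  exact h.tr_eq (hadm c' hc')

/-- value of the trace function at a regular value -/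
theorem Dat.tr_reg (h : Dat Ω U D G r) {c : Cn n} (hc : c ∈ D) (hreg : Reg Ω G c) :
    tr Ω D G r c = ∑ x ∈ (h.fib_finite hc hreg).toFinset, r x := by
  set hfin := h.fib_finite hc hreg
  obtain ⟨q₁, hq₁, hadm⟩ := exists_adm h.hD hc
  have h1 : Adm D c q₁ := hadm c (Metric.mem_ball_self (by positivity))
  have hc0 : (c0 n : ℂ) ≠ 0 := by exact_mod_cast (c0_pos n).ne'
  have key : ∀ δ > 0, ‖tr Ω D G r c * c0 n - (c0 n : ℂ) * ∑ x ∈ hfin.toFinset, r x‖ ≤
      hfin.toFinset.card * (δ * c0 n) := by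
    intro δ hδ
    obtain ⟨q₀, hq₀, hlim⟩ := h.limit hc hreg hfin hδ
    have h2 := hlim (max q₀ q₁) (le_max_left _ _)
    rw [h.tr_eq (h1.mono (le_max_right q₀ q₁)), div_mul_cancel₀ _ hc0]
    exact h2
  have h3 : ‖tr Ω D G r c * c0 n - (c0 n : ℂ) * ∑ x ∈ hfin.toFinset, r x‖ = 0 := by
    refine le_antisymm ?_ (norm_nonneg _)
    have h4 : Tendsto (fun δ : ℝ => (hfin.toFinset.card : ℝ) * (δ * c0 n)) (𝓝[>] 0) (𝓝 0) := by
      have : Tendsto (fun δ : ℝ => (hfin.toFinset.card : ℝ) * (δ * c0 n)) (𝓝 0)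
          (𝓝 ((hfin.toFinset.card : ℝ) * (0 * c0 n))) := by
        refine Tendsto.const_mul _ (Tendsto.mul_const _ tendsto_id)
      rw [zero_mul, mul_zero] at this
      exact this.mono_left nhdsWithin_le_nhds
    refine ge_of_tendsto h4 ?_
    filter_upwards [self_mem_nhdsWithin] with δ hδ
    exact key δ hδ
  rw [norm_eq_zero, sub_eq_zero, mul_comm] at h3
  exact mul_left_cancel₀ hc0 h3

/-- **(TR)** -/
theorem Dat.trace (h : Dat Ω U D G r) : ∃ t : Cn n → ℂ, DifferentiableOn ℂ t D ∧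
    ∀ c ∈ D, Reg Ω G c → (Fib Ω G c).Finite ∧ t c = ∑ᶠ x ∈ Fib Ω G c, r x := by
  refine ⟨tr Ω D G r, h.tr_hol, fun c hc hreg => ⟨h.fib_finite hc hreg, ?_⟩⟩
  rw [h.tr_reg hc hreg, finsum_mem_eq_finite_toFinset_sum]

/-- **Sard**: regular values are dense -/
theorem dense_reg (hΩ : IsOpen Ω) (hG : DifferentiableOn ℂ G Ω) : Dense {c | Reg Ω G c} := by
  set C : Set (Cn n) := {x | x ∈ Ω ∧ (fderiv ℂ G x).det = 0} with hC
  have h1 : (volume : Measure (Cn n)) (G '' C) = 0 := by
    refine addHaar_image_eq_zero_of_det_fderivWithin_eq_zero volume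
      (f' := fun x => (fderiv ℂ G x).restrictScalars ℝ) (fun x hx => ?_) fun x hx => ?_
    · exact (((hG x hx.1).differentiableAt (hΩ.mem_nhds hx.1)).hasFDerivAt.restrictScalars
        ℝ).hasFDerivWithinAt
    · have h2 := abs_det_restrict (fderiv ℂ G x)
      rw [hx.2, norm_zero] at h2
      simpa using h2
  rw [dense_iff_inter_open]
  intro V hV hVne
  by_contra hne
  rw [not_nonempty_iff_eq_empty] at hne
  have h2 : V ⊆ G '' C := by
    intro c hc
    by_contra hcC
    have h3 : c ∈ V ∩ {c | Reg Ω G c} := by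
      refine ⟨hc, fun x hx hGx hdet => hcC ⟨x, ⟨hx, hdet⟩, hGx⟩⟩
    rw [hne] at h3
    exact h3
  have h3 : (volume : Measure (Cn n)) V = 0 := measure_mono_null h2 h1
  exact (hV.measure_pos volume hVne).ne' h3

theorem mem_range_nat {S : Set (Cn n)} {f : Cn n → ℂ} {c : Cn n} (hf : ContinuousWithinAt f S c)
    (hc : c ∈ closure S) (hS : ∀ x ∈ S, ∃ k : ℕ, f x = k) : ∃ k : ℕ, f c = k := by
  have h1 : IsClosed (range fun k : ℕ => (k : ℂ)) := by
    have h2 : IsClosed (range ((↑) : ℕ → ℝ)) := Nat.isClosedEmbedding_coe_real.isClosed_range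
    have h3 : (range fun k : ℕ => (k : ℂ)) = Complex.ofReal '' range ((↑) : ℕ → ℝ) := by
      rw [← range_comp]
      congr 1
    rw [h3]
    exact Complex.isometry_ofReal.isClosedEmbedding.isClosedMap _ h2
  have h2 : f c ∈ closure (f '' S) := hf.mem_closure_image hc
  have h3 : f '' S ⊆ range fun k : ℕ => (k : ℂ) := by
    rintro _ ⟨x, hx, rfl⟩
    obtain ⟨k, hk⟩ := hS x hx
    exact ⟨k, hk.symm⟩
  obtain ⟨k, hk⟩ := h1.closure_subset_iff.2 h3 h2
  exact ⟨k, hk.symm⟩

/-- **(DEG-CONST)** -/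
theorem deg_const (hΩ : IsOpen Ω) (hc : IsCompact (closure Ω)) (hU : IsOpen U)
    (hΩU : closure Ω ⊆ U) (hG : DifferentiableOn ℂ G U) (hD : IsOpen D) (hDc : IsPreconnected D)
    (hb : ∀ x ∈ frontier Ω, G x ∉ D) :
    ∃ N : ℕ, ∀ c ∈ D, Reg Ω G c → (Fib Ω G c).Finite ∧ (Fib Ω G c).ncard = N := by
  have h : Dat Ω U D G (fun _ => 1) := ⟨hΩ, hc, hU, hΩU, hD, hG, hb, differentiableOn_const _⟩
  set t := tr Ω D G (fun _ => 1) with ht
  have hval : ∀ c (hc : c ∈ D) (hreg : Reg Ω G c), t c = ((Fib Ω G c).ncard : ℂ) := by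
    intro c hc hreg
    rw [ht, h.tr_reg hc hreg, Set.ncard_eq_toFinset_card _ (h.fib_finite hc hreg)]
    simp
  have hcont : ContinuousOn t D := h.tr_hol.continuousOn
  have hdense : Dense {c | Reg Ω G c} := dense_reg hΩ (hG.mono (subset_closure.trans hΩU))
  have hall : ∀ c ∈ D, ∃ k : ℕ, t c = k := by
    intro c hc
    refine mem_range_nat (S := D ∩ {c | Reg Ω G c}) ((hcont c hc).mono inter_subset_left) ?_ ?_
    · exact hdense.open_subset_closure_inter hD hc
    · rintro x ⟨hx, hreg⟩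
      exact ⟨_, hval x hx hreg⟩
  rcases D.eq_empty_or_nonempty with hDe | ⟨c₁, hc₁⟩
  · exact ⟨0, fun c hc => by rw [hDe] at hc; exact hc.elim⟩
  obtain ⟨N, hN⟩ := hall c₁ hc₁
  refine ⟨N, fun c hc hreg => ⟨h.fib_finite hc hreg, ?_⟩⟩
  have h1 : (t c).re = (t c₁).re := by
    have hdis : DiscreteTopology (range ((↑) : ℕ → ℝ)) :=
      (Nat.isClosedEmbedding_coe_real.isEmbedding.toHomeomorph).symm.isEmbedding.discreteTopology
    refine hDc.constant_of_mapsTo (T := range ((↑) : ℕ → ℝ)) (f := fun c => (t c).re) ⟨hdis⟩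
      (Complex.continuous_re.comp_continuousOn hcont) ?_ hc hc₁
    intro x hx
    obtain ⟨k, hk⟩ := hall x hx
    exact ⟨k, by simp [hk]⟩
  rw [hN, hval c hc hreg] at h1
  simpa using h1

end H

/-! ### transfer to `Fin m → ℂ` -/

section Pi

variable {m : ℕ}

/-- the coordinate isomorphism -/
def eq' (m : ℕ) : Cn m ≃L[ℂ] (Fin m → ℂ) := EuclideanSpace.equiv (Fin m) ℂ

/-- the map in Euclidean coordinates -/
def Gt (G : (Fin m → ℂ) → (Fin m → ℂ)) (x : Cn m) : Cn m := (eq' m).symm (G (eq' m x))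

variable {B W V : Set (Fin m → ℂ)} {G : (Fin m → ℂ) → (Fin m → ℂ)} {r : (Fin m → ℂ) → ℂ}

theorem Gt_diff (hG : DifferentiableOn ℂ G W) :
    DifferentiableOn ℂ (Gt G) (eq' m ⁻¹' W) := by
  have h1 : DifferentiableOn ℂ (fun x => G (eq' m x)) (eq' m ⁻¹' W) :=
    hG.comp (eq' m).differentiable.differentiableOn fun x hx => hx
  exact (eq' m).symm.differentiable.comp_differentiableOn h1

theorem Gt_det {x : Cn m} (hG : DifferentiableAt ℂ G (eq' m x)) :
    (fderiv ℂ (Gt G) x).det = (fderiv ℂ G (eq' m x)).det := by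
  have h1 : HasFDerivAt (Gt G) (((eq' m).symm : (Fin m → ℂ) →L[ℂ] Cn m).comp
      ((fderiv ℂ G (eq' m x)).comp (eq' m : Cn m →L[ℂ] (Fin m → ℂ)))) x :=
    (eq' m).symm.hasFDerivAt.comp x (hG.hasFDerivAt.comp x (eq' m).hasFDerivAt)
  rw [h1.fderiv]
  exact LinearMap.det_conj (fderiv ℂ G (eq' m x) : (Fin m → ℂ) →ₗ[ℂ] (Fin m → ℂ))
    ((eq' m).symm.toLinearEquiv)

theorem frontier_pre (S : Set (Fin m → ℂ)) : frontier (eq' m ⁻¹' S) = eq' m ⁻¹' frontier S :=
  ((eq' m).toHomeomorph.preimage_frontier S).symm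

theorem closure_pre (S : Set (Fin m → ℂ)) : closure (eq' m ⁻¹' S) = eq' m ⁻¹' closure S :=
  ((eq' m).toHomeomorph.preimage_closure S).symm

theorem isPreconnected_pre {S : Set (Fin m → ℂ)} (hS : IsPreconnected S) :
    IsPreconnected (eq' m ⁻¹' S) := by
  have h1 : eq' m ⁻¹' S = (eq' m).symm '' S := by
    ext x
    constructor
    · intro hx
      exact ⟨eq' m x, hx, (eq' m).symm_apply_apply x⟩
    · rintro ⟨y, hy, rfl⟩
      simpa using hy
  rw [h1]
  exact hS.image _ (eq' m).symm.continuous.continuousOn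

theorem fib_pre (c : Fin m → ℂ) :
    Fib (eq' m ⁻¹' B) (Gt G) ((eq' m).symm c) = eq' m ⁻¹' {x ∈ B | G x = c} := by
  ext x
  simp only [Fib, Gt, mem_ofPred_eq, mem_preimage, (eq' m).symm.injective.eq_iff]

theorem reg_pre (hBo : IsOpen B) (hG : DifferentiableOn ℂ G B) (c : Fin m → ℂ) :
    Reg (eq' m ⁻¹' B) (Gt G) ((eq' m).symm c) ↔
      ∀ x ∈ B, G x = c → (fderiv ℂ G x).det ≠ 0 := by
  constructor
  · intro h x hx hGx
    have h1 := h ((eq' m).symm x) (by simpa using hx)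
      (by simp only [Gt, (eq' m).apply_symm_apply, hGx])
    rw [Gt_det] at h1
    · simpa using h1
    · simpa using (hG x hx).differentiableAt (hBo.mem_nhds hx)
  · intro h x hx hGx
    rw [Gt_det ((hG _ hx).differentiableAt (hBo.mem_nhds hx))]
    exact h _ hx ((eq' m).symm.injective hGx)

theorem image_pre (S : Set (Fin m → ℂ)) : eq' m '' (eq' m ⁻¹' S) = S :=
  image_preimage_eq S (eq' m).surjective

/-- **(DEG-CONST)** on `Fin m → ℂ` -/
theorem deg_const_pi (hB : IsOpen B) (hBb : Bornology.IsBounded B) (hW : IsOpen W)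
    (hBW : closure B ⊆ W) (hG : DifferentiableOn ℂ G W) (hV : IsOpen V) (hVc : IsPreconnected V)
    (hVB : ∀ x ∈ frontier B, G x ∉ V) :
    ∃ N : ℕ, ∀ c ∈ V, (∀ x ∈ B, G x = c → (fderiv ℂ G x).det ≠ 0) →
      {x ∈ B | G x = c}.Finite ∧ {x ∈ B | G x = c}.ncard = N := by
  have hGB : DifferentiableOn ℂ G B := hG.mono (subset_closure.trans hBW)
  have hcomp : IsCompact (closure (eq' m ⁻¹' B)) := by
    rw [closure_pre]
    have h1 : eq' m ⁻¹' closure B = (eq' m).symm '' closure B := by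
      ext x
      constructor
      · intro hx
        exact ⟨eq' m x, hx, (eq' m).symm_apply_apply x⟩
      · rintro ⟨y, hy, rfl⟩
        simpa using hy
    rw [h1]
    exact hBb.isCompact_closure.image (eq' m).symm.continuous
  obtain ⟨N, hN⟩ := deg_const (Ω := eq' m ⁻¹' B) (U := eq' m ⁻¹' W) (D := eq' m ⁻¹' V) (G := Gt G)
    (hB.preimage (eq' m).continuous) hcomp (hW.preimage (eq' m).continuous)
    (by rw [closure_pre]; exact preimage_mono hBW) (Gt_diff hG)
    (hV.preimage (eq' m).continuous) (isPreconnected_pre hVc)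
    (by
      intro x hx
      rw [frontier_pre] at hx
      simp only [mem_preimage, Gt, (eq' m).apply_symm_apply]
      exact hVB _ hx)
  refine ⟨N, fun c hc hreg => ?_⟩
  have h1 := hN ((eq' m).symm c) (by simpa using hc) ((reg_pre hB hGB c).2 hreg)
  rw [fib_pre] at h1
  refine ⟨?_, ?_⟩
  · rw [← image_pre {x ∈ B | G x = c}]
    exact h1.1.image _
  · rw [← h1.2, ← Set.ncard_image_of_injective _ (eq' m).injective, image_pre]

/-- **Sard** on `Fin m → ℂ` -/
theorem dense_reg_pi (hB : IsOpen B) (hG : DifferentiableOn ℂ G B) :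
    Dense {c : Fin m → ℂ | ∀ x ∈ B, G x = c → (fderiv ℂ G x).det ≠ 0} := by
  have h1 := dense_reg (Ω := eq' m ⁻¹' B) (G := Gt G) (hB.preimage (eq' m).continuous) (Gt_diff hG)
  have h2 : {c : Fin m → ℂ | ∀ x ∈ B, G x = c → (fderiv ℂ G x).det ≠ 0} =
      eq' m '' {c | Reg (eq' m ⁻¹' B) (Gt G) c} := by
    ext c
    constructor
    · intro hc
      exact ⟨(eq' m).symm c, (reg_pre hB hG c).2 hc, (eq' m).apply_symm_apply c⟩
    · rintro ⟨d, hd, rfl⟩
      refine (reg_pre hB hG _).1 ?_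
      rwa [(eq' m).symm_apply_apply]
  rw [h2]
  exact (eq' m).surjective.denseRange.dense_image (eq' m).continuous h1

/-- **(TR)** on `Fin m → ℂ` -/
theorem trace_pi (hB : IsOpen B) (hBb : Bornology.IsBounded B) (hW : IsOpen W)
    (hBW : closure B ⊆ W) (hG : DifferentiableOn ℂ G W) (hr : DifferentiableOn ℂ r W)
    (hV : IsOpen V) (hVB : ∀ x ∈ frontier B, G x ∉ V) :
    ∃ t : (Fin m → ℂ) → ℂ, DifferentiableOn ℂ t V ∧
      ∀ c ∈ V, (∀ x ∈ B, G x = c → (fderiv ℂ G x).det ≠ 0) →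
        {x ∈ B | G x = c}.Finite ∧ t c = ∑ᶠ x ∈ {x ∈ B | G x = c}, r x := by
  have hGB : DifferentiableOn ℂ G B := hG.mono (subset_closure.trans hBW)
  have hcomp : IsCompact (closure (eq' m ⁻¹' B)) := by
    rw [closure_pre]
    have h1 : eq' m ⁻¹' closure B = (eq' m).symm '' closure B := by
      ext x
      constructor
      · intro hx
        exact ⟨eq' m x, hx, (eq' m).symm_apply_apply x⟩
      · rintro ⟨y, hy, rfl⟩
        simpa using hy
    rw [h1]
    exact hBb.isCompact_closure.image (eq' m).symm.continuous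
  have h : Dat (eq' m ⁻¹' B) (eq' m ⁻¹' W) (eq' m ⁻¹' V) (Gt G) (fun x => r (eq' m x)) := by
    refine ⟨hB.preimage (eq' m).continuous, hcomp, hW.preimage (eq' m).continuous,
      (by rw [closure_pre]; exact preimage_mono hBW), hV.preimage (eq' m).continuous, Gt_diff hG,
      ?_, hr.comp (eq' m).differentiable.differentiableOn fun x hx => hx⟩
    intro x hx
    rw [frontier_pre] at hx
    simp only [mem_preimage, Gt, (eq' m).apply_symm_apply]
    exact hVB _ hx
  obtain ⟨t, ht, htr⟩ := h.trace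
  refine ⟨fun c => t ((eq' m).symm c), ht.comp (eq' m).symm.differentiable.differentiableOn
    (fun c hc => by simpa using hc), fun c hc hreg => ?_⟩
  have h1 := htr ((eq' m).symm c) (by simpa using hc) ((reg_pre hB hGB c).2 hreg)
  rw [fib_pre] at h1
  refine ⟨?_, ?_⟩
  · rw [← image_pre {x ∈ B | G x = c}]
    exact h1.1.image _
  · show t ((eq' m).symm c) = _
    rw [h1.2]
    conv_rhs => rw [← image_pre {x ∈ B | G x = c}]
    rw [finsum_mem_image (eq' m).injective.injOn]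

end Pi

end Crest.Agent.R257.Tr_578
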