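import Crest.Agent.R257.DegM_5
import Crest.Agent.R257.DegC_5
import Crest.Agent.R257.GBL1_625
import Crest.Agent.R273.MassA_5
import Crest.Agent.R273.TLs_201

/-!
# R257 (S0395), leaf MASS-M3 (helper5), part 4: the mass of `log |π|²`

`π : M → ℂ²` holomorphic on the open set `N`, `m`-to-one over a punctured ball, `w = log |π|²` on `N`:
* `ddm_smul_hess`  : `∂∂̄ (w ∂∂̄ w) = (∂∂̄ w)²`
* `CovD`           : the hypotheses on `π`
* `tot_eq`         : `intD P (w pd (hsf w) (hsf χ)) = π² m`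
-/

set_option autoImplicit false
set_option linter.unusedSectionVars false

open Set Filter Topology Complex MeasureTheory
open scoped ContDiff Matrix ComplexConjugate ComplexOrder

namespace Crest.Agent.R257.DegT_5

open Crest.Agent.R275.Geo Crest.Agent.R275.TorS666
open Crest.Agent.R275.Tor812 hiding pd
open Crest.Agent.R275.C1d194 Crest.Agent.R275.Pai323 Crest.Agent.R275.OmT75
open Crest.Agent.R275.SerG398 (lint dens)
open Crest.Agent.R273.StokesV_332
open Crest.Agent.R273.Fock_243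
open Crest.Agent.R273.Calc_243 hiding dj
open Crest.Agent.R273.Bkn_243 Crest.Agent.R273.Pos_243 Crest.Agent.R273.BochA_101
open Crest.Agent.R273.BochB_101 Crest.Agent.R273.BochC_101 Crest.Agent.R273.BochD_101
open Crest.Agent.R275.Core144 Crest.Agent.R273.Defs_333 Crest.Agent.R273.HM_333
open Crest.Agent.R273.Hess_333 Crest.Agent.R273.HessB_333 Crest.Agent.R273.Kah_333
open Crest.Agent.R257.C2F1_625 Crest.Agent.R257.C2F2_625 Crest.Agent.R257.C2F4_625
open Crest.Agent.R257.GBL1_625 Crest.Agent.R257.DegM_5 Crest.Agent.R257.DegC_5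

noncomputable section

/-! ### `∂∂̄ (w ∂∂̄ w)` -/

theorem swapB {n : ℕ} {f : Cn n → ℂ} {z : Cn n} (hf : ∀ᶠ y in 𝓝 z, Sm y f) (c d e : Fin n) :
    dS I c (dS (-I) d (dS I e f)) z = dS I e (dS (-I) d (dS I c f)) z := by
  rw [dS_comm ((hf.self_of_nhds).dS I e), dS_congr (comm_ev hf I I c e),
    dS_comm (((hf.self_of_nhds).dS I c).dS I e |> fun _ => (hf.self_of_nhds).dS I c)]

theorem ddm_smul_hess {w : Cn 2 → ℝ} {z : Cn 2} (hw : ∀ᶠ y in 𝓝 z, ContDiffAt ℝ ∞ w y) :
    ddm (fun y => (w y : ℂ) • hess w y) z = pd (hess w z) (hess w z) := by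
  set v : Cn 2 → ℂ := cu w with hv
  have hvs : ∀ᶠ y in 𝓝 z, Sm y v := hw.mono fun y hy => contDiffAt_cu hy
  have hv0 : Sm z v := hvs.self_of_nhds
  have hz : ∀ a b, Sm z (dS (-I) a (dS I b v)) := fun a b => (hv0.dS I b).dS (-I) a
  have e1 : ∀ a b, (fun y => ((w y : ℂ) • hess w y) a b) = fun y => v y * dS (-I) a (dS I b v) y :=
    fun a b => rfl
  unfold ddm
  rw [e1, e1, e1, e1]
  rw [dS2_mul hv0 (hz 1 1), dS2_mul hv0 (hz 0 0), dS2_mul hv0 (hz 1 0), dS2_mul hv0 (hz 0 1)]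
  have a1 : dS (-I) 0 (dS (-I) 1 (dS I 1 v)) z = dS (-I) 1 (dS (-I) 0 (dS I 1 v)) z :=
    dS_comm (hv0.dS I 1)
  have a2 : dS (-I) 1 (dS (-I) 0 (dS I 0 v)) z = dS (-I) 0 (dS (-I) 1 (dS I 0 v)) z :=
    dS_comm (hv0.dS I 0)
  have b1 : dS I 0 (dS (-I) 1 (dS I 1 v)) =ᶠ[𝓝 z] dS I 1 (dS (-I) 1 (dS I 0 v)) := by
    filter_upwards [hvs.eventually_nhds] with y hy
    exact swapB hy 0 1 1
  have b2 : dS I 1 (dS (-I) 0 (dS I 0 v)) =ᶠ[𝓝 z] dS I 0 (dS (-I) 0 (dS I 1 v)) := by
    filter_upwards [hvs.eventually_nhds] with y hy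
    exact swapB hy 1 0 0
  rw [a1, a2, b1.self_of_nhds, b2.self_of_nhds, dS_congr b1, dS_congr b2]
  simp only [pd, hess_eq]
  rw [← hv]
  ring

variable {M : Type} [TopologicalSpace M] {A : Atl 2 M} {N : Set M} {π : M → Cn 2}

/-! ### the Hessian of a composition with `π` -/

theorem hsf_comp (hN : IsOpen N) (hπ : HolN A N π) {u : Cn 2 → ℝ} {l : A.ι} {x : M}
    (hx : x ∈ (A.e l).source) (hxN : x ∈ N) (hu : ContDiffAt ℝ ∞ u (π x)) :
    hsf A (fun x => u (π x)) l x =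
      jm A π l x * hess u (π x) * ((jm A π l x).map conj)ᵀ := by
  set T : Cn 2 → Cn 2 := fun z => π ((A.e l).symm z) with hT
  have hTx : T (A.e l x) = π x := by
    simp only [hT]
    rw [(A.e l).left_inv hx]
  have hTd : ∀ᶠ z in 𝓝 (A.e l x), DifferentiableAt ℂ T z := by
    have h1 : A.e l x ∈ {z | z ∈ (A.e l).target ∧ (A.e l).symm z ∈ N} := by
      refine ⟨(A.e l).map_source hx, ?_⟩
      rw [(A.e l).left_inv hx]
      exact hxN
    filter_upwards [(isOpen_TN hN l).mem_nhds h1] with z hz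
    exact (hπ l).differentiableAt ((isOpen_TN hN l).mem_nhds hz)
  show hess (fun z => u (T z)) (A.e l x) = _
  ext a b
  rw [hess_comp (u := u) (T := T) (by rwa [hTx]) hTd, hTx]
  simp only [Matrix.mul_apply, Matrix.transpose_apply, Matrix.map_apply, Finset.sum_mul]
  rw [Finset.sum_comm]
  rfl

theorem pd_jm {J X Y : Matrix (Fin 2) (Fin 2) ℂ} :
    pd (J * X * (J.map conj)ᵀ) (J * Y * (J.map conj)ᵀ) = ((‖J.det‖ ^ 2 : ℝ) : ℂ) * pd X Y := by
  rw [pd_mul, Matrix.det_transpose, Crest.Agent.R273.GreenM_5.det_map_conj, Complex.mul_conj,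
    Complex.normSq_eq_norm_sq]

/-- the function `θ ∘ π` on `N`, zero elsewhere -/
def thN (N : Set M) (π : M → Cn 2) (θ : Cn 2 → ℝ) (x : M) : ℝ := by
  classical
  exact if x ∈ N then θ (π x) else 0

theorem thN_of {θ : Cn 2 → ℝ} {x : M} (hx : x ∈ N) : thN N π θ x = θ (π x) := if_pos hx

theorem thN_off {θ : Cn 2 → ℝ} {x : M} (hx : x ∉ N) : thN N π θ x = 0 := if_neg hx

/-- smooth composition with `π` -/
theorem smO_comp (hN : IsOpen N) (hπ : HolN A N π) {u : Cn 2 → ℝ} {l : A.ι} {x : M}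
    (hx : x ∈ (A.e l).source) (hxN : x ∈ N) (hu : ContDiffAt ℝ ∞ u (π x)) {f : M → ℝ}
    (hf : ∀ y ∈ N, f y = u (π y)) : ContDiffAt ℝ ∞ (fun z => f ((A.e l).symm z)) (A.e l x) := by
  have h1 : A.e l x ∈ {z | z ∈ (A.e l).target ∧ (A.e l).symm z ∈ N} := by
    refine ⟨(A.e l).map_source hx, ?_⟩
    rw [(A.e l).left_inv hx]
    exact hxN
  have h2 : ContDiffAt ℝ ∞ (fun z => π ((A.e l).symm z)) (A.e l x) :=
    (((Crest.Agent.R266.SCV.contDiffOn_omega_of_differentiableOn (isOpen_TN hN l)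
      (hπ l)).restrict_scalars ℝ).of_le le_top).contDiffAt ((isOpen_TN hN l).mem_nhds h1)
  have h3 : ContDiffAt ℝ ∞ (fun z => u (π ((A.e l).symm z))) (A.e l x) := by
    refine ContDiffAt.comp (A.e l x) ?_ h2
    rw [(A.e l).left_inv hx]
    exact hu
  refine h3.congr_of_eventuallyEq ?_
  filter_upwards [(isOpen_TN hN l).mem_nhds h1] with z hz
  exact hf _ hz.2

theorem hsf_eq_comp (hN : IsOpen N) (hπ : HolN A N π) {u : Cn 2 → ℝ} {l : A.ι} {x : M}
    (hx : x ∈ (A.e l).source) (hxN : x ∈ N) (hu : ContDiffAt ℝ ∞ u (π x)) {f : M → ℝ}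
    (hf : ∀ y ∈ N, f y = u (π y)) :
    hsf A f l x = jm A π l x * hess u (π x) * ((jm A π l x).map conj)ᵀ := by
  rw [← hsf_comp hN hπ hx hxN hu]
  have h1 : A.e l x ∈ {z | z ∈ (A.e l).target ∧ (A.e l).symm z ∈ N} := by
    refine ⟨(A.e l).map_source hx, ?_⟩
    rw [(A.e l).left_inv hx]
    exact hxN
  refine hess_congr ?_
  filter_upwards [(isOpen_TN hN l).mem_nhds h1] with z hz
  exact hf _ hz.2

/-- the hypotheses on `π` -/
structure CovD (A : Atl 2 M) (N : Set M) (π : M → Cn 2) (δ : ℝ) (m : ℕ) : Prop where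
  hN : IsOpen N
  hol : HolN A N π
  ne : ∀ x ∈ N, π x ≠ 0
  pos : 0 < δ
  cl : IsClosed (N ∩ {x | ‖π x‖ ≤ δ})
  cpt : ∀ ε > 0, IsCompact (N ∩ {x | ε ≤ ‖π x‖ ∧ ‖π x‖ ≤ δ})
  cnt : ∀ᵐ y : RI 2 → ℝ, ‖(cc y : Cn 2)‖ < δ → {x | x ∈ N ∧ π x = cc y}.encard = m

namespace CovD

variable {δ : ℝ} {m : ℕ} (D : CovD A N π δ m)

include D

theorem sm_thN {θ : Cn 2 → ℝ} (hθ : ContDiff ℝ ∞ θ) (h0 : ∀ y, δ ≤ ‖y‖ → θ y = 0) :
    A.Sm (thN N π θ) := by
  intro l z hz
  have hx := (A.e l).map_target hz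
  refine ContDiffAt.contDiffWithinAt ?_
  by_cases hxN : (A.e l).symm z ∈ N
  · have h1 := smO_comp (f := thN N π θ) D.hN D.hol hx hxN hθ.contDiffAt fun y hy => thN_of hy
    rwa [(A.e l).right_inv hz] at h1
  · have h1 : (A.e l).symm z ∉ N ∩ {x | ‖π x‖ ≤ δ} := fun h => hxN h.1
    have h2 : ∀ᶠ y in 𝓝 ((A.e l).symm z), thN N π θ y = 0 := by
      filter_upwards [D.cl.isOpen_compl.mem_nhds h1] with y hy
      by_cases hyN : y ∈ N
      · rw [thN_of hyN]
        refine h0 _ ?_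
        by_contra h
        exact hy ⟨hyN, (not_le.1 h).le⟩
      · exact thN_off hyN
    have h3 : Tendsto (A.e l).symm (𝓝 z) (𝓝 ((A.e l).symm z)) :=
      (A.e l).symm.continuousAt (by simpa using hz)
    exact contDiffAt_const.congr_of_eventuallyEq (h3.eventually h2)

variable {w : M → ℝ} (hw : ∀ x ∈ N, w x = W0 (π x))

include hw

theorem smS : SmS A N (fun i x => (w x : ℂ) • hsf A w i x) := by
  intro i a b x hx hxN
  have hW : ContDiffAt ℝ ∞ W0 (π x) := W0_smooth (D.ne x hxN)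
  have h1 : ContDiffAt ℝ ∞ (fun z => w ((A.e i).symm z)) (A.e i x) :=
    smO_comp D.hN D.hol hx hxN hW hw
  have h2 : ContDiffAt ℝ ∞ (fun z => hess (fun z => w ((A.e i).symm z)) z a b) (A.e i x) :=
    contDiffAt_hess h1 a b
  have h3 : ContDiffAt ℝ ∞ (fun z => (w ((A.e i).symm z) : ℂ)) (A.e i x) := contDiffAt_cu h1
  refine (h3.mul h2).congr_of_eventuallyEq ?_
  filter_upwards [(A.e i).open_target.mem_nhds ((A.e i).map_source hx)] with z hz
  show (w ((A.e i).symm z) : ℂ) * hsf A w i ((A.e i).symm z) a b = _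
  rw [hsf_read w i hz]

theorem tnO : TnO A N (fun i x => (w x : ℂ) • hsf A w i x) := by
  intro i j x hx hxN
  have hW : ContDiffAt ℝ ∞ W0 (π x) := W0_smooth (D.ne x hxN)
  have h1 : hsf A w i x = (Jm A i j x)ᵀ * hsf A w j x * (Jm A i j x).map conj := by
    have ho : IsOpen (A.ov i j) := isOpen_ov i j
    have hm : A.e i x ∈ A.ov i j := mem_ov hx
    refine hess_tr (f := fun _ => (1 : ℂ)) hx
      (smO_comp D.hN D.hol hx.1 hxN hW hw) (smO_comp D.hN D.hol hx.2 hxN hW hw)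
      (Eventually.of_forall fun w => differentiableAt_const _) one_ne_zero ?_
    filter_upwards [ho.mem_nhds hm] with y hy
    rw [(A.e j).left_inv hy.2]
    simp
  show (w x : ℂ) • hsf A w i x = (Jm A i j x)ᵀ * ((w x : ℂ) • hsf A w j x) * (Jm A i j x).map conj
  rw [h1, Matrix.mul_smul, Matrix.smul_mul]

/-- `(∂∂̄ w)² = 0` -/
theorem pd_self_zero {l : A.ι} {x : M} (hx : x ∈ (A.e l).source) (hxN : x ∈ N) :
    pd (hsf A w l x) (hsf A w l x) = 0 := by
  rw [hsf_eq_comp D.hN D.hol hx hxN (W0_smooth (D.ne x hxN)) hw, pd_jm, pd_log_self (D.ne x hxN),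
    mul_zero]

theorem ddD_zero {l : A.ι} {x : M} (hx : x ∈ (A.e l).source) (hxN : x ∈ N) :
    ddD A (fun i x => (w x : ℂ) • hsf A w i x) l x = 0 := by
  have h1 : A.e l x ∈ {z | z ∈ (A.e l).target ∧ (A.e l).symm z ∈ N} := by
    refine ⟨(A.e l).map_source hx, ?_⟩
    rw [(A.e l).left_inv hx]
    exact hxN
  unfold ddD
  have h2 : rdS A (fun i x => (w x : ℂ) • hsf A w i x) l =ᶠ[𝓝 (A.e l x)]
      fun y => ((fun z => w ((A.e l).symm z)) y : ℂ) • hess (fun z => w ((A.e l).symm z)) y := by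
    filter_upwards [(A.e l).open_target.mem_nhds ((A.e l).map_source hx)] with z hz
    show (w ((A.e l).symm z) : ℂ) • hsf A w l ((A.e l).symm z) = _
    rw [hsf_read w l hz]
  rw [ddm_congr h2, ddm_smul_hess]
  · exact D.pd_self_zero hw hx hxN
  · filter_upwards [(isOpen_TN D.hN l).mem_nhds h1] with z hz
    have hs := (A.e l).map_target hz.1
    have h3 := smO_comp D.hN D.hol hs hz.2 (W0_smooth (D.ne _ hz.2)) hw
    rwa [(A.e l).right_inv hz.1] at h3

end CovD

/-! ### the radial cut-off -/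

/-- `1` on `(-∞, a]`, `0` on `[b, ∞)` -/
def vt (a b s : ℝ) : ℝ := Real.smoothTransition ((b - s) / (b - a))

theorem vt_contDiff (a b : ℝ) : ContDiff ℝ ∞ (vt a b) :=
  Real.smoothTransition.contDiff.comp ((contDiff_const.sub contDiff_id).div_const _)

theorem vt_one {a b s : ℝ} (hab : a < b) (h : s ≤ a) : vt a b s = 1 := by
  refine Real.smoothTransition.one_of_one_le ?_
  rw [le_div_iff₀ (by linarith)]
  linarith

theorem vt_zero {a b s : ℝ} (hab : a < b) (h : b ≤ s) : vt a b s = 0 := by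
  refine Real.smoothTransition.zero_of_nonpos ?_
  exact div_nonpos_of_nonpos_of_nonneg (by linarith) (by linarith)

theorem vt_d1 (a b s : ℝ) : HasDerivAt (vt a b) (deriv (vt a b) s) s :=
  ((vt_contDiff a b).differentiable (by simp)).differentiableAt.hasDerivAt

theorem vt_d1c (a b : ℝ) : ContDiff ℝ ∞ (deriv (vt a b)) :=
  (contDiff_infty_iff_deriv.1 (vt_contDiff a b)).2

theorem vt_d2 (a b s : ℝ) : HasDerivAt (deriv (vt a b)) (deriv (deriv (vt a b)) s) s :=
  ((vt_d1c a b).differentiable (by simp)).differentiableAt.hasDerivAt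

theorem vt_d2c (a b : ℝ) : Continuous (deriv (deriv (vt a b))) :=
  (contDiff_infty_iff_deriv.1 (vt_d1c a b)).2.continuous

theorem vt_d1_small {a b s : ℝ} (hab : a < b) (h : s < a) : deriv (vt a b) s = 0 := by
  have : vt a b =ᶠ[𝓝 s] fun _ => 1 := by
    filter_upwards [Iio_mem_nhds h] with t ht
    exact vt_one hab (le_of_lt ht)
  rw [this.deriv_eq, deriv_const]

theorem vt_d1_big {a b s : ℝ} (hab : a < b) (h : b < s) : deriv (vt a b) s = 0 := by
  have : vt a b =ᶠ[𝓝 s] fun _ => 0 := by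
    filter_upwards [Ioi_mem_nhds h] with t ht
    exact vt_zero hab (le_of_lt ht)
  rw [this.deriv_eq, deriv_const]

theorem vt_d2_small {a b s : ℝ} (hab : a < b) (h : s < a) : deriv (deriv (vt a b)) s = 0 := by
  have : deriv (vt a b) =ᶠ[𝓝 s] fun _ => 0 := by
    filter_upwards [Iio_mem_nhds h] with t ht
    exact vt_d1_small hab ht
  rw [this.deriv_eq, deriv_const]

theorem vt_d2_big {a b s : ℝ} (hab : a < b) (h : b < s) : deriv (deriv (vt a b)) s = 0 := by
  have : deriv (vt a b) =ᶠ[𝓝 s] fun _ => 0 := by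
    filter_upwards [Ioi_mem_nhds h] with t ht
    exact vt_d1_big hab ht
  rw [this.deriv_eq, deriv_const]

/-- `log |y|² pd (hess log |y|²) (hess ϑ(|y|²))` -/
def GG (a b : ℝ) (y : Cn 2) : ℝ :=
  Real.log (U0 y) * ((deriv (vt a b) (U0 y) + U0 y * deriv (deriv (vt a b)) (U0 y)) / U0 y)

theorem GG_small {a b : ℝ} (hab : a < b) {y : Cn 2} (h : U0 y < a) : GG a b y = 0 := by
  unfold GG
  rw [vt_d1_small hab h, vt_d2_small hab h]
  simp

theorem GG_big {a b : ℝ} (hab : a < b) {y : Cn 2} (h : b < U0 y) : GG a b y = 0 := by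
  unfold GG
  rw [vt_d1_big hab h, vt_d2_big hab h]
  simp

theorem GG_continuous {a b : ℝ} (ha : 0 < a) (hab : a < b) : Continuous (GG a b) := by
  rw [continuous_iff_continuousAt]
  intro y
  have hU : Continuous (U0 : Cn 2 → ℝ) := U0_smooth.continuous
  rcases lt_or_ge (U0 y) a with h | h
  · have : GG a b =ᶠ[𝓝 y] fun _ => 0 := by
      filter_upwards [hU.continuousAt.eventually (gt_mem_nhds h)] with z hz
      exact GG_small hab hz
    exact continuousAt_const.congr this.symm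
  · have h0 : U0 y ≠ 0 := by linarith
    have c1 : ContinuousAt (fun y : Cn 2 => deriv (vt a b) (U0 y)) y :=
      ((vt_d1c a b).continuous.comp hU).continuousAt
    have c2 : ContinuousAt (fun y : Cn 2 => deriv (deriv (vt a b)) (U0 y)) y :=
      ((vt_d2c a b).comp hU).continuousAt
    exact (hU.continuousAt.log h0).mul ((c1.add (hU.continuousAt.mul c2)).div hU.continuousAt h0)

theorem GG_integrable {a b : ℝ} (ha : 0 < a) (hab : a < b) :
    Integrable fun y : RI 2 → ℝ => GG a b (cc y) := by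
  have h1 : HasCompactSupport (GG a b) := by
    refine HasCompactSupport.intro (isCompact_closedBall (0 : Cn 2) (√b)) fun y hy => ?_
    refine GG_big hab ?_
    have h2 : √b < ‖y‖ := by
      by_contra h
      exact hy (by simpa using not_lt.1 h)
    exact (Real.sqrt_lt (by linarith) (norm_nonneg y)).1 h2
  have h2 : Topology.IsClosedEmbedding (cc : (RI 2 → ℝ) → Cn 2) :=
    (rcE 2).symm.toContinuousLinearEquiv.toHomeomorph.isClosedEmbedding
  exact ((GG_continuous ha hab).comp continuous_cc).integrable_of_hasCompactSupport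
    (h1.comp_isClosedEmbedding h2)

theorem GG_int {a b : ℝ} (ha : 0 < a) (hab : a < b) :
    ∫ y : RI 2 → ℝ, GG a b (cc y) = Real.pi ^ 2 :=
  const_rad (vt_d1 a b) (vt_d2 a b) (vt_d2c a b) ha hab (fun _ h => vt_one hab h)
    (fun _ h => vt_zero hab h)

section main

variable [T2Space M]

namespace CovD

variable {δ : ℝ} {m : ℕ} (D : CovD A N π δ m) {w : M → ℝ} (hw : ∀ x ∈ N, w x = W0 (π x))

/-- the inner and outer radii -/
def ra (δ : ℝ) : ℝ := δ ^ 2 / 4

def rb (δ : ℝ) : ℝ := δ ^ 2 / 2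

include D

theorem ra_pos : 0 < ra δ := by have := D.pos; unfold ra; positivity

theorem ra_rb : ra δ < rb δ := by have := D.pos; unfold ra rb; nlinarith [sq_nonneg δ, mul_pos this this]

theorem rb_lt : rb δ < δ ^ 2 := by have := D.pos; unfold rb; nlinarith [mul_pos this this]

/-- the standard cut-off -/
def chi0 (_D : CovD A N π δ m) : M → ℝ := thN N π fun y => vt (ra δ) (rb δ) (U0 y)

theorem sm_chi0 : A.Sm D.chi0 :=
  D.sm_thN ((vt_contDiff _ _).comp U0_smooth) fun y hy => vt_zero D.ra_rb (by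
    have h1 := D.rb_lt
    have h2 : δ ^ 2 ≤ ‖y‖ ^ 2 := pow_le_pow_left₀ D.pos.le hy 2
    exact (h1.trans_le h2).le)

theorem chi0_one {x : M} (hx : x ∈ N) (h : ‖π x‖ < δ / 2) : D.chi0 x = 1 := by
  unfold chi0
  rw [thN_of hx]
  refine vt_one D.ra_rb ?_
  unfold U0 ra
  have := norm_nonneg (π x)
  nlinarith

theorem chi0_zero {x : M} (h : x ∉ N ∩ {x | ‖π x‖ ≤ δ}) : D.chi0 x = 0 := by
  unfold chi0
  by_cases hx : x ∈ N
  · rw [thN_of hx]
    refine vt_zero D.ra_rb ?_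
    have h1 : δ < ‖π x‖ := by
      by_contra h2
      exact h ⟨hx, not_lt.1 h2⟩
    have h2 := D.rb_lt
    have h3 : δ ^ 2 ≤ ‖π x‖ ^ 2 := pow_le_pow_left₀ D.pos.le h1.le 2
    exact (h2.trans_le h3).le
  · exact thN_off hx

theorem eventually_chart {l : A.ι} {x : M} (hx : x ∈ (A.e l).source) {p : M → Prop}
    (h : ∀ᶠ y in 𝓝 x, p y) : ∀ᶠ z in 𝓝 (A.e l x), p ((A.e l).symm z) := by
  have h1 : Tendsto (A.e l).symm (𝓝 (A.e l x)) (𝓝 x) := by
    have := ((A.e l).symm.continuousAt (x := A.e l x) (by simpa using (A.e l).map_source hx)).tendsto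
    rwa [(A.e l).left_inv hx] at this
  exact h1.eventually h

/-- the Hessian vanishes where the function is locally constant -/
theorem hsf_zero_of {f : M → ℝ} {c : ℝ} {l : A.ι} {x : M} (hx : x ∈ (A.e l).source)
    (h : ∀ᶠ y in 𝓝 x, f y = c) : hsf A f l x = 0 := by
  have h1 := D.eventually_chart hx h
  have h2 : hsf A f l x = hsf A (fun _ => c) l x := hess_congr h1
  rw [h2]
  exact Crest.Agent.R273.MassA_5.hsf_const c l x

theorem pi_lt {x : M} (hx : x ∈ N) {r : ℝ} (h : ‖π x‖ < r) :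
    ∀ᶠ y in 𝓝 x, y ∈ N ∧ ‖π y‖ < r := by
  obtain ⟨l, hl⟩ := A.cover x
  have h1 : A.e l x ∈ {z | z ∈ (A.e l).target ∧ (A.e l).symm z ∈ N} := by
    refine ⟨(A.e l).map_source hl, ?_⟩
    rw [(A.e l).left_inv hl]
    exact hx
  have h2 : ContinuousAt (fun z => π ((A.e l).symm z)) (A.e l x) :=
    (D.hol l).continuousOn.continuousAt ((isOpen_TN D.hN l).mem_nhds h1)
  have h3 : ContinuousAt (fun y => π ((A.e l).symm (A.e l y))) x :=
    ContinuousAt.comp (f := A.e l) h2 ((A.e l).continuousAt hl)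
  have h4 : ContinuousAt π x := h3.congr (by
    filter_upwards [(A.e l).open_source.mem_nhds hl] with y hy
    rw [(A.e l).left_inv hy])
  filter_upwards [D.hN.mem_nhds hx, h4.norm.eventually (gt_mem_nhds h)] with y h5 h6
  exact ⟨h5, h6⟩

include hw

/-- the integral for the standard cut-off -/
theorem tot_chi0 (P : Part A) :
    intD P (fun i x => pd (hsf A D.chi0 i x) ((w x : ℂ) • hsf A w i x)) =
      ((m * Real.pi ^ 2 : ℝ) : ℂ) := by
  have hden : Den A (fun i x => pd (hsf A D.chi0 i x) ((w x : ℂ) • hsf A w i x)) := by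
    have h := den_pd D.cl D.sm_chi0 (inter_subset_left : _ ⊆ N) (fun x hx => D.chi0_zero hx)
      (D.smS hw) (D.tnO hw)
    simpa only [hc_ofReal] using h
  have hoff : OffK A (fun i x => pd (hsf A D.chi0 i x) ((w x : ℂ) • hsf A w i x))
      (N ∩ {x | δ / 2 ≤ ‖π x‖ ∧ ‖π x‖ ≤ δ}) := by
    intro i x hx hxK
    have hp : ∀ Y : Matrix (Fin 2) (Fin 2) ℂ, pd 0 Y = 0 := fun Y => by simp [pd]
    have h0 : hsf A D.chi0 i x = 0 := by
      by_cases h1 : x ∈ N ∩ {x | ‖π x‖ ≤ δ}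
      · have h2 : ‖π x‖ < δ / 2 := by
          by_contra h
          exact hxK ⟨h1.1, not_lt.1 h, h1.2⟩
        refine D.hsf_zero_of hx (c := 1) ?_
        filter_upwards [D.pi_lt h1.1 h2] with y hy
        exact D.chi0_one hy.1 hy.2
      · refine D.hsf_zero_of hx (c := 0) ?_
        filter_upwards [D.cl.isOpen_compl.mem_nhds h1] with y hy
        exact D.chi0_zero hy
    show pd (hsf A D.chi0 i x) _ = 0
    rw [h0, hp]
  rw [cov P D.hN D.hol hden (D.cpt (δ / 2) (half_pos D.pos)) hoff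
    (GG_continuous D.ra_pos D.ra_rb) (GG_integrable D.ra_pos D.ra_rb) (m := m) ?_ ?_ ?_]
  · rw [GG_int D.ra_pos D.ra_rb]
  · intro l x hx hxN
    have hW := W0_smooth (D.ne x hxN)
    have h1 : hsf A D.chi0 l x = jm A π l x * hess (fun y => vt (ra δ) (rb δ) (U0 y)) (π x) *
        ((jm A π l x).map conj)ᵀ :=
      hsf_eq_comp D.hN D.hol hx hxN ((vt_contDiff _ _).comp U0_smooth).contDiffAt
        fun y hy => thN_of hy
    show pd (hsf A D.chi0 l x) ((w x : ℂ) • hsf A w l x) = _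
    rw [h1, hsf_eq_comp D.hN D.hol hx hxN hW hw, pd_smul, pd_jm, pd_comm,
      pd_rad (D.ne x hxN) (Eventually.of_forall fun s => vt_d1 _ _ s) (vt_d2 _ _ _), hw x hxN]
    unfold GG W0
    push_cast
    ring
  · intro l x hx hxN
    have h0 : hsf A D.chi0 l x = 0 := by
      refine D.hsf_zero_of hx (c := 0) ?_
      filter_upwards [D.cl.isOpen_compl.mem_nhds fun h => hxN h.1] with y hy
      exact D.chi0_zero hy
    show pd (hsf A D.chi0 l x) _ = 0
    rw [h0]
    simp [pd]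
  · filter_upwards [D.cnt] with y hy h0
    have h1 : ra δ ≤ U0 (cc y : Cn 2) := by
      by_contra h
      exact h0 (GG_small D.ra_rb (not_le.1 h))
    have h2 : U0 (cc y : Cn 2) ≤ rb δ := by
      by_contra h
      exact h0 (GG_big D.ra_rb (not_le.1 h))
    have h3 : ‖(cc y : Cn 2)‖ < δ := by
      have h4 := D.rb_lt
      unfold U0 at h2
      exact lt_of_pow_lt_pow_left₀ 2 D.pos.le (h2.trans_lt h4)
    have h4 : δ / 2 ≤ ‖(cc y : Cn 2)‖ := by
      unfold U0 ra at h1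
      have := norm_nonneg (cc y : Cn 2)
      have hp := D.pos
      by_contra h
      rw [not_le] at h
      nlinarith
    refine ⟨fun x hx hxy => ⟨hx, ?_, ?_⟩, hy h3⟩
    · rw [hxy]; exact h4
    · rw [hxy]; exact h3.le

/-- **(M3)** the mass of `log |π|²` -/
theorem tot_eq (P : Part A) {χ : M → ℝ} (hχ : A.Sm χ) (hχN : tsupport χ ⊆ N)
    {ε : ℝ} (hε : 0 < ε) (hχ1 : ∀ x ∈ N, ‖π x‖ < ε → χ x = 1)
    (hχK : ∀ r > 0, IsCompact (tsupport χ ∩ {x | r ≤ ‖π x‖})) :
    intD P (fun i x => (w x : ℂ) * pd (hsf A w i x) (hsf A χ i x)) =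
      ((Real.pi ^ 2 * m : ℝ) : ℂ) := by
  set r : ℝ := min ε (δ / 2) with hr
  have hr0 : 0 < r := lt_min hε (half_pos D.pos)
  set K : Set M := (tsupport χ ∩ {x | r ≤ ‖π x‖}) ∪ (N ∩ {x | r ≤ ‖π x‖ ∧ ‖π x‖ ≤ δ}) with hK
  have hKc : IsCompact K := (hχK r hr0).union (D.cpt r hr0)
  have hKN : K ⊆ N := by
    rintro x (hx | hx)
    · exact hχN hx.1
    · exact hx.1
  set φ : M → ℝ := fun x => χ x - D.chi0 x with hφ
  have hφs : A.Sm φ := fun i => (hχ i).sub (D.sm_chi0 i)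
  have hφ0 : ∀ x, x ∉ K → φ x = 0 := by
    intro x hx
    simp only [hφ]
    by_cases hxN : x ∈ N
    · rcases lt_or_ge ‖π x‖ r with h | h
      · rw [hχ1 x hxN (h.trans_le (min_le_left _ _)), D.chi0_one hxN (h.trans_le (min_le_right _ _)),
          sub_self]
      · have h1 : χ x = 0 := by
          by_contra h1
          exact hx (Or.inl ⟨subset_tsupport _ h1, h⟩)
        have h2 : D.chi0 x = 0 := D.chi0_zero fun h2 => hx (Or.inr ⟨hxN, h, h2.2⟩)
        rw [h1, h2, sub_self]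
    · have h1 : χ x = 0 := by
        by_contra h1
        exact hxN (hχN (subset_tsupport _ h1))
      rw [h1, D.chi0_zero fun h => hxN h.1, sub_self]
  -- the three densities
  have hdφ : Den A (fun i x => pd (hsf A φ i x) ((w x : ℂ) • hsf A w i x)) := by
    have h := den_pd hKc.isClosed hφs hKN hφ0 (D.smS hw) (D.tnO hw)
    simpa only [hc_ofReal] using h
  have hd0 : Den A (fun i x => pd (hsf A D.chi0 i x) ((w x : ℂ) • hsf A w i x)) := by
    have h := den_pd D.cl D.sm_chi0 (inter_subset_left : _ ⊆ N) (fun x hx => D.chi0_zero hx)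
      (D.smS hw) (D.tnO hw)
    simpa only [hc_ofReal] using h
  have hp : ∀ Y : Matrix (Fin 2) (Fin 2) ℂ, pd 0 Y = 0 := fun Y => by simp [pd]
  have ho0 : OffK A (fun i x => pd (hsf A D.chi0 i x) ((w x : ℂ) • hsf A w i x)) K := by
    intro i x hx hxK
    have h0 : hsf A D.chi0 i x = 0 := by
      by_cases h1 : x ∈ N ∩ {x | ‖π x‖ ≤ δ}
      · have h2 : ‖π x‖ < r := by
          by_contra h
          exact hxK (Or.inr ⟨h1.1, not_lt.1 h, h1.2⟩)
        refine D.hsf_zero_of hx (c := 1) ?_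
        filter_upwards [D.pi_lt h1.1 h2] with y hy
        exact D.chi0_one hy.1 (hy.2.trans_le (min_le_right _ _))
      · refine D.hsf_zero_of hx (c := 0) ?_
        filter_upwards [D.cl.isOpen_compl.mem_nhds h1] with y hy
        exact D.chi0_zero hy
    show pd (hsf A D.chi0 i x) _ = 0
    rw [h0, hp]
  have hoφ : OffK A (fun i x => pd (hsf A φ i x) ((w x : ℂ) • hsf A w i x)) K := by
    intro i x hx hxK
    have h0 : hsf A φ i x = 0 := by
      refine D.hsf_zero_of hx (c := 0) ?_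
      filter_upwards [hKc.isClosed.isOpen_compl.mem_nhds hxK] with y hy
      exact hφ0 y hy
    show pd (hsf A φ i x) _ = 0
    rw [h0, hp]
  have e1 : intD P (fun i x => (w x : ℂ) * pd (hsf A w i x) (hsf A χ i x)) =
      intD P (fun i x => pd (hsf A D.chi0 i x) ((w x : ℂ) • hsf A w i x) +
        pd (hsf A φ i x) ((w x : ℂ) • hsf A w i x)) := by
    refine intD_congr P fun i x hx => ?_
    have h1 : hsf A χ i x = hsf A D.chi0 i x + hsf A φ i x := by
      have h2 : χ = fun y => D.chi0 y + φ y := by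
        funext y
        simp only [hφ]
        ring
      conv_lhs => rw [h2]
      exact Crest.Agent.R273.TLs_201.hsf_add D.sm_chi0 hφs hx
    rw [← add_pd, ← h1, pd_smul, pd_comm]
  rw [e1, intD_add P (fun i => hd0.sm i) (fun i => hdφ.sm i) hKc ho0 hoφ, D.tot_chi0 hw P,
    ← tensor_stokes P D.hN hφs hKc hKN hφ0 (D.smS hw) (D.tnO hw)]
  have e2 : intD P (fun i x => (φ x : ℂ) * ddD A (fun i x => (w x : ℂ) • hsf A w i x) i x) = 0 := by
    rw [← intD_zero P]
    refine intD_congr P fun i x hx => ?_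
    by_cases hxK : x ∈ K
    · rw [D.ddD_zero hw hx (hKN hxK), mul_zero]
    · rw [hφ0 x hxK]; simp
  rw [e2, add_zero]
  push_cast
  ring

end CovD

end main

end

end Crest.Agent.R257.DegT_5
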