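import Crest.Agent.R257.Atl5_941
import Crest.Agent.R257.DegP_5

/-!
# R257 (S0395), leaf M3-V (helper5), part 1: the pair `(g, h)` on a level surface

* `sard`      : almost every value of `π` is regular
* `gh X τ g h`: the map `x ↦ (g x, h x)` on `X.M τ`, `holN_gh`
* `inj_of_jm` : at a regular point, `(dF, dg, dh)` is injective
-/

set_option autoImplicit false
set_option linter.unusedSectionVars false

open Set Filter Topology Complex MeasureTheory
open scoped ContDiff Matrix ComplexConjugate ENNReal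

namespace Crest.Agent.R257.DegV_5

open Crest.Agent.R275 Crest.Agent.R275.Geo Crest.Agent.R275.C1d194 Crest.Agent.R275.Pai323
open Crest.Agent.R275.SerG398 (lint dens)
open Crest.Agent.R273.StokesV_332 Crest.Agent.R273.Vm_333
open Crest.Agent.R257.Area_5 Crest.Agent.R257.DegM_5 Crest.Agent.R257.DegT_5
open Crest.Agent.R257.Atl_941 (SFam dX dch inj_chart dch_tangent par_chart)

noncomputable section

section sard

variable {n : ℕ} {M : Type} [TopologicalSpace M] {A : Atl n M} {N : Set M} {π : M → Cn n}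

/-- **Sard** : almost every value of `π` is regular -/
theorem sard (hc : Countable A.ι) (hN : IsOpen N) (hπ : HolN A N π) :
    ∀ᵐ y : RI n → ℝ, ∀ x ∈ N, π x = cc y → ∀ l, x ∈ (A.e l).source → (jm A π l x).det ≠ 0 := by
  have h1 : ∀ l, volume (pr A π l '' {y | y ∈ UN A N l ∧ (fderiv ℝ (pr A π l) y).det = 0}) = 0 := by
    intro l
    refine addHaar_image_eq_zero_of_det_fderivWithin_eq_zero volume
      (f' := fun y => fderiv ℝ (pr A π l) y) ?_ fun y hy => hy.2
    intro y hy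
    exact (((contDiffOn_pr hπ hN l).differentiableOn one_ne_zero).differentiableAt
      ((isOpen_UN hN l).mem_nhds hy.1)).hasFDerivAt.hasFDerivWithinAt
  have h2 : ∀ᵐ y : RI n → ℝ, ∀ l,
      y ∉ pr A π l '' {y | y ∈ UN A N l ∧ (fderiv ℝ (pr A π l) y).det = 0} :=
    ae_all_iff.2 fun l => measure_eq_zero_iff_ae_notMem.1 (h1 l)
  filter_upwards [h2] with y hy x hx hxy l hl h0
  refine hy l ⟨rc (A.e l x), ⟨⟨mem_Ui hl, ?_⟩, ?_⟩, ?_⟩
  · show sg A l (rc (A.e l x)) ∈ N
    rw [sg_rc hl]; exact hx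
  · have h3 := fderiv_pr hπ hN (l := l) (y := rc (A.e l x))
      ⟨mem_Ui hl, by rw [sg_rc hl]; exact hx⟩
    rw [sg_rc hl, h0] at h3
    simpa using h3
  · show rc (π (sg A l (rc (A.e l x)))) = y
    rw [sg_rc hl, hxy, rc_cc]

end sard

variable {E P : Type} [NormedAddCommGroup E] [NormedSpace ℂ E] [FiniteDimensional ℂ E]
  [NormedAddCommGroup P] [NormedSpace ℂ P] [FiniteDimensional ℂ P] (X : SFam 2 E P) (τ : P)

/-- the map `(g, h)` -/
def gh (g h : E → ℂ) (x : X.M τ) : Cn 2 := WithLp.toLp 2 ![g x.1, h x.1]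

theorem gh_zero (g h : E → ℂ) (x : X.M τ) : gh X τ g h x 0 = g x.1 := rfl
theorem gh_one (g h : E → ℂ) (x : X.M τ) : gh X τ g h x 1 = h x.1 := rfl

variable {X τ}

theorem diffOn_two {V : Type*} [NormedAddCommGroup V] [NormedSpace ℂ V] {a b : V → ℂ} {U : Set V}
    (ha : DifferentiableOn ℂ a U) (hb : DifferentiableOn ℂ b U) :
    DifferentiableOn ℂ (fun z => (WithLp.toLp 2 ![a z, b z] : Cn 2)) U := by
  have h : DifferentiableOn ℂ (fun z => (![a z, b z] : Fin 2 → ℂ)) U := by
    refine differentiableOn_pi.2 fun i => ?_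
    fin_cases i
    · exact ha
    · exact hb
  exact ((PiLp.continuousLinearEquiv 2 ℂ (fun _ : Fin 2 => ℂ)).symm.differentiable).comp_differentiableOn h

theorem holN_gh {g h : E → ℂ} {U : Set E} (hg : DifferentiableOn ℂ g U)
    (hh : DifferentiableOn ℂ h U) : HolN (X.A τ) {x | x.1 ∈ U} (gh X τ g h) := by
  intro l
  have h1 : DifferentiableOn ℂ (fun z => (((X.A τ).e l).symm z).1) ((X.A τ).e l).target :=
    (par_chart l).hol
  exact diffOn_two (hg.comp (h1.mono fun z hz => hz.1) fun z hz => hz.2)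
    (hh.comp (h1.mono fun z hz => hz.1) fun z hz => hz.2)

/-- the tangent space is the image of the chart -/
theorem exists_tangent {x : X.M τ} {l : (X.A τ).ι} (hx : x ∈ ((X.A τ).e l).source) {v : E}
    (hv : dX X (x.1, τ) v = 0) : ∃ w, dch X τ l x w = v := by
  set T : Cn 2 →L[ℂ] E := dch X τ l x with hT
  have hinj : Function.Injective T := inj_chart l (((X.A τ).e l).map_source hx)
  have hle : LinearMap.range (T : Cn 2 →ₗ[ℂ] E) ≤ LinearMap.ker (dX X (x.1, τ) : E →ₗ[ℂ] ℂ) := by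
    rintro _ ⟨w, rfl⟩
    exact dch_tangent l hx w
  have hdE : Module.finrank ℂ E = 3 := by
    rw [X.b.toLinearEquiv.finrank_eq]
    simp
  have h1 : Module.finrank ℂ (LinearMap.range (T : Cn 2 →ₗ[ℂ] E)) = 2 := by
    rw [LinearMap.finrank_range_of_inj hinj]
    simp
  have h2 : Module.finrank ℂ (LinearMap.ker (dX X (x.1, τ) : E →ₗ[ℂ] ℂ)) = 2 := by
    have h3 := LinearMap.finrank_range_add_finrank_ker (dX X (x.1, τ) : E →ₗ[ℂ] ℂ)
    have h4 : (dX X (x.1, τ) : E →ₗ[ℂ] ℂ) ≠ 0 := by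
      intro h
      apply Crest.Agent.R257.Atl_941.dX_ne' x
      ext v
      exact LinearMap.congr_fun h v
    have h5 : LinearMap.range (dX X (x.1, τ) : E →ₗ[ℂ] ℂ) = ⊤ := LinearMap.range_eq_top.2
      (LinearMap.surjective h4)
    rw [h5, finrank_top, Module.finrank_self, hdE] at h3
    omega
  have h6 := Submodule.eq_of_le_of_finrank_eq hle (h1.trans h2.symm)
  have h7 : v ∈ LinearMap.range (T : Cn 2 →ₗ[ℂ] E) := by
    rw [h6]
    exact hv
  exact h7

/-- at a regular point the three differentials are independent -/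
theorem inj_of_jm {x : X.M τ} {l : (X.A τ).ι} (hx : x ∈ ((X.A τ).e l).source) {g h : E → ℂ}
    (hdet : (jm (X.A τ) (gh X τ g h) l x).det ≠ 0) (hg : DifferentiableAt ℂ g x.1)
    (hh : DifferentiableAt ℂ h x.1) {v : E} (hv : dX X (x.1, τ) v = 0)
    (hgv : fderiv ℂ g x.1 v = 0) (hhv : fderiv ℂ h x.1 v = 0) : v = 0 := by
  obtain ⟨w, rfl⟩ := exists_tangent hx hv
  have hz := ((X.A τ).e l).map_source hx
  have hsx : ((X.A τ).e l).symm ((X.A τ).e l x) = x := ((X.A τ).e l).left_inv hx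
  have h1 : HasFDerivAt (fun z => (((X.A τ).e l).symm z).1) (dch X τ l x) ((X.A τ).e l x) :=
    ((par_chart l).diffAt hz).hasFDerivAt
  have hG : HasFDerivAt (fun z => g (((X.A τ).e l).symm z).1) ((fderiv ℂ g x.1).comp (dch X τ l x))
      ((X.A τ).e l x) := by
    have h2 : HasFDerivAt g (fderiv ℂ g x.1)
        ((fun z => (((X.A τ).e l).symm z).1) ((X.A τ).e l x)) := by
      show HasFDerivAt g (fderiv ℂ g x.1) (((X.A τ).e l).symm ((X.A τ).e l x)).1
      rw [hsx]; exact hg.hasFDerivAt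
    exact HasFDerivAt.comp (g := g) _ h2 h1
  have hH : HasFDerivAt (fun z => h (((X.A τ).e l).symm z).1) ((fderiv ℂ h x.1).comp (dch X τ l x))
      ((X.A τ).e l x) := by
    have h2 : HasFDerivAt h (fderiv ℂ h x.1)
        ((fun z => (((X.A τ).e l).symm z).1) ((X.A τ).e l x)) := by
      show HasFDerivAt h (fderiv ℂ h x.1) (((X.A τ).e l).symm ((X.A τ).e l x)).1
      rw [hsx]; exact hh.hasFDerivAt
    exact HasFDerivAt.comp (g := h) _ h2 h1
  have hπ : DifferentiableAt ℂ (fun z => gh X τ g h (((X.A τ).e l).symm z)) ((X.A τ).e l x) := by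
    have h2 : DifferentiableAt ℂ (fun z => (![g (((X.A τ).e l).symm z).1,
        h (((X.A τ).e l).symm z).1] : Fin 2 → ℂ)) ((X.A τ).e l x) := by
      refine differentiableAt_pi.2 fun i => ?_
      fin_cases i
      · exact hG.differentiableAt
      · exact hH.differentiableAt
    exact ((PiLp.continuousLinearEquiv 2 ℂ (fun _ : Fin 2 => ℂ)).symm.differentiableAt).comp _ h2
  set D := fderiv ℂ (fun z => gh X τ g h (((X.A τ).e l).symm z)) ((X.A τ).e l x) with hD
  have hc : ∀ i, HasFDerivAt (fun z => gh X τ g h (((X.A τ).e l).symm z) i)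
      ((EuclideanSpace.proj i : Cn 2 →L[ℂ] ℂ).comp D) ((X.A τ).e l x) := fun i =>
    (EuclideanSpace.proj i : Cn 2 →L[ℂ] ℂ).hasFDerivAt.comp _ hπ.hasFDerivAt
  have e0 := congrArg (fun S : Cn 2 →L[ℂ] ℂ => S w) ((hc 0).unique hG)
  have e1 := congrArg (fun S : Cn 2 →L[ℂ] ℂ => S w) ((hc 1).unique hH)
  have hDw : D w = 0 := by
    ext i
    fin_cases i
    · exact e0.trans hgv
    · exact e1.trans hhv
  have hinj : Function.Injective (D : Cn 2 →ₗ[ℂ] Cn 2) := by
    rw [det_jm] at hdet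
    have h3 := (LinearMap.isUnit_iff_isUnit_det (D : Cn 2 →ₗ[ℂ] Cn 2)).2 (isUnit_iff_ne_zero.2 hdet)
    exact (LinearMap.isUnit_iff_ker_eq_bot _).1 h3 |> LinearMap.ker_eq_bot.1
  have hw : w = 0 := hinj (by simpa using hDw)
  rw [hw, map_zero]

end

end Crest.Agent.R257.DegV_5
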