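import Crest.Agent.R257.DegV1_5
import Crest.Agent.R257.KED_952

/-!
# R257 (S0395), leaf M3-V (helper5), part 2: `CovD` on the level `{f = 0}` in `E3`

* `Lv X τ f r`    : `X.M τ` is the level `{f = 0}` in the punctured ball `0 < |x| < r`
* `PairD f g h r m` : `g, h` on the level: no common zeros, `m` points over regular values
* `covD`          : `CovD` for `(g, h)` on `{|x| < ρ}`
* `tot_lv`        : the mass of `c⁻¹ log (|g|^{2p} + |h|^{2q})` on the level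
-/

set_option autoImplicit false
set_option linter.unusedSectionVars false

open Set Filter Topology Complex MeasureTheory
open scoped ContDiff Matrix ComplexConjugate ENNReal

namespace Crest.Agent.R257.DegV_5

open Crest.Agent.R275 Crest.Agent.R275.Geo Crest.Agent.R275.C1d194 Crest.Agent.R275.Pai323
open Crest.Agent.R275.SerG398 (lint dens)
open Crest.Agent.R273.Defs_333 Crest.Agent.R273.Hess_333 Crest.Agent.R273.Kah_333
open Crest.Agent.R273.StokesV_332 Crest.Agent.R273.Vm_333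
open Crest.Agent.R257.Area_5 Crest.Agent.R257.DegM_5 Crest.Agent.R257.DegT_5
open Crest.Agent.R257.DegP_5
open Crest.Agent.R257.Atl_941 (SFam dX dch inj_chart dch_tangent par_chart sm_comp_val)
open Crest.Agent.R257.Defs_219 (E3)
open Crest.Agent.R257.PN_835 (nsq nsq_nonneg nsq_pos continuous_nsq)
open Crest.Agent.R257.KED_952 (Cut)
open Crest.Agent.R257.C2F1_625 (pd)

noncomputable section

variable {P : Type} [NormedAddCommGroup P] [NormedSpace ℂ P] [FiniteDimensional ℂ P]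

/-- `X.M τ` is the level `{f = 0}` in the punctured ball -/
structure Lv (X : SFam 2 E3 P) (τ : P) (f : E3 → ℂ) (r : ℝ) : Prop where
  W : ∀ x, (x, τ) ∈ X.W ↔ x ≠ 0 ∧ nsq x < r ^ 2
  F : ∀ x, x ≠ 0 → nsq x < r ^ 2 → X.F (x, τ) = f x

/-- the data on `(g, h)` -/
structure PairD (f g h : E3 → ℂ) (r : ℝ) (m : ℕ) : Prop where
  pos : 0 < r
  hf : DifferentiableOn ℂ f {x | nsq x < r ^ 2}
  hg : DifferentiableOn ℂ g {x | nsq x < r ^ 2}
  hh : DifferentiableOn ℂ h {x | nsq x < r ^ 2}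
  f0 : f 0 = 0
  g0 : g 0 = 0
  h0 : h 0 = 0
  nz : ∀ x, x ≠ 0 → nsq x < r ^ 2 → f x = 0 → g x = 0 → h x = 0 → False
  cnt : ∀ ρ, 0 < ρ → ρ < r → ∀ᶠ y in 𝓝 (0 : Cn 2),
    (∀ x, nsq x < ρ ^ 2 → f x = 0 → g x = y 0 → h x = y 1 →
      ∀ v, fderiv ℂ f x v = 0 → fderiv ℂ g x v = 0 → fderiv ℂ h x v = 0 → v = 0) →
    {x | nsq x < ρ ^ 2 ∧ f x = 0 ∧ g x = y 0 ∧ h x = y 1}.encard = m

/-! ### compactness in the ball -/

theorem isCompact_nsq_le (ρ : ℝ) : IsCompact {x : E3 | nsq x ≤ ρ} := by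
  refine Metric.isCompact_of_isClosed_isBounded (isClosed_le continuous_nsq continuous_const) ?_
  refine isBounded_iff_forall_norm_le.2 ⟨ρ + 1, fun x hx => ?_⟩
  have hx' : nsq x ≤ ρ := hx
  refine (pi_norm_le_iff_of_nonneg (by linarith [nsq_nonneg x])).2 fun k => ?_
  have h1 := Crest.Agent.R257.PN_835.sq_le_nsq x k
  nlinarith [norm_nonneg (x k), sq_nonneg (‖x k‖ - 1)]

theorem isOpen_nsq_lt (ρ : ℝ) : IsOpen {x : E3 | nsq x < ρ} :=
  isOpen_lt continuous_nsq continuous_const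

variable {f g h : E3 → ℂ} {r : ℝ} {m : ℕ}

/-- the ambient map -/
def g2 (g h : E3 → ℂ) (x : E3) : Cn 2 := WithLp.toLp 2 ![g x, h x]

theorem g2_eq_zero {x : E3} : g2 g h x = 0 ↔ g x = 0 ∧ h x = 0 := by
  constructor
  · intro e
    exact ⟨congrArg (fun c : Cn 2 => c 0) e, congrArg (fun c : Cn 2 => c 1) e⟩
  · rintro ⟨e0, e1⟩
    ext i
    fin_cases i
    · exact e0
    · exact e1

namespace PairD

variable (D : PairD f g h r m)
include D

theorem cont_g2 : ContinuousOn (g2 g h) {x | nsq x < r ^ 2} :=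
  (diffOn_two D.hg D.hh).continuousOn

/-- the part of the level between two radii, where `(g,h)` is bounded below -/
theorem lower {ρ a : ℝ} (hρ : ρ < r) (hρ0 : 0 < ρ) (ha : 0 < a) : ∃ c > 0, ∀ x, a ≤ nsq x →
    nsq x ≤ ρ ^ 2 → f x = 0 → c ≤ ‖g2 g h x‖ := by
  have hsub : {x : E3 | nsq x ≤ ρ ^ 2} ⊆ {x | nsq x < r ^ 2} := fun x hx =>
    lt_of_le_of_lt hx (pow_lt_pow_left₀ hρ hρ0.le two_ne_zero)
  set S : Set E3 := ({x : E3 | nsq x ≤ ρ ^ 2} ∩ f ⁻¹' {0}) ∩ {x | a ≤ nsq x} with hS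
  have h1 : IsCompact ({x : E3 | nsq x ≤ ρ ^ 2} ∩ f ⁻¹' {0}) :=
    (isCompact_nsq_le (ρ ^ 2)).of_isClosed_subset
      ((D.hf.continuousOn.mono hsub).preimage_isClosed_of_isClosed
        (isCompact_nsq_le (ρ ^ 2)).isClosed isClosed_singleton) inter_subset_left
  have h2 : IsCompact S := h1.inter_right (isClosed_le continuous_const continuous_nsq)
  rcases S.eq_empty_or_nonempty with he | hne
  · refine ⟨1, one_pos, fun x h3 h4 h5 => ?_⟩
    have : x ∈ S := ⟨⟨h4, h5⟩, h3⟩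
    rw [he] at this
    exact absurd this (notMem_empty x)
  · have hc : ContinuousOn (fun x => ‖g2 g h x‖) S :=
      (D.cont_g2.norm).mono fun x hx => hsub hx.1.1
    obtain ⟨x₀, hx₀, hmin⟩ := h2.exists_isMinOn hne hc
    refine ⟨‖g2 g h x₀‖, ?_, fun x h3 h4 h5 => hmin ⟨⟨h4, h5⟩, h3⟩⟩
    rw [gt_iff_lt, norm_pos_iff]
    intro h0
    obtain ⟨h6, h7⟩ := g2_eq_zero.1 h0
    have hx0 : x₀ ≠ 0 := by
      rintro rfl
      have : a ≤ nsq (0 : E3) := hx₀.2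
      have h8 : nsq (0 : E3) = 0 := by simp [nsq]
      linarith
    exact D.nz x₀ hx0 (hsub hx₀.1.1) hx₀.1.2 h6 h7

end PairD

variable {X : SFam 2 E3 P} {τ : P}

namespace Lv

variable (L : Lv X τ f r)
include L

theorem ne (x : X.M τ) : x.1 ≠ 0 := ((L.W x.1).1 x.2.1).1
theorem lt (x : X.M τ) : nsq x.1 < r ^ 2 := ((L.W x.1).1 x.2.1).2
theorem f_eq (x : X.M τ) : f x.1 = 0 := by rw [← L.F x.1 (L.ne x) (L.lt x)]; exact x.2.2

theorem mem {x : E3} (h0 : x ≠ 0) (h1 : nsq x < r ^ 2) (h2 : f x = 0) :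
    (x, τ) ∈ X.W ∧ X.F (x, τ) = 0 := ⟨(L.W x).2 ⟨h0, h1⟩, by rw [L.F x h0 h1, h2]⟩

theorem dX_eq (hf : DifferentiableOn ℂ f {x | nsq x < r ^ 2}) (x : X.M τ) :
    dX X (x.1, τ) = fderiv ℂ f x.1 := by
  have h1 : HasFDerivAt (fun y : E3 => X.F (y, τ)) (dX X (x.1, τ)) x.1 := by
    have h2 : HasFDerivAt X.F (fderiv ℂ X.F (x.1, τ)) (x.1, τ) := (X.diffAt x.2.1).hasFDerivAt
    have h3 : HasFDerivAt (fun y : E3 => (y, τ)) (ContinuousLinearMap.inl ℂ E3 P) x.1 :=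
      hasFDerivAt_prodMk_left x.1 τ
    exact h2.comp x.1 h3
  have h4 : HasFDerivAt f (fderiv ℂ f x.1) x.1 :=
    (hf.differentiableAt ((isOpen_nsq_lt _).mem_nhds (L.lt x))).hasFDerivAt
  have h5 : (fun y : E3 => X.F (y, τ)) =ᶠ[𝓝 x.1] f := by
    filter_upwards [(isOpen_nsq_lt (r ^ 2)).mem_nhds (L.lt x), isOpen_compl_singleton.mem_nhds
      (show x.1 ∈ ({0} : Set E3)ᶜ from L.ne x)] with y hy hy0
    exact L.F y hy0 hy
  exact h1.unique (h4.congr_of_eventuallyEq h5)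

end Lv

theorem gh_eq (x : X.M τ) : gh X τ g h x = g2 g h x.1 := rfl

/-- the open part of the level -/
def NN (X : SFam 2 E3 P) (τ : P) (ρ : ℝ) : Set (X.M τ) := {x | x.1 ∈ {y : E3 | nsq y < ρ ^ 2}}

theorem mem_NN {ρ : ℝ} {x : X.M τ} : x ∈ NN X τ ρ ↔ nsq x.1 < ρ ^ 2 := Iff.rfl

theorem isOpen_NN (ρ : ℝ) : IsOpen (NN X τ ρ) := (isOpen_nsq_lt _).preimage continuous_subtype_val

/-- compact parts of the level -/
theorem isCompact_part (L : Lv X τ f r) (D : PairD f g h r m) {ρ ε : ℝ} (hρ0 : 0 < ρ) (hρ : ρ < r)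
    (hε : 0 < ε) {C : Set E3} (hC : IsClosed C) :
    IsCompact {x : X.M τ | nsq x.1 ≤ ρ ^ 2 ∧ ε ≤ ‖gh X τ g h x‖ ∧ x.1 ∈ C} := by
  have hsub : {x : E3 | nsq x ≤ ρ ^ 2} ⊆ {x | nsq x < r ^ 2} := fun x hx =>
    lt_of_le_of_lt hx (pow_lt_pow_left₀ hρ hρ0.le two_ne_zero)
  refine (Topology.IsInducing.isCompact_iff (f := (Subtype.val : X.M τ → E3))
    Topology.IsInducing.subtypeVal).2 ?_
  have h1 : IsCompact ({x : E3 | nsq x ≤ ρ ^ 2} ∩ (fun x => (f x, ‖g2 g h x‖)) ⁻¹' ({0} ×ˢ Ici ε)) :=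
    (isCompact_nsq_le (ρ ^ 2)).of_isClosed_subset
      (((D.hf.continuousOn.prodMk D.cont_g2.norm).mono hsub).preimage_isClosed_of_isClosed
        (isCompact_nsq_le (ρ ^ 2)).isClosed (isClosed_singleton.prod isClosed_Ici)) inter_subset_left
  have h2 := h1.inter_right hC
  convert h2 using 1
  ext x
  constructor
  · rintro ⟨x, ⟨h3, h4, h5⟩, rfl⟩
    exact ⟨⟨h3, L.f_eq x, h4⟩, h5⟩
  · rintro ⟨⟨h3, h4, h5⟩, h6⟩
    have hx0 : x ≠ 0 := by
      rintro rfl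
      have h7 : g2 g h 0 = 0 := g2_eq_zero.2 ⟨D.g0, D.h0⟩
      have h8 : ε ≤ ‖g2 g h 0‖ := h5
      rw [h7, norm_zero] at h8
      linarith
    exact ⟨⟨x, L.mem hx0 (hsub h3) h4⟩, ⟨h3, h5, h6⟩, rfl⟩

/-- **`CovD` on the level** -/
theorem covD (L : Lv X τ f r) (D : PairD f g h r m) {ρ : ℝ} (hρ0 : 0 < ρ) (hρ : ρ < r) :
    ∃ δ : ℝ, CovD (X.A τ) (NN X τ ρ) (gh X τ g h) δ m := by
  have hsub : {x : E3 | nsq x < ρ ^ 2} ⊆ {x | nsq x < r ^ 2} := fun x hx =>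
    hx.trans (pow_lt_pow_left₀ hρ hρ0.le two_ne_zero)
  obtain ⟨c, hc0, hc⟩ := D.lower hρ hρ0 (a := ρ ^ 2) (by positivity)
  obtain ⟨δ₁, hδ₁0, hδ₁⟩ := Metric.eventually_nhds_iff.1 (D.cnt ρ hρ0 hρ)
  set δ : ℝ := min (c / 2) δ₁ with hδ
  have hδ0 : 0 < δ := lt_min (by linarith) hδ₁0
  have hδc : δ < c := (min_le_left _ _).trans_lt (by linarith)
  have hπ : HolN (X.A τ) (NN X τ ρ) (gh X τ g h) := holN_gh (D.hg.mono hsub) (D.hh.mono hsub)
  have hbd : ∀ x : X.M τ, nsq x.1 ≤ ρ ^ 2 → ‖gh X τ g h x‖ ≤ δ → nsq x.1 < ρ ^ 2 := by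
    intro x h1 h2
    refine lt_of_le_of_ne h1 fun h3 => ?_
    have h4 := hc x.1 h3.ge h1 (L.f_eq x)
    rw [gh_eq] at h2
    linarith
  have hcont : ContinuousOn (gh X τ g h) {x : X.M τ | nsq x.1 < r ^ 2} :=
    D.cont_g2.comp continuous_subtype_val.continuousOn fun x hx => hx
  refine ⟨δ, isOpen_NN ρ, hπ, ?_, hδ0, ?_, fun ε hε => ?_, ?_⟩
  · intro x hx h0
    rw [gh_eq] at h0
    obtain ⟨h1, h2⟩ := g2_eq_zero.1 h0
    exact D.nz x.1 (L.ne x) (L.lt x) (L.f_eq x) h1 h2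
  · have h1 : NN X τ ρ ∩ {x | ‖gh X τ g h x‖ ≤ δ} =
        {x : X.M τ | nsq x.1 ≤ ρ ^ 2} ∩ (fun x => ‖gh X τ g h x‖) ⁻¹' Iic δ := by
      ext x
      constructor
      · rintro ⟨h1, h2⟩
        exact ⟨(mem_NN.1 h1).le, h2⟩
      · rintro ⟨h1, h2⟩
        exact ⟨hbd x h1 h2, h2⟩
    rw [h1]
    refine ContinuousOn.preimage_isClosed_of_isClosed (hcont.norm.mono fun x _ => L.lt x) ?_
      isClosed_Iic
    exact isClosed_le (continuous_nsq.comp continuous_subtype_val) continuous_const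
  · have h1 : NN X τ ρ ∩ {x | ε ≤ ‖gh X τ g h x‖ ∧ ‖gh X τ g h x‖ ≤ δ} =
        {x : X.M τ | nsq x.1 ≤ ρ ^ 2 ∧ ε ≤ ‖gh X τ g h x‖ ∧ x.1 ∈ (univ : Set E3)} ∩
          (fun x => ‖gh X τ g h x‖) ⁻¹' Iic δ := by
      ext x
      constructor
      · rintro ⟨h1, h2, h3⟩
        exact ⟨⟨(mem_NN.1 h1).le, h2, mem_univ _⟩, h3⟩
      · rintro ⟨⟨h1, h2, -⟩, h3⟩
        exact ⟨hbd x h1 h3, h2, h3⟩
    rw [h1]
    have hK := isCompact_part L D hρ0 hρ hε (C := univ) isClosed_univ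
    exact hK.of_isClosed_subset ((hcont.norm.mono fun x _ => L.lt x).preimage_isClosed_of_isClosed
      hK.isClosed isClosed_Iic) inter_subset_left
  · have hs := sard (X.countable τ) (isOpen_NN ρ) hπ
    filter_upwards [hs, ae_coord_ne 0] with y hy hy0 hyδ
    have h1 := hδ₁ (y := cc y) (by rw [dist_zero_right]; exact hyδ.trans_le (min_le_right _ _))
    have hx0 : ∀ x : E3, g x = (cc y : Cn 2) 0 → x ≠ 0 := by
      rintro x hx rfl
      exact hy0 (by rw [← hx, D.g0])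
    have h2 : {x : X.M τ | x ∈ NN X τ ρ ∧ gh X τ g h x = cc y} =
        Subtype.val ⁻¹' {x | nsq x < ρ ^ 2 ∧ f x = 0 ∧ g x = (cc y : Cn 2) 0 ∧
          h x = (cc y : Cn 2) 1} := by
      ext x
      constructor
      · rintro ⟨h3, h4⟩
        exact ⟨h3, L.f_eq x, congrArg (fun c : Cn 2 => c 0) h4, congrArg (fun c : Cn 2 => c 1) h4⟩
      · rintro ⟨h3, -, h4, h5⟩
        refine ⟨h3, ?_⟩
        ext i
        fin_cases i
        · exact h4
        · exact h5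
    rw [h2, ← Subtype.val_injective.encard_image, image_preimage_eq_inter_range]
    rw [inter_eq_left.2]
    · refine h1 fun x h3 h4 h5 h6 v hfv hgv hhv => ?_
      set x' : X.M τ := ⟨x, L.mem (hx0 x h5) (hsub h3) h4⟩ with hx'
      obtain ⟨l, hl⟩ := (X.A τ).cover x'
      have h7 : gh X τ g h x' = cc y := by
        ext i
        fin_cases i
        · exact h5
        · exact h6
      have hdet := hy x' h3 h7 l hl
      refine inj_of_jm hl hdet ?_ ?_ (v := v) ?_ hgv hhv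
      · exact D.hg.differentiableAt ((isOpen_nsq_lt _).mem_nhds (hsub h3))
      · exact D.hh.differentiableAt ((isOpen_nsq_lt _).mem_nhds (hsub h3))
      · rw [L.dX_eq D.hf x']
        exact hfv
    · rintro x ⟨h3, h4, h5, h6⟩
      exact ⟨⟨x, L.mem (hx0 x h5) (hsub h3) h4⟩, rfl⟩

/-- **the mass of `c⁻¹ log (|g|^{2p} + |h|^{2q})` on the level** -/
theorem tot_lv (L : Lv X τ f r) (D : PairD f g h r m) {p q : ℕ} (hp : 0 < p) (hq : 0 < q) {c : ℝ}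
    (hc : c ≠ 0) {w : E3 → ℝ}
    (hw : ∀ x, x ≠ 0 → nsq x < r ^ 2 → f x = 0 →
      w x = c⁻¹ * Real.log (‖g x‖ ^ (2 * p) + ‖h x‖ ^ (2 * q)))
    (Pt : Part (X.A τ)) {χ : E3 → ℝ} (hχ : Cut r χ) :
    intD Pt (fun i x => (w x.1 : ℂ) * pd (hsf (X.A τ) (fun x => w x.1) i x)
      (hsf (X.A τ) (fun x => χ x.1) i x)) = ((Real.pi ^ 2 * (p * q * m) / c ^ 2 : ℝ) : ℂ) := by
  obtain ⟨r', hr'0, hr'r, hr'⟩ := hχ.supp
  have hr0 : 0 < r := hr'0.trans hr'r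
  obtain ⟨ρ, hρ1, hρ2⟩ := exists_between hr'r
  have hρ0 : 0 < ρ := hr'0.trans hρ1
  obtain ⟨δ, C⟩ := covD L D hρ0 hρ2
  have hts : ∀ x ∈ tsupport (fun x : X.M τ => χ x.1), nsq x.1 ≤ r' ^ 2 := by
    have h1 : tsupport (fun x : X.M τ => χ x.1) ⊆ {x | nsq x.1 ≤ r' ^ 2} := by
      refine closure_minimal (fun x hx => ?_)
        (isClosed_le (continuous_nsq.comp continuous_subtype_val) continuous_const)
      by_contra h2
      exact hx (hr' x.1 (not_le.1 h2).le)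
    exact h1
  obtain ⟨a, ha0, ha⟩ : ∃ a > 0, ∀ x : E3, nsq x < a → χ x = 1 := by
    obtain ⟨e, he0, he⟩ := Metric.eventually_nhds_iff.1 hχ.one
    refine ⟨e ^ 2, by positivity, fun x hx => he ?_⟩
    rw [dist_zero_right]
    refine (pi_norm_lt_iff he0).2 fun k => ?_
    have h1 := (Crest.Agent.R257.PN_835.sq_le_nsq x k).trans_lt hx
    exact lt_of_pow_lt_pow_left₀ 2 he0.le h1
  obtain ⟨ε, hε0, hε⟩ := D.lower hρ2 hρ0 ha0
  refine tot_pow C hp hq hc (fun x _ => hw x.1 (L.ne x) (L.lt x) (L.f_eq x)) Pt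
    (sm_comp_val (hχ.sm.contDiffOn (s := univ)) fun _ => mem_univ _) ?_ hε0 ?_ fun e he => ?_
  · intro x hx
    exact (hts x hx).trans_lt (pow_lt_pow_left₀ hρ1 hr'0.le two_ne_zero)
  · intro x hx hx2
    refine ha _ ?_
    by_contra h1
    have h2 := hε x.1 (not_lt.1 h1) (mem_NN.1 hx).le (L.f_eq x)
    rw [gh_eq] at hx2
    linarith
  · have hK := isCompact_part L D hρ0 hρ2 he (C := univ) isClosed_univ
    have h1 : tsupport (fun x : X.M τ => χ x.1) ∩ {x | e ≤ ‖gh X τ g h x‖} =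
        {x : X.M τ | nsq x.1 ≤ ρ ^ 2 ∧ e ≤ ‖gh X τ g h x‖ ∧ x.1 ∈ (univ : Set E3)} ∩
          tsupport (fun x : X.M τ => χ x.1) := by
      ext x
      constructor
      · rintro ⟨h2, h3⟩
        exact ⟨⟨(hts x h2).trans (pow_le_pow_left₀ hr'0.le hρ1.le 2), h3, mem_univ _⟩, h2⟩
      · rintro ⟨⟨-, h3, -⟩, h2⟩
        exact ⟨h2, h3⟩
    rw [h1]
    exact hK.inter_right (isClosed_tsupport _)

end

end Crest.Agent.R257.DegV_5
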