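import Crest.Agent.R257.DegV2_5
import Crest.Agent.R257.NS0c_554

/-!
# R257 (S0395), leaf M3-V (helper5), part 3: the data `PairD` from germs

* `CntAt f g h m` : the count of the zeros of `(f, g - y_0, h - y_1)` in small balls
* `exists_pairD`  : `ColFin ![f,g,h]` and the count give `PairD f g h r m` for all small `r`
-/

set_option autoImplicit false
set_option linter.unusedSectionVars false

open Set Filter Topology Complex MeasureTheory
open scoped ContDiff Matrix ComplexConjugate ENNReal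

namespace Crest.Agent.R257.DegV_5

open Crest.Agent.R275 Crest.Agent.R275.Geo
open Crest.Agent.R257.Defs_219
open Crest.Agent.R257.PN_835 (nsq nsq_nonneg nsq_pos continuous_nsq sq_le_nsq)

noncomputable section

/-- the count of the zeros of `(f, g - y_0, h - y_1)` in small balls -/
def CntAt (f g h : E3 → ℂ) (m : ℕ) : Prop :=
  ∀ᶠ R in 𝓝[>] (0 : ℝ), ∀ᶠ y in 𝓝 (0 : Cn 2),
    (∀ x : E3, ‖x‖ < R → f x = 0 → g x = y 0 → h x = y 1 →
      ∀ v, fderiv ℂ f x v = 0 → fderiv ℂ g x v = 0 → fderiv ℂ h x v = 0 → v = 0) →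
    {x : E3 | ‖x‖ < R ∧ f x = 0 ∧ g x = y 0 ∧ h x = y 1}.encard = m

theorem norm_lt_of_nsq {x : E3} {R : ℝ} (hR : 0 < R) (h : nsq x < R ^ 2) : ‖x‖ < R := by
  refine (pi_norm_lt_iff hR).2 fun k => ?_
  exact lt_of_pow_lt_pow_left₀ 2 hR.le ((sq_le_nsq x k).trans_lt h)

theorem exists_pairD {f g h : E3 → ℂ} {m : ℕ} (hf : AnalyticAt ℂ f 0) (hg : AnalyticAt ℂ g 0)
    (hh : AnalyticAt ℂ h 0) (f0 : f 0 = 0) (g0 : g 0 = 0) (h0 : h 0 = 0)
    (hfin : ColFin ![f, g, h]) (hc : CntAt f g h m) :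
    ∃ r₁ : ℝ, 0 < r₁ ∧ ∀ r, 0 < r → r ≤ r₁ → PairD f g h r m := by
  have hiso : ∀ᶠ x in 𝓝 (0 : E3), f x = 0 → g x = 0 → h x = 0 → x = 0 := by
    have hG : ∀ j : Fin 3, AnalyticAt ℂ ((![f, g, h] : Fin 3 → E3 → ℂ) j) 0 := by
      intro j
      fin_cases j
      · exact hf
      · exact hg
      · exact hh
    have h1 := (Crest.Agent.R257.NS0554.colFin_iff_isolated hG).1 hfin
    filter_upwards [h1] with x hx h2 h3 h4
    refine hx fun j => ?_
    fin_cases j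
    · exact h2
    · exact h3
    · exact h4
  obtain ⟨ε, hε0, hε⟩ := Metric.eventually_nhds_iff.1
    (((hf.eventually_analyticAt.and hg.eventually_analyticAt).and hh.eventually_analyticAt).and
      hiso)
  have hε' : ∀ x : E3, ‖x‖ < ε → ((AnalyticAt ℂ f x ∧ AnalyticAt ℂ g x) ∧ AnalyticAt ℂ h x) ∧
      (f x = 0 → g x = 0 → h x = 0 → x = 0) := fun x hx => hε (by rwa [dist_zero_right])
  obtain ⟨R, ⟨hR0, hRε⟩, hR⟩ : ∃ R, (0 < R ∧ R < ε) ∧ ∀ᶠ y in 𝓝 (0 : Cn 2),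
      (∀ x : E3, ‖x‖ < R → f x = 0 → g x = y 0 → h x = y 1 →
        ∀ v, fderiv ℂ f x v = 0 → fderiv ℂ g x v = 0 → fderiv ℂ h x v = 0 → v = 0) →
      {x : E3 | ‖x‖ < R ∧ f x = 0 ∧ g x = y 0 ∧ h x = y 1}.encard = m := by
    have h1 : ∀ᶠ R in 𝓝[>] (0 : ℝ), R < ε :=
      (eventually_lt_nhds hε0).filter_mono nhdsWithin_le_nhds
    obtain ⟨R, h2, h3, h4⟩ := ((h1.and hc).and self_mem_nhdsWithin).exists.imp fun R h => 
      (⟨⟨h.2, h.1.1⟩, h.1.2, trivial⟩ : (0 < R ∧ R < ε) ∧ _ ∧ True)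
    exact ⟨R, h2, h3⟩
  refine ⟨R, hR0, fun r hr0 hr => ?_⟩
  have hlt : ∀ x : E3, nsq x < r ^ 2 → ‖x‖ < R := fun x hx =>
    (norm_lt_of_nsq hr0 hx).trans_le hr
  refine ⟨hr0, ?_, ?_, ?_, f0, g0, h0, ?_, ?_⟩
  · exact fun x hx => (hε' x ((hlt x hx).trans hRε)).1.1.1.differentiableAt.differentiableWithinAt
  · exact fun x hx => (hε' x ((hlt x hx).trans hRε)).1.1.2.differentiableAt.differentiableWithinAt
  · exact fun x hx => (hε' x ((hlt x hx).trans hRε)).1.2.differentiableAt.differentiableWithinAt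
  · exact fun x hx0 hx h1 h2 h3 => hx0 ((hε' x ((hlt x hx).trans hRε)).2 h1 h2 h3)
  · intro ρ hρ0 hρr
    -- lower bound outside of the small ball
    set K : Set E3 := Metric.closedBall 0 R ∩ {x | ρ ^ 2 ≤ nsq x} with hK
    have hKc : IsCompact K :=
      (isCompact_closedBall 0 R).inter_right (isClosed_le continuous_const continuous_nsq)
    have hKn : ∀ x ∈ K, ‖x‖ < ε := fun x hx => by
      have : ‖x‖ ≤ R := by simpa using hx.1
      linarith
    have hFc : ContinuousOn (fun x => ‖f x‖ + ‖g x‖ + ‖h x‖) K := by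
      intro x hx
      have h1 := (hε' x (hKn x hx)).1
      exact ((h1.1.1.continuousAt.norm.add h1.1.2.continuousAt.norm).add
        h1.2.continuousAt.norm).continuousWithinAt
    obtain ⟨c, hc0, hcK⟩ : ∃ c > 0, ∀ x ∈ K, c ≤ ‖f x‖ + ‖g x‖ + ‖h x‖ := by
      rcases K.eq_empty_or_nonempty with he | hne
      · exact ⟨1, one_pos, fun x hx => by rw [he] at hx; exact absurd hx (notMem_empty x)⟩
      · obtain ⟨x₀, hx₀, hmin⟩ := hKc.exists_isMinOn hne hFc
        refine ⟨_, ?_, fun x hx => hmin hx⟩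
        by_contra h1
        have h2 : ‖f x₀‖ + ‖g x₀‖ + ‖h x₀‖ = 0 :=
          le_antisymm (not_lt.1 h1) (by positivity)
        have e1 : ‖f x₀‖ = 0 := by
          linarith [norm_nonneg (f x₀), norm_nonneg (g x₀), norm_nonneg (h x₀)]
        have e2 : ‖g x₀‖ = 0 := by
          linarith [norm_nonneg (f x₀), norm_nonneg (g x₀), norm_nonneg (h x₀)]
        have e3 : ‖h x₀‖ = 0 := by
          linarith [norm_nonneg (f x₀), norm_nonneg (g x₀), norm_nonneg (h x₀)]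
        have h3 := (hε' x₀ (hKn x₀ hx₀)).2 (norm_eq_zero.1 e1) (norm_eq_zero.1 e2)
          (norm_eq_zero.1 e3)
        have h4 : ρ ^ 2 ≤ nsq x₀ := hx₀.2
        rw [h3] at h4
        have h5 : nsq (0 : E3) = 0 := by simp [nsq]
        rw [h5] at h4
        have := pow_pos hρ0 2
        linarith
    have hy : ∀ᶠ y in 𝓝 (0 : Cn 2), ‖y 0‖ + ‖y 1‖ < c := by
      have h1 : Continuous fun y : Cn 2 => ‖y 0‖ + ‖y 1‖ := by fun_prop
      exact (h1.tendsto' 0 0 (by simp)).eventually (eventually_lt_nhds hc0)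
    filter_upwards [hR, hy] with y h1 h2 h3
    have h4 : ∀ x : E3, ‖x‖ < R → f x = 0 → g x = y 0 → h x = y 1 → nsq x < ρ ^ 2 := by
      intro x hx e1 e2 e3
      by_contra h5
      have h6 := hcK x ⟨by simpa using hx.le, not_lt.1 h5⟩
      rw [e1, e2, e3, norm_zero] at h6
      linarith
    have h5 : {x : E3 | nsq x < ρ ^ 2 ∧ f x = 0 ∧ g x = y 0 ∧ h x = y 1} =
        {x : E3 | ‖x‖ < R ∧ f x = 0 ∧ g x = y 0 ∧ h x = y 1} := by
      ext x
      constructor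
      · rintro ⟨a, b⟩
        exact ⟨hlt x (a.trans (pow_lt_pow_left₀ hρr hρ0.le two_ne_zero)), b⟩
      · rintro ⟨a, b⟩
        exact ⟨h4 x a b.1 b.2.1 b.2.2, b⟩
    rw [h5]
    exact h1 fun x a e1 e2 e3 v => h3 x (h4 x a e1 e2 e3) e1 e2 e3 v

end

end Crest.Agent.R257.DegV_5
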