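import Mathlib

/-!
R257 / DetA_219 (leaf DET): partition into sets of injectivity and the area inequality with
multiplicities, real and holomorphic.
-/

set_option autoImplicit false

open Topology Filter MeasureTheory Set Function
open scoped ENNReal NNReal

noncomputable section

namespace Crest.Agent.R257.Det_219

section RealPart

variable {E : Type*} [NormedAddCommGroup E] [NormedSpace ℝ E] [FiniteDimensional ℝ E]

open Classical in
/-- the admissible linear-approximation constant -/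
def rad (A : E →L[ℝ] E) : ℝ≥0 :=
  if h : A.det ≠ 0 then
    if Subsingleton E then 1 else
      ‖((A.toContinuousLinearEquivOfDetNeZero h).symm : E →L[ℝ] E)‖₊⁻¹ / 2
  else 1

theorem rad_ne (A : E →L[ℝ] E) : rad A ≠ 0 := by
  unfold rad
  split_ifs with h hs
  · exact one_ne_zero
  · have : Nontrivial E := not_subsingleton_iff_nontrivial.1 hs
    have h1 : 0 < ‖((A.toContinuousLinearEquivOfDetNeZero h).symm : E →L[ℝ] E)‖₊ :=
      ContinuousLinearEquiv.nnnorm_symm_pos _
    positivity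
  · exact one_ne_zero

/-- a set on which `f` has invertible derivative is a countable union of disjoint pieces on
which `f` is injective -/
theorem partition_inj (f : E → E) (s : Set E) (f' : E → E →L[ℝ] E)
    (hf' : ∀ x ∈ s, HasFDerivWithinAt f (f' x) s x) (hdet : ∀ x ∈ s, (f' x).det ≠ 0)
    [MeasurableSpace E] [BorelSpace E] :
    ∃ t : ℕ → Set E, Pairwise (Disjoint on t) ∧ (∀ n, MeasurableSet (t n)) ∧ (s ⊆ ⋃ n, t n) ∧
      ∀ n, InjOn f (s ∩ t n) := by
  obtain ⟨t, A, h1, h2, h3, h4, h5⟩ :=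
    exists_partition_approximatesLinearOn_of_hasFDerivWithinAt f s f' hf' rad rad_ne
  refine ⟨t, h1, h2, h3, fun n => ?_⟩
  rcases s.eq_empty_or_nonempty with rfl | hs
  · simp
  obtain ⟨y, hy, hAy⟩ := h5 hs n
  have hd : (A n).det ≠ 0 := by rw [hAy]; exact hdet y hy
  by_cases hE : Subsingleton E
  · exact fun x _ y _ _ => Subsingleton.elim x y
  have : Nontrivial E := not_subsingleton_iff_nontrivial.1 hE
  have h6 := h4 n
  set B := (A n).toContinuousLinearEquivOfDetNeZero hd with hB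
  have h7 : (A n) = (B : E →L[ℝ] E) := by
    rw [hB, ContinuousLinearMap.coe_toContinuousLinearEquivOfDetNeZero]
  have h8 : rad (A n) = ‖(B.symm : E →L[ℝ] E)‖₊⁻¹ / 2 := by
    unfold rad
    rw [dif_pos hd, if_neg hE]
  rw [h7] at h6
  refine h6.injOn (Or.inr ?_)
  rw [← h7, h8]
  have h9 : 0 < ‖(B.symm : E →L[ℝ] E)‖₊ := ContinuousLinearEquiv.nnnorm_symm_pos _
  exact NNReal.half_lt_self (by positivity)

/-- area formula as an exact sum over the pieces -/
theorem area_pieces [MeasurableSpace E] [BorelSpace E] (μ : Measure E) [μ.IsAddHaarMeasure]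
    (f : E → E) (s : Set E) (f' : E → E →L[ℝ] E) (hs : MeasurableSet s)
    (hf' : ∀ x ∈ s, HasFDerivWithinAt f (f' x) s x) (hdet : ∀ x ∈ s, (f' x).det ≠ 0) :
    ∃ t : ℕ → Set E, Pairwise (Disjoint on t) ∧ (∀ n, MeasurableSet (t n)) ∧ (s ⊆ ⋃ n, t n) ∧
      (∀ n, InjOn f (s ∩ t n)) ∧ (∀ n, MeasurableSet (f '' (s ∩ t n))) ∧
      ∀ g : E → ℝ≥0∞, ∫⁻ x in s, ENNReal.ofReal |(f' x).det| * g (f x) ∂μ =
        ∑' n, ∫⁻ y in f '' (s ∩ t n), g y ∂μ := by
  obtain ⟨t, h1, h2, h3, h4⟩ := partition_inj f s f' hf' hdet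
  have hd : ∀ n x, x ∈ s ∩ t n → HasFDerivWithinAt f (f' x) (s ∩ t n) x := fun n x hx =>
    (hf' x hx.1).mono inter_subset_left
  refine ⟨t, h1, h2, h3, h4, fun n => measurable_image_of_fderivWithin (hs.inter (h2 n))
    (hd n) (h4 n), fun g => ?_⟩
  have h5 : s = ⋃ n, s ∩ t n := by
    rw [← inter_iUnion]; exact (inter_eq_left.2 h3).symm
  calc ∫⁻ x in s, ENNReal.ofReal |(f' x).det| * g (f x) ∂μ
      = ∫⁻ x in ⋃ n, s ∩ t n, ENNReal.ofReal |(f' x).det| * g (f x) ∂μ := by rw [← h5]
    _ = ∑' n, ∫⁻ x in s ∩ t n, ENNReal.ofReal |(f' x).det| * g (f x) ∂μ :=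
        lintegral_iUnion (fun n => hs.inter (h2 n))
          (fun i j hij => (h1 hij).mono inter_subset_right inter_subset_right) _
    _ = _ := by
        congr 1; ext n
        exact (lintegral_image_eq_lintegral_abs_det_fderiv_mul μ (hs.inter (h2 n)) (hd n)
          (h4 n) g).symm

end RealPart

/-- the real determinant of a complex linear map -/
theorem det_restrict {E : Type*} [NormedAddCommGroup E] [NormedSpace ℂ E]
    (A : E →L[ℂ] E) : |(A.restrictScalars ℝ).det| = ‖A.det‖ ^ 2 := by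
  have h : (A.restrictScalars ℝ).det = Algebra.norm ℝ A.det := by
    rw [ContinuousLinearMap.det, ContinuousLinearMap.det, ← LinearMap.det_restrictScalars]
    rfl
  rw [h, Algebra.norm_complex_apply, abs_of_nonneg (Complex.normSq_nonneg _),
    Complex.normSq_eq_norm_sq]

/-- `1_A` sums: at most `N` of the pieces contain a given point -/
theorem tsum_indicator_le {ι α β : Type*} (P : ι → Set α) (F : α → β) (N : ℕ)
    (hP : Pairwise (Disjoint on P)) (y : β) (hN : {x | (∃ i, x ∈ P i) ∧ F x = y}.encard ≤ N) :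
    ∑' i, (F '' (P i)).indicator (fun _ => (1 : ℝ≥0∞)) y ≤ N := by
  classical
  rw [ENNReal.tsum_eq_iSup_sum]
  refine iSup_le fun s => ?_
  have h1 : ∑ i ∈ s, (F '' (P i)).indicator (fun _ => (1 : ℝ≥0∞)) y =
      ((s.filter fun i => y ∈ F '' P i).card : ℝ≥0∞) := by
    rw [Finset.card_filter, Nat.cast_sum]
    refine Finset.sum_congr rfl fun i _ => ?_
    by_cases h : y ∈ F '' P i
    · rw [Set.indicator_of_mem h, if_pos h]; simp
    · rw [Set.indicator_of_notMem h, if_neg h]; simp
  rw [h1]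
  norm_cast
  set u := s.filter fun i => y ∈ F '' P i with hu
  have h2 : ∀ i ∈ u, ∃ x, x ∈ P i ∧ F x = y := fun i hi => (Finset.mem_filter.1 hi).2
  rcases u.eq_empty_or_nonempty with hu0 | ⟨i0, hi0⟩
  · rw [hu0]; simp
  have : Nonempty α := ⟨(h2 i0 hi0).choose⟩
  choose! x hx using h2
  have h3 : InjOn x (u : Set ι) := by
    intro i hi j hj hij
    by_contra hne
    have := Set.disjoint_left.1 (hP hne) (hx i hi).1
    rw [hij] at this
    exact this (hx j hj).1
  have h4 : ((u : Set ι)).encard ≤ N := by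
    rw [← h3.encard_image]
    refine le_trans (Set.encard_le_encard ?_) hN
    rintro _ ⟨i, hi, rfl⟩
    exact ⟨⟨i, (hx i hi).1⟩, (hx i hi).2⟩
  rw [Set.encard_coe_eq_coe_finsetCard] at h4
  exact_mod_cast h4

end Crest.Agent.R257.Det_219
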