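import Crest.Agent.R257.Defs_219
import Crest.Agent.R257.DetA_219

/-!
R257 / DetB_219 (leaf DET): local sheets of `{f = 0}` over the `x'`-space where `∂₀f ≠ 0`, and the
Jacobian of `(g,h)` along the sheet: `det Θ' = Dt f g h / ∂₀ f`.
-/

set_option autoImplicit false

open Topology Filter MeasureTheory Set Function
open scoped ENNReal NNReal
open Crest.AlgGeometry.Germ
open Crest.Agent.R257.Defs_219

noncomputable section

namespace Crest.Agent.R257.Det_219

abbrev E2 : Type := Fin 2 → ℂ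

theorem cd_eq {n : ℕ} (f : (Fin n → ℂ) → ℂ) (i : Fin n) (x : Fin n → ℂ) :
    coordDeriv f i x = fderiv ℂ f x (Pi.single i 1) := rfl

/-- the derivative in coordinates -/
theorem fderiv_sum {n : ℕ} (f : (Fin n → ℂ) → ℂ) (x v : Fin n → ℂ) :
    fderiv ℂ f x v = ∑ i, v i * coordDeriv f i x := by
  conv_lhs => rw [pi_eq_sum_univ v]
  rw [map_sum]
  refine Finset.sum_congr rfl fun i _ => ?_
  rw [map_smul, smul_eq_mul, cd_eq]
  congr 2
  ext j
  by_cases h : i = j
  · subst h; simp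
  · rw [if_neg h, Pi.single_apply, if_neg (Ne.symm h)]

/-- `x ↦ (a x, x')` as a linear map -/
def consL (a : E3 →L[ℂ] ℂ) : E3 →L[ℂ] E3 :=
  ContinuousLinearMap.pi (Fin.cons a fun i => ContinuousLinearMap.proj (i.succ))

theorem consL_zero (a : E3 →L[ℂ] ℂ) (v : E3) : consL a v 0 = a v := rfl

theorem consL_succ (a : E3 →L[ℂ] ℂ) (v : E3) (i : Fin 2) : consL a v i.succ = v i.succ := rfl

/-- `Ψ x = (f x, x')` -/
def Psi (f : E3 → ℂ) (x : E3) : E3 := Fin.cons (f x) (Fin.tail x)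

theorem psi_deriv {f : E3 → ℂ} {a : E3 →L[ℂ] ℂ} {x : E3} (h : HasStrictFDerivAt f a x) :
    HasStrictFDerivAt (Psi f) (consL a) x := by
  rw [hasStrictFDerivAt_pi']
  intro i
  refine Fin.cases ?_ (fun j => ?_) i
  · exact h
  · have h2 : (fun y : E3 => Psi f y j.succ) = fun y => y j.succ := by
      funext y; rfl
    rw [h2]
    exact (ContinuousLinearMap.proj (R := ℂ) (φ := fun _ : Fin 3 => ℂ) j.succ).hasStrictFDerivAt

theorem consL_inj {f : E3 → ℂ} {x : E3} (h : coordDeriv f 0 x ≠ 0) :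
    Injective (consL (fderiv ℂ f x)) := by
  rw [injective_iff_map_eq_zero]
  intro v hv
  have h1 : ∀ i : Fin 2, v i.succ = 0 := fun i => by
    rw [← consL_succ (fderiv ℂ f x) v i, hv]; rfl
  have h2 : fderiv ℂ f x v = 0 := by
    rw [← consL_zero (fderiv ℂ f x) v, hv]; rfl
  rw [fderiv_sum, Fin.sum_univ_succ] at h2
  have h3 : ∑ i : Fin 2, v i.succ * coordDeriv f i.succ x = 0 :=
    Finset.sum_eq_zero fun i _ => by rw [h1 i, zero_mul]
  rw [h3, add_zero] at h2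
  have h4 : v 0 = 0 := by
    rcases mul_eq_zero.1 h2 with h | h'
    · exact h
    · exact absurd h' h
  ext i
  refine Fin.cases h4 (fun j => h1 j) i

/-- the derivative as an equivalence -/
def eqv {f : E3 → ℂ} {x : E3} (h : coordDeriv f 0 x ≠ 0) : E3 ≃L[ℂ] E3 :=
  (LinearEquiv.ofInjectiveEndo (consL (fderiv ℂ f x)).toLinearMap
    (consL_inj h)).toContinuousLinearEquiv

theorem eqv_coe {f : E3 → ℂ} {x : E3} (h : coordDeriv f 0 x ≠ 0) :
    (eqv h : E3 →L[ℂ] E3) = consL (fderiv ℂ f x) := by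
  ext v i
  rfl

/-- a local sheet of `{f = 0}` over the `x'`-space -/
structure Ch (f : E3 → ℂ) (U : Set E3) where
  V : Set E3
  O : Set E2
  s : E2 → ℂ
  Vo : IsOpen V
  Oo : IsOpen O
  VU : V ⊆ U
  fz : ∀ x ∈ V, coordDeriv f 0 x ≠ 0
  a : ∀ x ∈ V, f x = 0 → Fin.tail x ∈ O ∧ x 0 = s (Fin.tail x)
  b : ∀ y ∈ O, (Fin.cons (s y) y : E3) ∈ V ∧ f (Fin.cons (s y) y) = 0
  c : ∀ y ∈ O, DifferentiableAt ℂ s y

/-- existence of sheets -/
theorem exists_ch {f : E3 → ℂ} {U : Set E3} (hU : IsOpen U) (han : AnalyticOnNhd ℂ f U)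
    {p : E3} (hp : p ∈ U) (hp0 : coordDeriv f 0 p ≠ 0) : ∃ C : Ch f U, p ∈ C.V := by
  have hstr : ∀ x ∈ U, HasStrictFDerivAt f (fderiv ℂ f x) x := fun x hx =>
    (han x hx).hasStrictFDerivAt
  have hcc : ContinuousOn (coordDeriv f 0) U := by
    have h1 : ContinuousOn (fderiv ℂ f) U := han.fderiv.continuousOn
    exact h1.clm_apply continuousOn_const
  set U₀ : Set E3 := U ∩ (coordDeriv f 0) ⁻¹' {0}ᶜ with hU₀
  have hU₀o : IsOpen U₀ := hcc.isOpen_inter_preimage hU isOpen_compl_singleton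
  have h1 : HasStrictFDerivAt (Psi f) (eqv hp0 : E3 →L[ℂ] E3) p := by
    rw [eqv_coe]; exact psi_deriv (hstr p hp)
  set e := h1.toOpenPartialHomeomorph (Psi f) with he
  have hec : ∀ x, e x = Psi f x := fun x => rfl
  have hpe : p ∈ e.source := h1.mem_toOpenPartialHomeomorph_source
  have hconsc : Continuous fun y : E2 => (Fin.cons 0 y : E3) := by
    refine continuous_pi fun i => ?_
    refine Fin.cases ?_ (fun j => ?_) i
    · exact continuous_const
    · exact continuous_apply j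
  set V : Set E3 := e.source ∩ U₀ with hV
  set O : Set E2 := (fun y : E2 => (Fin.cons 0 y : E3)) ⁻¹' (e.target ∩ e.symm ⁻¹' U₀) with hO
  have key : ∀ y ∈ O, (e.symm (Fin.cons 0 y)) ∈ V ∧ f (e.symm (Fin.cons 0 y)) = 0 ∧
      Fin.tail (e.symm (Fin.cons 0 y)) = y := by
    intro y hy
    obtain ⟨hy1, hy2⟩ := hy
    have h2 : e (e.symm (Fin.cons 0 y)) = Fin.cons 0 y := e.right_inv hy1
    rw [hec] at h2
    refine ⟨⟨e.map_target hy1, hy2⟩, ?_, ?_⟩
    · have := congrFun h2 0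
      simpa [Psi] using this
    · have := congrArg Fin.tail h2
      simpa [Psi] using this
  refine ⟨⟨V, O, fun y => (e.symm (Fin.cons 0 y)) 0, e.open_source.inter hU₀o,
    (e.isOpen_inter_preimage_symm hU₀o).preimage hconsc, fun x hx => hx.2.1, fun x hx => hx.2.2,
    ?_, ?_, ?_⟩, ⟨hpe, hp, hp0⟩⟩
  · intro x hx hfx
    have h2 : e x = Fin.cons 0 (Fin.tail x) := by rw [hec, Psi, hfx]
    have h3 : e.symm (Fin.cons 0 (Fin.tail x)) = x := by rw [← h2]; exact e.left_inv hx.1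
    refine ⟨⟨?_, ?_⟩, ?_⟩
    · show (Fin.cons 0 (Fin.tail x) : E3) ∈ e.target
      rw [← h2]; exact e.map_source hx.1
    · show e.symm (Fin.cons 0 (Fin.tail x) : E3) ∈ U₀
      rw [h3]; exact hx.2
    · show x 0 = (e.symm (Fin.cons 0 (Fin.tail x))) 0
      rw [h3]
  · intro y hy
    obtain ⟨k1, k2, k3⟩ := key y hy
    have h2 : (Fin.cons ((e.symm (Fin.cons 0 y)) 0) y : E3) = e.symm (Fin.cons 0 y) := by
      conv_rhs => rw [← Fin.cons_self_tail (e.symm (Fin.cons 0 y)), k3]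
    show (Fin.cons ((e.symm (Fin.cons 0 y)) 0) y : E3) ∈ V ∧
      f (Fin.cons ((e.symm (Fin.cons 0 y)) 0) y) = 0
    rw [h2]
    exact ⟨k1, k2⟩
  · intro y hy
    obtain ⟨k1, k2, k3⟩ := key y hy
    have hx : e.symm (Fin.cons 0 y) ∈ U := k1.2.1
    have h0 : coordDeriv f 0 (e.symm (Fin.cons 0 y)) ≠ 0 := k1.2.2
    have h2 : HasFDerivAt e (eqv h0 : E3 →L[ℂ] E3) (e.symm (Fin.cons 0 y)) := by
      rw [eqv_coe]; exact (psi_deriv (hstr _ hx)).hasFDerivAt
    have h3 : HasFDerivAt e.symm ((eqv h0).symm : E3 →L[ℂ] E3) (Fin.cons 0 y) :=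
      e.hasFDerivAt_symm hy.1 h2
    have h4 : DifferentiableAt ℂ (fun y : E2 => (Fin.cons 0 y : E3)) y := by
      rw [differentiableAt_pi]
      intro i
      refine Fin.cases ?_ (fun j => ?_) i
      · exact differentiableAt_const _
      · exact differentiableAt_apply j y
    have h5 : DifferentiableAt ℂ (fun y : E2 => e.symm (Fin.cons 0 y)) y :=
      DifferentiableAt.comp y h3.differentiableAt h4
    exact (differentiableAt_pi.1 h5) 0

/-- the graph map of a sheet -/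
def Ch.gm {f : E3 → ℂ} {U : Set E3} (C : Ch f U) (y : E2) : E3 := Fin.cons (C.s y) y

theorem Ch.gm_diff {f : E3 → ℂ} {U : Set E3} (C : Ch f U) {y : E2} (hy : y ∈ C.O) :
    DifferentiableAt ℂ C.gm y := by
  rw [differentiableAt_pi]
  intro i
  refine Fin.cases ?_ (fun j => ?_) i
  · exact C.c y hy
  · exact differentiableAt_apply j y

theorem Ch.gm_fderiv_zero {f : E3 → ℂ} {U : Set E3} (C : Ch f U) {y : E2} (hy : y ∈ C.O)
    (v : E2) : fderiv ℂ C.gm y v 0 = fderiv ℂ C.s y v := by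
  have h := C.gm_diff hy
  have h1 : HasFDerivAt (fun y => C.gm y 0) ((ContinuousLinearMap.proj (R := ℂ)
      (φ := fun _ : Fin 3 => ℂ) 0).comp (fderiv ℂ C.gm y)) y :=
    (ContinuousLinearMap.proj (R := ℂ) (φ := fun _ : Fin 3 => ℂ) 0).hasFDerivAt.comp y
      h.hasFDerivAt
  have h2 : fderiv ℂ C.s y = _ := h1.fderiv
  rw [h2]; rfl

theorem Ch.gm_fderiv_succ {f : E3 → ℂ} {U : Set E3} (C : Ch f U) {y : E2} (hy : y ∈ C.O)
    (v : E2) (i : Fin 2) : fderiv ℂ C.gm y v i.succ = v i := by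
  have h := C.gm_diff hy
  have h1 : HasFDerivAt (fun y => C.gm y i.succ) ((ContinuousLinearMap.proj (R := ℂ)
      (φ := fun _ : Fin 3 => ℂ) i.succ).comp (fderiv ℂ C.gm y)) y :=
    (ContinuousLinearMap.proj (R := ℂ) (φ := fun _ : Fin 3 => ℂ) i.succ).hasFDerivAt.comp y
      h.hasFDerivAt
  have h2 : HasFDerivAt (fun y : E2 => C.gm y i.succ) (ContinuousLinearMap.proj (R := ℂ)
      (φ := fun _ : Fin 2 => ℂ) i) y :=
    (ContinuousLinearMap.proj (R := ℂ) (φ := fun _ : Fin 2 => ℂ) i).hasFDerivAt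
  have h3 := h1.unique h2
  have := congrArg (fun L : E2 →L[ℂ] ℂ => L v) h3
  simpa using this

/-- derivative along the sheet -/
theorem Ch.comp_fderiv {f : E3 → ℂ} {U : Set E3} (C : Ch f U) {y : E2} (hy : y ∈ C.O)
    {g : E3 → ℂ} (hg : DifferentiableAt ℂ g (C.gm y)) (v : E2) :
    fderiv ℂ (fun y => g (C.gm y)) y v =
      fderiv ℂ C.s y v * coordDeriv g 0 (C.gm y) +
        (v 0 * coordDeriv g 1 (C.gm y) + v 1 * coordDeriv g 2 (C.gm y)) := by
  have h1 : HasFDerivAt (fun y => g (C.gm y)) ((fderiv ℂ g (C.gm y)).comp (fderiv ℂ C.gm y)) y :=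
    hg.hasFDerivAt.comp y (C.gm_diff hy).hasFDerivAt
  rw [h1.fderiv, ContinuousLinearMap.comp_apply, fderiv_sum, Fin.sum_univ_succ,
    Fin.sum_univ_two, C.gm_fderiv_zero hy, C.gm_fderiv_succ hy, C.gm_fderiv_succ hy]
  rfl

/-- implicit differentiation -/
theorem Ch.s_fderiv {f : E3 → ℂ} {U : Set E3} (C : Ch f U) {y : E2} (hy : y ∈ C.O)
    (hf : DifferentiableAt ℂ f (C.gm y)) (v : E2) :
    fderiv ℂ C.s y v * coordDeriv f 0 (C.gm y) +
        (v 0 * coordDeriv f 1 (C.gm y) + v 1 * coordDeriv f 2 (C.gm y)) = 0 := by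
  rw [← C.comp_fderiv hy hf v]
  have h1 : (fun y => f (C.gm y)) =ᶠ[𝓝 y] fun _ => (0 : ℂ) := by
    filter_upwards [C.Oo.mem_nhds hy] with z hz
    exact (C.b z hz).2
  rw [h1.fderiv_eq]
  simp

/-- `(g,h)` along the sheet -/
def Ch.th {f : E3 → ℂ} {U : Set E3} (C : Ch f U) (g h : E3 → ℂ) (y : E2) : E2 :=
  ![g (C.gm y), h (C.gm y)]

/-- the Jacobian of `(g,h)` along the sheet -/
theorem Ch.th_det {f : E3 → ℂ} {U : Set E3} (C : Ch f U) {y : E2} (hy : y ∈ C.O)
    {g h : E3 → ℂ} (hf : DifferentiableAt ℂ f (C.gm y)) (hg : DifferentiableAt ℂ g (C.gm y))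
    (hh : DifferentiableAt ℂ h (C.gm y)) :
    DifferentiableAt ℂ (C.th g h) y ∧
      (fderiv ℂ (C.th g h) y).det = Dt f g h (C.gm y) / coordDeriv f 0 (C.gm y) := by
  have hG : DifferentiableAt ℂ (fun y => g (C.gm y)) y := hg.comp y (C.gm_diff hy)
  have hH : DifferentiableAt ℂ (fun y => h (C.gm y)) y := hh.comp y (C.gm_diff hy)
  have hT : DifferentiableAt ℂ (C.th g h) y := by
    rw [differentiableAt_pi]
    intro i
    fin_cases i
    · exact hG
    · exact hH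
  refine ⟨hT, ?_⟩
  have h0 : ∀ v, fderiv ℂ (C.th g h) y v 0 = fderiv ℂ (fun y => g (C.gm y)) y v := by
    intro v
    have h1 : HasFDerivAt (fun y => C.th g h y 0) ((ContinuousLinearMap.proj (R := ℂ)
      (φ := fun _ : Fin 2 => ℂ) 0).comp (fderiv ℂ (C.th g h) y)) y :=
      (ContinuousLinearMap.proj (R := ℂ) (φ := fun _ : Fin 2 => ℂ) 0).hasFDerivAt.comp y
        hT.hasFDerivAt
    have h2 : fderiv ℂ (fun y => g (C.gm y)) y = _ := h1.fderiv
    rw [h2]; rfl
  have h1 : ∀ v, fderiv ℂ (C.th g h) y v 1 = fderiv ℂ (fun y => h (C.gm y)) y v := by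
    intro v
    have h1 : HasFDerivAt (fun y => C.th g h y 1) ((ContinuousLinearMap.proj (R := ℂ)
      (φ := fun _ : Fin 2 => ℂ) 1).comp (fderiv ℂ (C.th g h) y)) y :=
      (ContinuousLinearMap.proj (R := ℂ) (φ := fun _ : Fin 2 => ℂ) 1).hasFDerivAt.comp y
        hT.hasFDerivAt
    have h2 : fderiv ℂ (fun y => h (C.gm y)) y = _ := h1.fderiv
    rw [h2]; rfl
  have hz := C.fz _ (C.b y hy).1
  change coordDeriv f 0 (C.gm y) ≠ 0 at hz
  rw [ContinuousLinearMap.det, ← LinearMap.det_toMatrix', Matrix.det_fin_two]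
  simp only [LinearMap.toMatrix'_apply, ContinuousLinearMap.coe_coe]
  rw [h0, h0, h1, h1, C.comp_fderiv hy hg, C.comp_fderiv hy hg, C.comp_fderiv hy hh,
    C.comp_fderiv hy hh]
  have e0 := C.s_fderiv hy hf (Pi.single 0 1)
  have e1 := C.s_fderiv hy hf (Pi.single 1 1)
  simp only [Pi.single_eq_same, one_mul, ne_eq, one_ne_zero, not_false_eq_true,
    Pi.single_eq_of_ne, zero_mul, add_zero, zero_ne_one, zero_add] at e0 e1 ⊢
  have e0' : fderiv ℂ C.s y (Pi.single 0 1) =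
      - coordDeriv f 1 (C.gm y) / coordDeriv f 0 (C.gm y) := by
    rw [eq_div_iff hz]; linear_combination e0
  have e1' : fderiv ℂ C.s y (Pi.single 1 1) =
      - coordDeriv f 2 (C.gm y) / coordDeriv f 0 (C.gm y) := by
    rw [eq_div_iff hz]; linear_combination e1
  rw [e0', e1', Dt, Matrix.det_fin_three]
  simp only [Matrix.of_apply, Matrix.cons_val_zero, Matrix.cons_val_one, Matrix.cons_val,
    gr]
  field_simp
  ring

end Crest.Agent.R257.Det_219
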