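import Crest.Agent.R257.DetB_219

/-!
R257 / DetC_219 (leaf DET): countable disjoint measurable sheets of `{f = 0}` over the box, the
sheet-sum formula `∫⁻ ∑_z φ = ∑_i ∫⁻_{B_i} φ ∘ gm_i`.
-/

set_option autoImplicit false

open Topology Filter MeasureTheory Set Function
open scoped ENNReal NNReal
open Crest.AlgGeometry.Germ
open Crest.Agent.R257.Defs_219

noncomputable section

namespace Crest.Agent.R257.Det_219

/-- the box in `x`-space -/
def Bx (r : ℝ) : Set E3 := {x | ∀ i, ‖x i‖ < r}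

/-- the box in `x'`-space -/
def Bp (r : ℝ) : Set E2 := {y | ∀ i, ‖y i‖ < r}

theorem isOpen_Bx (r : ℝ) : IsOpen (Bx r) := by
  have : Bx r = ⋂ i, {x : E3 | ‖x i‖ < r} := by ext x; simp [Bx]
  rw [this]
  exact isOpen_iInter_of_finite fun i =>
    isOpen_lt (continuous_apply i).norm continuous_const

theorem isOpen_Bp (r : ℝ) : IsOpen (Bp r) := by
  have : Bp r = ⋂ i, {x : E2 | ‖x i‖ < r} := by ext x; simp [Bp]
  rw [this]
  exact isOpen_iInter_of_finite fun i =>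
    isOpen_lt (continuous_apply i).norm continuous_const

theorem mem_Bx_cons {r : ℝ} {z : ℂ} {y : E2} :
    (Fin.cons z y : E3) ∈ Bx r ↔ ‖z‖ < r ∧ y ∈ Bp r := by
  constructor
  · intro h
    exact ⟨h 0, fun i => h i.succ⟩
  · rintro ⟨h1, h2⟩ i
    refine Fin.cases h1 (fun j => h2 j) i

theorem Ch.gm_cont {f : E3 → ℂ} {U : Set E3} (C : Ch f U) : ContinuousOn C.gm C.O :=
  fun _ hy => (C.gm_diff hy).continuousAt.continuousWithinAt

/-- the empty chart -/
def Ch.empty (f : E3 → ℂ) (U : Set E3) : Ch f U where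
  V := ∅
  O := ∅
  s := fun _ => 0
  Vo := isOpen_empty
  Oo := isOpen_empty
  VU := empty_subset _
  fz := fun x hx => absurd hx (notMem_empty x)
  a := fun x hx => absurd hx (notMem_empty x)
  b := fun x hx => absurd hx (notMem_empty x)
  c := fun x hx => absurd hx (notMem_empty x)

/-- countable disjoint measurable sheets -/
structure Cov (f : E3 → ℂ) (U : Set E3) (r : ℝ) where
  C : ℕ → Ch f U
  B : ℕ → Set E2
  Bm : ∀ i, MeasurableSet (B i)
  BO : ∀ i, B i ⊆ (C i).O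
  Bb : ∀ i, ∀ y ∈ B i, (C i).gm y ∈ Bx r
  dis : ∀ i j, i ≠ j → ∀ y ∈ B i, ∀ z ∈ B j, (C i).gm y ≠ (C j).gm z
  cov : ∀ x ∈ Bx r, f x = 0 → coordDeriv f 0 x ≠ 0 →
    ∃ i, Fin.tail x ∈ B i ∧ (C i).gm (Fin.tail x) = x

theorem exists_cov {f : E3 → ℂ} {U : Set E3} (hU : IsOpen U) (han : AnalyticOnNhd ℂ f U)
    {r : ℝ} (hr : Bx r ⊆ U) : Nonempty (Cov f U r) := by
  classical
  set S : Set E3 := {x | x ∈ Bx r ∧ f x = 0 ∧ coordDeriv f 0 x ≠ 0} with hS
  have h1 : ∀ x : E3, ∃ C : Ch f U, x ∈ S → x ∈ C.V := by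
    intro x
    by_cases hx : x ∈ S
    · obtain ⟨C, hC⟩ := exists_ch hU han (hr hx.1) hx.2.2
      exact ⟨C, fun _ => hC⟩
    · exact ⟨Ch.empty f U, fun h => absurd h hx⟩
  choose D hD using h1
  obtain ⟨t, ht1, ht2, ht3⟩ := TopologicalSpace.countable_cover_nhdsWithin (s := S)
    (f := fun x => (D x).V) (fun x hx => mem_nhdsWithin_of_mem_nhds ((D x).Vo.mem_nhds (hD x hx)))
  obtain ⟨p, hp⟩ : ∃ p : ℕ → E3, S ⊆ ⋃ i, (D (p i)).V := by
    rcases t.eq_empty_or_nonempty with h | h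
    · refine ⟨fun _ => 0, ?_⟩
      rw [h] at ht3
      simp only [mem_empty_iff_false, iUnion_of_empty, iUnion_empty] at ht3
      exact ht3.trans (empty_subset _)
    · obtain ⟨p, hp⟩ := ht2.exists_eq_range h
      refine ⟨p, ht3.trans ?_⟩
      rw [hp]
      intro x hx
      simp only [mem_range, iUnion_exists, iUnion_iUnion_eq', mem_iUnion] at hx ⊢
      exact hx
  set C : ℕ → Ch f U := fun i => D (p i) with hC
  set B : ℕ → Set E2 := fun i => ((C i).O ∩ (C i).gm ⁻¹' (Bx r)) \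
    ⋃ j ∈ Finset.range i, ((C i).O ∩ (C i).gm ⁻¹' ((C j).V)) with hB
  refine ⟨⟨C, B, fun i => ?_, fun i y hy => hy.1.1, fun i y hy => hy.1.2, ?_, ?_⟩⟩
  · refine MeasurableSet.diff ?_ ?_
    · exact ((C i).gm_cont.isOpen_inter_preimage (C i).Oo (isOpen_Bx r)).measurableSet
    · exact Finset.measurableSet_biUnion _ fun j _ =>
        ((C i).gm_cont.isOpen_inter_preimage (C i).Oo (C j).Vo).measurableSet
  · have key : ∀ i j, i < j → ∀ y ∈ B i, ∀ z ∈ B j, (C i).gm y ≠ (C j).gm z := by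
      intro i j hij y hy z hz h
      refine hz.2 ?_
      simp only [mem_iUnion]
      refine ⟨i, Finset.mem_range.2 hij, hz.1.1, ?_⟩
      show (C j).gm z ∈ (C i).V
      rw [← h]
      exact ((C i).b y hy.1.1).1
    intro i j hij y hy z hz h
    rcases lt_or_gt_of_ne hij with h1 | h1
    · exact key i j h1 y hy z hz h
    · exact key j i h1 z hz y hy h.symm
  · intro x hx hfx hfz
    have hxS : x ∈ S := ⟨hx, hfx, hfz⟩
    have h2 : ∃ i, x ∈ (C i).V := by simpa using hp hxS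
    set i := Nat.find h2 with hi
    have h3 : x ∈ (C i).V := Nat.find_spec h2
    obtain ⟨h4, h5⟩ := (C i).a x h3 hfx
    have h6 : (C i).gm (Fin.tail x) = x := by
      show (Fin.cons ((C i).s (Fin.tail x)) (Fin.tail x) : E3) = x
      rw [← h5]; exact Fin.cons_self_tail x
    refine ⟨i, ⟨⟨h4, ?_⟩, ?_⟩, h6⟩
    · show (C i).gm (Fin.tail x) ∈ Bx r
      rw [h6]; exact hx
    · simp only [mem_iUnion, not_exists]
      intro j hj h7
      have h8 : (C i).gm (Fin.tail x) ∈ (C j).V := h7.2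
      rw [h6] at h8
      exact Nat.find_min h2 (Finset.mem_range.1 hj) h8

/-- the type of simple points over `y` -/
abbrev Sh (f : E3 → ℂ) (r : ℝ) (y : E2) : Type :=
  {z : ℂ // ‖z‖ < r ∧ f (Fin.cons z y) = 0 ∧ coordDeriv f 0 (Fin.cons z y) ≠ 0}

theorem Cov.sum {f : E3 → ℂ} {U : Set E3} {r : ℝ} (K : Cov f U r) (φ : E3 → ℝ≥0∞) {y : E2}
    (hy : y ∈ Bp r) : ∑' z : Sh f r y, φ (Fin.cons z.1 y) =
      ∑' i, (K.B i).indicator (fun y => φ ((K.C i).gm y)) y := by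
  classical
  let T : {i : ℕ | y ∈ K.B i} → Sh f r y := fun i =>
    ⟨(K.C i.1).s y, (mem_Bx_cons.1 (K.Bb i.1 y i.2)).1, ((K.C i.1).b y (K.BO i.1 i.2)).2,
      (K.C i.1).fz _ ((K.C i.1).b y (K.BO i.1 i.2)).1⟩
  have hT : Bijective T := by
    constructor
    · rintro ⟨i, hi⟩ ⟨j, hj⟩ hij
      by_contra hne
      have hne' : i ≠ j := fun h => hne (by subst h; rfl)
      refine K.dis i j hne' y hi y hj ?_
      have h1 : (K.C i).s y = (K.C j).s y := congrArg Subtype.val hij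
      show (Fin.cons ((K.C i).s y) y : E3) = Fin.cons ((K.C j).s y) y
      rw [h1]
    · rintro ⟨z, hz1, hz2, hz3⟩
      obtain ⟨i, hi1, hi2⟩ := K.cov (Fin.cons z y) (mem_Bx_cons.2 ⟨hz1, hy⟩) hz2 hz3
      rw [Fin.tail_cons] at hi1 hi2
      refine ⟨⟨i, hi1⟩, ?_⟩
      apply Subtype.ext
      have := congrFun hi2 0
      exact this
  calc ∑' z : Sh f r y, φ (Fin.cons z.1 y)
      = ∑' i : {i : ℕ | y ∈ K.B i}, φ (Fin.cons (T i).1 y) :=
        ((Equiv.ofBijective T hT).tsum_eq (fun z : Sh f r y => φ (Fin.cons z.1 y))).symm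
    _ = ∑' i : {i : ℕ | y ∈ K.B i}, (fun i : ℕ => φ ((K.C i).gm y)) i := rfl
    _ = ∑' i : ℕ, ({i : ℕ | y ∈ K.B i}).indicator (fun i : ℕ => φ ((K.C i).gm y)) i :=
        tsum_subtype {i : ℕ | y ∈ K.B i} (fun i : ℕ => φ ((K.C i).gm y))
    _ = _ := by
        refine tsum_congr fun i => ?_
        by_cases h : y ∈ K.B i
        · rw [indicator_of_mem h, indicator_of_mem (show i ∈ {i : ℕ | y ∈ K.B i} from h)]
        · rw [indicator_of_notMem h, indicator_of_notMem (show i ∉ {i : ℕ | y ∈ K.B i} from h)]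

theorem Cov.B_sub {f : E3 → ℂ} {U : Set E3} {r : ℝ} (K : Cov f U r) (i : ℕ) :
    K.B i ⊆ Bp r := fun y hy => (mem_Bx_cons.1 (K.Bb i y hy)).2

theorem Cov.lint {f : E3 → ℂ} {U : Set E3} {r : ℝ} (K : Cov f U r) (φ : E3 → ℝ≥0∞)
    (hφ : ∀ i, AEMeasurable (fun y => φ ((K.C i).gm y)) (volume.restrict (K.B i))) :
    ∫⁻ y in Bp r, ∑' z : Sh f r y, φ (Fin.cons z.1 y) =
      ∑' i, ∫⁻ y in K.B i, φ ((K.C i).gm y) := by
  calc ∫⁻ y in Bp r, ∑' z : Sh f r y, φ (Fin.cons z.1 y)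
      = ∫⁻ y in Bp r, ∑' i, (K.B i).indicator (fun y => φ ((K.C i).gm y)) y :=
        setLIntegral_congr_fun (isOpen_Bp r).measurableSet fun y hy => K.sum φ hy
    _ = ∑' i, ∫⁻ y in Bp r, (K.B i).indicator (fun y => φ ((K.C i).gm y)) y := by
        refine lintegral_tsum fun i => ?_
        rw [aemeasurable_indicator_iff (K.Bm i), Measure.restrict_restrict (K.Bm i),
          inter_eq_left.2 (K.B_sub i)]
        exact hφ i
    _ = _ := by
        congr 1; ext i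
        rw [lintegral_indicator (K.Bm i), Measure.restrict_restrict (K.Bm i),
          inter_eq_left.2 (K.B_sub i)]

end Crest.Agent.R257.Det_219
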