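import Crest.Agent.R257.DetC_219

/-!
R257 / DetD_219 (leaf DET): the area inequality on `{f = 0}`:
`∑_i ∫⁻_{B_i} |Dt|²/|∂₀f|² Φ(g,h) ≤ N ∫⁻_Q Φ`, and its case `Φ = 1` : `Dt f g h ∈ J_1(f)`.
-/

set_option autoImplicit false

open Topology Filter MeasureTheory Set Function
open scoped ENNReal NNReal
open Crest.AlgGeometry.Germ
open Crest.Agent.R257.Defs_219

noncomputable section

namespace Crest.Agent.R257.Det_219

theorem cd_an {f : E3 → ℂ} {U : Set E3} (h : AnalyticOnNhd ℂ f U) (i : Fin 3) :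
    AnalyticOnNhd ℂ (coordDeriv f i) U := fun x hx => by
  have h1 : AnalyticAt ℂ (fderiv ℂ f) x := (h x hx).fderiv
  have h2 := (ContinuousLinearMap.apply ℂ ℂ (Pi.single i (1:ℂ) : E3)).analyticAt
    (fderiv ℂ f x)
  exact h2.comp h1

theorem dt_an {f g h : E3 → ℂ} {U : Set E3} (hf : AnalyticOnNhd ℂ f U)
    (hg : AnalyticOnNhd ℂ g U) (hh : AnalyticOnNhd ℂ h U) :
    AnalyticOnNhd ℂ (Dt f g h) U := by
  have h1 : Dt f g h = fun x =>
      gr f x 0 * gr g x 1 * gr h x 2 - gr f x 0 * gr g x 2 * gr h x 1 -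
      gr f x 1 * gr g x 0 * gr h x 2 + gr f x 1 * gr g x 2 * gr h x 0 +
      gr f x 2 * gr g x 0 * gr h x 1 - gr f x 2 * gr g x 1 * gr h x 0 := by
    funext x
    rw [Dt, Matrix.det_fin_three]
    simp only [Matrix.of_apply, Matrix.cons_val_zero, Matrix.cons_val_one, Matrix.cons_val]
  rw [h1]
  have f' : ∀ i, AnalyticOnNhd ℂ (fun x => gr f x i) U := fun i => cd_an hf i
  have g' : ∀ i, AnalyticOnNhd ℂ (fun x => gr g x i) U := fun i => cd_an hg i
  have h' : ∀ i, AnalyticOnNhd ℂ (fun x => gr h x i) U := fun i => cd_an hh i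
  exact ((((((f' 0).mul (g' 1)).mul (h' 2)).sub (((f' 0).mul (g' 2)).mul (h' 1))).sub
    (((f' 1).mul (g' 0)).mul (h' 2))).add (((f' 1).mul (g' 2)).mul (h' 0))).add
    (((f' 2).mul (g' 0)).mul (h' 1)) |>.sub (((f' 2).mul (g' 1)).mul (h' 0))

theorem Ch.gm_mem {f : E3 → ℂ} {U : Set E3} (C : Ch f U) {y : E2} (hy : y ∈ C.O) :
    C.gm y ∈ U := C.VU (C.b y hy).1

theorem Ch.gm_inj {f : E3 → ℂ} {U : Set E3} (C : Ch f U) : Injective C.gm := fun y z h => by
  have := congrArg Fin.tail h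
  simpa [Ch.gm] using this

/-- the integrand `w/|∂₀f|²` -/
def Wf (f g h : E3 → ℂ) (Φ : E2 → ℝ≥0∞) (x : E3) : ℝ≥0∞ :=
  ENNReal.ofReal (‖Dt f g h x‖ ^ 2 / ‖coordDeriv f 0 x‖ ^ 2) * Φ ![g x, h x]

theorem area_bound {f g h : E3 → ℂ} {U : Set E3} {r : ℝ} (hf : AnalyticOnNhd ℂ f U)
    (hg : AnalyticOnNhd ℂ g U) (hh : AnalyticOnNhd ℂ h U) (K : Cov f U r) {N : ℕ}
    (hN : ∀ y : E2, {x | x ∈ Bx r ∧ f x = 0 ∧ g x = y 0 ∧ h x = y 1}.encard ≤ N)
    {Φ : E2 → ℝ≥0∞} (hΦ : Measurable Φ) {Q : Set E2} (hQ : MeasurableSet Q)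
    (hgh : ∀ x ∈ Bx r, ![g x, h x] ∈ Q) :
    ∑' i, ∫⁻ y in K.B i, Wf f g h Φ ((K.C i).gm y) ≤ N * ∫⁻ y in Q, Φ y := by
  classical
  set s : ℕ → Set E2 := fun i => K.B i ∩ {y | Dt f g h ((K.C i).gm y) ≠ 0} with hs
  have hsm : ∀ i, MeasurableSet (s i) := by
    intro i
    have h1 : ContinuousOn (fun y => Dt f g h ((K.C i).gm y)) (K.C i).O :=
      (dt_an hf hg hh).continuousOn.comp (K.C i).gm_cont fun y hy => (K.C i).gm_mem hy
    have h2 : IsOpen ((K.C i).O ∩ (fun y => Dt f g h ((K.C i).gm y)) ⁻¹' {0}ᶜ) :=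
      h1.isOpen_inter_preimage (K.C i).Oo isOpen_compl_singleton
    have h3 : s i = K.B i ∩ ((K.C i).O ∩ (fun y => Dt f g h ((K.C i).gm y)) ⁻¹' {0}ᶜ) := by
      ext y
      constructor
      · rintro ⟨a, b⟩; exact ⟨a, K.BO i a, b⟩
      · rintro ⟨a, _, b⟩; exact ⟨a, b⟩
    rw [h3]
    exact (K.Bm i).inter h2.measurableSet
  have hsO : ∀ i, ∀ y ∈ s i, y ∈ (K.C i).O := fun i y hy => K.BO i hy.1
  have hdet : ∀ i, ∀ y ∈ s i, DifferentiableAt ℂ ((K.C i).th g h) y ∧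
      (fderiv ℂ ((K.C i).th g h) y).det =
        Dt f g h ((K.C i).gm y) / coordDeriv f 0 ((K.C i).gm y) := by
    intro i y hy
    have h1 : (K.C i).gm y ∈ U := (K.C i).gm_mem (hsO i y hy)
    exact (K.C i).th_det (hsO i y hy) (hf _ h1).differentiableAt (hg _ h1).differentiableAt
      (hh _ h1).differentiableAt
  set A : ℕ → E2 → E2 →L[ℝ] E2 := fun i y => (fderiv ℂ ((K.C i).th g h) y).restrictScalars ℝ
    with hA
  have hAd : ∀ i, ∀ y ∈ s i, |(A i y).det| =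
      ‖Dt f g h ((K.C i).gm y)‖ ^ 2 / ‖coordDeriv f 0 ((K.C i).gm y)‖ ^ 2 := by
    intro i y hy
    rw [hA, det_restrict, (hdet i y hy).2, norm_div, div_pow]
  have hAp : ∀ i, ∀ y ∈ s i, (A i y).det ≠ 0 := by
    intro i y hy h0
    have h1 := hAd i y hy
    rw [h0, abs_zero] at h1
    have h2 : ‖Dt f g h ((K.C i).gm y)‖ ≠ 0 := norm_ne_zero_iff.2 hy.2
    have h3 : ‖coordDeriv f 0 ((K.C i).gm y)‖ ≠ 0 :=
      norm_ne_zero_iff.2 ((K.C i).fz _ ((K.C i).b y (hsO i y hy)).1)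
    exact (div_ne_zero (pow_ne_zero 2 h2) (pow_ne_zero 2 h3)) h1.symm
  have hAder : ∀ i, ∀ y ∈ s i, HasFDerivWithinAt ((K.C i).th g h) (A i y) (s i) y :=
    fun i y hy => ((hdet i y hy).1.hasFDerivAt.restrictScalars ℝ).hasFDerivWithinAt
  have hpc := fun i => area_pieces (volume : Measure E2) ((K.C i).th g h) (s i) (A i) (hsm i)
    (hAder i) (hAp i)
  choose t t1 t2 t3 t4 t5 t6 using hpc
  have e1 : ∀ i, ∫⁻ y in K.B i, Wf f g h Φ ((K.C i).gm y) =
      ∑' n, ∫⁻ y in ((K.C i).th g h) '' (s i ∩ t i n), Φ y := by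
    intro i
    rw [← t6 i Φ, ← lintegral_indicator (K.Bm i), ← lintegral_indicator (hsm i)]
    congr 1; ext y
    by_cases hy : y ∈ s i
    · rw [indicator_of_mem hy, indicator_of_mem hy.1, hAd i y hy]
      rfl
    · rw [indicator_of_notMem hy]
      by_cases hyB : y ∈ K.B i
      · rw [indicator_of_mem hyB]
        have h0 : Dt f g h ((K.C i).gm y) = 0 := by
          by_contra h0
          exact hy ⟨hyB, h0⟩
        simp [Wf, h0]
      · rw [indicator_of_notMem hyB]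
  set P : ℕ × ℕ → Set E3 := fun p => (K.C p.1).gm '' (s p.1 ∩ t p.1 p.2) with hP
  set F : E3 → E2 := fun x => ![g x, h x] with hF
  have hFP : ∀ p, F '' (P p) = ((K.C p.1).th g h) '' (s p.1 ∩ t p.1 p.2) := by
    intro p
    rw [hP, image_image]
    rfl
  have hPd : Pairwise (Disjoint on P) := by
    rintro ⟨i, n⟩ ⟨j, m⟩ hne
    rw [onFun, Set.disjoint_left]
    rintro _ ⟨y, hy, rfl⟩ ⟨z, hz, hzy⟩
    by_cases hij : i = j
    · subst hij
      have hnm : n ≠ m := fun h => hne (by subst h; rfl)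
      have hyz : z = y := (K.C i).gm_inj hzy
      subst hyz
      exact Set.disjoint_left.1 (t1 i hnm) hy.2 hz.2
    · exact K.dis i j hij y hy.1.1 z hz.1.1 hzy.symm
  have hcount : ∀ y : E2, ∑' p, (F '' (P p)).indicator (fun _ => (1 : ℝ≥0∞)) y ≤ N := by
    intro y
    refine tsum_indicator_le P F N hPd y (le_trans (Set.encard_le_encard ?_) (hN y))
    rintro x ⟨⟨p, z, hz, rfl⟩, hx⟩
    refine ⟨K.Bb p.1 z hz.1.1, ((K.C p.1).b z (K.BO p.1 hz.1.1)).2, ?_, ?_⟩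
    · exact congrFun hx 0
    · exact congrFun hx 1
  have hFQ : ∀ p, F '' (P p) ⊆ Q := by
    rintro p _ ⟨x, ⟨z, hz, rfl⟩, rfl⟩
    exact hgh _ (K.Bb p.1 z hz.1.1)
  have hFm : ∀ p, MeasurableSet (F '' (P p)) := by
    intro p
    rw [hFP]
    exact t5 p.1 p.2
  calc ∑' i, ∫⁻ y in K.B i, Wf f g h Φ ((K.C i).gm y)
      = ∑' i, ∑' n, ∫⁻ y in F '' (P (i, n)), Φ y := by
        refine tsum_congr fun i => ?_
        rw [e1 i]
        refine tsum_congr fun n => ?_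
        rw [hFP]
    _ = ∑' p : ℕ × ℕ, ∫⁻ y in F '' (P p), Φ y := (ENNReal.tsum_prod (f := fun i n =>
          ∫⁻ y in F '' (P (i, n)), Φ y)).symm
    _ = ∑' p : ℕ × ℕ, ∫⁻ y, (F '' (P p)).indicator Φ y := by
        refine tsum_congr fun p => ?_
        rw [lintegral_indicator (hFm p)]
    _ = ∫⁻ y, ∑' p : ℕ × ℕ, (F '' (P p)).indicator Φ y :=
        (lintegral_tsum fun p => (hΦ.indicator (hFm p)).aemeasurable).symm
    _ ≤ ∫⁻ y, N * Q.indicator Φ y := by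
        refine lintegral_mono fun y => ?_
        have h1 : ∀ p, (F '' (P p)).indicator Φ y =
            (F '' (P p)).indicator (fun _ => (1 : ℝ≥0∞)) y * Q.indicator Φ y := by
          intro p
          by_cases hy : y ∈ F '' (P p)
          · rw [indicator_of_mem hy, indicator_of_mem hy, one_mul,
              indicator_of_mem (hFQ p hy)]
          · rw [indicator_of_notMem hy, indicator_of_notMem hy, zero_mul]
        simp only [h1]
        rw [ENNReal.tsum_mul_right]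
        gcongr
        exact hcount y
    _ = N * ∫⁻ y in Q, Φ y := by
        rw [lintegral_const_mul _ (hΦ.indicator hQ), lintegral_indicator hQ]

end Crest.Agent.R257.Det_219
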