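import Crest.Agent.R257.DetD_219

/-!
R257 / DetE_219 (leaf DET): Hoelder and the conclusion, modulo the finiteness of the fibres `Fto`.
-/

set_option autoImplicit false

open Topology Filter MeasureTheory Set Function
open scoped ENNReal NNReal
open Crest.AlgGeometry.Germ
open Crest.Agent.R257.Defs_219

noncomputable section

namespace Crest.Agent.R257.Det_219

/-- bounded fibres of `(g,h)` on `{f = 0}` -/
def Fto (f g h : E3 → ℂ) : Prop := ∃ N : ℕ, ∃ r : ℝ, 0 < r ∧ ∀ y : E2,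
  {x | x ∈ Bx r ∧ f x = 0 ∧ g x = y 0 ∧ h x = y 1}.encard ≤ N

/-- the density `|z|^(-2c)` -/
def ph (c : ℝ) (z : ℂ) : ℝ≥0∞ := ENNReal.ofReal ‖z‖ ^ (-(2 * c))

theorem ph_meas (c : ℝ) : Measurable (ph c) := by
  unfold ph
  fun_prop

theorem ph_fin {c : ℝ} (hc : c < 1) (R : ℝ) : ∫⁻ z in Metric.ball (0 : ℂ) R, ph c z < ∞ := by
  have h1 : LocallyIntegrable (fun z : ℂ => ‖z‖ ^ (-(2 * c))) volume := by
    refine locallyIntegrable_of_norm_le_rpow (E := ℂ) (F := ℝ) (C := 1) (α := 2 * c) ?_ ?_ ?_ ?_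
    · rw [Complex.finrank_real_complex]; norm_num
    · rw [Complex.finrank_real_complex]; push_cast; linarith
    · refine Filter.Eventually.of_forall fun z => ?_
      rw [one_mul, Real.norm_of_nonneg (Real.rpow_nonneg (norm_nonneg z) _)]
    · exact (measurable_norm.pow_const _).aestronglyMeasurable
  have h2 : IntegrableOn (fun z : ℂ => ‖z‖ ^ (-(2 * c))) (Metric.closedBall (0 : ℂ) R) volume :=
    (locallyIntegrable_iff.1 h1) _ (isCompact_closedBall 0 R)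
  have h3 := (h2.mono_set Metric.ball_subset_closedBall).lintegral_lt_top
  refine lt_of_le_of_lt (le_of_eq ?_) h3
  refine lintegral_congr_ae ?_
  refine ae_restrict_of_ae ?_
  have h4 : ∀ᵐ z : ℂ, z ≠ 0 := by
    have : volume ({0} : Set ℂ) = 0 := measure_singleton 0
    exact (measure_eq_zero_iff_ae_notMem.1 this)
  filter_upwards [h4] with z hz
  unfold ph
  rw [ENNReal.ofReal_rpow_of_pos (norm_pos_iff.2 hz)]

/-- the density on `ℂ²` -/
def Ph (c : ℝ) (y : E2) : ℝ≥0∞ := ph c (y 0) * ph c (y 1)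

theorem Ph_meas (c : ℝ) : Measurable (Ph c) :=
  ((ph_meas c).comp (measurable_pi_apply 0)).mul ((ph_meas c).comp (measurable_pi_apply 1))

/-- the box in the target -/
def Qb (R : ℝ) : Set E2 := {y | ‖y 0‖ < R ∧ ‖y 1‖ < R}

theorem Qb_meas (R : ℝ) : MeasurableSet (Qb R) := by
  have h0 : Measurable fun y : E2 => ‖y 0‖ := measurable_norm.comp (measurable_pi_apply 0)
  have h1 : Measurable fun y : E2 => ‖y 1‖ := measurable_norm.comp (measurable_pi_apply 1)
  exact (measurableSet_lt h0 measurable_const).inter (measurableSet_lt h1 measurable_const)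

theorem Ph_fin {c : ℝ} (hc : c < 1) (R : ℝ) : ∫⁻ y in Qb R, Ph c y < ∞ := by
  set k : ℂ → ℝ≥0∞ := (Metric.ball (0:ℂ) R).indicator (ph c) with hk
  have hkm : Measurable k := (ph_meas c).indicator measurableSet_ball
  have h1 : ∫⁻ y in Qb R, Ph c y = ∫⁻ y : E2, k (y 0) * k (y 1) := by
    rw [← lintegral_indicator (Qb_meas R)]
    congr 1; ext y
    by_cases hy : y ∈ Qb R
    · rw [indicator_of_mem hy, hk, indicator_of_mem (mem_ball_zero_iff.2 hy.1),
        indicator_of_mem (mem_ball_zero_iff.2 hy.2)]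
      rfl
    · rw [indicator_of_notMem hy]
      by_cases h0 : ‖y 0‖ < R
      · have h1 : ¬ ‖y 1‖ < R := fun h => hy ⟨h0, h⟩
        rw [hk, indicator_of_notMem (fun h => h1 (mem_ball_zero_iff.1 h)) (a := y 1), mul_zero]
      · rw [hk, indicator_of_notMem (fun h => h0 (mem_ball_zero_iff.1 h)) (a := y 0), zero_mul]
  have h2 : ∫⁻ y : E2, k (y 0) * k (y 1) = ∫⁻ p : ℂ × ℂ, k p.1 * k p.2 := by
    have hm : Measurable fun p : ℂ × ℂ => k p.1 * k p.2 :=
      (hkm.comp measurable_fst).mul (hkm.comp measurable_snd)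
    exact (volume_preserving_finTwoArrow ℂ).lintegral_comp hm
  have h3 : ∫⁻ p : ℂ × ℂ, k p.1 * k p.2 = (∫⁻ z, k z) * ∫⁻ z, k z :=
    lintegral_prod_mul hkm.aemeasurable hkm.aemeasurable
  have h4 : ∫⁻ z, k z < ∞ := by
    rw [hk, lintegral_indicator measurableSet_ball]
    exact ph_fin hc R
  rw [h1, h2, h3]
  exact ENNReal.mul_lt_top h4 h4

/-- pointwise Hoelder -/
theorem pw {a b q c : ℝ} (ha : 1 ≤ a) (hb : 1 ≤ b) (hq : 1 ≤ q) (hc : (a + b) * c = q - 1)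
    {D F : ℝ} {u v : ℂ} (hD : 0 ≤ D) (hF : 0 < F) :
    ENNReal.ofReal (D ^ (2 / q) / F) ≤ ENNReal.ofReal (‖u‖ ^ (2 / a) / F) +
      (ENNReal.ofReal (‖v‖ ^ (2 / b) / F) + ENNReal.ofReal (D ^ 2 / F) * (ph c u * ph c v)) := by
  have ha0 : 0 < a := by linarith
  have hb0 : 0 < b := by linarith
  have hq0 : 0 < q := by linarith
  rcases hD.eq_or_lt with h0 | hD0
  · rw [← h0, Real.zero_rpow (by positivity), zero_div, ENNReal.ofReal_zero]
    exact zero_le
  have hc0 : 0 ≤ c := by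
    by_contra h
    have h1 : (a + b) * c < 0 := mul_neg_of_pos_of_neg (by linarith) (lt_of_not_ge h)
    linarith
  rcases hc0.eq_or_lt with hc1 | hc1
  · have hq1 : q = 1 := by rw [← hc1, mul_zero] at hc; linarith
    have h1 : ∀ z, ph c z = 1 := fun z => by
      unfold ph; rw [← hc1, mul_zero, neg_zero, ENNReal.rpow_zero]
    rw [h1, h1, mul_one, mul_one, hq1, div_one]
    have h2 : D ^ (2 : ℝ) = D ^ 2 := Real.rpow_natCast D 2
    rw [h2]
    exact le_add_left (le_add_left le_rfl)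
  have hDF : ENNReal.ofReal (D ^ 2 / F) ≠ 0 := by
    rw [Ne, ENNReal.ofReal_eq_zero, not_le]; positivity
  have hneg : -(2 * c) < 0 := by linarith
  have hphne : ∀ z, ph c z ≠ 0 := by
    intro z h
    unfold ph at h
    rcases ENNReal.rpow_eq_zero_iff.1 h with ⟨_, h1⟩ | ⟨h1, _⟩
    · exact absurd h1 (not_lt.2 hneg.le)
    · exact ENNReal.ofReal_ne_top h1
  have hph0 : ph c 0 = ∞ := by
    unfold ph
    rw [norm_zero, ENNReal.ofReal_zero, ENNReal.zero_rpow_of_neg hneg]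
  by_cases hu : u = 0
  · rw [hu, hph0, ENNReal.top_mul (hphne v), ENNReal.mul_top hDF]
    simp
  by_cases hv : v = 0
  · rw [hv, hph0, ENNReal.mul_top (hphne u), ENNReal.mul_top hDF]
    simp
  have hu0 : 0 < ‖u‖ := norm_pos_iff.2 hu
  have hv0 : 0 < ‖v‖ := norm_pos_iff.2 hv
  have e1 : ph c u = ENNReal.ofReal (‖u‖ ^ (-(2 * c))) := by
    unfold ph; rw [ENNReal.ofReal_rpow_of_pos hu0]
  have e2 : ph c v = ENNReal.ofReal (‖v‖ ^ (-(2 * c))) := by
    unfold ph; rw [ENNReal.ofReal_rpow_of_pos hv0]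
  set x := ‖u‖ ^ (2 / a) / F with hx
  set y := ‖v‖ ^ (2 / b) / F with hy
  set z := D ^ 2 / F * (‖u‖ ^ (-(2 * c)) * ‖v‖ ^ (-(2 * c))) with hz
  have hx0 : 0 < x := by positivity
  have hy0 : 0 < y := by positivity
  have hz0 : 0 < z := by positivity
  rw [e1, e2, ← ENNReal.ofReal_mul (by positivity), ← ENNReal.ofReal_mul (by positivity),
    ← ENNReal.ofReal_add (by positivity) (by positivity),
    ← ENNReal.ofReal_add (by positivity) (by positivity)]
  refine ENNReal.ofReal_le_ofReal ?_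
  have key : D ^ (2 / q) / F = x ^ (a * c / q) * y ^ (b * c / q) * z ^ (1 / q) := by
    refine Real.log_injOn_pos (mem_Ioi.2 (by positivity)) (mem_Ioi.2 (by positivity)) ?_
    have hF0 : F ≠ 0 := hF.ne'
    rw [Real.log_mul (by positivity) (by positivity), Real.log_mul (by positivity)
      (by positivity), Real.log_rpow hx0, Real.log_rpow hy0, Real.log_rpow hz0, hx, hy, hz,
      Real.log_div (by positivity) hF0, Real.log_rpow hD0, Real.log_div (by positivity) hF0,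
      Real.log_rpow hu0, Real.log_div (by positivity) hF0, Real.log_rpow hv0,
      Real.log_mul (by positivity) (by positivity), Real.log_mul (by positivity) (by positivity),
      Real.log_div (by positivity) hF0, Real.log_pow, Real.log_rpow hu0, Real.log_rpow hv0]
    have hc' : a * c + b * c = q - 1 := by linarith
    have h1 : a * c / q + b * c / q + 1 / q = 1 := by
      rw [← add_div, ← add_div, hc']; field_simp; ring
    have h2 : a * c / q * (2 / a) = 2 * c / q := by field_simp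
    have h3 : b * c / q * (2 / b) = 2 * c / q := by field_simp
    push_cast
    linear_combination Real.log F * h1 - Real.log ‖u‖ * h2 - Real.log ‖v‖ * h3
  rw [key]
  have hsum : a * c / q + b * c / q + 1 / q = 1 := by
    have hc' : a * c + b * c = q - 1 := by linarith
    rw [← add_div, ← add_div, hc']; field_simp; ring
  have hα : 0 ≤ a * c / q := by positivity
  have hβ : 0 ≤ b * c / q := by positivity
  have hγ : 0 ≤ 1 / q := by positivity
  refine (Real.geom_mean_le_arith_mean3_weighted hα hβ hγ hx0.le hy0.le hz0.le hsum).trans ?_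
  have h1 : a * c / q * x ≤ x := by
    have : a * c / q ≤ 1 := by linarith
    nlinarith
  have h2 : b * c / q * y ≤ y := by
    have : b * c / q ≤ 1 := by linarith
    nlinarith
  have h3 : 1 / q * z ≤ z := by
    have : 1 / q ≤ 1 := by linarith
    nlinarith
  linarith

/-- the integrand of `J_p` -/
def Jf (p : ℝ) (f g : E3 → ℂ) (x : E3) : ℝ≥0∞ :=
  ENNReal.ofReal (‖g x‖ ^ (2 / p) / ‖coordDeriv f 0 x‖ ^ 2)

theorem jint_eq (p r : ℝ) (f g : E3 → ℂ) : Jint p (fun _ => r) f g =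
    ∫⁻ y in Bp r, ∑' z : Sh f r y, Jf p f g (Fin.cons z.1 y) := rfl

theorem jint_mono (p : ℝ) (f g : E3 → ℂ) {r r' : ℝ} (h : r ≤ r') :
    Jint p (fun _ => r) f g ≤ Jint p (fun _ => r') f g := by
  rw [jint_eq, jint_eq]
  have h1 : ∀ y : E2, ∑' z : Sh f r y, Jf p f g (Fin.cons z.1 y) ≤
      ∑' z : Sh f r' y, Jf p f g (Fin.cons z.1 y) := by
    intro y
    let T : Sh f r y → Sh f r' y := fun z => ⟨z.1, lt_of_lt_of_le z.2.1 h, z.2.2⟩
    have hT : Injective T := fun z w hzw => Subtype.ext (congrArg (fun s : Sh f r' y => s.1) hzw)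
    exact ENNReal.tsum_comp_le_tsum_of_injective hT
      (fun z : Sh f r' y => Jf p f g (Fin.cons z.1 y))
  refine le_trans (lintegral_mono h1) (lintegral_mono_set ?_)
  exact fun y hy i => lt_of_lt_of_le (hy i) h

theorem jf_meas {p : ℝ} (hp : 1 ≤ p) {f g : E3 → ℂ} {U : Set E3} (hf : AnalyticOnNhd ℂ f U)
    (hg : AnalyticOnNhd ℂ g U) {r : ℝ} (K : Cov f U r) (i : ℕ) :
    AEMeasurable (fun y => Jf p f g ((K.C i).gm y)) (volume.restrict (K.B i)) := by
  have hgm := (K.C i).gm_cont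
  have h1 : ContinuousOn (fun y => ‖g ((K.C i).gm y)‖) (K.C i).O :=
    (hg.continuousOn.comp hgm fun y hy => (K.C i).gm_mem hy).norm
  have h2 : ContinuousOn (fun y => ‖coordDeriv f 0 ((K.C i).gm y)‖) (K.C i).O :=
    ((cd_an hf 0).continuousOn.comp hgm fun y hy => (K.C i).gm_mem hy).norm
  have h3 : ContinuousOn (fun y => ‖g ((K.C i).gm y)‖ ^ (2 / p)) (K.C i).O :=
    h1.rpow_const fun y _ => Or.inr (by positivity)
  have h4 : ContinuousOn (fun y => ‖g ((K.C i).gm y)‖ ^ (2 / p) /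
      ‖coordDeriv f 0 ((K.C i).gm y)‖ ^ 2) (K.C i).O := by
    refine h3.div (h2.pow 2) fun y hy => ?_
    exact pow_ne_zero 2 (norm_ne_zero_iff.2 ((K.C i).fz _ ((K.C i).b y hy).1))
  exact ((h4.mono (K.BO i)).aemeasurable (K.Bm i)).ennreal_ofReal

theorem jint_cov {p : ℝ} (hp : 1 ≤ p) {f g : E3 → ℂ} {U : Set E3} (hf : AnalyticOnNhd ℂ f U)
    (hg : AnalyticOnNhd ℂ g U) {r : ℝ} (K : Cov f U r) :
    Jint p (fun _ => r) f g = ∑' i, ∫⁻ y in K.B i, Jf p f g ((K.C i).gm y) := by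
  rw [jint_eq]
  exact K.lint (Jf p f g) (fun i => jf_meas hp hf hg K i)

/-- small boxes inside neighbourhoods -/
theorem exists_box {U : Set E3} (hU : U ∈ 𝓝 (0 : E3)) : ∃ r : ℝ, 0 < r ∧ Bx r ⊆ U := by
  obtain ⟨r, hr, h⟩ := Metric.mem_nhds_iff.1 hU
  refine ⟨r, hr, fun x hx => h ?_⟩
  rw [mem_ball_zero_iff, pi_norm_lt_iff hr]
  exact hx

theorem Bx_mono {r r' : ℝ} (h : r ≤ r') : Bx r ⊆ Bx r' := fun _ hx i => lt_of_lt_of_le (hx i) h

/-- the area integral is finite -/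
theorem area_fin {f g h : E3 → ℂ} (hf : AnalyticAt ℂ f 0) (hg : AnalyticAt ℂ g 0)
    (hh : AnalyticAt ℂ h 0) (hfto : Fto f g h) {c : ℝ} (hc : c < 1) (ρ : ℝ) (hρ : 0 < ρ) :
    ∃ (r : ℝ) (U : Set E3) (K : Cov f U r), 0 < r ∧ r ≤ ρ ∧ AnalyticOnNhd ℂ f U ∧
      AnalyticOnNhd ℂ g U ∧ AnalyticOnNhd ℂ h U ∧
      ∑' i, ∫⁻ y in K.B i, Wf f g h (Ph c) ((K.C i).gm y) < ∞ := by
  obtain ⟨N, r₀, hr₀, hN⟩ := hfto
  have h1 : ∀ᶠ x in 𝓝 (0 : E3), AnalyticAt ℂ f x ∧ AnalyticAt ℂ g x ∧ AnalyticAt ℂ h x ∧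
      ‖g x‖ < ‖g 0‖ + ‖h 0‖ + 1 ∧ ‖h x‖ < ‖g 0‖ + ‖h 0‖ + 1 := by
    have hg' : ∀ᶠ x in 𝓝 (0 : E3), ‖g x‖ < ‖g 0‖ + ‖h 0‖ + 1 :=
      (hg.continuousAt.norm).eventually_lt_const (by have := norm_nonneg (h 0); linarith)
    have hh' : ∀ᶠ x in 𝓝 (0 : E3), ‖h x‖ < ‖g 0‖ + ‖h 0‖ + 1 :=
      (hh.continuousAt.norm).eventually_lt_const (by have := norm_nonneg (g 0); linarith)
    filter_upwards [hf.eventually_analyticAt, hg.eventually_analyticAt,
      hh.eventually_analyticAt, hg', hh'] with x a b c d e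
    exact ⟨a, b, c, d, e⟩
  obtain ⟨r₁, hr₁, h2⟩ := exists_box h1
  set r := min ρ (min r₀ r₁) with hr
  have hr0 : 0 < r := lt_min hρ (lt_min hr₀ hr₁)
  have hrr₀ : r ≤ r₀ := (min_le_right _ _).trans (min_le_left _ _)
  have hrr₁ : r ≤ r₁ := (min_le_right _ _).trans (min_le_right _ _)
  have hfU : AnalyticOnNhd ℂ f (Bx r) := fun x hx => (h2 (Bx_mono hrr₁ hx)).1
  have hgU : AnalyticOnNhd ℂ g (Bx r) := fun x hx => (h2 (Bx_mono hrr₁ hx)).2.1
  have hhU : AnalyticOnNhd ℂ h (Bx r) := fun x hx => (h2 (Bx_mono hrr₁ hx)).2.2.1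
  obtain ⟨K⟩ := exists_cov (isOpen_Bx r) hfU (le_refl (Bx r))
  refine ⟨r, Bx r, K, hr0, min_le_left _ _, hfU, hgU, hhU, ?_⟩
  refine lt_of_le_of_lt (area_bound hfU hgU hhU K (N := N) (fun y => ?_) (Ph_meas c)
    (Qb_meas (‖g 0‖ + ‖h 0‖ + 1)) (fun x hx => ?_)) ?_
  · refine le_trans (Set.encard_le_encard ?_) (hN y)
    exact fun x hx => ⟨Bx_mono hrr₀ hx.1, hx.2⟩
  · exact ⟨(h2 (Bx_mono hrr₁ hx)).2.2.2.1, (h2 (Bx_mono hrr₁ hx)).2.2.2.2⟩
  · exact ENNReal.mul_lt_top (ENNReal.natCast_lt_top N) (Ph_fin hc _)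

/-- the case without weights -/
theorem area_J1 {f g h : E3 → ℂ} (hf : AnalyticAt ℂ f 0) (hg : AnalyticAt ℂ g 0)
    (hh : AnalyticAt ℂ h 0) (hfto : Fto f g h) : InJ 1 f (Dt f g h) := by
  obtain ⟨r, U, K, hr, -, hfU, hgU, hhU, hfin⟩ :=
    area_fin hf hg hh hfto (c := 0) one_pos 1 one_pos
  refine ⟨r, hr, ?_⟩
  rw [jint_cov le_rfl hfU (dt_an hfU hgU hhU) K]
  refine lt_of_le_of_lt (le_of_eq ?_) hfin
  refine tsum_congr fun i => ?_
  refine lintegral_congr fun y => ?_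
  have h1 : ∀ z, ph 0 z = 1 := fun z => by
    unfold ph; rw [mul_zero, neg_zero, ENNReal.rpow_zero]
  rw [Jf, Wf, Ph, h1, h1, mul_one, mul_one, div_one]
  have h2 : ∀ D : ℝ, D ^ (2 : ℝ) = D ^ 2 := fun D => Real.rpow_natCast D 2
  rw [h2]

/-- the Jacobian determinant, main case -/
theorem det_main {f g h : E3 → ℂ} (hf : AnalyticAt ℂ f 0) (hg : AnalyticAt ℂ g 0)
    (hh : AnalyticAt ℂ h 0) (hfto : Fto f g h) {a b q : ℝ} (ha : 1 ≤ a) (hb : 1 ≤ b)
    (hq : 1 ≤ q) (hqab : q < a + b + 1) (hgJ : InJ a f g) (hhJ : InJ b f h) :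
    InJ q f (Dt f g h) := by
  obtain ⟨ra, hra, hga⟩ := hgJ
  obtain ⟨rb, hrb, hhb⟩ := hhJ
  set c := (q - 1) / (a + b) with hc
  have hab : 0 < a + b := by linarith
  have hcc : (a + b) * c = q - 1 := by rw [hc]; field_simp
  have hc1 : c < 1 := by rw [hc, div_lt_one hab]; linarith
  obtain ⟨r, U, K, hr, hrle, hfU, hgU, hhU, hfin⟩ :=
    area_fin hf hg hh hfto hc1 (min ra rb) (lt_min hra hrb)
  refine ⟨r, hr, ?_⟩
  have hga' : Jint a (fun _ => r) f g < ∞ :=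
    lt_of_le_of_lt (jint_mono a f g (hrle.trans (min_le_left _ _))) hga
  have hhb' : Jint b (fun _ => r) f h < ∞ :=
    lt_of_le_of_lt (jint_mono b f h (hrle.trans (min_le_right _ _))) hhb
  rw [jint_cov ha hfU hgU K] at hga'
  rw [jint_cov hb hfU hhU K] at hhb'
  rw [jint_cov hq hfU (dt_an hfU hgU hhU) K]
  have h1 : ∀ i, ∫⁻ y in K.B i, Jf q f (Dt f g h) ((K.C i).gm y) ≤
      (∫⁻ y in K.B i, Jf a f g ((K.C i).gm y)) + ((∫⁻ y in K.B i, Jf b f h ((K.C i).gm y)) +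
        ∫⁻ y in K.B i, Wf f g h (Ph c) ((K.C i).gm y)) := by
    intro i
    rw [← lintegral_add_left' (jf_meas hb hfU hhU K i),
      ← lintegral_add_left' (jf_meas ha hfU hgU K i)]
    refine setLIntegral_mono' (K.Bm i) fun y hy => ?_
    have h0 : coordDeriv f 0 ((K.C i).gm y) ≠ 0 := (K.C i).fz _ ((K.C i).b y (K.BO i hy)).1
    have hF : 0 < ‖coordDeriv f 0 ((K.C i).gm y)‖ ^ 2 := by
      have := norm_pos_iff.2 h0
      positivity
    exact pw ha hb hq hcc (norm_nonneg _) hF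
  refine lt_of_le_of_lt (ENNReal.tsum_le_tsum h1) ?_
  rw [ENNReal.tsum_add, ENNReal.tsum_add]
  exact ENNReal.add_lt_top.2 ⟨hga', ENNReal.add_lt_top.2 ⟨hhb', hfin⟩⟩

end Crest.Agent.R257.Det_219
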