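import Crest.Agent.R257.Gen1_812
import Crest.Agent.R257.Cnm1_889

/-!
Row 257 (S0395), leaves CntStmt / GenLinStmt (helper812): dimension facts for `O_3`, avoidance of
primes by constant combinations.
-/

set_option autoImplicit false
set_option linter.unusedSectionVars false

open Set Filter Topology Metric Complex
open Crest.AlgGeometry.Germ
open Crest.Agent.R275.Loc2879 hiding AA
open Crest.Agent.R257.UI939 Crest.Agent.R257.Defs_219 Crest.Agent.R257.Num488
open Crest.Agent.R257.Gen_812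

noncomputable section

namespace Crest.Agent.R257.Det_812

variable {n : ℕ}

/-- avoiding finitely many primes by constant combinations -/
theorem exists_avoid {m : ℕ} (y : Fin m → BB n) (S : Set (Ideal (BB n))) (hS : S.Finite)
    (h : ∀ P ∈ S, ∃ i, y i ∉ P) (T : Finset (Submodule ℂ (Fin m → ℂ))) (hT : ⊤ ∉ T) :
    ∃ w : Fin m → ℂ, (∀ P ∈ S, ∑ i, algebraMap ℂ (BB n) (w i) * y i ∉ P) ∧ ∀ W ∈ T, w ∉ W := by
  classical
  let L : (Fin m → ℂ) →ₗ[ℂ] BB n :=
    { toFun := fun w => ∑ i, algebraMap ℂ (BB n) (w i) * y i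
      map_add' := fun v w => by
        rw [← Finset.sum_add_distrib]
        exact Finset.sum_congr rfl fun i _ => by rw [Pi.add_apply, map_add, add_mul]
      map_smul' := fun c v => by
        rw [RingHom.id_apply, Finset.smul_sum]
        exact Finset.sum_congr rfl fun i _ => by
          rw [Pi.smul_apply, smul_eq_mul, map_mul, Algebra.smul_def, mul_assoc] }
  have hLi : ∀ i, L (Pi.single i 1) = y i := by
    intro i
    show ∑ j, algebraMap ℂ (BB n) ((Pi.single i 1 : Fin m → ℂ) j) * y j = _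
    rw [Finset.sum_eq_single i]
    · simp
    · intro j _ hj; simp [Pi.single_eq_of_ne hj]
    · intro h; exact absurd (Finset.mem_univ _) h
  set U : Finset (Submodule ℂ (Fin m → ℂ)) :=
    (hS.toFinset.image fun P => (P.restrictScalars ℂ).comap L) ∪ T with hU
  have h1 : ⊤ ∉ U := by
    rw [hU, Finset.mem_union]
    rintro (h2 | h2)
    · obtain ⟨P, hP, e⟩ := Finset.mem_image.1 h2
      rw [Set.Finite.mem_toFinset] at hP
      obtain ⟨i, hi⟩ := h P hP
      have h3 : Pi.single i 1 ∈ (P.restrictScalars ℂ).comap L := by rw [e]; trivial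
      rw [Submodule.mem_comap, hLi] at h3
      exact hi h3
    · exact hT h2
  obtain ⟨w, hw⟩ := (Set.ne_univ_iff_exists_notMem _).1
    (Subspace.biUnion_ne_univ_of_top_notMem h1)
  have h4 : ∀ W ∈ U, w ∉ W := by
    intro W hW hvW
    apply hw
    simp only [Set.mem_iUnion]
    exact ⟨W, hW, hvW⟩
  refine ⟨w, fun P hP hwP => ?_, fun W hW => h4 W (Finset.mem_union_right _ hW)⟩
  refine h4 ((P.restrictScalars ℂ).comap L) (Finset.mem_union_left _
    (Finset.mem_image.2 ⟨P, hS.mem_toFinset.2 hP, rfl⟩)) ?_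
  exact hwP

theorem height_max_le : (IsLocalRing.maximalIdeal (BB n)).height ≤ n := by
  have h1 : IsLocalRing.maximalIdeal (BB n) ∈ (Ideal.span (Set.range xB) : Ideal (BB n)).minimalPrimes := by
    rw [← max_eq]
    refine ⟨⟨inferInstance, le_rfl⟩, fun Q hQ _ => hQ.2⟩
  have h2 := Ideal.height_le_card_of_mem_minimalPrimes_span (Set.finite_range xB) h1
  refine h2.trans ?_
  have h3 : (Set.range (xB : Fin n → BB n)).ncard ≤ n := by
    rw [← Set.image_univ]
    refine (Set.ncard_image_le Set.finite_univ).trans ?_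
    rw [Set.ncard_univ, Nat.card_eq_fintype_card, Fintype.card_fin]
  exact_mod_cast h3

/-- four primes below the maximal ideal of `O_3` are impossible -/
theorem eq_max_of_chain {P Q U : Ideal (BB 3)} (hP : P.IsPrime) (hQ : Q.IsPrime) (hU : U.IsPrime)
    (h0 : P ≠ ⊥) (h1 : P < Q) (h2 : Q < U) : U = IsLocalRing.maximalIdeal (BB 3) := by
  by_contra hne
  have h3 : U < IsLocalRing.maximalIdeal (BB 3) :=
    lt_of_le_of_ne (IsLocalRing.le_maximalIdeal hU.ne_top) hne
  have i0 : (⊥ : Ideal (BB 3)).IsPrime := Ideal.isPrime_bot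
  have e0 := Ideal.height_add_one_le_of_lt_of_isPrime (bot_lt_iff_ne_bot.2 h0)
  have e1 := Ideal.height_add_one_le_of_lt_of_isPrime h1
  have e2 := Ideal.height_add_one_le_of_lt_of_isPrime h2
  have e3 := Ideal.height_add_one_le_of_lt_of_isPrime h3
  have e4 := e3.trans (height_max_le (n := 3))
  have e5 : (0 : ℕ∞) + 1 + 1 + 1 + 1 ≤ (3 : ℕ) := by
    refine le_trans ?_ e4
    gcongr
    refine le_trans ?_ e2
    gcongr
    refine le_trans ?_ e1
    gcongr
    refine le_trans ?_ e0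
    gcongr
    exact zero_le
  exact absurd e5 (by norm_num)

/-- two non-units never generate an ideal of finite colength in `O_3` -/
theorem not_fin_two {a b : BB 3} (ha : ¬ IsUnit a) (hb : ¬ IsUnit b) {I : Ideal (BB 3)}
    (hI : I ≤ Ideal.span {a, b}) : dl (BB 3 ⧸ I) = ⊤ := by
  by_contra h
  have h1 : dl (BB 3 ⧸ Ideal.span {a, b}) ≠ ⊤ := ne_top_of_le_ne_top h (dl_anti hI)
  have h2 : IsLocalRing.maximalIdeal (BB 3) ≤ (Ideal.span {a, b}).radical := by
    rw [Ideal.radical_eq_sInf]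
    refine le_sInf fun P hP => ?_
    rw [primes_of_fin h1 hP.2 hP.1]
  obtain ⟨k, hk⟩ := Ideal.exists_pow_le_of_le_radical_of_fg h2
    (IsNoetherian.noetherian (IsLocalRing.maximalIdeal (BB 3)))
  refine Cnm1_889.two_not_enough3 (k := k) ha hb fun y hy => ?_
  have h3 : y ^ k ∈ Ideal.span {a, b} :=
    hk (Ideal.pow_mem_pow ((IsLocalRing.mem_maximalIdeal _).2 hy) k)
  obtain ⟨s, t, e⟩ := Ideal.mem_span_pair.1 h3
  exact ⟨s, t, by rw [← e]; ring⟩

/-- generic combinations : `(F, ∑ w_i y_i, ∑ w'_i y_i)` has finite colength -/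
theorem exists_two {m : ℕ} {F : BB 3} (hF0 : F ≠ 0) (y : Fin m → BB 3)
    (hfin : dl (BB 3 ⧸ (Ideal.span {F} ⊔ Ideal.span (Set.range y))) ≠ ⊤)
    (T : Finset (Submodule ℂ (Fin m → ℂ))) (hT : ⊤ ∉ T)
    (T' : (Fin m → ℂ) → Finset (Submodule ℂ (Fin m → ℂ))) (hT' : ∀ w, ⊤ ∉ T' w) :
    ∃ w w' : Fin m → ℂ, (∀ W ∈ T, w ∉ W) ∧ (∀ W ∈ T' w, w' ∉ W) ∧
      ∀ Q : Ideal (BB 3), Q.IsPrime → F ∈ Q → ∑ i, algebraMap ℂ (BB 3) (w i) * y i ∈ Q →
        ∑ i, algebraMap ℂ (BB 3) (w' i) * y i ∈ Q → Q = IsLocalRing.maximalIdeal (BB 3) := by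
  have key : ∀ I : Ideal (BB 3), F ∈ I →
      ∀ P ∈ {P ∈ I.minimalPrimes | P ≠ IsLocalRing.maximalIdeal (BB 3)}, ∃ i, y i ∉ P := by
    intro I hI P hP
    by_contra hcon
    push Not at hcon
    apply hP.2
    refine primes_of_fin hfin hP.1.1.1 (sup_le ?_ ?_)
    · rw [Ideal.span_singleton_le_iff_mem]; exact hP.1.1.2 hI
    · rw [Ideal.span_le]; rintro _ ⟨i, rfl⟩; exact hcon i
  obtain ⟨w, hw1, hw2⟩ := exists_avoid y _
    ((Ideal.finite_minimalPrimes_of_isNoetherianRing _ (Ideal.span {F})).subset (Set.sep_subset _ _))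
    (key _ (Ideal.mem_span_singleton_self _)) T hT
  set A : BB 3 := ∑ i, algebraMap ℂ (BB 3) (w i) * y i with hA
  obtain ⟨w', hw1', hw2'⟩ := exists_avoid y _
    ((Ideal.finite_minimalPrimes_of_isNoetherianRing _ (Ideal.span {F, A})).subset
      (Set.sep_subset _ _))
    (key _ (Ideal.subset_span (by simp))) (T' w) (hT' w)
  refine ⟨w, w', hw2, hw2', fun Q hQ hFQ hAQ hA'Q => ?_⟩
  by_contra hne
  obtain ⟨P2, hP2, hP2Q⟩ := Ideal.exists_minimalPrimes_le (I := Ideal.span {F, A}) (J := Q) (by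
    rw [Ideal.span_le]
    intro z hz
    rcases hz with rfl | hz
    · exact hFQ
    · rw [Set.mem_singleton_iff] at hz; rw [hz]; exact hAQ)
  have hnm : ∀ P : Ideal (BB 3), P ≤ Q → P ≠ IsLocalRing.maximalIdeal (BB 3) := by
    rintro P hP rfl
    exact hne (le_antisymm (IsLocalRing.le_maximalIdeal hQ.ne_top) hP)
  have hFA : ∀ z ∈ Ideal.span {F, A}, z ∈ P2 := fun z hz => hP2.1.2 hz
  have hFP2 : F ∈ P2 := hFA _ (Ideal.subset_span (by simp))
  have hAP2 : A ∈ P2 := hFA _ (Ideal.subset_span (by simp))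
  have i2 := hP2.1.1
  obtain ⟨P1, hP1, hP1P2⟩ := Ideal.exists_minimalPrimes_le (I := Ideal.span {F}) (J := P2) (by
    rw [Ideal.span_singleton_le_iff_mem]; exact hFP2)
  have n1 := hw1 P1 ⟨hP1, hnm P1 (hP1P2.trans hP2Q)⟩
  have n2 := hw1' P2 ⟨hP2, hnm P2 hP2Q⟩
  have hP10 : P1 ≠ ⊥ := by
    rintro rfl
    have := hP1.1.2 (Ideal.mem_span_singleton_self F)
    exact hF0 (by simpa using this)
  have i1 := hP1.1.1
  exact hne (eq_max_of_chain i1 i2 hQ hP10 (lt_of_le_of_ne hP1P2 fun e => n1 (e ▸ hAP2))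
    (lt_of_le_of_ne hP2Q fun e => n2 (e ▸ hA'Q)))

/-- the span of one vector -/
lemma span_ne_top (w : Fin 3 → ℂ) : Submodule.span ℂ {w} ≠ ⊤ := by
  intro h
  have h1 : Module.finrank ℂ (Submodule.span ℂ {w}) ≤ 1 := by
    refine (finrank_span_le_card ({w} : Set (Fin 3 → ℂ))).trans ?_
    simp
  rw [h, finrank_top, Module.finrank_fin_fun] at h1
  omega

lemma exists_minor {w w' : Fin 3 → ℂ} (h0 : w ≠ 0) (h : w' ∉ Submodule.span ℂ {w}) :
    ∃ i j, w i * w' j - w j * w' i ≠ 0 := by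
  obtain ⟨i, hi⟩ : ∃ i, w i ≠ 0 := by
    by_contra hcon
    push Not at hcon
    exact h0 (funext hcon)
  refine ⟨i, ?_⟩
  by_contra hcon
  push Not at hcon
  apply h
  rw [Submodule.mem_span_singleton]
  refine ⟨w' i / w i, ?_⟩
  funext j
  have := hcon j
  rw [Pi.smul_apply, smul_eq_mul]
  field_simp
  linear_combination -this

/-- **a generic linear form `h` : `(f, ∇f × ∇h)` has finite colength** -/
theorem gen_lin {f : E3 → ℂ} (hf : AnalyticAt ℂ f 0) (hfin : ColFin (par f)) :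
    ∃ v : Fin 3 → ℂ, ColFin (mnr f fun x => ∑ i, v i * x i) := by
  classical
  have hpar : ∀ i, AnalyticAt ℂ (par f i) 0 := fun i => an_gr hf i
  have h1 := (colFin_iff_dl hpar).1 hfin
  set y : Fin 3 → BB 3 := fun i => gm (par f i) (hpar i) with hy
  have hF0 : (gm f hf : BB 3) ≠ 0 := by
    intro h0
    rw [gm_eq_zero] at h0
    have h2 : ∀ i, y i = 0 := by
      intro i
      rw [hy, gm_eq_zero]
      have h3 := h0.eventually_nhds
      filter_upwards [h3] with x hx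
      show fderiv ℂ f x (Pi.single i 1) = 0
      rw [Filter.EventuallyEq.fderiv_eq (f₁ := f) (f := fun _ => 0) hx]
      simp
    have h4 := primes_of_fin h1 (P := ⊥) Ideal.isPrime_bot (by
      rw [Ideal.span_le]
      rintro _ ⟨i, rfl⟩
      exact h2 i)
    have h5 : (xB 0 : BB 3) ∈ (⊥ : Ideal (BB 3)) := by
      rw [h4, max_eq]; exact Ideal.subset_span ⟨0, rfl⟩
    exact Num488.xB_ne_zero (0 : Fin 3) (by simpa using h5)
  obtain ⟨w, w', hw, hw', hQ⟩ := exists_two hF0 y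
    (ne_top_of_le_ne_top h1 (dl_anti le_sup_right)) {⊥}
    (by
      rw [Finset.mem_singleton]
      exact top_ne_bot) (fun w => {Submodule.span ℂ {w}})
    (fun w => by rw [Finset.mem_singleton]; exact fun h => span_ne_top w h.symm)
  have hw0 : w ≠ 0 := by
    intro h
    exact hw ⊥ (Finset.mem_singleton_self _) (by rw [h]; exact Submodule.zero_mem _)
  obtain ⟨i, j, hD⟩ := exists_minor hw0 (hw' _ (Finset.mem_singleton_self _))
  set v : Fin 3 → ℂ := ![w 1 * w' 2 - w 2 * w' 1, w 2 * w' 0 - w 0 * w' 2,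
    w 0 * w' 1 - w 1 * w' 0] with hv
  refine ⟨v, ?_⟩
  have ha : AnalyticAt ℂ (fun x : E3 => ∑ i, v i * x i) 0 :=
    Finset.analyticAt_fun_sum _ fun i _ => analyticAt_const.mul (an_coord i 0)
  rw [colFin_iff_dl (fun i => an_mnr hf ha i), fin_iff]
  intro Q hQp hQle
  set A : BB 3 := ∑ i, algebraMap ℂ (BB 3) (w i) * y i with hA
  set A' : BB 3 := ∑ i, algebraMap ℂ (BB 3) (w' i) * y i with hA'
  have hmem : ∀ k : Fin 4, (gm (mnr f (fun x : E3 => ∑ i, v i * x i) k) (an_mnr hf ha k) : BB 3) ∈ Q :=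
    fun k => hQle (Ideal.subset_span ⟨k, rfl⟩)
  have hgr : ∀ x i, gr (fun x : E3 => ∑ i, v i * x i) x i = v i := fun x i => coordDeriv_lin v i x
  -- the minors
  have hm : ∀ k : Fin 3, algebraMap ℂ (BB 3) (w k) * A' - algebraMap ℂ (BB 3) (w' k) * A ∈ Q := by
    have hAA : ∀ w : Fin 3 → ℂ, ∑ i, algebraMap ℂ (BB 3) (w i) * y i =
        (gm (fun x => w 0 * gr f x 0 + w 1 * gr f x 1 + w 2 * gr f x 2)
          (((analyticAt_const.mul (an_gr hf 0)).add (analyticAt_const.mul (an_gr hf 1))).add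
            (analyticAt_const.mul (an_gr hf 2))) : BB 3) := by
      intro w
      rw [Fin.sum_univ_three]
      simp only [Crest.Agent.R275.Loc2879.algebraMap_apply, hy, gm_mul, gm_add, gm_eq_gm]
      exact Eventually.of_forall fun x => rfl
    have e : ∀ k : Fin 3, algebraMap ℂ (BB 3) (w k) * A' - algebraMap ℂ (BB 3) (w' k) * A =
        gm (mnr f (fun x : E3 => ∑ i, v i * x i) k.succ) (an_mnr hf ha k.succ) := by
      intro k
      rw [hA, hA', hAA, hAA]
      simp only [Crest.Agent.R275.Loc2879.algebraMap_apply, gm_mul, gm_sub, gm_eq_gm]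
      refine Eventually.of_forall fun x => ?_
      have m1 : mnr f (fun x : E3 => ∑ i, v i * x i) 1 x = gr f x 1 * v 2 - gr f x 2 * v 1 := by
        rw [← hgr x 2, ← hgr x 1]; rfl
      have m2 : mnr f (fun x : E3 => ∑ i, v i * x i) 2 x = gr f x 2 * v 0 - gr f x 0 * v 2 := by
        rw [← hgr x 2, ← hgr x 0]; rfl
      have m3 : mnr f (fun x : E3 => ∑ i, v i * x i) 3 x = gr f x 0 * v 1 - gr f x 1 * v 0 := by
        rw [← hgr x 0, ← hgr x 1]; rfl
      have v0 : v 0 = w 1 * w' 2 - w 2 * w' 1 := rfl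
      have v1 : v 1 = w 2 * w' 0 - w 0 * w' 2 := rfl
      have v2 : v 2 = w 0 * w' 1 - w 1 * w' 0 := rfl
      fin_cases k
      · show w 0 * _ - w' 0 * _ = mnr f (fun x : E3 => ∑ i, v i * x i) 1 x
        rw [m1, v2, v1]; ring
      · show w 1 * _ - w' 1 * _ = mnr f (fun x : E3 => ∑ i, v i * x i) 2 x
        rw [m2, v0, v2]; ring
      · show w 2 * _ - w' 2 * _ = mnr f (fun x : E3 => ∑ i, v i * x i) 3 x
        rw [m3, v0, v1]; ring
    intro k
    rw [e k]
    exact hmem _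
  have hDu : ∀ z : BB 3, algebraMap ℂ (BB 3) (w i * w' j - w j * w' i) * z ∈ Q → z ∈ Q := by
    intro z hz
    have hu : IsUnit (algebraMap ℂ (BB 3) (w i * w' j - w j * w' i)) :=
      (IsUnit.mk0 _ hD).map (algebraMap ℂ (BB 3))
    obtain ⟨u, hu⟩ := hu
    rw [← hu] at hz
    have := Ideal.mul_mem_left Q ((u⁻¹ : (BB 3)ˣ) : BB 3) hz
    rwa [← mul_assoc, Units.inv_mul, one_mul] at this
  refine hQ Q hQp (hmem 0) (hDu _ ?_) (hDu _ ?_)
  · have e : algebraMap ℂ (BB 3) (w i * w' j - w j * w' i) * A =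
        algebraMap ℂ (BB 3) (w j) * (algebraMap ℂ (BB 3) (w i) * A' - algebraMap ℂ (BB 3) (w' i) * A)
        - algebraMap ℂ (BB 3) (w i) *
          (algebraMap ℂ (BB 3) (w j) * A' - algebraMap ℂ (BB 3) (w' j) * A) := by
      rw [map_sub, map_mul, map_mul]; ring
    rw [e]
    exact Ideal.sub_mem _ (Ideal.mul_mem_left _ _ (hm i)) (Ideal.mul_mem_left _ _ (hm j))
  · have e : algebraMap ℂ (BB 3) (w i * w' j - w j * w' i) * A' =
        algebraMap ℂ (BB 3) (w' j) * (algebraMap ℂ (BB 3) (w i) * A' - algebraMap ℂ (BB 3) (w' i) * A)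
        - algebraMap ℂ (BB 3) (w' i) *
          (algebraMap ℂ (BB 3) (w j) * A' - algebraMap ℂ (BB 3) (w' j) * A) := by
      rw [map_sub, map_mul, map_mul]; ring
    rw [e]
    exact Ideal.sub_mem _ (Ideal.mul_mem_left _ _ (hm i)) (Ideal.mul_mem_left _ _ (hm j))

end Crest.Agent.R257.Det_812
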