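import Crest.Agent.R273.SchA_152

/-!
# R257 (S0395), E-LOC (helper611), part A: calculus of locally uniformly bounded families

* `UH a U F`   : the family `F i : X → V` is locally uniformly bounded in `C^a` on `U`
* `UC a U k F` : smooth functions, locally uniformly bounded in `C^{k,a}`
* `UB k U F`   : locally uniformly bounded `iteratedFDeriv` up to order `k`
-/

set_option autoImplicit false

open Set Metric Filter
open scoped ContDiff Topology

namespace Crest.Agent.R257.ELoc_611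

open Crest.Agent.R273.SchA_152

/-- locally uniformly bounded in `C^a` -/
def UH {ι X V : Type*} [NormedAddCommGroup X] [NormedAddCommGroup V] (a : ℝ) (U : Set X)
    (F : ι → X → V) : Prop :=
  ∀ x ∈ U, ∃ r > 0, ∃ C : ℝ, 0 ≤ C ∧ ∀ i, HO a C (ball x r) (F i)

/-- locally uniformly bounded in `C^k` -/
def UB {ι X V : Type*} [NormedAddCommGroup X] [NormedSpace ℝ X] [NormedAddCommGroup V]
    [NormedSpace ℝ V] (k : ℕ) (U : Set X) (F : ι → X → V) : Prop :=
  ∀ x ∈ U, ∃ r > 0, ∃ C : ℝ, ∀ i, ∀ y ∈ ball x r, ∀ m ≤ k, ‖iteratedFDeriv ℝ m (F i) y‖ ≤ C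

section uh

variable {ι X V W Z : Type*} [NormedAddCommGroup X]
  [NormedAddCommGroup V] [NormedAddCommGroup W] [NormedAddCommGroup Z] {a : ℝ} {U U' : Set X}
  {F G : ι → X → V}

theorem UH.subset (h : UH a U F) (hU : U' ⊆ U) : UH a U' F := fun x hx => h x (hU hx)

theorem UH.congr (hU : IsOpen U) (h : UH a U F) (he : ∀ i, ∀ x ∈ U, G i x = F i x) :
    UH a U G := by
  intro x hx
  obtain ⟨r, hr, C, hC, H⟩ := h x hx
  obtain ⟨s, hs, hsU⟩ := Metric.isOpen_iff.1 hU x hx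
  refine ⟨min r s, lt_min hr hs, C, hC, fun i => ?_⟩
  exact ((H i).subset (ball_subset_ball (min_le_left _ _))).congr fun y hy =>
    he i y (hsU (ball_subset_ball (min_le_right _ _) hy))

theorem UH.add (h : UH a U F) (h' : UH a U G) : UH a U (fun i x => F i x + G i x) := by
  intro x hx
  obtain ⟨r, hr, C, hC, H⟩ := h x hx
  obtain ⟨s, hs, D, hD, H'⟩ := h' x hx
  exact ⟨min r s, lt_min hr hs, C + D, by positivity, fun i =>
    ((H i).subset (ball_subset_ball (min_le_left _ _))).add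
      ((H' i).subset (ball_subset_ball (min_le_right _ _)))⟩

theorem UH.const (c : V) : UH a U (fun (_ : ι) (_ : X) => c) := by
  intro x _
  refine ⟨1, one_pos, ‖c‖, norm_nonneg _, fun i => ⟨fun _ _ => le_rfl, fun y _ z _ => ?_⟩⟩
  rw [sub_self, norm_zero]
  exact mul_nonneg (norm_nonneg _) (Real.rpow_nonneg (norm_nonneg _) _)

/-- composition with a map which is Lipschitz on the relevant set -/
theorem UH.comp_lip {φ : V → W} (h : UH a U F)
    (hφ : ∀ x ∈ U, ∃ r > 0, ∃ C : ℝ, 0 ≤ C ∧ (∀ i, ∀ y ∈ ball x r, ‖φ (F i y)‖ ≤ C) ∧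
      ∀ i, ∀ y ∈ ball x r, ∀ z ∈ ball x r, ‖φ (F i y) - φ (F i z)‖ ≤ C * ‖F i y - F i z‖) :
    UH a U (fun i x => φ (F i x)) := by
  intro x hx
  obtain ⟨r, hr, C, hC, H⟩ := h x hx
  obtain ⟨s, hs, D, hD, H1, H2⟩ := hφ x hx
  refine ⟨min r s, lt_min hr hs, D + D * C, by positivity, fun i => ⟨fun y hy => ?_,
    fun y hy z hz => ?_⟩⟩
  · have := H1 i y (ball_subset_ball (min_le_right _ _) hy)
    have : 0 ≤ D * C := by positivity
    linarith
  · have h1 := H2 i y (ball_subset_ball (min_le_right _ _) hy) z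
      (ball_subset_ball (min_le_right _ _) hz)
    have h2 := (H i).hol y (ball_subset_ball (min_le_left _ _) hy) z
      (ball_subset_ball (min_le_left _ _) hz)
    have h3 : 0 ≤ ‖y - z‖ ^ a := Real.rpow_nonneg (norm_nonneg _) _
    calc _ ≤ D * ‖F i y - F i z‖ := h1
      _ ≤ D * (C * ‖y - z‖ ^ a) := mul_le_mul_of_nonneg_left h2 hD
      _ ≤ (D + D * C) * ‖y - z‖ ^ a := by nlinarith [mul_nonneg hD h3]

end uh

section uhl

variable {ι X V W Z : Type*} [NormedAddCommGroup X]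
  [NormedAddCommGroup V] [NormedSpace ℝ V] [NormedAddCommGroup W] [NormedSpace ℝ W]
  [NormedAddCommGroup Z] [NormedSpace ℝ Z] {a : ℝ} {U : Set X}

theorem UH.clm (L : V →L[ℝ] W) {F : ι → X → V} (h : UH a U F) :
    UH a U (fun i x => L (F i x)) := by
  intro x hx
  obtain ⟨r, hr, C, hC, H⟩ := h x hx
  refine ⟨r, hr, ‖L‖ * C, by positivity, fun i => ⟨fun y hy => ?_, fun y hy z hz => ?_⟩⟩
  · exact (L.le_opNorm _).trans (mul_le_mul_of_nonneg_left ((H i).bdd y hy) (norm_nonneg _))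
  · rw [← map_sub, mul_assoc]
    exact (L.le_opNorm _).trans (mul_le_mul_of_nonneg_left ((H i).hol y hy z hz) (norm_nonneg _))

theorem UH.bil (B : V →L[ℝ] W →L[ℝ] Z) {F : ι → X → V} {G : ι → X → W} (h : UH a U F)
    (h' : UH a U G) : UH a U (fun i x => B (F i x) (G i x)) := by
  intro x hx
  obtain ⟨r, hr, C, hC, H⟩ := h x hx
  obtain ⟨s, hs, D, hD, H'⟩ := h' x hx
  have hb : ∀ v w, ‖B v w‖ ≤ ‖B‖ * ‖v‖ * ‖w‖ := fun v w => B.le_opNorm₂ v w
  refine ⟨min r s, lt_min hr hs, 2 * (‖B‖ * C * D), by positivity,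
    fun i => ⟨fun y hy => ?_, fun y hy z hz => ?_⟩⟩
  · have h1 := (H i).bdd y (ball_subset_ball (min_le_left _ _) hy)
    have h2 := (H' i).bdd y (ball_subset_ball (min_le_right _ _) hy)
    calc _ ≤ ‖B‖ * ‖F i y‖ * ‖G i y‖ := hb _ _
      _ ≤ ‖B‖ * C * D := by gcongr
      _ ≤ 2 * (‖B‖ * C * D) := by
        have : 0 ≤ ‖B‖ * C * D := by positivity
        linarith
  · have h1 := (H i).bdd z (ball_subset_ball (min_le_left _ _) hz)
    have h2 := (H' i).bdd y (ball_subset_ball (min_le_right _ _) hy)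
    have h3 := (H i).hol y (ball_subset_ball (min_le_left _ _) hy) z
      (ball_subset_ball (min_le_left _ _) hz)
    have h4 := (H' i).hol y (ball_subset_ball (min_le_right _ _) hy) z
      (ball_subset_ball (min_le_right _ _) hz)
    have h5 : 0 ≤ ‖y - z‖ ^ a := Real.rpow_nonneg (norm_nonneg _) _
    have e : B (F i y) (G i y) - B (F i z) (G i z) =
        B (F i y - F i z) (G i y) + B (F i z) (G i y - G i z) := by
      simp only [map_sub, sub_apply]
      abel
    rw [e]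
    calc _ ≤ ‖B‖ * ‖F i y - F i z‖ * ‖G i y‖ + ‖B‖ * ‖F i z‖ * ‖G i y - G i z‖ :=
          (norm_add_le _ _).trans (add_le_add (hb _ _) (hb _ _))
      _ ≤ ‖B‖ * (C * ‖y - z‖ ^ a) * D + ‖B‖ * C * (D * ‖y - z‖ ^ a) := by gcongr
      _ = 2 * (‖B‖ * C * D) * ‖y - z‖ ^ a := by ring

end uhl

section lip

variable {ι X V : Type*} [NormedAddCommGroup X] [NormedSpace ℝ X]
  [NormedAddCommGroup V] [NormedSpace ℝ V] {a : ℝ} {U : Set X}

/-- on sets of diameter at most one a Lipschitz bound is a Hölder bound -/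
theorem le_rpow {t : ℝ} (ha : a ≤ 1) (h0 : 0 ≤ t) (h1 : t ≤ 1) : t ≤ t ^ a := by
  rcases h0.eq_or_lt with h | h
  · rw [← h]; exact Real.rpow_nonneg le_rfl _
  · calc t = t ^ (1 : ℝ) := (Real.rpow_one t).symm
      _ ≤ t ^ a := Real.rpow_le_rpow_of_exponent_ge h h1 ha

/-- locally uniform `C^1` bounds give locally uniform `C^a` bounds -/
theorem UH.of_c1 (ha : a ≤ 1) (hU : IsOpen U) {F : ι → X → V}
    (hd : ∀ i, ∀ x ∈ U, DifferentiableAt ℝ (F i) x)
    (h : ∀ x ∈ U, ∃ r > 0, ∃ C : ℝ, ∀ i, ∀ y ∈ ball x r, ‖F i y‖ ≤ C ∧ ‖fderiv ℝ (F i) y‖ ≤ C) :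
    UH a U F := by
  intro x hx
  obtain ⟨r, hr, C, H⟩ := h x hx
  obtain ⟨s, hs, hsU⟩ := Metric.isOpen_iff.1 hU x hx
  set t := min (min r s) (1 / 2) with ht
  have ht0 : 0 < t := lt_min (lt_min hr hs) (by norm_num)
  have hr' : ball x t ⊆ ball x r := ball_subset_ball ((min_le_left _ _).trans (min_le_left _ _))
  have hs' : ball x t ⊆ U :=
    (ball_subset_ball ((min_le_left _ _).trans (min_le_right _ _))).trans hsU
  refine ⟨t, ht0, |C|, abs_nonneg _, fun i => ⟨fun y hy =>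
    ((H i y (hr' hy)).1).trans (le_abs_self _), fun y hy z hz => ?_⟩⟩
  have h1 : ‖F i y - F i z‖ ≤ |C| * ‖y - z‖ :=
    (convex_ball x t).norm_image_sub_le_of_norm_fderiv_le (fun w hw => hd i w (hs' hw))
      (fun w hw => ((H i w (hr' hw)).2).trans (le_abs_self _)) hz hy
  refine h1.trans (mul_le_mul_of_nonneg_left (le_rpow ha (norm_nonneg _) ?_) (abs_nonneg _))
  rw [mem_ball] at hy hz
  have h2 := dist_triangle_right y z x
  rw [dist_eq_norm y z] at h2
  have : t ≤ 1 / 2 := min_le_right _ _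
  linarith

end lip

section uc

variable {ι : Type*} {X : Type} [NormedAddCommGroup X] [NormedSpace ℝ X]

/-- smooth functions, locally uniformly bounded in `C^{k,a}` -/
def UC (a : ℝ) (U : Set X) : ℕ → ∀ {V : Type} [NormedAddCommGroup V] [NormedSpace ℝ V],
    (ι → X → V) → Prop
  | 0, _, _, _, F => (∀ i, ContDiffOn ℝ ∞ (F i) U) ∧ UH a U F
  | k + 1, _, _, _, F => (∀ i, ContDiffOn ℝ ∞ (F i) U) ∧ UH a U F ∧
      UC a U k (fun i => fderiv ℝ (F i))

variable {a : ℝ} {U : Set X}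

theorem UC.smooth : ∀ {k : ℕ} {V : Type} [NormedAddCommGroup V] [NormedSpace ℝ V]
    {F : ι → X → V}, UC a U k F → ∀ i, ContDiffOn ℝ ∞ (F i) U
  | 0, _, _, _, _, h => h.1
  | _ + 1, _, _, _, _, h => h.1

theorem UC.uh : ∀ {k : ℕ} {V : Type} [NormedAddCommGroup V] [NormedSpace ℝ V]
    {F : ι → X → V}, UC a U k F → UH a U F
  | 0, _, _, _, _, h => h.2
  | _ + 1, _, _, _, _, h => h.2.1

theorem UC.fd {k : ℕ} {V : Type} [NormedAddCommGroup V] [NormedSpace ℝ V]
    {F : ι → X → V} (h : UC a U (k + 1) F) : UC a U k (fun i => fderiv ℝ (F i)) := h.2.2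

theorem UC.zero {V : Type} [NormedAddCommGroup V] [NormedSpace ℝ V]
    {F : ι → X → V} (h1 : ∀ i, ContDiffOn ℝ ∞ (F i) U) (h2 : UH a U F) : UC a U 0 F := ⟨h1, h2⟩

theorem UC.succ {k : ℕ} {V : Type} [NormedAddCommGroup V] [NormedSpace ℝ V]
    {F : ι → X → V} (h1 : ∀ i, ContDiffOn ℝ ∞ (F i) U) (h2 : UH a U F)
    (h3 : UC a U k (fun i => fderiv ℝ (F i))) : UC a U (k + 1) F := ⟨h1, h2, h3⟩

theorem UC.of_succ : ∀ {k : ℕ} {V : Type} [NormedAddCommGroup V] [NormedSpace ℝ V]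
    {F : ι → X → V}, UC a U (k + 1) F → UC a U k F
  | 0, _, _, _, _, h => ⟨h.1, h.2.1⟩
  | _ + 1, _, _, _, _, h => ⟨h.1, h.2.1, UC.of_succ h.2.2⟩

theorem UC.of_le {k l : ℕ} (hlk : l ≤ k) {V : Type} [NormedAddCommGroup V] [NormedSpace ℝ V]
    {F : ι → X → V} (h : UC a U k F) : UC a U l F := by
  induction k with
  | zero =>
    obtain rfl : l = 0 := Nat.le_zero.1 hlk
    exact h
  | succ k ih =>
    rcases Nat.lt_or_ge k l with h1 | h1
    · obtain rfl : l = k + 1 := le_antisymm hlk h1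
      exact h
    · exact ih h1 h.of_succ

theorem UC.congr (hU : IsOpen U) : ∀ {k : ℕ} {V : Type} [NormedAddCommGroup V] [NormedSpace ℝ V]
    {F G : ι → X → V}, UC a U k F → (∀ i, ∀ x ∈ U, G i x = F i x) → UC a U k G
  | 0, _, _, _, _, _, h, he => ⟨fun i => (h.1 i).congr (he i), h.2.congr hU he⟩
  | k + 1, _, _, _, F, G, h, he => by
    refine ⟨fun i => (h.1 i).congr (he i), h.2.1.congr hU he, UC.congr hU h.2.2 fun i x hx => ?_⟩
    exact Filter.EventuallyEq.fderiv_eq (Filter.eventually_of_mem (hU.mem_nhds hx) (he i))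

theorem UC.subset {U' : Set X} (hU : U' ⊆ U) : ∀ {k : ℕ} {V : Type} [NormedAddCommGroup V]
    [NormedSpace ℝ V] {F : ι → X → V}, UC a U k F → UC a U' k F
  | 0, _, _, _, _, h => ⟨fun i => (h.1 i).mono hU, h.2.subset hU⟩
  | _ + 1, _, _, _, _, h => ⟨fun i => (h.1 i).mono hU, h.2.1.subset hU, UC.subset hU h.2.2⟩

theorem diffAt_of_smooth (hU : IsOpen U) {V : Type*} [NormedAddCommGroup V] [NormedSpace ℝ V]
    {f : X → V} (hf : ContDiffOn ℝ ∞ f U) {x : X} (hx : x ∈ U) : DifferentiableAt ℝ f x :=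
  (hf.contDiffAt (hU.mem_nhds hx)).differentiableAt (by simp)

theorem smooth_fderiv (hU : IsOpen U) {V : Type*} [NormedAddCommGroup V] [NormedSpace ℝ V]
    {f : X → V} (hf : ContDiffOn ℝ ∞ f U) : ContDiffOn ℝ ∞ (fderiv ℝ f) U :=
  hf.fderiv_of_isOpen hU (by simp)

theorem UC.clm (hU : IsOpen U) : ∀ {k : ℕ} {V W : Type} [NormedAddCommGroup V] [NormedSpace ℝ V]
    [NormedAddCommGroup W] [NormedSpace ℝ W] (L : V →L[ℝ] W) {F : ι → X → V},
    UC a U k F → UC a U k (fun i x => L (F i x))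
  | 0, _, _, _, _, _, _, L, _, h => ⟨fun i => L.contDiff.comp_contDiffOn (h.1 i), h.2.clm L⟩
  | k + 1, V, W, _, _, _, _, L, F, h => by
    refine ⟨fun i => L.contDiff.comp_contDiffOn (h.1 i), h.2.1.clm L, ?_⟩
    refine UC.congr hU (UC.clm hU (ContinuousLinearMap.compL ℝ X V W L) h.2.2) fun i x hx => ?_
    exact ((L.hasFDerivAt (x := F i x)).comp x (diffAt_of_smooth hU (h.1 i) hx).hasFDerivAt).fderiv

theorem UC.add (hU : IsOpen U) : ∀ {k : ℕ} {V : Type} [NormedAddCommGroup V] [NormedSpace ℝ V]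
    {F G : ι → X → V}, UC a U k F → UC a U k G → UC a U k (fun i x => F i x + G i x)
  | 0, _, _, _, _, _, h, h' => ⟨fun i => (h.1 i).add (h'.1 i), h.2.add h'.2⟩
  | k + 1, _, _, _, F, G, h, h' => by
    refine ⟨fun i => (h.1 i).add (h'.1 i), h.2.1.add h'.2.1, ?_⟩
    refine UC.congr hU (UC.add hU h.2.2 h'.2.2) fun i x hx => ?_
    exact fderiv_fun_add (diffAt_of_smooth hU (h.1 i) hx) (diffAt_of_smooth hU (h'.1 i) hx)

theorem UC.const : ∀ {k : ℕ} {V : Type} [NormedAddCommGroup V] [NormedSpace ℝ V]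
    (c : V), UC a U k (fun (_ : ι) (_ : X) => c)
  | 0, _, _, _, c => ⟨fun _ => contDiffOn_const, UH.const c⟩
  | k + 1, V, _, _, c => by
    refine ⟨fun _ => contDiffOn_const, UH.const c, ?_⟩
    have : (fun (_ : ι) => fderiv ℝ (fun _ : X => c)) = fun _ _ => (0 : X →L[ℝ] V) := by
      funext i x
      simp
    rw [this]
    exact UC.const 0

theorem UC.bil (hU : IsOpen U) : ∀ {k : ℕ} {V W Z : Type} [NormedAddCommGroup V] [NormedSpace ℝ V]
    [NormedAddCommGroup W] [NormedSpace ℝ W] [NormedAddCommGroup Z] [NormedSpace ℝ Z]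
    (B : V →L[ℝ] W →L[ℝ] Z) {F : ι → X → V} {G : ι → X → W},
    UC a U k F → UC a U k G → UC a U k (fun i x => B (F i x) (G i x))
  | 0, _, _, _, _, _, _, _, _, _, B, _, _, h, h' =>
    ⟨fun i => B.isBoundedBilinearMap.contDiff.comp_contDiffOn ((h.1 i).prodMk (h'.1 i)),
      h.2.bil B h'.2⟩
  | k + 1, V, W, Z, _, _, _, _, _, _, B, F, G, h, h' => by
    refine ⟨fun i => B.isBoundedBilinearMap.contDiff.comp_contDiffOn ((h.1 i).prodMk (h'.1 i)),
      h.2.1.bil B h'.2.1, ?_⟩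
    have h1 := UC.bil hU (B.precompR X) h.of_succ h'.2.2
    have h2 := UC.bil hU (B.precompL X) h.2.2 h'.of_succ
    refine UC.congr hU (UC.add hU h1 h2) fun i x hx => ?_
    exact (B.hasFDerivAt_of_bilinear (diffAt_of_smooth hU (h.1 i) hx).hasFDerivAt
      (diffAt_of_smooth hU (h'.1 i) hx).hasFDerivAt).fderiv

/-! ### functions with values in `ℝ` and `ℂ` -/

theorem UC.exp (hU : IsOpen U) : ∀ {k : ℕ} {F : ι → X → ℝ}, UC a U k F →
    UC a U k (fun i x => Real.exp (F i x)) := by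
  have key : ∀ {F : ι → X → ℝ}, UH a U F → UH a U (fun i x => Real.exp (F i x)) := by
    intro F h
    refine h.comp_lip fun x hx => ?_
    obtain ⟨r, hr, C, hC, H⟩ := h x hx
    refine ⟨r, hr, Real.exp C, (Real.exp_pos _).le, fun i y hy => ?_, fun i y hy z hz => ?_⟩
    · rw [Real.norm_of_nonneg (Real.exp_pos _).le]
      exact Real.exp_le_exp.2 ((le_abs_self _).trans ((H i).bdd y hy))
    · refine (convex_Icc (-C) C).norm_image_sub_le_of_norm_deriv_le
        (fun t _ => Real.differentiableAt_exp) (fun t ht => ?_)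
        (abs_le.1 ((H i).bdd z hz)) (abs_le.1 ((H i).bdd y hy))
      rw [Real.deriv_exp, Real.norm_of_nonneg (Real.exp_pos _).le]
      exact Real.exp_le_exp.2 ht.2
  intro k
  induction k with
  | zero => exact fun h => ⟨fun i => Real.contDiff_exp.comp_contDiffOn (h.1 i), key h.2⟩
  | succ k ih =>
    intro F h
    refine ⟨fun i => Real.contDiff_exp.comp_contDiffOn (h.1 i), key h.2.1, ?_⟩
    refine UC.congr hU (UC.bil hU (ContinuousLinearMap.lsmul ℝ ℝ) (ih h.of_succ) h.2.2)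
      fun i x hx => ?_
    exact ((diffAt_of_smooth hU (h.1 i) hx).hasFDerivAt.exp).fderiv

theorem UC.mulC (hU : IsOpen U) {k : ℕ} {F G : ι → X → ℂ} (h : UC a U k F) (h' : UC a U k G) :
    UC a U k (fun i x => F i x * G i x) :=
  UC.bil hU (ContinuousLinearMap.mul ℝ ℂ) h h'

theorem UC.mulR (hU : IsOpen U) {k : ℕ} {F G : ι → X → ℝ} (h : UC a U k F) (h' : UC a U k G) :
    UC a U k (fun i x => F i x * G i x) :=
  UC.bil hU (ContinuousLinearMap.mul ℝ ℝ) h h'

theorem UC.ofReal (hU : IsOpen U) {k : ℕ} {F : ι → X → ℝ} (h : UC a U k F) :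
    UC a U k (fun i x => (F i x : ℂ)) :=
  UC.clm hU Complex.ofRealCLM h

theorem UC.re (hU : IsOpen U) {k : ℕ} {F : ι → X → ℂ} (h : UC a U k F) :
    UC a U k (fun i x => (F i x).re) :=
  UC.clm hU Complex.reCLM h

theorem UC.neg (hU : IsOpen U) {k : ℕ} {V : Type} [NormedAddCommGroup V] [NormedSpace ℝ V]
    {F : ι → X → V} (h : UC a U k F) : UC a U k (fun i x => - F i x) := by
  refine UC.congr hU (UC.clm hU (-ContinuousLinearMap.id ℝ V) h) fun i x _ => ?_
  simp

theorem UC.sub (hU : IsOpen U) {k : ℕ} {V : Type} [NormedAddCommGroup V] [NormedSpace ℝ V]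
    {F G : ι → X → V} (h : UC a U k F) (h' : UC a U k G) :
    UC a U k (fun i x => F i x - G i x) := by
  refine UC.congr hU (UC.add hU h (UC.neg hU h')) fun i x _ => ?_
  rw [sub_eq_add_neg]

theorem UC.sum (hU : IsOpen U) {k : ℕ} {V : Type} [NormedAddCommGroup V] [NormedSpace ℝ V]
    {κ : Type*} (s : Finset κ) {F : κ → ι → X → V} (h : ∀ j ∈ s, UC a U k (F j)) :
    UC a U k (fun i x => ∑ j ∈ s, F j i x) := by
  classical
  induction s using Finset.induction_on with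
  | empty => simpa using UC.const (a := a) (U := U) (ι := ι) (k := k) (0 : V)
  | insert j s hj ih =>
    simp only [Finset.sum_insert hj]
    exact UC.add hU (h j (Finset.mem_insert_self j s)) (ih fun l hl =>
      h l (Finset.mem_insert_of_mem hl))

theorem UC.prod (hU : IsOpen U) {k : ℕ} {κ : Type*} (s : Finset κ) {F : κ → ι → X → ℂ}
    (h : ∀ j ∈ s, UC a U k (F j)) : UC a U k (fun i x => ∏ j ∈ s, F j i x) := by
  classical
  induction s using Finset.induction_on with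
  | empty => simpa using UC.const (a := a) (U := U) (ι := ι) (k := k) (1 : ℂ)
  | insert j s hj ih =>
    simp only [Finset.prod_insert hj]
    exact UC.mulC hU (h j (Finset.mem_insert_self j s)) (ih fun l hl =>
      h l (Finset.mem_insert_of_mem hl))

theorem UC.det (hU : IsOpen U) {k n : ℕ} {M : ι → X → Matrix (Fin n) (Fin n) ℂ}
    (h : ∀ p q, UC a U k (fun i x => M i x p q)) : UC a U k (fun i x => (M i x).det) := by
  simp only [Matrix.det_apply, Units.smul_def]
  refine UC.sum hU _ fun σ _ => ?_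
  refine UC.congr hU (UC.mulC hU (UC.const ((Equiv.Perm.sign σ : ℤ) : ℂ))
    (UC.prod hU Finset.univ fun j _ => h (σ j) j)) fun i x _ => ?_
  simp

theorem UC.adj (hU : IsOpen U) {k n : ℕ} {M : ι → X → Matrix (Fin n) (Fin n) ℂ}
    (h : ∀ p q, UC a U k (fun i x => M i x p q)) (p q : Fin n) :
    UC a U k (fun i x => (M i x).adjugate p q) := by
  simp only [Matrix.adjugate_apply]
  refine UC.det hU fun p' q' => ?_
  by_cases hp : p' = q
  · subst hp
    simp only [Matrix.updateRow_self]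
    exact UC.const _
  · simp only [Matrix.updateRow_ne hp]
    exact h p' q'

/-! ### directional derivatives -/

theorem UC.dir (hU : IsOpen U) {k : ℕ} {V : Type} [NormedAddCommGroup V] [NormedSpace ℝ V]
    {F : ι → X → V} (h : UC a U (k + 1) F) (v : X) :
    UC a U k (fun i x => fderiv ℝ (F i) x v) :=
  UC.clm hU (ContinuousLinearMap.apply ℝ V v) h.2.2

theorem UC.of_dir [FiniteDimensional ℝ X] (hU : IsOpen U) {k : ℕ} {V : Type}
    [NormedAddCommGroup V] [NormedSpace ℝ V] {F : ι → X → V}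
    (h1 : ∀ i, ContDiffOn ℝ ∞ (F i) U) (h2 : UH a U F)
    (h : ∀ v : X, UC a U k (fun i x => fderiv ℝ (F i) x v)) : UC a U (k + 1) F := by
  refine ⟨h1, h2, ?_⟩
  have key : ∀ (L : X →L[ℝ] V), L = ∑ j, ContinuousLinearMap.smulRightL ℝ X V
      (LinearMap.toContinuousLinearMap ((Module.finBasis ℝ X).coord j))
      (L (Module.finBasis ℝ X j)) := by
    intro L
    ext v
    rw [sum_apply]
    conv_lhs => rw [← (Module.finBasis ℝ X).sum_repr v, map_sum]
    refine Finset.sum_congr rfl fun j _ => ?_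
    simp
  refine UC.congr hU (UC.sum hU Finset.univ fun j _ => UC.clm hU
    (ContinuousLinearMap.smulRightL ℝ X V
      (LinearMap.toContinuousLinearMap ((Module.finBasis ℝ X).coord j)))
    (h (Module.finBasis ℝ X j))) fun i x _ => ?_
  exact key _

/-! ### comparison with `iteratedFDeriv` -/

theorem UC.ub : ∀ {k : ℕ} {V : Type} [NormedAddCommGroup V] [NormedSpace ℝ V]
    {F : ι → X → V}, UC a U k F → UB k U F
  | 0, V, _, _, F, h => by
    intro x hx
    obtain ⟨r, hr, C, hC, H⟩ := h.2 x hx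
    refine ⟨r, hr, C, fun i y hy m hm => ?_⟩
    obtain rfl : m = 0 := Nat.le_zero.1 hm
    rw [norm_iteratedFDeriv_zero]
    exact (H i).bdd y hy
  | k + 1, V, _, _, F, h => by
    intro x hx
    obtain ⟨r, hr, C, hC, H⟩ := h.2.1 x hx
    obtain ⟨s, hs, D, H'⟩ := UC.ub h.2.2 x hx
    refine ⟨min r s, lt_min hr hs, max C D, fun i y hy m hm => ?_⟩
    rcases m with _ | m
    · rw [norm_iteratedFDeriv_zero]
      exact ((H i).bdd y (ball_subset_ball (min_le_left _ _) hy)).trans (le_max_left _ _)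
    · rw [← norm_iteratedFDeriv_fderiv]
      exact (H' i y (ball_subset_ball (min_le_right _ _) hy) m (by omega)).trans (le_max_right _ _)

theorem UC.of_ub (hU : IsOpen U) (ha : a ≤ 1) : ∀ {k : ℕ} {V : Type} [NormedAddCommGroup V]
    [NormedSpace ℝ V] {F : ι → X → V}, (∀ i, ContDiffOn ℝ ∞ (F i) U) → UB (k + 1) U F →
    UC a U k F := by
  have key : ∀ {k : ℕ} {V : Type} [NormedAddCommGroup V]
    [NormedSpace ℝ V] {F : ι → X → V}, (∀ i, ContDiffOn ℝ ∞ (F i) U) → UB (k + 1) U F →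
    UH a U F := by
    intro k V _ _ F h1 h
    refine UH.of_c1 ha hU (fun i x hx => diffAt_of_smooth hU (h1 i) hx) fun x hx => ?_
    obtain ⟨r, hr, C, H⟩ := h x hx
    refine ⟨r, hr, C, fun i y hy => ⟨?_, ?_⟩⟩
    · have := H i y hy 0 (by omega)
      rwa [norm_iteratedFDeriv_zero] at this
    · have := H i y hy 1 (by omega)
      rwa [norm_iteratedFDeriv_one] at this
  intro k
  induction k with
  | zero => exact fun h1 h => ⟨h1, key h1 h⟩
  | succ k ih =>
    intro V _ _ F h1 h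
    refine ⟨h1, key h1 h, ih (fun i => smooth_fderiv hU (h1 i)) fun x hx => ?_⟩
    obtain ⟨r, hr, C, H⟩ := h x hx
    refine ⟨r, hr, C, fun i y hy m hm => ?_⟩
    rw [norm_iteratedFDeriv_fderiv]
    exact H i y hy (m + 1) (by omega)

theorem UB.of_le {k l : ℕ} (hlk : l ≤ k) {V : Type*} [NormedAddCommGroup V] [NormedSpace ℝ V]
    {F : ι → X → V} (h : UB k U F) : UB l U F := by
  intro x hx
  obtain ⟨r, hr, C, H⟩ := h x hx
  exact ⟨r, hr, C, fun i y hy m hm => H i y hy m (hm.trans hlk)⟩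

theorem UB.bdd {k : ℕ} {V : Type*} [NormedAddCommGroup V] [NormedSpace ℝ V]
    {F : ι → X → V} (h : UB k U F) {x : X} (hx : x ∈ U) :
    ∃ r > 0, ∃ C : ℝ, 0 ≤ C ∧ ∀ i, ∀ y ∈ ball x r, ‖F i y‖ ≤ C := by
  obtain ⟨r, hr, C, H⟩ := h x hx
  refine ⟨r, hr, |C|, abs_nonneg _, fun i y hy => ?_⟩
  have := H i y hy 0 (Nat.zero_le _)
  rw [norm_iteratedFDeriv_zero] at this
  exact this.trans (le_abs_self _)

end uc

end Crest.Agent.R257.ELoc_611
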