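import Crest.Agent.R257.ELocA_611
import Crest.Agent.R273.YauSchF_635

/-!
# R257 (S0395), E-LOC (helper611), part B: linear Schauder estimates of all orders for families

`lin` : `Re tr(G_i ∂∂̄w_i) = f_i`, `G_i` elliptic, `G_i`, `f_i` locally uniformly in `C^{k,1/2}`,
`w_i` locally uniformly bounded => `w_i` locally uniformly in `C^{k+2,1/2}`.
-/

set_option autoImplicit false

open Set Metric Filter
open scoped ContDiff Topology Matrix

namespace Crest.Agent.R257.ELoc_611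

open Crest.Agent.R275.Geo (Cn)
open Crest.Agent.R273.SchA_152 Crest.Agent.R273.SchD_152 Crest.Agent.R273.SchE_152
open Crest.Agent.R273.YauDefs_635 (cH D2)
open Crest.Agent.R273.YauSchF_635
open Complex (I)

noncomputable section

variable {ι : Type*} {n : ℕ}

/-- finitely many locally uniformly bounded families have common radii and constants -/
theorem UH.fin {κ : Type*} [Finite κ] {X V : Type*} [NormedAddCommGroup X]
    [NormedAddCommGroup V] {a : ℝ} {U : Set X} {F : κ → ι → X → V} (h : ∀ j, UH a U (F j))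
    {x : X} (hx : x ∈ U) :
    ∃ r > 0, ∃ C : ℝ, 0 ≤ C ∧ ∀ j i, HO a C (ball x r) (F j i) := by
  have := Fintype.ofFinite κ
  choose r hr C hC H using fun j => h j x hx
  have h1 : ∀ᶠ t in 𝓝[>] (0 : ℝ), ∀ j, t ≤ r j := by
    rw [eventually_all]
    intro j
    have : ∀ᶠ t in 𝓝 (0 : ℝ), t ≤ r j := (Iic_mem_nhds (hr j))
    exact this.filter_mono nhdsWithin_le_nhds
  obtain ⟨t, ht, ht0⟩ := (h1.and self_mem_nhdsWithin).exists
  refine ⟨t, ht0, ∑ j, C j, Finset.sum_nonneg fun j _ => hC j, fun j i => ?_⟩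
  exact ((H j i).subset (ball_subset_ball (ht j))).mono
    (Finset.single_le_sum (f := C) (fun j _ => hC j) (Finset.mem_univ j))

/-- evaluation of a bilinear form -/
def E2 (v w : Cn n) : (Cn n →L[ℝ] Cn n →L[ℝ] ℝ) →L[ℝ] ℝ :=
  (ContinuousLinearMap.apply ℝ ℝ w).comp (ContinuousLinearMap.apply ℝ (Cn n →L[ℝ] ℝ) v)

theorem E2_apply (v w : Cn n) (B : Cn n →L[ℝ] Cn n →L[ℝ] ℝ) : E2 v w B = B v w := rfl

/-- the entries of the complex Hessian as linear functions of the second derivative -/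
def cHL (p q : Fin n) : (Cn n →L[ℝ] Cn n →L[ℝ] ℝ) →L[ℝ] ℂ :=
  (ContinuousLinearMap.mul ℝ ℂ (1 / 4)).comp
    (Complex.ofRealCLM.comp (E2 (EuclideanSpace.single p 1) (EuclideanSpace.single q 1)
        + E2 (EuclideanSpace.single p I) (EuclideanSpace.single q I))
      + (ContinuousLinearMap.mul ℝ ℂ I).comp
        (Complex.ofRealCLM.comp (E2 (EuclideanSpace.single p 1) (EuclideanSpace.single q I)
          + (-1 : ℝ) • E2 (EuclideanSpace.single p I) (EuclideanSpace.single q 1))))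

theorem cH_eq_cHL (u : Cn n → ℝ) (z : Cn n) (p q : Fin n) :
    cH u z p q = cHL p q (fderiv ℝ (fderiv ℝ u) z) := by
  simp only [cH, Matrix.of_apply, cHL, D2, ContinuousLinearMap.comp_apply, add_apply,
    smul_apply, smul_eq_mul, neg_one_mul, ← sub_eq_add_neg, E2_apply,
    ContinuousLinearMap.mul_apply', Complex.ofRealCLM_apply]

theorem UC.cH {a : ℝ} {U : Set (Cn n)} (hU : IsOpen U) {k : ℕ} {w : ι → Cn n → ℝ}
    (h : UC a U (k + 2) w) (p q : Fin n) : UC a U k (fun i z => cH (w i) z p q) :=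
  UC.congr hU (UC.clm hU (cHL p q) h.fd.fd) fun i z _ => cH_eq_cHL (w i) z p q

theorem two_le_infty : (2 : WithTop ℕ∞) ≤ ∞ := WithTop.coe_le_coe.2 (le_top : (2 : ℕ∞) ≤ ⊤)

/-- composition with a continuous linear map, pointwise form -/
theorem hasFDerivAt_clm {X V W : Type*} [NormedAddCommGroup X] [NormedSpace ℝ X]
    [NormedAddCommGroup V] [NormedSpace ℝ V] [NormedAddCommGroup W] [NormedSpace ℝ W]
    (L : V →L[ℝ] W) {f : X → V} {z : X} (hf : DifferentiableAt ℝ f z) :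
    HasFDerivAt (fun z => L (f z)) (L.comp (fderiv ℝ f z)) z :=
  L.hasFDerivAt.comp z hf.hasFDerivAt

/-- third derivatives: `∂∂̄` commutes with directional derivatives -/
theorem fd2_dir {X : Type} [NormedAddCommGroup X] [NormedSpace ℝ X] {U : Set X}
    (hU : IsOpen U) {w : X → ℝ} (hw : ContDiffOn ℝ ∞ w U) {z : X} (hz : z ∈ U) (v : X) :
    fderiv ℝ (fderiv ℝ (fun z => fderiv ℝ w z v)) z
      = fderiv ℝ (fderiv ℝ (fderiv ℝ w)) z v := by
  have hg := smooth_fderiv hU hw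
  have hgg := smooth_fderiv hU hg
  have h1 : ∀ y ∈ U, fderiv ℝ (fun z => fderiv ℝ w z v) y = fderiv ℝ (fderiv ℝ w) y v := by
    intro y hy
    have h2 : HasFDerivAt (fun z => fderiv ℝ w z v)
        ((ContinuousLinearMap.apply ℝ ℝ v).comp (fderiv ℝ (fderiv ℝ w) y)) y :=
      hasFDerivAt_clm (ContinuousLinearMap.apply ℝ ℝ v) (diffAt_of_smooth hU hg hy)
    rw [h2.fderiv]
    ext x
    have hs : IsSymmSndFDerivAt ℝ w y :=
      (hw.contDiffAt (hU.mem_nhds hy)).isSymmSndFDerivAt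
        (by simpa using two_le_infty)
    exact hs x v
  have h3 : fderiv ℝ (fun z => fderiv ℝ w z v) =ᶠ[𝓝 z] fun y => fderiv ℝ (fderiv ℝ w) y v :=
    Filter.eventually_of_mem (hU.mem_nhds hz) h1
  rw [h3.fderiv_eq]
  have h4 : HasFDerivAt (fun y => fderiv ℝ (fderiv ℝ w) y v)
      ((ContinuousLinearMap.apply ℝ (X →L[ℝ] ℝ) v).comp (fderiv ℝ (fderiv ℝ (fderiv ℝ w)) z)) z :=
    hasFDerivAt_clm (ContinuousLinearMap.apply ℝ (X →L[ℝ] ℝ) v) (diffAt_of_smooth hU hgg hz)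
  rw [h4.fderiv]
  ext x y
  have hs : IsSymmSndFDerivAt ℝ (fderiv ℝ w) z :=
    (hg.contDiffAt (hU.mem_nhds hz)).isSymmSndFDerivAt
        (by simpa using two_le_infty)
  exact congrArg (fun L : X →L[ℝ] ℝ => L y) (hs x v)

theorem cH_dir {U : Set (Cn n)} (hU : IsOpen U) {w : Cn n → ℝ} (hw : ContDiffOn ℝ ∞ w U)
    {z : Cn n} (hz : z ∈ U) (v : Cn n) (p q : Fin n) :
    fderiv ℝ (fun z => cH w z p q) z v = cH (fun z => fderiv ℝ w z v) z p q := by
  have e : (fun z => cH w z p q) = fun z => cHL p q (fderiv ℝ (fderiv ℝ w) z) := by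
    funext z; exact cH_eq_cHL w z p q
  have hgg := smooth_fderiv hU (smooth_fderiv hU hw)
  rw [e, cH_eq_cHL, fd2_dir hU hw hz v]
  have h4 : HasFDerivAt (fun z => cHL p q (fderiv ℝ (fderiv ℝ w) z))
      ((cHL p q).comp (fderiv ℝ (fderiv ℝ (fderiv ℝ w)) z)) z :=
    hasFDerivAt_clm (cHL p q) (diffAt_of_smooth hU hgg hz)
  rw [h4.fderiv]
  rfl

theorem ellC_hi {lo hi hi' : ℝ} {G : Matrix (Fin n) (Fin n) ℂ} (h : EllC lo hi G)
    (hh : hi ≤ hi') : EllC lo hi' G :=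
  ⟨h.1, fun ζ => ⟨(h.2 ζ).1, (h.2 ζ).2.trans
    (mul_le_mul_of_nonneg_right hh (Finset.sum_nonneg fun _ _ => sq_nonneg _))⟩⟩

/-- interior Schauder estimate for families -/
theorem lin0 {U : Set (Cn n)} (hU : IsOpen U) {G : ι → Cn n → Matrix (Fin n) (Fin n) ℂ}
    {w : ι → Cn n → ℝ} (hG : ∀ p q, UH (1 / 2) U (fun i z => G i z p q))
    (hell : ∀ x ∈ U, ∃ r > 0, ∃ lo hi : ℝ, 0 < lo ∧ ∀ i, ∀ z ∈ ball x r, EllC lo hi (G i z))
    (hw : ∀ i, ContDiffOn ℝ ∞ (w i) U)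
    (hf : UH (1 / 2) U (fun i z => ((G i z * cH (w i) z).trace).re))
    (h0 : ∀ x ∈ U, ∃ r > 0, ∃ S : ℝ, ∀ i, ∀ z ∈ ball x r, ‖w i z‖ ≤ S) :
    UC (1 / 2) U 2 w := by
  have key : ∀ x ∈ U, ∃ r > 0, ∃ Q : ℝ, 0 ≤ Q ∧ ∀ i, C2A (1 / 2) Q (ball x r) (w i) := by
    intro x hx
    obtain ⟨r1, hr1, M, hM, H1⟩ := UH.fin (κ := Fin n × Fin n)
      (F := fun p i z => G i z p.1 p.2) (fun p => hG p.1 p.2) hx
    obtain ⟨r2, hr2, lo, hi, hlo, H2⟩ := hell x hx
    obtain ⟨r3, hr3, N, hN, H3⟩ := hf x hx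
    obtain ⟨r4, hr4, S, H4⟩ := h0 x hx
    obtain ⟨r5, hr5, H5⟩ := Metric.isOpen_iff.1 hU x hx
    have hev : ∀ᶠ t in 𝓝[>] (0 : ℝ), t < r1 ∧ t < r2 ∧ t < r3 ∧ t < r4 ∧ t < r5 ∧ t < 1 := by
      have : ∀ s : ℝ, 0 < s → ∀ᶠ t in 𝓝[>] (0 : ℝ), t < s := fun s hs =>
        Filter.Eventually.filter_mono nhdsWithin_le_nhds (Iio_mem_nhds hs)
      exact (this _ hr1).and ((this _ hr2).and ((this _ hr3).and ((this _ hr4).and
        ((this _ hr5).and (this _ one_pos)))))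
    obtain ⟨R, ⟨k1, k2, k3, k4, k5, k6⟩, hR0⟩ := (hev.and self_mem_nhdsWithin).exists
    have hR0 : 0 < R := hR0
    have hsub : ∀ {s : ℝ}, R < s → closedBall x R ⊆ ball x s := fun h =>
      closedBall_subset_ball h
    obtain ⟨C, hC, H⟩ := int_schauder_cx n (a := 1 / 2) (lo := lo) (hi := max lo hi)
      (by norm_num) (by norm_num) hlo (le_max_left _ _) M hR0 k6.le
    refine ⟨R / 2, by positivity, C * (N + |S|), by positivity, fun i => ?_⟩
    refine C2A.subset ?_ ball_subset_closedBall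
    refine H x (G i) (fun z hz => ellC_hi (H2 i z (hsub k2 hz)) (le_max_right _ _))
      (fun p q => (H1 (p, q) i).subset (hsub k1)) U hU ((hsub k5).trans H5) (w i) N |S|
      ((hw i).of_le (WithTop.coe_le_coe.2 (le_top : (2 : ℕ∞) ≤ ⊤))) (ho_smooth hU (hw i) k6.le ((hsub k5).trans H5))
      ((H3 i).subset (hsub k3)) fun z hz => ?_
    exact (H4 i z (hsub k4 hz)).trans (le_abs_self _)
  refine ⟨hw, fun x hx => ?_, fun i => smooth_fderiv hU (hw i), fun x hx => ?_,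
    fun i => smooth_fderiv hU (smooth_fderiv hU (hw i)), fun x hx => ?_⟩
  · obtain ⟨r, hr, Q, hQ, H⟩ := key x hx
    exact ⟨r, hr, Q, hQ, fun i => (H i).h0⟩
  · obtain ⟨r, hr, Q, hQ, H⟩ := key x hx
    exact ⟨r, hr, Q, hQ, fun i => (H i).h1⟩
  · obtain ⟨r, hr, Q, hQ, H⟩ := key x hx
    exact ⟨r, hr, Q, hQ, fun i => (H i).h2⟩

theorem trace_re (A B : Matrix (Fin n) (Fin n) ℂ) :
    ((A * B).trace).re = ∑ p, ∑ q, (A p q * B q p).re := by
  simp only [Matrix.trace, Matrix.diag_apply, Matrix.mul_apply, Complex.re_sum]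

/-- **linear Schauder estimates of all orders for families** -/
theorem lin {U : Set (Cn n)} (hU : IsOpen U) {G : ι → Cn n → Matrix (Fin n) (Fin n) ℂ}
    (hell : ∀ x ∈ U, ∃ r > 0, ∃ lo hi : ℝ, 0 < lo ∧ ∀ i, ∀ z ∈ ball x r, EllC lo hi (G i z)) :
    ∀ (k : ℕ) {w f : ι → Cn n → ℝ}, (∀ p q, UC (1 / 2) U k (fun i z => G i z p q)) →
      (∀ i, ContDiffOn ℝ ∞ (w i) U) → UC (1 / 2) U k f →
      (∀ i, ∀ z ∈ U, ((G i z * cH (w i) z).trace).re = f i z) →
      (∀ x ∈ U, ∃ r > 0, ∃ S : ℝ, ∀ i, ∀ z ∈ ball x r, ‖w i z‖ ≤ S) →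
      UC (1 / 2) U (k + 2) w := by
  intro k
  induction k with
  | zero =>
    intro w f hG hw hf he h0
    exact lin0 hU (fun p q => (hG p q).uh) hell hw (hf.uh.congr hU he) h0
  | succ k ih =>
    intro w f hG hw hf he h0
    have hG' : ∀ p q, UC (1 / 2) U k (fun i z => G i z p q) := fun p q => (hG p q).of_succ
    have h1 : UC (1 / 2) U (k + 2) w := ih hG' hw hf.of_succ he h0
    refine UC.of_dir hU hw h1.uh fun v => ?_
    have hwv : ∀ i, ContDiffOn ℝ ∞ (fun z => fderiv ℝ (w i) z v) U := fun i =>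
      (ContinuousLinearMap.apply ℝ ℝ v).contDiff.comp_contDiffOn (smooth_fderiv hU (hw i))
    refine ih (w := fun i z => fderiv ℝ (w i) z v) (f := fun i z => fderiv ℝ (f i) z v -
      ∑ p, ∑ q, (fderiv ℝ (fun z => G i z p q) z v * cH (w i) z q p).re) hG' hwv ?_ ?_ ?_
    · refine UC.sub hU (hf.dir hU v) (UC.sum hU _ fun p _ => UC.sum hU _ fun q _ => ?_)
      exact UC.re hU (UC.mulC hU ((hG p q).dir hU v) (UC.cH hU h1 q p))
    · intro i z hz
      have hGd : ∀ p q, DifferentiableAt ℝ (fun z => G i z p q) z := fun p q =>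
        diffAt_of_smooth hU ((hG p q).smooth i) hz
      have hHd : ∀ p q, DifferentiableAt ℝ (fun z => cH (w i) z p q) z := fun p q =>
        diffAt_of_smooth hU ((UC.cH hU h1 p q).smooth i) hz
      have h2 : HasFDerivAt (fun z => ∑ p, ∑ q, (G i z p q * cH (w i) z q p).re)
          (∑ p, ∑ q, Complex.reCLM.comp (G i z p q • fderiv ℝ (fun z => cH (w i) z q p) z +
            cH (w i) z q p • fderiv ℝ (fun z => G i z p q) z)) z := by
        refine HasFDerivAt.fun_sum fun p _ => HasFDerivAt.fun_sum fun q _ => ?_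
        exact Complex.reCLM.hasFDerivAt.comp z ((hGd p q).hasFDerivAt.mul (hHd q p).hasFDerivAt)
      have h3 : f i =ᶠ[𝓝 z] fun z => ∑ p, ∑ q, (G i z p q * cH (w i) z q p).re := by
        filter_upwards [hU.mem_nhds hz] with y hy
        rw [← he i y hy, trace_re]
      rw [trace_re, h3.fderiv_eq, h2.fderiv]
      simp only [sum_apply]
      rw [← Finset.sum_sub_distrib]
      refine Finset.sum_congr rfl fun p _ => ?_
      rw [← Finset.sum_sub_distrib]
      refine Finset.sum_congr rfl fun q _ => ?_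
      rw [← cH_dir hU (hw i) hz v q p]
      simp only [ContinuousLinearMap.comp_apply, add_apply, smul_apply, smul_eq_mul,
        Complex.reCLM_apply, Complex.add_re]
      rw [mul_comm (cH (w i) z q p)]
      ring
    · intro x hx
      obtain ⟨r, hr, C, hC, H⟩ := (h1.dir hU v).uh x hx
      exact ⟨r, hr, C, fun i z hz => (H i).bdd z hz⟩

end

end Crest.Agent.R257.ELoc_611
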