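import Crest.Agent.R257.ELocB_611

/-!
# R257 (S0395), E-LOC (helper611), part C: interior gradient bound

`grad_le` : `|u| ≤ K` and `|lev u z v| ≤ N |v|²` on a ball of radius `2d` give
`|Du(z₀)| ≤ 2K/d + (N+1)d/2` (barrier on a half square of the complex line of `v`).
-/

set_option autoImplicit false

open Set Metric Filter
open scoped ContDiff Topology

namespace Crest.Agent.R257.ELoc_611

open Crest.Agent.R275.Geo (Cn)
open Crest.Agent.R273.Defs_333 (lev)
open Crest.Agent.R273.YauDefs_635 (cH D2 lev333_eq)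
open Complex (I)

noncomputable section

/-- `f` is differentiable near `a` and its derivative has derivative `c` at `a` -/
def HD2 (f : ℝ → ℝ) (a c : ℝ) : Prop :=
  ∃ f' : ℝ → ℝ, (∀ᶠ t in 𝓝 a, HasDerivAt f (f' t) t) ∧ HasDerivAt f' c a

theorem HD2.add {f g : ℝ → ℝ} {a c c' : ℝ} (h : HD2 f a c) (h' : HD2 g a c') :
    HD2 (fun t => f t + g t) a (c + c') := by
  obtain ⟨f', h1, h2⟩ := h
  obtain ⟨g', h3, h4⟩ := h'
  refine ⟨fun t => f' t + g' t, ?_, h2.add h4⟩
  filter_upwards [h1, h3] with t ht ht'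
  exact ht.add ht'

theorem HD2.const_mul {f : ℝ → ℝ} {a c : ℝ} (b : ℝ) (h : HD2 f a c) :
    HD2 (fun t => b * f t) a (b * c) := by
  obtain ⟨f', h1, h2⟩ := h
  refine ⟨fun t => b * f' t, ?_, h2.const_mul b⟩
  filter_upwards [h1] with t ht
  exact ht.const_mul b

theorem HD2.quad (α β γ a : ℝ) : HD2 (fun t => α * t ^ 2 + β * t + γ) a (2 * α) := by
  refine ⟨fun t => α * (2 * t) + β, Eventually.of_forall fun t => ?_, ?_⟩
  · have h := (((hasDerivAt_pow 2 t).const_mul α).add ((hasDerivAt_id t).const_mul β)).add_const γ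
    simpa using h
  · have h := (((hasDerivAt_id a).const_mul 2).const_mul α).add_const β
    simpa [mul_comm] using h

theorem HD2.congr {f g : ℝ → ℝ} {a c c' : ℝ} (h : HD2 f a c) (he : ∀ t, g t = f t)
    (hc : c' = c) : HD2 g a c' := by
  obtain rfl : g = f := funext he
  rw [hc]
  exact h

theorem HD2.nonpos {f : ℝ → ℝ} {a c : ℝ} (h : HD2 f a c) (hm : IsLocalMax f a) : c ≤ 0 := by
  obtain ⟨f', h1, h2⟩ := h
  by_contra hneg
  push Not at hneg
  have e1 : deriv f =ᶠ[𝓝 a] f' := h1.mono fun t ht => ht.deriv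
  have e2 : deriv (deriv f) a = c := by rw [e1.deriv_eq]; exact h2.deriv
  have h3 : IsLocalMin f a := isLocalMin_of_deriv_deriv_pos (by rw [e2]; exact hneg)
    hm.deriv_eq_zero h1.self_of_nhds.continuousAt
  have e3 : f =ᶠ[𝓝 a] fun _ => f a := by
    filter_upwards [hm, h3] with t ht ht'
    exact le_antisymm ht ht'
  have e4 : deriv f =ᶠ[𝓝 a] fun _ => 0 := by
    refine e3.deriv.trans (Eventually.of_forall fun t => ?_)
    simp
  rw [e4.deriv_eq] at e2
  simp at e2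
  linarith

section line

variable {X : Type*} [NormedAddCommGroup X] [NormedSpace ℝ X]

theorem HD2.line {u : X → ℝ} {p w : X} {a : ℝ} (h : ContDiffAt ℝ 2 u (p + a • w)) :
    HD2 (fun t => u (p + t • w)) a (fderiv ℝ (fderiv ℝ u) (p + a • w) w w) := by
  have hl : ∀ t : ℝ, HasDerivAt (fun t : ℝ => p + t • w) w t := fun t => by
    simpa using ((hasDerivAt_id t).smul_const w).const_add p
  have hc : ContinuousAt (fun t : ℝ => p + t • w) a := (hl a).continuousAt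
  refine ⟨fun t => fderiv ℝ u (p + t • w) w, ?_, ?_⟩
  · have h1 : ∀ᶠ y in 𝓝 (p + a • w), ContDiffAt ℝ 2 u y := h.eventually (by simp)
    filter_upwards [hc.eventually h1] with t ht
    exact (ht.differentiableAt (by simp)).hasFDerivAt.comp_hasDerivAt t (hl t)
  · have h2 : DifferentiableAt ℝ (fderiv ℝ u) (p + a • w) :=
      (h.fderiv_right (m := 1) (by norm_num)).differentiableAt (by norm_num)
    have h3 : HasDerivAt (fun t => fderiv ℝ u (p + t • w)) (fderiv ℝ (fderiv ℝ u) (p + a • w) w) a :=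
      h2.hasFDerivAt.comp_hasDerivAt a (hl a)
    exact h3.clm_apply (hasDerivAt_const a w) |>.congr_deriv (by simp)

end line

variable {ι : Type*} {n : ℕ}

/-- gradient bound by the half square barrier -/
theorem dir_le {u : Cn n → ℝ} {z₀ v : Cn n} {d K N : ℝ} (hd : 0 < d) (hK0 : 0 ≤ K) (hN0 : 0 ≤ N)
    (hu : ContDiffOn ℝ 2 u (ball z₀ (3 * d))) (hK : ∀ z ∈ ball z₀ (3 * d), |u z| ≤ K)
    (hN : ∀ z ∈ ball z₀ (3 * d), |lev u z v| ≤ N) (hv : ‖v‖ = 1) :
    fderiv ℝ u z₀ v ≤ 2 * K / d + (N + 1) * d / 2 := by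
  have hIv : ‖I • v‖ = 1 := by rw [norm_smul, Complex.norm_I, one_mul, hv]
  obtain ⟨w, hw⟩ : ∃ w : Cn n, w = I • v := ⟨_, rfl⟩
  rw [← hw] at hIv
  obtain ⟨p, hp⟩ : ∃ p : ℝ → ℝ → Cn n, p = fun x y => z₀ + (x • w + y • v) := ⟨_, rfl⟩
  have hin : ∀ x y : ℝ, |x| ≤ d → |y| ≤ d → p x y ∈ ball z₀ (3 * d) := by
    intro x y hx hy
    rw [mem_ball, dist_eq_norm, hp]
    simp only [add_sub_cancel_left]
    refine (norm_add_le _ _).trans_lt ?_
    rw [norm_smul, norm_smul, hIv, hv, Real.norm_eq_abs, Real.norm_eq_abs]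
    linarith
  have hc2 : ∀ x y : ℝ, |x| ≤ d → |y| ≤ d → ContDiffAt ℝ 2 u (p x y) := fun x y hx hy =>
    hu.contDiffAt (isOpen_ball.mem_nhds (hin x y hx hy))
  have hx' : ∀ x y, p x y = (z₀ + y • v) + x • w := fun x y => by rw [hp]; simp only; abel
  have hy' : ∀ x y, p x y = (z₀ + x • w) + y • v := fun x y => by rw [hp]; simp only; abel
  have hy'' : ∀ x y, p x (-y) = (z₀ + x • w) + y • (-v) := fun x y => by
    rw [hp]; simp only [neg_smul, smul_neg]; abel
  obtain ⟨P, hP⟩ : ∃ P : ℝ → ℝ → ℝ, P = fun x y => (1 / 2) * u (p x y) + (-(1 / 2)) * u (p x (-y))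
    + (-(K / d ^ 2 * (x ^ 2 + y * (2 * d - y))) - (N + 1) / 2 * (y * (d - y))) := ⟨_, rfl⟩
  have hKd : 0 ≤ K / d ^ 2 := by positivity
  have hKd2 : K / d ^ 2 * d ^ 2 = K := by field_simp
  -- boundary
  have hbd : ∀ x y : ℝ, |x| ≤ d → 0 ≤ y → y ≤ d → (|x| = d ∨ y = 0 ∨ y = d) → P x y ≤ 0 := by
    intro x y hx h0 h1 hxy
    have hyd : |y| ≤ d := abs_le.2 ⟨by linarith, h1⟩
    have hyd' : |-y| ≤ d := by rwa [abs_neg]
    have e1 := abs_le.1 (hK _ (hin x y hx hyd))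
    have e2 := abs_le.1 (hK _ (hin x (-y) hx hyd'))
    have e3 : 0 ≤ (N + 1) / 2 * (y * (d - y)) := by
      have : 0 ≤ y * (d - y) := mul_nonneg h0 (by linarith)
      positivity
    rw [hP]
    simp only
    rcases hxy with h | h | h
    · have e4 : d ^ 2 ≤ x ^ 2 + y * (2 * d - y) := by
        have : x ^ 2 = d ^ 2 := by rw [← sq_abs, h]
        have : 0 ≤ y * (2 * d - y) := mul_nonneg h0 (by linarith)
        linarith
      have e5 := mul_le_mul_of_nonneg_left e4 hKd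
      rw [hKd2] at e5
      linarith [e1.2, e2.1]
    · subst h
      have e5 : 0 ≤ K / d ^ 2 * (x ^ 2 + 0 * (2 * d - 0)) :=
        mul_nonneg hKd (by nlinarith [sq_nonneg x])
      simp only [neg_zero] at *
      linarith
    · have e4 : d ^ 2 ≤ x ^ 2 + y * (2 * d - y) := by
        rw [h]
        nlinarith [sq_nonneg x]
      have e5 := mul_le_mul_of_nonneg_left e4 hKd
      rw [hKd2] at e5
      linarith [e1.2, e2.1]
  -- maximum
  have hcP : ContinuousOn (fun q : ℝ × ℝ => P q.1 q.2) (Icc (-d) d ×ˢ Icc 0 d) := by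
    have hpc : Continuous fun q : ℝ × ℝ => p q.1 q.2 := by
      rw [hp]
      exact continuous_const.add ((continuous_fst.smul continuous_const).add
        (continuous_snd.smul continuous_const))
    have hpc' : Continuous fun q : ℝ × ℝ => p q.1 (-q.2) := by
      rw [hp]
      exact continuous_const.add ((continuous_fst.smul continuous_const).add
        (continuous_snd.neg.smul continuous_const))
    have hm1 : MapsTo (fun q : ℝ × ℝ => p q.1 q.2) (Icc (-d) d ×ˢ Icc 0 d) (ball z₀ (3 * d)) :=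
      fun q hq => hin _ _ (abs_le.2 hq.1) (abs_le.2 ⟨by linarith [hq.2.1], hq.2.2⟩)
    have hm2 : MapsTo (fun q : ℝ × ℝ => p q.1 (-q.2)) (Icc (-d) d ×ˢ Icc 0 d)
        (ball z₀ (3 * d)) :=
      fun q hq => hin _ _ (abs_le.2 hq.1) (abs_le.2 ⟨by linarith [hq.2.2], by linarith [hq.2.1]⟩)
    rw [hP]
    refine ContinuousOn.add (ContinuousOn.add ?_ ?_) ?_
    · exact continuousOn_const.mul (hu.continuousOn.comp hpc.continuousOn hm1)
    · exact continuousOn_const.mul (hu.continuousOn.comp hpc'.continuousOn hm2)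
    · exact Continuous.continuousOn (by fun_prop)
  obtain ⟨⟨x0, y0⟩, hq0, hmax⟩ := (isCompact_Icc.prod isCompact_Icc).exists_isMaxOn
    (⟨(0, 0), ⟨by constructor <;> simp [hd.le], by constructor <;> simp [hd.le]⟩⟩ :
      (Icc (-d) d ×ˢ Icc (0 : ℝ) d).Nonempty) hcP
  have hmax' : ∀ x y, |x| ≤ d → 0 ≤ y → y ≤ d → P x y ≤ P x0 y0 := fun x y hx h0 h1 =>
    hmax (a := (x, y)) ⟨abs_le.1 hx, h0, h1⟩
  have hx0 : |x0| ≤ d := abs_le.2 hq0.1
  have hy0 : 0 ≤ y0 := hq0.2.1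
  have hy1 : y0 ≤ d := hq0.2.2
  have hPneg : P x0 y0 ≤ 0 := by
    by_contra hpos
    push Not at hpos
    have hxs : |x0| < d := lt_of_le_of_ne hx0 fun h => absurd (hbd x0 y0 hx0 hy0 hy1 (Or.inl h))
      (not_le.2 hpos)
    have hys : 0 < y0 := lt_of_le_of_ne hy0 fun h =>
      absurd (hbd x0 y0 hx0 hy0 hy1 (Or.inr (Or.inl h.symm))) (not_le.2 hpos)
    have hys' : y0 < d := lt_of_le_of_ne hy1 fun h =>
      absurd (hbd x0 y0 hx0 hy0 hy1 (Or.inr (Or.inr h))) (not_le.2 hpos)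
    have hya : |y0| ≤ d := abs_le.2 ⟨by linarith, hy1⟩
    have hya' : |-y0| ≤ d := by rwa [abs_neg]
    have m1 : IsLocalMax (fun x => P x y0) x0 := by
      have : ∀ᶠ x in 𝓝 x0, x ∈ Ioo (-d) d := Ioo_mem_nhds (abs_lt.1 hxs).1 (abs_lt.1 hxs).2
      filter_upwards [this] with x hx
      exact hmax' x y0 (abs_le.2 ⟨hx.1.le, hx.2.le⟩) hy0 hy1
    have m2 : IsLocalMax (fun y => P x0 y) y0 := by
      have : ∀ᶠ y in 𝓝 y0, y ∈ Ioo 0 d := Ioo_mem_nhds hys hys'
      filter_upwards [this] with y hy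
      exact hmax' x0 y hx0 hy.1.le hy.2.le
    have s1 : HD2 (fun x => P x y0) x0 ((1 / 2) * fderiv ℝ (fderiv ℝ u) (p x0 y0) w w
        + (-(1 / 2)) * fderiv ℝ (fderiv ℝ u) (p x0 (-y0)) w w + 2 * (-(K / d ^ 2))) := by
      have a1 := (HD2.line (w := w) (a := x0) (p := z₀ + y0 • v)
        (by rw [← hx']; exact hc2 _ _ hx0 hya)).const_mul (1 / 2)
      have a2 := (HD2.line (w := w) (a := x0) (p := z₀ + (-y0) • v)
        (by rw [← hx']; exact hc2 _ _ hx0 hya')).const_mul (-(1 / 2))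
      refine ((a1.add a2).add (HD2.quad (-(K / d ^ 2)) 0
        (-(K / d ^ 2 * (y0 * (2 * d - y0))) - (N + 1) / 2 * (y0 * (d - y0))) x0)).congr
        (fun x => ?_) ?_
      · rw [hP]
        simp only [hx']
        ring
      · rw [hx', hx']
    have s2 : HD2 (fun y => P x0 y) y0 ((1 / 2) * fderiv ℝ (fderiv ℝ u) (p x0 y0) v v
        + (-(1 / 2)) * fderiv ℝ (fderiv ℝ u) (p x0 (-y0)) v v
        + 2 * (K / d ^ 2 + (N + 1) / 2)) := by
      have a1 := (HD2.line (w := v) (a := y0) (p := z₀ + x0 • w)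
        (by rw [← hy']; exact hc2 _ _ hx0 hya)).const_mul (1 / 2)
      have a2 := (HD2.line (w := -v) (a := y0) (p := z₀ + x0 • w)
        (by rw [← hy'']; exact hc2 _ _ hx0 hya')).const_mul (-(1 / 2))
      refine ((a1.add a2).add (HD2.quad (K / d ^ 2 + (N + 1) / 2)
        (-(K / d ^ 2 * (2 * d)) - (N + 1) / 2 * d) (-(K / d ^ 2 * x0 ^ 2)) y0)).congr
        (fun y => ?_) ?_
      · rw [hP]
        simp only [← hy', ← hy'']
        ring
      · rw [← hy', ← hy'']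
        simp only [map_neg, neg_apply, neg_neg]
    have n1 := s1.nonpos m1
    have n2 := s2.nonpos m2
    have l1 := abs_le.1 (hN _ (hin x0 y0 hx0 hya))
    have l2 := abs_le.1 (hN _ (hin x0 (-y0) hx0 hya'))
    rw [lev333_eq, ← hw] at l1 l2
    simp only [D2] at l1 l2
    linarith [l1.1, l2.2]
  -- derivative
  have hder : HasDerivAt (fun y : ℝ => u (p 0 y)) (fderiv ℝ u z₀ v) 0 := by
    have hl : HasDerivAt (fun t : ℝ => p 0 t) v 0 := by
      have := ((hasDerivAt_id (0 : ℝ)).smul_const v).const_add z₀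
      simpa [hp] using this
    have hz : p 0 0 = z₀ := by rw [hp]; simp
    have h1 := (hc2 0 0 (by simp [hd.le]) (by simp [hd.le])).differentiableAt (by simp)
    rw [← hz]
    exact h1.hasFDerivAt.comp_hasDerivAt 0 hl
  have hder' : HasDerivAt (fun y : ℝ => u (p 0 (-y))) (-(fderiv ℝ u z₀ v)) 0 := by
    have h1 : HasDerivAt (fun y : ℝ => u (p 0 y)) (fderiv ℝ u z₀ v) (-0) := by simpa using hder
    have := h1.comp (0 : ℝ) (hasDerivAt_neg (0 : ℝ))
    simpa [Function.comp_def] using this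
  have hsum : HasDerivAt (fun y : ℝ => (1 / 2) * u (p 0 y) + (-(1 / 2)) * u (p 0 (-y)))
      (fderiv ℝ u z₀ v) 0 := by
    have := (hder.const_mul (1 / 2)).add (hder'.const_mul (-(1 / 2)))
    refine this.congr_deriv ?_
    ring
  have ht := hsum.tendsto_slope_zero_right
  refine le_of_tendsto ht ?_
  have hev : ∀ᶠ t in 𝓝[>] (0 : ℝ), t ∈ Ioo (0 : ℝ) d := Ioo_mem_nhdsGT hd
  filter_upwards [hev] with t ht
  have h1 := (hmax' 0 t (by simp [hd.le]) ht.1.le ht.2.le).trans hPneg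
  rw [hP] at h1
  simp only at h1
  simp only [zero_add, neg_zero, smul_eq_mul]
  have h2 : (1 / 2) * u (p 0 t) + (-(1 / 2)) * u (p 0 (-t)) - ((1 / 2) * u (p 0 0)
      + (-(1 / 2)) * u (p 0 0)) ≤ t * (2 * K / d + (N + 1) * d / 2) := by
    have e1 : K / d ^ 2 * (0 ^ 2 + t * (2 * d - t)) ≤ t * (2 * K / d) := by
      have : t * (2 * K / d) = K / d ^ 2 * (t * (2 * d)) := by field_simp
      rw [this]
      refine mul_le_mul_of_nonneg_left ?_ hKd
      nlinarith [ht.1]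
    have e2 : (N + 1) / 2 * (t * (d - t)) ≤ t * ((N + 1) * d / 2) := by
      have : t * ((N + 1) * d / 2) = (N + 1) / 2 * (t * d) := by ring
      rw [this]
      refine mul_le_mul_of_nonneg_left ?_ (by positivity)
      nlinarith [ht.1]
    linarith
  calc t⁻¹ * _ ≤ t⁻¹ * (t * (2 * K / d + (N + 1) * d / 2)) :=
        mul_le_mul_of_nonneg_left h2 (inv_nonneg.2 ht.1.le)
    _ = _ := by rw [← mul_assoc, inv_mul_cancel₀ ht.1.ne', one_mul]

/-- interior gradient bound -/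
theorem grad_le {u : Cn n → ℝ} {z₀ : Cn n} {d K N : ℝ} (hd : 0 < d) (hK0 : 0 ≤ K) (hN0 : 0 ≤ N)
    (hu : ContDiffOn ℝ 2 u (ball z₀ (3 * d))) (hK : ∀ z ∈ ball z₀ (3 * d), |u z| ≤ K)
    (hN : ∀ z ∈ ball z₀ (3 * d), ∀ v, |lev u z v| ≤ N * ‖v‖ ^ 2) :
    ‖fderiv ℝ u z₀‖ ≤ 2 * K / d + (N + 1) * d / 2 := by
  refine ContinuousLinearMap.opNorm_le_of_unit_norm (by positivity) fun v hv => ?_
  have hN' : ∀ v : Cn n, ‖v‖ = 1 → ∀ z ∈ ball z₀ (3 * d), |lev u z v| ≤ N := fun v hv z hz => by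
    simpa [hv] using hN z hz v
  have h1 := dir_le hd hK0 hN0 hu hK (hN' v hv) hv
  have h2 := dir_le hd hK0 hN0 hu hK (hN' (-v) (by rwa [norm_neg])) (by rwa [norm_neg])
  rw [Real.norm_eq_abs, abs_le]
  rw [map_neg] at h2
  exact ⟨by linarith, h1⟩

/-- gradient bound for families -/
theorem grad_fam {U : Set (Cn n)} (hU : IsOpen U) {u : ι → Cn n → ℝ}
    (hu : ∀ i, ContDiffOn ℝ ∞ (u i) U)
    (h0 : ∀ x ∈ U, ∃ r > 0, ∃ S : ℝ, ∀ i, ∀ z ∈ ball x r, |u i z| ≤ S)
    (h2 : ∀ x ∈ U, ∃ r > 0, ∃ N : ℝ, ∀ i, ∀ z ∈ ball x r, ∀ v, |lev (u i) z v| ≤ N * ‖v‖ ^ 2) :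
    ∀ x ∈ U, ∃ r > 0, ∃ S : ℝ, 0 ≤ S ∧ ∀ i, ∀ z ∈ ball x r, ‖fderiv ℝ (u i) z‖ ≤ S := by
  intro x hx
  obtain ⟨r1, hr1, S, H1⟩ := h0 x hx
  obtain ⟨r2, hr2, N, H2⟩ := h2 x hx
  obtain ⟨r3, hr3, H3⟩ := Metric.isOpen_iff.1 hU x hx
  set r := min r1 (min r2 r3) with hr
  have hr0 : 0 < r := lt_min hr1 (lt_min hr2 hr3)
  have hd : 0 < r / 6 := by positivity
  refine ⟨r / 2, by positivity, 2 * |S| / (r / 6) + (|N| + 1) * (r / 6) / 2, by positivity,
    fun i z hz => ?_⟩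
  have hsub : ball z (3 * (r / 6)) ⊆ ball x r := by
    refine ball_subset_ball' ?_
    rw [mem_ball] at hz
    linarith
  refine grad_le hd (abs_nonneg S) (abs_nonneg N) (((hu i).mono fun y hy => H3 ?_).of_le
    two_le_infty) (fun y hy => ?_) fun y hy v => ?_
  · exact ball_subset_ball ((min_le_right _ _).trans (min_le_right _ _)) (hsub hy)
  · exact (H1 i y (ball_subset_ball (min_le_left _ _) (hsub hy))).trans (le_abs_self _)
  · exact (H2 i y (ball_subset_ball ((min_le_right _ _).trans (min_le_left _ _)) (hsub hy)) v).trans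
      (mul_le_mul_of_nonneg_right (le_abs_self _) (sq_nonneg _))

end

end Crest.Agent.R257.ELoc_611
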