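import Crest.Agent.R257.ELocC_611

/-!
# R257 (S0395), E-LOC (helper611), part D: the cone trick

`Φ(z,τ) = ψ(u(z) + 2 Re τ)` with `ψ'^n ψ'' = e^{-s}/(n+1)`: if `det ∂∂̄u = e^{u+h}` then
`det ∂∂̄Φ = e^{h - 2 Re τ}/(n+1)`, no zero order term.
-/

set_option autoImplicit false

open Set Metric Filter
open scoped ContDiff Topology Matrix ComplexConjugate

namespace Crest.Agent.R257.ELoc_611

open Crest.Agent.R275.Geo (Cn)
open Crest.Agent.R273.SchA_152
open Crest.Agent.R273.Defs_333 (lev)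
open Crest.Agent.R273.YauDefs_635 (cH D2 lev333_eq C3Stmt)
open Complex (I)

noncomputable section

/-! ### the profile function -/

/-- data of the profile: `ρ = ψ'`, `σ = ψ''` on `(-K-2, ∞)` -/
structure Prof (n : ℕ) (K : ℝ) (ψ ρ σ : ℝ → ℝ) : Prop where
  cψ : ContDiffOn ℝ ∞ ψ (Ioi (-K - 2))
  cρ : ContDiffOn ℝ ∞ ρ (Ioi (-K - 2))
  cσ : ContDiffOn ℝ ∞ σ (Ioi (-K - 2))
  dψ : ∀ s ∈ Ioi (-K - 2), HasDerivAt ψ (ρ s) s
  dρ : ∀ s ∈ Ioi (-K - 2), HasDerivAt ρ (σ s) s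
  pρ : ∀ s ∈ Ioi (-K - 2), 0 < ρ s
  pσ : ∀ s ∈ Ioi (-K - 2), 0 < σ s
  eq : ∀ s ∈ Ioi (-K - 2), ρ s ^ n * σ s = Real.exp (-s) / (n + 1)

theorem exists_prof (n : ℕ) (K : ℝ) : ∃ ψ ρ σ : ℝ → ℝ, Prof n K ψ ρ σ := by
  set C0 : ℝ := Real.exp (K + 2) + 1 with hC0
  set c : ℝ := 1 / (n + 1) with hc
  have hn : (0 : ℝ) < n + 1 := by positivity
  set b : ℝ → ℝ := fun s => C0 - Real.exp (-s) with hb
  have hb1 : ∀ s ∈ Ioi (-K - 2), 1 < b s := by
    intro s hs
    have h1 : Real.exp (-s) < Real.exp (K + 2) := Real.exp_lt_exp.2 (by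
      rw [mem_Ioi] at hs; linarith)
    simp only [hb, hC0]
    linarith
  have hbc : ContDiff ℝ ∞ b := contDiff_const.sub (Real.contDiff_exp.comp contDiff_neg)
  have hbd : ∀ s, HasDerivAt b (Real.exp (-s)) s := fun s => by
    have := ((Real.hasDerivAt_exp (-s)).comp s (hasDerivAt_neg s)).const_sub C0
    simpa using this
  have hrpow : ∀ e : ℝ, ContDiffOn ℝ ∞ (fun s => b s ^ e) (Ioi (-K - 2)) := fun e =>
    hbc.contDiffOn.rpow_const_of_ne fun s hs => (lt_trans one_pos (hb1 s hs)).ne'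
  set m : ℝ → ℝ := fun s => max (b s) 1 ^ c with hm
  have hmc : Continuous m :=
    (hbc.continuous.max continuous_const).rpow_const fun s => Or.inl
      (lt_of_lt_of_le one_pos (le_max_right _ _)).ne'
  have hmb : ∀ s ∈ Ioi (-K - 2), m s = b s ^ c := fun s hs => by
    simp only [hm, max_eq_left (hb1 s hs).le]
  set ψ : ℝ → ℝ := fun s => ∫ x in (0 : ℝ)..s, m x with hψ
  have hψd : ∀ s ∈ Ioi (-K - 2), HasDerivAt ψ (b s ^ c) s := fun s hs => by
    rw [← hmb s hs]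
    exact (hmc.integral_hasStrictDerivAt 0 s).hasDerivAt
  refine ⟨ψ, fun s => b s ^ c, fun s => c * b s ^ (c - 1) * Real.exp (-s), ?_, hrpow c, ?_, hψd,
    ?_, ?_, ?_, ?_⟩
  · rw [contDiffOn_infty_iff_deriv_of_isOpen isOpen_Ioi]
    refine ⟨fun s hs => (hψd s hs).differentiableAt.differentiableWithinAt, ?_⟩
    exact (hrpow c).congr fun s hs => (hψd s hs).deriv
  · exact (contDiffOn_const.mul (hrpow _)).mul
      (Real.contDiff_exp.comp contDiff_neg).contDiffOn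
  · intro s hs
    have := (hbd s).rpow_const (p := c) (Or.inl (lt_trans one_pos (hb1 s hs)).ne')
    convert this using 1
    ring
  · exact fun s hs => Real.rpow_pos_of_pos (lt_trans one_pos (hb1 s hs)) _
  · intro s hs
    have h0 := lt_trans one_pos (hb1 s hs)
    have : 0 < c := by positivity
    positivity
  · intro s hs
    have h0 := lt_trans one_pos (hb1 s hs)
    have h1 : (b s ^ c) ^ n = b s ^ (c * n) := by
      rw [Real.rpow_mul h0.le, Real.rpow_natCast]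
    have h2 : b s ^ (c * n) * b s ^ (c - 1) = 1 := by
      rw [← Real.rpow_add h0]
      have : c * n + (c - 1) = 0 := by rw [hc]; field_simp; ring
      rw [this, Real.rpow_zero]
    calc (b s ^ c) ^ n * (c * b s ^ (c - 1) * Real.exp (-s))
        = c * (b s ^ (c * n) * b s ^ (c - 1)) * Real.exp (-s) := by rw [h1]; ring
      _ = Real.exp (-s) / (n + 1) := by rw [h2, hc]; ring

/-! ### the determinant -/

variable {n : ℕ}

/-- bordered matrix -/
def bord (H : Matrix (Fin n) (Fin n) ℂ) (p : Fin n → ℂ) (x y : ℂ) :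
    Matrix (Fin n ⊕ Fin 1) (Fin n ⊕ Fin 1) ℂ :=
  Matrix.fromBlocks (x • H + y • Matrix.vecMulVec p (star p)) (Matrix.of fun a _ => y * p a)
    (Matrix.of fun _ b => y * conj (p b)) (Matrix.of fun _ _ => y)

theorem det_bord (H : Matrix (Fin n) (Fin n) ℂ) (p : Fin n → ℂ) (x y : ℂ) :
    (bord H p x y).det = x ^ n * y * H.det := by
  have h : bord H p x y = Matrix.fromBlocks (x • H) (Matrix.of fun a _ => p a) 0 1 *
      Matrix.fromBlocks 1 0 (Matrix.of fun _ b => y * conj (p b)) (Matrix.of fun _ _ => y) := by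
    rw [Matrix.fromBlocks_multiply]
    unfold bord
    congr 1
    · ext a b
      simp only [Matrix.add_apply, Matrix.smul_apply, Matrix.vecMulVec_apply, Matrix.mul_apply,
        Matrix.mul_one, Fin.sum_univ_one, Matrix.of_apply, Pi.star_apply, Complex.star_def,
        smul_eq_mul]
      ring
    · ext a b
      simp only [Matrix.add_apply, Matrix.mul_apply, Matrix.mul_zero, Matrix.zero_apply,
        Fin.sum_univ_one, Matrix.of_apply, zero_add]
      ring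
    · ext a b
      simp
    · ext a b
      simp
  rw [h, Matrix.det_mul, Matrix.det_fromBlocks_zero₂₁, Matrix.det_fromBlocks_zero₁₂,
    Matrix.det_smul, Matrix.det_one, Matrix.det_one, Matrix.det_fin_one, Fintype.card_fin]
  simp
  ring

/-! ### the spaces -/

/-- the first `n` coordinates, complex linear -/
def prL (n : ℕ) : Cn (n + 1) →ₗ[ℂ] Cn n where
  toFun Z := WithLp.toLp 2 fun a => Z a.castSucc
  map_add' Z W := by ext a; simp
  map_smul' c Z := by ext a; simp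

/-- the first `n` coordinates -/
def pr (n : ℕ) : Cn (n + 1) →L[ℝ] Cn n := (LinearMap.toContinuousLinearMap (prL n)).restrictScalars ℝ

theorem pr_apply (Z : Cn (n + 1)) (a : Fin n) : pr n Z a = Z a.castSucc := rfl

theorem pr_smul (c : ℂ) (Z : Cn (n + 1)) : pr n (c • Z) = c • pr n Z := (prL n).map_smul c Z

/-- `2 Re` of the last coordinate -/
def ell (n : ℕ) : Cn (n + 1) →L[ℝ] ℝ :=
  (2 : ℝ) • (Complex.reCLM.comp ((EuclideanSpace.proj (𝕜 := ℂ) (Fin.last n)).restrictScalars ℝ))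

theorem ell_apply (Z : Cn (n + 1)) : ell n Z = 2 * (Z (Fin.last n)).re := rfl

/-- the inclusion `z ↦ (z, 0)` -/
def inj (n : ℕ) : Cn n →ₗ[ℂ] Cn (n + 1) where
  toFun z := WithLp.toLp 2 (Fin.snoc (α := fun _ => ℂ) z.ofLp 0)
  map_add' z w := by
    ext a
    refine Fin.lastCases ?_ (fun a => ?_) a <;> simp
  map_smul' c z := by
    ext a
    refine Fin.lastCases ?_ (fun a => ?_) a <;> simp

theorem inj_last (z : Cn n) : inj n z (Fin.last n) = 0 := by simp [inj]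

theorem inj_cast (z : Cn n) (a : Fin n) : inj n z a.castSucc = z a := by simp [inj]

theorem pr_inj (z : Cn n) : pr n (inj n z) = z := by
  ext a
  rw [pr_apply, inj_cast]

theorem ell_inj (z : Cn n) : ell n (inj n z) = 0 := by
  rw [ell_apply, inj_last]
  simp

theorem norm_sq_split (Z : Cn (n + 1)) : ‖Z‖ ^ 2 = ‖pr n Z‖ ^ 2 + ‖Z (Fin.last n)‖ ^ 2 := by
  rw [EuclideanSpace.norm_sq_eq, EuclideanSpace.norm_sq_eq, Fin.sum_univ_castSucc]
  rfl

theorem norm_pr_le (Z : Cn (n + 1)) : ‖pr n Z‖ ≤ ‖Z‖ := by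
  have h := norm_sq_split Z
  exact abs_le_of_sq_le_sq' (by nlinarith [sq_nonneg ‖Z (Fin.last n)‖]) (norm_nonneg _) |>.2

theorem norm_last_le (Z : Cn (n + 1)) : ‖Z (Fin.last n)‖ ≤ ‖Z‖ := by
  have h := norm_sq_split Z
  exact abs_le_of_sq_le_sq' (by nlinarith [sq_nonneg ‖pr n Z‖]) (norm_nonneg _) |>.2

theorem norm_inj (z : Cn n) : ‖inj n z‖ = ‖z‖ := by
  have h := norm_sq_split (inj n z)
  rw [pr_inj, inj_last, norm_zero] at h
  have h1 := norm_nonneg z
  have h2 := norm_nonneg (inj n z)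
  nlinarith [sq_nonneg (‖inj n z‖ - ‖z‖), sq_nonneg (‖inj n z‖ + ‖z‖)]

/-- `inj` as a real continuous linear map -/
def injR (n : ℕ) : Cn n →L[ℝ] Cn (n + 1) := (LinearMap.toContinuousLinearMap (inj n)).restrictScalars ℝ

theorem injR_apply (z : Cn n) : injR n z = inj n z := rfl

theorem pr_single_cast (a : Fin n) (c : ℂ) :
    pr n (EuclideanSpace.single a.castSucc c) = EuclideanSpace.single a c := by
  ext b
  rw [pr_apply]
  simp

theorem pr_single_last (c : ℂ) :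
    pr n (EuclideanSpace.single (Fin.last n) c) = 0 := by
  ext b
  rw [pr_apply]
  simp [Fin.castSucc_ne_last b]

theorem ell_single_cast (a : Fin n) (c : ℂ) :
    ell n (EuclideanSpace.single a.castSucc c) = 0 := by
  rw [ell_apply]
  simp [(Fin.castSucc_ne_last a).symm]

theorem ell_single_last (c : ℂ) :
    ell n (EuclideanSpace.single (Fin.last n) c) = 2 * c.re := by
  rw [ell_apply]
  simp

/-! ### second derivatives of the cone potential -/

/-- second derivative of a composition with a real function -/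
theorem fd2_comp1 {X : Type*} [NormedAddCommGroup X] [NormedSpace ℝ X] {S : X → ℝ}
    {ψ ρ : ℝ → ℝ} {σ : ℝ} {z : X} (hS : ContDiffAt ℝ 2 S z)
    (hψ : ∀ᶠ y in 𝓝 z, HasDerivAt ψ (ρ (S y)) (S y)) (hρ : HasDerivAt ρ σ (S z)) (V W : X) :
    fderiv ℝ (fderiv ℝ (fun y => ψ (S y))) z V W =
      σ * (fderiv ℝ S z V * fderiv ℝ S z W) + ρ (S z) * fderiv ℝ (fderiv ℝ S) z V W := by
  have h1 : ∀ᶠ y in 𝓝 z, ContDiffAt ℝ 2 S y := hS.eventually (by simp)
  have h2 : fderiv ℝ (fun y => ψ (S y)) =ᶠ[𝓝 z] fun y => ρ (S y) • fderiv ℝ S y := by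
    filter_upwards [h1, hψ] with y hy hy'
    exact (hy'.comp_hasFDerivAt y (hy.differentiableAt (by simp)).hasFDerivAt).fderiv
  have h3 : DifferentiableAt ℝ (fderiv ℝ S) z :=
    (hS.fderiv_right (m := 1) (by norm_num)).differentiableAt (by norm_num)
  have h4 : HasFDerivAt (fun y => ρ (S y)) (σ • fderiv ℝ S z) z :=
    hρ.comp_hasFDerivAt z (hS.differentiableAt (by simp)).hasFDerivAt
  have h5 := HasFDerivAt.fun_smul h4 h3.hasFDerivAt
  rw [h2.fderiv_eq, h5.fderiv]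
  simp only [add_apply, smul_apply, smul_eq_mul, ContinuousLinearMap.smulRight_apply]
  ring

/-- the cone potential -/
def Phi (ψ : ℝ → ℝ) (u : Cn n → ℝ) (Z : Cn (n + 1)) : ℝ := ψ (u (pr n Z) + ell n Z)

theorem fd1_S {u : Cn n → ℝ} {Z : Cn (n + 1)} (hu : DifferentiableAt ℝ u (pr n Z)) :
    HasFDerivAt (fun Z => u (pr n Z) + ell n Z) ((fderiv ℝ u (pr n Z)).comp (pr n) + ell n) Z :=
  (hu.hasFDerivAt.comp Z (pr n).hasFDerivAt).add (ell n).hasFDerivAt

theorem fd2_S {u : Cn n → ℝ} {Z : Cn (n + 1)} (hu : ContDiffAt ℝ 2 u (pr n Z))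
    (V W : Cn (n + 1)) :
    fderiv ℝ (fderiv ℝ (fun Z => u (pr n Z) + ell n Z)) Z V W =
      fderiv ℝ (fderiv ℝ u) (pr n Z) (pr n V) (pr n W) := by
  have h1 : ∀ᶠ y in 𝓝 (pr n Z), ContDiffAt ℝ 2 u y := hu.eventually (by simp)
  have h2 : ∀ᶠ Y in 𝓝 Z, ContDiffAt ℝ 2 u (pr n Y) :=
    ((pr n).continuous.tendsto Z).eventually h1
  have h3 : fderiv ℝ (fun Z => u (pr n Z) + ell n Z) =ᶠ[𝓝 Z]
      fun Y => (fderiv ℝ u (pr n Y)).comp (pr n) + ell n := by
    filter_upwards [h2] with Y hY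
    exact (fd1_S (hY.differentiableAt (by simp))).fderiv
  have h4 : DifferentiableAt ℝ (fderiv ℝ u) (pr n Z) :=
    (hu.fderiv_right (m := 1) (by norm_num)).differentiableAt (by norm_num)
  have h5 : HasFDerivAt (fun Y => (fderiv ℝ u (pr n Y)).comp (pr n) + ell n)
      (((ContinuousLinearMap.compL ℝ (Cn (n + 1)) (Cn n) ℝ).flip (pr n)).comp
        ((fderiv ℝ (fderiv ℝ u) (pr n Z)).comp (pr n))) Z := by
    refine HasFDerivAt.add_const _ ?_
    exact ((ContinuousLinearMap.compL ℝ (Cn (n + 1)) (Cn n) ℝ).flip (pr n)).hasFDerivAt.comp Z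
      (h4.hasFDerivAt.comp Z (pr n).hasFDerivAt)
  rw [h3.fderiv_eq, h5.fderiv]
  rfl

variable {K : ℝ} {ψ ρ σ : ℝ → ℝ}

theorem fd2_Phi (hP : Prof n K ψ ρ σ) {u : Cn n → ℝ} {Z : Cn (n + 1)}
    (hu : ContDiffAt ℝ 2 u (pr n Z)) (hs : -K - 2 < u (pr n Z) + ell n Z) (V W : Cn (n + 1)) :
    fderiv ℝ (fderiv ℝ (Phi ψ u)) Z V W =
      σ (u (pr n Z) + ell n Z) * ((fderiv ℝ u (pr n Z) (pr n V) + ell n V) *
        (fderiv ℝ u (pr n Z) (pr n W) + ell n W)) +
      ρ (u (pr n Z) + ell n Z) * fderiv ℝ (fderiv ℝ u) (pr n Z) (pr n V) (pr n W) := by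
  have hS : ContDiffAt ℝ 2 (fun Z => u (pr n Z) + ell n Z) Z :=
    (hu.comp Z (pr n).contDiff.contDiffAt).add (ell n).contDiff.contDiffAt
  have hev : ∀ᶠ Y in 𝓝 Z, u (pr n Y) + ell n Y ∈ Ioi (-K - 2) :=
    hS.continuousAt.eventually (Ioi_mem_nhds hs)
  have h := fd2_comp1 (ψ := ψ) (ρ := ρ) (σ := σ (u (pr n Z) + ell n Z)) hS
    (hev.mono fun Y hY => hP.dψ _ hY) (hP.dρ _ hs) V W
  have e : fderiv ℝ (fun Z => u (pr n Z) + ell n Z) Z =
      (fderiv ℝ u (pr n Z)).comp (pr n) + ell n := (fd1_S (hu.differentiableAt (by simp))).fderiv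
  rw [fd2_S hu, e] at h
  exact h

theorem lev_Phi (hP : Prof n K ψ ρ σ) {u : Cn n → ℝ} {Z : Cn (n + 1)}
    (hu : ContDiffAt ℝ 2 u (pr n Z)) (hs : -K - 2 < u (pr n Z) + ell n Z) (V : Cn (n + 1)) :
    lev (Phi ψ u) Z V =
      σ (u (pr n Z) + ell n Z) * ((fderiv ℝ u (pr n Z) (pr n V) + ell n V) ^ 2 +
        (fderiv ℝ u (pr n Z) (I • pr n V) + ell n (I • V)) ^ 2) +
      ρ (u (pr n Z) + ell n Z) * lev u (pr n Z) (pr n V) := by
  rw [lev333_eq, lev333_eq]
  simp only [D2]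
  rw [fd2_Phi hP hu hs, fd2_Phi hP hu hs, pr_smul]
  ring

/-- the Wirtinger derivatives `∂_a u` -/
def wd (u : Cn n → ℝ) (z : Cn n) (a : Fin n) : ℂ :=
  (1 / 2 : ℂ) * ((fderiv ℝ u z (EuclideanSpace.single a 1) : ℂ)
    - I * (fderiv ℝ u z (EuclideanSpace.single a I) : ℂ))

theorem cH_Phi_cc (hP : Prof n K ψ ρ σ) {u : Cn n → ℝ} {Z : Cn (n + 1)}
    (hu : ContDiffAt ℝ 2 u (pr n Z)) (hs : -K - 2 < u (pr n Z) + ell n Z) (a b : Fin n) :
    cH (Phi ψ u) Z a.castSucc b.castSucc = (ρ (u (pr n Z) + ell n Z) : ℂ) * cH u (pr n Z) a b +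
      (σ (u (pr n Z) + ell n Z) : ℂ) * (wd u (pr n Z) a * conj (wd u (pr n Z) b)) := by
  simp only [cH, Matrix.of_apply, D2, fd2_Phi hP hu hs, pr_single_cast, ell_single_cast, wd,
    map_mul, map_sub, Complex.conj_ofReal, Complex.conj_I, add_zero]
  push_cast
  have h2 : conj (1 / 2 : ℂ) = 1 / 2 := by rw [map_div₀, map_one, Complex.conj_ofNat]
  rw [h2]
  ring_nf
  rw [Complex.I_sq]
  ring

theorem cH_Phi_cl (hP : Prof n K ψ ρ σ) {u : Cn n → ℝ} {Z : Cn (n + 1)}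
    (hu : ContDiffAt ℝ 2 u (pr n Z)) (hs : -K - 2 < u (pr n Z) + ell n Z) (a : Fin n) :
    cH (Phi ψ u) Z a.castSucc (Fin.last n) =
      (σ (u (pr n Z) + ell n Z) : ℂ) * wd u (pr n Z) a := by
  simp only [cH, Matrix.of_apply, D2, fd2_Phi hP hu hs, pr_single_cast, ell_single_cast,
    pr_single_last, ell_single_last, wd, map_zero, Complex.one_re, Complex.I_re]
  push_cast
  ring

theorem cH_Phi_lc (hP : Prof n K ψ ρ σ) {u : Cn n → ℝ} {Z : Cn (n + 1)}
    (hu : ContDiffAt ℝ 2 u (pr n Z)) (hs : -K - 2 < u (pr n Z) + ell n Z) (b : Fin n) :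
    cH (Phi ψ u) Z (Fin.last n) b.castSucc =
      (σ (u (pr n Z) + ell n Z) : ℂ) * conj (wd u (pr n Z) b) := by
  simp only [cH, Matrix.of_apply, D2, fd2_Phi hP hu hs, pr_single_cast, ell_single_cast,
    pr_single_last, ell_single_last, wd, map_zero, Complex.one_re, Complex.I_re,
    map_mul, map_sub, Complex.conj_ofReal, Complex.conj_I, zero_apply]
  push_cast
  have h2 : conj (1 / 2 : ℂ) = 1 / 2 := by rw [map_div₀, map_one, Complex.conj_ofNat]
  rw [h2]
  ring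

theorem cH_Phi_ll (hP : Prof n K ψ ρ σ) {u : Cn n → ℝ} {Z : Cn (n + 1)}
    (hu : ContDiffAt ℝ 2 u (pr n Z)) (hs : -K - 2 < u (pr n Z) + ell n Z) :
    cH (Phi ψ u) Z (Fin.last n) (Fin.last n) = (σ (u (pr n Z) + ell n Z) : ℂ) := by
  simp only [cH, Matrix.of_apply, D2, fd2_Phi hP hu hs,
    pr_single_last, ell_single_last, map_zero, Complex.one_re, Complex.I_re]
  push_cast
  ring

theorem det_Phi (hP : Prof n K ψ ρ σ) {u : Cn n → ℝ} {Z : Cn (n + 1)}
    (hu : ContDiffAt ℝ 2 u (pr n Z)) (hs : -K - 2 < u (pr n Z) + ell n Z) :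
    (cH (Phi ψ u) Z).det = (Real.exp (-(u (pr n Z) + ell n Z)) / (n + 1) : ℝ) *
      (cH u (pr n Z)).det := by
  have h : (cH (Phi ψ u) Z).submatrix (finSumFinEquiv : Fin n ⊕ Fin 1 ≃ Fin (n + 1))
      finSumFinEquiv = bord (cH u (pr n Z)) (wd u (pr n Z)) (ρ (u (pr n Z) + ell n Z))
        (σ (u (pr n Z) + ell n Z)) := by
    ext a b
    rcases a with a | a <;> rcases b with b | b
    · have := cH_Phi_cc hP hu hs a b
      change cH (Phi ψ u) Z a.castSucc b.castSucc = _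
      simpa [bord, Matrix.vecMulVec_apply] using this
    · obtain rfl : b = 0 := Subsingleton.elim _ _
      have := cH_Phi_cl hP hu hs a
      change cH (Phi ψ u) Z a.castSucc (Fin.last n) = _
      simpa [bord] using this
    · obtain rfl : a = 0 := Subsingleton.elim _ _
      have := cH_Phi_lc hP hu hs b
      change cH (Phi ψ u) Z (Fin.last n) b.castSucc = _
      simpa [bord] using this
    · obtain rfl : a = 0 := Subsingleton.elim _ _
      obtain rfl : b = 0 := Subsingleton.elim _ _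
      have := cH_Phi_ll hP hu hs
      change cH (Phi ψ u) Z (Fin.last n) (Fin.last n) = _
      simpa [bord] using this
  rw [← Matrix.det_submatrix_equiv_self (finSumFinEquiv : Fin n ⊕ Fin 1 ≃ Fin (n + 1)), h,
    det_bord, ← hP.eq _ hs]
  push_cast
  ring

end

end Crest.Agent.R257.ELoc_611
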