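import Crest.Agent.R257.ELocD_611

/-!
# R257 (S0395), E-LOC (helper611), part E: Hölder bounds of `∂∂̄u` from `C3Stmt`

`hess_uh` : for families of solutions of `det ∂∂̄u = e^{u+h}` with locally uniform bounds of `u`,
of the ellipticity constants and of the derivatives of `h`, the entries of `∂∂̄u` are locally
uniformly Hölder.
-/

set_option autoImplicit false

open Set Metric Filter
open scoped ContDiff Topology Matrix ComplexConjugate

namespace Crest.Agent.R257.ELoc_611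

open Crest.Agent.R275.Geo (Cn)
open Crest.Agent.R273.SchA_152
open Crest.Agent.R273.Defs_333 (lev)
open Crest.Agent.R273.YauDefs_635 (cH D2 lev333_eq C3Stmt)
open Crest.Agent.R273.YauLoc_635 (contDiffOn_cH)
open Complex (I)

noncomputable section

variable {ι : Type*} {n : ℕ} {K : ℝ} {ψ ρ σ : ℝ → ℝ}

/-- polarisation -/
theorem cH_bound {u : Cn n → ℝ} {z : Cn n} {N : ℝ} (hu : ContDiffAt ℝ 2 u z)
    (h : ∀ v, |lev u z v| ≤ N * ‖v‖ ^ 2) (a b : Fin n) : ‖cH u z a b‖ ≤ 2 * N := by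
  have hs : ∀ v w, D2 u z v w = D2 u z w v := fun v w =>
    (hu.isSymmSndFDerivAt (by simp)) v w
  have hN : ∀ v : Cn n, ‖v‖ = 1 → |lev u z v| ≤ N := fun v hv => by simpa [hv] using h v
  have hN2 : ∀ v : Cn n, ‖v‖ ≤ 2 → |lev u z v| ≤ N * 4 := fun v hv => by
    rcases eq_or_ne v 0 with rfl | hv0
    · have h1 := h 0
      have h2 := (abs_nonneg _).trans (hN (EuclideanSpace.single a 1) (by simp))
      have h3 : |lev u z 0| ≤ 0 := by simpa using h1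
      linarith
    · have h1 := h v
      have h2 := (abs_nonneg _).trans (hN (EuclideanSpace.single a 1) (by simp))
      have h3 : ‖v‖ ^ 2 ≤ 4 := by nlinarith [norm_nonneg v]
      nlinarith
  have pol : ∀ v w : Cn n, ‖v‖ = 1 → ‖w‖ = 1 →
      |D2 u z v w + D2 u z (I • v) (I • w)| ≤ 3 * N := by
    intro v w hv hw
    have h1 : lev u z (v + w) = lev u z v + lev u z w
        + 2 * (D2 u z v w + D2 u z (I • v) (I • w)) := by
      simp only [lev333_eq, smul_add]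
      have e1 := hs w v
      have e2 := hs (I • w) (I • v)
      simp only [D2, map_add, add_apply] at *
      linarith
    have h2 := abs_le.1 (hN2 (v + w) ((norm_add_le _ _).trans (by linarith)))
    have h3 := abs_le.1 (hN v hv)
    have h4 := abs_le.1 (hN w hw)
    rw [abs_le]
    constructor <;> linarith [h2.1, h2.2, h3.1, h3.2, h4.1, h4.2]
  have e1 : ∀ c : Fin n, (I • (EuclideanSpace.single c (1 : ℂ)) : Cn n)
      = EuclideanSpace.single c I := fun c => by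
    ext d; simp
  have e2 : ∀ c : Fin n, (I • (EuclideanSpace.single c I) : Cn n)
      = - EuclideanSpace.single c (1 : ℂ) := fun c => by
    ext d
    simp only [PiLp.smul_apply, PiLp.neg_apply, PiLp.single_apply, smul_eq_mul]
    split_ifs <;> simp
  have p1 := pol (EuclideanSpace.single a 1) (EuclideanSpace.single b 1) (by simp) (by simp)
  have p2 := pol (EuclideanSpace.single a 1) (EuclideanSpace.single b I) (by simp) (by simp)
  rw [e1, e1] at p1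
  rw [e1, e2] at p2
  have p3 : |D2 u z (EuclideanSpace.single a 1) (EuclideanSpace.single b I) -
      D2 u z (EuclideanSpace.single a I) (EuclideanSpace.single b 1)| ≤ 3 * N := by
    simpa only [D2, map_neg, ← sub_eq_add_neg] using p2
  simp only [cH, Matrix.of_apply]
  rw [norm_mul]
  have q1 : ‖(1 / 4 : ℂ)‖ = 1 / 4 := by norm_num
  rw [q1]
  have q2 := norm_add_le
    ((D2 u z (EuclideanSpace.single a 1) (EuclideanSpace.single b 1)
        + D2 u z (EuclideanSpace.single a I) (EuclideanSpace.single b I) : ℝ) : ℂ)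
    (I * ((D2 u z (EuclideanSpace.single a 1) (EuclideanSpace.single b I)
        - D2 u z (EuclideanSpace.single a I) (EuclideanSpace.single b 1) : ℝ) : ℂ))
  rw [norm_mul, Complex.norm_I, one_mul, Complex.norm_real, Complex.norm_real,
    Real.norm_eq_abs, Real.norm_eq_abs] at q2
  have h2 := (abs_nonneg _).trans (hN (EuclideanSpace.single a 1) (by simp))
  linarith

/-- smooth functions on `(-K-2, ∞)` are bounded and Lipschitz on `[-K, K]` -/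
theorem lipIcc {φ : ℝ → ℝ} (hφ : ContDiffOn ℝ ∞ φ (Ioi (-K - 2))) :
    ∃ C : ℝ, 0 ≤ C ∧ (∀ s ∈ Icc (-K) K, ‖φ s‖ ≤ C) ∧
      ∀ s ∈ Icc (-K) K, ∀ t ∈ Icc (-K) K, ‖φ s - φ t‖ ≤ C * ‖s - t‖ := by
  have hsub : Icc (-K) K ⊆ Ioi (-K - 2) := fun s hs => by
    rw [mem_Ioi]; linarith [hs.1]
  have h1 : ContinuousOn (deriv φ) (Ioi (-K - 2)) :=
    hφ.continuousOn_deriv_of_isOpen isOpen_Ioi (by simp)
  obtain ⟨B0, hB0⟩ := isCompact_Icc.exists_bound_of_continuousOn (hφ.continuousOn.mono hsub)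
  obtain ⟨B1, hB1⟩ := isCompact_Icc.exists_bound_of_continuousOn (h1.mono hsub)
  refine ⟨max 0 (max B0 B1), le_max_left _ _, fun s hs => (hB0 s hs).trans
    ((le_max_left _ _).trans (le_max_right _ _)), fun s hs t ht => ?_⟩
  have h2 := (convex_Icc (-K) K).norm_image_sub_le_of_norm_deriv_le (f := φ) (C := B1)
    (fun x hx => (hφ.contDiffAt (isOpen_Ioi.mem_nhds (hsub hx))).differentiableAt (by simp))
    hB1 ht hs
  exact h2.trans (mul_le_mul_of_nonneg_right ((le_max_right _ _).trans (le_max_right _ _))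
    (norm_nonneg _))

theorem UH.comp_real {X : Type*} [NormedAddCommGroup X] {B : Set X} (hB : IsOpen B)
    {φ : ℝ → ℝ} (hφ : ContDiffOn ℝ ∞ φ (Ioi (-K - 2))) {a : ℝ} {u : ι → X → ℝ}
    (hu : UH a B u) (h : ∀ i, ∀ z ∈ B, |u i z| ≤ K) : UH a B (fun i z => φ (u i z)) := by
  obtain ⟨C, hC, h1, h2⟩ := lipIcc hφ
  refine hu.comp_lip fun x hx => ?_
  obtain ⟨r, hr, hrB⟩ := Metric.isOpen_iff.1 hB x hx
  exact ⟨r, hr, C, hC, fun i y hy => h1 _ (abs_le.1 (h i y (hrB hy))),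
    fun i y hy z hz => h2 _ (abs_le.1 (h i y (hrB hy))) _ (abs_le.1 (h i z (hrB hz)))⟩

theorem UH.mulC {X : Type*} [NormedAddCommGroup X] {B : Set X} {a : ℝ} {F G : ι → X → ℂ}
    (h : UH a B F) (h' : UH a B G) : UH a B (fun i x => F i x * G i x) :=
  UH.bil (ContinuousLinearMap.mul ℝ ℂ) h h'

theorem UH.ofReal {X : Type*} [NormedAddCommGroup X] {B : Set X} {a : ℝ} {F : ι → X → ℝ}
    (h : UH a B F) : UH a B (fun i x => (F i x : ℂ)) := UH.clm Complex.ofRealCLM h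

theorem UH.conj {X : Type*} [NormedAddCommGroup X] {B : Set X} {a : ℝ} {F : ι → X → ℂ}
    (h : UH a B F) : UH a B (fun i x => conj (F i x)) :=
  UH.clm (Complex.conjCLE : ℂ →L[ℝ] ℂ) h

theorem UH.neg {X V : Type*} [NormedAddCommGroup X] [NormedAddCommGroup V] [NormedSpace ℝ V]
    {B : Set X} {a : ℝ} {F : ι → X → V} (h : UH a B F) : UH a B (fun i x => - F i x) := by
  have := UH.clm (-ContinuousLinearMap.id ℝ V) h
  simpa using this

/-- composition with a linear map on the right -/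
theorem UC.compR {X Y : Type} [NormedAddCommGroup X] [NormedSpace ℝ X] [NormedAddCommGroup Y]
    [NormedSpace ℝ Y] (L : Y →L[ℝ] X) {a : ℝ} (ha : 0 ≤ a) {U : Set X} (hU : IsOpen U) :
    ∀ {k : ℕ} {V : Type} [NormedAddCommGroup V] [NormedSpace ℝ V] {F : ι → X → V},
      UC a U k F → UC a (L ⁻¹' U) k (fun i y => F i (L y)) := by
  have key : ∀ {V : Type} [NormedAddCommGroup V] [NormedSpace ℝ V] {F : ι → X → V},
      UH a U F → UH a (L ⁻¹' U) (fun i y => F i (L y)) := by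
    intro V _ _ F h y hy
    obtain ⟨r, hr, C, hC, H⟩ := h (L y) hy
    obtain ⟨s, hs, hsr⟩ := Metric.mem_nhds_iff.1
      (L.continuous.continuousAt.preimage_mem_nhds (ball_mem_nhds (L y) hr))
    have h1 : 1 ≤ max 1 (‖L‖ ^ a) := le_max_left _ _
    refine ⟨s, hs, C * max 1 (‖L‖ ^ a), by positivity, fun i => ⟨fun x hx => ?_,
      fun x hx w hw => ?_⟩⟩
    · exact ((H i).bdd _ (hsr hx)).trans (le_mul_of_one_le_right hC h1)
    · refine ((H i).hol _ (hsr hx) _ (hsr hw)).trans ?_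
      rw [mul_assoc]
      refine mul_le_mul_of_nonneg_left ?_ hC
      calc ‖L x - L w‖ ^ a ≤ (‖L‖ * ‖x - w‖) ^ a := by
            rw [← map_sub]
            exact Real.rpow_le_rpow (norm_nonneg _) (L.le_opNorm _) ha
        _ = ‖L‖ ^ a * ‖x - w‖ ^ a := Real.mul_rpow (norm_nonneg _) (norm_nonneg _)
        _ ≤ _ := mul_le_mul_of_nonneg_right (le_max_right _ _)
            (Real.rpow_nonneg (norm_nonneg _) _)
  have hsm : ∀ {V : Type} [NormedAddCommGroup V] [NormedSpace ℝ V] {F : ι → X → V},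
      (∀ i, ContDiffOn ℝ ∞ (F i) U) → ∀ i, ContDiffOn ℝ ∞ (fun y => F i (L y)) (L ⁻¹' U) :=
    fun h i => (h i).comp L.contDiff.contDiffOn fun y hy => hy
  intro k
  induction k with
  | zero => exact fun h => ⟨hsm h.1, key h.2⟩
  | succ k ih =>
    intro V _ _ F h
    refine ⟨hsm h.1, key h.2.1, ?_⟩
    refine UC.congr (hU.preimage L.continuous) (UC.clm (hU.preimage L.continuous)
      ((ContinuousLinearMap.compL ℝ Y X V).flip L) (ih h.2.2)) fun i y hy => ?_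
    exact ((diffAt_of_smooth hU (h.1 i) hy).hasFDerivAt.comp y L.hasFDerivAt).fderiv

/-- one fixed smooth function -/
theorem UC.single {X : Type} [NormedAddCommGroup X] [NormedSpace ℝ X] {a : ℝ} (ha : a ≤ 1)
    {U : Set X} (hU : IsOpen U) {k : ℕ} {V : Type} [NormedAddCommGroup V] [NormedSpace ℝ V]
    {f : X → V} (hf : ContDiffOn ℝ ∞ f U) : UC a U k (fun _ : ι => f) := by
  refine UC.of_ub hU ha (fun _ => hf) fun x hx => ?_
  have h1 : ∀ m : ℕ, ∀ᶠ y in 𝓝 x, ‖iteratedFDeriv ℝ m f y‖ < ‖iteratedFDeriv ℝ m f x‖ + 1 := by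
    intro m
    have h2 : ContinuousAt (fun y => ‖iteratedFDeriv ℝ m f y‖) x :=
      (((hf.contDiffAt (hU.mem_nhds hx)).iteratedFDeriv_right (m := 0) (i := m)
        (by rw [zero_add]; exact_mod_cast (le_top : (m : ℕ∞) ≤ ⊤))).continuousAt).norm
    exact h2.eventually (gt_mem_nhds (by linarith))
  have h3 : ∀ᶠ y in 𝓝 x, ∀ m ∈ Finset.range (k + 2),
      ‖iteratedFDeriv ℝ m f y‖ < ‖iteratedFDeriv ℝ m f x‖ + 1 :=
    (Filter.eventually_all_finset _).2 fun m _ => h1 m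
  obtain ⟨r, hr, H⟩ := Metric.eventually_nhds_iff_ball.1 h3
  refine ⟨r, hr, ∑ m ∈ Finset.range (k + 2), (‖iteratedFDeriv ℝ m f x‖ + 1),
    fun _ y hy m hm => ?_⟩
  have hm' : m ∈ Finset.range (k + 2) := Finset.mem_range.2 (by omega)
  refine (H y hy m hm').le.trans ?_
  exact Finset.single_le_sum (f := fun m => ‖iteratedFDeriv ℝ m f x‖ + 1)
    (fun m _ => by positivity) hm'

/-! ### the cone potential on a ball -/

theorem Phi_smooth (hP : Prof n K ψ ρ σ) {x : Cn n} {r : ℝ} (hr : r ≤ 1 / 2) {u : Cn n → ℝ}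
    (hu : ContDiffOn ℝ ∞ u (ball x r)) (hK : ∀ z ∈ ball x r, |u z| ≤ K) :
    (∀ Z ∈ ball (inj n x) r, pr n Z ∈ ball x r) ∧
    (∀ Z ∈ ball (inj n x) r, u (pr n Z) + ell n Z ∈ Icc (-(K + 1)) (K + 1)) ∧
    (∀ Z ∈ ball (inj n x) r, u (pr n Z) + ell n Z ∈ Ioi (-K - 2)) ∧
    ContDiffOn ℝ ∞ (Phi ψ u) (ball (inj n x) r) := by
  have h1 : ∀ Z ∈ ball (inj n x) r, pr n Z ∈ ball x r := by
    intro Z hZ
    rw [mem_ball, dist_eq_norm] at hZ ⊢
    have : pr n Z - x = pr n (Z - inj n x) := by rw [map_sub, pr_inj]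
    rw [this]
    exact (norm_pr_le _).trans_lt hZ
  have h2 : ∀ Z ∈ ball (inj n x) r, |ell n Z| ≤ 1 := by
    intro Z hZ
    rw [mem_ball, dist_eq_norm] at hZ
    have e : ell n Z = ell n (Z - inj n x) := by rw [map_sub, ell_inj, sub_zero]
    rw [e, ell_apply, abs_mul, abs_two]
    have h3 := (Complex.abs_re_le_norm ((Z - inj n x) (Fin.last n))).trans
      (norm_last_le (Z - inj n x))
    linarith
  have h3 : ∀ Z ∈ ball (inj n x) r, u (pr n Z) + ell n Z ∈ Icc (-(K + 1)) (K + 1) := by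
    intro Z hZ
    have a1 := abs_le.1 (h2 Z hZ)
    have a2 := abs_le.1 (hK _ (h1 Z hZ))
    constructor <;> linarith [a1.1, a1.2, a2.1, a2.2]
  have h4 : ∀ Z ∈ ball (inj n x) r, u (pr n Z) + ell n Z ∈ Ioi (-K - 2) := by
    intro Z hZ
    have := (h3 Z hZ).1
    rw [mem_Ioi]
    linarith
  refine ⟨h1, h3, h4, hP.cψ.comp (ContDiffOn.add ?_ (ell n).contDiff.contDiffOn) h4⟩
  exact hu.comp (pr n).contDiff.contDiffOn h1

/-- bounds of a positive smooth function on a compact interval -/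
theorem pos_bounds {φ : ℝ → ℝ} (hφ : ContDiffOn ℝ ∞ φ (Ioi (-K - 2)))
    (hp : ∀ s ∈ Ioi (-K - 2), 0 < φ s) :
    ∃ m M : ℝ, 0 < m ∧ ∀ s ∈ Icc (-(K + 1)) (K + 1), m ≤ φ s ∧ φ s ≤ M := by
  have hsub : Icc (-(K + 1)) (K + 1) ⊆ Ioi (-K - 2) := fun s hs => by
    rw [mem_Ioi]; linarith [hs.1]
  rcases (Icc (-(K + 1)) (K + 1)).eq_empty_or_nonempty with he | hne
  · exact ⟨1, 1, one_pos, fun s hs => by rw [he] at hs; exact hs.elim⟩
  obtain ⟨s1, hs1, h1⟩ := isCompact_Icc.exists_isMinOn hne (hφ.continuousOn.mono hsub)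
  obtain ⟨s2, hs2, h2⟩ := isCompact_Icc.exists_isMaxOn hne (hφ.continuousOn.mono hsub)
  exact ⟨φ s1, φ s2, hp _ (hsub hs1), fun s hs => ⟨h1 hs, h2 hs⟩⟩

/-- ellipticity of the cone potential -/
theorem lev_Phi_bounds (hP : Prof n K ψ ρ σ) {lo hi G : ℝ} (hlo : 0 < lo) :
    ∃ lo' hi' : ℝ, 0 < lo' ∧ ∀ (u : Cn n → ℝ) (Z : Cn (n + 1)), ContDiffAt ℝ 2 u (pr n Z) →
      u (pr n Z) + ell n Z ∈ Icc (-(K + 1)) (K + 1) →
      (∀ v, lo * ‖v‖ ^ 2 ≤ lev u (pr n Z) v ∧ lev u (pr n Z) v ≤ hi * ‖v‖ ^ 2) →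
      ‖fderiv ℝ u (pr n Z)‖ ≤ G →
      ∀ V, lo' * ‖V‖ ^ 2 ≤ lev (Phi ψ u) Z V ∧ lev (Phi ψ u) Z V ≤ hi' * ‖V‖ ^ 2 := by
  obtain ⟨m1, M1, hm1, H1⟩ := pos_bounds hP.cρ hP.pρ
  obtain ⟨m2, M2, hm2, H2⟩ := pos_bounds hP.cσ hP.pσ
  -- the parameter
  obtain ⟨l, hl0, hl1, hl2⟩ : ∃ l : ℝ, 0 < l ∧ l ≤ m2 ∧ 2 * l * G ^ 2 ≤ m1 * lo / 2 := by
    refine ⟨min m2 (m1 * lo / 2 / (2 * G ^ 2 + 1)), lt_min hm2 (by positivity),
      min_le_left _ _, ?_⟩
    have h1 : min m2 (m1 * lo / 2 / (2 * G ^ 2 + 1)) * (2 * G ^ 2 + 1) ≤ m1 * lo / 2 := by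
      rw [← le_div_iff₀ (by positivity)]
      exact min_le_right _ _
    have h2 : 0 < min m2 (m1 * lo / 2 / (2 * G ^ 2 + 1)) := lt_min hm2 (by positivity)
    nlinarith
  refine ⟨min (2 * l) (m1 * lo / 2), (|M2| * (4 * G ^ 2 + 16) + |M1| * |hi|),
    lt_min (by positivity) (by positivity), fun u Z hu hs hlev hgr V => ?_⟩
  have hs' : -K - 2 < u (pr n Z) + ell n Z := by linarith [hs.1]
  rw [lev_Phi hP hu hs' V]
  obtain ⟨a1, a2⟩ := H1 _ hs
  obtain ⟨b1, b2⟩ := H2 _ hs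
  obtain ⟨c1, c2⟩ := hlev (pr n V)
  set R := ρ (u (pr n Z) + ell n Z)
  set T := σ (u (pr n Z) + ell n Z)
  set v := pr n V
  set t := V (Fin.last n)
  have e1 : ell n V = 2 * t.re := ell_apply V
  have e2 : ell n (I • V) = -(2 * t.im) := by
    rw [ell_apply]
    simp [t]
  have g1 : |fderiv ℝ u (pr n Z) v| ≤ G * ‖v‖ :=
    ((fderiv ℝ u (pr n Z)).le_opNorm v).trans (mul_le_mul_of_nonneg_right hgr (norm_nonneg _))
  have g2 : |fderiv ℝ u (pr n Z) (I • v)| ≤ G * ‖v‖ := by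
    refine ((fderiv ℝ u (pr n Z)).le_opNorm (I • v)).trans ?_
    rw [norm_smul, Complex.norm_I, one_mul]
    exact mul_le_mul_of_nonneg_right hgr (norm_nonneg _)
  set A := fderiv ℝ u (pr n Z) v
  set B := fderiv ℝ u (pr n Z) (I • v)
  have hV : ‖V‖ ^ 2 = ‖v‖ ^ 2 + ‖t‖ ^ 2 := norm_sq_split V
  have ht : ‖t‖ ^ 2 = t.re ^ 2 + t.im ^ 2 := by
    rw [Complex.sq_norm, Complex.normSq_apply]; ring
  have hA : A ^ 2 ≤ G ^ 2 * ‖v‖ ^ 2 := by
    rw [← sq_abs, ← mul_pow]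
    exact pow_le_pow_left₀ (abs_nonneg _) g1 2
  have hB : B ^ 2 ≤ G ^ 2 * ‖v‖ ^ 2 := by
    rw [← sq_abs, ← mul_pow]
    exact pow_le_pow_left₀ (abs_nonneg _) g2 2
  rw [e1, e2]
  have hv0 : 0 ≤ ‖v‖ ^ 2 := sq_nonneg _
  have ht0 : 0 ≤ ‖t‖ ^ 2 := sq_nonneg _
  have q1 : 2 * ‖t‖ ^ 2 - 2 * (G ^ 2 * ‖v‖ ^ 2) ≤
      (A + 2 * t.re) ^ 2 + (B + -(2 * t.im)) ^ 2 := by
    nlinarith [sq_nonneg (2 * A + 2 * t.re), sq_nonneg (2 * B - 2 * t.im)]
  have q2 : (A + 2 * t.re) ^ 2 + (B + -(2 * t.im)) ^ 2 ≤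
      4 * (G ^ 2 * ‖v‖ ^ 2) + 8 * ‖t‖ ^ 2 := by
    nlinarith [sq_nonneg (A - 2 * t.re), sq_nonneg (B + 2 * t.im)]
  have q0 : 0 ≤ (A + 2 * t.re) ^ 2 + (B + -(2 * t.im)) ^ 2 := by positivity
  constructor
  · have r1 : l * ((A + 2 * t.re) ^ 2 + (B + -(2 * t.im)) ^ 2) ≤
        T * ((A + 2 * t.re) ^ 2 + (B + -(2 * t.im)) ^ 2) :=
      mul_le_mul_of_nonneg_right (hl1.trans b1) q0
    have r2 : l * (2 * ‖t‖ ^ 2 - 2 * (G ^ 2 * ‖v‖ ^ 2)) ≤
        l * ((A + 2 * t.re) ^ 2 + (B + -(2 * t.im)) ^ 2) := mul_le_mul_of_nonneg_left q1 hl0.le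
    have r3 : m1 * (lo * ‖v‖ ^ 2) ≤ R * lev u (pr n Z) v := by
      refine (mul_le_mul_of_nonneg_left c1 hm1.le).trans ?_
      exact mul_le_mul_of_nonneg_right a1 ((by positivity : 0 ≤ lo * ‖v‖ ^ 2).trans c1)
    have r4 : min (2 * l) (m1 * lo / 2) * ‖v‖ ^ 2 ≤ m1 * lo / 2 * ‖v‖ ^ 2 :=
      mul_le_mul_of_nonneg_right (min_le_right _ _) hv0
    have r5 : min (2 * l) (m1 * lo / 2) * ‖t‖ ^ 2 ≤ 2 * l * ‖t‖ ^ 2 :=
      mul_le_mul_of_nonneg_right (min_le_left _ _) ht0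
    have r6 : 2 * l * G ^ 2 * ‖v‖ ^ 2 ≤ m1 * lo / 2 * ‖v‖ ^ 2 :=
      mul_le_mul_of_nonneg_right hl2 hv0
    rw [hV]
    nlinarith
  · have hT : T ≤ |M2| := b2.trans (le_abs_self _)
    have hR : R ≤ |M1| := a2.trans (le_abs_self _)
    have r1 : T * ((A + 2 * t.re) ^ 2 + (B + -(2 * t.im)) ^ 2) ≤
        |M2| * (4 * (G ^ 2 * ‖v‖ ^ 2) + 8 * ‖t‖ ^ 2) :=
      (mul_le_mul_of_nonneg_right hT q0).trans (mul_le_mul_of_nonneg_left q2 (abs_nonneg _))
    have hlv0 : 0 ≤ lev u (pr n Z) v := (by positivity : 0 ≤ lo * ‖v‖ ^ 2).trans c1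
    have hlv1 : lev u (pr n Z) v ≤ |hi| * ‖v‖ ^ 2 :=
      c2.trans (mul_le_mul_of_nonneg_right (le_abs_self _) hv0)
    have r2 : R * lev u (pr n Z) v ≤ |M1| * (|hi| * ‖v‖ ^ 2) :=
      (mul_le_mul_of_nonneg_right hR hlv0).trans (mul_le_mul_of_nonneg_left hlv1 (abs_nonneg _))
    have r3 : |M2| * (4 * (G ^ 2 * ‖v‖ ^ 2) + 8 * ‖t‖ ^ 2) ≤
        |M2| * ((4 * G ^ 2 + 16) * (‖v‖ ^ 2 + ‖t‖ ^ 2)) := by
      refine mul_le_mul_of_nonneg_left ?_ (abs_nonneg _)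
      have : 0 ≤ G ^ 2 * ‖t‖ ^ 2 := by positivity
      nlinarith
    have r4 : |M1| * (|hi| * ‖v‖ ^ 2) ≤ |M1| * |hi| * (‖v‖ ^ 2 + ‖t‖ ^ 2) := by
      rw [mul_assoc]
      refine mul_le_mul_of_nonneg_left ?_ (abs_nonneg _)
      exact mul_le_mul_of_nonneg_left (by linarith) (abs_nonneg _)
    rw [hV]
    nlinarith

end

end Crest.Agent.R257.ELoc_611
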