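import Crest.Agent.R257.ELocE_611

/-!
# R257 (S0395), E-LOC (helper611), part F: Hölder bounds of `∂∂̄u` from `C3Stmt`

`hess_uh` : for families of solutions of `det ∂∂̄u = e^{u+h}` with locally uniform bounds of `u`,
of the ellipticity constants and of the derivatives of `h`, the entries of `∂∂̄u` are locally
uniformly Hölder.
-/

set_option autoImplicit false

open Set Metric Filter
open scoped ContDiff Topology Matrix ComplexConjugate

namespace Crest.Agent.R257.ELoc_611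

open Crest.Agent.R275.Geo (Cn)
open Crest.Agent.R273.SchA_152
open Crest.Agent.R273.Defs_333 (lev)
open Crest.Agent.R273.YauDefs_635 (cH D2 lev333_eq C3Stmt)
open Crest.Agent.R273.YauLoc_635 (contDiffOn_cH)
open Complex (I)

noncomputable section

variable {ι : Type*} {n : ℕ}

/-- finitely many positive radii have a positive lower bound -/
theorem exists_small (l : List ℝ) (hl : ∀ t ∈ l, 0 < t) : ∃ r > 0, ∀ t ∈ l, r ≤ t := by
  induction l with
  | nil => exact ⟨1, one_pos, fun t ht => by simp at ht⟩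
  | cons a l ih =>
    obtain ⟨r, hr, H⟩ := ih fun t ht => hl t (List.mem_cons_of_mem _ ht)
    refine ⟨min a r, lt_min (hl a List.mem_cons_self) hr, fun t ht => ?_⟩
    rcases List.mem_cons.1 ht with rfl | h
    · exact min_le_left _ _
    · exact (min_le_right _ _).trans (H t h)

/-- the right hand side of the equation of the cone potential -/
theorem rhs_uc {U : Set (Cn n)} (hU : IsOpen U) {h : ι → Cn n → ℝ} {k : ℕ}
    (hh : UC (1 / 2) U k h) :
    UC (1 / 2) (pr n ⁻¹' U) k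
      (fun i Z => h i (pr n Z) + (-ell n Z + -Real.log (n + 1))) := by
  have hW : IsOpen (pr n ⁻¹' U) := hU.preimage (pr n).continuous
  refine UC.add hW (UC.compR (pr n) (by norm_num) hU hh) (UC.single (by norm_num) hW ?_)
  exact (ell n).contDiff.contDiffOn.neg.add contDiffOn_const

/-- **Hölder bounds of the complex Hessian** -/
theorem hess_uh (h3 : C3Stmt) {U : Set (Cn n)} (hU : IsOpen U) {u h : ι → Cn n → ℝ}
    (hu : ∀ i, ContDiffOn ℝ ∞ (u i) U) (hh : UC (1 / 2) U 3 h)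
    (h0 : ∀ x ∈ U, ∃ r > 0, ∃ S : ℝ, ∀ i, ∀ z ∈ ball x r, |u i z| ≤ S)
    (hell : ∀ x ∈ U, ∃ r > 0, ∃ lo > 0, ∃ hi : ℝ, ∀ i, ∀ z ∈ ball x r, ∀ v,
      lo * ‖v‖ ^ 2 ≤ lev (u i) z v ∧ lev (u i) z v ≤ hi * ‖v‖ ^ 2)
    (heq : ∀ i, ∀ z ∈ U, (cH (u i) z).det = (Real.exp (u i z + h i z) : ℂ)) (a b : Fin n) :
    UH (1 / 2) U (fun i z => cH (u i) z a b) := by
  intro x hx
  obtain ⟨r1, hr1, S, H1⟩ := h0 x hx
  obtain ⟨r2, hr2, lo, hlo, hi, H2⟩ := hell x hx
  obtain ⟨r3, hr3, G, hG, H3⟩ := grad_fam hU hu h0 (by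
    intro y hy
    obtain ⟨r, hr, lo, hlo, hi, H⟩ := hell y hy
    refine ⟨r, hr, hi, fun i z hz v => ?_⟩
    obtain ⟨k1, k2⟩ := H i z hz v
    rw [abs_of_nonneg ((by positivity : 0 ≤ lo * ‖v‖ ^ 2).trans k1)]
    exact k2) x hx
  obtain ⟨r4, hr4, H4⟩ := Metric.isOpen_iff.1 hU x hx
  obtain ⟨r5, hr5, Cf, H5⟩ := (rhs_uc hU hh).ub (inj n x) (by
    rw [mem_preimage, pr_inj]; exact hx)
  obtain ⟨r, hr, Hr⟩ := exists_small [r1, r2, r3, r4, r5, 1 / 2] (by
    intro t ht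
    simp only [List.mem_cons, List.not_mem_nil, or_false] at ht
    rcases ht with rfl | rfl | rfl | rfl | rfl | rfl
    · exact hr1
    · exact hr2
    · exact hr3
    · exact hr4
    · exact hr5
    · norm_num)
  have l1 : r ≤ r1 := Hr _ (by simp)
  have l2 : r ≤ r2 := Hr _ (by simp)
  have l3 : r ≤ r3 := Hr _ (by simp)
  have l4 : r ≤ r4 := Hr _ (by simp)
  have l5 : r ≤ r5 := Hr _ (by simp)
  have l6 : r ≤ 1 / 2 := Hr _ (by simp)
  have hU4 : ball x r ⊆ U := (ball_subset_ball l4).trans H4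
  obtain ⟨K, hK⟩ : ∃ K : ℝ, K = |S| := ⟨_, rfl⟩
  have hK0 : 0 ≤ K := by rw [hK]; exact abs_nonneg _
  have hKu : ∀ i, ∀ z ∈ ball x r, |u i z| ≤ K := fun i z hz => by
    rw [hK]
    exact (H1 i z (ball_subset_ball l1 hz)).trans (le_abs_self _)
  obtain ⟨ψ, ρ, σ, hP⟩ := exists_prof n K
  obtain ⟨lo', hi', hlo', HL⟩ := lev_Phi_bounds hP (hi := hi) (G := G) hlo
  obtain ⟨C, HC⟩ := h3 (n + 1) r lo' hi' Cf hr hlo'
  have hsm := fun i => Phi_smooth hP (x := x) l6 ((hu i).mono hU4) (hKu i)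
  have hlevΦ : ∀ i, ∀ Z ∈ ball (inj n x) r, ∀ V,
      lo' * ‖V‖ ^ 2 ≤ lev (Phi ψ (u i)) Z V ∧ lev (Phi ψ (u i)) Z V ≤ hi' * ‖V‖ ^ 2 := by
    intro i Z hZ
    obtain ⟨k1, k2, k3, k4⟩ := hsm i
    have hz := k1 Z hZ
    exact HL (u i) Z (((hu i).contDiffAt (hU.mem_nhds (hU4 hz))).of_le two_le_infty) (k2 Z hZ)
      (H2 i _ (ball_subset_ball l2 hz)) (H3 i _ (ball_subset_ball l3 hz))
  have key : ∀ i, ∀ Z ∈ ball (inj n x) (r / 2), ∀ a b,
      ‖fderiv ℝ (fun w => cH (Phi ψ (u i)) w a b) Z‖ ≤ C := by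
    intro i
    obtain ⟨k1, k2, k3, k4⟩ := hsm i
    refine HC (inj n x) (Phi ψ (u i)) (fun Z => h i (pr n Z) + (-ell n Z + -Real.log (n + 1)))
      k4 (((rhs_uc hU hh).smooth i).mono fun Z hZ => hU4 (k1 Z hZ)) (hlevΦ i) ?_
      fun Z hZ k _ hk => H5 i Z (ball_subset_ball l5 hZ) k hk
    intro Z hZ
    have hz := hU4 (k1 Z hZ)
    rw [det_Phi hP (((hu i).contDiffAt (hU.mem_nhds hz)).of_le two_le_infty) (k3 Z hZ),
      heq i _ hz, ← Complex.ofReal_mul]
    congr 1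
    have hn : (0 : ℝ) < n + 1 := by positivity
    rw [show h i (pr n Z) + (-ell n Z + -Real.log (n + 1)) =
      (-(u i (pr n Z) + ell n Z) + (u i (pr n Z) + h i (pr n Z))) - Real.log (n + 1) by ring,
      Real.exp_sub, Real.exp_log hn, div_mul_eq_mul_div, ← Real.exp_add]
  have hBr : ball x (r / 2) ⊆ ball x r := ball_subset_ball (by linarith)
  have hinj : ∀ {s : ℝ} {z : Cn n}, z ∈ ball x s → inj n z ∈ ball (inj n x) s := by
    intro s z hz
    rw [mem_ball, dist_eq_norm] at hz ⊢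
    rwa [← map_sub, norm_inj]
  have hu2 : ∀ i, ∀ z ∈ ball x r, ContDiffAt ℝ 2 (u i) (pr n (inj n z)) := fun i z hz => by
    rw [pr_inj]
    exact ((hu i).contDiffAt (hU.mem_nhds (hU4 hz))).of_le two_le_infty
  have hs2 : ∀ i, ∀ z ∈ ball x r, -K - 2 < u i (pr n (inj n z)) + ell n (inj n z) :=
    fun i z hz => (hsm i).2.2.1 _ (hinj hz)
  -- the entries of the Hessian of the cone potential
  have hg : ∀ a b, UH (1 / 2) (ball x (r / 2))
      (fun i z => cH (Phi ψ (u i)) (inj n z) a b) := by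
    intro a b
    have hd : ∀ i, ∀ z ∈ ball x (r / 2), HasFDerivAt (fun z => cH (Phi ψ (u i)) (inj n z) a b)
        ((fderiv ℝ (fun w => cH (Phi ψ (u i)) w a b) (inj n z)).comp (injR n)) z := by
      intro i z hz
      have h1 : DifferentiableAt ℝ (fun w => cH (Phi ψ (u i)) w a b) (inj n z) :=
        diffAt_of_smooth isOpen_ball (contDiffOn_cH isOpen_ball (hsm i).2.2.2 a b)
          (hinj (hBr hz))
      exact h1.hasFDerivAt.comp z (injR n).hasFDerivAt
    refine UH.of_c1 (by norm_num) isOpen_ball (fun i z hz => (hd i z hz).differentiableAt)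
      fun y hy => ?_
    obtain ⟨s, hs, hsB⟩ := Metric.isOpen_iff.1 isOpen_ball y hy
    refine ⟨s, hs, max (2 * hi') (C * ‖injR n‖), fun i z hz => ⟨?_, ?_⟩⟩
    · refine le_trans ?_ (le_max_left _ _)
      have hZ : inj n z ∈ ball (inj n x) r := hinj (hBr (hsB hz))
      refine cH_bound (((hsm i).2.2.2.contDiffAt (isOpen_ball.mem_nhds hZ)).of_le two_le_infty)
        (fun V => ?_) a b
      obtain ⟨k1, k2⟩ := hlevΦ i _ hZ V
      rw [abs_of_nonneg ((by positivity : 0 ≤ lo' * ‖V‖ ^ 2).trans k1)]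
      exact k2
    · refine le_trans ?_ (le_max_right _ _)
      rw [(hd i z (hsB hz)).fderiv]
      refine (ContinuousLinearMap.opNorm_comp_le _ _).trans ?_
      exact mul_le_mul_of_nonneg_right (key i _ (hinj (hsB hz)) a b) (norm_nonneg _)
  have huB : UH (1 / 2) (ball x (r / 2)) u := by
    refine UH.of_c1 (by norm_num) isOpen_ball (fun i z hz => diffAt_of_smooth hU (hu i)
      (hU4 (hBr hz))) fun y hy => ?_
    obtain ⟨s, hs, hsB⟩ := Metric.isOpen_iff.1 isOpen_ball y hy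
    refine ⟨s, hs, max K G, fun i z hz => ⟨?_, ?_⟩⟩
    · exact (hKu i z (hBr (hsB hz))).trans (le_max_left _ _)
    · exact (H3 i z (ball_subset_ball l3 (hBr (hsB hz)))).trans (le_max_right _ _)
  have hKB : ∀ i, ∀ z ∈ ball x (r / 2), |u i z| ≤ K := fun i z hz => hKu i z (hBr hz)
  have uσ : UH (1 / 2) (ball x (r / 2)) (fun i z => ((σ (u i z) : ℝ) : ℂ)) :=
    (UH.comp_real isOpen_ball hP.cσ huB hKB).ofReal
  have uσi : UH (1 / 2) (ball x (r / 2)) (fun i z => (((σ (u i z))⁻¹ : ℝ) : ℂ)) :=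
    (UH.comp_real (φ := fun s => (σ s)⁻¹) isOpen_ball
      (hP.cσ.inv fun s hs => (hP.pσ s hs).ne') huB hKB).ofReal
  have uρi : UH (1 / 2) (ball x (r / 2)) (fun i z => (((ρ (u i z))⁻¹ : ℝ) : ℂ)) :=
    (UH.comp_real (φ := fun s => (ρ s)⁻¹) isOpen_ball
      (hP.cρ.inv fun s hs => (hP.pρ s hs).ne') huB hKB).ofReal
  have hpos : ∀ i, ∀ z ∈ ball x (r / 2), u i z ∈ Ioi (-K - 2) := fun i z hz => by
    rw [mem_Ioi]
    linarith [(abs_le.1 (hKB i z hz)).1]
  have uwd : ∀ a, UH (1 / 2) (ball x (r / 2)) (fun i z => wd (u i) z a) := by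
    intro a
    refine (UH.mulC uσi (hg a.castSucc (Fin.last n))).congr isOpen_ball fun i z hz => ?_
    rw [cH_Phi_cl hP (hu2 i z (hBr hz)) (hs2 i z (hBr hz)), pr_inj, ell_inj, add_zero,
      ← mul_assoc, ← Complex.ofReal_mul, inv_mul_cancel₀ (hP.pσ _ (hpos i z hz)).ne']
    simp
  have ufin : UH (1 / 2) (ball x (r / 2)) (fun i z => cH (u i) z a b) := by
    refine (UH.mulC uρi (UH.add (hg a.castSucc b.castSucc)
      (UH.neg (UH.mulC uσ (UH.mulC (uwd a) (UH.conj (uwd b))))))).congr isOpen_ball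
      fun i z hz => ?_
    rw [cH_Phi_cc hP (hu2 i z (hBr hz)) (hs2 i z (hBr hz)), pr_inj, ell_inj, add_zero,
      add_neg_cancel_right, ← mul_assoc, ← Complex.ofReal_mul,
      inv_mul_cancel₀ (hP.pρ _ (hpos i z hz)).ne']
    simp
  exact ufin x (mem_ball_self (by linarith))

end

end Crest.Agent.R257.ELoc_611
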