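import Crest.Agent.R257.ELocF_611

/-!
# R257 (S0395), E-LOC (helper611), part G: bootstrapping

`eloc` : locally uniform `C^k` bounds for families of solutions of `det ∂∂̄u = e^{u+h}`.
-/

set_option autoImplicit false

open Set Metric Filter
open scoped ContDiff Topology Matrix ComplexConjugate

namespace Crest.Agent.R257.ELoc_611

open Crest.Agent.R275.Geo (Cn)

open Crest.Agent.R273.SchA_152 Crest.Agent.R273.SchE_152
open Crest.Agent.R273.Defs_333 (lev)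
open Crest.Agent.R273.YauDefs_635 (cH D2 lev333_eq C3Stmt cH_eq_hs lev333_eq_lev145)
open Crest.Agent.R273.YauLoc_635 (contDiffOn_cH)
open Complex (I)

noncomputable section

variable {ι : Type*} {n : ℕ}

/-! ### ellipticity of the adjugate -/

theorem re_star_dot (a b : Fin n → ℂ) : (star a ⬝ᵥ b).re = (star b ⬝ᵥ a).re := by
  simp only [dotProduct, Complex.re_sum, Pi.star_apply, Complex.star_def]
  refine Finset.sum_congr rfl fun i _ => ?_
  rw [← Complex.conj_re]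
  simp [mul_comm]

theorem star_dot_self (a : Fin n → ℂ) : (star a ⬝ᵥ a).re = ∑ i, ‖a i‖ ^ 2 := by
  simp only [dotProduct, Complex.re_sum, Pi.star_apply, Complex.star_def]
  refine Finset.sum_congr rfl fun i _ => ?_
  rw [mul_comm, Complex.mul_conj, Complex.normSq_eq_norm_sq, Complex.ofReal_re]

theorem ellC_adj {c1 c2 D : ℝ} {H : Matrix (Fin n) (Fin n) ℂ} (h1 : 0 < c1) (h2 : 0 < c2)
    (hD : 0 < D) (hH : EllC c1 c2 H) (hdet : H.det = (D : ℂ)) :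
    EllC (D / c2) (D / c1) H.adjugate := by
  refine ⟨hH.1.adjugate, fun ζ => ?_⟩
  set η : Fin n → ℂ := H.adjugate *ᵥ ζ with hη
  have e1 : H *ᵥ η = (D : ℂ) • ζ := by
    rw [hη, Matrix.mulVec_mulVec, Matrix.mul_adjugate, hdet, Matrix.smul_mulVec,
      Matrix.one_mulVec]
  set s : ℝ := (star ζ ⬝ᵥ η).re with hs
  set Z : ℝ := ∑ a, ‖ζ a‖ ^ 2 with hZ
  have hZ0 : 0 ≤ Z := Finset.sum_nonneg fun _ _ => sq_nonneg _
  have e2 : (star η ⬝ᵥ (H *ᵥ η)).re = D * s := by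
    rw [e1, dotProduct_smul, smul_eq_mul, Complex.re_ofReal_mul, re_star_dot]
  -- the form at `η - t D ζ`
  have e3 : ∀ t : ℝ, (star (η - (t : ℂ) • ζ) ⬝ᵥ (H *ᵥ (η - (t : ℂ) • ζ))).re =
      D * s - 2 * t * (D * Z) + t ^ 2 * (star ζ ⬝ᵥ (H *ᵥ ζ)).re := by
    intro t
    have a1 : (star η ⬝ᵥ (H *ᵥ ζ)) = (D : ℂ) * (star ζ ⬝ᵥ ζ) := by
      have : star η ⬝ᵥ (H *ᵥ ζ) = star (H *ᵥ η) ⬝ᵥ ζ := by
        rw [show star (H *ᵥ η) = star η ᵥ* Hᴴ from Matrix.star_mulVec H η, hH.1.eq,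
          Matrix.dotProduct_mulVec]
      rw [this, e1, star_smul, smul_dotProduct, smul_eq_mul, Complex.star_def,
        Complex.conj_ofReal]
    have a2 : (star ζ ⬝ᵥ (H *ᵥ η)) = (D : ℂ) * (star ζ ⬝ᵥ ζ) := by
      rw [e1, dotProduct_smul, smul_eq_mul]
    have a3 : star (η - (t : ℂ) • ζ) ⬝ᵥ (H *ᵥ (η - (t : ℂ) • ζ)) =
        star η ⬝ᵥ (H *ᵥ η) - 2 * (t : ℂ) * ((D : ℂ) * (star ζ ⬝ᵥ ζ)) +
          (t : ℂ) ^ 2 * (star ζ ⬝ᵥ (H *ᵥ ζ)) := by
      rw [Matrix.mulVec_sub, Matrix.mulVec_smul, star_sub, star_smul, sub_dotProduct,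
        dotProduct_sub, dotProduct_sub, smul_dotProduct, smul_dotProduct, dotProduct_smul,
        dotProduct_smul, a1, a2, Complex.star_def, Complex.conj_ofReal]
      simp only [smul_eq_mul]
      ring
    have a4 : (star ζ ⬝ᵥ ζ).re = Z := star_dot_self ζ
    rw [a3, Complex.add_re, Complex.sub_re, e2]
    have b1 : (2 * (t : ℂ) * ((D : ℂ) * (star ζ ⬝ᵥ ζ))).re = 2 * t * (D * Z) := by
      rw [← a4, show (2 * (t : ℂ) * ((D : ℂ) * (star ζ ⬝ᵥ ζ))) =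
        ((2 * t * D : ℝ) : ℂ) * (star ζ ⬝ᵥ ζ) by push_cast; ring, Complex.re_ofReal_mul]
      ring
    have b2 : ((t : ℂ) ^ 2 * (star ζ ⬝ᵥ (H *ᵥ ζ))).re = t ^ 2 * (star ζ ⬝ᵥ (H *ᵥ ζ)).re := by
      rw [show ((t : ℂ) ^ 2 * (star ζ ⬝ᵥ (H *ᵥ ζ))) = ((t ^ 2 : ℝ) : ℂ) * (star ζ ⬝ᵥ (H *ᵥ ζ)) by
        push_cast; ring, Complex.re_ofReal_mul]
    rw [b1, b2]
  have hnn : ∀ x : Fin n → ℂ, 0 ≤ (star x ⬝ᵥ (H *ᵥ x)).re := fun x =>
    (mul_nonneg h1.le (Finset.sum_nonneg fun _ _ => sq_nonneg _)).trans (hH.2 x).1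
  have hup := (hH.2 ζ).2
  have hlow := (hH.2 ζ).1
  have hηl := (hH.2 η).1
  rw [e2] at hηl
  constructor
  · -- lower bound: `t = D / c2`
    have h3 := hnn (η - ((D / c2 : ℝ) : ℂ) • ζ)
    rw [e3] at h3
    have h4 : (D / c2) ^ 2 * (star ζ ⬝ᵥ (H *ᵥ ζ)).re ≤ (D / c2) ^ 2 * (c2 * Z) :=
      mul_le_mul_of_nonneg_left hup (sq_nonneg _)
    have h5 : (D / c2) ^ 2 * (c2 * Z) = D / c2 * (D * Z) := by field_simp
    have h6 : D * (D / c2 * Z) = D / c2 * (D * Z) := by ring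
    have h7 : D * (D / c2 * Z) ≤ D * s := by linarith
    exact le_of_mul_le_mul_left h7 hD
  · -- upper bound by Cauchy-Schwarz in the standard form
    have hs0 : 0 ≤ s := by
      have := hnn η
      rw [e2] at this
      exact nonneg_of_mul_nonneg_right this hD
    have hη0 : 0 ≤ ∑ a, ‖η a‖ ^ 2 := Finset.sum_nonneg fun _ _ => sq_nonneg _
    have h3 : ∀ t : ℝ, 0 ≤ ∑ a, ‖η a‖ ^ 2 - 2 * t * s + t ^ 2 * Z := by
      intro t
      have h4 : (star (η - (t : ℂ) • ζ) ⬝ᵥ (η - (t : ℂ) • ζ)).re =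
          ∑ a, ‖η a‖ ^ 2 - 2 * t * s + t ^ 2 * Z := by
        have a3 : star (η - (t : ℂ) • ζ) ⬝ᵥ (η - (t : ℂ) • ζ) =
            star η ⬝ᵥ η - (t : ℂ) * (star ζ ⬝ᵥ η) - (t : ℂ) * (star η ⬝ᵥ ζ) +
              ((t ^ 2 : ℝ) : ℂ) * (star ζ ⬝ᵥ ζ) := by
          rw [star_sub, star_smul, sub_dotProduct,
            dotProduct_sub, dotProduct_sub, smul_dotProduct, smul_dotProduct, dotProduct_smul,
            dotProduct_smul, Complex.star_def, Complex.conj_ofReal]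
          simp only [smul_eq_mul]
          push_cast
          ring
        rw [a3, Complex.add_re, Complex.sub_re, Complex.sub_re, Complex.re_ofReal_mul,
          Complex.re_ofReal_mul, Complex.re_ofReal_mul, re_star_dot η ζ, star_dot_self,
          star_dot_self, ← hs, ← hZ]
        ring
      rw [← h4, star_dot_self]
      exact Finset.sum_nonneg fun _ _ => sq_nonneg _
    have h4 := h3 (D / c1)
    have h5 : c1 * ∑ a, ‖η a‖ ^ 2 ≤ D * s := hηl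
    have h6 : c1 * (2 * (D / c1) * s) = 2 * (D * s) := by field_simp
    have h7 : c1 * ((D / c1) ^ 2 * Z) = D * (D / c1 * Z) := by field_simp
    have h8 : 0 ≤ c1 * (∑ a, ‖η a‖ ^ 2 - 2 * (D / c1) * s + (D / c1) ^ 2 * Z) :=
      mul_nonneg h1.le h4
    have h9 : D * s ≤ D * (D / c1 * Z) := by
      have : c1 * (∑ a, ‖η a‖ ^ 2 - 2 * (D / c1) * s + (D / c1) ^ 2 * Z) =
        c1 * ∑ a, ‖η a‖ ^ 2 - c1 * (2 * (D / c1) * s) + c1 * ((D / c1) ^ 2 * Z) := by ring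
      rw [this, h6, h7] at h8
      linarith
    exact le_of_mul_le_mul_left h9 hD

/-- the complex Hessian in terms of `lev` -/
theorem ellC_cH {u : Cn n → ℝ} {z : Cn n} {lo hi : ℝ} (hu : ContDiffAt ℝ 2 u z)
    (h : ∀ v, lo * ‖v‖ ^ 2 ≤ lev u z v ∧ lev u z v ≤ hi * ‖v‖ ^ 2) :
    EllC (lo / 4) (hi / 4) (cH u z) := by
  refine ⟨?_, fun x => ?_⟩
  · ext a b
    rw [Matrix.conjTranspose_apply, cH_eq_hs hu, cH_eq_hs hu]
    exact Crest.Agent.R273.Levi_145.hs_herm hu b a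
  set v : Cn n := WithLp.toLp 2 (fun a => conj (x a)) with hv
  have h1 := h v
  rw [lev333_eq_lev145] at h1
  have h2 := Crest.Agent.R273.Levi_145.lev_eq hu v
  have h3 : star x ⬝ᵥ (cH u z) *ᵥ x
      = ∑ a, ∑ b, Crest.Agent.R273.Levi_145.hs (Crest.Agent.R273.Levi_145.cx u) z a b
        * v a * conj (v b) := by
    simp only [dotProduct, Matrix.mulVec, Pi.star_apply, RCLike.star_def, Finset.mul_sum, hv,
      Complex.conj_conj, cH_eq_hs hu]
    refine Finset.sum_congr rfl fun a _ => Finset.sum_congr rfl fun b _ => ?_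
    ring
  have h4 : ‖v‖ ^ 2 = ∑ a, ‖x a‖ ^ 2 := by
    rw [EuclideanSpace.norm_sq_eq]
    simp [hv]
  rw [h3, ← h2, Complex.ofReal_re, ← h4]
  constructor <;> linarith [h1.1, h1.2]

/-! ### Jacobi's formula -/

theorem sum_adj_col (A : Matrix (Fin n) (Fin n) ℂ) (i : Fin n) (b : Fin n → ℂ) :
    (A.updateCol i b).det = ∑ j, A.adjugate i j * b j := by
  rw [← Matrix.cramer_apply, Matrix.cramer_eq_adjugate_mulVec]
  rfl

theorem hasFDerivAt_det {V : Type*} [NormedAddCommGroup V] [NormedSpace ℝ V]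
    {A : V → Matrix (Fin n) (Fin n) ℂ} {A' : Fin n → Fin n → V →L[ℝ] ℂ} {x : V}
    (hA : ∀ i j, HasFDerivAt (fun y => A y i j) (A' i j) x) :
    HasFDerivAt (fun y => (A y).det) (∑ i, ∑ j, (A x).adjugate i j • A' j i) x := by
  have h1 : ∀ y, (A y).det =
      ∑ σ : Equiv.Perm (Fin n), ((Equiv.Perm.sign σ : ℤ) : ℂ) * ∏ i, A y (σ i) i := by
    intro y; rw [Matrix.det_apply']
  simp_rw [h1]
  have h2 : HasFDerivAt
      (fun y => ∑ σ : Equiv.Perm (Fin n), ((Equiv.Perm.sign σ : ℤ) : ℂ) * ∏ i, A y (σ i) i)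
      (∑ σ : Equiv.Perm (Fin n), ((Equiv.Perm.sign σ : ℤ) : ℂ) •
        ∑ i, (∏ j ∈ Finset.univ.erase i, A x (σ j) j) • A' (σ i) i) x := by
    refine HasFDerivAt.fun_sum fun σ _ => ?_
    exact (HasFDerivAt.finsetProd (fun i _ => hA (σ i) i)).const_mul _
  refine h2.congr_fderiv ?_
  ext v
  simp only [_root_.sum_apply, _root_.smul_apply, smul_eq_mul]
  simp_rw [← sum_adj_col (A x) _ (fun j => A' j _ v), Matrix.det_apply']
  rw [Finset.sum_comm]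
  refine Finset.sum_congr rfl fun σ _ => ?_
  rw [Finset.mul_sum]
  refine Finset.sum_congr rfl fun i _ => ?_
  congr 1
  rw [← Finset.mul_prod_erase Finset.univ _ (Finset.mem_univ i)]
  simp only [Matrix.updateCol_self]
  rw [mul_comm]
  congr 1
  refine Finset.prod_congr rfl fun j hj => ?_
  rw [Matrix.updateCol_ne (Finset.ne_of_mem_erase hj)]

/-- the linearised equation -/
theorem lin_eq {U : Set (Cn n)} (hU : IsOpen U) {u h : Cn n → ℝ} (hu : ContDiffOn ℝ ∞ u U)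
    (hh : ContDiffOn ℝ ∞ h U)
    (heq : ∀ z ∈ U, (cH u z).det = (Real.exp (u z + h z) : ℂ)) {z : Cn n} (hz : z ∈ U)
    (v : Cn n) :
    (((cH u z).adjugate * cH (fun z => fderiv ℝ u z v) z).trace).re =
      Real.exp (u z + h z) * (fderiv ℝ u z v + fderiv ℝ h z v) := by
  have h1 : HasFDerivAt (fun y => (cH u y).det)
      (∑ i, ∑ j, (cH u z).adjugate i j • fderiv ℝ (fun y => cH u y j i) z) z :=
    hasFDerivAt_det fun i j =>
      (diffAt_of_smooth hU (contDiffOn_cH hU hu i j) hz).hasFDerivAt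
  have h2 : HasFDerivAt (fun y => ((Real.exp (u y + h y) : ℝ) : ℂ))
      (Complex.ofRealCLM.comp (Real.exp (u z + h z) • (fderiv ℝ u z + fderiv ℝ h z))) z :=
    Complex.ofRealCLM.hasFDerivAt.comp z (((diffAt_of_smooth hU hu hz).hasFDerivAt.add
      (diffAt_of_smooth hU hh hz).hasFDerivAt).exp)
  have h3 : (fun y => (cH u y).det) =ᶠ[𝓝 z] fun y => ((Real.exp (u y + h y) : ℝ) : ℂ) :=
    Filter.eventually_of_mem (hU.mem_nhds hz) heq
  have h4 := h1.unique (h2.congr_of_eventuallyEq h3)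
  have h5 := congrArg (fun L : Cn n →L[ℝ] ℂ => (L v).re) h4
  simp only [_root_.sum_apply, _root_.smul_apply, smul_eq_mul, ContinuousLinearMap.comp_apply,
    Complex.ofRealCLM_apply, Complex.ofReal_re, _root_.add_apply] at h5
  rw [← h5, trace_re, Complex.re_sum]
  refine Finset.sum_congr rfl fun i _ => ?_
  rw [Complex.re_sum]
  refine Finset.sum_congr rfl fun j _ => ?_
  rw [cH_dir hU hu hz v j i]

/-! ### the main theorem -/

/-- first step: `C^{2,1/2}` bounds -/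
theorem eloc_two (h3 : C3Stmt) {U : Set (Cn n)} (hU : IsOpen U) {u h : ι → Cn n → ℝ}
    (hu : ∀ i, ContDiffOn ℝ ∞ (u i) U) (hh : UC (1 / 2) U 3 h)
    (h0 : ∀ x ∈ U, ∃ r > 0, ∃ S : ℝ, ∀ i, ∀ z ∈ ball x r, |u i z| ≤ S)
    (hell : ∀ x ∈ U, ∃ r > 0, ∃ lo > 0, ∃ hi : ℝ, ∀ i, ∀ z ∈ ball x r, ∀ v,
      lo * ‖v‖ ^ 2 ≤ lev (u i) z v ∧ lev (u i) z v ≤ hi * ‖v‖ ^ 2)
    (heq : ∀ i, ∀ z ∈ U, (cH (u i) z).det = (Real.exp (u i z + h i z) : ℂ)) :
    UC (1 / 2) U 2 u := by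
  have hH := hess_uh h3 hU hu hh h0 hell heq
  refine lin0 hU (G := fun _ _ => (1 : Matrix (Fin n) (Fin n) ℂ)) (fun p q => UH.const _)
    (fun x hx => ⟨1, one_pos, 1, 1, one_pos, fun i z _ =>
      Crest.Agent.R273.YauSchF_635.ell_one⟩) hu ?_ h0
  have h1 : UC (1 / 2) U 0 (fun i z => (∑ a, cH (u i) z a a).re) :=
    UC.re hU (UC.sum hU _ fun a _ => ⟨fun i => contDiffOn_cH hU (hu i) a a, hH a a⟩)
  refine h1.uh.congr hU fun i z _ => ?_
  rw [one_mul]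
  rfl

/-- **locally uniform bounds of all derivatives** -/
theorem eloc_uc (h3 : C3Stmt) {U : Set (Cn n)} (hU : IsOpen U) {u h : ι → Cn n → ℝ}
    (hu : ∀ i, ContDiffOn ℝ ∞ (u i) U) (hh : ∀ k, UC (1 / 2) U k h)
    (h0 : ∀ x ∈ U, ∃ r > 0, ∃ S : ℝ, ∀ i, ∀ z ∈ ball x r, |u i z| ≤ S)
    (hell : ∀ x ∈ U, ∃ r > 0, ∃ lo > 0, ∃ hi : ℝ, ∀ i, ∀ z ∈ ball x r, ∀ v,
      lo * ‖v‖ ^ 2 ≤ lev (u i) z v ∧ lev (u i) z v ≤ hi * ‖v‖ ^ 2)
    (heq : ∀ i, ∀ z ∈ U, (cH (u i) z).det = (Real.exp (u i z + h i z) : ℂ)) (k : ℕ) :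
    UC (1 / 2) U (k + 2) u := by
  have hG : ∀ x ∈ U, ∃ r > 0, ∃ lo hi : ℝ, 0 < lo ∧ ∀ i, ∀ z ∈ ball x r,
      EllC lo hi (cH (u i) z).adjugate := by
    intro x hx
    obtain ⟨r1, hr1, S, H1⟩ := h0 x hx
    obtain ⟨r2, hr2, lo, hlo, hi, H2⟩ := hell x hx
    obtain ⟨r3, hr3, T, hT, H3⟩ := (hh 0).uh x hx
    obtain ⟨r4, hr4, H4⟩ := Metric.isOpen_iff.1 hU x hx
    obtain ⟨r, hr, Hr⟩ := exists_small [r1, r2, r3, r4] (by
      intro t ht
      simp only [List.mem_cons, List.not_mem_nil, or_false] at ht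
      rcases ht with rfl | rfl | rfl | rfl
      · exact hr1
      · exact hr2
      · exact hr3
      · exact hr4)
    have l1 : r ≤ r1 := Hr _ (by simp)
    have l2 : r ≤ r2 := Hr _ (by simp)
    have l3 : r ≤ r3 := Hr _ (by simp)
    have l4 : r ≤ r4 := Hr _ (by simp)
    have hc1 : 0 < lo / 4 := by positivity
    have hc2 : 0 < max lo hi / 4 := by
      have := lt_of_lt_of_le hlo (le_max_left lo hi)
      positivity
    refine ⟨r, hr, Real.exp (-(S + T)) / (max lo hi / 4), Real.exp (S + T) / (lo / 4),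
      by positivity, fun i z hz => ?_⟩
    have hzU : z ∈ U := H4 (ball_subset_ball l4 hz)
    have hzc : ContDiffAt ℝ 2 (u i) z :=
      ((hu i).contDiffAt (hU.mem_nhds hzU)).of_le two_le_infty
    have e1 : EllC (lo / 4) (max lo hi / 4) (cH (u i) z) := by
      refine ellC_cH hzc fun v => ?_
      obtain ⟨k1, k2⟩ := H2 i z (ball_subset_ball l2 hz) v
      exact ⟨k1, k2.trans (mul_le_mul_of_nonneg_right (le_max_right _ _) (sq_nonneg _))⟩
    have e2 := ellC_adj hc1 hc2 (Real.exp_pos _) e1 (heq i z hzU)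
    have a1 := abs_le.1 (H1 i z (ball_subset_ball l1 hz))
    have a2 := abs_le.1 ((H3 i).bdd z (ball_subset_ball l3 hz))
    refine ⟨e2.1, fun ζ => ⟨?_, ?_⟩⟩
    · refine le_trans ?_ (e2.2 ζ).1
      refine mul_le_mul_of_nonneg_right ?_ (Finset.sum_nonneg fun _ _ => sq_nonneg _)
      exact div_le_div_of_nonneg_right (Real.exp_le_exp.2 (by linarith)) hc2.le
    · refine le_trans (e2.2 ζ).2 ?_
      refine mul_le_mul_of_nonneg_right ?_ (Finset.sum_nonneg fun _ _ => sq_nonneg _)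
      exact div_le_div_of_nonneg_right (Real.exp_le_exp.2 (by linarith)) hc1.le
  induction k with
  | zero => exact eloc_two h3 hU hu (hh 3) h0 hell heq
  | succ k ih =>
    refine UC.of_dir hU hu ih.uh fun v => ?_
    refine lin hU hG k (w := fun i z => fderiv ℝ (u i) z v)
      (f := fun i z => Real.exp (u i z + h i z) * (fderiv ℝ (u i) z v + fderiv ℝ (h i) z v))
      (fun p q => UC.adj hU (fun p q => UC.cH hU ih p q) p q) ?_ ?_ ?_ ?_
    · exact fun i => (ContinuousLinearMap.apply ℝ ℝ v).contDiff.comp_contDiffOn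
        (smooth_fderiv hU (hu i))
    · exact UC.mulR hU (UC.exp hU (UC.add hU (ih.of_le (by omega)) (hh k)))
        (UC.add hU ((ih.of_le (by omega : k + 1 ≤ k + 2)).dir hU v) ((hh (k + 1)).dir hU v))
    · exact fun i z hz => lin_eq hU (hu i) ((hh 0).smooth i) (heq i) hz v
    · intro x hx
      obtain ⟨r, hr, C, hC, H⟩ := (ih.dir hU v).uh x hx
      exact ⟨r, hr, C, fun i z hz => (H i).bdd z hz⟩

/-- **E-LOC**: locally uniform `C^k` bounds -/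
theorem eloc (h3 : C3Stmt) {U : Set (Cn n)} (hU : IsOpen U) {u h : ι → Cn n → ℝ}
    (hu : ∀ i, ContDiffOn ℝ ∞ (u i) U) (hh : ∀ i, ContDiffOn ℝ ∞ (h i) U)
    (hUh : ∀ k, UB k U h) (h0 : UB 0 U u)
    (hell : ∀ x ∈ U, ∃ r > 0, ∃ lo > 0, ∃ hi : ℝ, ∀ i, ∀ z ∈ ball x r, ∀ v,
      lo * ‖v‖ ^ 2 ≤ lev (u i) z v ∧ lev (u i) z v ≤ hi * ‖v‖ ^ 2)
    (heq : ∀ i, ∀ z ∈ U, (cH (u i) z).det = (Real.exp (u i z + h i z) : ℂ)) (k : ℕ) :
    UB k U u :=
  ((eloc_uc h3 hU hu (fun k => UC.of_ub hU (by norm_num) hh (hUh (k + 1))) (fun x hx => by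
    obtain ⟨r, hr, C, -, H⟩ := h0.bdd hx
    exact ⟨r, hr, C, H⟩) hell heq k).of_le (by omega : k ≤ k + 2)).ub

end

end Crest.Agent.R257.ELoc_611
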