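import Crest.Agent.R257.ELocG_611

/-!
# R257 (S0395), E-LOC (helper611), part H: numerical form

`eloc_num` : `|D^k u| ≤ C` on the half ball, `C` depends only on the constants.
-/

set_option autoImplicit false

open Set Metric Filter
open scoped ContDiff Topology Matrix ComplexConjugate

namespace Crest.Agent.R257.ELoc_611

open Crest.Agent.R275.Geo (Cn)
open Crest.Agent.R273.Defs_333 (lev)
open Crest.Agent.R273.YauDefs_635 (cH D2 lev333_eq C3Stmt)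

noncomputable section

variable {ι : Type*} {n : ℕ}

/-- locally uniform bounds are uniform on compact sets -/
theorem UB.compact {X V : Type*} [NormedAddCommGroup X] [NormedSpace ℝ X]
    [NormedAddCommGroup V] [NormedSpace ℝ V] {k : ℕ} {U K : Set X} {F : ι → X → V}
    (h : UB k U F) (hK : IsCompact K) (hKU : K ⊆ U) :
    ∃ C : ℝ, ∀ i, ∀ y ∈ K, ∀ m ≤ k, ‖iteratedFDeriv ℝ m (F i) y‖ ≤ C := by
  refine hK.induction_on (p := fun s => ∃ C : ℝ, ∀ i, ∀ y ∈ s, ∀ m ≤ k,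
    ‖iteratedFDeriv ℝ m (F i) y‖ ≤ C) ⟨0, fun i y hy => hy.elim⟩ ?_ ?_ ?_
  · rintro s t hst ⟨C, H⟩
    exact ⟨C, fun i y hy => H i y (hst hy)⟩
  · rintro s t ⟨C, H⟩ ⟨D, H'⟩
    refine ⟨max C D, fun i y hy m hm => ?_⟩
    rcases hy with hy | hy
    · exact (H i y hy m hm).trans (le_max_left _ _)
    · exact (H' i y hy m hm).trans (le_max_right _ _)
  · intro x hx
    obtain ⟨r, hr, C, H⟩ := h x (hKU hx)
    exact ⟨ball x r, mem_nhdsWithin_of_mem_nhds (ball_mem_nhds x hr), C, H⟩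

theorem D2_shift (u : Cn n → ℝ) (a z v w : Cn n) :
    D2 (fun z => u (z + a)) z v w = D2 u (z + a) v w := by
  have e : fderiv ℝ (fun z => u (z + a)) = fun z => fderiv ℝ u (z + a) := by
    funext z
    exact fderiv_comp_add_right a
  rw [D2, e, fderiv_comp_add_right (f := fderiv ℝ u) a]
  rfl

theorem lev_shift (u : Cn n → ℝ) (a z v : Cn n) :
    lev (fun z => u (z + a)) z v = lev u (z + a) v := by
  rw [lev333_eq, lev333_eq, D2_shift, D2_shift]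

theorem cH_shift (u : Cn n → ℝ) (a z : Cn n) :
    cH (fun z => u (z + a)) z = cH u (z + a) := by
  ext p q
  simp only [cH, Matrix.of_apply, D2_shift]

/-- **E-LOC**, numerical form -/
theorem eloc_num (h3 : C3Stmt) (n : ℕ) {r lo : ℝ} (hi K : ℝ) (Kh : ℕ → ℝ) (hr : 0 < r)
    (hlo : 0 < lo) (k : ℕ) :
    ∃ C : ℝ, ∀ (z₀ : Cn n) (u h : Cn n → ℝ), ContDiffOn ℝ ∞ u (ball z₀ r) →
      ContDiffOn ℝ ∞ h (ball z₀ r) →
      (∀ z ∈ ball z₀ r, ∀ v, lo * ‖v‖ ^ 2 ≤ lev u z v ∧ lev u z v ≤ hi * ‖v‖ ^ 2) →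
      (∀ z ∈ ball z₀ r, (cH u z).det = (Real.exp (u z + h z) : ℂ)) →
      (∀ z ∈ ball z₀ r, |u z| ≤ K) →
      (∀ z ∈ ball z₀ r, ∀ m, ‖iteratedFDeriv ℝ m h z‖ ≤ Kh m) →
      ∀ z ∈ ball z₀ (r / 2), ‖iteratedFDeriv ℝ k u z‖ ≤ C := by
  let J : Type := {p : Cn n × (Cn n → ℝ) × (Cn n → ℝ) //
    ContDiffOn ℝ ∞ p.2.1 (ball p.1 r) ∧ ContDiffOn ℝ ∞ p.2.2 (ball p.1 r) ∧
    (∀ z ∈ ball p.1 r, ∀ v, lo * ‖v‖ ^ 2 ≤ lev p.2.1 z v ∧ lev p.2.1 z v ≤ hi * ‖v‖ ^ 2) ∧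
    (∀ z ∈ ball p.1 r, (cH p.2.1 z).det = (Real.exp (p.2.1 z + p.2.2 z) : ℂ)) ∧
    (∀ z ∈ ball p.1 r, |p.2.1 z| ≤ K) ∧
    (∀ z ∈ ball p.1 r, ∀ m, ‖iteratedFDeriv ℝ m p.2.2 z‖ ≤ Kh m)}
  let u : J → Cn n → ℝ := fun p z => p.1.2.1 (z + p.1.1)
  let h : J → Cn n → ℝ := fun p z => p.1.2.2 (z + p.1.1)
  have hmem : ∀ (p : J) (z : Cn n), z ∈ ball (0 : Cn n) r → z + p.1.1 ∈ ball p.1.1 r := by
    intro p z hz
    rw [mem_ball, dist_eq_norm] at hz ⊢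
    simpa using hz
  have hsh : ∀ p : J, ContDiff ℝ ∞ fun z : Cn n => z + p.1.1 := fun p =>
    contDiff_id.add contDiff_const
  have hlocal : ∀ x ∈ ball (0 : Cn n) r, ∃ s > 0, ball x s ⊆ ball (0 : Cn n) r := fun x hx =>
    Metric.isOpen_iff.1 isOpen_ball x hx
  have H : UB k (ball (0 : Cn n) r) u := by
    refine eloc (u := u) (h := h) h3 isOpen_ball
      (fun p => p.2.1.comp (hsh p).contDiffOn fun z hz => hmem p z hz)
      (fun p => p.2.2.1.comp (hsh p).contDiffOn fun z hz => hmem p z hz) ?_ ?_ ?_ ?_ k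
    · intro l x hx
      obtain ⟨s, hs, hsub⟩ := hlocal x hx
      refine ⟨s, hs, ∑ m ∈ Finset.range (l + 1), |Kh m|, fun p y hy m hm => ?_⟩
      have e : iteratedFDeriv ℝ m (h p) y = iteratedFDeriv ℝ m p.1.2.2 (y + p.1.1) :=
        iteratedFDeriv_comp_add_right m p.1.1 y
      rw [e]
      refine (p.2.2.2.2.2.2 _ (hmem p y (hsub hy)) m).trans ((le_abs_self _).trans ?_)
      exact Finset.single_le_sum (f := fun m => |Kh m|) (fun _ _ => abs_nonneg _)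
        (Finset.mem_range.2 (by omega))
    · intro x hx
      obtain ⟨s, hs, hsub⟩ := hlocal x hx
      refine ⟨s, hs, K, fun p y hy m hm => ?_⟩
      obtain rfl : m = 0 := Nat.le_zero.1 hm
      rw [norm_iteratedFDeriv_zero]
      exact p.2.2.2.2.2.1 _ (hmem p y (hsub hy))
    · intro x hx
      obtain ⟨s, hs, hsub⟩ := hlocal x hx
      refine ⟨s, hs, lo, hlo, hi, fun p z hz v => ?_⟩
      rw [show lev (u p) z v = lev p.1.2.1 (z + p.1.1) v from lev_shift _ _ _ _]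
      exact p.2.2.2.1 _ (hmem p z (hsub hz)) v
    · intro p z hz
      rw [show cH (u p) z = cH p.1.2.1 (z + p.1.1) from cH_shift _ _ _]
      exact p.2.2.2.2.1 _ (hmem p z hz)
  obtain ⟨C, HC⟩ := H.compact (isCompact_closedBall (0 : Cn n) (r / 2))
    (closedBall_subset_ball (by linarith))
  refine ⟨C, fun z₀ u' h' a1 a2 a3 a4 a5 a6 z hz => ?_⟩
  have h1 := HC ⟨(z₀, u', h'), a1, a2, a3, a4, a5, a6⟩ (z - z₀) (by
    rw [mem_ball, dist_eq_norm] at hz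
    rw [mem_closedBall, dist_zero_right]
    exact hz.le) k le_rfl
  have e : iteratedFDeriv ℝ k (fun z => u' (z + z₀)) (z - z₀) =
      iteratedFDeriv ℝ k u' (z - z₀ + z₀) := iteratedFDeriv_comp_add_right k z₀ (z - z₀)
  have h2 : ‖iteratedFDeriv ℝ k (fun z => u' (z + z₀)) (z - z₀)‖ ≤ C := h1
  rw [e, sub_add_cancel] at h2
  exact h2

end

end Crest.Agent.R257.ELoc_611
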