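import Crest.Agent.R257.ELocH_611

/-!
# R257 (S0395), E-LOC (helper611), part I: compactness

* `lim_smooth` : pointwise limits (along any filter) of families with locally uniform `C^k` bounds
  for all `k` are smooth, and all derivatives converge locally uniformly
* `exists_subseq` : sequences with locally uniform `C^k` bounds for all `k` have subsequences which
  converge in `C^∞_loc`
* `tendsto_cH`, `tendsto_lev` : consequences for complex Hessians
-/

set_option autoImplicit false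

open Set Metric Filter
open scoped ContDiff Topology Matrix ComplexConjugate

namespace Crest.Agent.R257.ELoc_611

open Crest.Agent.R275.Geo (Cn)
open Crest.Agent.R273.Defs_333 (lev)
open Crest.Agent.R273.YauDefs_635 (cH D2 lev333_eq C3Stmt)
open Crest.Agent.R273.YauLim_635

noncomputable section

variable {ι : Type*}

theorem UB.fd {X V : Type*} [NormedAddCommGroup X] [NormedSpace ℝ X]
    [NormedAddCommGroup V] [NormedSpace ℝ V] {k : ℕ} {U : Set X} {F : ι → X → V}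
    (h : UB (k + 1) U F) : UB k U (fun i => fderiv ℝ (F i)) := by
  intro x hx
  obtain ⟨r, hr, C, H⟩ := h x hx
  refine ⟨r, hr, C, fun i y hy m hm => ?_⟩
  rw [norm_iteratedFDeriv_fderiv]
  exact H i y hy (m + 1) (by omega)

/-- a locally uniform Lipschitz bound -/
theorem UB.lip {X V : Type*} [NormedAddCommGroup X] [NormedSpace ℝ X]
    [NormedAddCommGroup V] [NormedSpace ℝ V] {U : Set X} (hU : IsOpen U) {F : ι → X → V}
    (hF : ∀ i, ∀ x ∈ U, DifferentiableAt ℝ (F i) x) (h : UB 1 U F) {x : X} (hx : x ∈ U) :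
    ∃ r > 0, ball x r ⊆ U ∧ ∃ C : ℝ, 0 ≤ C ∧ ∀ i, ∀ y ∈ ball x r, ∀ z ∈ ball x r,
      ‖F i y - F i z‖ ≤ C * ‖y - z‖ := by
  obtain ⟨r, hr, C, H⟩ := h x hx
  obtain ⟨s, hs, hsU⟩ := Metric.isOpen_iff.1 hU x hx
  refine ⟨min r s, lt_min hr hs, (ball_subset_ball (min_le_right _ _)).trans hsU, |C|,
    abs_nonneg _, fun i y hy z hz => ?_⟩
  refine (convex_ball x (min r s)).norm_image_sub_le_of_norm_fderiv_le
    (fun w hw => hF i w (hsU (ball_subset_ball (min_le_right _ _) hw))) (fun w hw => ?_) hz hy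
  have := H i w (ball_subset_ball (min_le_left _ _) hw) 1 le_rfl
  rw [norm_iteratedFDeriv_one] at this
  exact this.trans (le_abs_self _)

/-- equi-Lipschitz families: pointwise convergence is locally uniform -/
theorem tlu {X V : Type*} [NormedAddCommGroup X] [NormedAddCommGroup V] {U : Set X}
    {p : Filter ι} [p.NeBot] {F : ι → X → V} {f : X → V}
    (h : ∀ x ∈ U, ∃ r > 0, ball x r ⊆ U ∧ ∃ C : ℝ, 0 ≤ C ∧ ∀ i, ∀ y ∈ ball x r,
      ∀ z ∈ ball x r, ‖F i y - F i z‖ ≤ C * ‖y - z‖)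
    (hf : ∀ x ∈ U, Tendsto (fun i => F i x) p (𝓝 (f x))) :
    TendstoLocallyUniformlyOn F f p U := by
  rw [Metric.tendstoLocallyUniformlyOn_iff]
  intro ε hε x hx
  obtain ⟨r, hr, hrU, C, hC, H⟩ := h x hx
  have Hf : ∀ y ∈ ball x r, ∀ z ∈ ball x r, ‖f y - f z‖ ≤ C * ‖y - z‖ := fun y hy z hz =>
    le_of_tendsto (((hf y (hrU hy)).sub (hf z (hrU hz))).norm)
      (Eventually.of_forall fun i => H i y hy z hz)
  set δ : ℝ := min r (ε / (4 * (C + 1))) with hδ
  have hδ0 : 0 < δ := lt_min hr (by positivity)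
  refine ⟨ball x δ, mem_nhdsWithin_of_mem_nhds (ball_mem_nhds x hδ0), ?_⟩
  have h1 : ∀ᶠ i in p, dist (F i x) (f x) < ε / 4 :=
    (Metric.tendsto_nhds.1 (hf x hx)) (ε / 4) (by positivity)
  filter_upwards [h1] with i hi y hy
  have hyr : y ∈ ball x r := ball_subset_ball (min_le_left _ _) hy
  have hxr : x ∈ ball x r := mem_ball_self hr
  have hd : ‖y - x‖ ≤ ε / (4 * (C + 1)) := by
    rw [mem_ball, dist_eq_norm] at hy
    exact hy.le.trans (min_le_right _ _)
  have hCd : C * ‖y - x‖ ≤ ε / 4 := by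
    have h4 : C * ‖y - x‖ ≤ (C + 1) * (ε / (4 * (C + 1))) := by
      have := norm_nonneg (y - x)
      nlinarith
    have h5 : (C + 1) * (ε / (4 * (C + 1))) = ε / 4 := by field_simp
    linarith
  have h2 := H i y hyr x hxr
  have h3 := Hf y hyr x hxr
  rw [dist_eq_norm] at hi ⊢
  have e : f y - F i y = (f y - f x) - (F i x - f x) - (F i y - F i x) := by abel
  rw [e]
  calc ‖(f y - f x) - (F i x - f x) - (F i y - F i x)‖
      ≤ ‖f y - f x‖ + ‖F i x - f x‖ + ‖F i y - F i x‖ :=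
        (norm_sub_le _ _).trans (add_le_add_left (norm_sub_le _ _) _)
    _ < ε := by linarith

section lim

variable {X : Type} [NormedAddCommGroup X] [NormedSpace ℝ X] [FiniteDimensional ℝ X] {U : Set X}

theorem ultra_step (hU : IsOpen U) (p : Ultrafilter ι) {V : Type} [NormedAddCommGroup V]
    [NormedSpace ℝ V] [FiniteDimensional ℝ V] {F : ι → X → V} {f : X → V}
    (hF : ∀ i, ContDiffOn ℝ ∞ (F i) U) (hB : UB 2 U F)
    (hf : ∀ x ∈ U, Tendsto (fun i => F i x) p (𝓝 (f x))) {x : X} (hx : x ∈ U) :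
    DifferentiableAt ℝ f x ∧ Tendsto (fun i => fderiv ℝ (F i) x) p (𝓝 (fderiv ℝ f x)) := by
  have hB1 : UB 1 U (fun i => fderiv ℝ (F i)) := hB.fd
  obtain ⟨r, hr, hrU, C, hC, H⟩ := hB1.lip hU
    (fun i y hy => diffAt_of_smooth hU (smooth_fderiv hU (hF i)) hy) hx
  -- the limit of the derivatives
  obtain ⟨L, hL⟩ : ∃ L, Tendsto (fun i => fderiv ℝ (F i) x) p (𝓝 L) := by
    obtain ⟨s, hs, D, hD, H2⟩ := hB1.bdd hx
    have hc : IsCompact (closedBall (0 : X →L[ℝ] V) D) := isCompact_closedBall _ _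
    obtain ⟨y, -, hy⟩ := hc.ultrafilter_le_nhds (p.map fun i => fderiv ℝ (F i) x) (by
      rw [le_principal_iff]
      exact Ultrafilter.mem_coe.2 (by
        have : (fun i => fderiv ℝ (F i) x) ⁻¹' (closedBall (0 : X →L[ℝ] V) D) = univ := by
          ext k
          simpa using H2 k x (mem_ball_self hs)
        rw [Ultrafilter.mem_map, this]; exact univ_mem))
    exact ⟨y, hy⟩
  have h1 : HasFDerivAt f L x := by
    refine hasFDerivAt_of_taylor (s := ball x r) (ball_mem_nhds x hr) one_pos (S := C)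
      fun w hw => ?_
    have h2 : Tendsto (fun i => ‖F i w - F i x - fderiv ℝ (F i) x (w - x)‖) p
        (𝓝 ‖f w - f x - L (w - x)‖) := by
      refine (((hf w (hrU hw)).sub (hf x hx)).sub ?_).norm
      exact ((ContinuousLinearMap.apply ℝ V (w - x)).continuous.tendsto L).comp hL
    refine le_of_tendsto h2 (Eventually.of_forall fun i => ?_)
    exact taylor_holder (convex_ball x r) zero_le_one
      (fun y hy => diffAt_of_smooth hU (hF i) (hrU hy))
      (fun y hy z hz => by rw [Real.rpow_one]; exact H i y hy z hz) (mem_ball_self hr) hw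
  exact ⟨h1.differentiableAt, by rw [h1.fderiv]; exact hL⟩

theorem lim_step (hU : IsOpen U) {p : Filter ι} [p.NeBot] {V : Type} [NormedAddCommGroup V]
    [NormedSpace ℝ V] [FiniteDimensional ℝ V] {F : ι → X → V} {f : X → V}
    (hF : ∀ i, ContDiffOn ℝ ∞ (F i) U) (hB : UB 2 U F)
    (hf : ∀ x ∈ U, Tendsto (fun i => F i x) p (𝓝 (f x))) {x : X} (hx : x ∈ U) :
    DifferentiableAt ℝ f x ∧ Tendsto (fun i => fderiv ℝ (F i) x) p (𝓝 (fderiv ℝ f x)) := by
  refine ⟨(ultra_step hU (Ultrafilter.of p) hF hB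
    (fun x hx => (hf x hx).mono_left (Ultrafilter.of_le p)) hx).1, ?_⟩
  rw [tendsto_iff_ultrafilter]
  intro q hq
  exact (ultra_step hU q hF hB (fun x hx => (hf x hx).mono_left hq) hx).2

theorem lim_aux (hU : IsOpen U) {p : Filter ι} [p.NeBot] : ∀ (k : ℕ) {V : Type}
    [NormedAddCommGroup V] [NormedSpace ℝ V] [FiniteDimensional ℝ V] {F : ι → X → V} {f : X → V},
    (∀ i, ContDiffOn ℝ ∞ (F i) U) → (∀ m, UB m U F) →
    (∀ x ∈ U, Tendsto (fun i => F i x) p (𝓝 (f x))) →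
    ContDiffOn ℝ k f U ∧
      ∀ x ∈ U, Tendsto (fun i => iteratedFDeriv ℝ k (F i) x) p (𝓝 (iteratedFDeriv ℝ k f x)) := by
  intro k
  induction k with
  | zero =>
    intro V _ _ _ F f hF hB hf
    refine ⟨?_, fun x hx => ?_⟩
    · have h1 : ContinuousOn f U := fun x hx =>
        (lim_step hU hF (hB 2) hf hx).1.continuousAt.continuousWithinAt
      exact contDiffOn_zero.2 h1
    · simp only [iteratedFDeriv_zero_eq_comp, Function.comp_apply]
      exact ((continuousMultilinearCurryFin0 ℝ X V).symm.continuous.tendsto _).comp (hf x hx)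
  | succ k ih =>
    intro V _ _ _ F f hF hB hf
    have h1 := fun x (hx : x ∈ U) => lim_step hU hF (hB 2) hf hx
    obtain ⟨h2, h3⟩ := ih (F := fun i => fderiv ℝ (F i)) (f := fderiv ℝ f)
      (fun i => smooth_fderiv hU (hF i)) (fun m => (hB (m + 1)).fd) fun x hx => (h1 x hx).2
    refine ⟨?_, fun x hx => ?_⟩
    · rw [show ((k + 1 : ℕ) : WithTop ℕ∞) = (k : WithTop ℕ∞) + 1 by norm_cast,
        contDiffOn_succ_iff_fderiv_of_isOpen hU]
      exact ⟨fun x hx => (h1 x hx).1.differentiableWithinAt, by simp, h2⟩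
    · simp only [iteratedFDeriv_succ_eq_comp_right, Function.comp_apply]
      exact ((continuousMultilinearCurryRightEquiv' ℝ k X V).symm.continuous.tendsto _).comp
        (h3 x hx)

/-- **limits of families with bounds of all derivatives** -/
theorem lim_smooth (hU : IsOpen U) {p : Filter ι} [p.NeBot] {V : Type} [NormedAddCommGroup V]
    [NormedSpace ℝ V] [FiniteDimensional ℝ V] {F : ι → X → V} {f : X → V}
    (hF : ∀ i, ContDiffOn ℝ ∞ (F i) U) (hB : ∀ m, UB m U F)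
    (hf : ∀ x ∈ U, Tendsto (fun i => F i x) p (𝓝 (f x))) :
    ContDiffOn ℝ ∞ f U ∧ ∀ k, TendstoLocallyUniformlyOn (fun i => iteratedFDeriv ℝ k (F i))
      (iteratedFDeriv ℝ k f) p U := by
  refine ⟨contDiffOn_infty.2 fun k => (lim_aux hU k hF hB hf).1, fun k => ?_⟩
  refine tlu (fun x hx => ?_) (lim_aux hU k hF hB hf).2
  obtain ⟨r, hr, C, H⟩ := hB (k + 1) x hx
  obtain ⟨s, hs, hsU⟩ := Metric.isOpen_iff.1 hU x hx
  refine ⟨min r s, lt_min hr hs, (ball_subset_ball (min_le_right _ _)).trans hsU, |C|,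
    abs_nonneg _, fun i y hy z hz => ?_⟩
  refine (convex_ball x (min r s)).norm_image_sub_le_of_norm_fderiv_le (𝕜 := ℝ)
    (f := iteratedFDeriv ℝ k (F i)) (fun w hw => ?_) (fun w hw => ?_) hz hy
  · have hw' := hsU (ball_subset_ball (min_le_right _ _) hw)
    exact ((hF i).contDiffAt (hU.mem_nhds hw')).differentiableAt_iteratedFDeriv
      (by exact_mod_cast (WithTop.coe_lt_top k))
  · rw [norm_fderiv_iteratedFDeriv]
    exact (H i w (ball_subset_ball (min_le_left _ _) hw) (k + 1) le_rfl).trans (le_abs_self _)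

/-- pointwise convergence of first and second derivatives -/
theorem lim_fd (hU : IsOpen U) {p : Filter ι} [p.NeBot] {V : Type} [NormedAddCommGroup V]
    [NormedSpace ℝ V] [FiniteDimensional ℝ V] {F : ι → X → V} {f : X → V}
    (hF : ∀ i, ContDiffOn ℝ ∞ (F i) U) (hB : ∀ m, UB m U F)
    (hf : ∀ x ∈ U, Tendsto (fun i => F i x) p (𝓝 (f x))) {x : X} (hx : x ∈ U) :
    Tendsto (fun i => fderiv ℝ (F i) x) p (𝓝 (fderiv ℝ f x)) ∧
    Tendsto (fun i => fderiv ℝ (fderiv ℝ (F i)) x) p (𝓝 (fderiv ℝ (fderiv ℝ f) x)) := by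
  have h1 := fun x (hx : x ∈ U) => lim_step hU hF (hB 2) hf hx
  exact ⟨(h1 x hx).2, (lim_step hU (fun i => smooth_fderiv hU (hF i)) (hB 3).fd
    (fun x hx => (h1 x hx).2) hx).2⟩

/-- **compactness**: subsequences converging with all derivatives -/
theorem exists_subseq (hU : IsOpen U) {V : Type} [NormedAddCommGroup V]
    [NormedSpace ℝ V] [FiniteDimensional ℝ V] {F : ℕ → X → V}
    (hF : ∀ i, ContDiffOn ℝ ∞ (F i) U) (hB : ∀ m, UB m U F) :
    ∃ (φ : ℕ → ℕ) (f : X → V), StrictMono φ ∧ ContDiffOn ℝ ∞ f U ∧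
      (∀ x ∈ U, Tendsto (fun i => F (φ i) x) atTop (𝓝 (f x))) ∧
      ∀ k, TendstoLocallyUniformlyOn (fun i => iteratedFDeriv ℝ k (F (φ i)))
        (iteratedFDeriv ℝ k f) atTop U := by
  have : ProperSpace X := FiniteDimensional.proper ℝ X
  have : ProperSpace V := FiniteDimensional.proper ℝ V
  have : CompleteSpace V := FiniteDimensional.complete ℝ V
  obtain ⟨D, hDU, hDc, hD⟩ :=
    (TopologicalSpace.IsSeparable.of_separableSpace U).exists_countable_dense_subset
  have hbd : ∀ q : D, ∃ C : ℝ, ∀ i, ‖F i q‖ ≤ C := fun q => by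
    obtain ⟨r, hr, C, -, H⟩ := (hB 0).bdd (hDU q.2)
    exact ⟨C, fun i => H i q (mem_ball_self hr)⟩
  choose C hC using hbd
  have : Countable D := hDc.to_subtype
  have hK : IsCompact (Set.pi univ fun q : D => closedBall (0 : V) (C q)) :=
    isCompact_univ_pi fun q => isCompact_closedBall _ _
  obtain ⟨a, -, φ, hφ, hφa⟩ := hK.tendsto_subseq (x := fun i => fun q : D => F i q)
    fun i q _ => by simpa using hC q i
  have hlim : ∀ q : D, Tendsto (fun i => F (φ i) q) atTop (𝓝 (a q)) := fun q =>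
    (tendsto_pi_nhds.1 hφa) q
  have hex : ∀ x ∈ U, ∃ y, Tendsto (fun i => F (φ i) x) atTop (𝓝 y) := by
    intro x hx
    obtain ⟨r, hr, hrU, L, hL, H⟩ := (hB 1).lip hU
      (fun i y hy => diffAt_of_smooth hU (hF i) hy) hx
    refine cauchySeq_tendsto_of_complete ?_
    rw [Metric.cauchySeq_iff]
    intro ε hε
    obtain ⟨q, hqD, hq⟩ := Metric.mem_closure_iff.1 (hD hx) (min r (ε / (4 * (L + 1))))
      (lt_min hr (by positivity))
    have hqr : q ∈ ball x r := by
      rw [mem_ball, dist_comm]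
      exact hq.trans_le (min_le_left _ _)
    have hd : ‖x - q‖ ≤ ε / (4 * (L + 1)) := by
      rw [dist_eq_norm] at hq
      exact hq.le.trans (min_le_right _ _)
    have hLd : L * ‖x - q‖ ≤ ε / 4 := by
      have h4 : L * ‖x - q‖ ≤ (L + 1) * (ε / (4 * (L + 1))) := by
        have := norm_nonneg (x - q)
        nlinarith
      have h5 : (L + 1) * (ε / (4 * (L + 1))) = ε / 4 := by field_simp
      linarith
    obtain ⟨N, hN⟩ := Metric.cauchySeq_iff.1 (hlim ⟨q, hqD⟩).cauchySeq (ε / 4) (by positivity)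
    refine ⟨N, fun m hm m' hm' => ?_⟩
    have h1 := hN m hm m' hm'
    have h2 := H (φ m) x (mem_ball_self hr) q hqr
    have h3 := H (φ m') x (mem_ball_self hr) q hqr
    rw [dist_eq_norm] at h1 ⊢
    have e : F (φ m) x - F (φ m') x = (F (φ m) x - F (φ m) q) + (F (φ m) q - F (φ m') q)
        - (F (φ m') x - F (φ m') q) := by abel
    rw [e]
    calc ‖(F (φ m) x - F (φ m) q) + (F (φ m) q - F (φ m') q) - (F (φ m') x - F (φ m') q)‖
        ≤ ‖F (φ m) x - F (φ m) q‖ + ‖F (φ m) q - F (φ m') q‖ + ‖F (φ m') x - F (φ m') q‖ :=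
          (norm_sub_le _ _).trans (add_le_add_left (norm_add_le _ _) _)
      _ < ε := by linarith
  classical
  choose! f hf using hex
  obtain ⟨h1, h2⟩ := lim_smooth hU (F := fun i => F (φ i)) (fun i => hF (φ i))
    (fun m x hx => by
      obtain ⟨r, hr, C, H⟩ := hB m x hx
      exact ⟨r, hr, C, fun i => H (φ i)⟩) hf
  exact ⟨φ, f, hφ, h1, hf, h2⟩

end lim

/-! ### consequences for complex Hessians -/

variable {n : ℕ} {U : Set (Cn n)} {p : Filter ι} [p.NeBot] {u : ι → Cn n → ℝ} {f : Cn n → ℝ}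

theorem tendsto_cH (hU : IsOpen U) (hu : ∀ i, ContDiffOn ℝ ∞ (u i) U) (hB : ∀ m, UB m U u)
    (hf : ∀ x ∈ U, Tendsto (fun i => u i x) p (𝓝 (f x))) {z : Cn n} (hz : z ∈ U) :
    Tendsto (fun i => cH (u i) z) p (𝓝 (cH f z)) := by
  have h := (lim_fd hU hu hB hf hz).2
  refine tendsto_pi_nhds.2 fun a => tendsto_pi_nhds.2 fun b => ?_
  simp only [cH_eq_cHL]
  exact ((cHL a b).continuous.tendsto _).comp h

theorem tendsto_det_cH (hU : IsOpen U) (hu : ∀ i, ContDiffOn ℝ ∞ (u i) U)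
    (hB : ∀ m, UB m U u) (hf : ∀ x ∈ U, Tendsto (fun i => u i x) p (𝓝 (f x))) {z : Cn n}
    (hz : z ∈ U) : Tendsto (fun i => (cH (u i) z).det) p (𝓝 (cH f z).det) :=
  ((Continuous.matrix_det continuous_id).tendsto (cH f z)).comp (tendsto_cH hU hu hB hf hz)

theorem tendsto_lev (hU : IsOpen U) (hu : ∀ i, ContDiffOn ℝ ∞ (u i) U) (hB : ∀ m, UB m U u)
    (hf : ∀ x ∈ U, Tendsto (fun i => u i x) p (𝓝 (f x))) {z : Cn n} (hz : z ∈ U) (v : Cn n) :
    Tendsto (fun i => lev (u i) z v) p (𝓝 (lev f z v)) := by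
  have h := (lim_fd hU hu hB hf hz).2
  simp only [lev333_eq, D2]
  exact (((E2 v v).continuous.tendsto _).comp h).add
    (((E2 (Complex.I • v) (Complex.I • v)).continuous.tendsto _).comp h)

/-- **E-LOC + compactness** for sequences of solutions -/
theorem eloc_subseq (h3 : C3Stmt) (hU : IsOpen U) {u h : ℕ → Cn n → ℝ} {g : Cn n → ℝ}
    (hu : ∀ i, ContDiffOn ℝ ∞ (u i) U) (hh : ∀ i, ContDiffOn ℝ ∞ (h i) U)
    (hUh : ∀ k, UB k U h) (h0 : UB 0 U u)
    (hell : ∀ x ∈ U, ∃ r > 0, ∃ lo > 0, ∃ hi : ℝ, ∀ i, ∀ z ∈ ball x r, ∀ v,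
      lo * ‖v‖ ^ 2 ≤ lev (u i) z v ∧ lev (u i) z v ≤ hi * ‖v‖ ^ 2)
    (heq : ∀ i, ∀ z ∈ U, (cH (u i) z).det = (Real.exp (u i z + h i z) : ℂ))
    (hg : ∀ z ∈ U, Tendsto (fun i => h i z) atTop (𝓝 (g z))) :
    ∃ (φ : ℕ → ℕ) (f : Cn n → ℝ), StrictMono φ ∧ ContDiffOn ℝ ∞ f U ∧
      (∀ x ∈ U, Tendsto (fun i => u (φ i) x) atTop (𝓝 (f x))) ∧
      (∀ k, TendstoLocallyUniformlyOn (fun i => iteratedFDeriv ℝ k (u (φ i)))
        (iteratedFDeriv ℝ k f) atTop U) ∧
      (∀ z ∈ U, Tendsto (fun i => cH (u (φ i)) z) atTop (𝓝 (cH f z))) ∧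
      (∀ z ∈ U, ∀ v, v ≠ 0 → 0 < lev f z v) ∧
      ∀ z ∈ U, (cH f z).det = (Real.exp (f z + g z) : ℂ) := by
  have hB : ∀ m, UB m U u := eloc h3 hU hu hh hUh h0 hell heq
  obtain ⟨φ, f, hφ, h1, h2, h4⟩ := exists_subseq hU hu hB
  have hB' : ∀ m, UB m U (fun i => u (φ i)) := fun m x hx => by
    obtain ⟨r, hr, C, H⟩ := hB m x hx
    exact ⟨r, hr, C, fun i => H (φ i)⟩
  refine ⟨φ, f, hφ, h1, h2, h4, fun z hz => tendsto_cH hU (fun i => hu (φ i)) hB' h2 hz,
    fun z hz v hv => ?_, fun z hz => ?_⟩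
  · obtain ⟨r, hr, lo, hlo, hi, H⟩ := hell z hz
    have h5 : lo * ‖v‖ ^ 2 ≤ lev f z v :=
      ge_of_tendsto (tendsto_lev hU (fun i => hu (φ i)) hB' h2 hz v)
        (Eventually.of_forall fun i => (H (φ i) z (mem_ball_self hr) v).1)
    have : 0 < ‖v‖ := norm_pos_iff.2 hv
    exact lt_of_lt_of_le (by positivity) h5
  · have h5 := tendsto_det_cH hU (fun i => hu (φ i)) hB' h2 hz
    have h6 : Tendsto (fun i => ((Real.exp (u (φ i) z + h (φ i) z) : ℝ) : ℂ)) atTop
        (𝓝 ((Real.exp (f z + g z) : ℝ) : ℂ)) :=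
      ((Complex.continuous_ofReal.comp Real.continuous_exp).tendsto _).comp
        ((h2 z hz).add ((hg z hz).comp hφ.tendsto_atTop))
    exact tendsto_nhds_unique (h5.congr fun i => heq (φ i) z hz) h6

end

end Crest.Agent.R257.ELoc_611
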