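import Crest.Agent.R257.EVa_929

set_option autoImplicit false

/-!
R257 / EVb_929 (helper929): linear change of coordinates in the bound of the point sums.
-/

open Topology Filter Set
open Crest.AlgGeometry.Germ

noncomputable section

namespace Crest.Agent.R257.EVb_929

open Crest.Agent.R257.Defs_219 Crest.Agent.R257.EVa_929

/-- small gradients are attained near the origin only -/
theorem proper' {f : E3 → ℂ} {r ε : ℝ} (hε : 0 < ε)
    (han : ∀ x : E3, ‖x‖ ≤ r → AnalyticAt ℂ f x)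
    (hcr : ∀ x : E3, ‖x‖ ≤ r → (∀ i, coordDeriv f i x = 0) → x = 0) :
    ∃ δ > 0, ∀ y : E3, ‖y‖ < δ → ∀ x : E3, ‖x‖ ≤ r → (∀ i, coordDeriv f i x = y i) →
      ‖x‖ < ε := by
  have hK : IsCompact {x : E3 | ‖x‖ ≤ r ∧ ε ≤ ‖x‖} := by
    refine (isCompact_closedBall (0 : E3) r).of_isClosed_subset ?_ ?_
    · exact (isClosed_le continuous_norm continuous_const).inter
        (isClosed_le continuous_const continuous_norm)
    · rintro x ⟨hx, -⟩
      simpa using hx
  by_cases hne : {x : E3 | ‖x‖ ≤ r ∧ ε ≤ ‖x‖}.Nonempty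
  · have hcont : ContinuousOn (fun x => ‖gr f x‖) {x : E3 | ‖x‖ ≤ r ∧ ε ≤ ‖x‖} := by
      intro x hx
      have : ContinuousAt (gr f) x := continuousAt_pi.2 fun i => (an_cd (han x hx.1) i).continuousAt
      exact this.norm.continuousWithinAt
    obtain ⟨x₀, hx₀, hmin⟩ := hK.exists_isMinOn hne hcont
    have hpos : 0 < ‖gr f x₀‖ := by
      rw [norm_pos_iff]
      intro h0
      have h1 := hcr x₀ hx₀.1 fun i => congrFun h0 i
      have h2 : ε ≤ ‖x₀‖ := hx₀.2
      rw [h1, norm_zero] at h2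
      exact absurd h2 (not_le.2 hε)
    refine ⟨_, hpos, fun y hy x hx hg => ?_⟩
    by_contra hcon
    have h2 : ‖gr f x₀‖ ≤ ‖gr f x‖ := hmin (show x ∈ {x : E3 | ‖x‖ ≤ r ∧ ε ≤ ‖x‖} from
      ⟨hx, not_lt.1 hcon⟩)
    have h3 : gr f x = y := funext hg
    rw [h3] at h2
    linarith
  · refine ⟨1, one_pos, fun y _ x hx _ => ?_⟩
    by_contra hcon
    exact hne ⟨x, hx, not_lt.1 hcon⟩

section Linear

variable {f : E3 → ℂ} {A : Matrix (Fin 3) (Fin 3) ℂ}

/-- composition with a matrix -/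
def cm (f : E3 → ℂ) (A : Matrix (Fin 3) (Fin 3) ℂ) : E3 → ℂ := fun x => f (A.mulVec x)

theorem mv_eq (A : Matrix (Fin 3) (Fin 3) ℂ) (x : E3) :
    A.mulVec x = (LinearMap.toContinuousLinearMap (Matrix.toLin' A)) x := by simp

theorem cm_an {x : E3} (hf : AnalyticAt ℂ f (A.mulVec x)) : AnalyticAt ℂ (cm f A) x := by
  have h : cm f A = f ∘ (LinearMap.toContinuousLinearMap (Matrix.toLin' A)) := by
    funext y
    simp [cm]
  rw [h]
  refine AnalyticAt.comp ?_ ((LinearMap.toContinuousLinearMap (Matrix.toLin' A)).analyticAt x)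
  rwa [← mv_eq]

theorem cd_cm {x : E3} (hf : AnalyticAt ℂ f (A.mulVec x)) (i : Fin 3) :
    coordDeriv (cm f A) i x = ∑ k, A k i * coordDeriv f k (A.mulVec x) := by
  have h : cm f A = f ∘ (LinearMap.toContinuousLinearMap (Matrix.toLin' A)) := by
    funext y
    simp [cm]
  have h1 : coordDeriv (cm f A) i x = fderiv ℂ f (A.mulVec x) (A.mulVec (Pi.single i 1)) := by
    rw [coordDeriv, h, fderiv_comp x (by rw [← mv_eq]; exact hf.differentiableAt)
      ((LinearMap.toContinuousLinearMap (Matrix.toLin' A)).differentiableAt),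
      ContinuousLinearMap.fderiv, ← mv_eq, ContinuousLinearMap.comp_apply, ← mv_eq]
  rw [h1, fd_sum]
  refine Finset.sum_congr rfl fun k _ => ?_
  rw [Matrix.mulVec_single_one]
  rfl

theorem cd_cm' {x : E3} (hf : AnalyticAt ℂ f (A.mulVec x)) (i : Fin 3) :
    coordDeriv (cm f A) i x = (A.transpose.mulVec (gr f (A.mulVec x))) i := by
  rw [cd_cm hf]
  rfl

theorem cd2_cm {x : E3} (hf : AnalyticAt ℂ f (A.mulVec x)) (i j : Fin 3) :
    coordDeriv (coordDeriv (cm f A) j) i x =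
      ∑ k, ∑ l, A k j * (A l i * coordDeriv (coordDeriv f k) l (A.mulVec x)) := by
  have hcont : ContinuousAt (fun y : E3 => A.mulVec y) x := by
    have : (fun y : E3 => A.mulVec y) = (LinearMap.toContinuousLinearMap (Matrix.toLin' A)) :=
      funext (mv_eq A)
    rw [this]
    exact (LinearMap.toContinuousLinearMap (Matrix.toLin' A)).continuous.continuousAt
  have h1 : ∀ᶠ y in 𝓝 x, coordDeriv (cm f A) j y =
      ∑ k, A k j * cm (coordDeriv f k) A y := by
    filter_upwards [hcont.eventually hf.eventually_analyticAt] with y hy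
    exact cd_cm hy j
  have h2 : coordDeriv (coordDeriv (cm f A) j) i x =
      coordDeriv (fun y => ∑ k, A k j * cm (coordDeriv f k) A y) i x := by
    change fderiv ℂ (coordDeriv (cm f A) j) x (Pi.single i 1) =
      fderiv ℂ (fun y => ∑ k, A k j * cm (coordDeriv f k) A y) x (Pi.single i 1)
    rw [Filter.EventuallyEq.fderiv_eq h1]
  have han : ∀ k, AnalyticAt ℂ (cm (coordDeriv f k) A) x := fun k => cm_an (an_cd hf k)
  rw [h2]
  have h3 : coordDeriv (fun y => ∑ k, A k j * cm (coordDeriv f k) A y) i x =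
      ∑ k, A k j * coordDeriv (cm (coordDeriv f k) A) i x := by
    have h4 : HasFDerivAt (fun y => ∑ k, A k j * cm (coordDeriv f k) A y)
        (∑ k, A k j • fderiv ℂ (cm (coordDeriv f k) A) x) x :=
      HasFDerivAt.fun_sum fun k _ => ((han k).differentiableAt.hasFDerivAt.const_mul _)
    change fderiv ℂ (fun y => ∑ k, A k j * cm (coordDeriv f k) A y) x (Pi.single i 1) = _
    rw [h4.fderiv, sum_apply]
    rfl
  rw [h3]
  refine Finset.sum_congr rfl fun k _ => ?_
  rw [cd_cm (an_cd hf k) i, Finset.mul_sum]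

theorem hs_cm {x : E3} (hf : AnalyticAt ℂ f (A.mulVec x)) :
    hs (cm f A) x = A.det ^ 2 * hs f (A.mulVec x) := by
  have h : (Matrix.of fun i j : Fin 3 => coordDeriv (coordDeriv (cm f A) j) i x) =
      A.transpose * (Matrix.of fun i j : Fin 3 => coordDeriv (coordDeriv f j) i (A.mulVec x)) *
        A := by
    ext i j
    rw [Matrix.of_apply, cd2_cm hf, Matrix.mul_apply]
    refine Finset.sum_congr rfl fun k _ => ?_
    rw [Matrix.mul_apply, Finset.sum_mul]
    refine Finset.sum_congr rfl fun l _ => ?_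
    simp only [Matrix.transpose_apply, Matrix.of_apply]
    ring
  rw [hs, h, Matrix.det_mul, Matrix.det_mul, Matrix.det_transpose, hs]
  ring

end Linear

/-- the bound of the point sums, with a radius adapted to the germ -/
def Bd (f : E3 → ℂ) (C : ℝ) : Prop :=
  ∃ r > 0, (∀ x : E3, ‖x‖ ≤ r → AnalyticAt ℂ f x) ∧
    (∀ x : E3, ‖x‖ ≤ r → (∀ i, coordDeriv f i x = 0) → x = 0) ∧ TB f r C

theorem Bd.cm {f : E3 → ℂ} {C : ℝ} (h : Bd f C) {A : Matrix (Fin 3) (Fin 3) ℂ}
    (hA : A.det ≠ 0) : Bd (cm f A) (C / ‖A.det‖ ^ 2) := by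
  obtain ⟨r, hr, han, hcr, δ, hδ, hb⟩ := h
  have hu : IsUnit A.det := isUnit_iff_ne_zero.2 hA
  have hinv1 : ∀ x : E3, A⁻¹.mulVec (A.mulVec x) = x := fun x => by
    rw [Matrix.mulVec_mulVec, Matrix.nonsing_inv_mul A hu, Matrix.one_mulVec]
  have hinv2 : ∀ x : E3, A.mulVec (A⁻¹.mulVec x) = x := fun x => by
    rw [Matrix.mulVec_mulVec, Matrix.mul_nonsing_inv A hu, Matrix.one_mulVec]
  have hcont : ∀ B : Matrix (Fin 3) (Fin 3) ℂ, Continuous fun x : E3 => B.mulVec x := fun B => by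
    have : (fun y : E3 => B.mulVec y) = (LinearMap.toContinuousLinearMap (Matrix.toLin' B)) :=
      funext (mv_eq B)
    rw [this]
    exact (LinearMap.toContinuousLinearMap (Matrix.toLin' B)).continuous
  have hzero : ∀ B : Matrix (Fin 3) (Fin 3) ℂ, B.mulVec (0 : E3) = 0 := fun B =>
    Matrix.mulVec_zero B
  have hsmall : ∀ B : Matrix (Fin 3) (Fin 3) ℂ, ∀ s : ℝ, 0 < s → ∃ s' > 0, ∀ x : E3,
      ‖x‖ < s' → ‖B.mulVec x‖ < s := by
    intro B s hs
    have h1 : ∀ᶠ x in 𝓝 (0 : E3), ‖B.mulVec x‖ < s := by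
      have h2 : Tendsto (fun x : E3 => ‖B.mulVec x‖) (𝓝 0) (𝓝 0) := by
        have := ((hcont B).norm).tendsto 0
        simpa [hzero] using this
      exact h2.eventually_lt_const hs
    obtain ⟨s', hs', h3⟩ := Metric.eventually_nhds_iff_ball.1 h1
    exact ⟨s', hs', fun x hx => h3 x (by simpa using hx)⟩
  obtain ⟨s', hs', hs'r⟩ := hsmall A r hr
  set r' := s' / 2 with hr'd
  have hr' : 0 < r' := by positivity
  have hsub : ∀ x : E3, ‖x‖ ≤ r' → ‖A.mulVec x‖ ≤ r := fun x hx =>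
    (hs'r x (by linarith)).le
  have hsub' : ∀ x : E3, ‖x‖ ≤ r' → ‖A.mulVec x‖ < r := fun x hx =>
    (hs'r x (by linarith))
  have hgan : ∀ x : E3, ‖x‖ ≤ r' → AnalyticAt ℂ (EVb_929.cm f A) x := fun x hx =>
    cm_an (han _ (hsub x hx))
  -- gradients
  have hgrad : ∀ x : E3, ‖x‖ ≤ r' → ∀ y : E3, (∀ i, coordDeriv (EVb_929.cm f A) i x = y i) ↔
      (∀ i, coordDeriv f i (A.mulVec x) = (A⁻¹.transpose.mulVec y) i) := by
    intro x hx y
    have h1 : ∀ i, coordDeriv (EVb_929.cm f A) i x = (A.transpose.mulVec (gr f (A.mulVec x))) i :=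
      fun i => cd_cm' (han _ (hsub x hx)) i
    have ht1 : A⁻¹.transpose * A.transpose = 1 := by
      rw [← Matrix.transpose_mul, Matrix.mul_nonsing_inv A hu, Matrix.transpose_one]
    have ht2 : A.transpose * A⁻¹.transpose = 1 := by
      rw [← Matrix.transpose_mul, Matrix.nonsing_inv_mul A hu, Matrix.transpose_one]
    constructor
    · intro h2
      have h3 : A.transpose.mulVec (gr f (A.mulVec x)) = y := funext fun i => by
        rw [← h1, h2]
      intro i
      rw [← h3, Matrix.mulVec_mulVec, ht1, Matrix.one_mulVec]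
      rfl
    · intro h2 i
      have h3 : gr f (A.mulVec x) = A⁻¹.transpose.mulVec y := funext h2
      rw [h1, h3, Matrix.mulVec_mulVec, ht2, Matrix.one_mulVec]
  have hgcr : ∀ x : E3, ‖x‖ ≤ r' → (∀ i, coordDeriv (EVb_929.cm f A) i x = 0) → x = 0 := by
    intro x hx h0
    have h1 := (hgrad x hx 0).1 h0
    rw [hzero] at h1
    have h2 := hcr _ (hsub x hx) h1
    have h3 := hinv1 x
    rw [h2, hzero] at h3
    exact h3.symm
  refine ⟨r', hr', hgan, hgcr, ?_⟩
  -- properness for `f`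
  obtain ⟨ρ, hρ, hρr⟩ := hsmall A⁻¹ r' hr'
  obtain ⟨δ₁, hδ₁, hprop⟩ := proper' (r := r) hρ han hcr
  obtain ⟨δ₂, hδ₂, hδ₂'⟩ := hsmall A⁻¹.transpose (min δ δ₁) (lt_min hδ hδ₁)
  refine ⟨δ₂, hδ₂, fun y hy hreg Z hZ => ?_⟩
  set y' : E3 := A⁻¹.transpose.mulVec y with hy'
  have hy'1 : ‖y'‖ < δ := lt_of_lt_of_le (hδ₂' y hy) (min_le_left _ _)
  have hy'2 : ‖y'‖ < δ₁ := lt_of_lt_of_le (hδ₂' y hy) (min_le_right _ _)
  have hball : ∀ x : E3, x ∈ Metric.ball (0 : E3) r' → ‖x‖ ≤ r' := fun x hx =>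
    (mem_ball_zero_iff.1 hx).le
  have hback : ∀ p : E3, p ∈ Metric.ball (0 : E3) r → (∀ i, coordDeriv f i p = y' i) →
      A⁻¹.mulVec p ∈ Metric.ball (0 : E3) r' ∧
        ∀ i, coordDeriv (EVb_929.cm f A) i (A⁻¹.mulVec p) = y i := by
    intro p hp hpi
    have h1 : ‖p‖ < ρ := hprop y' hy'2 p (mem_ball_zero_iff.1 hp).le hpi
    have h2 : ‖A⁻¹.mulVec p‖ < r' := hρr p h1
    refine ⟨mem_ball_zero_iff.2 h2, (hgrad _ h2.le y).2 ?_⟩
    rw [hinv2]
    exact hpi
  have hregf : ∀ p ∈ Metric.ball (0 : E3) r, (∀ i, coordDeriv f i p = y' i) → hs f p ≠ 0 := by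
    intro p hp hpi
    obtain ⟨h1, h2⟩ := hback p hp hpi
    have h3 := hreg _ h1 h2
    rw [hs_cm (by rw [hinv2]; exact han p (mem_ball_zero_iff.1 hp).le), hinv2] at h3
    exact right_ne_zero_of_mul h3
  classical
  have hAinj : Function.Injective fun x : E3 => A.mulVec x := fun a b hab => by
    have := congrArg (fun v => A⁻¹.mulVec v) hab
    simpa only [hinv1] using this
  have key := hb y' hy'1 hregf (Z.image fun x => A.mulVec x) (by
    intro p
    rw [Finset.mem_image]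
    constructor
    · rintro ⟨x, hx, rfl⟩
      obtain ⟨h1, h2⟩ := (hZ x).1 hx
      exact ⟨mem_ball_zero_iff.2 (hsub' x (hball x h1)), (hgrad x (hball x h1) y).1 h2⟩
    · rintro ⟨hp, hpi⟩
      obtain ⟨h1, h2⟩ := hback p hp hpi
      exact ⟨_, (hZ _).2 ⟨h1, h2⟩, hinv2 p⟩)
  rw [Finset.sum_image fun a _ b _ hab => hAinj hab] at key
  have hsum : ∑ x ∈ Z, EVb_929.cm f A x / hs (EVb_929.cm f A) x =
      (1 / A.det ^ 2) * ∑ x ∈ Z, f (A.mulVec x) / hs f (A.mulVec x) := by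
    rw [Finset.mul_sum]
    refine Finset.sum_congr rfl fun x hx => ?_
    rw [hs_cm (han _ (hsub x (hball x ((hZ x).1 hx).1)))]
    rw [EVb_929.cm, one_div_mul_eq_div, div_div, mul_comm (A.det ^ 2)]
  have hC0 : 0 < ‖A.det‖ ^ 2 := by positivity
  rw [hsum, norm_mul, norm_div, norm_one, norm_pow, one_div, mul_comm, ← div_eq_mul_inv]
  exact div_le_div_of_nonneg_right key hC0.le

end Crest.Agent.R257.EVb_929
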