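import Crest.Agent.R257.UI3_939

/-!
R257 / Flag3A_799: analytic lemmas for `Flag3Stmt` (log canonical case, multiplicity 3):
division by powers of the last coordinate, analytic implicit function theorem, the one variable
lemma `zz`, compactness of the sphere of directions.
-/

set_option autoImplicit false
set_option linter.unusedSectionVars false
set_option linter.style.haveILetI false

open Set Filter Topology Metric

noncomputable section

namespace Crest.Agent.R257.Flag3_799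

/-! ### one variable -/

theorem iter_pow : ∀ (k : ℕ) (q : ℂ → ℂ), AnalyticAt ℂ q 0 →
    iteratedDeriv k (fun z => z ^ k * q z) 0 = (k.factorial : ℂ) * q 0
  | 0, q, _ => by simp
  | k + 1, q, hq => by
    have h1 : deriv (fun z => z ^ (k + 1) * q z) =ᶠ[𝓝 0]
        fun z => z ^ k * (((k : ℂ) + 1) * q z + z * deriv q z) := by
      filter_upwards [hq.eventually_analyticAt] with z hz
      have h2 : HasDerivAt (fun z : ℂ => z ^ (k + 1) * q z)
          ((((k + 1 : ℕ) : ℂ) * z ^ (k + 1 - 1) * 1) * q z + z ^ (k + 1) * deriv q z) z :=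
        ((hasDerivAt_id z).pow (k + 1)).mul hz.differentiableAt.hasDerivAt
      rw [h2.deriv]
      simp only [Nat.add_sub_cancel]
      push_cast
      ring
    rw [iteratedDeriv_succ', h1.iteratedDeriv_eq k,
      iter_pow k (fun z => ((k : ℂ) + 1) * q z + z * deriv q z)]
    · rw [Nat.factorial_succ]
      push_cast
      ring
    · exact ((analyticAt_const).mul hq).add (analyticAt_id.mul hq.deriv)

/-! ### division by powers of the last coordinate -/

section Div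

variable {E : Type} [NormedAddCommGroup E] [NormedSpace ℂ E] [FiniteDimensional ℂ E]

theorem div_z {g : E × ℂ → ℂ} {e₀ : E} (hg : AnalyticAt ℂ g (e₀, 0))
    (h0 : ∀ᶠ e in 𝓝 e₀, g (e, 0) = 0) :
    ∃ q : E × ℂ → ℂ, AnalyticAt ℂ q (e₀, 0) ∧ ∀ᶠ p in 𝓝 (e₀, (0 : ℂ)), g p = p.2 * q p := by
  have hT : AnalyticAt ℂ (fun p : E × ℂ => ((p.1 + e₀, p.2) : E × ℂ)) 0 :=
    (analyticAt_fst.add analyticAt_const).prod analyticAt_snd
  have hg' : AnalyticAt ℂ (fun p : E × ℂ => g (p.1 + e₀, p.2)) 0 := by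
    refine AnalyticAt.fun_comp (g := g) (f := fun p : E × ℂ => ((p.1 + e₀, p.2) : E × ℂ)) ?_ hT
    simpa using hg
  obtain ⟨q, hq, h⟩ := UI939.hadamard_fun hg'
  have hS : AnalyticAt ℂ (fun p : E × ℂ => ((p.1 - e₀, p.2) : E × ℂ)) (e₀, 0) :=
    (analyticAt_fst.sub analyticAt_const).prod analyticAt_snd
  have hS0 : (((e₀, (0 : ℂ)) : E × ℂ).1 - e₀, ((e₀, (0 : ℂ)) : E × ℂ).2) = (0 : E × ℂ) := by simp
  refine ⟨fun p => q (p.1 - e₀, p.2), ?_, ?_⟩
  · refine AnalyticAt.fun_comp (g := q) (f := fun p : E × ℂ => ((p.1 - e₀, p.2) : E × ℂ)) ?_ hS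
    rw [hS0]; exact hq
  · have hc := hS.continuousAt
    rw [ContinuousAt] at hc
    simp only [sub_self] at hc
    have hc : Tendsto (fun p : E × ℂ => (p.1 - e₀, p.2)) (𝓝 (e₀, 0)) (𝓝 (0 : E × ℂ)) := hc
    have h1 := hc.eventually h
    have h2 : ∀ᶠ p in 𝓝 (e₀, (0 : ℂ)), g (p.1, 0) = 0 :=
      (continuous_fst.continuousAt (x := (e₀, (0 : ℂ)))).eventually h0
    filter_upwards [h1, h2] with p hp hp2
    simp only [sub_add_cancel] at hp
    rw [hp, hp2, zero_add]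

theorem slice_an {g : E × ℂ → ℂ} {e₀ : E} (hg : AnalyticAt ℂ g (e₀, 0)) :
    ∀ᶠ e in 𝓝 e₀, AnalyticAt ℂ (fun z => g (e, z)) 0 := by
  have h1 : Tendsto (fun e : E => (e, (0 : ℂ))) (𝓝 e₀) (𝓝 (e₀, 0)) := by
    have : Continuous (fun e : E => (e, (0 : ℂ))) := by fun_prop
    exact this.tendsto' _ _ rfl
  filter_upwards [h1.eventually hg.eventually_analyticAt] with e he
  exact AnalyticAt.fun_comp (g := g) (f := fun z : ℂ => (e, z)) he
    (analyticAt_const.prod analyticAt_id)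

theorem slice_ev {P : E × ℂ → Prop} {e₀ : E} (h : ∀ᶠ p in 𝓝 (e₀, (0 : ℂ)), P p) :
    ∀ᶠ e in 𝓝 e₀, ∀ᶠ z in 𝓝 (0 : ℂ), P (e, z) := by
  have h1 : Tendsto (fun e : E => (e, (0 : ℂ))) (𝓝 e₀) (𝓝 (e₀, 0)) := by
    have : Continuous (fun e : E => (e, (0 : ℂ))) := by fun_prop
    exact this.tendsto' _ _ rfl
  filter_upwards [h1.eventually h.eventually_nhds] with e he
  have h2 : Tendsto (fun z : ℂ => (e, z)) (𝓝 0) (𝓝 (e, 0)) := by
    have : Continuous (fun z : ℂ => (e, z)) := by fun_prop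
    exact this.tendsto' _ _ rfl
  exact h2.eventually he

/-- value of the quotient on `z = 0` -/
theorem val_pow {g q : E × ℂ → ℂ} {e₀ : E} {k : ℕ} (hq : AnalyticAt ℂ q (e₀, 0))
    (h : ∀ᶠ p in 𝓝 (e₀, (0 : ℂ)), g p = p.2 ^ k * q p) :
    ∀ᶠ e in 𝓝 e₀, iteratedDeriv k (fun z => g (e, z)) 0 = (k.factorial : ℂ) * q (e, 0) := by
  filter_upwards [slice_an hq, slice_ev h] with e h1 h2
  rw [Filter.EventuallyEq.iteratedDeriv_eq (g := fun z => z ^ k * q (e, z)) k h2]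
  exact iter_pow k (fun z => q (e, z)) h1

/-- **division**: `g(e,z) = z^k q(e,z)` if the first derivatives in `z` vanish at `z = 0` -/
theorem div_pow {g : E × ℂ → ℂ} {e₀ : E} (hg : AnalyticAt ℂ g (e₀, 0)) : ∀ (k : ℕ),
    (∀ j < k, ∀ᶠ e in 𝓝 e₀, iteratedDeriv j (fun z => g (e, z)) 0 = 0) →
    ∃ q : E × ℂ → ℂ, AnalyticAt ℂ q (e₀, 0) ∧
      (∀ᶠ p in 𝓝 (e₀, (0 : ℂ)), g p = p.2 ^ k * q p) ∧
      ∀ᶠ e in 𝓝 e₀, iteratedDeriv k (fun z => g (e, z)) 0 = (k.factorial : ℂ) * q (e, 0)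
  | 0, _ => ⟨g, hg, by simp, by simp⟩
  | k + 1, h => by
    obtain ⟨q, hq, h1, h2⟩ := div_pow hg k fun j hj => h j (Nat.lt_succ_of_lt hj)
    have h3 : ∀ᶠ e in 𝓝 e₀, q (e, 0) = 0 := by
      filter_upwards [h2, h k (Nat.lt_succ_self k)] with e h4 h5
      rw [h5] at h4
      rcases mul_eq_zero.1 h4.symm with h6 | h6
      · exact absurd h6 (Nat.cast_ne_zero.2 k.factorial_ne_zero)
      · exact h6
    obtain ⟨r, hr, h4⟩ := div_z hq h3
    have h5 : ∀ᶠ p in 𝓝 (e₀, (0 : ℂ)), g p = p.2 ^ (k + 1) * r p := by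
      filter_upwards [h1, h4] with p h6 h7
      rw [h6, h7]; ring
    exact ⟨r, hr, h5, val_pow hr h5⟩

end Div

/-! ### implicit functions -/

theorem ift {K P : Type} [NormedAddCommGroup K] [NormedSpace ℂ K] [FiniteDimensional ℂ K]
    [NormedAddCommGroup P] [NormedSpace ℂ P] [FiniteDimensional ℂ P] {N : K × P → K}
    (hN : AnalyticAt ℂ N 0) (h0 : N 0 = 0) (hinj : ∀ w : K, fderiv ℂ N 0 (w, 0) = 0 → w = 0) :
    ∃ W : P → K, AnalyticAt ℂ W 0 ∧ W 0 = 0 ∧ (∀ᶠ q in 𝓝 (0 : K × P), N q = 0 → q.1 = W q.2) ∧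
      ∀ᶠ p in 𝓝 (0 : P), N (W p, p) = 0 := by
  haveI : CompleteSpace K := FiniteDimensional.complete ℂ K
  haveI : CompleteSpace P := FiniteDimensional.complete ℂ P
  set Ψ : K × P → K × P := fun q => (N q, q.2) with hΨ
  have hΨa : AnalyticAt ℂ Ψ 0 := hN.prod analyticAt_snd
  set A : (K × P) →L[ℂ] (K × P) := fderiv ℂ Ψ 0 with hA
  have hA' : A = (fderiv ℂ N 0).prod (ContinuousLinearMap.snd ℂ K P) := by
    have h1 : HasFDerivAt Ψ ((fderiv ℂ N 0).prod (ContinuousLinearMap.snd ℂ K P)) 0 :=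
      hN.differentiableAt.hasFDerivAt.prodMk hasFDerivAt_snd
    exact h1.fderiv
  have hAi : Function.Injective A := by
    rw [injective_iff_map_eq_zero]
    rintro ⟨w, p⟩ h
    rw [hA', ContinuousLinearMap.prod_apply, Prod.mk_eq_zero] at h
    have hp : p = 0 := h.2
    subst hp
    rw [hinj w h.1]; rfl
  have hAb : Function.Bijective A :=
    ⟨hAi, (LinearMap.injective_iff_surjective (f := (A : (K × P) →ₗ[ℂ] (K × P)))).1 hAi⟩
  let e : (K × P) ≃L[ℂ] (K × P) :=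
    (LinearEquiv.ofBijective (A : (K × P) →ₗ[ℂ] (K × P)) hAb).toContinuousLinearEquiv
  have he : (e : (K × P) →L[ℂ] (K × P)) = A := by ext x <;> rfl
  have hs : HasStrictFDerivAt Ψ (e : (K × P) →L[ℂ] (K × P)) 0 := by
    rw [he]; exact hΨa.hasStrictFDerivAt
  set Φ := hs.toOpenPartialHomeomorph Ψ with hΦ
  have hΦc : (Φ : K × P → K × P) = Ψ := rfl
  have hΦ0 : (0 : K × P) ∈ Φ.source := hs.mem_toOpenPartialHomeomorph_source
  have hΨ0 : Ψ 0 = 0 := by rw [hΨ]; simp only [h0]; rfl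
  have hsy : AnalyticAt ℂ Φ.symm 0 := by
    have := Φ.analyticAt_symm' (i := e) hΦ0 (by rw [hΦc]; exact hΨa)
      (by rw [hΦc, he])
    rwa [hΦc, hΨ0] at this
  have hsy0 : Φ.symm 0 = 0 := by
    have := Φ.left_inv hΦ0
    rwa [hΦc, hΨ0] at this
  have hT0 : (0 : K × P) ∈ Φ.target := by
    have := Φ.map_source hΦ0
    rwa [hΦc, hΨ0] at this
  have hin : AnalyticAt ℂ (fun p : P => ((0 : K), p)) 0 := analyticAt_const.prod analyticAt_id
  have hWan : AnalyticAt ℂ (fun p : P => Φ.symm ((0 : K), p)) 0 :=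
    AnalyticAt.fun_comp (g := Φ.symm) (f := fun p : P => ((0 : K), p)) hsy hin
  refine ⟨fun p => (Φ.symm ((0 : K), p)).1, ?_, ?_, ?_, ?_⟩
  · exact (analyticAt_fst).fun_comp hWan
  · change (Φ.symm ((0 : K), (0 : P))).1 = 0
    have : ((0 : K), (0 : P)) = 0 := rfl
    rw [this, hsy0]; rfl
  · filter_upwards [Φ.open_source.mem_nhds hΦ0] with q hq h
    have h1 : Φ q = ((0 : K), q.2) := by rw [hΦc, hΨ]; simp only [h]
    have h2 := Φ.left_inv hq
    rw [h1] at h2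
    change q.1 = (Φ.symm ((0 : K), q.2)).1
    rw [h2]
  · have hin' : Tendsto (fun p : P => ((0 : K), p)) (𝓝 0) (𝓝 0) := hin.continuousAt
    filter_upwards [hin'.eventually (Φ.open_target.mem_nhds hT0)] with p hp
    have h1 := Φ.right_inv hp
    rw [hΦc] at h1
    have h2 : (Φ.symm ((0 : K), p)).2 = p := congrArg Prod.snd h1
    have h3 : N (Φ.symm ((0 : K), p)) = 0 := congrArg Prod.fst h1
    have h4 : ((Φ.symm ((0 : K), p)).1, p) = Φ.symm ((0 : K), p) := Prod.ext rfl h2.symm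
    change N ((Φ.symm ((0 : K), p)).1, p) = 0
    rw [h4]; exact h3

/-! ### the one variable lemma -/

/-- a function of two variables, nonzero off `z = 0`, which vanishes at the origin, vanishes on
`z = 0` -/
theorem min_mod {κ : ℂ × ℂ → ℂ} (hκ : AnalyticAt ℂ κ 0) (h0 : κ 0 = 0)
    (h1 : ∀ᶠ p in 𝓝 (0 : ℂ × ℂ), p.2 ≠ 0 → κ p ≠ 0) : ∀ᶠ t in 𝓝 (0 : ℂ), κ (t, 0) = 0 := by
  have hφ : AnalyticAt ℂ (fun t : ℂ => κ (t, 0)) 0 :=
    AnalyticAt.fun_comp (g := κ) (f := fun t : ℂ => (t, (0 : ℂ))) hκ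
      (analyticAt_id.prod analyticAt_const)
  rcases hφ.eventually_eq_zero_or_eventually_ne_zero with h | h
  · exact h
  exfalso
  obtain ⟨r, hr, hb⟩ := Metric.eventually_nhds_iff_ball.1 (hκ.eventually_analyticAt.and h1)
  set ρ := r / 2 with hρ
  have hρ0 : 0 < ρ := by positivity
  have hmem : ∀ t z : ℂ, ‖t‖ < r → ‖z‖ ≤ ρ → ((t, z) : ℂ × ℂ) ∈ ball (0 : ℂ × ℂ) r := by
    intro t z ht hz
    rw [mem_ball_zero_iff, Prod.norm_mk]
    exact max_lt ht (by linarith)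
  -- lower bound on the circle for t = 0
  have hcomp : IsCompact (sphere (0 : ℂ) ρ) := isCompact_sphere _ _
  have hne : (sphere (0 : ℂ) ρ).Nonempty := NormedSpace.sphere_nonempty.2 hρ0.le
  have hc0 : ContinuousOn (fun z : ℂ => ‖κ (0, z)‖) (sphere 0 ρ) := by
    intro z hz
    have hz' : ‖z‖ = ρ := by simpa using hz
    have h2 := (hb (0, z) (hmem 0 z (by simpa using hr) hz'.le)).1.continuousAt
    have h3 : ContinuousAt (fun z : ℂ => κ ((0 : ℂ), z)) z :=
      ContinuousAt.comp (f := fun z : ℂ => ((0 : ℂ), z)) (g := κ) h2 (by fun_prop)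
    exact h3.norm.continuousWithinAt
  obtain ⟨z₀, hz₀, hmin⟩ := hcomp.exists_isMinOn hne hc0
  set m := ‖κ (0, z₀)‖ with hm
  have hz₀' : ‖z₀‖ = ρ := by simpa using hz₀
  have hm0 : 0 < m := by
    rw [hm, norm_pos_iff]
    exact (hb (0, z₀) (hmem 0 z₀ (by simpa using hr) hz₀'.le)).2
      (fun h => by rw [show z₀ = 0 from h] at hz₀'; simp at hz₀'; linarith)
  have hev : ∀ᶠ t in 𝓝 (0 : ℂ), ∀ z ∈ sphere (0 : ℂ) ρ, m / 2 < ‖κ (t, z)‖ := by
    refine hcomp.eventually_forall_of_forall_eventually fun z hz => ?_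
    have hz' : ‖z‖ = ρ := by simpa using hz
    have h2 := (hb (0, z) (hmem 0 z (by simpa using hr) hz'.le)).1.continuousAt
    have h3 : m / 2 < ‖κ (0, z)‖ := by
      have : m ≤ ‖κ (0, z)‖ := hmin hz
      linarith
    exact h2.norm.eventually (lt_mem_nhds h3)
  have hφ0 : Tendsto (fun t : ℂ => κ (t, 0)) (𝓝[≠] 0) (𝓝 0) := by
    have := hφ.continuousAt.tendsto
    rw [show κ ((0 : ℂ), (0 : ℂ)) = 0 from h0] at this
    exact this.mono_left nhdsWithin_le_nhds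
  have hsm : ∀ᶠ t in 𝓝[≠] (0 : ℂ), ‖κ (t, 0)‖ < m / 2 := by
    have := hφ0.norm.eventually (gt_mem_nhds (show ‖(0 : ℂ)‖ < m / 2 by simpa using hm0))
    exact this
  have hball : ∀ᶠ t in 𝓝[≠] (0 : ℂ), ‖t‖ < r :=
    eventually_nhdsWithin_of_eventually_nhds
      (Metric.eventually_nhds_iff_ball.2 ⟨r, hr, fun t ht => by simpa using ht⟩)
  obtain ⟨t, ht1, ht2, ht3, ht4⟩ :=
    (h.and (hsm.and ((eventually_nhdsWithin_of_eventually_nhds hev).and hball))).exists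
  -- maximum principle for the inverse
  have hnz : ∀ z : ℂ, ‖z‖ ≤ ρ → κ (t, z) ≠ 0 := by
    intro z hz
    by_cases hz0 : z = 0
    · rw [hz0]; exact ht1
    · exact (hb (t, z) (hmem t z ht4 hz)).2 hz0
  have hd : DiffContOnCl ℂ (fun z => (κ (t, z))⁻¹) (ball 0 ρ) := by
    refine DifferentiableOn.diffContOnCl ?_
    rw [closure_ball _ hρ0.ne']
    intro z hz
    have hz' : ‖z‖ ≤ ρ := by simpa using hz
    have h2 : DifferentiableAt ℂ κ (t, z) := (hb (t, z) (hmem t z ht4 hz')).1.differentiableAt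
    have h3 : DifferentiableAt ℂ (fun z : ℂ => κ (t, z)) z :=
      DifferentiableAt.comp z (f := fun z : ℂ => (t, z)) (g := κ) h2 (by fun_prop)
    exact (h3.inv (hnz z hz')).differentiableWithinAt
  have hle : ‖(κ (t, 0))⁻¹‖ ≤ 2 / m := by
    refine Complex.norm_le_of_forall_mem_frontier_norm_le (U := ball (0 : ℂ) ρ)
      isBounded_ball hd ?_ (subset_closure (mem_ball_self hρ0))
    intro z hz
    rw [frontier_ball _ hρ0.ne'] at hz
    rw [norm_inv]
    have := ht3 z hz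
    rw [inv_le_comm₀ (by linarith) (by positivity)]
    rw [inv_div]
    exact this.le
  rw [norm_inv, inv_le_comm₀ (norm_pos_iff.2 ht1) (by positivity), inv_div] at hle
  linarith

/-- **(ZZ)** if `H (t, 0) = 0` and the `z`-derivative of `H` vanishes at most on `z = 0`, then so
does `H`. -/
theorem zz {H : ℂ × ℂ → ℂ} (hH : AnalyticAt ℂ H 0) (h0 : ∀ᶠ t in 𝓝 (0 : ℂ), H (t, 0) = 0)
    (h1 : ∀ᶠ p in 𝓝 (0 : ℂ × ℂ), p.2 ≠ 0 → deriv (fun z => H (p.1, z)) p.2 ≠ 0) :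
    ∀ᶠ p in 𝓝 (0 : ℂ × ℂ), p.2 ≠ 0 → H p ≠ 0 := by
  by_contra hcon
  have key : ∀ a : ℕ, ∃ v : ℂ × ℂ → ℂ, AnalyticAt ℂ v 0 ∧
      ∀ᶠ p in 𝓝 (0 : ℂ × ℂ), H p = p.2 ^ (a + 1) * v p := by
    intro a
    induction a with
    | zero =>
      obtain ⟨v, hv, h⟩ := div_z (E := ℂ) (e₀ := 0) hH h0
      refine ⟨v, hv, ?_⟩
      have h' : ∀ᶠ p in 𝓝 (0 : ℂ × ℂ), H p = p.2 * v p := h
      simpa using h'
    | succ a ih =>
      obtain ⟨v, hv, h⟩ := ih
      have hv0 : v 0 = 0 := by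
        by_contra hne
        apply hcon
        filter_upwards [h, hv.continuousAt.eventually_ne hne] with p hp hp2 hp3
        rw [hp]
        exact mul_ne_zero (pow_ne_zero _ hp3) hp2
      set κ : ℂ × ℂ → ℂ := fun p => ((a : ℂ) + 1) * v p + p.2 * fderiv ℂ v p (0, 1) with hκ
      have hκa : AnalyticAt ℂ κ 0 := by
        have h2 : AnalyticAt ℂ (fun p => fderiv ℂ v p ((0 : ℂ), (1 : ℂ))) 0 :=
          ((ContinuousLinearMap.apply ℂ ℂ ((0 : ℂ), (1 : ℂ))).analyticAt _).fun_comp hv.fderiv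
        exact (analyticAt_const.mul hv).add (analyticAt_snd.mul h2)
      have hκ0 : κ 0 = 0 := by rw [hκ]; simp [hv0]
      have hκ1 : ∀ᶠ p in 𝓝 (0 : ℂ × ℂ), p.2 ≠ 0 → κ p ≠ 0 := by
        filter_upwards [h.eventually_nhds, hv.eventually_analyticAt, h1] with p hp hp2 hp3 hp4
        have h5 : (fun z => H (p.1, z)) =ᶠ[𝓝 p.2] fun z => z ^ (a + 1) * v (p.1, z) := by
          have h6 : Tendsto (fun z : ℂ => (p.1, z)) (𝓝 p.2) (𝓝 p) := by
            have : Continuous (fun z : ℂ => (p.1, z)) := by fun_prop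
            exact this.tendsto' _ _ rfl
          exact h6.eventually hp
        have h7 : HasDerivAt (fun z : ℂ => v (p.1, z)) (fderiv ℂ v p (0, 1)) p.2 := by
          have h8 : HasDerivAt (fun z : ℂ => (p.1, z)) ((0 : ℂ), (1 : ℂ)) p.2 :=
            (hasDerivAt_const p.2 p.1).prodMk (hasDerivAt_id p.2)
          exact (hp2.differentiableAt.hasFDerivAt (x := (p.1, p.2))).comp_hasDerivAt p.2 h8
        have h9 : HasDerivAt (fun z : ℂ => z ^ (a + 1) * v (p.1, z))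
            ((((a + 1 : ℕ) : ℂ) * p.2 ^ (a + 1 - 1) * 1) * v (p.1, p.2) +
              p.2 ^ (a + 1) * fderiv ℂ v p (0, 1)) p.2 :=
          ((hasDerivAt_id p.2).pow (a + 1)).mul h7
        have h10 := hp3 hp4
        rw [h5.deriv_eq, h9.deriv] at h10
        intro h11
        apply h10
        simp only [Nat.add_sub_cancel, Prod.mk.eta]
        rw [hκ] at h11
        simp only at h11
        push_cast
        linear_combination p.2 ^ a * h11
      have h12 := min_mod hκa hκ0 hκ1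
      have h13 : ∀ᶠ t in 𝓝 (0 : ℂ), v (t, 0) = 0 := by
        filter_upwards [h12] with t ht
        rw [hκ] at ht
        simp only [zero_mul, add_zero] at ht
        rcases mul_eq_zero.1 ht with h14 | h14
        · exact absurd h14 (by exact_mod_cast Nat.succ_ne_zero a)
        · exact h14
      obtain ⟨w, hw, h15⟩ := div_z (E := ℂ) (e₀ := 0) hv h13
      refine ⟨w, hw, ?_⟩
      filter_upwards [h, h15] with p hp hp2
      rw [hp, hp2]; ring
  -- `H (0, ·)` has infinite order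
  have hφ : AnalyticAt ℂ (fun z : ℂ => H (0, z)) 0 :=
    AnalyticAt.fun_comp (g := H) (f := fun z : ℂ => ((0 : ℂ), z)) hH
      (analyticAt_const.prod analyticAt_id)
  have hin : Tendsto (fun z : ℂ => ((0 : ℂ), z)) (𝓝 0) (𝓝 (0 : ℂ × ℂ)) := by
    have : Continuous (fun z : ℂ => ((0 : ℂ), z)) := by fun_prop
    exact this.tendsto' _ _ rfl
  have hord : analyticOrderAt (fun z : ℂ => H (0, z)) 0 = ⊤ := by
    refine ENat.eq_top_iff_forall_ge.2 fun a => ?_
    rw [natCast_le_analyticOrderAt hφ]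
    obtain ⟨v, hv, h⟩ := key a
    refine ⟨fun z => z * v (0, z), ?_, ?_⟩
    · refine analyticAt_id.mul ?_
      exact AnalyticAt.fun_comp (g := v) (f := fun z : ℂ => ((0 : ℂ), z)) hv
        (analyticAt_const.prod analyticAt_id)
    · filter_upwards [hin.eventually h] with z hz
      rw [hz]
      simp only [sub_zero, smul_eq_mul]
      ring
  have hz := analyticOrderAt_eq_top.1 hord
  have h2 := (hin.eventually h1)
  have h3 : ∀ᶠ z in 𝓝 (0 : ℂ), deriv (fun z : ℂ => H (0, z)) z = 0 := by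
    filter_upwards [hz.eventually_nhds] with z hz1
    have : (fun z : ℂ => H (0, z)) =ᶠ[𝓝 z] fun _ => (0 : ℂ) := hz1
    rw [this.deriv_eq, deriv_const]
  obtain ⟨z, hz1, hz2, hz3⟩ := ((eventually_nhdsWithin_of_eventually_nhds (s := {0}ᶜ) h2).and
    ((eventually_nhdsWithin_of_eventually_nhds h3).and eventually_mem_nhdsWithin)).exists
  exact hz1 hz3 hz2

/-! ### directions -/

theorem cone {E : Type} [NormedAddCommGroup E] [NormedSpace ℂ E] [FiniteDimensional ℂ E]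
    {P : E × ℂ → Prop}
    (h : ∀ v : E, v ≠ 0 → ∀ᶠ q : (E × ℂ) × ℂ in 𝓝 ((v, (0 : ℂ)), (0 : ℂ)), q.2 ≠ 0 →
      P (q.2 • q.1.1, q.1.2)) :
    ∀ᶠ p in 𝓝 ((0 : E), (0 : ℂ)), p.1 ≠ 0 → P p := by
  haveI : ProperSpace E := FiniteDimensional.proper ℂ E
  have hc : IsCompact (sphere (0 : E) 1) := isCompact_sphere _ _
  have h1 : ∀ᶠ s : ℂ × ℂ in 𝓝 ((0 : ℂ), (0 : ℂ)), ∀ u ∈ sphere (0 : E) 1,
      s.2 ≠ 0 → P (s.2 • u, s.1) := by
    refine hc.eventually_forall_of_forall_eventually fun v hv => ?_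
    have hv0 : v ≠ 0 := by
      rintro rfl
      simp at hv
    have h2 : Tendsto (fun s : (ℂ × ℂ) × E => ((s.2, s.1.1), s.1.2)) (𝓝 (((0 : ℂ), (0 : ℂ)), v))
        (𝓝 ((v, (0 : ℂ)), (0 : ℂ))) := by
      have : Continuous (fun s : (ℂ × ℂ) × E => ((s.2, s.1.1), s.1.2)) := by fun_prop
      exact this.tendsto' _ _ rfl
    exact h2.eventually (h v hv0)
  have h3 : Tendsto (fun p : E × ℂ => (p.2, ((‖p.1‖ : ℝ) : ℂ))) (𝓝 ((0 : E), (0 : ℂ)))
      (𝓝 ((0 : ℂ), (0 : ℂ))) := by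
    have : Continuous (fun p : E × ℂ => (p.2, ((‖p.1‖ : ℝ) : ℂ))) := by fun_prop
    exact this.tendsto' _ _ (by simp)
  filter_upwards [h3.eventually h1] with p hp hp0
  have hn : ‖p.1‖ ≠ 0 := norm_ne_zero_iff.2 hp0
  have hn' : ((‖p.1‖ : ℝ) : ℂ) ≠ 0 := by exact_mod_cast hn
  have h4 := hp (((‖p.1‖ : ℝ) : ℂ)⁻¹ • p.1) (by
    rw [mem_sphere_zero_iff_norm, norm_smul, norm_inv, Complex.norm_real, norm_norm]
    exact inv_mul_cancel₀ hn) hn'
  rw [smul_smul, mul_inv_cancel₀ hn', one_smul] at h4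
  exact h4

end Crest.Agent.R257.Flag3_799
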