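import Crest.Agent.R257.EVb_929
import Crest.Agent.R257.Flag3A_799

set_option autoImplicit false

/-!
R257 / EVc_929 (helper929): the arcs of `h_a = 0` for `h(b,a) = Σ a^j b^(k(N-j)) c_j(b,a)`.
-/

open Topology Filter Set
open Crest.AlgGeometry.Germ

noncomputable section

namespace Crest.Agent.R257.EVc_929

open Crest.Agent.R257.Defs_219 Crest.Agent.R257.EVa_929

abbrev E2 : Type := Fin 2 → ℂ

/-- a point of the graph of `X` -/
def gp (X : E2 → ℂ) (q : E2) : E3 := ![q 0, q 1, X q]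

/-- weighted expansion -/
structure Pl (h : E2 → ℂ) (k N : ℕ) (c : Fin (N + 1) → E2 → ℂ) : Prop where
  an : ∀ j, AnalyticAt ℂ (c j) 0
  eq : ∀ᶠ q in 𝓝 (0 : E2), h q = ∑ j : Fin (N + 1), q 1 ^ (j : ℕ) * q 0 ^ (k * (N - j)) * c j q
  lead : c (Fin.last N) 0 ≠ 0

/-- the leading polynomial -/
def Pw {N : ℕ} (c : Fin (N + 1) → E2 → ℂ) (w : ℂ) : ℂ := ∑ j : Fin (N + 1), w ^ (j : ℕ) * c j 0

/-- the point `(τ, τ^k w)` -/
def pt (k : ℕ) (p : ℂ × ℂ) : E2 := ![p.2, p.2 ^ k * p.1]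

def Qf {N : ℕ} (c : Fin (N + 1) → E2 → ℂ) (k : ℕ) (p : ℂ × ℂ) : ℂ :=
  ∑ j : Fin (N + 1), p.1 ^ (j : ℕ) * c j (pt k p)

def G1 {N : ℕ} (c : Fin (N + 1) → E2 → ℂ) (k : ℕ) (p : ℂ × ℂ) : ℂ := fderiv ℂ (Qf c k) p (1, 0)

def G2 {N : ℕ} (c : Fin (N + 1) → E2 → ℂ) (k : ℕ) (p : ℂ × ℂ) : ℂ := fderiv ℂ (G1 c k) p (1, 0)

theorem an_pt (k : ℕ) (p : ℂ × ℂ) : AnalyticAt ℂ (pt k) p := by
  refine AnalyticAt.pi (f := fun i (p : ℂ × ℂ) => pt k p i) fun i => ?_
  fin_cases i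
  · exact analyticAt_snd
  · exact (analyticAt_snd.pow k).mul analyticAt_fst

theorem pt_zero {k : ℕ} (hk : 1 ≤ k) (w : ℂ) : pt k (w, 0) = 0 := by
  funext i
  fin_cases i
  · rfl
  · simp [pt, zero_pow (by omega : k ≠ 0)]

theorem aux_mul {k N : ℕ} (hN : 1 ≤ N) : k * N = k + k * (N - 1) := by
  obtain ⟨M, rfl⟩ : ∃ M, N = M + 1 := ⟨N - 1, by omega⟩
  rw [Nat.add_sub_cancel, Nat.mul_succ, add_comm]

section

variable {N k : ℕ} {c : Fin (N + 1) → E2 → ℂ}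

theorem an_Qf (hk : 1 ≤ k) (hc : ∀ j, AnalyticAt ℂ (c j) 0) (w : ℂ) :
    AnalyticAt ℂ (Qf c k) (w, 0) := by
  refine Finset.analyticAt_fun_sum _ fun j _ => (analyticAt_fst.pow _).mul ?_
  refine AnalyticAt.fun_comp (g := c j) (f := pt k) ?_ (an_pt k _)
  rw [pt_zero hk]
  exact hc j

theorem an_dir {g : ℂ × ℂ → ℂ} {p : ℂ × ℂ} (hg : AnalyticAt ℂ g p) (v : ℂ × ℂ) :
    AnalyticAt ℂ (fun p => fderiv ℂ g p v) p :=
  (ContinuousLinearMap.analyticAt (ContinuousLinearMap.apply ℂ ℂ v) _).comp hg.fderiv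

theorem an_G1 (hk : 1 ≤ k) (hc : ∀ j, AnalyticAt ℂ (c j) 0) (w : ℂ) :
    AnalyticAt ℂ (G1 c k) (w, 0) := an_dir (an_Qf hk hc w) _

theorem an_G2 (hk : 1 ≤ k) (hc : ∀ j, AnalyticAt ℂ (c j) 0) (w : ℂ) :
    AnalyticAt ℂ (G2 c k) (w, 0) := an_dir (an_G1 hk hc w) _

/-- derivative along `w` -/
theorem deriv_w {g : ℂ × ℂ → ℂ} {w τ : ℂ} (hg : AnalyticAt ℂ g (w, τ)) :
    HasDerivAt (fun z => g (z, τ)) (fderiv ℂ g (w, τ) (1, 0)) w := by
  have h1 : HasDerivAt (fun z : ℂ => (z, τ)) ((1 : ℂ), (0 : ℂ)) w :=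
    (hasDerivAt_id w).prodMk (hasDerivAt_const w τ)
  exact hg.differentiableAt.hasFDerivAt.comp_hasDerivAt w h1

theorem Qf_zero (hk : 1 ≤ k) (w : ℂ) : Qf c k (w, 0) = Pw c w := by
  simp only [Qf, Pw, pt_zero hk]

theorem G1_zero (hk : 1 ≤ k) (hc : ∀ j, AnalyticAt ℂ (c j) 0) (w : ℂ) :
    G1 c k (w, 0) = deriv (Pw c) w := by
  have h1 := (deriv_w (an_Qf hk hc w)).deriv
  have h2 : (fun z => Qf c k (z, 0)) = Pw c := funext fun z => Qf_zero hk z
  rw [h2] at h1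
  exact h1.symm

theorem G2_zero (hk : 1 ≤ k) (hc : ∀ j, AnalyticAt ℂ (c j) 0) (w : ℂ) :
    G2 c k (w, 0) = deriv (deriv (Pw c)) w := by
  have h1 := (deriv_w (an_G1 hk hc w)).deriv
  have h2 : (fun z => G1 c k (z, 0)) = deriv (Pw c) := funext fun z => G1_zero hk hc z
  rw [h2] at h1
  exact h1.symm

/-- partial derivative `∂_1 h` along `w` -/
theorem deriv_pt {h : E2 → ℂ} {k : ℕ} {w τ : ℂ} (hh : AnalyticAt ℂ h (pt k (w, τ))) :
    HasDerivAt (fun z => h (pt k (z, τ))) (τ ^ k * coordDeriv h 1 (pt k (w, τ))) w := by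
  have h1 : HasDerivAt (fun z : ℂ => pt k (z, τ)) ![0, τ ^ k] w := by
    rw [hasDerivAt_pi]
    intro i
    fin_cases i
    · exact hasDerivAt_const w τ
    · have := (hasDerivAt_id w).const_mul (τ ^ k)
      simpa [pt] using this
  have h2 := hd_comp hh h1
  convert h2 using 1
  simp [Fin.sum_univ_two]

theorem tendsto_pt (hk : 1 ≤ k) (w : ℂ) : Tendsto (pt k) (𝓝 (w, 0)) (𝓝 0) := by
  have := (an_pt k (w, 0)).continuousAt.tendsto
  rwa [pt_zero hk] at this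

theorem h_pt {h : E2 → ℂ} (hP : Pl h k N c) {w₀ : ℂ} (hk : 1 ≤ k) :
    ∀ᶠ p in 𝓝 (w₀, (0 : ℂ)), h (pt k p) = p.2 ^ (k * N) * Qf c k p := by
  filter_upwards [(tendsto_pt hk w₀).eventually hP.eq] with p hp
  rw [hp, Qf, Finset.mul_sum]
  refine Finset.sum_congr rfl fun j _ => ?_
  have h1 : (pt k p) 1 = p.2 ^ k * p.1 := rfl
  have h2 : (pt k p) 0 = p.2 := rfl
  have h3 : k * N = k * (j : ℕ) + k * (N - j) := by
    rw [← Nat.mul_add]
    congr 1
    have := j.2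
    omega
  rw [h1, h2, h3, pow_add, mul_pow, ← pow_mul]
  ring

/-- `∂_1 h = τ^(k(N-1)) G1` for `τ ≠ 0` -/
theorem h1_pt {h : E2 → ℂ} (hh : AnalyticAt ℂ h 0) (hP : Pl h k N c) {w₀ : ℂ} (hk : 1 ≤ k)
    (hN : 1 ≤ N) : ∀ᶠ p in 𝓝 (w₀, (0 : ℂ)), p.2 ≠ 0 →
      coordDeriv h 1 (pt k p) = p.2 ^ (k * (N - 1)) * G1 c k p := by
  filter_upwards [(h_pt hP hk (w₀ := w₀)).eventually_nhds,
    (tendsto_pt hk w₀).eventually hh.eventually_analyticAt,
    (an_Qf hk hP.an w₀).eventually_analyticAt] with p h1 h2 h3 hp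
  obtain ⟨w, τ⟩ := p
  have e1 := deriv_pt h2
  have e2 : HasDerivAt (fun z => τ ^ (k * N) * Qf c k (z, τ)) (τ ^ (k * N) * G1 c k (w, τ)) w :=
    (deriv_w h3).const_mul _
  have e3 : (fun z => h (pt k (z, τ))) =ᶠ[𝓝 w] fun z => τ ^ (k * N) * Qf c k (z, τ) := by
    have h4 : Tendsto (fun z : ℂ => (z, τ)) (𝓝 w) (𝓝 (w, τ)) := by
      have : Continuous (fun z : ℂ => (z, τ)) := by fun_prop
      exact this.tendsto' _ _ rfl
    exact h4.eventually h1
  have e4 := e1.unique (e2.congr_of_eventuallyEq e3)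
  have hτ : τ ^ k ≠ 0 := pow_ne_zero _ hp
  have h5 : k * N = k + k * (N - 1) := aux_mul hN
  rw [h5, pow_add, mul_assoc] at e4
  exact mul_left_cancel₀ hτ e4

/-- `∂_1 ∂_1 h = τ^(k(N-2)) G2` for `τ ≠ 0` -/
theorem h2_pt {h : E2 → ℂ} (hh : AnalyticAt ℂ h 0) (hP : Pl h k N c) {w₀ : ℂ} (hk : 1 ≤ k)
    (hN : 2 ≤ N) : ∀ᶠ p in 𝓝 (w₀, (0 : ℂ)), p.2 ≠ 0 →
      coordDeriv (coordDeriv h 1) 1 (pt k p) = p.2 ^ (k * (N - 2)) * G2 c k p := by
  filter_upwards [(h1_pt hh hP hk (by omega : 1 ≤ N) (w₀ := w₀)).eventually_nhds,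
    (tendsto_pt hk w₀).eventually (an_cd hh 1).eventually_analyticAt,
    (an_G1 hk hP.an w₀).eventually_analyticAt] with p h1 h2 h3 hp
  obtain ⟨w, τ⟩ := p
  have e1 := deriv_pt h2
  have e2 : HasDerivAt (fun z => τ ^ (k * (N - 1)) * G1 c k (z, τ))
      (τ ^ (k * (N - 1)) * G2 c k (w, τ)) w := (deriv_w h3).const_mul _
  have e3 : (fun z => coordDeriv h 1 (pt k (z, τ))) =ᶠ[𝓝 w]
      fun z => τ ^ (k * (N - 1)) * G1 c k (z, τ) := by
    have h4 : Tendsto (fun z : ℂ => (z, τ)) (𝓝 w) (𝓝 (w, τ)) := by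
      have : Continuous (fun z : ℂ => (z, τ)) := by fun_prop
      exact this.tendsto' _ _ rfl
    exact (h4.eventually h1).mono fun z hz => hz hp
  have e4 := e1.unique (e2.congr_of_eventuallyEq e3)
  have hτ : τ ^ k ≠ 0 := pow_ne_zero _ hp
  have h5 : k * (N - 1) = k + k * (N - 2) := aux_mul (N := N - 1) (by omega)
  rw [h5, pow_add, mul_assoc] at e4
  exact mul_left_cancel₀ hτ e4

/-- implicit function at a simple root -/
theorem exists_W (hk : 1 ≤ k) (hc : ∀ j, AnalyticAt ℂ (c j) 0) {w : ℂ}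
    (h1 : deriv (Pw c) w = 0) (h2 : deriv (deriv (Pw c)) w ≠ 0) :
    ∃ W : ℂ → ℂ, AnalyticAt ℂ W 0 ∧ W 0 = w ∧ (∀ᶠ τ in 𝓝 (0 : ℂ), G1 c k (W τ, τ) = 0) ∧
      ∀ᶠ p in 𝓝 (w, (0 : ℂ)), G1 c k p = 0 → p.1 = W p.2 := by
  set M : ℂ × ℂ → ℂ := fun p => G1 c k (w + p.1, p.2) with hM
  have hsh : AnalyticAt ℂ (fun p : ℂ × ℂ => ((w + p.1, p.2) : ℂ × ℂ)) 0 :=
    (analyticAt_const.add analyticAt_fst).prod analyticAt_snd
  have hMa : AnalyticAt ℂ M 0 := by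
    refine AnalyticAt.fun_comp (g := G1 c k) (f := fun p : ℂ × ℂ => ((w + p.1, p.2) : ℂ × ℂ))
      ?_ hsh
    simpa using an_G1 hk hc w
  have hM0 : M 0 = 0 := by
    simp only [hM, Prod.fst_zero, Prod.snd_zero, add_zero]
    rw [G1_zero hk hc, h1]
  have hMd : ∀ v : ℂ, fderiv ℂ M 0 (v, 0) = v * G2 c k (w, 0) := by
    intro v
    have e1 : HasFDerivAt (fun p : ℂ × ℂ => ((w + p.1, p.2) : ℂ × ℂ))
        (ContinuousLinearMap.id ℂ (ℂ × ℂ)) (0 : ℂ × ℂ) := by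
      have : HasFDerivAt (fun p : ℂ × ℂ => ((w + p.1, p.2) : ℂ × ℂ))
          ((ContinuousLinearMap.fst ℂ ℂ ℂ).prod (ContinuousLinearMap.snd ℂ ℂ ℂ)) (0 : ℂ × ℂ) :=
        (hasFDerivAt_fst.const_add w).prodMk hasFDerivAt_snd
      exact this
    have e2 : HasFDerivAt (G1 c k) (fderiv ℂ (G1 c k) (w, 0))
        ((fun p : ℂ × ℂ => ((w + p.1, p.2) : ℂ × ℂ)) 0) := by
      have : ((fun p : ℂ × ℂ => ((w + p.1, p.2) : ℂ × ℂ)) 0) = (w, 0) := by simp
      rw [this]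
      exact (an_G1 hk hc w).differentiableAt.hasFDerivAt
    have e3 := (e2.comp (0 : ℂ × ℂ) e1).fderiv
    have e4 : fderiv ℂ M 0 = (fderiv ℂ (G1 c k) (w, 0)).comp (ContinuousLinearMap.id ℂ (ℂ × ℂ)) := e3
    rw [e4, ContinuousLinearMap.comp_id]
    have e5 : ((v, 0) : ℂ × ℂ) = v • ((1, 0) : ℂ × ℂ) := by simp
    rw [e5, map_smul, smul_eq_mul]
    rfl
  obtain ⟨W, hW, hW0, hW1, hW2⟩ := Flag3_799.ift hMa hM0 (fun v hv => by
    rw [hMd, G2_zero hk hc] at hv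
    rcases mul_eq_zero.1 hv with h | h
    · exact h
    · exact absurd h h2)
  refine ⟨fun τ => w + W τ, analyticAt_const.add hW, by simp [hW0], hW2, ?_⟩
  have hT : Tendsto (fun p : ℂ × ℂ => ((p.1 - w, p.2) : ℂ × ℂ)) (𝓝 (w, 0)) (𝓝 0) := by
    have : Continuous (fun p : ℂ × ℂ => ((p.1 - w, p.2) : ℂ × ℂ)) := by fun_prop
    refine this.tendsto' _ _ ?_
    simp
  filter_upwards [hT.eventually hW1] with p hp h3
  have h4 : p.1 - w = W p.2 := hp (by simp only [hM, add_sub_cancel]; exact h3)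
  rw [← h4]
  ring

/-- the zeros of `G1(·,τ)` in a disc are the `W_i τ` -/
theorem roots_unif (hk : 1 ≤ k) (hc : ∀ j, AnalyticAt ℂ (c j) 0) {ι : Type} {w : ι → ℂ}
    {W : ι → ℂ → ℂ} (wall : ∀ z, deriv (Pw c) z = 0 → ∃ i, z = w i)
    (hW : ∀ i, ∀ᶠ p in 𝓝 (w i, (0 : ℂ)), G1 c k p = 0 → p.1 = W i p.2) (K : ℝ) :
    ∀ᶠ τ in 𝓝 (0 : ℂ), ∀ z ∈ Metric.closedBall (0 : ℂ) K, G1 c k (z, τ) = 0 → ∃ i, z = W i τ := by
  have hcomp : IsCompact (Metric.closedBall (0 : ℂ) K) := isCompact_closedBall _ _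
  refine hcomp.eventually_forall_of_forall_eventually fun z _ => ?_
  have hsw : Tendsto (fun p : ℂ × ℂ => ((p.2, p.1) : ℂ × ℂ)) (𝓝 (0, z)) (𝓝 (z, 0)) := by
    have : Continuous (fun p : ℂ × ℂ => ((p.2, p.1) : ℂ × ℂ)) := by fun_prop
    exact this.tendsto' _ _ rfl
  have key : ∀ᶠ p in 𝓝 (z, (0 : ℂ)), G1 c k p = 0 → ∃ i, p.1 = W i p.2 := by
    by_cases hz : deriv (Pw c) z = 0
    · obtain ⟨i, rfl⟩ := wall z hz
      exact (hW i).mono fun p hp h => ⟨i, hp h⟩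
    · have h1 : G1 c k (z, 0) ≠ 0 := by rwa [G1_zero hk hc]
      filter_upwards [(an_G1 hk hc z).continuousAt.eventually_ne h1] with p hp h
      exact absurd h hp
  exact hsw.eventually key

/-- derivative along the second coordinate -/
theorem deriv_snd {g : E2 → ℂ} {q : E2} (hg : AnalyticAt ℂ g q) :
    HasDerivAt (fun z => g ![q 0, z]) (coordDeriv g 1 q) (q 1) := by
  have h0 : ![q 0, q 1] = q := by
    funext i
    fin_cases i <;> rfl
  have h1 : HasDerivAt (fun z : ℂ => (![q 0, z] : E2)) ![0, 1] (q 1) := by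
    rw [hasDerivAt_pi]
    intro i
    fin_cases i
    · exact hasDerivAt_const (q 1) (q 0)
    · exact hasDerivAt_id (q 1)
  have h2 := hd_comp (G := g) (γ := fun z : ℂ => (![q 0, z] : E2)) (τ := q 1)
    (by simp only [h0]; exact hg) h1
  simp only [h0] at h2
  convert h2 using 1
  simp [Fin.sum_univ_two]

/-- `∂_1 h` from the weighted expansion -/
theorem cd_eq {h : E2 → ℂ} (hh : AnalyticAt ℂ h 0) (hP : Pl h k N c) :
    ∀ᶠ q in 𝓝 (0 : E2), coordDeriv h 1 q = ∑ j : Fin (N + 1),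
      (((j : ℕ) : ℂ) * q 1 ^ ((j : ℕ) - 1) * q 0 ^ (k * (N - j)) * c j q +
        q 1 ^ (j : ℕ) * q 0 ^ (k * (N - j)) * coordDeriv (c j) 1 q) := by
  have hc : ∀ᶠ q in 𝓝 (0 : E2), ∀ j, AnalyticAt ℂ (c j) q :=
    eventually_all.2 fun j => (hP.an j).eventually_analyticAt
  filter_upwards [hh.eventually_analyticAt, hc, hP.eq.eventually_nhds] with q h1 h2 h3
  have h0 : ![q 0, q 1] = q := by
    funext i
    fin_cases i <;> rfl
  have hcont : Tendsto (fun z : ℂ => (![q 0, z] : E2)) (𝓝 (q 1)) (𝓝 q) := by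
    have h4 : Continuous (fun z : ℂ => (![q 0, z] : E2)) := by
      refine continuous_pi fun i => ?_
      fin_cases i
      · exact continuous_const
      · exact continuous_id
    exact h4.tendsto' _ _ h0
  have e1 : (fun z => h ![q 0, z]) =ᶠ[𝓝 (q 1)] fun z => ∑ j : Fin (N + 1),
      z ^ (j : ℕ) * q 0 ^ (k * (N - j)) * c j ![q 0, z] := by
    filter_upwards [hcont.eventually h3] with z hz
    rw [hz]
    rfl
  have e2 : HasDerivAt (fun z => ∑ j : Fin (N + 1),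
      z ^ (j : ℕ) * q 0 ^ (k * (N - j)) * c j ![q 0, z]) (∑ j : Fin (N + 1),
      (((j : ℕ) : ℂ) * q 1 ^ ((j : ℕ) - 1) * q 0 ^ (k * (N - j)) * c j q +
        q 1 ^ (j : ℕ) * q 0 ^ (k * (N - j)) * coordDeriv (c j) 1 q)) (q 1) := by
    refine HasDerivAt.fun_sum fun j _ => ?_
    have e3 := ((hasDerivAt_pow (j : ℕ) (q 1)).mul_const (q 0 ^ (k * (N - j)))).fun_mul
      (deriv_snd (h2 j))
    rw [h0] at e3
    exact e3
  exact (deriv_snd h1).unique (e2.congr_of_eventuallyEq e1)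

/-- on `∂_1 h = 0` one has `a = O(b^k)` -/
theorem dom {h : E2 → ℂ} (hh : AnalyticAt ℂ h 0) (hP : Pl h k N c) (hN : 1 ≤ N) :
    ∃ K : ℝ, 0 < K ∧ ∀ᶠ q in 𝓝 (0 : E2), coordDeriv h 1 q = 0 → ‖q 1‖ ≤ K * ‖q 0‖ ^ k := by
  set C0 := ‖c (Fin.last N) 0‖ with hC0
  have hC0p : 0 < C0 := norm_pos_iff.2 hP.lead
  set M : ℝ := ∑ j, ‖c j 0‖ + 1 with hM
  set M' : ℝ := ∑ j, ‖coordDeriv (c j) 1 0‖ + 1 with hM'
  have hMp : 0 < M := by positivity
  have hM'p : 0 < M' := by positivity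
  set K : ℝ := 8 * N * M / C0 + 1 with hK
  have hK1 : 1 ≤ K := by
    have : 0 ≤ 8 * N * M / C0 := by positivity
    linarith
  have hN1 : (1 : ℝ) ≤ N := by exact_mod_cast hN
  have b1 : ∀ᶠ q in 𝓝 (0 : E2), ∀ j, ‖c j q‖ ≤ M := by
    refine eventually_all.2 fun j => ?_
    have h1 : ‖c j 0‖ < M := by
      have := Finset.single_le_sum (f := fun j => ‖c j 0‖) (fun i _ => norm_nonneg _)
        (Finset.mem_univ j)
      linarith
    exact ((hP.an j).continuousAt.norm.eventually_lt_const h1).mono fun q hq => hq.le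
  have b2 : ∀ᶠ q in 𝓝 (0 : E2), ∀ j, ‖coordDeriv (c j) 1 q‖ ≤ M' := by
    refine eventually_all.2 fun j => ?_
    have h1 : ‖coordDeriv (c j) 1 0‖ < M' := by
      have := Finset.single_le_sum (f := fun j => ‖coordDeriv (c j) 1 0‖)
        (fun i _ => norm_nonneg _) (Finset.mem_univ j)
      linarith
    exact ((an_cd (hP.an j) 1).continuousAt.norm.eventually_lt_const h1).mono fun q hq => hq.le
  have b3 : ∀ᶠ q in 𝓝 (0 : E2), C0 / 2 ≤ ‖c (Fin.last N) q‖ := by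
    have h1 : C0 / 2 < ‖c (Fin.last N) 0‖ := by rw [← hC0]; linarith
    exact ((hP.an _).continuousAt.norm.eventually_const_lt h1).mono fun q hq => hq.le
  have b4 : ∀ᶠ q in 𝓝 (0 : E2), (N + 1) * M' * ‖q 1‖ < C0 / 8 := by
    have h1 : Tendsto (fun q : E2 => (N + 1) * M' * ‖q 1‖) (𝓝 0) (𝓝 ((N + 1) * M' * ‖(0 : E2) 1‖)) :=
      ((continuous_apply (1 : Fin 2)).norm.const_mul _ |>.tendsto (0 : E2))
    refine h1.eventually_lt_const ?_
    simp only [Pi.zero_apply, norm_zero, mul_zero]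
    positivity
  refine ⟨K, by linarith, ?_⟩
  filter_upwards [b1, b2, b3, b4, cd_eq hh hP] with q c1 c2 c3 c4 c5 h0
  by_contra hcon
  rw [not_le] at hcon
  set a := ‖q 1‖ with ha
  set b := ‖q 0‖ ^ k with hb
  have hb0 : 0 ≤ b := by positivity
  have ha0 : 0 < a := lt_of_le_of_lt (by positivity) hcon
  have hba : b ≤ a / K := by
    rw [le_div_iff₀ (by linarith)]
    linarith
  have hba' : b ≤ a := hba.trans (div_le_self ha0.le hK1)
  have hpow : ∀ n : ℕ, ‖q 0 ^ (k * n)‖ = b ^ n := fun n => by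
    rw [norm_pow, pow_mul]
  rw [h0, Finset.sum_add_distrib, Fin.sum_univ_castSucc] at c5
  -- the three parts
  set S1 := ∑ i : Fin N, (((i.castSucc : Fin (N + 1)) : ℕ) : ℂ) *
    q 1 ^ (((i.castSucc : Fin (N + 1)) : ℕ) - 1) * q 0 ^ (k * (N - (i.castSucc : Fin (N + 1)))) *
      c i.castSucc q with hS1
  set S2 := ∑ j : Fin (N + 1), q 1 ^ (j : ℕ) * q 0 ^ (k * (N - j)) * coordDeriv (c j) 1 q with hS2
  have n1 : ‖S1‖ ≤ N * (N * M * (a ^ (N - 1) / K)) := by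
    refine (norm_sum_le _ _).trans ?_
    have : ∀ i ∈ (Finset.univ : Finset (Fin N)), ‖(((i.castSucc : Fin (N + 1)) : ℕ) : ℂ) *
        q 1 ^ (((i.castSucc : Fin (N + 1)) : ℕ) - 1) *
          q 0 ^ (k * (N - (i.castSucc : Fin (N + 1)))) * c i.castSucc q‖ ≤
        N * M * (a ^ (N - 1) / K) := by
      intro i _
      have hi : (i : ℕ) < N := i.2
      simp only [Fin.val_castSucc]
      rcases Nat.eq_zero_or_pos (i : ℕ) with hi0 | hi0
      · rw [hi0]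
        simp only [Nat.cast_zero, zero_mul, norm_zero]
        positivity
      · rw [norm_mul, norm_mul, norm_mul, hpow, norm_pow, Complex.norm_natCast]
        have e1 : b ^ (N - i) ≤ a ^ (N - i) / K := by
          have e2 : b ^ (N - (i : ℕ)) ≤ (a / K) ^ (N - (i : ℕ)) := pow_le_pow_left₀ hb0 hba _
          refine e2.trans ?_
          rw [div_pow]
          refine div_le_div_of_nonneg_left (by positivity) (by linarith) ?_
          exact le_self_pow₀ hK1 (by omega)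
        have e3 : a ^ ((i : ℕ) - 1) * b ^ (N - (i : ℕ)) ≤ a ^ (N - 1) / K := by
          calc a ^ ((i : ℕ) - 1) * b ^ (N - (i : ℕ)) ≤ a ^ ((i : ℕ) - 1) * (a ^ (N - (i : ℕ)) / K) :=
                mul_le_mul_of_nonneg_left e1 (by positivity)
            _ = a ^ (N - 1) / K := by
                rw [← mul_div_assoc, ← pow_add]
                congr 2
                omega
        have e4 : ((i : ℕ) : ℝ) ≤ N := by exact_mod_cast hi.le
        calc ((i : ℕ) : ℝ) * a ^ ((i : ℕ) - 1) * b ^ (N - (i : ℕ)) * ‖c i.castSucc q‖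
            = ((i : ℕ) : ℝ) * ‖c i.castSucc q‖ * (a ^ ((i : ℕ) - 1) * b ^ (N - (i : ℕ))) := by ring
          _ ≤ N * M * (a ^ (N - 1) / K) := by
              refine mul_le_mul (mul_le_mul e4 (c1 _) (norm_nonneg _) (by positivity)) e3
                (by positivity) (by positivity)
    refine (Finset.sum_le_sum this).trans ?_
    rw [Finset.sum_const, Finset.card_univ, Fintype.card_fin, nsmul_eq_mul]
  have n2 : ‖S2‖ ≤ (N + 1) * (a ^ N * M') := by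
    refine (norm_sum_le _ _).trans ?_
    have : ∀ j ∈ (Finset.univ : Finset (Fin (N + 1))),
        ‖q 1 ^ (j : ℕ) * q 0 ^ (k * (N - j)) * coordDeriv (c j) 1 q‖ ≤ a ^ N * M' := by
      intro j _
      rw [norm_mul, norm_mul, hpow, norm_pow]
      refine mul_le_mul ?_ (c2 j) (norm_nonneg _) (by positivity)
      calc a ^ (j : ℕ) * b ^ (N - (j : ℕ)) ≤ a ^ (j : ℕ) * a ^ (N - (j : ℕ)) :=
            mul_le_mul_of_nonneg_left (pow_le_pow_left₀ hb0 hba' _) (by positivity)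
        _ = a ^ N := by
            rw [← pow_add]
            congr 1
            have := j.2
            omega
    refine (Finset.sum_le_sum this).trans ?_
    rw [Finset.sum_const, Finset.card_univ, Fintype.card_fin, nsmul_eq_mul]
    push_cast
    rfl
  have n3 : ‖(((Fin.last N : Fin (N + 1)) : ℕ) : ℂ) * q 1 ^ (((Fin.last N : Fin (N + 1)) : ℕ) - 1) *
      q 0 ^ (k * (N - (Fin.last N : Fin (N + 1)))) * c (Fin.last N) q‖ =
      N * a ^ (N - 1) * ‖c (Fin.last N) q‖ := by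
    simp only [Fin.val_last, Nat.sub_self, Nat.mul_zero, pow_zero, mul_one]
    rw [norm_mul, norm_mul, norm_pow, Complex.norm_natCast]
  have n4 : N * a ^ (N - 1) * ‖c (Fin.last N) q‖ ≤ N * (N * M * (a ^ (N - 1) / K)) +
      (N + 1) * (a ^ N * M') := by
    rw [← n3]
    have e1 : (((Fin.last N : Fin (N + 1)) : ℕ) : ℂ) *
        q 1 ^ (((Fin.last N : Fin (N + 1)) : ℕ) - 1) *
        q 0 ^ (k * (N - (Fin.last N : Fin (N + 1)))) * c (Fin.last N) q = -(S1 + S2) := by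
      linear_combination -c5
    rw [e1, norm_neg]
    exact (norm_add_le _ _).trans (add_le_add n1 n2)
  have hpa : 0 < a ^ (N - 1) := by positivity
  have hNa : a ^ N = a ^ (N - 1) * a := by
    rw [← pow_succ]
    congr 1
    omega
  have n5 : (N : ℝ) * (C0 / 2) ≤ N * (N * M / K) + (N + 1) * M' * a := by
    have e1 : (N : ℝ) * a ^ (N - 1) * (C0 / 2) ≤ N * (N * M * (a ^ (N - 1) / K)) +
        (N + 1) * (a ^ N * M') :=
      le_trans (mul_le_mul_of_nonneg_left c3 (by positivity)) n4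
    rw [hNa] at e1
    have e2 : a ^ (N - 1) * ((N : ℝ) * (C0 / 2)) ≤
        a ^ (N - 1) * (N * (N * M / K) + (N + 1) * M' * a) := by
      calc a ^ (N - 1) * ((N : ℝ) * (C0 / 2)) = (N : ℝ) * a ^ (N - 1) * (C0 / 2) := by ring
        _ ≤ _ := e1
        _ = _ := by ring
    exact le_of_mul_le_mul_left e2 hpa
  have n6 : (N : ℝ) * M / K ≤ C0 / 8 := by
    rw [div_le_iff₀ (by linarith)]
    have : C0 / 8 * K = N * M + C0 / 8 := by
      rw [hK]
      field_simp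
    rw [this]
    linarith
  have n7 : (N : ℝ) * (N * M / K) ≤ N * (C0 / 8) := mul_le_mul_of_nonneg_left n6 (by positivity)
  have n8 : C0 / 8 ≤ N * (C0 / 8) := le_mul_of_one_le_left (by positivity) hN1
  have n9 : 0 < (N : ℝ) * C0 := by positivity
  nlinarith

end

end Crest.Agent.R257.EVc_929
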