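import Crest.Agent.R257.EVc_929

set_option autoImplicit false

/-!
R257 / EVd_929 (helper929): the arcs in `E3` for a germ of corank `<= 2` with a weighted expansion.
Coordinates `(b, a, x)`, `x = X(b,a)` solves `f_x = 0`, `h(b,a) = f(b,a,X(b,a))`.
-/

open Topology Filter Set
open Crest.AlgGeometry.Germ

noncomputable section

namespace Crest.Agent.R257.EVd_929

open Crest.Agent.R257.Defs_219 Crest.Agent.R257.EVa_929 Crest.Agent.R257.EVb_929
open Crest.Agent.R257.EVc_929

section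

variable {f : E3 → ℂ} {X : E2 → ℂ}

theorem an_gp {q : E2} (hX : AnalyticAt ℂ X q) : AnalyticAt ℂ (gp X) q := by
  have hp : ∀ i : Fin 2, AnalyticAt ℂ (fun q : E2 => q i) q := fun i =>
    (ContinuousLinearMap.proj (R := ℂ) (φ := fun _ : Fin 2 => ℂ) i).analyticAt q
  refine AnalyticAt.pi (f := fun i (q : E2) => gp X q i) fun i => ?_
  fin_cases i
  · exact hp 0
  · exact hp 1
  · exact hX

theorem gp_zero (X0 : X 0 = 0) : gp X 0 = 0 := by
  funext i
  fin_cases i
  · rfl
  · rfl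
  · exact X0

theorem tendsto_gp (hX : AnalyticAt ℂ X 0) (X0 : X 0 = 0) : Tendsto (gp X) (𝓝 0) (𝓝 0) := by
  have := (an_gp hX).continuousAt.tendsto
  rwa [gp_zero X0] at this

/-- derivative of `G ∘ gp X` -/
theorem cd_gp {G : E3 → ℂ} {q : E2} (hG : AnalyticAt ℂ G (gp X q)) (hX : AnalyticAt ℂ X q)
    (i : Fin 2) : coordDeriv (fun q => G (gp X q)) i q =
      coordDeriv G i.castSucc (gp X q) + coordDeriv X i q * coordDeriv G 2 (gp X q) := by
  have h1 : coordDeriv (fun q => G (gp X q)) i q =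
      fderiv ℂ G (gp X q) (fderiv ℂ (gp X) q (Pi.single i 1)) := by
    change fderiv ℂ (fun q => G (gp X q)) q (Pi.single i 1) = _
    have := fderiv_comp q hG.differentiableAt (an_gp hX).differentiableAt
    have h2 : (G ∘ gp X) = fun q => G (gp X q) := rfl
    rw [h2] at this
    rw [this]
    rfl
  have hd : ∀ j : Fin 3, fderiv ℂ (gp X) q (Pi.single i 1) j =
      fderiv ℂ (fun q => gp X q j) q (Pi.single i 1) := fun j => by
    rw [fderiv_apply (an_gp hX).differentiableAt]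
    rfl
  have hp : ∀ l : Fin 2, fderiv ℂ (fun q : E2 => q l) q (Pi.single i 1) =
      (Pi.single i 1 : E2) l := fun l => by
    have : (fun q : E2 => q l) = ContinuousLinearMap.proj (R := ℂ) (φ := fun _ : Fin 2 => ℂ) l :=
      rfl
    rw [this, ContinuousLinearMap.fderiv]
    rfl
  have e0 : fderiv ℂ (gp X) q (Pi.single i 1) 0 = (Pi.single i 1 : E2) 0 := by
    rw [hd 0]; exact hp 0
  have e1 : fderiv ℂ (gp X) q (Pi.single i 1) 1 = (Pi.single i 1 : E2) 1 := by
    rw [hd 1]; exact hp 1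
  have e2 : fderiv ℂ (gp X) q (Pi.single i 1) 2 = coordDeriv X i q := by
    rw [hd 2]; rfl
  rw [h1, fd_sum, Fin.sum_univ_three, e0, e1, e2]
  fin_cases i
  · simp
  · simp

variable (hf : AnalyticAt ℂ f 0) (hX : AnalyticAt ℂ X 0) (X0 : X 0 = 0)
  (hX1 : ∀ᶠ q in 𝓝 (0 : E2), coordDeriv f 2 (gp X q) = 0)

include hf hX X0 hX1

theorem cd_h (i : Fin 2) : ∀ᶠ q in 𝓝 (0 : E2),
    coordDeriv (fun q => f (gp X q)) i q = coordDeriv f i.castSucc (gp X q) := by
  filter_upwards [hX.eventually_analyticAt, (tendsto_gp hX X0).eventually hf.eventually_analyticAt,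
    hX1] with q h1 h2 h3
  rw [cd_gp h2 h1, h3, mul_zero, add_zero]

/-- the second derivative of `h` and the minor -/
theorem cd2_h : ∀ᶠ q in 𝓝 (0 : E2),
    coordDeriv (coordDeriv (fun q => f (gp X q)) 1) 1 q * coordDeriv (coordDeriv f 2) 2 (gp X q) =
      mi f (gp X q) := by
  filter_upwards [hX.eventually_analyticAt, (tendsto_gp hX X0).eventually hf.eventually_analyticAt,
    hX1.eventually_nhds, (cd_h hf hX X0 hX1 1).eventually_nhds] with q h1 h2 h3 h4
  have e1 : coordDeriv (coordDeriv (fun q => f (gp X q)) 1) 1 q =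
      coordDeriv (fun q => coordDeriv f 1 (gp X q)) 1 q := by
    change fderiv ℂ (coordDeriv (fun q => f (gp X q)) 1) q (Pi.single 1 1) =
      fderiv ℂ (fun q => coordDeriv f 1 (gp X q)) q (Pi.single 1 1)
    have h5 : coordDeriv (fun q => f (gp X q)) 1 =ᶠ[𝓝 q] fun q => coordDeriv f 1 (gp X q) := h4
    rw [h5.fderiv_eq]
  have e2 := cd_gp (an_cd h2 1) h1 1
  have e3 := cd_gp (an_cd h2 2) h1 1
  have e4 : coordDeriv (fun q => coordDeriv f 2 (gp X q)) 1 q = 0 := by
    change fderiv ℂ (fun q => coordDeriv f 2 (gp X q)) q (Pi.single 1 1) = 0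
    have h5 : (fun q => coordDeriv f 2 (gp X q)) =ᶠ[𝓝 q] fun _ => (0 : ℂ) := h3
    rw [h5.fderiv_eq]
    simp
  rw [e4] at e3
  rw [e1, e2, mi]
  have c1 : (Fin.castSucc (1 : Fin 2) : Fin 3) = 1 := rfl
  rw [c1] at e3 ⊢
  linear_combination (-coordDeriv (coordDeriv f 1) 2 (gp X q)) * e3

omit X0 hX hX1 in
/-- uniqueness of the solution of `f_x = 0` -/
theorem uniq_X (hX : AnalyticAt ℂ X 0) (X0 : X 0 = 0)
    (hX1 : ∀ᶠ q in 𝓝 (0 : E2), coordDeriv f 2 (gp X q) = 0)
    (hxx : coordDeriv (coordDeriv f 2) 2 0 ≠ 0) :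
    ∀ᶠ p in 𝓝 (0 : E3), coordDeriv f 2 p = 0 → p = gp X ![p 0, p 1] := by
  have hs : HasStrictFDerivAt (coordDeriv f 2) (fderiv ℂ (coordDeriv f 2) 0) 0 :=
    (an_cd hf 2).hasStrictFDerivAt
  set e := coordDeriv (coordDeriv f 2) 2 0 with he
  have hep : 0 < ‖e‖ := norm_pos_iff.2 hxx
  have hb := hs.isLittleO.def (c := ‖e‖ / 2) (by positivity)
  have hT : Tendsto (fun p : E3 => (p, gp X ![p 0, p 1])) (𝓝 0) (𝓝 ((0 : E3), (0 : E3))) := by
    have h1 : Tendsto (fun p : E3 => (![p 0, p 1] : E2)) (𝓝 0) (𝓝 0) := by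
      have : Continuous (fun p : E3 => (![p 0, p 1] : E2)) := by
        refine continuous_pi fun i => ?_
        fin_cases i
        · exact continuous_apply 0
        · exact continuous_apply 1
      refine this.tendsto' _ _ ?_
      funext i
      fin_cases i <;> rfl
    exact tendsto_id.prodMk_nhds ((tendsto_gp hX X0).comp h1)
  have h2 : Tendsto (fun p : E3 => (![p 0, p 1] : E2)) (𝓝 0) (𝓝 0) := by
    have : Continuous (fun p : E3 => (![p 0, p 1] : E2)) := by
      refine continuous_pi fun i => ?_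
      fin_cases i
      · exact continuous_apply 0
      · exact continuous_apply 1
    refine this.tendsto' _ _ ?_
    funext i
    fin_cases i <;> rfl
  filter_upwards [hT.eventually hb, h2.eventually hX1] with p h3 h4 h5
  rw [h5, h4, sub_self, zero_sub, norm_neg] at h3
  have e1 : p - gp X ![p 0, p 1] = (p 2 - X ![p 0, p 1]) • (Pi.single 2 1 : E3) := by
    funext i
    fin_cases i
    · simp [gp]
    · simp [gp]
    · simp [gp]
  have e2 : fderiv ℂ (coordDeriv f 2) 0 (p - gp X ![p 0, p 1]) = (p 2 - X ![p 0, p 1]) * e := by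
    rw [e1, map_smul]
    rfl
  have e3 : ‖p - gp X ![p 0, p 1]‖ ≤ ‖p 2 - X ![p 0, p 1]‖ := by
    rw [e1, norm_smul]
    have h6 : ‖(Pi.single 2 1 : E3)‖ ≤ 1 := by
      rw [pi_norm_le_iff_of_nonneg zero_le_one]
      intro i
      fin_cases i
      · simp
      · simp
      · simp
    exact mul_le_of_le_one_right (norm_nonneg _) h6
  rw [e2, norm_mul] at h3
  have e4 : ‖p 2 - X ![p 0, p 1]‖ = 0 := by
    by_contra hne
    have hpos : 0 < ‖p 2 - X ![p 0, p 1]‖ := lt_of_le_of_ne (norm_nonneg _) (Ne.symm hne)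
    nlinarith
  rw [norm_eq_zero.1 e4, zero_smul] at e1
  exact sub_eq_zero.1 e1

end

/-- **the arcs** -/
theorem arcs {f : E3 → ℂ} (hf : AnalyticAt ℂ f 0) (crit : ∀ i, coordDeriv f i 0 = 0)
    {X : E2 → ℂ} (hX : AnalyticAt ℂ X 0) (X0 : X 0 = 0)
    (hX1 : ∀ᶠ q in 𝓝 (0 : E2), coordDeriv f 2 (gp X q) = 0)
    (hxx : coordDeriv (coordDeriv f 2) 2 0 ≠ 0) {k N : ℕ} (hk : 1 ≤ k) (hkN : k * (N - 2) = 2)
    {c : Fin (N + 1) → E2 → ℂ} (hP : Pl (fun q => f (gp X q)) k N c) {ι : Type} [Finite ι]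
    [Nonempty ι] {w : ι → ℂ} (winj : Function.Injective w)
    (w0 : ∀ i, deriv (Pw c) (w i) = 0) (w2 : ∀ i, deriv (deriv (Pw c)) (w i) ≠ 0)
    (wall : ∀ z, deriv (Pw c) z = 0 → ∃ i, z = w i) :
    ∃ (γ : ι → ℂ → E3) (D : ι → ℂ → ℂ), Arcs f γ D ∧
      (∀ i, D i 0 = coordDeriv (coordDeriv f 2) 2 0 * deriv (deriv (Pw c)) (w i)) ∧
      ∀ i, ∃ g : ℂ → ℂ, AnalyticAt ℂ g 0 ∧ g 0 = Pw c (w i) ∧
        ∀ᶠ τ in 𝓝 (0 : ℂ), f (γ i τ) = τ ^ (k * N) * g τ := by
  have hN : 3 ≤ N := by
    by_contra hcon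
    have : N - 2 = 0 := by omega
    rw [this, Nat.mul_zero] at hkN
    omega
  have hh : AnalyticAt ℂ (fun q => f (gp X q)) 0 :=
    AnalyticAt.fun_comp (g := f) (f := gp X) (by rw [gp_zero X0]; exact hf) (an_gp hX)
  choose W hWa hW0 hW1 hW2 using fun i => exists_W hk hP.an (w0 i) (w2 i)
  have hWT : ∀ i, Tendsto (fun τ : ℂ => (W i τ, τ)) (𝓝 0) (𝓝 (w i, 0)) := fun i => by
    have h1 := (hWa i).continuousAt.tendsto
    rw [hW0] at h1
    exact h1.prodMk_nhds tendsto_id
  set γ : ι → ℂ → E3 := fun i τ => gp X (pt k (W i τ, τ)) with hγ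
  set D : ι → ℂ → ℂ := fun i τ => coordDeriv (coordDeriv f 2) 2 (γ i τ) * G2 c k (W i τ, τ) with hD
  have hqan : ∀ i, AnalyticAt ℂ (fun τ => pt k (W i τ, τ)) 0 := fun i =>
    AnalyticAt.fun_comp (g := pt k) (f := fun τ : ℂ => (W i τ, τ)) (an_pt k _)
      ((hWa i).prod analyticAt_id)
  have hq0 : ∀ i, pt k (W i 0, 0) = 0 := fun i => pt_zero hk _
  have hqT : ∀ i, Tendsto (fun τ : ℂ => pt k (W i τ, τ)) (𝓝 0) (𝓝 0) := fun i => by
    have := (hqan i).continuousAt.tendsto
    simp only [hq0] at this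
    exact this
  have hγan : ∀ i, AnalyticAt ℂ (γ i) 0 := fun i =>
    AnalyticAt.fun_comp (g := gp X) (f := fun τ : ℂ => pt k (W i τ, τ))
      (by rw [hq0]; exact an_gp hX) (hqan i)
  have hγ0 : ∀ i, γ i 0 = 0 := fun i => by
    simp only [hγ, hq0, gp_zero X0]
  have hγT : ∀ i, Tendsto (γ i) (𝓝 0) (𝓝 0) := fun i => by
    have := (hγan i).continuousAt.tendsto
    rwa [hγ0] at this
  have hDan : ∀ i, AnalyticAt ℂ (D i) 0 := fun i => by
    refine AnalyticAt.mul ?_ ?_
    · exact AnalyticAt.fun_comp (g := coordDeriv (coordDeriv f 2) 2) (f := γ i)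
        (by rw [hγ0]; exact an_cd (an_cd hf 2) 2) (hγan i)
    · exact AnalyticAt.fun_comp (g := G2 c k) (f := fun τ : ℂ => (W i τ, τ))
        (by rw [hW0]; exact an_G2 hk hP.an _) ((hWa i).prod analyticAt_id)
  have hD0 : ∀ i, D i 0 = coordDeriv (coordDeriv f 2) 2 0 * deriv (deriv (Pw c)) (w i) := fun i => by
    simp only [hD]
    rw [hγ0, hW0, G2_zero hk hP.an]
  refine ⟨γ, D, ?_, hD0, ?_⟩
  · refine ⟨hγan, hγ0, fun i => Eventually.of_forall fun τ => rfl, ?_, ?_, ?_, ?_, ?_, ?_, ?_⟩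
    · -- `f_1 = 0`
      intro i
      have h1 : ∀ᶠ τ in 𝓝 (0 : ℂ), τ ≠ 0 → coordDeriv f 1 (γ i τ) = 0 := by
        filter_upwards [(hWT i).eventually (h1_pt hh hP hk (by omega : 1 ≤ N)), hW1 i,
          (hqT i).eventually (cd_h hf hX X0 hX1 1)] with τ a b d hτ
        have e1 : coordDeriv (fun q => f (gp X q)) 1 (pt k (W i τ, τ)) = 0 := by
          rw [a hτ, b, mul_zero]
        rw [d] at e1
        exact e1
      filter_upwards [h1] with τ a
      by_cases hτ : τ = 0
      · rw [hτ, hγ0]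
        exact crit 1
      · exact a hτ
    · intro i
      exact (hqT i).eventually hX1
    · -- completeness
      obtain ⟨K, hK, hdom⟩ := dom hh hP (by omega : 1 ≤ N)
      have hroots := roots_unif hk hP.an wall hW2 K
      have hq : Tendsto (fun p : E3 => (![p 0, p 1] : E2)) (𝓝 0) (𝓝 0) := by
        have : Continuous (fun p : E3 => (![p 0, p 1] : E2)) := by
          refine continuous_pi fun i => ?_
          fin_cases i
          · exact continuous_apply 0
          · exact continuous_apply 1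
        refine this.tendsto' _ _ ?_
        funext i
        fin_cases i <;> rfl
      have hp0 : Tendsto (fun p : E3 => p 0) (𝓝 0) (𝓝 0) := by
        have := (continuous_apply (0 : Fin 3) (A := fun _ => ℂ)).tendsto (0 : E3)
        simpa using this
      have hG : ∀ᶠ τ in 𝓝 (0 : ℂ), ∀ z ∈ Metric.closedBall (0 : ℂ) K, τ ≠ 0 →
          coordDeriv (fun q => f (gp X q)) 1 (pt k (z, τ)) = τ ^ (k * (N - 1)) * G1 c k (z, τ) := by
        refine (isCompact_closedBall (0 : ℂ) K).eventually_forall_of_forall_eventually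
          fun z _ => ?_
        have hsw : Tendsto (fun p : ℂ × ℂ => ((p.2, p.1) : ℂ × ℂ)) (𝓝 (0, z)) (𝓝 (z, 0)) := by
          have : Continuous (fun p : ℂ × ℂ => ((p.2, p.1) : ℂ × ℂ)) := by fun_prop
          exact this.tendsto' _ _ rfl
        exact hsw.eventually (h1_pt hh hP hk (by omega : 1 ≤ N))
      filter_upwards [uniq_X hf hX X0 hX1 hxx, hq.eventually hdom,
        hq.eventually (cd_h hf hX X0 hX1 1), hp0.eventually hroots, hp0.eventually hG]
        with p a1 a2 a3 a4 a5 p1 p2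
      have hpX := a1 p2
      have h3 : coordDeriv (fun q => f (gp X q)) 1 ![p 0, p 1] = 0 := by
        rw [a3, ← hpX]
        exact p1
      have h4 : ‖p 1‖ ≤ K * ‖p 0‖ ^ k := a2 h3
      by_cases hb : p 0 = 0
      · have h5 : p 1 = 0 := by
          rw [hb, norm_zero, zero_pow (by omega), mul_zero] at h4
          exact norm_le_zero_iff.1 h4
        obtain ⟨i⟩ := ‹Nonempty ι›
        refine ⟨i, ?_⟩
        rw [hb, hγ0, hpX, hb, h5]
        have : (![(0 : ℂ), 0] : E2) = 0 := by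
          funext i
          fin_cases i <;> rfl
        rw [this, gp_zero X0]
      · have hbk : p 0 ^ k ≠ 0 := pow_ne_zero _ hb
        set z := p 1 / p 0 ^ k with hz
        have hzK : z ∈ Metric.closedBall (0 : ℂ) K := by
          rw [mem_closedBall_zero_iff, hz, norm_div, norm_pow]
          rw [div_le_iff₀ (by positivity)]
          exact h4
        have hpz : pt k (z, p 0) = ![p 0, p 1] := by
          simp only [pt, hz]
          rw [mul_div_cancel₀ _ hbk]
        have h5 := a5 z hzK hb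
        rw [hpz, h3] at h5
        have h6 : G1 c k (z, p 0) = 0 := by
          rcases mul_eq_zero.1 h5.symm with h | h
          · exact absurd h (pow_ne_zero _ hb)
          · exact h
        obtain ⟨i, hi⟩ := a4 z hzK h6
        refine ⟨i, ?_⟩
        simp only [hγ]
        rw [← hi, hpz]
        exact hpX
    · -- distinct arcs
      intro i j hij
      have h1 : ∀ᶠ τ in 𝓝 (0 : ℂ), W i τ ≠ W j τ := by
        have h2 : Tendsto (fun τ => W i τ - W j τ) (𝓝 0) (𝓝 (w i - w j)) := by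
          have h3 := (hWa i).continuousAt.tendsto
          have h4 := (hWa j).continuousAt.tendsto
          rw [hW0] at h3 h4
          exact h3.sub h4
        have h5 : w i - w j ≠ 0 := sub_ne_zero.2 fun h => hij (winj h)
        exact (h2.eventually_ne h5).mono fun τ hτ h => hτ (sub_eq_zero.2 h)
      filter_upwards [nhdsWithin_le_nhds h1, self_mem_nhdsWithin] with τ a hτ hcon
      have h2 : (γ i τ) 1 = (γ j τ) 1 := by rw [hcon]
      have h3 : τ ^ k * W i τ = τ ^ k * W j τ := h2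
      exact a (mul_left_cancel₀ (pow_ne_zero _ hτ) h3)
    · -- the minor
      intro i
      have h1 : ∀ᶠ τ in 𝓝[≠] (0 : ℂ), mi f (γ i τ) = τ ^ 2 * D i τ := by
        filter_upwards [nhdsWithin_le_nhds ((hWT i).eventually (h2_pt hh hP hk (by omega : 2 ≤ N))),
          nhdsWithin_le_nhds ((hqT i).eventually (cd2_h hf hX X0 hX1)), self_mem_nhdsWithin]
          with τ a b hτ
        have e1 := a hτ
        simp only [hkN] at e1
        rw [e1] at b
        simp only [hγ, hD]
        rw [← b]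
        ring
      have hmi : AnalyticAt ℂ (mi f) 0 :=
        ((an_cd (an_cd hf 1) 1).mul (an_cd (an_cd hf 2) 2)).sub
          ((an_cd (an_cd hf 1) 2).mul (an_cd (an_cd hf 2) 1))
      have hc1 : ContinuousAt (fun τ => mi f (γ i τ)) 0 :=
        (AnalyticAt.fun_comp (g := mi f) (f := γ i) (by rw [hγ0]; exact hmi) (hγan i)).continuousAt
      have hc2 : ContinuousAt (fun τ => τ ^ 2 * D i τ) 0 :=
        ((analyticAt_id.pow 2).mul (hDan i)).continuousAt
      exact (hc1.eventuallyEq_nhds_iff_eventuallyEq_nhdsNE hc2).1 h1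
    · exact fun i => (hDan i).continuousAt
    · intro i
      rw [hD0]
      exact mul_ne_zero hxx (w2 i)
  · intro i
    refine ⟨fun τ => Qf c k (W i τ, τ), ?_, ?_, ?_⟩
    · exact AnalyticAt.fun_comp (g := Qf c k) (f := fun τ : ℂ => (W i τ, τ))
        (by rw [hW0]; exact an_Qf hk hP.an _) ((hWa i).prod analyticAt_id)
    · simp only [hW0, Qf_zero hk]
    · filter_upwards [(hWT i).eventually (h_pt hP hk)] with τ hτ
      exact hτ

end Crest.Agent.R257.EVd_929
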