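import Crest.Agent.R257.EVd_929

set_option autoImplicit false

/-!
R257 / EVe_929 (helper929): evaluation of the trace sum for corank 2, planar normal forms.
-/

open Topology Filter Set
open Crest.AlgGeometry.Germ

noncomputable section

namespace Crest.Agent.R257.EVe_929

open Crest.Agent.R257.Defs_219 Crest.Agent.R257.EVa_929 Crest.Agent.R257.EVb_929
open Crest.Agent.R257.EVc_929 Crest.Agent.R257.EVd_929

theorem ord_cmp {A B : ℕ} {g g' : ℂ → ℂ} (hg : ContinuousAt g 0) (hg' : ContinuousAt g' 0)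
    (h : ∀ᶠ τ in 𝓝 (0 : ℂ), τ ^ A * g τ = τ ^ B * g' τ) (hAB : B ≤ A) :
    g' 0 = 0 ^ (A - B) * g 0 := by
  have h1 : (fun τ => τ ^ (A - B) * g τ) =ᶠ[𝓝[≠] 0] g' := by
    filter_upwards [nhdsWithin_le_nhds h, self_mem_nhdsWithin] with τ a hτ
    have h2 : τ ^ A = τ ^ B * τ ^ (A - B) := by
      rw [← pow_add]
      congr 1
      omega
    rw [h2, mul_assoc] at a
    exact mul_left_cancel₀ (pow_ne_zero _ hτ) a
  have hc : ContinuousAt (fun τ : ℂ => τ ^ (A - B) * g τ) 0 :=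
    (continuousAt_id.pow _).mul hg
  exact ((hc.eventuallyEq_nhds_iff_eventuallyEq_nhdsNE hg').1 h1).self_of_nhds.symm

theorem ord_eq {A p : ℕ} {g g' : ℂ → ℂ} (hg : ContinuousAt g 0) (hg' : ContinuousAt g' 0)
    (hne : g' 0 ≠ 0) (h : ∀ᶠ τ in 𝓝 (0 : ℂ), τ ^ A * g τ = τ ^ p * g' τ) :
    (g 0 ≠ 0 → p = A) ∧ (g 0 = 0 → A + 1 ≤ p) := by
  constructor
  · intro h0
    rcases le_total p A with hle | hle
    · have h1 := ord_cmp hg hg' h hle
      by_contra hcon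
      rw [zero_pow (by omega), zero_mul] at h1
      exact hne h1
    · have h1 := ord_cmp hg' hg (h.mono fun _ hx => hx.symm) hle
      by_contra hcon
      rw [zero_pow (by omega), zero_mul] at h1
      exact h0 h1
  · intro h0
    by_contra hcon
    have h1 := ord_cmp hg hg' h (by omega)
    rw [h0, mul_zero] at h1
    exact hne h1

/-- the bound of the evaluated trace sum -/
theorem ev_bound {f : E3 → ℂ} {C : ℝ} (hB : Bd f C) (f0 : f 0 = 0)
    (crit : ∀ i, coordDeriv f i 0 = 0)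
    {X : E2 → ℂ} (hX : AnalyticAt ℂ X 0) (X0 : X 0 = 0)
    (hX1 : ∀ᶠ q in 𝓝 (0 : E2), coordDeriv f 2 (gp X q) = 0)
    (hxx : coordDeriv (coordDeriv f 2) 2 0 ≠ 0) {k N : ℕ} (hk : 1 ≤ k) (hkN : k * (N - 2) = 2)
    {c : Fin (N + 1) → E2 → ℂ} (hP : Pl (fun q => f (gp X q)) k N c) {ι : Type} [Fintype ι]
    [Nonempty ι] {w : ι → ℂ} (winj : Function.Injective w)
    (w0 : ∀ i, deriv (Pw c) (w i) = 0) (w2 : ∀ i, deriv (deriv (Pw c)) (w i) ≠ 0)
    (wall : ∀ z, deriv (Pw c) z = 0 → ∃ i, z = w i) :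
    ∃ p : ι → ℕ, (∀ i, Pw c (w i) ≠ 0 → p i = k * N) ∧ (∀ i, Pw c (w i) = 0 → k * N + 1 ≤ p i) ∧
      ‖∑ i, 1 / (p i * (coordDeriv (coordDeriv f 2) 2 0 * deriv (deriv (Pw c)) (w i)))‖ ≤ C := by
  obtain ⟨r, hr, han, hcr, hT⟩ := hB
  have hf : AnalyticAt ℂ f 0 := han 0 (by simpa using hr.le)
  obtain ⟨γ, D, hA, hD, hg⟩ := arcs hf crit hX X0 hX1 hxx hk hkN hP winj w0 w2 wall
  obtain ⟨p, -, hp, hsum⟩ := arc_bound hf f0 crit hA hr han hcr hT
  have key : ∀ i, (Pw c (w i) ≠ 0 → p i = k * N) ∧ (Pw c (w i) = 0 → k * N + 1 ≤ p i) := by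
    intro i
    obtain ⟨g, g1, g2, g3⟩ := hg i
    obtain ⟨g', g1', g2', g3'⟩ := hp i
    have h := ord_eq g1.continuousAt g1'.continuousAt g2' (A := k * N) (p := p i) (by
      filter_upwards [g3, g3'] with τ a b
      rw [← a, ← b])
    rwa [g2] at h
  refine ⟨p, fun i => (key i).1, fun i => (key i).2, ?_⟩
  simp only [hD] at hsum
  exact hsum

/-- `|1/p - 1/A| >= 1/(A(A+1))` for `p >= A+1` -/
theorem gap {A p : ℕ} (hA : 1 ≤ A) (hp : A + 1 ≤ p) :
    1 / ((A : ℝ) * (A + 1)) ≤ 1 / (A : ℝ) - 1 / (p : ℝ) := by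
  have h1 : (0 : ℝ) < A := by exact_mod_cast hA
  have h2 : ((A : ℝ) + 1) ≤ p := by exact_mod_cast hp
  have h3 : 1 / (p : ℝ) ≤ 1 / ((A : ℝ) + 1) := one_div_le_one_div_of_le (by linarith) h2
  have h4 : 1 / (A : ℝ) - 1 / ((A : ℝ) + 1) = 1 / ((A : ℝ) * (A + 1)) := by
    field_simp
    ring
  linarith

/-- weights `(2,1)`, cubic with a double root `w₀` -/
theorem ev_cubic {f : E3 → ℂ} {C : ℝ} (hB : Bd f C) (f0 : f 0 = 0)
    (crit : ∀ i, coordDeriv f i 0 = 0)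
    {X : E2 → ℂ} (hX : AnalyticAt ℂ X 0) (X0 : X 0 = 0)
    (hX1 : ∀ᶠ q in 𝓝 (0 : E2), coordDeriv f 2 (gp X q) = 0)
    (hxx : coordDeriv (coordDeriv f 2) 2 0 ≠ 0)
    {c : Fin (3 + 1) → E2 → ℂ} (hP : Pl (fun q => f (gp X q)) 2 3 c) {c0 c1 c2 c3 w₀ : ℂ}
    (e0 : c 0 0 = c0) (e1 : c 1 0 = c1) (e2 : c 2 0 = c2) (e3 : c 3 0 = c3)
    (r0 : c3 * w₀ ^ 3 + c2 * w₀ ^ 2 + c1 * w₀ + c0 = 0)
    (r1 : 3 * c3 * w₀ ^ 2 + 2 * c2 * w₀ + c1 = 0) (r2 : 6 * c3 * w₀ + 2 * c2 ≠ 0) :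
    1 ≤ 42 * C * ‖coordDeriv (coordDeriv f 2) 2 0 * (6 * c3 * w₀ + 2 * c2)‖ := by
  set e := coordDeriv (coordDeriv f 2) 2 0 with he
  have h3 : c3 ≠ 0 := by
    rw [← e3]
    exact hP.lead
  have hPw : Pw c = fun w => c3 * w ^ 3 + c2 * w ^ 2 + c1 * w + c0 := by
    funext w
    simp only [Pw, Fin.sum_univ_succ, Fin.sum_univ_zero]
    change w ^ 0 * c 0 0 + (w ^ 1 * c 1 0 + (w ^ 2 * c 2 0 + (w ^ 3 * c 3 0 + 0))) = _
    rw [e0, e1, e2, e3]
    ring
  have hd1 : deriv (Pw c) = fun w => 3 * c3 * w ^ 2 + 2 * c2 * w + c1 := by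
    funext w
    rw [hPw]
    have h4 : HasDerivAt (fun w => c3 * w ^ 3 + c2 * w ^ 2 + c1 * w + c0)
        (c3 * (((3 : ℕ) : ℂ) * w ^ (3 - 1)) + c2 * (((2 : ℕ) : ℂ) * w ^ (2 - 1)) + c1 * 1) w :=
      ((((hasDerivAt_pow 3 w).const_mul c3).fun_add ((hasDerivAt_pow 2 w).const_mul c2)).fun_add
        ((hasDerivAt_id w).const_mul c1)).add_const c0
    rw [h4.deriv]
    push_cast
    ring
  have hd2 : deriv (deriv (Pw c)) = fun w => 6 * c3 * w + 2 * c2 := by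
    funext w
    rw [hd1]
    have h4 : HasDerivAt (fun w => 3 * c3 * w ^ 2 + 2 * c2 * w + c1)
        (3 * c3 * (((2 : ℕ) : ℂ) * w ^ (2 - 1)) + 2 * c2 * 1) w :=
      (((hasDerivAt_pow 2 w).const_mul (3 * c3)).fun_add
        ((hasDerivAt_id w).const_mul (2 * c2))).add_const c1
    rw [h4.deriv]
    push_cast
    ring
  set δ := 6 * c3 * w₀ + 2 * c2 with hδ
  set v := w₀ - δ / (3 * c3) with hv
  have hvne : v ≠ w₀ := by
    intro h
    have : δ / (3 * c3) = 0 := by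
      have h5 : w₀ - δ / (3 * c3) = w₀ := h
      linear_combination -h5
    rcases div_eq_zero_iff.1 this with h6 | h6
    · exact r2 h6
    · exact mul_ne_zero three_ne_zero h3 h6
  have hvδ : 3 * c3 * (w₀ - v) = δ := by
    rw [hv]
    field_simp
    ring
  have hPv : deriv (Pw c) v = 0 := by
    rw [hd1]
    have h5 : 3 * c3 * v ^ 2 + 2 * c2 * v + c1 =
        (3 * c3 * w₀ ^ 2 + 2 * c2 * w₀ + c1) + (v - w₀) * (δ - 3 * c3 * (w₀ - v)) := by
      rw [hδ]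
      ring
    simp only
    rw [h5, r1, hvδ]
    ring
  have hP2v : deriv (deriv (Pw c)) v = -δ := by
    rw [hd2]
    simp only
    have h5 : 6 * c3 * v + 2 * c2 = δ - 2 * (3 * c3 * (w₀ - v)) := by
      rw [hδ]
      ring
    rw [h5, hvδ]
    ring
  have hP2w : deriv (deriv (Pw c)) w₀ = δ := by
    rw [hd2]
  have hPwv : Pw c v ≠ 0 := by
    rw [hPw]
    simp only
    have h5 : c3 * v ^ 3 + c2 * v ^ 2 + c1 * v + c0 =
        (c3 * w₀ ^ 3 + c2 * w₀ ^ 2 + c1 * w₀ + c0) + (v - w₀) * (3 * c3 * w₀ ^ 2 + 2 * c2 * w₀ + c1)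
          + (v - w₀) ^ 2 * (δ / 2 - 3 * c3 * (w₀ - v) / 3) := by
      rw [hδ]
      ring
    rw [h5, r0, r1, hvδ]
    have h6 : v - w₀ ≠ 0 := sub_ne_zero.2 hvne
    have h7 : (0 : ℂ) + (v - w₀) * 0 + (v - w₀) ^ 2 * (δ / 2 - δ / 3) = (v - w₀) ^ 2 * δ / 6 := by
      ring
    rw [h7]
    exact div_ne_zero (mul_ne_zero (pow_ne_zero _ h6) r2) (by norm_num)
  have hPww : Pw c w₀ = 0 := by
    rw [hPw]
    exact r0
  have hPw1 : deriv (Pw c) w₀ = 0 := by
    rw [hd1]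
    exact r1
  obtain ⟨p, hp1, hp2, hp3⟩ := ev_bound (ι := Fin 2) (w := ![w₀, v]) hB f0 crit hX X0 hX1 hxx
    (by norm_num : 1 ≤ 2) (by norm_num : 2 * (3 - 2) = 2) hP (by
      intro i j hij
      fin_cases i <;> fin_cases j
      · rfl
      · exact absurd hij.symm hvne
      · exact absurd hij hvne
      · rfl) (by
      intro i
      fin_cases i
      · exact hPw1
      · exact hPv) (by
      intro i
      fin_cases i
      · change deriv (deriv (Pw c)) w₀ ≠ 0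
        rw [hP2w]
        exact r2
      · change deriv (deriv (Pw c)) v ≠ 0
        rw [hP2v]
        exact neg_ne_zero.2 r2) (by
      intro z hz
      rw [hd1] at hz
      simp only at hz
      have h5 : 3 * c3 * z ^ 2 + 2 * c2 * z + c1 =
          (3 * c3 * w₀ ^ 2 + 2 * c2 * w₀ + c1) + (z - w₀) * (3 * c3 * (z - w₀) + δ) := by
        rw [hδ]
        ring
      rw [h5, r1, ← hvδ] at hz
      have h6 : (z - w₀) * (3 * c3 * (z - v)) = 0 := by linear_combination hz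
      rcases mul_eq_zero.1 h6 with h7 | h7
      · exact ⟨0, sub_eq_zero.1 h7⟩
      · refine ⟨1, sub_eq_zero.1 ?_⟩
        rcases mul_eq_zero.1 h7 with h8 | h8
        · exact absurd h8 (mul_ne_zero three_ne_zero h3)
        · exact h8)
  have q1 : p 1 = 6 := hp1 1 hPwv
  have q0 : 7 ≤ p 0 := hp2 0 hPww
  simp only [Fin.sum_univ_two, Matrix.cons_val_zero, Matrix.cons_val_one] at hp3
  rw [hP2w, hP2v, q1] at hp3
  have hne : e * δ ≠ 0 := mul_ne_zero hxx r2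
  have hp0 : (p 0 : ℂ) ≠ 0 := by exact_mod_cast (by omega : p 0 ≠ 0)
  have h8 : 1 / ((p 0 : ℂ) * (e * δ)) + 1 / (((6 : ℕ) : ℂ) * (e * -δ)) =
      -((1 / 6 - 1 / (p 0 : ℂ)) / (e * δ)) := by
    have h9 : e ≠ 0 := hxx
    have h10 : δ ≠ 0 := r2
    push_cast
    field_simp
    ring
  rw [h8, norm_neg, norm_div] at hp3
  have h11 : (1 : ℝ) / 42 ≤ ‖(1 / 6 - 1 / (p 0 : ℂ))‖ := by
    have h12 : (1 / 6 - 1 / (p 0 : ℂ)) = ((1 / 6 - 1 / (p 0 : ℝ) : ℝ) : ℂ) := by push_cast; rfl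
    rw [h12, Complex.norm_real, Real.norm_eq_abs]
    refine le_trans ?_ (le_abs_self _)
    have := gap (A := 6) (p := p 0) (by norm_num) q0
    norm_num at this ⊢
    linarith
  have h13 : 0 < ‖e * δ‖ := norm_pos_iff.2 hne
  have h14 : 1 / 42 / ‖e * δ‖ ≤ C := le_trans (div_le_div_of_nonneg_right h11 h13.le) hp3
  rw [div_le_iff₀ h13] at h14
  linarith

section Quartic

variable {c : Fin (4 + 1) → E2 → ℂ} {al be ga : ℂ}

theorem Pw4 (e0 : c 0 0 = 0) (e1 : c 1 0 = 0) (e2 : c 2 0 = al) (e3 : c 3 0 = be)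
    (e4 : c 4 0 = ga) : Pw c = fun w => al * w ^ 2 + be * w ^ 3 + ga * w ^ 4 := by
  funext w
  simp only [Pw, Fin.sum_univ_succ, Fin.sum_univ_zero]
  change w ^ 0 * c 0 0 + (w ^ 1 * c 1 0 + (w ^ 2 * c 2 0 + (w ^ 3 * c 3 0 +
    (w ^ 4 * c 4 0 + 0)))) = _
  rw [e0, e1, e2, e3, e4]
  ring

theorem Pw4' (h : Pw c = fun w => al * w ^ 2 + be * w ^ 3 + ga * w ^ 4) :
    deriv (Pw c) = fun w => 2 * al * w + 3 * be * w ^ 2 + 4 * ga * w ^ 3 := by
  funext w
  rw [h]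
  have h4 : HasDerivAt (fun w => al * w ^ 2 + be * w ^ 3 + ga * w ^ 4)
      (al * (((2 : ℕ) : ℂ) * w ^ (2 - 1)) + be * (((3 : ℕ) : ℂ) * w ^ (3 - 1)) +
        ga * (((4 : ℕ) : ℂ) * w ^ (4 - 1))) w :=
    (((hasDerivAt_pow 2 w).const_mul al).fun_add ((hasDerivAt_pow 3 w).const_mul be)).fun_add
      ((hasDerivAt_pow 4 w).const_mul ga)
  rw [h4.deriv]
  push_cast
  ring

theorem Pw4'' (h : Pw c = fun w => al * w ^ 2 + be * w ^ 3 + ga * w ^ 4) :
    deriv (deriv (Pw c)) = fun w => 2 * al + 6 * be * w + 12 * ga * w ^ 2 := by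
  funext w
  rw [Pw4' h]
  have h4 : HasDerivAt (fun w => 2 * al * w + 3 * be * w ^ 2 + 4 * ga * w ^ 3)
      (2 * al * 1 + 3 * be * (((2 : ℕ) : ℂ) * w ^ (2 - 1)) +
        4 * ga * (((3 : ℕ) : ℂ) * w ^ (3 - 1))) w :=
    (((hasDerivAt_id w).const_mul (2 * al)).fun_add
      ((hasDerivAt_pow 2 w).const_mul (3 * be))).fun_add
      ((hasDerivAt_pow 3 w).const_mul (4 * ga))
  rw [h4.deriv]
  push_cast
  ring

theorem fin_norm {x y : ℝ} {e al : ℂ} {C : ℝ} (hne : e * al ≠ 0) (hx : x ≤ y) (hx0 : 0 ≤ x)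
    (h : ‖((y : ℝ) : ℂ) / (2 * (e * al))‖ ≤ C) : x ≤ 2 * C * ‖e * al‖ := by
  have h13 : 0 < ‖e * al‖ := norm_pos_iff.2 hne
  rw [norm_div, norm_mul, Complex.norm_real, Real.norm_eq_abs, abs_of_nonneg (hx0.trans hx)] at h
  have h2 : ‖(2 : ℂ)‖ = 2 := by simp
  rw [h2, div_le_iff₀ (by positivity)] at h
  linarith

/-- one double root: `P = w²(al + ga w²)` -/
theorem ev_q1 {f : E3 → ℂ} {C : ℝ} (hB : Bd f C) (f0 : f 0 = 0)
    (crit : ∀ i, coordDeriv f i 0 = 0)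
    {X : E2 → ℂ} (hX : AnalyticAt ℂ X 0) (X0 : X 0 = 0)
    (hX1 : ∀ᶠ q in 𝓝 (0 : E2), coordDeriv f 2 (gp X q) = 0)
    (hxx : coordDeriv (coordDeriv f 2) 2 0 ≠ 0)
    (hP : Pl (fun q => f (gp X q)) 1 4 c)
    (e0 : c 0 0 = 0) (e1 : c 1 0 = 0) (e2 : c 2 0 = al) (e3 : c 3 0 = 0) (e4 : c 4 0 = ga)
    (hal : al ≠ 0) : 1 ≤ 40 * C * ‖coordDeriv (coordDeriv f 2) 2 0 * al‖ := by
  set e := coordDeriv (coordDeriv f 2) 2 0 with he
  have hga : ga ≠ 0 := by
    rw [← e4]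
    exact hP.lead
  have hPw := Pw4 e0 e1 e2 e3 e4
  have hd1 := Pw4' hPw
  have hd2 := Pw4'' hPw
  obtain ⟨s, hs⟩ := IsAlgClosed.exists_pow_nat_eq (-al / (2 * ga)) (n := 2) (by norm_num)
  have hs2 : 2 * ga * s ^ 2 = -al := by
    rw [hs]
    field_simp
  have hs0 : s ≠ 0 := by
    rintro rfl
    apply hal
    linear_combination hs2
  have a1 : deriv (deriv (Pw c)) 0 = 2 * al := by rw [hd2]; ring
  have a2 : deriv (deriv (Pw c)) s = -4 * al := by
    rw [hd2]; linear_combination 6 * hs2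
  have a3 : deriv (deriv (Pw c)) (-s) = -4 * al := by
    rw [hd2]; linear_combination 6 * hs2
  have b1 : Pw c 0 = 0 := by rw [hPw]; ring
  have b2 : Pw c s ≠ 0 := by
    rw [hPw]
    have : al * s ^ 2 + 0 * s ^ 3 + ga * s ^ 4 = s ^ 2 * al / 2 := by
      linear_combination s ^ 2 / 2 * hs2
    simp only
    rw [this]
    exact div_ne_zero (mul_ne_zero (pow_ne_zero _ hs0) hal) two_ne_zero
  have b3 : Pw c (-s) ≠ 0 := by
    rw [hPw]
    have : al * (-s) ^ 2 + 0 * (-s) ^ 3 + ga * (-s) ^ 4 = s ^ 2 * al / 2 := by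
      linear_combination s ^ 2 / 2 * hs2
    simp only
    rw [this]
    exact div_ne_zero (mul_ne_zero (pow_ne_zero _ hs0) hal) two_ne_zero
  have hss : s ≠ -s := by
    intro h
    apply hs0
    linear_combination h / 2
  obtain ⟨p, hp1, hp2, hp3⟩ := ev_bound (ι := Fin 3) (w := ![0, s, -s]) hB f0 crit hX X0 hX1 hxx
    (le_refl 1) (by norm_num : 1 * (4 - 2) = 2) hP (by
      intro i j hij
      fin_cases i <;> fin_cases j
      · rfl
      · exact absurd hij.symm hs0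
      · exact absurd hij.symm (neg_ne_zero.2 hs0)
      · exact absurd hij hs0
      · rfl
      · exact absurd hij hss
      · exact absurd hij (neg_ne_zero.2 hs0)
      · exact absurd hij.symm hss
      · rfl) (by
      intro i
      rw [hd1]
      fin_cases i
      · change 2 * al * 0 + 3 * 0 * (0 : ℂ) ^ 2 + 4 * ga * (0 : ℂ) ^ 3 = 0
        ring
      · change 2 * al * s + 3 * 0 * s ^ 2 + 4 * ga * s ^ 3 = 0
        linear_combination 2 * s * hs2
      · change 2 * al * (-s) + 3 * 0 * (-s) ^ 2 + 4 * ga * (-s) ^ 3 = 0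
        linear_combination -2 * s * hs2) (by
      intro i
      fin_cases i
      · change deriv (deriv (Pw c)) 0 ≠ 0
        rw [a1]
        exact mul_ne_zero two_ne_zero hal
      · change deriv (deriv (Pw c)) s ≠ 0
        rw [a2]
        exact mul_ne_zero (by norm_num) hal
      · change deriv (deriv (Pw c)) (-s) ≠ 0
        rw [a3]
        exact mul_ne_zero (by norm_num) hal) (by
      intro z hz
      rw [hd1] at hz
      simp only at hz
      have h6 : z * ((z - s) * (z + s)) = 0 := by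
        have h7 : 4 * ga * (z * ((z - s) * (z + s))) = 0 := by
          linear_combination hz - 2 * z * hs2
        rcases mul_eq_zero.1 h7 with h | h
        · exact absurd h (mul_ne_zero (by norm_num) hga)
        · exact h
      rcases mul_eq_zero.1 h6 with h7 | h7
      · exact ⟨0, h7⟩
      · rcases mul_eq_zero.1 h7 with h8 | h8
        · exact ⟨1, sub_eq_zero.1 h8⟩
        · exact ⟨2, eq_neg_of_add_eq_zero_left h8⟩)
  have q0 : 5 ≤ p 0 := hp2 0 b1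
  have q1 : p 1 = 4 := hp1 1 b2
  have q2 : p 2 = 4 := hp1 2 b3
  have w2 : (![(0 : ℂ), s, -s] : Fin 3 → ℂ) 2 = -s := rfl
  simp only [Fin.sum_univ_three, Matrix.cons_val_zero, Matrix.cons_val_one, w2] at hp3
  rw [a1, a2, a3, q1, q2] at hp3
  have hp0 : (p 0 : ℂ) ≠ 0 := by exact_mod_cast (by omega : p 0 ≠ 0)
  have h8 : 1 / ((p 0 : ℂ) * (e * (2 * al))) + 1 / (((4 : ℕ) : ℂ) * (e * (-4 * al))) +
      1 / (((4 : ℕ) : ℂ) * (e * (-4 * al))) =
      -(((1 / 4 - 1 / (p 0 : ℝ) : ℝ) : ℂ) / (2 * (e * al))) := by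
    have h9 : e ≠ 0 := hxx
    push_cast
    field_simp
    ring
  rw [h8, norm_neg] at hp3
  have hg := gap (A := 4) (p := p 0) (by norm_num) q0
  have := fin_norm (x := 1 / 20) (mul_ne_zero hxx hal) (by norm_num at hg ⊢; linarith)
    (by norm_num) hp3
  linarith

/-- two double roots: `P = al w²(1+w)²` -/
theorem ev_q2 {f : E3 → ℂ} {C : ℝ} (hB : Bd f C) (f0 : f 0 = 0)
    (crit : ∀ i, coordDeriv f i 0 = 0)
    {X : E2 → ℂ} (hX : AnalyticAt ℂ X 0) (X0 : X 0 = 0)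
    (hX1 : ∀ᶠ q in 𝓝 (0 : E2), coordDeriv f 2 (gp X q) = 0)
    (hxx : coordDeriv (coordDeriv f 2) 2 0 ≠ 0)
    (hP : Pl (fun q => f (gp X q)) 1 4 c)
    (e0 : c 0 0 = 0) (e1 : c 1 0 = 0) (e2 : c 2 0 = al) (e3 : c 3 0 = 2 * al) (e4 : c 4 0 = al)
    (hal : al ≠ 0) : 1 ≤ 40 * C * ‖coordDeriv (coordDeriv f 2) 2 0 * al‖ := by
  set e := coordDeriv (coordDeriv f 2) 2 0 with he
  have hPw := Pw4 e0 e1 e2 e3 e4
  have hd1 := Pw4' hPw
  have hd2 := Pw4'' hPw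
  have a1 : deriv (deriv (Pw c)) 0 = 2 * al := by rw [hd2]; ring
  have a2 : deriv (deriv (Pw c)) (-1) = 2 * al := by rw [hd2]; ring
  have a3 : deriv (deriv (Pw c)) (-1 / 2) = -al := by rw [hd2]; ring
  have b1 : Pw c 0 = 0 := by rw [hPw]; ring
  have b2 : Pw c (-1) = 0 := by rw [hPw]; ring
  have b3 : Pw c (-1 / 2) ≠ 0 := by
    rw [hPw]
    have : al * (-1 / 2 : ℂ) ^ 2 + 2 * al * (-1 / 2) ^ 3 + al * (-1 / 2) ^ 4 = al / 16 := by
      ring
    simp only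
    rw [this]
    exact div_ne_zero hal (by norm_num)
  have n1 : (-1 : ℂ) ≠ 0 := by norm_num
  have n2 : (-1 / 2 : ℂ) ≠ 0 := by norm_num
  have n3 : (-1 : ℂ) ≠ -1 / 2 := by norm_num
  obtain ⟨p, hp1, hp2, hp3⟩ := ev_bound (ι := Fin 3) (w := ![0, -1, -1 / 2]) hB f0 crit hX X0 hX1
    hxx (le_refl 1) (by norm_num : 1 * (4 - 2) = 2) hP (by
      intro i j hij
      fin_cases i <;> fin_cases j
      · rfl
      · exact absurd hij.symm n1
      · exact absurd hij.symm n2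
      · exact absurd hij n1
      · rfl
      · exact absurd hij n3
      · exact absurd hij n2
      · exact absurd hij.symm n3
      · rfl) (by
      intro i
      rw [hd1]
      fin_cases i
      · change 2 * al * 0 + 3 * (2 * al) * (0 : ℂ) ^ 2 + 4 * al * (0 : ℂ) ^ 3 = 0
        ring
      · change 2 * al * (-1) + 3 * (2 * al) * (-1 : ℂ) ^ 2 + 4 * al * (-1 : ℂ) ^ 3 = 0
        ring
      · change 2 * al * (-1 / 2) + 3 * (2 * al) * (-1 / 2 : ℂ) ^ 2 + 4 * al * (-1 / 2 : ℂ) ^ 3 = 0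
        ring) (by
      intro i
      fin_cases i
      · change deriv (deriv (Pw c)) 0 ≠ 0
        rw [a1]
        exact mul_ne_zero two_ne_zero hal
      · change deriv (deriv (Pw c)) (-1) ≠ 0
        rw [a2]
        exact mul_ne_zero two_ne_zero hal
      · change deriv (deriv (Pw c)) (-1 / 2) ≠ 0
        rw [a3]
        exact neg_ne_zero.2 hal) (by
      intro z hz
      rw [hd1] at hz
      simp only at hz
      have h6 : z * ((z + 1) * (z + 1 / 2)) = 0 := by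
        have h7 : 4 * al * (z * ((z + 1) * (z + 1 / 2))) = 0 := by
          linear_combination hz
        rcases mul_eq_zero.1 h7 with h | h
        · exact absurd h (mul_ne_zero (by norm_num) hal)
        · exact h
      rcases mul_eq_zero.1 h6 with h7 | h7
      · exact ⟨0, h7⟩
      · rcases mul_eq_zero.1 h7 with h8 | h8
        · exact ⟨1, eq_neg_of_add_eq_zero_left h8⟩
        · refine ⟨2, ?_⟩
          change z = -1 / 2
          linear_combination h8)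
  have q0 : 5 ≤ p 0 := hp2 0 b1
  have q1 : 5 ≤ p 1 := hp2 1 b2
  have q2 : p 2 = 4 := hp1 2 b3
  have w2 : (![(0 : ℂ), -1, -1 / 2] : Fin 3 → ℂ) 2 = -1 / 2 := rfl
  simp only [Fin.sum_univ_three, Matrix.cons_val_zero, Matrix.cons_val_one, w2] at hp3
  rw [a1, a2, a3, q2] at hp3
  have hp0 : (p 0 : ℂ) ≠ 0 := by exact_mod_cast (by omega : p 0 ≠ 0)
  have hp1' : (p 1 : ℂ) ≠ 0 := by exact_mod_cast (by omega : p 1 ≠ 0)
  have h8 : 1 / ((p 0 : ℂ) * (e * (2 * al))) + 1 / ((p 1 : ℂ) * (e * (2 * al))) +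
      1 / (((4 : ℕ) : ℂ) * (e * -al)) =
      -((((1 / 4 - 1 / (p 0 : ℝ)) + (1 / 4 - 1 / (p 1 : ℝ)) : ℝ) : ℂ) / (2 * (e * al))) := by
    have h9 : e ≠ 0 := hxx
    push_cast
    field_simp
    ring
  rw [h8, norm_neg] at hp3
  have hg := gap (A := 4) (p := p 0) (by norm_num) q0
  have hg' := gap (A := 4) (p := p 1) (by norm_num) q1
  have := fin_norm (x := 1 / 20) (mul_ne_zero hxx hal) (by norm_num at hg hg' ⊢; linarith)
    (by norm_num) hp3
  linarith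

end Quartic

end Crest.Agent.R257.EVe_929
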