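import Crest.Agent.R257.EVe_929

set_option autoImplicit false

/-!
R257 / EVf_929 (helper929): plane germs of order `>= m`; transport of the planar data by a linear
change of the two last coordinates; the quartic case.
-/

open Topology Filter Set Asymptotics
open Crest.AlgGeometry.Germ

noncomputable section

namespace Crest.Agent.R257.EVf_929

open Crest.Agent.R257.Defs_219 Crest.Agent.R257.EVa_929 Crest.Agent.R257.EVb_929
open Crest.Agent.R257.EVc_929 Crest.Agent.R257.EVd_929 Crest.Agent.R257.EVe_929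

/-! ### germs of order `>= m` -/

/-- Hadamard division by the second coordinate -/
theorem hada {G : E2 → ℂ} (hG : AnalyticAt ℂ G 0) :
    ∃ R : E2 → ℂ, AnalyticAt ℂ R 0 ∧ ∀ᶠ q in 𝓝 (0 : E2), G q = G ![q 0, 0] + q 1 * R q := by
  let T : ℂ × ℂ → E2 := fun p => ![p.1, p.2]
  have hT : ∀ p, AnalyticAt ℂ T p := fun p => by
    refine AnalyticAt.pi (f := fun i (p : ℂ × ℂ) => T p i) fun i => ?_
    fin_cases i
    · exact analyticAt_fst
    · exact analyticAt_snd
  have hT0 : T 0 = 0 := by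
    funext i
    fin_cases i <;> rfl
  let S : E2 → ℂ × ℂ := fun q => (q 0, q 1)
  have hS : ∀ q, AnalyticAt ℂ S q := fun q =>
    ((ContinuousLinearMap.proj (R := ℂ) (φ := fun _ : Fin 2 => ℂ) 0).analyticAt q).prod
      ((ContinuousLinearMap.proj (R := ℂ) (φ := fun _ : Fin 2 => ℂ) 1).analyticAt q)
  have hTS : ∀ q, T (S q) = q := fun q => by
    funext i
    fin_cases i <;> rfl
  have h1 : AnalyticAt ℂ (fun p : ℂ × ℂ => G (T p)) 0 :=
    AnalyticAt.fun_comp (g := G) (f := T) (by rw [hT0]; exact hG) (hT 0)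
  obtain ⟨R, hR, hR2⟩ := UI939.hadamard_fun h1
  have hS0 : S 0 = 0 := rfl
  refine ⟨fun q => R (S q), AnalyticAt.fun_comp (g := R) (f := S) (by rw [hS0]; exact hR) (hS 0), ?_⟩
  have hST : Tendsto S (𝓝 0) (𝓝 0) := by
    have := (hS 0).continuousAt.tendsto
    rwa [hS0] at this
  filter_upwards [hST.eventually hR2] with q hq
  have e1 : G (T (S q)) = G q := by rw [hTS]
  rw [← e1, hq]

theorem one_var {g : ℂ → ℂ} {m : ℕ} (hg : AnalyticAt ℂ g 0) (hO : g =O[𝓝 0] fun y => ‖y‖ ^ m) :
    ∃ k : ℂ → ℂ, AnalyticAt ℂ k 0 ∧ ∀ᶠ y in 𝓝 (0 : ℂ), g y = y ^ m * k y := by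
  by_cases htop : analyticOrderAt g 0 = ⊤
  · rw [analyticOrderAt_eq_top] at htop
    exact ⟨fun _ => 0, analyticAt_const, htop.mono fun y hy => by rw [hy, mul_zero]⟩
  · obtain ⟨n, hn⟩ := ENat.ne_top_iff_exists.1 htop
    obtain ⟨k, hk, hk0, hke⟩ := (hg.analyticOrderAt_eq_natCast).1 hn.symm
    simp only [sub_zero, smul_eq_mul] at hke
    have hmn : m ≤ n := by
      by_contra hcon
      rw [not_le] at hcon
      obtain ⟨C, hC⟩ := hO.bound
      have h1 : ∀ᶠ y in 𝓝[≠] (0 : ℂ), ‖k y‖ ≤ C * ‖y‖ ^ (m - n) := by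
        filter_upwards [nhdsWithin_le_nhds hC, nhdsWithin_le_nhds hke, self_mem_nhdsWithin]
          with y a b hy
        have hy0 : 0 < ‖y‖ := norm_pos_iff.2 hy
        rw [b, norm_mul, norm_pow, norm_pow, norm_norm] at a
        have e1 : ‖y‖ ^ m = ‖y‖ ^ n * ‖y‖ ^ (m - n) := by
          rw [← pow_add]
          congr 1
          omega
        rw [e1] at a
        have e2 : ‖y‖ ^ n * ‖k y‖ ≤ ‖y‖ ^ n * (C * ‖y‖ ^ (m - n)) := by
          calc _ ≤ _ := a
            _ = _ := by ring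
        exact le_of_mul_le_mul_left e2 (by positivity)
      have h2 : Tendsto (fun y => ‖k y‖) (𝓝[≠] 0) (𝓝 ‖k 0‖) :=
        hk.continuousAt.norm.tendsto.mono_left nhdsWithin_le_nhds
      have h3 : Tendsto (fun y : ℂ => C * ‖y‖ ^ (m - n)) (𝓝[≠] 0) (𝓝 0) := by
        have : ContinuousAt (fun y : ℂ => C * ‖y‖ ^ (m - n)) 0 := by fun_prop
        have h4 := this.tendsto
        simp only [norm_zero, zero_pow (by omega : m - n ≠ 0), mul_zero] at h4
        exact h4.mono_left nhdsWithin_le_nhds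
      have h5 := le_of_tendsto_of_tendsto h2 h3 h1
      exact hk0 (norm_le_zero_iff.1 h5)
    refine ⟨fun y => y ^ (n - m) * k y, (analyticAt_id.pow _).mul hk, ?_⟩
    filter_upwards [hke] with y hy
    rw [hy, ← mul_assoc, ← pow_add]
    congr 2
    omega

theorem norm_E2 (q : E2) : ‖q‖ = max ‖q 0‖ ‖q 1‖ := by
  apply le_antisymm
  · rw [pi_norm_le_iff_of_nonneg (by positivity)]
    intro i
    fin_cases i
    · exact le_max_left _ _
    · exact le_max_right _ _
  · exact max_le (norm_le_pi_norm q 0) (norm_le_pi_norm q 1)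

/-- the quotient in the Hadamard division has order one less -/
theorem hada_bigO {G R : E2 → ℂ} {m : ℕ} (hR : AnalyticAt ℂ R 0)
    (h : ∀ᶠ q in 𝓝 (0 : E2), G q = G ![q 0, 0] + q 1 * R q)
    (hO : G =O[𝓝 0] fun q => ‖q‖ ^ (m + 1)) : R =O[𝓝 0] fun q => ‖q‖ ^ m := by
  obtain ⟨C, hC⟩ := hO.bound
  obtain ⟨ε, hε, hball⟩ := Metric.eventually_nhds_iff_ball.1
    ((h.and hC).and hR.eventually_analyticAt)
  refine IsBigO.of_bound (2 * C * 2 ^ m) ?_
  filter_upwards [Metric.ball_mem_nhds (0 : E2) (half_pos hε)] with q hq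
  rw [mem_ball_zero_iff] at hq
  by_cases hq0 : q = 0
  · -- at the origin: by continuity (the bound with `m`)
    subst hq0
    rcases Nat.eq_zero_or_pos m with hm | hm
    · subst hm
      -- limit along `(0, s)`
      have h1 : ∀ᶠ s : ℝ in 𝓝[>] 0, ‖R ![0, (s : ℂ)]‖ ≤ 2 * C * 2 ^ 0 * 1 := by
        have h2 : ∀ᶠ s : ℝ in 𝓝[>] 0, s < ε := nhdsWithin_le_nhds (eventually_lt_nhds hε)
        filter_upwards [self_mem_nhdsWithin, h2] with s hs0 hs
        have hs0' : 0 < s := hs0
        have hn : ‖(![0, (s : ℂ)] : E2)‖ = s := by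
          rw [norm_E2]
          simp [abs_of_pos hs0', hs0'.le]
        obtain ⟨⟨a1, a2⟩, -⟩ := hball ![0, (s : ℂ)] (by rw [mem_ball_zero_iff, hn]; exact hs)
        obtain ⟨⟨-, b2⟩, -⟩ := hball ![0, 0] (by
          have : (![0, 0] : E2) = 0 := by funext i; fin_cases i <;> rfl
          rw [this, mem_ball_zero_iff, norm_zero]
          exact hε)
        have e0 : (![0, 0] : E2) = 0 := by funext i; fin_cases i <;> rfl
        rw [e0, norm_zero, zero_add, pow_one, norm_zero, mul_zero] at b2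
        have e1 : G ![((![0, (s : ℂ)] : E2) 0), 0] = 0 := by
          have : (![((![0, (s : ℂ)] : E2) 0), 0] : E2) = 0 := by
            funext i; fin_cases i <;> rfl
          rw [this]
          exact norm_le_zero_iff.1 b2
        rw [e1, zero_add] at a1
        rw [a1, hn, zero_add, pow_one, norm_mul, Real.norm_eq_abs, abs_of_pos hs0'] at a2
        have e2 : ‖(![0, (s : ℂ)] : E2) 1‖ = s := by
          change ‖(s : ℂ)‖ = s
          rw [Complex.norm_real, Real.norm_eq_abs, abs_of_pos hs0']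
        rw [e2] at a2
        have hC0 : ‖R ![0, (s : ℂ)]‖ ≤ C := by
          have : s * ‖R ![0, (s : ℂ)]‖ ≤ s * C := by linarith
          exact le_of_mul_le_mul_left this hs0'
        have : 0 ≤ C := (norm_nonneg _).trans hC0
        linarith
      have h3 : Tendsto (fun s : ℝ => ‖R ![0, (s : ℂ)]‖) (𝓝[>] 0) (𝓝 ‖R 0‖) := by
        have h4 : Continuous (fun s : ℝ => (![0, (s : ℂ)] : E2)) := by
          refine continuous_pi fun i => ?_
          fin_cases i
          · exact continuous_const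
          · exact Complex.continuous_ofReal
        have h5 : Tendsto (fun s : ℝ => (![0, (s : ℂ)] : E2)) (𝓝 0) (𝓝 0) := by
          refine h4.tendsto' _ _ ?_
          funext i
          fin_cases i
          · rfl
          · exact Complex.ofReal_zero
        exact ((hR.continuousAt.norm.tendsto.comp h5)).mono_left nhdsWithin_le_nhds
      have h6 := le_of_tendsto h3 h1
      simpa using h6
    · -- `m > 0`: the same with the value `0`
      have h1 : ∀ᶠ s : ℝ in 𝓝[>] 0, ‖R ![0, (s : ℂ)]‖ ≤ C * s ^ m := by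
        have h2 : ∀ᶠ s : ℝ in 𝓝[>] 0, s < ε := nhdsWithin_le_nhds (eventually_lt_nhds hε)
        filter_upwards [self_mem_nhdsWithin, h2] with s hs0 hs
        have hs0' : 0 < s := hs0
        have hn : ‖(![0, (s : ℂ)] : E2)‖ = s := by
          rw [norm_E2]
          simp [abs_of_pos hs0', hs0'.le]
        obtain ⟨⟨a1, a2⟩, -⟩ := hball ![0, (s : ℂ)] (by rw [mem_ball_zero_iff, hn]; exact hs)
        obtain ⟨⟨-, b2⟩, -⟩ := hball ![0, 0] (by
          have : (![0, 0] : E2) = 0 := by funext i; fin_cases i <;> rfl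
          rw [this, mem_ball_zero_iff, norm_zero]
          exact hε)
        have e0 : (![0, 0] : E2) = 0 := by funext i; fin_cases i <;> rfl
        rw [e0, norm_zero, zero_pow (by omega), norm_zero, mul_zero] at b2
        have e1 : G ![((![0, (s : ℂ)] : E2) 0), 0] = 0 := by
          have : (![((![0, (s : ℂ)] : E2) 0), 0] : E2) = 0 := by
            funext i; fin_cases i <;> rfl
          rw [this]
          exact norm_le_zero_iff.1 b2
        rw [e1, zero_add] at a1
        rw [a1, norm_pow, norm_norm, hn, norm_mul] at a2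
        have e2 : ‖(![0, (s : ℂ)] : E2) 1‖ = s := by
          change ‖(s : ℂ)‖ = s
          rw [Complex.norm_real, Real.norm_eq_abs, abs_of_pos hs0']
        rw [e2] at a2
        have : s * ‖R ![0, (s : ℂ)]‖ ≤ s * (C * s ^ m) := by
          calc _ ≤ _ := a2
            _ = _ := by ring
        exact le_of_mul_le_mul_left this hs0'
      have h3 : Tendsto (fun s : ℝ => ‖R ![0, (s : ℂ)]‖) (𝓝[>] 0) (𝓝 ‖R 0‖) := by
        have h4 : Continuous (fun s : ℝ => (![0, (s : ℂ)] : E2)) := by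
          refine continuous_pi fun i => ?_
          fin_cases i
          · exact continuous_const
          · exact Complex.continuous_ofReal
        have h5 : Tendsto (fun s : ℝ => (![0, (s : ℂ)] : E2)) (𝓝 0) (𝓝 0) := by
          refine h4.tendsto' _ _ ?_
          funext i
          fin_cases i
          · rfl
          · exact Complex.ofReal_zero
        exact ((hR.continuousAt.norm.tendsto.comp h5)).mono_left nhdsWithin_le_nhds
      have h7 : Tendsto (fun s : ℝ => C * s ^ m) (𝓝[>] 0) (𝓝 0) := by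
        have : ContinuousAt (fun s : ℝ => C * s ^ m) 0 := by fun_prop
        have h8 := this.tendsto
        simp only [zero_pow (by omega : m ≠ 0), mul_zero] at h8
        exact h8.mono_left nhdsWithin_le_nhds
      have h6 := le_of_tendsto_of_tendsto h3 h7 h1
      rw [norm_le_zero_iff.1 h6]
      simp [zero_pow (by omega : m ≠ 0)]
  · have hρ : 0 < ‖q‖ := norm_pos_iff.2 hq0
    set ρ := ‖q‖ with hρd
    have hin : ∀ z : ℂ, ‖z‖ ≤ 2 * ρ → ‖(![q 0, z] : E2)‖ ≤ 2 * ρ := fun z hz => by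
      rw [norm_E2]
      refine max_le ?_ hz
      have : ‖q 0‖ ≤ ρ := norm_le_pi_norm q 0
      change ‖q 0‖ ≤ 2 * ρ
      linarith
    have hmem : ∀ z : ℂ, ‖z‖ ≤ 2 * ρ → (![q 0, z] : E2) ∈ Metric.ball (0 : E2) ε := fun z hz => by
      rw [mem_ball_zero_iff]
      have := hin z hz
      linarith
    have hd : ∀ z : ℂ, ‖z‖ ≤ 2 * ρ → DifferentiableAt ℂ (fun z : ℂ => R ![q 0, z]) z := by
      intro z hz
      have h1 : DifferentiableAt ℂ (fun z : ℂ => (![q 0, z] : E2)) z := by
        rw [differentiableAt_pi]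
        intro i
        fin_cases i
        · exact differentiableAt_const _
        · exact differentiableAt_id
      exact ((hball _ (hmem z hz)).2.differentiableAt).comp z h1
    have hC0 : 0 ≤ C * (2 * ρ) ^ (m + 1) := by
      have h1 := (hball ![q 0, ((2 * ρ : ℝ) : ℂ)] (hmem _ (by
        rw [Complex.norm_real, Real.norm_eq_abs, abs_of_pos (by positivity)]))).1.2
      have h2 : ‖(![q 0, ((2 * ρ : ℝ) : ℂ)] : E2)‖ = 2 * ρ := by
        rw [norm_E2]
        have h3 : ‖(![q 0, ((2 * ρ : ℝ) : ℂ)] : E2) 1‖ = 2 * ρ := by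
          change ‖((2 * ρ : ℝ) : ℂ)‖ = 2 * ρ
          rw [Complex.norm_real, Real.norm_eq_abs, abs_of_pos (by positivity)]
        rw [h3]
        refine max_eq_right ?_
        have : ‖q 0‖ ≤ ρ := norm_le_pi_norm q 0
        change ‖q 0‖ ≤ 2 * ρ
        linarith
      rw [h2, norm_pow, Real.norm_eq_abs, abs_of_pos (by positivity)] at h1
      exact (norm_nonneg _).trans h1
    have hbd : ∀ z ∈ frontier (Metric.ball (0 : ℂ) (2 * ρ)), ‖R ![q 0, z]‖ ≤
        2 * (C * (2 * ρ) ^ (m + 1)) / (2 * ρ) := by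
      intro z hz
      rw [frontier_ball (0 : ℂ) (by positivity : 2 * ρ ≠ 0), mem_sphere_zero_iff_norm] at hz
      obtain ⟨⟨a1, a2⟩, -⟩ := hball _ (hmem z hz.le)
      obtain ⟨⟨-, b2⟩, -⟩ := hball _ (hmem 0 (by rw [norm_zero]; positivity))
      have n1 : ‖(![q 0, z] : E2)‖ ^ (m + 1) ≤ (2 * ρ) ^ (m + 1) :=
        pow_le_pow_left₀ (norm_nonneg _) (hin z hz.le) _
      have n2 : ‖(![q 0, 0] : E2)‖ ^ (m + 1) ≤ (2 * ρ) ^ (m + 1) :=
        pow_le_pow_left₀ (norm_nonneg _) (hin 0 (by rw [norm_zero]; positivity)) _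
      rw [norm_pow, norm_norm] at a2 b2
      have hCn : 0 ≤ C := by
        by_contra hneg
        rw [not_le] at hneg
        have : C * (2 * ρ) ^ (m + 1) < 0 := mul_neg_of_neg_of_pos hneg (by positivity)
        linarith
      have c1 : ‖G ![q 0, z]‖ ≤ C * (2 * ρ) ^ (m + 1) :=
        a2.trans (mul_le_mul_of_nonneg_left n1 hCn)
      have c2 : ‖G ![q 0, 0]‖ ≤ C * (2 * ρ) ^ (m + 1) :=
        b2.trans (mul_le_mul_of_nonneg_left n2 hCn)
      have e1 : z * R ![q 0, z] = G ![q 0, z] - G ![q 0, 0] := by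
        have a1' : G ![q 0, z] = G ![q 0, 0] + z * R ![q 0, z] := a1
        rw [a1']
        ring
      rw [le_div_iff₀ (by positivity), ← hz, mul_comm, ← norm_mul, e1, hz]
      refine (norm_sub_le _ _).trans ?_
      linarith
    have key := Complex.norm_le_of_forall_mem_frontier_norm_le
      (f := fun z : ℂ => R ![q 0, z]) (U := Metric.ball (0 : ℂ) (2 * ρ)) Metric.isBounded_ball
      (DifferentiableOn.diffContOnCl (fun z hz => by
        have hz' : ‖z‖ ≤ 2 * ρ := by
          have := Metric.closure_ball_subset_closedBall hz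
          rwa [mem_closedBall_zero_iff] at this
        exact (hd z hz').differentiableWithinAt)) hbd (z := q 1) (subset_closure (by
        rw [mem_ball_zero_iff]
        have : ‖q 1‖ ≤ ρ := norm_le_pi_norm q 1
        linarith))
    have e0 : (![q 0, q 1] : E2) = q := by
      funext i
      fin_cases i <;> rfl
    simp only [e0] at key
    rw [norm_pow, norm_norm, ← hρd]
    refine key.trans (le_of_eq ?_)
    field_simp
    ring

/-- a germ of order `>= m` is a combination of the monomials of degree `m` -/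
theorem bo (m : ℕ) : ∀ {G : E2 → ℂ}, AnalyticAt ℂ G 0 → (G =O[𝓝 0] fun q => ‖q‖ ^ m) →
    ∃ c : ℕ → E2 → ℂ, (∀ j, AnalyticAt ℂ (c j) 0) ∧
      ∀ᶠ q in 𝓝 (0 : E2), G q = ∑ j ∈ Finset.range (m + 1), q 1 ^ j * q 0 ^ (m - j) * c j q := by
  induction m with
  | zero =>
    intro G hG _
    exact ⟨fun _ => G, fun _ => hG, Eventually.of_forall fun q => by simp⟩
  | succ m ih =>
    intro G hG hO
    obtain ⟨R, hR, hR2⟩ := hada hG
    have hRO := hada_bigO hR hR2 hO
    obtain ⟨c, hc, hc2⟩ := ih hR hRO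
    -- the part on `q 1 = 0`
    have hι : AnalyticAt ℂ (fun y : ℂ => (![y, 0] : E2)) 0 := by
      refine AnalyticAt.pi (f := fun i (y : ℂ) => (![y, 0] : E2) i) fun i => ?_
      fin_cases i
      · exact analyticAt_id
      · exact analyticAt_const
    have hι0 : (![(0 : ℂ), 0] : E2) = 0 := by
      funext i
      fin_cases i <;> rfl
    have hg : AnalyticAt ℂ (fun y : ℂ => G ![y, 0]) 0 :=
      AnalyticAt.fun_comp (g := G) (f := fun y : ℂ => (![y, 0] : E2)) (by rw [hι0]; exact hG) hι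
    have hιT : Tendsto (fun y : ℂ => (![y, 0] : E2)) (𝓝 0) (𝓝 0) := by
      have := hι.continuousAt.tendsto
      rwa [hι0] at this
    have hgO : (fun y : ℂ => G ![y, 0]) =O[𝓝 0] fun y => ‖y‖ ^ (m + 1) := by
      have h1 := hO.comp_tendsto hιT
      refine h1.congr' EventuallyEq.rfl (Eventually.of_forall fun y => ?_)
      change ‖(![y, 0] : E2)‖ ^ (m + 1) = ‖y‖ ^ (m + 1)
      rw [norm_E2]
      simp
    obtain ⟨k, hk, hk2⟩ := one_var hg hgO
    have hp0 : AnalyticAt ℂ (fun q : E2 => q 0) 0 :=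
      (ContinuousLinearMap.proj (R := ℂ) (φ := fun _ : Fin 2 => ℂ) 0).analyticAt 0
    have hp0T : Tendsto (fun q : E2 => q 0) (𝓝 0) (𝓝 0) := hp0.continuousAt.tendsto
    refine ⟨fun j => if j = 0 then fun q => k (q 0) else c (j - 1), fun j => ?_, ?_⟩
    · by_cases hj : j = 0
      · simp only [hj, if_true]
        exact AnalyticAt.fun_comp (g := k) (f := fun q : E2 => q 0) hk hp0
      · simp only [hj, if_false]
        exact hc _
    · filter_upwards [hR2, hc2, hp0T.eventually hk2] with q a b d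
      rw [a, d, b, Finset.sum_range_succ' _ (m + 1), Finset.mul_sum, add_comm]
      simp only [Nat.succ_ne_zero, if_false, if_true, pow_zero, one_mul, Nat.sub_zero,
        Nat.add_sub_cancel]
      congr 1
      refine Finset.sum_congr rfl fun j _ => ?_
      have : m + 1 - (j + 1) = m - j := by omega
      rw [this, pow_succ]
      ring

/-- quartic leading form -/
theorem pl_quartic {h : E2 → ℂ} {κ : Fin 5 → ℂ} (hh : AnalyticAt ℂ h 0)
    (hO : (fun q : E2 => h q - ∑ j : Fin 5, κ j * q 1 ^ (j : ℕ) * q 0 ^ (4 - (j : ℕ)))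
      =O[𝓝 0] fun q => ‖q‖ ^ 5) (h4 : κ 4 ≠ 0) :
    ∃ c : Fin (4 + 1) → E2 → ℂ, Pl h 1 4 c ∧ ∀ j, c j 0 = κ j := by
  have hp : ∀ i : Fin 2, AnalyticAt ℂ (fun q : E2 => q i) 0 := fun i =>
    (ContinuousLinearMap.proj (R := ℂ) (φ := fun _ : Fin 2 => ℂ) i).analyticAt 0
  have hG : AnalyticAt ℂ (fun q : E2 => h q - ∑ j : Fin 5, κ j * q 1 ^ (j : ℕ) *
      q 0 ^ (4 - (j : ℕ))) 0 := by
    refine hh.sub (Finset.analyticAt_fun_sum _ fun j _ => ?_)
    exact (analyticAt_const.mul ((hp 1).pow _)).mul ((hp 0).pow _)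
  obtain ⟨d, hd, hd2⟩ := bo 5 hG hO
  refine ⟨fun j q => κ j + q 0 * d j q + if j = 4 then q 1 * d 5 q else 0, ⟨?_, ?_, ?_⟩, ?_⟩
  · intro j
    refine (analyticAt_const.add ((hp 0).mul (hd _))).add ?_
    by_cases hj : j = 4
    · simp only [hj, if_true]
      exact (hp 1).mul (hd 5)
    · simp only [hj, if_false]
      exact analyticAt_const
  · filter_upwards [hd2] with q hq
    have e1 : h q = ∑ j : Fin 5, κ j * q 1 ^ (j : ℕ) * q 0 ^ (4 - (j : ℕ)) +
        ∑ j ∈ Finset.range (5 + 1), q 1 ^ j * q 0 ^ (5 - j) * d j q := by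
      rw [← hq]
      ring
    rw [e1]
    simp only [Fin.sum_univ_succ, Fin.sum_univ_zero, Finset.sum_range_succ, Finset.sum_range_zero]
    have z0 : ((0 : Fin (4 + 1)) : ℕ) = 0 := rfl
    have z1 : (((0 : Fin 4).succ : Fin (4 + 1)) : ℕ) = 1 := rfl
    simp only [Fin.val_zero, Fin.val_succ]
    norm_num [Fin.ext_iff]
    ring
  · simpa using h4
  · intro j
    simp

end Crest.Agent.R257.EVf_929
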