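import Crest.Agent.R257.EVf_929

set_option autoImplicit false

/-!
R257 / EVg_929 (helper929): transport of the planar data by a linear change of the last two
coordinates, the quartic case and the cubic case in the coordinates `(x, y, z)`.
-/

open Topology Filter Set Asymptotics
open Crest.AlgGeometry.Germ

noncomputable section

namespace Crest.Agent.R257.EVg_929

open Crest.Agent.R257.Defs_219 Crest.Agent.R257.EVa_929 Crest.Agent.R257.EVb_929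
open Crest.Agent.R257.EVc_929 Crest.Agent.R257.EVd_929 Crest.Agent.R257.EVe_929
open Crest.Agent.R257.EVf_929

/-- the point `b v + a u`, `q = (b, a)` -/
def mq (v u q : E2) : E2 := ![q 0 * v 0 + q 1 * u 0, q 0 * v 1 + q 1 * u 1]

/-- the matrix `(b, a, x) ↦ (x, b v + a u)` -/
def AM (v u : E2) : Matrix (Fin 3) (Fin 3) ℂ := !![0, 0, 1; v 0, u 0, 0; v 1, u 1, 0]

theorem det_AM (v u : E2) : (AM v u).det = v 0 * u 1 - u 0 * v 1 := by
  rw [AM, Matrix.det_fin_three]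
  simp

theorem AM_mulVec (v u : E2) (p : E3) :
    (AM v u).mulVec p = ![p 2, p 0 * v 0 + p 1 * u 0, p 0 * v 1 + p 1 * u 1] := by
  funext i
  fin_cases i
  · simp [AM, Matrix.mulVec, dotProduct, Fin.sum_univ_three]
  · simp [AM, Matrix.mulVec, dotProduct, Fin.sum_univ_three, mul_comm]
  · simp [AM, Matrix.mulVec, dotProduct, Fin.sum_univ_three, mul_comm]

theorem AM_gp (v u : E2) (X : E2 → ℂ) (q : E2) :
    (AM v u).mulVec (gp (fun q => X (mq v u q)) q) = Fin.cons (X (mq v u q)) (mq v u q) := by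
  rw [AM_mulVec]
  funext i
  fin_cases i <;> rfl

theorem an_mq (v u q : E2) : AnalyticAt ℂ (mq v u) q := by
  have hp : ∀ i : Fin 2, AnalyticAt ℂ (fun q : E2 => q i) q := fun i =>
    (ContinuousLinearMap.proj (R := ℂ) (φ := fun _ : Fin 2 => ℂ) i).analyticAt q
  refine AnalyticAt.pi (f := fun i (q : E2) => mq v u q i) fun i => ?_
  fin_cases i
  · exact ((hp 0).mul analyticAt_const).add ((hp 1).mul analyticAt_const)
  · exact ((hp 0).mul analyticAt_const).add ((hp 1).mul analyticAt_const)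

theorem mq_zero (v u : E2) : mq v u 0 = 0 := by
  funext i
  fin_cases i <;> simp [mq]

theorem tendsto_mq (v u : E2) : Tendsto (mq v u) (𝓝 0) (𝓝 0) := by
  have := (an_mq v u 0).continuousAt.tendsto
  rwa [mq_zero] at this

theorem mq_bigO (v u : E2) : (fun q => ‖mq v u q‖) =O[𝓝 0] fun q : E2 => ‖q‖ := by
  refine IsBigO.of_bound (‖v‖ + ‖u‖) (Eventually.of_forall fun q => ?_)
  rw [norm_norm, norm_norm, pi_norm_le_iff_of_nonneg (by positivity)]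
  intro i
  have key : ∀ j : Fin 2, ‖q 0 * v j + q 1 * u j‖ ≤ (‖v‖ + ‖u‖) * ‖q‖ := fun j => by
    calc ‖q 0 * v j + q 1 * u j‖ ≤ ‖q 0‖ * ‖v j‖ + ‖q 1‖ * ‖u j‖ := by
          refine (norm_add_le _ _).trans ?_
          rw [norm_mul, norm_mul]
      _ ≤ ‖q‖ * ‖v‖ + ‖q‖ * ‖u‖ := by
          refine add_le_add ?_ ?_
          · exact mul_le_mul (norm_le_pi_norm q 0) (norm_le_pi_norm v j) (norm_nonneg _)
              (norm_nonneg _)
          · exact mul_le_mul (norm_le_pi_norm q 1) (norm_le_pi_norm u j) (norm_nonneg _)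
              (norm_nonneg _)
      _ = _ := by ring
  fin_cases i
  · exact key 0
  · exact key 1

section

variable {g : E3 → ℂ} {C : ℝ} {X : E2 → ℂ}

/-- the standing assumptions in the coordinates `(x, y, z)` -/
structure St (g : E3 → ℂ) (C : ℝ) (X : E2 → ℂ) : Prop where
  bd : Bd g C
  zero : g 0 = 0
  crit : ∀ i, coordDeriv g i 0 = 0
  aX : AnalyticAt ℂ X 0
  X0 : X 0 = 0
  X1 : ∀ᶠ q in 𝓝 (0 : E2), coordDeriv g 0 (Fin.cons (X q) q) = 0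
  e0 : coordDeriv (coordDeriv g 0) 0 0 ≠ 0

theorem an_of_bd (h : Bd g C) : AnalyticAt ℂ g 0 := by
  obtain ⟨r, hr, han, -⟩ := h
  exact han 0 (by simpa using hr.le)

theorem AM_zero (v u : E2) : (AM v u).mulVec (0 : E3) = 0 := Matrix.mulVec_zero _

theorem St.crit' (h : St g C X) (v u : E2) (i : Fin 3) :
    coordDeriv (cm g (AM v u)) i 0 = 0 := by
  rw [cd_cm (by rw [AM_zero]; exact an_of_bd h.bd)]
  refine Finset.sum_eq_zero fun k _ => ?_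
  rw [AM_zero, h.crit, mul_zero]

theorem St.zero' (h : St g C X) (v u : E2) : cm g (AM v u) 0 = 0 := by
  rw [cm, AM_zero, h.zero]

theorem St.aX' (h : St g C X) (v u : E2) : AnalyticAt ℂ (fun q => X (mq v u q)) 0 :=
  AnalyticAt.fun_comp (g := X) (f := mq v u) (by rw [mq_zero]; exact h.aX) (an_mq v u 0)

theorem St.X0' (h : St g C X) (v u : E2) : (fun q => X (mq v u q)) 0 = 0 := by
  simp only [mq_zero, h.X0]

theorem St.X1' (h : St g C X) (v u : E2) : ∀ᶠ q in 𝓝 (0 : E2),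
    coordDeriv (cm g (AM v u)) 2 (gp (fun q => X (mq v u q)) q) = 0 := by
  have hT : Tendsto (fun q : E2 => (Fin.cons (X (mq v u q)) (mq v u q) : E3)) (𝓝 0) (𝓝 0) := by
    have h1 := (tendsto_gp (h.aX' v u) (h.X0' v u))
    have h2 : Tendsto (fun p : E3 => (AM v u).mulVec p) (𝓝 0) (𝓝 0) := by
      have : (fun y : E3 => (AM v u).mulVec y) =
          (LinearMap.toContinuousLinearMap (Matrix.toLin' (AM v u))) := funext (mv_eq _)
      rw [this]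
      exact (LinearMap.toContinuousLinearMap (Matrix.toLin' (AM v u))).continuous.tendsto' _ _
        (map_zero _)
    have h3 := h2.comp h1
    refine h3.congr fun q => ?_
    exact AM_gp v u X q
  filter_upwards [(tendsto_mq v u).eventually h.X1, hT.eventually
    (an_of_bd h.bd).eventually_analyticAt] with q h1 h2
  rw [cd_cm (by rw [AM_gp]; exact h2), AM_gp]
  simp only [Fin.sum_univ_three]
  have a0 : AM v u 0 2 = 1 := rfl
  have a1 : AM v u 1 2 = 0 := rfl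
  have a2 : AM v u 2 2 = 0 := rfl
  rw [a0, a1, a2, h1]
  ring

theorem St.e' (h : St g C X) (v u : E2) : coordDeriv (coordDeriv (cm g (AM v u)) 2) 2 0 =
    coordDeriv (coordDeriv g 0) 0 0 := by
  rw [cd2_cm (by rw [AM_zero]; exact an_of_bd h.bd)]
  have a0 : AM v u 0 2 = 1 := rfl
  have a1 : AM v u 1 2 = 0 := rfl
  have a2 : AM v u 2 2 = 0 := rfl
  simp only [Fin.sum_univ_three, a0, a1, a2, AM_zero]
  ring

theorem cm_gp (v u : E2) (q : E2) : cm g (AM v u) (gp (fun q => X (mq v u q)) q) =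
    g (Fin.cons (X (mq v u q)) (mq v u q)) := by
  rw [cm, AM_gp]

theorem St.an_h (h : St g C X) (v u : E2) :
    AnalyticAt ℂ (fun q => cm g (AM v u) (gp (fun q => X (mq v u q)) q)) 0 := by
  refine AnalyticAt.fun_comp (g := cm g (AM v u)) (f := gp (fun q => X (mq v u q))) ?_
    (an_gp (h.aX' v u))
  rw [gp_zero (h.X0' v u)]
  exact cm_an (by rw [AM_zero]; exact an_of_bd h.bd)

/-- the quartic form with coefficients `κ` -/
def Q4 (κ : Fin 5 → ℂ) (q : E2) : ℂ := ∑ j : Fin 5, κ j * q 1 ^ (j : ℕ) * q 0 ^ (4 - (j : ℕ))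

/-- the invariant -/
def J4 (κ : Fin 5 → ℂ) : ℂ := 12 * κ 0 * κ 4 - 3 * κ 1 * κ 3 + κ 2 ^ 2

theorem Q4_eq (κ : Fin 5 → ℂ) (q : E2) : Q4 κ q = κ 0 * q 0 ^ 4 + κ 1 * q 1 * q 0 ^ 3 +
    κ 2 * q 1 ^ 2 * q 0 ^ 2 + κ 3 * q 1 ^ 3 * q 0 + κ 4 * q 1 ^ 4 := by
  rw [Q4, Fin.sum_univ_five]
  have e2 : ((2 : Fin 5) : ℕ) = 2 := rfl
  have e3 : ((3 : Fin 5) : ℕ) = 3 := rfl
  have e4 : ((4 : Fin 5) : ℕ) = 4 := rfl
  have e1 : ((1 : Fin 5) : ℕ) = 1 := rfl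
  have e0 : ((0 : Fin 5) : ℕ) = 0 := rfl
  rw [e0, e1, e2, e3, e4]
  ring

/-- the invariant of a quartic form in coordinates where it is `a²(αb² + βab + γa²)` -/
theorem J4_of_form {κ : Fin 5 → ℂ} {v u : E2} {al be ga : ℂ}
    (h : ∀ b a : ℂ, Q4 κ (mq v u ![b, a]) = a ^ 2 * (al * b ^ 2 + be * b * a + ga * a ^ 2)) :
    al ^ 2 = (v 0 * u 1 - u 0 * v 1) ^ 4 * J4 κ := by
  have hf : ∀ b a : ℂ, Q4 κ (mq v u ![b, a]) = κ 0 * (b * v 0 + a * u 0) ^ 4 +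
      κ 1 * (b * v 1 + a * u 1) * (b * v 0 + a * u 0) ^ 3 +
      κ 2 * (b * v 1 + a * u 1) ^ 2 * (b * v 0 + a * u 0) ^ 2 +
      κ 3 * (b * v 1 + a * u 1) ^ 3 * (b * v 0 + a * u 0) + κ 4 * (b * v 1 + a * u 1) ^ 4 := by
    intro b a
    rw [Q4_eq]
    rfl
  set K0 := κ 0 * v 0 ^ 4 + κ 1 * v 0 ^ 3 * v 1 + κ 2 * v 0 ^ 2 * v 1 ^ 2 + κ 3 * v 0 * v 1 ^ 3 +
    κ 4 * v 1 ^ 4 with hK0
  set K1 := 4 * κ 0 * v 0 ^ 3 * u 0 + κ 1 * v 0 ^ 3 * u 1 + 3 * κ 1 * v 0 ^ 2 * u 0 * v 1 +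
    2 * κ 2 * v 0 ^ 2 * v 1 * u 1 + 2 * κ 2 * v 0 * u 0 * v 1 ^ 2 + 3 * κ 3 * v 0 * v 1 ^ 2 * u 1 +
    κ 3 * u 0 * v 1 ^ 3 + 4 * κ 4 * v 1 ^ 3 * u 1 with hK1
  set K2 := 6 * κ 0 * v 0 ^ 2 * u 0 ^ 2 + 3 * κ 1 * v 0 ^ 2 * u 0 * u 1 +
    3 * κ 1 * v 0 * u 0 ^ 2 * v 1 + κ 2 * v 0 ^ 2 * u 1 ^ 2 + 4 * κ 2 * v 0 * u 0 * v 1 * u 1 +
    κ 2 * u 0 ^ 2 * v 1 ^ 2 + 3 * κ 3 * v 0 * v 1 * u 1 ^ 2 + 3 * κ 3 * u 0 * v 1 ^ 2 * u 1 +
    6 * κ 4 * v 1 ^ 2 * u 1 ^ 2 with hK2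
  set K3 := 4 * κ 0 * v 0 * u 0 ^ 3 + 3 * κ 1 * v 0 * u 0 ^ 2 * u 1 + κ 1 * u 0 ^ 3 * v 1 +
    2 * κ 2 * v 0 * u 0 * u 1 ^ 2 + 2 * κ 2 * u 0 ^ 2 * v 1 * u 1 + κ 3 * v 0 * u 1 ^ 3 +
    3 * κ 3 * u 0 * v 1 * u 1 ^ 2 + 4 * κ 4 * v 1 * u 1 ^ 3 with hK3
  set K4 := κ 0 * u 0 ^ 4 + κ 1 * u 0 ^ 3 * u 1 + κ 2 * u 0 ^ 2 * u 1 ^ 2 + κ 3 * u 0 * u 1 ^ 3 +
    κ 4 * u 1 ^ 4 with hK4
  have hE : ∀ a : ℂ, K0 + K1 * a + K2 * a ^ 2 + K3 * a ^ 3 + K4 * a ^ 4 =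
      a ^ 2 * (al + be * a + ga * a ^ 2) := by
    intro a
    have h1 := h 1 a
    rw [hf] at h1
    rw [hK0, hK1, hK2, hK3, hK4]
    linear_combination h1
  have h0 := hE 0
  have h1 := hE 1
  have h2 := hE (-1)
  have h3 := hE 2
  have h4 := hE (-2)
  have k0 : K0 = 0 := by linear_combination h0
  have k4 : K4 = ga := by
    linear_combination (h3 + h4) / 24 - (h1 + h2) / 6 + k0 / 4
  have k2 : K2 = al := by
    linear_combination (h1 + h2) / 2 - k0 - k4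
  have k3 : K3 = be := by
    linear_combination (h3 - h4) / 12 - (h1 - h2) / 6
  have k1 : K1 = 0 := by
    linear_combination (h1 - h2) / 2 - k3
  have hinv : 12 * K0 * K4 - 3 * K1 * K3 + K2 ^ 2 = (v 0 * u 1 - u 0 * v 1) ^ 4 * J4 κ := by
    rw [hK0, hK1, hK2, hK3, hK4, J4]
    ring
  rw [← hinv, k0, k1, k2]
  ring

/-- **the quartic case** -/
theorem ev3 (h : St g C X) {κ : Fin 5 → ℂ}
    (hQ : (fun q => g (Fin.cons (X q) q) - Q4 κ q) =O[𝓝 0] fun q : E2 => ‖q‖ ^ 5)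
    {v u : E2} (hdet : v 0 * u 1 - u 0 * v 1 ≠ 0) {al be ga : ℂ} (hal : al ≠ 0)
    (hform : ∀ b a : ℂ, Q4 κ (mq v u ![b, a]) =
      a ^ 2 * (al * b ^ 2 + be * b * a + ga * a ^ 2)) :
    1 ≤ 1600 * C ^ 2 * ‖coordDeriv (coordDeriv g 0) 0 0‖ ^ 2 * ‖J4 κ‖ := by
  set e := coordDeriv (coordDeriv g 0) 0 0 with he
  -- the shear parameter
  obtain ⟨s, hs⟩ : ∃ s : ℂ, (be ^ 2 ≠ 4 * al * ga ∧ 2 * al * s + be = 0) ∨
      (be ^ 2 = 4 * al * ga ∧ 2 * al * s + be = 2 * al) := by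
    by_cases hd : be ^ 2 = 4 * al * ga
    · refine ⟨1 - be / (2 * al), Or.inr ⟨hd, ?_⟩⟩
      field_simp
      ring
    · refine ⟨-be / (2 * al), Or.inl ⟨hd, ?_⟩⟩
      field_simp
      ring
  set u' : E2 := ![u 0 + s * v 0, u 1 + s * v 1] with hu'
  have hdet' : v 0 * u' 1 - u' 0 * v 1 = v 0 * u 1 - u 0 * v 1 := by
    simp only [hu', Matrix.cons_val_zero, Matrix.cons_val_one]
    ring
  have hmq : ∀ q : E2, mq v u' q = mq v u ![q 0 + s * q 1, q 1] := by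
    intro q
    funext i
    fin_cases i
    · simp [mq, hu']
      ring
    · simp [mq, hu']
      ring
  set be' := 2 * al * s + be with hbe'
  set ga' := al * s ^ 2 + be * s + ga with hga'
  have hform' : ∀ q : E2, Q4 κ (mq v u' q) = Q4 ![0, 0, al, be', ga'] q := by
    intro q
    rw [hmq, hform, Q4_eq]
    simp only [Matrix.cons_val_zero, Matrix.cons_val_one, Matrix.cons_val]
    rw [hbe', hga']
    ring
  have hO : (fun q => cm g (AM v u') (gp (fun q => X (mq v u' q)) q) -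
      ∑ j : Fin 5, (![0, 0, al, be', ga'] : Fin 5 → ℂ) j * q 1 ^ (j : ℕ) * q 0 ^ (4 - (j : ℕ)))
      =O[𝓝 0] fun q : E2 => ‖q‖ ^ 5 := by
    have h1 := hQ.comp_tendsto (tendsto_mq v u')
    have h2 : ((fun q : E2 => ‖q‖ ^ 5) ∘ mq v u') =O[𝓝 0] fun q : E2 => ‖q‖ ^ 5 :=
      (mq_bigO v u').pow 5
    refine (h1.trans h2).congr_left fun q => ?_
    simp only [Function.comp_apply]
    rw [cm_gp, hform']
    rfl
  have hdisc : be' ^ 2 - 4 * al * ga' = be ^ 2 - 4 * al * ga := by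
    rw [hbe', hga']
    ring
  have hga0 : ga' ≠ 0 := by
    intro h0
    rcases hs with ⟨h1, h2⟩ | ⟨h1, h2⟩
    · rw [h0, h2] at hdisc
      apply h1
      linear_combination -hdisc
    · rw [h0, h2, h1] at hdisc
      have : al ^ 2 = 0 := by linear_combination hdisc / 4
      exact hal (pow_eq_zero_iff two_ne_zero |>.1 this)
  obtain ⟨c, hP, hc⟩ := pl_quartic (h.an_h v u') hO hga0
  have c0 : c 0 0 = 0 := hc 0
  have c1 : c 1 0 = 0 := hc 1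
  have c2 : c 2 0 = al := hc 2
  have c3 : c 3 0 = be' := hc 3
  have c4 : c 4 0 = ga' := hc 4
  have hB := h.bd.cm (A := AM v u') (by rw [det_AM, hdet']; exact hdet)
  rw [det_AM, hdet'] at hB
  have hkey : 1 ≤ 40 * (C / ‖v 0 * u 1 - u 0 * v 1‖ ^ 2) * ‖e * al‖ := by
    have h1 : coordDeriv (coordDeriv (cm g (AM v u')) 2) 2 0 = e := h.e' v u'
    rw [← h1]
    rcases hs with ⟨-, h2⟩ | ⟨h1', h2⟩
    · exact ev_q1 hB (h.zero' v u') (h.crit' v u') (h.aX' v u') (h.X0' v u') (h.X1' v u')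
        (by rw [h.e']; exact h.e0) hP c0 c1 c2 (by rw [c3, h2]) c4 hal
    · have h3 : ga' = al := by
        rw [h2, h1'] at hdisc
        have : al * (al - ga') = 0 := by linear_combination hdisc / 4
        rcases mul_eq_zero.1 this with h4 | h4
        · exact absurd h4 hal
        · exact (sub_eq_zero.1 h4).symm
      exact ev_q2 hB (h.zero' v u') (h.crit' v u') (h.aX' v u') (h.X0' v u') (h.X1' v u')
        (by rw [h.e']; exact h.e0) hP c0 c1 c2 (by rw [c3, h2]) (by rw [c4, h3]) hal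
  have hJ := J4_of_form hform
  have hΔ : 0 < ‖v 0 * u 1 - u 0 * v 1‖ := norm_pos_iff.2 hdet
  set Δ := ‖v 0 * u 1 - u 0 * v 1‖ with hΔd
  have hJ' : ‖al‖ ^ 2 = Δ ^ 4 * ‖J4 κ‖ := by
    rw [← norm_pow, hJ, norm_mul, norm_pow]
  have h5 : 1 ≤ (40 * (C / Δ ^ 2) * ‖e * al‖) ^ 2 := by
    have := pow_le_pow_left₀ zero_le_one hkey 2
    rwa [one_pow] at this
  calc (1 : ℝ) ≤ (40 * (C / Δ ^ 2) * ‖e * al‖) ^ 2 := h5
    _ = 1600 * C ^ 2 * ‖e‖ ^ 2 * (‖al‖ ^ 2 / Δ ^ 4) := by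
        rw [norm_mul]
        field_simp
        ring
    _ = _ := by
        rw [hJ']
        field_simp

end

end Crest.Agent.R257.EVg_929
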