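import Crest.Agent.R273.YauC3_812
import Crest.Agent.R273.YauMax_635

/-!
Row 257 (S0395), leaf E-EST / E-CL, helper37: the Chern-Lu inequality at a maximum point, in the
eigenvalue form (no trace function).

`lev u z v` is `Defs_333.lev` (four times the Levi form), `cH u z` the complex Hessian.

`chernLu_at_max` : `u, a, f, h` smooth near `O`, `lev u > 0`, `lev a > 0`, `det cH u = c * exp f`,
`(O, v)` a local maximum of `log lev a z ξ - log lev u z ξ + h z`, the curvature of `a` bounded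
above by `B` at `O`, `lev h ≥ (B + 1) lev a - A' lev u` and `lev f ≤ K lev u` at `O`.
Then `lev a O v ≤ (A' n + K) lev u O v`.
-/

set_option autoImplicit false
set_option linter.unusedSimpArgs false
set_option linter.unusedSectionVars false

open Set Filter Topology Complex
open scoped ContDiff ComplexConjugate ComplexOrder

namespace Crest.Agent.R257.Est1_37

open Crest.Agent.R273.YSm_812 Crest.Agent.R273.YJet_812 Crest.Agent.R273.YC3_812
open Crest.Agent.R275.Geo Crest.Agent.R275.Core144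
open Crest.Agent.R273.Defs_333 Crest.Agent.R273.YauDefs_635 Crest.Agent.R273.YauC3_812
open Crest.Agent.R273.YauCh_635

variable {n : ℕ}

/-! ### the sesquilinear form of the second derivative -/

/-- the sesquilinear form `∂∂̄ b` at `O` (linear in `ξ`) -/
noncomputable def sq (b : Cn n → ℝ) (O ξ η : Cn n) : ℂ :=
  (1 / 4 : ℂ) * (((D2 b O ξ η + D2 b O (I • ξ) (I • η) : ℝ) : ℂ)
    + I * ((D2 b O ξ (I • η) - D2 b O (I • ξ) η : ℝ) : ℂ))

theorem D2_add_left (b : Cn n → ℝ) (O x y η : Cn n) :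
    D2 b O (x + y) η = D2 b O x η + D2 b O y η := by
  simp [D2]

theorem D2_add_right (b : Cn n → ℝ) (O ξ x y : Cn n) :
    D2 b O ξ (x + y) = D2 b O ξ x + D2 b O ξ y := by
  simp [D2]

theorem D2_smul_left (b : Cn n → ℝ) (O x η : Cn n) (c : ℝ) :
    D2 b O (c • x) η = c * D2 b O x η := by
  simp [D2]

theorem D2_smul_right (b : Cn n → ℝ) (O x η : Cn n) (c : ℝ) :
    D2 b O x (c • η) = c * D2 b O x η := by
  simp [D2]

theorem II_smul (x : Cn n) : I • (I • x) = (-1 : ℝ) • x := by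
  rw [smul_smul, I_mul_I]
  simp

theorem sq_add_left (b : Cn n → ℝ) (O x y η : Cn n) :
    sq b O (x + y) η = sq b O x η + sq b O y η := by
  simp only [sq, smul_add, D2_add_left]
  push_cast
  ring

theorem sq_add_right (b : Cn n → ℝ) (O ξ x y : Cn n) :
    sq b O ξ (x + y) = sq b O ξ x + sq b O ξ y := by
  simp only [sq, smul_add, D2_add_right]
  push_cast
  ring

theorem sq_smul_left (b : Cn n → ℝ) (O x η : Cn n) (c : ℂ) :
    sq b O (c • x) η = c * sq b O x η := by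
  have h1 : c • x = c.re • x + c.im • (I • x) := smul_decomp c x
  have h2 : I • (c • x) = c.re • (I • x) + c.im • ((-1 : ℝ) • x) := by
    rw [smul_comm I c x, smul_decomp c (I • x), II_smul]
  simp only [sq]
  rw [h2, h1]
  simp only [D2_add_left, D2_smul_left]
  conv_rhs => rw [← re_add_im c]
  push_cast
  linear_combination (-(1 / 4 : ℂ) * c.im * ((D2 b O x (I • η) : ℝ) : ℂ) + (1 / 4 : ℂ) * c.im
    * ((D2 b O (I • x) η : ℝ) : ℂ)) * I_mul_I

theorem sq_smul_right (b : Cn n → ℝ) (O x η : Cn n) (c : ℂ) :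
    sq b O x (c • η) = conj c * sq b O x η := by
  have h1 : c • η = c.re • η + c.im • (I • η) := smul_decomp c η
  have h2 : I • (c • η) = c.re • (I • η) + c.im • ((-1 : ℝ) • η) := by
    rw [smul_comm I c η, smul_decomp c (I • η), II_smul]
  have h3 : conj c = c.re - c.im * I := by
    apply Complex.ext <;> simp
  simp only [sq]
  rw [h2, h1]
  simp only [D2_add_right, D2_smul_right]
  rw [h3]
  push_cast
  linear_combination ((1 / 4 : ℂ) * c.im * ((D2 b O x (I • η) : ℝ) : ℂ) - (1 / 4 : ℂ) * c.im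
    * ((D2 b O (I • x) η : ℝ) : ℂ)) * I_mul_I

/-- bundled form -/
noncomputable def S (b : Cn n → ℝ) (O : Cn n) : Cn n →ₗ[ℂ] Cn n →ₛₗ[starRingEnd ℂ] ℂ :=
  LinearMap.mk₂'ₛₗ (RingHom.id ℂ) (starRingEnd ℂ) (sq b O) (sq_add_left b O)
    (fun c x y => by rw [sq_smul_left]; rfl) (sq_add_right b O)
    (fun c x y => by rw [sq_smul_right]; rfl)

theorem S_apply (b : Cn n → ℝ) (O ξ η : Cn n) : S b O ξ η = sq b O ξ η := rfl

theorem sq_self_re (b : Cn n → ℝ) (O ξ : Cn n) : (sq b O ξ ξ).re = lev b O ξ / 4 := by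
  rw [lev_D2, sq]
  have : (1 / 4 : ℂ) = ((1 / 4 : ℝ) : ℂ) := by push_cast; rfl
  rw [this, re_ofReal_mul, add_re, ofReal_re]
  have h2 : (I * ((D2 b O ξ (I • ξ) - D2 b O (I • ξ) ξ : ℝ) : ℂ)).re = 0 := by simp
  rw [h2]
  ring

theorem sq_expand (b : Cn n → ℝ) (O : Cn n) (w : Fin n → Cn n) (c c' : Fin n → ℂ) :
    sq b O (∑ p, c p • w p) (∑ q, c' q • w q)
      = ∑ p, ∑ q, c p * conj (c' q) * sq b O (w p) (w q) := by
  rw [← S_apply, map_sum (S b O), LinearMap.sum_apply]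
  refine Finset.sum_congr rfl fun p _ => ?_
  rw [map_sum]
  refine Finset.sum_congr rfl fun q _ => ?_
  rw [map_smul (S b O), LinearMap.smul_apply, LinearMap.map_smulₛₗ, S_apply]
  simp only [smul_eq_mul]
  ring

/-- Lagrange's identity / Cauchy-Schwarz for a semipositive form -/
theorem lev_sum_le {b : Cn n → ℝ} {O : Cn n} (hb : ∀ ξ, 0 ≤ lev b O ξ) (w : Fin n → Cn n)
    (c : Fin n → ℂ) :
    lev b O (∑ q, c q • w q) ≤ (∑ q, ‖c q‖ ^ 2) * ∑ q, lev b O (w q) := by
  have key : ∑ p, ∑ q, sq b O (conj (c p) • w q - conj (c q) • w p)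
        (conj (c p) • w q - conj (c q) • w p)
      = 2 * ((∑ p, ((‖c p‖ ^ 2 : ℝ) : ℂ)) * ∑ q, sq b O (w q) (w q))
        - 2 * sq b O (∑ q, c q • w q) (∑ q, c q • w q) := by
    have e : ∀ p q, sq b O (conj (c p) • w q - conj (c q) • w p)
        (conj (c p) • w q - conj (c q) • w p)
        = ((‖c p‖ ^ 2 : ℝ) : ℂ) * sq b O (w q) (w q) + ((‖c q‖ ^ 2 : ℝ) : ℂ) * sq b O (w p) (w p)
          - c q * conj (c p) * sq b O (w q) (w p) - c p * conj (c q) * sq b O (w p) (w q) := by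
      intro p q
      rw [← S_apply]
      simp only [map_sub, LinearMap.sub_apply, map_smul, LinearMap.smul_apply,
        LinearMap.map_smulₛₗ, S_apply, smul_eq_mul, conj_conj]
      have h1 : ∀ a : ℂ, ((‖a‖ ^ 2 : ℝ) : ℂ) = a * conj a := fun a => by
        rw [mul_conj, normSq_eq_norm_sq]
      rw [h1, h1]
      ring
    simp only [e, Finset.sum_sub_distrib, Finset.sum_add_distrib]
    rw [sq_expand]
    have s1 : ∑ p, ∑ q, ((‖c p‖ ^ 2 : ℝ) : ℂ) * sq b O (w q) (w q)
        = (∑ p, ((‖c p‖ ^ 2 : ℝ) : ℂ)) * ∑ q, sq b O (w q) (w q) := by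
      rw [Finset.sum_mul_sum]
    have s2 : ∑ p, ∑ q, ((‖c q‖ ^ 2 : ℝ) : ℂ) * sq b O (w p) (w p)
        = (∑ p, ((‖c p‖ ^ 2 : ℝ) : ℂ)) * ∑ q, sq b O (w q) (w q) := by
      rw [Finset.sum_comm, Finset.sum_mul_sum]
    have s3 : ∑ p, ∑ q, c q * conj (c p) * sq b O (w q) (w p)
        = ∑ p, ∑ q, c p * conj (c q) * sq b O (w p) (w q) := Finset.sum_comm
    rw [s1, s2, s3]
    ring
  have h2 := congrArg Complex.re key
  have h3 : 0 ≤ (∑ p, ∑ q, sq b O (conj (c p) • w q - conj (c q) • w p)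
        (conj (c p) • w q - conj (c q) • w p)).re := by
    simp only [re_sum, sq_self_re]
    exact Finset.sum_nonneg fun p _ => Finset.sum_nonneg fun q _ => by
      have := hb (conj (c p) • w q - conj (c q) • w p)
      positivity
  have e1 : (∑ p, ((‖c p‖ ^ 2 : ℝ) : ℂ)) = ((∑ p, ‖c p‖ ^ 2 : ℝ) : ℂ) := by push_cast; rfl
  have e2 : ((2 : ℂ) * ((∑ p, ((‖c p‖ ^ 2 : ℝ) : ℂ)) * ∑ q, sq b O (w q) (w q))
        - 2 * sq b O (∑ q, c q • w q) (∑ q, c q • w q)).re
      = 2 * ((∑ p, ‖c p‖ ^ 2) * ∑ q, lev b O (w q) / 4)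
        - 2 * (lev b O (∑ q, c q • w q) / 4) := by
    rw [e1, sub_re]
    have h2' : (2 : ℂ) = ((2 : ℝ) : ℂ) := by norm_num
    rw [h2', re_ofReal_mul, re_ofReal_mul, re_ofReal_mul, re_sum, sq_self_re]
    simp only [sq_self_re]
  rw [e2] at h2
  rw [← Finset.sum_div] at h2
  linarith

/-- a unitary frame (normalised by `lev u O (w q) = 1`) of the metric `lev u O` -/
structure Frm (u : Cn n → ℝ) (O : Cn n) (w : Fin n → Cn n) : Prop where
  one : ∀ q, lev u O (w q) = 1
  le : ∀ b : Cn n → ℝ, (∀ ξ, 0 ≤ lev b O ξ) → ∀ v,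
    lev b O v ≤ (∑ q, lev b O (w q)) * lev u O v

theorem Frm.of_basis {u : Cn n → ℝ} {O : Cn n} (w : Module.Basis (Fin n) ℂ (Cn n))
    (hw : ∀ p q, sq u O (w p) (w q) = if p = q then 1 else 0) :
    Frm u O fun q => (2⁻¹ : ℝ) • w q where
  one q := by
    have h1 := congrArg Complex.re (hw q q)
    rw [sq_self_re, if_pos rfl, one_re] at h1
    rw [lev_smul_real]
    linarith
  le b hb v := by
    have hv : v = ∑ q, w.repr v q • w q := (w.sum_repr v).symm
    have h1 : lev u O v = 4 * ∑ q, ‖w.repr v q‖ ^ 2 := by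
      have h2 : sq u O v v = ((∑ q, ‖w.repr v q‖ ^ 2 : ℝ) : ℂ) := by
        conv_lhs => rw [hv]
        rw [sq_expand]
        simp only [hw, mul_ite, mul_one, mul_zero, Finset.sum_ite_eq, Finset.mem_univ, if_true]
        push_cast
        refine Finset.sum_congr rfl fun q _ => ?_
        rw [mul_conj, normSq_eq_norm_sq]
        push_cast
        rfl
      have h3 := congrArg Complex.re h2
      rw [sq_self_re, ofReal_re] at h3
      linarith
    have h4 := lev_sum_le hb w (w.repr v)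
    rw [← hv] at h4
    have h5 : ∑ q, lev b O ((2⁻¹ : ℝ) • w q) = (1 / 4) * ∑ q, lev b O (w q) := by
      rw [Finset.mul_sum]
      refine Finset.sum_congr rfl fun q _ => ?_
      rw [lev_smul_real]
      ring
    rw [h5, h1]
    linarith

/-! ### smoothness of `z ↦ lev a z (V z)` -/

section smooth

variable {Ω : Set (Cn n)}

theorem contDiffOn_lev (hΩ : IsOpen Ω) {a : Cn n → ℝ} (ha : ContDiffOn ℝ ∞ a Ω)
    {V : Cn n → Cn n} (hV : ContDiffOn ℝ ∞ V Ω) : ContDiffOn ℝ ∞ (fun z => lev a z (V z)) Ω := by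
  have h1 : ContDiffOn ℝ ∞ (fderiv ℝ a) Ω := ha.fderiv_of_isOpen hΩ (by simp)
  have h2 : ContDiffOn ℝ ∞ (fderiv ℝ (fderiv ℝ a)) Ω := h1.fderiv_of_isOpen hΩ (by simp)
  have h3 : ContDiffOn ℝ ∞ (fun z => I • V z) Ω := hV.const_smul I
  have e : (fun z => lev a z (V z)) = fun z => fderiv ℝ (fderiv ℝ a) z (V z) (V z)
      + fderiv ℝ (fderiv ℝ a) z (I • V z) (I • V z) := by
    funext z; rw [lev_D2]; rfl
  rw [e]
  exact ((h2.clm_apply hV).clm_apply hV).add ((h2.clm_apply h3).clm_apply h3)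

theorem smooth_aff (v O : Cn n) (L : Cn n →L[ℂ] Cn n) :
    ContDiff ℝ ∞ fun z : Cn n => v + L (z - O) :=
  contDiff_const.add ((L.restrictScalars ℝ).contDiff.comp (contDiff_id.sub contDiff_const))

end smooth

/-- upper curvature bound `B` of the metric `lev a` at `O`: `-B ω_a ≤ i∂∂̄ log |V|²` for all affine
holomorphic fields `V` -/
def CurvLe (a : Cn n → ℝ) (O : Cn n) (B : ℝ) : Prop :=
  ∀ (v : Cn n) (L : Cn n →L[ℂ] Cn n), v ≠ 0 → ∀ ξ,
    -B * lev a O ξ ≤ lev (fun z => Real.log (lev a z (v + L (z - O)))) O ξ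

section field

variable {Ω : Set (Cn n)}

/-- the linear part of the field `Zv` -/
noncomputable def Lin (hΩ : IsOpen Ω) (w : Module.Basis (Fin n) ℂ (Cn n)) (O : Ω) (u : Sm Ω)
    (c : Fin n → ℂ) : Cn n →L[ℂ] Cn n :=
  -∑ x, (∑ k, c k • Lc hΩ w O u k x).smulRight (w x)

theorem Zv_eq (hΩ : IsOpen Ω) (w : Module.Basis (Fin n) ℂ (Cn n)) (O : Ω) (u : Sm Ω)
    (hu : cj u = u) (c : Fin n → ℂ) (z : Ω) :
    Zv hΩ w O u hu c z = (∑ x, c x • w x) + Lin hΩ w O u c (z - O) := by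
  have h1 : ∀ x, ((fr hΩ w O u hu).Z c x).1 z
      = c x - (∑ k, c k • Lc hΩ w O u k x) ((z : Cn n) - O) := by
    intro x
    show (ev z) _ = _
    simp only [Fr.Z, map_sum, map_smul, smul_eq_mul]
    have h2 : ∀ k, (ev z) ((fr hΩ w O u hu).M k x)
        = (if k = x then 1 else 0) - Lc hΩ w O u k x ((z : Cn n) - O) := by
      intro k
      show (aff Ω (-(Lc hΩ w O u k x)) ((if k = x then 1 else 0) + Lc hΩ w O u k x O)).1 z = _
      rw [aff_apply, map_sub]
      simp only [_root_.neg_apply]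
      ring
    simp only [h2, mul_sub, Finset.sum_sub_distrib, mul_ite, mul_one, mul_zero,
      Finset.sum_ite_eq', Finset.mem_univ, if_true]
    congr 1
    simp only [_root_.sum_apply, _root_.smul_apply, smul_eq_mul]
  rw [Zv]
  simp only [h1, sub_smul, Finset.sum_sub_distrib]
  rw [sub_eq_add_neg]
  congr 1
  simp only [Lin, _root_.neg_apply, _root_.sum_apply,
    ContinuousLinearMap.smulRight_apply]

end field

end Crest.Agent.R257.Est1_37
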