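import Crest.Agent.R257.Est1_37

/-!
Row 257 (S0395), leaf E-EST / E-CL, helper37: the Chern-Lu inequality at a maximum point.

* `chernLu_frame`  : `-B tr(a) + tr(h) ≤ lev f O v / lev u O v` in a unitary frame of `lev u O`
* `chernLu_at_max` : the consequence `lev a O v ≤ (A' n + K) lev u O v`
-/

set_option autoImplicit false
set_option linter.unusedSimpArgs false
set_option linter.unusedSectionVars false

open Set Filter Topology Complex
open scoped ContDiff ComplexConjugate ComplexOrder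

namespace Crest.Agent.R257.Est2_37

open Crest.Agent.R273.YSm_812 Crest.Agent.R273.YJet_812 Crest.Agent.R273.YC3_812
open Crest.Agent.R275.Geo Crest.Agent.R275.Core144
open Crest.Agent.R273.Defs_333 Crest.Agent.R273.YauDefs_635 Crest.Agent.R273.YauC3_812
open Crest.Agent.R273.YauCh_635 Crest.Agent.R257.Est1_37

variable {n : ℕ} {Ω : Set (Cn n)}

theorem U2_sq (hΩ : IsOpen Ω) {f : Cn n → ℝ} (hf : ContDiffOn ℝ ∞ f Ω) (z : Ω) (ξ η : Cn n) :
    (U2 hΩ (rl f hf) ξ η).1 z = sq f z ξ η := U2_rl hΩ hf z ξ η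

theorem U2_self (hΩ : IsOpen Ω) {f : Cn n → ℝ} (hf : ContDiffOn ℝ ∞ f Ω) (z : Ω) (ξ : Cn n) :
    (U2 hΩ (rl f hf) ξ ξ).1 z = ((lev f z ξ / 4 : ℝ) : ℂ) := by
  rw [re_eq (cj_U2 hΩ (cj_rl f hf) ξ ξ) z, U2_sq, sq_self_re]

/-- the function `z ↦ |V|²_u` of the field `V` killing the first derivatives of the metric -/
theorem exists_field (hΩ : IsOpen Ω) {u f : Cn n → ℝ} (hu : ContDiffOn ℝ ∞ u Ω)
    (hf : ContDiffOn ℝ ∞ f Ω) {c₀ : ℂ} (hc₀ : c₀ ≠ 0)
    (hdet : ∀ z ∈ Ω, (cH u z).det = c₀ * exp (f z)) {O : Cn n} (hO : O ∈ Ω)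
    (w : Module.Basis (Fin n) ℂ (Cn n))
    (hw : ∀ p q, sq u O (w p) (w q) = if p = q then 1 else 0) (v : Cn n) :
    ∃ L : Cn n →L[ℂ] Cn n,
      (∀ q, fderiv ℝ (fun z => lev u z (v + L (z - O))) O (w q) = 0) ∧
      (∀ q, fderiv ℝ (fun z => lev u z (v + L (z - O))) O (I • w q) = 0) ∧
      ∑ q, lev (fun z => lev u z (v + L (z - O))) O (w q) = 4 * lev f O v := by
  set O' : Ω := ⟨O, hO⟩ with hO'
  set uu : Sm Ω := rl u hu with huu
  have hcj : cj uu = uu := cj_rl u hu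
  set ff : Sm Ω := rl f hf with hff
  set c : Fin n → ℂ := fun k => w.repr v k with hc
  have hv : ∑ x, c x • w x = v := w.sum_repr v
  have hwU : ∀ a b, (U2 hΩ uu (w a) (w b)).1 O' = if a = b then 1 else 0 := fun a b => by
    rw [huu, U2_sq]; exact hw a b
  have hG : mE (jet hΩ w O').ev ((jet hΩ w O').Gm uu) = 1 := by
    ext a b
    show (U2 hΩ uu (w a) (w b)).1 O' = _
    rw [hwU, Matrix.one_apply]
  -- the determinant
  obtain ⟨c1, hc1, hdet1⟩ := det_frame hΩ (eb n) w uu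
  have hdet2 : ∀ z : Ω, (((jet hΩ w O').Gm uu).det).1 z = (c1 * c₀) * exp (ff.1 z) := by
    intro z
    have h2 := hdet1 z
    rw [det_eq hΩ hu z, hdet z z.2] at h2
    rw [mul_assoc]
    exact h2
  have hcc : c1 * c₀ ≠ 0 := mul_ne_zero hc1 hc₀
  obtain ⟨H, hH⟩ := exists_inv ((jet hΩ w O').Gm uu) (fun z => by
    rw [hdet2]; exact mul_ne_zero hcc (exp_ne_zero _))
  have hlog : ∀ p, (jet hΩ w O').B p ff
      = Matrix.trace (H * mD ((jet hΩ w O').B p) ((jet hΩ w O').Gm uu)) := fun p =>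
    dlog hΩ hH hcc ff hdet2 _ _ _
  have hlap := (fr hΩ w O' uu hcj).lap_g hH hG hlog c (fun k => conj (c k))
  obtain ⟨g, hg⟩ : ∃ g, g = (fr hΩ w O' uu hcj).g c (fun k => conj (c k)) := ⟨_, rfl⟩
  rw [← hg] at hlap
  refine ⟨Lin hΩ w O' uu c, ?_⟩
  set L := Lin hΩ w O' uu c with hL
  have hZv : ∀ z : Ω, Zv hΩ w O' uu hcj c z = v + L (z - O) := by
    intro z
    rw [Zv_eq, hv]
  have hgv : ∀ z : Ω, g.1 z = ((lev u z (v + L (z - O)) / 4 : ℝ) : ℂ) := by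
    intro z
    rw [hg, g_val, hZv, huu, U2_self]
  obtain ⟨γ, hγ⟩ : ∃ γ : Cn n → ℝ, γ = fun z => lev u z (v + L (z - O)) := ⟨_, rfl⟩
  rw [← hγ]
  have hγs : ContDiffOn ℝ ∞ γ Ω := by
    rw [hγ]; exact contDiffOn_lev hΩ hu (smooth_aff v O L).contDiffOn
  have hγg : rl γ hγs = (4 : ℂ) • g := by
    refine Sm.ext' fun z => ?_
    show _ = (4 : ℂ) * g.1 z
    rw [rl_apply, hgv, hγ]
    push_cast
    ring
  have hdr : ∀ ξ, dr ξ (ex (rl γ hγs).1) O' = ((fderiv ℝ γ O ξ : ℝ) : ℂ) := by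
    intro ξ
    rw [← dr_ofReal ((hγs.differentiableOn (by simp)).differentiableAt (hΩ.mem_nhds hO)) ξ]
    exact dr_congr hΩ (fun z hz => by rw [ex_of_mem _ hz]; rfl) hO ξ
  have hD : ∀ q, (D hΩ (w q) (rl γ hγs)).1 O' = 0 := by
    intro q
    have h1 := (fr hΩ w O' uu hcj).D_g hG c (fun k => conj (c k)) q
    rw [← hg] at h1
    have h2 : (D hΩ (w q) g).1 O' = 0 := h1
    rw [hγg, Derivation.map_smul]
    show (4 : ℂ) * (D hΩ (w q) g).1 O' = 0
    rw [h2, mul_zero]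
  have hB : ∀ q, (B hΩ (w q) (rl γ hγs)).1 O' = 0 := by
    intro q
    have h1 := (fr hΩ w O' uu hcj).B_g hG c (fun k => conj (c k)) q
    rw [← hg] at h1
    have h2 : (B hΩ (w q) g).1 O' = 0 := h1
    rw [hγg, Derivation.map_smul]
    show (4 : ℂ) * (B hΩ (w q) g).1 O' = 0
    rw [h2, mul_zero]
  have hD' : ∀ q, (1 / 2 : ℂ) * ((fderiv ℝ γ O (w q) : ℝ) : ℂ)
      + -(I / 2) * ((fderiv ℝ γ O (I • w q) : ℝ) : ℂ) = 0 := by
    intro q
    have := hD q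
    rw [D_apply, dz_dab, dab, hdr, hdr] at this
    exact this
  have hre : ∀ q, fderiv ℝ γ O (w q) = 0 := by
    intro q
    have := congrArg Complex.re (hD' q)
    simp at this
    exact this
  have him : ∀ q, fderiv ℝ γ O (I • w q) = 0 := by
    intro q
    have := congrArg Complex.im (hD' q)
    simp at this
    exact this
  refine ⟨hre, him, ?_⟩
  have e1 : ∀ q, ((lev γ O (w q) : ℝ) : ℂ) = 16 * (jet hΩ w O').ev ((jet hΩ w O').D q
      ((jet hΩ w O').B q g)) := by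
    intro q
    have h1 : (U2 hΩ (rl γ hγs) (w q) (w q)).1 O' = ((lev γ O (w q) / 4 : ℝ) : ℂ) :=
      U2_self hΩ hγs O' (w q)
    have h2 : (U2 hΩ (rl γ hγs) (w q) (w q)).1 O' = 4 * (jet hΩ w O').ev ((jet hΩ w O').D q
      ((jet hΩ w O').B q g)) := by
      rw [hγg, U2, Derivation.map_smul, Derivation.map_smul]
      rfl
    rw [h1] at h2
    push_cast at h2
    linear_combination 4 * h2
  have e2 : ∑ k, ∑ p, c k * conj (c p) * (jet hΩ w O').ev ((jet hΩ w O').D k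
      ((jet hΩ w O').B p ff)) = ((lev f O v / 4 : ℝ) : ℂ) := by
    have h1 := U2_expand hΩ ff c c w O'
    rw [hv, hff, U2_self] at h1
    rw [h1]
    rfl
  have e3 : ((∑ q, lev γ O (w q) : ℝ) : ℂ) = ((4 * lev f O v : ℝ) : ℂ) := by
    push_cast
    simp only [e1]
    rw [← Finset.mul_sum, hlap, e2]
    push_cast
    ring
  exact_mod_cast e3

theorem two_le_inf' : (2 : WithTop ℕ∞) ≤ ∞ := WithTop.coe_le_coe.2 (le_top : (2 : ℕ∞) ≤ ⊤)

theorem lev_add' {f g : Cn n → ℝ} {z : Cn n} (hf : ContDiffAt ℝ 2 f z) (hg : ContDiffAt ℝ 2 g z)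
    (v : Cn n) : lev (fun z => f z + g z) z v = lev f z v + lev g z v := by
  rw [lev333_eq_lev145, lev333_eq_lev145, lev333_eq_lev145, Crest.Agent.R273.Levi_145.lev_add hf hg]
  ring

theorem lev_sub' {f g : Cn n → ℝ} {z : Cn n} (hf : ContDiffAt ℝ 2 f z) (hg : ContDiffAt ℝ 2 g z)
    (v : Cn n) : lev (fun z => f z - g z) z v = lev f z v - lev g z v := by
  rw [lev333_eq_lev145, lev333_eq_lev145, lev333_eq_lev145, Crest.Agent.R273.Levi_145.lev_sub hf hg]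
  ring

theorem lev_neg' {f : Cn n → ℝ} {z : Cn n} (hf : ContDiffAt ℝ 2 f z)
    (v : Cn n) : lev (fun z => - f z) z v = - lev f z v := by
  rw [lev333_eq_lev145, lev333_eq_lev145, Crest.Agent.R273.Levi_145.lev_neg hf]
  ring

theorem lev_log_of_crit {γ : Cn n → ℝ} {z : Cn n} (hγ : ContDiffAt ℝ 2 γ z) (h0 : 0 < γ z)
    {ξ : Cn n} (h1 : fderiv ℝ γ z ξ = 0) (h2 : fderiv ℝ γ z (I • ξ) = 0) :
    lev (fun y => Real.log (γ y)) z ξ = lev γ z ξ / γ z := by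
  rw [lev333_eq_lev145, lev333_eq_lev145, Crest.Agent.R273.Levi_145.lev_log hγ h0,
    Crest.Agent.R273.Levi_145.norm_gr_sq (Crest.Agent.R273.Levi_145.c2_diff hγ), h1, h2]
  ring

/-- **Chern-Lu at a maximum point**, frame form -/
theorem chernLu_frame (hΩ : IsOpen Ω) {u a f h : Cn n → ℝ} (hu : ContDiffOn ℝ ∞ u Ω)
    (ha : ContDiffOn ℝ ∞ a Ω) (hf : ContDiffOn ℝ ∞ f Ω) (hh : ContDiffOn ℝ ∞ h Ω)
    {c₀ : ℂ} (hc₀ : c₀ ≠ 0) (hdet : ∀ z ∈ Ω, (cH u z).det = c₀ * exp (f z))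
    (hup : ∀ z ∈ Ω, ∀ ξ : Cn n, ξ ≠ 0 → 0 < lev u z ξ)
    (hap : ∀ z ∈ Ω, ∀ ξ : Cn n, ξ ≠ 0 → 0 < lev a z ξ)
    {O : Cn n} (hO : O ∈ Ω) {v : Cn n} (hv : v ≠ 0)
    (hmax : ∀ᶠ z in 𝓝 O, ∀ ξ : Cn n, ξ ≠ 0 →
      Real.log (lev a z ξ) - Real.log (lev u z ξ) + h z
        ≤ Real.log (lev a O v) - Real.log (lev u O v) + h O)
    {B : ℝ} (hB : CurvLe a O B) :
    ∃ w : Fin n → Cn n, Frm u O w ∧
      -B * ∑ q, lev a O (w q) + ∑ q, lev h O (w q) ≤ lev f O v / lev u O v := by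
  obtain ⟨w, hw⟩ := exists_frame hΩ (cj_rl u hu) (eb n) ⟨O, hO⟩ (fun ξ hξ => by
    rw [U2_self]
    have := hup O hO ξ hξ
    rw [ofReal_re]
    positivity)
  have hw' : ∀ p q, sq u O (w p) (w q) = if p = q then 1 else 0 := fun p q => by
    rw [← hw p q, U2_sq]
  obtain ⟨L, hL1, hL2, hL3⟩ := exists_field hΩ hu hf hc₀ hdet hO w hw' v
  obtain ⟨V, hV⟩ : ∃ V : Cn n → Cn n, V = fun z => v + L (z - O) := ⟨_, rfl⟩
  have hVs : ContDiff ℝ ∞ V := by rw [hV]; exact smooth_aff v O L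
  have hVO : V O = v := by rw [hV]; simp
  have hVne : ∀ᶠ z in 𝓝 O, V z ≠ 0 := by
    have h1 : ContinuousAt V O := hVs.continuous.continuousAt
    exact h1.eventually_ne (by rw [hVO]; exact hv)
  obtain ⟨γ, hγ⟩ : ∃ γ : Cn n → ℝ, γ = fun z => lev u z (V z) := ⟨_, rfl⟩
  have hγs : ContDiffOn ℝ ∞ γ Ω := by rw [hγ]; exact contDiffOn_lev hΩ hu hVs.contDiffOn
  obtain ⟨α, hα⟩ : ∃ α : Cn n → ℝ, α = fun z => lev a z (V z) := ⟨_, rfl⟩
  have hαs : ContDiffOn ℝ ∞ α Ω := by rw [hα]; exact contDiffOn_lev hΩ ha hVs.contDiffOn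
  have hγO : γ O = lev u O v := by rw [hγ]; simp only [hVO]
  have hαO : α O = lev a O v := by rw [hα]; simp only [hVO]
  have hγp : 0 < γ O := by rw [hγO]; exact hup O hO v hv
  have hαp : 0 < α O := by rw [hαO]; exact hap O hO v hv
  have hnh := hΩ.mem_nhds hO
  have hγ2 : ContDiffAt ℝ 2 γ O := (hγs.contDiffAt hnh).of_le two_le_inf'
  have hα2 : ContDiffAt ℝ 2 α O := (hαs.contDiffAt hnh).of_le two_le_inf'
  have hh2 : ContDiffAt ℝ 2 h O := (hh.contDiffAt hnh).of_le two_le_inf'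
  have hlγ : ContDiffAt ℝ 2 (fun z => Real.log (γ z)) O := hγ2.log hγp.ne'
  have hlα : ContDiffAt ℝ 2 (fun z => Real.log (α z)) O := hα2.log hαp.ne'
  -- the local maximum
  have hφ : ContDiffAt ℝ 2 (fun z => Real.log (γ z) - (Real.log (α z) + h z)) O :=
    hlγ.sub (hlα.add hh2)
  have hmin : IsLocalMin (fun z => Real.log (γ z) - (Real.log (α z) + h z)) O := by
    filter_upwards [hmax, hVne] with z hz hz2
    have h1 := hz (V z) hz2
    have h2 : γ z = lev u z (V z) := by rw [hγ]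
    have h3 : α z = lev a z (V z) := by rw [hα]
    rw [h2, h3, hγO, hαO]
    linarith
  have hq : ∀ ξ, lev (fun z => Real.log (α z)) O ξ + lev h O ξ
      ≤ lev (fun z => Real.log (γ z)) O ξ := by
    intro ξ
    have h1 := Crest.Agent.R273.YauMax_635.lev_nonneg_of_localMin hφ hmin ξ
    rw [lev_sub' hlγ (hlα.add hh2), lev_add' hlα hh2] at h1
    linarith
  have hq2 : ∀ q, -B * lev a O (w q) + lev h O (w q) ≤ lev γ O (w q) / lev u O v := by
    intro q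
    have h1 := hq (w q)
    have h2 := hB v L hv (w q)
    have h3 : (fun z => Real.log (lev a z (v + L (z - O)))) = fun z => Real.log (α z) := by
      rw [hα, hV]
    rw [h3] at h2
    have h4 : lev (fun z => Real.log (γ z)) O (w q) = lev γ O (w q) / γ O := by
      refine lev_log_of_crit hγ2 hγp ?_ ?_
      · have := hL1 q
        rw [hγ, hV]; exact this
      · have := hL2 q
        rw [hγ, hV]; exact this
    rw [h4, hγO] at h1
    linarith
  have hsum : ∑ q, (-B * lev a O (w q) + lev h O (w q)) ≤ 4 * lev f O v / lev u O v := by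
    refine (Finset.sum_le_sum fun q _ => hq2 q).trans (le_of_eq ?_)
    rw [← Finset.sum_div]
    congr 1
    rw [← hL3, hγ, hV]
  refine ⟨fun q => (2⁻¹ : ℝ) • w q, Frm.of_basis w hw', ?_⟩
  have e : ∀ b : Cn n → ℝ, ∑ q, lev b O ((2⁻¹ : ℝ) • w q) = (1 / 4) * ∑ q, lev b O (w q) := by
    intro b
    rw [Finset.mul_sum]
    refine Finset.sum_congr rfl fun q _ => ?_
    rw [lev_smul_real]
    ring
  rw [e, e]
  rw [Finset.sum_add_distrib, ← Finset.mul_sum] at hsum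
  have h5 : 4 * lev f O v / lev u O v = 4 * (lev f O v / lev u O v) := by ring
  rw [h5] at hsum
  linarith

/-- **Chern-Lu at a maximum point**: if `h` absorbs the curvature, the ratio is bounded -/
theorem chernLu_at_max (hΩ : IsOpen Ω) {u a f h : Cn n → ℝ} (hu : ContDiffOn ℝ ∞ u Ω)
    (ha : ContDiffOn ℝ ∞ a Ω) (hf : ContDiffOn ℝ ∞ f Ω) (hh : ContDiffOn ℝ ∞ h Ω)
    {c₀ : ℂ} (hc₀ : c₀ ≠ 0) (hdet : ∀ z ∈ Ω, (cH u z).det = c₀ * exp (f z))
    (hup : ∀ z ∈ Ω, ∀ ξ : Cn n, ξ ≠ 0 → 0 < lev u z ξ)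
    (hap : ∀ z ∈ Ω, ∀ ξ : Cn n, ξ ≠ 0 → 0 < lev a z ξ)
    {O : Cn n} (hO : O ∈ Ω) {v : Cn n} (hv : v ≠ 0)
    (hmax : ∀ᶠ z in 𝓝 O, ∀ ξ : Cn n, ξ ≠ 0 →
      Real.log (lev a z ξ) - Real.log (lev u z ξ) + h z
        ≤ Real.log (lev a O v) - Real.log (lev u O v) + h O)
    {B A' K θ : ℝ} (hB : CurvLe a O B) (hθ : 0 < θ)
    (hh' : ∀ ξ, (B + θ) * lev a O ξ - A' * lev u O ξ ≤ lev h O ξ)
    (hf' : ∀ ξ, lev f O ξ ≤ K * lev u O ξ) :
    lev a O v ≤ (A' * n + K) / θ * lev u O v := by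
  obtain ⟨w, hw, hle⟩ := chernLu_frame hΩ hu ha hf hh hc₀ hdet hup hap hO hv hmax hB
  have hpos := hup O hO v hv
  have h1 : lev f O v / lev u O v ≤ K := by
    rw [div_le_iff₀ hpos]; exact hf' v
  have h2 : (B + θ) * ∑ q, lev a O (w q) - A' * n ≤ ∑ q, lev h O (w q) := by
    have h3 : ∑ q, ((B + θ) * lev a O (w q) - A' * lev u O (w q)) ≤ ∑ q, lev h O (w q) :=
      Finset.sum_le_sum fun q _ => hh' (w q)
    rw [Finset.sum_sub_distrib, ← Finset.mul_sum, ← Finset.mul_sum] at h3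
    simp only [hw.one, Finset.sum_const, Finset.card_univ, Fintype.card_fin, nsmul_eq_mul,
      mul_one] at h3
    exact h3
  have h4 : θ * ∑ q, lev a O (w q) ≤ A' * n + K := by nlinarith
  have h5 := hw.le a (fun ξ => by
    rcases eq_or_ne ξ 0 with rfl | hξ
    · rw [lev_zero]
    · exact (hap O hO ξ hξ).le) v
  refine h5.trans (mul_le_mul_of_nonneg_right ?_ hpos.le)
  rw [le_div_iff₀ hθ]
  linarith

end Crest.Agent.R257.Est2_37
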