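import Crest.Agent.R257.Gr5_157

/-!
R257 / ExA_121: cycles for the kills, rationality of the least cycle (helper121).
-/

set_option autoImplicit false
set_option linter.unusedSectionVars false

noncomputable section

namespace Crest.Agent.R257.Ex_121

open Crest.Agent.R257.Gr1_157 Crest.Agent.R257.Gr4_157 Crest.Agent.R257.Gr5_157

variable {ι : Type*} [Fintype ι] {M : ι → ι → ℝ} {p nu : ι → ℝ}

/-- null vertices whose null component does not meet `{p = nu}` -/
def Tw (M : ι → ι → ℝ) (p nu : ι → ℝ) : Set ι :=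
  {i | dg M p i = 0 ∧ ∀ j, NP M p i j → p j ≠ nu j}

lemma Tw.closed {i j : ι} (hi : i ∈ Tw M p nu) (hij : M i j ≠ 0) (hj : dg M p j = 0) :
    j ∈ Tw M p nu :=
  ⟨hj, fun l hl => hi.2 l (Relation.ReflTransGen.head ⟨hij, hj⟩ hl)⟩

lemma Tw.aut {σ : Equiv.Perm ι} (hσ : Aut M p nu σ) {i : ι} (hi : σ i ∈ Tw M p nu) :
    i ∈ Tw M p nu := by
  refine ⟨?_, fun j hj h => ?_⟩
  · have := hi.1
    rwa [← dg_comp hσ.m, show (fun j => p (σ j)) = p from funext hσ.p] at this
  · exact hi.2 (σ j) (hj.map hσ.m hσ.p) (by rw [hσ.p, hσ.nu, h])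

lemma aut_symm {σ : Equiv.Perm ι} (hσ : Aut M p nu σ) : Aut M p nu σ.symm :=
  ⟨fun i j => by rw [← hσ.m]; simp, fun i => by rw [← hσ.p]; simp, fun i => by rw [← hσ.nu]; simp⟩

lemma Tw.aut_iff {σ : Equiv.Perm ι} (hσ : Aut M p nu σ) (i : ι) :
    σ i ∈ Tw M p nu ↔ i ∈ Tw M p nu :=
  ⟨Tw.aut hσ, fun h => Tw.aut (aut_symm hσ) (by simpa using h)⟩

lemma dg_aut {σ : Equiv.Perm ι} (hσ : Aut M p nu σ) {x : ι → ℝ} (hx : ∀ i, x (σ i) = x i) (i : ι) :
    dg M x (σ i) = dg M x i := by
  rw [← dg_comp hσ.m, show (fun j => x (σ j)) = x from funext hx]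

/-- **cycles for the kills** -/
theorem kill_cyc (hM : IForm M) (hge : ∀ i, nu i ≤ p i) (hdg : ∀ i, dg M p i ≤ 0)
    (hz : ∀ i, p i ≠ nu i → dg M p i = 0) (hr : Reach M p) {B : ℝ} (hB : 0 ≤ B) :
    ∃ (w : ι → ℝ) (a : ℕ), 0 < a ∧ (∀ i, w i < p i - nu i) ∧ (∀ i, p i = nu i → -1 ≤ w i) ∧
      (∀ i, dg M p i = 0 → dg M w i < 0) ∧
      (∀ i i', dg M p i ≠ 0 → i' ∈ Tw M p nu →
        dg M w i' + B * ((a * (p i - nu i - w i) + (p i' - nu i' - w i')) / a) < 0) ∧
      ∀ σ : Equiv.Perm ι, Aut M p nu σ → ∀ i, w (σ i) = w i := by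
  classical
  set T : Set ι := {i | dg M p i = 0} with hT
  set U : Set ι := Tw M p nu with hU
  obtain ⟨h, hh0, hh1⟩ := dirichlet hM T (fun _ => 1) (fun _ => 0)
  obtain ⟨g, hg0, hg1⟩ := dirichlet hM T (fun _ => 0) (fun _ => -1)
  obtain ⟨u, hu0, hu1⟩ := dirichlet hM U (fun _ => 0) (fun _ => -1)
  have hhT : ∀ i, dg M p i ≠ 0 → h i = 1 := fun i hi => hh0 i hi
  have hgT : ∀ i, dg M p i ≠ 0 → g i = 0 := fun i hi => hg0 i hi
  have hUT : ∀ i, i ∈ U → dg M p i = 0 := fun i hi => hi.1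
  have huT : ∀ i, dg M p i ≠ 0 → u i = 0 := fun i hi => hu0 i fun hi' => hi (hUT i hi')
  have hh : ∀ i, 0 ≤ h i := nonneg_of hM (S := T) (fun i hi => (hh1 i hi).le)
    (fun i hi => by rw [hh0 i hi]; exact zero_le_one)
  -- `h > 0`
  have hpos : ∀ i, 0 < h i := by
    intro i
    refine lt_of_le_of_ne (hh i) fun e => ?_
    obtain ⟨j, hj1, hj2⟩ := hr {i | h i = 0} ⟨i, e.symm⟩ (fun a ha b hab => by
      by_cases haT : dg M p a = 0
      · exact nbr_zero hM hh ha (hh1 a haT).le hab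
      · rw [Set.mem_setOf_eq, hhT a haT] at ha; exact absurd ha one_ne_zero)
    rw [Set.mem_setOf_eq, hhT j hj2] at hj1
    exact one_ne_zero hj1
  -- off `U`, on `T`: `dg u = 0`
  have hu2 : ∀ i, dg M p i = 0 → i ∉ U → dg M u i = 0 := by
    intro i hi hiU
    unfold dg
    refine Finset.sum_eq_zero fun j _ => ?_
    by_cases hij : M i j = 0
    · rw [hij, zero_mul]
    · rw [hu0 j, mul_zero]
      intro hj
      exact hiU (Tw.closed hj (by rw [hM.symm]; exact hij) hi)
  -- the room on `U`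
  have hroom : ∀ i, i ∈ U → 0 < p i - nu i := fun i hi => by
    have h1 := hi.2 i Relation.ReflTransGen.refl
    have := lt_of_le_of_ne (hge i) (Ne.symm h1)
    linarith
  -- `η`
  obtain ⟨η, hη, hη'⟩ := exists_small_mul (fun i => if i ∈ U then p i - nu i else 1) (fun i => u i)
    (fun i => by
      by_cases hi : i ∈ U
      · simpa [hi] using hroom i hi
      · simp [hi])
  -- `ε`
  obtain ⟨ε, hε, hε'⟩ := exists_small_mul (fun i : ι => min 1 (η / (2 * (B + 1))))
    (fun i => max 1 (h i)) (fun i => lt_min one_pos (by positivity))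
  -- `δ`
  obtain ⟨δ, hδ, hδ'⟩ := exists_small_mul (fun i => min (ε * h i)
      (if i ∈ U then p i - nu i - η * u i else 1)) (fun i => g i)
    (fun i => by
      refine lt_min (mul_pos hε (hpos i)) ?_
      by_cases hi : i ∈ U
      · have := hη' i
        simp only [hi, if_true] at this ⊢
        linarith
      · simp [hi])
  set w : ι → ℝ := fun i => -(ε * h i) + δ * g i + η * u i with hw
  have hwT : ∀ i, dg M p i ≠ 0 → w i = -ε := fun i hi => by
    simp [hw, hhT i hi, hgT i hi, huT i hi]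
  have hpT : ∀ i, dg M p i ≠ 0 → p i - nu i = 0 := fun i hi => by
    by_contra hne
    exact hi (hz i fun e => hne (by rw [e, sub_self]))
  have hdw : ∀ i, dg M w i = -(ε * dg M h i) + δ * dg M g i + η * dg M u i := by
    intro i
    have : w = -(ε • h) + δ • g + η • u := by
      funext j; simp [hw]
    rw [this, dg_add, dg_add, dg_neg, dg_smul, dg_smul, dg_smul]
  have h1 : ∀ i, w i < p i - nu i := by
    intro i
    have e1 := (hδ' i).trans_le (min_le_left _ _)
    have e2 := (hδ' i).trans_le (min_le_right _ _)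
    by_cases hi : i ∈ U
    · simp only [hi, if_true] at e2
      have := mul_pos hε (hpos i)
      simp only [hw]; linarith
    · simp only [hw, hu0 i hi, mul_zero]
      linarith [hge i]
  -- bound for `a`
  obtain ⟨Z, hZ⟩ := Finite.exists_le (fun i => p i - nu i - w i)
  obtain ⟨a, ha⟩ := exists_nat_gt (max 1 (2 * (B * |Z|) / η))
  have ha1 : (1 : ℝ) < a := (le_max_left _ _).trans_lt ha
  have ha0 : 0 < a := by exact_mod_cast (zero_lt_one.trans ha1)
  refine ⟨w, a, ha0, h1, ?_, ?_, ?_, ?_⟩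
  · intro i hi
    have e1 := (hε' i).trans_le (min_le_left _ _)
    have e2 : ε * h i ≤ ε * max 1 (h i) := mul_le_mul_of_nonneg_left (le_max_right _ _) hε.le
    have e3 : 0 ≤ g i := by
      refine nonneg_of hM (S := T) (fun i hi => ?_) (fun i hi => by rw [hg0 i hi]) i
      rw [hg1 i hi]; norm_num
    have e4 : 0 ≤ u i := by
      refine nonneg_of hM (S := U) (fun i hi => ?_) (fun i hi => by rw [hu0 i hi]) i
      rw [hu1 i hi]; norm_num
    have e5 := mul_nonneg hδ.le e3
    have e6 := mul_nonneg hη.le e4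
    simp only [hw]; linarith
  · intro i hi
    rw [hdw, hh1 i hi, hg1 i hi]
    by_cases hiU : i ∈ U
    · rw [hu1 i hiU]; linarith
    · rw [hu2 i hi hiU]; linarith
  · intro i i' hi hi'
    have hiU : dg M p i' = 0 := hUT i' hi'
    rw [hdw, hh1 i' hiU, hg1 i' hiU, hu1 i' hi', hpT i hi, hwT i hi]
    have e1 := (hε' i).trans_le (min_le_right _ _)
    have e2 : ε ≤ ε * max 1 (h i) := le_mul_of_one_le_right hε.le (le_max_left _ _)
    have e3 : B * ε ≤ η / 2 := by
      have : ε < η / (2 * (B + 1)) := e2.trans_lt e1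
      rw [lt_div_iff₀ (by positivity)] at this
      nlinarith
    have e4 : B * ((p i' - nu i' - w i') / a) < η / 2 := by
      have e5 : p i' - nu i' - w i' ≤ |Z| := (hZ i').trans (le_abs_self Z)
      have e6 : 2 * (B * |Z|) / η < a := (le_max_right _ _).trans_lt ha
      rw [div_lt_iff₀ hη] at e6
      have e7 : B * (p i' - nu i' - w i') ≤ B * |Z| := mul_le_mul_of_nonneg_left e5 hB
      rw [← mul_div_assoc, div_lt_iff₀ (by linarith)]
      nlinarith
    have e8 : B * ((a * (0 - -ε) + (p i' - nu i' - w i')) / a) =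
        B * ε + B * ((p i' - nu i' - w i') / a) := by
      have : (a : ℝ) ≠ 0 := by positivity
      field_simp
      ring
    rw [e8]
    nlinarith
  · intro σ hσ i
    have hTσ : ∀ i, σ i ∈ T ↔ i ∈ T := fun i => by
      simp only [hT, Set.mem_setOf_eq, dg_aut hσ hσ.p]
    have a1 : ∀ i, h (σ i) = h i := perm_unique hM hσ.m
      (fun i hi => by rw [hh0 i hi, hh0 (σ i) fun h => hi ((hTσ i).1 h)])
      (fun i hi => by rw [hh1 i hi, hh1 (σ i) ((hTσ i).2 hi)])
    have a2 : ∀ i, g (σ i) = g i := perm_unique hM hσ.m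
      (fun i hi => by rw [hg0 i hi, hg0 (σ i) fun h => hi ((hTσ i).1 h)])
      (fun i hi => by rw [hg1 i hi, hg1 (σ i) ((hTσ i).2 hi)])
    have a3 : ∀ i, u (σ i) = u i := perm_unique hM hσ.m
      (fun i hi => by rw [hu0 i hi, hu0 (σ i) fun h => hi ((Tw.aut_iff hσ i).1 h)])
      (fun i hi => by rw [hu1 i hi, hu1 (σ i) ((Tw.aut_iff hσ i).2 hi)])
    simp only [hw, a1, a2, a3]

/-- the least cycle is rational -/
theorem rat_least (hM : IForm M) (hrat : ∀ i j, ∃ r : ℚ, (r : ℝ) = M i j) {q : ι → ℝ} {n : ι → ℤ}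
    (hz : ∀ i, q i ≠ n i → dg M q i = 0) : ∃ r : ι → ℚ, ∀ i, (r i : ℝ) = q i := by
  classical
  choose m hm using hrat
  have hdt : ∀ x : ι → ℚ, ((dt m x x : ℚ) : ℝ) = dt M (fun i => (x i : ℝ)) (fun i => (x i : ℝ)) := by
    intro x
    simp only [dt]
    push_cast
    refine Finset.sum_congr rfl fun i _ => Finset.sum_congr rfl fun j _ => ?_
    rw [hm]
  have hm' : IForm m := by
    refine ⟨fun i j => ?_, fun i j hij => ?_, fun x hx => ?_⟩
    · have : ((m i j : ℚ) : ℝ) = (m j i : ℚ) := by rw [hm, hm, hM.symm]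
      exact_mod_cast this
    · have : (0 : ℝ) ≤ (m i j : ℚ) := by rw [hm]; exact hM.off i j hij
      exact_mod_cast this
    · have h1 : (fun i => (x i : ℝ)) ≠ 0 := by
        intro h
        apply hx
        funext i
        have := congrFun h i
        simpa using this
      have h2 := hM.neg _ h1
      rw [← hdt] at h2
      exact_mod_cast h2
  let S : Set ι := {i | dg M q i = 0}
  obtain ⟨x, hx1, hx2⟩ := exists_sol hm' S (fun i => - dg m (fun j => if j ∈ S then 0 else (n j : ℚ)) i)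
  refine ⟨x + fun j => if j ∈ S then 0 else (n j : ℚ), ?_⟩
  have key : (fun i => (((x + fun j => if j ∈ S then 0 else (n j : ℚ)) i : ℚ) : ℝ)) = q := by
    refine sol_unique hM (S := S) ?_ ?_
    · intro i hi
      have h1 : q i = n i := by
        by_contra h
        exact hi (hz i h)
      simp [hx1 i hi, hi, h1]
    · intro i hi
      have h1 : dg m (x + fun j => if j ∈ S then 0 else (n j : ℚ)) i = 0 := by
        rw [dg_add, hx2 i hi]; ring
      have h2 : dg M (fun i => (((x + fun j => if j ∈ S then 0 else (n j : ℚ)) i : ℚ) : ℝ)) i =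
          ((dg m (x + fun j => if j ∈ S then 0 else (n j : ℚ)) i : ℚ) : ℝ) := by
        simp only [dg]
        push_cast
        exact Finset.sum_congr rfl fun j _ => by rw [hm]
      rw [h2, h1]
      have h3 : dg M q i = 0 := hi
      rw [h3]; simp
  intro i
  exact congrFun key i

/-- a common denominator -/
theorem exists_den (r : ι → ℚ) : ∃ K : ℕ, 0 < K ∧ ∀ i, ∃ z : ℤ, (K : ℚ) * r i = z := by
  classical
  refine ⟨∏ i, (r i).den, Finset.prod_pos fun i _ => (r i).den_pos, fun i => ?_⟩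
  refine ⟨(∏ j ∈ Finset.univ.erase i, ((r j).den : ℤ)) * (r i).num, ?_⟩
  rw [← Finset.mul_prod_erase _ _ (Finset.mem_univ i)]
  push_cast
  have := Rat.den_mul_eq_num (r i)
  rw [mul_comm ((r i).den : ℚ), mul_assoc, this]

end Crest.Agent.R257.Ex_121
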