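import Crest.Agent.R257.ExD_121
import Crest.Agent.R257.ExA_121

/-!
R257 / ExB_121: orders and the minimum principle on a frame (helper121).
-/

set_option autoImplicit false
set_option linter.unusedSectionVars false

open Topology Filter Set
open Crest.AlgGeometry.Germ

noncomputable section

namespace Crest.Agent.R257.Ex_121

open Crest.Agent.R257.Defs_219
open Crest.Agent.R257.Gr1_157 Crest.Agent.R257.Gr4_157 Crest.Agent.R257.Gr5_157
open Crest.Agent.R257.Fr_808 Crest.Agent.R257.Fr_808.Frame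

variable {f : E3 → ℂ} {F : Frame f}

/-- generic points of every chart -/
theorem good' {g : E3 → ℂ} {v : F.I → ℕ} (h : F.Ord g v) (c : F.K) :
    ∀ᶠ z in 𝓝[≠] (0 : ℂ), ‖z‖ < 1 ∧
      ∃ H : ℂ × ℂ → ℂ, AnalyticAt ℂ H (0, z) ∧ H (0, z) ≠ 0 ∧
        ∀ᶠ p in 𝓝 ((0 : ℂ), z), g (F.th c p) = p.1 ^ v (F.e1 c) * H p := by
  obtain ⟨G, hG, hG1, -⟩ := h.2 c (0, 0) (F.mem_SF1 c (by simp))
  filter_upwards [hG.good (hG1 rfl).1, self_mem_nhdsWithin] with z hz hz0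
  exact ⟨hz.1, hz.2.1.lead hz.2.2 hz0⟩

theorem lt_of_lo {g : E3 → ℂ} {v : F.I → ℕ} (h : F.Ord g v) {i : F.I} {r : ℝ}
    (hl : Lo F g i r) : r < v i := by
  obtain ⟨c, rfl, hf⟩ := hl
  obtain ⟨z, ⟨n, H', hrn, hH', hH1'⟩, -, H, hH, hH0, hH1⟩ := (hf.and_eventually (good' h c)).exists
  have : n ≤ v (F.e1 c) := by
    refine ord_le (p₁ := (0, z)) rfl hH.continuousAt hH0 hH' ?_
    filter_upwards [hH1, hH1'] with p h1 h2
    rw [← h1, h2]
  exact hrn.trans_le (by exact_mod_cast this)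

theorem eq_of_ex {g : E3 → ℂ} {v : F.I → ℕ} (h : F.Ord g v) {i : F.I} {n : ℕ}
    (he : Ex F g i n) : v i = n := by
  obtain ⟨c, rfl, hf⟩ := he
  obtain ⟨z, ⟨H', hH', hH0', hH1'⟩, -, H, hH, hH0, hH1⟩ := (hf.and_eventually (good' h c)).exists
  apply le_antisymm
  · refine ord_le (p₁ := (0, z)) rfl hH' hH0' hH.continuousAt ?_
    filter_upwards [hH1, hH1'] with p h1 h2
    rw [← h1, h2]
  · refine ord_le (p₁ := (0, z)) rfl hH.continuousAt hH0 hH' ?_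
    filter_upwards [hH1, hH1'] with p h1 h2
    rw [← h1, h2]

/-- a function with a kill is not zero -/
theorem freq_of_kill {g : E3 → ℂ} (hg : AnalyticAt ℂ g 0) {m : F.I → ℕ} {c : F.K} {p₀ : ℂ × ℂ}
    (hp₀ : p₀ ∈ F.SF c) (hk : ∀ H, F.Fac g m c p₀ H → H p₀ ≠ 0) :
    ∃ᶠ x in 𝓝 (0 : E3), f x = 0 ∧ g x ≠ 0 := by
  by_contra hcon
  rw [not_frequently] at hcon
  have hth : AnalyticAt ℂ (F.th c) p₀ := F.an c p₀ hp₀.1
  have hu : AnalyticAt ℂ (fun p => g (F.th c p)) p₀ := hg.comp_of_eq hth (F.th_SF hp₀)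
  have h1 : ∀ᶠ p in 𝓝 p₀, ¬ (f (F.th c p) = 0 ∧ g (F.th c p) ≠ 0) := by
    have h2 : Tendsto (F.th c) (𝓝 p₀) (𝓝 0) := by
      have := hth.continuousAt.tendsto
      rwa [F.th_SF hp₀] at this
    exact h2.eventually hcon
  obtain ⟨r, hr, hr'⟩ := Metric.eventually_nhds_iff_ball.1 (hu.eventually_analyticAt.and h1)
  -- a point of the open bidisc
  set δ : ℝ := min (r / 2) (1 / 2) with hδ
  have hδ0 : 0 < δ := lt_min (by linarith) (by norm_num)
  have hδ1 : δ ≤ 1 / 2 := min_le_right _ _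
  have hδr : δ ≤ r / 2 := min_le_left _ _
  set p₁ : ℂ × ℂ := ((1 - δ : ℝ) : ℂ) • p₀ with hp₁
  have hn1 : ‖p₁.1‖ < 1 := by
    rw [hp₁, Prod.smul_fst, norm_smul, Complex.norm_real, Real.norm_eq_abs, abs_of_pos (by linarith)]
    have := hp₀.1.1
    nlinarith [norm_nonneg p₀.1]
  have hn2 : ‖p₁.2‖ < 1 := by
    rw [hp₁, Prod.smul_snd, norm_smul, Complex.norm_real, Real.norm_eq_abs, abs_of_pos (by linarith)]
    have := hp₀.1.2
    nlinarith [norm_nonneg p₀.2]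
  have hball : p₁ ∈ Metric.ball p₀ r := by
    rw [Metric.mem_ball, dist_eq_norm]
    have e1 : p₁ - p₀ = (-(δ : ℝ) : ℂ) • p₀ := by
      rw [hp₁]; push_cast; module
    rw [e1, norm_smul]
    have e2 : ‖(-(δ : ℝ) : ℂ)‖ = δ := by
      rw [norm_neg, Complex.norm_real, Real.norm_eq_abs, abs_of_pos hδ0]
    have e3 : ‖p₀‖ ≤ 1 := by
      rw [Prod.norm_def]; exact max_le hp₀.1.1 hp₀.1.2
    rw [e2]
    nlinarith
  have hz : (fun p => g (F.th c p)) =ᶠ[𝓝 p₁] 0 := by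
    have a1 : ∀ᶠ p in 𝓝 p₁, p ∈ Metric.ball p₀ r := Metric.isOpen_ball.mem_nhds hball
    have a2 : ∀ᶠ p : ℂ × ℂ in 𝓝 p₁, ‖p.1‖ < 1 :=
      (continuous_fst.norm.continuousAt (x := p₁)).eventually_lt continuousAt_const hn1
    have a3 : ∀ᶠ p : ℂ × ℂ in 𝓝 p₁, ‖p.2‖ < 1 :=
      (continuous_snd.norm.continuousAt (x := p₁)).eventually_lt continuousAt_const hn2
    filter_upwards [a1, a2, a3] with p b1 b2 b3
    by_contra hne
    exact (hr' p b1).2 ⟨F.onV c p ⟨b2.le, b3.le⟩, hne⟩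
  have hall : EqOn (fun p => g (F.th c p)) 0 (Metric.ball p₀ r) :=
    AnalyticOnNhd.eqOn_zero_of_preconnected_of_eventuallyEq_zero
      (fun p hp => (hr' p hp).1) (convex_ball p₀ r).isPreconnected hball hz
  refine hk (fun _ => 0) ⟨analyticAt_const, ?_⟩ rfl
  filter_upwards [Metric.ball_mem_nhds p₀ hr] with p hp
  have := hall hp
  simpa using this

theorem freq_of_ex {g : E3 → ℂ} {i : F.I} {n : ℕ} (he : Ex F g i n) :
    ∃ᶠ x in 𝓝 (0 : E3), f x = 0 ∧ g x ≠ 0 := by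
  obtain ⟨c, rfl, hf⟩ := he
  have h6 : ∀ᶠ z in 𝓝[≠] (0 : ℂ), ‖z‖ < 1 := by
    refine Filter.Eventually.filter_mono nhdsWithin_le_nhds ?_
    filter_upwards [Metric.ball_mem_nhds (0 : ℂ) one_pos] with z hz using by simpa using hz
  obtain ⟨z, ⟨H, hH, hH0, hH1⟩, hz⟩ := (hf.and_eventually h6).exists
  have hSF : ((0 : ℂ), z) ∈ F.SF c := F.mem_SF1 c hz.le
  have h2 : Tendsto (F.th c) (𝓝 ((0 : ℂ), z)) (𝓝 0) := by
    have := (F.an c _ hSF.1).continuousAt.tendsto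
    rwa [F.th_SF hSF] at this
  refine h2.frequently ?_
  have a2 : ∀ᶠ p : ℂ × ℂ in 𝓝 ((0 : ℂ), z), ‖p.1‖ < 1 :=
    (continuous_fst.norm.continuousAt (x := ((0 : ℂ), z))).eventually_lt continuousAt_const (by simp)
  have a3 : ∀ᶠ p : ℂ × ℂ in 𝓝 ((0 : ℂ), z), ‖p.2‖ < 1 :=
    (continuous_snd.norm.continuousAt (x := ((0 : ℂ), z))).eventually_lt continuousAt_const hz
  refine (freq1 ((0 : ℂ), z)).and_eventually ((a2.and a3).and (hH1.and (hH.eventually_ne hH0)))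
    |>.mono ?_
  rintro p ⟨b1, ⟨b2, b3⟩, b4, b5⟩
  refine ⟨F.onV c p ⟨b2.le, b3.le⟩, ?_⟩
  rw [b4]
  exact mul_ne_zero (pow_ne_zero _ b1) b5

/-- the factorisation for smaller exponents -/
theorem fac_of_le {g : E3 → ℂ} {v m : F.I → ℕ} (hmv : ∀ i, m i ≤ v i) {c : F.K} {p₀ : ℂ × ℂ}
    {G : ℂ × ℂ → ℂ} (hG : F.Fac g v c p₀ G) :
    F.Fac g m c p₀ (fun p => p.1 ^ (v (F.e1 c) - m (F.e1 c)) *
      (p.2 ^ (ex2 v (F.e2 c) - ex2 m (F.e2 c)) * G p)) := by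
  have hex : ex2 m (F.e2 c) ≤ ex2 v (F.e2 c) := by
    cases F.e2 c with
    | none => exact le_refl _
    | some i => exact hmv i
  refine ⟨(analyticAt_fst.pow _).mul ((analyticAt_snd.pow _).mul hG.1), ?_⟩
  filter_upwards [hG.2] with p hp
  rw [hp, mo, mo]
  have e1 : p.1 ^ v (F.e1 c) = p.1 ^ m (F.e1 c) * p.1 ^ (v (F.e1 c) - m (F.e1 c)) := by
    rw [← pow_add, Nat.add_sub_cancel' (hmv _)]
  have e2 : p.2 ^ ex2 v (F.e2 c) = p.2 ^ ex2 m (F.e2 c) *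
      p.2 ^ (ex2 v (F.e2 c) - ex2 m (F.e2 c)) := by
    rw [← pow_add, Nat.add_sub_cancel' hex]
  rw [e1, e2]
  ring

theorem ge_of_le {g : E3 → ℂ} {v m : F.I → ℕ} (h : F.Ord g v) (hmv : ∀ i, m i ≤ v i) :
    F.Ge g m := fun c p₀ hp₀ => by
  obtain ⟨G, hG, -⟩ := h.2 c p₀ hp₀
  exact ⟨_, fac_of_le hmv hG⟩

theorem gen_of_kill {g : E3 → ℂ} {v m : F.I → ℕ} (h : F.Ord g v) (hmv : ∀ i, m i ≤ v i) {c : F.K}
    {p₀ : ℂ × ℂ} (hp₀ : p₀ ∈ F.SF c) (hk : ∀ H, F.Fac g m c p₀ H → H p₀ ≠ 0) : F.Gen g m c p₀ := by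
  obtain ⟨G, hG, -⟩ := h.2 c p₀ hp₀
  exact ⟨_, fac_of_le hmv hG, hk _ (fac_of_le hmv hG)⟩

/-- the orders at a killed node -/
theorem eq_of_kill {g : E3 → ℂ} {v m : F.I → ℕ} (h : F.Ord g v) (hmv : ∀ i, m i ≤ v i) {c : F.K}
    (hk : ∀ H, F.Fac g m c (0, 0) H → H (0, 0) ≠ 0) :
    v (F.e1 c) = m (F.e1 c) ∧ ∀ i', F.e2 c = some i' → v i' = m i' := by
  obtain ⟨G, hG, -⟩ := h.2 c (0, 0) (F.mem_SF1 c (by simp))
  have h1 := hk _ (fac_of_le hmv hG)
  simp only at h1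
  constructor
  · by_contra hne
    have : v (F.e1 c) - m (F.e1 c) ≠ 0 := by have := hmv (F.e1 c); omega
    rw [zero_pow this, zero_mul] at h1
    exact h1 rfl
  · intro i' hi'
    by_contra hne
    rw [hi'] at h1
    have : ex2 v (some i') - ex2 m (some i') ≠ 0 := by
      have h2 := hmv i'
      simp only [ex2, Option.elim_some]; omega
    rw [zero_pow this, zero_mul, mul_zero] at h1
    exact h1 rfl

/-- neighbours of a null vertex where `v = m` -/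
theorem nbr_eq {g : E3 → ℂ} {v m : F.I → ℕ} (h : F.Ord g v) (hmv : ∀ i, m i ≤ v i) {i : F.I}
    (hi0 : dg F.M (fun i => (m i : ℝ)) i = 0) (hi : v i = m i) {j : F.I} (hij : F.M i j ≠ 0) :
    v j = m j := by
  have h1 := nbr_zero F.form (x := fun i => (v i : ℝ) - m i) (i := i) (j := j)
    (fun i => by have : (m i : ℝ) ≤ v i := by exact_mod_cast hmv i
                 linarith) (by simp [hi]) (by
      have : (fun i => (v i : ℝ) - m i) = (fun i => (v i : ℝ)) - fun i => (m i : ℝ) := rfl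
      rw [this, dg_sub, hi0, sub_zero]; exact h.1 i) hij
  have h2 : (v j : ℝ) = m j := by simpa [sub_eq_zero] using h1
  exact_mod_cast h2

theorem dg_eq {g : E3 → ℂ} {v m : F.I → ℕ} (h : F.Ord g v) (hmv : ∀ i, m i ≤ v i) {i : F.I}
    (hi0 : dg F.M (fun i => (m i : ℝ)) i = 0) (hi : v i = m i) :
    dg F.M (fun i => (v i : ℝ)) i = 0 := by
  rw [← hi0]
  unfold dg
  refine Finset.sum_congr rfl fun j _ => ?_
  by_cases hij : F.M i j = 0
  · rw [hij]; simp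
  · have := nbr_eq h hmv hi0 hi hij
    simp only [this]

/-- generation at the points of a null component where `v = m` -/
theorem gen_of_null (hadj : Adj F) {g : E3 → ℂ} {v m : F.I → ℕ} (h : F.Ord g v)
    (hmv : ∀ i, m i ≤ v i) {i : F.I} (hi0 : dg F.M (fun i => (m i : ℝ)) i = 0) (hi : v i = m i)
    {c : F.K} {p₀ : ℂ × ℂ} (hp₀ : p₀ ∈ F.SF c)
    (hon : (F.e1 c = i ∧ p₀.1 = 0) ∨ (F.e2 c = some i ∧ p₀.2 = 0)) : F.Gen g m c p₀ := by
  obtain ⟨G, hG, hG1, hG2⟩ := h.2 c p₀ hp₀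
  have hv0 := dg_eq h hmv hi0 hi
  have hne : G p₀ ≠ 0 := by
    rcases hon with ⟨h1, h2⟩ | ⟨h1, h2⟩
    · exact (hG1 h2).2 (by rw [h1]; exact hv0)
    · exact (hG2 i h1 h2).2 hv0
  refine ⟨_, fac_of_le hmv hG, ?_⟩
  have e1 : p₀.1 = 0 → v (F.e1 c) - m (F.e1 c) = 0 := by
    intro h0
    rcases hon with ⟨h1, -⟩ | ⟨h1, -⟩
    · rw [h1, hi]; simp
    · have h2 := (hadj.adj c i h1).2
      rw [nbr_eq h hmv hi0 hi (j := F.e1 c) (by rw [F.form.symm]; exact h2)]; simp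
  have e2 : p₀.2 = 0 → ex2 v (F.e2 c) - ex2 m (F.e2 c) = 0 := by
    intro h0
    cases hc : F.e2 c with
    | none => simp [ex2]
    | some j =>
      simp only [ex2, Option.elim_some]
      rcases hon with ⟨h1, -⟩ | ⟨h1, -⟩
      · have h2 := (hadj.adj c j hc).2
        rw [h1] at h2
        rw [nbr_eq h hmv hi0 hi h2]; simp
      · rw [hc] at h1
        obtain rfl := Option.some.inj h1
        rw [hi]; simp
  refine mul_ne_zero ?_ (mul_ne_zero ?_ hne)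
  · by_cases h0 : p₀.1 = 0
    · rw [e1 h0, pow_zero]; exact one_ne_zero
    · exact pow_ne_zero _ h0
  · by_cases h0 : p₀.2 = 0
    · rw [e2 h0, pow_zero]; exact one_ne_zero
    · exact pow_ne_zero _ h0

variable {q : F.I → ℝ}

/-- `v ≥ k q` everywhere as soon as it holds on `{q = nu}` -/
theorem ge_all (hq : F.IsP q) {g : E3 → ℂ} {v m : F.I → ℕ} {k : ℝ} (hm : ∀ i, (m i : ℝ) = k * q i)
    (h : F.Ord g v) (hS : ∀ i, q i = F.nu i → m i ≤ v i) (i : F.I) : m i ≤ v i := by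
  have h1 := nonneg_of F.form (x := fun i => (v i : ℝ) - m i) (S := {i | q i ≠ F.nu i})
    (fun j hj => by
      have e1 : (fun i => (v i : ℝ) - m i) = (fun i => (v i : ℝ)) - k • q := by
        funext l; simp [hm l]
      rw [e1, dg_sub, dg_smul, hq.dg_eq j hj, mul_zero, sub_zero]
      exact h.1 j)
    (fun j hj => by
      have h2 : q j = F.nu j := by
        by_contra hne; exact hj hne
      have : (m j : ℝ) ≤ v j := by exact_mod_cast hS j h2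
      simp only [sub_nonneg]; exact this) i
  have : (m i : ℝ) ≤ v i := by simpa using h1
  exact_mod_cast this

/-- propagation along null vertices -/
theorem prop_null {g : E3 → ℂ} {v m : F.I → ℕ} (h : F.Ord g v) (hmv : ∀ i, m i ≤ v i) {k : ℝ}
    (hm : ∀ i, (m i : ℝ) = k * q i) {i j : F.I} (hij : NP F.M q i j) (hi0 : dg F.M q i = 0)
    (hi : v i = m i) : v j = m j := by
  have hdg : ∀ l, dg F.M q l = 0 → dg F.M (fun i => (m i : ℝ)) l = 0 := by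
    intro l hl
    have e1 : (fun i => (m i : ℝ)) = k • q := by funext l; simp [hm l]
    rw [e1, dg_smul, hl, mul_zero]
  induction hij with
  | refl => exact hi
  | @tail b c hb hbc ih => exact nbr_eq h hmv (hdg b (NP.null hb hi0)) ih hbc.1

/-- a null vertex is joined to a non-null one -/
theorem exists_exit (hr : Reach F.M q) {i : F.I} (hi : dg F.M q i = 0) :
    ∃ l b, NP F.M q i l ∧ F.M l b ≠ 0 ∧ dg F.M q b ≠ 0 := by
  by_contra hcon
  push Not at hcon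
  obtain ⟨j, hj1, hj2⟩ := hr {l | NP F.M q i l} ⟨i, Relation.ReflTransGen.refl⟩
    (fun l hl b hb => Relation.ReflTransGen.tail hl ⟨hb, hcon l b hl hb⟩)
  exact hj2 (NP.null hj1 hi)

end Crest.Agent.R257.Ex_121
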