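import Crest.Agent.R257.ExB_121

/-!
R257 / ExC_121: the formal part of C-EXT (helper121): `bpf_of : BPFof`.
-/

set_option autoImplicit false
set_option linter.unusedSectionVars false

open Topology Filter Set
open Crest.AlgGeometry.Germ

noncomputable section

namespace Crest.Agent.R257.Ex_121

open Crest.Agent.R257.Defs_219
open Crest.Agent.R257.Gr1_157 Crest.Agent.R257.Gr4_157 Crest.Agent.R257.Gr5_157
open Crest.Agent.R257.Fr_808 Crest.Agent.R257.Fr_808.Frame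

variable {f : E3 → ℂ} {F : Frame f} {G : Subgroup (Equiv.Perm F.I)} {q : F.I → ℝ}

theorem mem_orb (i : F.I) : i ∈ orb G i := ⟨1, G.one_mem, rfl⟩

theorem on_mem {A : Set F.I} {t : ℝ} {j : F.I} (h : j ∈ A) : on A t j = t := by
  unfold on; rw [if_pos h]

theorem on_notMem {A : Set F.I} {t : ℝ} {j : F.I} (h : j ∉ A) : on A t j = 0 := by
  unfold on; rw [if_neg h]

theorem on_le {A : Set F.I} {t s : ℝ} {j : F.I} (hs : 0 ≤ s) (h : t ≤ s) : on A t j ≤ s := by
  unfold on; split_ifs <;> assumption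

/-- rotations are automorphisms -/
theorem aut_of (hrot : Rot F G) (hq : F.IsP q) {σ : Equiv.Perm F.I} (hσ : σ ∈ G) :
    Aut F.M q (fun i => (F.nu i : ℝ)) σ := by
  have hm := hrot.M_inv σ hσ
  have hn := hrot.nu_inv σ hσ
  refine ⟨hm, fun i => ?_, fun i => by rw [hn]⟩
  have h1 : F.IsP (fun i => q (σ i)) := by
    refine ⟨fun i => ?_, fun i => ?_, fun i hi => ?_⟩
    · rw [← hn i]; exact hq.ge _
    · rw [dg_comp hm]; exact hq.dg_le _
    · rw [dg_comp hm]
      exact hq.dg_eq _ (by rw [hn]; exact hi)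
  exact congrFun (h1.unique hq) i

/-- no invariant holomorphic form on a null component in `{q = nu}` -/
theorem not_th (hrot : Rot F G) (hq : F.IsP q) (hr : Reach F.M q) {Th : F.I → Prop}
    (hT : ExT F G Th) {e : F.I} (he0 : dg F.M q e = 0) (heS : q e = F.nu e) : ¬ Th e := by
  intro hTh
  have hq0 : ∀ i, 0 ≤ q i := nonneg_of F.form (S := Set.univ) (fun i _ => hq.dg_le i)
    (fun i hi => absurd (Set.mem_univ i) hi)
  have hnu : 0 ≤ F.nu e := by
    have := hq0 e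
    rw [heS] at this
    exact_mod_cast this
  obtain ⟨n, hn⟩ := Int.eq_ofNat_of_zero_le hnu
  obtain ⟨ε, hε, hTe⟩ := hT e hTh n hn.symm
  obtain ⟨y₁, -, hy₁⟩ := dirichlet F.form Set.univ (fun _ => 0) (fun _ => -1)
  obtain ⟨Y, hY⟩ := Finite.exists_le y₁
  obtain ⟨t, ht, htY⟩ : ∃ t : ℝ, 0 < t ∧ t * |Y| < ε := by
    refine ⟨ε / (|Y| + 1), by positivity, ?_⟩
    rw [div_mul_eq_mul_div, div_lt_iff₀ (by positivity)]
    nlinarith [abs_nonneg Y]
  set y : F.I → ℝ := t • y₁ with hydef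
  have hy : ∀ i, dg F.M y i = -t := fun i => by
    rw [hydef, dg_smul, hy₁ i trivial, mul_neg, mul_one]
  have hy0 : ∀ i, 0 ≤ y i := nonneg_of F.form (S := Set.univ)
    (fun i _ => by rw [hy i]; linarith) (fun i hi => absurd (Set.mem_univ i) hi)
  have hyI : Inv G y := fun σ hσ i => perm_unique F.form (hrot.M_inv σ hσ) (B := Set.univ)
    (fun i hi => absurd (Set.mem_univ i) hi)
    (fun i _ => by rw [hy i, hy (σ i)]) i
  have hyε : ∀ j, y j < ε := fun j => by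
    have h1 : y j = t * y₁ j := rfl
    have h2 : t * y₁ j ≤ t * |Y| := mul_le_mul_of_nonneg_left ((hY j).trans (le_abs_self Y)) ht.le
    linarith
  obtain ⟨g, hg, hlo, hex⟩ := hTe y hyI (fun j => by rw [hy j]; linarith) hyε
  obtain ⟨v, hv⟩ := F.exists_Ord hg (freq_of_ex (hex e (mem_orb e)))
  have hnr : (n : ℝ) = F.nu e := by rw [hn]; simp
  have hvorb : ∀ j ∈ orb G e, (v j : ℝ) = F.nu j := by
    rintro j ⟨σ, hσ, rfl⟩
    rw [eq_of_ex hv (hex (σ e) ⟨σ, hσ, rfl⟩), hrot.nu_inv σ hσ, hnr]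
  have hle : ∀ j, q j ≤ v j := by
    refine hq.least (fun j => ?_) hv.1
    by_cases hj : j ∈ orb G e
    · exact (hvorb j hj).ge
    · have := lt_of_lo hv (hlo j hj)
      have := hy0 j
      linarith
  -- propagate
  obtain ⟨l, b, hl, hlb, hb⟩ := exists_exit hr he0
  set x : F.I → ℝ := fun j => v j - q j with hx
  have hx0 : ∀ j, 0 ≤ x j := fun j => by simpa [hx] using hle j
  have hxd : ∀ j, dg F.M q j = 0 → dg F.M x j ≤ 0 := by
    intro j hj
    have e1 : x = (fun i => (v i : ℝ)) - q := rfl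
    rw [e1, dg_sub, hj, sub_zero]
    exact hv.1 j
  have hxl : ∀ j, NP F.M q e j → x j = 0 := by
    intro j hj
    induction hj with
    | refl => simp only [hx]; rw [hvorb e (mem_orb e), heS]; simp
    | @tail a c ha hac ih => exact nbr_zero F.form hx0 ih (hxd a (NP.null ha he0)) hac.1
  have hxb : x b = 0 := nbr_zero F.form hx0 (hxl l hl) (hxd l (NP.null hl he0)) hlb
  have hborb : b ∉ orb G e := by
    rintro ⟨σ, hσ, rfl⟩
    apply hb
    rw [dg_aut (aut_of hrot hq hσ) (aut_of hrot hq hσ).p, he0]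
  have h1 := lt_of_lo hv (hlo b hborb)
  have h2 : q b = F.nu b := by
    by_contra hne; exact hb (hq.dg_eq b hne)
  have h3 := hy0 b
  simp only [hx] at hxb
  linarith

/-- **the formal part of C-EXT** -/
theorem bpf_of : BPFof := by
  classical
  intro f _ F G B D Th hadj hrot hD hP hE hN hT
  obtain ⟨q, hq⟩ := F.exists_P
  by_cases hq0 : q = 0
  · have h0 : ∀ e : Option F.I, ex2 (fun _ : F.I => 0) e = 0 := by
      intro e; cases e <;> rfl
    refine ⟨q, 2, fun _ => 0, hq, le_rfl, fun i => by rw [hq0]; simp, fun c p₀ _ =>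
      ⟨fun _ => 1, analyticAt_const, fun c p₀ _ => ⟨fun _ => 1, analyticAt_const, ?_⟩,
        ⟨fun _ => 1, ⟨analyticAt_const, ?_⟩, one_ne_zero⟩⟩⟩
    · filter_upwards with p
      simp [mo, h0]
    · filter_upwards with p
      simp [mo, h0]
  have hr : Reach F.M q := reach_of_conn F.form F.conn hq0
  have hqn : ∀ i, 0 ≤ q i := nonneg_of F.form (S := Set.univ) (fun i _ => hq.dg_le i)
    (fun i hi => absurd (Set.mem_univ i) hi)
  have hqS : ∀ i, dg F.M q i ≠ 0 → q i = F.nu i := fun i hi => by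
    by_contra hne; exact hi (hq.dg_eq i hne)
  have haut : ∀ σ ∈ G, Aut F.M q (fun i => (F.nu i : ℝ)) σ := fun σ hσ => aut_of hrot hq hσ
  have hdgσ : ∀ σ ∈ G, ∀ i, dg F.M q (σ i) = dg F.M q i := fun σ hσ i =>
    dg_aut (haut σ hσ) (haut σ hσ).p i
  have hqorb : ∀ i, ∀ j ∈ orb G i, dg F.M q j = dg F.M q i := by
    rintro i j ⟨σ, hσ, rfl⟩; exact hdgσ σ hσ i
  -- the cycle of the kills
  obtain ⟨w, a, ha, hw1, hw2, hw3, hw4, hw5⟩ := kill_cyc F.form (nu := fun i => (F.nu i : ℝ)) hq.ge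
    hq.dg_le hq.dg_eq hr (abs_nonneg B)
  have hwI : ∀ σ ∈ G, ∀ i, w (σ i) = w i := fun σ hσ => hw5 σ (haut σ hσ)
  have hdw : ∀ i, ∀ j ∈ orb G i, dg F.M w j = dg F.M w i := by
    rintro i j ⟨σ, hσ, rfl⟩; exact dg_aut (haut σ hσ) (hwI σ hσ) i
  -- thresholds of the null orbits
  have hnull : ∀ i, ∃ k₀ : ℝ, dg F.M q i = 0 → q i = F.nu i → ∃ e, NP F.M q i e ∧
      dg F.M q e = 0 ∧ q e = F.nu e ∧ ∀ k : ℝ, k₀ ≤ k → ∃ y : F.I → ℝ, (∀ j, dg F.M y j < 0) ∧
        (∀ j ∈ orb G e, y j + F.nu j = k * q j) ∧ (∀ j, j ∉ orb G e → y j + F.nu j < k * q j) ∧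
        (∀ j, q j = F.nu j → k * q j - 1 < y j + F.nu j) ∧ Inv G y := by
    intro i
    by_cases hi : dg F.M q i = 0 ∧ q i = F.nu i
    · obtain ⟨e, h1, h2, h3, h4⟩ := null_kill F.form (nu := fun i => (F.nu i : ℝ)) hq.ge hq.dg_le
        hr hi.1 hi.2
      obtain ⟨k₀, hk₀⟩ := h4 (orb G e) (by
        rintro j ⟨σ, hσ, rfl⟩; exact ⟨σ, haut σ hσ, rfl⟩) 1 one_pos
      refine ⟨k₀, fun _ _ => ⟨e, h1, h2, h3, fun k hk => ?_⟩⟩
      obtain ⟨y, a1, a2, a3, a4, a5⟩ := hk₀ k hk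
      refine ⟨y, a1, a2, a3, a4, fun σ hσ i => a5 σ (haut σ hσ).m (haut σ hσ).p (fun j => ?_) i⟩
      constructor
      · rintro ⟨τ, hτ, h⟩
        exact ⟨σ⁻¹ * τ, G.mul_mem (G.inv_mem hσ) hτ, by simp [h]⟩
      · rintro ⟨τ, hτ, rfl⟩
        exact ⟨σ * τ, G.mul_mem hσ hτ, rfl⟩
    · exact ⟨0, fun h1 h2 => absurd ⟨h1, h2⟩ hi⟩
  choose kN hkN using hnull
  obtain ⟨KN, hKN⟩ := Finite.exists_le kN
  -- threshold of the positive vertices
  set z : F.I → ℝ := fun i => q i - F.nu i - w i with hz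
  have hzpos : ∀ i, 0 < z i := fun i => by have := hw1 i; simp only [hz]; linarith
  obtain ⟨Z, hZ⟩ := Finite.exists_le z
  set E : ℝ := |B| * (|Z| + 1) + 2 * (|B| * (a * |Z| + a * |Z|)) with hEdef
  have hthr : ∀ i, ∃ κ : ℝ, ∀ k : ℝ, κ ≤ k → dg F.M q i ≠ 0 →
      (k - 1) * dg F.M q i + dg F.M w i + E < 0 := by
    intro i
    by_cases hi : dg F.M q i = 0
    · exact ⟨0, fun _ _ h => absurd hi h⟩
    · have hneg : dg F.M q i < 0 := lt_of_le_of_ne (hq.dg_le i) hi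
      refine ⟨(dg F.M w i + E + 1) / (-dg F.M q i) + 1, fun k hk _ => ?_⟩
      have h1 : (dg F.M w i + E + 1) / (-dg F.M q i) ≤ k - 1 := by linarith
      rw [div_le_iff₀ (by linarith)] at h1
      linarith
  choose κ hκ using hthr
  obtain ⟨KP, hKP⟩ := Finite.exists_le κ
  -- the level `k`
  obtain ⟨r, hr'⟩ := rat_least F.form hadj.rat (n := F.nu) hq.dg_eq
  obtain ⟨K₀, hK₀, hden⟩ := exists_den r
  choose ζ hζ using hden
  have hζ' : ∀ i, (ζ i : ℝ) = K₀ * q i := fun i => by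
    rw [← hr' i]
    have := hζ i
    exact_mod_cast this.symm
  have hζ0 : ∀ i, 0 ≤ ζ i := fun i => by
    have : (0 : ℝ) ≤ ζ i := by rw [hζ']; exact mul_nonneg (Nat.cast_nonneg _) (hqn i)
    exact_mod_cast this
  obtain ⟨n, hn⟩ := exists_nat_gt (max 2 (max KN KP))
  have hn2 : (2 : ℝ) < n := (le_max_left _ _).trans_lt hn
  have hn0 : 0 < n := by exact_mod_cast (zero_lt_two.trans hn2)
  set k : ℕ := K₀ * D * n with hk
  have hkn : n ≤ k := by
    rw [hk]; exact Nat.le_mul_of_pos_left _ (Nat.mul_pos hK₀ hD)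
  have hknR : (n : ℝ) ≤ k := by exact_mod_cast hkn
  have hkKN : ∀ i, kN i ≤ k := fun i =>
    (hKN i).trans ((le_max_left _ _).trans ((le_max_right _ _).trans (hn.le.trans hknR)))
  have hkKP : ∀ i, κ i ≤ k := fun i =>
    (hKP i).trans ((le_max_right _ _).trans ((le_max_right _ _).trans (hn.le.trans hknR)))
  set m : F.I → ℕ := fun i => D * (n * (ζ i).toNat) with hmdef
  have hm : ∀ i, (m i : ℝ) = k * q i := by
    intro i
    have h1 : (((ζ i).toNat : ℤ) : ℝ) = K₀ * q i := by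
      rw [Int.toNat_of_nonneg (hζ0 i), hζ']
    have h2 : ((ζ i).toNat : ℝ) = K₀ * q i := by exact_mod_cast h1
    simp only [hmdef, hk]
    push_cast
    rw [h2]; ring
  have hmD : ∀ i, D ∣ m i := fun i => dvd_mul_right _ _
  have hmI : Inv G m := fun σ hσ i => by
    have : (m (σ i) : ℝ) = m i := by rw [hm, hm, (haut σ hσ).p]
    exact_mod_cast this
  have hdgm : ∀ l, dg F.M q l = 0 → dg F.M (fun i => (m i : ℝ)) l = 0 := by
    intro l hl
    have e1 : (fun i => (m i : ℝ)) = (k : ℝ) • q := by funext l; simp [hm l]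
    rw [e1, dg_smul, hl, mul_zero]
  -- the cycle `y` of the kills
  set y : F.I → ℝ := fun i => (k - 1) * q i + w i with hy
  have hyI : Inv G y := fun σ hσ i => by simp only [hy, (haut σ hσ).p, hwI σ hσ i]
  have hdy : ∀ i, dg F.M y i = (k - 1) * dg F.M q i + dg F.M w i := by
    intro i
    have : y = ((k : ℝ) - 1) • q + w := by funext l; simp [hy]
    rw [this, dg_add, dg_smul]
  have hzm : ∀ i, (m i : ℝ) - F.nu i - y i = z i := fun i => by
    simp only [hy, hz, hm]; ring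
  have hym : ∀ i, y i + F.nu i < m i := fun i => by
    have := hzpos i; rw [← hzm i] at this; linarith
  have hyS : ∀ i, q i = F.nu i → (m i : ℝ) - 1 ≤ y i + F.nu i := fun i hi => by
    have h1 := hw2 i hi
    have h2 := hzm i
    simp only [hz] at h2
    linarith
  have hpos : ∀ i, dg F.M q i ≠ 0 → ∀ e : ℝ, e ≤ E → dg F.M y i + e < 0 := fun i hi e he => by
    have := hκ i k (hkKP i) hi
    rw [hdy]; linarith
  have hBt : ∀ t : ℝ, 0 ≤ t → B * t ≤ |B| * t := fun t ht =>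
    mul_le_mul_of_nonneg_right (le_abs_self B) ht
  have hZa : ∀ i, z i ≤ |Z| := fun i => (hZ i).trans (le_abs_self Z)
  have ha1 : (1 : ℝ) ≤ a := by exact_mod_cast ha
  have haR : (0 : ℝ) < a := by positivity
  -- from a kill to orders
  have hge : ∀ (g : E3 → ℂ) (v : F.I → ℕ), F.Ord g v → (∀ j, Lo F g j (y j + F.nu j)) →
      ∀ i, m i ≤ v i := by
    intro g v hv hlo
    refine ge_all hq hm hv fun i hi => ?_
    have h1 := lt_of_lo hv (hlo i)
    have h2 := hyS i hi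
    have h3 : (m i : ℝ) - 1 < v i := by linarith
    have h4 : (m i : ℝ) < v i + 1 := by linarith
    exact Nat.lt_succ_iff.1 (by exact_mod_cast h4)
  -- node kills
  have hnode : ∀ (c : F.K) (i i' : F.I), F.e1 c = i → F.e2 c = some i' → ∀ (a' b' : ℕ), 0 < a' →
      0 < b' → (a' = 1 ∨ b' = 1) → a' ≤ a → b' ≤ a →
      (dg F.M q i = 0 → i ∈ Tw F.M q (fun i => (F.nu i : ℝ)) ∧ dg F.M q i' ≠ 0 ∧ a' = 1 ∧ b' = a) →
      (dg F.M q i' = 0 → i' ∈ Tw F.M q (fun i => (F.nu i : ℝ)) ∧ dg F.M q i ≠ 0 ∧ a' = a ∧ b' = 1) →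
      ∃ g : E3 → ℂ, AnalyticAt ℂ g 0 ∧ (∀ j, Lo F g j (y j + F.nu j)) ∧
        ∀ H, F.Fac g m c (0, 0) H → H (0, 0) ≠ 0 := by
    intro c i i' hc1 hc2 a' b' ha' hb' hab ha'a hb'a hTi hTi'
    have haR' : (1 : ℝ) ≤ a' := by exact_mod_cast ha'
    have hbR' : (1 : ℝ) ≤ b' := by exact_mod_cast hb'
    have ha'a' : (a' : ℝ) ≤ a := by exact_mod_cast ha'a
    have hb'a' : (b' : ℝ) ≤ a := by exact_mod_cast hb'a
    refine hE c i i' hc1 hc2 a' b' ha' hb' hab m y hmD hmI hyI hym fun j => ?_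
    rw [hzm i, hzm i']
    have hkap0 : 0 ≤ (a' : ℝ) * z i + b' * z i' :=
      add_nonneg (mul_nonneg (by linarith) (hzpos i).le) (mul_nonneg (by linarith) (hzpos i').le)
    have hkap : (a' : ℝ) * z i + b' * z i' ≤ a * |Z| + a * |Z| := by
      have h1 : (a' : ℝ) * z i ≤ a * |Z| :=
        mul_le_mul ha'a' (hZa i) (hzpos i).le haR.le
      have h2 : (b' : ℝ) * z i' ≤ a * |Z| :=
        mul_le_mul hb'a' (hZa i') (hzpos i').le haR.le
      linarith
    have hbd : ∀ t : ℝ, 1 ≤ t → B * (((a' : ℝ) * z i + b' * z i') / t) ≤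
        |B| * (a * |Z| + a * |Z|) := by
      intro t ht
      refine (hBt _ (div_nonneg hkap0 (by linarith))).trans ?_
      refine mul_le_mul_of_nonneg_left ?_ (abs_nonneg B)
      exact (div_le_self hkap0 ht).trans hkap
    have hK : 0 ≤ |B| * (a * |Z| + a * |Z|) := by positivity
    by_cases hj : dg F.M q j = 0
    · have hdj : dg F.M y j = dg F.M w j := by rw [hdy, hj]; ring
      rw [hdj]
      by_cases hi : j ∈ orb G i
      · have hi0 : dg F.M q i = 0 := by rw [← hqorb i j hi]; exact hj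
        obtain ⟨h1, h2, h3, h4⟩ := hTi hi0
        have hi' : j ∉ orb G i' := fun h => h2 (by rw [← hqorb i' j h]; exact hj)
        rw [on_mem hi, on_notMem hi', hdw i j hi, add_zero]
        have h5 := hw4 i' i h2 h1
        have h6 := hBt (((a : ℝ) * z i' + z i) / a)
          (div_nonneg (add_nonneg (mul_nonneg haR.le (hzpos i').le) (hzpos i).le) haR.le)
        rw [h3, h4]
        have h7 : (((1 : ℕ) : ℝ) * z i + a * z i') / a = (a * z i' + z i) / a := by
          push_cast; ring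
        rw [h7]
        simp only [hz] at h6 ⊢
        linarith
      · rw [on_notMem hi, zero_add]
        by_cases hi' : j ∈ orb G i'
        · have hi0 : dg F.M q i' = 0 := by rw [← hqorb i' j hi']; exact hj
          obtain ⟨h1, h2, h3, h4⟩ := hTi' hi0
          rw [on_mem hi', hdw i' j hi']
          have h5 := hw4 i i' h2 h1
          have h6 := hBt (((a : ℝ) * z i + z i') / a)
            (div_nonneg (add_nonneg (mul_nonneg haR.le (hzpos i).le) (hzpos i').le) haR.le)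
          rw [h3, h4]
          have h7 : ((a : ℝ) * z i + ((1 : ℕ) : ℝ) * z i') / a = (a * z i + z i') / a := by
            push_cast; ring
          rw [h7]
          simp only [hz] at h6 ⊢
          linarith
        · rw [on_notMem hi', add_zero]
          exact hw3 j hj
    · refine hpos j hj _ ?_
      have h1 : on (orb G i) (B * ((a' * z i + b' * z i') / b')) j ≤
          |B| * (a * |Z| + a * |Z|) := on_le hK (hbd _ hbR')
      have h2 : on (orb G i') (B * ((a' * z i + b' * z i') / a')) j ≤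
          |B| * (a * |Z| + a * |Z|) := on_le hK (hbd _ haR')
      have h3 : 0 ≤ |B| * (|Z| + 1) := by positivity
      simp only [hEdef]; linarith
  -- null components
  have hnullC : ∀ i, dg F.M q i = 0 → ∃ g : E3 → ℂ, AnalyticAt ℂ g 0 ∧ ∃ v, F.Ord g v ∧
      (∀ j, m j ≤ v j) ∧ v i = m i := by
    intro i hi
    by_cases hiT : i ∈ Tw F.M q (fun i => (F.nu i : ℝ))
    · obtain ⟨l, b, hil, hlb, hb⟩ := exists_exit hr hi
      have hl0 : dg F.M q l = 0 := NP.null hil hi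
      have hlT : l ∈ Tw F.M q (fun i => (F.nu i : ℝ)) :=
        ⟨hl0, fun j hj => hiT.2 j (hil.trans hj)⟩
      have hlb' : l ≠ b := fun h => hb (h ▸ hl0)
      have hkill : ∃ c, (F.e1 c = l ∨ F.e2 c = some l) ∧ ∃ g : E3 → ℂ, AnalyticAt ℂ g 0 ∧
          (∀ j, Lo F g j (y j + F.nu j)) ∧ ∀ H, F.Fac g m c (0, 0) H → H (0, 0) ≠ 0 := by
        obtain ⟨c, ⟨h1, h2⟩ | ⟨h1, h2⟩⟩ := hadj.node l b hlb' hlb
        · exact ⟨c, Or.inl h1, hnode c l b h1 h2 1 a one_pos ha (Or.inl rfl) ha le_rfl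
            (fun _ => ⟨hlT, hb, rfl, rfl⟩) (fun h => absurd h hb)⟩
        · exact ⟨c, Or.inr h2, hnode c b l h1 h2 a 1 ha one_pos (Or.inr rfl) le_rfl ha
            (fun h => absurd h hb) (fun _ => ⟨hlT, hb, rfl, rfl⟩)⟩
      obtain ⟨c, hc, g, hg, hlo, hkl⟩ := hkill
      obtain ⟨v, hv⟩ := F.exists_Ord hg (freq_of_kill hg (F.mem_SF1 c (by simp)) hkl)
      have hmv := hge g v hv hlo
      have hek := eq_of_kill hv hmv hkl
      have hvl : v l = m l := by
        rcases hc with hc | hc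
        · rw [← hc]; exact hek.1
        · exact hek.2 l hc
      exact ⟨g, hg, v, hv, hmv, prop_null hv hmv hm (NP.symm F.form hil hi) hl0 hvl⟩
    · have h1 : ∃ j, NP F.M q i j ∧ q j = F.nu j := by
        by_contra hcon
        push Not at hcon
        exact hiT ⟨hi, hcon⟩
      obtain ⟨j, hij, hjS⟩ := h1
      have hj0 : dg F.M q j = 0 := NP.null hij hi
      obtain ⟨e, hje, he0, heS, hyk⟩ := hkN j hj0 hjS
      obtain ⟨y', b1, b2, b3, b4, b5⟩ := hyk k (hkKN j)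
      obtain ⟨g, hg, hlo, hex⟩ := hN e (not_th hrot hq hr hT he0 heS) m y' hmD hmI b5
        (fun l hl => hdgm l (by rw [hqorb e l hl]; exact he0))
        (fun l hl => by rw [hm l]; exact b2 l hl) (fun l hl => by rw [hm l]; exact b3 l hl) b1
      obtain ⟨v, hv⟩ := F.exists_Ord hg (freq_of_ex (hex e (mem_orb e)))
      have hmv : ∀ l, m l ≤ v l := by
        refine ge_all hq hm hv fun l hl => ?_
        by_cases hlo' : l ∈ orb G e
        · exact (eq_of_ex hv (hex l hlo')).ge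
        · have h1 := lt_of_lo hv (hlo l hlo')
          have h2 := b4 l hl
          rw [← hm l] at h2
          have h4 : (m l : ℝ) < v l + 1 := by linarith
          exact Nat.lt_succ_iff.1 (by exact_mod_cast h4)
      have hve : v e = m e := eq_of_ex hv (hex e (mem_orb e))
      have hei : NP F.M q e i := (NP.symm F.form hje hj0).trans (NP.symm F.form hij hi)
      exact ⟨g, hg, v, hv, hmv, prop_null hv hmv hm hei he0 hve⟩
  -- point kills
  have hpoint : ∀ (c : F.K) (p₀ : ℂ × ℂ) (i : F.I), p₀ ∈ F.SF c →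
      ((F.e1 c = i ∧ p₀.1 = 0 ∧ (F.e2 c = none ∨ p₀.2 ≠ 0)) ∨
        (F.e2 c = some i ∧ p₀.2 = 0 ∧ p₀.1 ≠ 0)) → dg F.M q i ≠ 0 →
      ∃ g : E3 → ℂ, AnalyticAt ℂ g 0 ∧ (∀ j, Lo F g j (y j + F.nu j)) ∧
        ∀ H, F.Fac g m c p₀ H → H p₀ ≠ 0 := by
    intro c p₀ i hp₀ hcase hi
    refine hP c p₀ i hp₀ hcase m y hmD hmI hyI hym fun j => ?_
    rw [hzm i]
    by_cases hj : dg F.M q j = 0
    · have hji : j ∉ orb G i := fun h => hi (by rw [← hqorb i j h]; exact hj)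
      rw [on_notMem hji, add_zero, hdy, hj, mul_zero, zero_add]
      exact hw3 j hj
    · refine hpos j hj _ ?_
      have h3 : 0 ≤ |B| * (|Z| + 1) := by positivity
      have h4 : 0 ≤ 2 * (|B| * (a * |Z| + a * |Z|)) := by positivity
      have h5 : on (orb G i) (B * (z i + 1)) j ≤ |B| * (|Z| + 1) := by
        refine on_le h3 ((hBt _ (by linarith [hzpos i])).trans ?_)
        exact mul_le_mul_of_nonneg_left (by linarith [hZa i]) (abs_nonneg B)
      simp only [hEdef]; linarith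
  have hfin : ∀ (c : F.K) (p₀ : ℂ × ℂ), p₀ ∈ F.SF c →
      (∃ g : E3 → ℂ, AnalyticAt ℂ g 0 ∧ (∀ j, Lo F g j (y j + F.nu j)) ∧
        ∀ H, F.Fac g m c p₀ H → H p₀ ≠ 0) →
      ∃ g : E3 → ℂ, AnalyticAt ℂ g 0 ∧ F.Ge g m ∧ F.Gen g m c p₀ := by
    rintro c p₀ hp₀ ⟨g, hg, hlo, hkl⟩
    obtain ⟨v, hv⟩ := F.exists_Ord hg (freq_of_kill hg hp₀ hkl)
    have hmv := hge g v hv hlo
    exact ⟨g, hg, ge_of_le hv hmv, gen_of_kill hv hmv hp₀ hkl⟩
  have hnullG : ∀ (c : F.K) (p₀ : ℂ × ℂ) (i : F.I), p₀ ∈ F.SF c →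
      ((F.e1 c = i ∧ p₀.1 = 0) ∨ (F.e2 c = some i ∧ p₀.2 = 0)) → dg F.M q i = 0 →
      ∃ g : E3 → ℂ, AnalyticAt ℂ g 0 ∧ F.Ge g m ∧ F.Gen g m c p₀ := by
    intro c p₀ i hp₀ hon hi
    obtain ⟨g, hg, v, hv, hmv, hvi⟩ := hnullC i hi
    exact ⟨g, hg, ge_of_le hv hmv, gen_of_null hadj hv hmv (hdgm i hi) hvi hp₀ hon⟩
  refine ⟨q, k, m, hq, ?_, hm, fun c p₀ hp₀ => ?_⟩
  · have : (2 : ℝ) < k := hn2.trans_le hknR
    exact_mod_cast this.le
  by_cases h1 : p₀.1 = 0
  · by_cases hi : dg F.M q (F.e1 c) = 0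
    · exact hnullG c p₀ _ hp₀ (Or.inl ⟨rfl, h1⟩) hi
    · cases hc : F.e2 c with
      | none => exact hfin c p₀ hp₀ (hpoint c p₀ _ hp₀ (Or.inl ⟨rfl, h1, Or.inl hc⟩) hi)
      | some i' =>
        by_cases h2 : p₀.2 = 0
        · by_cases hi' : dg F.M q i' = 0
          · exact hnullG c p₀ _ hp₀ (Or.inr ⟨hc, h2⟩) hi'
          · have hp : p₀ = (0, 0) := Prod.ext h1 h2
            rw [hp] at hp₀ ⊢
            exact hfin c (0, 0) hp₀ (hnode c _ i' rfl hc 1 1 one_pos one_pos (Or.inl rfl) ha ha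
              (fun h => absurd h hi) (fun h => absurd h hi'))
        · exact hfin c p₀ hp₀ (hpoint c p₀ _ hp₀ (Or.inl ⟨rfl, h1, Or.inr h2⟩) hi)
  · have h2 : F.e2 c ≠ none ∧ p₀.2 = 0 := hp₀.2.resolve_left h1
    obtain ⟨i', hc⟩ := Option.ne_none_iff_exists'.1 h2.1
    by_cases hi' : dg F.M q i' = 0
    · exact hnullG c p₀ _ hp₀ (Or.inr ⟨hc, h2.2⟩) hi'
    · exact hfin c p₀ hp₀ (hpoint c p₀ i' hp₀ (Or.inr ⟨hc, h2.2, h1⟩) hi')

end Crest.Agent.R257.Ex_121
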