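import Crest.Agent.R257.Fr2_808

/-!
R257 / ExD_121: the cut of C-EXT at the level of frames (helper121).

* `Lo g i r` : `g` vanishes to order `> r` along the component `i`; `Ex g i n` : order exactly `n`;
* `Adj F`    : rationality of `M`, charts and adjacency;
* `Rot F G`  : `G` acts on the frame;
* `ExP`, `ExE`, `ExN`, `ExT` : output of one Hoermander step with a kill at a point, a kill at a node,
  a null orbit, an invariant holomorphic form;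
* `BPFof`    : they give base point freeness (files `ExA..`).
-/

set_option autoImplicit false

open Topology Filter Set
open Crest.AlgGeometry.Germ

noncomputable section

namespace Crest.Agent.R257.Ex_121

open Crest.Agent.R257.Defs_219
open Crest.Agent.R257.Gr1_157
open Crest.Agent.R257.Fr_808

variable {f : E3 → ℂ} (F : Frame f)

/-- `g` vanishes to order `> r` along the component `i` (at generic points of one chart) -/
def Lo (g : E3 → ℂ) (i : F.I) (r : ℝ) : Prop :=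
  ∃ c, F.e1 c = i ∧ ∃ᶠ z in 𝓝[≠] (0 : ℂ), ∃ (n : ℕ) (H : ℂ × ℂ → ℂ), r < n ∧
    ContinuousAt H (0, z) ∧ ∀ᶠ p in 𝓝 ((0 : ℂ), z), g (F.th c p) = p.1 ^ n * H p

/-- `g` vanishes to order exactly `n` along the component `i` -/
def Ex (g : E3 → ℂ) (i : F.I) (n : ℕ) : Prop :=
  ∃ c, F.e1 c = i ∧ ∃ᶠ z in 𝓝[≠] (0 : ℂ), ∃ H : ℂ × ℂ → ℂ,
    ContinuousAt H (0, z) ∧ H (0, z) ≠ 0 ∧ ∀ᶠ p in 𝓝 ((0 : ℂ), z), g (F.th c p) = p.1 ^ n * H p

/-- rationality, and adjacency is seen in charts -/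
structure Adj : Prop where
  rat : ∀ i j, ∃ r : ℚ, (r : ℝ) = F.M i j
  adj : ∀ c i', F.e2 c = some i' → F.e1 c ≠ i' ∧ F.M (F.e1 c) i' ≠ 0
  node : ∀ i j, i ≠ j → F.M i j ≠ 0 →
    ∃ c, (F.e1 c = i ∧ F.e2 c = some j) ∨ (F.e1 c = j ∧ F.e2 c = some i)

/-- `G` acts on the frame -/
structure Rot (G : Subgroup (Equiv.Perm F.I)) : Prop where
  M_inv : ∀ σ ∈ G, ∀ i j, F.M (σ i) (σ j) = F.M i j
  nu_inv : ∀ σ ∈ G, ∀ i, F.nu (σ i) = F.nu i

variable {F}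

/-- the orbit of `i` -/
def orb (G : Subgroup (Equiv.Perm F.I)) (i : F.I) : Set F.I := {j | ∃ σ ∈ G, σ i = j}

/-- invariance -/
def Inv {X : Type} (G : Subgroup (Equiv.Perm F.I)) (y : F.I → X) : Prop := ∀ σ ∈ G, ∀ i, y (σ i) = y i

open scoped Classical in
/-- `t` on `A`, `0` off `A` -/
def on (A : Set F.I) (t : ℝ) (j : F.I) : ℝ := if j ∈ A then t else 0

variable (F)

/-- POINT KILL at `p₀`, a point of the special fibre on exactly one exceptional branch `i` -/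
def ExP (G : Subgroup (Equiv.Perm F.I)) (B : ℝ) (D : ℕ) : Prop :=
  ∀ (c : F.K) (p₀ : ℂ × ℂ) (i : F.I), p₀ ∈ F.SF c →
    ((F.e1 c = i ∧ p₀.1 = 0 ∧ (F.e2 c = none ∨ p₀.2 ≠ 0)) ∨
      (F.e2 c = some i ∧ p₀.2 = 0 ∧ p₀.1 ≠ 0)) →
    ∀ (m : F.I → ℕ) (y : F.I → ℝ), (∀ j, D ∣ m j) → Inv G m → Inv G y →
      (∀ j, y j + F.nu j < m j) →
      (∀ j, dg F.M y j + on (orb G i) (B * ((m i - F.nu i - y i) + 1)) j < 0) →
      ∃ g : E3 → ℂ, AnalyticAt ℂ g 0 ∧ (∀ j, Lo F g j (y j + F.nu j)) ∧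
        ∀ H, F.Fac g m c p₀ H → H p₀ ≠ 0

/-- NODE KILL in the direction `(a, b)`, `a = 1` or `b = 1` -/
def ExE (G : Subgroup (Equiv.Perm F.I)) (B : ℝ) (D : ℕ) : Prop :=
  ∀ (c : F.K) (i i' : F.I), F.e1 c = i → F.e2 c = some i' → ∀ (a b : ℕ), 0 < a → 0 < b →
    (a = 1 ∨ b = 1) →
    ∀ (m : F.I → ℕ) (y : F.I → ℝ), (∀ j, D ∣ m j) → Inv G m → Inv G y →
      (∀ j, y j + F.nu j < m j) →
      (∀ j, dg F.M y j +
        (on (orb G i) (B * ((a * (m i - F.nu i - y i) + b * (m i' - F.nu i' - y i')) / b)) j +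
          on (orb G i') (B * ((a * (m i - F.nu i - y i) + b * (m i' - F.nu i' - y i')) / a)) j) < 0) →
      ∃ g : E3 → ℂ, AnalyticAt ℂ g 0 ∧ (∀ j, Lo F g j (y j + F.nu j)) ∧
        ∀ H, F.Fac g m c (0, 0) H → H (0, 0) ≠ 0

/-- NULL ORBIT: `Th i` says that the component `i` has an invariant non-zero holomorphic form -/
def ExN (G : Subgroup (Equiv.Perm F.I)) (D : ℕ) (Th : F.I → Prop) : Prop :=
  ∀ (i₀ : F.I), ¬ Th i₀ → ∀ (m : F.I → ℕ) (y : F.I → ℝ), (∀ j, D ∣ m j) → Inv G m → Inv G y →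
    (∀ j ∈ orb G i₀, dg F.M (fun i => (m i : ℝ)) j = 0) →
    (∀ j ∈ orb G i₀, y j + F.nu j = m j) →
    (∀ j, j ∉ orb G i₀ → y j + F.nu j < m j) →
    (∀ j, dg F.M y j < 0) →
    ∃ g : E3 → ℂ, AnalyticAt ℂ g 0 ∧ (∀ j, j ∉ orb G i₀ → Lo F g j (y j + F.nu j)) ∧
      ∀ j ∈ orb G i₀, Ex F g j (m j)

/-- INVARIANT HOLOMORPHIC FORM on the component `i₀` (small weights `y` only) -/
def ExT (G : Subgroup (Equiv.Perm F.I)) (Th : F.I → Prop) : Prop :=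
  ∀ (i₀ : F.I), Th i₀ → ∀ (n : ℕ), (n : ℤ) = F.nu i₀ → ∃ ε : ℝ, 0 < ε ∧ ∀ (y : F.I → ℝ),
    Inv G y → (∀ j, dg F.M y j < 0) → (∀ j, y j < ε) →
    ∃ g : E3 → ℂ, AnalyticAt ℂ g 0 ∧ (∀ j, j ∉ orb G i₀ → Lo F g j (y j + F.nu j)) ∧
      ∀ j ∈ orb G i₀, Ex F g j n

/-- the formal part of C-EXT -/
def BPFof : Prop := ∀ (f : E3 → ℂ) (_ : AnalyticAt ℂ f 0) (F : Frame f)
  (G : Subgroup (Equiv.Perm F.I)) (B : ℝ) (D : ℕ)
  (Th : F.I → Prop), Adj F → Rot F G → 0 < D → ExP F G B D → ExE F G B D → ExN F G D Th →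
    ExT F G Th → F.BPF

end Crest.Agent.R257.Ex_121
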