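import Crest.Agent.R257.Gr4_157

/-!
# Far null vertices (row 257, part C, leaf C-TIE)

`Reach M p` : every set of vertices closed under adjacency contains a non-null vertex.
`exists_far` : every null vertex `i ∈ S = {p = nu}` can be joined through null vertices to a null
vertex `e ∈ S` such that every set `A` of images of `e` under automorphisms satisfies the
hypotheses (h1), (h2) of `Gr4_157.weight` with `n = 0`.
`null_kill` : the resulting weights.
-/

set_option autoImplicit false
set_option linter.unusedSectionVars false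
set_option linter.deprecated false

namespace Crest.Agent.R257.Gr5_157

open Finset Crest.Agent.R257.Gr1_157 Crest.Agent.R257.Gr4_157

variable {ι : Type*} [Fintype ι] {M : ι → ι → ℝ} {p nu : ι → ℝ}

/-- every union of connected components contains a non-null vertex -/
def Reach (M : ι → ι → ℝ) (p : ι → ℝ) : Prop :=
  ∀ C : Set ι, C.Nonempty → (∀ i ∈ C, ∀ j, M i j ≠ 0 → j ∈ C) → ∃ i ∈ C, dg M p i ≠ 0

lemma reach_of_ne (hM : IForm M) (hp : ∀ i, p i ≠ 0) : Reach M p := by
  classical
  intro C hC hcl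
  by_contra hcon
  push Not at hcon
  set x : ι → ℝ := fun i => if i ∈ C then p i else 0 with hx
  have h0 : x = 0 := by
    refine sol_unique hM (S := C) (fun i hi => by simp [hx, hi]) (fun i hi => ?_)
    have e1 : dg M x i = dg M p i := by
      unfold dg
      refine Finset.sum_congr rfl fun j _ => ?_
      by_cases hm : M i j = 0
      · simp [hm]
      · simp [hx, hcl i hi j hm]
    have e2 : dg M (0 : ι → ℝ) i = 0 := by simp [dg]
    rw [e1, e2]; exact hcon i hi
  obtain ⟨i, hi⟩ := hC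
  have := congrFun h0 i
  simp only [hx, hi, if_true, Pi.zero_apply] at this
  exact hp i this

lemma reach_of_conn (hM : IForm M) (hc : Conn M) (hp : p ≠ 0) : Reach M p := by
  intro C hC hcl
  have hu := hc C hC hcl
  by_contra hcon
  push Not at hcon
  apply hp
  refine sol_unique hM (S := Set.univ) (fun i hi => absurd (Set.mem_univ i) hi) (fun i _ => ?_)
  rw [hcon i (hu ▸ Set.mem_univ i)]
  simp [dg]

/-- vertices at distance at most `m` from the non-null vertices -/
def Lv (M : ι → ι → ℝ) (p : ι → ℝ) : ℕ → Set ι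
  | 0 => {i | dg M p i ≠ 0}
  | m + 1 => {i | i ∈ Lv M p m ∨ ∃ j ∈ Lv M p m, M i j ≠ 0}

lemma lv_mono (m : ℕ) : Lv M p m ⊆ Lv M p (m + 1) := fun _ hi => Or.inl hi

lemma exists_lv (hM : IForm M) (hr : Reach M p) (i : ι) : ∃ m, i ∈ Lv M p m := by
  by_contra hcon
  obtain ⟨j, hj, hj2⟩ := hr {i | ∀ m, i ∉ Lv M p m} ⟨i, by push Not at hcon; exact hcon⟩ (by
    intro a ha b hab m hb
    exact ha (m + 1) (Or.inr ⟨b, hb, hab⟩))
  exact hj 0 hj2

open Classical in
/-- distance to the non-null vertices -/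
noncomputable def dist (M : ι → ι → ℝ) (p : ι → ℝ) (i : ι) : ℕ :=
  if h : ∃ m, i ∈ Lv M p m then Nat.find h else 0

lemma dist_spec (hM : IForm M) (hr : Reach M p) (i : ι) : i ∈ Lv M p (dist M p i) := by
  classical
  have h := exists_lv hM hr i
  unfold dist
  rw [dif_pos h]
  exact Nat.find_spec h

lemma dist_le {i : ι} {m : ℕ} (h : i ∈ Lv M p m) : dist M p i ≤ m := by
  classical
  unfold dist
  rw [dif_pos ⟨m, h⟩]
  exact Nat.find_min' _ h

lemma dist_pos (hM : IForm M) (hr : Reach M p) {i : ι} (hi : dg M p i = 0) : 0 < dist M p i := by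
  rcases Nat.eq_zero_or_pos (dist M p i) with h | h
  · have := dist_spec hM hr i
    rw [h] at this
    exact absurd hi this
  · exact h

lemma exists_nbr (hM : IForm M) (hr : Reach M p) {i : ι} (hi : dg M p i = 0) :
    ∃ j, M i j ≠ 0 ∧ dist M p j < dist M p i := by
  obtain ⟨m, hm⟩ : ∃ m, dist M p i = m + 1 := ⟨dist M p i - 1, by have := dist_pos hM hr hi; omega⟩
  have h := dist_spec hM hr i
  rw [hm] at h
  rcases h with h | ⟨j, hj, hij⟩
  · have := dist_le h; omega
  · exact ⟨j, hij, by rw [hm]; have := dist_le hj; omega⟩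

lemma lv_perm {σ : Equiv.Perm ι} (hσ : ∀ i j, M (σ i) (σ j) = M i j) (hp : ∀ i, p (σ i) = p i)
    (m : ℕ) (i : ι) : σ i ∈ Lv M p m ↔ i ∈ Lv M p m := by
  induction m generalizing i with
  | zero =>
    simp only [Lv, Set.mem_setOf_eq]
    have : dg M p (σ i) = dg M p i := by
      rw [← dg_comp hσ]; congr 1; funext j; exact hp j
    rw [this]
  | succ m ih =>
    simp only [Lv, Set.mem_setOf_eq]
    constructor
    · rintro (h | ⟨j, hj, hij⟩)
      · exact Or.inl ((ih i).mp h)
      · refine Or.inr ⟨σ.symm j, ?_, ?_⟩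
        · rw [← ih]; simpa using hj
        · rw [← hσ]; simpa using hij
    · rintro (h | ⟨j, hj, hij⟩)
      · exact Or.inl ((ih i).mpr h)
      · exact Or.inr ⟨σ j, (ih j).mpr hj, by rw [hσ]; exact hij⟩

lemma dist_perm (hM : IForm M) (hr : Reach M p) {σ : Equiv.Perm ι}
    (hσ : ∀ i j, M (σ i) (σ j) = M i j) (hp : ∀ i, p (σ i) = p i) (i : ι) :
    dist M p (σ i) = dist M p i := by
  refine le_antisymm (dist_le ((lv_perm hσ hp _ i).mpr (dist_spec hM hr i))) ?_
  exact dist_le ((lv_perm hσ hp _ i).mp (dist_spec hM hr (σ i)))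

/-- `j` can be reached from `i` through null vertices (after `i`) -/
def NP (M : ι → ι → ℝ) (p : ι → ℝ) : ι → ι → Prop :=
  Relation.ReflTransGen (fun a b => M a b ≠ 0 ∧ dg M p b = 0)

lemma NP.null {i j : ι} (h : NP M p i j) (hi : dg M p i = 0) : dg M p j = 0 := by
  induction h with
  | refl => exact hi
  | tail _ h _ => exact h.2

lemma NP.symm (hM : IForm M) {i j : ι} (h : NP M p i j) (hi : dg M p i = 0) : NP M p j i := by
  induction h with
  | refl => exact Relation.ReflTransGen.refl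
  | @tail b c hb hbc ih =>
    exact Relation.ReflTransGen.head ⟨by rw [hM.symm]; exact hbc.1, NP.null hb hi⟩ ih

lemma NP.map {σ : Equiv.Perm ι} (hσ : ∀ i j, M (σ i) (σ j) = M i j) (hp : ∀ i, p (σ i) = p i)
    {i j : ι} (h : NP M p i j) : NP M p (σ i) (σ j) := by
  induction h with
  | refl => exact Relation.ReflTransGen.refl
  | @tail b c hb hbc ih =>
    refine Relation.ReflTransGen.tail ih ⟨by rw [hσ]; exact hbc.1, ?_⟩
    have : dg M p (σ c) = dg M p c := by
      rw [← dg_comp hσ]; congr 1; funext j; exact hp j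
    rw [this]; exact hbc.2

/-- an automorphism of the weighted configuration -/
structure Aut (M : ι → ι → ℝ) (p nu : ι → ℝ) (σ : Equiv.Perm ι) : Prop where
  m : ∀ i j, M (σ i) (σ j) = M i j
  p : ∀ i, p (σ i) = p i
  nu : ∀ i, nu (σ i) = nu i

/-- **the far null vertices** -/
theorem exists_far (hM : IForm M) (hr : Reach M p) {i : ι} (hi : dg M p i = 0) (hS : p i = nu i) :
    ∃ e, NP M p i e ∧ dg M p e = 0 ∧ p e = nu e ∧
      ∀ A : Set ι, (∀ a ∈ A, ∃ σ : Equiv.Perm ι, Aut M p nu σ ∧ σ e = a) →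
        (∀ a ∈ A, dg M p a = 0) ∧ (∀ a ∈ A, p a = nu a) ∧
        (∀ l, dg M p l = 0 → l ∉ A → p l = nu l → Rch M p A l) ∧
        (∀ a ∈ A, ∃ l, l ∉ A ∧ M a l ≠ 0 ∧ (dg M p l ≠ 0 ∨ Rch M p A l)) := by
  classical
  obtain ⟨e, he1, he2⟩ := Finset.exists_max_image
    ((Finset.univ : Finset ι).filter (fun e => NP M p i e ∧ p e = nu e)) (dist M p)
    ⟨i, by simp [hS, NP, Relation.ReflTransGen.refl]⟩
  simp only [Finset.mem_filter, Finset.mem_univ, true_and] at he1 he2
  obtain ⟨hne, hse⟩ := he1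
  have h0e : dg M p e = 0 := hne.null hi
  refine ⟨e, hne, h0e, hse, fun A hA => ?_⟩
  have hA0 : ∀ a ∈ A, dg M p a = 0 := by
    intro a ha
    obtain ⟨σ, hσ, rfl⟩ := hA a ha
    rw [← dg_comp hσ.m, show (fun j => p (σ j)) = p from funext hσ.p]
    exact h0e
  have hAd : ∀ a ∈ A, dist M p a = dist M p e := by
    intro a ha
    obtain ⟨σ, hσ, rfl⟩ := hA a ha
    exact dist_perm hM hr hσ.m hσ.p e
  -- vertices joined to `A`
  have hfar : ∀ l, p l = nu l → ∀ a ∈ A, NP M p l a → dg M p l = 0 → dist M p l ≤ dist M p e := by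
    intro l hl a ha hla hl0
    obtain ⟨σ, hσ, rfl⟩ := hA a ha
    have hσ' : ∀ i j, M (σ.symm i) (σ.symm j) = M i j := fun i j => by
      rw [← hσ.m]; simp
    have hp' : ∀ i, p (σ.symm i) = p i := fun i => by rw [← hσ.p]; simp
    have hnu' : ∀ i, nu (σ.symm i) = nu i := fun i => by rw [← hσ.nu]; simp
    have h1 := (NP.symm hM hla hl0).map (σ := σ.symm) hσ' hp'
    simp only [Equiv.symm_apply_apply] at h1
    have h2 := he2 (σ.symm l) ⟨hne.trans h1, by rw [hp', hnu', hl]⟩
    rwa [dist_perm hM hr hσ' hp' l] at h2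
  -- main claim
  have key : ∀ m : ℕ, ∀ l, dist M p l = m → dg M p l = 0 → l ∉ A →
      (dist M p l ≤ dist M p e ∨ ∀ a ∈ A, ¬ NP M p l a) → Rch M p A l := by
    intro m
    induction m using Nat.strong_induction_on with
    | _ m ih =>
      intro l hm hl hlA hor
      obtain ⟨j, hj, hjd⟩ := exists_nbr hM hr hl
      by_cases hj0 : dg M p j = 0
      · have hjA : j ∉ A := by
          intro hjA
          rcases hor with h | h
          · have := hAd j hjA; omega
          · exact h j hjA (Relation.ReflTransGen.single ⟨hj, hj0⟩)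
        refine Rch.step hl hlA hj (ih (dist M p j) (by omega) j rfl hj0 hjA ?_)
        rcases hor with h | h
        · left; omega
        · right
          intro a ha hja
          exact h a ha (Relation.ReflTransGen.head ⟨hj, hj0⟩ hja)
      · exact Rch.base hl hlA hj hj0
  refine ⟨hA0, ?_, ?_, ?_⟩
  · intro a ha
    obtain ⟨σ, hσ, rfl⟩ := hA a ha
    rw [hσ.p, hσ.nu, hse]
  · intro l hl hlA hls
    refine key _ l rfl hl hlA ?_
    by_cases h : ∃ a ∈ A, NP M p l a
    · obtain ⟨a, ha, hla⟩ := h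
      exact Or.inl (hfar l hls a ha hla hl)
    · right
      intro a ha hla
      exact h ⟨a, ha, hla⟩
  · intro a ha
    obtain ⟨j, hj, hjd⟩ := exists_nbr hM hr (hA0 a ha)
    have hjA : j ∉ A := by
      intro hjA
      have := hAd j hjA; have := hAd a ha; omega
    refine ⟨j, hjA, hj, ?_⟩
    by_cases hj0 : dg M p j = 0
    · right
      exact key _ j rfl hj0 hjA (Or.inl (by have := hAd a ha; omega))
    · exact Or.inl hj0

/-- **weights killing a far null vertex** -/
theorem null_kill (hM : IForm M) (hge : ∀ i, nu i ≤ p i) (hdg : ∀ i, dg M p i ≤ 0)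
    (hr : Reach M p) {i : ι} (hi : dg M p i = 0) (hS : p i = nu i) :
    ∃ e, NP M p i e ∧ dg M p e = 0 ∧ p e = nu e ∧
      ∀ A : Set ι, (∀ a ∈ A, ∃ σ : Equiv.Perm ι, Aut M p nu σ ∧ σ e = a) → ∀ ε : ℝ, 0 < ε →
        ∃ k₀ : ℝ, ∀ k : ℝ, k₀ ≤ k → ∃ y : ι → ℝ, (∀ i, dg M y i < 0) ∧
          (∀ i ∈ A, y i + nu i = k * p i) ∧ (∀ i, i ∉ A → y i + nu i < k * p i) ∧
          (∀ i, p i = nu i → k * p i - ε < y i + nu i) ∧
          ∀ σ : Equiv.Perm ι, (∀ i j, M (σ i) (σ j) = M i j) → (∀ i, p (σ i) = p i) →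
            (∀ i, σ i ∈ A ↔ i ∈ A) → ∀ i, y (σ i) = y i := by
  obtain ⟨e, h1, h2, h3, h4⟩ := exists_far hM hr hi hS
  refine ⟨e, h1, h2, h3, fun A hA ε hε => ?_⟩
  obtain ⟨a1, a2, a3, a4⟩ := h4 A hA
  refine weight hM hge hdg a1 le_rfl (fun i hi => by rw [a2 i hi]; simp) (fun h => absurd rfl h)
    (fun l hl hlA => ?_) a4 hε
  refine Or.inr ⟨?_, fun h => absurd rfl h⟩
  by_cases h : p l = nu l
  · exact Or.inl (a3 l hl hlA h)
  · right
    have := lt_of_le_of_ne (hge l) (Ne.symm h)
    linarith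

end Crest.Agent.R257.Gr5_157
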