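import Crest.Agent.R257.FrBP1_808
import Crest.Agent.R257.Gr5_157

/-!
Row 257 (S0395), C-EXT (helper121): extension of invariant functions from one graph component to the
whole graph, in the presence of a group of automorphisms.
-/

set_option autoImplicit false
set_option linter.unusedSectionVars false

noncomputable section

namespace Crest.Agent.R257.ExF_121

open Crest.Agent.R257.Gr1_157 Crest.Agent.R257.FrBP_808

variable {ι : Type} {H : Type*} [Group H] (ρ : H →* Equiv.Perm ι) (A : Set ι)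

theorem inv_self (γ : H) (i : ι) : ρ γ⁻¹ (ρ γ i) = i := by
  rw [← Equiv.Perm.mul_apply, ← map_mul]; simp

theorem self_inv (γ : H) (i : ι) : ρ γ (ρ γ⁻¹ i) = i := by
  rw [← Equiv.Perm.mul_apply, ← map_mul]; simp

/-- the permutations of `A` which come from the group -/
def stab : Subgroup (Equiv.Perm A) where
  carrier := {σ | ∃ γ : H, ∀ a : A, ρ γ a = σ a}
  one_mem' := ⟨1, fun a => by simp⟩
  mul_mem' := by
    rintro σ τ ⟨γ, hγ⟩ ⟨δ, hδ⟩
    refine ⟨γ * δ, fun a => ?_⟩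
    rw [map_mul, Equiv.Perm.mul_apply, hδ a, hγ (τ a)]
    rfl
  inv_mem' := by
    rintro σ ⟨γ, hγ⟩
    refine ⟨γ⁻¹, fun a => ?_⟩
    rw [map_inv, Equiv.Perm.inv_eq_iff_eq, hγ (σ⁻¹ a)]
    simp

variable {A}

/-- `A` is a block -/
def Blk (A : Set ι) : Prop := ∀ (γ : H) (a : ι), a ∈ A → ρ γ a ∈ A → ∀ b ∈ A, ρ γ b ∈ A

variable {ρ}

theorem exists_stab (hb : Blk ρ A) {γ : H} {a : ι} (ha : a ∈ A) (h : ρ γ a ∈ A) :
    ∃ σ ∈ stab ρ A, ∀ b : A, ρ γ b = σ b := by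
  have h1 : ∀ b : A, ρ γ b ∈ A := fun b => hb γ a ha h b b.2
  have h2 : ∀ b : A, ρ γ⁻¹ b ∈ A := fun b => hb γ⁻¹ (ρ γ a) h (by
    rw [inv_self]; exact ha) b b.2
  refine ⟨⟨fun b => ⟨ρ γ b, h1 b⟩, fun b => ⟨ρ γ⁻¹ b, h2 b⟩, fun b => ?_, fun b => ?_⟩,
    ⟨γ, fun b => rfl⟩, fun b => rfl⟩
  · refine Subtype.ext ?_
    exact inv_self ρ γ b
  · refine Subtype.ext ?_
    exact self_inv ρ γ b

variable (ρ) in
open Classical in
/-- extension of `y` by `z` -/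
def ext {α : Type*} (y : A → α) (z : ι → α) (i : ι) : α :=
  if h : ∃ γ, ρ γ i ∈ A then y ⟨ρ h.choose i, h.choose_spec⟩ else z i

variable {α : Type*} {y : A → α} {z : ι → α}

/-- invariance -/
def InvA (ρ : H →* Equiv.Perm ι) {A : Set ι} {α : Type*} (y : A → α) : Prop :=
  ∀ σ ∈ stab ρ A, ∀ a, y (σ a) = y a

theorem ext_eq (hb : Blk ρ A) (hy : InvA ρ y) {i : ι} {γ : H} (h : ρ γ i ∈ A) :
    ext ρ y z i = y ⟨ρ γ i, h⟩ := by
  have h0 : ∃ γ, ρ γ i ∈ A := ⟨γ, h⟩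
  unfold ext
  rw [dif_pos h0]
  have h1 := h0.choose_spec
  have h2 : ρ (γ * h0.choose⁻¹) (ρ h0.choose i) = ρ γ i := by
    rw [map_mul, Equiv.Perm.mul_apply, inv_self]
  obtain ⟨σ, hσ, hσ'⟩ := exists_stab hb h1 (by rw [h2]; exact h)
  rw [← hy σ hσ]
  congr 1
  refine Subtype.ext ?_
  rw [← hσ' ⟨ρ h0.choose i, h1⟩]
  exact h2

theorem ext_coe (hb : Blk ρ A) (hy : InvA ρ y) (a : A) : ext ρ y z a = y a := by
  have h : ρ 1 (a : ι) ∈ A := by simp
  rw [ext_eq hb hy h]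
  congr 1
  exact Subtype.ext (by simp)

theorem ext_not {i : ι} (h : ¬ ∃ γ, ρ γ i ∈ A) : ext ρ y z i = z i := by
  unfold ext
  rw [dif_neg h]

theorem ext_inv (hb : Blk ρ A) (hy : InvA ρ y) (hz : ∀ γ i, z (ρ γ i) = z i) (γ : H) (i : ι) :
    ext ρ y z (ρ γ i) = ext ρ y z i := by
  by_cases h : ∃ δ, ρ δ i ∈ A
  · obtain ⟨δ, hδ⟩ := h
    have h1 : ρ (δ * γ⁻¹) (ρ γ i) = ρ δ i := by
      rw [map_mul, Equiv.Perm.mul_apply, inv_self]
    have h2 : ρ (δ * γ⁻¹) (ρ γ i) ∈ A := by rw [h1]; exact hδ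
    rw [ext_eq hb hy h2, ext_eq hb hy hδ]
    congr 1
    exact Subtype.ext h1
  · have h1 : ¬ ∃ δ, ρ δ (ρ γ i) ∈ A := by
      rintro ⟨δ, hδ⟩
      exact h ⟨δ * γ, by rw [map_mul, Equiv.Perm.mul_apply]; exact hδ⟩
    rw [ext_not h, ext_not h1, hz]

/-- a property of an invariant function holds if it holds on `A` and off the rotates of `A` -/
theorem ext_ind {P : ι → Prop} (hP : ∀ γ i, P (ρ γ i) → P i) (h1 : ∀ a : A, P a)
    (h2 : ∀ i, (¬ ∃ γ, ρ γ i ∈ A) → P i) (i : ι) : P i := by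
  by_cases h : ∃ γ, ρ γ i ∈ A
  · obtain ⟨γ, hγ⟩ := h
    exact hP γ i (h1 ⟨_, hγ⟩)
  · exact h2 i h

variable [Fintype ι] {M : ι → ι → ℝ}

theorem dg_perm (hM : ∀ (γ : H) i j, M (ρ γ i) (ρ γ j) = M i j) (x : ι → ℝ) (γ : H) (i : ι) :
    dg M (fun j => x (ρ γ j)) i = dg M x (ρ γ i) := by
  unfold dg
  rw [← Equiv.sum_comp (ρ γ) (fun j => M (ρ γ i) j * x j)]
  exact Finset.sum_congr rfl fun j _ => by rw [hM]

theorem dg_ext [Fintype A] (hb : Blk ρ A) (hM : ∀ (γ : H) i j, M (ρ γ i) (ρ γ j) = M i j)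
    (hs : ∀ i j, M i j = M j i) (hcl : ∀ i ∈ A, ∀ j, M i j ≠ 0 → j ∈ A) {y : A → ℝ} {z : ι → ℝ}
    (hy : InvA ρ y) (hz : ∀ γ i, z (ρ γ i) = z i) (i : ι) :
    dg M (ext ρ y z) i = ext ρ (fun a => dg (rM M A) y a) (dg M z) i := by
  have hA : ∀ a : A, dg M (ext ρ y z) a = dg (rM M A) y a := by
    intro a
    rw [← dg_rM hcl]
    congr 1
    funext b
    exact ext_coe hb hy b
  have hdy : InvA ρ (fun a => dg (rM M A) y a) := by
    rintro σ ⟨γ, hγ⟩ a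
    show dg (rM M A) y (σ a) = dg (rM M A) y a
    rw [← hA, ← hA, ← hγ a, ← dg_perm hM]
    congr 1
    funext j
    exact ext_inv hb hy hz γ j
  by_cases h : ∃ γ, ρ γ i ∈ A
  · obtain ⟨γ, hγ⟩ := h
    rw [ext_eq hb hdy hγ, ← hA ⟨ρ γ i, hγ⟩, ← dg_perm hM]
    congr 1
    funext j
    exact (ext_inv hb hy hz γ j).symm
  · rw [ext_not h]
    unfold dg
    refine Finset.sum_congr rfl fun j _ => ?_
    by_cases h0 : M i j = 0
    · rw [h0, zero_mul, zero_mul]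
    · rw [ext_not]
      rintro ⟨γ, hγ⟩
      refine h ⟨γ, hcl _ hγ _ ?_⟩
      rw [hM, hs]; exact h0

/-- a graph component is a block -/
theorem blk_cls (hM : ∀ (γ : H) i j, M (ρ γ i) (ρ γ j) = M i j) (hs : ∀ i j, M i j = M j i) (e : ι) :
    Blk ρ (cls M e) := by
  intro γ a ha hγa b hb
  have hsym : ∀ {i j : ι}, Relation.ReflTransGen (fun a b => M a b ≠ 0) i j →
      Relation.ReflTransGen (fun a b => M a b ≠ 0) j i := by
    intro i j h
    have h2 : Relation.ReflTransGen (Function.swap fun a b => M a b ≠ 0) j i :=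
      Relation.reflTransGen_swap.2 h
    refine Relation.ReflTransGen.mono (fun a b hab => ?_) _ _ h2
    show M a b ≠ 0
    rw [hs a b]; exact hab
  have h1 : Relation.ReflTransGen (fun a b => M a b ≠ 0) a b := (hsym ha).trans hb
  have h2 : Relation.ReflTransGen (fun a b => M a b ≠ 0) (ρ γ a) (ρ γ b) := by
    have h3 : ∀ c, Relation.ReflTransGen (fun a b => M a b ≠ 0) a c →
        Relation.ReflTransGen (fun a b => M a b ≠ 0) (ρ γ a) (ρ γ c) := by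
      intro c hc
      induction hc with
      | refl => exact Relation.ReflTransGen.refl
      | tail _ hbc ih => exact ih.tail (by rw [hM]; exact hbc)
    exact h3 b h1
  exact Relation.ReflTransGen.trans hγa h2

/-- an invariant strictly superharmonic function -/
theorem exists_z (hF : IForm M) (hM : ∀ (γ : H) i j, M (ρ γ i) (ρ γ j) = M i j) :
    ∃ z : ι → ℝ, (∀ i, dg M z i = -1) ∧ ∀ (γ : H) i, z (ρ γ i) = z i := by
  obtain ⟨z, hz⟩ := exists_dg hF (fun _ => (-1 : ℝ))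
  refine ⟨z, hz, fun γ i => ?_⟩
  exact congrFun (sol_unique hF (S := Set.univ) (x := fun j => z (ρ γ j)) (y := z)
    (fun i hi => absurd (Set.mem_univ i) hi) (fun i _ => by rw [dg_perm hM, hz, hz])) i

end Crest.Agent.R257.ExF_121
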