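import Crest.Agent.R257.ExD_121
import Crest.Agent.R257.Gr5_157

/-!
# The cycles for the kills at points and nodes (row 257, part C, C-EXTASM)

* `cyc_abs` : one cycle `z` (order defect) and one direction `(a, 1)` such that
  `y = k q - nu - z` satisfies all the degree inequalities for `k` large;
* `q_inv` : the cycle `q` is invariant;
* `cyc` : `cyc_abs` in the language of `ExD_121` (hypotheses of `ExP`, `ExE`);
* `exists_k` : `q` is rational;
* `exists_node` : every null component is adjacent to a non-null vertex.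
-/

set_option autoImplicit false
set_option linter.unusedSectionVars false
set_option linter.deprecated false

noncomputable section

namespace Crest.Agent.R257.ExY_157

open Finset Crest.Agent.R257.Gr1_157 Crest.Agent.R257.Gr4_157 Crest.Agent.R257.Gr5_157

section abs

variable {ι : Type*} [Fintype ι] {M : ι → ι → ℝ} {q nu : ι → ℝ}

/-- null vertices whose null component does not meet `{q = nu}` -/
def Tw (M : ι → ι → ℝ) (q nu : ι → ℝ) : Set ι :=
  {i | dg M q i = 0 ∧ ∀ l, NP M q i l → q l ≠ nu l}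

lemma tw_nbr (hM : IForm M) {i j : ι} (hi : i ∈ Tw M q nu) (hij : M i j ≠ 0)
    (hj : dg M q j = 0) : j ∈ Tw M q nu :=
  ⟨hj, fun l hl => hi.2 l (Relation.ReflTransGen.head ⟨hij, hj⟩ hl)⟩

lemma dg_aut {σ : Equiv.Perm ι} (hσ : Aut M q nu σ) (i : ι) : dg M q (σ i) = dg M q i := by
  rw [← dg_comp hσ.m]; congr 1; funext j; exact hσ.p j

lemma aut_symm {σ : Equiv.Perm ι} (hσ : Aut M q nu σ) : Aut M q nu σ.symm :=
  ⟨fun i j => by rw [← hσ.m]; simp, fun i => by rw [← hσ.p]; simp,
    fun i => by rw [← hσ.nu]; simp⟩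

lemma tw_aut1 {σ : Equiv.Perm ι} (hσ : Aut M q nu σ) {i : ι} (hi : i ∈ Tw M q nu) :
    σ i ∈ Tw M q nu := by
  refine ⟨by rw [dg_aut hσ]; exact hi.1, fun l hl h => ?_⟩
  have hs := aut_symm hσ
  have h1 := hl.map hs.m hs.p
  rw [Equiv.symm_apply_apply] at h1
  refine hi.2 _ h1 ?_
  rw [hs.p, hs.nu, h]

lemma tw_aut {σ : Equiv.Perm ι} (hσ : Aut M q nu σ) (i : ι) :
    σ i ∈ Tw M q nu ↔ i ∈ Tw M q nu := by
  refine ⟨fun h => ?_, tw_aut1 hσ⟩
  have := tw_aut1 (aut_symm hσ) h
  rwa [Equiv.symm_apply_apply] at this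

/-- **the order defect**: one `z` for all kills -/
theorem cyc_abs (hM : IForm M) (hge : ∀ i, nu i ≤ q i) (hdg : ∀ i, dg M q i ≤ 0)
    (hz : ∀ i, dg M q i ≠ 0 → q i = nu i) (hr : Reach M q) (B : ℝ) :
    ∃ (a : ℕ) (k₀ : ℝ) (z : ι → ℝ), 0 < a ∧ (∀ i, 0 < z i) ∧ (∀ i, q i = nu i → z i ≤ 1) ∧
      (∀ σ : Equiv.Perm ι, Aut M q nu σ → ∀ i, z (σ i) = z i) ∧
      ∀ k : ℝ, k₀ ≤ k → ∀ y : ι → ℝ, (∀ i, y i = k * q i - nu i - z i) →
        (∀ j, dg M q j ≠ 0 → ∀ i i', dg M y j + |B| * (2 * ((a : ℝ) + 1) * (z i + z i') + 1) < 0) ∧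
        (∀ j, dg M q j = 0 → dg M y j < 0) ∧
        (∀ i, dg M q i ≠ 0 → ∀ j ∈ Tw M q nu, ∀ j', z j' = z j →
          dg M y j + |B| * (z i + z j' / a) < 0) := by
  classical
  set T : Set ι := {i | dg M q i = 0} with hT
  set U : Set ι := Tw M q nu with hU
  set V : Set ι := {i | dg M q i = 0 ∧ i ∉ U} with hV
  obtain ⟨h, hh0, hh1⟩ := dirichlet hM T (fun _ => 1) (fun _ => 0)
  obtain ⟨g, hg0, hg1⟩ := dirichlet hM V (fun _ => 0) (fun _ => -1)
  obtain ⟨e, he0, he1⟩ := dirichlet hM U (fun _ => 0) (fun _ => -1)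
  have hhn : ∀ i, 0 ≤ h i := nonneg_of hM (S := T) (fun i hi => by rw [hh1 i hi])
    (fun i hi => by rw [hh0 i hi]; exact zero_le_one)
  have hgn : ∀ i, 0 ≤ g i := nonneg_of hM (S := V) (fun i hi => by rw [hg1 i hi]; norm_num)
    (fun i hi => by rw [hg0 i hi])
  have hen : ∀ i, 0 ≤ e i := nonneg_of hM (S := U) (fun i hi => by rw [he1 i hi]; norm_num)
    (fun i hi => by rw [he0 i hi])
  have hhp : ∀ i, 0 < h i := by
    by_contra hcon
    push Not at hcon
    obtain ⟨i, hi⟩ := hcon
    obtain ⟨j, hj, hj2⟩ := hr {i | h i = 0} ⟨i, le_antisymm hi (hhn i)⟩ (by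
      intro a ha b hab
      have haT : a ∈ T := by
        by_contra hna
        have h1 : h a = 0 := ha
        rw [hh0 a hna] at h1
        exact one_ne_zero h1
      exact nbr_zero hM hhn ha (by rw [hh1 a haT]) hab)
    have h1 : h j = 0 := hj
    rw [hh0 j (by simpa [hT] using hj2)] at h1
    exact one_ne_zero h1
  -- degrees of `g` on `U` and of `e` on `V`
  have hgU : ∀ i ∈ U, dg M g i = 0 := by
    intro i hi
    unfold dg
    refine Finset.sum_eq_zero fun j _ => ?_
    by_cases hij : M i j = 0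
    · simp [hij]
    · have : j ∉ V := fun hj => hj.2 (tw_nbr hM hi hij hj.1)
      rw [hg0 j this]; simp
  have heV : ∀ i ∈ V, dg M e i = 0 := by
    intro i hi
    unfold dg
    refine Finset.sum_eq_zero fun j _ => ?_
    by_cases hij : M i j = 0
    · simp [hij]
    · have : j ∉ U := fun hj => hi.2 (tw_nbr hM hj (by rw [hM.symm]; exact hij) hi.1)
      rw [he0 j this]; simp
  -- constants
  obtain ⟨η, hη, hηs⟩ := exists_small_mul (fun i => if i ∈ U then q i - nu i else 1) e (fun i => by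
    by_cases hi : i ∈ U
    · rw [if_pos hi]
      have h1 := hi.2 i Relation.ReflTransGen.refl
      have := lt_of_le_of_ne (hge i) (Ne.symm h1)
      linarith
    · rw [if_neg hi]; exact one_pos)
  obtain ⟨c₁, hc₁, hc₁s⟩ := exists_small_mul (fun _ : ι => (1 : ℝ)) h (fun _ => one_pos)
  obtain ⟨c₂, hc₂, hc₂s⟩ := exists_small_mul (fun _ : Unit => η / 2) (fun _ => |B|)
    (fun _ => by linarith)
  set c : ℝ := min c₁ c₂ with hc
  have hcpos : 0 < c := lt_min hc₁ hc₂
  have hc1 : ∀ i, c * h i < 1 := fun i =>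
    lt_of_le_of_lt (mul_le_mul_of_nonneg_right (min_le_left _ _) (hhn i)) (hc₁s i)
  have hc2 : c * |B| < η / 2 :=
    lt_of_le_of_lt (mul_le_mul_of_nonneg_right (min_le_right _ _) (abs_nonneg B)) (hc₂s ())
  obtain ⟨θ, hθ, hθs⟩ := exists_small_mul (fun i => c * h i) g
    (fun i => mul_pos hcpos (hhp i))
  set u : ι → ℝ := c • h - θ • g - η • e with hu
  have hui : ∀ i, u i = c * h i - θ * g i - η * e i := fun i => by simp [hu]
  have hdu : ∀ i, dg M u i = c * dg M h i - θ * dg M g i - η * dg M e i := fun i => by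
    simp only [hu, dg_sub, dg_smul]
  have hduU : ∀ i ∈ U, dg M u i = η := by
    intro i hi
    rw [hdu, hh1 i hi.1, hgU i hi, he1 i hi]; ring
  have hduV : ∀ i ∈ V, dg M u i = θ := by
    intro i hi
    rw [hdu, hh1 i hi.1, hg1 i hi, heV i hi]; ring
  set z : ι → ℝ := fun i => q i - nu i + u i with hzd
  have hzi : ∀ i, z i = q i - nu i + u i := fun i => rfl
  have hzpos : ∀ i, 0 < z i := by
    intro i
    rw [hzi, hui]
    by_cases hi : i ∈ T
    · by_cases hiU : i ∈ U
      · have h1 := hηs i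
        rw [if_pos hiU] at h1
        have h2 : g i = 0 := hg0 i (fun hv => hv.2 hiU)
        have := mul_pos hcpos (hhp i)
        rw [h2]; linarith
      · have h1 : e i = 0 := he0 i hiU
        have h2 := hθs i
        rw [h1]
        linarith [hge i]
    · have h1 : e i = 0 := he0 i (fun hv => hi hv.1)
      have h2 : g i = 0 := hg0 i (fun hv => hi hv.1)
      rw [h1, h2]
      have := mul_pos hcpos (hhp i)
      linarith [hge i]
  have hule : ∀ i, u i ≤ c * h i := by
    intro i
    rw [hui]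
    have := mul_nonneg hθ.le (hgn i)
    have := mul_nonneg hη.le (hen i)
    linarith
  have hzS : ∀ i, q i = nu i → z i ≤ 1 := by
    intro i hi
    rw [hzi, hi]
    have := hule i
    have := hc1 i
    linarith
  have hzpc : ∀ i, dg M q i ≠ 0 → z i = c := by
    intro i hi
    have h1 : e i = 0 := he0 i (fun hv => hi hv.1)
    have h2 : g i = 0 := hg0 i (fun hv => hi hv.1)
    have h3 : h i = 1 := hh0 i hi
    rw [hzi, hui, h1, h2, h3, hz i hi]; ring
  -- bound of `z`
  obtain ⟨Z, hZ⟩ := Finite.exists_le z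
  -- the direction
  obtain ⟨a, ha⟩ := exists_nat_gt (|B| * Z / (η / 2))
  have ha1 : |B| * Z < (a : ℝ) * (η / 2) := by
    rwa [div_lt_iff₀ (by linarith)] at ha
  set a' : ℕ := a + 1 with ha'
  have ha'pos : (0 : ℝ) < (a' : ℝ) := by positivity
  have ha2 : |B| * Z / (a' : ℝ) < η / 2 := by
    rw [div_lt_iff₀ ha'pos]
    have : ((a' : ℕ) : ℝ) = a + 1 := by rw [ha']; push_cast; ring
    rw [this]
    nlinarith
  -- the multiple
  set K : ℝ := |B| * (2 * ((a' : ℝ) + 1) * (Z + Z) + 1) with hK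
  obtain ⟨s, hs, hss⟩ := exists_small_mul
    (fun i => if dg M q i = 0 then 1 else - dg M q i) (fun i => - dg M u i + K) (fun i => by
      by_cases hi : dg M q i = 0
      · simp [hi]
      · simp only [hi, if_false]
        have := lt_of_le_of_ne (hdg i) hi
        linarith)
  refine ⟨a', 1 / s + 1, z, Nat.succ_pos a, hzpos, hzS, ?_, ?_⟩
  · intro σ hσ i
    have hdp : ∀ i, dg M q (σ i) = dg M q i := dg_aut hσ
    have hTσ : ∀ i, σ i ∈ T ↔ i ∈ T := fun i => by
      simp only [hT, Set.mem_ofPred_eq, hdp]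
    have hUσ : ∀ i, σ i ∈ U ↔ i ∈ U := tw_aut hσ
    have hVσ : ∀ i, σ i ∈ V ↔ i ∈ V := fun i => by
      simp only [hV, Set.mem_ofPred_eq, hdp, hUσ]
    have e1 : h (σ i) = h i := by
      refine perm_unique hM hσ.m (B := T) (fun i hi => ?_) (fun i hi => ?_) i
      · rw [hh0 i hi, hh0 (σ i) (fun hb => hi ((hTσ i).mp hb))]
      · rw [hh1 i hi, hh1 (σ i) ((hTσ i).mpr hi)]
    have e2 : g (σ i) = g i := by
      refine perm_unique hM hσ.m (B := V) (fun i hi => ?_) (fun i hi => ?_) i
      · rw [hg0 i hi, hg0 (σ i) (fun hb => hi ((hVσ i).mp hb))]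
      · rw [hg1 i hi, hg1 (σ i) ((hVσ i).mpr hi)]
    have e3 : e (σ i) = e i := by
      refine perm_unique hM hσ.m (B := U) (fun i hi => ?_) (fun i hi => ?_) i
      · rw [he0 i hi, he0 (σ i) (fun hb => hi ((hUσ i).mp hb))]
      · rw [he1 i hi, he1 (σ i) ((hUσ i).mpr hi)]
    rw [hzi, hzi, hui, hui, hσ.p, hσ.nu, e1, e2, e3]
  · intro k hk y hy
    have hyy : y = (k - 1) • q - u := by
      funext i
      rw [hy i, hzi]
      simp only [Pi.sub_apply, Pi.smul_apply, smul_eq_mul]
      ring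
    have hdy : ∀ j, dg M y j = (k - 1) * dg M q j - dg M u j := fun j => by
      rw [hyy, dg_sub, dg_smul]
    have hnn : ∀ j, dg M q j ≠ 0 → dg M y j + K < 0 := by
      intro j hj
      have h1 := hss j
      simp only [hj, if_false] at h1
      have h2 : dg M q j < 0 := lt_of_le_of_ne (hdg j) hj
      have h3 : 1 ≤ (k - 1) * s := by
        have : 1 / s ≤ k - 1 := by linarith
        rwa [div_le_iff₀ hs] at this
      have h4 : ((k - 1) * s) * dg M q j ≤ dg M q j := by nlinarith
      have h5 : s * (dg M y j + K) < 0 := by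
        rw [hdy]; nlinarith
      by_contra hcon
      push Not at hcon
      have := mul_nonneg hs.le hcon
      linarith
    refine ⟨fun j hj i i' => ?_, fun j hj => ?_, fun i hi j hj j' hj' => ?_⟩
    · have h1 := hnn j hj
      have h2 : |B| * (2 * ((a' : ℝ) + 1) * (z i + z i') + 1) ≤ K := by
        rw [hK]
        refine mul_le_mul_of_nonneg_left ?_ (abs_nonneg B)
        have := hZ i; have := hZ i'
        nlinarith
      linarith
    · rw [hdy, hj]
      by_cases hjU : j ∈ U
      · rw [hduU j hjU]; linarith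
      · rw [hduV j ⟨hj, hjU⟩]; linarith
    · rw [hdy, hj.1, hduU j hj, hzpc i hi, hj']
      have h1 : |B| * (z j / (a' : ℝ)) ≤ |B| * Z / (a' : ℝ) := by
        rw [mul_div_assoc]
        refine mul_le_mul_of_nonneg_left ?_ (abs_nonneg B)
        exact div_le_div_of_nonneg_right (hZ j) ha'pos.le
      have h2 : |B| * (c + z j / (a' : ℝ)) = c * |B| + |B| * (z j / (a' : ℝ)) := by ring
      rw [h2]
      linarith

/-- every null vertex has a null path to a null vertex adjacent to a non-null vertex -/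
theorem exists_node_abs (hM : IForm M) (hr : Reach M q) {i : ι} (hi : dg M q i = 0) :
    ∃ i' j, NP M q i i' ∧ dg M q i' = 0 ∧ dg M q j ≠ 0 ∧ M i' j ≠ 0 := by
  have key : ∀ m : ℕ, ∀ i, dist M q i = m → dg M q i = 0 →
      ∃ i' j, NP M q i i' ∧ dg M q i' = 0 ∧ dg M q j ≠ 0 ∧ M i' j ≠ 0 := by
    intro m
    induction m using Nat.strong_induction_on with
    | _ m ih =>
      intro i hm hi
      obtain ⟨j, hj, hjd⟩ := exists_nbr hM hr hi
      by_cases hj0 : dg M q j = 0
      · obtain ⟨i', j', h1, h2, h3, h4⟩ := ih (dist M q j) (by omega) j rfl hj0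
        exact ⟨i', j', Relation.ReflTransGen.head ⟨hj, hj0⟩ h1, h2, h3, h4⟩
      · exact ⟨i, j, Relation.ReflTransGen.refl, hi, hj0, hj⟩
  exact key _ i rfl hi

/-- a real solution of a rational problem is rational -/
theorem rat_abs (hM : IForm M) (hr : ∀ i j, ∃ r : ℚ, (r : ℝ) = M i j) {n : ι → ℤ}
    (h2 : ∀ i, q i ≠ n i → dg M q i = 0) : ∃ x : ι → ℚ, ∀ i, (x i : ℝ) = q i := by
  classical
  choose r hr using hr
  have hdgc : ∀ (x : ι → ℚ) (i : ι), ((dg r x i : ℚ) : ℝ) = dg M (fun j => (x j : ℝ)) i := by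
    intro x i
    simp only [dg, ← hr]
    push_cast
    rfl
  have hR : IForm r := by
    refine ⟨fun i j => ?_, fun i j hij => ?_, fun x hx => ?_⟩
    · have h := hM.symm i j
      rw [← hr, ← hr] at h
      exact_mod_cast h
    · have h := hM.off i j hij
      rw [← hr] at h
      exact_mod_cast h
    · have h := hM.neg (fun i => (x i : ℝ)) (fun h0 => hx (funext fun i => by
        have := congrFun h0 i
        simpa using this))
      have h3 : ((dt r x x : ℚ) : ℝ) = dt M (fun i => (x i : ℝ)) (fun i => (x i : ℝ)) := by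
        rw [dt_eq, dt_eq]
        push_cast
        exact Finset.sum_congr rfl fun i _ => by rw [hdgc]
      rw [← h3] at h
      exact_mod_cast h
  obtain ⟨x, hx0, hx1⟩ := exists_sol hR {i | q i ≠ n i} (fun i => - dg r (fun j => (n j : ℚ)) i)
  refine ⟨fun i => n i + x i, fun i => ?_⟩
  have key : (fun i => (((n i : ℚ) + x i : ℚ) : ℝ)) = q := by
    refine sol_unique hM (S := {i | q i ≠ n i}) (fun i hi => ?_) (fun i hi => ?_)
    · have h1 : q i = n i := by simpa using hi
      rw [h1]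
      have := hx0 i hi
      simp only [this]
      push_cast
      ring
    · rw [h2 i hi, ← hdgc (fun j => (n j : ℚ) + x j) i]
      have e1 : dg r (fun j => (n j : ℚ) + x j) i = dg r (fun j => (n j : ℚ)) i + dg r x i :=
        dg_add (fun j => (n j : ℚ)) x i
      rw [e1, hx1 i hi]
      simp
  exact congrFun key i

end abs

section frame

open Crest.AlgGeometry.Germ
open Crest.Agent.R257.Defs_219
open Crest.Agent.R257.Fr_808
open Crest.Agent.R257.Ex_121

variable {f : E3 → ℂ} {F : Frame f} {G : Subgroup (Equiv.Perm F.I)} {q : F.I → ℝ}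

/-- the cycle `q` is invariant -/
theorem q_inv (hG : Rot F G) (hq : F.IsP q) : Inv G q := by
  intro σ hσ i
  have hd : ∀ i, dg F.M (fun j => q (σ j)) i = dg F.M q (σ i) := dg_comp (hG.M_inv σ hσ) q
  have h1 : F.IsP (fun j => q (σ j)) := by
    refine ⟨fun i => ?_, fun i => ?_, fun i hi => ?_⟩
    · have := hq.ge (σ i)
      rwa [hG.nu_inv σ hσ] at this
    · rw [hd]; exact hq.dg_le _
    · rw [hd]
      refine hq.dg_eq _ ?_
      rwa [hG.nu_inv σ hσ]
  exact congrFun (h1.unique hq) i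

theorem aut_of (hG : Rot F G) (hq : F.IsP q) {σ : Equiv.Perm F.I} (hσ : σ ∈ G) :
    Aut F.M q (fun i => (F.nu i : ℝ)) σ :=
  ⟨hG.M_inv σ hσ, q_inv hG hq σ hσ, fun i => by rw [hG.nu_inv σ hσ]⟩

/-- the hypothesis of `ExE` -/
def Eok (G : Subgroup (Equiv.Perm F.I)) (B : ℝ) (a b : ℕ) (i i' : F.I) (m : F.I → ℕ)
    (y : F.I → ℝ) : Prop :=
  ∀ j, dg F.M y j +
    (on (orb G i) (B * ((a * (m i - F.nu i - y i) + b * (m i' - F.nu i' - y i')) / b)) j +
      on (orb G i') (B * ((a * (m i - F.nu i - y i) + b * (m i' - F.nu i' - y i')) / a)) j) < 0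

lemma on_le (A : Set F.I) {t T : ℝ} (h : t ≤ T) (hT : 0 ≤ T) (j : F.I) : on A t j ≤ T := by
  unfold on
  split_ifs
  · exact h
  · exact hT

lemma on_not {A : Set F.I} {t : ℝ} {j : F.I} (h : j ∉ A) : on A t j = 0 := by
  unfold on
  rw [if_neg h]

/-- **the cycles for `ExP` and `ExE`** -/
theorem cyc (hG : Rot F G) (hq : F.IsP q) (hr : Reach F.M q) (B : ℝ) :
    ∃ (a : ℕ) (k₀ : ℝ), 0 < a ∧ ∀ (k : ℕ) (m : F.I → ℕ), k₀ ≤ k →
      (∀ i, (m i : ℝ) = k * q i) → Inv G m ∧ ∃ y : F.I → ℝ, Inv G y ∧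
        (∀ j, y j + F.nu j < m j) ∧ (∀ j, q j = F.nu j → (m j : ℝ) - 1 ≤ y j + F.nu j) ∧
        (∀ i, dg F.M q i ≠ 0 →
          ∀ j, dg F.M y j + on (orb G i) (B * ((m i - F.nu i - y i) + 1)) j < 0) ∧
        (∀ i i', dg F.M q i ≠ 0 → dg F.M q i' ≠ 0 → Eok G B 1 1 i i' m y) ∧
        (∀ i i', dg F.M q i ≠ 0 → dg F.M q i' = 0 → (∀ l, NP F.M q i' l → q l ≠ F.nu l) →
          Eok G B a 1 i i' m y ∧ Eok G B 1 a i' i m y) := by
  obtain ⟨a, k₀, z, ha, hz0, hz1, hz2, hz3⟩ := cyc_abs (nu := fun i => (F.nu i : ℝ)) F.form hq.ge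
    hq.dg_le (fun i hi => by
      by_contra hne
      exact hi (hq.dg_eq i hne)) hr B
  refine ⟨a, k₀, ha, fun k m hk hm => ?_⟩
  have hqi := q_inv hG hq
  refine ⟨fun σ hσ i => ?_, fun i => k * q i - F.nu i - z i, ?_, ?_, ?_, ?_, ?_, ?_⟩
  · have h1 : ((m (σ i) : ℕ) : ℝ) = m i := by rw [hm, hm, hqi σ hσ]
    exact_mod_cast h1
  · intro σ hσ i
    dsimp only
    rw [hqi σ hσ, hG.nu_inv σ hσ, hz2 σ (aut_of hG hq hσ)]
  · intro j
    dsimp only
    rw [hm]
    linarith [hz0 j]
  · intro j hj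
    dsimp only
    rw [hm]
    linarith [hz1 j hj]
  all_goals
    obtain ⟨h1, h2, h3⟩ := hz3 k hk (fun i => k * q i - F.nu i - z i) (fun i => rfl)
    have hzz : ∀ i, (m i : ℝ) - F.nu i - ((k : ℝ) * q i - F.nu i - z i) = z i := fun i => by
      rw [hm]; ring
    have hnn : ∀ i, dg F.M q i ≠ 0 → ∀ j ∈ orb G i, dg F.M q j ≠ 0 := by
      rintro i hi j ⟨σ, hσ, rfl⟩
      rw [dg_aut (aut_of hG hq hσ)]; exact hi
    have haR : (1 : ℝ) ≤ a := by exact_mod_cast ha
    have hab : B ≤ |B| := le_abs_self B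
    have ha0 : 0 ≤ |B| := abs_nonneg B
  · intro i hi j
    dsimp only
    rw [hzz]
    by_cases hj : j ∈ orb G i
    · have e1 := h1 j (hnn i hi j hj) i i
      have e2 : on (orb G i) (B * (z i + 1)) j ≤ |B| * (2 * ((a : ℝ) + 1) * (z i + z i) + 1) := by
        refine on_le _ ?_ ?_ j
        · have : B * (z i + 1) ≤ |B| * (z i + 1) :=
            mul_le_mul_of_nonneg_right hab (by linarith [hz0 i])
          refine this.trans (mul_le_mul_of_nonneg_left ?_ ha0)
          nlinarith [hz0 i]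
        · exact mul_nonneg ha0 (by nlinarith [hz0 i])
      linarith
    · rw [on_not hj, add_zero]
      by_cases hj0 : dg F.M q j = 0
      · exact h2 j hj0
      · have e1 := h1 j hj0 i i
        have e2 : 0 ≤ |B| * (2 * ((a : ℝ) + 1) * (z i + z i) + 1) :=
          mul_nonneg ha0 (by nlinarith [hz0 i])
        linarith
  · intro i i' hi hi' j
    dsimp only
    simp only [hzz]
    have e2 : ∀ A : Set F.I, on A (B * ((((1 : ℕ) : ℝ) * z i + ((1 : ℕ) : ℝ) * z i') /
        ((1 : ℕ) : ℝ))) j ≤ |B| * (z i + z i') := by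
      intro A
      refine on_le _ ?_ (mul_nonneg ha0 (by linarith [hz0 i, hz0 i'])) j
      simp only [Nat.cast_one, one_mul, div_one]
      exact mul_le_mul_of_nonneg_right hab (by linarith [hz0 i, hz0 i'])
    by_cases hj0 : dg F.M q j = 0
    · have k1 : j ∉ orb G i := fun h => hnn i hi j h hj0
      have k2 : j ∉ orb G i' := fun h => hnn i' hi' j h hj0
      rw [on_not k1, on_not k2]
      have := h2 j hj0
      linarith
    · have e1 := h1 j hj0 i i'
      have e3 := e2 (orb G i)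
      have e4 := e2 (orb G i')
      have e5 : |B| * (z i + z i') + |B| * (z i + z i') ≤
          |B| * (2 * ((a : ℝ) + 1) * (z i + z i') + 1) := by
        rw [← mul_add]
        refine mul_le_mul_of_nonneg_left ?_ ha0
        nlinarith [hz0 i, hz0 i']
      linarith
  · intro i i' hi hi' hl
    -- the main estimate for `j`
    have main : ∀ j, dg F.M (fun i => k * q i - F.nu i - z i) j +
        (on (orb G i) (B * ((a * z i + z i') / 1)) j +
          on (orb G i') (B * ((a * z i + z i') / a)) j) < 0 := by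
      intro j
      have z1 := hz0 i
      have z2 := hz0 i'
      have n1 : 0 ≤ |B| * ((a : ℝ) * z i + z i') := mul_nonneg ha0 (by positivity)
      have apos : (0 : ℝ) < a := by linarith
      have n2 : 0 ≤ |B| * (((a : ℝ) * z i + z i') / a) := mul_nonneg ha0 (by positivity)
      by_cases hj0 : dg F.M q j = 0
      · have k1 : j ∉ orb G i := fun h => hnn i hi j h hj0
        rw [on_not k1, zero_add]
        by_cases hj : j ∈ orb G i'
        · obtain ⟨σ, hσ, hσj⟩ := hj
          have hau := aut_of hG hq hσ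
          have hw : i' ∈ Tw F.M q (fun i => (F.nu i : ℝ)) := ⟨hi', hl⟩
          have hjw : j ∈ Tw F.M q (fun i => (F.nu i : ℝ)) := by
            rw [← hσj]; exact tw_aut1 hau hw
          have hzj : z i' = z j := by rw [← hσj, hz2 σ hau]
          have e1 := h3 i hi j hjw i' hzj
          have e2 : on (orb G i') (B * (((a : ℝ) * z i + z i') / a)) j ≤
              |B| * (z i + z i' / a) := by
            have e3 : ((a : ℝ) * z i + z i') / a = z i + z i' / a := by
              field_simp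
            rw [e3]
            rw [e3] at n2
            refine on_le _ ?_ n2 j
            exact mul_le_mul_of_nonneg_right hab (by positivity)
          linarith
        · rw [on_not hj, add_zero]
          exact h2 j hj0
      · have e1 := h1 j hj0 i i'
        have e2 : on (orb G i) (B * (((a : ℝ) * z i + z i') / 1)) j ≤
            |B| * ((a : ℝ) * z i + z i') := by
          rw [div_one]
          exact on_le _ (mul_le_mul_of_nonneg_right hab (by positivity)) n1 j
        have e3 : on (orb G i') (B * (((a : ℝ) * z i + z i') / a)) j ≤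
            |B| * (((a : ℝ) * z i + z i') / a) :=
          on_le _ (mul_le_mul_of_nonneg_right hab (by positivity)) n2 j
        have e4 : ((a : ℝ) * z i + z i') / a ≤ z i + z i' := by
          rw [div_le_iff₀ apos]
          nlinarith
        have e5 : |B| * ((a : ℝ) * z i + z i') + |B| * (((a : ℝ) * z i + z i') / a) ≤
            |B| * (2 * ((a : ℝ) + 1) * (z i + z i') + 1) := by
          rw [← mul_add]
          refine mul_le_mul_of_nonneg_left ?_ ha0
          nlinarith
        linarith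
    constructor
    · intro j
      have := main j
      dsimp only
      simp only [hzz, Nat.cast_one, one_mul]
      exact this
    · intro j
      have := main j
      dsimp only
      simp only [hzz, Nat.cast_one, one_mul]
      rw [add_comm (z i') (a * z i), add_comm (on (orb G i') _ j)]
      exact this

/-- `q` is rational -/
theorem exists_k (hA : Adj F) (hq : F.IsP q) :
    ∃ (L : ℕ) (m : F.I → ℕ), 0 < L ∧ ∀ i, (m i : ℝ) = L * q i := by
  classical
  obtain ⟨x, hx⟩ := rat_abs (n := F.nu) F.form hA.rat hq.dg_eq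
  have hq0 : ∀ i, 0 ≤ q i := nonneg_of F.form (S := Set.univ) (fun i _ => hq.dg_le i)
    (fun i hi => absurd (Set.mem_univ i) hi)
  have hx0 : ∀ i, 0 ≤ x i := fun i => by
    have := hq0 i
    rw [← hx] at this
    exact_mod_cast this
  refine ⟨∏ i, (x i).den, fun i => (x i).num.toNat * ∏ j ∈ Finset.univ.erase i, (x j).den,
    Finset.prod_pos fun i _ => (x i).pos, fun i => ?_⟩
  rw [← hx i]
  have e1 : ((x i).num.toNat : ℚ) = x i * (x i).den := by
    have h1 : (((x i).num.toNat : ℤ) : ℚ) = ((x i).num : ℚ) := by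
      rw [Int.toNat_of_nonneg (Rat.num_nonneg.2 (hx0 i))]
    rw [Rat.mul_den_eq_num, ← h1]
    norm_cast
  have e2 : ((∏ j, (x j).den : ℕ) : ℚ) = ((x i).den : ℚ) *
      ((∏ j ∈ Finset.univ.erase i, (x j).den : ℕ) : ℚ) := by
    rw [← Nat.cast_mul, Finset.mul_prod_erase Finset.univ (fun j => (x j).den) (Finset.mem_univ i)]
  have e3 : (((x i).num.toNat * ∏ j ∈ Finset.univ.erase i, (x j).den : ℕ) : ℚ)
      = ((∏ j, (x j).den : ℕ) : ℚ) * x i := by
    rw [Nat.cast_mul, e1, e2]; ring
  exact_mod_cast congrArg (fun t : ℚ => (t : ℝ)) e3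

/-- the node of a null component with a non-null vertex, seen in a chart -/
theorem exists_node (hA : Adj F) (hr : Reach F.M q) {i : F.I} (hi : dg F.M q i = 0) :
    ∃ i' j, NP F.M q i i' ∧ dg F.M q i' = 0 ∧ dg F.M q j ≠ 0 ∧
      ∃ c, (F.e1 c = j ∧ F.e2 c = some i') ∨ (F.e1 c = i' ∧ F.e2 c = some j) := by
  obtain ⟨i', j, h1, h2, h3, h4⟩ := exists_node_abs F.form hr hi
  have hne : i' ≠ j := fun e => h3 (e ▸ h2)
  obtain ⟨c, hc⟩ := hA.node i' j hne h4
  exact ⟨i', j, h1, h2, h3, c, hc.symm⟩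

/-- `Reach` for a frame -/
theorem reach_of (hq0 : q ≠ 0) : Reach F.M q := reach_of_conn F.form F.conn hq0

end frame

end Crest.Agent.R257.ExY_157
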