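import Crest.Agent.R257.Gr1_157

/-!
R257 / Ext_547: extension of invariant cycles from one connected component to the whole graph.

`ι` finite, `M` an intersection form, `π : Γ →* Equiv.Perm ι` preserving `M`, `A` closed under
`M i j ≠ 0`.

* `orbA π A`   : the union of the translates of `A`;
* `extG`       : the invariant extension of a function on `A` to `orbA π A`, `z` elsewhere;
* `extend`     : cycles `y` (reals, `dg M y < 0`) and `m` (naturals, divisible by `D`) on `A`, invariant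
                 under the stabiliser, extend to invariant cycles with `dg < 0` everywhere and
                 `y' + nu < m'` off the translates of `A`.
-/

set_option autoImplicit false

open Finset

noncomputable section

namespace Crest.Agent.R257.Ext_547

open Crest.Agent.R257.Gr1_157

variable {ι : Type} [Fintype ι] {M : ι → ι → ℝ} {Γ : Type} [Group Γ]

/-- the union of the translates of `A` -/
def orbA (π : Γ →* Equiv.Perm ι) (A : Set ι) : Set ι := {E | ∃ γ, π γ E ∈ A}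

open Classical in
/-- the invariant extension -/
def extG {α : Type} (π : Γ →* Equiv.Perm ι) (A : Set ι) (y z : ι → α) (E : ι) : α :=
  if h : E ∈ orbA π A then y (π h.choose E) else z E

variable {α : Type} {π : Γ →* Equiv.Perm ι} {A : Set ι} {y z : ι → α}

omit [Fintype ι] in
theorem extG_of (hy : ∀ γ, ∀ E ∈ A, π γ E ∈ A → y (π γ E) = y E) {E : ι} {γ : Γ}
    (h : π γ E ∈ A) : extG π A y z E = y (π γ E) := by
  have h0 : E ∈ orbA π A := ⟨γ, h⟩
  unfold extG
  rw [dif_pos h0]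
  have h1 : π h0.choose E ∈ A := h0.choose_spec
  have h2 : π (h0.choose * γ⁻¹) (π γ E) = π h0.choose E := by
    rw [map_mul, map_inv, Equiv.Perm.mul_apply, Equiv.Perm.inv_def, Equiv.symm_apply_apply]
  have h3 := hy (h0.choose * γ⁻¹) (π γ E) h (by rw [h2]; exact h1)
  rw [h2] at h3
  exact h3

omit [Fintype ι] in
theorem extG_mem (hy : ∀ γ, ∀ E ∈ A, π γ E ∈ A → y (π γ E) = y E) {E : ι} (h : E ∈ A) :
    extG π A y z E = y E := by
  have h1 := extG_of (π := π) (z := z) hy (E := E) (γ := 1) (by rw [map_one]; exact h)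
  rwa [map_one, Equiv.Perm.one_apply] at h1

omit [Fintype ι] in
theorem extG_not {E : ι} (h : E ∉ orbA π A) : extG π A y z E = z E := by
  unfold extG
  rw [dif_neg h]

omit [Fintype ι] in
theorem orbA_iff {E : ι} (γ : Γ) : π γ E ∈ orbA π A ↔ E ∈ orbA π A := by
  constructor
  · rintro ⟨δ, h⟩
    exact ⟨δ * γ, by rw [map_mul, Equiv.Perm.mul_apply]; exact h⟩
  · rintro ⟨δ, h⟩
    refine ⟨δ * γ⁻¹, ?_⟩
    rw [map_mul, map_inv, Equiv.Perm.mul_apply, Equiv.Perm.inv_def, Equiv.symm_apply_apply]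
    exact h

omit [Fintype ι] in
theorem extG_inv (hy : ∀ γ, ∀ E ∈ A, π γ E ∈ A → y (π γ E) = y E)
    (hz : ∀ γ E, z (π γ E) = z E) (γ : Γ) (E : ι) :
    extG π A y z (π γ E) = extG π A y z E := by
  by_cases h : E ∈ orbA π A
  · obtain ⟨δ, hδ⟩ := h
    rw [extG_of hy hδ]
    have h1 : π (δ * γ⁻¹) (π γ E) = π δ E := by
      rw [map_mul, map_inv, Equiv.Perm.mul_apply, Equiv.Perm.inv_def, Equiv.symm_apply_apply]
    rw [extG_of (γ := δ * γ⁻¹) hy (by rw [h1]; exact hδ), h1]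
  · rw [extG_not h, extG_not (fun h' => h ((orbA_iff γ).1 h')), hz]

omit [Fintype ι] in
theorem mem_orbA_step (hM : ∀ γ E E', M (π γ E) (π γ E') = M E E')
    (hA : ∀ i ∈ A, ∀ j, M i j ≠ 0 → j ∈ A) {E E' : ι} {γ : Γ} (h : π γ E ∈ A) (h' : M E E' ≠ 0) :
    π γ E' ∈ A := hA _ h _ (by rw [hM]; exact h')

/-- degree of the extension on the translates of `A` -/
theorem dg_extG {y z : ι → ℝ} (hM : ∀ γ E E', M (π γ E) (π γ E') = M E E')
    (hA : ∀ i ∈ A, ∀ j, M i j ≠ 0 → j ∈ A)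
    (hy : ∀ γ, ∀ E ∈ A, π γ E ∈ A → y (π γ E) = y E) {E : ι} {γ : Γ} (h : π γ E ∈ A) :
    dg M (extG π A y z) E = dg M y (π γ E) := by
  unfold dg
  rw [← Equiv.sum_comp (π γ) fun j => M (π γ E) j * y j]
  refine Finset.sum_congr rfl fun j _ => ?_
  rw [hM]
  by_cases h0 : M E j = 0
  · rw [h0, zero_mul, zero_mul]
  · rw [extG_of hy (mem_orbA_step hM hA h h0)]

/-- degree of the extension off the translates of `A` -/
theorem dg_extG' {y z : ι → ℝ} (hs : ∀ i j, M i j = M j i)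
    (hM : ∀ γ E E', M (π γ E) (π γ E') = M E E')
    (hA : ∀ i ∈ A, ∀ j, M i j ≠ 0 → j ∈ A) {E : ι} (h : E ∉ orbA π A) :
    dg M (extG π A y z) E = dg M z E := by
  unfold dg
  refine Finset.sum_congr rfl fun j _ => ?_
  by_cases h0 : M E j = 0
  · rw [h0, zero_mul, zero_mul]
  · rw [extG_not]
    rintro ⟨γ, hγ⟩
    exact h ⟨γ, mem_orbA_step hM hA hγ (by rw [hs]; exact h0)⟩

/-- invariance of solutions -/
theorem dg_perm (hM : ∀ γ E E', M (π γ E) (π γ E') = M E E') (x : ι → ℝ) (γ : Γ) (E : ι) :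
    dg M (fun j => x (π γ j)) E = dg M x (π γ E) := by
  unfold dg
  rw [← Equiv.sum_comp (π γ) fun j => M (π γ E) j * x j]
  exact Finset.sum_congr rfl fun j _ => by rw [hM]

/-- the invariant solution of `dg M x = d` for invariant `d` -/
theorem exists_inv_sol (hF : IForm M) (hM : ∀ γ E E', M (π γ E) (π γ E') = M E E') (d : ι → ℝ)
    (hd : ∀ γ E, d (π γ E) = d E) :
    ∃ x : ι → ℝ, (∀ E, dg M x E = d E) ∧ ∀ γ E, x (π γ E) = x E := by
  obtain ⟨x, hx⟩ := exists_dg hF d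
  refine ⟨x, hx, fun γ E => ?_⟩
  have h1 : (fun j => x (π γ j)) = x := by
    refine sol_unique hF (S := Set.univ) (fun i hi => absurd (Set.mem_univ i) hi) fun i _ => ?_
    rw [dg_perm hM, hx, hx, hd]
  exact congrFun h1 E

/-- **extension of invariant cycles** -/
theorem extend (hF : IForm M) (hM : ∀ γ E E', M (π γ E) (π γ E') = M E E')
    (hA : ∀ i ∈ A, ∀ j, M i j ≠ 0 → j ∈ A) (nu : ι → ℤ) {D : ℕ} (hD0 : 0 < D)
    (y : ι → ℝ) (m : ι → ℕ)
    (hyG : ∀ γ, ∀ E ∈ A, π γ E ∈ A → y (π γ E) = y E)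
    (hmG : ∀ γ, ∀ E ∈ A, π γ E ∈ A → m (π γ E) = m E)
    (hy : ∀ E ∈ A, dg M y E < 0) (hD : ∀ E ∈ A, D ∣ m E) :
    ∃ (y' : ι → ℝ) (m' : ι → ℕ), (∀ γ E, y' (π γ E) = y' E) ∧ (∀ γ E, m' (π γ E) = m' E) ∧
      (∀ E ∈ A, y' E = y E ∧ m' E = m E) ∧
      (∀ γ E, π γ E ∈ A → y' E = y (π γ E) ∧ m' E = m (π γ E)) ∧
      (∀ E, dg M y' E < 0) ∧ (∀ E, D ∣ m' E) ∧
      ∀ E, (∀ γ, π γ E ∉ A) → y' E + nu E < m' E := by
  classical
  obtain ⟨x, hx, hxi⟩ := exists_inv_sol (π := π) hF hM (fun _ => -1) fun _ _ => rfl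
  set n : ℕ := ∑ E, (⌈|x E + nu E|⌉₊ + 1) with hn
  have hbd : ∀ E, x E + nu E < n := by
    intro E
    have h1 : ⌈|x E + nu E|⌉₊ + 1 ≤ n :=
      Finset.single_le_sum (f := fun E => ⌈|x E + nu E|⌉₊ + 1) (fun _ _ => Nat.zero_le _)
        (Finset.mem_univ E)
    have h2 : ((⌈|x E + nu E|⌉₊ + 1 : ℕ) : ℝ) ≤ n := by exact_mod_cast h1
    have h3 := Nat.le_ceil |x E + nu E|
    have h4 := le_abs_self (x E + nu E)
    push_cast at h2
    linarith
  refine ⟨extG π A y x, extG π A m fun _ => D * n, extG_inv hyG hxi, extG_inv hmG fun _ _ => rfl,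
    fun E hE => ⟨extG_mem hyG hE, extG_mem hmG hE⟩,
    fun γ E hE => ⟨extG_of hyG hE, extG_of hmG hE⟩, ?_, ?_, ?_⟩
  · intro E
    by_cases h : E ∈ orbA π A
    · obtain ⟨γ, hγ⟩ := h
      rw [dg_extG hM hA hyG hγ]
      exact hy _ hγ
    · rw [dg_extG' hF.symm hM hA h, hx]
      norm_num
  · intro E
    by_cases h : E ∈ orbA π A
    · obtain ⟨γ, hγ⟩ := h
      rw [extG_of hmG hγ]
      exact hD _ hγ
    · rw [extG_not h]
      exact dvd_mul_right _ _
  · intro E hE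
    have h : E ∉ orbA π A := fun ⟨γ, hγ⟩ => hE γ hγ
    rw [extG_not h, extG_not h]
    have h1 := hbd E
    have h2 : (n : ℝ) ≤ ((D * n : ℕ) : ℝ) := by
      exact_mod_cast Nat.le_mul_of_pos_left n hD0
    linarith

end Crest.Agent.R257.Ext_547
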