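import Crest.Agent.R275.Loc2C_879

/-!
Row 257 (S0395), leaf E-GLOB, part 1 (helper554): Weierstrass finiteness theorem.
A finite module over the ring of germs of holomorphic functions on `(ℂⁿ × E, (0,z₀))` which is
"quasi-finite" over the germs on `(E, z₀)` is finite over them.
-/

set_option autoImplicit false

open Set Filter Topology
open Crest.Agent.R275.Loc2879
open scoped Polynomial

noncomputable section

namespace Crest.Agent.R257.Fin554

universe u v w x

/-- `M` is generated by finitely many elements over the image of `φ` -/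
def FinOver {A : Type u} {B : Type v} [CommRing A] [CommRing B] (φ : A →+* B) (M : Type w)
    [AddCommGroup M] [Module B M] : Prop :=
  ∃ (m : ℕ) (e : Fin m → M), ∀ x : M, ∃ c : Fin m → A, x = ∑ i, φ (c i) • e i

/-- the additive subgroup `m_A M` -/
def mM {A : Type u} {B : Type v} [CommRing A] [IsLocalRing A] [CommRing B] (φ : A →+* B)
    (M : Type w) [AddCommGroup M] [Module B M] : AddSubmonoid M :=
  AddSubmonoid.closure {z | ∃ a ∈ IsLocalRing.maximalIdeal A, ∃ y : M, z = φ a • y}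

/-- quasi-finiteness -/
def QF {A : Type u} {B : Type v} [CommRing A] [IsLocalRing A] [CommRing B] [IsLocalRing B]
    (φ : A →+* B) (M : Type w) [AddCommGroup M] [Module B M] : Prop :=
  ∃ k : ℕ, ∀ b ∈ (IsLocalRing.maximalIdeal B) ^ k, ∀ x : M, b • x ∈ mM φ M

/-- quasi-finite modules are finite -/
def FinProp {A : Type u} {B : Type v} [CommRing A] [IsLocalRing A] [CommRing B] [IsLocalRing B]
    (φ : A →+* B) : Prop :=
  ∀ (M : Type w) [AddCommGroup M] [Module B M], FinOver (RingHom.id B) M → QF φ M → FinOver φ M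

section General

variable {A : Type u} {B : Type v} {C : Type x} [CommRing A] [IsLocalRing A] [CommRing B]
  [IsLocalRing B] [CommRing C] [IsLocalRing C]

lemma FinProp.of_surjective (φ : A →+* B) (h : Function.Surjective φ) : FinProp.{u, v, w} φ := by
  intro M _ _ hM _
  obtain ⟨m, e, he⟩ := hM
  refine ⟨m, e, fun x => ?_⟩
  obtain ⟨c, hc⟩ := he x
  choose d hd using fun i => h (c i)
  exact ⟨d, by rw [hc]; simp [hd]⟩

lemma FinProp.comp {φ : A →+* B} {ψ : B →+* C} [IsLocalHom φ] [IsLocalHom ψ]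
    (h1 : FinProp.{u, v, w} φ) (h2 : FinProp.{v, x, w} ψ) : FinProp.{u, x, w} (ψ.comp φ) := by
  intro M _ _ hM hQ
  obtain ⟨k, hk⟩ := hQ
  -- finiteness over `B`
  have hB : FinOver ψ M := by
    refine h2 M hM ⟨k, fun b hb x => ?_⟩
    refine (AddSubmonoid.closure_le.2 ?_) (hk b hb x)
    rintro z ⟨a, ha, y, rfl⟩
    refine AddSubmonoid.subset_closure ⟨φ a, ?_, y, rfl⟩
    rw [IsLocalRing.mem_maximalIdeal, mem_nonunits_iff] at ha ⊢
    exact fun h => ha ((isUnit_map_iff φ a).1 h)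
  let _ : Module B M := Module.compHom M ψ
  have hsm : ∀ (b : B) (x : M), b • x = ψ b • x := fun b x => rfl
  have h3 : FinOver φ M := by
    refine h1 M ?_ ⟨k, fun b hb x => ?_⟩
    · obtain ⟨m, e, he⟩ := hB
      exact ⟨m, e, he⟩
    · rw [hsm]
      have hb' : ψ b ∈ (IsLocalRing.maximalIdeal C) ^ k := by
        have h4 : (IsLocalRing.maximalIdeal B).map ψ ≤ IsLocalRing.maximalIdeal C :=
          ((IsLocalRing.local_hom_TFAE ψ).out 0 2).1 ‹IsLocalHom ψ›
        have h5 : ((IsLocalRing.maximalIdeal B) ^ k).map ψ ≤ (IsLocalRing.maximalIdeal C) ^ k := by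
          rw [Ideal.map_pow]
          exact Ideal.pow_right_mono h4 k
        exact h5 (Ideal.mem_map_of_mem _ hb)
      exact hk _ hb' x
  exact h3

end General

section Weier

variable {E : Type u} [NormedAddCommGroup E] [NormedSpace ℂ E] [FiniteDimensional ℂ E] {z₀ : E}

instance : IsLocalHom (iot z₀) := by
  refine ⟨fun a ha => ?_⟩
  obtain ⟨f, hf, rfl⟩ := exists_gm a
  rw [iot, pull_gm, isUnit_gm] at ha
  rw [isUnit_gm]
  exact ha

/-- the Weierstrass step -/
theorem finProp_iot (z₀ : E) : FinProp.{u, u, w} (iot z₀) := by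
  intro M _ _ hM hQ
  obtain ⟨k, hk⟩ := hQ
  set I : Ideal (OO ((z₀, (0 : ℂ)) : E × ℂ)) := (IsLocalRing.maximalIdeal (OO z₀)).map (iot z₀)
    with hI
  obtain ⟨m, e, he⟩ := hM
  have : Module.Finite (OO ((z₀, (0 : ℂ)) : E × ℂ)) M := by
    classical
    refine ⟨⟨Finset.univ.image e, ?_⟩⟩
    rw [eq_top_iff]
    intro x _
    obtain ⟨c, hc⟩ := he x
    rw [hc]
    refine Submodule.sum_mem _ (fun i _ => Submodule.smul_mem _ _ (Submodule.subset_span ?_))
    simp
  have hle : ∀ x ∈ mM (iot z₀) M, x ∈ I • (⊤ : Submodule (OO ((z₀, (0 : ℂ)) : E × ℂ)) M) := by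
    intro x hx
    have : mM (iot z₀) M ≤ (I • (⊤ : Submodule (OO ((z₀, (0 : ℂ)) : E × ℂ)) M)).toAddSubmonoid := by
      refine AddSubmonoid.closure_le.2 ?_
      rintro z ⟨a, ha, y, rfl⟩
      exact Submodule.smul_mem_smul (Ideal.mem_map_of_mem _ ha) trivial
    exact this hx
  have hW : Wv z₀ ∈ IsLocalRing.maximalIdeal (OO ((z₀, (0 : ℂ)) : E × ℂ)) := by
    rw [IsLocalRing.mem_maximalIdeal, mem_nonunits_iff, Wv, isUnit_gm]
    simp
  obtain ⟨p, hp1, -, hp2, hp3⟩ :=
    LinearMap.exists_monic_and_natDegree_eq_and_coeff_mem_pow_and_aeval_eq_zero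
      (OO ((z₀, (0 : ℂ)) : E × ℂ)) (algebraMap (OO ((z₀, (0 : ℂ)) : E × ℂ)) (Module.End _ M) (Wv z₀ ^ k)) I (by
        rintro _ ⟨x, rfl⟩
        rw [Module.algebraMap_end_apply]
        exact hle _ (hk _ (Ideal.pow_mem_pow hW k) x))
  rw [Polynomial.aeval_algebraMap_apply] at hp3
  set χ : OO ((z₀, (0 : ℂ)) : E × ℂ) := p.eval (Wv z₀ ^ k) with hχ
  have hχ0 : ∀ x : M, χ • x = 0 := by
    intro x
    have := congrArg (fun f : Module.End _ M => f x) hp3
    simpa using this
  -- the ideal `I` dies on the fibre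
  have hrI : ∀ y ∈ I, rho z₀ y = 0 := by
    intro y hy
    have : I ≤ RingHom.ker (rho z₀) := by
      rw [hI, Ideal.map_le_iff_le_comap]
      intro a ha
      rw [Ideal.mem_comap, RingHom.mem_ker, rho_iot]
      rw [IsLocalRing.mem_maximalIdeal, mem_nonunits_iff, Crest.Agent.R275.Loc2879.isUnit_iff, not_not] at ha
      rw [ha, map_zero]
    exact this hy
  have hreg : Reg χ (k * p.natDegree) := by
    refine ⟨1, ?_⟩
    have h1 : p.map (rho z₀) = Polynomial.X ^ p.natDegree := by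
      ext1 j
      rw [Polynomial.coeff_map, Polynomial.coeff_X_pow]
      rcases lt_trichotomy j p.natDegree with h | h | h
      · rw [if_neg h.ne]
        refine hrI _ (Ideal.pow_le_self ?_ (hp2 j))
        omega
      · rw [if_pos h, h, hp1.coeff_natDegree, map_one]
      · rw [if_neg h.ne', Polynomial.coeff_eq_zero_of_natDegree_lt h, map_zero]
    rw [hχ, ← Polynomial.eval₂_id, Polynomial.hom_eval₂, RingHom.comp_id, ← Polynomial.eval_map,
      h1, Polynomial.eval_pow, Polynomial.eval_X, map_pow, rho_Wv, ← pow_mul]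
    simp
  set n := k * p.natDegree with hn
  refine ⟨m * n, fun s => Wv z₀ ^ ((finProdFinEquiv.symm s).2 : ℕ) • e (finProdFinEquiv.symm s).1,
    fun x => ?_⟩
  obtain ⟨b, hb⟩ := he x
  choose q c hc using fun i => div_exists hreg (b i)
  refine ⟨fun s => c (finProdFinEquiv.symm s).1 (finProdFinEquiv.symm s).2, ?_⟩
  have h1 : ∑ s : Fin (m * n), iot z₀ (c (finProdFinEquiv.symm s).1 (finProdFinEquiv.symm s).2) •
      (Wv z₀ ^ ((finProdFinEquiv.symm s).2 : ℕ) • e (finProdFinEquiv.symm s).1) =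
      ∑ s : Fin m × Fin n, iot z₀ (c s.1 s.2) • (Wv z₀ ^ (s.2 : ℕ) • e s.1) :=
    Fintype.sum_equiv finProdFinEquiv.symm _ _ (fun s => rfl)
  rw [h1, Fintype.sum_prod_type, hb]
  refine Finset.sum_congr rfl (fun i _ => ?_)
  rw [RingHom.id_apply]
  conv_lhs => rw [hc i, add_smul, mul_smul, hχ0, smul_zero, zero_add, Finset.sum_smul]
  simp only [mul_smul]

end Weier

section Many

variable (E : Type u) [NormedAddCommGroup E] [NormedSpace ℂ E]

/-- `((x, z), w) ↦ ((w, x), z)` -/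
def cE (n : ℕ) : (((Fin n → ℂ) × E) × ℂ) ≃L[ℂ] ((Fin (n + 1) → ℂ) × E) :=
  (ContinuousLinearEquiv.prodComm ℂ ((Fin n → ℂ) × E) ℂ).trans
    ((ContinuousLinearEquiv.prodAssoc ℂ ℂ (Fin n → ℂ) E).symm.trans
      (ContinuousLinearEquiv.prodCongr (Fin.consEquivL ℂ (fun _ : Fin (n + 1) => ℂ))
        (ContinuousLinearEquiv.refl ℂ E)))

variable {E}

@[simp] lemma cE_apply (n : ℕ) (p : ((Fin n → ℂ) × E) × ℂ) :
    cE E n p = (Fin.cons p.2 p.1.1, p.1.2) := rfl

@[simp] lemma cE_symm_apply (n : ℕ) (p : (Fin (n + 1) → ℂ) × E) :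
    (cE E n).symm p = ((Fin.tail p.1, p.2), p.1 0) := rfl

lemma cons_zero_zero (n : ℕ) : (Fin.cons (0 : ℂ) (0 : Fin n → ℂ) : Fin (n + 1) → ℂ) = 0 := by
  ext i
  refine Fin.cases ?_ (fun j => ?_) i <;> simp

lemma tail_zero' (n : ℕ) : Fin.tail (0 : Fin (n + 1) → ℂ) = 0 := rfl

/-- the ring isomorphism -/
def cR (n : ℕ) (z₀ : E) : OO (((0 : Fin (n + 1) → ℂ), z₀)) ≃+* OO (((0 : Fin n → ℂ), z₀), (0 : ℂ)) :=
  pullEquiv (cE E n) ((cE E n).toContinuousLinearMap.analyticAt _)
    (by simp [cons_zero_zero]) (cE E n).symm ((cE E n).symm.toContinuousLinearMap.analyticAt _)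
    (by simp [tail_zero']) (Eventually.of_forall (fun x => (cE E n).symm_apply_apply x))
    (Eventually.of_forall (fun x => (cE E n).apply_symm_apply x))

/-- germs of the parameter space as germs of the product -/
def sndR (n : ℕ) (z₀ : E) : OO z₀ →+* OO (((0 : Fin n → ℂ), z₀)) :=
  pull Prod.snd analyticAt_snd rfl

instance (n : ℕ) (z₀ : E) : IsLocalHom (sndR n z₀) := by
  refine ⟨fun a ha => ?_⟩
  obtain ⟨f, hf, rfl⟩ := exists_gm a
  rw [sndR, pull_gm, isUnit_gm] at ha
  rw [isUnit_gm]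
  exact ha

lemma sndR_succ (n : ℕ) (z₀ : E) :
    sndR (n + 1) z₀ = ((cR n z₀).symm.toRingHom).comp
      ((iot ((0 : Fin n → ℂ), z₀)).comp (sndR n z₀)) := by
  ext x
  obtain ⟨f, hf, rfl⟩ := exists_gm x
  rfl

theorem finProp_sndR [FiniteDimensional ℂ E] (z₀ : E) :
    ∀ n : ℕ, FinProp.{u, u, w} (sndR n z₀)
  | 0 => by
    refine FinProp.of_surjective _ (fun x => ?_)
    obtain ⟨f, hf, rfl⟩ := exists_gm x
    have h1 : AnalyticAt ℂ (fun z : E => f (0, z)) z₀ :=
      AnalyticAt.comp (g := f) (f := fun z : E => ((0 : Fin 0 → ℂ), z)) hf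
        (analyticAt_const.prod analyticAt_id)
    refine ⟨gm _ h1, ?_⟩
    rw [sndR, pull_gm, gm_eq_gm]
    refine Eventually.of_forall (fun p => ?_)
    have : p.1 = 0 := Subsingleton.elim _ _
    simp only [Function.comp_apply]
    rw [← this]
  | n + 1 => by
    rw [sndR_succ]
    have h1 : FinProp.{u, u, w} ((iot ((0 : Fin n → ℂ), z₀)).comp (sndR n z₀)) :=
      FinProp.comp (finProp_sndR z₀ n) (finProp_iot _)
    have h2 : FinProp.{u, u, w} ((cR n z₀).symm.toRingHom) :=
      FinProp.of_surjective _ (cR n z₀).symm.surjective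
    have h3 : IsLocalHom ((cR n z₀).symm.toRingHom) :=
      ⟨fun a ha => (isUnit_map_iff (cR n z₀).symm a).1 ha⟩
    exact FinProp.comp h1 h2

end Many

end Crest.Agent.R257.Fin554
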