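import Mathlib

/-!
Row 257 (S0395), leaf E-GLOB, part 3b (helper554): Bertini by measure zero.
`volume_zeroSet` is copied from R023/Hil4_964 (helper964).
-/

set_option autoImplicit false
set_option linter.deprecated false

open Set Filter Topology MeasureTheory MvPolynomial

noncomputable section

namespace Crest.Agent.R257.Bert554

/-- the zero set of a nonzero polynomial is null (helper964's proof) -/
theorem volume_zeroSet : ∀ {e : ℕ} (p : MvPolynomial (Fin e) ℂ), p ≠ 0 →
    volume {c : Fin e → ℂ | eval c p = 0} = 0 := by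
  intro e
  induction e with
  | zero =>
    intro p hp
    have h1 : {c : Fin 0 → ℂ | eval c p = 0} = ∅ := by
      ext c
      simp only [Set.mem_setOf_eq, Set.mem_empty_iff_false, iff_false]
      rw [eq_C_of_isEmpty p, eval_C]
      intro h2
      apply hp
      rw [eq_C_of_isEmpty p, h2, C_0]
    rw [h1, measure_empty]
  | succ e ih =>
    intro p hp
    set q := finSuccEquiv ℂ e p with hq
    have hq0 : q ≠ 0 := by
      rw [hq]
      exact (map_ne_zero_iff _ (finSuccEquiv ℂ e).injective).mpr hp
    have hl0 : q.leadingCoeff ≠ 0 := Polynomial.leadingCoeff_ne_zero.mpr hq0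
    have hih := ih q.leadingCoeff hl0
    let Φ : (Fin (e + 1) → ℂ) ≃ᵐ ℂ × (Fin e → ℂ) :=
      MeasurableEquiv.piFinSuccAbove (fun _ => ℂ) 0
    have hΦ : MeasurePreserving Φ := volume_preserving_piFinSuccAbove (fun _ => ℂ) 0
    have hclosed : IsClosed {c : Fin (e + 1) → ℂ | eval c p = 0} :=
      isClosed_eq (MvPolynomial.continuous_eval p) continuous_const
    set Z' : Set (ℂ × (Fin e → ℂ)) := {ys | eval (Fin.cons ys.1 ys.2 : Fin (e + 1) → ℂ) p = 0}
      with hZ'
    have hZm : MeasurableSet Z' := by
      have hcont : Continuous (fun ys : ℂ × (Fin e → ℂ) =>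
          eval (Fin.cons ys.1 ys.2 : Fin (e + 1) → ℂ) p) :=
        (MvPolynomial.continuous_eval p).comp (continuous_pi fun j => by
          refine Fin.cases ?_ (fun j => ?_) j
          · simpa using continuous_fst
          · simp only [Fin.cons_succ]
            exact (continuous_apply j).comp continuous_snd)
      exact (isClosed_eq hcont continuous_const).measurableSet
    have hpre : {c : Fin (e + 1) → ℂ | eval c p = 0} = Φ ⁻¹' Z' := by
      ext c
      have h1 : (Fin.cons (Φ c).1 (Φ c).2 : Fin (e + 1) → ℂ) = c := by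
        have : Φ c = (c 0, fun j => c (Fin.succ j)) := rfl
        rw [this]
        exact Fin.cons_self_tail c
      simp only [Set.mem_setOf_eq, Set.mem_preimage, hZ', h1]
    rw [hpre, hΦ.measure_preimage hZm.nullMeasurableSet]
    change (volume : Measure (ℂ × (Fin e → ℂ))) Z' = 0
    rw [Measure.volume_eq_prod, Measure.prod_apply_symm hZm]
    rw [lintegral_eq_zero_iff (measurable_measure_prodMk_right hZm)]
    have hae : ∀ᵐ s : Fin e → ℂ, eval s q.leadingCoeff ≠ 0 := by
      rw [ae_iff]
      simpa using hih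
    filter_upwards [hae] with s hs
    have hfin : ((fun y : ℂ => (y, s)) ⁻¹' Z').Finite := by
      have hne : Polynomial.map (eval s) q ≠ 0 := by
        intro h0
        apply hs
        have := congrArg (fun P => Polynomial.coeff P q.natDegree) h0
        simpa [Polynomial.coeff_map] using this
      refine (Polynomial.map (eval s) q).rootSet_finite ℂ |>.subset ?_
      intro y hy
      have hy' : eval (Fin.cons y s : Fin (e + 1) → ℂ) p = 0 := hy
      rw [eval_eq_eval_mv_eval'] at hy'
      rw [Polynomial.mem_rootSet]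
      refine ⟨hne, ?_⟩
      simpa [Polynomial.aeval_def] using hy'
    exact hfin.measure_zero _

section full

variable {m : ℕ}

lemma coeff_euler (R : MvPolynomial (Fin m) ℂ) (s : Fin m →₀ ℕ) :
    coeff s (∑ j, X j * pderiv j R) = (∑ j, (s j : ℂ)) * coeff s R := by
  rw [coeff_sum, Finset.sum_mul]
  refine Finset.sum_congr rfl (fun j _ => ?_)
  rw [coeff_X_mul']
  split_ifs with h
  · rw [coeff_pderiv]
    have h1 : s - Finsupp.single j 1 + Finsupp.single j 1 = s := by
      refine tsub_add_cancel_of_le ?_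
      rw [Finsupp.single_le_iff]
      exact Nat.one_le_iff_ne_zero.2 (Finsupp.mem_support_iff.1 h)
    rw [h1, Finsupp.tsub_apply, Finsupp.single_eq_same]
    have h2 : 1 ≤ s j := Nat.one_le_iff_ne_zero.2 (Finsupp.mem_support_iff.1 h)
    push_cast [Nat.cast_sub h2]
    ring
  · have : s j = 0 := by simpa using h
    rw [this]; simp

lemma Q_ne {R : MvPolynomial (Fin m) ℂ} {d : ℕ} (hR : R.totalDegree < d) (h0 : R ≠ 0) :
    C (d : ℂ) * R - ∑ j, X j * pderiv j R ≠ 0 := by
  obtain ⟨s, hs⟩ := ne_zero_iff.1 h0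
  rw [ne_zero_iff]
  refine ⟨s, ?_⟩
  rw [coeff_sub, coeff_C_mul, coeff_euler, ← sub_mul]
  refine mul_ne_zero ?_ hs
  have h1 : s.sum (fun _ n => n) ≤ R.totalDegree := le_totalDegree (mem_support_iff.2 hs)
  have h2 : s.sum (fun _ n => n) = ∑ j, s j := Finsupp.sum_fintype _ _ (fun _ => rfl)
  have h3 : ∑ j, s j < d := by omega
  rw [sub_ne_zero]
  intro h4
  have : (d : ℂ) = ((∑ j, s j : ℕ) : ℂ) := by rw [h4]; push_cast; rfl
  have := Nat.cast_injective this
  omega

/-- the bad set for a full support -/
def bad (R : MvPolynomial (Fin m) ℂ) (d : ℕ) : Set (Fin m → ℂ) :=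
  {c | (∀ j, c j ≠ 0) ∧ ∃ y : Fin m → ℂ, (∀ j, y j ≠ 0) ∧
    (∀ j, eval y (pderiv j R) + d * c j * y j ^ (d - 1) = 0) ∧
    eval y R + ∑ j, c j * y j ^ d = 0}

lemma differentiable_eval (p : MvPolynomial (Fin m) ℂ) :
    Differentiable ℂ (fun y : Fin m → ℂ => eval y p) := by
  induction p using MvPolynomial.induction_on with
  | C a => simp only [eval_C]; exact differentiable_const _
  | add p q hp hq => simp only [map_add]; exact hp.add hq
  | mul_X p i hp =>
    simp only [map_mul, eval_X]
    exact hp.mul (differentiable_apply i)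

theorem bad_null {R : MvPolynomial (Fin m) ℂ} {d : ℕ} (hR : R.totalDegree < d) (hm : 0 < m) :
    volume (bad R d) = 0 := by
  have hd : d ≠ 0 := by omega
  have hdc : (d : ℂ) ≠ 0 := Nat.cast_ne_zero.2 hd
  by_cases h0 : R = 0
  · convert measure_empty (μ := (volume : Measure (Fin m → ℂ)))
    rw [eq_empty_iff_forall_notMem]
    rintro c ⟨hc, y, hy, h1, -⟩
    have := h1 ⟨0, hm⟩
    rw [h0, map_zero, map_zero, zero_add] at this
    exact mul_ne_zero (mul_ne_zero hdc (hc _)) (pow_ne_zero _ (hy _)) this
  set Q := C (d : ℂ) * R - ∑ j, X j * pderiv j R with hQ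
  set s : Set (Fin m → ℂ) := {y | (∀ j, y j ≠ 0) ∧ eval y Q = 0} with hs
  set f : (Fin m → ℂ) → (Fin m → ℂ) := fun y j => -eval y (pderiv j R) / (d * y j ^ (d - 1))
    with hf
  have hs0 : volume s = 0 :=
    measure_mono_null (fun y hy => hy.2) (volume_zeroSet Q (Q_ne hR h0))
  have hfd : DifferentiableOn ℂ f s := by
    rw [differentiableOn_pi]
    intro j y hy
    refine DifferentiableAt.differentiableWithinAt ?_
    have a1 : DifferentiableAt ℂ (fun y : Fin m → ℂ => -eval y (pderiv j R)) y :=
      ((differentiable_eval _) y).fun_neg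
    have a2 : DifferentiableAt ℂ (fun y : Fin m → ℂ => (d : ℂ) * y j ^ (d - 1)) y :=
      (differentiableAt_const _).mul ((differentiableAt_apply j y).pow _)
    have a3 := a1.fun_mul (a2.fun_inv (mul_ne_zero hdc (pow_ne_zero _ (hy.1 j))))
    simpa only [hf, div_eq_mul_inv] using a3
  have himg : volume (f '' s) = 0 :=
    MeasureTheory.addHaar_image_eq_zero_of_differentiableOn_of_addHaar_eq_zero _
      (hfd.restrictScalars ℝ) hs0
  refine measure_mono_null ?_ himg
  rintro c ⟨hc, y, hy, h1, h2⟩
  have h3 : ∀ j, c j = -eval y (pderiv j R) / (d * y j ^ (d - 1)) := by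
    intro j
    rw [eq_div_iff (mul_ne_zero hdc (pow_ne_zero _ (hy j)))]
    linear_combination h1 j
  refine ⟨y, ⟨hy, ?_⟩, ?_⟩
  · rw [hQ, map_sub, map_mul, eval_C, map_sum]
    simp only [map_mul, eval_X]
    have h4 : ∀ j, y j * eval y (pderiv j R) = -(d * (c j * y j ^ d)) := by
      intro j
      have h5 : y j ^ d = y j * y j ^ (d - 1) := by
        rw [← pow_succ', Nat.sub_add_cancel (Nat.one_le_iff_ne_zero.2 hd)]
      rw [h5]
      linear_combination y j * h1 j
    simp only [h4]
    rw [Finset.sum_neg_distrib, ← Finset.mul_sum]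
    linear_combination (d : ℂ) * h2
  · funext j
    exact (h3 j).symm

end full

section supp

variable {n m : ℕ}

/-- extension by zero -/
def ext0 (e : Fin m ↪ Fin n) (y : Fin m → ℂ) : Fin n → ℂ := Function.extend e y 0

lemma eval_killCompl (e : Fin m ↪ Fin n) (y : Fin m → ℂ) (P : MvPolynomial (Fin n) ℂ) :
    eval y (killCompl e.injective P) = eval (ext0 e y) P := by
  have : (aeval y : MvPolynomial (Fin m) ℂ →ₐ[ℂ] ℂ).comp (killCompl e.injective) =
      aeval (ext0 e y) := by
    ext i
    simp only [AlgHom.comp_apply, killCompl, aeval_X]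
    split_ifs with h
    · obtain ⟨j, rfl⟩ := h
      rw [aeval_X, ext0, e.injective.extend_apply]
      congr 1
      exact Equiv.ofInjective_symm_apply e.injective j
    · rw [map_zero, ext0, Function.extend_apply' _ _ _ (by simpa using h)]
      rfl
  have h2 := DFunLike.congr_fun this P
  simpa [AlgHom.comp_apply, coe_aeval_eq_eval] using h2

lemma pderiv_killCompl (e : Fin m ↪ Fin n) (j : Fin m) (P : MvPolynomial (Fin n) ℂ) :
    pderiv j (killCompl e.injective P) = killCompl e.injective (pderiv (e j) P) := by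
  induction P using MvPolynomial.induction_on with
  | C a => simp
  | add p q hp hq => simp [hp, hq]
  | mul_X p i hp =>
    rw [map_mul, pderiv_mul, pderiv_mul, map_add, map_mul, map_mul, hp]
    congr 2
    by_cases h : i ∈ Set.range e
    · obtain ⟨k, rfl⟩ := h
      have h1 : killCompl e.injective (X (e k) : MvPolynomial (Fin n) ℂ) = X k := by
        have := killCompl_rename_app e.injective (X k : MvPolynomial (Fin m) ℂ)
        rwa [rename_X] at this
      rw [h1, pderiv_X, pderiv_X]
      by_cases hk : k = j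
      · subst hk; simp
      · rw [Pi.single_eq_of_ne hk, Pi.single_eq_of_ne (fun h => hk (e.injective h)), map_zero]
    · have h1 : killCompl e.injective (X i : MvPolynomial (Fin n) ℂ) = 0 := by
        rw [killCompl, aeval_X, dif_neg h]
      rw [h1, map_zero, pderiv_X_of_ne (fun h2 => h ⟨j, h2.symm⟩), map_zero]

lemma totalDegree_killCompl (e : Fin m ↪ Fin n) (P : MvPolynomial (Fin n) ℂ) :
    (killCompl e.injective P).totalDegree ≤ P.totalDegree := by
  refine Finset.sup_le (fun s hs => ?_)
  rw [mem_support_iff, coeff_killCompl] at hs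
  have h1 := le_totalDegree (mem_support_iff.2 hs)
  have h2 : (s.mapDomain e).sum (fun _ n => n) = s.sum (fun _ n => n) :=
    Finsupp.sum_mapDomain_index (fun _ => rfl) (fun _ _ _ => rfl)
  rw [h2] at h1
  exact h1

/-- **Bertini** -/
theorem bertini {P : MvPolynomial (Fin n) ℂ} {d : ℕ} (hP : P.totalDegree < d) :
    ∃ c : Fin n → ℂ, (∀ i, c i ≠ 0) ∧ ∀ x : Fin n → ℂ, x ≠ 0 →
      eval x P + ∑ i, c i * x i ^ d = 0 →
      ∃ i, eval x (pderiv i P) + d * c i * x i ^ (d - 1) ≠ 0 := by
  have hd : d ≠ 0 := by omega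
  -- one support
  have h1 : ∀ S : Finset (Fin n), S.Nonempty → ∀ᵐ c : Fin n → ℂ,
      c ∘ (S.orderEmbOfFin rfl) ∉ bad (killCompl (S.orderEmbOfFin rfl).injective P) d := by
    intro S hS
    set e : Fin S.card ↪ Fin n := (S.orderEmbOfFin rfl).toEmbedding with he
    have hb : volume (bad (killCompl e.injective P) d) = 0 :=
      bad_null ((totalDegree_killCompl e P).trans_lt hP) (Finset.card_pos.2 hS)
    let L : (Fin n → ℂ) →ₗ[ℂ] (Fin S.card → ℂ) := LinearMap.funLeft ℂ ℂ e
    have hL : Function.Surjective L := LinearMap.funLeft_surjective_of_injective ℂ ℂ e e.injective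
    have h2 := (MeasureTheory.ae_comp_linearMap_mem_iff L (volume : Measure (Fin n → ℂ))
      (volume : Measure (Fin S.card → ℂ)) hL
      (measurableSet_toMeasurable volume (bad (killCompl e.injective P) d)).compl).2 ?_
    · filter_upwards [h2] with c hc hc2
      exact hc (subset_toMeasurable _ _ hc2)
    · rw [ae_iff]
      simp only [mem_compl_iff, not_not, setOf_mem_eq, measure_toMeasurable]
      exact hb
  have h2 : ∀ i : Fin n, ∀ᵐ c : Fin n → ℂ, c i ≠ 0 := by
    intro i
    have := volume_zeroSet (X i : MvPolynomial (Fin n) ℂ) (X_ne_zero i)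
    rw [ae_iff]
    simpa using this
  have h3 : ∀ᵐ c : Fin n → ℂ, (∀ i, c i ≠ 0) ∧ ∀ S : Finset (Fin n), S.Nonempty →
      c ∘ (S.orderEmbOfFin rfl) ∉ bad (killCompl (S.orderEmbOfFin rfl).injective P) d := by
    refine (ae_all_iff.2 h2).and (ae_all_iff.2 (fun S => ?_))
    by_cases hS : S.Nonempty
    · filter_upwards [h1 S hS] with c hc _ using hc
    · exact Eventually.of_forall (fun c h => absurd h hS)
  obtain ⟨c, hc, hcS⟩ := h3.exists
  refine ⟨c, hc, fun x hx hx0 => ?_⟩
  by_contra hcon
  push Not at hcon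
  set S : Finset (Fin n) := Finset.univ.filter (fun i => x i ≠ 0) with hS
  have hSne : S.Nonempty := by
    obtain ⟨i, hi⟩ := Function.ne_iff.1 hx
    exact ⟨i, by simpa [hS] using hi⟩
  refine hcS S hSne ?_
  set e : Fin S.card ↪ Fin n := (S.orderEmbOfFin rfl).toEmbedding with he
  have hrange : ∀ i, i ∈ S → ∃ j, e j = i := by
    intro i hi
    have := Finset.range_orderEmbOfFin S rfl
    have h5 : i ∈ Set.range (S.orderEmbOfFin rfl) := by rw [this]; exact hi
    exact h5
  have hmem : ∀ j, e j ∈ S := fun j => Finset.orderEmbOfFin_mem S rfl j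
  have hext : ext0 e (x ∘ e) = x := by
    funext i
    by_cases hi : i ∈ S
    · obtain ⟨j, rfl⟩ := hrange i hi
      rw [ext0, e.injective.extend_apply]; rfl
    · have hi0 : x i = 0 := by simpa [hS] using hi
      rw [ext0, Function.extend_apply' _ _ _ (fun ⟨j, hj⟩ => hi (hj ▸ hmem j)), hi0]
      rfl
  refine ⟨fun j => hc _, x ∘ e, fun j => ?_, fun j => ?_, ?_⟩
  · have := hmem j
    simpa [hS] using this
  · change eval (x ∘ e) (pderiv j (killCompl e.injective P)) + d * c (e j) * x (e j) ^ (d - 1) = 0
    rw [pderiv_killCompl, eval_killCompl, hext]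
    exact hcon (e j)
  · change eval (x ∘ e) (killCompl e.injective P) + ∑ j, c (e j) * x (e j) ^ d = 0
    rw [eval_killCompl, hext, ← hx0]
    congr 1
    rw [← Finset.sum_subset (Finset.subset_univ S)]
    · have : S = Finset.univ.map e := by
        ext i
        simp only [Finset.mem_map, Finset.mem_univ, true_and]
        exact ⟨hrange i, fun ⟨j, hj⟩ => hj ▸ hmem j⟩
      conv_rhs => rw [this]
      rw [Finset.sum_map]
    · intro i _ hi
      have hi0 : x i = 0 := by simpa [hS] using hi
      rw [hi0, zero_pow hd, mul_zero]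

end supp

end Crest.Agent.R257.Bert554
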