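import Crest.Agent.R257.LCDefs_472
import Crest.Agent.R257.GB_554

/-!
R257 / Flag3B_799: algebra of the cubic form `D3 f` for `Flag3Stmt`: symmetry, polarisation,
isolated nodes, a generic plane transversal to the cubic and a direction in it.
-/

set_option autoImplicit false
set_option linter.unusedSectionVars false

open Set Filter Topology Metric MeasureTheory
open Crest.AlgGeometry.Germ

noncomputable section

namespace Crest.Agent.R257.Flag3_799

open Crest.Agent.R257.Defs_219 Crest.Agent.R257.LCDefs_472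

/-! ### symmetry of the third derivatives -/

section Sym

variable {n : ℕ}

theorem an_cd {f : (Fin n → ℂ) → ℂ} {x : Fin n → ℂ} (hf : AnalyticAt ℂ f x) (i : Fin n) :
    AnalyticAt ℂ (coordDeriv f i) x := by
  have h1 : AnalyticAt ℂ (fderiv ℂ f) x := hf.fderiv
  exact ((ContinuousLinearMap.apply ℂ ℂ (Pi.single i 1 : Fin n → ℂ)).analyticAt _).comp h1

theorem cd_symm {f : (Fin n → ℂ) → ℂ} {x : Fin n → ℂ} (hf : AnalyticAt ℂ f x) (i j : Fin n) :
    coordDeriv (coordDeriv f i) j x = coordDeriv (coordDeriv f j) i x := by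
  have h1 : AnalyticAt ℂ (fderiv ℂ f) x := hf.fderiv
  have h2 : ∀ k l : Fin n, coordDeriv (coordDeriv f k) l x =
      fderiv ℂ (fderiv ℂ f) x (Pi.single l 1) (Pi.single k 1) := by
    intro k l
    have h3 : HasFDerivAt (fun y => fderiv ℂ f y (Pi.single k 1))
        ((ContinuousLinearMap.apply ℂ ℂ (Pi.single k 1 : Fin n → ℂ)).comp
          (fderiv ℂ (fderiv ℂ f) x)) x :=
      (ContinuousLinearMap.apply ℂ ℂ (Pi.single k 1 : Fin n → ℂ)).hasFDerivAt.comp x
        h1.differentiableAt.hasFDerivAt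
    change fderiv ℂ (fun y => fderiv ℂ f y (Pi.single k 1)) x (Pi.single l 1) = _
    rw [h3.fderiv]
    rfl
  rw [h2, h2]
  have h4 : IsSymmSndFDerivAt ℂ f x :=
    (hf.contDiffAt (n := ⊤)).isSymmSndFDerivAt (by simp)
  exact h4 _ _

theorem H2_symm {f : (Fin n → ℂ) → ℂ} (hf : AnalyticAt ℂ f 0) (i j : Fin n) :
    H2 f i j = H2 f j i := cd_symm hf i j

theorem H3_symm₁ {f : (Fin n → ℂ) → ℂ} (hf : AnalyticAt ℂ f 0) (i j k : Fin n) :
    H3 f i j k = H3 f j i k := by
  have h1 : coordDeriv (coordDeriv f i) j =ᶠ[𝓝 0] coordDeriv (coordDeriv f j) i := by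
    filter_upwards [hf.eventually_analyticAt] with x hx
    exact cd_symm hx i j
  change fderiv ℂ (coordDeriv (coordDeriv f i) j) 0 (Pi.single k 1) =
    fderiv ℂ (coordDeriv (coordDeriv f j) i) 0 (Pi.single k 1)
  rw [h1.fderiv_eq]

theorem H3_symm₂ {f : (Fin n → ℂ) → ℂ} (hf : AnalyticAt ℂ f 0) (i j k : Fin n) :
    H3 f i j k = H3 f i k j := cd_symm (an_cd hf i) j k

end Sym

/-! ### symmetric trilinear forms on `ℂ³` -/

/-- the form -/
def tri (T : Fin 3 → Fin 3 → Fin 3 → ℂ) (u v w : E3) : ℂ :=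
  ∑ i, ∑ j, ∑ k, T i j k * u i * v j * w k

theorem D3_eq (f : E3 → ℂ) (u v w : E3) : D3 f u v w = tri (H3 f) u v w := rfl

structure Sy (T : Fin 3 → Fin 3 → Fin 3 → ℂ) : Prop where
  s1 : ∀ i j k, T i j k = T j i k
  s2 : ∀ i j k, T i j k = T i k j

theorem sy_H3 {f : E3 → ℂ} (hf : AnalyticAt ℂ f 0) : Sy (H3 f) := ⟨H3_symm₁ hf, H3_symm₂ hf⟩

variable {T : Fin 3 → Fin 3 → Fin 3 → ℂ}

theorem tri_add₁ (u u' v w : E3) : tri T (u + u') v w = tri T u v w + tri T u' v w := by
  simp only [tri, Pi.add_apply, ← Finset.sum_add_distrib]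
  refine Finset.sum_congr rfl fun i _ => Finset.sum_congr rfl fun j _ =>
    Finset.sum_congr rfl fun k _ => by ring

theorem tri_smul₁ (c : ℂ) (u v w : E3) : tri T (c • u) v w = c * tri T u v w := by
  simp only [tri, Pi.smul_apply, smul_eq_mul, Finset.mul_sum]
  refine Finset.sum_congr rfl fun i _ => Finset.sum_congr rfl fun j _ =>
    Finset.sum_congr rfl fun k _ => by ring

theorem Sy.swap₁ (h : Sy T) (u v w : E3) : tri T u v w = tri T v u w := by
  simp only [tri]
  rw [Finset.sum_comm]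
  refine Finset.sum_congr rfl fun i _ => Finset.sum_congr rfl fun j _ =>
    Finset.sum_congr rfl fun k _ => by rw [h.s1 j i k]; ring

theorem Sy.swap₂ (h : Sy T) (u v w : E3) : tri T u v w = tri T u w v := by
  simp only [tri]
  refine Finset.sum_congr rfl fun i _ => ?_
  rw [Finset.sum_comm]
  refine Finset.sum_congr rfl fun j _ =>
    Finset.sum_congr rfl fun k _ => by rw [h.s2 i k j]; ring

theorem Sy.swap₃ (h : Sy T) (u v w : E3) : tri T u v w = tri T w v u := by
  rw [h.swap₁, h.swap₂, h.swap₁]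

theorem Sy.add₂ (h : Sy T) (u v v' w : E3) : tri T u (v + v') w = tri T u v w + tri T u v' w := by
  rw [h.swap₁, tri_add₁, h.swap₁ v, h.swap₁ v']

theorem Sy.smul₂ (h : Sy T) (c : ℂ) (u v w : E3) : tri T u (c • v) w = c * tri T u v w := by
  rw [h.swap₁, tri_smul₁, h.swap₁ v]

theorem Sy.add₃ (h : Sy T) (u v w w' : E3) : tri T u v (w + w') = tri T u v w + tri T u v w' := by
  rw [h.swap₂, h.add₂, h.swap₂ u w, h.swap₂ u w']

theorem Sy.smul₃ (h : Sy T) (c : ℂ) (u v w : E3) : tri T u v (c • w) = c * tri T u v w := by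
  rw [h.swap₂, h.smul₂, h.swap₂ u w]

/-- the linear form `w ↦ tri T u v w` as a vector -/
def vec (T : Fin 3 → Fin 3 → Fin 3 → ℂ) (u v : E3) : E3 := fun k => ∑ i, ∑ j, T i j k * u i * v j

theorem tri_eq_vec (u v w : E3) : tri T u v w = ∑ k, vec T u v k * w k := by
  simp only [tri, vec, Finset.sum_mul]
  rw [Finset.sum_congr rfl fun i _ => Finset.sum_comm, Finset.sum_comm]

theorem vec_eq (u v : E3) (k : Fin 3) : vec T u v k = tri T u v (Pi.single k 1) := by
  rw [tri_eq_vec, Finset.sum_eq_single k]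
  · simp
  · intro j _ hj; simp [hj]
  · intro h; exact absurd (Finset.mem_univ _) h

theorem vec_eq_zero_iff (u v : E3) : vec T u v = 0 ↔ ∀ w, tri T u v w = 0 := by
  constructor
  · intro h w; rw [tri_eq_vec, h]; simp
  · intro h; funext k; rw [vec_eq, h]; rfl

/-- the nodality condition -/
def Nod (T : Fin 3 → Fin 3 → Fin 3 → ℂ) : Prop :=
  ∀ v u : E3, v ≠ 0 → (∀ w, tri T v v w = 0) → (∀ w, tri T v u w = 0) → ∃ c : ℂ, u = c • v

theorem nod_of {f : E3 → ℂ} (h : Nodal f) : Nod (H3 f) := h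

/-- singular vectors -/
def Sg (T : Fin 3 → Fin 3 → Fin 3 → ℂ) : Set E3 := {v | v ≠ 0 ∧ ∀ w, tri T v v w = 0}

/-- the algebra behind `isolated` -/
theorem iso_alg (hS : Sy T) {v u k κ : E3} {a r : ℂ} (hv : ∀ w, tri T v v w = 0)
    (hu : ∀ w, tri T u u w = 0) (h1 : u = a • v + k) (h2 : k = r • κ) (hr : r ≠ 0) :
    (2 * a) • vec T v κ + r • vec T κ κ = 0 := by
  funext j
  have hj : (0 : E3) j = 0 := rfl
  rw [Pi.add_apply, Pi.smul_apply, Pi.smul_apply, smul_eq_mul, smul_eq_mul, vec_eq, vec_eq, hj]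
  generalize (Pi.single j 1 : E3) = w
  have h3 := hu w
  rw [h1, h2, tri_add₁, hS.add₂, hS.add₂, tri_smul₁, tri_smul₁, hS.smul₂, hv w,
      hS.smul₂, hS.smul₂, tri_smul₁, tri_smul₁, hS.smul₂, hS.swap₁ κ v w] at h3
  apply mul_left_cancel₀ hr
  linear_combination h3

/-- the limit behind `isolated` -/
theorem iso_lim {v ω : E3} {a r : ℕ → ℂ} {κ : ℕ → E3} (ha : Tendsto a atTop (𝓝 1))
    (hr : Tendsto r atTop (𝓝 0)) (hκ : Tendsto κ atTop (𝓝 ω))
    (h : ∀ m, (2 * a m) • vec T v (κ m) + r m • vec T (κ m) (κ m) = 0) : vec T v ω = 0 := by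
  have hc1 : Continuous fun w : E3 => vec T v w := by unfold vec; fun_prop
  have hc2 : Continuous fun w : E3 => vec T w w := by unfold vec; fun_prop
  have h1 : Tendsto (fun m => vec T v (κ m)) atTop (𝓝 (vec T v ω)) :=
    (hc1.tendsto ω).comp hκ
  have h2 : Tendsto (fun m => vec T (κ m) (κ m)) atTop (𝓝 (vec T ω ω)) :=
    (hc2.tendsto ω).comp hκ
  have h3 : Tendsto (fun m => 2 * a m) atTop (𝓝 (2 * 1)) := ha.const_mul 2
  have h5 := (h3.smul h1).add (hr.smul h2)
  have h7 := tendsto_nhds_unique (h5.congr h) tendsto_const_nhds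
  rw [zero_smul, add_zero] at h7
  rcases smul_eq_zero.1 h7 with h | h
  · norm_num at h
  · exact h

/-- normalisation -/
theorem iso_norm {k : E3} (hk : k ≠ 0) : ((‖k‖ : ℝ) : ℂ)⁻¹ • k ∈ sphere (0 : E3) 1 := by
  rw [mem_sphere_zero_iff_norm, norm_smul, norm_inv, Complex.norm_real, norm_norm]
  exact inv_mul_cancel₀ (norm_ne_zero_iff.2 hk)

/-- a sequence of singular vectors, not multiples of `v`, does not converge to `v` -/
theorem iso_seq (hS : Sy T) {v : E3} (hv1 : ∀ w, tri T v v w = 0) {i : Fin 3} (hi : v i ≠ 0)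
    {u : ℕ → E3} (hu1 : Tendsto u atTop (𝓝 v)) (hu2 : ∀ m w, tri T (u m) (u m) w = 0)
    (hk : ∀ m, u m - (u m i / v i) • v ≠ 0) : ∃ ω : E3, ω ≠ 0 ∧ ω i = 0 ∧ vec T v ω = 0 := by
  obtain ⟨k, hkdef⟩ : ∃ k : ℕ → E3, ∀ m, k m = u m - (u m i / v i) • v := ⟨_, fun m => rfl⟩
  have hk' : ∀ m, k m ≠ 0 := fun m => by rw [hkdef]; exact hk m
  have hki : ∀ m, k m i = 0 := by
    intro m; rw [hkdef]; simp [hi]
  have hui : Tendsto (fun m => u m i / v i) atTop (𝓝 1) := by
    have h1 : Tendsto (fun m => u m i) atTop (𝓝 (v i)) := (tendsto_pi_nhds.1 hu1) i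
    have := h1.div_const (v i)
    rwa [div_self hi] at this
  have hk0 : Tendsto k atTop (𝓝 0) := by
    have h1 := hu1.sub (hui.smul_const v)
    rw [one_smul, sub_self] at h1
    exact h1.congr fun m => (hkdef m).symm
  -- normalise
  obtain ⟨κ, hκ⟩ : ∃ κ : ℕ → E3, ∀ m, κ m = ((‖k m‖ : ℝ) : ℂ)⁻¹ • k m := ⟨_, fun m => rfl⟩
  have hκs : ∀ m, κ m ∈ sphere (0 : E3) 1 := fun m => by rw [hκ]; exact iso_norm (hk' m)
  obtain ⟨ω, hω, φ, hφ, hlim⟩ := (isCompact_sphere (0 : E3) 1).tendsto_subseq hκs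
  have hωi : ω i = 0 := by
    have h1 : Tendsto (fun m => (κ ∘ φ) m i) atTop (𝓝 (ω i)) := (tendsto_pi_nhds.1 hlim) i
    have h2 : (fun m => (κ ∘ φ) m i) = fun _ => (0 : ℂ) := by
      funext m
      rw [Function.comp_apply, hκ, Pi.smul_apply, hki, smul_zero]
    rw [h2] at h1
    exact tendsto_nhds_unique h1 tendsto_const_nhds
  have hω0 : ω ≠ 0 := by
    intro h
    rw [h, mem_sphere_zero_iff_norm, norm_zero] at hω
    exact zero_ne_one hω
  have hmain : ∀ m, (2 * (u m i / v i)) • vec T v (κ m) + ((‖k m‖ : ℝ) : ℂ) • vec T (κ m) (κ m)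
      = 0 := by
    intro m
    have hn : ((‖k m‖ : ℝ) : ℂ) ≠ 0 := by exact_mod_cast norm_ne_zero_iff.2 (hk' m)
    refine iso_alg hS hv1 (hu2 m) (k := k m) ?_ ?_ hn
    · rw [hkdef, add_sub_cancel]
    · rw [hκ, smul_smul, mul_inv_cancel₀ hn, one_smul]
  have hφt := hφ.tendsto_atTop
  have h4 : Tendsto (fun m => ((‖k (φ m)‖ : ℝ) : ℂ)) atTop (𝓝 (0 : ℂ)) := by
    have h5 : Tendsto (fun m => ‖k (φ m)‖) atTop (𝓝 0) := by
      have := (hk0.comp hφt).norm
      rwa [norm_zero] at this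
    have h6 := (Complex.continuous_ofReal.tendsto 0).comp h5
    rw [Complex.ofReal_zero] at h6
    exact h6
  exact ⟨ω, hω0, hωi, iso_lim (a := fun m => u (φ m) i / v i) (r := fun m => ((‖k (φ m)‖ : ℝ) : ℂ))
    (κ := fun m => κ (φ m)) (hui.comp hφt) h4 hlim fun m => hmain (φ m)⟩

/-- near a singular vector there are only multiples of it -/
theorem isolated (hS : Sy T) (hN : Nod T) {v : E3} (hv : v ∈ Sg T) :
    ∀ᶠ u in 𝓝 v, u ∈ Sg T → ∃ c : ℂ, u = c • v := by
  obtain ⟨hv0, hv1⟩ := hv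
  obtain ⟨i, hi⟩ : ∃ i, v i ≠ 0 := by
    by_contra h; push Not at h; exact hv0 (funext h)
  by_contra hcon
  rw [Filter.not_eventually] at hcon
  obtain ⟨u, hu1, hu2⟩ := Filter.exists_seq_forall_of_frequently hcon
  have hk : ∀ m, u m - (u m i / v i) • v ≠ 0 := by
    intro m hm
    exact hu2 m fun _ => ⟨_, sub_eq_zero.1 hm⟩
  have hu3 : ∀ m w, tri T (u m) (u m) w = 0 := by
    intro m
    have h1 := hu2 m
    rw [Classical.not_imp] at h1
    exact h1.1.2
  obtain ⟨ω, hω0, hωi, h8⟩ := iso_seq hS hv1 hi hu1 hu3 hk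
  obtain ⟨c, hc⟩ := hN v ω hv0 hv1 ((vec_eq_zero_iff v ω).1 h8)
  have hc0 : c = 0 := by
    have h8 := congrFun hc i
    rw [hωi, Pi.smul_apply, smul_eq_mul] at h8
    rcases mul_eq_zero.1 h8.symm with h | h
    · exact h
    · exact absurd h hi
  apply hω0
  rw [hc, hc0, zero_smul]

/-- countably many singular directions -/
theorem countable_sg (hS : Sy T) (hN : Nod T) :
    ∃ C : Set E3, C.Countable ∧ C ⊆ Sg T ∧ ∀ u ∈ Sg T, ∃ v ∈ C, ∃ c : ℂ, u = c • v := by
  classical
  choose! U hU using fun (v : E3) (hv : v ∈ Sg T) =>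
    (show ∃ U : Set E3, U ∈ 𝓝 v ∧ ∀ u ∈ U, u ∈ Sg T → ∃ c : ℂ, u = c • v from
      ⟨_, isolated hS hN hv, fun u hu => hu⟩)
  obtain ⟨C, hC1, hC2, hC3⟩ := TopologicalSpace.countable_cover_nhdsWithin
    (f := U) (s := Sg T) fun v hv => mem_nhdsWithin_of_mem_nhds (hU v hv).1
  refine ⟨C, hC2, hC1, fun u hu => ?_⟩
  obtain ⟨v, hv, huv⟩ := mem_iUnion₂.1 (hC3 hu)
  exact ⟨v, hv, (hU v (hC1 hv)).2 u huv hu⟩

/-! ### null sets -/

/-- the cubic polynomial -/
def pol (T : Fin 3 → Fin 3 → Fin 3 → ℂ) : MvPolynomial (Fin 3) ℂ :=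
  ∑ i, ∑ j, ∑ k, MvPolynomial.C (T i j k) * MvPolynomial.X i * MvPolynomial.X j * MvPolynomial.X k

theorem eval_pol (v : E3) : MvPolynomial.eval v (pol T) = tri T v v v := by
  simp [pol, tri]

theorem polar (hS : Sy T) (h : ∀ v, tri T v v v = 0) : ∀ u v w, tri T u v w = 0 := by
  have h1 : ∀ u v, tri T u u v = 0 := by
    intro u v
    have e1 := h (u + v)
    have e2 := h (u + (-1 : ℂ) • v)
    simp only [tri_add₁, hS.add₂, hS.add₃, tri_smul₁, hS.smul₂, hS.smul₃, h] at e1 e2
    have s1 : tri T u v u = tri T u u v := hS.swap₂ _ _ _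
    have s2 : tri T v u u = tri T u u v := by rw [hS.swap₁, s1]
    have s3 : tri T v u v = tri T u v v := hS.swap₁ _ _ _
    have s4 : tri T v v u = tri T u v v := hS.swap₃ _ _ _
    rw [s1, s2, s3, s4] at e1 e2
    linear_combination (1 / 6) * e1 - (1 / 6) * e2
  intro u v w
  have e1 := h1 (u + v) w
  simp only [tri_add₁, hS.add₂, h1] at e1
  rw [hS.swap₁ v u] at e1
  linear_combination (1 / 2) * e1

theorem pol_ne (hS : Sy T) (hN : Nod T) : pol T ≠ 0 := by
  intro h
  have h1 : ∀ v, tri T v v v = 0 := by intro v; rw [← eval_pol, h, map_zero]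
  have h2 := polar hS h1
  obtain ⟨c, hc⟩ := hN (Pi.single 0 1) (Pi.single 1 1) (by
    intro h; have := congrFun h 0; simp at this) (fun w => h2 _ _ w) (fun w => h2 _ _ w)
  have := congrFun hc 1
  simp at this

/-- a generic linear form -/
theorem exists_form (hS : Sy T) (hN : Nod T) : ∃ l : E3, l ≠ 0 ∧
    (∀ v ∈ Sg T, ∑ i, l i * v i ≠ 0) ∧ ∀ v : E3, tri T v v v = 0 → vec T v v ≠ l := by
  classical
  obtain ⟨C, hC1, hC2, hC3⟩ := countable_sg hS hN
  have n1 : volume {v : E3 | tri T v v v = 0} = 0 := by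
    have := Bert554.volume_zeroSet (pol T) (pol_ne hS hN)
    simpa only [eval_pol] using this
  have n2 : volume ((fun v : E3 => vec T v v) '' {v : E3 | tri T v v v = 0}) = 0 := by
    have hd : Differentiable ℂ (fun v : E3 => vec T v v) := by
      rw [differentiable_pi]
      intro k
      simp only [vec]
      fun_prop
    exact MeasureTheory.addHaar_image_eq_zero_of_differentiableOn_of_addHaar_eq_zero _
      ((hd.restrictScalars ℝ).differentiableOn) n1
  have n3 : ∀ v ∈ C, volume {l : E3 | ∑ i, l i * v i = 0} = 0 := by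
    intro v hv
    have h1 := Bert554.volume_zeroSet (∑ i : Fin 3, MvPolynomial.C (v i) * MvPolynomial.X i) (by
      intro h
      apply (hC2 hv).1
      funext i
      have h2 := congrArg (MvPolynomial.eval (Pi.single i (1 : ℂ))) h
      simp only [map_sum, map_mul, MvPolynomial.eval_C, MvPolynomial.eval_X, map_zero] at h2
      rw [Finset.sum_eq_single i] at h2
      · simpa using h2
      · intro j _ hj; simp [hj]
      · intro h; exact absurd (Finset.mem_univ _) h)
    simp only [map_sum, map_mul, MvPolynomial.eval_C, MvPolynomial.eval_X] at h1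
    simpa only [mul_comm] using h1
  have n4 : volume (⋃ v ∈ C, {l : E3 | ∑ i, l i * v i = 0}) = 0 :=
    (measure_biUnion_null_iff hC1).2 n3
  have n5 : volume ({(0 : E3)}) = 0 := measure_singleton _
  have n6 := measure_union_null (measure_union_null n2 n4) n5
  obtain ⟨l, hl⟩ : ∃ l : E3, l ∉ (((fun v : E3 => vec T v v) '' {v : E3 | tri T v v v = 0}) ∪
      (⋃ v ∈ C, {l : E3 | ∑ i, l i * v i = 0})) ∪ {(0 : E3)} := by
    by_contra h
    push Not at h
    have : (univ : Set E3) ⊆ _ := fun l _ => h l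
    have h2 := measure_mono_null this n6
    exact (NeZero.ne (volume : Measure E3)) (Measure.measure_univ_eq_zero.1 h2)
  simp only [mem_union, not_or, mem_singleton_iff, mem_iUnion, mem_ofPred_eq, not_exists,
    mem_image, not_and] at hl
  obtain ⟨⟨hl1, hl2⟩, hl3⟩ := hl
  refine ⟨l, hl3, ?_, fun v hv => hl1 v hv⟩
  intro v hv h0
  obtain ⟨w, hw, c, hc⟩ := hC3 v hv
  apply hl2 w hw
  have hc0 : c ≠ 0 := by
    rintro rfl
    exact hv.1 (by rw [hc, zero_smul])
  rw [hc] at h0
  have : ∑ i, l i * (c • w) i = c * ∑ i, l i * w i := by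
    rw [Finset.mul_sum]
    exact Finset.sum_congr rfl fun i _ => by simp; ring
  rw [this] at h0
  rcases mul_eq_zero.1 h0 with h | h
  · exact absurd h hc0
  · exact h

/-- **the basis**: `b 0` is not on the cubic, the plane `b 0, b 1` is transversal to the cubic and
its sections with the polar of `b 0` -/
theorem exists_basis (hS : Sy T) (hN : Nod T) : ∃ b : Module.Basis (Fin 3) ℂ E3,
    tri T (b 0) (b 0) (b 0) ≠ 0 ∧
    ∀ v : E3, v ≠ 0 → b.coord 2 v = 0 → tri T v v v = 0 → tri T v v (b 0) ≠ 0 := by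
  classical
  obtain ⟨l, hl0, hl1, hl2⟩ := exists_form hS hN
  let lam : E3 →ₗ[ℂ] ℂ := ∑ i, l i • LinearMap.proj i
  have hlam : ∀ v, lam v = ∑ i, l i * v i := by
    intro v; simp [lam]
  obtain ⟨i₀, hi₀⟩ : ∃ i, l i ≠ 0 := by
    by_contra h; push Not at h; exact hl0 (funext h)
  have hlamne : lam ≠ 0 := by
    intro h
    have := hlam (Pi.single i₀ 1)
    rw [h, Finset.sum_eq_single i₀] at this
    · simp at this; exact hi₀ this.symm
    · intro j _ hj; simp [hj]
    · intro h; exact absurd (Finset.mem_univ _) h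
  set K := LinearMap.ker lam with hK
  -- on the plane the cubic has no multiple root
  have key : ∀ v ∈ K, v ≠ 0 → (∀ u ∈ K, tri T v v u = 0) → False := by
    intro v hv hv0 h
    -- `tri T v v ·` is a multiple of `lam`
    obtain ⟨m, hm⟩ : ∃ m : E3, lam m = 1 := by
      obtain ⟨x, hx⟩ : ∃ x, lam x ≠ 0 := by
        by_contra h; push Not at h; exact hlamne (LinearMap.ext h)
      exact ⟨(lam x)⁻¹ • x, by rw [map_smul, smul_eq_mul, inv_mul_cancel₀ hx]⟩
    set s := tri T v v m with hs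
    have h1 : ∀ w, tri T v v w = s * lam w := by
      intro w
      have h2 : w = (w - lam w • m) + lam w • m := by abel
      have h3 : w - lam w • m ∈ K := by
        rw [hK, LinearMap.mem_ker, map_sub, map_smul, hm, smul_eq_mul, mul_one, sub_self]
      conv_lhs => rw [h2]
      rw [hS.add₃, h _ h3, hS.smul₃, zero_add, mul_comm]
    have hvlam : lam v = 0 := hv
    have hc : tri T v v v = 0 := by rw [h1, hvlam, mul_zero]
    by_cases hs0 : s = 0
    · have hsg : v ∈ Sg T := ⟨hv0, fun w => by rw [h1, hs0, zero_mul]⟩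
      exact hl1 v hsg (by rw [← hlam]; exact hvlam)
    · obtain ⟨r, hr⟩ : ∃ r : ℂ, r ^ 2 = s⁻¹ := IsAlgClosed.exists_pow_nat_eq _ (by norm_num)
      have h4 : tri T (r • v) (r • v) (r • v) = 0 := by
        rw [tri_smul₁, hS.smul₂, hS.smul₃, hc]; ring
      apply hl2 (r • v) h4
      funext k
      rw [vec_eq, tri_smul₁, hS.smul₂, h1, hlam, Finset.sum_eq_single k]
      · have : r * (r * (s * (l k * (Pi.single k (1 : ℂ) : E3) k))) = (r ^ 2 * s) * l k := by
          simp; ring
        rw [this, hr, inv_mul_cancel₀ hs0, one_mul]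
      · intro j _ hj; simp [hj]
      · intro h; exact absurd (Finset.mem_univ _) h
  have hfin : Module.finrank ℂ K = 2 := by
    have h1 := LinearMap.finrank_range_add_finrank_ker lam
    have h2 : Module.finrank ℂ (LinearMap.range lam) = 1 := by
      rw [LinearMap.range_eq_top.2 (LinearMap.surjective hlamne), finrank_top,
        Module.finrank_self]
    have h3 : Module.finrank ℂ E3 = 3 := Module.finrank_fin_fun ℂ
    rw [h2, h3] at h1
    have h4 : 1 + Module.finrank ℂ K = 3 := h1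
    omega
  -- a vector of the plane off the cubic
  obtain ⟨e, heK, he⟩ : ∃ e ∈ K, tri T e e e ≠ 0 := by
    by_contra hcon
    push Not at hcon
    obtain ⟨v, hv⟩ : ∃ v : K, v ≠ 0 := by
      have : Nontrivial K := Module.nontrivial_of_finrank_pos (R := ℂ) (by rw [hfin]; norm_num)
      exact exists_ne 0
    refine key v v.2 (by simpa using hv) fun u hu => ?_
    have e1 := hcon (v + u) (K.add_mem v.2 hu)
    have e2 := hcon (v + (-1 : ℂ) • u) (K.add_mem v.2 (K.smul_mem _ hu))
    have e3 := hcon v v.2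
    have e4 := hcon u hu
    simp only [tri_add₁, hS.add₂, hS.add₃, tri_smul₁, hS.smul₂, hS.smul₃, e3, e4] at e1 e2
    have s1 : tri T (v : E3) u v = tri T v v u := hS.swap₂ _ _ _
    have s2 : tri T u (v : E3) v = tri T v v u := by rw [hS.swap₁, s1]
    have s3 : tri T u (v : E3) u = tri T v u u := hS.swap₁ _ _ _
    have s4 : tri T u u (v : E3) = tri T v u u := hS.swap₃ _ _ _
    rw [s1, s2, s3, s4] at e1 e2
    linear_combination (1 / 6) * e1 - (1 / 6) * e2
  have he0 : e ≠ 0 := by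
    rintro rfl
    apply he
    have := tri_smul₁ (T := T) 0 (0 : E3) 0 0
    simpa using this
  obtain ⟨k, hk⟩ := exists_linearIndependent_pair_of_one_lt_finrank (R := ℂ) (M := K)
    (by rw [hfin]; norm_num) (x := ⟨e, heK⟩) (by simpa using he0)
  obtain ⟨m, hm⟩ : ∃ m : E3, lam m ≠ 0 := by
    by_contra h; push Not at h; exact hlamne (LinearMap.ext h)
  have hek : LinearIndependent ℂ ![e, (k : E3)] := by
    have h1 := hk.map' K.subtype K.ker_subtype
    have h2 : ![e, (k : E3)] = K.subtype ∘ ![⟨e, heK⟩, k] := by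
      funext j; fin_cases j <;> rfl
    rw [h2]; exact h1
  have hli : LinearIndependent ℂ ![e, (k : E3), m] := by
    rw [LinearIndependent.pair_iff] at hek
    rw [Fintype.linearIndependent_iff]
    intro g hg
    simp only [Fin.sum_univ_three, Matrix.cons_val_zero, Matrix.cons_val_one,
      Matrix.cons_val] at hg
    have h1 := congrArg lam hg
    simp only [map_add, map_smul, map_zero] at h1
    have h2 : lam e = 0 := heK
    have h3 : lam (k : E3) = 0 := k.2
    rw [h2, h3, smul_zero, smul_zero, zero_add, zero_add, smul_eq_mul] at h1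
    have h4 : g 2 = 0 := (mul_eq_zero.1 h1).resolve_right hm
    rw [h4, zero_smul, add_zero] at hg
    obtain ⟨h5, h6⟩ := hek _ _ hg
    intro i; fin_cases i
    · exact h5
    · exact h6
    · exact h4
  let b : Module.Basis (Fin 3) ℂ E3 := basisOfLinearIndependentOfCardEqFinrank hli (by simp)
  have hb0 : b 0 = e := by simp [b]
  have hb1 : b 1 = (k : E3) := by simp [b]
  have hb2 : b 2 = m := by simp [b]
  have hcoord : ∀ v, lam v = b.coord 2 v * lam m := by
    intro v
    conv_lhs => rw [← b.sum_repr v]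
    rw [Fin.sum_univ_three, hb0, hb1, hb2]
    simp only [map_add, map_smul, smul_eq_mul]
    have h2 : lam e = 0 := heK
    have h3 : lam (k : E3) = 0 := k.2
    rw [h2, h3]
    simp [Module.Basis.coord_apply]
  refine ⟨b, by rw [hb0]; exact he, fun v hv0 hv h1 h2 => ?_⟩
  rw [hb0] at h2
  have hvK : v ∈ K := by rw [hK, LinearMap.mem_ker, hcoord, hv, zero_mul]
  -- `v, e` span the plane
  have hve : LinearIndependent ℂ ![(⟨e, heK⟩ : K), ⟨v, hvK⟩] := by
    rw [LinearIndependent.pair_iff]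
    intro s t hst
    have h3 : s • e + t • v = 0 := congrArg Subtype.val hst
    have hs : s = 0 := by
      by_contra hs
      apply he
      have h4 : e = (-(s⁻¹ * t)) • v := by
        have h5 : s • e = (-t) • v := by rw [neg_smul]; exact eq_neg_of_add_eq_zero_left h3
        calc e = s⁻¹ • (s • e) := by rw [smul_smul, inv_mul_cancel₀ hs, one_smul]
          _ = _ := by rw [h5, smul_smul]; congr 1; ring
      rw [h4, tri_smul₁, hS.smul₂, hS.smul₃, h1]; ring
    refine ⟨hs, ?_⟩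
    rw [hs, zero_smul, zero_add] at h3
    exact (smul_eq_zero.1 h3).resolve_right hv0
  refine key v hvK hv0 fun u hu => ?_
  let b' : Module.Basis (Fin 2) ℂ K := basisOfLinearIndependentOfCardEqFinrank hve (by simp [hfin])
  have h5 : u = (b'.repr ⟨u, hu⟩ 0) • e + (b'.repr ⟨u, hu⟩ 1) • v := by
    have h6 := b'.sum_repr ⟨u, hu⟩
    rw [Fin.sum_univ_two] at h6
    have h7 := congrArg Subtype.val h6
    simp only [b', coe_basisOfLinearIndependentOfCardEqFinrank, Matrix.cons_val_zero,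
      Matrix.cons_val_one] at h7
    exact h7.symm
  rw [h5, hS.add₃, hS.smul₃, hS.smul₃, h1, h2]; ring

end Crest.Agent.R257.Flag3_799
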