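import Crest.Agent.R257.Flag3A_799
import Crest.Agent.R257.Flag3B_799

/-!
R257 / Flag3C_799: expansions along a direction of a family with vanishing 2-jet:
`F (z u, t) = z³ Q`, `∂ᵢF (z u, t) = z² Rᵢ`.
-/

set_option autoImplicit false
set_option linter.unusedSectionVars false

open Set Filter Topology Metric
open Crest.AlgGeometry.Germ

noncomputable section

namespace Crest.Agent.R257.Flag3_799

open Crest.Agent.R257.Defs_219 Crest.Agent.R257.LCDefs_472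

variable {n : ℕ}

/-! ### derivatives along a line -/

theorem fd_sum (f : (Fin n → ℂ) → ℂ) (x m : Fin n → ℂ) :
    fderiv ℂ f x m = ∑ i, m i * coordDeriv f i x := by
  have h1 : m = ∑ i, m i • (Pi.single i (1 : ℂ) : Fin n → ℂ) := by
    funext j
    rw [Finset.sum_apply, Finset.sum_eq_single j]
    · simp
    · intro i _ hi; simp [hi.symm]
    · intro h; exact absurd (Finset.mem_univ _) h
  conv_lhs => rw [h1]
  rw [map_sum]
  exact Finset.sum_congr rfl fun i _ => by rw [map_smul, smul_eq_mul]; rfl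

theorem hasDerivAt_line {f : (Fin n → ℂ) → ℂ} {u : Fin n → ℂ} {z : ℂ}
    (hf : AnalyticAt ℂ f (z • u)) :
    HasDerivAt (fun z : ℂ => f (z • u)) (∑ i, u i * coordDeriv f i (z • u)) z := by
  rw [← fd_sum]
  have h1 : HasDerivAt (fun z : ℂ => z • u) ((1 : ℂ) • u) z := (hasDerivAt_id z).smul_const u
  rw [one_smul] at h1
  exact hf.differentiableAt.hasFDerivAt.comp_hasDerivAt z h1

theorem tendsto_line (u : Fin n → ℂ) : Tendsto (fun z : ℂ => z • u) (𝓝 0) (𝓝 0) := by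
  have : Continuous (fun z : ℂ => z • u) := by fun_prop
  exact this.tendsto' _ _ (by simp)

theorem an_line {f : (Fin n → ℂ) → ℂ} (hf : AnalyticAt ℂ f 0) (u : Fin n → ℂ) :
    AnalyticAt ℂ (fun z : ℂ => f (z • u)) 0 := by
  have h1 : AnalyticAt ℂ (fun z : ℂ => z • u) 0 := analyticAt_id.smul analyticAt_const
  refine AnalyticAt.fun_comp (g := f) (f := fun z : ℂ => z • u) ?_ h1
  simpa using hf

theorem itd_succ {f : (Fin n → ℂ) → ℂ} (hf : AnalyticAt ℂ f 0) (u : Fin n → ℂ) (k : ℕ) :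
    iteratedDeriv (k + 1) (fun z : ℂ => f (z • u)) 0 =
      ∑ i, u i * iteratedDeriv k (fun z : ℂ => coordDeriv f i (z • u)) 0 := by
  have h1 : deriv (fun z : ℂ => f (z • u)) =ᶠ[𝓝 0]
      fun z => ∑ i, u i * coordDeriv f i (z • u) := by
    filter_upwards [(tendsto_line u).eventually hf.eventually_analyticAt] with z hz
    exact (hasDerivAt_line hz).deriv
  have h2 : ∀ i, ContDiffAt ℂ k (fun z : ℂ => coordDeriv f i (z • u)) 0 := fun i =>
    (an_line (an_cd hf i) u).contDiffAt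
  rw [iteratedDeriv_succ', h1.iteratedDeriv_eq k, iteratedDeriv_fun_sum]
  · exact Finset.sum_congr rfl fun i _ => iteratedDeriv_const_mul (u i) (h2 i)
  · exact fun i _ => contDiffAt_const.mul (h2 i)

theorem itd_zero (f : (Fin n → ℂ) → ℂ) (u : Fin n → ℂ) :
    iteratedDeriv 0 (fun z : ℂ => f (z • u)) 0 = f 0 := by
  rw [iteratedDeriv_zero, zero_smul]

/-! ### families -/

/-- the hypotheses used below -/
structure Hyp3 (F : E3 × ℂ → ℂ) : Prop where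
  an : AnalyticAt ℂ F (0, 0)
  zero : ∀ᶠ t in 𝓝 (0 : ℂ), F (0, t) = 0
  crit : ∀ᶠ t in 𝓝 (0 : ℂ), ∀ i, coordDeriv (sl F t) i 0 = 0
  hess : ∀ᶠ t in 𝓝 (0 : ℂ), ∀ i j, H2 (sl F t) i j = 0

theorem an_sl {F : (Fin n → ℂ) × ℂ → ℂ} {x : Fin n → ℂ} {t : ℂ} (hF : AnalyticAt ℂ F (x, t)) :
    AnalyticAt ℂ (sl F t) x :=
  AnalyticAt.fun_comp (g := F) (f := fun x : Fin n → ℂ => (x, t)) hF
    (analyticAt_id.prod analyticAt_const)

theorem ev_an_sl {F : (Fin n → ℂ) × ℂ → ℂ} (hF : AnalyticAt ℂ F (0, 0)) :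
    ∀ᶠ t in 𝓝 (0 : ℂ), AnalyticAt ℂ (sl F t) 0 := by
  have h1 : Tendsto (fun t : ℂ => ((0 : Fin n → ℂ), t)) (𝓝 0) (𝓝 (0, 0)) := by
    have : Continuous (fun t : ℂ => ((0 : Fin n → ℂ), t)) := by fun_prop
    exact this.tendsto' _ _ rfl
  filter_upwards [h1.eventually hF.eventually_analyticAt] with t ht
  exact an_sl ht

theorem cd_sl {F : (Fin n → ℂ) × ℂ → ℂ} {p : (Fin n → ℂ) × ℂ} (hF : DifferentiableAt ℂ F p)
    (i : Fin n) : coordDeriv (sl F p.2) i p.1 = fderiv ℂ F p (Pi.single i 1, 0) := by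
  have h1 : HasFDerivAt (fun x : Fin n → ℂ => ((x, p.2) : (Fin n → ℂ) × ℂ))
      (ContinuousLinearMap.inl ℂ (Fin n → ℂ) ℂ) p.1 := hasFDerivAt_prodMk_left p.1 p.2
  have h2 : HasFDerivAt F (fderiv ℂ F p)
      ((fun x : Fin n → ℂ => ((x, p.2) : (Fin n → ℂ) × ℂ)) p.1) := hF.hasFDerivAt
  have h3 : HasFDerivAt (sl F p.2)
      ((fderiv ℂ F p).comp (ContinuousLinearMap.inl ℂ (Fin n → ℂ) ℂ)) p.1 := h2.comp p.1 h1
  change fderiv ℂ (sl F p.2) p.1 (Pi.single i 1) = _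
  rw [h3.fderiv]
  rfl

theorem an_cdt {F : (Fin n → ℂ) × ℂ → ℂ} {p : (Fin n → ℂ) × ℂ} (hF : AnalyticAt ℂ F p)
    (i : Fin n) : AnalyticAt ℂ (fun p : (Fin n → ℂ) × ℂ => coordDeriv (sl F p.2) i p.1) p := by
  have h1 : AnalyticAt ℂ (fun p => fderiv ℂ F p ((Pi.single i 1 : Fin n → ℂ), (0 : ℂ))) p :=
    ((ContinuousLinearMap.apply ℂ ℂ ((Pi.single i 1 : Fin n → ℂ), (0 : ℂ))).analyticAt _).fun_comp
      hF.fderiv
  refine h1.congr ?_
  filter_upwards [hF.eventually_analyticAt] with q hq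
  exact (cd_sl hq.differentiableAt i).symm

/-- the map `((u,t),z) ↦ (z u, t)` -/
theorem an_dir (v : E3) {G : E3 × ℂ → ℂ} (hG : AnalyticAt ℂ G (0, 0)) :
    AnalyticAt ℂ (fun q : (E3 × ℂ) × ℂ => G (q.2 • q.1.1, q.1.2)) ((v, 0), 0) := by
  have h1 : AnalyticAt ℂ (fun q : (E3 × ℂ) × ℂ => ((q.2 • q.1.1, q.1.2) : E3 × ℂ))
      ((v, 0), 0) := by
    refine AnalyticAt.prod ?_ ?_
    · exact analyticAt_snd.smul (analyticAt_fst.fun_comp analyticAt_fst)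
    · exact analyticAt_snd.fun_comp analyticAt_fst
  refine AnalyticAt.fun_comp (g := G)
    (f := fun q : (E3 × ℂ) × ℂ => ((q.2 • q.1.1, q.1.2) : E3 × ℂ)) ?_ h1
  simpa using hG

theorem ev_t {P : ℂ → Prop} (h : ∀ᶠ t in 𝓝 (0 : ℂ), P t) (v : E3) :
    ∀ᶠ e in 𝓝 ((v, (0 : ℂ)) : E3 × ℂ), P e.2 :=
  (continuous_snd.continuousAt (x := ((v, (0 : ℂ)) : E3 × ℂ))).eventually h

theorem exp_F {F : E3 × ℂ → ℂ} (h : Hyp3 F) (v : E3) : ∃ Q : (E3 × ℂ) × ℂ → ℂ,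
    AnalyticAt ℂ Q ((v, 0), 0) ∧
    (∀ᶠ q in 𝓝 ((v, (0 : ℂ)), (0 : ℂ)), F (q.2 • q.1.1, q.1.2) = q.2 ^ 3 * Q q) ∧
    6 * Q ((v, 0), 0) = D3 (sl F 0) v v v := by
  have hev : ∀ j < 3, ∀ᶠ e in 𝓝 ((v, (0 : ℂ)) : E3 × ℂ),
      iteratedDeriv j (fun z : ℂ => F (z • e.1, e.2)) 0 = 0 := by
    intro j hj
    filter_upwards [ev_t (ev_an_sl h.an) v, ev_t h.zero v, ev_t h.crit v, ev_t h.hess v]
      with e h1 h2 h3 h4
    have e1 : (fun z : ℂ => F (z • e.1, e.2)) = fun z : ℂ => sl F e.2 (z • e.1) := rfl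
    rw [e1]
    interval_cases j
    · rw [itd_zero]; exact h2
    · rw [itd_succ h1]
      refine Finset.sum_eq_zero fun i _ => ?_
      rw [itd_zero, h3 i, mul_zero]
    · rw [itd_succ h1]
      refine Finset.sum_eq_zero fun i _ => ?_
      rw [itd_succ (an_cd h1 i), Finset.sum_eq_zero, mul_zero]
      intro j _
      rw [itd_zero]
      exact mul_eq_zero_of_right _ (h4 i j)
  obtain ⟨Q, hQ, h1, h2⟩ := div_pow (E := E3 × ℂ) (e₀ := (v, 0)) (an_dir v h.an) 3 hev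
  refine ⟨Q, hQ, h1, ?_⟩
  have h3 := h2.self_of_nhds
  have h4 : AnalyticAt ℂ (sl F 0) 0 := an_sl h.an
  have e1 : (fun z : ℂ => F (z • ((v, (0 : ℂ)) : E3 × ℂ).1, ((v, (0 : ℂ)) : E3 × ℂ).2)) =
    fun z : ℂ => sl F 0 (z • v) := rfl
  have h5 : ((3).factorial : ℂ) = 6 := by norm_num [Nat.factorial]
  simp only at h3
  rw [h5] at h3
  rw [← h3]
  have h6 : (fun z : ℂ => F (z • v, 0)) = fun z : ℂ => sl F 0 (z • v) := rfl
  rw [h6, itd_succ h4, D3]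
  refine Finset.sum_congr rfl fun i _ => ?_
  rw [itd_succ (an_cd h4 i), Finset.mul_sum]
  refine Finset.sum_congr rfl fun j _ => ?_
  rw [itd_succ (an_cd (an_cd h4 i) j), Finset.mul_sum, Finset.mul_sum]
  refine Finset.sum_congr rfl fun k _ => ?_
  rw [itd_zero]
  simp only [H3]
  ring

theorem exp_D {F : E3 × ℂ → ℂ} (h : Hyp3 F) (v : E3) (i : Fin 3) : ∃ R : (E3 × ℂ) × ℂ → ℂ,
    AnalyticAt ℂ R ((v, 0), 0) ∧
    (∀ᶠ q in 𝓝 ((v, (0 : ℂ)), (0 : ℂ)),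
      coordDeriv (sl F q.1.2) i (q.2 • q.1.1) = q.2 ^ 2 * R q) ∧
    ∀ᶠ u in 𝓝 v, 2 * R ((u, 0), 0) = tri (H3 (sl F 0)) (Pi.single i 1) u u := by
  have hev : ∀ j < 2, ∀ᶠ e in 𝓝 ((v, (0 : ℂ)) : E3 × ℂ),
      iteratedDeriv j (fun z : ℂ => coordDeriv (sl F e.2) i (z • e.1)) 0 = 0 := by
    intro j hj
    filter_upwards [ev_t (ev_an_sl h.an) v, ev_t h.zero v, ev_t h.crit v, ev_t h.hess v]
      with e h1 h2 h3 h4
    interval_cases j
    · rw [itd_zero]; exact h3 i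
    · rw [itd_succ (an_cd h1 i)]
      refine Finset.sum_eq_zero fun j _ => ?_
      rw [itd_zero]
      exact mul_eq_zero_of_right _ (h4 i j)
  obtain ⟨R, hR, h1, h2⟩ := div_pow (E := E3 × ℂ) (e₀ := (v, 0))
    (an_dir v (an_cdt h.an i)) 2 hev
  refine ⟨R, hR, h1, ?_⟩
  have h3 : Tendsto (fun u : E3 => (u, (0 : ℂ))) (𝓝 v) (𝓝 (v, 0)) := by
    have : Continuous (fun u : E3 => (u, (0 : ℂ))) := by fun_prop
    exact this.tendsto' _ _ rfl
  filter_upwards [h3.eventually h2] with u hu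
  have h4 : AnalyticAt ℂ (sl F 0) 0 := an_sl h.an
  have h5 : ((2).factorial : ℂ) = 2 := by norm_num [Nat.factorial]
  rw [h5] at hu
  have e2 : tri (H3 (sl F 0)) (Pi.single i 1) u u =
      ∑ j, ∑ k, H3 (sl F 0) i j k * u j * u k := by
    rw [tri, Finset.sum_eq_single i]
    · refine Finset.sum_congr rfl fun j _ => Finset.sum_congr rfl fun k _ => ?_
      rw [Pi.single_eq_same, mul_one]
    · intro j _ hj
      refine Finset.sum_eq_zero fun k _ => Finset.sum_eq_zero fun l _ => ?_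
      simp [hj]
    · intro h; exact absurd (Finset.mem_univ _) h
  rw [← hu, itd_succ (an_cd h4 i), e2]
  refine Finset.sum_congr rfl fun j _ => ?_
  rw [itd_succ (an_cd (an_cd h4 i) j), Finset.mul_sum]
  refine Finset.sum_congr rfl fun k _ => ?_
  rw [itd_zero]
  simp only [H3]
  ring

/-! ### non-vanishing near a direction -/

theorem ne_F {F : E3 × ℂ → ℂ} (h : Hyp3 F) {v : E3} (hv : D3 (sl F 0) v v v ≠ 0) :
    ∀ᶠ q in 𝓝 ((v, (0 : ℂ)), (0 : ℂ)), q.2 ≠ 0 → F (q.2 • q.1.1, q.1.2) ≠ 0 := by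
  obtain ⟨Q, hQ, h1, h2⟩ := exp_F h v
  have h3 : Q ((v, 0), 0) ≠ 0 := by
    intro h0; rw [h0, mul_zero] at h2; exact hv h2.symm
  filter_upwards [h1, hQ.continuousAt.eventually_ne h3] with q hq hq2 hq3
  rw [hq]
  exact mul_ne_zero (pow_ne_zero _ hq3) hq2

theorem ne_D {F : E3 × ℂ → ℂ} (h : Hyp3 F) {v : E3} (m : E3) (hv : D3 (sl F 0) v v m ≠ 0) :
    ∀ᶠ q in 𝓝 ((v, (0 : ℂ)), (0 : ℂ)), q.2 ≠ 0 →
      fderiv ℂ (sl F q.1.2) (q.2 • q.1.1) m ≠ 0 := by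
  choose R hR h1 h2 using exp_D h v
  have hS : Sy (H3 (sl F 0)) := sy_H3 (an_sl h.an)
  have h3 : (∑ i, m i * R i ((v, 0), 0)) ≠ 0 := by
    intro h0
    apply hv
    have h4 : D3 (sl F 0) v v m = tri (H3 (sl F 0)) m v v := by rw [D3_eq, hS.swap₃]
    have h5 : tri (H3 (sl F 0)) m v v = ∑ i, m i * tri (H3 (sl F 0)) (Pi.single i 1) v v := by
      have h6 : ∀ i, tri (H3 (sl F 0)) (Pi.single i 1) v v = vec (H3 (sl F 0)) v v i := by
        intro i; rw [vec_eq, hS.swap₃]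
      simp only [h6]
      rw [hS.swap₃, tri_eq_vec]
      exact Finset.sum_congr rfl fun i _ => mul_comm _ _
    rw [h4, h5]
    have h7 : ∀ i, m i * tri (H3 (sl F 0)) (Pi.single i 1) v v = 2 * (m i * R i ((v, 0), 0)) := by
      intro i; rw [← (h2 i).self_of_nhds]; ring
    rw [Finset.sum_congr rfl fun i _ => h7 i, ← Finset.mul_sum, h0, mul_zero]
  have hRa : ContinuousAt (fun q : (E3 × ℂ) × ℂ => ∑ i, m i * R i q) ((v, 0), 0) := by
    refine tendsto_finsetSum _ fun i _ => ?_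
    exact (hR i).continuousAt.tendsto.const_mul (m i)
  filter_upwards [eventually_all.2 h1, hRa.eventually_ne h3] with q hq hq2 hq3
  rw [fd_sum]
  have h4 : ∑ i, m i * coordDeriv (sl F q.1.2) i (q.2 • q.1.1) = q.2 ^ 2 * ∑ i, m i * R i q := by
    rw [Finset.mul_sum]
    exact Finset.sum_congr rfl fun i _ => by rw [hq i]; ring
  rw [h4]
  exact mul_ne_zero (pow_ne_zero _ hq3) hq2

end Crest.Agent.R257.Flag3_799
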