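import Crest.Agent.R257.Flag3C_799
import Crest.Agent.R257.FlowF_941

/-!
R257 / Flag3D_799: `Flag3Stmt` of `LCDefs_472`: a `μ`-constant family of germs of multiplicity `3`
whose `3`-jet at `t = 0` is a nodal (or smooth) cubic satisfies the conclusion of S0395; the flag
consists of two constant linear forms.
-/

set_option autoImplicit false
set_option linter.unusedSectionVars false

open Set Filter Topology Metric
open Crest.AlgGeometry.Germ

noncomputable section

namespace Crest.Agent.R257.Flag3_799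

open Crest.Agent.R257.Defs_219 Crest.Agent.R257.LCDefs_472

abbrev K2 : Type := ℂ × ℂ

section Node

variable {F : E3 × ℂ → ℂ} (b : Module.Basis (Fin 3) ℂ E3)

/-- the plane of `b 0, b 1` -/
def kk (w : K2) : E3 := w.1 • b 0 + w.2 • b 1

theorem kk_coord (w : K2) : b.coord 0 (kk b w) = w.1 ∧ b.coord 1 (kk b w) = w.2 ∧
    b.coord 2 (kk b w) = 0 := by
  simp only [kk, map_add, map_smul, smul_eq_mul, Module.Basis.coord_apply, Module.Basis.repr_self]
  refine ⟨?_, ?_, ?_⟩ <;> simp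

theorem kk_smul (c : ℂ) (w : K2) : kk b (c • w) = c • kk b w := by
  simp only [kk, Prod.smul_fst, Prod.smul_snd, smul_eq_mul, smul_add, smul_smul]

theorem an_kk (p : K2) : AnalyticAt ℂ (kk b) p := by
  unfold kk
  exact (analyticAt_fst.smul analyticAt_const).add (analyticAt_snd.smul analyticAt_const)

/-- a linear form which kills `b 0`, `b 1` and `v`, `b.coord 2 v ≠ 0`, is zero -/
theorem kill {A : E3 → ℂ} (hadd : ∀ x y, A (x + y) = A x + A y) (hsm : ∀ (c : ℂ) x, A (c • x) = c * A x)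
    {v : E3} (hv : b.coord 2 v ≠ 0) (h0 : A (b 0) = 0) (h1 : A (b 1) = 0) (h2 : A v = 0) (x : E3) :
    A x = 0 := by
  have e : ∀ y : E3, A y = b.coord 2 y * A (b 2) := by
    intro y
    conv_lhs => rw [← b.sum_repr y]
    rw [Fin.sum_univ_three, hadd, hadd, hsm, hsm, hsm, h0, h1]
    simp [Module.Basis.coord_apply]
  have h3 : A (b 2) = 0 := by
    rw [e] at h2
    exact (mul_eq_zero.1 h2).resolve_left hv
  rw [e, h3, mul_zero]

theorem node (h : Hyp3 F) (hN : Nod (H3 (sl F 0)))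
    (hiso : ∀ᶠ q in 𝓝 ((0 : E3), (0 : ℂ)), (∀ i, coordDeriv (sl F q.2) i q.1 = 0) → q.1 = 0)
    {v : E3} (hv0 : v ≠ 0) (hv : ∀ w, D3 (sl F 0) v v w = 0) (hc : b.coord 2 v ≠ 0) :
    ∀ᶠ q in 𝓝 ((v, (0 : ℂ)), (0 : ℂ)), q.2 ≠ 0 → F (q.2 • q.1.1, q.1.2) = 0 →
      fderiv ℂ (sl F q.1.2) (q.2 • q.1.1) (b 0) = 0 →
      fderiv ℂ (sl F q.1.2) (q.2 • q.1.1) (b 1) = 0 → False := by
  have hS : Sy (H3 (sl F 0)) := sy_H3 (an_sl h.an)
  choose R hR h1 h2 using exp_D h v
  set T := H3 (sl F 0) with hT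
  -- the combination of the `R i`
  let RR : E3 → (E3 × ℂ) × ℂ → ℂ := fun m q => ∑ i, m i * R i q
  have hRR : ∀ m, AnalyticAt ℂ (RR m) ((v, 0), 0) := fun m =>
    Finset.analyticAt_fun_sum _ fun i _ => analyticAt_const.mul (hR i)
  have hRRe : ∀ᶠ q in 𝓝 ((v, (0 : ℂ)), (0 : ℂ)), ∀ m,
      fderiv ℂ (sl F q.1.2) (q.2 • q.1.1) m = q.2 ^ 2 * RR m q := by
    filter_upwards [eventually_all.2 h1] with q hq m
    rw [fd_sum, Finset.mul_sum]
    exact Finset.sum_congr rfl fun i _ => by rw [hq i]; ring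
  have hRR0 : ∀ᶠ u in 𝓝 v, ∀ m, 2 * RR m ((u, 0), 0) = tri T u u m := by
    filter_upwards [eventually_all.2 h2] with u hu m
    have h6 : ∀ i, 2 * R i ((u, 0), 0) = vec T u u i := by
      intro i; rw [vec_eq, hS.swap₃]; exact hu i
    rw [tri_eq_vec, Finset.mul_sum]
    exact Finset.sum_congr rfl fun i _ => by rw [← h6 i]; ring
  -- the map
  let A : K2 × K2 → (E3 × ℂ) × ℂ := fun q => ((v + kk b q.1, q.2.1), q.2.2)
  have hA : AnalyticAt ℂ A 0 := by
    refine AnalyticAt.prod (AnalyticAt.prod ?_ ?_) ?_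
    · exact analyticAt_const.add ((an_kk b _).fun_comp analyticAt_fst)
    · exact analyticAt_fst.fun_comp analyticAt_snd
    · exact analyticAt_snd.fun_comp analyticAt_snd
  have hkk0 : kk b 0 = 0 := by simp [kk]
  have hA0 : A 0 = ((v, 0), 0) := by
    simp only [A, Prod.fst_zero, Prod.snd_zero, hkk0, add_zero]
  let N : K2 × K2 → K2 := fun q => (RR (b 0) (A q), RR (b 1) (A q))
  have hNa : AnalyticAt ℂ N 0 := by
    refine AnalyticAt.prod ?_ ?_
    · exact AnalyticAt.fun_comp (g := RR (b 0)) (f := A) (by rw [hA0]; exact hRR _) hA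
    · exact AnalyticAt.fun_comp (g := RR (b 1)) (f := A) (by rw [hA0]; exact hRR _) hA
  have hRv : ∀ m, RR m ((v, 0), 0) = 0 := by
    intro m
    have h3 := hRR0.self_of_nhds m
    rw [show tri T v v m = 0 from hv m] at h3
    exact (mul_eq_zero.1 h3).resolve_left two_ne_zero
  have hN0 : N 0 = 0 := by
    simp only [N, hA0, hRv]; rfl
  have hinj : ∀ w : K2, fderiv ℂ N 0 (w, 0) = 0 → w = 0 := by
    intro w hw
    have e1 : HasDerivAt (fun s : ℂ => N (s • (w, (0 : K2)))) (fderiv ℂ N 0 (w, 0)) 0 := by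
      have e2 : HasDerivAt (fun s : ℂ => s • ((w, (0 : K2)) : K2 × K2)) ((1 : ℂ) • (w, (0 : K2))) 0 :=
        (hasDerivAt_id (0 : ℂ)).smul_const _
      rw [one_smul] at e2
      have e3 : HasFDerivAt N (fderiv ℂ N 0) ((0 : ℂ) • ((w, (0 : K2)) : K2 × K2)) := by
        rw [zero_smul]; exact hNa.differentiableAt.hasFDerivAt
      exact e3.comp_hasDerivAt (0 : ℂ) e2
    rw [hw] at e1
    -- explicit form
    have e4 : ∀ᶠ s in 𝓝 (0 : ℂ), ∀ m, RR m (A (s • (w, (0 : K2)))) =
        s * tri T v (kk b w) m + s ^ 2 * (tri T (kk b w) (kk b w) m / 2) := by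
      have e5 : Tendsto (fun s : ℂ => v + s • kk b w) (𝓝 0) (𝓝 v) := by
        have : Continuous (fun s : ℂ => v + s • kk b w) := by fun_prop
        exact this.tendsto' _ _ (by simp)
      filter_upwards [e5.eventually hRR0] with s hs m
      have e6 : A (s • (w, (0 : K2))) = ((v + s • kk b w, 0), 0) := by
        simp only [A, Prod.smul_fst, Prod.smul_snd, kk_smul, smul_zero, Prod.fst_zero,
          Prod.snd_zero]
      rw [e6]
      have e7 := hs m
      rw [tri_add₁, hS.add₂, hS.add₂, hS.smul₂, hS.smul₂, tri_smul₁, tri_smul₁,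
        show tri T v v m = 0 from hv m, hS.swap₁ (kk b w) v m] at e7
      linear_combination (1 / 2) * e7
    have e8 : ∀ m, HasDerivAt (fun s : ℂ => s * tri T v (kk b w) m +
        s ^ 2 * (tri T (kk b w) (kk b w) m / 2)) (tri T v (kk b w) m) 0 := by
      intro m
      have e9 := ((hasDerivAt_id (0 : ℂ)).mul_const (tri T v (kk b w) m)).add
        (((hasDerivAt_id (0 : ℂ)).pow 2).mul_const (tri T (kk b w) (kk b w) m / 2))
      simp only [id, Nat.cast_ofNat, one_mul] at e9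
      have e10 : tri T v (kk b w) m + 2 * 0 ^ (2 - 1) * 1 * (tri T (kk b w) (kk b w) m / 2) =
        tri T v (kk b w) m := by norm_num
      rw [e10] at e9
      exact e9
    have e11 : tri T v (kk b w) (b 0) = 0 := by
      have e12 := e1.fst
      have e13 : HasDerivAt (fun s : ℂ => RR (b 0) (A (s • (w, (0 : K2)))))
          (tri T v (kk b w) (b 0)) 0 :=
        (e8 (b 0)).congr_of_eventuallyEq (e4.mono fun s hs => hs (b 0))
      exact e13.unique e12
    have e14 : tri T v (kk b w) (b 1) = 0 := by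
      have e12 := e1.snd
      have e13 : HasDerivAt (fun s : ℂ => RR (b 1) (A (s • (w, (0 : K2)))))
          (tri T v (kk b w) (b 1)) 0 :=
        (e8 (b 1)).congr_of_eventuallyEq (e4.mono fun s hs => hs (b 1))
      exact e13.unique e12
    have e15 : tri T v (kk b w) v = 0 := by rw [hS.swap₂]; exact hv _
    have e16 := kill b (A := fun x => tri T v (kk b w) x) (fun x y => hS.add₃ _ _ _ _)
      (fun c x => hS.smul₃ _ _ _ _) hc e11 e14 e15
    obtain ⟨c, hc1⟩ := hN v (kk b w) hv0 hv e16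
    obtain ⟨k0, k1, k2⟩ := kk_coord b w
    have e17 : c = 0 := by
      have := congrArg (b.coord 2) hc1
      rw [k2, map_smul, smul_eq_mul] at this
      exact (mul_eq_zero.1 this.symm).resolve_right hc
    rw [e17, zero_smul] at hc1
    rw [hc1, map_zero] at k0 k1
    exact Prod.ext k0.symm k1.symm
  obtain ⟨W, hW, hW0, hW1, hW2⟩ := ift hNa hN0 hinj
  -- the critical value
  let X : K2 → (E3 × ℂ) × ℂ := fun p => ((v + kk b (W p), p.1), p.2)
  have hX : AnalyticAt ℂ X 0 := by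
    refine AnalyticAt.prod (AnalyticAt.prod ?_ analyticAt_fst) analyticAt_snd
    exact analyticAt_const.add ((an_kk b _).fun_comp hW)
  have hX0 : X 0 = ((v, 0), 0) := by
    simp only [X, hW0, hkk0, add_zero, Prod.fst_zero, Prod.snd_zero]
  have hXt : Tendsto X (𝓝 0) (𝓝 ((v, 0), 0)) := by
    have := hX.continuousAt.tendsto; rwa [hX0] at this
  let H : K2 → ℂ := fun p => F (p.2 • (v + kk b (W p)), p.1)
  have hH : AnalyticAt ℂ H 0 :=
    AnalyticAt.fun_comp (g := fun q : (E3 × ℂ) × ℂ => F (q.2 • q.1.1, q.1.2)) (f := X)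
      (by rw [hX0]; exact an_dir v h.an) hX
  have hH0 : ∀ᶠ t in 𝓝 (0 : ℂ), H (t, 0) = 0 := by
    filter_upwards [h.zero] with t ht
    simp only [H, zero_smul]; exact ht
  have hXd : Tendsto (fun p : K2 => ((p.2 • (v + kk b (W p)), p.1) : E3 × ℂ)) (𝓝 0)
      (𝓝 ((0 : E3), (0 : ℂ))) := by
    have e1 : AnalyticAt ℂ (fun p : K2 => ((p.2 • (v + kk b (W p)), p.1) : E3 × ℂ)) 0 := by
      refine AnalyticAt.prod (analyticAt_snd.smul ?_) analyticAt_fst
      exact analyticAt_const.add ((an_kk b _).fun_comp hW)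
    have e2 := e1.continuousAt.tendsto
    simpa using e2
  have hcoord : ∀ w : K2, b.coord 2 (v + kk b w) = b.coord 2 v := by
    intro w
    rw [map_add, (kk_coord b w).2.2, add_zero]
  have hH1 : ∀ᶠ p in 𝓝 (0 : K2), p.2 ≠ 0 → deriv (fun z => H (p.1, z)) p.2 ≠ 0 := by
    filter_upwards [hXt.eventually hRRe, hW2, hW.eventually_analyticAt,
      hXd.eventually h.an.eventually_analyticAt, hXd.eventually hiso] with p p1 p2 p3 p4 p5 p6 p7
    obtain ⟨t, ζ⟩ := p
    simp only at p4 p5 p6 p7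
    set x : E3 := ζ • (v + kk b (W (t, ζ))) with hx
    have c0 : fderiv ℂ (sl F t) x (b 0) = 0 := by
      have e1 := p1 (b 0)
      have e2 : RR (b 0) (X (t, ζ)) = 0 := congrArg Prod.fst p2
      rw [e2, mul_zero] at e1
      exact e1
    have c1 : fderiv ℂ (sl F t) x (b 1) = 0 := by
      have e1 := p1 (b 1)
      have e2 : RR (b 1) (X (t, ζ)) = 0 := congrArg Prod.snd p2
      rw [e2, mul_zero] at e1
      exact e1
    have hdW : ∃ w' : K2, HasDerivAt (fun z : ℂ => W (t, z)) w' ζ := by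
      have e1 : HasDerivAt (fun z : ℂ => (t, z)) ((0 : ℂ), (1 : ℂ)) ζ :=
        (hasDerivAt_const ζ t).prodMk (hasDerivAt_id ζ)
      exact ⟨_, (p3.differentiableAt.hasFDerivAt (x := (t, ζ))).comp_hasDerivAt ζ e1⟩
    obtain ⟨w', hw'⟩ := hdW
    have d1 : HasDerivAt (fun z : ℂ => kk b (W (t, z))) (kk b w') ζ := by
      have e1 : HasDerivAt (fun z : ℂ => (W (t, z)).1) w'.1 ζ := hw'.fst
      have e2 : HasDerivAt (fun z : ℂ => (W (t, z)).2) w'.2 ζ := hw'.snd
      exact (e1.smul_const (b 0)).add (e2.smul_const (b 1))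
    have d2 : HasDerivAt (fun z : ℂ => z • (v + kk b (W (t, z))))
        (ζ • kk b w' + (1 : ℂ) • (v + kk b (W (t, ζ)))) ζ :=
      (hasDerivAt_id ζ).smul (d1.const_add v)
    have d3 : HasFDerivAt (sl F t) (fderiv ℂ (sl F t) x) x := (an_sl p4).differentiableAt.hasFDerivAt
    have d3' : HasFDerivAt (sl F t) (fderiv ℂ (sl F t) x)
        ((fun z : ℂ => z • (v + kk b (W (t, z)))) ζ) := d3
    have d4 : HasDerivAt (fun z : ℂ => H (t, z))
        (fderiv ℂ (sl F t) x (ζ • kk b w' + (1 : ℂ) • (v + kk b (W (t, ζ))))) ζ :=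
      HasFDerivAt.comp_hasDerivAt (x := ζ) (l := sl F t) d3' d2
    rw [d4.deriv] at p7
    have c2 : fderiv ℂ (sl F t) x (kk b w') = 0 := by
      simp only [kk, map_add, map_smul, c0, c1, smul_zero, add_zero]
    rw [map_add, map_smul, c2, smul_zero, zero_add, one_smul] at p7
    have c3 := kill b (A := fun y => fderiv ℂ (sl F t) x y) (fun x y => map_add _ _ _)
      (fun c x => by rw [map_smul, smul_eq_mul]) (v := v + kk b (W (t, ζ)))
      (by rw [hcoord]; exact hc) c0 c1 p7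
    have c4 : x = 0 := p5 fun i => c3 _
    rw [hx] at c4
    have c5 := congrArg (b.coord 2) ((smul_eq_zero.1 c4).resolve_left p6)
    rw [hcoord, map_zero] at c5
    exact hc c5
  have hH2 := zz hH hH0 hH1
  -- change of coordinates
  let s : E3 → ℂ := fun u => b.coord 2 u / b.coord 2 v
  let ω : E3 → K2 := fun u => (b.coord 0 u / s u - b.coord 0 v, b.coord 1 u / s u - b.coord 1 v)
  have hcont : ∀ i, Continuous (b.coord i) := fun i => (b.coord i).continuous_of_finiteDimensional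
  have hs : Tendsto s (𝓝 v) (𝓝 1) := by
    have e1 : ContinuousAt s v := ((hcont 2).div_const _).continuousAt
    have e2 : s v = 1 := div_self hc
    have := e1.tendsto
    rwa [e2] at this
  have hω : Tendsto ω (𝓝 v) (𝓝 0) := by
    have e1 : ∀ i, Tendsto (fun u => b.coord i u / s u - b.coord i v) (𝓝 v) (𝓝 0) := by
      intro i
      have := (((hcont i).tendsto v).div hs one_ne_zero).sub_const (b.coord i v)
      simpa using this
    exact (e1 0).prodMk_nhds (e1 1)
  have hfst : Tendsto (fun q : (E3 × ℂ) × ℂ => q.1.1) (𝓝 ((v, (0 : ℂ)), (0 : ℂ))) (𝓝 v) := by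
    have : Continuous (fun q : (E3 × ℂ) × ℂ => q.1.1) := by fun_prop
    exact this.tendsto' _ _ rfl
  have hsnd : Tendsto (fun q : (E3 × ℂ) × ℂ => q.1.2) (𝓝 ((v, (0 : ℂ)), (0 : ℂ))) (𝓝 0) := by
    have : Continuous (fun q : (E3 × ℂ) × ℂ => q.1.2) := by fun_prop
    exact this.tendsto' _ _ rfl
  have hz : Tendsto (fun q : (E3 × ℂ) × ℂ => q.2) (𝓝 ((v, (0 : ℂ)), (0 : ℂ))) (𝓝 0) := by
    have : Continuous (fun q : (E3 × ℂ) × ℂ => q.2) := by fun_prop
    exact this.tendsto' _ _ rfl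
  have hζ : Tendsto (fun q : (E3 × ℂ) × ℂ => q.2 * s q.1.1) (𝓝 ((v, (0 : ℂ)), (0 : ℂ))) (𝓝 0) := by
    have := hz.mul (hs.comp hfst)
    simpa using this
  have hp : Tendsto (fun q : (E3 × ℂ) × ℂ => (q.1.2, q.2 * s q.1.1))
      (𝓝 ((v, (0 : ℂ)), (0 : ℂ))) (𝓝 (0 : K2)) := hsnd.prodMk_nhds hζ
  have hq' : Tendsto (fun q : (E3 × ℂ) × ℂ => (ω q.1.1, (q.1.2, q.2 * s q.1.1)))
      (𝓝 ((v, (0 : ℂ)), (0 : ℂ))) (𝓝 (0 : K2 × K2)) := (hω.comp hfst).prodMk_nhds hp
  have hAq : Tendsto (fun q : (E3 × ℂ) × ℂ => A (ω q.1.1, (q.1.2, q.2 * s q.1.1)))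
      (𝓝 ((v, (0 : ℂ)), (0 : ℂ))) (𝓝 ((v, 0), 0)) := by
    have e1 := hA.continuousAt.tendsto
    rw [hA0] at e1
    exact e1.comp hq'
  have hs' := (hs.comp hfst).eventually_ne (one_ne_zero)
  filter_upwards [hAq.eventually hRRe, hq'.eventually hW1, hp.eventually hH2, hs'] with
    q q1 q2 q3 q4 q5 q6 q7 q8
  obtain ⟨⟨u, t⟩, z⟩ := q
  simp only [Function.comp_apply] at q1 q2 q3 q4 q5 q6 q7 q8
  have hu : u = s u • (v + kk b (ω u)) := by
    apply b.ext_elem
    intro i
    have k0 := kk_coord b (ω u)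
    have hh : ∀ i, b.repr u i = b.coord i u := fun i => rfl
    have hh' : ∀ i, b.repr (s u • (v + kk b (ω u))) i = s u * (b.coord i v + b.coord i (kk b (ω u))) := by
      intro i
      change b.coord i _ = _
      rw [map_smul, map_add, smul_eq_mul]
    rw [hh, hh']
    fin_cases i
    · change b.coord 0 u = s u * (b.coord 0 v + b.coord 0 (kk b (ω u)))
      rw [k0.1]
      simp only [ω]
      field_simp
      ring
    · change b.coord 1 u = s u * (b.coord 1 v + b.coord 1 (kk b (ω u)))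
      rw [k0.2.1]
      simp only [ω]
      field_simp
      ring
    · change b.coord 2 u = s u * (b.coord 2 v + b.coord 2 (kk b (ω u)))
      rw [k0.2.2, add_zero]
      simp only [s]
      field_simp
  have hzu : z • u = (z * s u) • (v + kk b (ω u)) := by
    conv_lhs => rw [hu]
    rw [smul_smul]
  have hζ0 : z * s u ≠ 0 := mul_ne_zero q5 q4
  rw [hzu] at q6 q7 q8
  have n0 : RR (b 0) (A (ω u, (t, z * s u))) = 0 := by
    have e1 := q1 (b 0)
    simp only [A] at e1 ⊢
    rw [q7] at e1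
    exact (mul_eq_zero.1 e1.symm).resolve_left (pow_ne_zero _ hζ0)
  have n1 : RR (b 1) (A (ω u, (t, z * s u))) = 0 := by
    have e1 := q1 (b 1)
    simp only [A] at e1 ⊢
    rw [q8] at e1
    exact (mul_eq_zero.1 e1.symm).resolve_left (pow_ne_zero _ hζ0)
  have hww : ω u = W (t, z * s u) := q2 (by
    change (RR (b 0) _, RR (b 1) _) = (0 : K2)
    rw [n0, n1]; rfl)
  apply q3 hζ0
  change F ((z * s u) • (v + kk b (W (t, z * s u))), t) = 0
  rw [← hww]
  exact q6

end Node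

/-! ### the flag -/

theorem flag3 {F : E3 × ℂ → ℂ} {μ : ℕ} (hF : Fam F μ)
    (hh : ∀ᶠ t in 𝓝 (0 : ℂ), ∀ i j, H2 (sl F t) i j = 0) (hN : Nodal (sl F 0)) : Concl F := by
  have h : Hyp3 F := ⟨hF.an, hF.zero, hF.crit, hh⟩
  have hS : Sy (H3 (sl F 0)) := sy_H3 (an_sl h.an)
  have hNod : Nod (H3 (sl F 0)) := nod_of hN
  obtain ⟨b, hb0, hb⟩ := exists_basis hS hNod
  -- (h2)
  have H2' : ∀ᶠ p in 𝓝 ((0 : E3), (0 : ℂ)), p.1 ≠ 0 → (F p = 0 →
      fderiv ℂ (sl F p.2) p.1 (b 0) = 0 → fderiv ℂ (sl F p.2) p.1 (b 1) = 0 → False) := by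
    refine cone (P := fun p => F p = 0 → fderiv ℂ (sl F p.2) p.1 (b 0) = 0 →
      fderiv ℂ (sl F p.2) p.1 (b 1) = 0 → False) fun v hv => ?_
    by_cases c1 : D3 (sl F 0) v v v = 0
    swap
    · filter_upwards [ne_F h c1] with q h1 h2 h3 _ _
      exact h1 h2 h3
    by_cases c2 : D3 (sl F 0) v v (b 0) = 0
    swap
    · filter_upwards [ne_D h (b 0) c2] with q h1 h2 _ h3 _
      exact h1 h2 h3
    by_cases c3 : D3 (sl F 0) v v (b 1) = 0
    swap
    · filter_upwards [ne_D h (b 1) c3] with q h1 h2 _ _ h3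
      exact h1 h2 h3
    have c4 : b.coord 2 v ≠ 0 := fun h0 => hb v hv h0 c1 c2
    have c5 := kill b (A := fun x => tri (H3 (sl F 0)) v v x) (fun x y => hS.add₃ _ _ _ _)
      (fun c x => hS.smul₃ _ _ _ _) c4 c2 c3 c1
    exact node b h hNod hF.iso hv c5 c4
  -- (h3)
  have H3' : ∀ᶠ p in 𝓝 ((0 : E3), (0 : ℂ)), p.1 ≠ 0 → (F p = 0 → b.coord 2 p.1 = 0 →
      b.coord 1 p.1 ≠ 0 ∧ fderiv ℂ (sl F p.2) p.1 (b 0) ≠ 0) := by
    refine cone (P := fun p => F p = 0 → b.coord 2 p.1 = 0 →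
      b.coord 1 p.1 ≠ 0 ∧ fderiv ℂ (sl F p.2) p.1 (b 0) ≠ 0) fun v hv => ?_
    have hfst : Tendsto (fun q : (E3 × ℂ) × ℂ => q.1.1) (𝓝 ((v, (0 : ℂ)), (0 : ℂ))) (𝓝 v) := by
      have : Continuous (fun q : (E3 × ℂ) × ℂ => q.1.1) := by fun_prop
      exact this.tendsto' _ _ rfl
    have hcont : ∀ i, Continuous (b.coord i) := fun i => (b.coord i).continuous_of_finiteDimensional
    have hne : ∀ i, b.coord i v ≠ 0 → ∀ᶠ q in 𝓝 ((v, (0 : ℂ)), (0 : ℂ)), q.2 ≠ 0 →
        b.coord i (q.2 • q.1.1) ≠ 0 := by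
      intro i hi
      have e1 := (((hcont i).tendsto v).comp hfst).eventually_ne hi
      filter_upwards [e1] with q h1 h2
      rw [map_smul, smul_eq_mul]
      exact mul_ne_zero h2 h1
    by_cases c0 : b.coord 2 v = 0
    swap
    · filter_upwards [hne 2 c0] with q h1 h2 _ h3
      exact absurd h3 (h1 h2)
    by_cases c1 : D3 (sl F 0) v v v = 0
    swap
    · filter_upwards [ne_F h c1] with q h1 h2 h3 _
      exact absurd h3 (h1 h2)
    have c2 := hb v hv c0 c1
    have c3 : b.coord 1 v ≠ 0 := by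
      intro h0
      have e1 : v = b.coord 0 v • b 0 := by
        conv_lhs => rw [← b.sum_repr v]
        rw [Fin.sum_univ_three]
        rw [Module.Basis.coord_apply] at h0 c0
        rw [h0, c0, zero_smul, zero_smul, add_zero, add_zero, Module.Basis.coord_apply]
      have e2 : b.coord 0 v ≠ 0 := by
        intro h0; rw [h0, zero_smul] at e1; exact hv e1
      rw [D3_eq, e1, tri_smul₁, hS.smul₂, hS.smul₃] at c1
      exact mul_ne_zero e2 (mul_ne_zero e2 (mul_ne_zero e2 hb0)) c1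
    filter_upwards [hne 1 c3, ne_D h (b 0) c2] with q h1 h2 h3 _ _
    exact ⟨h1 h3, h2 h3⟩
  -- the linear forms
  let L : Fin 3 → (E3 →L[ℂ] ℂ) := fun i => LinearMap.toContinuousLinearMap (b.coord i)
  have hL : ∀ i x, L i x = b.coord i x := fun i x => rfl
  have hfd : ∀ i (x : E3), fderiv ℂ (fun x : E3 => L i x) x = L i := fun i x => (L i).fderiv
  have hLb : ∀ i j, L i (b j) = if j = i then 1 else 0 := by
    intro i j
    rw [hL, Module.Basis.coord_apply, Module.Basis.repr_self]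
    simp [Finsupp.single_apply]
  refine Flow_941.flow_three (E := E3) (F := F) (g := fun p => L 2 p.1) (h := fun p => L 1 p.1)
    hF.an ?_ ?_ ?_ ?_ ?_ ?_
  · exact ((L 2).analyticAt _).fun_comp analyticAt_fst
  · exact ((L 1).analyticAt _).fun_comp analyticAt_fst
  · filter_upwards [hF.zero] with t ht
    exact ⟨ht, map_zero _, map_zero _⟩
  · filter_upwards [hF.iso] with p hp h0 h1
    refine h0 (hp fun i => ?_)
    change fderiv ℂ (fun x => F (x, p.2)) p.1 (Pi.single i 1) = 0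
    rw [h1]; rfl
  · filter_upwards [H2'] with p hp h0 h1
    rw [hfd, LinearIndependent.pair_iff]
    intro α β hαβ
    have e : ∀ x, α * fderiv ℂ (sl F p.2) p.1 x + β * L 2 x = 0 := by
      intro x
      have e0 := congrArg (fun A : E3 →L[ℂ] ℂ => A x) hαβ
      exact e0
    have hα : α = 0 := by
      by_contra hα
      have e0 := e (b 0)
      have e1 := e (b 1)
      rw [hLb] at e0 e1
      simp only [Fin.reduceEq, if_false, mul_zero, add_zero] at e0 e1
      exact hp h0 h1 ((mul_eq_zero.1 e0).resolve_left hα) ((mul_eq_zero.1 e1).resolve_left hα)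
    refine ⟨hα, ?_⟩
    have e2 := e (b 2)
    rw [hLb, hα] at e2
    simpa using e2
  · filter_upwards [H3'] with p hp h0 h1 h2
    obtain ⟨h3, h4⟩ := hp h0 h1 h2
    refine ⟨h3, ?_⟩
    rw [hfd, hfd, Fintype.linearIndependent_iff]
    intro g hg
    have e : ∀ x, g 0 * fderiv ℂ (sl F p.2) p.1 x + g 1 * L 2 x + g 2 * L 1 x = 0 := by
      intro x
      rw [Fin.sum_univ_three] at hg
      have e0 := congrArg (fun A : E3 →L[ℂ] ℂ => A x) hg
      exact e0
    have g0 : g 0 = 0 := by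
      have e0 := e (b 0)
      rw [hLb, hLb] at e0
      simp only [Fin.reduceEq, if_false, mul_zero, add_zero] at e0
      exact (mul_eq_zero.1 e0).resolve_right h4
    have g1 : g 1 = 0 := by
      have e0 := e (b 2)
      rw [hLb, hLb, g0] at e0
      simpa using e0
    have g2 : g 2 = 0 := by
      have e0 := e (b 1)
      rw [hLb, hLb, g0] at e0
      simpa using e0
    intro i
    fin_cases i
    · exact g0
    · exact g1
    · exact g2

/-- **`Flag3Stmt` of `LCDefs_472`** -/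
theorem flag3Stmt : Flag3Stmt := fun _ _ hF hh hN => flag3 hF hh hN

end Crest.Agent.R257.Flag3_799
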