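import Mathlib

/-!
R257 / FlowA_941: smooth solutions of the affine conditions `d_x c_j (w) = - ∂_t c_j` off the axis.
-/

set_option autoImplicit false
set_option linter.unusedSectionVars false
set_option linter.deprecated false

open Set Filter Topology Metric
open scoped ContDiff Manifold

noncomputable section

namespace Crest.Agent.R257.Flow_941

variable {E : Type} [NormedAddCommGroup E] [NormedSpace ℂ E] [FiniteDimensional ℂ E]

/-- the derivative in the `x`-direction -/
def dx (c : E × ℂ → ℂ) (p : E × ℂ) : E →L[ℂ] ℂ :=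
  (fderiv ℂ c p).comp (ContinuousLinearMap.inl ℂ E ℂ)

/-- the derivative in the `t`-direction -/
def dt (c : E × ℂ → ℂ) (p : E × ℂ) : ℂ := fderiv ℂ c p (0, 1)

theorem analyticAt_dx {c : E × ℂ → ℂ} {p : E × ℂ} (hc : AnalyticAt ℂ c p) :
    AnalyticAt ℂ (dx c) p := by
  have : CompleteSpace E := FiniteDimensional.complete ℂ E
  have h1 : AnalyticAt ℂ (fderiv ℂ c) p := hc.fderiv
  have h2 : dx c = fun q => ((ContinuousLinearMap.compL ℂ E (E × ℂ) ℂ).flip
      (ContinuousLinearMap.inl ℂ E ℂ)) (fderiv ℂ c q) := by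
    funext q; rfl
  rw [h2]
  exact (ContinuousLinearMap.analyticAt _ _).comp h1

theorem analyticAt_dt {c : E × ℂ → ℂ} {p : E × ℂ} (hc : AnalyticAt ℂ c p) :
    AnalyticAt ℂ (dt c) p := by
  have : CompleteSpace E := FiniteDimensional.complete ℂ E
  have h1 : AnalyticAt ℂ (fderiv ℂ c) p := hc.fderiv
  have h2 : dt c = fun q => (ContinuousLinearMap.apply ℂ ℂ ((0, 1) : E × ℂ)) (fderiv ℂ c q) := by
    funext q; rfl
  rw [h2]
  exact (ContinuousLinearMap.analyticAt _ _).comp h1

/-- linearly independent functionals form a surjective map -/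
theorem surj_of_li {k : ℕ} {a : Fin k → (E →L[ℂ] ℂ)} (h : LinearIndependent ℂ a) :
    Function.Surjective (LinearMap.pi fun i => ((a i : E →L[ℂ] ℂ) : E →ₗ[ℂ] ℂ)) := by
  rw [← LinearMap.dualMap_injective_iff, injective_iff_map_eq_zero]
  intro φ hφ
  have h1 : ∑ i, φ (Pi.single i 1) • a i = 0 := by
    ext x
    have h2 := congrArg (fun ψ : Module.Dual ℂ E => ψ x) hφ
    simp only [LinearMap.dualMap_apply, LinearMap.zero_apply] at h2
    have h3 : (LinearMap.pi (fun i => ((a i : E →L[ℂ] ℂ) : E →ₗ[ℂ] ℂ)) x : Fin k → ℂ)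
        = ∑ i, (a i x) • (Pi.single i (1 : ℂ) : Fin k → ℂ) := by
      funext j
      simp [Finset.sum_apply, Pi.single_apply]
    rw [h3, map_sum] at h2
    simp only [map_smul, smul_eq_mul] at h2
    simp only [ContinuousLinearMap.coe_sum', Finset.sum_apply, ContinuousLinearMap.coe_smul',
      Pi.smul_apply, smul_eq_mul, ContinuousLinearMap.zero_apply]
    rw [← h2]
    exact Finset.sum_congr rfl fun i _ => mul_comm _ _
  have h4 := (Fintype.linearIndependent_iff.1 h) (fun i => φ (Pi.single i 1)) h1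
  apply LinearMap.ext
  intro y
  have h5 : y = ∑ i, (y i) • (Pi.single i (1 : ℂ) : Fin k → ℂ) := by
    funext j
    simp [Finset.sum_apply, Pi.single_apply]
  rw [h5, map_sum]
  simp [h4]

/-- local holomorphic solution of an underdetermined linear system of full rank -/
theorem local_section {k : ℕ} {a : Fin k → (E × ℂ) → (E →L[ℂ] ℂ)} {b : Fin k → E × ℂ → ℂ}
    {p₀ : E × ℂ} (ha : ∀ i, AnalyticAt ℂ (a i) p₀) (hb : ∀ i, AnalyticAt ℂ (b i) p₀)
    (hli : LinearIndependent ℂ fun i => a i p₀) :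
    ∃ w : E × ℂ → E, AnalyticAt ℂ w p₀ ∧ ∀ᶠ p in 𝓝 p₀, ∀ i, a i p (w p) = b i p := by
  have : CompleteSpace E := FiniteDimensional.complete ℂ E
  obtain ⟨R0, hR0⟩ := LinearMap.exists_rightInverse_of_surjective _
    (LinearMap.range_eq_top.2 (surj_of_li hli))
  let R : (Fin k → ℂ) →L[ℂ] E := LinearMap.toContinuousLinearMap R0
  have hR : ∀ (i : Fin k) (y : Fin k → ℂ), a i p₀ (R y) = y i := by
    intro i y
    have := congrArg (fun g : (Fin k → ℂ) →ₗ[ℂ] (Fin k → ℂ) => g y i) hR0
    simpa [R] using this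
  -- the square system
  let Φ : Fin k → ((E →L[ℂ] ℂ) →L[ℂ] ((Fin k → ℂ) →L[ℂ] (Fin k → ℂ))) := fun i =>
    LinearMap.toContinuousLinearMap
      { toFun := fun f => (f.comp R).smulRight (Pi.single i (1 : ℂ) : Fin k → ℂ)
        map_add' := by
          intro f g; ext y j
          simp [add_mul]
        map_smul' := by
          intro c f; ext y j
          simp [mul_assoc] }
  let M : E × ℂ → ((Fin k → ℂ) →L[ℂ] (Fin k → ℂ)) := fun p => ∑ i, Φ i (a i p)
  have hMapp : ∀ p (y : Fin k → ℂ) j, M p y j = a j p (R y) := by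
    intro p y j
    simp [M, Φ, ContinuousLinearMap.sum_apply, Finset.sum_apply, Pi.single_apply]
  have hM0 : M p₀ = 1 := by
    ext y j
    rw [hMapp, hR]
    rfl
  have hMan : AnalyticAt ℂ M p₀ := by
    have : M = ∑ i, fun p => Φ i (a i p) := by
      funext p; simp [M, Finset.sum_apply]
    rw [this]
    refine Finset.analyticAt_sum _ fun i _ => ?_
    exact ((Φ i).analyticAt _).comp (ha i)
  have hinv : AnalyticAt ℂ (fun p => Ring.inverse (M p)) p₀ := by
    have h1 : AnalyticAt ℂ Ring.inverse (M p₀) := by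
      have := analyticAt_inverse (𝕜 := ℂ) (1 : ((Fin k → ℂ) →L[ℂ] (Fin k → ℂ))ˣ)
      rw [Units.val_one] at this
      rwa [hM0]
    exact h1.comp hMan
  have hban : AnalyticAt ℂ (fun p => fun i => b i p) p₀ := AnalyticAt.pi hb
  refine ⟨fun p => R (Ring.inverse (M p) (fun i => b i p)), ?_, ?_⟩
  · have h1 : AnalyticAt ℂ (fun p => Ring.inverse (M p) (fun i => b i p)) p₀ := by
      have h2 : AnalyticAt ℂ (fun q : ((Fin k → ℂ) →L[ℂ] (Fin k → ℂ)) × (Fin k → ℂ) => q.1 q.2)
          (Ring.inverse (M p₀), fun i => b i p₀) :=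
        (ContinuousLinearMap.id ℂ ((Fin k → ℂ) →L[ℂ] (Fin k → ℂ))).analyticAt_bilinear _
      exact AnalyticAt.fun_comp
        (g := fun q : ((Fin k → ℂ) →L[ℂ] (Fin k → ℂ)) × (Fin k → ℂ) => q.1 q.2)
        (f := fun p => (Ring.inverse (M p), fun i => b i p)) h2 (hinv.prod hban)
    exact (R.analyticAt _).fun_comp h1
  · have hunit : ∀ᶠ p in 𝓝 p₀, IsUnit (M p) := by
      have : {x : (Fin k → ℂ) →L[ℂ] (Fin k → ℂ) | IsUnit x} ∈ 𝓝 (M p₀) :=
        Units.isOpen.mem_nhds (by rw [hM0]; exact isUnit_one)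
      exact hMan.continuousAt this
    filter_upwards [hunit] with p hp i
    have h1 : M p * Ring.inverse (M p) = 1 := Ring.mul_inverse_cancel _ hp
    have h2 := congrArg (fun g : (Fin k → ℂ) →L[ℂ] (Fin k → ℂ) => g (fun i => b i p) i) h1
    simp only [ContinuousLinearMap.mul_apply, ContinuousLinearMap.one_apply] at h2
    rw [hMapp] at h2
    exact h2

end Crest.Agent.R257.Flow_941
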