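import Crest.Agent.R257.FlowA_941

/-!
R257 / FlowB_941: the smooth vector field off the axis (partition of unity).
-/

set_option autoImplicit false
set_option linter.unusedSectionVars false
set_option linter.deprecated false

open Set Filter Topology Metric
open scoped ContDiff Manifold

noncomputable section

namespace Crest.Agent.R257.Flow_941

variable {E : Type} [NormedAddCommGroup E] [NormedSpace ℂ E] [FiniteDimensional ℂ E]

/-- the polydisc -/
def Om (E : Type) [NormedAddCommGroup E] (ε δ : ℝ) : Set (E × ℂ) := {p | ‖p.1‖ < ε ∧ ‖p.2‖ < δ}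

/-- the punctured cylinder -/
def U0 (E : Type) [NormedAddCommGroup E] (δ : ℝ) : Set (E × ℂ) := {p | p.1 ≠ 0 ∧ ‖p.2‖ < δ}

theorem isOpen_Om {ε δ : ℝ} : IsOpen (Om E ε δ) :=
  (isOpen_lt (continuous_norm.comp continuous_fst) continuous_const).inter
    (isOpen_lt (continuous_norm.comp continuous_snd) continuous_const)

theorem isOpen_U0 {δ : ℝ} : IsOpen (U0 E δ) :=
  (isOpen_ne_fun continuous_fst continuous_const).inter
    (isOpen_lt (continuous_norm.comp continuous_snd) continuous_const)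

/-- the affine conditions on the `x`-component of a lift of `∂_t` -/
def Act (c : ℕ → E × ℂ → ℂ) (m : ℕ) (p : E × ℂ) (w : E) : Prop :=
  ∀ j ≤ m, (∀ i < j, c i p = 0) → dx (c j) p w = - dt (c j) p

/-- the flag condition at an off-axis point: the first non-vanishing function of the flag exists and
the differentials up to it are independent -/
def Flag (c : ℕ → E × ℂ → ℂ) (m : ℕ) (p : E × ℂ) : Prop :=
  ∃ k ≤ m, c k p ≠ 0 ∧ (∀ j < k, c j p = 0) ∧
    LinearIndependent ℂ (fun i : Fin (k + 1) => dx (c i) p)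

theorem convex_act (c : ℕ → E × ℂ → ℂ) (m : ℕ) (p : E × ℂ) : Convex ℝ {w | Act c m p w} := by
  intro x hx y hy a b _ _ hab j hj hz
  have h1 := hx j hj hz
  have h2 := hy j hj hz
  have h3 : dx (c j) p (a • x + b • y) = a • dx (c j) p x + b • dx (c j) p y := by
    rw [map_add]
    have e1 : (a • x : E) = (a : ℂ) • x := rfl
    have e2 : (b • y : E) = (b : ℂ) • y := rfl
    rw [e1, e2, map_smul, map_smul]
    rfl
  rw [h3, h1, h2, ← add_smul, hab, one_smul]

theorem exists_field {ε ε₁ ε₂ δ : ℝ} (h12 : ε₁ < ε₂) (h2 : ε₂ < ε)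
    {c : ℕ → E × ℂ → ℂ} {m : ℕ} (hc : ∀ j ≤ m, ∀ p ∈ Om E ε δ, AnalyticAt ℂ (c j) p)
    (H : ∀ p ∈ Om E ε δ, p.1 ≠ 0 → Flag c m p) :
    ∃ w : E × ℂ → E, ContDiffOn ℝ ∞ w (U0 E δ) ∧
      ∀ p ∈ U0 E δ, (‖p.1‖ ≤ ε₁ → Act c m p (w p)) ∧ (ε₂ ≤ ‖p.1‖ → w p = 0) := by
  classical
  have : CompleteSpace E := FiniteDimensional.complete ℂ E
  have : FiniteDimensional ℝ E := FiniteDimensional.complexToReal E
  let U : TopologicalSpace.Opens (E × ℂ) := ⟨U0 E δ, isOpen_U0⟩
  have hσ : SigmaCompactSpace U := by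
    have : LocallyCompactSpace U := U.isOpen.locallyCompactSpace
    have : SecondCountableTopology (E × ℂ) := secondCountable_of_proper
    infer_instance
  let t : U → Set E := fun p => {w | (‖p.1.1‖ ≤ ε₁ → Act c m p.1 w) ∧ (ε₂ ≤ ‖p.1.1‖ → w = 0)}
  have ht : ∀ p, Convex ℝ (t p) := by
    intro p x hx y hy a b ha hb hab
    refine ⟨fun h => convex_act c m p.1 (hx.1 h) (hy.1 h) ha hb hab, fun h => ?_⟩
    rw [hx.2 h, hy.2 h]; simp
  obtain ⟨g, hg⟩ := exists_contMDiffMap_forall_mem_convex_of_local (n := (⊤ : ℕ∞))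
    (𝓘(ℝ, E × ℂ)) (M := U) (t := t) ht (by
      intro x
      by_cases hx : ε₁ < ‖x.1.1‖
      · refine ⟨{y : U | ε₁ < ‖y.1.1‖}, ?_, fun _ => 0, contMDiffOn_const, ?_⟩
        · exact (isOpen_lt continuous_const (continuous_norm.comp
            (continuous_fst.comp continuous_subtype_val))).mem_nhds hx
        · intro y hy
          exact ⟨fun h => absurd h (not_le.2 hy), fun _ => rfl⟩
      · push Not at hx
        have hxOm : x.1 ∈ Om E ε δ := ⟨hx.trans_lt (h12.trans h2), x.2.2⟩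
        obtain ⟨k, hkm, hk0, hkz, hli⟩ := H x.1 hxOm x.2.1
        obtain ⟨w, hw, hweq⟩ := local_section (k := k + 1) (a := fun i => dx (c i))
          (b := fun i p => - dt (c i) p) (p₀ := x.1)
          (fun i => analyticAt_dx (hc i (by omega) _ hxOm))
          (fun i => (analyticAt_dt (hc i (by omega) _ hxOm)).neg) hli
        have hne : ∀ᶠ q in 𝓝 x.1, c k q ≠ 0 :=
          (hc k hkm _ hxOm).continuousAt.eventually_ne hk0
        have hlt : ∀ᶠ q : E × ℂ in 𝓝 x.1, ‖q.1‖ < ε₂ :=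
          (isOpen_lt (continuous_norm.comp continuous_fst) continuous_const).mem_nhds
            (hx.trans_lt h12)
        have hall : ∀ᶠ q in 𝓝 x.1, AnalyticAt ℂ w q ∧
            (∀ i : Fin (k + 1), dx (c i) q (w q) = - dt (c i) q) ∧ c k q ≠ 0 ∧ ‖q.1‖ < ε₂ := by
          filter_upwards [hw.eventually_analyticAt, hweq, hne, hlt] with q h1 h2 h3 h4
          exact ⟨h1, h2, h3, h4⟩
        refine ⟨_, continuous_subtype_val.continuousAt.preimage_mem_nhds hall,
          fun y => w y.1, ?_, ?_⟩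
        · intro y hy
          have hy' := (hy : _ ∧ _).1
          have h1 : ContDiffAt ℝ ∞ w y.1 := hy'.contDiffAt.restrict_scalars ℝ
          have h2 : ContMDiffAt 𝓘(ℝ, E × ℂ) 𝓘(ℝ, E) ∞ w y.1 := h1.contMDiffAt
          exact (contMDiffAt_subtype_iff.2 h2).contMDiffWithinAt
        · intro y hy
          obtain ⟨-, heq, hnek, hlt'⟩ := (hy : _ ∧ _)
          refine ⟨fun _ j hj hz => ?_, fun h => absurd h (not_le.2 hlt')⟩
          have hjk : j ≤ k := by
            by_contra hcon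
            push Not at hcon
            exact hnek (hz k hcon)
          exact heq ⟨j, by omega⟩)
  refine ⟨fun p => if h : p ∈ U0 E δ then g ⟨p, h⟩ else 0, ?_, ?_⟩
  · intro p hp
    have h1 : ContMDiffAt 𝓘(ℝ, E × ℂ) 𝓘(ℝ, E) ∞
        (fun x : U => (fun p => if h : p ∈ U0 E δ then g ⟨p, h⟩ else 0) (x : E × ℂ)) ⟨p, hp⟩ := by
      have : (fun x : U => (fun p => if h : p ∈ U0 E δ then g ⟨p, h⟩ else 0) (x : E × ℂ)) = g := by
        funext x
        have hx : (x : E × ℂ) ∈ U0 E δ := x.2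
        simp only [hx, dite_true]
      rw [this]
      exact g.contMDiff.contMDiffAt
    have h2 := (contMDiffAt_subtype_iff (I := 𝓘(ℝ, E × ℂ)) (I' := 𝓘(ℝ, E)) (n := ∞) (U := U)
      (f := fun p => if h : p ∈ U0 E δ then g ⟨p, h⟩ else 0) (x := ⟨p, hp⟩)).1 h1
    exact (contMDiffAt_iff_contDiffAt.1 h2).contDiffWithinAt
  · intro p hp
    simp only [hp, dite_true]
    exact hg ⟨p, hp⟩

end Crest.Agent.R257.Flow_941
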