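import Crest.Agent.R257.FlowB_941
import Crest.Agent.Lib.ODEFlow

/-!
R257 / FlowC_941: completeness of the lifted flow off the axis (no trajectory reaches the axis).
-/

set_option autoImplicit false
set_option linter.unusedSectionVars false
set_option linter.deprecated false

open Set Filter Topology Metric
open scoped ContDiff Manifold

noncomputable section

namespace Crest.Agent.R257.Flow_941

open Crest.Agent.Lib.ODEFlow

section General

variable {F : Type*} [NormedAddCommGroup F] [NormedSpace ℝ F]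

theorem const_of_hasDerivAt_zero {f : ℝ → F} {a b : ℝ} (h : ∀ r ∈ Icc a b, HasDerivAt f 0 r) :
    ∀ r ∈ Icc a b, f r = f a :=
  constant_of_has_deriv_right_zero (fun r hr => (h r hr).continuousAt.continuousWithinAt)
    (fun r hr => (h r (Ico_subset_Icc_self hr)).hasDerivWithinAt)

theorem last_time {f : ℝ → ℝ} {a b R : ℝ} (hab : a ≤ b) (hf : ContinuousOn f (Icc a b))
    (ha : f a ≤ R) (hb : R < f b) :
    ∃ r₀ ∈ Ico a b, f r₀ = R ∧ ∀ r ∈ Ioc r₀ b, R < f r := by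
  have hcl : IsClosed (Icc a b ∩ f ⁻¹' Iic R) := hf.preimage_isClosed_of_isClosed isClosed_Icc
    isClosed_Iic
  have hcomp : IsCompact (Icc a b ∩ f ⁻¹' Iic R) := isCompact_Icc.of_isClosed_subset hcl
    inter_subset_left
  have hne : (Icc a b ∩ f ⁻¹' Iic R).Nonempty := ⟨a, ⟨le_rfl, hab⟩, ha⟩
  have hmem := hcomp.sSup_mem hne
  set r₀ := sSup (Icc a b ∩ f ⁻¹' Iic R) with hr₀
  have hlt : r₀ < b := by
    rcases hmem.1.2.lt_or_eq with h | h
    · exact h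
    · exfalso
      have := hmem.2
      rw [mem_preimage, h] at this
      exact absurd hb (not_lt.2 this)
  have hafter : ∀ r ∈ Ioc r₀ b, R < f r := by
    intro r hr
    by_contra hcon
    push Not at hcon
    have : r ∈ Icc a b ∩ f ⁻¹' Iic R := ⟨⟨hmem.1.1.trans hr.1.le, hr.2⟩, hcon⟩
    exact absurd (le_csSup hcomp.bddAbove this) (not_le.2 hr.1)
  refine ⟨r₀, ⟨hmem.1.1, hlt⟩, le_antisymm hmem.2 ?_, hafter⟩
  have hc : ContinuousWithinAt f (Ioc r₀ b) r₀ :=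
    (hf r₀ hmem.1).mono fun r hr => ⟨hmem.1.1.trans hr.1.le, hr.2⟩
  have hcl2 : r₀ ∈ closure (Ioc r₀ b) := by
    rw [closure_Ioc hlt.ne]; exact ⟨le_rfl, hlt.le⟩
  exact ContinuousWithinAt.closure_le hcl2 continuousWithinAt_const hc
    (fun r hr => (hafter r hr).le)

end General

variable {E : Type} [NormedAddCommGroup E] [NormedSpace ℂ E] [FiniteDimensional ℂ E]

theorem hd_fst {f : ℝ → E × ℂ × ℂ} {f' : E × ℂ × ℂ} {r : ℝ} (h : HasDerivAt f f' r) :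
    HasDerivAt (fun s => (f s).1) f'.1 r :=
  (ContinuousLinearMap.fst ℝ E (ℂ × ℂ)).hasFDerivAt.comp_hasDerivAt r h

theorem hd_tau {f : ℝ → E × ℂ × ℂ} {f' : E × ℂ × ℂ} {r : ℝ} (h : HasDerivAt f f' r) :
    HasDerivAt (fun s => (f s).2.1) f'.2.1 r :=
  ((ContinuousLinearMap.fst ℝ ℂ ℂ).comp
    (ContinuousLinearMap.snd ℝ E (ℂ × ℂ))).hasFDerivAt.comp_hasDerivAt r h

theorem hd_t {f : ℝ → E × ℂ × ℂ} {f' : E × ℂ × ℂ} {r : ℝ} (h : HasDerivAt f f' r) :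
    HasDerivAt (fun s => (f s).2.2) f'.2.2 r :=
  ((ContinuousLinearMap.snd ℝ ℂ ℂ).comp
    (ContinuousLinearMap.snd ℝ E (ℂ × ℂ))).hasFDerivAt.comp_hasDerivAt r h

/-- the autonomous vector field on `E × ℂ × ℂ` (point, current parameter, direction) -/
def vf (w : E × ℂ → E) (q : E × ℂ × ℂ) : E × ℂ × ℂ := (q.2.2 • w (q.1, q.2.1), q.2.2, 0)

/-- its domain -/
def US (E : Type) [NormedAddCommGroup E] (δ : ℝ) : Set (E × ℂ × ℂ) :=
  {q | q.1 ≠ 0 ∧ ‖q.2.1‖ < δ}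

theorem isOpen_US {δ : ℝ} : IsOpen (US E δ) :=
  (isOpen_ne_fun continuous_fst continuous_const).inter
    (isOpen_lt (continuous_norm.comp (continuous_fst.comp continuous_snd)) continuous_const)

theorem contDiffOn_vf {δ : ℝ} {w : E × ℂ → E} (hw : ContDiffOn ℝ ∞ w (U0 E δ)) :
    ContDiffOn ℝ 1 (vf w) (US E δ) := by
  have h1 : ContDiffOn ℝ 1 (fun q : E × ℂ × ℂ => w (q.1, q.2.1)) (US E δ) := by
    have h2 : ContDiff ℝ 1 (fun q : E × ℂ × ℂ => ((q.1, q.2.1) : E × ℂ)) := by fun_prop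
    exact (hw.of_le (by exact_mod_cast le_top)).comp h2.contDiffOn fun q hq => hq
  have h3 : ContDiffOn ℝ 1 (fun q : E × ℂ × ℂ => q.2.2 • w (q.1, q.2.1)) (US E δ) := by
    have h4 : ContDiff ℝ 1 (fun q : ℂ × E => q.1 • q.2) :=
      (isBoundedBilinearMap_smul (𝕜 := ℝ) (A := ℂ) (E := E)).contDiff
    have h5 : ContDiff ℝ 1 (fun q : E × ℂ × ℂ => q.2.2) := by fun_prop
    exact h4.comp_contDiffOn (h5.contDiffOn.prodMk h1)
  have h6 : ContDiff ℝ 1 (fun q : E × ℂ × ℂ => ((q.2.2, 0) : ℂ × ℂ)) := by fun_prop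
  exact h3.prodMk h6.contDiffOn

section Flow

variable {δ : ℝ} {w : E × ℂ → E}

/-- the flow -/
def fl (δ : ℝ) (w : E × ℂ → E) (q : E × ℂ × ℂ) (s : ℝ) : E × ℂ × ℂ :=
  flow (vf w) (US E δ) (q, s)

/-- the flow domain -/
def dm (δ : ℝ) (w : E × ℂ → E) : Set ((E × ℂ × ℂ) × ℝ) := dom (vf w) (US E δ)

theorem hasDerivAt_fl [CompleteSpace E] (hw : ContDiffOn ℝ ∞ w (U0 E δ)) {q : E × ℂ × ℂ} {s : ℝ}
    (h : (q, s) ∈ dm δ w) : HasDerivAt (fun r => fl δ w q r) (vf w (fl δ w q s)) s :=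
  hasDerivAt_flow isOpen_US (contDiffOn_vf hw) h

theorem fl_mem [CompleteSpace E] (hw : ContDiffOn ℝ ∞ w (U0 E δ)) {q : E × ℂ × ℂ} {s : ℝ}
    (h : (q, s) ∈ dm δ w) : fl δ w q s ∈ US E δ :=
  flow_mem isOpen_US (contDiffOn_vf hw) h

theorem dm_of_le [CompleteSpace E] {q : E × ℂ × ℂ} {s r : ℝ}
    (h : (q, s) ∈ dm δ w) (hr : r ∈ Icc 0 s) : (q, r) ∈ dm δ w :=
  mem_dom_of_uIcc h (by rw [uIcc_of_le (hr.1.trans hr.2)]; exact hr)

theorem fl_zero [CompleteSpace E] (hw : ContDiffOn ℝ ∞ w (U0 E δ)) {q : E × ℂ × ℂ}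
    (h : q ∈ US E δ) : fl δ w q 0 = q :=
  flow_zero isOpen_US (contDiffOn_vf hw) h

theorem fl_t [CompleteSpace E] (hw : ContDiffOn ℝ ∞ w (U0 E δ)) {q : E × ℂ × ℂ} {s : ℝ}
    (hs : 0 ≤ s) (h : (q, s) ∈ dm δ w) : (fl δ w q s).2.2 = q.2.2 := by
  have hq : q ∈ US E δ := mem_of_mem_dom h
  have h1 : ∀ r ∈ Icc 0 s, HasDerivAt (fun r => (fl δ w q r).2.2) 0 r := by
    intro r hr
    have := (hasDerivAt_fl hw (dm_of_le h hr))
    exact hd_t this
  have h2 := const_of_hasDerivAt_zero h1 s ⟨hs, le_rfl⟩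
  rw [fl_zero hw hq] at h2
  exact h2

theorem fl_tau [CompleteSpace E] (hw : ContDiffOn ℝ ∞ w (U0 E δ)) {q : E × ℂ × ℂ} {s : ℝ}
    (hs : 0 ≤ s) (h : (q, s) ∈ dm δ w) : (fl δ w q s).2.1 = q.2.1 + s • q.2.2 := by
  have hq : q ∈ US E δ := mem_of_mem_dom h
  have h1 : ∀ r ∈ Icc 0 s, HasDerivAt (fun r => (fl δ w q r).2.1 - r • q.2.2) 0 r := by
    intro r hr
    have h2 := hd_tau (hasDerivAt_fl hw (dm_of_le h hr))
    have h3 : (vf w (fl δ w q r)).2.1 = q.2.2 := fl_t hw hr.1 (dm_of_le h hr)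
    rw [h3] at h2
    have h4 : HasDerivAt (fun r : ℝ => r • q.2.2) ((1 : ℝ) • q.2.2) r :=
      (hasDerivAt_id r).smul_const q.2.2
    rw [one_smul] at h4
    have h5 := h2.sub h4
    rw [sub_self] at h5
    exact h5
  have h2 := const_of_hasDerivAt_zero h1 s ⟨hs, le_rfl⟩
  rw [fl_zero hw hq] at h2
  simp only [zero_smul, sub_zero] at h2
  rw [← h2]; ring

theorem continuousOn_fl [CompleteSpace E] (hw : ContDiffOn ℝ ∞ w (U0 E δ)) {q : E × ℂ × ℂ}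
    {s : ℝ} (h : (q, s) ∈ dm δ w) : ContinuousOn (fun r => fl δ w q r) (Icc 0 s) :=
  fun _ hr => (hasDerivAt_fl hw (dm_of_le h hr)).continuousAt.continuousWithinAt

theorem norm_fl_le [CompleteSpace E] {ε₂ : ℝ} (hw : ContDiffOn ℝ ∞ w (U0 E δ))
    (hw0 : ∀ p ∈ U0 E δ, ε₂ ≤ ‖p.1‖ → w p = 0) {q : E × ℂ × ℂ} {s : ℝ}
    (hs : 0 ≤ s) (h : (q, s) ∈ dm δ w) : ‖(fl δ w q s).1‖ ≤ max ‖q.1‖ ε₂ := by
  by_contra hcon
  push Not at hcon
  have hq : q ∈ US E δ := mem_of_mem_dom h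
  obtain ⟨r₀, hr₀, heq, hafter⟩ := last_time (f := fun r => ‖(fl δ w q r).1‖) hs
    (continuous_norm.comp_continuousOn (continuous_fst.comp_continuousOn (continuousOn_fl hw h)))
    (by simp only [fl_zero hw hq]; exact le_max_left _ _) hcon
  have h1 : ∀ r ∈ Icc r₀ s, HasDerivAt (fun r => (fl δ w q r).1) 0 r := by
    intro r hr
    have hd := dm_of_le h (⟨hr₀.1.trans hr.1, hr.2⟩ : r ∈ Icc 0 s)
    have h2 := hd_fst (hasDerivAt_fl hw hd)
    have h3 : (vf w (fl δ w q r)).1 = 0 := by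
      have h4 : ε₂ ≤ ‖(fl δ w q r).1‖ := by
        rcases hr.1.eq_or_lt with h5 | h5
        · rw [← h5, heq]; exact le_max_right _ _
        · exact (le_max_right _ _).trans (hafter r ⟨h5, hr.2⟩).le
      have h6 := hw0 ((fl δ w q r).1, (fl δ w q r).2.1) (fl_mem hw hd) h4
      simp [vf, h6]
    rwa [h3] at h2
  have h2 := const_of_hasDerivAt_zero h1 s ⟨hr₀.2.le, le_rfl⟩
  have h3 : ‖(fl δ w q s).1‖ = max ‖q.1‖ ε₂ := by rw [h2]; exact heq
  exact absurd hcon (by rw [h3]; exact lt_irrefl _)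

end Flow

end Crest.Agent.R257.Flow_941
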