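import Crest.Agent.R257.FlowC_941

/-!
R257 / FlowD_941: no trajectory reaches the axis; the lifted flow is complete off the axis.
-/

set_option autoImplicit false
set_option linter.unusedSectionVars false
set_option linter.deprecated false

open Set Filter Topology Metric
open scoped ContDiff Manifold

noncomputable section

namespace Crest.Agent.R257.Flow_941

open Crest.Agent.Lib.ODEFlow

variable {E : Type} [NormedAddCommGroup E] [NormedSpace ℂ E] [FiniteDimensional ℂ E]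

/-- The standing hypotheses on the flag `c_0 = F, c_1, …, c_m` and the field `w`. -/
structure Hyp (ε ε₁ ε₂ δ : ℝ) (c : ℕ → E × ℂ → ℂ) (m : ℕ) (w : E × ℂ → E) : Prop where
  pos : 0 < ε₁
  h12 : ε₁ < ε₂
  h2 : ε₂ < ε
  an : ∀ j ≤ m, ∀ p ∈ Om E ε δ, AnalyticAt ℂ (c j) p
  ax : ∀ j ≤ m, ∀ t : ℂ, ‖t‖ < δ → c j (0, t) = 0
  flag : ∀ p ∈ Om E ε δ, p.1 ≠ 0 → Flag c m p
  smooth : ContDiffOn ℝ ∞ w (U0 E δ)
  act : ∀ p ∈ U0 E δ, ‖p.1‖ ≤ ε₁ → Act c m p (w p)
  zero : ∀ p ∈ U0 E δ, ε₂ ≤ ‖p.1‖ → w p = 0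

variable {ε ε₁ ε₂ δ : ℝ} {c : ℕ → E × ℂ → ℂ} {m : ℕ} {w : E × ℂ → E}

/-- the point of `E × ℂ` of a state -/
def pt (q : E × ℂ × ℂ) : E × ℂ := (q.1, q.2.1)

theorem hasDerivAt_pt {f : ℝ → E × ℂ × ℂ} {f' : E × ℂ × ℂ} {r : ℝ} (h : HasDerivAt f f' r) :
    HasDerivAt (fun s => pt (f s)) (f'.1, f'.2.1) r :=
  (hd_fst h).prodMk (hd_tau h)

/-- derivative of a flag function along a trajectory -/
theorem hasDerivAt_c [CompleteSpace E] (hH : Hyp ε ε₁ ε₂ δ c m w) {q : E × ℂ × ℂ} {r : ℝ}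
    (h : (q, r) ∈ dm δ w) (hle : ‖(fl δ w q r).1‖ ≤ ε₁) {j : ℕ} (hj : j ≤ m)
    (hz : ∀ i < j, c i (pt (fl δ w q r)) = 0) :
    HasDerivAt (fun s => c j (pt (fl δ w q s))) 0 r := by
  have hmem := fl_mem hH.smooth h
  have hOm : pt (fl δ w q r) ∈ Om E ε δ :=
    ⟨lt_of_le_of_lt hle (hH.h12.trans hH.h2), hmem.2⟩
  have h1 := hasDerivAt_pt (hasDerivAt_fl hH.smooth h)
  have h2 : HasFDerivAt (c j) (fderiv ℂ (c j) (pt (fl δ w q r))) (pt (fl δ w q r)) :=
    (hH.an j hj _ hOm).differentiableAt.hasFDerivAt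
  have h3 := (h2.restrictScalars ℝ).comp_hasDerivAt r h1
  have h4 : (fderiv ℂ (c j) (pt (fl δ w q r))).restrictScalars ℝ
      ((vf w (fl δ w q r)).1, (vf w (fl δ w q r)).2.1) = 0 := by
    have ha := hH.act (pt (fl δ w q r)) hmem hle j hj hz
    set T : ℂ := (fl δ w q r).2.2 with hT
    have h5 : (((vf w (fl δ w q r)).1, (vf w (fl δ w q r)).2.1) : E × ℂ)
        = T • ((w (pt (fl δ w q r)), 1) : E × ℂ) := by
      simp [vf, pt, hT, Prod.smul_mk]
    have h6 : ((w (pt (fl δ w q r)), 1) : E × ℂ)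
        = ContinuousLinearMap.inl ℂ E ℂ (w (pt (fl δ w q r))) + ((0, 1) : E × ℂ) := by
      simp
    show (fderiv ℂ (c j) (pt (fl δ w q r)))
      ((vf w (fl δ w q r)).1, (vf w (fl δ w q r)).2.1) = 0
    rw [h5, map_smul, h6, map_add]
    have h7 : fderiv ℂ (c j) (pt (fl δ w q r))
        (ContinuousLinearMap.inl ℂ E ℂ (w (pt (fl δ w q r))))
        = dx (c j) (pt (fl δ w q r)) (w (pt (fl δ w q r))) := rfl
    have h8 : fderiv ℂ (c j) (pt (fl δ w q r)) ((0, 1) : E × ℂ) = dt (c j) (pt (fl δ w q r)) := rfl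
    rw [h7, h8, ha, neg_add_cancel, smul_zero]
  rw [h4] at h3
  exact h3

/-- **No escape.** -/
theorem mem_dm [CompleteSpace E] (hH : Hyp ε ε₁ ε₂ δ c m w) {q : E × ℂ × ℂ} {s : ℝ}
    (hq : q ∈ US E δ) (hs : 0 ≤ s) (hend : ‖q.2.1 + s • q.2.2‖ < δ) : (q, s) ∈ dm δ w := by
  have : ProperSpace E := FiniteDimensional.proper ℂ E
  by_contra hnot
  -- norm of the parameter along the segment
  set δ₁ := max ‖q.2.1‖ ‖q.2.1 + s • q.2.2‖ with hδ₁
  have hδ₁lt : δ₁ < δ := max_lt hq.2 hend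
  have hseg : ∀ r ∈ Icc 0 s, ‖q.2.1 + r • q.2.2‖ ≤ δ₁ := by
    intro r hr
    rcases hs.eq_or_lt with h0 | h0
    · have : r = 0 := le_antisymm (by rw [h0]; exact hr.2) hr.1
      rw [this, zero_smul, add_zero]; exact le_max_left _ _
    · have h1 : q.2.1 + r • q.2.2 = (1 - r / s) • q.2.1 + (r / s) • (q.2.1 + s • q.2.2) := by
        have : (r / s) • (s • q.2.2) = r • q.2.2 := by
          rw [smul_smul]; congr 1; field_simp
        rw [smul_add, this, sub_smul, one_smul]; ring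
      rw [h1]
      have h2 : 0 ≤ r / s := div_nonneg hr.1 hs
      have h3 : r / s ≤ 1 := div_le_one_of_le₀ hr.2 hs
      calc ‖(1 - r / s) • q.2.1 + (r / s) • (q.2.1 + s • q.2.2)‖
          ≤ ‖(1 - r / s) • q.2.1‖ + ‖(r / s) • (q.2.1 + s • q.2.2)‖ := norm_add_le _ _
        _ = (1 - r / s) * ‖q.2.1‖ + (r / s) * ‖q.2.1 + s • q.2.2‖ := by
            rw [norm_smul, norm_smul, Real.norm_of_nonneg (by linarith), Real.norm_of_nonneg h2]
        _ ≤ (1 - r / s) * δ₁ + (r / s) * δ₁ := by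
            gcongr
            · exact le_max_left _ _
            · exact le_max_right _ _
        _ = δ₁ := by ring
  -- the first bad time
  have hopen : IsOpen (dm δ w) := isOpen_dom isOpen_US (contDiffOn_vf hH.smooth)
  set B : Set ℝ := Icc 0 s ∩ {r | (q, r) ∉ dm δ w} with hB
  have hBcl : IsClosed B := by
    refine isClosed_Icc.inter ?_
    exact (hopen.preimage (by fun_prop : Continuous fun r : ℝ => (q, r))).isClosed_compl
  have hBne : B.Nonempty := ⟨s, ⟨hs, le_rfl⟩, hnot⟩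
  have hBc : IsCompact B := isCompact_Icc.of_isClosed_subset hBcl inter_subset_left
  have hs₁ := hBc.sInf_mem hBne
  set s₁ := sInf B with hs₁def
  have hbefore : ∀ r ∈ Ico 0 s₁, (q, r) ∈ dm δ w := by
    intro r hr
    by_contra hcon
    have : r ∈ B := ⟨⟨hr.1, hr.2.le.trans hs₁.1.2⟩, hcon⟩
    exact absurd (csInf_le hBc.bddBelow this) (not_le.2 hr.2)
  have hs₁pos : 0 < s₁ := by
    rcases hs₁.1.1.eq_or_lt with h0 | h0
    · exfalso
      apply hs₁.2
      rw [← h0]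
      exact mem_dom_zero hq
    · exact h0
  set R := max ‖q.1‖ ε₂ with hR
  -- arbitrarily close to the axis
  have hclose : ∀ η > 0, ∃ r ∈ Ico 0 s₁, ‖(fl δ w q r).1‖ < η := by
    intro η hη
    by_contra hcon
    push Not at hcon
    apply hs₁.2
    set K : Set (E × ℂ × ℂ) :=
      (closedBall (0 : E) R ∩ {x | η ≤ ‖x‖}) ×ˢ (closedBall (0 : ℂ) δ₁ ×ˢ ({q.2.2} : Set ℂ)) with hK
    have hKc : IsCompact K := by
      refine IsCompact.prod ?_ ((isCompact_closedBall _ _).prod isCompact_singleton)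
      exact (isCompact_closedBall _ _).inter_right (isClosed_le continuous_const continuous_norm)
    refine mem_dom_of_compact isOpen_US (contDiffOn_vf hH.smooth) hKc ?_ hq ?_ hs₁pos.le
    · rintro ⟨x, τ, t⟩ ⟨⟨-, hx⟩, hτ, -⟩
      refine ⟨?_, ?_⟩
      · intro h0
        have h0' : x = 0 := h0
        rw [mem_ofPred_eq, h0', norm_zero] at hx
        exact absurd hη (not_lt.2 hx)
      · exact (mem_closedBall_zero_iff.1 hτ).trans_lt hδ₁lt
    · intro r hr hd
      refine ⟨⟨?_, hcon r hr⟩, ?_, ?_⟩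
      · rw [mem_closedBall_zero_iff]
        exact norm_fl_le hH.smooth hH.zero hr.1 hd
      · rw [mem_closedBall_zero_iff]
        have := fl_tau hH.smooth hr.1 hd
        show ‖(fl δ w q r).2.1‖ ≤ δ₁
        rw [this]
        exact hseg r ⟨hr.1, hr.2.le.trans hs₁.1.2⟩
      · exact fl_t hH.smooth hr.1 hd
  have hclose' : ∀ s' ∈ Ico 0 s₁, ∀ η > 0, ∃ r ∈ Ioo s' s₁, ‖(fl δ w q r).1‖ < η := by
    intro s' hs' η hη
    have hd' := hbefore s' hs'
    have hcont : ContinuousOn (fun r => ‖(fl δ w q r).1‖) (Icc 0 s') :=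
      continuous_norm.comp_continuousOn
        (continuous_fst.comp_continuousOn (continuousOn_fl hH.smooth hd'))
    obtain ⟨r₁, hr₁, hmin⟩ := isCompact_Icc.exists_isMinOn (nonempty_Icc.2 hs'.1) hcont
    have hμ : 0 < ‖(fl δ w q r₁).1‖ := norm_pos_iff.2 (fl_mem hH.smooth (dm_of_le hd' hr₁)).1
    obtain ⟨r, hr, hlt⟩ := hclose (min η ‖(fl δ w q r₁).1‖) (lt_min hη hμ)
    refine ⟨r, ⟨?_, hr.2⟩, hlt.trans_le (min_le_left _ _)⟩
    by_contra hcon
    push Not at hcon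
    have := hmin ⟨hr.1, hcon⟩
    exact absurd (hlt.trans_le (min_le_right _ _)) (not_lt.2 this)
  -- bound of the field away from the axis
  obtain ⟨C, hC⟩ : ∃ C, ∀ x : E, ∀ τ : ℂ, ε₁ / 2 ≤ ‖x‖ → ‖τ‖ ≤ δ₁ → ‖w (x, τ)‖ ≤ C := by
    have hKc : IsCompact ((closedBall (0 : E) ε₂ ∩ {x | ε₁ / 2 ≤ ‖x‖}) ×ˢ closedBall (0 : ℂ) δ₁) :=
      ((isCompact_closedBall _ _).inter_right
        (isClosed_le continuous_const continuous_norm)).prod (isCompact_closedBall _ _)
    have hsub : ((closedBall (0 : E) ε₂ ∩ {x | ε₁ / 2 ≤ ‖x‖}) ×ˢ closedBall (0 : ℂ) δ₁) ⊆ U0 E δ := by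
      rintro ⟨x, τ⟩ ⟨⟨-, hx⟩, hτ⟩
      refine ⟨?_, (mem_closedBall_zero_iff.1 hτ).trans_lt hδ₁lt⟩
      intro h0
      have h0' : x = 0 := h0
      rw [mem_ofPred_eq, h0', norm_zero] at hx
      linarith [hH.pos]
    obtain ⟨C, hC⟩ := hKc.exists_bound_of_continuousOn (hH.smooth.continuousOn.mono hsub)
    refine ⟨max C 0, fun x τ hx hτ => ?_⟩
    by_cases h : ‖x‖ ≤ ε₂
    · exact (hC (x, τ) ⟨⟨mem_closedBall_zero_iff.2 h, hx⟩, mem_closedBall_zero_iff.2 hτ⟩).trans
        (le_max_left _ _)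
    · push Not at h
      have hmem : (x, τ) ∈ U0 E δ := by
        refine ⟨?_, hτ.trans_lt hδ₁lt⟩
        intro h0
        have h0' : x = 0 := h0
        rw [h0', norm_zero] at hx
        linarith [hH.pos]
      rw [hH.zero (x, τ) hmem h.le, norm_zero]
      exact le_max_right _ _
  set D : ℝ := ‖q.2.2‖ * C with hD
  have hC0 : 0 ≤ C := by
    obtain ⟨r, hr, -⟩ := hclose' 0 ⟨le_rfl, hs₁pos⟩ 1 one_pos
    -- a point with norm ≥ ε₁/2 exists unless E is trivial; use any value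
    by_contra hneg
    push Not at hneg
    have hx1 := (fl_mem hH.smooth (hbefore r ⟨hr.1.le, hr.2⟩)).1
    have hn : 0 < ‖(fl δ w q r).1‖ := norm_pos_iff.2 hx1
    have := hC (((ε₁ / ‖(fl δ w q r).1‖ : ℝ) : ℂ) • (fl δ w q r).1) 0 (by
      rw [norm_smul, Complex.norm_real, Real.norm_of_nonneg (by positivity [hH.pos])]
      rw [div_mul_cancel₀ _ hn.ne']
      linarith [hH.pos]) (by rw [norm_zero]; exact (norm_nonneg _).trans (le_max_left _ _))
    exact absurd ((norm_nonneg _).trans this) (not_le.2 hneg)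
  have hD0 : 0 ≤ D := mul_nonneg (norm_nonneg _) hC0
  have hvb : ∀ r ∈ Ico 0 s₁, ε₁ / 2 ≤ ‖(fl δ w q r).1‖ → ‖(vf w (fl δ w q r)).1‖ ≤ D := by
    intro r hr hge
    have hd := hbefore r hr
    show ‖(fl δ w q r).2.2 • w ((fl δ w q r).1, (fl δ w q r).2.1)‖ ≤ D
    rw [norm_smul, fl_t hH.smooth hr.1 hd]
    refine mul_le_mul_of_nonneg_left (hC _ _ hge ?_) (norm_nonneg _)
    rw [fl_tau hH.smooth hr.1 hd]
    exact hseg r ⟨hr.1, hr.2.le.trans hs₁.1.2⟩
  -- a late time from which the trajectory stays in `‖x‖ < ε₁`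
  obtain ⟨s', hs', hs'2⟩ : ∃ s' ∈ Ico 0 s₁, s₁ - s' ≤ ε₁ / (4 * (D + 1)) := by
    refine ⟨max 0 (s₁ - ε₁ / (4 * (D + 1))), ⟨le_max_left _ _, max_lt hs₁pos ?_⟩, ?_⟩
    · have : 0 < ε₁ / (4 * (D + 1)) := div_pos hH.pos (by linarith)
      linarith
    · have := le_max_right 0 (s₁ - ε₁ / (4 * (D + 1)))
      linarith
  obtain ⟨a, ha, halt⟩ := hclose' s' hs' (ε₁ / 2) (by linarith [hH.pos])
  have ha0 : 0 ≤ a := hs'.1.trans ha.1.le
  have hstay : ∀ r ∈ Ico a s₁, ‖(fl δ w q r).1‖ < ε₁ := by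
    intro r hr
    by_contra hcon
    push Not at hcon
    have hdr := hbefore r ⟨ha0.trans hr.1, hr.2⟩
    have hcont : ContinuousOn (fun r => ‖(fl δ w q r).1‖) (Icc a r) :=
      (continuous_norm.comp_continuousOn
        (continuous_fst.comp_continuousOn (continuousOn_fl hH.smooth hdr))).mono
        (Icc_subset_Icc_left ha0)
    obtain ⟨r₀, hr₀, heq, hafter⟩ := last_time (f := fun r => ‖(fl δ w q r).1‖) hr.1 hcont
      halt.le (lt_of_lt_of_le (by linarith [hH.pos]) hcon)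
    have hbd := norm_image_sub_le_of_norm_deriv_le_segment' (f := fun r => (fl δ w q r).1)
      (f' := fun r => (vf w (fl δ w q r)).1) (a := r₀) (b := r) (C := D)
      (fun x hx => (hd_fst (hasDerivAt_fl hH.smooth
        (hbefore x ⟨(ha0.trans hr₀.1).trans hx.1, hx.2.trans_lt hr.2⟩))).hasDerivWithinAt)
      (fun x hx => hvb x ⟨(ha0.trans hr₀.1).trans hx.1, hx.2.trans hr.2⟩ (by
        rcases hx.1.eq_or_lt with h5 | h5
        · rw [← h5]; exact heq.ge
        · exact (hafter x ⟨h5, hx.2.le⟩).le)) r ⟨hr₀.2.le, le_rfl⟩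
    have h1 : ‖(fl δ w q r).1‖ - ‖(fl δ w q r₀).1‖ ≤ D * (r - r₀) :=
      (norm_sub_norm_le _ _).trans hbd
    have h2 : D * (r - r₀) ≤ D * (ε₁ / (4 * (D + 1))) := by
      refine mul_le_mul_of_nonneg_left ?_ hD0
      linarith [hr₀.1, hr.2, ha.1]
    have h3 : D * (ε₁ / (4 * (D + 1))) ≤ ε₁ / 4 := by
      rw [mul_div_assoc', div_le_div_iff₀ (by linarith) (by norm_num)]
      nlinarith [hH.pos]
    have h4 : ‖(fl δ w q r₀).1‖ = ε₁ / 2 := heq
    linarith [hH.pos]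
  -- all flag functions vanish on the trajectory
  have hzero : ∀ j ≤ m, ∀ r ∈ Ico a s₁, c j (pt (fl δ w q r)) = 0 := by
    intro j
    induction j using Nat.strong_induction_on with
    | _ j ih =>
      intro hj
      have hconst : ∀ r ∈ Ico a s₁, c j (pt (fl δ w q r)) = c j (pt (fl δ w q a)) := by
        intro r hr
        refine const_of_hasDerivAt_zero (f := fun r => c j (pt (fl δ w q r))) (a := a) (b := r)
          (fun x hx => ?_) r ⟨hr.1, le_rfl⟩
        have hx' : x ∈ Ico a s₁ := ⟨hx.1, hx.2.trans_lt hr.2⟩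
        exact hasDerivAt_c hH (hbefore x ⟨ha0.trans hx'.1, hx'.2⟩) (hstay x hx').le hj
          (fun i hi => ih i hi (hi.le.trans hj) x hx')
      have hval : c j (pt (fl δ w q a)) = 0 := by
        have hτ1 : ‖q.2.1 + s₁ • q.2.2‖ < δ := (hseg s₁ hs₁.1).trans_lt hδ₁lt
        have hcont : ContinuousAt (c j) ((0 : E), q.2.1 + s₁ • q.2.2) :=
          (hH.an j hj _ ⟨by rw [norm_zero]; linarith [hH.pos, hH.h12, hH.h2], hτ1⟩).continuousAt
        have h0 : c j ((0 : E), q.2.1 + s₁ • q.2.2) = 0 := hH.ax j hj _ hτ1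
        by_contra hne
        have hpos : 0 < ‖c j (pt (fl δ w q a))‖ := norm_pos_iff.2 hne
        have hev : ∀ᶠ p in 𝓝 ((0 : E), q.2.1 + s₁ • q.2.2), ‖c j p‖ < ‖c j (pt (fl δ w q a))‖ := by
          have : Tendsto (fun p => ‖c j p‖) (𝓝 ((0 : E), q.2.1 + s₁ • q.2.2)) (𝓝 0) := by
            have := hcont.norm
            rw [ContinuousAt, h0, norm_zero] at this
            exact this
          exact this.eventually_lt_const hpos
        obtain ⟨η, hη, hball⟩ := Metric.eventually_nhds_iff.1 hev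
        -- a late time
        obtain ⟨s'', hs'', hs''2⟩ : ∃ s'' ∈ Ico a s₁, (s₁ - s'') * ‖q.2.2‖ < η := by
          refine ⟨max a (s₁ - η / (2 * (‖q.2.2‖ + 1))), ⟨le_max_left _ _, max_lt ha.2 ?_⟩, ?_⟩
          · have : 0 < η / (2 * (‖q.2.2‖ + 1)) := by positivity
            linarith
          · have h1 := le_max_right a (s₁ - η / (2 * (‖q.2.2‖ + 1)))
            have h2 : s₁ - max a (s₁ - η / (2 * (‖q.2.2‖ + 1))) ≤ η / (2 * (‖q.2.2‖ + 1)) := by
              linarith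
            calc (s₁ - max a (s₁ - η / (2 * (‖q.2.2‖ + 1)))) * ‖q.2.2‖
                ≤ η / (2 * (‖q.2.2‖ + 1)) * ‖q.2.2‖ :=
                  mul_le_mul_of_nonneg_right h2 (norm_nonneg _)
              _ ≤ η / 2 := by
                  rw [div_mul_eq_mul_div, div_le_div_iff₀ (by positivity) (by norm_num)]
                  nlinarith [norm_nonneg q.2.2]
              _ < η := by linarith
        obtain ⟨r, hr, hrlt⟩ := hclose' s'' ⟨ha0.trans hs''.1, hs''.2⟩ η hη
        have hra : r ∈ Ico a s₁ := ⟨hs''.1.trans hr.1.le, hr.2⟩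
        have hdist : dist (pt (fl δ w q r)) ((0 : E), q.2.1 + s₁ • q.2.2) < η := by
          rw [Prod.dist_eq]
          refine max_lt ?_ ?_
          · show dist (fl δ w q r).1 0 < η
            rwa [dist_zero_right]
          · show dist (fl δ w q r).2.1 (q.2.1 + s₁ • q.2.2) < η
            rw [fl_tau hH.smooth (ha0.trans hra.1) (hbefore r ⟨ha0.trans hra.1, hra.2⟩),
              dist_eq_norm]
            have : q.2.1 + r • q.2.2 - (q.2.1 + s₁ • q.2.2) = (r - s₁) • q.2.2 := by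
              rw [sub_smul]; ring
            rw [this, norm_smul, Real.norm_eq_abs, abs_of_nonpos (by linarith [hr.2])]
            refine lt_of_le_of_lt ?_ hs''2
            refine mul_le_mul_of_nonneg_right ?_ (norm_nonneg _)
            linarith [hr.1]
        have := hball hdist
        rw [hconst r hra] at this
        exact lt_irrefl _ this
      intro r hr
      rw [hconst r hr, hval]
  -- contradiction with the flag condition
  have hda := hbefore a ⟨ha0, ha.2⟩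
  have hmem := fl_mem hH.smooth hda
  obtain ⟨k, hkm, hk, -⟩ := hH.flag (pt (fl δ w q a))
    ⟨(hstay a ⟨le_rfl, ha.2⟩).trans (hH.h12.trans hH.h2), hmem.2⟩ hmem.1
  exact hk (hzero k hkm a ⟨le_rfl, ha.2⟩)

end Crest.Agent.R257.Flow_941
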