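import Crest.Agent.R257.FlowD_941

/-!
R257 / FlowE_941: A-FLOW.  A flag `c_0 = F, c_1, …, c_m` gives the topological trivialisation of `F`
asked for in S0395.
-/

set_option autoImplicit false
set_option linter.unusedSectionVars false
set_option linter.deprecated false

open Set Filter Topology Metric
open scoped ContDiff Manifold

noncomputable section

namespace Crest.Agent.R257.Flow_941

open Crest.Agent.Lib.ODEFlow

variable {E : Type} [NormedAddCommGroup E] [NormedSpace ℂ E] [FiniteDimensional ℂ E]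
variable {ε ε₁ ε₂ δ : ℝ} {c : ℕ → E × ℂ → ℂ} {m : ℕ} {w : E × ℂ → E}

/-- reversal of the direction -/
def rev : (E × ℂ × ℂ) →L[ℝ] (E × ℂ × ℂ) :=
  (ContinuousLinearMap.fst ℝ E (ℂ × ℂ)).prod
    (((ContinuousLinearMap.fst ℝ ℂ ℂ).comp (ContinuousLinearMap.snd ℝ E (ℂ × ℂ))).prod
      (-((ContinuousLinearMap.snd ℝ ℂ ℂ).comp (ContinuousLinearMap.snd ℝ E (ℂ × ℂ)))))

theorem rev_apply (q : E × ℂ × ℂ) : rev q = (q.1, q.2.1, -q.2.2) := rfl

theorem vf_rev (q : E × ℂ × ℂ) : rev (-vf w q) = vf w (rev q) := by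
  simp [rev_apply, vf]

/-- running backwards -/
theorem fl_rev [CompleteSpace E] (hw : ContDiffOn ℝ ∞ w (U0 E δ)) {q : E × ℂ × ℂ} {s : ℝ}
    (hs : 0 ≤ s) (h : (q, s) ∈ dm δ w) :
    (rev (fl δ w q s), s) ∈ dm δ w ∧ fl δ w (rev (fl δ w q s)) s = rev q := by
  have hq : q ∈ US E δ := mem_of_mem_dom h
  have key := flow_of_integralCurve' (v := vf w) (U := US E δ) isOpen_US (contDiffOn_vf hw)
    (c := fun r => rev (fl δ w q (s - r))) (x := rev (fl δ w q s)) (l := s) (by simp)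
    (fun r hr => by
      rw [uIcc_of_le hs] at hr
      exact fl_mem hw (dm_of_le h (⟨by linarith [hr.2], by linarith [hr.1]⟩ : s - r ∈ Icc 0 s)))
    (fun r hr => by
      rw [uIcc_of_le hs] at hr
      have h1 := hasDerivAt_fl hw
        (dm_of_le h (⟨by linarith [hr.2], by linarith [hr.1]⟩ : s - r ∈ Icc 0 s))
      have h2 : HasDerivAt (fun r : ℝ => s - r) (-1) r := by
        simpa using (hasDerivAt_id r).const_sub s
      have h3 := h1.scomp r h2
      have h4 := (rev (E := E)).hasFDerivAt.comp_hasDerivAt r h3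
      have h5 : rev ((-1 : ℝ) • vf w (fl δ w q (s - r))) = vf w (rev (fl δ w q (s - r))) := by
        rw [neg_smul, one_smul]; exact vf_rev _
      rw [h5] at h4
      exact h4)
  refine ⟨key.1, ?_⟩
  have h1 := key.2
  simp only [sub_self] at h1
  rw [fl_zero hw hq] at h1
  exact h1

/-- uniform continuity at the axis -/
theorem unif_axis [CompleteSpace E] (hH : Hyp ε ε₁ ε₂ δ c m w) {δ₁ T η : ℝ} (hδ₁ : δ₁ < δ)
    (hη : 0 < η) :
    ∃ μ > 0, ∀ q : E × ℂ × ℂ, ∀ s ∈ Icc (0 : ℝ) 1, q.1 ≠ 0 → ‖q.1‖ < μ → ‖q.2.1‖ ≤ δ₁ →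
      ‖q.2.2‖ ≤ T → ‖q.2.1 + s • q.2.2‖ ≤ δ₁ → ‖(fl δ w q s).1‖ < η := by
  have : ProperSpace E := FiniteDimensional.proper ℂ E
  set A : Set ((E × ℂ × ℂ) × ℝ) :=
    (((closedBall (0 : E) ε₂ ∩ {x | η ≤ ‖x‖}) ×ˢ (closedBall (0 : ℂ) δ₁ ×ˢ closedBall (0 : ℂ) T))
      ×ˢ Icc (0 : ℝ) 1) ∩ {p | ‖p.1.2.1 + p.2 • p.1.2.2‖ ≤ δ₁} with hA
  have hAc : IsCompact A := by
    refine IsCompact.inter_right ?_ ?_
    · refine IsCompact.prod ?_ isCompact_Icc
      refine IsCompact.prod ?_ ((isCompact_closedBall _ _).prod (isCompact_closedBall _ _))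
      exact (isCompact_closedBall _ _).inter_right (isClosed_le continuous_const continuous_norm)
    · exact isClosed_le (by fun_prop) continuous_const
  have hAdm : A ⊆ dm δ w := by
    rintro ⟨q, s⟩ ⟨⟨⟨⟨-, hx⟩, hτ, -⟩, hs⟩, hend⟩
    refine mem_dm hH ⟨?_, (mem_closedBall_zero_iff.1 hτ).trans_lt hδ₁⟩ hs.1
      (lt_of_le_of_lt hend hδ₁)
    intro h0
    rw [mem_ofPred_eq, h0, norm_zero] at hx
    exact absurd hη (not_lt.2 hx)
  have hcont : ContinuousOn (fun p : (E × ℂ × ℂ) × ℝ => ‖(fl δ w p.1 p.2).1‖) A := by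
    have h1 : ContinuousOn (flow (vf w) (US E δ)) (dom (vf w) (US E δ)) :=
      (contDiffOn_flow (n := 1) le_rfl isOpen_US (contDiffOn_vf hH.smooth)).continuousOn
    exact continuous_norm.comp_continuousOn (continuous_fst.comp_continuousOn (h1.mono hAdm))
  obtain ⟨μ₀, hμ₀, hmin⟩ : ∃ μ₀ > 0, ∀ p ∈ A, μ₀ ≤ ‖(fl δ w p.1 p.2).1‖ := by
    rcases A.eq_empty_or_nonempty with he | hne
    · exact ⟨1, one_pos, fun p hp => by rw [he] at hp; exact absurd hp (notMem_empty p)⟩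
    · obtain ⟨p, hp, hmin⟩ := hAc.exists_isMinOn hne hcont
      exact ⟨_, norm_pos_iff.2 (fl_mem hH.smooth (hAdm hp)).1, fun p' hp' => hmin hp'⟩
  refine ⟨min ε₂ μ₀, lt_min (hH.pos.trans hH.h12) hμ₀, ?_⟩
  intro q s hs hx hlt hτ ht hend
  by_contra hcon
  push Not at hcon
  have hd : (q, s) ∈ dm δ w := mem_dm hH ⟨hx, hτ.trans_lt hδ₁⟩ hs.1 (hend.trans_lt hδ₁)
  obtain ⟨h1, h2⟩ := fl_rev hH.smooth hs.1 hd
  have hτ' := fl_tau hH.smooth hs.1 hd
  have ht' := fl_t hH.smooth hs.1 hd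
  have hmem : (rev (fl δ w q s), s) ∈ A := by
    refine ⟨⟨⟨⟨?_, hcon⟩, ?_, ?_⟩, hs⟩, ?_⟩
    · rw [mem_closedBall_zero_iff]
      refine (norm_fl_le hH.smooth hH.zero hs.1 hd).trans (max_le ?_ le_rfl)
      exact (hlt.trans_le (min_le_left _ _)).le
    · rw [mem_closedBall_zero_iff, rev_apply]
      show ‖(fl δ w q s).2.1‖ ≤ δ₁
      rw [hτ']; exact hend
    · rw [mem_closedBall_zero_iff, rev_apply]
      show ‖-(fl δ w q s).2.2‖ ≤ T
      rw [norm_neg, ht']; exact ht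
    · show ‖(fl δ w q s).2.1 + s • (-(fl δ w q s).2.2)‖ ≤ δ₁
      rw [hτ', ht', smul_neg, add_neg_cancel_right]
      exact hτ
  have h3 := hmin _ hmem
  simp only [h2] at h3
  exact absurd (hlt.trans_le (min_le_right _ _)) (not_lt.2 h3)

/-- forward map -/
def Fw (δ : ℝ) (w : E × ℂ → E) (p : E × ℂ) : E × ℂ :=
  open Classical in if p.1 = 0 then p else ((fl δ w (p.1, 0, p.2) 1).1, p.2)

/-- backward map -/
def Bw (δ : ℝ) (w : E × ℂ → E) (p : E × ℂ) : E × ℂ :=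
  open Classical in if p.1 = 0 then p else ((fl δ w (p.1, p.2, -p.2) 1).1, p.2)

theorem Fw_snd (p : E × ℂ) : (Fw δ w p).2 = p.2 := by
  unfold Fw; split_ifs <;> rfl

theorem Bw_snd (p : E × ℂ) : (Bw δ w p).2 = p.2 := by
  unfold Bw; split_ifs <;> rfl

theorem mem_fw (hH : Hyp ε ε₁ ε₂ δ c m w) {p : E × ℂ} (hp : ‖p.2‖ < δ) (h0 : p.1 ≠ 0) :
    (((p.1, 0, p.2) : E × ℂ × ℂ), (1 : ℝ)) ∈ dm δ w := by
  have : CompleteSpace E := FiniteDimensional.complete ℂ E
  refine mem_dm hH ⟨h0, ?_⟩ zero_le_one ?_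
  · simpa using (norm_nonneg _).trans_lt hp
  · simpa using hp

theorem mem_bw (hH : Hyp ε ε₁ ε₂ δ c m w) {p : E × ℂ} (hp : ‖p.2‖ < δ) (h0 : p.1 ≠ 0) :
    (((p.1, p.2, -p.2) : E × ℂ × ℂ), (1 : ℝ)) ∈ dm δ w := by
  have : CompleteSpace E := FiniteDimensional.complete ℂ E
  refine mem_dm hH ⟨h0, hp⟩ zero_le_one ?_
  simpa using (norm_nonneg _).trans_lt hp

theorem Bw_Fw (hH : Hyp ε ε₁ ε₂ δ c m w) {p : E × ℂ} (hp : ‖p.2‖ < δ) :
    Bw δ w (Fw δ w p) = p := by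
  classical
  have : CompleteSpace E := FiniteDimensional.complete ℂ E
  by_cases h0 : p.1 = 0
  · simp [Fw, Bw, h0]
  · have hd := mem_fw hH hp h0
    obtain ⟨h1, h2⟩ := fl_rev hH.smooth zero_le_one hd
    have hτ := fl_tau hH.smooth zero_le_one hd
    have ht := fl_t hH.smooth zero_le_one hd
    simp only [zero_add, one_smul] at hτ
    have hne := (fl_mem hH.smooth hd).1
    have hrev : rev (fl δ w (p.1, 0, p.2) 1) = ((fl δ w (p.1, 0, p.2) 1).1, p.2, -p.2) := by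
      rw [rev_apply, hτ, ht]
    rw [hrev] at h2
    simp only [Fw, h0, if_false, Bw, hne]
    rw [h2, rev_apply]

theorem Fw_Bw (hH : Hyp ε ε₁ ε₂ δ c m w) {p : E × ℂ} (hp : ‖p.2‖ < δ) :
    Fw δ w (Bw δ w p) = p := by
  classical
  have : CompleteSpace E := FiniteDimensional.complete ℂ E
  by_cases h0 : p.1 = 0
  · simp [Fw, Bw, h0]
  · have hd := mem_bw hH hp h0
    obtain ⟨h1, h2⟩ := fl_rev hH.smooth zero_le_one hd
    have hτ := fl_tau hH.smooth zero_le_one hd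
    have ht := fl_t hH.smooth zero_le_one hd
    simp only [one_smul, add_neg_cancel] at hτ
    have hne := (fl_mem hH.smooth hd).1
    have hrev : rev (fl δ w (p.1, p.2, -p.2) 1) = ((fl δ w (p.1, p.2, -p.2) 1).1, 0, p.2) := by
      rw [rev_apply, hτ, ht, neg_neg]
    rw [hrev] at h2
    simp only [Fw, h0, if_false, Bw, hne]
    rw [h2, rev_apply]

theorem cont_aux (hH : Hyp ε ε₁ ε₂ δ c m w) {a b : ℂ → ℂ} (ha : Continuous a) (hb : Continuous b)
    (ha' : ∀ t, ‖a t‖ ≤ ‖t‖) (hb' : ∀ t, ‖b t‖ ≤ ‖t‖) (hab : ∀ t, ‖a t + b t‖ ≤ ‖t‖)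
    (G : E × ℂ → E × ℂ) (hG0 : ∀ p : E × ℂ, p.1 = 0 → G p = p)
    (hG : ∀ p : E × ℂ, p.1 ≠ 0 → G p = ((fl δ w (p.1, a p.2, b p.2) 1).1, p.2)) :
    ContinuousOn G {p : E × ℂ | ‖p.2‖ < δ} := by
  have : CompleteSpace E := FiniteDimensional.complete ℂ E
  have hopen : IsOpen {p : E × ℂ | ‖p.2‖ < δ} :=
    isOpen_lt (continuous_norm.comp continuous_snd) continuous_const
  intro p hp
  refine ContinuousAt.continuousWithinAt ?_
  by_cases h0 : p.1 = 0
  · -- at the axis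
    obtain ⟨δ₁, hδ₁, hδ₁'⟩ := exists_between (show ‖p.2‖ < δ from hp)
    rw [ContinuousAt, hG0 p h0]
    rw [Metric.tendsto_nhds_nhds]
    intro η hη
    obtain ⟨μ, hμ, hun⟩ := unif_axis hH (T := δ₁) hδ₁' hη
    obtain ⟨ν, hν, hball⟩ := Metric.isOpen_iff.1
      (isOpen_lt (continuous_norm (E := ℂ)) (continuous_const (y := δ₁))) p.2 hδ₁
    refine ⟨min (min μ ν) η, lt_min (lt_min hμ hν) hη, ?_⟩
    intro p' hp'
    rw [Prod.dist_eq] at hp'
    have hx : dist p'.1 p.1 < min (min μ ν) η := (le_max_left _ _).trans_lt hp'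
    have ht : dist p'.2 p.2 < min (min μ ν) η := (le_max_right _ _).trans_lt hp'
    have ht1 : ‖p'.2‖ < δ₁ := hball (ht.trans_le ((min_le_left _ _).trans (min_le_right _ _)))
    rw [h0, dist_zero_right] at hx
    by_cases h0' : p'.1 = 0
    · rw [hG0 p' h0', Prod.dist_eq, h0, h0', dist_self]
      exact max_lt hη (ht.trans_le (min_le_right _ _))
    · rw [hG p' h0', Prod.dist_eq]
      refine max_lt ?_ (ht.trans_le (min_le_right _ _))
      show dist (fl δ w (p'.1, a p'.2, b p'.2) 1).1 p.1 < η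
      rw [h0, dist_zero_right]
      refine hun _ 1 ⟨zero_le_one, le_rfl⟩ h0'
        (hx.trans_le ((min_le_left _ _).trans (min_le_left _ _))) ((ha' _).trans ht1.le)
        ((hb' _).trans ht1.le) ?_
      show ‖a p'.2 + (1 : ℝ) • b p'.2‖ ≤ δ₁
      rw [one_smul]; exact (hab _).trans ht1.le
  · -- off the axis
    have hd : (((p.1, a p.2, b p.2) : E × ℂ × ℂ), (1 : ℝ)) ∈ dm δ w := by
      refine mem_dm hH ⟨h0, (ha' _).trans_lt hp⟩ zero_le_one ?_
      show ‖a p.2 + (1 : ℝ) • b p.2‖ < δ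
      rw [one_smul]; exact (hab _).trans_lt hp
    have h1 : ContinuousAt (flow (vf w) (US E δ)) (((p.1, a p.2, b p.2) : E × ℂ × ℂ), (1 : ℝ)) :=
      ((contDiffOn_flow (n := 1) le_rfl isOpen_US
        (contDiffOn_vf hH.smooth)).continuousOn).continuousAt
        ((isOpen_dom isOpen_US (contDiffOn_vf hH.smooth)).mem_nhds hd)
    have h2 : ContinuousAt (fun p : E × ℂ => (((p.1, a p.2, b p.2) : E × ℂ × ℂ), (1 : ℝ))) p := by
      fun_prop
    have h3 : ContinuousAt (fun p : E × ℂ => ((fl δ w (p.1, a p.2, b p.2) 1).1, p.2)) p := by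
      refine ContinuousAt.prodMk ?_ continuousAt_snd
      exact (ContinuousAt.comp (x := p) (g := flow (vf w) (US E δ)) h1 h2).fst
    refine h3.congr ?_
    have : ∀ᶠ p' : E × ℂ in 𝓝 p, p'.1 ≠ 0 :=
      (isOpen_ne_fun continuous_fst continuous_const).mem_nhds h0
    filter_upwards [this] with p' hp'
    exact (hG p' hp').symm

theorem continuousOn_Fw (hH : Hyp ε ε₁ ε₂ δ c m w) :
    ContinuousOn (Fw δ w) {p : E × ℂ | ‖p.2‖ < δ} := by
  classical
  refine cont_aux hH (a := fun _ => 0) (b := fun t => t) continuous_const continuous_id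
    (fun t => by simp) (fun t => le_rfl) (fun t => by simp) (Fw δ w) ?_ ?_
  · intro p hp; simp [Fw, hp]
  · intro p hp; simp [Fw, hp]

theorem continuousOn_Bw (hH : Hyp ε ε₁ ε₂ δ c m w) :
    ContinuousOn (Bw δ w) {p : E × ℂ | ‖p.2‖ < δ} := by
  classical
  refine cont_aux hH (a := fun t => t) (b := fun t => -t) continuous_id continuous_neg
    (fun t => le_rfl) (fun t => by simp) (fun t => by simp) (Bw δ w) ?_ ?_
  · intro p hp; simp [Bw, hp]
  · intro p hp; simp [Bw, hp]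

/-- **A-FLOW, flag form.** -/
theorem flow_flag {ε δ : ℝ} (hε : 0 < ε) (hδ : 0 < δ) {c : ℕ → E × ℂ → ℂ} {m : ℕ}
    (hc : ∀ j ≤ m, ∀ p ∈ Om E ε δ, AnalyticAt ℂ (c j) p)
    (hax : ∀ j ≤ m, ∀ t : ℂ, ‖t‖ < δ → c j (0, t) = 0)
    (hflag : ∀ p ∈ Om E ε δ, p.1 ≠ 0 → Flag c m p) :
    ∃ δ' : ℝ, 0 < δ' ∧ ∃ Φ : OpenPartialHomeomorph (E × ℂ) (E × ℂ),
      (∀ t : ℂ, ‖t‖ < δ' → ((0 : E), t) ∈ Φ.source ∧ Φ (0, t) = (0, t)) ∧
      (∀ p ∈ Φ.source, (Φ p).2 = p.2 ∧ c 0 (Φ p) = c 0 (p.1, 0)) ∧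
      (∀ x : E, (x, (0 : ℂ)) ∈ Φ.source → Φ (x, 0) = (x, 0)) := by
  classical
  have : CompleteSpace E := FiniteDimensional.complete ℂ E
  obtain ⟨w, hw, hwp⟩ := exists_field (ε := ε) (ε₁ := ε / 3) (ε₂ := ε / 2) (δ := δ)
    (by linarith) (by linarith) hc hflag
  have hH : Hyp ε (ε / 3) (ε / 2) δ c m w :=
    ⟨by positivity, by linarith, by linarith, hc, hax, hflag, hw,
      fun p hp => (hwp p hp).1, fun p hp => (hwp p hp).2⟩
  obtain ⟨μ, hμ, hun⟩ := unif_axis hH (δ₁ := δ / 2) (T := δ) (η := ε / 3) (by linarith)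
    (by positivity)
  let Θ : OpenPartialHomeomorph (E × ℂ) (E × ℂ) :=
    { toFun := Fw δ w
      invFun := Bw δ w
      source := {p | ‖p.2‖ < δ}
      target := {p | ‖p.2‖ < δ}
      map_source' := fun p hp => by
        show ‖(Fw δ w p).2‖ < δ
        rw [Fw_snd]; exact hp
      map_target' := fun p hp => by
        show ‖(Bw δ w p).2‖ < δ
        rw [Bw_snd]; exact hp
      left_inv' := fun p hp => Bw_Fw hH hp
      right_inv' := fun p hp => Fw_Bw hH hp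
      open_source := isOpen_lt (continuous_norm.comp continuous_snd) continuous_const
      open_target := isOpen_lt (continuous_norm.comp continuous_snd) continuous_const
      continuousOn_toFun := continuousOn_Fw hH
      continuousOn_invFun := continuousOn_Bw hH }
  have hS : IsOpen (Om E μ (δ / 2)) := isOpen_Om
  refine ⟨δ / 2, by positivity, Θ.restrOpen (Om E μ (δ / 2)) hS, ?_, ?_, ?_⟩
  · intro t ht
    refine ⟨⟨show ‖t‖ < δ by linarith, ?_⟩, ?_⟩
    · exact ⟨by rw [norm_zero]; exact hμ, ht⟩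
    · show Fw δ w (0, t) = (0, t)
      simp [Fw]
  · rintro p ⟨hp, hp1, hp2⟩
    have hp' : ‖p.2‖ < δ := hp
    refine ⟨Fw_snd p, ?_⟩
    show c 0 (Fw δ w p) = c 0 (p.1, 0)
    by_cases h0 : p.1 = 0
    · have h1 : Fw δ w p = p := by simp [Fw, h0]
      have h2 : p = ((0 : E), p.2) := by rw [← h0]
      rw [h1, h0]
      rw [h2]
      rw [hax 0 (Nat.zero_le _) _ hp', hax 0 (Nat.zero_le _) _ (by rw [norm_zero]; exact hδ)]
    · have hd := mem_fw hH hp' h0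
      have hsmall : ∀ r ∈ Icc (0 : ℝ) 1, ‖(fl δ w (p.1, 0, p.2) r).1‖ ≤ ε / 3 := by
        intro r hr
        refine (hun (p.1, 0, p.2) r hr h0 hp1 ?_ hp'.le ?_).le
        · simpa using (by positivity : (0 : ℝ) ≤ δ / 2)
        · show ‖0 + r • p.2‖ ≤ δ / 2
          rw [zero_add, norm_smul, Real.norm_of_nonneg hr.1]
          calc r * ‖p.2‖ ≤ 1 * ‖p.2‖ := mul_le_mul_of_nonneg_right hr.2 (norm_nonneg _)
            _ ≤ δ / 2 := by rw [one_mul]; exact hp2.le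
      have hconst := const_of_hasDerivAt_zero
        (f := fun r => c 0 (pt (fl δ w (p.1, 0, p.2) r))) (a := 0) (b := 1)
        (fun r hr => hasDerivAt_c hH (dm_of_le hd hr) (hsmall r hr) (Nat.zero_le _)
          (fun i hi => absurd hi (Nat.not_lt_zero i))) 1 ⟨zero_le_one, le_rfl⟩
      have hτ := fl_tau hH.smooth zero_le_one hd
      simp only [zero_add, one_smul] at hτ
      have hmem : ((p.1, 0, p.2) : E × ℂ × ℂ) ∈ US E δ := by
        refine ⟨h0, ?_⟩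
        simpa using hδ
      have h1 : Fw δ w p = pt (fl δ w (p.1, 0, p.2) 1) := by
        simp only [Fw, h0, if_false, pt]
        rw [hτ]
      rw [h1, hconst, fl_zero hH.smooth hmem]
      rfl
  · rintro x ⟨hx, hx1, -⟩
    show Fw δ w (x, 0) = (x, 0)
    by_cases h0 : x = 0
    · simp [Fw, h0]
    · have h1 := flow_of_zero (v := vf w) (U := US E δ) isOpen_US (contDiffOn_vf hH.smooth)
        (x := (x, 0, 0)) ⟨h0, by simpa using hδ⟩ (by simp [vf]) 1
      have h2 : fl δ w (x, 0, 0) 1 = (x, 0, 0) := h1.2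
      simp only [Fw, h0, if_false]
      rw [h2]

end Crest.Agent.R257.Flow_941
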