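import Crest.Agent.R257.Fr6_808
import Crest.Agent.R257.CLogDefs_68

/-!
R257 / Fr10_808: generic pairs with respect to a finite list of germs (`GenQStmt` of CLogDefs_68).

* `Frame.fin_bad` : finitely many points of the special fibre where a member of the list is not
  monomial times unit (or zero);
* `genQStmt`.
-/

set_option autoImplicit false

open Topology Filter MeasureTheory Set Function
open Crest.AlgGeometry.Germ

noncomputable section

namespace Crest.Agent.R257.Fr_808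

open Crest.Agent.R257.Defs_219
open Crest.Agent.R257.Gr1_157

namespace Frame

variable {f : E3 → ℂ} {F : Frame f}

/-- all members of the list are zero or monomial times unit -/
def GoodQ (F : Frame f) {L : ℕ} (Q : Fin L → E3 → ℂ) (c : F.K) (p : ℂ × ℂ) : Prop :=
  ∀ l, (∀ᶠ x in 𝓝 (0 : E3), f x = 0 → Q l x = 0) ∨ ∃ v : F.I → ℕ, F.Gen (Q l) v c p

theorem goodQ_near {Q : E3 → ℂ} {v : F.I → ℕ} (hv : F.Ord Q v) {c : F.K} {p₀ : ℂ × ℂ}
    (hp₀ : p₀ ∈ F.SF c) : ∀ᶠ p in 𝓝 p₀, p ∈ F.SF c → p ≠ p₀ → F.Gen Q v c p := by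
  obtain ⟨G, hG, h1, h2⟩ := hv.2 c p₀ hp₀
  -- along `{α = 0}`
  have A : ∀ᶠ p in 𝓝 p₀, p ∈ F.SF c → p ≠ p₀ → p.1 = 0 → G p ≠ 0 := by
    by_cases h0 : p₀.1 = 0
    · have hpe : p₀ = (0, p₀.2) := Prod.ext h0 rfl
      have h3 : AnalyticAt ℂ (fun z : ℂ => G (0, z)) p₀.2 := by
        have h4 : AnalyticAt ℂ (fun z : ℂ => ((0 : ℂ), z)) p₀.2 := analyticAt_const.prod analyticAt_id
        exact AnalyticAt.comp_of_eq (g := G) hG.1 h4 hpe.symm
      have h5 : ∀ᶠ z in 𝓝[≠] p₀.2, G (0, z) ≠ 0 := by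
        rcases h3.eventually_eq_zero_or_eventually_ne_zero with h4 | h4
        · obtain ⟨z, hz1, hz2⟩ := ((h1 h0).1.and_eventually h4).exists
          exact absurd hz2 hz1
        · exact h4
      rw [eventually_nhdsWithin_iff] at h5
      have h6 : ∀ᶠ p : ℂ × ℂ in 𝓝 p₀, p.2 ∈ ({p₀.2} : Set ℂ)ᶜ → G (0, p.2) ≠ 0 :=
        continuousAt_snd.eventually h5
      filter_upwards [h6] with p h7 hpS hne hp1
      have hpe' : p = (0, p.2) := Prod.ext hp1 rfl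
      rw [hpe']
      refine h7 fun h10 => hne ?_
      have h11 : p.2 = p₀.2 := h10
      rw [hpe', hpe, h11]
    · filter_upwards [continuousAt_fst.eventually_ne h0] with p hp _ _ hp1
      exact absurd hp1 hp
  have B : ∀ᶠ p in 𝓝 p₀, p ∈ F.SF c → p ≠ p₀ → F.e2 c ≠ none → p.2 = 0 → G p ≠ 0 := by
    by_cases he : F.e2 c = none
    · exact Eventually.of_forall fun p _ _ h => absurd he h
    by_cases h0 : p₀.2 = 0
    · obtain ⟨i, hi⟩ := Option.ne_none_iff_exists'.1 he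
      have hpe : p₀ = (p₀.1, 0) := Prod.ext rfl h0
      have h3 : AnalyticAt ℂ (fun z : ℂ => G (z, 0)) p₀.1 := by
        have h4 : AnalyticAt ℂ (fun z : ℂ => (z, (0 : ℂ))) p₀.1 := analyticAt_id.prod analyticAt_const
        exact AnalyticAt.comp_of_eq (g := G) hG.1 h4 hpe.symm
      have h5 : ∀ᶠ z in 𝓝[≠] p₀.1, G (z, 0) ≠ 0 := by
        rcases h3.eventually_eq_zero_or_eventually_ne_zero with h4 | h4
        · obtain ⟨z, hz1, hz2⟩ := ((h2 i hi h0).1.and_eventually h4).exists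
          exact absurd hz2 hz1
        · exact h4
      rw [eventually_nhdsWithin_iff] at h5
      have h6 : ∀ᶠ p : ℂ × ℂ in 𝓝 p₀, p.1 ∈ ({p₀.1} : Set ℂ)ᶜ → G (p.1, 0) ≠ 0 :=
        continuousAt_fst.eventually h5
      filter_upwards [h6] with p h7 hpS hne _ hp2
      have hpe' : p = (p.1, 0) := Prod.ext rfl hp2
      rw [hpe']
      refine h7 fun h10 => hne ?_
      have h11 : p.1 = p₀.1 := h10
      rw [hpe', hpe, h11]
    · filter_upwards [continuousAt_snd.eventually_ne h0] with p hp _ _ _ hp2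
      exact absurd hp2 hp
  filter_upwards [hG.eventually, A, B] with p h3 h4 h5 hpS hne
  refine ⟨G, h3, ?_⟩
  rcases hpS.2 with h | ⟨h, h'⟩
  · exact h4 hpS hne h
  · exact h5 hpS hne h h'

/-- finitely many exceptional points -/
theorem fin_bad {L : ℕ} {Q : Fin L → E3 → ℂ} (hQ : ∀ l, AnalyticAt ℂ (Q l) 0) (c : F.K) :
    {p | p ∈ F.SF c ∧ ¬ F.GoodQ Q c p}.Finite := by
  have key : ∀ l, (∀ᶠ x in 𝓝 (0 : E3), f x = 0 → Q l x = 0) ∨ ∃ v, F.Ord (Q l) v := by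
    intro l
    by_cases h : ∃ᶠ x in 𝓝 (0 : E3), f x = 0 ∧ Q l x ≠ 0
    · exact Or.inr (F.exists_Ord (hQ l) h)
    · left
      rw [Filter.not_frequently] at h
      filter_upwards [h] with x hx hfx
      by_contra hne
      exact hx ⟨hfx, hne⟩
  have hloc : ∀ p₀ ∈ F.SF c, ∀ᶠ p in 𝓝 p₀, p ∈ F.SF c → p ≠ p₀ → F.GoodQ Q c p := by
    intro p₀ hp₀
    have h1 : ∀ l, ∀ᶠ p in 𝓝 p₀, p ∈ F.SF c → p ≠ p₀ →
        (∀ᶠ x in 𝓝 (0 : E3), f x = 0 → Q l x = 0) ∨ ∃ v : F.I → ℕ, F.Gen (Q l) v c p := by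
      intro l
      rcases key l with h | ⟨v, hv⟩
      · exact Eventually.of_forall fun p _ _ => Or.inl h
      · filter_upwards [goodQ_near hv hp₀] with p hp h2 h3
        exact Or.inr ⟨v, hp h2 h3⟩
    filter_upwards [Filter.eventually_all.2 h1] with p hp h2 h3 l
    exact hp l h2 h3
  suffices h : {p | p ∈ F.SF c ∧ (p ∈ F.SF c ∧ ¬ F.GoodQ Q c p)}.Finite by
    refine h.subset fun p hp => ⟨hp.1, hp⟩
  refine (F.isCompact_SF c).induction_on
    (p := fun t => {p | p ∈ t ∧ (p ∈ F.SF c ∧ ¬ F.GoodQ Q c p)}.Finite) ?_ ?_ ?_ ?_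
  · simp
  · intro s t hst h
    exact h.subset fun p hp => ⟨hst hp.1, hp.2⟩
  · intro s t h1 h2
    refine (h1.union h2).subset ?_
    rintro p ⟨hp | hp, h3⟩
    · exact Or.inl ⟨hp, h3⟩
    · exact Or.inr ⟨hp, h3⟩
  · intro p₀ hp₀
    refine ⟨_, mem_nhdsWithin_of_mem_nhds (hloc p₀ hp₀), ?_⟩
    refine (finite_singleton p₀).subset ?_
    rintro p ⟨hp, h1, h2⟩
    rw [mem_singleton_iff]
    by_contra hne
    exact h2 (hp h1 hne)

theorem gen_pt {J : Type} [Fintype J] {γ : J → E3 → ℂ} {m : F.I → ℕ} (hge : ∀ j, F.Ge (γ j) m)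
    (hgen : ∀ c, ∀ p ∈ F.SF c, ∃ j, F.Gen (γ j) m c p) {c : F.K} {p₀ : ℂ × ℂ}
    (hp₀ : p₀ ∈ F.SF c) : ∃ O : Set (J → ℂ), IsOpen O ∧ Dense O ∧ ∀ l ∈ O,
      F.Gen (comb γ l) m c p₀ := by
  choose G hG using fun j => hge j c p₀ hp₀
  obtain ⟨j₀, G', hG', hG'0⟩ := hgen c p₀ hp₀
  have hG0 : G j₀ p₀ ≠ 0 := by rw [(hG j₀).unique hG']; exact hG'0
  have h1 := point_good (d := fun j => G j p₀) (j₀ := j₀) hG0
  exact ⟨_, h1.1, h1.2, fun l hl => ⟨_, Fac.comb hG l, hl⟩⟩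

theorem gen_fin {J : Type} [Fintype J] {γ : J → E3 → ℂ} {m : F.I → ℕ} (hge : ∀ j, F.Ge (γ j) m)
    (hgen : ∀ c, ∀ p ∈ F.SF c, ∃ j, F.Gen (γ j) m c p) {c : F.K} {S : Set (ℂ × ℂ)}
    (hS : S.Finite) (hSF : S ⊆ F.SF c) : ∃ O : Set (J → ℂ), IsOpen O ∧ Dense O ∧ ∀ l ∈ O,
      ∀ p ∈ S, F.Gen (comb γ l) m c p := by
  induction S, hS using Set.Finite.induction_on with
  | empty => exact ⟨univ, isOpen_univ, dense_univ, fun _ _ p hp => absurd hp (notMem_empty p)⟩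
  | @insert a s _ _ ih =>
    obtain ⟨O, h1, h2, h3⟩ := ih ((subset_insert _ _).trans hSF)
    obtain ⟨O', h1', h2', h3'⟩ := gen_pt hge hgen (hSF (mem_insert a s))
    refine ⟨O ∩ O', h1.inter h1', h2.inter_of_isOpen_left h2' h1, ?_⟩
    rintro l ⟨hl, hl'⟩ p (hp | hp)
    · rw [hp]; exact h3' l hl'
    · exact h3 l hl p hp

end Frame

open Frame

/-- **generic pairs with respect to a finite list** -/
theorem genQStmt : CLog_68.GenQStmt := by
  intro f F y k m hy hpos hk hm hb L Q hQ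
  obtain ⟨J, _, γ, hγ, hge, hgen⟩ := fin_family hb
  choose O hO1 hO2 hO3 using fun c => gen1 (γ := γ) hge hgen c
  choose W hW1 hW2 hW3 using fun c => gen_fin (γ := γ) hge hgen (fin_bad (F := F) hQ c)
    (fun p hp => hp.1)
  obtain ⟨l, hl⟩ := (dense_iInter_of_isOpen (f := fun c => O c ∩ W c)
    (fun c => (hO1 c).inter (hW1 c))
    (fun c => (hO2 c).inter_of_isOpen_left (hW2 c) (hO1 c))).nonempty
  rw [mem_iInter] at hl
  choose O' hO1' hO2' hO3' using fun c => gen2 (γ := γ) hge hgen c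
    (g := comb γ l) (hO3 c l (hl c).1)
  obtain ⟨l', hl'⟩ := (dense_iInter_of_isOpen hO1' hO2').nonempty
  rw [mem_iInter] at hl'
  refine ⟨comb γ l, comb γ l', comb_an hγ l, comb_an hγ l', fun c p₀ hp => ?_⟩
  obtain ⟨G, H, hG, hH, h⟩ := hO3' c l' (hl' c) p₀ hp
  refine ⟨G, H, hG, hH, ?_⟩
  by_cases hG0 : G p₀ = 0
  · rcases h with h | ⟨h1, h2⟩
    · exact Or.inl h
    · refine Or.inr ⟨h1, h2, ?_⟩
      by_contra hbad
      obtain ⟨G', hG', hG'0⟩ := hW3 c l (hl c).2 p₀ ⟨hp, hbad⟩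
      exact hG'0 (by rw [← hG.unique hG', hG0])
  · exact Or.inl hG0

end Crest.Agent.R257.Fr_808
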