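import Crest.Agent.R257.Fr8_808
import Crest.Agent.R257.Fr10_808

/-!
R257 / Fr11_808: inequality (i) of C-LOG, frame level.

* `pl_jc`, `pl_sum` : the Pluecker inequality at one point;
* `J2_le_of`        : `|E|² J2 ≤ C a2` at `θ p`;
-/

set_option autoImplicit false

open Topology Filter MeasureTheory Set Function
open Crest.AlgGeometry.Germ

noncomputable section

namespace Crest.Agent.R257.Fr_808

open Crest.Agent.R257.Defs_219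
open Crest.Agent.R257.Gr1_157
open Crest.Agent.R257.CLog_68 (sq phq J2 a2 Sys CI fib)

theorem fderiv_pair (u : ℂ × ℂ → ℂ) (p v : ℂ × ℂ) :
    fderiv ℂ u p v = v.1 * fderiv ℂ u p (1, 0) + v.2 * fderiv ℂ u p (0, 1) := by
  have h1 : v = v.1 • ((1 : ℂ), (0 : ℂ)) + v.2 • ((0 : ℂ), (1 : ℂ)) := by
    ext <;> simp
  conv_lhs => rw [h1]
  rw [map_add, map_smul, map_smul, smul_eq_mul, smul_eq_mul]

/-- Pluecker identity -/
theorem pl_jc (g a b : ℂ × ℂ → ℂ) (p v : ℂ × ℂ) :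
    fderiv ℂ g p v * jc a b p = fderiv ℂ a p v * jc g b p - fderiv ℂ b p v * jc g a p := by
  rw [fderiv_pair g, fderiv_pair a p v, fderiv_pair b p v, jc, jc, jc]
  ring

theorem pl_sum {L : ℕ} (w : Fin L → ℝ) (hw : ∀ l, 0 ≤ w l) (Q : Fin L → ℂ × ℂ → ℂ)
    (g : ℂ × ℂ → ℂ) (p v : ℂ × ℂ) {C E : ℝ} (hC : 0 ≤ C) (hE : 0 ≤ E)
    (h1 : ∀ l, ‖fderiv ℂ (Q l) p v‖ ≤ C * ‖Q l p‖) (h2 : ∀ l, w l * ‖Q l p‖ ^ 2 ≤ 1)
    (h3 : E ≤ ‖fderiv ℂ g p v‖) :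
    E ^ 2 * ∑ l, ∑ m, w l * w m * ‖jc (Q l) (Q m) p‖ ^ 2 ≤
      4 * L * C ^ 2 * ∑ l, w l * ‖jc g (Q l) p‖ ^ 2 := by
  have h4 : ∀ l, w l * ‖fderiv ℂ (Q l) p v‖ ^ 2 ≤ C ^ 2 := by
    intro l
    calc w l * ‖fderiv ℂ (Q l) p v‖ ^ 2 ≤ w l * (C * ‖Q l p‖) ^ 2 := by
          refine mul_le_mul_of_nonneg_left ?_ (hw l)
          exact pow_le_pow_left₀ (norm_nonneg _) (h1 l) 2
      _ = C ^ 2 * (w l * ‖Q l p‖ ^ 2) := by ring
      _ ≤ C ^ 2 * 1 := mul_le_mul_of_nonneg_left (h2 l) (by positivity)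
      _ = C ^ 2 := mul_one _
  have h5 : ∀ l m, E ^ 2 * (w l * w m * ‖jc (Q l) (Q m) p‖ ^ 2) ≤
      2 * C ^ 2 * (w m * ‖jc g (Q m) p‖ ^ 2) + 2 * C ^ 2 * (w l * ‖jc g (Q l) p‖ ^ 2) := by
    intro l m
    have e1 := congrArg norm (pl_jc g (Q l) (Q m) p v)
    rw [norm_mul] at e1
    have e2 : ‖fderiv ℂ (Q l) p v * jc g (Q m) p - fderiv ℂ (Q m) p v * jc g (Q l) p‖ ≤
        ‖fderiv ℂ (Q l) p v‖ * ‖jc g (Q m) p‖ + ‖fderiv ℂ (Q m) p v‖ * ‖jc g (Q l) p‖ := by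
      refine (norm_sub_le _ _).trans ?_
      rw [norm_mul, norm_mul]
    rw [← e1] at e2
    have e3 : E * ‖jc (Q l) (Q m) p‖ ≤
        ‖fderiv ℂ (Q l) p v‖ * ‖jc g (Q m) p‖ + ‖fderiv ℂ (Q m) p v‖ * ‖jc g (Q l) p‖ :=
      (mul_le_mul_of_nonneg_right h3 (norm_nonneg _)).trans e2
    have e4 : (E * ‖jc (Q l) (Q m) p‖) ^ 2 ≤
        2 * (‖fderiv ℂ (Q l) p v‖ ^ 2 * ‖jc g (Q m) p‖ ^ 2) +
          2 * (‖fderiv ℂ (Q m) p v‖ ^ 2 * ‖jc g (Q l) p‖ ^ 2) := by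
      refine (pow_le_pow_left₀ (by positivity) e3 2).trans ?_
      nlinarith [sq_nonneg (‖fderiv ℂ (Q l) p v‖ * ‖jc g (Q m) p‖ -
        ‖fderiv ℂ (Q m) p v‖ * ‖jc g (Q l) p‖)]
    have h6 : 0 ≤ w l * w m := mul_nonneg (hw l) (hw m)
    calc E ^ 2 * (w l * w m * ‖jc (Q l) (Q m) p‖ ^ 2)
        = w l * w m * (E * ‖jc (Q l) (Q m) p‖) ^ 2 := by ring
      _ ≤ w l * w m * (2 * (‖fderiv ℂ (Q l) p v‖ ^ 2 * ‖jc g (Q m) p‖ ^ 2) +
          2 * (‖fderiv ℂ (Q m) p v‖ ^ 2 * ‖jc g (Q l) p‖ ^ 2)) :=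
          mul_le_mul_of_nonneg_left e4 h6
      _ = 2 * (w l * ‖fderiv ℂ (Q l) p v‖ ^ 2) * (w m * ‖jc g (Q m) p‖ ^ 2) +
          2 * (w m * ‖fderiv ℂ (Q m) p v‖ ^ 2) * (w l * ‖jc g (Q l) p‖ ^ 2) := by ring
      _ ≤ _ := by
          have a1 : 0 ≤ w m * ‖jc g (Q m) p‖ ^ 2 := mul_nonneg (hw m) (by positivity)
          have a2 : 0 ≤ w l * ‖jc g (Q l) p‖ ^ 2 := mul_nonneg (hw l) (by positivity)
          have a3 := h4 l
          have a4 := h4 m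
          have a5 := mul_le_mul_of_nonneg_right a3 a1
          have a6 := mul_le_mul_of_nonneg_right a4 a2
          linarith
  rw [Finset.mul_sum]
  calc ∑ l, E ^ 2 * ∑ m, w l * w m * ‖jc (Q l) (Q m) p‖ ^ 2
      = ∑ l, ∑ m, E ^ 2 * (w l * w m * ‖jc (Q l) (Q m) p‖ ^ 2) := by
        refine Finset.sum_congr rfl fun l _ => ?_
        rw [Finset.mul_sum]
    _ ≤ ∑ l : Fin L, ∑ m : Fin L, (2 * C ^ 2 * (w m * ‖jc g (Q m) p‖ ^ 2) +
          2 * C ^ 2 * (w l * ‖jc g (Q l) p‖ ^ 2)) :=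
        Finset.sum_le_sum fun l _ => Finset.sum_le_sum fun m _ => h5 l m
    _ = 4 * L * C ^ 2 * ∑ l, w l * ‖jc g (Q l) p‖ ^ 2 := by
        have hA : ∀ A : Fin L → ℝ, ∑ l : Fin L, ∑ m : Fin L, (A m + A l) =
            2 * L * ∑ m, A m := by
          intro A
          simp only [Finset.sum_add_distrib, Finset.sum_const, Finset.card_univ,
            Fintype.card_fin, nsmul_eq_mul, ← Finset.mul_sum]
          ring
        rw [hA, ← Finset.mul_sum]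
        ring

section Sys

variable {f : E3 → ℂ} {L : ℕ} {q : Fin L → E3 → ℂ} {s : Fin L → ℕ}

theorem sq_nonneg' (q : Fin L → E3 → ℂ) (s : Fin L → ℕ) (l : Fin L) (x : E3) : 0 ≤ sq q s l x :=
  Finset.sum_nonneg fun _ _ => by positivity

theorem le_sq (q : Fin L → E3 → ℂ) (s : Fin L → ℕ) (l : Fin L) (x : E3) :
    ‖q l x‖ ^ 2 ≤ sq q s l x := by
  have h : l ∈ fib s l := by simp [fib]
  exact Finset.single_le_sum (f := fun m => ‖q m x‖ ^ 2) (fun _ _ => by positivity) h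

theorem exp_phq {x : E3} {l : Fin L} (h : 0 < sq q s l x) :
    Real.exp (-phq q s l x) = (sq q s l x)⁻¹ := by
  rw [Real.exp_neg, phq, Real.exp_log h]

theorem exp_phq2 {x : E3} {l m : Fin L} (h : 0 < sq q s l x) (h' : 0 < sq q s m x) :
    Real.exp (-(phq q s l x + phq q s m x)) = (sq q s l x)⁻¹ * (sq q s m x)⁻¹ := by
  rw [neg_add, Real.exp_add, exp_phq h, exp_phq h']

theorem a2_nonneg (f g : E3 → ℂ) (q : Fin L → E3 → ℂ) (s : Fin L → ℕ) (x : E3) :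
    0 ≤ a2 f g q s x := Finset.sum_nonneg fun _ _ => by positivity

theorem J2_nonneg (f : E3 → ℂ) (q : Fin L → E3 → ℂ) (s : Fin L → ℕ) (x : E3) :
    0 ≤ J2 f q s x :=
  div_nonneg (Finset.sum_nonneg fun _ _ => Finset.sum_nonneg fun _ _ => by positivity) (by norm_num)

/-- the inequality at one point of a chart, given a good vector -/
theorem J2_le_of {g : E3 → ℂ} {θ : ℂ × ℂ → E3} {p v : ℂ × ℂ} (hθ : DifferentiableAt ℂ θ p)
    (hf : DifferentiableAt ℂ f (θ p)) (hg : DifferentiableAt ℂ g (θ p))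
    (hq : ∀ l, DifferentiableAt ℂ (q l) (θ p)) (hz : ∀ᶠ p' in 𝓝 p, f (θ p') = 0)
    (hj : jac2 θ p ≠ 0) (hs : ∀ l, 0 < sq q s l (θ p)) {C E : ℝ} (hC : 0 ≤ C) (hE : 0 ≤ E)
    (h1 : ∀ l, ‖fderiv ℂ (fun p => q l (θ p)) p v‖ ≤ C * ‖q l (θ p)‖)
    (h3 : E ≤ ‖fderiv ℂ (fun p => g (θ p)) p v‖) :
    E ^ 2 * J2 f q s (θ p) ≤ 2 * L * C ^ 2 * a2 f g q s (θ p) := by
  set K : ℂ := coordDeriv f 0 (θ p) / jac2 θ p with hK
  have hdt : ∀ {u w : E3 → ℂ}, DifferentiableAt ℂ u (θ p) → DifferentiableAt ℂ w (θ p) →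
      Dt f u w (θ p) = K * jc (fun p => u (θ p)) (fun p => w (θ p)) p := by
    intro u w hu hw
    have h4 := jc_eq hθ hf hu hw hz
    rw [hK]
    field_simp
    linear_combination -h4
  have h5 : J2 f q s (θ p) = ‖K‖ ^ 2 * (∑ l, ∑ m, (sq q s l (θ p))⁻¹ * (sq q s m (θ p))⁻¹ *
      ‖jc (fun p => q l (θ p)) (fun p => q m (θ p)) p‖ ^ 2) / 2 := by
    rw [J2]
    congr 1
    rw [Finset.mul_sum]
    refine Finset.sum_congr rfl fun l _ => ?_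
    rw [Finset.mul_sum]
    refine Finset.sum_congr rfl fun m _ => ?_
    rw [exp_phq2 (hs l) (hs m), hdt (hq l) (hq m), norm_mul]
    ring
  have h6 : a2 f g q s (θ p) = ‖K‖ ^ 2 * ∑ l, (sq q s l (θ p))⁻¹ *
      ‖jc (fun p => g (θ p)) (fun p => q l (θ p)) p‖ ^ 2 := by
    rw [a2, Finset.mul_sum]
    refine Finset.sum_congr rfl fun l _ => ?_
    rw [exp_phq (hs l), hdt hg (hq l), norm_mul]
    ring
  have h7 := pl_sum (fun l => (sq q s l (θ p))⁻¹) (fun l => (inv_pos.2 (hs l)).le)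
    (fun l p => q l (θ p)) (fun p => g (θ p)) p v hC hE h1
    (fun l => by
      rw [inv_mul_le_iff₀ (hs l), mul_one]
      exact le_sq q s l (θ p)) h3
  rw [h5, h6]
  have h8 := mul_le_mul_of_nonneg_left h7 (sq_nonneg ‖K‖)
  linarith

end Sys

end Crest.Agent.R257.Fr_808
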