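import Crest.Agent.R257.Fr11_808

/-!
R257 / Fr12_808: good vectors.

* `GV Q g h p₀` : near `p₀`, off the axes, there are vectors `v` with `|dQ_j(v)| ≤ C |Q_j|` and
  `|g| + |h| ≤ C |dg(v)|`;
* `GV.of_swap`, `gv_nv`, `gv_sm`.
-/

set_option autoImplicit false

open Topology Filter MeasureTheory Set Function
open Crest.AlgGeometry.Germ

noncomputable section

namespace Crest.Agent.R257.Fr_808

open Crest.Agent.R257.Defs_219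
open Crest.Agent.R257.Gr1_157

/-- good vectors exist near `p₀` -/
def GV {J : Type} (Q : J → ℂ × ℂ → ℂ) (g h : ℂ × ℂ → ℂ) (p₀ : ℂ × ℂ) : Prop :=
  ∃ C₁ C₂ : ℝ, 0 ≤ C₁ ∧ ∀ᶠ p in 𝓝 p₀, p.1 ≠ 0 → p.2 ≠ 0 → ∃ v : ℂ × ℂ,
    (∀ j, ‖fderiv ℂ (Q j) p v‖ ≤ C₁ * ‖Q j p‖) ∧ ‖g p‖ + ‖h p‖ ≤ C₂ * ‖fderiv ℂ g p v‖

theorem fderiv_swap (u : ℂ × ℂ → ℂ) (p v : ℂ × ℂ) :
    fderiv ℂ (fun p : ℂ × ℂ => u p.swap) p v = fderiv ℂ u p.swap v.swap := by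
  have h1 := (ContinuousLinearEquiv.prodComm ℂ ℂ ℂ).comp_right_fderiv (f := u) (x := p)
  have h2 : (u ∘ ⇑(ContinuousLinearEquiv.prodComm ℂ ℂ ℂ)) = fun p : ℂ × ℂ => u p.swap := by
    funext p; rfl
  rw [h2] at h1
  rw [h1]
  rfl

theorem GV.of_swap {J : Type} {Q : J → ℂ × ℂ → ℂ} {g h : ℂ × ℂ → ℂ} {p₀ : ℂ × ℂ}
    (H : GV (fun j p => Q j p.swap) (fun p => g p.swap) (fun p => h p.swap) p₀.swap) :
    GV Q g h p₀ := by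
  obtain ⟨C₁, C₂, hC, hev⟩ := H
  refine ⟨C₁, C₂, hC, ?_⟩
  have h1 : Tendsto (fun p : ℂ × ℂ => p.swap) (𝓝 p₀) (𝓝 p₀.swap) := continuous_swap.continuousAt
  filter_upwards [h1.eventually hev] with p hp h2 h3
  obtain ⟨v, h4, h5⟩ := hp h3 h2
  refine ⟨v.swap, fun j => ?_, ?_⟩
  · have h6 := h4 j
    rw [fderiv_swap, Prod.swap_swap] at h6
    exact h6
  · rw [fderiv_swap, Prod.swap_swap] at h5
    exact h5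

/-- at the points where the leading coefficient of `g` does not vanish -/
theorem gv_nv (hNV : CLog_68.NVStmt) {J : Type} [Fintype J] {Q : J → ℂ × ℂ → ℂ}
    {g h : ℂ × ℂ → ℂ} {p₀ : ℂ × ℂ} (h1 : p₀.1 = 0) {m₁ m₂ : ℕ} (hm : m₂ = 0 ∨ p₀.2 = 0)
    (hm1 : 0 < m₁) (hQ : ∀ j, AnalyticAt ℂ (Q j) p₀) {U H : ℂ × ℂ → ℂ} (hU : AnalyticAt ℂ U p₀)
    (hU0 : U p₀ ≠ 0) (hH : ContinuousAt H p₀) (hg : ∀ᶠ p in 𝓝 p₀, g p = p.1 ^ m₁ * p.2 ^ m₂ * U p)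
    (hh : ∀ᶠ p in 𝓝 p₀, h p = p.1 ^ m₁ * p.2 ^ m₂ * H p) : GV Q g h p₀ := by
  have hpe : p₀ = (0, p₀.2) := Prod.ext h1 rfl
  obtain ⟨c, C, hc, hev⟩ := hNV J inferInstance Q g p₀.2 m₁ m₂ (by rwa [← hpe]) hm hm1
    ⟨U, by rwa [← hpe], by rwa [← hpe], by rwa [← hpe]⟩
  rw [← hpe] at hev
  have hUpos : 0 < ‖U p₀‖ := norm_pos_iff.2 hU0
  have e1 : ∀ᶠ p in 𝓝 p₀, ‖U p₀‖ / 2 < ‖U p‖ :=
    continuousAt_const.eventually_lt hU.continuousAt.norm (by linarith)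
  have e2 : ∀ᶠ p in 𝓝 p₀, ‖H p‖ < ‖H p₀‖ + 1 :=
    hH.norm.eventually_lt continuousAt_const (by linarith)
  set D : ℝ := (‖H p₀‖ + 1) / (‖U p₀‖ / 2) with hD
  have hD0 : 0 ≤ D := by positivity
  refine ⟨max C 0, (1 + D) / c, le_max_right _ _, ?_⟩
  filter_upwards [hev, hg, hh, e1, e2] with p h2 h3 h4 h5 h6 h7 _
  obtain ⟨v, h8, h9⟩ := h2 h7
  refine ⟨v, fun j => (h8 j).trans (mul_le_mul_of_nonneg_right (le_max_left _ _)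
    (norm_nonneg _)), ?_⟩
  have h10 : ‖h p‖ ≤ D * ‖g p‖ := by
    rw [h3, h4, norm_mul, norm_mul _ (U p)]
    have h11 : ‖H p‖ ≤ D * ‖U p‖ := by
      calc ‖H p‖ ≤ ‖H p₀‖ + 1 := h6.le
        _ = D * (‖U p₀‖ / 2) := by
          rw [hD]; field_simp
        _ ≤ D * ‖U p‖ := mul_le_mul_of_nonneg_left h5.le hD0
    calc ‖p.1 ^ m₁ * p.2 ^ m₂‖ * ‖H p‖ ≤ ‖p.1 ^ m₁ * p.2 ^ m₂‖ * (D * ‖U p‖) :=
          mul_le_mul_of_nonneg_left h11 (norm_nonneg _)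
      _ = D * (‖p.1 ^ m₁ * p.2 ^ m₂‖ * ‖U p‖) := by ring
  calc ‖g p‖ + ‖h p‖ ≤ (1 + D) * ‖g p‖ := by linarith
    _ = (1 + D) / c * (c * ‖g p‖) := by field_simp
    _ ≤ (1 + D) / c * ‖fderiv ℂ g p v‖ :=
        mul_le_mul_of_nonneg_left h9 (by positivity)

theorem fd_an {G : ℂ × ℂ → ℂ} {p : ℂ × ℂ} (hG : AnalyticAt ℂ G p) (v : ℂ × ℂ) :
    AnalyticAt ℂ (fun p => fderiv ℂ G p v) p := by
  have h1 : AnalyticAt ℂ (fderiv ℂ G) p := hG.fderiv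
  have h2 := (ContinuousLinearMap.apply ℂ ℂ v).analyticAt (fderiv ℂ G p)
  exact h2.comp h1

/-- derivative along `β` of `α ^ a * W` -/
theorem fd_beta {u W : ℂ × ℂ → ℂ} {a : ℕ} {p₀ : ℂ × ℂ} (hW : AnalyticAt ℂ W p₀)
    (hu : ∀ᶠ p in 𝓝 p₀, u p = p.1 ^ a * W p) :
    ∀ᶠ p in 𝓝 p₀, fderiv ℂ u p (0, 1) = p.1 ^ a * fderiv ℂ W p (0, 1) := by
  filter_upwards [hW.eventually_analyticAt, hu.eventually_nhds] with p h1 h2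
  have h3 : u =ᶠ[𝓝 p] fun p => p.1 ^ a * W p := h2
  rw [h3.fderiv_eq, fderiv_powmul h1.differentiableAt]
  simp

/-- at a simple zero of the leading coefficient of `g`, list monomial -/
theorem gv_sm {J : Type} [Fintype J] {Q : J → ℂ × ℂ → ℂ}
    {g h : ℂ × ℂ → ℂ} {p₀ : ℂ × ℂ} {m : ℕ}
    (hQ : ∀ j, (∀ᶠ p in 𝓝 p₀, Q j p = 0) ∨ ∃ (a : ℕ) (W : ℂ × ℂ → ℂ), AnalyticAt ℂ W p₀ ∧
      W p₀ ≠ 0 ∧ ∀ᶠ p in 𝓝 p₀, Q j p = p.1 ^ a * W p) {G H : ℂ × ℂ → ℂ}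
    (hG : AnalyticAt ℂ G p₀) (hG' : fderiv ℂ G p₀ (0, 1) ≠ 0) (hH : ContinuousAt H p₀)
    (hg : ∀ᶠ p in 𝓝 p₀, g p = p.1 ^ m * G p)
    (hh : ∀ᶠ p in 𝓝 p₀, h p = p.1 ^ m * H p) : GV Q g h p₀ := by
  have key : ∀ j, ∃ C : ℝ, 0 ≤ C ∧ ∀ᶠ p in 𝓝 p₀, ‖fderiv ℂ (Q j) p (0, 1)‖ ≤ C * ‖Q j p‖ := by
    intro j
    rcases hQ j with h0 | ⟨a, W, hW, hW0, hWQ⟩
    · refine ⟨0, le_rfl, ?_⟩
      filter_upwards [h0.eventually_nhds] with p hp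
      have h3 : Q j =ᶠ[𝓝 p] fun _ => (0 : ℂ) := hp
      rw [h3.fderiv_eq]
      simp
    · have hWpos : 0 < ‖W p₀‖ := norm_pos_iff.2 hW0
      have e1 : ∀ᶠ p in 𝓝 p₀, ‖W p₀‖ / 2 < ‖W p‖ :=
        continuousAt_const.eventually_lt hW.continuousAt.norm (by linarith)
      have e2 : ∀ᶠ p in 𝓝 p₀, ‖fderiv ℂ W p (0, 1)‖ < ‖fderiv ℂ W p₀ (0, 1)‖ + 1 :=
        (fd_an hW (0, 1)).continuousAt.norm.eventually_lt continuousAt_const (by linarith)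
      set D : ℝ := (‖fderiv ℂ W p₀ (0, 1)‖ + 1) / (‖W p₀‖ / 2) with hD
      have hD0 : 0 ≤ D := by positivity
      refine ⟨D, hD0, ?_⟩
      filter_upwards [fd_beta hW hWQ, hWQ, e1, e2] with p h1 h2 h3 h4
      rw [h1, h2, norm_mul, norm_mul]
      have h11 : ‖fderiv ℂ W p (0, 1)‖ ≤ D * ‖W p‖ := by
        calc ‖fderiv ℂ W p (0, 1)‖ ≤ ‖fderiv ℂ W p₀ (0, 1)‖ + 1 := h4.le
          _ = D * (‖W p₀‖ / 2) := by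
            rw [hD]; field_simp
          _ ≤ D * ‖W p‖ := mul_le_mul_of_nonneg_left h3.le hD0
      calc ‖p.1 ^ a‖ * ‖fderiv ℂ W p (0, 1)‖ ≤ ‖p.1 ^ a‖ * (D * ‖W p‖) :=
            mul_le_mul_of_nonneg_left h11 (norm_nonneg _)
        _ = D * (‖p.1 ^ a‖ * ‖W p‖) := by ring
  choose C hC hCe using key
  have hGpos : 0 < ‖fderiv ℂ G p₀ (0, 1)‖ := norm_pos_iff.2 hG'
  have e1 : ∀ᶠ p in 𝓝 p₀, ‖fderiv ℂ G p₀ (0, 1)‖ / 2 < ‖fderiv ℂ G p (0, 1)‖ :=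
    continuousAt_const.eventually_lt (fd_an hG (0, 1)).continuousAt.norm (by linarith)
  have e2 : ∀ᶠ p in 𝓝 p₀, ‖G p‖ + ‖H p‖ < ‖G p₀‖ + ‖H p₀‖ + 1 :=
    (hG.continuousAt.norm.add hH.norm).eventually_lt continuousAt_const (by simp)
  set D : ℝ := (‖G p₀‖ + ‖H p₀‖ + 1) / (‖fderiv ℂ G p₀ (0, 1)‖ / 2) with hD
  have hD0 : 0 ≤ D := by positivity
  refine ⟨∑ j, C j, D, Finset.sum_nonneg fun j _ => hC j, ?_⟩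
  filter_upwards [Filter.eventually_all.2 hCe, e1, e2, fd_beta hG hg, hg, hh] with
    p h1 h2 h3 h4 h5 h6 _ _
  refine ⟨(0, 1), fun j => (h1 j).trans (mul_le_mul_of_nonneg_right
    (Finset.single_le_sum (f := C) (fun j _ => hC j) (Finset.mem_univ j)) (norm_nonneg _)), ?_⟩
  rw [h4, h5, h6, norm_mul, norm_mul, norm_mul]
  calc ‖p.1 ^ m‖ * ‖G p‖ + ‖p.1 ^ m‖ * ‖H p‖ = ‖p.1 ^ m‖ * (‖G p‖ + ‖H p‖) := by ring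
    _ ≤ ‖p.1 ^ m‖ * (‖G p₀‖ + ‖H p₀‖ + 1) := mul_le_mul_of_nonneg_left h3.le (norm_nonneg _)
    _ = ‖p.1 ^ m‖ * (D * (‖fderiv ℂ G p₀ (0, 1)‖ / 2)) := by
        rw [hD]; field_simp
    _ ≤ ‖p.1 ^ m‖ * (D * ‖fderiv ℂ G p (0, 1)‖) :=
        mul_le_mul_of_nonneg_left (mul_le_mul_of_nonneg_left h2.le hD0) (norm_nonneg _)
    _ = D * (‖p.1 ^ m‖ * ‖fderiv ℂ G p (0, 1)‖) := by ring

end Crest.Agent.R257.Fr_808
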