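import Crest.Agent.R257.Fr12_808

/-!
R257 / Fr13_808: inequality (i) of C-LOG from a frame.

* `Frame.gv` : good vectors at every point of the special fibre for a pair generic w.r.t. a list;
* `Frame.ci_near` : from good vectors to the inequality;
* `ci_of` : the last conjunct of `CLogStmt` from a frame with base point freeness.
-/

set_option autoImplicit false

open Topology Filter MeasureTheory Set Function
open Crest.AlgGeometry.Germ

noncomputable section

namespace Crest.Agent.R257.Fr_808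

open Crest.Agent.R257.Defs_219
open Crest.Agent.R257.Gr1_157
open Crest.Agent.R257.CLog_68 (sq phq J2 a2 Sys CI fib)

section Cont

variable {f g : E3 → ℂ} {L : ℕ} {q : Fin L → E3 → ℂ} {s : Fin L → ℕ} {x : E3}

theorem phq_cont (hq : ∀ l, AnalyticAt ℂ (q l) x) {l : Fin L} (hs : 0 < sq q s l x) :
    ContinuousAt (phq q s l) x := by
  have h1 : ContinuousAt (sq q s l) x := by
    unfold CLog_68.sq
    exact tendsto_finsetSum _ fun m _ => ((hq m).continuousAt.norm.pow 2)
  exact h1.log hs.ne'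

theorem J2_cont (hf : AnalyticAt ℂ f x) (hq : ∀ l, AnalyticAt ℂ (q l) x)
    (hs : ∀ l, 0 < sq q s l x) : ContinuousAt (J2 f q s) x := by
  unfold J2
  refine ContinuousAt.div_const ?_ _
  refine tendsto_finsetSum _ fun l _ => tendsto_finsetSum _ fun m _ => ?_
  exact ((((phq_cont hq (hs l)).add (phq_cont hq (hs m))).neg).rexp).mul
    ((dt0_an hf (hq l) (hq m)).continuousAt.norm.pow 2)

theorem a2_cont (hf : AnalyticAt ℂ f x) (hg : AnalyticAt ℂ g x) (hq : ∀ l, AnalyticAt ℂ (q l) x)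
    (hs : ∀ l, 0 < sq q s l x) : ContinuousAt (a2 f g q s) x := by
  unfold a2
  refine tendsto_finsetSum _ fun l _ => ?_
  exact (((phq_cont hq (hs l)).neg).rexp).mul
    ((dt0_an hf hg (hq l)).continuousAt.norm.pow 2)

theorem sys_pos (hS : Sys f q s) : ∀ᶠ x in 𝓝 (0 : E3), x ≠ 0 → f x = 0 → ∀ l, 0 < sq q s l x := by
  obtain ⟨N, c, r, hc, hr, h⟩ := hS.lo
  filter_upwards [Metric.ball_mem_nhds (0 : E3) hr] with x hx h0 hfx l
  have h1 : 0 < ‖x‖ := norm_pos_iff.2 h0
  exact lt_of_lt_of_le (by positivity) (h x (by simpa using hx) hfx l)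

end Cont

namespace Frame

variable {f : E3 → ℂ} {F : Frame f}

/-- from good vectors to the inequality -/
theorem ci_near (hf : AnalyticAt ℂ f 0) {g h : E3 → ℂ} (hg : AnalyticAt ℂ g 0)
    (hh : AnalyticAt ℂ h 0) {L : ℕ} {q : Fin L → E3 → ℂ} {s : Fin L → ℕ} (hS : Sys f q s)
    {c : F.K} {p₀ : ℂ × ℂ} (hp₀ : p₀ ∈ F.SF c)
    (hgv : GV (fun l p => q l (F.th c p)) (fun p => g (F.th c p)) (fun p => h (F.th c p)) p₀) :
    ∃ C : ℝ, ∀ᶠ p in 𝓝 p₀, p ∈ BD → p ∉ F.SF c →
      (‖g (F.th c p)‖ ^ 2 + ‖h (F.th c p)‖ ^ 2) * J2 f q s (F.th c p) ≤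
        C * a2 f g q s (F.th c p) := by
  obtain ⟨C₁, C₂, hC₁, hev⟩ := hgv
  set D : ℝ := max C₂ 1 with hD
  have hD0 : 0 < D := lt_of_lt_of_le one_pos (le_max_right _ _)
  refine ⟨D ^ 2 * (2 * L * C₁ ^ 2), ?_⟩
  have hcont : ContinuousAt (F.th c) p₀ := (F.an c _ hp₀.1).continuousAt
  have hth0 := F.th_SF hp₀
  have hto : ∀ {P : E3 → Prop}, (∀ᶠ x in 𝓝 (0 : E3), P x) → ∀ᶠ p in 𝓝 p₀, P (F.th c p) := by
    intro P hP
    rw [← hth0] at hP
    exact hcont.eventually hP
  obtain ⟨U, hU, hU0, hj⟩ := F.jac c p₀ hp₀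
  -- off the axes
  have hmain : ∀ᶠ p in 𝓝 p₀, p.1 ≠ 0 → p.2 ≠ 0 → p ∈ BD →
      (‖g (F.th c p)‖ ^ 2 + ‖h (F.th c p)‖ ^ 2) * J2 f q s (F.th c p) ≤
        D ^ 2 * (2 * L * C₁ ^ 2) * a2 f g q s (F.th c p) := by
    filter_upwards [hev, hj, hU.continuousAt.eventually_ne hU0, (F.an c _ hp₀.1).eventually_analyticAt,
      hto hf.eventually_analyticAt, hto hg.eventually_analyticAt,
      hto (Filter.eventually_all.2 fun l => (hS.an l).eventually_analyticAt),
      (F.onV' hf hp₀).eventually_nhds, hto (sys_pos hS)] with p h1 h2 h3 h4 h5 h6 h7 h8 h9 hp1 hp2 hB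
    obtain ⟨v, hv1, hv2⟩ := h1 hp1 hp2
    obtain ⟨h10, h11⟩ := h2 hp1 hp2
    have hjac : jac2 (F.th c) p ≠ 0 := by
      rw [h11]
      exact mul_ne_zero (mul_ne_zero (mul_ne_zero h10 (zpow_ne_zero _ hp1))
        (zpow_ne_zero _ hp2)) h3
    have hne : F.th c p ≠ 0 := by
      refine F.th_ne hB fun hS' => ?_
      rcases hS'.2 with h | h
      · exact hp1 h
      · exact hp2 h.2
    have hs := h9 hne (F.onV c p hB)
    set E : ℝ := (‖g (F.th c p)‖ + ‖h (F.th c p)‖) / D with hE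
    have hE0 : 0 ≤ E := by positivity
    have h12 := J2_le_of (q := q) (s := s) h4.differentiableAt h5.differentiableAt
      h6.differentiableAt (fun l => (h7 l).differentiableAt) h8 hjac hs hC₁ hE0 hv1
      (by
        rw [hE, div_le_iff₀ hD0, mul_comm]
        exact hv2.trans (mul_le_mul_of_nonneg_right (le_max_left _ _) (norm_nonneg _)))
    have hJ := J2_nonneg f q s (F.th c p)
    have h13 : (‖g (F.th c p)‖ ^ 2 + ‖h (F.th c p)‖ ^ 2) ≤ D ^ 2 * E ^ 2 := by
      have : D * E = ‖g (F.th c p)‖ + ‖h (F.th c p)‖ := by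
        rw [hE]; field_simp
      rw [← mul_pow, this]
      nlinarith [norm_nonneg (g (F.th c p)), norm_nonneg (h (F.th c p))]
    calc (‖g (F.th c p)‖ ^ 2 + ‖h (F.th c p)‖ ^ 2) * J2 f q s (F.th c p)
        ≤ D ^ 2 * E ^ 2 * J2 f q s (F.th c p) := mul_le_mul_of_nonneg_right h13 hJ
      _ = D ^ 2 * (E ^ 2 * J2 f q s (F.th c p)) := by ring
      _ ≤ D ^ 2 * (2 * L * C₁ ^ 2 * a2 f g q s (F.th c p)) :=
          mul_le_mul_of_nonneg_left h12 (by positivity)
      _ = _ := by ring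
  filter_upwards [hmain, hmain.eventually_nhds, (F.an c _ hp₀.1).eventually_analyticAt,
    hto hf.eventually_analyticAt, hto hg.eventually_analyticAt, hto hh.eventually_analyticAt,
    hto (Filter.eventually_all.2 fun l => (hS.an l).eventually_analyticAt),
    hto (sys_pos hS)] with p h1 h1' h2 h3 h4 h5 h6 h7 hB hSF
  obtain ⟨hp1, -⟩ := F.off hB hSF
  by_cases hp2 : p.2 ≠ 0
  · exact h1 hp1 hp2 hB
  · -- by continuity
    have hp2' : p.2 = 0 := not_not.1 hp2
    have hs := h7 (F.th_ne hB hSF) (F.onV c p hB)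
    have hc1 : ContinuousAt (fun p => (‖g (F.th c p)‖ ^ 2 + ‖h (F.th c p)‖ ^ 2) *
        J2 f q s (F.th c p)) p := by
      refine ContinuousAt.mul (ContinuousAt.add ?_ ?_) ?_
      · exact (ContinuousAt.comp (g := g) (f := F.th c) h4.continuousAt h2.continuousAt).norm.pow 2
      · exact (ContinuousAt.comp (g := h) (f := F.th c) h5.continuousAt h2.continuousAt).norm.pow 2
      · exact ContinuousAt.comp (g := J2 f q s) (f := F.th c) (J2_cont h3 h6 hs) h2.continuousAt
    have hc2 : ContinuousAt (fun p => D ^ 2 * (2 * L * C₁ ^ 2) * a2 f g q s (F.th c p)) p :=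
      continuousAt_const.mul
        (ContinuousAt.comp (g := a2 f g q s) (f := F.th c) (a2_cont h3 h4 h6 hs) h2.continuousAt)
    have hto' : Tendsto (fun t : ℝ => (p.1, (t : ℂ))) (𝓝[>] 0) (𝓝 p) := by
      have h8 : ContinuousAt (fun t : ℝ => (p.1, (t : ℂ))) 0 := by fun_prop
      have h9 : (p.1, ((0 : ℝ) : ℂ)) = p := Prod.ext rfl (by simp [hp2'])
      have h10 := h8.tendsto
      simp only [h9] at h10
      exact h10.mono_left nhdsWithin_le_nhds
    refine le_of_tendsto_of_tendsto (hc1.tendsto.comp hto') (hc2.tendsto.comp hto') ?_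
    have h8 : ∀ᶠ t : ℝ in 𝓝[>] 0, t < 1 :=
      Filter.Eventually.filter_mono nhdsWithin_le_nhds (eventually_lt_nhds one_pos)
    filter_upwards [hto'.eventually h1', h8, self_mem_nhdsWithin] with t h9 h10 h11
    have h11' : (0 : ℝ) < t := h11
    refine h9 hp1 (by simpa using h11'.ne') ⟨hB.1, ?_⟩
    simp only [Complex.norm_real, Real.norm_eq_abs, abs_of_pos h11']
    exact h10.le

/-- good vectors at every point of the special fibre -/
theorem gv (hNV : CLog_68.NVStmt) (hf : AnalyticAt ℂ f 0) {g h : E3 → ℂ}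
    {m : F.I → ℕ} (hm : ∀ i, 0 < m i) {L : ℕ} {Q : Fin L → E3 → ℂ}
    (hQ : ∀ l, AnalyticAt ℂ (Q l) 0) {c : F.K} {p₀ : ℂ × ℂ} (hp₀ : p₀ ∈ F.SF c)
    {G H : ℂ × ℂ → ℂ} (hG : F.Fac g m c p₀ G) (hH : F.Fac h m c p₀ H)
    (hor : G p₀ ≠ 0 ∨ H p₀ ≠ 0 ∧
        ((p₀.1 = 0 ∧ p₀.2 ≠ 0 ∧ deriv (fun z => G (0, z)) p₀.2 ≠ 0) ∨
          (F.e2 c ≠ none ∧ p₀.2 = 0 ∧ p₀.1 ≠ 0 ∧ deriv (fun z => G (z, 0)) p₀.1 ≠ 0)) ∧
        ∀ l, (∀ᶠ x in 𝓝 (0 : E3), f x = 0 → Q l x = 0) ∨ ∃ v : F.I → ℕ, F.Gen (Q l) v c p₀) :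
    GV (fun l p => Q l (F.th c p)) (fun p => g (F.th c p)) (fun p => h (F.th c p)) p₀ := by
  have hcont : ContinuousAt (F.th c) p₀ := (F.an c _ hp₀.1).continuousAt
  have hth0 := F.th_SF hp₀
  have hQan : ∀ l, AnalyticAt ℂ (fun p => Q l (F.th c p)) p₀ := fun l =>
    AnalyticAt.comp (g := Q l) (f := F.th c) (by rw [hth0]; exact hQ l) (F.an c _ hp₀.1)
  have hto : ∀ {P : E3 → Prop}, (∀ᶠ x in 𝓝 (0 : E3), P x) → ∀ᶠ p in 𝓝 p₀, P (F.th c p) := by
    intro P hP
    rw [← hth0] at hP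
    exact hcont.eventually hP
  have hQ0 : ∀ l, (∀ᶠ x in 𝓝 (0 : E3), f x = 0 → Q l x = 0) →
      ∀ᶠ p in 𝓝 p₀, Q l (F.th c p) = 0 := by
    intro l h0
    filter_upwards [hto h0, F.onV' hf hp₀] with p h1 h2
    exact h1 h2
  by_cases hG0 : G p₀ = 0
  · obtain ⟨hH0, hSm, hQl⟩ := hor.resolve_left (fun h => h hG0)
    rcases hSm with ⟨h1, h2, h3⟩ | ⟨he, h2, h1, h3⟩
    · -- on `{α = 0}`
      have hpe : p₀ = (0, p₀.2) := Prod.ext h1 rfl
      set b : ℕ := ex2 m (F.e2 c) with hb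
      refine gv_sm (m := m (F.e1 c)) (G := fun p => p.2 ^ b * G p) (H := fun p => p.2 ^ b * H p)
        (fun l => ?_) ((analyticAt_snd.pow _).mul hG.1) ?_
        (((analyticAt_snd.pow _).mul hH.1).continuousAt) ?_ ?_
      · rcases hQl l with h0 | ⟨v, W, hW, hW0⟩
        · exact Or.inl (hQ0 l h0)
        · refine Or.inr ⟨v (F.e1 c), fun p => p.2 ^ ex2 v (F.e2 c) * W p,
            (analyticAt_snd.pow _).mul hW.1, mul_ne_zero (pow_ne_zero _ h2) hW0, ?_⟩
          filter_upwards [hW.2] with p hp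
          rw [hp, mo]; ring
      · -- the derivative
        have hda : DifferentiableAt ℂ (fun p : ℂ × ℂ => p.2 ^ b * G p) p₀ :=
          ((analyticAt_snd.pow _).mul hG.1).differentiableAt
        have e1 := fderiv_01 hda
        have e2 : HasDerivAt (fun z => G (0, z)) (deriv (fun z => G (0, z)) p₀.2) p₀.2 :=
          (diff1 (by rw [← hpe]; exact hG.1)).hasDerivAt
        have e3 := (hasDerivAt_pow b p₀.2).mul e2
        have e4 : (fun z : ℂ => (fun p : ℂ × ℂ => p.2 ^ b * G p) (p₀.1, z)) =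
            fun z => z ^ b * G (0, z) := by
          funext z
          simp only [h1]
        rw [e4] at e1
        have e5 : HasDerivAt (fun z : ℂ => z ^ b * G (0, z))
            (fderiv ℂ (fun p : ℂ × ℂ => p.2 ^ b * G p) p₀ (0, 1)) p₀.2 := e1
        have hG00 : G (0, p₀.2) = 0 := by rw [← hpe]; exact hG0
        have e6 := e5.unique e3
        rw [e6, hG00, mul_zero, zero_add]
        exact mul_ne_zero (pow_ne_zero _ h2) h3
      · filter_upwards [hG.2] with p hp
        rw [hp, mo]; ring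
      · filter_upwards [hH.2] with p hp
        rw [hp, mo]; ring
    · -- on `{β = 0}`
      obtain ⟨i, hi⟩ := Option.ne_none_iff_exists'.1 he
      have hpe : p₀ = (p₀.1, 0) := Prod.ext rfl h2
      have hsw : Tendsto (fun p : ℂ × ℂ => p.swap) (𝓝 p₀.swap) (𝓝 p₀) := by
        have : ContinuousAt (fun p : ℂ × ℂ => p.swap) p₀.swap := continuous_swap.continuousAt
        have h4 := this.tendsto
        rwa [Prod.swap_swap] at h4
      have hswa : ∀ {W : ℂ × ℂ → ℂ}, AnalyticAt ℂ W p₀ → AnalyticAt ℂ (fun p => W p.swap) p₀.swap := by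
        intro W hW
        have h5 : AnalyticAt ℂ (fun p : ℂ × ℂ => p.swap) p₀.swap :=
          analyticAt_snd.prod analyticAt_fst
        exact AnalyticAt.comp_of_eq (g := W) hW h5 (Prod.swap_swap p₀)
      set b : ℕ := m (F.e1 c) with hb
      refine GV.of_swap (gv_sm (m := m i) (G := fun p => p.2 ^ b * G p.swap)
        (H := fun p => p.2 ^ b * H p.swap)
        (fun l => ?_) ((analyticAt_snd.pow _).mul (hswa hG.1)) ?_
        (((analyticAt_snd.pow _).mul (hswa hH.1)).continuousAt) ?_ ?_)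
      · rcases hQl l with h0 | ⟨v, W, hW, hW0⟩
        · exact Or.inl (hsw.eventually (hQ0 l h0))
        · refine Or.inr ⟨v i, fun p => p.2 ^ v (F.e1 c) * W p.swap,
            (analyticAt_snd.pow _).mul (hswa hW.1), ?_, ?_⟩
          · simp only [Prod.swap_swap, Prod.snd_swap]
            exact mul_ne_zero (pow_ne_zero _ h1) hW0
          · filter_upwards [hsw.eventually hW.2] with p hp
            rw [hp, mo, hi]
            simp only [ex2, Option.elim, Prod.fst_swap, Prod.snd_swap]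
            ring
      · have hda : DifferentiableAt ℂ (fun p : ℂ × ℂ => p.2 ^ b * G p.swap) p₀.swap :=
          ((analyticAt_snd.pow _).mul (hswa hG.1)).differentiableAt
        have e1 := fderiv_01 hda
        have e2 : HasDerivAt (fun z => G (z, 0)) (deriv (fun z => G (z, 0)) p₀.1) p₀.1 :=
          (diff2 (by rw [← hpe]; exact hG.1)).hasDerivAt
        have e3 := (hasDerivAt_pow b p₀.1).mul e2
        have e4 : (fun z : ℂ => (fun p : ℂ × ℂ => p.2 ^ b * G p.swap) (p₀.swap.1, z)) =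
            fun z => z ^ b * G (z, 0) := by
          funext z
          simp only [Prod.fst_swap, h2, Prod.swap_prod_mk]
        rw [e4] at e1
        have e5 : HasDerivAt (fun z : ℂ => z ^ b * G (z, 0))
            (fderiv ℂ (fun p : ℂ × ℂ => p.2 ^ b * G p.swap) p₀.swap (0, 1)) p₀.1 := e1
        have hG00 : G (p₀.1, 0) = 0 := by rw [← hpe]; exact hG0
        have e6 := e5.unique e3
        rw [e6, hG00, mul_zero, zero_add]
        exact mul_ne_zero (pow_ne_zero _ h1) h3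
      · filter_upwards [hsw.eventually hG.2] with p hp
        rw [hp, mo, hi]
        simp only [ex2, Option.elim, Prod.fst_swap, Prod.snd_swap]
        ring
      · filter_upwards [hsw.eventually hH.2] with p hp
        rw [hp, mo, hi]
        simp only [ex2, Option.elim, Prod.fst_swap, Prod.snd_swap]
        ring
  · -- nearest branch vectors
    by_cases h1 : p₀.1 = 0
    · by_cases h2 : p₀.2 = 0
      · exact gv_nv hNV h1 (m₁ := m (F.e1 c)) (m₂ := ex2 m (F.e2 c)) (Or.inr h2) (hm _) hQan hG.1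
          hG0 hH.1.continuousAt hG.2 hH.2
      · refine gv_nv hNV h1 (m₁ := m (F.e1 c)) (m₂ := 0) (Or.inl rfl) (hm _) hQan
          (U := fun p => p.2 ^ ex2 m (F.e2 c) * G p) (H := fun p => p.2 ^ ex2 m (F.e2 c) * H p)
          ((analyticAt_snd.pow _).mul hG.1) (mul_ne_zero (pow_ne_zero _ h2) hG0)
          ((analyticAt_snd.pow _).mul hH.1).continuousAt ?_ ?_
        · filter_upwards [hG.2] with p hp
          rw [hp, mo]; ring
        · filter_upwards [hH.2] with p hp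
          rw [hp, mo]; ring
    · obtain ⟨he, h2⟩ : F.e2 c ≠ none ∧ p₀.2 = 0 := hp₀.2.resolve_left h1
      obtain ⟨i, hi⟩ := Option.ne_none_iff_exists'.1 he
      have hsw : Tendsto (fun p : ℂ × ℂ => p.swap) (𝓝 p₀.swap) (𝓝 p₀) := by
        have : ContinuousAt (fun p : ℂ × ℂ => p.swap) p₀.swap := continuous_swap.continuousAt
        have h4 := this.tendsto
        rwa [Prod.swap_swap] at h4
      have hswa : ∀ {W : ℂ × ℂ → ℂ}, AnalyticAt ℂ W p₀ → AnalyticAt ℂ (fun p => W p.swap) p₀.swap := by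
        intro W hW
        have h5 : AnalyticAt ℂ (fun p : ℂ × ℂ => p.swap) p₀.swap :=
          analyticAt_snd.prod analyticAt_fst
        exact AnalyticAt.comp_of_eq (g := W) hW h5 (Prod.swap_swap p₀)
      refine GV.of_swap (gv_nv hNV (by simpa using h2) (m₁ := m i) (m₂ := 0) (Or.inl rfl) (hm _)
          (fun l => hswa (hQan l))
          (U := fun p => p.2 ^ m (F.e1 c) * G p.swap) (H := fun p => p.2 ^ m (F.e1 c) * H p.swap)
          ((analyticAt_snd.pow _).mul (hswa hG.1)) ?_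
          ((analyticAt_snd.pow _).mul (hswa hH.1)).continuousAt ?_ ?_)
      · simp only [Prod.swap_swap, Prod.snd_swap]
        exact mul_ne_zero (pow_ne_zero _ h1) hG0
      · filter_upwards [hsw.eventually hG.2] with p hp
        rw [hp, mo, hi]
        simp only [ex2, Option.elim, Prod.fst_swap, Prod.snd_swap]
        ring
      · filter_upwards [hsw.eventually hH.2] with p hp
        rw [hp, mo, hi]
        simp only [ex2, Option.elim, Prod.fst_swap, Prod.snd_swap]
        ring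

end Frame

/-- **(i) of C-LOG from a frame** -/
theorem ci_of (hNV : CLog_68.NVStmt) {f : E3 → ℂ} (hf : Iso f) (hm : 0 < mstar f) (F : Frame f)
    (hb : F.BPF) {L : ℕ} (q : Fin L → E3 → ℂ) (s : Fin L → ℕ) (hS : Sys f q s) :
    ∃ (k : ℕ) (g h : E3 → ℂ), XF_157.Exact f k g h ∧ JU f k g h ∧ CI f g h q s := by
  obtain ⟨y, k, m, hy, hk, hkm, hbp⟩ := hb
  obtain ⟨i₀, -⟩ := F.exists_pos_nu hf hm
  have hI : Nonempty F.I := ⟨i₀⟩
  have hpos := hy.pos hf hm
  obtain ⟨g, h, hg, hh, hloc⟩ := genQStmt f F y k m hy hpos hk hkm hbp L q hS.an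
  have P : F.PairD y k m g h := ⟨hy, hpos, hk, hkm, hg, hh, fun c p₀ hp => by
    obtain ⟨G, H, h1, h2, h3⟩ := hloc c p₀ hp
    exact ⟨G, H, h1, h2, h3.imp_right fun h4 => ⟨h4.1, h4.2.1⟩⟩⟩
  refine ⟨k, g, h, ⟨hk, P.ang, P.anh, Frame.Fac.vanish P.m_pos P.geg hI,
    Frame.Fac.vanish P.m_pos P.geh hI, ?_, ?_, P.e3 hf.an hI, P.e4⟩, P.ju hf.an hI, ?_⟩
  · intro p hp hpk
    exact ⟨Frame.InJ_of_ge hf.an hy hpos hkm P.ang P.geg hp hpk,
      Frame.InJ_of_ge hf.an hy hpos hkm P.anh P.geh hp hpk⟩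
  · intro a ha u hu h1 h2
    exact P.e2 hf.an hI ha hu h1 h2
  · obtain ⟨C, hC⟩ := F.glob
      (fun C x => (‖g x‖ ^ 2 + ‖h x‖ ^ 2) * J2 f q s x ≤ C * a2 f g q s x)
      (fun C C' x hCC h => h.trans (mul_le_mul_of_nonneg_right hCC (a2_nonneg f g q s x)))
      (fun c p₀ hp => by
        obtain ⟨G, H, hG, hH, hor⟩ := hloc c p₀ hp
        exact Frame.ci_near hf.an hg hh hS hp (Frame.gv hNV hf.an P.m_pos hS.an hp hG hH hor))
    obtain ⟨r, hr, hball⟩ := Metric.eventually_nhds_iff_ball.1 hC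
    have hD : 0 < max C 1 := lt_of_lt_of_le one_pos (le_max_right _ _)
    refine ⟨(max C 1)⁻¹, r, inv_pos.2 hD, hr, fun x hx hfx hx0 => ?_⟩
    have h1 := hball x (by simpa using hx) hx0 hfx
    rw [mul_assoc, inv_mul_le_iff₀ hD]
    exact h1.trans (mul_le_mul_of_nonneg_right (le_max_left _ _) (a2_nonneg f g q s x))

end Crest.Agent.R257.Fr_808
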