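import Crest.Agent.R257.DetA_219

/-!
R257 / Fr1_808: area formula with multiplicities.

* `area_mult` : `∫_S |det ψ'| F = ∫ ∑_{y ∈ S, ψ y = x} F y dx`;
* `tsum_fib_le` : `∑_s Φ (T s) ≤ N ∑_z Φ z` if the fibres of `T` have at most `N` elements.
-/

set_option autoImplicit false

open Topology Filter MeasureTheory Set Function
open scoped ENNReal NNReal

noncomputable section

namespace Crest.Agent.R257.Fr_808

open Crest.Agent.R257.Det_219

section Area

variable {E : Type*} [NormedAddCommGroup E] [NormedSpace ℝ E] [FiniteDimensional ℝ E]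
  [MeasurableSpace E] [BorelSpace E]

/-- area formula with multiplicities -/
theorem area_mult (μ : Measure E) [μ.IsAddHaarMeasure] (ψ : E → E) (S : Set E)
    (ψ' : E → E →L[ℝ] E) (hS : MeasurableSet S)
    (hψ' : ∀ x ∈ S, HasFDerivWithinAt ψ (ψ' x) S x) (hdet : ∀ x ∈ S, (ψ' x).det ≠ 0)
    (F : E → ℝ≥0∞) (hF : Measurable (S.domRestrict F)) :
    Measurable (fun x => ∑' y : {y // y ∈ S ∧ ψ y = x}, F y) ∧
      ∫⁻ y in S, ENNReal.ofReal |(ψ' y).det| * F y ∂μ =
        ∫⁻ x, ∑' y : {y // y ∈ S ∧ ψ y = x}, F y ∂μ := by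
  classical
  obtain ⟨t, h1, h2, h3, h4⟩ := partition_inj ψ S ψ' hψ' hdet
  set P : ℕ → Set E := fun n => S ∩ t n with hP
  have hPm : ∀ n, MeasurableSet (P n) := fun n => hS.inter (h2 n)
  have hd : ∀ n x, x ∈ P n → HasFDerivWithinAt ψ (ψ' x) (P n) x := fun n x hx =>
    (hψ' x hx.1).mono inter_subset_left
  have hemb : ∀ n, MeasurableEmbedding ((P n).domRestrict ψ) := fun n =>
    measurableEmbedding_of_fderivWithin (hPm n) (hd n) (h4 n)
  have hFP : ∀ n, Measurable ((P n).domRestrict F) := by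
    intro n
    have : (P n).domRestrict F = (S.domRestrict F) ∘ (Set.inclusion (inter_subset_left : P n ⊆ S)) := rfl
    rw [this]
    exact hF.comp (measurable_inclusion inter_subset_left)
  set h : ℕ → E → ℝ≥0∞ := fun n => Function.extend ((P n).domRestrict ψ) ((P n).domRestrict F) 0 with hh
  have hhm : ∀ n, Measurable (h n) := fun n => (hemb n).measurable_extend (hFP n) measurable_zero
  have hv : ∀ n y, y ∈ P n → h n (ψ y) = F y := by
    intro n y hy
    exact (hemb n).injective.extend_apply _ _ (⟨y, hy⟩ : P n)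
  have hv0 : ∀ n x, x ∉ ψ '' P n → h n x = 0 := by
    intro n x hx
    have : ¬ ∃ a : P n, (P n).domRestrict ψ a = x := by
      rintro ⟨⟨a, ha⟩, rfl⟩
      exact hx ⟨a, ha, rfl⟩
    rw [hh]
    simp only
    rw [Function.extend_apply' _ _ _ this]
    rfl
  have him : ∀ n, MeasurableSet (ψ '' P n) := fun n =>
    measurable_image_of_fderivWithin (hPm n) (hd n) (h4 n)
  -- pointwise identity
  have hpt : ∀ x, ∑' y : {y // y ∈ S ∧ ψ y = x}, F y = ∑' n, h n x := by
    intro x
    have hex : ∀ y : {y // y ∈ S ∧ ψ y = x}, ∃ n, (y : E) ∈ t n := fun y => by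
      simpa using h3 y.2.1
    choose T hT using hex
    have hTP : ∀ y : {y // y ∈ S ∧ ψ y = x}, (y : E) ∈ P (T y) := fun y => ⟨y.2.1, hT y⟩
    have hinj : Injective T := by
      intro y z hyz
      apply Subtype.ext
      refine h4 (T y) (hTP y) ?_ (y.2.2.trans z.2.2.symm)
      rw [hyz]; exact hTP z
    have hsup : support (fun n => h n x) ⊆ range T := by
      intro n hn
      have hx : x ∈ ψ '' P n := by
        by_contra hx
        exact hn (hv0 n x hx)
      obtain ⟨y, hy, hyx⟩ := hx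
      refine ⟨⟨y, hy.1, hyx⟩, ?_⟩
      by_contra hne
      exact Set.disjoint_left.1 (h1 hne) (hT ⟨y, hy.1, hyx⟩) hy.2
    rw [← hinj.tsum_eq hsup]
    refine tsum_congr fun y => ?_
    have := hv (T y) y (hTP y)
    rw [y.2.2] at this
    exact this.symm
  have hpt' : (fun x => ∑' y : {y // y ∈ S ∧ ψ y = x}, F y) = fun x => ∑' n, h n x := funext hpt
  refine ⟨by rw [hpt']; exact Measurable.tsum hhm, ?_⟩
  rw [hpt', lintegral_tsum fun n => (hhm n).aemeasurable]
  have h5 : S = ⋃ n, P n := by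
    rw [hP, ← inter_iUnion]; exact (inter_eq_left.2 h3).symm
  conv_lhs => rw [h5]
  rw [lintegral_iUnion hPm fun i j hij => (h1 hij).mono inter_subset_right inter_subset_right]
  refine tsum_congr fun n => ?_
  have e1 : ∫⁻ x, h n x ∂μ = ∫⁻ x in ψ '' P n, h n x ∂μ := by
    rw [← lintegral_indicator (him n)]
    congr 1; ext x
    by_cases hx : x ∈ ψ '' P n
    · rw [indicator_of_mem hx]
    · rw [indicator_of_notMem hx, hv0 n x hx]
  rw [e1, lintegral_image_eq_lintegral_abs_det_fderiv_mul μ (hPm n) (hd n) (h4 n)]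
  refine setLIntegral_congr_fun (hPm n) fun y hy => ?_
  rw [hv n y hy]

end Area

/-- sums over fibres with at most `N` elements -/
theorem tsum_fib_le {σ ζ : Type*} (T : σ → ζ) (Φ : ζ → ℝ≥0∞) (N : ℕ)
    (hN : ∀ z, {s | T s = z}.encard ≤ N) : ∑' s, Φ (T s) ≤ N * ∑' z, Φ z := by
  classical
  rw [← (Equiv.sigmaFiberEquiv T).tsum_eq (fun s => Φ (T s)), ENNReal.tsum_sigma',
    ← ENNReal.tsum_mul_left]
  refine ENNReal.tsum_le_tsum fun z => ?_
  have h1 : ∀ b : {s // T s = z}, Φ (T ((Equiv.sigmaFiberEquiv T) ⟨z, b⟩)) = Φ z := by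
    rintro ⟨b, hb⟩
    simp [Equiv.sigmaFiberEquiv, hb]
  simp only [h1]
  rw [ENNReal.tsum_const]
  gcongr
  have h2 : ENat.card {s // T s = z} ≤ N := hN z
  exact_mod_cast h2

end Crest.Agent.R257.Fr_808
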