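import Crest.Agent.R257.FrDefs_808

/-!
R257 / Fr2_808: elementary facts about frames: compactness of the special fibre, from local to global,
comparison of orders, good points.
-/

set_option autoImplicit false

open Topology Filter MeasureTheory Set
open Crest.AlgGeometry.Germ

noncomputable section

namespace Crest.Agent.R257.Fr_808

open Crest.Agent.R257.Defs_219
open Crest.Agent.R257.Gr1_157

theorem BD_eq : BD = Metric.closedBall (0 : ℂ) 1 ×ˢ Metric.closedBall (0 : ℂ) 1 := by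
  ext p; simp [BD]

theorem isCompact_BD : IsCompact BD := by
  rw [BD_eq]; exact (isCompact_closedBall _ _).prod (isCompact_closedBall _ _)

theorem isClosed_SFib {I : Type} (e : Option I) : IsClosed (SFib e) := by
  have h1 : SFib e = BD ∩ ({p : ℂ × ℂ | p.1 = 0} ∪ {p : ℂ × ℂ | e ≠ none ∧ p.2 = 0}) := rfl
  rw [h1]
  refine isCompact_BD.isClosed.inter (IsClosed.union ?_ ?_)
  · exact isClosed_eq continuous_fst continuous_const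
  · by_cases he : e = none
    · simp [he]
    · simp only [ne_eq, he, not_false_eq_true, true_and]
      exact isClosed_eq continuous_snd continuous_const

theorem isCompact_SFib {I : Type} (e : Option I) : IsCompact (SFib e) :=
  isCompact_BD.of_isClosed_subset (isClosed_SFib e) fun _ h => h.1

/-- points off both axes are frequent -/
theorem freq2 (p₀ : ℂ × ℂ) : ∃ᶠ p in 𝓝 p₀, p.1 ≠ 0 ∧ p.2 ≠ 0 := by
  have h1 : Tendsto (fun z : ℂ => (p₀.1 + z, p₀.2 + z)) (𝓝[≠] 0) (𝓝 p₀) := by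
    have : ContinuousAt (fun z : ℂ => (p₀.1 + z, p₀.2 + z)) 0 := by fun_prop
    have h2 := this.tendsto
    simp only [add_zero] at h2
    exact h2.mono_left nhdsWithin_le_nhds
  have h3 : ∀ a : ℂ, ∀ᶠ z : ℂ in 𝓝[≠] 0, a + z ≠ 0 := by
    intro a
    by_cases ha : a = 0
    · subst ha
      filter_upwards [self_mem_nhdsWithin] with z hz
      simpa using hz
    · have h4 : ContinuousAt (fun z : ℂ => a + z) 0 := by fun_prop
      have h5 : ∀ᶠ z : ℂ in 𝓝 0, a + z ≠ 0 := h4.eventually_ne (by simpa using ha)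
      exact h5.filter_mono nhdsWithin_le_nhds
  exact h1.frequently ((h3 p₀.1).and (h3 p₀.2)).frequently

theorem freq1 (p₀ : ℂ × ℂ) : ∃ᶠ p in 𝓝 p₀, p.1 ≠ 0 := (freq2 p₀).mono fun _ h => h.1

/-- two functions, continuous at `p₀`, which agree off the axes, agree at `p₀` -/
theorem eq_of_freq {H H' : ℂ × ℂ → ℂ} {p₀ : ℂ × ℂ} (h : ContinuousAt H p₀)
    (h' : ContinuousAt H' p₀) (he : ∀ᶠ p in 𝓝 p₀, p.1 ≠ 0 → p.2 ≠ 0 → H p = H' p) :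
    H p₀ = H' p₀ := by
  by_contra hne
  have h1 : ContinuousAt (fun p => H p - H' p) p₀ := h.sub h'
  have h2 : ∀ᶠ p in 𝓝 p₀, H p - H' p ≠ 0 := h1.eventually_ne (sub_ne_zero.2 hne)
  obtain ⟨p, hp1, hp2, hp3⟩ := ((freq2 p₀).and_eventually (h2.and he)).exists
  exact hp2 (sub_eq_zero.2 (hp3 hp1.1 hp1.2))

/-- comparison of orders -/
theorem ord_le {H H' : ℂ × ℂ → ℂ} {p₁ : ℂ × ℂ} (h1 : p₁.1 = 0) {n m : ℕ}
    (hH : ContinuousAt H p₁) (hne : H p₁ ≠ 0) (hH' : ContinuousAt H' p₁)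
    (h : ∀ᶠ p in 𝓝 p₁, p.1 ^ n * H p = p.1 ^ m * H' p) : m ≤ n := by
  by_contra hlt
  push Not at hlt
  have h2 : ContinuousAt (fun p : ℂ × ℂ => H p - p.1 ^ (m - n) * H' p) p₁ :=
    hH.sub ((continuousAt_fst.pow _).mul hH')
  have h3 : ∀ᶠ p in 𝓝 p₁, H p - p.1 ^ (m - n) * H' p ≠ 0 := by
    refine h2.eventually_ne ?_
    rw [h1, zero_pow (by omega), zero_mul, sub_zero]
    exact hne
  obtain ⟨p, hp1, hp2, hp3⟩ := ((freq1 p₁).and_eventually (h3.and h)).exists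
  apply hp2
  have h4 : p.1 ^ m = p.1 ^ n * p.1 ^ (m - n) := by
    rw [← pow_add]; congr 1; omega
  rw [h4, mul_assoc] at hp3
  exact sub_eq_zero.2 (mul_left_cancel₀ (pow_ne_zero n hp1) hp3)

namespace Frame

variable {f : E3 → ℂ} (F : Frame f)

theorem isCompact_SF (c : F.K) : IsCompact (F.SF c) := isCompact_SFib _

theorem SF_BD {c : F.K} {p : ℂ × ℂ} (h : p ∈ F.SF c) : p ∈ BD := h.1

theorem th_SF {c : F.K} {p : ℂ × ℂ} (h : p ∈ F.SF c) : F.th c p = 0 :=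
  (F.zero c p h.1).2 h

theorem th_ne {c : F.K} {p : ℂ × ℂ} (hp : p ∈ BD) (h : p ∉ F.SF c) : F.th c p ≠ 0 :=
  fun h0 => h ((F.zero c p hp).1 h0)

theorem mem_SF1 (c : F.K) {z : ℂ} (hz : ‖z‖ ≤ 1) : ((0 : ℂ), z) ∈ F.SF c :=
  ⟨⟨by simp, hz⟩, Or.inl rfl⟩

/-- points of the bidisc off the special fibre -/
theorem off {c : F.K} {p : ℂ × ℂ} (hp : p ∈ BD) (h : p ∉ F.SF c) :
    p.1 ≠ 0 ∧ (F.e2 c = none ∨ p.2 ≠ 0) := by
  constructor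
  · intro h0; exact h ⟨hp, Or.inl h0⟩
  · by_contra hcon
    push Not at hcon
    exact h ⟨hp, Or.inr hcon⟩

theorem mo_ne (a : F.I → ℕ) {c : F.K} {p : ℂ × ℂ} (hp : p ∈ BD) (h : p ∉ F.SF c) :
    F.mo a c p ≠ 0 := by
  obtain ⟨h1, h2⟩ := F.off hp h
  refine mul_ne_zero (pow_ne_zero _ h1) ?_
  rcases h2 with h2 | h2
  · rw [h2]; simp [ex2]
  · exact pow_ne_zero _ h2

theorem mo_ne' (a : F.I → ℕ) {c : F.K} {p : ℂ × ℂ} (h1 : p.1 ≠ 0) (h2 : p.2 ≠ 0) :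
    F.mo a c p ≠ 0 := mul_ne_zero (pow_ne_zero _ h1) (pow_ne_zero _ h2)

theorem mo_an (a : F.I → ℕ) (c : F.K) (p : ℂ × ℂ) : AnalyticAt ℂ (F.mo a c) p := by
  unfold mo
  exact (analyticAt_fst.pow _).mul (analyticAt_snd.pow _)

/-- from local to global -/
theorem glob (Q : ℝ → E3 → Prop) (hmono : ∀ C C' x, C ≤ C' → Q C x → Q C' x)
    (h : ∀ c, ∀ p₀ ∈ F.SF c, ∃ C, ∀ᶠ p in 𝓝 p₀, p ∈ BD → p ∉ F.SF c → Q C (F.th c p)) :
    ∃ C, ∀ᶠ x in 𝓝 (0 : E3), x ≠ 0 → f x = 0 → Q C x := by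
  have key : ∀ c, ∃ C, ∀ᶠ x in 𝓝 (0 : E3), ∀ p ∈ BD, p ∉ F.SF c → F.th c p = x → Q C x := by
    intro c
    have h1 : ∃ (C : ℝ) (W : Set (ℂ × ℂ)), IsOpen W ∧ F.SF c ⊆ W ∧
        ∀ p ∈ W, p ∈ BD → p ∉ F.SF c → Q C (F.th c p) := by
      refine (F.isCompact_SF c).induction_on
        (p := fun t => ∃ (C : ℝ) (W : Set (ℂ × ℂ)), IsOpen W ∧ t ⊆ W ∧
          ∀ p ∈ W, p ∈ BD → p ∉ F.SF c → Q C (F.th c p)) ?_ ?_ ?_ ?_
      · exact ⟨0, ∅, isOpen_empty, subset_rfl, fun p hp => absurd hp (notMem_empty p)⟩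
      · rintro s t hst ⟨C, W, hW, htW, hQ⟩
        exact ⟨C, W, hW, hst.trans htW, hQ⟩
      · rintro s t ⟨C, W, hW, htW, hQ⟩ ⟨C', W', hW', htW', hQ'⟩
        refine ⟨max C C', W ∪ W', hW.union hW', union_subset_union htW htW', ?_⟩
        rintro p (hp | hp) hpB hpS
        · exact hmono _ _ _ (le_max_left _ _) (hQ p hp hpB hpS)
        · exact hmono _ _ _ (le_max_right _ _) (hQ' p hp hpB hpS)
      · intro p₀ hp₀
        obtain ⟨C, hC⟩ := h c p₀ hp₀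
        obtain ⟨W, hWQ, hWo, hpW⟩ := _root_.eventually_nhds_iff.1 hC
        exact ⟨W, mem_nhdsWithin_of_mem_nhds (hWo.mem_nhds hpW), C, W, hWo, subset_rfl,
          fun p hp => hWQ p hp⟩
    obtain ⟨C, W, hWo, hSW, hQ⟩ := h1
    refine ⟨C, ?_⟩
    have hcomp : IsCompact (F.th c '' (BD \ W)) := by
      refine (isCompact_BD.diff hWo).image_of_continuousOn fun p hp => ?_
      exact (F.an c p hp.1).continuousAt.continuousWithinAt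
    have h0 : (0 : E3) ∉ F.th c '' (BD \ W) := by
      rintro ⟨p, hp, hp0⟩
      exact hp.2 (hSW ((F.zero c p hp.1).1 hp0))
    filter_upwards [hcomp.isClosed.isOpen_compl.mem_nhds h0] with x hx p hpB hpS hpx
    by_cases hpW : p ∈ W
    · rw [← hpx]; exact hQ p hpW hpB hpS
    · exact absurd ⟨p, ⟨hpB, hpW⟩, hpx⟩ hx
  choose C hC using key
  obtain ⟨M, hM⟩ := Finite.exists_le C
  obtain ⟨ρ, hρ, hcov⟩ := F.cover
  refine ⟨M, ?_⟩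
  have h2 : ∀ᶠ x in 𝓝 (0 : E3), ‖x‖ < ρ := by
    have := Metric.ball_mem_nhds (0 : E3) hρ
    filter_upwards [this] with x hx using by simpa using hx
  filter_upwards [h2, Filter.eventually_all.2 hC] with x hx1 hx2 hx0 hfx
  obtain ⟨c, p, hp, hpx⟩ := hcov x hx0 hx1 hfx
  refine hmono _ _ _ (hM c) (hx2 c p hp ?_ hpx)
  intro hS
  exact hx0 (by rw [← hpx, F.th_SF hS])

/-- the same without constants -/
theorem glob' (Q : E3 → Prop)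
    (h : ∀ c, ∀ p₀ ∈ F.SF c, ∀ᶠ p in 𝓝 p₀, p ∈ BD → p ∉ F.SF c → Q (F.th c p)) :
    ∀ᶠ x in 𝓝 (0 : E3), x ≠ 0 → f x = 0 → Q x := by
  obtain ⟨_, hC⟩ := F.glob (fun _ x => Q x) (fun _ _ _ _ h => h)
    (fun c p₀ hp => ⟨0, h c p₀ hp⟩)
  exact hC

/-! ### factorisations -/

variable {F}

theorem Fac.eventually {g : E3 → ℂ} {a : F.I → ℕ} {c : F.K} {p₀ : ℂ × ℂ} {G : ℂ × ℂ → ℂ}
    (h : F.Fac g a c p₀ G) : ∀ᶠ p in 𝓝 p₀, F.Fac g a c p G := by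
  filter_upwards [h.1.eventually_analyticAt, h.2.eventually_nhds] with p h1 h2
  exact ⟨h1, h2⟩

theorem Fac.unique {g : E3 → ℂ} {a : F.I → ℕ} {c : F.K} {p₀ : ℂ × ℂ} {G G' : ℂ × ℂ → ℂ}
    (h : F.Fac g a c p₀ G) (h' : F.Fac g a c p₀ G') : G p₀ = G' p₀ := by
  refine eq_of_freq h.1.continuousAt h'.1.continuousAt ?_
  filter_upwards [h.2, h'.2] with p h1 h2 h3 h4
  exact mul_left_cancel₀ (F.mo_ne' a (c := c) h3 h4) (h1.symm.trans h2)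

/-- the leading coefficient at a point of `{α = 0}`, `β ≠ 0` -/
theorem Fac.lead {g : E3 → ℂ} {a : F.I → ℕ} {c : F.K} {p₀ : ℂ × ℂ} {G : ℂ × ℂ → ℂ}
    (h : F.Fac g a c p₀ G) (hne : G p₀ ≠ 0) (h2 : p₀.2 ≠ 0) :
    ∃ H : ℂ × ℂ → ℂ, AnalyticAt ℂ H p₀ ∧ H p₀ ≠ 0 ∧
      ∀ᶠ p in 𝓝 p₀, g (F.th c p) = p.1 ^ a (F.e1 c) * H p := by
  refine ⟨fun p => p.2 ^ ex2 a (F.e2 c) * G p, (analyticAt_snd.pow _).mul h.1,
    mul_ne_zero (pow_ne_zero _ h2) hne, ?_⟩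
  filter_upwards [h.2] with p hp
  rw [hp, mo]; ring

theorem Fac.lead' {g : E3 → ℂ} {a : F.I → ℕ} {c : F.K} {p₀ : ℂ × ℂ} {G : ℂ × ℂ → ℂ}
    (h : F.Fac g a c p₀ G) :
    ∃ H : ℂ × ℂ → ℂ, AnalyticAt ℂ H p₀ ∧
      ∀ᶠ p in 𝓝 p₀, g (F.th c p) = p.1 ^ a (F.e1 c) * H p := by
  refine ⟨fun p => p.2 ^ ex2 a (F.e2 c) * G p, (analyticAt_snd.pow _).mul h.1, ?_⟩
  filter_upwards [h.2] with p hp
  rw [hp, mo]; ring

/-- generic points of the branch `{α = 0}` near the centre -/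
theorem Fac.good {g : E3 → ℂ} {a : F.I → ℕ} {c : F.K} {G : ℂ × ℂ → ℂ}
    (h : F.Fac g a c (0, 0) G) (hne : ∃ᶠ z in 𝓝 (0 : ℂ), G (0, z) ≠ 0) :
    ∀ᶠ z in 𝓝[≠] (0 : ℂ), ‖z‖ < 1 ∧ F.Fac g a c (0, z) G ∧ G (0, z) ≠ 0 := by
  have h1 : AnalyticAt ℂ (fun z : ℂ => G (0, z)) 0 := by
    have h2 : AnalyticAt ℂ (fun z : ℂ => ((0 : ℂ), z)) 0 := analyticAt_const.prod analyticAt_id
    exact h.1.comp_of_eq h2 rfl
  have h3 : ∀ᶠ z in 𝓝[≠] (0 : ℂ), G (0, z) ≠ 0 := by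
    rcases h1.eventually_eq_zero_or_eventually_ne_zero with h4 | h4
    · obtain ⟨z, hz1, hz2⟩ := (hne.and_eventually h4).exists
      exact absurd hz2 hz1
    · exact h4
  have h5 : Tendsto (fun z : ℂ => ((0 : ℂ), z)) (𝓝[≠] 0) (𝓝 (0, 0)) := by
    have : ContinuousAt (fun z : ℂ => ((0 : ℂ), z)) 0 := by fun_prop
    exact this.tendsto.mono_left nhdsWithin_le_nhds
  have h6 : ∀ᶠ z in 𝓝[≠] (0 : ℂ), ‖z‖ < 1 := by
    refine Filter.Eventually.filter_mono nhdsWithin_le_nhds ?_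
    filter_upwards [Metric.ball_mem_nhds (0 : ℂ) one_pos] with z hz using by simpa using hz
  filter_upwards [h3, h5.eventually h.eventually, h6] with z h7 h8 h9
  exact ⟨h9, h8, h7⟩

/-- the orders of `g` are `v` -/
def Ord (F : Frame f) (g : E3 → ℂ) (v : F.I → ℕ) : Prop :=
  (∀ i, dg F.M (fun i => (v i : ℝ)) i ≤ 0) ∧
    ∀ c, ∀ p₀ ∈ F.SF c, ∃ G : ℂ × ℂ → ℂ, F.Fac g v c p₀ G ∧
        (p₀.1 = 0 → (∃ᶠ z in 𝓝 p₀.2, G (0, z) ≠ 0) ∧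
          (dg F.M (fun i => (v i : ℝ)) (F.e1 c) = 0 → G p₀ ≠ 0)) ∧
        (∀ i, F.e2 c = some i → p₀.2 = 0 → (∃ᶠ z in 𝓝 p₀.1, G (z, 0) ≠ 0) ∧
          (dg F.M (fun i => (v i : ℝ)) i = 0 → G p₀ ≠ 0))

theorem exists_Ord (F : Frame f) {g : E3 → ℂ} (hg : AnalyticAt ℂ g 0)
    (hne : ∃ᶠ x in 𝓝 (0 : E3), f x = 0 ∧ g x ≠ 0) : ∃ v, F.Ord g v := by
  obtain ⟨v, h1, h2⟩ := F.ord g hg hne
  refine ⟨v, h1, fun c p₀ hp => ?_⟩
  obtain ⟨G, hG, hG2, hG3, hG4⟩ := h2 c p₀ hp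
  exact ⟨G, ⟨hG, hG2⟩, hG3, hG4⟩

/-- a good point over every component -/
theorem Ord.good {g : E3 → ℂ} {v : F.I → ℕ} (h : F.Ord g v) (i : F.I) :
    ∃ c, F.e1 c = i ∧ ∀ᶠ z in 𝓝[≠] (0 : ℂ), ‖z‖ < 1 ∧
      ∃ H : ℂ × ℂ → ℂ, AnalyticAt ℂ H (0, z) ∧ H (0, z) ≠ 0 ∧
        ∀ᶠ p in 𝓝 ((0 : ℂ), z), g (F.th c p) = p.1 ^ v i * H p := by
  obtain ⟨c, rfl⟩ := F.surj i
  obtain ⟨G, hG, hG1, -⟩ := h.2 c (0, 0) (F.mem_SF1 c (by simp))
  refine ⟨c, rfl, ?_⟩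
  filter_upwards [hG.good (hG1 rfl).1, self_mem_nhdsWithin] with z hz hz0
  exact ⟨hz.1, hz.2.1.lead hz.2.2 hz0⟩

/-- `v(g) ≥ a` from a factorisation at one generic point of each component -/
theorem Ord.le_of {g : E3 → ℂ} {v : F.I → ℕ} (h : F.Ord g v) {i : F.I} {m : ℕ}
    (hm : ∀ c, F.e1 c = i → ∀ᶠ z in 𝓝[≠] (0 : ℂ), ∃ H : ℂ × ℂ → ℂ, ContinuousAt H (0, z) ∧
        ∀ᶠ p in 𝓝 ((0 : ℂ), z), g (F.th c p) = p.1 ^ m * H p) : m ≤ v i := by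
  obtain ⟨c, hc, hgood⟩ := h.good i
  obtain ⟨z, ⟨-, H, hH, hH0, hH1⟩, H', hH', hH1'⟩ := (hgood.and (hm c hc)).exists
  refine ord_le (p₁ := (0, z)) rfl hH.continuousAt hH0 hH' ?_
  filter_upwards [hH1, hH1'] with p h1 h2
  rw [← h1, h2]

/-- the order is determined by a factorisation with non vanishing leading coefficient -/
theorem Ord.ge_of {g : E3 → ℂ} {v : F.I → ℕ} (h : F.Ord g v) {i : F.I} {m : ℕ}
    (hm : ∀ c, F.e1 c = i → ∀ᶠ z in 𝓝[≠] (0 : ℂ), ∃ H : ℂ × ℂ → ℂ, ContinuousAt H (0, z) ∧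
        H (0, z) ≠ 0 ∧ ∀ᶠ p in 𝓝 ((0 : ℂ), z), g (F.th c p) = p.1 ^ m * H p) : v i ≤ m := by
  obtain ⟨c, hc, hgood⟩ := h.good i
  obtain ⟨z, ⟨-, H, hH, hH0, hH1⟩, H', hH', hH0', hH1'⟩ := (hgood.and (hm c hc)).exists
  refine ord_le (p₁ := (0, z)) rfl hH' hH0' hH.continuousAt ?_
  filter_upwards [hH1, hH1'] with p h1 h2
  rw [← h1, h2]

theorem Ord.ge {g : E3 → ℂ} {v : F.I → ℕ} (h : F.Ord g v) {m : F.I → ℕ} (hm : F.Ge g m)
    (i : F.I) : m i ≤ v i := by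
  refine h.le_of fun c hc => ?_
  obtain ⟨G, hG⟩ := hm c (0, 0) (F.mem_SF1 c (by simp))
  have h5 : Tendsto (fun z : ℂ => ((0 : ℂ), z)) (𝓝[≠] 0) (𝓝 (0, 0)) := by
    have : ContinuousAt (fun z : ℂ => ((0 : ℂ), z)) 0 := by fun_prop
    exact this.tendsto.mono_left nhdsWithin_le_nhds
  filter_upwards [h5.eventually hG.eventually] with z hz
  obtain ⟨H, hH, hH1⟩ := hz.lead'
  refine ⟨H, hH.continuousAt, ?_⟩
  rw [hc] at hH1
  exact hH1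

/-- functions vanishing at `0` have positive orders -/
theorem Ord.pos {g : E3 → ℂ} {v : F.I → ℕ} (h : F.Ord g v) (h0 : g 0 = 0) (i : F.I) :
    0 < v i := by
  obtain ⟨c, hc, hgood⟩ := h.good i
  obtain ⟨z, hz, H, -, hH0, hH1⟩ := hgood.exists
  have h1 := hH1.self_of_nhds
  have h2 : ((0 : ℂ), z) ∈ F.SF c := F.mem_SF1 c hz.le
  rw [F.th_SF h2, h0] at h1
  by_contra hv
  have : v i = 0 := by omega
  rw [this] at h1
  simp at h1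
  exact hH0 h1.symm

end Frame

end Crest.Agent.R257.Fr_808
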