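import Crest.Agent.R271.RExt2_747

/-!
# Row 257 (S0395), part C: `L²` ⇒ order along coordinate hyperplanes (helper757)

* `ord` : `f` holomorphic on `U` minus the hyperplanes `z i = 0` (`i ∈ S`), locally
  `∫ |f|² ∏ |z i|^(-2 c i - 2) < ∞` near every point of `U`  ⇒  `f = ∏ (z i)^(⌊c i⌋ + 1) * g`,
  `g` holomorphic on `U`.
* `ord_prod` : the same on `ℂ × ℂ` with exponents `c` along `z.1 = 0` and `d` along `z.2 = 0`.
* `ord_fst` : the same on `ℂ × ℂ`, only along `z.1 = 0`.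
-/

set_option autoImplicit false
open Topology Filter MeasureTheory Set
open scoped ENNReal

namespace Crest.Agent.R257.Ord_757

variable {n : ℕ}

/-- one factor: `|z|^(-2(⌊c⌋+1)) ≤ R² |z|^(-2c-2)` for `0 < |z| ≤ R`, `1 ≤ R`. -/
theorem pow_le {x R c : ℝ} (hx : 0 < x) (hxR : x ≤ R) (hR : 1 ≤ R) :
    (x ^ (-(⌊c⌋ + 1))) ^ 2 ≤ R ^ 2 * x ^ (-2 * c - 2) := by
  have h1 : (x ^ (-(⌊c⌋ + 1))) ^ 2 = x ^ (-2 * c - 2) * x ^ (2 * (c - ⌊c⌋)) := by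
    rw [← Real.rpow_add hx]
    have : (-2 * c - 2 + 2 * (c - ⌊c⌋) : ℝ) = ((-(⌊c⌋ + 1) * 2 : ℤ) : ℝ) := by
      push_cast; ring
    rw [this, Real.rpow_intCast, zpow_mul]
    norm_cast
  rw [h1, mul_comm]
  have hfr0 : 0 ≤ c - ⌊c⌋ := by linarith [Int.floor_le c]
  have hfr1 : c - ⌊c⌋ ≤ 1 := by linarith [Int.lt_floor_add_one c]
  have h2 : x ^ (2 * (c - ⌊c⌋)) ≤ R ^ 2 := by
    calc x ^ (2 * (c - ⌊c⌋)) ≤ R ^ (2 * (c - ⌊c⌋)) :=
          Real.rpow_le_rpow hx.le hxR (by linarith)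
      _ ≤ R ^ (2 : ℝ) := Real.rpow_le_rpow_of_exponent_le hR (by linarith)
      _ = R ^ 2 := by norm_cast
  exact mul_le_mul_of_nonneg_right h2 (Real.rpow_nonneg hx.le _)

theorem D_analytic (S : Finset (Fin n)) (U : Set (Fin n → ℂ)) :
    AnalyticOnNhd ℂ (fun z : Fin n → ℂ => ∏ i ∈ S, z i) U := by
  intro z _
  exact Finset.analyticAt_fun_prod S (fun i _ =>
    (ContinuousLinearMap.proj (R := ℂ) (φ := fun _ : Fin n => ℂ) i).analyticAt z)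

theorem D_ne (S : Finset (Fin n)) (a : Fin n → ℂ) :
    ¬ (∀ᶠ z in 𝓝 a, (∏ i ∈ S, z i : ℂ) = 0) := by
  have h := R271.RExt747.poly_not_eventually_zero (n := n) (Δ := ∏ i ∈ S, MvPolynomial.X i)
    (by
      rw [Finset.prod_ne_zero_iff]
      intro i _
      exact MvPolynomial.X_ne_zero i) a
  simpa [MvPolynomial.eval_prod] using h

/-- **`L²` ⇒ order** along the coordinate hyperplanes `z i = 0`, `i ∈ S`. -/
theorem ord {U : Set (Fin n → ℂ)} (hU : IsOpen U) (S : Finset (Fin n)) (c : Fin n → ℝ)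
    {f : (Fin n → ℂ) → ℂ} (hf : DifferentiableOn ℂ f (U ∩ {z | ∀ i ∈ S, z i ≠ 0}))
    (hL : ∀ a ∈ U, ∃ W ∈ 𝓝 a, ∫⁻ z in W ∩ {z | ∀ i ∈ S, z i ≠ 0},
      ENNReal.ofReal (‖f z‖ ^ 2 * ∏ i ∈ S, ‖z i‖ ^ (-2 * c i - 2)) < ⊤) :
    ∃ g : (Fin n → ℂ) → ℂ, DifferentiableOn ℂ g U ∧
      ∀ z ∈ U, (∀ i ∈ S, z i ≠ 0) → f z = (∏ i ∈ S, z i ^ (⌊c i⌋ + 1)) * g z := by
  classical
  have hN : {z : Fin n → ℂ | (∏ i ∈ S, z i : ℂ) ≠ 0} = {z | ∀ i ∈ S, z i ≠ 0} := by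
    ext z; simp [Finset.prod_ne_zero_iff]
  set h : (Fin n → ℂ) → ℂ := fun z => (∏ i ∈ S, z i ^ (-(⌊c i⌋ + 1))) * f z with hh
  have hhd : DifferentiableOn ℂ h (U ∩ {z | (∏ i ∈ S, z i : ℂ) ≠ 0}) := by
    rw [hN]
    refine DifferentiableOn.mul ?_ hf
    intro z hz
    refine DifferentiableAt.differentiableWithinAt ?_
    have h0 : ∀ i ∈ S, DifferentiableAt ℂ (fun z : Fin n → ℂ => z i ^ (-(⌊c i⌋ + 1))) z :=
      fun i hi => DifferentiableAt.zpow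
        ((ContinuousLinearMap.proj (R := ℂ) (φ := fun _ : Fin n => ℂ) i).differentiableAt)
        (Or.inl (hz.2 i hi))
    exact (HasFDerivAt.finsetProd (fun i hi => (h0 i hi).hasFDerivAt)).differentiableAt
  obtain ⟨g, hg, hgf⟩ := R271.RExt747.riemann_ext (f := h) hU (D_analytic S U)
    (fun a _ => D_ne S a) hhd (fun a ha => by
      obtain ⟨W, hW, hWL⟩ := hL a ha
      obtain ⟨V, hVW, hVo, haV⟩ := _root_.mem_nhds_iff.1 hW
      set R : ℝ := ‖a‖ + 1 with hR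
      have hR1 : 1 ≤ R := by have := norm_nonneg a; linarith
      refine ⟨V ∩ Metric.ball a 1, Filter.inter_mem (hVo.mem_nhds haV)
        (Metric.ball_mem_nhds a one_pos), ?_⟩
      rw [hN]
      have hbd : ∀ z ∈ (V ∩ Metric.ball a 1) ∩ {z | ∀ i ∈ S, z i ≠ 0},
          ‖h z‖ₑ ^ 2 ≤ ENNReal.ofReal (∏ i ∈ S, R ^ 2) *
            ENNReal.ofReal (‖f z‖ ^ 2 * ∏ i ∈ S, ‖z i‖ ^ (-2 * c i - 2)) := by
        intro z hz
        have hzR : ∀ i, ‖z i‖ ≤ R := by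
          intro i
          have h1 : ‖z i‖ ≤ ‖z‖ := norm_le_pi_norm z i
          have h2 : ‖z‖ ≤ ‖z - a‖ + ‖a‖ := by
            calc ‖z‖ = ‖(z - a) + a‖ := by simp
              _ ≤ _ := norm_add_le _ _
          have h3 : ‖z - a‖ < 1 := by simpa [dist_eq_norm] using hz.1.2
          rw [hR]; linarith
        have e1 : ‖h z‖ₑ ^ 2 = ENNReal.ofReal (‖h z‖ ^ 2) := by
          rw [← ofReal_norm, ENNReal.ofReal_pow (norm_nonneg _)]
        rw [e1, ← ENNReal.ofReal_mul (Finset.prod_nonneg (fun _ _ => by positivity))]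
        refine ENNReal.ofReal_le_ofReal ?_
        have e2 : ‖h z‖ ^ 2 = (∏ i ∈ S, (‖z i‖ ^ (-(⌊c i⌋ + 1))) ^ 2) * ‖f z‖ ^ 2 := by
          rw [hh]
          simp only [norm_mul, norm_prod, norm_zpow, mul_pow, Finset.prod_pow]
        rw [e2]
        have e3 : (∏ i ∈ S, (‖z i‖ ^ (-(⌊c i⌋ + 1))) ^ 2) ≤
            ∏ i ∈ S, (R ^ 2 * ‖z i‖ ^ (-2 * c i - 2)) :=
          Finset.prod_le_prod (fun i _ => by positivity)
            (fun i hi => pow_le (norm_pos_iff.2 (hz.2 i hi)) (hzR i) hR1)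
        rw [Finset.prod_mul_distrib] at e3
        calc (∏ i ∈ S, (‖z i‖ ^ (-(⌊c i⌋ + 1))) ^ 2) * ‖f z‖ ^ 2
            ≤ ((∏ i ∈ S, R ^ 2) * ∏ i ∈ S, ‖z i‖ ^ (-2 * c i - 2)) * ‖f z‖ ^ 2 :=
              mul_le_mul_of_nonneg_right e3 (by positivity)
          _ = _ := by ring
      have hms : MeasurableSet ((V ∩ Metric.ball a 1) ∩ {z : Fin n → ℂ | ∀ i ∈ S, z i ≠ 0}) := by
        rw [← hN]
        refine (hVo.measurableSet.inter measurableSet_ball).inter ?_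
        exact (isOpen_ne.preimage (by fun_prop : Continuous (fun z : Fin n → ℂ => ∏ i ∈ S, z i))).measurableSet
      calc ∫⁻ z in (V ∩ Metric.ball a 1) ∩ {z | ∀ i ∈ S, z i ≠ 0}, ‖h z‖ₑ ^ 2
          ≤ ∫⁻ z in (V ∩ Metric.ball a 1) ∩ {z | ∀ i ∈ S, z i ≠ 0},
            ENNReal.ofReal (∏ i ∈ S, R ^ 2) *
            ENNReal.ofReal (‖f z‖ ^ 2 * ∏ i ∈ S, ‖z i‖ ^ (-2 * c i - 2)) :=
            setLIntegral_mono' hms hbd
        _ = ENNReal.ofReal (∏ i ∈ S, R ^ 2) *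
            ∫⁻ z in (V ∩ Metric.ball a 1) ∩ {z | ∀ i ∈ S, z i ≠ 0},
            ENNReal.ofReal (‖f z‖ ^ 2 * ∏ i ∈ S, ‖z i‖ ^ (-2 * c i - 2)) :=
            lintegral_const_mul' _ _ ENNReal.ofReal_ne_top
        _ ≤ ENNReal.ofReal (∏ i ∈ S, R ^ 2) *
            ∫⁻ z in W ∩ {z | ∀ i ∈ S, z i ≠ 0},
            ENNReal.ofReal (‖f z‖ ^ 2 * ∏ i ∈ S, ‖z i‖ ^ (-2 * c i - 2)) := by
            gcongr
            exact inter_subset_left.trans hVW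
        _ < ⊤ := ENNReal.mul_lt_top ENNReal.ofReal_lt_top hWL)
  refine ⟨g, hg, fun z hz hzS => ?_⟩
  have h1 := hgf z hz (by rw [Finset.prod_ne_zero_iff]; exact hzS)
  rw [h1, hh]
  simp only
  rw [← mul_assoc, ← Finset.prod_mul_distrib]
  have : ∏ i ∈ S, (z i ^ (⌊c i⌋ + 1) * z i ^ (-(⌊c i⌋ + 1))) = 1 := by
    refine Finset.prod_eq_one (fun i hi => ?_)
    rw [← zpow_add₀ (hzS i hi)]; simp
  rw [this, one_mul]

/-! ### `ℂ × ℂ` -/

/-- `(Fin 2 → ℂ) ≃L[ℂ] ℂ × ℂ` -/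
noncomputable abbrev e2 : (Fin 2 → ℂ) ≃L[ℂ] ℂ × ℂ := ContinuousLinearEquiv.finTwoArrow ℂ ℂ

theorem e2_apply (z : Fin 2 → ℂ) : e2 z = (z 0, z 1) := rfl

theorem mp_e2 : MeasurePreserving (e2 : (Fin 2 → ℂ) → ℂ × ℂ) volume volume :=
  volume_preserving_finTwoArrow ℂ

theorem lintegral_e2 (A : Set (ℂ × ℂ)) (F : ℂ × ℂ → ℝ≥0∞) :
    ∫⁻ z in e2 ⁻¹' A, F (e2 z) = ∫⁻ p in A, F p :=
  mp_e2.setLIntegral_comp_preimage_emb e2.toHomeomorph.measurableEmbedding F A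

/-- `L²` ⇒ order on `ℂ × ℂ` along both coordinate axes. -/
theorem ord_prod {U : Set (ℂ × ℂ)} (hU : IsOpen U) (c d : ℝ) {f : ℂ × ℂ → ℂ}
    (hf : DifferentiableOn ℂ f (U ∩ {z | z.1 ≠ 0 ∧ z.2 ≠ 0}))
    (hL : ∀ a ∈ U, ∃ W ∈ 𝓝 a, ∫⁻ z in W ∩ {z | z.1 ≠ 0 ∧ z.2 ≠ 0},
      ENNReal.ofReal (‖f z‖ ^ 2 * (‖z.1‖ ^ (-2 * c - 2) * ‖z.2‖ ^ (-2 * d - 2))) < ⊤) :
    ∃ g : ℂ × ℂ → ℂ, DifferentiableOn ℂ g U ∧ ∀ z ∈ U, z.1 ≠ 0 → z.2 ≠ 0 →
      f z = z.1 ^ (⌊c⌋ + 1) * z.2 ^ (⌊d⌋ + 1) * g z := by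
  have hset : (e2 ⁻¹' {z : ℂ × ℂ | z.1 ≠ 0 ∧ z.2 ≠ 0}) =
      {z : Fin 2 → ℂ | ∀ i ∈ (Finset.univ : Finset (Fin 2)), z i ≠ 0} := by
    ext z; simp [e2_apply, Fin.forall_fin_two]
  obtain ⟨g, hg, hgf⟩ := ord (U := e2 ⁻¹' U) (hU.preimage e2.continuous) Finset.univ ![c, d]
    (f := f ∘ e2)
    (by
      rw [← hset]
      exact hf.comp e2.differentiable.differentiableOn (fun z hz => hz))
    (by
      intro a ha
      obtain ⟨W, hW, hWL⟩ := hL (e2 a) ha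
      refine ⟨e2 ⁻¹' W, e2.continuous.continuousAt.preimage_mem_nhds hW, ?_⟩
      rw [← hset, ← preimage_inter]
      refine lt_of_le_of_lt (le_of_eq ?_) hWL
      rw [← lintegral_e2]
      refine lintegral_congr (fun z => ?_)
      simp [Fin.prod_univ_two, e2_apply])
  refine ⟨g ∘ e2.symm, hg.comp e2.symm.differentiable.differentiableOn
    (fun z hz => by simpa using hz), fun z hz h1 h2 => ?_⟩
  have h4 : e2 (e2.symm z) = z := e2.apply_symm_apply z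
  have h5 : (e2.symm z) 0 = z.1 := by rw [e2_apply] at h4; exact congrArg Prod.fst h4
  have h6 : (e2.symm z) 1 = z.2 := by rw [e2_apply] at h4; exact congrArg Prod.snd h4
  have h3 := hgf (e2.symm z) (by simpa using hz) (by
    intro i _
    fin_cases i
    · exact fun h => h1 (h5 ▸ h)
    · exact fun h => h2 (h6 ▸ h))
  simpa [Fin.prod_univ_two, h4, h5, h6] using h3

/-- `L²` ⇒ order on `ℂ × ℂ` along the first axis only. -/
theorem ord_fst {U : Set (ℂ × ℂ)} (hU : IsOpen U) (c : ℝ) {f : ℂ × ℂ → ℂ}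
    (hf : DifferentiableOn ℂ f (U ∩ {z | z.1 ≠ 0}))
    (hL : ∀ a ∈ U, ∃ W ∈ 𝓝 a, ∫⁻ z in W ∩ {z | z.1 ≠ 0},
      ENNReal.ofReal (‖f z‖ ^ 2 * ‖z.1‖ ^ (-2 * c - 2)) < ⊤) :
    ∃ g : ℂ × ℂ → ℂ, DifferentiableOn ℂ g U ∧ ∀ z ∈ U, z.1 ≠ 0 →
      f z = z.1 ^ (⌊c⌋ + 1) * g z := by
  have hset : (e2 ⁻¹' {z : ℂ × ℂ | z.1 ≠ 0}) =
      {z : Fin 2 → ℂ | ∀ i ∈ ({0} : Finset (Fin 2)), z i ≠ 0} := by
    ext z; simp [e2_apply]
  obtain ⟨g, hg, hgf⟩ := ord (U := e2 ⁻¹' U) (hU.preimage e2.continuous) {0} ![c, 0]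
    (f := f ∘ e2)
    (by
      rw [← hset]
      exact hf.comp e2.differentiable.differentiableOn (fun z hz => hz))
    (by
      intro a ha
      obtain ⟨W, hW, hWL⟩ := hL (e2 a) ha
      refine ⟨e2 ⁻¹' W, e2.continuous.continuousAt.preimage_mem_nhds hW, ?_⟩
      rw [← hset, ← preimage_inter]
      refine lt_of_le_of_lt (le_of_eq ?_) hWL
      rw [← lintegral_e2]
      refine lintegral_congr (fun z => ?_)
      simp [e2_apply])
  refine ⟨g ∘ e2.symm, hg.comp e2.symm.differentiable.differentiableOn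
    (fun z hz => by simpa using hz), fun z hz h1 => ?_⟩
  have h4 : e2 (e2.symm z) = z := e2.apply_symm_apply z
  have h5 : (e2.symm z) 0 = z.1 := by rw [e2_apply] at h4; exact congrArg Prod.fst h4
  have h3 := hgf (e2.symm z) (by simpa using hz) (by
    intro i hi
    rw [Finset.mem_singleton] at hi
    subst hi
    rwa [h5])
  simpa [h4, h5] using h3

/-! ### local integrability of the weights (converse direction) -/

theorem integrableOn_norm_rpow {s : ℝ} (hs : s < 2) (R : ℝ) :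
    IntegrableOn (fun z : ℂ => ‖z‖ ^ (-s)) (Metric.ball 0 R) := by
  have h1 : Integrable (fun z : ℂ => ((Iio R).indicator (fun t : ℝ => t ^ (-s))) ‖z‖) := by
    rw [integrable_fun_norm_addHaar (volume : Measure ℂ)
      (f := (Iio R).indicator (fun t : ℝ => t ^ (-s)))]
    have h2 : IntegrableOn (fun t : ℝ => t ^ (1 - s)) (Ioo 0 R) := by
      rcases le_or_gt R 0 with hR | hR
      · rw [Ioo_eq_empty (not_lt.mpr hR)]
        exact integrableOn_empty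
      · have := (intervalIntegral.intervalIntegrable_rpow' (a := 0) (b := R) (r := 1 - s)
          (by linarith)).1
        exact this.mono_set Ioo_subset_Ioc_self
    have h3 : IntegrableOn ((Iio R).indicator (fun t : ℝ => t ^ (1 - s))) (Ioi 0) := by
      rw [integrableOn_indicator_iff measurableSet_Iio]
      have : Iio R ∩ Ioi 0 = Ioo 0 R := by
        ext x; simp [and_comm]
      rwa [this]
    refine h3.congr_fun ?_ measurableSet_Ioi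
    intro t ht
    have ht' : 0 < t := ht
    simp only [Complex.finrank_real_complex, Nat.add_one_sub_one, pow_one, smul_eq_mul,
      indicator]
    split_ifs with h
    · rw [Real.rpow_sub ht', Real.rpow_one, Real.rpow_neg ht'.le]
      rfl
    · simp
  have h4 : (fun z : ℂ => ((Iio R).indicator (fun t : ℝ => t ^ (-s))) ‖z‖)
      = (Metric.ball (0 : ℂ) R).indicator (fun z : ℂ => ‖z‖ ^ (-s)) := by
    funext z
    simp only [indicator, mem_Iio, mem_ball_zero_iff]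
  rw [h4, integrable_indicator_iff Metric.isOpen_ball.measurableSet] at h1
  exact h1

/-- `∫_{|z|<R} |z|^(2e-2) < ∞` for `e > 0`. -/
theorem int1 {e : ℝ} (he : 0 < e) (R : ℝ) :
    ∫⁻ z in Metric.ball (0 : ℂ) R, ENNReal.ofReal (‖z‖ ^ (2 * e - 2)) < ⊤ := by
  have h := (integrableOn_norm_rpow (s := 2 - 2 * e) (by linarith) R).lintegral_lt_top
  simpa [show -(2 - 2 * e) = 2 * e - 2 by ring] using h

/-- `∫_{|z|<R, |w|<R'} |z|^(2e-2) |w|^(2e'-2) < ∞` for `e, e' > 0`. -/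
theorem int2 {e e' : ℝ} (he : 0 < e) (he' : 0 < e') (R R' : ℝ) :
    ∫⁻ p in (Metric.ball (0 : ℂ) R) ×ˢ (Metric.ball (0 : ℂ) R'),
      ENNReal.ofReal (‖p.1‖ ^ (2 * e - 2) * ‖p.2‖ ^ (2 * e' - 2)) < ⊤ := by
  have h1 : ∀ p : ℂ × ℂ, ENNReal.ofReal (‖p.1‖ ^ (2 * e - 2) * ‖p.2‖ ^ (2 * e' - 2)) =
      ENNReal.ofReal (‖p.1‖ ^ (2 * e - 2)) * ENNReal.ofReal (‖p.2‖ ^ (2 * e' - 2)) := by
    intro p
    rw [ENNReal.ofReal_mul (Real.rpow_nonneg (norm_nonneg _) _)]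
  simp only [h1]
  rw [Measure.volume_eq_prod, ← Measure.prod_restrict,
    lintegral_prod_mul (f := fun z : ℂ => ENNReal.ofReal (‖z‖ ^ (2 * e - 2)))
      (g := fun z : ℂ => ENNReal.ofReal (‖z‖ ^ (2 * e' - 2)))
      (by fun_prop) (by fun_prop)]
  exact ENNReal.mul_lt_top (int1 he R) (int1 he' R')

end Crest.Agent.R257.Ord_757
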