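import Crest.Agent.R257.Fr1_808
import Crest.Agent.R257.Fr2_808
import Crest.Agent.R257.DetD_219
import Crest.Agent.R257.Ord_757

/-!
R257 / Fr3_808: sheet integrals in charts (both inequalities) and elementary integrals.
-/

set_option autoImplicit false

open Topology Filter MeasureTheory Set Function
open scoped ENNReal NNReal
open Crest.AlgGeometry.Germ

noncomputable section

namespace Crest.Agent.R257.Fr_808

open Crest.Agent.R257.Defs_219
open Crest.Agent.R257.Det_219 (E2 Bx Bp Sh isOpen_Bx isOpen_Bp mem_Bx_cons det_restrict)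

/-- `(Fin 2 → ℂ) ≃ ℂ × ℂ` -/
abbrev tw : (Fin 2 → ℂ) ≃L[ℂ] ℂ × ℂ := Ord_757.e2

/-- `x ↦ x'` -/
def tailL : E3 →L[ℂ] E2 := ContinuousLinearMap.pi fun i => ContinuousLinearMap.proj i.succ

/-- the chart in the `x'`-space -/
def ps (θ : ℂ × ℂ → E3) (y : E2) : E2 := Fin.tail (θ (tw y))

/-- its derivative -/
def psL (θ : ℂ × ℂ → E3) (y : E2) : E2 →L[ℂ] E2 :=
  tailL.comp ((fderiv ℂ θ (tw y)).comp (tw : E2 →L[ℂ] ℂ × ℂ))

theorem ps_deriv {θ : ℂ × ℂ → E3} {y : E2} (h : DifferentiableAt ℂ θ (tw y)) :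
    HasFDerivAt (ps θ) (psL θ y) y := by
  have h1 : HasFDerivAt (fun y : E2 => θ (tw y)) ((fderiv ℂ θ (tw y)).comp
      (tw : E2 →L[ℂ] ℂ × ℂ)) y := h.hasFDerivAt.comp y tw.hasFDerivAt
  exact tailL.hasFDerivAt.comp y h1

theorem psL_det (θ : ℂ × ℂ → E3) (y : E2) : (psL θ y).det = jac2 θ (tw y) := by
  have a0 : tw (Pi.single 0 1) = ((1 : ℂ), (0 : ℂ)) := by
    rw [tw, Ord_757.e2_apply]; simp
  have a1 : tw (Pi.single 1 1) = ((0 : ℂ), (1 : ℂ)) := by
    rw [tw, Ord_757.e2_apply]; simp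
  have b0 : ∀ i : Fin 2, psL θ y (Pi.single 0 1) i = fderiv ℂ θ (tw y) (1, 0) i.succ := by
    intro i
    show fderiv ℂ θ (tw y) (tw (Pi.single 0 1)) i.succ = _
    rw [a0]
  have b1 : ∀ i : Fin 2, psL θ y (Pi.single 1 1) i = fderiv ℂ θ (tw y) (0, 1) i.succ := by
    intro i
    show fderiv ℂ θ (tw y) (tw (Pi.single 1 1)) i.succ = _
    rw [a1]
  rw [ContinuousLinearMap.det, ← LinearMap.det_toMatrix', Matrix.det_fin_two]
  simp only [LinearMap.toMatrix'_apply, ContinuousLinearMap.coe_coe, b0, b1, jac2]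
  have s0 : (0 : Fin 2).succ = (1 : Fin 3) := rfl
  have s1 : (1 : Fin 2).succ = (2 : Fin 3) := rfl
  rw [s0, s1]
  ring

/-- chart integral `≤ N ×` sheet integral -/
theorem chart_le {θ : ℂ × ℂ → E3} {N : ℕ} {r : ℝ} {f : E3 → ℂ} (φ : E3 → ℝ≥0∞) {A : Set E2}
    (hA : MeasurableSet A) (hd : ∀ y ∈ A, DifferentiableAt ℂ θ (tw y))
    (hj : ∀ y ∈ A, jac2 θ (tw y) ≠ 0) (hm : Measurable (A.domRestrict fun y => φ (θ (tw y))))
    (hbox : ∀ y ∈ A, θ (tw y) ∈ Bx r) (hf : ∀ y ∈ A, f (θ (tw y)) = 0)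
    (h0 : ∀ y ∈ A, coordDeriv f 0 (θ (tw y)) ≠ 0)
    (hN : ∀ x, {y | y ∈ A ∧ θ (tw y) = x}.encard ≤ N) :
    ∫⁻ y in A, ENNReal.ofReal (‖jac2 θ (tw y)‖ ^ 2) * φ (θ (tw y)) ≤
      N * ∫⁻ x' in Bp r, ∑' z : Sh f r x', φ (Fin.cons z.1 x') := by
  obtain ⟨-, heq⟩ := area_mult (volume : Measure E2) (ps θ) A
    (fun y => (psL θ y).restrictScalars ℝ) hA
    (fun y hy => ((ps_deriv (hd y hy)).restrictScalars ℝ).hasFDerivWithinAt)
    (fun y hy h => by
      have h1 := det_restrict (psL θ y)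
      rw [h, abs_zero, psL_det] at h1
      exact hj y hy (by simpa using h1.symm))
    (fun y => φ (θ (tw y))) hm
  have e1 : ∫⁻ y in A, ENNReal.ofReal (‖jac2 θ (tw y)‖ ^ 2) * φ (θ (tw y)) =
      ∫⁻ y in A, ENNReal.ofReal |((psL θ y).restrictScalars ℝ).det| * φ (θ (tw y)) := by
    refine setLIntegral_congr_fun hA fun y _ => ?_
    rw [det_restrict, psL_det]
  rw [e1, heq]
  have key : ∀ x' : E2, ∑' y : {y // y ∈ A ∧ ps θ y = x'}, φ (θ (tw y)) ≤
      N * (Bp r).indicator (fun x' => ∑' z : Sh f r x', φ (Fin.cons z.1 x')) x' := by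
    intro x'
    by_cases hne : Nonempty {y // y ∈ A ∧ ps θ y = x'}
    · obtain ⟨y₀⟩ := hne
      have hcons : ∀ y : {y // y ∈ A ∧ ps θ y = x'},
          (Fin.cons (θ (tw y) 0) x' : E3) = θ (tw y) := by
        intro y
        conv_rhs => rw [← Fin.cons_self_tail (θ (tw y))]
        congr 1
        exact y.2.2.symm
      have hx' : x' ∈ Bp r := by
        have h1 := hbox y₀ y₀.2.1
        rw [← hcons y₀, mem_Bx_cons] at h1
        exact h1.2
      rw [indicator_of_mem hx']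
      let T : {y // y ∈ A ∧ ps θ y = x'} → Sh f r x' := fun y =>
        ⟨θ (tw y) 0, (hbox y y.2.1) 0, by rw [hcons y]; exact hf y y.2.1,
          by rw [hcons y]; exact h0 y y.2.1⟩
      have h2 : ∀ y : {y // y ∈ A ∧ ps θ y = x'},
          φ (θ (tw y)) = φ (Fin.cons (T y).1 x') := by
        intro y
        show _ = φ (Fin.cons (θ (tw y) 0) x')
        rw [hcons y]
      calc ∑' y : {y // y ∈ A ∧ ps θ y = x'}, φ (θ (tw y))
          = ∑' y : {y // y ∈ A ∧ ps θ y = x'}, (fun z : Sh f r x' => φ (Fin.cons z.1 x')) (T y) :=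
            tsum_congr h2
        _ ≤ N * ∑' z : Sh f r x', φ (Fin.cons z.1 x') := by
            refine tsum_fib_le T (fun z : Sh f r x' => φ (Fin.cons z.1 x')) N fun z => ?_
            refine le_trans ?_ (hN (Fin.cons z.1 x'))
            have h3 : InjOn (fun y : {y // y ∈ A ∧ ps θ y = x'} => (y : E2)) {s | T s = z} :=
              fun a _ b _ h => Subtype.ext h
            rw [← h3.encard_image]
            refine Set.encard_le_encard ?_
            rintro _ ⟨y, hy, rfl⟩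
            refine ⟨y.2.1, ?_⟩
            show θ (tw y) = _
            rw [← hcons y]
            have h4 : (T y).1 = z.1 := congrArg Subtype.val hy
            rw [← h4]
    · have : IsEmpty {y // y ∈ A ∧ ps θ y = x'} := not_nonempty_iff.1 hne
      rw [tsum_empty]
      exact zero_le
  calc ∫⁻ x', ∑' y : {y // y ∈ A ∧ ps θ y = x'}, φ (θ (tw y))
      ≤ ∫⁻ x', N * (Bp r).indicator (fun x' => ∑' z : Sh f r x', φ (Fin.cons z.1 x')) x' :=
        lintegral_mono key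
    _ = _ := by
        rw [lintegral_const_mul' _ _ (ENNReal.natCast_ne_top N),
          lintegral_indicator (isOpen_Bp r).measurableSet]

/-- sheet integral `≤` sum of the chart integrals -/
theorem le_chart {κ : Type} [Fintype κ] {θ : κ → ℂ × ℂ → E3} {r : ℝ} {f : E3 → ℂ}
    (φ : E3 → ℝ≥0∞) {A : κ → Set E2} (hA : ∀ c, MeasurableSet (A c))
    (hd : ∀ c, ∀ y ∈ A c, DifferentiableAt ℂ (θ c) (tw y))
    (hj : ∀ c, ∀ y ∈ A c, jac2 (θ c) (tw y) ≠ 0)
    (hm : ∀ c, Measurable ((A c).domRestrict fun y => φ (θ c (tw y)))) {Z : Set E2}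
    (hZ : volume Z = 0)
    (hcov : ∀ x' ∈ Bp r, x' ∉ Z → ∀ z : Sh f r x', ∃ c, ∃ y ∈ A c,
      θ c (tw y) = Fin.cons z.1 x') :
    ∫⁻ x' in Bp r, ∑' z : Sh f r x', φ (Fin.cons z.1 x') ≤
      ∑ c, ∫⁻ y in A c, ENNReal.ofReal (‖jac2 (θ c) (tw y)‖ ^ 2) * φ (θ c (tw y)) := by
  classical
  have har := fun c => area_mult (volume : Measure E2) (ps (θ c)) (A c)
    (fun y => (psL (θ c) y).restrictScalars ℝ) (hA c)
    (fun y hy => ((ps_deriv (hd c y hy)).restrictScalars ℝ).hasFDerivWithinAt)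
    (fun y hy h => by
      have h1 := det_restrict (psL (θ c) y)
      rw [h, abs_zero, psL_det] at h1
      exact hj c y hy (by simpa using h1.symm))
    (fun y => φ (θ c (tw y))) (hm c)
  have e1 : ∀ c, ∫⁻ y in A c, ENNReal.ofReal (‖jac2 (θ c) (tw y)‖ ^ 2) * φ (θ c (tw y)) =
      ∫⁻ x', ∑' y : {y // y ∈ A c ∧ ps (θ c) y = x'}, φ (θ c (tw y)) := by
    intro c
    rw [← (har c).2]
    refine setLIntegral_congr_fun (hA c) fun y _ => ?_
    rw [det_restrict, psL_det]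
  simp only [e1]
  rw [← lintegral_finsetSum _ fun c _ => (har c).1]
  refine le_trans ?_ (setLIntegral_le_lintegral (Bp r) _)
  have hZ' : ∀ᵐ x' ∂(volume.restrict (Bp r)), x' ∉ Z :=
    ae_restrict_of_ae (measure_eq_zero_iff_ae_notMem.1 hZ)
  refine lintegral_mono_ae ?_
  filter_upwards [hZ', ae_restrict_mem (isOpen_Bp r).measurableSet] with x' h1 h2
  choose c y hy hyx using hcov x' h2 h1
  let ι : Sh f r x' → Σ c, {y // y ∈ A c ∧ ps (θ c) y = x'} := fun z =>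
    ⟨c z, ⟨y z, hy z, by
      show Fin.tail (θ (c z) (tw (y z))) = x'
      rw [hyx z]; exact Fin.tail_cons _ _⟩⟩
  have hinj : Injective ι := by
    intro z w hzw
    have h3 : (fun s : (Σ c, {y // y ∈ A c ∧ ps (θ c) y = x'}) => θ s.1 (tw s.2.1)) (ι z) =
        (fun s : (Σ c, {y // y ∈ A c ∧ ps (θ c) y = x'}) => θ s.1 (tw s.2.1)) (ι w) := by
      rw [hzw]
    have h4 : (Fin.cons z.1 x' : E3) = Fin.cons w.1 x' := by
      rw [← hyx z, ← hyx w]; exact h3
    apply Subtype.ext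
    exact congrFun h4 0
  calc ∑' z : Sh f r x', φ (Fin.cons z.1 x')
      = ∑' z : Sh f r x', (fun s : (Σ c, {y // y ∈ A c ∧ ps (θ c) y = x'}) =>
          φ (θ s.1 (tw s.2.1))) (ι z) := by
        refine tsum_congr fun z => ?_
        show _ = φ (θ (c z) (tw (y z)))
        rw [hyx z]
    _ ≤ ∑' s : (Σ c, {y // y ∈ A c ∧ ps (θ c) y = x'}), φ (θ s.1 (tw s.2.1)) :=
        ENNReal.tsum_comp_le_tsum_of_injective hinj _
    _ = ∑' c, ∑' y : {y // y ∈ A c ∧ ps (θ c) y = x'}, φ (θ c (tw y)) :=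
        ENNReal.tsum_sigma' _
    _ = _ := by rw [tsum_fintype]

/-! ### elementary integrals -/

/-- `∫_{|z|<δ} |z|^(2e-2) < ∞` implies `e > 0` -/
theorem int1_conv {e δ : ℝ} (hδ : 0 < δ)
    (h : ∫⁻ z in Metric.ball (0 : ℂ) δ, ENNReal.ofReal (‖z‖ ^ (2 * e - 2)) < ⊤) : 0 < e := by
  have h1 : IntegrableOn (fun z : ℂ => ‖z‖ ^ (2 * e - 2)) (Metric.ball 0 δ) := by
    refine ⟨?_, ?_⟩
    · exact (by fun_prop : Measurable fun z : ℂ => ‖z‖ ^ (2 * e - 2)).aestronglyMeasurable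
    · rw [hasFiniteIntegral_iff_ofReal]
      · exact h
      · exact Eventually.of_forall fun z => Real.rpow_nonneg (norm_nonneg _) _
  rw [integrableOn_fun_norm_addHaar (volume : Measure ℂ) (f := fun t : ℝ => t ^ (2 * e - 2))] at h1
  have h2 : IntegrableOn (fun t : ℝ => t ^ (2 * e - 1)) (Ioo 0 δ) := by
    refine h1.congr_fun ?_ measurableSet_Ioo
    intro t ht
    have ht' : 0 < t := ht.1
    simp only [Complex.finrank_real_complex, Nat.add_one_sub_one, pow_one, smul_eq_mul]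
    rw [show 2 * e - 1 = 1 + (2 * e - 2) by ring, Real.rpow_add ht', Real.rpow_one]
  rw [intervalIntegral.integrableOn_Ioo_rpow_iff hδ] at h2
  linarith

/-- the local form of the integrand -/
theorem nrm {x y G U : ℝ} (hx : 0 < x) (hy : 0 < y) (hG : 0 ≤ G) {s : ℝ} (a b : ℕ)
    (n n' : ℤ) : (x ^ a * y ^ b * G) ^ (2 / s) * (x ^ (-n - 1) * y ^ (-n' - 1) * U) ^ 2 =
      x ^ (2 * (a / s - n) - 2) * y ^ (2 * (b / s - n') - 2) * (G ^ (2 / s) * U ^ 2) := by
  have e1 : (x ^ a * y ^ b * G) ^ (2 / s) = x ^ ((a : ℝ) * (2 / s)) * y ^ ((b : ℝ) * (2 / s)) *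
      G ^ (2 / s) := by
    rw [Real.mul_rpow (by positivity) hG, Real.mul_rpow (by positivity) (by positivity),
      ← Real.rpow_natCast, ← Real.rpow_natCast, ← Real.rpow_mul hx.le, ← Real.rpow_mul hy.le]
  have e2 : ∀ {x : ℝ} (_ : 0 < x) (n : ℤ), (x ^ (-n - 1)) ^ 2 = x ^ (2 * (-(n : ℝ)) - 2) := by
    intro x hx n
    rw [← Real.rpow_intCast, ← Real.rpow_natCast, ← Real.rpow_mul hx.le]
    congr 1
    push_cast
    ring
  rw [e1, mul_pow, mul_pow, e2 hx, e2 hy,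
    show 2 * ((a : ℝ) / s - n) - 2 = (a : ℝ) * (2 / s) + (2 * (-(n : ℝ)) - 2) by ring,
    show 2 * ((b : ℝ) / s - n') - 2 = (b : ℝ) * (2 / s) + (2 * (-(n' : ℝ)) - 2) by ring,
    Real.rpow_add hx, Real.rpow_add hy]
  ring

end Crest.Agent.R257.Fr_808
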