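import Crest.Agent.R257.Fr3_808

/-!
R257 / Fr4_808: `J_s` in a frame:  `v(g) > s nu` implies `g ∈ J_s`, and `g ∈ J_s` implies
`v(g) > s nu`.
-/

set_option autoImplicit false

open Topology Filter MeasureTheory Set Function
open scoped ENNReal NNReal
open Crest.AlgGeometry.Germ

noncomputable section

namespace Crest.Agent.R257.Fr_808

open Crest.Agent.R257.Defs_219
open Crest.Agent.R257.Gr1_157
open Crest.Agent.R257.Det_219 (E2 Bx Bp Sh isOpen_Bx isOpen_Bp mem_Bx_cons cd_an)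

/-- the integrand of `Jint` -/
def phi (s : ℝ) (f g : E3 → ℂ) (x : E3) : ℝ≥0∞ :=
  ENNReal.ofReal (‖g x‖ ^ (2 / s) / ‖coordDeriv f 0 x‖ ^ 2)

theorem Jint_eq (s r : ℝ) (f g : E3 → ℂ) : Jint s (fun _ => r) f g =
    ∫⁻ x' in Bp r, ∑' z : Sh f r x', phi s f g (Fin.cons z.1 x') := rfl

theorem cd0_an {f : E3 → ℂ} {x : E3} (h : AnalyticAt ℂ f x) (i : Fin 3) :
    AnalyticAt ℂ (coordDeriv f i) x := by
  have h1 : AnalyticAt ℂ (fderiv ℂ f) x := h.fderiv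
  have h2 := (ContinuousLinearMap.apply ℂ ℂ (Pi.single i (1 : ℂ) : E3)).analyticAt (fderiv ℂ f x)
  exact h2.comp h1

theorem phi_meas {f g : E3 → ℂ} {θ : ℂ × ℂ → E3} {A : Set E2} {s : ℝ} (hs : 0 < s)
    (h1 : ∀ y ∈ A, AnalyticAt ℂ θ (tw y)) (h2 : ∀ y ∈ A, AnalyticAt ℂ f (θ (tw y)))
    (h3 : ∀ y ∈ A, AnalyticAt ℂ g (θ (tw y))) (h4 : ∀ y ∈ A, coordDeriv f 0 (θ (tw y)) ≠ 0) :
    Measurable (A.domRestrict fun y => phi s f g (θ (tw y))) := by
  have hθ : ∀ y ∈ A, ContinuousAt (fun y : E2 => θ (tw y)) y := fun y hy =>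
    ContinuousAt.comp (f := (tw : E2 → ℂ × ℂ)) (g := θ) (h1 y hy).continuousAt
      tw.continuous.continuousAt
  have hg : ∀ y ∈ A, ContinuousAt (fun y : E2 => g (θ (tw y))) y := fun y hy =>
    ContinuousAt.comp (f := fun y : E2 => θ (tw y)) (g := g) (h3 y hy).continuousAt (hθ y hy)
  have hf : ∀ y ∈ A, ContinuousAt (fun y : E2 => coordDeriv f 0 (θ (tw y))) y := fun y hy =>
    ContinuousAt.comp (f := fun y : E2 => θ (tw y)) (g := coordDeriv f 0)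
      (cd0_an (h2 y hy) 0).continuousAt (hθ y hy)
  have hc : ContinuousOn (fun y : E2 => ‖g (θ (tw y))‖ ^ (2 / s) /
      ‖coordDeriv f 0 (θ (tw y))‖ ^ 2) A := by
    intro y hy
    refine ContinuousAt.continuousWithinAt ?_
    refine ContinuousAt.div ?_ ((hf y hy).norm.pow 2) (pow_ne_zero 2 (norm_ne_zero_iff.2 (h4 y hy)))
    exact (hg y hy).norm.rpow_const (Or.inr (by positivity))
  have h5 : Measurable (A.domRestrict fun y : E2 => ‖g (θ (tw y))‖ ^ (2 / s) /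
      ‖coordDeriv f 0 (θ (tw y))‖ ^ 2) := (continuousOn_iff_continuous_domRestrict.1 hc).measurable
  exact h5.ennreal_ofReal

namespace Frame

variable {f : E3 → ℂ} (F : Frame f)

/-- analyticity near the special fibre -/
theorem an_near (hf : AnalyticAt ℂ f 0) {g : E3 → ℂ} (hg : AnalyticAt ℂ g 0) {c : F.K}
    {p₀ : ℂ × ℂ} (hp : p₀ ∈ F.SF c) : ∀ᶠ p in 𝓝 p₀, AnalyticAt ℂ (F.th c) p ∧
      AnalyticAt ℂ f (F.th c p) ∧ AnalyticAt ℂ g (F.th c p) := by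
  have h1 := F.an c p₀ hp.1
  have h2 : Tendsto (F.th c) (𝓝 p₀) (𝓝 0) := by
    have := h1.continuousAt.tendsto
    rwa [F.th_SF hp] at this
  exact h1.eventually_analyticAt.and
    ((h2.eventually hf.eventually_analyticAt).and (h2.eventually hg.eventually_analyticAt))

/-- exponents in the integrals -/
def ex (v : F.I → ℕ) (s : ℝ) (c : F.K) : ℝ := (v (F.e1 c) : ℝ) / s - F.nu (F.e1 c)

/-- exponents in the integrals, second variable -/
def ex' (v : F.I → ℕ) (s : ℝ) (c : F.K) : ℝ := (ex2 v (F.e2 c) : ℝ) / s - F.nu2 c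

variable {F}

/-- local form of the integrand -/
theorem Fac.form {g : E3 → ℂ} {v : F.I → ℕ} {c : F.K} {p₀ : ℂ × ℂ} {G : ℂ × ℂ → ℂ}
    (hp : p₀ ∈ F.SF c) (hG : F.Fac g v c p₀ G) (s : ℝ) :
    ∃ U : ℂ × ℂ → ℂ, AnalyticAt ℂ U p₀ ∧ U p₀ ≠ 0 ∧ ∀ᶠ p in 𝓝 p₀, p.1 ≠ 0 → p.2 ≠ 0 →
      coordDeriv f 0 (F.th c p) ≠ 0 ∧ jac2 (F.th c) p ≠ 0 ∧
      ENNReal.ofReal (‖jac2 (F.th c) p‖ ^ 2) * phi s f g (F.th c p) =
        ENNReal.ofReal (‖p.1‖ ^ (2 * F.ex v s c - 2) * ‖p.2‖ ^ (2 * F.ex' v s c - 2) *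
          (‖G p‖ ^ (2 / s) * ‖U p‖ ^ 2)) := by
  obtain ⟨U, hU, hU0, hj⟩ := F.jac c p₀ hp
  refine ⟨U, hU, hU0, ?_⟩
  filter_upwards [hj, hG.2, hU.continuousAt.eventually_ne hU0] with p h1 h2 h3 h4 h5
  obtain ⟨h6, h7⟩ := h1 h4 h5
  have hX : p.1 ^ (-F.nu (F.e1 c) - 1) * p.2 ^ (-F.nu2 c - 1) * U p ≠ 0 :=
    mul_ne_zero (mul_ne_zero (zpow_ne_zero _ h4) (zpow_ne_zero _ h5)) h3
  have h7' : jac2 (F.th c) p = coordDeriv f 0 (F.th c p) *
      (p.1 ^ (-F.nu (F.e1 c) - 1) * p.2 ^ (-F.nu2 c - 1) * U p) := by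
    rw [h7]; ring
  refine ⟨h6, by rw [h7']; exact mul_ne_zero h6 hX, ?_⟩
  rw [phi, ← ENNReal.ofReal_mul (by positivity)]
  congr 1
  rw [h7', h2, mo]
  have hd : ‖coordDeriv f 0 (F.th c p)‖ ≠ 0 := norm_ne_zero_iff.2 h6
  have e1 : ‖coordDeriv f 0 (F.th c p) *
      (p.1 ^ (-F.nu (F.e1 c) - 1) * p.2 ^ (-F.nu2 c - 1) * U p)‖ ^ 2 *
      (‖p.1 ^ v (F.e1 c) * p.2 ^ ex2 v (F.e2 c) * G p‖ ^ (2 / s) /
        ‖coordDeriv f 0 (F.th c p)‖ ^ 2) =
      (‖p.1‖ ^ v (F.e1 c) * ‖p.2‖ ^ ex2 v (F.e2 c) * ‖G p‖) ^ (2 / s) *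
      (‖p.1‖ ^ (-F.nu (F.e1 c) - 1) * ‖p.2‖ ^ (-F.nu2 c - 1) * ‖U p‖) ^ 2 := by
    rw [norm_mul (coordDeriv f 0 (F.th c p)), norm_mul, norm_mul, norm_mul, norm_mul, norm_zpow,
      norm_zpow, norm_pow, norm_pow]
    field_simp
  rw [e1, nrm (norm_pos_iff.2 h4) (norm_pos_iff.2 h5) (norm_nonneg _)]
  rfl

variable (F)

/-- the null set of the `x'` below the second axes -/
theorem null (c : F.K) : volume (ps (F.th c) '' {y : E2 | tw y ∈ BD ∧ y 1 = 0}) = 0 := by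
  refine addHaar_image_eq_zero_of_differentiableOn_of_addHaar_eq_zero (volume : Measure E2)
    (fun y hy => ?_) ?_
  · exact ((ps_deriv (F.an c _ hy.1).differentiableAt).restrictScalars
      ℝ).differentiableAt.differentiableWithinAt
  · refine measure_mono_null (t := {y : E2 | y 1 = 0}) (fun y hy => hy.2) ?_
    have h1 : {y : E2 | y 1 = 0} = tw ⁻¹' (univ ×ˢ {(0 : ℂ)}) := by
      ext y; simp [tw, Ord_757.e2_apply]
    rw [h1, Ord_757.mp_e2.measure_preimage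
      ((MeasurableSet.univ.prod (measurableSet_singleton _)).nullMeasurableSet),
      Measure.volume_eq_prod, Measure.prod_prod]
    simp

theorem null0 : volume ({0} : Set E2) = 0 := by simp

variable {F}

/-- **`v(g) > s nu` implies `g ∈ J_s`** -/
theorem InJ_of (hf : AnalyticAt ℂ f 0) {g : E3 → ℂ} (hg : AnalyticAt ℂ g 0) {v : F.I → ℕ}
    (hv : F.Ge g v) {s : ℝ} (hs : 0 < s) (hlt : ∀ i, s * F.nu i < v i) : InJ s f g := by
  have hex : ∀ c, 0 < F.ex v s c := by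
    intro c
    have := hlt (F.e1 c)
    unfold ex
    rw [sub_pos, lt_div_iff₀ hs]
    linarith
  have hex' : ∀ c, 0 < F.ex' v s c := by
    intro c
    unfold ex'
    rcases h : F.e2 c with _ | i
    · have h1 := F.nu2_none c h
      have h2 : (F.nu2 c : ℝ) ≤ -1 := by exact_mod_cast h1
      simp only [ex2, Option.elim_none, Nat.cast_zero, zero_div]
      linarith
    · have h1 := F.nu2_some c i h
      have := hlt i
      rw [h1]
      simp only [ex2, Option.elim_some]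
      rw [sub_pos, lt_div_iff₀ hs]
      linarith
  set off : Set (ℂ × ℂ) := {p | p.1 ≠ 0 ∧ p.2 ≠ 0} with hoff
  have hoffo : IsOpen off := (isOpen_ne_fun continuous_fst continuous_const).inter
    (isOpen_ne_fun continuous_snd continuous_const)
  set D : F.K → ℂ × ℂ → ℝ≥0∞ := fun c p =>
    ENNReal.ofReal (‖jac2 (F.th c) p‖ ^ 2) * phi s f g (F.th c p) with hD
  have hBDm : MeasurableSet BD := isCompact_BD.isClosed.measurableSet
  -- open neighbourhoods of the special fibres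
  have key : ∀ c, ∃ W : Set (ℂ × ℂ), IsOpen W ∧ F.SF c ⊆ W ∧
      (∀ p ∈ W, AnalyticAt ℂ (F.th c) p ∧ AnalyticAt ℂ f (F.th c p) ∧
        AnalyticAt ℂ g (F.th c p) ∧ (p.1 ≠ 0 → p.2 ≠ 0 → coordDeriv f 0 (F.th c p) ≠ 0 ∧
          jac2 (F.th c) p ≠ 0)) ∧ ∫⁻ p in (W ∩ BD) ∩ off, D c p < ⊤ := by
    intro c
    refine (F.isCompact_SF c).induction_on
        (p := fun t => ∃ W : Set (ℂ × ℂ), IsOpen W ∧ t ⊆ W ∧
      (∀ p ∈ W, AnalyticAt ℂ (F.th c) p ∧ AnalyticAt ℂ f (F.th c p) ∧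
        AnalyticAt ℂ g (F.th c p) ∧ (p.1 ≠ 0 → p.2 ≠ 0 → coordDeriv f 0 (F.th c p) ≠ 0 ∧
          jac2 (F.th c) p ≠ 0)) ∧ ∫⁻ p in (W ∩ BD) ∩ off, D c p < ⊤) ?_ ?_ ?_ ?_
    · exact ⟨∅, isOpen_empty, subset_rfl, fun p hp => absurd hp (notMem_empty p), by simp⟩
    · rintro t t' htt ⟨W, h1, h2, h3⟩
      exact ⟨W, h1, htt.trans h2, h3⟩
    · rintro t t' ⟨W, h1, h2, h3, h4⟩ ⟨W', h1', h2', h3', h4'⟩
      refine ⟨W ∪ W', h1.union h1', union_subset_union h2 h2', ?_, ?_⟩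
      · rintro p (hp | hp)
        · exact h3 p hp
        · exact h3' p hp
      · have : (W ∪ W') ∩ BD ∩ off = (W ∩ BD ∩ off) ∪ (W' ∩ BD ∩ off) := by
          rw [union_inter_distrib_right, union_inter_distrib_right]
        rw [this]
        exact lt_of_le_of_lt (lintegral_union_le _ _ _) (ENNReal.add_lt_top.2 ⟨h4, h4'⟩)
    · intro p₀ hp₀
      obtain ⟨G, hG⟩ := hv c p₀ hp₀
      obtain ⟨U, hU, hU0, hform⟩ := hG.form hp₀ s
      have hbd : ∀ᶠ p in 𝓝 p₀, ‖G p‖ ^ (2 / s) * ‖U p‖ ^ 2 <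
          ‖G p₀‖ ^ (2 / s) * ‖U p₀‖ ^ 2 + 1 := by
        have h1 : ContinuousAt (fun p => ‖G p‖ ^ (2 / s) * ‖U p‖ ^ 2) p₀ :=
          (hG.1.continuousAt.norm.rpow_const (Or.inr (by positivity))).mul
            (hU.continuousAt.norm.pow 2)
        exact h1.eventually_lt continuousAt_const (by simp)
      obtain ⟨W, hW, hWo, hpW⟩ := _root_.eventually_nhds_iff.1
        ((hform.and hbd).and (F.an_near hf hg hp₀))
      refine ⟨W, mem_nhdsWithin_of_mem_nhds (hWo.mem_nhds hpW), W, hWo, subset_rfl, ?_, ?_⟩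
      · intro p hp
        obtain ⟨⟨h1, -⟩, h2, h3, h4⟩ := hW p hp
        exact ⟨h2, h3, h4, fun h5 h6 => ⟨(h1 h5 h6).1, (h1 h5 h6).2.1⟩⟩
      · set C : ℝ := ‖G p₀‖ ^ (2 / s) * ‖U p₀‖ ^ 2 + 1 with hC
        have hC0 : 0 ≤ C := by positivity
        have hms : MeasurableSet (W ∩ BD ∩ off) :=
          (hWo.measurableSet.inter hBDm).inter hoffo.measurableSet
        have hle : ∀ p ∈ W ∩ BD ∩ off, D c p ≤ ENNReal.ofReal C *
            ENNReal.ofReal (‖p.1‖ ^ (2 * F.ex v s c - 2) * ‖p.2‖ ^ (2 * F.ex' v s c - 2)) := by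
          rintro p ⟨⟨hp, -⟩, hp1, hp2⟩
          obtain ⟨⟨h1, h2⟩, -⟩ := hW p hp
          rw [hD]
          simp only
          rw [(h1 hp1 hp2).2.2, ← ENNReal.ofReal_mul hC0]
          refine ENNReal.ofReal_le_ofReal ?_
          rw [mul_comm C]
          exact mul_le_mul_of_nonneg_left h2.le (by positivity)
        calc ∫⁻ p in (W ∩ BD) ∩ off, D c p
            ≤ ∫⁻ p in (W ∩ BD) ∩ off, ENNReal.ofReal C *
              ENNReal.ofReal (‖p.1‖ ^ (2 * F.ex v s c - 2) * ‖p.2‖ ^ (2 * F.ex' v s c - 2)) :=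
              setLIntegral_mono' hms hle
          _ = ENNReal.ofReal C * ∫⁻ p in (W ∩ BD) ∩ off,
              ENNReal.ofReal (‖p.1‖ ^ (2 * F.ex v s c - 2) * ‖p.2‖ ^ (2 * F.ex' v s c - 2)) :=
              lintegral_const_mul' _ _ ENNReal.ofReal_ne_top
          _ ≤ ENNReal.ofReal C * ∫⁻ p in (Metric.ball (0 : ℂ) 2) ×ˢ (Metric.ball (0 : ℂ) 2),
              ENNReal.ofReal (‖p.1‖ ^ (2 * F.ex v s c - 2) * ‖p.2‖ ^ (2 * F.ex' v s c - 2)) := by
              gcongr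
              rintro p ⟨⟨-, hp1, hp2⟩, -⟩
              constructor
              · rw [mem_ball_zero_iff]; linarith
              · rw [mem_ball_zero_iff]; linarith
          _ < ⊤ := ENNReal.mul_lt_top ENNReal.ofReal_lt_top
              (Ord_757.int2 (hex c) (hex' c) 2 2)
  choose W hWo hSW hWp hWi using key
  -- the sheets are covered
  have hcov := F.glob' (fun x => ∃ c, ∃ p ∈ W c ∩ BD, F.th c p = x) (fun c p₀ hp₀ => by
    filter_upwards [(hWo c).mem_nhds (hSW c hp₀)] with p hp hpB _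
    exact ⟨c, p, ⟨hp, hpB⟩, rfl⟩)
  obtain ⟨ε, hε, hball⟩ := Metric.eventually_nhds_iff_ball.1 hcov
  refine ⟨ε, hε, ?_⟩
  rw [Jint_eq]
  set A : F.K → Set E2 := fun c => tw ⁻¹' ((W c ∩ BD) ∩ off) with hA
  have hms : ∀ c, MeasurableSet ((W c ∩ BD) ∩ off) := fun c =>
    ((hWo c).measurableSet.inter hBDm).inter hoffo.measurableSet
  refine lt_of_le_of_lt (le_chart (θ := F.th) (phi s f g) (A := A)
    (fun c => tw.continuous.measurable (hms c))
    (fun c y hy => (hWp c _ hy.1.1).1.differentiableAt)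
    (fun c y hy => ((hWp c _ hy.1.1).2.2.2 hy.2.1 hy.2.2).2)
    (fun c => phi_meas hs (fun y hy => (hWp c _ hy.1.1).1) (fun y hy => (hWp c _ hy.1.1).2.1)
      (fun y hy => (hWp c _ hy.1.1).2.2.1)
      (fun y hy => ((hWp c _ hy.1.1).2.2.2 hy.2.1 hy.2.2).1))
    (Z := (⋃ c, ps (F.th c) '' {y : E2 | tw y ∈ BD ∧ y 1 = 0}) ∪ {0})
    (measure_union_null (measure_iUnion_null fun c => F.null c) null0) ?_) ?_
  · intro x' hx' hxZ z
    have hx0 : (Fin.cons z.1 x' : E3) ≠ 0 := by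
      intro h0
      apply hxZ
      right
      have := congrArg Fin.tail h0
      rw [Fin.tail_cons] at this
      exact this
    have hxb : (Fin.cons z.1 x' : E3) ∈ Metric.ball (0 : E3) ε := by
      rw [mem_ball_zero_iff, pi_norm_lt_iff hε]
      exact mem_Bx_cons.2 ⟨z.2.1, hx'⟩
    obtain ⟨c, p, ⟨hp1, hp2⟩, hpx⟩ := hball _ hxb hx0 z.2.2.1
    have hpS : p ∉ F.SF c := fun h => hx0 (by rw [← hpx, F.th_SF h])
    obtain ⟨hp3, -⟩ := F.off hp2 hpS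
    have hp4 : p.2 ≠ 0 := by
      intro h0
      apply hxZ
      left
      refine mem_iUnion.2 ⟨c, tw.symm p, ⟨?_, ?_⟩, ?_⟩
      · rw [ContinuousLinearEquiv.apply_symm_apply]; exact hp2
      · have h1 : tw (tw.symm p) = p := tw.apply_symm_apply p
        rw [tw, Ord_757.e2_apply] at h1
        exact (congrArg Prod.snd h1).trans h0
      · show Fin.tail (F.th c (tw (tw.symm p))) = x'
        rw [ContinuousLinearEquiv.apply_symm_apply, hpx, Fin.tail_cons]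
    refine ⟨c, tw.symm p, ?_, ?_⟩
    · show tw (tw.symm p) ∈ (W c ∩ BD) ∩ off
      rw [ContinuousLinearEquiv.apply_symm_apply]
      exact ⟨⟨hp1, hp2⟩, hp3, hp4⟩
    · rw [ContinuousLinearEquiv.apply_symm_apply]; exact hpx
  · refine ENNReal.sum_lt_top.2 fun c _ => ?_
    refine lt_of_le_of_lt (le_of_eq ?_) (hWi c)
    exact Ord_757.lintegral_e2 ((W c ∩ BD) ∩ off) (D c)

/-- the zero function is in `J_s` -/
theorem InJ_zero {f g : E3 → ℂ} {s : ℝ} (hs : 0 < s)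
    (hg : ∀ᶠ x in 𝓝 (0 : E3), f x = 0 → g x = 0) : InJ s f g := by
  obtain ⟨ε, hε, hball⟩ := Metric.eventually_nhds_iff_ball.1 hg
  refine ⟨ε, hε, ?_⟩
  rw [Jint_eq]
  have h0 : ∫⁻ x' in Bp ε, ∑' z : Sh f ε x', phi s f g (Fin.cons z.1 x') =
      ∫⁻ x' in Bp ε, 0 := by
    refine setLIntegral_congr_fun (isOpen_Bp ε).measurableSet fun x' hx' => ?_
    rw [ENNReal.tsum_eq_zero]
    intro z
    have hxb : (Fin.cons z.1 x' : E3) ∈ Metric.ball (0 : E3) ε := by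
      rw [mem_ball_zero_iff, pi_norm_lt_iff hε]
      exact mem_Bx_cons.2 ⟨z.2.1, hx'⟩
    have h1 := hball _ hxb z.2.2.1
    rw [phi, h1, norm_zero, Real.zero_rpow (by positivity)]
    simp
  rw [h0]
  simp

/-- **`g ∈ J_s` implies `v(g) > s nu`** -/
theorem Ord.lt_of_InJ (hf : AnalyticAt ℂ f 0) {g : E3 → ℂ} (hg : AnalyticAt ℂ g 0) {v : F.I → ℕ}
    (hv : F.Ord g v) {s : ℝ} (hs : 0 < s) (hJ : InJ s f g) (i : F.I) : s * F.nu i < v i := by
  obtain ⟨r, hr, hfin⟩ := hJ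
  rw [Jint_eq] at hfin
  obtain ⟨c, rfl⟩ := F.surj i
  obtain ⟨G, hG, hG1, -⟩ := hv.2 c (0, 0) (F.mem_SF1 c (by simp))
  obtain ⟨z, ⟨hz1, hz2, hz3⟩, hz0⟩ := ((hG.good (hG1 rfl).1).and self_mem_nhdsWithin).exists
  have hz0' : z ≠ 0 := hz0
  have hpS : ((0 : ℂ), z) ∈ F.SF c := F.mem_SF1 c hz1.le
  obtain ⟨U, hU, hU0, hform⟩ := hz2.form hpS s
  obtain ⟨N, hN⟩ := F.mult
  -- lower bound of the density
  have hpos : 0 < ‖z‖ ^ (2 * F.ex' v s c - 2) * (‖G (0, z)‖ ^ (2 / s) * ‖U (0, z)‖ ^ 2) := by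
    have h1 : 0 < ‖z‖ := norm_pos_iff.2 hz0'
    have h2 : 0 < ‖G (0, z)‖ := norm_pos_iff.2 hz3
    have h3 : 0 < ‖U (0, z)‖ := norm_pos_iff.2 hU0
    exact mul_pos (Real.rpow_pos_of_pos h1 _) (mul_pos (Real.rpow_pos_of_pos h2 _) (by positivity))
  set m : ℝ := ‖z‖ ^ (2 * F.ex' v s c - 2) * (‖G (0, z)‖ ^ (2 / s) * ‖U (0, z)‖ ^ 2) / 2 with hm
  have hm0 : 0 < m := by rw [hm]; positivity
  have hlow : ∀ᶠ p in 𝓝 ((0 : ℂ), z),
      m < ‖p.2‖ ^ (2 * F.ex' v s c - 2) * (‖G p‖ ^ (2 / s) * ‖U p‖ ^ 2) := by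
    have h1 : ContinuousAt (fun p : ℂ × ℂ => ‖p.2‖ ^ (2 * F.ex' v s c - 2) *
        (‖G p‖ ^ (2 / s) * ‖U p‖ ^ 2)) (0, z) := by
      refine ContinuousAt.mul ?_ ((hz2.1.continuousAt.norm.rpow_const
        (Or.inr (by positivity))).mul (hU.continuousAt.norm.pow 2))
      exact continuousAt_snd.norm.rpow_const (Or.inl (norm_ne_zero_iff.2 hz0'))
    exact continuousAt_const.eventually_lt h1 (by rw [hm]; linarith)
  have hp2 : ∀ᶠ p in 𝓝 ((0 : ℂ), z), p.2 ≠ 0 := continuousAt_snd.eventually_ne hz0'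
  have hBD : ∀ᶠ p in 𝓝 ((0 : ℂ), z), p ∈ BD := by
    have h1 : ∀ᶠ p in 𝓝 ((0 : ℂ), z), ‖p.1‖ < 1 :=
      (continuousAt_fst.norm).eventually_lt continuousAt_const (by simp)
    have h2 : ∀ᶠ p in 𝓝 ((0 : ℂ), z), ‖p.2‖ < 1 :=
      (continuousAt_snd.norm).eventually_lt continuousAt_const (by simpa using hz1)
    filter_upwards [h1, h2] with p h3 h4 using ⟨h3.le, h4.le⟩
  have hbox : ∀ᶠ p in 𝓝 ((0 : ℂ), z), F.th c p ∈ Bx r := by
    have h1 : ContinuousAt (F.th c) (0, z) := (F.an c _ hpS.1).continuousAt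
    refine h1.eventually ((isOpen_Bx r).mem_nhds ?_)
    rw [F.th_SF hpS]
    intro i
    simpa using hr
  obtain ⟨δ, hδ, hball⟩ := Metric.eventually_nhds_iff_ball.1
    ((((hform.and hlow).and hp2).and (hBD.and hbox)).and (F.an_near hf hg hpS))
  set Q : Set (ℂ × ℂ) := (Metric.ball (0 : ℂ) δ ×ˢ Metric.ball z δ) ∩ {p | p.1 ≠ 0} with hQ
  have hQb : ∀ p ∈ Q, p ∈ Metric.ball ((0 : ℂ), z) δ := by
    intro p hp
    rw [← ball_prod_same]
    exact hp.1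
  have hQo : IsOpen Q := (Metric.isOpen_ball.prod Metric.isOpen_ball).inter
    (isOpen_ne_fun continuous_fst continuous_const)
  have hfacts := fun p (hp : p ∈ Q) => hball p (hQb p hp)
  have hQ1 : ∀ p ∈ Q, p.1 ≠ 0 := fun p hp => hp.2
  have hQ2 : ∀ p ∈ Q, p.2 ≠ 0 := fun p hp => (hfacts p hp).1.1.2
  have hQf : ∀ p ∈ Q, coordDeriv f 0 (F.th c p) ≠ 0 ∧ jac2 (F.th c) p ≠ 0 ∧
      ENNReal.ofReal m * ENNReal.ofReal (‖p.1‖ ^ (2 * F.ex v s c - 2)) ≤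
      ENNReal.ofReal (‖jac2 (F.th c) p‖ ^ 2) * phi s f g (F.th c p) := by
    intro p hp
    obtain ⟨⟨⟨⟨h1, h2⟩, -⟩, -⟩, -⟩ := hfacts p hp
    obtain ⟨h3, h4, h5⟩ := h1 (hQ1 p hp) (hQ2 p hp)
    refine ⟨h3, h4, ?_⟩
    rw [h5, ← ENNReal.ofReal_mul hm0.le]
    refine ENNReal.ofReal_le_ofReal ?_
    rw [mul_comm m, mul_assoc]
    exact mul_le_mul_of_nonneg_left h2.le (by positivity)
  have h1 := chart_le (θ := F.th c) (N := N) (r := r) (f := f) (phi s f g) (A := tw ⁻¹' Q)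
    (tw.continuous.measurable hQo.measurableSet)
    (fun y hy => (hfacts _ hy).2.1.differentiableAt)
    (fun y hy => (hQf _ hy).2.1)
    (phi_meas hs (fun y hy => (hfacts _ hy).2.1) (fun y hy => (hfacts _ hy).2.2.1)
      (fun y hy => (hfacts _ hy).2.2.2) (fun y hy => (hQf _ hy).1))
    (fun y hy => (hfacts _ hy).1.2.2) (fun y hy => F.onV c _ (hfacts _ hy).1.2.1)
    (fun y hy => (hQf _ hy).1)
    (fun x => by
      by_cases hx : x = 0
      · have : {y | y ∈ tw ⁻¹' Q ∧ F.th c (tw y) = x} = ∅ := by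
          ext y
          simp only [mem_setOf_eq, mem_empty_iff_false, iff_false, not_and]
          intro hy h0
          rw [hx, F.zero c _ (hfacts _ hy).1.2.1] at h0
          rcases h0.2 with h | h
          · exact hQ1 _ hy h
          · exact hQ2 _ hy h.2
        rw [this]; simp
      · refine le_trans ?_ (hN c x hx)
        rw [← tw.injective.injOn.encard_image (s := {y | y ∈ tw ⁻¹' Q ∧ F.th c (tw y) = x})]
        refine Set.encard_le_encard ?_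
        rintro _ ⟨y, hy, rfl⟩
        exact ⟨(hfacts _ hy.1).1.2.1, hy.2⟩)
  have h2 : ∫⁻ p in Q, ENNReal.ofReal (‖jac2 (F.th c) p‖ ^ 2) * phi s f g (F.th c p) < ⊤ := by
    rw [← Ord_757.lintegral_e2 Q (fun p =>
      ENNReal.ofReal (‖jac2 (F.th c) p‖ ^ 2) * phi s f g (F.th c p))]
    exact lt_of_le_of_lt h1 (ENNReal.mul_lt_top (ENNReal.natCast_lt_top N) hfin)
  have h3 : ∫⁻ p in Q, ENNReal.ofReal m * ENNReal.ofReal (‖p.1‖ ^ (2 * F.ex v s c - 2)) < ⊤ :=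
    lt_of_le_of_lt (setLIntegral_mono' hQo.measurableSet fun p hp => (hQf p hp).2.2) h2
  rw [lintegral_const_mul' _ _ ENNReal.ofReal_ne_top] at h3
  have h4 : ∫⁻ p in Q, ENNReal.ofReal (‖p.1‖ ^ (2 * F.ex v s c - 2)) < ⊤ := by
    by_contra hcon
    rw [not_lt_top_iff.1 hcon, ENNReal.mul_top (by
      rw [ne_eq, ENNReal.ofReal_eq_zero, not_le]; exact hm0)] at h3
    exact lt_irrefl _ h3
  -- remove the null set `p.1 = 0`
  have h5 : ∫⁻ p in Metric.ball (0 : ℂ) δ ×ˢ Metric.ball z δ,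
      ENNReal.ofReal (‖p.1‖ ^ (2 * F.ex v s c - 2)) < ⊤ := by
    have hnull : volume ({p : ℂ × ℂ | p.1 = 0}) = 0 := by
      have : {p : ℂ × ℂ | p.1 = 0} = {(0 : ℂ)} ×ˢ univ := by ext p; simp
      rw [this, Measure.volume_eq_prod, Measure.prod_prod]
      simp
    have h6 : (Metric.ball (0 : ℂ) δ ×ˢ Metric.ball z δ : Set (ℂ × ℂ)) ⊆ Q ∪ {p | p.1 = 0} := by
      intro p hp
      by_cases h : p.1 = 0
      · exact Or.inr h
      · exact Or.inl ⟨hp, h⟩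
    calc ∫⁻ p in Metric.ball (0 : ℂ) δ ×ˢ Metric.ball z δ,
          ENNReal.ofReal (‖p.1‖ ^ (2 * F.ex v s c - 2))
        ≤ ∫⁻ p in Q ∪ {p | p.1 = 0}, ENNReal.ofReal (‖p.1‖ ^ (2 * F.ex v s c - 2)) :=
          lintegral_mono_set h6
      _ ≤ (∫⁻ p in Q, ENNReal.ofReal (‖p.1‖ ^ (2 * F.ex v s c - 2))) +
          ∫⁻ p in {p : ℂ × ℂ | p.1 = 0}, ENNReal.ofReal (‖p.1‖ ^ (2 * F.ex v s c - 2)) :=
          lintegral_union_le _ _ _
      _ = (∫⁻ p in Q, ENNReal.ofReal (‖p.1‖ ^ (2 * F.ex v s c - 2))) + 0 := by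
          rw [setLIntegral_measure_zero _ _ hnull]
      _ < ⊤ := by rw [add_zero]; exact h4
  rw [Measure.volume_eq_prod, ← Measure.prod_restrict,
    lintegral_prod (fun p : ℂ × ℂ => ENNReal.ofReal (‖p.1‖ ^ (2 * F.ex v s c - 2)))
      (by fun_prop)] at h5
  simp only [lintegral_const] at h5
  rw [lintegral_mul_const' _ _ (by
    rw [Measure.restrict_apply MeasurableSet.univ, univ_inter]
    exact measure_ball_lt_top.ne)] at h5
  have h7 : ∫⁻ w in Metric.ball (0 : ℂ) δ, ENNReal.ofReal (‖w‖ ^ (2 * F.ex v s c - 2)) < ⊤ := by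
    by_contra hcon
    rw [not_lt_top_iff.1 hcon, ENNReal.top_mul (by
      rw [Measure.restrict_apply MeasurableSet.univ, univ_inter]
      exact (Metric.measure_ball_pos _ _ hδ).ne')] at h5
    exact lt_irrefl _ h5
  have h8 := int1_conv hδ h7
  unfold ex at h8
  rw [sub_pos, lt_div_iff₀ hs] at h8
  linarith

end Frame

end Crest.Agent.R257.Fr_808
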