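import Crest.Agent.R257.Fr4_808

/-!
R257 / Fr5_808: positivity of the least cycle `q` when `0 < mstar f`; the data `PairD` of a generic pair
and its consequences (E1), (E2), (E4) of `XF_157.Exact`.
-/

set_option autoImplicit false

open Topology Filter MeasureTheory Set Function
open Crest.AlgGeometry.Germ

noncomputable section

namespace Crest.Agent.R257.Fr_808

open Crest.Agent.R257.Defs_219
open Crest.Agent.R257.Gr1_157

/-- a unit among the generators -/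
theorem col_unit {n m : ℕ} {G : Fin m → (Fin n → ℂ) → ℂ} {j : Fin m} (hj : AnalyticAt ℂ (G j) 0)
    (h0 : G j 0 ≠ 0) : col G = 0 := by
  classical
  have h1 : gens G = ⊤ := by
    rw [eq_top_iff]
    rintro ⟨u, hu⟩ -
    refine ⟨fun i => if i = j then fun x => u x / G j x else fun _ => 0, fun i => ?_, ?_⟩
    · by_cases h : i = j
      · simp only [h, if_true]
        exact AnalyticAt.div hu hj h0
      · simp only [h, if_false]
        exact analyticAt_const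
    · filter_upwards [hj.continuousAt.eventually_ne h0] with x hx
      rw [Finset.sum_eq_single j]
      · simp only [if_true]
        field_simp
      · intro i _ hi
        simp [hi]
      · simp
  have h2 : Subsingleton (Quo G) := by
    exact Submodule.Quotient.subsingleton_iff.2 h1
  exact Module.finrank_zero_of_subsingleton

namespace Frame

variable {f : E3 → ℂ} {F : Frame f}

theorem Ord.toGe {g : E3 → ℂ} {v : F.I → ℕ} (h : F.Ord g v) : F.Ge g v := by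
  intro c p₀ hp
  obtain ⟨G, hG, -⟩ := h.2 c p₀ hp
  exact ⟨G, hG⟩

/-- if `nu ≤ 0` then everything vanishing at `0` is in all `J_a` -/
theorem InJ_of_nonpos (hf : AnalyticAt ℂ f 0) (hnu : ∀ i, F.nu i ≤ 0) {g : E3 → ℂ}
    (hg : AnalyticAt ℂ g 0) (h0 : g 0 = 0) {a : ℝ} (ha : 0 < a) : InJ a f g := by
  by_cases hne : ∃ᶠ x in 𝓝 (0 : E3), f x = 0 ∧ g x ≠ 0
  · obtain ⟨v, hv⟩ := F.exists_Ord hg hne
    refine InJ_of hf hg hv.toGe ha fun i => ?_
    have h1 : (F.nu i : ℝ) ≤ 0 := by exact_mod_cast hnu i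
    have h2 : (0 : ℝ) < v i := by exact_mod_cast hv.pos h0 i
    nlinarith
  · refine InJ_zero ha ?_
    rw [not_frequently] at hne
    filter_upwards [hne] with x hx hfx
    by_contra h
    exact hx ⟨hfx, h⟩

variable (F)

theorem exists_pos_nu (hf : Iso f) (hm : 0 < mstar f) : ∃ i, 0 < F.nu i := by
  by_contra hcon
  push Not at hcon
  have hne : (mset f).Nonempty := by
    by_contra h
    rw [Set.not_nonempty_iff_eq_empty] at h
    rw [mstar, h, Real.sInf_empty] at hm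
    exact lt_irrefl _ hm
  obtain ⟨c, a, b, ha, hb, g, h, hg, hh, hgJ, hhJ, hfin, rfl⟩ := hne
  have hle := mul_mstar_le ha hb hg hh hgJ hhJ hfin
  have hpos : 0 < (col ![f, g, h] : ℝ) := lt_of_lt_of_le (by positivity) hle
  have hg0 : g 0 = 0 := by
    by_contra h0
    have := col_unit (G := ![f, g, h]) (j := 1) hg h0
    rw [this] at hpos
    simp at hpos
  have hh0 : h 0 = 0 := by
    by_contra h0
    have := col_unit (G := ![f, g, h]) (j := 2) hh h0
    rw [this] at hpos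
    simp at hpos
  set C : ℝ := (col ![f, g, h] : ℝ) with hC
  set t : ℝ := max 1 ((C + 1) / mstar f) with ht
  have ht1 : 1 ≤ t := le_max_left _ _
  have ht2 : C + 1 ≤ t * mstar f := by
    rw [← div_le_iff₀ hm]
    exact le_max_right _ _
  have h1 := mul_mstar_le ht1 ht1 hg hh
    (F.InJ_of_nonpos hf.an hcon hg hg0 (by linarith))
    (F.InJ_of_nonpos hf.an hcon hh hh0 (by linarith)) hfin
  have h2 : t * mstar f ≤ t * t * mstar f := by
    have : 0 ≤ t * mstar f := by positivity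
    nlinarith
  linarith

variable {F}

/-- **positivity of `q`** -/
theorem IsP.pos (hf : Iso f) (hm : 0 < mstar f) {q : F.I → ℝ} (hq : F.IsP q) : ∀ i, 0 < q i := by
  obtain ⟨i₀, hi₀⟩ := F.exists_pos_nu hf hm
  refine pos_of_connected F.form F.conn hq.dg_le ?_
  intro h0
  have h1 := hq.ge i₀
  rw [h0] at h1
  have h2 : (0 : ℝ) < F.nu i₀ := by exact_mod_cast hi₀
  simp only [Pi.zero_apply] at h1
  linarith

variable (F)

/-- a generic pair of sections of `k q` -/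
structure PairD (q : F.I → ℝ) (k : ℕ) (m : F.I → ℕ) (g h : E3 → ℂ) : Prop where
  isP : F.IsP q
  pos : ∀ i, 0 < q i
  k2 : 2 ≤ k
  hm : ∀ i, (m i : ℝ) = k * q i
  ang : AnalyticAt ℂ g 0
  anh : AnalyticAt ℂ h 0
  loc : ∀ c, ∀ p₀ ∈ F.SF c, ∃ G H, F.Fac g m c p₀ G ∧ F.Fac h m c p₀ H ∧
    (G p₀ ≠ 0 ∨ H p₀ ≠ 0 ∧
      ((p₀.1 = 0 ∧ p₀.2 ≠ 0 ∧ deriv (fun z => G (0, z)) p₀.2 ≠ 0) ∨
        (F.e2 c ≠ none ∧ p₀.2 = 0 ∧ p₀.1 ≠ 0 ∧ deriv (fun z => G (z, 0)) p₀.1 ≠ 0)))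

variable {F}

theorem PairD.m_pos {q : F.I → ℝ} {k : ℕ} {m : F.I → ℕ} {g h : E3 → ℂ} (P : F.PairD q k m g h)
    (i : F.I) : 0 < m i := by
  have h1 := P.hm i
  have h2 := P.pos i
  have h3 : (0 : ℝ) < k := by
    have := P.k2
    have : 0 < k := by omega
    exact_mod_cast this
  have h4 : (0 : ℝ) < m i := by rw [h1]; positivity
  exact_mod_cast h4

theorem Fac.vanish {g : E3 → ℂ} {m : F.I → ℕ} (hm : ∀ i, 0 < m i) (hg : F.Ge g m)
    (hI : Nonempty F.I) : g 0 = 0 := by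
  obtain ⟨i⟩ := hI
  obtain ⟨c, hc⟩ := F.surj i
  obtain ⟨G, hG⟩ := hg c (0, 0) (F.mem_SF1 c (by simp))
  have h1 := hG.2.self_of_nhds
  rw [F.th_SF (F.mem_SF1 c (by simp)), mo] at h1
  rw [h1, zero_pow (hm _).ne']
  simp

theorem PairD.geg {q : F.I → ℝ} {k : ℕ} {m : F.I → ℕ} {g h : E3 → ℂ} (P : F.PairD q k m g h) :
    F.Ge g m := fun c p₀ hp => by
  obtain ⟨G, H, hG, hH, -⟩ := P.loc c p₀ hp
  exact ⟨G, hG⟩

theorem PairD.geh {q : F.I → ℝ} {k : ℕ} {m : F.I → ℕ} {g h : E3 → ℂ} (P : F.PairD q k m g h) :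
    F.Ge h m := fun c p₀ hp => by
  obtain ⟨G, H, hG, hH, -⟩ := P.loc c p₀ hp
  exact ⟨H, hH⟩

/-- `|g| + |h|` is comparable with the monomial from below -/
theorem PairD.low {q : F.I → ℝ} {k : ℕ} {m : F.I → ℕ} {g h : E3 → ℂ} (P : F.PairD q k m g h)
    {c : F.K} {p₀ : ℂ × ℂ} (hp : p₀ ∈ F.SF c) : ∃ b : ℝ, 0 < b ∧
      ∀ᶠ p in 𝓝 p₀, b * ‖F.mo m c p‖ ≤ ‖g (F.th c p)‖ + ‖h (F.th c p)‖ := by
  obtain ⟨G, H, hG, hH, hor⟩ := P.loc c p₀ hp
  have h0 : 0 < ‖G p₀‖ + ‖H p₀‖ := by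
    rcases hor with h1 | ⟨h1, -⟩
    · have := norm_pos_iff.2 h1
      have := norm_nonneg (H p₀)
      linarith
    · have := norm_pos_iff.2 h1
      have := norm_nonneg (G p₀)
      linarith
  have hc : ContinuousAt (fun p => ‖G p‖ + ‖H p‖) p₀ :=
    hG.1.continuousAt.norm.add hH.1.continuousAt.norm
  refine ⟨(‖G p₀‖ + ‖H p₀‖) / 2, by positivity, ?_⟩
  have h1 : ∀ᶠ p in 𝓝 p₀, (‖G p₀‖ + ‖H p₀‖) / 2 < ‖G p‖ + ‖H p‖ :=
    continuousAt_const.eventually_lt hc (by linarith)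
  filter_upwards [h1, hG.2, hH.2] with p h2 h3 h4
  rw [h3, h4, norm_mul, norm_mul, ← mul_add, mul_comm]
  exact mul_le_mul_of_nonneg_left h2.le (norm_nonneg _)

/-- comparison of monomials -/
theorem mo_cmp {v m : F.I → ℕ} {a : ℝ} (ha : 0 ≤ a) {k : ℕ}
    (h : ∀ i, a * m i ≤ k * v i) (c : F.K) {p : ℂ × ℂ} (hp : p ∈ BD) :
    ‖F.mo v c p‖ ^ k ≤ ‖F.mo m c p‖ ^ a := by
  have hpow : ∀ {x : ℝ} (_ : 0 ≤ x) (_ : x ≤ 1) {s t : ℕ}, a * t ≤ k * s →
      (x ^ s) ^ k ≤ (x ^ t) ^ a := by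
    intro x hx hx1 s t hst
    rw [← pow_mul, ← Real.rpow_natCast, ← Real.rpow_natCast, ← Real.rpow_mul hx]
    refine Real.rpow_le_rpow_of_exponent_ge' hx hx1 (by positivity) ?_
    push_cast
    nlinarith
  unfold mo
  rw [norm_mul, norm_mul, norm_pow, norm_pow, norm_pow, norm_pow, mul_pow,
    Real.mul_rpow (by positivity) (by positivity)]
  refine mul_le_mul (hpow (norm_nonneg _) hp.1 (h _)) (hpow (norm_nonneg _) hp.2 ?_)
    (by positivity) (by positivity)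
  rcases h2 : F.e2 c with _ | i
  · simp [ex2]
  · exact h i

/-- (E4) -/
theorem PairD.e4 {q : F.I → ℝ} {k : ℕ} {m : F.I → ℕ} {g h : E3 → ℂ} (P : F.PairD q k m g h) :
    ∀ᶠ x in 𝓝 (0 : E3), f x = 0 → g x = 0 → h x = 0 → x = 0 := by
  have h1 := F.glob' (fun x => ¬ (g x = 0 ∧ h x = 0)) (fun c p₀ hp => by
    obtain ⟨b, hb, hlow⟩ := P.low hp
    filter_upwards [hlow] with p h1 h2 h3 h4
    rw [h4.1, h4.2, norm_zero, add_zero] at h1
    have h5 : 0 < ‖F.mo m c p‖ := norm_pos_iff.2 (F.mo_ne m h2 h3)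
    have : 0 < b * ‖F.mo m c p‖ := by positivity
    linarith)
  filter_upwards [h1] with x hx hfx hgx hhx
  by_contra h0
  exact hx h0 hfx ⟨hgx, hhx⟩

/-- (E1) -/
theorem InJ_of_ge (hf : AnalyticAt ℂ f 0) {q : F.I → ℝ} (hq : F.IsP q) (hpos : ∀ i, 0 < q i)
    {k : ℕ} {m : F.I → ℕ} (hm : ∀ i, (m i : ℝ) = k * q i) {g : E3 → ℂ} (hg : AnalyticAt ℂ g 0)
    (hge : F.Ge g m) {p : ℝ} (hp : 1 ≤ p) (hpk : p < k) : InJ p f g := by
  refine InJ_of hf hg hge (by linarith) fun i => ?_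
  rw [hm i]
  have h1 := hq.ge i
  have h2 := hpos i
  rcases le_or_gt (F.nu i : ℝ) 0 with h3 | h3
  · have : p * (F.nu i : ℝ) ≤ 0 := mul_nonpos_of_nonneg_of_nonpos (by linarith) h3
    have : 0 < (k : ℝ) * q i := mul_pos (by linarith) h2
    linarith
  · have : p * (F.nu i : ℝ) < k * F.nu i := mul_lt_mul_of_pos_right hpk h3
    have : (k : ℝ) * F.nu i ≤ k * q i := mul_le_mul_of_nonneg_left h1 (by linarith)
    linarith

/-- orders of the elements of `J_a` -/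
theorem Ord.ge_of_InJ (hf : AnalyticAt ℂ f 0) {q : F.I → ℝ} (hq : F.IsP q) {u : E3 → ℂ}
    (hu : AnalyticAt ℂ u 0) {v : F.I → ℕ} (hv : F.Ord u v) {a : ℝ} (ha : 1 ≤ a)
    (h1 : a = 1 → InJ 1 f u) (h2 : ∀ p : ℝ, 1 ≤ p → p < a → InJ p f u) (i : F.I) :
    a * q i ≤ v i := by
  have hge : ∀ i, (F.nu i : ℝ) ≤ a⁻¹ * v i := by
    intro i
    rw [inv_mul_eq_div, le_div_iff₀ (by linarith)]
    rcases eq_or_lt_of_le ha with h | h
    · have := hv.lt_of_InJ hf hu one_pos (h1 h.symm) i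
      rw [← h]; linarith
    · rcases le_or_gt (F.nu i : ℝ) 0 with h3 | h3
      · have h4 : (F.nu i : ℝ) * a ≤ 0 := mul_nonpos_of_nonpos_of_nonneg h3 (by linarith)
        have h5 : (0 : ℝ) ≤ v i := Nat.cast_nonneg _
        linarith
      · by_contra hcon
        push Not at hcon
        have h4 : (v i : ℝ) / F.nu i < a := by rw [div_lt_iff₀ h3]; linarith
        have h5 := hv.lt_of_InJ hf hu (s := max 1 ((v i : ℝ) / F.nu i))
          (lt_of_lt_of_le one_pos (le_max_left _ _))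
          (h2 _ (le_max_left _ _) (max_lt h h4)) i
        have h6 : (v i : ℝ) / F.nu i * F.nu i ≤ max 1 ((v i : ℝ) / F.nu i) * F.nu i :=
          mul_le_mul_of_nonneg_right (le_max_right _ _) h3.le
        rw [div_mul_cancel₀ _ h3.ne'] at h6
        linarith
  have hdg : ∀ i, dg F.M (fun i => a⁻¹ * (v i : ℝ)) i ≤ 0 := by
    intro i
    have h3 := dg_smul (M := F.M) a⁻¹ (fun i => (v i : ℝ)) i
    have h4 : (a⁻¹ • (fun i => (v i : ℝ))) = fun i => a⁻¹ * (v i : ℝ) := rfl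
    rw [h4] at h3
    rw [h3]
    exact mul_nonpos_of_nonneg_of_nonpos (by positivity) (hv.1 i)
  have h3 := hq.least hge hdg i
  rw [inv_mul_eq_div, le_div_iff₀ (by linarith)] at h3
  linarith

/-- (E2) -/
theorem PairD.e2 (hf : AnalyticAt ℂ f 0) (hI : Nonempty F.I) {q : F.I → ℝ} {k : ℕ}
    {m : F.I → ℕ} {g h : E3 → ℂ} (P : F.PairD q k m g h) {a : ℝ} (ha : 1 ≤ a) {u : E3 → ℂ}
    (hu : AnalyticAt ℂ u 0) (h1 : a = 1 → InJ 1 f u) (h2 : ∀ p : ℝ, 1 ≤ p → p < a → InJ p f u) :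
    ∃ C r : ℝ, 0 < r ∧ ∀ x, ‖x‖ < r → f x = 0 → ‖u x‖ ^ k ≤ C * (‖g x‖ + ‖h x‖) ^ a := by
  have hk : k ≠ 0 := by have := P.k2; omega
  by_cases hne : ∃ᶠ x in 𝓝 (0 : E3), f x = 0 ∧ u x ≠ 0
  · obtain ⟨v, hv⟩ := F.exists_Ord hu hne
    have hord := hv.ge_of_InJ hf P.isP hu ha h1 h2
    have hle : ∀ i, a * m i ≤ k * v i := by
      intro i
      rw [P.hm i]
      have h3 := mul_le_mul_of_nonneg_left (hord i) (Nat.cast_nonneg (α := ℝ) k)
      linarith
    have hvpos : ∀ i, 0 < v i := by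
      intro i
      have h3 := hord i
      have h4 := P.pos i
      have h5 : 0 < a * q i := by positivity
      have h6 : (0 : ℝ) < v i := lt_of_lt_of_le h5 h3
      exact_mod_cast h6
    obtain ⟨C, hC⟩ := F.glob (fun C x => ‖u x‖ ^ k ≤ C * (‖g x‖ + ‖h x‖) ^ a)
      (fun C C' x hCC h => h.trans (mul_le_mul_of_nonneg_right hCC (by positivity)))
      (fun c p₀ hp => by
        obtain ⟨b, hb, hlow⟩ := P.low hp
        obtain ⟨U, hU⟩ := hv.toGe c p₀ hp
        have hUb : ∀ᶠ p in 𝓝 p₀, ‖U p‖ < ‖U p₀‖ + 1 :=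
          hU.1.continuousAt.norm.eventually_lt continuousAt_const (by simp)
        refine ⟨(‖U p₀‖ + 1) ^ k / b ^ a, ?_⟩
        filter_upwards [hlow, hU.2, hUb] with p h3 h4 h5 hpB _
        have hba : 0 < b ^ a := Real.rpow_pos_of_pos hb a
        have e1 : (b * ‖F.mo m c p‖) ^ a ≤ (‖g (F.th c p)‖ + ‖h (F.th c p)‖) ^ a :=
          Real.rpow_le_rpow (by positivity) h3 (by linarith)
        rw [Real.mul_rpow hb.le (norm_nonneg _)] at e1
        have e2 := F.mo_cmp (by linarith : 0 ≤ a) hle c hpB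
        calc ‖u (F.th c p)‖ ^ k = ‖F.mo v c p‖ ^ k * ‖U p‖ ^ k := by
              rw [h4, norm_mul, mul_pow]
          _ ≤ ‖F.mo m c p‖ ^ a * (‖U p₀‖ + 1) ^ k :=
              mul_le_mul e2 (pow_le_pow_left₀ (norm_nonneg _) h5.le k) (by positivity)
                (by positivity)
          _ = (‖U p₀‖ + 1) ^ k / b ^ a * (b ^ a * ‖F.mo m c p‖ ^ a) := by
              field_simp
          _ ≤ _ := mul_le_mul_of_nonneg_left e1 (by positivity))
    obtain ⟨r, hr, hball⟩ := Metric.eventually_nhds_iff_ball.1 hC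
    refine ⟨C, r, hr, fun x hx hfx => ?_⟩
    by_cases hx0 : x = 0
    · have hu0 : u 0 = 0 := Fac.vanish hvpos hv.toGe hI
      have hg0 : g 0 = 0 := Fac.vanish P.m_pos P.geg hI
      have hh0 : h 0 = 0 := Fac.vanish P.m_pos P.geh hI
      rw [hx0, hu0, hg0, hh0, norm_zero, zero_pow hk, add_zero,
        Real.zero_rpow (by linarith), mul_zero]
    · exact hball x (by simpa using hx) hx0 hfx
  · rw [not_frequently] at hne
    obtain ⟨r, hr, hball⟩ := Metric.eventually_nhds_iff_ball.1 hne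
    refine ⟨0, r, hr, fun x hx hfx => ?_⟩
    have h3 : u x = 0 := by
      by_contra h
      exact hball x (by simpa using hx) ⟨hfx, h⟩
    rw [h3, norm_zero, zero_pow hk, zero_mul]

end Frame

end Crest.Agent.R257.Fr_808
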