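import Crest.Agent.R257.Fr5_808

/-!
R257 / Fr6_808: generic pairs (Bertini through Sard).

* `bertini1` : in a finite family of holomorphic functions of one variable, one of which has no zeros,
  the general linear combination has only simple zeros (open dense set of coefficients);
* `Frame.exists_pair` : base point freeness gives a generic pair `PairD`.
-/

set_option autoImplicit false

open Topology Filter MeasureTheory Set Function
open Crest.AlgGeometry.Germ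

noncomputable section

namespace Crest.Agent.R257.Fr_808

open Crest.Agent.R257.Defs_219
open Crest.Agent.R257.Gr1_157

section OneVar

variable {J : Type} [Fintype J]

/-- the good coefficients -/
def goodC (K : Set ℂ) (γ : J → ℂ → ℂ) : Set (J → ℂ) :=
  {l | ∀ z ∈ K, ∑ j, l j * γ j z ≠ 0 ∨ ∑ j, l j * deriv (γ j) z ≠ 0}

theorem goodC_open {U K : Set ℂ} (hU : IsOpen U) (hK : IsCompact K) (hKU : K ⊆ U)
    {γ : J → ℂ → ℂ} (hγ : ∀ j, DifferentiableOn ℂ (γ j) U) : IsOpen (goodC K γ) := by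
  rw [isOpen_iff_eventually]
  intro l hl
  refine hK.eventually_forall_of_forall_eventually (P := fun (l : J → ℂ) (z : ℂ) =>
    ∑ j, l j * γ j z ≠ 0 ∨ ∑ j, l j * deriv (γ j) z ≠ 0) fun z hz => ?_
  have hc : ∀ {δ : J → ℂ → ℂ}, (∀ j, ContinuousAt (δ j) z) →
      ContinuousAt (fun p : (J → ℂ) × ℂ => ∑ j, p.1 j * δ j p.2) (l, z) := by
    intro δ hδ
    refine tendsto_finset_sum _ fun j _ => ?_
    have h1 : ContinuousAt (fun p : (J → ℂ) × ℂ => p.1 j) (l, z) :=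
      ((continuous_apply j).comp continuous_fst).continuousAt
    have h2 : ContinuousAt (fun p : (J → ℂ) × ℂ => δ j p.2) (l, z) :=
      ContinuousAt.comp (f := fun p : (J → ℂ) × ℂ => p.2) (g := δ j) (hδ j) continuousAt_snd
    exact h1.mul h2
  have hzU : U ∈ 𝓝 z := hU.mem_nhds (hKU hz)
  rcases hl z hz with h | h
  · filter_upwards [(hc fun j => (hγ j).continuousOn.continuousAt hzU).eventually_ne h] with p hp
    exact Or.inl hp
  · filter_upwards [(hc fun j => ((hγ j).deriv hU).continuousOn.continuousAt hzU).eventually_ne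
      h] with p hp
    exact Or.inr hp

theorem goodC_dense {U K : Set ℂ} (hU : IsOpen U) (hKU : K ⊆ U)
    {γ : J → ℂ → ℂ} (hγ : ∀ j, DifferentiableOn ℂ (γ j) U) {j₀ : J}
    (h0 : ∀ z ∈ U, γ j₀ z ≠ 0) : Dense (goodC K γ) := by
  classical
  intro l
  set A : ℂ → ℂ := fun z => ∑ j, l j * γ j z with hA
  have hAd : ∀ z ∈ U, HasDerivAt A (∑ j, l j * deriv (γ j) z) z := by
    intro z hz
    refine HasDerivAt.fun_sum fun j _ => ?_
    exact ((hγ j).differentiableAt (hU.mem_nhds hz)).hasDerivAt.const_mul (l j)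
  set Φ : ℂ → ℂ := fun z => - A z / γ j₀ z with hΦ
  set s : Set ℂ := {z | z ∈ U ∧ deriv Φ z = 0} with hs
  have hΦd : ∀ z ∈ U, HasDerivAt Φ ((-(∑ j, l j * deriv (γ j) z) * γ j₀ z -
      (- A z) * deriv (γ j₀) z) / (γ j₀ z) ^ 2) z := by
    intro z hz
    exact (hAd z hz).neg.div ((hγ j₀).differentiableAt (hU.mem_nhds hz)).hasDerivAt (h0 z hz)
  have hnull : volume (Φ '' s) = 0 := by
    refine addHaar_image_eq_zero_of_det_fderivWithin_eq_zero (volume : Measure ℂ)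
      (f' := fun _ => (0 : ℂ →L[ℝ] ℂ)) (fun z hz => ?_) (fun z _ => ?_)
    · have h1 : HasDerivAt Φ 0 z := by
        have h2 := (hΦd z hz.1).differentiableAt.hasDerivAt
        rwa [hz.2] at h2
      have h3 : HasFDerivAt Φ (0 : ℂ →L[ℂ] ℂ) z := by
        have h4 := h1.hasFDerivAt
        have h5 : ContinuousLinearMap.toSpanSingleton ℂ (0 : ℂ) = (0 : ℂ →L[ℂ] ℂ) := by
          ext; simp
        rwa [h5] at h4
      exact (h3.restrictScalars ℝ).hasFDerivWithinAt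
    · simp [ContinuousLinearMap.det]
  have hdense : Dense {t : ℂ | t ∉ Φ '' s} :=
    Measure.dense_of_ae (measure_eq_zero_iff_ae_notMem.1 hnull)
  set τ : ℂ → (J → ℂ) := fun t => l + Pi.single j₀ t with hτ
  have hτc : Continuous τ := by
    refine continuous_const.add ?_
    exact continuous_single (A := fun _ : J => ℂ) j₀
  have hτ0 : τ 0 = l := by simp [hτ]
  have hsub : {t : ℂ | t ∉ Φ '' s} ⊆ τ ⁻¹' (goodC K γ) := by
    intro t ht z hz
    by_contra hcon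
    push Not at hcon
    obtain ⟨h1, h2⟩ := hcon
    have hzU := hKU hz
    have hexp : ∀ δ : J → ℂ, ∑ j, τ t j * δ j = ∑ j, l j * δ j + t * δ j₀ := by
      intro δ
      simp only [hτ, Pi.add_apply, add_mul, Finset.sum_add_distrib]
      congr 1
      rw [Finset.sum_eq_single j₀]
      · simp
      · intro j _ hj
        rw [Pi.single_eq_of_ne hj, zero_mul]
      · simp
    rw [hexp] at h1 h2
    apply ht
    have h3 : A z = - (t * γ j₀ z) := by
      rw [hA]; linear_combination h1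
    refine ⟨z, ⟨hzU, ?_⟩, ?_⟩
    · rw [(hΦd z hzU).deriv, h3]
      have h4 : ∑ j, l j * deriv (γ j) z = - (t * deriv (γ j₀) z) := by
        linear_combination h2
      rw [h4]
      have h5 : (-(-(t * deriv (γ j₀) z)) * γ j₀ z - -(-(t * γ j₀ z)) * deriv (γ j₀) z) = 0 := by
        ring
      rw [h5, zero_div]
    · rw [hΦ]
      simp only
      rw [h3, neg_neg, mul_div_assoc, div_self (h0 z hzU), mul_one]
  have h6 : (0 : ℂ) ∈ closure (τ ⁻¹' (goodC K γ)) := closure_mono hsub (hdense 0)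
  have h7 := hτc.continuousAt.continuousWithinAt.mem_closure_image h6
  rw [hτ0] at h7
  exact closure_mono (image_preimage_subset _ _) h7

/-- the point version -/
theorem point_good {d : J → ℂ} {j₀ : J} (h0 : d j₀ ≠ 0) :
    IsOpen {l : J → ℂ | ∑ j, l j * d j ≠ 0} ∧ Dense {l : J → ℂ | ∑ j, l j * d j ≠ 0} := by
  have h1 : {l : J → ℂ | ∑ j, l j * d j ≠ 0} = goodC {(0 : ℂ)} (fun j _ => d j) := by
    ext l
    simp [goodC]
  rw [h1]
  exact ⟨goodC_open isOpen_univ isCompact_singleton (subset_univ _)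
      (fun j => differentiableOn_const _),
    goodC_dense isOpen_univ (subset_univ _) (fun j => differentiableOn_const _)
      (j₀ := j₀) (fun _ _ => h0)⟩

end OneVar

namespace Frame

variable {f : E3 → ℂ} (F : Frame f)

/-- linear combination -/
def comb {J : Type} [Fintype J] (γ : J → E3 → ℂ) (l : J → ℂ) (x : E3) : ℂ := ∑ j, l j * γ j x

variable {F}

theorem Fac.comb {J : Type} [Fintype J] {γ : J → E3 → ℂ} {m : F.I → ℕ} {c : F.K} {p : ℂ × ℂ}
    {G : J → ℂ × ℂ → ℂ} (h : ∀ j, F.Fac (γ j) m c p (G j)) (l : J → ℂ) :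
    F.Fac (comb γ l) m c p (fun p => ∑ j, l j * G j p) := by
  refine ⟨?_, ?_⟩
  · exact Finset.analyticAt_fun_sum _ fun j _ => analyticAt_const.mul (h j).1
  · have h1 : ∀ᶠ p' in 𝓝 p, ∀ j, γ j (F.th c p') = F.mo m c p' * G j p' :=
      Filter.eventually_all.2 fun j => (h j).2
    filter_upwards [h1] with p' hp'
    rw [Frame.comb, Finset.mul_sum]
    refine Finset.sum_congr rfl fun j _ => ?_
    rw [hp' j]; ring

variable (F)

/-- simple zero on the special fibre, at a smooth point -/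
def Sm (c : F.K) (p : ℂ × ℂ) (G : ℂ × ℂ → ℂ) : Prop :=
  (p.1 = 0 ∧ p.2 ≠ 0 ∧ deriv (fun z => G (0, z)) p.2 ≠ 0) ∨
    (F.e2 c ≠ none ∧ p.2 = 0 ∧ p.1 ≠ 0 ∧ deriv (fun z => G (z, 0)) p.1 ≠ 0)

theorem diff1 {G : ℂ × ℂ → ℂ} {z : ℂ} (h : AnalyticAt ℂ G (0, z)) :
    DifferentiableAt ℂ (fun z => G (0, z)) z := by
  have h2 : DifferentiableAt ℂ (fun z : ℂ => ((0 : ℂ), z)) z := by fun_prop
  exact DifferentiableAt.comp (g := G) (f := fun z : ℂ => ((0 : ℂ), z)) z h.differentiableAt h2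

theorem diff2 {G : ℂ × ℂ → ℂ} {z : ℂ} (h : AnalyticAt ℂ G (z, 0)) :
    DifferentiableAt ℂ (fun z => G (z, 0)) z := by
  have h2 : DifferentiableAt ℂ (fun z : ℂ => (z, (0 : ℂ))) z := by fun_prop
  exact DifferentiableAt.comp (g := G) (f := fun z : ℂ => (z, (0 : ℂ))) z h.differentiableAt h2

variable {F}

/-- first function: simple zeros -/
theorem gen1 {J : Type} [Fintype J] {γ : J → E3 → ℂ} {m : F.I → ℕ} (hge : ∀ j, F.Ge (γ j) m)
    (hgen : ∀ c, ∀ p ∈ F.SF c, ∃ j, F.Gen (γ j) m c p) (c : F.K) :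
    ∃ O : Set (J → ℂ), IsOpen O ∧ Dense O ∧ ∀ l ∈ O, ∀ p ∈ F.SF c,
      ∃ G, F.Fac (comb γ l) m c p G ∧ (G p ≠ 0 ∨ F.Sm c p G) := by
  suffices h : ∃ O : Set (J → ℂ), IsOpen O ∧ Dense O ∧ ∀ l ∈ O, ∀ p ∈ F.SF c, p ∈ F.SF c →
      ∃ G, F.Fac (comb γ l) m c p G ∧ (G p ≠ 0 ∨ F.Sm c p G) by
    obtain ⟨O, h1, h2, h3⟩ := h
    exact ⟨O, h1, h2, fun l hl p hp => h3 l hl p hp hp⟩
  refine (F.isCompact_SF c).induction_on
    (p := fun t => ∃ O : Set (J → ℂ), IsOpen O ∧ Dense O ∧ ∀ l ∈ O, ∀ p ∈ t, p ∈ F.SF c →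
      ∃ G, F.Fac (comb γ l) m c p G ∧ (G p ≠ 0 ∨ F.Sm c p G)) ?_ ?_ ?_ ?_
  · exact ⟨univ, isOpen_univ, dense_univ, fun _ _ p hp => absurd hp (notMem_empty p)⟩
  · rintro s t hst ⟨O, h1, h2, h3⟩
    exact ⟨O, h1, h2, fun l hl p hp => h3 l hl p (hst hp)⟩
  · rintro s t ⟨O, h1, h2, h3⟩ ⟨O', h1', h2', h3'⟩
    refine ⟨O ∩ O', h1.inter h1', h2.inter_of_isOpen_left h2' h1, ?_⟩
    rintro l ⟨hl, hl'⟩ p (hp | hp)
    · exact h3 l hl p hp
    · exact h3' l hl' p hp
  · intro p₀ hp₀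
    have hex : ∀ j, ∃ G, F.Fac (γ j) m c p₀ G := fun j => hge j c p₀ hp₀
    choose G hG using hex
    obtain ⟨j₀, G', hG', hG'0⟩ := hgen c p₀ hp₀
    have hG0 : G j₀ p₀ ≠ 0 := by rw [(hG j₀).unique hG']; exact hG'0
    have hev : ∀ᶠ p in 𝓝 p₀, (∀ j, F.Fac (γ j) m c p (G j)) ∧ G j₀ p ≠ 0 :=
      (Filter.eventually_all.2 fun j => (hG j).eventually).and
        ((hG j₀).1.continuousAt.eventually_ne hG0)
    obtain ⟨δ, hδ, hball⟩ := Metric.eventually_nhds_iff_ball.1 hev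
    set K1 : Set ℂ := {z | ((0 : ℂ), z) ∈ Metric.closedBall p₀ (δ / 2)} with hK1
    set U1 : Set ℂ := {z | ((0 : ℂ), z) ∈ Metric.ball p₀ δ} with hU1
    set K2 : Set ℂ := {z | (z, (0 : ℂ)) ∈ Metric.closedBall p₀ (δ / 2)} with hK2
    set U2 : Set ℂ := {z | (z, (0 : ℂ)) ∈ Metric.ball p₀ δ} with hU2
    have hcb : Metric.closedBall p₀ (δ / 2) ⊆ Metric.ball p₀ δ :=
      Metric.closedBall_subset_ball (by linarith)
    have hK1c : IsCompact K1 := by
      refine (isCompact_closedBall p₀.2 (δ / 2)).of_isClosed_subset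
        (Metric.isClosed_closedBall.preimage (by fun_prop : Continuous fun z : ℂ =>
          ((0 : ℂ), z))) fun z hz => ?_
      have h1 : dist ((0 : ℂ), z) p₀ ≤ δ / 2 := hz
      rw [Metric.mem_closedBall]
      exact (le_max_right _ _).trans h1
    have hK2c : IsCompact K2 := by
      refine (isCompact_closedBall p₀.1 (δ / 2)).of_isClosed_subset
        (Metric.isClosed_closedBall.preimage (by fun_prop : Continuous fun z : ℂ =>
          (z, (0 : ℂ)))) fun z hz => ?_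
      have h1 : dist (z, (0 : ℂ)) p₀ ≤ δ / 2 := hz
      rw [Metric.mem_closedBall]
      exact (le_max_left _ _).trans h1
    have hU1o : IsOpen U1 := Metric.isOpen_ball.preimage (by fun_prop : Continuous fun z : ℂ =>
          ((0 : ℂ), z))
    have hU2o : IsOpen U2 := Metric.isOpen_ball.preimage (by fun_prop : Continuous fun z : ℂ =>
          (z, (0 : ℂ)))
    have hd1 : ∀ j, DifferentiableOn ℂ (fun z => G j (0, z)) U1 := fun j z hz =>
      (diff1 ((hball _ hz).1 j).1).differentiableWithinAt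
    have hd2 : ∀ j, DifferentiableOn ℂ (fun z => G j (z, 0)) U2 := fun j z hz =>
      (diff2 ((hball _ hz).1 j).1).differentiableWithinAt
    set O1 := goodC K1 (fun j z => G j (0, z)) with hO1
    set O2 := goodC K2 (fun j z => G j (z, 0)) with hO2
    have hO1o : IsOpen O1 := goodC_open hU1o hK1c (fun z hz => hcb hz) hd1
    have hO2o : IsOpen O2 := goodC_open hU2o hK2c (fun z hz => hcb hz) hd2
    have hO1d : Dense O1 := goodC_dense hU1o (fun z hz => hcb hz) hd1 (j₀ := j₀)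
      fun z hz => (hball _ hz).2
    have hO2d : Dense O2 := goodC_dense hU2o (fun z hz => hcb hz) hd2 (j₀ := j₀)
      fun z hz => (hball _ hz).2
    obtain ⟨O3, hO3o, hO3d, hO3⟩ : ∃ O3 : Set (J → ℂ), IsOpen O3 ∧ Dense O3 ∧
        (((0 : ℂ), (0 : ℂ)) ∈ Metric.closedBall p₀ (δ / 2) → ∀ l ∈ O3,
          ∑ j, l j * G j (0, 0) ≠ 0) := by
      by_cases h : ((0 : ℂ), (0 : ℂ)) ∈ Metric.closedBall p₀ (δ / 2)
      · have h1 := point_good (d := fun j => G j (0, 0)) (j₀ := j₀) (hball _ (hcb h)).2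
        exact ⟨_, h1.1, h1.2, fun _ l hl => hl⟩
      · exact ⟨univ, isOpen_univ, dense_univ, fun h' => absurd h' h⟩
    refine ⟨Metric.closedBall p₀ (δ / 2), mem_nhdsWithin_of_mem_nhds
      (Metric.closedBall_mem_nhds p₀ (by linarith)), O1 ∩ O2 ∩ O3, (hO1o.inter hO2o).inter hO3o,
      (hO1d.inter_of_isOpen_left hO2d hO1o).inter_of_isOpen_left hO3d (hO1o.inter hO2o), ?_⟩
    rintro l ⟨⟨hl1, hl2⟩, hl3⟩ p hp hpS
    have hfac := (hball p (hcb hp)).1
    refine ⟨fun p => ∑ j, l j * G j p, Fac.comb hfac l, ?_⟩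
    by_cases h1 : p.1 = 0
    · have hpe : p = (0, p.2) := Prod.ext h1 rfl
      have hz : p.2 ∈ K1 := by
        show ((0 : ℂ), p.2) ∈ Metric.closedBall p₀ (δ / 2)
        rw [← hpe]; exact hp
      rcases hl1 p.2 hz with h2 | h2
      · left
        rw [hpe]; exact h2
      · by_cases h3 : p.2 = 0
        · left
          have hp0 : p = (0, 0) := Prod.ext h1 h3
          rw [hp0]
          rw [hp0] at hp
          exact hO3 hp l hl3
        · right; left
          refine ⟨h1, h3, ?_⟩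
          have h4 : HasDerivAt (fun z => ∑ j, l j * G j (0, z))
              (∑ j, l j * deriv (fun z => G j (0, z)) p.2) p.2 := by
            refine HasDerivAt.fun_sum fun j _ => ?_
            refine HasDerivAt.const_mul (l j) ?_
            exact ((hd1 j).differentiableAt (hU1o.mem_nhds (hcb hz))).hasDerivAt
          rw [h4.deriv]
          exact h2
    · rcases hpS.2 with h2 | ⟨h2, h3⟩
      · exact absurd h2 h1
      · have hpe : p = (p.1, 0) := Prod.ext rfl h3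
        have hz : p.1 ∈ K2 := by
          show (p.1, (0 : ℂ)) ∈ Metric.closedBall p₀ (δ / 2)
          rw [← hpe]; exact hp
        rcases hl2 p.1 hz with h4 | h4
        · left
          rw [hpe]; exact h4
        · right; right
          refine ⟨h2, h3, h1, ?_⟩
          have h5 : HasDerivAt (fun z => ∑ j, l j * G j (z, 0))
              (∑ j, l j * deriv (fun z => G j (z, 0)) p.1) p.1 := by
            refine HasDerivAt.fun_sum fun j _ => ?_
            refine HasDerivAt.const_mul (l j) ?_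
            exact ((hd2 j).differentiableAt (hU2o.mem_nhds (hcb hz))).hasDerivAt
          rw [h5.deriv]
          exact h4

/-- second function: non zero at the zeros of the first -/
theorem gen2 {J : Type} [Fintype J] {γ : J → E3 → ℂ} {m : F.I → ℕ} (hge : ∀ j, F.Ge (γ j) m)
    (hgen : ∀ c, ∀ p ∈ F.SF c, ∃ j, F.Gen (γ j) m c p) (c : F.K) {g : E3 → ℂ}
    (hg : ∀ p ∈ F.SF c, ∃ G, F.Fac g m c p G ∧ (G p ≠ 0 ∨ F.Sm c p G)) :
    ∃ O : Set (J → ℂ), IsOpen O ∧ Dense O ∧ ∀ l ∈ O, ∀ p ∈ F.SF c,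
      ∃ G H, F.Fac g m c p G ∧ F.Fac (comb γ l) m c p H ∧ (G p ≠ 0 ∨ H p ≠ 0 ∧ F.Sm c p G) := by
  suffices h : ∃ O : Set (J → ℂ), IsOpen O ∧ Dense O ∧ ∀ l ∈ O, ∀ p ∈ F.SF c, p ∈ F.SF c →
      ∃ G H, F.Fac g m c p G ∧ F.Fac (comb γ l) m c p H ∧ (G p ≠ 0 ∨ H p ≠ 0 ∧ F.Sm c p G) by
    obtain ⟨O, h1, h2, h3⟩ := h
    exact ⟨O, h1, h2, fun l hl p hp => h3 l hl p hp hp⟩
  -- some factorisation of the second function exists everywhere
  have hH : ∀ l : J → ℂ, ∀ p ∈ F.SF c, ∃ H, F.Fac (comb γ l) m c p H := by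
    intro l p hp
    choose H hH using fun j => hge j c p hp
    exact ⟨_, Fac.comb hH l⟩
  refine (F.isCompact_SF c).induction_on
    (p := fun t => ∃ O : Set (J → ℂ), IsOpen O ∧ Dense O ∧ ∀ l ∈ O, ∀ p ∈ t, p ∈ F.SF c →
      ∃ G H, F.Fac g m c p G ∧ F.Fac (comb γ l) m c p H ∧ (G p ≠ 0 ∨ H p ≠ 0 ∧ F.Sm c p G))
      ?_ ?_ ?_ ?_
  · exact ⟨univ, isOpen_univ, dense_univ, fun _ _ p hp => absurd hp (notMem_empty p)⟩
  · rintro s t hst ⟨O, h1, h2, h3⟩
    exact ⟨O, h1, h2, fun l hl p hp => h3 l hl p (hst hp)⟩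
  · rintro s t ⟨O, h1, h2, h3⟩ ⟨O', h1', h2', h3'⟩
    refine ⟨O ∩ O', h1.inter h1', h2.inter_of_isOpen_left h2' h1, ?_⟩
    rintro l ⟨hl, hl'⟩ p (hp | hp)
    · exact h3 l hl p hp
    · exact h3' l hl' p hp
  · intro p₀ hp₀
    obtain ⟨G, hG, hor⟩ := hg p₀ hp₀
    by_cases hG0 : G p₀ ≠ 0
    · refine ⟨{p | F.Fac g m c p G ∧ G p ≠ 0}, mem_nhdsWithin_of_mem_nhds
        (hG.eventually.and (hG.1.continuousAt.eventually_ne hG0)), univ, isOpen_univ, dense_univ,
        fun l _ p hp hpS => ?_⟩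
      obtain ⟨H, hH'⟩ := hH l p hpS
      exact ⟨G, H, hp.1, hH', Or.inl hp.2⟩
    · have hSm : F.Sm c p₀ G := hor.resolve_left hG0
      -- near `p₀` the only zero on the special fibre is `p₀`
      have hiso : ∀ᶠ p in 𝓝 p₀, p ∈ F.SF c → p ≠ p₀ → G p ≠ 0 := by
        have hG0' : G p₀ = 0 := not_not.1 hG0
        rcases hSm with ⟨h1, h2, h3⟩ | ⟨h0, h1, h2, h3⟩
        · have hpe : p₀ = (0, p₀.2) := Prod.ext h1 rfl
          have hda : DifferentiableAt ℂ (fun z => G (0, z)) p₀.2 := by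
            refine diff1 ?_
            rw [← hpe]; exact hG.1
          have h4 : ∀ᶠ z in 𝓝[≠] p₀.2, G (0, z) ≠ 0 := hda.hasDerivAt.eventually_ne h3
          rw [eventually_nhdsWithin_iff] at h4
          have h5 : ∀ᶠ p : ℂ × ℂ in 𝓝 p₀, p.2 ∈ ({p₀.2} : Set ℂ)ᶜ → G (0, p.2) ≠ 0 :=
            continuousAt_snd.eventually h4
          have h6 : ∀ᶠ p : ℂ × ℂ in 𝓝 p₀, p.2 ≠ 0 := continuousAt_snd.eventually_ne h2
          filter_upwards [h5, h6] with p h7 h8 hpS hne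
          have h9 : p.1 = 0 := by
            rcases hpS.2 with h | h
            · exact h
            · exact absurd h.2 h8
          have hpe' : p = (0, p.2) := Prod.ext h9 rfl
          rw [hpe']
          refine h7 fun h10 => hne ?_
          have h11 : p.2 = p₀.2 := h10
          rw [hpe', hpe, h11]
        · have hpe : p₀ = (p₀.1, 0) := Prod.ext rfl h1
          have hda : DifferentiableAt ℂ (fun z => G (z, 0)) p₀.1 := by
            refine diff2 ?_
            rw [← hpe]; exact hG.1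
          have h4 : ∀ᶠ z in 𝓝[≠] p₀.1, G (z, 0) ≠ 0 := hda.hasDerivAt.eventually_ne h3
          rw [eventually_nhdsWithin_iff] at h4
          have h5 : ∀ᶠ p : ℂ × ℂ in 𝓝 p₀, p.1 ∈ ({p₀.1} : Set ℂ)ᶜ → G (p.1, 0) ≠ 0 :=
            continuousAt_fst.eventually h4
          have h6 : ∀ᶠ p : ℂ × ℂ in 𝓝 p₀, p.1 ≠ 0 := continuousAt_fst.eventually_ne h2
          filter_upwards [h5, h6] with p h7 h8 hpS hne
          have h9 : p.2 = 0 := by
            rcases hpS.2 with h | h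
            · exact absurd h h8
            · exact h.2
          have hpe' : p = (p.1, 0) := Prod.ext rfl h9
          rw [hpe']
          refine h7 fun h10 => hne ?_
          have h11 : p.1 = p₀.1 := h10
          rw [hpe', hpe, h11]
      choose Hj hHj using fun j => hge j c p₀ hp₀
      obtain ⟨j₀, G', hG', hG'0⟩ := hgen c p₀ hp₀
      have hHj0 : Hj j₀ p₀ ≠ 0 := by rw [(hHj j₀).unique hG']; exact hG'0
      have hpg := point_good (d := fun j => Hj j p₀) (j₀ := j₀) hHj0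
      refine ⟨{p | F.Fac g m c p G ∧ (p ∈ F.SF c → p ≠ p₀ → G p ≠ 0)},
        mem_nhdsWithin_of_mem_nhds (hG.eventually.and hiso), _, hpg.1, hpg.2,
        fun l hl p hp hpS => ?_⟩
      by_cases hpp : p = p₀
      · rw [hpp]
        exact ⟨G, _, hG, Fac.comb hHj l, Or.inr ⟨hl, hSm⟩⟩
      · obtain ⟨H, hH'⟩ := hH l p hpS
        exact ⟨G, H, hp.1, hH', Or.inl (hp.2 hpS hpp)⟩

/-- a finite base point free family -/
theorem fin_family {m : F.I → ℕ} (hb : ∀ c, ∀ p₀ ∈ F.SF c, ∃ g : E3 → ℂ, AnalyticAt ℂ g 0 ∧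
    F.Ge g m ∧ F.Gen g m c p₀) : ∃ (J : Type) (_ : Fintype J) (γ : J → E3 → ℂ),
      (∀ j, AnalyticAt ℂ (γ j) 0) ∧ (∀ j, F.Ge (γ j) m) ∧
      ∀ c, ∀ p ∈ F.SF c, ∃ j, F.Gen (γ j) m c p := by
  have key : ∀ c, ∃ S : Set (E3 → ℂ), S.Finite ∧ (∀ g ∈ S, AnalyticAt ℂ g 0 ∧ F.Ge g m) ∧
      ∀ p ∈ F.SF c, ∃ g ∈ S, F.Gen g m c p := by
    intro c
    refine (F.isCompact_SF c).induction_on
      (p := fun t => ∃ S : Set (E3 → ℂ), S.Finite ∧ (∀ g ∈ S, AnalyticAt ℂ g 0 ∧ F.Ge g m) ∧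
        ∀ p ∈ t, ∃ g ∈ S, F.Gen g m c p) ?_ ?_ ?_ ?_
    · exact ⟨∅, finite_empty, by simp, by simp⟩
    · rintro s t hst ⟨S, h1, h2, h3⟩
      exact ⟨S, h1, h2, fun p hp => h3 p (hst hp)⟩
    · rintro s t ⟨S, h1, h2, h3⟩ ⟨S', h1', h2', h3'⟩
      refine ⟨S ∪ S', h1.union h1', ?_, ?_⟩
      · rintro g (hg | hg)
        · exact h2 g hg
        · exact h2' g hg
      · rintro p (hp | hp)
        · obtain ⟨g, hg, hgen⟩ := h3 p hp
          exact ⟨g, Or.inl hg, hgen⟩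
        · obtain ⟨g, hg, hgen⟩ := h3' p hp
          exact ⟨g, Or.inr hg, hgen⟩
    · intro p₀ hp₀
      obtain ⟨g, hg, hge, G, hG, hG0⟩ := hb c p₀ hp₀
      refine ⟨{p | F.Fac g m c p G ∧ G p ≠ 0}, mem_nhdsWithin_of_mem_nhds
        (hG.eventually.and (hG.1.continuousAt.eventually_ne hG0)), {g}, finite_singleton g, ?_, ?_⟩
      · rintro g' hg'
        rw [mem_singleton_iff] at hg'
        rw [hg']
        exact ⟨hg, hge⟩
      · intro p hp
        exact ⟨g, rfl, G, hp.1, hp.2⟩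
  choose S hS1 hS2 hS3 using key
  have hfin : (⋃ c, S c).Finite := finite_iUnion hS1
  have : Finite (⋃ c, S c : Set (E3 → ℂ)) := hfin.to_subtype
  refine ⟨(⋃ c, S c : Set (E3 → ℂ)), Fintype.ofFinite _, fun g => g.1, ?_, ?_, ?_⟩
  · rintro ⟨g, hg⟩
    obtain ⟨c, hc⟩ := mem_iUnion.1 hg
    exact (hS2 c g hc).1
  · rintro ⟨g, hg⟩
    obtain ⟨c, hc⟩ := mem_iUnion.1 hg
    exact (hS2 c g hc).2
  · intro c p hp
    obtain ⟨g, hg, hgen⟩ := hS3 c p hp
    exact ⟨⟨g, mem_iUnion.2 ⟨c, hg⟩⟩, hgen⟩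

theorem comb_an {J : Type} [Fintype J] {γ : J → E3 → ℂ} (h : ∀ j, AnalyticAt ℂ (γ j) 0)
    (l : J → ℂ) : AnalyticAt ℂ (comb γ l) 0 :=
  Finset.analyticAt_fun_sum _ fun j _ => analyticAt_const.mul (h j)

/-- **generic pair** -/
theorem exists_pair {q : F.I → ℝ} {k : ℕ} {m : F.I → ℕ} (hq : F.IsP q) (hpos : ∀ i, 0 < q i)
    (hk : 2 ≤ k) (hm : ∀ i, (m i : ℝ) = k * q i)
    (hb : ∀ c, ∀ p₀ ∈ F.SF c, ∃ g : E3 → ℂ, AnalyticAt ℂ g 0 ∧ F.Ge g m ∧ F.Gen g m c p₀) :
    ∃ g h, F.PairD q k m g h := by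
  obtain ⟨J, _, γ, hγ, hge, hgen⟩ := fin_family hb
  choose O hO1 hO2 hO3 using fun c => gen1 (γ := γ) hge hgen c
  obtain ⟨l, hl⟩ := (dense_iInter_of_isOpen hO1 hO2).nonempty
  rw [mem_iInter] at hl
  choose O' hO1' hO2' hO3' using fun c => gen2 (γ := γ) hge hgen c
    (g := comb γ l) (hO3 c l (hl c))
  obtain ⟨l', hl'⟩ := (dense_iInter_of_isOpen hO1' hO2').nonempty
  rw [mem_iInter] at hl'
  exact ⟨comb γ l, comb γ l', ⟨hq, hpos, hk, hm, comb_an hγ l, comb_an hγ l',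
    fun c p₀ hp => hO3' c l' (hl' c) p₀ hp⟩⟩

end Frame

end Crest.Agent.R257.Fr_808
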