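import Crest.Agent.R257.Fr6_808

/-!
R257 / Fr7_808: the Jacobian determinant `Dt f g h` in charts, (JU) and (E3).
-/

set_option autoImplicit false

open Topology Filter MeasureTheory Set Function
open Crest.AlgGeometry.Germ

noncomputable section

namespace Crest.Agent.R257.Fr_808

open Crest.Agent.R257.Defs_219
open Crest.Agent.R257.Gr1_157
open Crest.Agent.R257.Det_219 (fderiv_sum dt_an)

/-- the Jacobian determinant of two functions on `ℂ × ℂ` -/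
def jc (u w : ℂ × ℂ → ℂ) (p : ℂ × ℂ) : ℂ :=
  fderiv ℂ u p (1, 0) * fderiv ℂ w p (0, 1) - fderiv ℂ u p (0, 1) * fderiv ℂ w p (1, 0)

/-- `∂₀f · Jac(g∘θ, h∘θ) = Dt f g h · Jac(θ₁, θ₂)` -/
theorem jc_eq {f g h : E3 → ℂ} {θ : ℂ × ℂ → E3} {p : ℂ × ℂ} (hθ : DifferentiableAt ℂ θ p)
    (hf : DifferentiableAt ℂ f (θ p)) (hg : DifferentiableAt ℂ g (θ p))
    (hh : DifferentiableAt ℂ h (θ p)) (hz : ∀ᶠ p' in 𝓝 p, f (θ p') = 0) :
    coordDeriv f 0 (θ p) * jc (fun p => g (θ p)) (fun p => h (θ p)) p =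
      Dt f g h (θ p) * jac2 θ p := by
  have hc : ∀ {u : E3 → ℂ}, DifferentiableAt ℂ u (θ p) → ∀ v : ℂ × ℂ,
      fderiv ℂ (fun p => u (θ p)) p v = fderiv ℂ θ p v 0 * coordDeriv u 0 (θ p) +
        (fderiv ℂ θ p v 1 * coordDeriv u 1 (θ p) + fderiv ℂ θ p v 2 * coordDeriv u 2 (θ p)) := by
    intro u hu v
    have h1 : HasFDerivAt (fun p => u (θ p)) ((fderiv ℂ u (θ p)).comp (fderiv ℂ θ p)) p :=
      hu.hasFDerivAt.comp p hθ.hasFDerivAt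
    rw [h1.fderiv, ContinuousLinearMap.comp_apply, fderiv_sum, Fin.sum_univ_succ,
      Fin.sum_univ_two]
    rfl
  have hf0 : ∀ v : ℂ × ℂ, fderiv ℂ (fun p => f (θ p)) p v = 0 := by
    intro v
    have h1 : (fun p => f (θ p)) =ᶠ[𝓝 p] fun _ => (0 : ℂ) := hz
    rw [h1.fderiv_eq]
    simp
  have e1 := hf0 (1, 0)
  have e2 := hf0 (0, 1)
  rw [hc hf] at e1 e2
  rw [jc, hc hg, hc hg, hc hh, hc hh, jac2, Dt, Matrix.det_fin_three]
  simp only [Matrix.of_apply, Matrix.cons_val_zero, Matrix.cons_val_one, Matrix.cons_val, gr]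
  linear_combination
    ((coordDeriv g 0 (θ p) * coordDeriv h 1 (θ p) - coordDeriv g 1 (θ p) * coordDeriv h 0 (θ p)) *
      fderiv ℂ θ p (0, 1) 1 +
    (coordDeriv g 0 (θ p) * coordDeriv h 2 (θ p) - coordDeriv g 2 (θ p) * coordDeriv h 0 (θ p)) *
      fderiv ℂ θ p (0, 1) 2) * e1 -
    ((coordDeriv g 0 (θ p) * coordDeriv h 1 (θ p) - coordDeriv g 1 (θ p) * coordDeriv h 0 (θ p)) *
      fderiv ℂ θ p (1, 0) 1 +
    (coordDeriv g 0 (θ p) * coordDeriv h 2 (θ p) - coordDeriv g 2 (θ p) * coordDeriv h 0 (θ p)) *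
      fderiv ℂ θ p (1, 0) 2) * e2

/-- the remaining factor -/
def Rf (a : ℕ) (G H : ℂ × ℂ → ℂ) (p : ℂ × ℂ) : ℂ :=
  p.1 * (fderiv ℂ G p (1, 0) * fderiv ℂ H p (0, 1) - fderiv ℂ G p (0, 1) * fderiv ℂ H p (1, 0)) +
    a * (G p * fderiv ℂ H p (0, 1) - fderiv ℂ G p (0, 1) * H p)

theorem Rf_an {a : ℕ} {G H : ℂ × ℂ → ℂ} {p : ℂ × ℂ} (hG : AnalyticAt ℂ G p)
    (hH : AnalyticAt ℂ H p) : AnalyticAt ℂ (Rf a G H) p := by
  have hd : ∀ {G : ℂ × ℂ → ℂ} (_ : AnalyticAt ℂ G p) (v : ℂ × ℂ),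
      AnalyticAt ℂ (fun p => fderiv ℂ G p v) p := by
    intro G hG v
    have h1 : AnalyticAt ℂ (fderiv ℂ G) p := hG.fderiv
    have h2 := (ContinuousLinearMap.apply ℂ ℂ v).analyticAt (fderiv ℂ G p)
    exact h2.comp h1
  unfold Rf
  exact (analyticAt_fst.mul (((hd hG _).mul (hd hH _)).sub ((hd hG _).mul (hd hH _)))).add
    (analyticAt_const.mul ((hG.mul (hd hH _)).sub ((hd hG _).mul hH)))

/-- derivative of `p.1 ^ a * G` -/
theorem fderiv_powmul {a : ℕ} {G : ℂ × ℂ → ℂ} {p : ℂ × ℂ} (hG : DifferentiableAt ℂ G p)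
    (v : ℂ × ℂ) : fderiv ℂ (fun p : ℂ × ℂ => p.1 ^ a * G p) p v =
      a * p.1 ^ (a - 1) * v.1 * G p + p.1 ^ a * fderiv ℂ G p v := by
  have h1 : HasFDerivAt (fun p : ℂ × ℂ => p.1 ^ a)
      ((a * p.1 ^ (a - 1)) • ContinuousLinearMap.fst ℂ ℂ ℂ) p := by
    have := (hasFDerivAt_fst (𝕜 := ℂ) (p := p) (E := ℂ) (F := ℂ)).pow a
    simpa using this
  have h2 : HasFDerivAt (fun p : ℂ × ℂ => p.1 ^ a * G p) _ p := h1.mul hG.hasFDerivAt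
  rw [h2.fderiv]
  simp only [ContinuousLinearMap.add_apply, ContinuousLinearMap.smul_apply,
    ContinuousLinearMap.coe_fst', smul_eq_mul]
  ring

theorem jc_powmul {a : ℕ} {G H : ℂ × ℂ → ℂ} {p : ℂ × ℂ} (hG : DifferentiableAt ℂ G p)
    (hH : DifferentiableAt ℂ H p) (hp : p.1 ≠ 0) :
    jc (fun p => p.1 ^ a * G p) (fun p => p.1 ^ a * H p) p =
      p.1 ^ (2 * (a : ℤ) - 1) * Rf a G H p := by
  have e1 : p.1 ^ (2 * (a : ℤ) - 1) = p.1 ^ a * p.1 ^ a * (p.1)⁻¹ := by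
    rw [zpow_sub_one₀ hp, two_mul, zpow_add₀ hp, zpow_natCast]
  rw [jc, fderiv_powmul hG, fderiv_powmul hG, fderiv_powmul hH, fderiv_powmul hH, e1, Rf]
  rcases Nat.eq_zero_or_pos a with ha | ha
  · subst ha
    simp only [Nat.cast_zero, zero_mul, pow_zero, zero_add, one_mul, add_zero]
    field_simp
  · have e2 : p.1 ^ a = p.1 * p.1 ^ (a - 1) := by
      rw [← pow_succ']; congr 1; omega
    rw [e2]
    field_simp
    ring

/-- `Dt` at a smooth point of the special fibre -/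
theorem dt_loc {f g h : E3 → ℂ} {θ : ℂ × ℂ → E3} {p₁ : ℂ × ℂ} (hθ : AnalyticAt ℂ θ p₁)
    (hf : AnalyticAt ℂ f (θ p₁)) (hg : AnalyticAt ℂ g (θ p₁)) (hh : AnalyticAt ℂ h (θ p₁))
    (hz : ∀ᶠ p in 𝓝 p₁, f (θ p) = 0) {ν : ℤ} {U : ℂ × ℂ → ℂ}
    (hj : ∀ᶠ p in 𝓝 p₁, p.1 ≠ 0 → coordDeriv f 0 (θ p) ≠ 0 ∧
      jac2 θ p = coordDeriv f 0 (θ p) * p.1 ^ (-ν - 1) * U p)
    {a : ℕ} {G H : ℂ × ℂ → ℂ} (hG : AnalyticAt ℂ G p₁) (hH : AnalyticAt ℂ H p₁)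
    (hgG : ∀ᶠ p in 𝓝 p₁, g (θ p) = p.1 ^ a * G p)
    (hhH : ∀ᶠ p in 𝓝 p₁, h (θ p) = p.1 ^ a * H p) :
    ∀ᶠ p in 𝓝 p₁, p.1 ≠ 0 →
      Dt f g h (θ p) * U p = p.1 ^ (2 * (a : ℤ) + ν) * Rf a G H p := by
  have hcont := hθ.continuousAt
  filter_upwards [hj, hθ.eventually_analyticAt, hcont.eventually hf.eventually_analyticAt,
    hcont.eventually hg.eventually_analyticAt, hcont.eventually hh.eventually_analyticAt,
    hz.eventually_nhds, hG.eventually_analyticAt, hH.eventually_analyticAt,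
    hgG.eventually_nhds, hhH.eventually_nhds] with p h1 h2 h3 h4 h5 h6 h7 h8 h9 h10 hp
  obtain ⟨h11, h12⟩ := h1 hp
  have e1 := jc_eq h2.differentiableAt h3.differentiableAt h4.differentiableAt
    h5.differentiableAt h6
  have e2 : jc (fun p => g (θ p)) (fun p => h (θ p)) p =
      jc (fun p => p.1 ^ a * G p) (fun p => p.1 ^ a * H p) p := by
    have h13 : (fun p => g (θ p)) =ᶠ[𝓝 p] (fun p => p.1 ^ a * G p) := h9
    have h14 : (fun p => h (θ p)) =ᶠ[𝓝 p] (fun p => p.1 ^ a * H p) := h10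
    rw [jc, jc, h13.fderiv_eq, h14.fderiv_eq]
  rw [e2, jc_powmul h7.differentiableAt h8.differentiableAt hp, h12] at e1
  have e3 : p.1 ^ (2 * (a : ℤ) - 1) * Rf a G H p =
      Dt f g h (θ p) * (p.1 ^ (-ν - 1) * U p) := by
    refine mul_left_cancel₀ h11 ?_
    rw [e1]; ring
  have e4 : p.1 ^ (2 * (a : ℤ) + ν) = p.1 ^ (2 * (a : ℤ) - 1) * p.1 ^ (ν + 1) := by
    rw [← zpow_add₀ hp]; congr 1; ring
  have e5 : p.1 ^ (-ν - 1) * p.1 ^ (ν + 1) = 1 := by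
    rw [← zpow_add₀ hp]; simp
  rw [e4]
  calc Dt f g h (θ p) * U p = Dt f g h (θ p) * U p * (p.1 ^ (-ν - 1) * p.1 ^ (ν + 1)) := by
        rw [e5, mul_one]
    _ = (Dt f g h (θ p) * (p.1 ^ (-ν - 1) * U p)) * p.1 ^ (ν + 1) := by ring
    _ = _ := by rw [← e3]; ring

/-- comparison of orders, integer exponents -/
theorem ord_le' {H H' : ℂ × ℂ → ℂ} {p₁ : ℂ × ℂ} (h1 : p₁.1 = 0) {n m : ℤ}
    (hH : ContinuousAt H p₁) (hne : H p₁ ≠ 0) (hH' : ContinuousAt H' p₁)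
    (h : ∀ᶠ p in 𝓝 p₁, p.1 ≠ 0 → p.1 ^ n * H p = p.1 ^ m * H' p) : m ≤ n := by
  by_contra hlt
  push Not at hlt
  obtain ⟨l, hl⟩ : ∃ l : ℕ, m - n = (l : ℤ) + 1 := ⟨(m - n - 1).toNat, by omega⟩
  have h2 : ContinuousAt (fun p : ℂ × ℂ => H p - p.1 ^ (l + 1) * H' p) p₁ :=
    hH.sub ((continuousAt_fst.pow _).mul hH')
  have h3 : ∀ᶠ p in 𝓝 p₁, H p - p.1 ^ (l + 1) * H' p ≠ 0 := by
    refine h2.eventually_ne ?_
    rw [h1, zero_pow (by omega), zero_mul, sub_zero]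
    exact hne
  obtain ⟨p, hp1, hp2, hp3⟩ := ((freq1 p₁).and_eventually (h3.and h)).exists
  apply hp2
  have h4 : p.1 ^ m = p.1 ^ n * p.1 ^ (l + 1) := by
    rw [← zpow_natCast, ← zpow_add₀ hp1]; congr 1; push_cast; omega
  have h5 := hp3 hp1
  rw [h4, mul_assoc] at h5
  exact sub_eq_zero.2 (mul_left_cancel₀ (zpow_ne_zero n hp1) h5)

/-- lower bound of `Dt` at a simple zero of the leading coefficient of `g` -/
theorem dt_low {f g h : E3 → ℂ} {θ : ℂ × ℂ → E3} {p₁ : ℂ × ℂ} (h1 : p₁.1 = 0)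
    (hθ : AnalyticAt ℂ θ p₁)
    (hf : AnalyticAt ℂ f (θ p₁)) (hg : AnalyticAt ℂ g (θ p₁)) (hh : AnalyticAt ℂ h (θ p₁))
    (hz : ∀ᶠ p in 𝓝 p₁, f (θ p) = 0) {ν : ℤ} {U : ℂ × ℂ → ℂ} (hU : ContinuousAt U p₁)
    (hj : ∀ᶠ p in 𝓝 p₁, p.1 ≠ 0 → coordDeriv f 0 (θ p) ≠ 0 ∧
      jac2 θ p = coordDeriv f 0 (θ p) * p.1 ^ (-ν - 1) * U p)
    {a : ℕ} (ha : 0 < a) {G H : ℂ × ℂ → ℂ} (hG : AnalyticAt ℂ G p₁) (hH : AnalyticAt ℂ H p₁)
    (hgG : ∀ᶠ p in 𝓝 p₁, g (θ p) = p.1 ^ a * G p)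
    (hhH : ∀ᶠ p in 𝓝 p₁, h (θ p) = p.1 ^ a * H p)
    (hG0 : G p₁ = 0) (hG' : fderiv ℂ G p₁ (0, 1) ≠ 0) (hH0 : H p₁ ≠ 0) :
    ∃ b : ℝ, 0 < b ∧ ∀ᶠ p in 𝓝 p₁, p.1 ≠ 0 →
      b * ‖p.1‖ ^ (2 * (a : ℤ) + ν) ≤ ‖Dt f g h (θ p)‖ := by
  have hR0 : Rf a G H p₁ ≠ 0 := by
    rw [Rf, h1, hG0]
    simp only [zero_mul, zero_add, zero_sub]
    have : (a : ℂ) ≠ 0 := by exact_mod_cast ha.ne'
    exact mul_ne_zero this (neg_ne_zero.2 (mul_ne_zero hG' hH0))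
  have hRpos : 0 < ‖Rf a G H p₁‖ := norm_pos_iff.2 hR0
  have hev1 : ∀ᶠ p in 𝓝 p₁, ‖Rf a G H p₁‖ / 2 < ‖Rf a G H p‖ :=
    continuousAt_const.eventually_lt (Rf_an hG hH).continuousAt.norm (by linarith)
  have hev2 : ∀ᶠ p in 𝓝 p₁, ‖U p‖ < ‖U p₁‖ + 1 :=
    hU.norm.eventually_lt continuousAt_const (by simp)
  refine ⟨‖Rf a G H p₁‖ / 2 / (‖U p₁‖ + 1), by positivity, ?_⟩
  filter_upwards [hev1, hev2, dt_loc hθ hf hg hh hz hj hG hH hgG hhH] with p h2 h3 h4 hp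
  have h5 := congrArg norm (h4 hp)
  rw [norm_mul, norm_mul, norm_zpow] at h5
  have hx : 0 < ‖p.1‖ ^ (2 * (a : ℤ) + ν) := zpow_pos (norm_pos_iff.2 hp) _
  have hU1 : 0 < ‖U p₁‖ + 1 := by positivity
  rw [div_mul_eq_mul_div, div_le_iff₀ hU1]
  calc ‖Rf a G H p₁‖ / 2 * ‖p.1‖ ^ (2 * (a : ℤ) + ν)
      ≤ ‖Rf a G H p‖ * ‖p.1‖ ^ (2 * (a : ℤ) + ν) := mul_le_mul_of_nonneg_right h2.le hx.le
    _ = ‖Dt f g h (θ p)‖ * ‖U p‖ := by rw [h5]; ring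
    _ ≤ _ := mul_le_mul_of_nonneg_left h3.le (norm_nonneg _)

theorem dt0_an {f g h : E3 → ℂ} {x : E3} (hf : AnalyticAt ℂ f x) (hg : AnalyticAt ℂ g x)
    (hh : AnalyticAt ℂ h x) : AnalyticAt ℂ (Dt f g h) x := by
  obtain ⟨U, hU, hUo, hx⟩ := _root_.eventually_nhds_iff.1
    (hf.eventually_analyticAt.and (hg.eventually_analyticAt.and hh.eventually_analyticAt))
  exact dt_an (U := U) (fun y hy => (hU y hy).1) (fun y hy => (hU y hy).2.1)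
    (fun y hy => (hU y hy).2.2) x hx

namespace Frame

variable {f : E3 → ℂ} (F : Frame f)

/-- `f ∘ th = 0` in a full neighbourhood of the special fibre -/
theorem onV' (hf : AnalyticAt ℂ f 0) {c : F.K} {p₀ : ℂ × ℂ} (hp : p₀ ∈ F.SF c) :
    ∀ᶠ p in 𝓝 p₀, f (F.th c p) = 0 := by
  have hev := F.an_near hf hf hp
  obtain ⟨δ, hδ, hball⟩ := Metric.eventually_nhds_iff_ball.1 hev
  have hA : AnalyticOnNhd ℂ (fun p => f (F.th c p)) (Metric.ball p₀ δ) := fun p hp' =>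
    AnalyticAt.comp (g := f) (f := F.th c) (hball p hp').2.1 (hball p hp').1
  -- an interior point
  set t : ℝ := min (1 / 2) (δ / 4) with ht
  have ht0 : 0 < t := by positivity
  have ht1 : t ≤ 1 / 2 := min_le_left _ _
  have ht2 : t ≤ δ / 4 := min_le_right _ _
  set p₂ : ℂ × ℂ := (1 - t) • p₀ with hp₂
  have hn : ‖p₀‖ ≤ 1 := max_le hp.1.1 hp.1.2
  have hp₂b : p₂ ∈ Metric.ball p₀ δ := by
    rw [mem_ball_iff_norm, hp₂]
    have : (1 - t) • p₀ - p₀ = -(t • p₀) := by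
      rw [sub_smul, one_smul]; abel
    rw [this, norm_neg, norm_smul, Real.norm_eq_abs, abs_of_pos ht0]
    nlinarith
  have hp₂n : ‖p₂‖ < 1 := by
    rw [hp₂, norm_smul, Real.norm_eq_abs, abs_of_pos (by linarith)]
    nlinarith [norm_nonneg p₀]
  have h0 : ∀ᶠ p in 𝓝 p₂, f (F.th c p) = 0 := by
    have : ∀ᶠ p in 𝓝 p₂, ‖p‖ < 1 := continuousAt_id.norm.eventually_lt continuousAt_const hp₂n
    filter_upwards [this] with p hp'
    exact F.onV c p ⟨(norm_fst_le p).trans hp'.le, (norm_snd_le p).trans hp'.le⟩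
  have h2 := hA.eqOn_zero_of_preconnected_of_eventuallyEq_zero
    (convex_ball p₀ δ).isPreconnected hp₂b h0
  filter_upwards [Metric.ball_mem_nhds p₀ hδ] with p hp' using h2 hp'

variable {F}

/-- the data at a point of `{α = 0}`, `β ≠ 0` -/
theorem smooth1 {c : F.K} {p₁ : ℂ × ℂ} (hp : p₁ ∈ F.SF c) (h2 : p₁.2 ≠ 0) :
    ∃ U : ℂ × ℂ → ℂ, AnalyticAt ℂ U p₁ ∧ U p₁ ≠ 0 ∧ ∀ᶠ p in 𝓝 p₁, p.1 ≠ 0 →
      coordDeriv f 0 (F.th c p) ≠ 0 ∧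
      jac2 (F.th c) p = coordDeriv f 0 (F.th c p) * p.1 ^ (-F.nu (F.e1 c) - 1) * U p := by
  obtain ⟨U, hU, hU0, hj⟩ := F.jac c p₁ hp
  refine ⟨fun p => p.2 ^ (-F.nu2 c - 1) * U p, (analyticAt_snd.zpow h2).mul hU,
    mul_ne_zero (zpow_ne_zero _ h2) hU0, ?_⟩
  filter_upwards [hj, continuousAt_snd.eventually_ne h2] with p h3 h4 h5
  obtain ⟨h6, h7⟩ := h3 h5 h4
  exact ⟨h6, by rw [h7]; ring⟩

/-- orders of `Dt` -/
theorem Ord.dt_ge (hf : AnalyticAt ℂ f 0) {g h : E3 → ℂ} (hg : AnalyticAt ℂ g 0)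
    (hh : AnalyticAt ℂ h 0) {m : F.I → ℕ} (hgm : F.Ge g m) (hhm : F.Ge h m) {v : F.I → ℕ}
    (hv : F.Ord (Dt f g h) v) (i : F.I) : 2 * (m i : ℤ) + F.nu i ≤ v i := by
  obtain ⟨c, hc, hgood⟩ := hv.good i
  obtain ⟨z, ⟨hz1, D, hD, hD0, hDe⟩, hz0⟩ := (hgood.and self_mem_nhdsWithin).exists
  have hz0' : z ≠ 0 := hz0
  have hpS : ((0 : ℂ), z) ∈ F.SF c := F.mem_SF1 c hz1.le
  obtain ⟨G, hG⟩ := hgm c _ hpS
  obtain ⟨H, hH⟩ := hhm c _ hpS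
  obtain ⟨G', hG', hgG⟩ := hG.lead'
  obtain ⟨H', hH', hhH⟩ := hH.lead'
  obtain ⟨U, hU, hU0, hj⟩ := F.smooth1 hpS hz0'
  have hth0 := F.th_SF hpS
  have h1 := dt_loc (θ := F.th c) (p₁ := (0, z)) (F.an c _ hpS.1) (by rwa [hth0]) (by rwa [hth0])
    (by rwa [hth0]) (F.onV' hf hpS) hj hG' hH' hgG hhH
  rw [hc] at h1
  refine ord_le' (p₁ := (0, z)) (n := (v i : ℤ)) (H := fun p => D p * U p)
    (H' := Rf (m i) G' H') rfl (hD.continuousAt.mul hU.continuousAt) (mul_ne_zero hD0 hU0)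
    (Rf_an hG' hH').continuousAt ?_
  filter_upwards [h1, hDe] with p h2 h3 h4
  rw [← h2 h4, h3, zpow_natCast]; ring

/-- `v(Dt) ≥ (2k+1) q` -/
theorem PairD.dt_ge (hf : AnalyticAt ℂ f 0) {q : F.I → ℝ} {k : ℕ} {m : F.I → ℕ} {g h : E3 → ℂ}
    (P : F.PairD q k m g h) {v : F.I → ℕ} (hv : F.Ord (Dt f g h) v) (i : F.I) :
    (2 * (k : ℝ) + 1) * q i ≤ v i := by
  have h1 : ∀ i, dg F.M ((fun i => (v i : ℝ)) - (2 * (k : ℝ) + 1) • q) i ≤ 0 ∨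
      0 ≤ ((fun i => (v i : ℝ)) - (2 * (k : ℝ) + 1) • q) i := by
    intro i
    by_cases hqi : q i = F.nu i
    · right
      have h2 := hv.dt_ge hf P.ang P.anh P.geg P.geh i
      have h3 : (2 * (m i : ℝ) + F.nu i) ≤ v i := by exact_mod_cast h2
      simp only [Pi.sub_apply, Pi.smul_apply, smul_eq_mul]
      rw [P.hm i, ← hqi] at h3
      linarith
    · left
      rw [dg_sub, dg_smul, P.isP.dg_eq i hqi, mul_zero, sub_zero]
      exact hv.1 i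
  have h2 := nonneg_of F.form (x := (fun i => (v i : ℝ)) - (2 * (k : ℝ) + 1) • q)
    (S := {i | dg F.M ((fun i => (v i : ℝ)) - (2 * (k : ℝ) + 1) • q) i ≤ 0})
    (fun i hi => hi) (fun i hi => (h1 i).resolve_left hi) i
  simp only [Pi.sub_apply, Pi.smul_apply, smul_eq_mul] at h2
  linarith

/-- **(JU)** -/
theorem PairD.ju (hf : AnalyticAt ℂ f 0) (hI : Nonempty F.I) {q : F.I → ℝ} {k : ℕ}
    {m : F.I → ℕ} {g h : E3 → ℂ} (P : F.PairD q k m g h) : JU f k g h := by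
  have hk : (0 : ℝ) < k := by
    have := P.k2
    have : 0 < k := by omega
    exact_mod_cast this
  have hkk : (0 : ℝ) < 2 + 1 / (k : ℝ) := by positivity
  by_cases hne : ∃ᶠ x in 𝓝 (0 : E3), f x = 0 ∧ Dt f g h x ≠ 0
  · obtain ⟨v, hv⟩ := F.exists_Ord (dt0_an hf P.ang P.anh) hne
    have hord := P.dt_ge hf hv
    have hle : ∀ i, (2 + 1 / (k : ℝ)) * m i ≤ ((1 : ℕ) : ℝ) * v i := by
      intro i
      rw [P.hm i, Nat.cast_one, one_mul]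
      have : (2 + 1 / (k : ℝ)) * (k * q i) = (2 * (k : ℝ) + 1) * q i := by
        field_simp
      rw [this]
      exact hord i
    have hvpos : ∀ i, 0 < v i := by
      intro i
      have h3 := hord i
      have h4 := P.pos i
      have h5 : 0 < (2 * (k : ℝ) + 1) * q i := by positivity
      have h6 : (0 : ℝ) < v i := lt_of_lt_of_le h5 h3
      exact_mod_cast h6
    obtain ⟨C, hC⟩ := F.glob
      (fun C x => ‖Dt f g h x‖ ^ 2 ≤ C * (‖g x‖ ^ 2 + ‖h x‖ ^ 2) ^ (2 + 1 / (k : ℝ)))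
      (fun C C' x hCC h => h.trans (mul_le_mul_of_nonneg_right hCC (by positivity)))
      (fun c p₀ hp => by
        obtain ⟨b, hb, hlow⟩ := P.low hp
        obtain ⟨D, hD⟩ := hv.toGe c p₀ hp
        have hDb : ∀ᶠ p in 𝓝 p₀, ‖D p‖ < ‖D p₀‖ + 1 :=
          hD.1.continuousAt.norm.eventually_lt continuousAt_const (by simp)
        refine ⟨(‖D p₀‖ + 1) ^ 2 / (b ^ 2 / 2) ^ (2 + 1 / (k : ℝ)), ?_⟩
        filter_upwards [hlow, hD.2, hDb] with p h3 h4 h5 hpB _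
        set y : ℝ := ‖F.mo m c p‖ with hy
        have hy0 : 0 ≤ y := norm_nonneg _
        have e0 : b ^ 2 / 2 * y ^ 2 ≤ ‖g (F.th c p)‖ ^ 2 + ‖h (F.th c p)‖ ^ 2 := by
          have : (b * y) ^ 2 ≤ (‖g (F.th c p)‖ + ‖h (F.th c p)‖) ^ 2 :=
            pow_le_pow_left₀ (by positivity) h3 2
          nlinarith [sq_nonneg (‖g (F.th c p)‖ - ‖h (F.th c p)‖)]
        have hba : 0 < (b ^ 2 / 2) ^ (2 + 1 / (k : ℝ)) := Real.rpow_pos_of_pos (by positivity) _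
        have e1 : (b ^ 2 / 2) ^ (2 + 1 / (k : ℝ)) * (y ^ 2) ^ (2 + 1 / (k : ℝ)) ≤
            (‖g (F.th c p)‖ ^ 2 + ‖h (F.th c p)‖ ^ 2) ^ (2 + 1 / (k : ℝ)) := by
          rw [← Real.mul_rpow (by positivity) (by positivity)]
          exact Real.rpow_le_rpow (by positivity) e0 hkk.le
        have e2 := F.mo_cmp hkk.le hle c hpB
        rw [pow_one] at e2
        have e3 : ‖F.mo v c p‖ ^ 2 ≤ (y ^ 2) ^ (2 + 1 / (k : ℝ)) := by
          calc ‖F.mo v c p‖ ^ 2 ≤ (y ^ (2 + 1 / (k : ℝ))) ^ 2 :=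
                pow_le_pow_left₀ (norm_nonneg _) e2 2
            _ = (y ^ 2) ^ (2 + 1 / (k : ℝ)) := by
                rw [← Real.rpow_natCast, ← Real.rpow_natCast, ← Real.rpow_mul hy0,
                  ← Real.rpow_mul hy0, mul_comm]
        calc ‖Dt f g h (F.th c p)‖ ^ 2 = ‖F.mo v c p‖ ^ 2 * ‖D p‖ ^ 2 := by
              rw [h4, norm_mul, mul_pow]
          _ ≤ (y ^ 2) ^ (2 + 1 / (k : ℝ)) * (‖D p₀‖ + 1) ^ 2 :=
              mul_le_mul e3 (pow_le_pow_left₀ (norm_nonneg _) h5.le 2) (by positivity)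
                (by positivity)
          _ = (‖D p₀‖ + 1) ^ 2 / (b ^ 2 / 2) ^ (2 + 1 / (k : ℝ)) *
              ((b ^ 2 / 2) ^ (2 + 1 / (k : ℝ)) * (y ^ 2) ^ (2 + 1 / (k : ℝ))) := by
              field_simp
          _ ≤ _ := mul_le_mul_of_nonneg_left e1 (by positivity))
    obtain ⟨r, hr, hball⟩ := Metric.eventually_nhds_iff_ball.1 hC
    refine ⟨C, r, hr, fun x hx hfx => ?_⟩
    by_cases hx0 : x = 0
    · have hu0 : Dt f g h 0 = 0 := Fac.vanish hvpos hv.toGe hI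
      have hg0 : g 0 = 0 := Fac.vanish P.m_pos P.geg hI
      have hh0 : h 0 = 0 := Fac.vanish P.m_pos P.geh hI
      rw [hx0, hu0, hg0, hh0, norm_zero, zero_pow two_ne_zero, add_zero,
        Real.zero_rpow hkk.ne', mul_zero]
    · exact hball x (by simpa using hx) hx0 hfx
  · rw [not_frequently] at hne
    obtain ⟨r, hr, hball⟩ := Metric.eventually_nhds_iff_ball.1 hne
    refine ⟨0, r, hr, fun x hx hfx => ?_⟩
    have h3 : Dt f g h x = 0 := by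
      by_contra h
      exact hball x (by simpa using hx) ⟨hfx, h⟩
    rw [h3, norm_zero, zero_pow two_ne_zero, zero_mul]

end Frame

end Crest.Agent.R257.Fr_808
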