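import Crest.Agent.R257.Fr7_808

/-!
R257 / Fr8_808: (E3) and the final statement `ep_of : EPof`.
-/

set_option autoImplicit false

open Topology Filter MeasureTheory Set Function
open Crest.AlgGeometry.Germ

noncomputable section

namespace Crest.Agent.R257.Fr_808

open Crest.Agent.R257.Defs_219
open Crest.Agent.R257.Gr1_157

theorem fderiv_01 {K : ℂ × ℂ → ℂ} {p : ℂ × ℂ} (h : DifferentiableAt ℂ K p) :
    HasDerivAt (fun z => K (p.1, z)) (fderiv ℂ K p (0, 1)) p.2 := by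
  have h1 : HasDerivAt (fun z : ℂ => (p.1, z)) ((0 : ℂ), (1 : ℂ)) p.2 :=
    (hasDerivAt_const p.2 p.1).prodMk (hasDerivAt_id p.2)
  exact h.hasFDerivAt.comp_hasDerivAt_of_eq p.2 h1 rfl

/-- the local form of (E3) -/
theorem e3_loc {f g h : E3 → ℂ} {θ : ℂ × ℂ → E3} {p₁ : ℂ × ℂ} (h1 : p₁.1 = 0)
    (hθ : AnalyticAt ℂ θ p₁)
    (hf : AnalyticAt ℂ f (θ p₁)) (hg : AnalyticAt ℂ g (θ p₁)) (hh : AnalyticAt ℂ h (θ p₁))
    (hz : ∀ᶠ p in 𝓝 p₁, f (θ p) = 0) {ν : ℤ} {U : ℂ × ℂ → ℂ} (hU : ContinuousAt U p₁)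
    (hj : ∀ᶠ p in 𝓝 p₁, p.1 ≠ 0 → coordDeriv f 0 (θ p) ≠ 0 ∧
      jac2 θ p = coordDeriv f 0 (θ p) * p.1 ^ (-ν - 1) * U p)
    {a k : ℕ} (ha : 0 < a) (hak : (a : ℤ) = k * ν) {G H : ℂ × ℂ → ℂ} (hG : AnalyticAt ℂ G p₁)
    (hH : AnalyticAt ℂ H p₁) (hgG : ∀ᶠ p in 𝓝 p₁, g (θ p) = p.1 ^ a * G p)
    (hhH : ∀ᶠ p in 𝓝 p₁, h (θ p) = p.1 ^ a * H p)
    (hG0 : G p₁ = 0) (hG' : fderiv ℂ G p₁ (0, 1) ≠ 0) (hH0 : H p₁ ≠ 0) :
    ∃ C : ℝ, 0 ≤ C ∧ ∀ᶠ p in 𝓝 p₁, p.1 ≠ 0 →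
      ‖h (θ p)‖ ^ (2 * k + 1) ≤ C * ‖Dt f g h (θ p)‖ ^ k := by
  obtain ⟨b, hb, hlow⟩ := dt_low h1 hθ hf hg hh hz hU hj ha hG hH hgG hhH hG0 hG' hH0
  have hHb : ∀ᶠ p in 𝓝 p₁, ‖H p‖ < ‖H p₁‖ + 1 :=
    hH.continuousAt.norm.eventually_lt continuousAt_const (by simp)
  refine ⟨(‖H p₁‖ + 1) ^ (2 * k + 1) / b ^ k, by positivity, ?_⟩
  filter_upwards [hlow, hHb, hhH] with p h2 h3 h4 hp
  have hx : 0 < ‖p.1‖ := norm_pos_iff.2 hp
  have e1 : (‖p.1‖ ^ a) ^ (2 * k + 1) = (‖p.1‖ ^ (2 * (a : ℤ) + ν)) ^ k := by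
    rw [← zpow_natCast, ← zpow_natCast, ← zpow_natCast, ← zpow_mul, ← zpow_mul]
    congr 1
    rw [hak]
    push_cast
    ring
  have e2 : b ^ k * (‖p.1‖ ^ (2 * (a : ℤ) + ν)) ^ k ≤ ‖Dt f g h (θ p)‖ ^ k := by
    rw [← mul_pow]
    exact pow_le_pow_left₀ (by positivity) (h2 hp) k
  calc ‖h (θ p)‖ ^ (2 * k + 1) = (‖p.1‖ ^ a) ^ (2 * k + 1) * ‖H p‖ ^ (2 * k + 1) := by
        rw [h4, norm_mul, norm_pow, mul_pow]
    _ ≤ (‖p.1‖ ^ (2 * (a : ℤ) + ν)) ^ k * (‖H p₁‖ + 1) ^ (2 * k + 1) := by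
        rw [e1]
        exact mul_le_mul_of_nonneg_left (pow_le_pow_left₀ (norm_nonneg _) h3.le _) (by positivity)
    _ = (‖H p₁‖ + 1) ^ (2 * k + 1) / b ^ k * (b ^ k * (‖p.1‖ ^ (2 * (a : ℤ) + ν)) ^ k) := by
        field_simp
    _ ≤ _ := mul_le_mul_of_nonneg_left e2 (by positivity)

namespace Frame

variable {f : E3 → ℂ} {F : Frame f}

/-- the first function is not `0` on `V` -/
theorem PairD.freq {q : F.I → ℝ} {k : ℕ} {m : F.I → ℕ} {g h : E3 → ℂ} (hI : Nonempty F.I)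
    (P : F.PairD q k m g h) : ∃ᶠ x in 𝓝 (0 : E3), f x = 0 ∧ g x ≠ 0 := by
  obtain ⟨i⟩ := hI
  obtain ⟨c, -⟩ := F.surj i
  have hp : ((0 : ℂ), (0 : ℂ)) ∈ F.SF c := F.mem_SF1 c (by simp)
  obtain ⟨G, H, hG, -, hor⟩ := P.loc c _ hp
  have hG0 : G (0, 0) ≠ 0 := by
    rcases hor with h | ⟨-, ⟨-, h, -⟩ | ⟨-, -, h, -⟩⟩
    · exact h
    · exact absurd rfl h
    · exact absurd rfl h
  have h2 : Tendsto (F.th c) (𝓝 (0, 0)) (𝓝 0) := by
    have := (F.an c _ hp.1).continuousAt.tendsto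
    rwa [F.th_SF hp] at this
  refine h2.frequently ?_
  have hBD : ∀ᶠ p in 𝓝 ((0 : ℂ), (0 : ℂ)), p ∈ BD := by
    have h1 : ∀ᶠ p in 𝓝 ((0 : ℂ), (0 : ℂ)), ‖p.1‖ < 1 :=
      (continuousAt_fst.norm).eventually_lt continuousAt_const (by simp)
    have h2 : ∀ᶠ p in 𝓝 ((0 : ℂ), (0 : ℂ)), ‖p.2‖ < 1 :=
      (continuousAt_snd.norm).eventually_lt continuousAt_const (by simp)
    filter_upwards [h1, h2] with p h3 h4 using ⟨h3.le, h4.le⟩
  refine ((freq2 (0, 0)).and_eventually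
    ((hG.2.and (hG.1.continuousAt.eventually_ne hG0)).and hBD)).mono ?_
  rintro p ⟨⟨h3, h4⟩, ⟨h5, h6⟩, h7⟩
  exact ⟨F.onV c p h7, by rw [h5]; exact mul_ne_zero (F.mo_ne' m h3 h4) h6⟩

/-- the orders of the first function are `m` -/
theorem PairD.ordg {q : F.I → ℝ} {k : ℕ} {m : F.I → ℕ} {g h : E3 → ℂ} (hI : Nonempty F.I)
    (P : F.PairD q k m g h) : F.Ord g m := by
  obtain ⟨v, hv⟩ := F.exists_Ord P.ang (P.freq hI)
  have hvm : v = m := by
    funext i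
    refine le_antisymm (hv.ge_of fun c hc => ?_) (hv.ge P.geg i)
    have hp : ((0 : ℂ), (0 : ℂ)) ∈ F.SF c := F.mem_SF1 c (by simp)
    obtain ⟨G, H, hG, -, hor⟩ := P.loc c _ hp
    have hG0 : G (0, 0) ≠ 0 := by
      rcases hor with h | ⟨-, ⟨-, h, -⟩ | ⟨-, -, h, -⟩⟩
      · exact h
      · exact absurd rfl h
      · exact absurd rfl h
    have h5 : Tendsto (fun z : ℂ => ((0 : ℂ), z)) (𝓝[≠] 0) (𝓝 (0, 0)) := by
      have : ContinuousAt (fun z : ℂ => ((0 : ℂ), z)) 0 := by fun_prop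
      exact this.tendsto.mono_left nhdsWithin_le_nhds
    filter_upwards [h5.eventually (hG.eventually.and (hG.1.continuousAt.eventually_ne hG0)),
      self_mem_nhdsWithin] with z hz hz0
    obtain ⟨H, hH, hH0, hHe⟩ := hz.1.lead hz.2 hz0
    rw [hc] at hHe
    exact ⟨H, hH.continuousAt, hH0, hHe⟩
  rw [hvm] at hv
  exact hv

theorem PairD.dgm {q : F.I → ℝ} {k : ℕ} {m : F.I → ℕ} {g h : E3 → ℂ}
    (P : F.PairD q k m g h) (i : F.I) :
    dg F.M (fun i => (m i : ℝ)) i = k * dg F.M q i := by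
  have h1 : (fun i => (m i : ℝ)) = (k : ℝ) • q := by
    funext i
    rw [P.hm i]; rfl
  rw [h1, dg_smul]

/-- at a component where `dg m ≠ 0` the order is `k nu` -/
theorem PairD.eq_nu {q : F.I → ℝ} {k : ℕ} {m : F.I → ℕ} {g h : E3 → ℂ}
    (P : F.PairD q k m g h) {i : F.I} (hi : dg F.M (fun i => (m i : ℝ)) i ≠ 0) :
    (m i : ℤ) = k * F.nu i := by
  have h1 : q i = F.nu i := by
    by_contra h
    apply hi
    rw [P.dgm, P.isP.dg_eq i h, mul_zero]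
  have h2 := P.hm i
  rw [h1] at h2
  exact_mod_cast h2

/-- (E3) near every point of the special fibre -/
theorem PairD.e3_near (hf : AnalyticAt ℂ f 0) {q : F.I → ℝ} {k : ℕ} {m : F.I → ℕ}
    {g h : E3 → ℂ} (hI : Nonempty F.I) (P : F.PairD q k m g h) {c : F.K} {p₀ : ℂ × ℂ}
    (hp : p₀ ∈ F.SF c) : ∃ C : ℝ, ∀ᶠ p in 𝓝 p₀, p ∈ BD → p ∉ F.SF c →
      ‖h (F.th c p)‖ ^ (2 * k + 1) ≤
        C * (‖g (F.th c p)‖ ^ (2 * k + 1) + ‖Dt f g h (F.th c p)‖ ^ k) := by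
  obtain ⟨G, H, hG, hH, hor⟩ := P.loc c p₀ hp
  have hth0 := F.th_SF hp
  by_cases hG0 : G p₀ ≠ 0
  · -- `|h| ≤ C |g|`
    have hGpos : 0 < ‖G p₀‖ := norm_pos_iff.2 hG0
    have h1 : ∀ᶠ p in 𝓝 p₀, ‖G p₀‖ / 2 < ‖G p‖ :=
      continuousAt_const.eventually_lt hG.1.continuousAt.norm (by linarith)
    have h2 : ∀ᶠ p in 𝓝 p₀, ‖H p‖ < ‖H p₀‖ + 1 :=
      hH.1.continuousAt.norm.eventually_lt continuousAt_const (by simp)
    refine ⟨((‖H p₀‖ + 1) / (‖G p₀‖ / 2)) ^ (2 * k + 1), ?_⟩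
    filter_upwards [h1, h2, hG.2, hH.2] with p h3 h4 h5 h6 _ _
    have e1 : ‖h (F.th c p)‖ ≤ (‖H p₀‖ + 1) / (‖G p₀‖ / 2) * ‖g (F.th c p)‖ := by
      rw [h5, h6, norm_mul, norm_mul, div_mul_eq_mul_div, le_div_iff₀ (by positivity)]
      have h7 : ‖H p‖ * (‖G p₀‖ / 2) ≤ (‖H p₀‖ + 1) * ‖G p‖ :=
        mul_le_mul h4.le h3.le (by positivity) (by positivity)
      have h8 := mul_le_mul_of_nonneg_left h7 (norm_nonneg (F.mo m c p))
      linarith
    calc ‖h (F.th c p)‖ ^ (2 * k + 1)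
        ≤ ((‖H p₀‖ + 1) / (‖G p₀‖ / 2) * ‖g (F.th c p)‖) ^ (2 * k + 1) :=
          pow_le_pow_left₀ (norm_nonneg _) e1 _
      _ = ((‖H p₀‖ + 1) / (‖G p₀‖ / 2)) ^ (2 * k + 1) * ‖g (F.th c p)‖ ^ (2 * k + 1) :=
          mul_pow _ _ _
      _ ≤ _ := by
          refine mul_le_mul_of_nonneg_left ?_ (by positivity)
          have : 0 ≤ ‖Dt f g h (F.th c p)‖ ^ k := by positivity
          linarith
  · have hG0' : G p₀ = 0 := not_not.1 hG0
    obtain ⟨hH0, hSm⟩ := hor.resolve_left hG0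
    have hord := P.ordg hI
    obtain ⟨G1, hG1, hG1a, hG1b⟩ := hord.2 c p₀ hp
    have hG1e : G1 p₀ = 0 := (hG1.unique hG).trans hG0'
    rcases hSm with ⟨h1, h2, h3⟩ | ⟨h0, h1, h2, h3⟩
    · -- the point is on `{α = 0}`, `β ≠ 0`
      have hdg : dg F.M (fun i => (m i : ℝ)) (F.e1 c) ≠ 0 := fun h => (hG1a h1).2 h hG1e
      have hpe : p₀ = (0, p₀.2) := Prod.ext h1 rfl
      obtain ⟨U, hU, hU0, hj⟩ := F.smooth1 hp h2
      set b : ℕ := ex2 m (F.e2 c) with hb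
      have hGt : AnalyticAt ℂ (fun p : ℂ × ℂ => p.2 ^ b * G p) p₀ := (analyticAt_snd.pow _).mul hG.1
      have hHt : AnalyticAt ℂ (fun p : ℂ × ℂ => p.2 ^ b * H p) p₀ := (analyticAt_snd.pow _).mul hH.1
      have hder : fderiv ℂ (fun p : ℂ × ℂ => p.2 ^ b * G p) p₀ (0, 1) ≠ 0 := by
        have e1 := fderiv_01 hGt.differentiableAt
        have e2 : HasDerivAt (fun z => G (0, z)) (deriv (fun z => G (0, z)) p₀.2) p₀.2 := by
          refine (diff1 ?_).hasDerivAt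
          rw [← hpe]; exact hG.1
        have e3 : HasDerivAt (fun z : ℂ => z ^ b * G (0, z)) _ p₀.2 :=
          (hasDerivAt_pow b p₀.2).mul e2
        have e4 : (fun z => (fun p : ℂ × ℂ => p.2 ^ b * G p) (p₀.1, z)) =
            fun z : ℂ => z ^ b * G (0, z) := by
          funext z
          simp only [h1]
        rw [e4] at e1
        have hG00 : G (0, p₀.2) = 0 := by rw [← hpe]; exact hG0'
        rw [e1.unique e3, hG00, mul_zero, zero_add]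
        exact mul_ne_zero (pow_ne_zero _ h2) h3
      obtain ⟨C, hC0, hC⟩ := e3_loc (θ := F.th c) h1 (F.an c _ hp.1) (by rwa [hth0])
        (by rw [hth0]; exact P.ang) (by rw [hth0]; exact P.anh) (F.onV' hf hp)
        hU.continuousAt hj (P.m_pos (F.e1 c)) (P.eq_nu hdg) hGt hHt
        (by filter_upwards [hG.2] with p hp'; rw [hp', mo, mul_assoc])
        (by filter_upwards [hH.2] with p hp'; rw [hp', mo, mul_assoc])
        (by simp only [hG0', mul_zero]) hder (mul_ne_zero (pow_ne_zero _ h2) hH0)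
      refine ⟨C, ?_⟩
      filter_upwards [hC] with p h4 h5 h6
      refine (h4 (F.off h5 h6).1).trans (mul_le_mul_of_nonneg_left ?_ hC0)
      have : 0 ≤ ‖g (F.th c p)‖ ^ (2 * k + 1) := by positivity
      linarith
    · -- the point is on `{β = 0}`, `α ≠ 0`
      obtain ⟨i, hi⟩ := Option.ne_none_iff_exists'.1 h0
      have hdg : dg F.M (fun i => (m i : ℝ)) i ≠ 0 := fun h => (hG1b i hi h1).2 h hG1e
      have hpe : p₀ = (p₀.1, 0) := Prod.ext rfl h1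
      have hex : ex2 m (F.e2 c) = m i := by rw [hi]; rfl
      obtain ⟨U, hU, hU0, hj⟩ := F.jac c p₀ hp
      set p₁ : ℂ × ℂ := p₀.swap with hp₁
      have hsw : p₁.swap = p₀ := Prod.swap_swap p₀
      have hsa : ∀ p : ℂ × ℂ, AnalyticAt ℂ (Prod.swap : ℂ × ℂ → ℂ × ℂ) p := fun p =>
        (analyticAt_snd.prod analyticAt_fst)
      have hst : Tendsto (Prod.swap : ℂ × ℂ → ℂ × ℂ) (𝓝 p₁) (𝓝 p₀) := by
        have := (hsa p₁).continuousAt.tendsto
        rwa [hsw] at this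
      have hst' : Tendsto (Prod.swap : ℂ × ℂ → ℂ × ℂ) (𝓝 p₀) (𝓝 p₁) :=
        (hsa p₀).continuousAt.tendsto
      set θ : ℂ × ℂ → E3 := fun p => F.th c p.swap with hθ
      have hθa : AnalyticAt ℂ θ p₁ :=
        AnalyticAt.comp (g := F.th c) (f := (Prod.swap : ℂ × ℂ → ℂ × ℂ))
          (by rw [hsw]; exact F.an c _ hp.1) (hsa p₁)
      have hθ0 : θ p₁ = 0 := by rw [hθ]; simp only; rw [hsw, hth0]
      have hU' : AnalyticAt ℂ (fun p : ℂ × ℂ => U p.swap) p₁ :=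
        AnalyticAt.comp (g := U) (f := (Prod.swap : ℂ × ℂ → ℂ × ℂ)) (by rw [hsw]; exact hU) (hsa p₁)
      have hGs : AnalyticAt ℂ (fun p : ℂ × ℂ => G p.swap) p₁ :=
        AnalyticAt.comp (g := G) (f := (Prod.swap : ℂ × ℂ → ℂ × ℂ))
          (by rw [hsw]; exact hG.1) (hsa p₁)
      have hHs : AnalyticAt ℂ (fun p : ℂ × ℂ => H p.swap) p₁ :=
        AnalyticAt.comp (g := H) (f := (Prod.swap : ℂ × ℂ → ℂ × ℂ))
          (by rw [hsw]; exact hH.1) (hsa p₁)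
      have h2' : p₁.2 ≠ 0 := h2
      have hUt : AnalyticAt ℂ (fun p : ℂ × ℂ => -(p.2 ^ (-F.nu (F.e1 c) - 1) * U p.swap)) p₁ :=
        ((analyticAt_snd.zpow h2').mul hU').neg
      -- the Jacobian
      have hjs : ∀ᶠ p in 𝓝 p₁, jac2 θ p = - jac2 (F.th c) p.swap := by
        have hd : ∀ᶠ p in 𝓝 p₁, AnalyticAt ℂ (F.th c) p.swap :=
          hst.eventually (F.an c _ hp.1).eventually_analyticAt
        filter_upwards [hd] with p hpd
        have e1 : ∀ v : ℂ × ℂ, fderiv ℂ θ p v = fderiv ℂ (F.th c) p.swap v.swap := by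
          intro v
          have e2 : HasFDerivAt (Prod.swap : ℂ × ℂ → ℂ × ℂ)
              ((ContinuousLinearMap.snd ℂ ℂ ℂ).prod (ContinuousLinearMap.fst ℂ ℂ ℂ)) p :=
            hasFDerivAt_snd.prodMk hasFDerivAt_fst
          have e3 : HasFDerivAt θ ((fderiv ℂ (F.th c) p.swap).comp
              ((ContinuousLinearMap.snd ℂ ℂ ℂ).prod (ContinuousLinearMap.fst ℂ ℂ ℂ))) p :=
            hpd.differentiableAt.hasFDerivAt.comp p e2
          rw [e3.fderiv]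
          rfl
        rw [jac2, jac2, e1, e1]
        simp only [Prod.swap_prod_mk]
        ring
      have hj' : ∀ᶠ p in 𝓝 p₁, p.1 ≠ 0 → coordDeriv f 0 (θ p) ≠ 0 ∧
          jac2 θ p = coordDeriv f 0 (θ p) * p.1 ^ (-F.nu i - 1) *
            (-(p.2 ^ (-F.nu (F.e1 c) - 1) * U p.swap)) := by
        filter_upwards [hjs, hst.eventually hj, continuousAt_snd.eventually_ne h2'] with
          p h4 h5 h6 h7
        obtain ⟨h8, h9⟩ := h5 h6 h7
        refine ⟨h8, ?_⟩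
        rw [h4, h9, F.nu2_some c i hi]
        simp only [hθ, Prod.fst_swap, Prod.snd_swap]
        ring
      set b : ℕ := m (F.e1 c) with hb
      have hGt : AnalyticAt ℂ (fun p : ℂ × ℂ => p.2 ^ b * G p.swap) p₁ :=
        (analyticAt_snd.pow _).mul hGs
      have hHt : AnalyticAt ℂ (fun p : ℂ × ℂ => p.2 ^ b * H p.swap) p₁ :=
        (analyticAt_snd.pow _).mul hHs
      have hp11 : p₁.1 = 0 := h1
      have hder : fderiv ℂ (fun p : ℂ × ℂ => p.2 ^ b * G p.swap) p₁ (0, 1) ≠ 0 := by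
        have e1 := fderiv_01 hGt.differentiableAt
        have e2 : HasDerivAt (fun z => G (z, 0)) (deriv (fun z => G (z, 0)) p₀.1) p₀.1 := by
          refine (diff2 ?_).hasDerivAt
          rw [← hpe]; exact hG.1
        have e3 : HasDerivAt (fun z : ℂ => z ^ b * G (z, 0)) _ p₀.1 :=
          (hasDerivAt_pow b p₀.1).mul e2
        have e4 : (fun z => (fun p : ℂ × ℂ => p.2 ^ b * G p.swap) (p₁.1, z)) =
            fun z : ℂ => z ^ b * G (z, 0) := by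
          funext z
          simp only [hp11, Prod.swap_prod_mk]
        rw [e4] at e1
        have e1' : HasDerivAt (fun z : ℂ => z ^ b * G (z, 0))
            (fderiv ℂ (fun p : ℂ × ℂ => p.2 ^ b * G p.swap) p₁ (0, 1)) p₀.1 := e1
        have hG00 : G (p₀.1, 0) = 0 := by rw [← hpe]; exact hG0'
        rw [e1'.unique e3, hG00, mul_zero, zero_add]
        exact mul_ne_zero (pow_ne_zero _ h2) h3
      have hz : ∀ᶠ p in 𝓝 p₁, f (θ p) = 0 := hst.eventually (F.onV' hf hp)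
      obtain ⟨C, hC0, hC⟩ := e3_loc (θ := θ) (g := g) (h := h) (a := m i) (k := k) hp11 hθa
        (by rwa [hθ0])
        (by rw [hθ0]; exact P.ang) (by rw [hθ0]; exact P.anh) hz
        hUt.continuousAt hj' (P.m_pos i) (P.eq_nu hdg) hGt hHt
        (by
          filter_upwards [hst.eventually hG.2] with p hp'
          rw [hθ]
          simp only
          rw [hp', mo, hex]
          simp only [Prod.fst_swap, Prod.snd_swap]
          ring)
        (by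
          filter_upwards [hst.eventually hH.2] with p hp'
          rw [hθ]
          simp only
          rw [hp', mo, hex]
          simp only [Prod.fst_swap, Prod.snd_swap]
          ring)
        (by simp only [hsw, hG0', mul_zero]) hder
        (by
          simp only [hsw]
          exact mul_ne_zero (pow_ne_zero _ h2') hH0)
      refine ⟨C, ?_⟩
      filter_upwards [hst'.eventually hC] with p h4 h5 h6
      have h7 : p.2 ≠ 0 := by
        rcases (F.off h5 h6).2 with h | h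
        · exact absurd h h0
        · exact h
      have h8 := h4 h7
      simp only [hθ, Prod.swap_swap] at h8
      refine h8.trans (mul_le_mul_of_nonneg_left ?_ hC0)
      have : 0 ≤ ‖g (F.th c p)‖ ^ (2 * k + 1) := by positivity
      linarith

/-- (E3) -/
theorem PairD.e3 (hf : AnalyticAt ℂ f 0) {q : F.I → ℝ} {k : ℕ} {m : F.I → ℕ}
    {g h : E3 → ℂ} (hI : Nonempty F.I) (P : F.PairD q k m g h) :
    ∃ C r : ℝ, 0 < r ∧ ∀ x, ‖x‖ < r → f x = 0 →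
      ‖h x‖ ^ (2 * k + 1) ≤ C * (‖g x‖ ^ (2 * k + 1) + ‖Dt f g h x‖ ^ k) := by
  obtain ⟨C, hC⟩ := F.glob
    (fun C x => ‖h x‖ ^ (2 * k + 1) ≤ C * (‖g x‖ ^ (2 * k + 1) + ‖Dt f g h x‖ ^ k))
    (fun C C' x hCC h => h.trans (mul_le_mul_of_nonneg_right hCC (by positivity)))
    (fun c p₀ hp => P.e3_near hf hI hp)
  obtain ⟨r, hr, hball⟩ := Metric.eventually_nhds_iff_ball.1 hC
  refine ⟨max C 0, r, hr, fun x hx hfx => ?_⟩
  by_cases hx0 : x = 0
  · have hh0 : h 0 = 0 := Fac.vanish P.m_pos P.geh hI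
    rw [hx0, hh0, norm_zero, zero_pow (by omega)]
    have : 0 ≤ max C 0 := le_max_right _ _
    positivity
  · exact (hball x (by simpa using hx) hx0 hfx).trans
      (mul_le_mul_of_nonneg_right (le_max_left _ _) (by positivity))

end Frame

/-- **the exact pair from a frame with base point freeness** -/
theorem ep_of : EPof := by
  intro f hf hm F hb
  obtain ⟨q, k, m, hq, hk, hkm, hbp⟩ := hb
  obtain ⟨i₀, -⟩ := F.exists_pos_nu hf hm
  have hI : Nonempty F.I := ⟨i₀⟩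
  have hpos := hq.pos hf hm
  obtain ⟨g, h, P⟩ := Frame.exists_pair hq hpos hk hkm hbp
  refine ⟨k, g, h, ⟨hk, P.ang, P.anh, Frame.Fac.vanish P.m_pos P.geg hI,
    Frame.Fac.vanish P.m_pos P.geh hI, ?_, ?_, P.e3 hf.an hI, P.e4⟩, P.ju hf.an hI⟩
  · intro p hp hpk
    exact ⟨Frame.InJ_of_ge hf.an hq hpos hkm P.ang P.geg hp hpk,
      Frame.InJ_of_ge hf.an hq hpos hkm P.anh P.geh hp hpk⟩
  · intro a ha u hu h1 h2
    exact P.e2 hf.an hI ha hu h1 h2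

end Crest.Agent.R257.Fr_808
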