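import Crest.Agent.R257.Fr8_808
import Crest.Agent.R257.ExD_121
import Crest.Agent.R257.Gr5_157

/-!
R257 / Fr9_808: spreading lemmas: from the outputs of one Hoermander step (orders on `{q = nu}`,
non vanishing at one place) to `Ge` everywhere and `Gen` on null components.

* `Ord.gt_of_Lo`, `Ord.eq_of_Ex` : orders from 121's `Lo`, `Ex`;
* `Ge_of_Lo` : (K1) orders `> m - 1` on `{q = nu}` imply `Ge g m` everywhere;
* `null_gen` : (K2) in addition order exactly `m` at one null component implies `Gen` at all points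
  over the null vertices connected to it (nodes included);
* `no_theta` : (K3) the contradiction of the T-lemma.
-/

set_option autoImplicit false

open Topology Filter Set
open Crest.AlgGeometry.Germ

noncomputable section

namespace Crest.Agent.R257.Fr_808

open Crest.Agent.R257.Defs_219
open Crest.Agent.R257.Gr1_157
open Crest.Agent.R257.Gr5_157 (NP)
open Crest.Agent.R257.Ex_121

namespace Frame

variable {f : E3 → ℂ} {F : Frame f}

/-- good points in EVERY chart -/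
theorem Ord.good' {g : E3 → ℂ} {v : F.I → ℕ} (h : F.Ord g v) (c : F.K) :
    ∀ᶠ z in 𝓝[≠] (0 : ℂ), ‖z‖ < 1 ∧
      ∃ H : ℂ × ℂ → ℂ, AnalyticAt ℂ H (0, z) ∧ H (0, z) ≠ 0 ∧
        ∀ᶠ p in 𝓝 ((0 : ℂ), z), g (F.th c p) = p.1 ^ v (F.e1 c) * H p := by
  obtain ⟨G, hG, hG1, -⟩ := h.2 c (0, 0) (F.mem_SF1 c (by simp))
  filter_upwards [hG.good (hG1 rfl).1, self_mem_nhdsWithin] with z hz hz0
  exact ⟨hz.1, hz.2.1.lead hz.2.2 hz0⟩

theorem Ord.gt_of_Lo {g : E3 → ℂ} {v : F.I → ℕ} (h : F.Ord g v) {i : F.I} {r : ℝ}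
    (hl : Lo F g i r) : r < v i := by
  obtain ⟨c, rfl, hf⟩ := hl
  obtain ⟨z, ⟨n, H, hr, hH, hHe⟩, -, H', hH', hH0', hHe'⟩ := (hf.and_eventually (h.good' c)).exists
  have h1 : n ≤ v (F.e1 c) := by
    refine ord_le (p₁ := (0, z)) rfl hH'.continuousAt hH0' hH ?_
    filter_upwards [hHe, hHe'] with p h1 h2
    rw [← h1, h2]
  have h2 : (n : ℝ) ≤ v (F.e1 c) := by exact_mod_cast h1
  linarith

theorem Ord.eq_of_Ex {g : E3 → ℂ} {v : F.I → ℕ} (h : F.Ord g v) {i : F.I} {n : ℕ}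
    (hl : Ex F g i n) : v i = n := by
  obtain ⟨c, rfl, hf⟩ := hl
  obtain ⟨z, ⟨H, hH, hH0, hHe⟩, -, H', hH', hH0', hHe'⟩ := (hf.and_eventually (h.good' c)).exists
  refine le_antisymm ?_ ?_
  · refine ord_le (p₁ := (0, z)) rfl hH hH0 hH'.continuousAt ?_
    filter_upwards [hHe, hHe'] with p h1 h2
    rw [← h1, h2]
  · refine ord_le (p₁ := (0, z)) rfl hH'.continuousAt hH0' hH ?_
    filter_upwards [hHe, hHe'] with p h1 h2
    rw [← h1, h2]

/-- a function vanishing on `V` -/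
theorem zero_Fac (hf : AnalyticAt ℂ f 0) {g : E3 → ℂ}
    (h0 : ¬ ∃ᶠ x in 𝓝 (0 : E3), f x = 0 ∧ g x ≠ 0) (m : F.I → ℕ) {c : F.K} {p₀ : ℂ × ℂ}
    (hp : p₀ ∈ F.SF c) : F.Fac g m c p₀ (fun _ => 0) := by
  rw [not_frequently] at h0
  refine ⟨analyticAt_const, ?_⟩
  have h2 : Tendsto (F.th c) (𝓝 p₀) (𝓝 0) := by
    have := (F.an c _ hp.1).continuousAt.tendsto
    rwa [F.th_SF hp] at this
  filter_upwards [h2.eventually h0, F.onV' hf hp] with p h3 h4
  rw [mul_zero]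
  by_contra h
  exact h3 ⟨h4, h⟩

theorem Ord.Ge_of_le {g : E3 → ℂ} {v m : F.I → ℕ} (h : F.Ord g v) (hm : ∀ i, m i ≤ v i) :
    F.Ge g m := by
  intro c p₀ hp
  obtain ⟨G, hG, -⟩ := h.2 c p₀ hp
  have hex : ex2 m (F.e2 c) ≤ ex2 v (F.e2 c) := by
    rcases h2 : F.e2 c with _ | i
    · simp [ex2]
    · exact hm i
  refine ⟨fun p => p.1 ^ (v (F.e1 c) - m (F.e1 c)) * p.2 ^ (ex2 v (F.e2 c) - ex2 m (F.e2 c)) * G p,
    ((analyticAt_fst.pow _).mul (analyticAt_snd.pow _)).mul hG.1, ?_⟩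
  filter_upwards [hG.2] with p hp'
  have e1 : p.1 ^ v (F.e1 c) = p.1 ^ m (F.e1 c) * p.1 ^ (v (F.e1 c) - m (F.e1 c)) := by
    rw [← pow_add]; congr 1; have := hm (F.e1 c); omega
  have e2 : p.2 ^ ex2 v (F.e2 c) = p.2 ^ ex2 m (F.e2 c) *
      p.2 ^ (ex2 v (F.e2 c) - ex2 m (F.e2 c)) := by
    rw [← pow_add]; congr 1; omega
  rw [hp', mo, mo, e1, e2]
  ring

/-- minimum principle: orders `≥ m` on `{q = nu}` imply orders `≥ m` everywhere -/
theorem Ord.ge_of_S {q : F.I → ℝ} (hq : F.IsP q) {k : ℕ} {m : F.I → ℕ}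
    (hm : ∀ i, (m i : ℝ) = k * q i) {g : E3 → ℂ} {v : F.I → ℕ} (h : F.Ord g v)
    (hS : ∀ i, q i = F.nu i → m i ≤ v i) (i : F.I) : m i ≤ v i := by
  have h1 : (fun i => (m i : ℝ)) = (k : ℝ) • q := by
    funext i
    rw [hm i]; rfl
  have h2 := nonneg_of F.form (x := (fun i => (v i : ℝ)) - (fun i => (m i : ℝ)))
    (S := {i | q i ≠ F.nu i})
    (fun i hi => by
      rw [dg_sub, h1, dg_smul, hq.dg_eq i hi, mul_zero, sub_zero]
      exact h.1 i)
    (fun i hi => by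
      have hi' : q i = F.nu i := by simpa using hi
      have h3 : (m i : ℝ) ≤ v i := by exact_mod_cast hS i hi'
      simp only [Pi.sub_apply]
      linarith) i
  simp only [Pi.sub_apply] at h2
  have h3 : (m i : ℝ) ≤ v i := by linarith
  exact_mod_cast h3

/-- **(K1)** -/
theorem Ge_of_Lo (hf : AnalyticAt ℂ f 0) {q : F.I → ℝ} (hq : F.IsP q) {k : ℕ} {m : F.I → ℕ}
    (hm : ∀ i, (m i : ℝ) = k * q i) {g : E3 → ℂ} (hg : AnalyticAt ℂ g 0) {r : F.I → ℝ}
    (hr : ∀ j, q j = F.nu j → (m j : ℝ) - 1 ≤ r j)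
    (hlo : ∀ j, q j = F.nu j → Lo F g j (r j)) : F.Ge g m := by
  by_cases hne : ∃ᶠ x in 𝓝 (0 : E3), f x = 0 ∧ g x ≠ 0
  · obtain ⟨v, hv⟩ := F.exists_Ord hg hne
    refine hv.Ge_of_le (hv.ge_of_S hq hm fun j hj => ?_)
    have h1 := hv.gt_of_Lo (hlo j hj)
    have h2 := hr j hj
    have h3 : ((m j : ℤ) : ℝ) < ((v j : ℤ) : ℝ) + 1 := by push_cast; linarith
    have h4 : (m j : ℤ) < (v j : ℤ) + 1 := by exact_mod_cast h3
    omega
  · exact fun c p₀ hp => ⟨_, zero_Fac hf hne m hp⟩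

/-- kill form of (K1): `Ge` and `Gen` at the kill point -/
theorem kill_gen (hf : AnalyticAt ℂ f 0) {q : F.I → ℝ} (hq : F.IsP q) {k : ℕ} {m : F.I → ℕ}
    (hm : ∀ i, (m i : ℝ) = k * q i) {g : E3 → ℂ} (hg : AnalyticAt ℂ g 0) {r : F.I → ℝ}
    (hr : ∀ j, q j = F.nu j → (m j : ℝ) - 1 ≤ r j)
    (hlo : ∀ j, q j = F.nu j → Lo F g j (r j)) {c : F.K} {p₀ : ℂ × ℂ} (hp : p₀ ∈ F.SF c)
    (hk : ∀ H, F.Fac g m c p₀ H → H p₀ ≠ 0) : F.Ge g m ∧ F.Gen g m c p₀ := by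
  have h1 := Ge_of_Lo hf hq hm hg hr hlo
  obtain ⟨H, hH⟩ := h1 c p₀ hp
  exact ⟨h1, H, hH, hk H hH⟩

/-- orders which agree at the vertices of a point give the same factorisation -/
theorem mo_congr {v m : F.I → ℕ} {c : F.K} (h1 : v (F.e1 c) = m (F.e1 c))
    (h2 : ∀ i, F.e2 c = some i → v i = m i) (p : ℂ × ℂ) : F.mo v c p = F.mo m c p := by
  unfold mo
  rw [h1]
  congr 2
  rcases h3 : F.e2 c with _ | i
  · simp [ex2]
  · exact h2 i h3

/-- spreading of `v = m` along null vertices -/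
theorem eq_spread {q : F.I → ℝ} {k : ℕ} {m : F.I → ℕ}
    (hm : ∀ i, (m i : ℝ) = k * q i) {g : E3 → ℂ} {v : F.I → ℕ} (h : F.Ord g v)
    (hge : ∀ i, m i ≤ v i) {e : F.I} (he : v e = m e) (he0 : dg F.M q e = 0) {i : F.I}
    (hi : NP F.M q e i) : v i = m i ∧ (∀ j, F.M i j ≠ 0 → v j = m j) ∧
      dg F.M (fun i => (v i : ℝ)) i = 0 := by
  have hmq : (fun i => (m i : ℝ)) = (k : ℝ) • q := by
    funext i
    rw [hm i]; rfl
  have hx0 : ∀ i, 0 ≤ ((fun i => (v i : ℝ)) - (fun i => (m i : ℝ))) i := by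
    intro i
    have : (m i : ℝ) ≤ v i := by exact_mod_cast hge i
    simp only [Pi.sub_apply]
    linarith
  have key : ∀ {i : F.I}, v i = m i → dg F.M q i = 0 → (∀ j, F.M i j ≠ 0 → v j = m j) ∧
      dg F.M (fun i => (v i : ℝ)) i = 0 := by
    intro i hvi hqi
    have hd : dg F.M ((fun i => (v i : ℝ)) - (fun i => (m i : ℝ))) i ≤ 0 := by
      rw [dg_sub, hmq, dg_smul, hqi, mul_zero, sub_zero]
      exact h.1 i
    have hxi : ((fun i => (v i : ℝ)) - (fun i => (m i : ℝ))) i = 0 := by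
      simp only [Pi.sub_apply, hvi, sub_self]
    have hn : ∀ j, F.M i j ≠ 0 → v j = m j := by
      intro j hj
      have h1 := nbr_zero F.form hx0 hxi hd hj
      simp only [Pi.sub_apply] at h1
      have h2 : (v j : ℝ) = m j := by linarith
      exact_mod_cast h2
    refine ⟨hn, ?_⟩
    have h1 : dg F.M (fun i => (v i : ℝ)) i = dg F.M (fun i => (m i : ℝ)) i := by
      unfold dg
      refine Finset.sum_congr rfl fun j _ => ?_
      by_cases hj : F.M i j = 0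
      · rw [hj, zero_mul, zero_mul]
      · simp only [hn j hj]
    rw [h1, hmq, dg_smul, hqi, mul_zero]
  have hfin : v i = m i ∧ dg F.M q i = 0 := by
    induction hi with
    | refl => exact ⟨he, he0⟩
    | tail _ hab ih => exact ⟨(key ih.1 ih.2).1 _ hab.1, hab.2⟩
  exact ⟨hfin.1, key hfin.1 hfin.2⟩

/-- `Gen` at a point over a vertex where `v = m`, at the neighbours too, and `dg v = 0` -/
theorem gen_at {m v : F.I → ℕ} {g : E3 → ℂ} (h : F.Ord g v)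
    (hadj : ∀ c i', F.e2 c = some i' → F.M (F.e1 c) i' ≠ 0) {i : F.I} (hvi : v i = m i)
    (hn : ∀ j, F.M i j ≠ 0 → v j = m j) (hd : dg F.M (fun i => (v i : ℝ)) i = 0) {c : F.K}
    {p₀ : ℂ × ℂ} (hp : p₀ ∈ F.SF c)
    (hi : (F.e1 c = i ∧ p₀.1 = 0) ∨ (F.e2 c = some i ∧ p₀.2 = 0)) : F.Gen g m c p₀ := by
  obtain ⟨G, hG, hG1, hG2⟩ := h.2 c p₀ hp
  have hmo : ∀ p, F.mo v c p = F.mo m c p := by
    rcases hi with ⟨h1, -⟩ | ⟨h1, -⟩
    · refine mo_congr (by rw [h1]; exact hvi) fun j hj => hn j ?_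
      rw [← h1]; exact hadj c j hj
    · refine mo_congr (hn _ ?_) fun j hj => ?_
      · rw [F.form.symm]; exact hadj c i h1
      · rw [h1] at hj
        rw [← Option.some.inj hj]; exact hvi
  refine ⟨G, ⟨hG.1, ?_⟩, ?_⟩
  · filter_upwards [hG.2] with p hp'
    rw [hp', hmo]
  · rcases hi with ⟨h1, h2⟩ | ⟨h1, h2⟩
    · refine (hG1 h2).2 ?_
      rw [h1]; exact hd
    · exact (hG2 i h1 h2).2 hd

/-- **(K2)** -/
theorem null_gen (hf : AnalyticAt ℂ f 0)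
    (hadj : ∀ c i', F.e2 c = some i' → F.M (F.e1 c) i' ≠ 0) {q : F.I → ℝ} (hq : F.IsP q)
    {k : ℕ} {m : F.I → ℕ} (hm : ∀ i, (m i : ℝ) = k * q i) {g : E3 → ℂ} (hg : AnalyticAt ℂ g 0)
    {A : Set F.I} {r : F.I → ℝ} (hr : ∀ j, j ∉ A → q j = F.nu j → (m j : ℝ) - 1 ≤ r j)
    (hlo : ∀ j, j ∉ A → q j = F.nu j → Lo F g j (r j)) (hex : ∀ j ∈ A, Ex F g j (m j))
    {e : F.I} (he : e ∈ A) (he0 : dg F.M q e = 0) :
    F.Ge g m ∧ ∀ i, NP F.M q e i → ∀ c, ∀ p₀ ∈ F.SF c,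
      ((F.e1 c = i ∧ p₀.1 = 0) ∨ (F.e2 c = some i ∧ p₀.2 = 0)) → F.Gen g m c p₀ := by
  have hne : ∃ᶠ x in 𝓝 (0 : E3), f x = 0 ∧ g x ≠ 0 := by
    by_contra h0
    obtain ⟨c, hc, hfr⟩ := hex e he
    have h1 : ∀ᶠ z in 𝓝[≠] (0 : ℂ), ‖z‖ < 1 := by
      refine Filter.Eventually.filter_mono nhdsWithin_le_nhds ?_
      filter_upwards [Metric.ball_mem_nhds (0 : ℂ) one_pos] with z hz using by simpa using hz
    obtain ⟨z, ⟨H, hH, hH0, hHe⟩, hz1, hz0⟩ :=
      (hfr.and_eventually (h1.and self_mem_nhdsWithin)).exists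
    have hz0' : z ≠ 0 := hz0
    have h2 := zero_Fac hf h0 m (F.mem_SF1 c hz1.le)
    have h3 : H (0, z) = 0 := by
      refine eq_of_freq hH (H' := fun _ => 0) continuousAt_const ?_
      filter_upwards [hHe, h2.2] with p h4 h5 h6 _
      rw [h4, mul_zero] at h5
      exact (mul_eq_zero.1 h5).resolve_left (pow_ne_zero _ h6)
    exact hH0 h3
  obtain ⟨v, hv⟩ := F.exists_Ord hg hne
  have hge := hv.ge_of_S hq hm fun j hj => by
    by_cases hjA : j ∈ A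
    · exact (hv.eq_of_Ex (hex j hjA)).ge
    · have h1 := hv.gt_of_Lo (hlo j hjA hj)
      have h2 := hr j hjA hj
      have h3 : ((m j : ℤ) : ℝ) < ((v j : ℤ) : ℝ) + 1 := by push_cast; linarith
      have h4 : (m j : ℤ) < (v j : ℤ) + 1 := by exact_mod_cast h3
      omega
  refine ⟨hv.Ge_of_le hge, fun i hi c p₀ hp hip => ?_⟩
  obtain ⟨h1, h2, h3⟩ := eq_spread hm hv hge (hv.eq_of_Ex (hex e he)) he0 hi
  exact gen_at hv hadj h1 h2 h3 hp hip

/-- **(K3)** : the contradiction of the T-lemma -/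
theorem no_theta (hf : AnalyticAt ℂ f 0) {q : F.I → ℝ} (hq : F.IsP q) (hq0 : q ≠ 0)
    {g : E3 → ℂ} (hg : AnalyticAt ℂ g 0)
    {A : Set F.I} (hA : ∀ j ∈ A, dg F.M q j = 0) (hlo : ∀ j, j ∉ A → Lo F g j (F.nu j))
    {n : F.I → ℕ} (hn : ∀ j ∈ A, (n j : ℤ) = F.nu j) (hex : ∀ j ∈ A, Ex F g j (n j))
    {e : F.I} (he : e ∈ A) (hS : q e = F.nu e) : False := by
  have hne : ∃ᶠ x in 𝓝 (0 : E3), f x = 0 ∧ g x ≠ 0 := by
    by_contra h0
    obtain ⟨c, hc, hfr⟩ := hex e he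
    have h1 : ∀ᶠ z in 𝓝[≠] (0 : ℂ), ‖z‖ < 1 := by
      refine Filter.Eventually.filter_mono nhdsWithin_le_nhds ?_
      filter_upwards [Metric.ball_mem_nhds (0 : ℂ) one_pos] with z hz using by simpa using hz
    obtain ⟨z, ⟨H, hH, hH0, hHe⟩, hz1, hz0⟩ :=
      (hfr.and_eventually (h1.and self_mem_nhdsWithin)).exists
    have hz0' : z ≠ 0 := hz0
    have h2 := zero_Fac hf h0 (fun _ => 0) (F.mem_SF1 c hz1.le)
    have h3 : H (0, z) = 0 := by
      refine eq_of_freq hH (H' := fun _ => 0) continuousAt_const ?_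
      filter_upwards [hHe, h2.2] with p h4 h5 h6 _
      rw [h4, mul_zero] at h5
      exact (mul_eq_zero.1 h5).resolve_left (pow_ne_zero _ h6)
    exact hH0 h3
  obtain ⟨v, hv⟩ := F.exists_Ord hg hne
  have hgt : ∀ j, j ∉ A → (F.nu j : ℝ) < v j := fun j hj => hv.gt_of_Lo (hlo j hj)
  have heq : ∀ j ∈ A, (v j : ℝ) = F.nu j := by
    intro j hj
    rw [hv.eq_of_Ex (hex j hj)]
    exact_mod_cast hn j hj
  have hnu : ∀ j, (F.nu j : ℝ) ≤ v j := by
    intro j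
    by_cases hj : j ∈ A
    · exact (heq j hj).ge
    · exact (hgt j hj).le
  have hle := hq.least hnu hv.1
  have hx0 : ∀ i, 0 ≤ ((fun i => (v i : ℝ)) - q) i := by
    intro i
    simp only [Pi.sub_apply]
    linarith [hle i]
  have hclosed : {i | (v i : ℝ) = q i} = Set.univ := by
    refine F.conn _ ⟨e, by rw [mem_ofPred_eq, heq e he, hS]⟩ ?_
    intro i hi j hij
    have hi' : (v i : ℝ) = q i := hi
    have hqi : dg F.M q i = 0 := by
      by_cases hiA : i ∈ A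
      · exact hA i hiA
      · refine hq.dg_eq i fun h => ?_
        have := hgt i hiA
        rw [hi', h] at this
        exact lt_irrefl _ this
    have hd : dg F.M ((fun i => (v i : ℝ)) - q) i ≤ 0 := by
      rw [dg_sub, hqi, sub_zero]; exact hv.1 i
    have h1 := nbr_zero F.form hx0 (i := i) (by simp only [Pi.sub_apply, hi', sub_self]) hd hij
    simp only [Pi.sub_apply] at h1
    show (v j : ℝ) = q j
    linarith
  apply hq0
  have hdg : ∀ i, dg F.M q i = 0 := by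
    intro i
    have hi : (v i : ℝ) = q i := by
      have : i ∈ {i | (v i : ℝ) = q i} := by rw [hclosed]; exact mem_univ i
      exact this
    by_cases hiA : i ∈ A
    · exact hA i hiA
    · refine hq.dg_eq i fun h => ?_
      have := hgt i hiA
      rw [hi, h] at this
      exact lt_irrefl _ this
  refine sol_unique F.form (S := Set.univ) (fun i hi => absurd (mem_univ i) hi) fun i _ => ?_
  rw [hdg i]
  simp [dg]

end Frame

end Crest.Agent.R257.Fr_808
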