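import Crest.Agent.R257.Gr1_157

/-!
R257 / FrBP1_808: one connected component of an intersection form.

* `cls M e`   : the class of `e` (chains with `M ≠ 0`);
* `rM M A`    : the restriction;
* `iform_rM`, `conn_cls`, `dg_rM`.
-/

set_option autoImplicit false

open Finset

noncomputable section

namespace Crest.Agent.R257.FrBP_808

open Crest.Agent.R257.Gr1_157

variable {ι : Type} [Fintype ι] {M : ι → ι → ℝ}

/-- the class of `e` -/
def cls (M : ι → ι → ℝ) (e : ι) : Set ι := {i | Relation.ReflTransGen (fun a b => M a b ≠ 0) e i}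

/-- restriction -/
def rM (M : ι → ι → ℝ) (A : Set ι) (i j : A) : ℝ := M i j

omit [Fintype ι] in
theorem mem_cls (e : ι) : e ∈ cls M e := Relation.ReflTransGen.refl

omit [Fintype ι] in
theorem cls_step {e i j : ι} (hi : i ∈ cls M e) (h : M i j ≠ 0) : j ∈ cls M e :=
  Relation.ReflTransGen.tail hi h

theorem sum_supp (A : Set ι) [Fintype A] {F : ι → ℝ} (h : ∀ i, i ∉ A → F i = 0) :
    ∑ a : A, F a = ∑ i, F i := by
  classical
  have h1 : ∑ i ∈ Finset.univ.filter (· ∈ A), F i = ∑ i, F i := by
    refine Finset.sum_filter_of_ne fun i _ hi => ?_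
    by_contra h'
    exact hi (h i h')
  rw [← h1]
  exact (Finset.sum_subtype (Finset.univ.filter (· ∈ A)) (fun x => by simp) F).symm

/-- extension by zero -/
def ext0 (A : Set ι) (x : A → ℝ) (i : ι) : ℝ := by
  classical
  exact if h : i ∈ A then x ⟨i, h⟩ else 0

omit [Fintype ι] in
theorem ext0_coe (A : Set ι) (x : A → ℝ) (a : A) : ext0 A x a = x a := by
  unfold ext0
  rw [dif_pos a.2]

omit [Fintype ι] in
theorem ext0_not (A : Set ι) (x : A → ℝ) {i : ι} (h : i ∉ A) : ext0 A x i = 0 := by
  unfold ext0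
  rw [dif_neg h]

theorem dt_rM (A : Set ι) [Fintype A] (x : A → ℝ) :
    dt (rM M A) x x = dt M (ext0 A x) (ext0 A x) := by
  unfold dt
  rw [← sum_supp A (F := fun i => ∑ j, ext0 A x i * (M i j * ext0 A x j))]
  · refine Finset.sum_congr rfl fun a _ => ?_
    rw [← sum_supp A (F := fun j => ext0 A x a * (M a j * ext0 A x j))]
    · refine Finset.sum_congr rfl fun b _ => ?_
      rw [ext0_coe, ext0_coe, rM]
    · intro j hj
      rw [ext0_not A x hj]; ring
  · intro i hi
    refine Finset.sum_eq_zero fun j _ => ?_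
    rw [ext0_not A x hi]; ring

theorem iform_rM (hM : IForm M) (A : Set ι) [Fintype A] : IForm (rM M A) where
  symm := fun i j => hM.symm i j
  off := fun i j hij => hM.off i j fun h => hij (Subtype.ext h)
  neg := fun x hx => by
    rw [dt_rM]
    refine hM.neg _ fun h => hx ?_
    funext a
    have := congrFun h (a : ι)
    rw [ext0_coe] at this
    exact this

theorem dg_rM {A : Set ι} [Fintype A] (hcl : ∀ i ∈ A, ∀ j, M i j ≠ 0 → j ∈ A) (x : ι → ℝ) (a : A) :
    dg (rM M A) (fun j => x j) a = dg M x a := by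
  unfold dg
  rw [← sum_supp A (F := fun j => M a j * x j)]
  · rfl
  · intro j hj
    by_contra hne
    exact hj (hcl a a.2 j (left_ne_zero_of_mul hne))

omit [Fintype ι] in
theorem conn_cls (hs : ∀ i j, M i j = M j i) (e : ι) : Conn (rM M (cls M e)) := by
  intro S hS hcl
  obtain ⟨s, hs0⟩ := hS
  have h1 : Relation.ReflTransGen (fun a b => M a b ≠ 0) (s : ι) e := by
    have h2 : Relation.ReflTransGen (Function.swap fun a b => M a b ≠ 0) (s : ι) e :=
      Relation.reflTransGen_swap.2 s.2
    refine Relation.ReflTransGen.mono (fun a b hab => ?_) _ _ h2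
    show M a b ≠ 0
    rw [hs a b]; exact hab
  have key : ∀ i, Relation.ReflTransGen (fun a b => M a b ≠ 0) (s : ι) i →
      ∃ h : i ∈ cls M e, (⟨i, h⟩ : cls M e) ∈ S := by
    intro i hi
    induction hi with
    | refl => exact ⟨s.2, hs0⟩
    | tail _ hbc ih =>
      obtain ⟨hb, hbS⟩ := ih
      exact ⟨cls_step hb hbc, hcl _ hbS _ hbc⟩
  ext a
  simp only [Set.mem_univ, iff_true]
  obtain ⟨h, h'⟩ := key a (h1.trans a.2)
  exact h'

end Crest.Agent.R257.FrBP_808
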