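import Mathlib

/-!
# Negative definite intersection forms (row 257, part C, leaf C-GR)

`M : ι → ι → K` symmetric with non-negative off-diagonal entries and negative definite.
`dg M x i = ∑ j, M i j * x j` is the degree of the cycle `x` on the curve `i`.

* `nonneg_of` : positivity lemma (a cycle of degree `≤ 0` on the curves of a set `S`, non-negative
  off `S`, is non-negative).
* `pos_of_connected` : strict positivity on a connected configuration.
* `exists_sol` : unique solvability of `dg M x = d` on a subset.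
* `exists_pos_neg` : there is a strictly positive strictly anti-nef cycle.
* `exists_least` : the least anti-nef cycle above a given one (Zariski decomposition).
* `mixed_mono` : monotonicity of the intersection numbers of anti-nef cycles.
* `negDef_of_test` : criterion for negative definiteness.
-/

set_option autoImplicit false
set_option linter.unusedSectionVars false
set_option linter.deprecated false

namespace Crest.Agent.R257.Gr1_157

open Finset

variable {ι : Type*} [Fintype ι] {K : Type*} [Field K] [LinearOrder K] [IsStrictOrderedRing K]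

/-- degree of the cycle `x` on the curve `i` -/
def dg (M : ι → ι → K) (x : ι → K) (i : ι) : K := ∑ j, M i j * x j

/-- intersection number of two cycles -/
def dt (M : ι → ι → K) (x y : ι → K) : K := ∑ i, ∑ j, x i * (M i j * y j)

/-- an intersection form: symmetric, non-negative off the diagonal, negative definite -/
structure IForm (M : ι → ι → K) : Prop where
  symm : ∀ i j, M i j = M j i
  off : ∀ i j, i ≠ j → 0 ≤ M i j
  neg : ∀ x : ι → K, x ≠ 0 → dt M x x < 0

variable {M : ι → ι → K}

lemma dt_eq (x y : ι → K) : dt M x y = ∑ i, x i * dg M y i := by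
  simp [dt, dg, Finset.mul_sum]

lemma dg_add (x y : ι → K) (i : ι) : dg M (x + y) i = dg M x i + dg M y i := by
  simp [dg, mul_add, Finset.sum_add_distrib]

lemma dg_sub (x y : ι → K) (i : ι) : dg M (x - y) i = dg M x i - dg M y i := by
  simp [dg, mul_sub, Finset.sum_sub_distrib]

lemma dg_neg (x : ι → K) (i : ι) : dg M (-x) i = - dg M x i := by
  simp [dg, Finset.sum_neg_distrib]

lemma dg_smul (c : K) (x : ι → K) (i : ι) : dg M (c • x) i = c * dg M x i := by
  simp only [dg, Finset.mul_sum, Pi.smul_apply, smul_eq_mul]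
  exact Finset.sum_congr rfl fun j _ => by ring

lemma dt_comm (h : ∀ i j, M i j = M j i) (x y : ι → K) : dt M x y = dt M y x := by
  unfold dt
  rw [Finset.sum_comm]
  refine Finset.sum_congr rfl fun i _ => Finset.sum_congr rfl fun j _ => ?_
  rw [h j i]; ring

lemma dt_sub_right (x y z : ι → K) : dt M x (y - z) = dt M x y - dt M x z := by
  simp only [dt_eq, dg_sub, mul_sub, Finset.sum_sub_distrib]

lemma dt_add_right (x y z : ι → K) : dt M x (y + z) = dt M x y + dt M x z := by
  simp only [dt_eq, dg_add, mul_add, Finset.sum_add_distrib]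

lemma dt_sub_left (x y z : ι → K) : dt M (x - y) z = dt M x z - dt M y z := by
  simp only [dt_eq, Pi.sub_apply, sub_mul, Finset.sum_sub_distrib]

lemma dt_add_left (x y z : ι → K) : dt M (x + y) z = dt M x z + dt M y z := by
  simp only [dt_eq, Pi.add_apply, add_mul, Finset.sum_add_distrib]

/-- **Positivity lemma.** -/
theorem nonneg_of (hM : IForm M) {x : ι → K} {S : Set ι} (h1 : ∀ i ∈ S, dg M x i ≤ 0)
    (h2 : ∀ i, i ∉ S → 0 ≤ x i) : ∀ i, 0 ≤ x i := by
  classical
  set p : ι → K := fun i => max (x i) 0 with hp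
  set m : ι → K := fun i => max (-x i) 0 with hm
  have hx : x = p - m := by
    funext i
    simp only [hp, hm, Pi.sub_apply]
    rcases le_total (x i) 0 with h | h
    · rw [max_eq_right h, max_eq_left (by linarith)]; ring
    · rw [max_eq_left h, max_eq_right (by linarith)]; ring
  have hm0 : ∀ i, 0 ≤ m i := fun i => le_max_right _ _
  have hp0 : ∀ i, 0 ≤ p i := fun i => le_max_right _ _
  have hpm : ∀ i, m i * p i = 0 := by
    intro i
    simp only [hp, hm]
    rcases le_total (x i) 0 with h | h
    · rw [max_eq_right h]; ring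
    · rw [max_eq_right (by linarith : -x i ≤ 0)]; ring
  have hA : dt M m x ≤ 0 := by
    rw [dt_eq]
    refine Finset.sum_nonpos fun i _ => ?_
    by_cases hi : i ∈ S
    · exact mul_nonpos_of_nonneg_of_nonpos (hm0 i) (h1 i hi)
    · have : m i = 0 := by
        simp only [hm]; exact max_eq_right (by linarith [h2 i hi])
      rw [this]; simp
  have hB : 0 ≤ dt M m p := by
    unfold dt
    refine Finset.sum_nonneg fun i _ => Finset.sum_nonneg fun j _ => ?_
    by_cases hij : i = j
    · subst hij
      have : m i * (M i i * p i) = M i i * (m i * p i) := by ring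
      rw [this, hpm i]; simp
    · exact mul_nonneg (hm0 i) (mul_nonneg (hM.off i j hij) (hp0 j))
  have hC : 0 ≤ dt M m m := by
    have : dt M m x = dt M m p - dt M m m := by rw [hx]; exact dt_sub_right _ _ _
    linarith
  have hm' : m = 0 := by
    by_contra hne
    exact absurd (hM.neg m hne) (not_lt.mpr hC)
  intro i
  have : m i = 0 := by rw [hm']; rfl
  simp only [hm] at this
  have := (max_eq_right_iff.mp this)
  linarith

/-- the diagonal entries are negative -/
lemma diag_neg [DecidableEq ι] (hM : IForm M) (i : ι) : M i i < 0 := by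
  have := hM.neg (Pi.single i 1) (by
    intro h; have := congrFun h i; simp at this)
  have h2 : dt M (Pi.single i 1) (Pi.single i 1) = M i i := by
    rw [dt_eq, Finset.sum_eq_single i]
    · simp [dg, Pi.single_apply]
    · intro j _ hj; simp [hj]
    · simp
  rwa [h2] at this

/-- an anti-nef cycle vanishing at a vertex vanishes at the neighbours -/
lemma nbr_zero (hM : IForm M) {x : ι → K} (h0 : ∀ i, 0 ≤ x i) {i : ι} (hi : x i = 0)
    (hd : dg M x i ≤ 0) {j : ι} (hij : M i j ≠ 0) : x j = 0 := by
  classical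
  by_cases hj : j = i
  · rw [hj]; exact hi
  have hnn : ∀ l ∈ (Finset.univ : Finset ι), 0 ≤ M i l * x l := by
    intro l _
    by_cases hl : i = l
    · rw [← hl, hi]; simp
    · exact mul_nonneg (hM.off i l hl) (h0 l)
  have hz := (Finset.sum_eq_zero_iff_of_nonneg hnn).mp (le_antisymm hd (Finset.sum_nonneg hnn))
  have := hz j (Finset.mem_univ j)
  rcases mul_eq_zero.mp this with h | h
  · exact absurd h hij
  · exact h

/-- connectedness of the configuration: no proper non-empty subset is closed under adjacency -/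
def Conn (M : ι → ι → K) : Prop :=
  ∀ S : Set ι, S.Nonempty → (∀ i ∈ S, ∀ j, M i j ≠ 0 → j ∈ S) → S = Set.univ

/-- **strict positivity** on a connected configuration -/
theorem pos_of_connected (hM : IForm M) (hc : Conn M) {x : ι → K} (hd : ∀ i, dg M x i ≤ 0)
    (hx : x ≠ 0) : ∀ i, 0 < x i := by
  have h0 := nonneg_of hM (S := Set.univ) (x := x) (fun i _ => hd i)
    (fun i hi => absurd (Set.mem_univ i) hi)
  by_contra hne
  push_neg at hne
  obtain ⟨i, hi⟩ := hne
  have hi0 : x i = 0 := le_antisymm hi (h0 i)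
  have : {i | x i = 0} = Set.univ := by
    refine hc _ ⟨i, hi0⟩ ?_
    intro a ha b hab
    exact nbr_zero hM h0 ha (hd a) hab
  apply hx
  funext j
  have : j ∈ {i | x i = 0} := by rw [this]; exact Set.mem_univ j
  exact this

/-- solvability on a subset -/
theorem exists_sol (hM : IForm M) (S : Set ι) (d : ι → K) :
    ∃ x : ι → K, (∀ i, i ∉ S → x i = 0) ∧ ∀ i ∈ S, dg M x i = d i := by
  classical
  let V : Submodule K (ι → K) :=
    { carrier := {x | ∀ i, i ∉ S → x i = 0}
      add_mem' := fun {a b} ha hb i hi => by simp [ha i hi, hb i hi]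
      zero_mem' := fun i _ => rfl
      smul_mem' := fun c a ha i hi => by simp [ha i hi] }
  let T : V →ₗ[K] V :=
    { toFun := fun x => ⟨fun i => if i ∈ S then dg M x.1 i else 0, fun i hi => by simp [hi]⟩
      map_add' := fun a b => by
        ext i
        by_cases hi : i ∈ S <;> simp [hi, dg_add]
      map_smul' := fun c a => by
        ext i
        by_cases hi : i ∈ S <;> simp [hi, dg_smul] }
  have hinj : Function.Injective T := by
    rw [← LinearMap.ker_eq_bot, LinearMap.ker_eq_bot']
    intro x hx
    by_contra hne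
    have hne' : x.1 ≠ 0 := fun h => hne (Subtype.ext h)
    have h1 := hM.neg x.1 hne'
    have h2 : dt M x.1 x.1 = 0 := by
      rw [dt_eq]
      refine Finset.sum_eq_zero fun i _ => ?_
      by_cases hi : i ∈ S
      · have := congrFun (congrArg Subtype.val hx) i
        simp only [T, LinearMap.coe_mk, AddHom.coe_mk, hi, if_true] at this
        rw [this]; simp
      · rw [x.2 i hi]; simp
    linarith
  have hsurj : Function.Surjective T := LinearMap.injective_iff_surjective.mp hinj
  obtain ⟨x, hx⟩ := hsurj ⟨fun i => if i ∈ S then d i else 0, fun i hi => by simp [hi]⟩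
  refine ⟨x.1, x.2, fun i hi => ?_⟩
  have := congrFun (congrArg Subtype.val hx) i
  simpa [T, hi] using this

/-- uniqueness on a subset -/
theorem sol_unique (hM : IForm M) {S : Set ι} {x y : ι → K} (hx : ∀ i, i ∉ S → x i = y i)
    (h : ∀ i ∈ S, dg M x i = dg M y i) : x = y := by
  have h1 := nonneg_of hM (x := x - y) (S := S)
    (fun i hi => by rw [dg_sub, h i hi]; simp) (fun i hi => by simp [hx i hi])
  have h2 := nonneg_of hM (x := y - x) (S := S)
    (fun i hi => by rw [dg_sub, h i hi]; simp) (fun i hi => by simp [hx i hi])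
  funext i
  have := h1 i; have := h2 i
  simp only [Pi.sub_apply] at *
  linarith

/-- prescribed degrees -/
theorem exists_dg (hM : IForm M) (d : ι → K) : ∃ x : ι → K, ∀ i, dg M x i = d i := by
  obtain ⟨x, -, hx⟩ := exists_sol hM Set.univ d
  exact ⟨x, fun i => hx i (Set.mem_univ i)⟩

/-- there is a strictly positive, strictly anti-nef cycle -/
theorem exists_pos_neg (hM : IForm M) : ∃ h : ι → K, (∀ i, 0 < h i) ∧ ∀ i, dg M h i < 0 := by
  classical
  obtain ⟨h, hh⟩ := exists_dg hM (fun _ => -1)
  have h0 := nonneg_of hM (S := Set.univ) (x := h) (fun i _ => by rw [hh i]; norm_num)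
    (fun i hi => absurd (Set.mem_univ i) hi)
  refine ⟨h, fun i => ?_, fun i => by rw [hh i]; norm_num⟩
  refine lt_of_le_of_ne (h0 i) fun hi => ?_
  have : 0 ≤ dg M h i := by
    unfold dg
    refine Finset.sum_nonneg fun j _ => ?_
    by_cases hij : i = j
    · rw [← hij, ← hi]; simp
    · exact mul_nonneg (hM.off i j hij) (h0 j)
  rw [hh i] at this
  linarith [this]

/-- a cycle, strictly positive everywhere, of degree `0` on the curves of a proper subset and
negative on the others -/
theorem exists_pos_trivial_on (hM : IForm M) (hc : Conn M) (T : Set ι) (hT : T ≠ Set.univ) :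
    ∃ z : ι → K, (∀ i, 0 < z i) ∧ (∀ i ∈ T, dg M z i = 0) ∧ ∀ i, i ∉ T → dg M z i < 0 := by
  classical
  obtain ⟨z, hz⟩ := exists_dg hM (fun i => if i ∈ T then 0 else -1)
  have hle : ∀ i, dg M z i ≤ 0 := by
    intro i; rw [hz i]; split_ifs <;> norm_num
  refine ⟨z, pos_of_connected hM hc hle ?_, fun i hi => by rw [hz i, if_pos hi],
    fun i hi => by rw [hz i, if_neg hi]; norm_num⟩
  intro h0
  obtain ⟨i, hi⟩ : ∃ i, i ∉ T := by
    by_contra hcon
    push_neg at hcon
    exact hT (Set.eq_univ_of_forall hcon)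
  have := hz i
  rw [h0, if_neg hi] at this
  simp [dg] at this

/-- **Zariski decomposition**: the least anti-nef cycle above `v`. -/
theorem exists_least (hM : IForm M) (v : ι → K) :
    ∃ q : ι → K, (∀ i, v i ≤ q i) ∧ (∀ i, dg M q i ≤ 0) ∧ (∀ i, q i ≠ v i → dg M q i = 0) ∧
      ∀ y : ι → K, (∀ i, v i ≤ y i) → (∀ i, dg M y i ≤ 0) → ∀ i, q i ≤ y i := by
  classical
  -- good sets
  let Q : Finset ι → Prop := fun S => ∀ x : ι → K, (∀ i, i ∉ S → x i = 0) →
    (∀ i ∈ S, dg M x i = - dg M v i) → ∀ i, 0 ≤ x i
  have hQ0 : Q ∅ := by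
    intro x hx _ i
    rw [hx i (Finset.notMem_empty i)]
  obtain ⟨S, hS, hmax⟩ : ∃ S, Q S ∧ ∀ S', Q S' → S ⊆ S' → S' = S := by
    obtain ⟨S, hS1, hS2⟩ := Finset.exists_max_image ((Finset.univ : Finset (Finset ι)).filter Q)
      Finset.card ⟨∅, by simp [hQ0]⟩
    refine ⟨S, (Finset.mem_filter.mp hS1).2, fun S' hS' hsub => ?_⟩
    exact (Finset.eq_of_subset_of_card_le hsub
      (hS2 S' (Finset.mem_filter.mpr ⟨Finset.mem_univ _, hS'⟩))).symm
  obtain ⟨N, hN0, hN1⟩ := exists_sol hM (↑S : Set ι) (fun i => - dg M v i)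
  have hN0' : ∀ i, i ∉ S → N i = 0 := fun i hi => hN0 i (by simpa using hi)
  have hN1' : ∀ i ∈ S, dg M N i = - dg M v i := fun i hi => hN1 i (by simpa using hi)
  have hNn := hS N hN0' hN1'
  have hnef : ∀ i, dg M N i + dg M v i ≤ 0 := by
    intro i
    by_contra hlt
    push_neg at hlt
    have hiS : i ∉ S := by
      intro hi; rw [hN1' i hi] at hlt; simp at hlt
    have hQ' : Q (insert i S) := by
      intro x hx0 hx1
      have hd : ∀ j, 0 ≤ (x - N) j := by
        refine nonneg_of hM (S := (↑(insert i S) : Set ι)) ?_ ?_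
        · intro j hj
          have hj' : j ∈ insert i S := by simpa using hj
          rw [dg_sub, hx1 j hj']
          rcases Finset.mem_insert.mp hj' with h | h
          · rw [h]; linarith
          · rw [hN1' j h]; simp
        · intro j hj
          have hj' : j ∉ insert i S := by simpa using hj
          have : j ∉ S := fun h => hj' (Finset.mem_insert_of_mem h)
          simp [hx0 j hj', hN0' j this]
      intro j
      have := hd j
      simp only [Pi.sub_apply] at this
      linarith [hNn j]
    have := hmax _ hQ' (Finset.subset_insert i S)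
    exact hiS (this ▸ Finset.mem_insert_self i S)
  refine ⟨v + N, fun i => by simp [hNn i], fun i => by rw [dg_add]; linarith [hnef i], ?_, ?_⟩
  · intro i hi
    have hiS : i ∈ S := by
      by_contra h
      apply hi; simp [hN0' i h]
    rw [dg_add, hN1' i hiS]; ring
  · intro y hy1 hy2
    have hd : ∀ i, 0 ≤ (y - (v + N)) i := by
      refine nonneg_of hM (S := {i | i ∈ S}) ?_ ?_
      · intro i hi
        rw [dg_sub, dg_add, hN1' i hi]
        linarith [hy2 i]
      · intro i hi
        have : i ∉ S := hi
        simp only [Pi.sub_apply, Pi.add_apply, hN0' i this]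
        linarith [hy1 i]
    intro i
    have := hd i
    simp only [Pi.sub_apply] at this
    linarith

/-- uniqueness of the Zariski decomposition -/
theorem least_unique (hM : IForm M) {v q q' : ι → K} (h1 : ∀ i, v i ≤ q i)
    (h2 : ∀ i, dg M q i ≤ 0) (h3 : ∀ i, q i ≠ v i → dg M q i = 0) (h1' : ∀ i, v i ≤ q' i)
    (h2' : ∀ i, dg M q' i ≤ 0) (h3' : ∀ i, q' i ≠ v i → dg M q' i = 0) : q = q' := by
  have key : ∀ {a b : ι → K}, (∀ i, v i ≤ a i) → (∀ i, dg M a i ≤ 0) →
      (∀ i, b i ≠ v i → dg M b i = 0) → ∀ i, 0 ≤ (a - b) i := by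
    intro a b ha1 ha2 hb3
    refine nonneg_of hM (S := {i | b i ≠ v i}) ?_ ?_
    · intro i hi
      rw [dg_sub, hb3 i hi]; linarith [ha2 i]
    · intro i hi
      have : b i = v i := by simpa using hi
      simp only [Pi.sub_apply, this]; linarith [ha1 i]
  have A := key h1 h2 h3'
  have B := key h1' h2' h3
  funext i
  have := A i; have := B i
  simp only [Pi.sub_apply] at *
  linarith

/-- monotonicity of the intersection numbers of anti-nef cycles -/
theorem mixed_mono (hM : IForm M) {q y y' : ι → K} (hq : ∀ i, dg M q i ≤ 0)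
    (hy' : ∀ i, dg M y' i ≤ 0) (h1 : ∀ i, q i ≤ y i) (h2 : ∀ i, q i ≤ y' i) :
    - dt M q q ≤ - dt M y y' := by
  have e1 : dt M y y' ≤ dt M q y' := by
    rw [dt_eq, dt_eq]
    exact Finset.sum_le_sum fun i _ => mul_le_mul_of_nonpos_right (h1 i) (hy' i)
  have e2 : dt M q y' ≤ dt M q q := by
    rw [dt_comm hM.symm q y', dt_eq, dt_eq]
    exact Finset.sum_le_sum fun i _ => mul_le_mul_of_nonpos_right (h2 i) (hq i)
  linarith

/-- criterion for negative definiteness -/
theorem negDef_of_test [DecidableEq ι] (symm : ∀ i j, M i j = M j i)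
    (off : ∀ i j, i ≠ j → 0 ≤ M i j) {h : ι → K} (hpos : ∀ i, 0 < h i)
    (hneg : ∀ i, dg M h i < 0) : IForm M := by
  refine ⟨symm, off, fun x hx => ?_⟩
  obtain ⟨i₀, hi₀⟩ : ∃ i, x i ≠ 0 := by
    by_contra hcon; push_neg at hcon; exact hx (funext hcon)
  -- 2 * dt x x = - ∑ M h h (x/h - x/h)^2 + 2 ∑ dg h / h * x^2
  have key : 2 * dt M x x = - (∑ i, ∑ j, M i j * (h i * h j) * (x i / h i - x j / h j) ^ 2)
      + 2 * ∑ i, dg M h i / h i * x i ^ 2 := by
    have e1 : ∀ i j, M i j * (h i * h j) * (x i / h i - x j / h j) ^ 2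
        = M i j * h j / h i * x i ^ 2 + M i j * h i / h j * x j ^ 2 - 2 * (x i * (M i j * x j)) := by
      intro i j
      have := (hpos i).ne'
      have := (hpos j).ne'
      field_simp
      ring
    have e2 : ∑ i, ∑ j, M i j * h j / h i * x i ^ 2 = ∑ i, dg M h i / h i * x i ^ 2 := by
      refine Finset.sum_congr rfl fun i _ => ?_
      simp only [dg, Finset.sum_div, Finset.sum_mul]
    have e3 : ∑ i, ∑ j, M i j * h i / h j * x j ^ 2 = ∑ i, dg M h i / h i * x i ^ 2 := by
      rw [Finset.sum_comm, ← e2]
      refine Finset.sum_congr rfl fun i _ => Finset.sum_congr rfl fun j _ => ?_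
      rw [symm j i]
    simp only [e1, Finset.sum_sub_distrib, Finset.sum_add_distrib, e2, e3]
    rw [show (∑ i, ∑ j, 2 * (x i * (M i j * x j))) = 2 * dt M x x by
      simp [dt, Finset.mul_sum]]
    ring
  have s1 : 0 ≤ ∑ i, ∑ j, M i j * (h i * h j) * (x i / h i - x j / h j) ^ 2 := by
    refine Finset.sum_nonneg fun i _ => Finset.sum_nonneg fun j _ => ?_
    by_cases hij : i = j
    · rw [hij]; simp
    · exact mul_nonneg (mul_nonneg (off i j hij) (mul_pos (hpos i) (hpos j)).le) (sq_nonneg _)
  have s2 : ∑ i, dg M h i / h i * x i ^ 2 < 0 := by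
    refine Finset.sum_neg' (fun i _ => ?_) ⟨i₀, Finset.mem_univ _, ?_⟩
    · exact mul_nonpos_of_nonpos_of_nonneg (div_nonpos_of_nonpos_of_nonneg (hneg i).le (hpos i).le)
        (sq_nonneg _)
    · exact mul_neg_of_neg_of_pos (div_neg_of_neg_of_pos (hneg i₀) (hpos i₀)) (by positivity)
  linarith

end Crest.Agent.R257.Gr1_157
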