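import Crest.Agent.R257.XFDefs_157
import Crest.Agent.R257.Gr1_157

/-!
R257 / FrDefs_808: the abstract frame of part C (interface between the geometric construction of the
charts and the exact pair).

* `BD`          : the closed unit bidisc;
* `jac2 F p`    : the determinant of `D (F_1, F_2)` at `p`;
* `Frame f`     : a finite system of charts `th c : bidisc → {f = 0}` of a (base changed) resolution of
                  `{f = 0}` near `0`, with the graph `(I, M)`, the orders `nu` of `eta`, the orders of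
                  functions and the degree formula `ord`;
* `Frame.SF c`  : the special fibre in the chart `c`;
* `Frame.mo a c p` : the monomial `p.1 ^ a (e1 c) * p.2 ^ a (e2 c)`;
* `Frame.IsP q` : `q` is the least `q ≥ nu` with `dg M q ≤ 0`;
* `Frame.Ord g v` : `v` are the orders of `g`;
* `Frame.BPF`   : base point freeness of `k q` (pointwise form);
* `EPof`        : the statement produced by the files `Fr*_808`.
-/

set_option autoImplicit false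

open Topology Filter MeasureTheory Set
open Crest.AlgGeometry.Germ

noncomputable section

namespace Crest.Agent.R257.Fr_808

open Crest.Agent.R257.Defs_219
open Crest.Agent.R257.Gr1_157

/-- the closed unit bidisc -/
def BD : Set (ℂ × ℂ) := {p | ‖p.1‖ ≤ 1 ∧ ‖p.2‖ ≤ 1}

/-- the determinant of the derivative of `(F_1, F_2)` -/
def jac2 (F : ℂ × ℂ → E3) (p : ℂ × ℂ) : ℂ :=
  fderiv ℂ F p (1, 0) 1 * fderiv ℂ F p (0, 1) 2 - fderiv ℂ F p (1, 0) 2 * fderiv ℂ F p (0, 1) 1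

/-- the special fibre `{α = 0} ∪ {β = 0}`, the second branch only if it is exceptional -/
def SFib {I : Type} (e : Option I) : Set (ℂ × ℂ) :=
  {p | p ∈ BD ∧ (p.1 = 0 ∨ (e ≠ none ∧ p.2 = 0))}

/-- exponent on the second branch, `0` if it is not exceptional -/
def ex2 {I : Type} (a : I → ℕ) (e : Option I) : ℕ := e.elim 0 a

/-- A frame of `{f = 0}` near `0`. -/
structure Frame (f : E3 → ℂ) where
  /-- exceptional components -/
  I : Type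
  fI : Fintype I
  /-- minus the weighted graph Laplacian (value `0` on the non exceptional curves) -/
  M : I → I → ℝ
  form : IForm M
  conn : Conn M
  /-- `eta = s^(-nu) (ds/s) ∧ omega` -/
  nu : I → ℤ
  /-- charts -/
  K : Type
  fK : Fintype K
  th : K → ℂ × ℂ → E3
  /-- the component `{α = 0}` -/
  e1 : K → I
  /-- the component `{β = 0}`; `none` if it is not exceptional -/
  e2 : K → Option I
  nu2 : K → ℤ
  nu2_some : ∀ c i, e2 c = some i → nu2 c = nu i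
  nu2_none : ∀ c, e2 c = none → nu2 c ≤ -1
  surj : ∀ i, ∃ c, e1 c = i
  an : ∀ c, ∀ p ∈ BD, AnalyticAt ℂ (th c) p
  onV : ∀ c, ∀ p ∈ BD, f (th c p) = 0
  zero : ∀ c, ∀ p ∈ BD, th c p = 0 ↔ p ∈ SFib (e2 c)
  cover : ∃ ρ : ℝ, 0 < ρ ∧ ∀ x, x ≠ 0 → ‖x‖ < ρ → f x = 0 → ∃ c, ∃ p ∈ BD, th c p = x
  mult : ∃ N : ℕ, ∀ c x, x ≠ 0 → {p | p ∈ BD ∧ th c p = x}.encard ≤ N
  /-- `eta` in the charts: `eta = α^(-nu-1) β^(-nu2-1) unit dα ∧ dβ` -/
  jac : ∀ c, ∀ p₀ ∈ SFib (e2 c), ∃ U : ℂ × ℂ → ℂ, AnalyticAt ℂ U p₀ ∧ U p₀ ≠ 0 ∧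
    ∀ᶠ p in 𝓝 p₀, p.1 ≠ 0 → p.2 ≠ 0 →
      coordDeriv f 0 (th c p) ≠ 0 ∧
      jac2 (th c) p = coordDeriv f 0 (th c p) * p.1 ^ (-nu (e1 c) - 1) * p.2 ^ (-nu2 c - 1) * U p
  /-- orders of functions and the degree formula on the exceptional components -/
  ord : ∀ g : E3 → ℂ, AnalyticAt ℂ g 0 → (∃ᶠ x in 𝓝 (0 : E3), f x = 0 ∧ g x ≠ 0) →
    ∃ v : I → ℕ, (∀ i, @dg I fI ℝ _ M (fun i => (v i : ℝ)) i ≤ 0) ∧
      ∀ c, ∀ p₀ ∈ SFib (e2 c), ∃ G : ℂ × ℂ → ℂ, AnalyticAt ℂ G p₀ ∧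
        (∀ᶠ p in 𝓝 p₀, g (th c p) = p.1 ^ v (e1 c) * p.2 ^ ex2 v (e2 c) * G p) ∧
        (p₀.1 = 0 → (∃ᶠ z in 𝓝 p₀.2, G (0, z) ≠ 0) ∧
          (@dg I fI ℝ _ M (fun i => (v i : ℝ)) (e1 c) = 0 → G p₀ ≠ 0)) ∧
        (∀ i, e2 c = some i → p₀.2 = 0 → (∃ᶠ z in 𝓝 p₀.1, G (z, 0) ≠ 0) ∧
          (@dg I fI ℝ _ M (fun i => (v i : ℝ)) i = 0 → G p₀ ≠ 0))

attribute [instance] Frame.fI Frame.fK

namespace Frame

variable {f : E3 → ℂ} (F : Frame f)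

/-- the special fibre in the chart `c` -/
def SF (c : F.K) : Set (ℂ × ℂ) := SFib (F.e2 c)

/-- the monomial of the cycle `a` in the chart `c` -/
def mo (a : F.I → ℕ) (c : F.K) (p : ℂ × ℂ) : ℂ := p.1 ^ a (F.e1 c) * p.2 ^ ex2 a (F.e2 c)

/-- the least `q ≥ nu` with `dg M q ≤ 0` -/
structure IsP (q : F.I → ℝ) : Prop where
  ge : ∀ i, (F.nu i : ℝ) ≤ q i
  dg_le : ∀ i, dg F.M q i ≤ 0
  dg_eq : ∀ i, q i ≠ F.nu i → dg F.M q i = 0

theorem exists_P : ∃ q, F.IsP q := by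
  obtain ⟨q, h1, h2, h3, -⟩ := exists_least F.form (fun i => (F.nu i : ℝ))
  exact ⟨q, h1, h2, h3⟩

variable {F}

theorem IsP.unique {q q' : F.I → ℝ} (h : F.IsP q) (h' : F.IsP q') : q = q' :=
  least_unique F.form h.ge h.dg_le h.dg_eq h'.ge h'.dg_le h'.dg_eq

theorem IsP.least {q : F.I → ℝ} (h : F.IsP q) {y : F.I → ℝ} (h1 : ∀ i, (F.nu i : ℝ) ≤ y i)
    (h2 : ∀ i, dg F.M y i ≤ 0) (i : F.I) : q i ≤ y i := by
  obtain ⟨q', a1, a2, a3, a4⟩ := exists_least F.form (fun i => (F.nu i : ℝ))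
  have : q = q' := h.unique ⟨a1, a2, a3⟩
  rw [this]
  exact a4 y h1 h2 i

variable (F)

/-- `g ∘ th = (monomial a) * G` near `p₀` -/
def Fac (g : E3 → ℂ) (a : F.I → ℕ) (c : F.K) (p₀ : ℂ × ℂ) (G : ℂ × ℂ → ℂ) : Prop :=
  AnalyticAt ℂ G p₀ ∧ ∀ᶠ p in 𝓝 p₀, g (F.th c p) = F.mo a c p * G p

/-- `v(g) ≥ a` on all exceptional components -/
def Ge (g : E3 → ℂ) (a : F.I → ℕ) : Prop := ∀ c, ∀ p₀ ∈ F.SF c, ∃ G, F.Fac g a c p₀ G

/-- `v(g) ≥ a` and `g` generates the sections of order `a` at `p₀` -/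
def Gen (g : E3 → ℂ) (a : F.I → ℕ) (c : F.K) (p₀ : ℂ × ℂ) : Prop :=
  ∃ G, F.Fac g a c p₀ G ∧ G p₀ ≠ 0

/-- **base point freeness** of `k q` (pointwise form: the function may depend on the point) -/
def BPF : Prop := ∃ (q : F.I → ℝ) (k : ℕ) (m : F.I → ℕ), F.IsP q ∧ 2 ≤ k ∧
  (∀ i, (m i : ℝ) = k * q i) ∧
  ∀ c, ∀ p₀ ∈ F.SF c, ∃ g : E3 → ℂ, AnalyticAt ℂ g 0 ∧ F.Ge g m ∧ F.Gen g m c p₀

end Frame

/-- the inequality (JU) -/
def JU (f : E3 → ℂ) (k : ℕ) (g h : E3 → ℂ) : Prop := ∃ C r : ℝ, 0 < r ∧ ∀ x, ‖x‖ < r → f x = 0 →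
  ‖Dt f g h x‖ ^ 2 ≤ C * (‖g x‖ ^ 2 + ‖h x‖ ^ 2) ^ (2 + 1 / (k : ℝ))

/-- the output of the files `Fr*_808` -/
def EPof : Prop := ∀ (f : E3 → ℂ), Iso f → 0 < mstar f → ∀ F : Frame f, F.BPF →
  ∃ (k : ℕ) (g h : E3 → ℂ), XF_157.Exact f k g h ∧ JU f k g h

end Crest.Agent.R257.Fr_808
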