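import Crest.Agent.R257.LCDefs_472
import Crest.Agent.R275.Loc2A_879

/-!
R257 / NodeA_547: tools for the log canonical case (task M3-NODE).

* `ift`: analytic implicit function theorem, hypothesis = injectivity of the partial derivative;
* `no_isolated`: an analytic function of two variables has no isolated zero;
* `anG`, `cd_eq`: the partial derivatives of the slices of an analytic family;
* `hasDerivAt_ray`: derivative along a ray;
* `H3_symm12`, `H3_symm23`: symmetry of the third derivatives;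
* `ray_div`: `∂_i F(w u, t) = w (∑ H2 i j u_j) + w² q_i(u,t,w)` with `q_i` analytic, and the value
  `q_i(u,0,0) = ½ ∑ H3 i j k u_j u_k`.
-/

set_option autoImplicit false

open Topology Filter Set Metric
open scoped ContDiff
open Crest.AlgGeometry.Germ

noncomputable section

namespace Crest.Agent.R257.Node_547

open Crest.Agent.R257.Defs_219 Crest.Agent.R257.LCDefs_472

/-! ### implicit functions, isolated zeros -/

/-- the analytic implicit function theorem -/
theorem ift {E₁ E₂ : Type*} [NormedAddCommGroup E₁] [NormedSpace ℂ E₁] [CompleteSpace E₁]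
    [NormedAddCommGroup E₂] [NormedSpace ℂ E₂] [FiniteDimensional ℂ E₂]
    {f : E₁ × E₂ → E₂} {a : E₁} {b : E₂} (hf : AnalyticAt ℂ f (a, b))
    (hi : ∀ y, fderiv ℂ f (a, b) (0, y) = 0 → y = 0) :
    ∃ ψ : E₁ → E₂, AnalyticAt ℂ ψ a ∧ ψ a = b ∧ ∀ᶠ x in 𝓝 a, f (x, ψ x) = f (a, b) := by
  have : CompleteSpace E₂ := FiniteDimensional.complete ℂ E₂
  have hc : ContDiffAt ℂ ω f (a, b) := hf.contDiffAt
  set L : E₂ →L[ℂ] E₂ := fderiv ℂ f (a, b) ∘L .inr ℂ E₁ E₂ with hL
  have hinj : Function.Injective L := by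
    refine (injective_iff_map_eq_zero L).2 (fun y hy => hi y ?_)
    simpa [hL] using hy
  have hinv : L.IsInvertible := by
    let e : E₂ ≃ₗ[ℂ] E₂ := LinearEquiv.ofInjectiveEndo (L : E₂ →ₗ[ℂ] E₂) hinj
    refine ⟨e.toContinuousLinearEquiv, ?_⟩
    ext y
    rfl
  refine ⟨hc.implicitFunction (by simp) hinv, ?_, hc.implicitFunction_apply_self _ _,
    hc.eventually_apply_implicitFunction _ _⟩
  exact (hc.contDiffAt_implicitFunction _ _).analyticAt

/-- an analytic function of two variables has no isolated zero -/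
theorem no_isolated {K : ℂ × ℂ → ℂ} (hK : AnalyticAt ℂ K (0, 0)) (h0 : K (0, 0) = 0)
    (h : ∀ᶠ p in 𝓝 ((0 : ℂ), (0 : ℂ)), K p = 0 → p = (0, 0)) : False := by
  obtain ⟨ε, hε, hb⟩ := Metric.eventually_nhds_iff_ball.1 (hK.eventually_analyticAt.and h)
  set r : ℝ := ε / 2 with hr
  have hr0 : 0 < r := by positivity
  have hmem : ∀ z t : ℂ, ‖z‖ ≤ r → ‖t‖ ≤ r → (z, t) ∈ ball ((0 : ℂ), (0 : ℂ)) ε := by
    intro z t hz ht
    rw [← ball_prod_same]
    refine ⟨?_, ?_⟩
    · rw [mem_ball_zero_iff]; linarith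
    · rw [mem_ball_zero_iff]; linarith
  -- lower bound on the circle
  have hcont : ContinuousOn (fun z : ℂ => ‖K (z, 0)‖) (sphere 0 r) := by
    intro z hz
    have h1 := (hb _ (hmem z 0 (by simpa using hz.le) (by simpa using hr0.le))).1
    have h2 : ContinuousAt (fun z : ℂ => K (z, 0)) z :=
      ContinuousAt.comp (g := K) (f := fun z : ℂ => (z, (0 : ℂ))) h1.continuousAt
        (by fun_prop)
    exact h2.norm.continuousWithinAt
  obtain ⟨z₀, hz₀, hmin⟩ := (isCompact_sphere (0 : ℂ) r).exists_isMinOn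
    (NormedSpace.sphere_nonempty.2 hr0.le) hcont
  set m : ℝ := ‖K (z₀, 0)‖ with hm
  have hm0 : 0 < m := by
    refine norm_pos_iff.2 (fun hz => ?_)
    have h1 := (hb _ (hmem z₀ 0 (by simpa using hz₀.le) (by simpa using hr0.le))).2 hz
    have h2 : z₀ = 0 := congrArg Prod.fst h1
    rw [h2] at hz₀
    simp at hz₀
    linarith
  have hunif : ∀ᶠ t in 𝓝 (0 : ℂ), ∀ z ∈ sphere (0 : ℂ) r, m / 2 < ‖K (z, t)‖ := by
    refine (isCompact_sphere (0 : ℂ) r).eventually_forall_of_forall_eventually ?_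
    intro z hz
    have h1 := (hb _ (hmem z 0 (by simpa using hz.le) (by simpa using hr0.le))).1
    have h2 : m / 2 < ‖K (z, 0)‖ := by
      have := hmin hz
      simp only [mem_ofPred_eq] at this
      linarith
    have h3 : ContinuousAt (fun p : ℂ × ℂ => ‖K (p.2, p.1)‖) (0, z) := by
      refine ContinuousAt.norm ?_
      exact ContinuousAt.comp (g := K) (f := fun p : ℂ × ℂ => (p.2, p.1)) h1.continuousAt
        (by fun_prop)
    exact h3.eventually (lt_mem_nhds h2)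
  have hsmall : ∀ᶠ t in 𝓝 (0 : ℂ), ‖K (0, t)‖ < m / 2 := by
    have h3 : ContinuousAt (fun t : ℂ => ‖K (0, t)‖) 0 := by
      refine ContinuousAt.norm ?_
      exact ContinuousAt.comp (g := K) (f := fun t : ℂ => ((0 : ℂ), t)) hK.continuousAt
        (by fun_prop)
    refine h3.eventually (gt_mem_nhds ?_)
    show ‖K (0, 0)‖ < m / 2
    rw [h0, norm_zero]
    positivity
  have hnorm : ∀ᶠ t in 𝓝 (0 : ℂ), ‖t‖ ≤ r := by
    filter_upwards [Metric.closedBall_mem_nhds (0 : ℂ) hr0] with t ht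
    simpa using ht
  obtain ⟨t, ⟨⟨h1, h2⟩, h3⟩, h4⟩ :=
    (((hunif.and hsmall).and hnorm).filter_mono nhdsWithin_le_nhds |>.and
      (self_mem_nhdsWithin : {(0 : ℂ)}ᶜ ∈ 𝓝[≠] (0 : ℂ))).exists
  have h4' : t ≠ 0 := h4
  have hK0 : ∀ z ∈ closedBall (0 : ℂ) r, K (z, t) ≠ 0 := by
    intro z hz hz0
    have := (hb _ (hmem z t (by simpa using hz) h3)).2 hz0
    exact h4' (congrArg Prod.snd this)
  have hd : DiffContOnCl ℂ (fun z : ℂ => (K (z, t))⁻¹) (ball 0 r) := by
    refine DifferentiableOn.diffContOnCl ?_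
    rw [closure_ball _ hr0.ne']
    intro z hz
    have ha := (hb _ (hmem z t (by simpa using hz) h3)).1
    have hdK : DifferentiableAt ℂ (fun z : ℂ => K (z, t)) z :=
      DifferentiableAt.comp (g := K) (f := fun z : ℂ => (z, t)) z ha.differentiableAt
        (by fun_prop)
    exact (hdK.inv (hK0 z hz)).differentiableWithinAt
  have hle := Complex.norm_le_of_forall_mem_frontier_norm_le (U := ball (0 : ℂ) r)
    isBounded_ball hd (C := (m / 2)⁻¹) (by
      intro z hz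
      rw [frontier_ball _ hr0.ne'] at hz
      rw [norm_inv]
      exact inv_anti₀ (by positivity) (h1 z hz).le) (z := 0) (by
      rw [closure_ball _ hr0.ne']
      exact mem_closedBall_self hr0.le)
  rw [norm_inv] at hle
  have hpos : 0 < ‖K (0, t)‖ := norm_pos_iff.2 (hK0 0 (mem_closedBall_self hr0.le))
  have := (inv_le_inv₀ hpos (by positivity)).1 hle
  linarith

/-! ### partial derivatives -/

variable {n : ℕ}

theorem fderiv_apply_eq (f : (Fin n → ℂ) → ℂ) (x u : Fin n → ℂ) :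
    fderiv ℂ f x u = ∑ j, u j * coordDeriv f j x := by
  conv_lhs => rw [pi_eq_sum_univ' u, map_sum]
  refine Finset.sum_congr rfl (fun j _ => ?_)
  have : (fun i => if j = i then (1 : ℂ) else 0) = Pi.single j 1 := by
    funext i
    by_cases h : j = i
    · subst h; simp
    · simp [h]
  rw [map_smul, smul_eq_mul, coordDeriv]

theorem an_cd {f : (Fin n → ℂ) → ℂ} {x : Fin n → ℂ} (hf : AnalyticAt ℂ f x) (i : Fin n) :
    AnalyticAt ℂ (coordDeriv f i) x :=
  ((ContinuousLinearMap.apply ℂ ℂ (Pi.single i (1 : ℂ) : Fin n → ℂ)).analyticAt _).comp hf.fderiv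

/-- derivative along a ray -/
theorem hasDerivAt_ray {f : (Fin n → ℂ) → ℂ} (hf : AnalyticAt ℂ f 0) (u : Fin n → ℂ) :
    ∀ᶠ w in 𝓝 (0 : ℂ), HasDerivAt (fun w : ℂ => f (w • u)) (∑ j, u j * coordDeriv f j (w • u)) w := by
  have ht : Tendsto (fun w : ℂ => w • u) (𝓝 0) (𝓝 0) := by
    have : ContinuousAt (fun w : ℂ => w • u) 0 := by fun_prop
    simpa [ContinuousAt] using this
  filter_upwards [ht.eventually hf.eventually_analyticAt] with w hw
  rw [← fderiv_apply_eq]
  have h1 : HasDerivAt (fun w : ℂ => w • u) u w := by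
    simpa using (hasDerivAt_id w).smul_const u
  exact hw.differentiableAt.hasFDerivAt.comp_hasDerivAt w h1

theorem cd_symm {f : (Fin n → ℂ) → ℂ} {x : Fin n → ℂ} (hf : AnalyticAt ℂ f x) (i j : Fin n) :
    coordDeriv (coordDeriv f i) j x = coordDeriv (coordDeriv f j) i x := by
  have hs : IsSymmSndFDerivAt ℂ f x :=
    (hf.contDiffAt (n := ω)).isSymmSndFDerivAt (by simp)
  have key : ∀ i j, coordDeriv (coordDeriv f i) j x =
      fderiv ℂ (fderiv ℂ f) x (Pi.single j 1) (Pi.single i 1) := by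
    intro i j
    have hd : HasFDerivAt (fderiv ℂ f) (fderiv ℂ (fderiv ℂ f) x) x :=
      hf.fderiv.differentiableAt.hasFDerivAt
    have h2 := ((ContinuousLinearMap.apply ℂ ℂ (Pi.single i (1 : ℂ) : Fin n → ℂ)).hasFDerivAt
      (x := fderiv ℂ f x)).comp x hd
    have h3 : HasFDerivAt (coordDeriv f i) ((ContinuousLinearMap.apply ℂ ℂ
      (Pi.single i (1 : ℂ) : Fin n → ℂ)).comp (fderiv ℂ (fderiv ℂ f) x)) x := h2
    rw [coordDeriv, h3.fderiv]
    rfl
  rw [key, key]
  exact hs _ _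

/-- the third derivatives are symmetric in the first two indices -/
theorem H3_symm12 {f : (Fin n → ℂ) → ℂ} (hf : AnalyticAt ℂ f 0) (i j k : Fin n) :
    H3 f i j k = H3 f j i k := by
  have h : coordDeriv (coordDeriv f i) j =ᶠ[𝓝 0] coordDeriv (coordDeriv f j) i := by
    filter_upwards [hf.eventually_analyticAt] with x hx
    exact cd_symm hx i j
  unfold H3
  rw [coordDeriv, coordDeriv, h.fderiv_eq]

/-- the third derivatives are symmetric in the last two indices -/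
theorem H3_symm23 {f : (Fin n → ℂ) → ℂ} (hf : AnalyticAt ℂ f 0) (i j k : Fin n) :
    H3 f i j k = H3 f i k j :=
  cd_symm (an_cd hf i) j k

/-- partial derivative of the slices, as a function of `(x,t)` -/
def Gp (F : (Fin n → ℂ) × ℂ → ℂ) (i : Fin n) (p : (Fin n → ℂ) × ℂ) : ℂ :=
  fderiv ℂ F p (Pi.single i 1, 0)

theorem an_Gp {F : (Fin n → ℂ) × ℂ → ℂ} {p : (Fin n → ℂ) × ℂ} (hF : AnalyticAt ℂ F p)
    (i : Fin n) : AnalyticAt ℂ (Gp F i) p :=
  ((ContinuousLinearMap.apply ℂ ℂ ((Pi.single i (1 : ℂ) : Fin n → ℂ), (0 : ℂ))).analyticAt _).comp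
    hF.fderiv

theorem an_sl {F : (Fin n → ℂ) × ℂ → ℂ} {x : Fin n → ℂ} {t : ℂ} (hF : AnalyticAt ℂ F (x, t)) :
    AnalyticAt ℂ (sl F t) x :=
  AnalyticAt.comp (g := F) (f := fun x : Fin n → ℂ => (x, t)) hF
    (analyticAt_id.prod analyticAt_const)

theorem cd_eq {F : (Fin n → ℂ) × ℂ → ℂ} {x : Fin n → ℂ} {t : ℂ}
    (hF : DifferentiableAt ℂ F (x, t)) (i : Fin n) :
    coordDeriv (sl F t) i x = Gp F i (x, t) := by
  have h1 : HasFDerivAt (fun y : Fin n → ℂ => (y, t))
      ((ContinuousLinearMap.id ℂ (Fin n → ℂ)).prod 0) x :=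
    (hasFDerivAt_id x).prodMk (hasFDerivAt_const t x)
  have h2 : HasFDerivAt (sl F t) ((fderiv ℂ F (x, t)).comp
      ((ContinuousLinearMap.id ℂ (Fin n → ℂ)).prod 0)) x :=
    HasFDerivAt.comp (g := F) x hF.hasFDerivAt h1
  rw [coordDeriv, h2.fderiv]
  rfl

theorem tendsto_axis : Tendsto (fun t : ℂ => ((0 : Fin n → ℂ), t)) (𝓝 0) (𝓝 (0, 0)) := by
  have : ContinuousAt (fun t : ℂ => ((0 : Fin n → ℂ), t)) 0 := by fun_prop
  exact this

/-- division along the rays: `∂_i F(w u, t) = w (∑ H2 i j u_j) + w² q(u,t,w)` -/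
theorem ray_div {F : (Fin n → ℂ) × ℂ → ℂ} (hF : AnalyticAt ℂ F (0, 0))
    (hc : ∀ᶠ t in 𝓝 (0 : ℂ), ∀ i, coordDeriv (sl F t) i 0 = 0)
    (h2 : ∀ i j, H2 (sl F 0) i j = 0) (v : Fin n → ℂ) (i : Fin n) :
    ∃ q : ((Fin n → ℂ) × ℂ) × ℂ → ℂ, AnalyticAt ℂ q ((v, 0), 0) ∧
      (∀ᶠ p in 𝓝 ((v, (0 : ℂ)), (0 : ℂ)), coordDeriv (sl F p.1.2) i (p.2 • p.1.1) =
        p.2 * ∑ j, H2 (sl F p.1.2) i j * p.1.1 j + p.2 ^ 2 * q p) ∧
      ∀ᶠ u in 𝓝 v, q ((u, 0), 0) = (1 / 2) * ∑ j, ∑ k, H3 (sl F 0) i j k * u j * u k := by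
  -- the map `(u,t,w) ↦ (w u, t)`
  have hmap : AnalyticAt ℂ (fun p : ((Fin n → ℂ) × ℂ) × ℂ => (p.2 • p.1.1, p.1.2))
      ((v, 0), 0) :=
    (analyticAt_snd.smul (analyticAt_fst.comp analyticAt_fst)).prod
      (analyticAt_snd.comp analyticAt_fst)
  have hg : AnalyticAt ℂ (fun p : ((Fin n → ℂ) × ℂ) × ℂ => Gp F i (p.2 • p.1.1, p.1.2))
      ((v, 0), 0) := by
    refine AnalyticAt.comp (g := Gp F i) ?_ hmap
    simpa using an_Gp hF i
  have hf : AnalyticAt ℂ (fun p : ((Fin n → ℂ) × ℂ) × ℂ => p.2 ^ 2) ((v, 0), 0) :=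
    analyticAt_snd.pow 2
  have hord : analyticOrderAt (fun w : ℂ => w ^ 2) 0 = ((2 : ℕ) : ℕ∞) := by
    refine (AnalyticAt.analyticOrderAt_eq_natCast (analyticAt_id.pow 2)).2
      ⟨fun _ => 1, analyticAt_const, one_ne_zero, ?_⟩
    exact Eventually.of_forall fun w => by simp
  obtain ⟨q, c, hq, -, hdiv⟩ := Crest.Agent.R275.Loc2879.wdiv
    (f := fun p : ((Fin n → ℂ) × ℂ) × ℂ => p.2 ^ 2) hf (n := 2) hord hg
  have hcur := hdiv.curry_nhds
  -- analyticity of `F` at `(0,t)`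
  have hFt : ∀ᶠ y in 𝓝 (v, (0 : ℂ)), AnalyticAt ℂ F (0, y.2) ∧
      ∀ i, coordDeriv (sl F y.2) i 0 = 0 := by
    have h1 : ∀ᶠ t in 𝓝 (0 : ℂ), AnalyticAt ℂ F (0, t) ∧ ∀ i, coordDeriv (sl F t) i 0 = 0 :=
      (tendsto_axis.eventually hF.eventually_analyticAt).and hc
    have h3 : Tendsto (fun y : (Fin n → ℂ) × ℂ => y.2) (𝓝 (v, 0)) (𝓝 0) :=
      (continuous_snd.tendsto _)
    exact h3.eventually h1
  -- the coefficients
  have hcoef : ∀ᶠ y in 𝓝 (v, (0 : ℂ)), c 0 y = 0 ∧ c 1 y = ∑ j, H2 (sl F y.2) i j * y.1 j := by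
    have hqy : ∀ᶠ y in 𝓝 (v, (0 : ℂ)), AnalyticAt ℂ q (y, 0) := by
      have h3 : Tendsto (fun y : (Fin n → ℂ) × ℂ => (y, (0 : ℂ))) (𝓝 (v, 0)) (𝓝 ((v, 0), 0)) := by
        have : ContinuousAt (fun y : (Fin n → ℂ) × ℂ => (y, (0 : ℂ))) (v, 0) := by fun_prop
        exact this
      exact h3.eventually hq.eventually_analyticAt
    filter_upwards [hcur, hFt, hqy] with y hy hFy hqy
    obtain ⟨u, t⟩ := y
    simp only at hy hFy hqy ⊢
    have hzero : c 0 (u, t) = 0 := by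
      have h4 := hy.self_of_nhds
      simp only [zero_smul, Fin.sum_univ_two, Fin.coe_ofNat_eq_mod] at h4
      have h5 : Gp F i (0, t) = 0 := by
        rw [← cd_eq hFy.1.differentiableAt i]; exact hFy.2 i
      rw [h5] at h4
      simpa using h4.symm
    refine ⟨hzero, ?_⟩
    have hsl : AnalyticAt ℂ (sl F t) 0 := an_sl hFy.1
    have hray := (hasDerivAt_ray (an_cd hsl i) u).self_of_nhds
    rw [zero_smul] at hray
    have heq : (fun w : ℂ => coordDeriv (sl F t) i (w • u)) =ᶠ[𝓝 0]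
        fun w => q ((u, t), w) * w ^ 2 + c 1 (u, t) * w := by
      have htw : Tendsto (fun w : ℂ => (w • u, t)) (𝓝 0) (𝓝 (0, t)) := by
        have : ContinuousAt (fun w : ℂ => (w • u, t)) 0 := by fun_prop
        simpa [ContinuousAt] using this
      filter_upwards [hy, htw.eventually hFy.1.eventually_analyticAt] with w hw hA
      rw [cd_eq hA.differentiableAt i, hw]
      simp [Fin.sum_univ_two, hzero]
    have hqd : HasDerivAt (fun w : ℂ => q ((u, t), w) * w ^ 2 + c 1 (u, t) * w)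
        (c 1 (u, t)) 0 := by
      have h6 : AnalyticAt ℂ (fun w : ℂ => q ((u, t), w)) 0 :=
        AnalyticAt.comp (g := q) (f := fun w : ℂ => ((u, t), w)) hqy
          (analyticAt_const.prod analyticAt_id)
      have h7 := (h6.differentiableAt.hasDerivAt.fun_mul (hasDerivAt_pow 2 (0 : ℂ))).fun_add
        ((hasDerivAt_id' (0 : ℂ)).const_mul (c 1 (u, t)))
      refine h7.congr_deriv ?_
      simp
    have h8 := (hray.congr_of_eventuallyEq heq.symm).unique hqd
    rw [← h8]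
    exact Finset.sum_congr rfl (fun j _ => mul_comm _ _)
  refine ⟨q, hq, ?_, ?_⟩
  · have h1 : ∀ᶠ p in 𝓝 ((v, (0 : ℂ)), (0 : ℂ)), AnalyticAt ℂ F (p.2 • p.1.1, p.1.2) := by
      have h3 : Tendsto (fun p : ((Fin n → ℂ) × ℂ) × ℂ => (p.2 • p.1.1, p.1.2))
          (𝓝 ((v, 0), 0)) (𝓝 (0, 0)) := by
        have := hmap.continuousAt
        simpa [ContinuousAt] using this
      exact h3.eventually hF.eventually_analyticAt
    have h5 : ∀ᶠ p in 𝓝 ((v, (0 : ℂ)), (0 : ℂ)), c 0 p.1 = 0 ∧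
        c 1 p.1 = ∑ j, H2 (sl F p.1.2) i j * p.1.1 j :=
      (continuous_fst.tendsto ((v, (0 : ℂ)), (0 : ℂ))).eventually hcoef
    filter_upwards [hdiv, h1, h5] with p hp hA hcp
    rw [cd_eq hA.differentiableAt i, hp]
    simp only [Fin.sum_univ_two, Fin.coe_ofNat_eq_mod, hcp.1, hcp.2]
    simp
    ring
  · have hu0 : Tendsto (fun u : Fin n → ℂ => (u, (0 : ℂ))) (𝓝 v) (𝓝 (v, 0)) := by
      have : ContinuousAt (fun u : Fin n → ℂ => (u, (0 : ℂ))) v := by fun_prop
      exact this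
    have hqy : ∀ᶠ u in 𝓝 v, AnalyticAt ℂ q ((u, 0), 0) := by
      have h3 : Tendsto (fun u : Fin n → ℂ => ((u, (0 : ℂ)), (0 : ℂ))) (𝓝 v) (𝓝 ((v, 0), 0)) := by
        have : ContinuousAt (fun u : Fin n → ℂ => ((u, (0 : ℂ)), (0 : ℂ))) v := by fun_prop
        exact this
      exact h3.eventually hq.eventually_analyticAt
    filter_upwards [hu0.eventually hcur, hu0.eventually hcoef, hqy] with u hy hcu hqu
    obtain ⟨hc0, hc1⟩ := hcu
    have hc1' : c 1 (u, 0) = 0 := by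
      rw [hc1]
      exact Finset.sum_eq_zero fun j _ => by rw [h2 i j, zero_mul]
    set f : (Fin n → ℂ) → ℂ := coordDeriv (sl F 0) i with hfdef
    have hfa : AnalyticAt ℂ f 0 := an_cd (an_sl hF) i
    set Q : ℂ → ℂ := fun w => q ((u, 0), w) with hQdef
    have hQ : AnalyticAt ℂ Q 0 :=
      AnalyticAt.comp (g := q) (f := fun w : ℂ => ((u, (0 : ℂ)), w)) hqu
        (analyticAt_const.prod analyticAt_id)
    have heq : (fun w : ℂ => f (w • u)) =ᶠ[𝓝 0] fun w => Q w * w ^ 2 := by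
      have htw : Tendsto (fun w : ℂ => (w • u, (0 : ℂ))) (𝓝 0) (𝓝 (0, 0)) := by
        have : ContinuousAt (fun w : ℂ => (w • u, (0 : ℂ))) 0 := by fun_prop
        simpa [ContinuousAt] using this
      filter_upwards [hy, htw.eventually hF.eventually_analyticAt] with w hw hA
      rw [hfdef, cd_eq hA.differentiableAt i, hw]
      simp [Fin.sum_univ_two, hc0, hc1', hQdef]
    -- first derivatives
    have hder : (fun w : ℂ => ∑ j, u j * coordDeriv f j (w • u)) =ᶠ[𝓝 0]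
        fun w => deriv Q w * w ^ 2 + Q w * (2 * w) := by
      filter_upwards [hasDerivAt_ray hfa u, heq.eventuallyEq_nhds, hQ.eventually_analyticAt]
        with w h1 h3 h4
      have h5 := h4.differentiableAt.hasDerivAt.fun_mul (hasDerivAt_pow 2 w)
      have h6 := (h1.congr_of_eventuallyEq h3.symm).unique h5
      rw [h6]
      simp
    have hL : HasDerivAt (fun w : ℂ => ∑ j, u j * coordDeriv f j (w • u))
        (∑ j, u j * ∑ k, u k * coordDeriv (coordDeriv f j) k 0) 0 := by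
      refine HasDerivAt.fun_sum (fun j _ => ?_)
      have h1 := (hasDerivAt_ray (an_cd hfa j) u).self_of_nhds
      rw [zero_smul] at h1
      exact h1.const_mul (u j)
    have hR : HasDerivAt (fun w : ℂ => deriv Q w * w ^ 2 + Q w * (2 * w)) (2 * Q 0) 0 := by
      have h1 := (hQ.deriv.differentiableAt.hasDerivAt.fun_mul (hasDerivAt_pow 2 (0 : ℂ))).fun_add
        (hQ.differentiableAt.hasDerivAt.fun_mul ((hasDerivAt_id' (0 : ℂ)).const_mul (2 : ℂ)))
      refine h1.congr_deriv ?_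
      simp [mul_comm]
    have hfin := (hL.congr_of_eventuallyEq hder.symm).unique hR
    have h9 : Q 0 = (1 / 2) * (2 * Q 0) := by ring
    show Q 0 = _
    rw [h9, ← hfin]
    congr 1
    refine Finset.sum_congr rfl (fun j _ => ?_)
    rw [Finset.mul_sum]
    refine Finset.sum_congr rfl (fun k _ => ?_)
    simp only [H3, hfdef]
    ring

end Crest.Agent.R257.Node_547
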