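import Crest.Agent.R257.TDefs_387
import Crest.Agent.R257.NodeA_547

/-!
R257 / FrmA_547 (task C-FRAME): canonical indices of the plane vertices, points of the special fibre as
2-variable germs, components.

* `pow_cmp`       : comparison of orders;
* `Eqv k i j`     : `i = j ∨ k ≤ del i j` (same disc at level `k`); an equivalence relation;
* `rep i k`       : the smallest index equivalent to `i` at level `k`;
* `sh k i j`      : `φ_i(s^M) = φ_j(s^M) + s^(Mk) sh k i j s`;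
* `Z2`            : germs of functions of two variables;
* `Sh1 i k w r ζ` : `ζ` is an analytic root over the vertex chart `(i,k,w)` on the bidisc of radius `r`;
* `X i k`         : the points `(w, γ)` of the special fibre over the vertex `(i,k)`;
* `Step`, `Cmp`, `cl` : components;
* `Att`           : local comparison of a chart sheet with a point of `X i k`.
-/

set_option autoImplicit false
set_option linter.unusedSectionVars false

open Polynomial Set Filter Topology Metric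
open Crest.AlgGeometry.Germ Crest.Agent.R257.AJ387 Crest.Agent.R257.T387

noncomputable section

namespace Crest.Agent.R257.Frm_547

/-- comparison of orders of two analytic functions of one variable -/
theorem pow_cmp {a b : ℕ} {u v : ℂ → ℂ} (hu : ContinuousAt u 0) (hv : ContinuousAt v 0)
    (h : ∀ᶠ s in 𝓝[≠] (0 : ℂ), s ^ a * u s = s ^ b * v s) (hu0 : u 0 ≠ 0) : b ≤ a := by
  by_contra hlt
  push Not at hlt
  have h1 : ∀ᶠ s in 𝓝[≠] (0 : ℂ), u s = s ^ (b - a) * v s := by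
    filter_upwards [h, self_mem_nhdsWithin] with s hs hs0
    have h2 : s ^ a ≠ 0 := pow_ne_zero _ hs0
    apply mul_left_cancel₀ h2
    rw [hs, ← mul_assoc, ← pow_add, Nat.add_sub_cancel' hlt.le]
  have h2 : Tendsto u (𝓝[≠] 0) (𝓝 (u 0)) := hu.tendsto.mono_left nhdsWithin_le_nhds
  have h3 : Tendsto (fun s : ℂ => s ^ (b - a) * v s) (𝓝[≠] 0) (𝓝 0) := by
    have h4 : ContinuousAt (fun s : ℂ => s ^ (b - a) * v s) 0 := by
      exact (continuousAt_id.pow _).mul hv
    have h5 : (0 : ℂ) ^ (b - a) * v 0 = 0 := by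
      have : b - a ≠ 0 := by omega
      simp [this]
    have := h4.tendsto.mono_left (nhdsWithin_le_nhds (s := {(0 : ℂ)}ᶜ))
    rwa [h5] at this
  exact hu0 (tendsto_nhds_unique (h2.congr' h1) h3)

variable {f : (Fin 3 → ℂ) → ℂ} (T : TB f)

theorem ball_nhds : ball (0 : ℂ) T.ρ ∈ 𝓝 (0 : ℂ) := ball_mem_nhds _ T.ρ_pos

theorem u_cont {i j : Fin T.m} (h : i ≠ j) : ContinuousAt (T.u i j) 0 :=
  ((T.u_an i j h) 0 (mem_ball_self T.ρ_pos)).continuousAt

theorem u_ne0 {i j : Fin T.m} (h : i ≠ j) : T.u i j 0 ≠ 0 :=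
  T.u_ne i j h 0 (mem_ball_self T.ρ_pos)

theorem del_le {i j : Fin T.m} (h : i ≠ j) : T.del j i ≤ T.del i j := by
  refine pow_cmp (u := T.u i j) (v := fun s => - T.u j i s) (u_cont T h) (u_cont T h.symm).neg ?_
    (u_ne0 T h)
  refine Filter.Eventually.filter_mono nhdsWithin_le_nhds ?_
  filter_upwards [ball_nhds T] with s hs
  have h1 := T.φ_sub i j h s hs
  have h2 := T.φ_sub j i h.symm s hs
  linear_combination -h1 - h2

theorem del_symm (i j : Fin T.m) (h : i ≠ j) : T.del i j = T.del j i :=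
  le_antisymm (del_le T h.symm) (del_le T h)

theorem del_ultra {i j l : Fin T.m} {k : ℕ} (hij : i ≠ j) (hjl : j ≠ l) (hil : i ≠ l)
    (h1 : k ≤ T.del i j) (h2 : k ≤ T.del j l) : k ≤ T.del i l := by
  refine pow_cmp (u := T.u i l) (v := fun s => s ^ (T.del i j - k) * T.u i j s +
    s ^ (T.del j l - k) * T.u j l s) (u_cont T hil) ?_ ?_ (u_ne0 T hil)
  · exact ((continuousAt_id.pow _).mul (u_cont T hij)).add
      ((continuousAt_id.pow _).mul (u_cont T hjl))
  refine Filter.Eventually.filter_mono nhdsWithin_le_nhds ?_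
  filter_upwards [ball_nhds T] with s hs
  have e1 := T.φ_sub i j hij s hs
  have e2 := T.φ_sub j l hjl s hs
  have e3 := T.φ_sub i l hil s hs
  have a1 : s ^ T.del i j = s ^ k * s ^ (T.del i j - k) := by rw [← pow_add, Nat.add_sub_cancel' h1]
  have a2 : s ^ T.del j l = s ^ k * s ^ (T.del j l - k) := by rw [← pow_add, Nat.add_sub_cancel' h2]
  rw [← e3, mul_add, ← mul_assoc, ← mul_assoc, ← a1, ← a2, ← e1, ← e2]
  ring

/-- the same disc at level `k` -/
def Eqv (k : ℕ) (i j : Fin T.m) : Prop := i = j ∨ k ≤ T.del i j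

theorem Eqv.refl (k : ℕ) (i : Fin T.m) : Eqv T k i i := Or.inl rfl

variable {T} in
theorem Eqv.symm {k : ℕ} {i j : Fin T.m} (h : Eqv T k i j) : Eqv T k j i := by
  rcases h with h | h
  · exact Or.inl h.symm
  · by_cases hij : i = j
    · exact Or.inl hij.symm
    · exact Or.inr (h.trans (del_symm T i j hij).le)

variable {T} in
theorem Eqv.trans {k : ℕ} {i j l : Fin T.m} (h : Eqv T k i j) (h' : Eqv T k j l) : Eqv T k i l := by
  by_cases hij : i = j
  · rw [hij]; exact h'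
  by_cases hjl : j = l
  · rw [← hjl]; exact h
  by_cases hil : i = l
  · exact Or.inl hil
  exact Or.inr (del_ultra T hij hjl hil (h.resolve_left hij) (h'.resolve_left hjl))

variable {T} in
theorem Eqv.mono {k k' : ℕ} (hk : k' ≤ k) {i j : Fin T.m} (h : Eqv T k i j) : Eqv T k' i j :=
  h.imp id fun h => hk.trans h

open Classical in
/-- the smallest index equivalent to `i` at level `k` -/
def rep (i : Fin T.m) (k : ℕ) : Fin T.m :=
  (Finset.univ.filter fun j => Eqv T k i j).min' ⟨i, by simp [Eqv.refl]⟩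

theorem rep_eqv (i : Fin T.m) (k : ℕ) : Eqv T k i (rep T i k) := by
  classical
  have h := Finset.min'_mem (Finset.univ.filter fun j => Eqv T k i j) ⟨i, by simp [Eqv.refl]⟩
  exact (Finset.mem_filter.1 h).2

theorem rep_le {i j : Fin T.m} {k : ℕ} (h : Eqv T k i j) : rep T i k ≤ j := by
  classical
  exact Finset.min'_le _ _ (Finset.mem_filter.2 ⟨Finset.mem_univ _, h⟩)

theorem rep_congr {i j : Fin T.m} {k : ℕ} (h : Eqv T k i j) : rep T i k = rep T j k :=
  le_antisymm (rep_le T (h.trans (rep_eqv T j k))) (rep_le T (h.symm.trans (rep_eqv T i k)))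

theorem rep_rep (i : Fin T.m) (k : ℕ) : rep T (rep T i k) k = rep T i k :=
  (rep_congr T (rep_eqv T i k)).symm

/-- levels are common to equivalent indices -/
theorem lev_of_eqv {i j : Fin T.m} {k : ℕ} (h : Eqv T k i j) (hk : k ∈ T.lev i) : k ∈ T.lev j := by
  classical
  by_cases hij : i = j
  · rw [← hij]; exact hk
  unfold TB.lev at hk ⊢
  rcases Finset.mem_insert.1 hk with h1 | h1
  · exact Finset.mem_insert.2 (Or.inl h1)
  obtain ⟨l, hl, hlk⟩ := Finset.mem_image.1 h1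
  have hli : l ≠ i := (Finset.mem_erase.1 hl).1
  refine Finset.mem_insert.2 (Or.inr (Finset.mem_image.2 ?_))
  have hij' := h.resolve_left hij
  rcases hij'.lt_or_eq with h2 | h2
  · -- del i j > k = del i l : del j l = k
    have hlj : l ≠ j := by
      rintro rfl
      omega
    refine ⟨l, Finset.mem_erase.2 ⟨hlj, Finset.mem_univ _⟩, ?_⟩
    apply le_antisymm
    · by_contra h3
      push Not at h3
      have h4 := del_ultra T (k := k + 1) hij hlj.symm hli.symm h2 h3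
      omega
    · refine del_ultra T (Ne.symm hij) hli.symm hlj.symm ?_ hlk.ge
      rw [del_symm T j i (Ne.symm hij)]
      exact hij'
  · refine ⟨i, Finset.mem_erase.2 ⟨hij, Finset.mem_univ _⟩, ?_⟩
    rw [del_symm T j i (Ne.symm hij), h2]

theorem rep_lev {i : Fin T.m} {k : ℕ} (hk : k ∈ T.lev i) : k ∈ T.lev (rep T i k) :=
  lev_of_eqv T (rep_eqv T i k) hk

open Classical in
/-- `φ_i(s^M) = φ_j(s^M) + s^(Mk) sh k i j s` -/
def sh (k : ℕ) (i j : Fin T.m) (s : ℂ) : ℂ :=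
  if i = j then 0 else (s ^ T.M) ^ (T.del i j - k) * T.u i j (s ^ T.M)

theorem sh_self (k : ℕ) (i : Fin T.m) (s : ℂ) : sh T k i i s = 0 := by simp [sh]

/-- the `s`-disc -/
def sD : Set ℂ := {s | ‖s‖ ^ T.M < T.ρ}

theorem sD_pow {s : ℂ} (hs : s ∈ sD T) : s ^ T.M ∈ ball (0 : ℂ) T.ρ := by
  rw [mem_ball_zero_iff, norm_pow]; exact hs

theorem isOpen_sD : IsOpen (sD T) :=
  isOpen_lt (by fun_prop) continuous_const

theorem zero_mem_sD : (0 : ℂ) ∈ sD T := by
  show ‖(0 : ℂ)‖ ^ T.M < T.ρ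
  rw [norm_zero, zero_pow T.M_pos.ne']
  exact T.ρ_pos

theorem φ_sh {k : ℕ} {i j : Fin T.m} (h : Eqv T k i j) {s : ℂ} (hs : s ∈ sD T) :
    T.φ i (s ^ T.M) = T.φ j (s ^ T.M) + s ^ (T.M * k) * sh T k i j s := by
  by_cases hij : i = j
  · subst hij; simp [sh_self]
  · have h1 := T.φ_sub i j hij _ (sD_pow T hs)
    have h2 := h.resolve_left hij
    rw [sh, if_neg hij, ← mul_assoc, pow_mul, ← pow_add, Nat.add_sub_cancel' h2, ← h1]
    ring

theorem sh_an {k : ℕ} {i j : Fin T.m} : AnalyticOnNhd ℂ (sh T k i j) (sD T) := by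
  intro s hs
  by_cases hij : i = j
  · have : sh T k i j = fun _ => 0 := by funext s; simp [sh, hij]
    rw [this]; exact analyticAt_const
  · have : sh T k i j = fun s => (s ^ T.M) ^ (T.del i j - k) * T.u i j (s ^ T.M) := by
      funext s; simp [sh, hij]
    rw [this]
    have h1 : AnalyticAt ℂ (fun s : ℂ => s ^ T.M) s := analyticAt_id.pow _
    exact (h1.pow _).mul (AnalyticAt.comp (g := T.u i j) (T.u_an i j hij _ (sD_pow T hs)) h1)

theorem sh_cocycle {k : ℕ} {i j l : Fin T.m} (h : Eqv T k i j) (h' : Eqv T k j l) {s : ℂ}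
    (hs : s ∈ sD T) : sh T k i l s = sh T k i j s + sh T k j l s := by
  have key : ∀ s ∈ sD T, s ≠ 0 → sh T k i l s = sh T k i j s + sh T k j l s := by
    intro s hs h0
    have h1 := φ_sh T h hs
    have h2 := φ_sh T h' hs
    have h3 := φ_sh T (h.trans h') hs
    apply mul_left_cancel₀ (pow_ne_zero (T.M * k) h0)
    linear_combination h1 + h2 - h3
  by_cases h0 : s = 0
  · subst h0
    have c1 : Tendsto (sh T k i l) (𝓝[≠] 0) (𝓝 (sh T k i l 0)) :=
      (sh_an T 0 hs).continuousAt.tendsto.mono_left nhdsWithin_le_nhds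
    have c2 : Tendsto (fun s => sh T k i j s + sh T k j l s) (𝓝[≠] 0)
        (𝓝 (sh T k i j 0 + sh T k j l 0)) :=
      ((sh_an T 0 hs).continuousAt.add (sh_an T 0 hs).continuousAt).tendsto.mono_left
        nhdsWithin_le_nhds
    refine tendsto_nhds_unique (c1.congr' ?_) c2
    filter_upwards [nhdsWithin_le_nhds ((isOpen_sD T).mem_nhds hs), self_mem_nhdsWithin]
      with s h1 h2
    exact key s h1 h2
  · exact key s hs h0

theorem sh_zero_of_lt {k : ℕ} {i l : Fin T.m} (h : k < T.del i l) : sh T k i l 0 = 0 := by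
  by_cases hil : i = l
  · simp [sh, hil]
  · have h1 : T.del i l - k ≠ 0 := by omega
    simp [sh, hil, T.M_pos.ne', h1]

theorem sh_zero_of_eq {k : ℕ} {i l : Fin T.m} (hil : i ≠ l) (h : T.del i l = k) :
    sh T k i l 0 = T.u i l 0 := by
  simp [sh, hil, h, T.M_pos.ne']

theorem mem_Sp {i : Fin T.m} {k : ℕ} {w : ℂ} :
    w ∈ T.Sp i k ↔ ∃ l, Eqv T k i l ∧ w = - sh T k i l 0 := by
  classical
  unfold TB.Sp
  rw [Finset.mem_insert, Finset.mem_image]
  constructor
  · rintro (h | ⟨l, hl, h⟩)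
    · exact ⟨i, Eqv.refl T k i, by rw [h, sh_self, neg_zero]⟩
    · obtain ⟨-, h1, h2⟩ := Finset.mem_filter.1 hl
      exact ⟨l, Or.inr h2.ge, by rw [← h, sh_zero_of_eq T (Ne.symm h1) h2]⟩
  · rintro ⟨l, hl, h⟩
    by_cases hil : i = l
    · left; rw [h, hil, sh_self, neg_zero]
    · rcases (hl.resolve_left hil).lt_or_eq with h1 | h1
      · left; rw [h, sh_zero_of_lt T h1, neg_zero]
      · right
        exact ⟨l, Finset.mem_filter.2 ⟨Finset.mem_univ _, Ne.symm hil, h1.symm⟩,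
          by rw [h, sh_zero_of_eq T hil h1.symm]⟩

/-- the special points of equivalent indices differ by the shift -/
theorem sp_shift {k : ℕ} {i j : Fin T.m} (h : Eqv T k i j) {w : ℂ} :
    w ∈ T.Sp i k ↔ w + sh T k i j 0 ∈ T.Sp j k := by
  have h0 := zero_mem_sD T
  rw [mem_Sp, mem_Sp]
  constructor
  · rintro ⟨l, hl, hw⟩
    refine ⟨l, h.symm.trans hl, ?_⟩
    rw [hw, sh_cocycle T h (h.symm.trans hl) h0]
    ring
  · rintro ⟨l, hl, hw⟩
    refine ⟨l, h.trans hl, ?_⟩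
    rw [sh_cocycle T h hl h0]
    linear_combination hw

/-! ### points of the special fibre -/

/-- germs of functions of two variables -/
abbrev Z2 : Type := Germ (𝓝 (0 : ℂ × ℂ)) ℂ

/-- `ζ` is a sheet over the vertex chart `(i, k, w)` on the bidisc of radius `r` -/
structure Sh1 (i : Fin T.m) (k : ℕ) (w : ℂ) (r : ℝ) (ζ : ℂ × ℂ → ℂ) : Prop where
  r_pos : 0 < r
  sp : ∀ β : ℂ, ‖β‖ < r → w + β ∉ T.Sp i k
  mem : ∀ p ∈ BD r r, T.map (.vert i k w) p ∈ BD 1 T.R ∧ ‖(T.map (.vert i k w) p).1‖ ^ T.M < T.ρ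
  an : AnalyticOnNhd ℂ ζ (BD r r)
  root : ∀ p ∈ BD r r, (T.Q (T.map (.vert i k w) p)).eval (ζ p) = 0

/-- the points of the special fibre over the vertex `(i, k)` -/
def X (i : Fin T.m) (k : ℕ) : Type :=
  {x : ℂ × Z2 // x.1 ∉ T.Sp i k ∧ ∃ (r : ℝ) (ζ : ℂ × ℂ → ℂ), Sh1 T i k x.1 r ζ ∧ x.2 = (ζ : Z2)}

/-- `y` lies on the same sheet as `x`, at `w + β` -/
def Step (i : Fin T.m) (k : ℕ) (x y : X T i k) : Prop :=
  ∃ (r : ℝ) (ζ : ℂ × ℂ → ℂ), Sh1 T i k x.1.1 r ζ ∧ x.1.2 = (ζ : Z2) ∧ ∃ β : ℂ, ‖β‖ < r ∧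
    y.1.1 = x.1.1 + β ∧ y.1.2 = ((fun p : ℂ × ℂ => ζ (p.1, p.2 + β) : ℂ × ℂ → ℂ) : Z2)

/-- components over the vertex `(i, k)` -/
def Cmp (i : Fin T.m) (k : ℕ) : Type := Quot (Step T i k)

/-- the component of a point -/
def cl {i : Fin T.m} {k : ℕ} (x : X T i k) : Cmp T i k := Quot.mk _ x

/-- the fibre of the component `E` over `w` -/
def fib {i : Fin T.m} {k : ℕ} (E : Cmp T i k) (w : ℂ) : Set Z2 :=
  {γ | ∃ x : X T i k, x.1 = (w, γ) ∧ cl T x = E}

/-- near `p` the sheet `ζ` of the chart map `μ` is the sheet `x` of the vertex `(i, k)` -/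
def Att (i : Fin T.m) (k : ℕ) (x : X T i k) (μ : ℂ × ℂ → ℂ × ℂ) (ζ : ℂ × ℂ → ℂ) (p : ℂ × ℂ) : Prop :=
  (μ p).1 = 0 ∧ ∃ W γ : ℂ × ℂ → ℂ, AnalyticAt ℂ W p ∧ W p = x.1.1 ∧ AnalyticAt ℂ γ 0 ∧
    x.1.2 = (γ : Z2) ∧
    ∀ᶠ q in 𝓝 p, μ q = T.map (.vert i k x.1.1) ((μ q).1, W q - x.1.1) ∧
      ζ q = γ ((μ q).1, W q - x.1.1)

end Crest.Agent.R257.Frm_547
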