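import Crest.Agent.R257.FrmA_547

/-!
R257 / FrmB_547 (task C-FRAME): sheets over the vertex charts, points of the special fibre, local
comparison of chart sheets with points, finiteness of the set of components.

* `mul_ev`, `prod_ev`  : germs of analytic functions form a domain;
* `bm i k (s, w)`      : `(s, φ_i(s^M) + s^(Mk) w)`;
* `LocBr i k μ W ζ p`  : near the special point `p` the chart map `μ` is `bm i k (s, W)`, `ζ j` are the
                         `d` sheets;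
* `LocBr.pts`          : the `d` points of `X i k` over `W p` given by the sheets, and local constancy;
* `Att.unique`;
* `finite_Cmp`.
-/

set_option autoImplicit false
set_option linter.unusedSectionVars false

open Polynomial Set Filter Topology Metric
open Crest.AlgGeometry.Germ Crest.Agent.R257.AJ387 Crest.Agent.R257.T387

noncomputable section

namespace Crest.Agent.R257.Frm_547

/-! ### germs of analytic functions -/

/-- analytic germs form a domain -/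
theorem mul_ev {E : Type*} [NormedAddCommGroup E] [NormedSpace ℂ E] [CompleteSpace E]
    {g h : E → ℂ} {p : E} (hg : AnalyticAt ℂ g p) (hh : AnalyticAt ℂ h p)
    (H : ∀ᶠ q in 𝓝 p, g q * h q = 0) : (∀ᶠ q in 𝓝 p, g q = 0) ∨ ∀ᶠ q in 𝓝 p, h q = 0 := by
  by_contra hcon
  push Not at hcon
  obtain ⟨h1, h2⟩ := hcon
  have hev := hg.eventually_analyticAt.and (hh.eventually_analyticAt.and H.eventually_nhds)
  obtain ⟨ε, hε, hb⟩ := Metric.eventually_nhds_iff_ball.1 hev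
  have hgB : AnalyticOnNhd ℂ g (ball p ε) := fun q hq => (hb q hq).1
  have hconn : IsPreconnected (ball p ε) := (convex_ball p ε).isPreconnected
  obtain ⟨q, hq, hqB⟩ := (h2.and_eventually (ball_mem_nhds p hε)).exists
  have h3 : ∀ᶠ q' in 𝓝 q, g q' = 0 := by
    filter_upwards [(hb q hqB).2.2, (hb q hqB).2.1.continuousAt.eventually_ne hq] with q' a b
    exact (mul_eq_zero.1 a).resolve_right b
  have h4 := hgB.eqOn_zero_of_preconnected_of_eventuallyEq_zero hconn hqB h3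
  refine h1 ?_
  filter_upwards [ball_mem_nhds p hε] with q' hq'
  exact fun hne => hne (h4 hq')

theorem prod_ev {E : Type*} [NormedAddCommGroup E] [NormedSpace ℂ E] [CompleteSpace E]
    {ι : Type*} (s : Finset ι) {g : ι → E → ℂ} {p : E} (hg : ∀ j ∈ s, AnalyticAt ℂ (g j) p)
    (H : ∀ᶠ q in 𝓝 p, ∏ j ∈ s, g j q = 0) : ∃ j ∈ s, ∀ᶠ q in 𝓝 p, g j q = 0 := by
  classical
  induction s using Finset.induction with
  | empty =>
    obtain ⟨q, hq⟩ := H.exists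
    simp at hq
  | insert a s ha ih =>
    have h1 : ∀ᶠ q in 𝓝 p, g a q * ∏ j ∈ s, g j q = 0 := by
      filter_upwards [H] with q hq
      rwa [Finset.prod_insert ha] at hq
    have h2 : AnalyticAt ℂ (fun q => ∏ j ∈ s, g j q) p :=
      Finset.analyticAt_fun_prod _ fun j hj => hg j (Finset.mem_insert_of_mem hj)
    rcases mul_ev (hg a (Finset.mem_insert_self _ _)) h2 h1 with h | h
    · exact ⟨a, Finset.mem_insert_self _ _, h⟩
    · obtain ⟨j, hj, h3⟩ := ih (fun j hj => hg j (Finset.mem_insert_of_mem hj)) h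
      exact ⟨j, Finset.mem_insert_of_mem hj, h3⟩

variable {f : (Fin 3 → ℂ) → ℂ} (T : TB f)

/-- the vertex map in the coordinates `(s, w)` -/
def bm (i : Fin T.m) (k : ℕ) (p : ℂ × ℂ) : ℂ × ℂ := (p.1, T.φ i (p.1 ^ T.M) + p.1 ^ (T.M * k) * p.2)

theorem map_vert (i : Fin T.m) (k : ℕ) (w : ℂ) (p : ℂ × ℂ) :
    T.map (.vert i k w) p = bm T i k (p.1, w + p.2) := rfl

theorem map_vert_sub (i : Fin T.m) (k : ℕ) (w : ℂ) (s W : ℂ) :
    T.map (.vert i k w) (s, W - w) = bm T i k (s, W) := by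
  rw [map_vert]; simp

theorem BD_nhds {r : ℝ} (hr : 0 < r) : BD r r ∈ 𝓝 (0 : ℂ × ℂ) :=
  (isOpen_BD r r).mem_nhds ⟨by simpa using hr, by simpa using hr⟩

theorem zero_mem_BD {r : ℝ} (hr : 0 < r) : (0 : ℂ × ℂ) ∈ BD r r := ⟨by simpa using hr, by simpa using hr⟩

variable {T}

theorem root_iff {c : Ch T.m} {r : ℝ} {ζ : Fin T.d → ℂ × ℂ → ℂ} (h : T.Sheets c r ζ) {p : ℂ × ℂ}
    (hp : p ∈ BD r r) {z : ℂ} : (T.Q (T.map c p)).eval z = 0 ↔ ∃ j, ζ j p = z := by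
  rw [h.split p hp, eval_prod, Finset.prod_eq_zero_iff]
  simp only [Finset.mem_univ, true_and, eval_sub, eval_X, eval_C, sub_eq_zero]
  exact ⟨fun ⟨j, hj⟩ => ⟨j, hj.symm⟩, fun ⟨j, hj⟩ => ⟨j, hj.symm⟩⟩

/-- sheets over a vertex chart are `Sh1` -/
theorem sh1_of {i : Fin T.m} {k : ℕ} {w : ℂ} {r : ℝ} {ζ : Fin T.d → ℂ × ℂ → ℂ}
    (h : T.Sheets (.vert i k w) r ζ) (hsp : ∀ β : ℂ, ‖β‖ < r → w + β ∉ T.Sp i k) (j : Fin T.d) :
    Sh1 T i k w r (ζ j) :=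
  ⟨h.r_pos, hsp, h.mem, h.an j, fun p hp => (root_iff h hp).2 ⟨j, rfl⟩⟩

/-- every sheet is one of the `d` sheets -/
theorem sh1_eq {i : Fin T.m} {k : ℕ} {w : ℂ} {r r' : ℝ} {ζ : Fin T.d → ℂ × ℂ → ℂ}
    (h : T.Sheets (.vert i k w) r ζ) {ξ : ℂ × ℂ → ℂ} (hξ : Sh1 T i k w r' ξ) :
    ∃ j, ∀ᶠ p in 𝓝 (0 : ℂ × ℂ), ξ p = ζ j p := by
  have h1 : ∀ᶠ p in 𝓝 (0 : ℂ × ℂ), ∏ j, (ξ p - ζ j p) = 0 := by
    filter_upwards [BD_nhds h.r_pos, BD_nhds hξ.r_pos] with p hp hp'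
    have h2 := hξ.root p hp'
    rw [h.split p hp, eval_prod] at h2
    simpa using h2
  obtain ⟨j, -, hj⟩ := prod_ev Finset.univ
    (fun j _ => (hξ.an 0 (zero_mem_BD hξ.r_pos)).sub (h.an j 0 (zero_mem_BD h.r_pos))) h1
  exact ⟨j, by filter_upwards [hj] with p hp using sub_eq_zero.1 hp⟩

/-- shift of a sheet -/
theorem Sh1.shift {i : Fin T.m} {k : ℕ} {w : ℂ} {r : ℝ} {ξ : ℂ × ℂ → ℂ} (h : Sh1 T i k w r ξ)
    {β : ℂ} (hβ : ‖β‖ < r) : Sh1 T i k (w + β) (r - ‖β‖) (fun p => ξ (p.1, p.2 + β)) := by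
  have hmem : ∀ p ∈ BD (r - ‖β‖) (r - ‖β‖), ((p.1, p.2 + β) : ℂ × ℂ) ∈ BD r r := by
    intro p hp
    refine ⟨?_, ?_⟩
    · have := hp.1
      have h2 := norm_nonneg β
      show ‖p.1‖ < r
      linarith
    · have := hp.2
      have h2 := norm_add_le p.2 β
      show ‖p.2 + β‖ < r
      linarith
  have hmap : ∀ p : ℂ × ℂ, T.map (.vert i k (w + β)) p = T.map (.vert i k w) (p.1, p.2 + β) := by
    intro p
    rw [map_vert, map_vert]
    congr 2
    ring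
  refine ⟨by linarith, ?_, ?_, ?_, ?_⟩
  · intro β' hβ'
    rw [add_assoc]
    refine h.sp _ ?_
    have := norm_add_le β β'
    linarith
  · intro p hp
    rw [hmap]
    exact h.mem _ (hmem p hp)
  · intro p hp
    exact AnalyticAt.comp (g := ξ) (f := fun p : ℂ × ℂ => (p.1, p.2 + β)) (h.an _ (hmem p hp))
      (analyticAt_fst.prod (analyticAt_snd.add analyticAt_const))
  · intro p hp
    rw [hmap]
    exact h.root _ (hmem p hp)

/-- the point of `X` given by a sheet -/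
def Sh1.pt {i : Fin T.m} {k : ℕ} {w : ℂ} {r : ℝ} {ξ : ℂ × ℂ → ℂ} (h : Sh1 T i k w r ξ) : X T i k :=
  ⟨(w, (ξ : Z2)), by simpa using h.sp 0 (by simpa using h.r_pos), r, ξ, h, rfl⟩

theorem Sh1.step {i : Fin T.m} {k : ℕ} {w : ℂ} {r : ℝ} {ξ : ℂ × ℂ → ℂ} (h : Sh1 T i k w r ξ)
    {β : ℂ} (hβ : ‖β‖ < r) : Step T i k h.pt (h.shift hβ).pt :=
  ⟨r, ξ, h, rfl, β, hβ, rfl, rfl⟩

/-! ### local comparison -/

/-- near the special point `p` the chart map `μ` is `bm i k (s, W)` and `ζ` are the `d` sheets -/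
structure LocBr (i : Fin T.m) (k : ℕ) (μ : ℂ × ℂ → ℂ × ℂ) (W : ℂ × ℂ → ℂ)
    (ζ : Fin T.d → ℂ × ℂ → ℂ) (p : ℂ × ℂ) : Prop where
  hW : AnalyticAt ℂ W p
  hμ : AnalyticAt ℂ (fun q => (μ q).1) p
  s0 : (μ p).1 = 0
  sp : W p ∉ T.Sp i k
  eq : ∀ᶠ q in 𝓝 p, μ q = bm T i k ((μ q).1, W q)
  nz : ∃ᶠ q in 𝓝 p, (μ q).1 ≠ 0
  zan : ∀ j, AnalyticAt ℂ (ζ j) p
  split : ∀ᶠ q in 𝓝 p, T.Q (μ q) = ∏ j, (Polynomial.X - C (ζ j q))
  inj : ∀ᶠ q in 𝓝 p, (μ q).1 ≠ 0 → Function.Injective fun j => ζ j q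

/-- small sheets over an ordinary point -/
theorem exists_sheets_vert (hS : T.SheetsStmt) {i : Fin T.m} {k : ℕ} (hk : k ∈ T.lev i) {w : ℂ}
    (hw : w ∉ T.Sp i k) : ∃ (r : ℝ) (ζ : Fin T.d → ℂ × ℂ → ℂ), T.Sheets (.vert i k w) r ζ ∧
      ∀ β : ℂ, ‖β‖ < r → w + β ∉ T.Sp i k := by
  obtain ⟨r₀, hr₀, h⟩ := hS (.vert i k w) ⟨hk, hw⟩
  have h1 : ∀ᶠ w' in 𝓝 w, w' ∉ T.Sp i k :=
    (T.Sp i k).finite_toSet.isClosed.isOpen_compl.mem_nhds hw
  obtain ⟨ε, hε, hb⟩ := Metric.eventually_nhds_iff_ball.1 h1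
  obtain ⟨ζ, hζ⟩ := h (min r₀ ε) (lt_min hr₀ hε) (min_le_left _ _)
  refine ⟨_, ζ, hζ, fun β hβ => hb _ ?_⟩
  rw [mem_ball, dist_eq_norm, add_sub_cancel_left]
  exact hβ.trans_le (min_le_right _ _)

theorem Att.unique (hS : T.SheetsStmt) {i : Fin T.m} {k : ℕ} (hk : k ∈ T.lev i) {x x' : X T i k}
    {μ : ℂ × ℂ → ℂ × ℂ} {ζ : ℂ × ℂ → ℂ} {p : ℂ × ℂ} (hμ : AnalyticAt ℂ (fun q => (μ q).1) p)
    (hnz : ∃ᶠ q in 𝓝 p, (μ q).1 ≠ 0)
    (h : Att T i k x μ ζ p) (h' : Att T i k x' μ ζ p) : x = x' := by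
  obtain ⟨hs0, W, γ, hW, hWp, hγ, hxγ, he⟩ := h
  obtain ⟨-, W', γ', hW', hWp', hγ', hxγ', he'⟩ := h'
  -- the two functions `W` agree
  have h1 : ∀ᶠ q in 𝓝 p, (μ q).1 ^ (T.M * k) * (W q - W' q) = 0 := by
    filter_upwards [he, he'] with q hq hq'
    have e1 := hq.1
    have e2 := hq'.1
    rw [map_vert_sub] at e1 e2
    have e3 := congrArg Prod.snd (e1.symm.trans e2)
    simp only [bm] at e3
    linear_combination e3
  have h2 : ∀ᶠ q in 𝓝 p, W q - W' q = 0 := by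
    rcases mul_ev (hμ.pow _) (hW.sub hW') h1 with h3 | h3
    · exfalso
      obtain ⟨q, hq, hq'⟩ := (hnz.and_eventually h3).exists
      exact pow_ne_zero _ hq hq'
    · exact h3
  have hw : x.1.1 = x'.1.1 := by
    rw [← hWp, ← hWp']
    exact sub_eq_zero.1 h2.self_of_nhds
  -- the sheets
  obtain ⟨hx1, r, ξ, hξ, hxξ⟩ := x.2
  obtain ⟨hx1', r', ξ', hξ', hxξ'⟩ := x'.2
  obtain ⟨r₁, σ, hσ, -⟩ := exists_sheets_vert hS hk hx1
  have hξ'' : Sh1 T i k x.1.1 r' ξ' := by rw [hw]; exact hξ'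
  obtain ⟨j, hj⟩ := sh1_eq hσ hξ
  obtain ⟨j', hj'⟩ := sh1_eq hσ hξ''
  have g1 : γ =ᶠ[𝓝 0] σ j := by
    have : (γ : Z2) = (ξ : Z2) := hxγ.symm.trans hxξ
    exact (Germ.coe_eq.1 this).trans hj
  have g2 : γ' =ᶠ[𝓝 0] σ j' := by
    have : (γ' : Z2) = (ξ' : Z2) := hxγ'.symm.trans hxξ'
    exact (Germ.coe_eq.1 this).trans hj'
  have hχ : Tendsto (fun q => ((μ q).1, W q - x.1.1)) (𝓝 p) (𝓝 0) := by
    have h3 : ContinuousAt (fun q => ((μ q).1, W q - x.1.1)) p :=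
      hμ.continuousAt.prodMk (hW.continuousAt.sub continuousAt_const)
    have h4 : ((μ p).1, W p - x.1.1) = 0 := by rw [hs0, hWp, sub_self]; rfl
    rw [ContinuousAt, h4] at h3
    exact h3
  by_cases hjj : j = j'
  · apply Subtype.ext
    refine Prod.ext hw ?_
    rw [hxγ, hxγ']
    exact Germ.coe_eq.2 (g1.trans (by rw [hjj]; exact g2.symm))
  · exfalso
    have hev := he.and (he'.and (h2.and ((hχ.eventually g1).and ((hχ.eventually g2).and
      (hχ.eventually (BD_nhds hσ.r_pos))))))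
    obtain ⟨q, hq, a1, a2, a3, a4, a5, a6⟩ := (hnz.and_eventually hev).exists
    have b1 : W' q = W q := (sub_eq_zero.1 a3).symm
    have b2 := a1.2
    have b3 := a2.2
    rw [b1, ← hw] at b3
    rw [a4] at b2
    rw [a5] at b3
    have b4 : σ j ((μ q).1, W q - x.1.1) = σ j' ((μ q).1, W q - x.1.1) := b2.symm.trans b3
    exact hjj (hσ.inj _ a6 hq b4)

/-- **the `d` points over `W p` given by the sheets of a chart**, and local constancy -/
theorem LocBr.pts (hS : T.SheetsStmt) {i : Fin T.m} {k : ℕ} (hk : k ∈ T.lev i)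
    {μ : ℂ × ℂ → ℂ × ℂ} {W : ℂ × ℂ → ℂ} {ζ : Fin T.d → ℂ × ℂ → ℂ} {p : ℂ × ℂ}
    (h : LocBr (T := T) i k μ W ζ p) : ∃ ξ : Fin T.d → X T i k,
      (∀ j, Att T i k (ξ j) μ (ζ j) p) ∧ (∀ j, (ξ j).1.1 = W p) ∧ Function.Injective ξ ∧
      (∀ y : X T i k, y.1.1 = W p → ∃ j, ξ j = y) ∧
      ∀ᶠ p' in 𝓝 p, (μ p').1 = 0 → ∀ j, ∃ y : X T i k, Att T i k y μ (ζ j) p' ∧ Step T i k (ξ j) y := by
  classical
  obtain ⟨r, σ, hσ, hsp⟩ := exists_sheets_vert hS hk h.sp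
  -- the comparison map
  set χ : ℂ × ℂ → ℂ × ℂ := fun q => ((μ q).1, W q - W p) with hχdef
  have hχa : AnalyticAt ℂ χ p := h.hμ.prod (h.hW.sub analyticAt_const)
  have hχp : χ p = 0 := by
    simp only [hχdef, h.s0, sub_self]; rfl
  have hχ : Tendsto χ (𝓝 p) (𝓝 0) := by
    have := hχa.continuousAt
    rwa [ContinuousAt, hχp] at this
  have hmapχ : ∀ᶠ q in 𝓝 p, μ q = T.map (.vert i k (W p)) (χ q) := by
    filter_upwards [h.eq] with q hq
    rw [hχdef]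
    simp only
    rw [map_vert_sub]
    exact hq
  -- the sheets agree with the `σ l ∘ χ`
  have hprod : ∀ j, ∃ l, ∀ᶠ q in 𝓝 p, ζ j q = σ l (χ q) := by
    intro j
    have h1 : ∀ᶠ q in 𝓝 p, ∏ l, (ζ j q - σ l (χ q)) = 0 := by
      filter_upwards [hmapχ, h.split, hχ.eventually (BD_nhds hσ.r_pos)] with q a1 a2 a3
      have e1 : (T.Q (μ q)).eval (ζ j q) = 0 := by
        rw [a2, eval_prod, Finset.prod_eq_zero_iff]
        exact ⟨j, Finset.mem_univ _, by simp⟩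
      rw [a1, hσ.split _ a3, eval_prod] at e1
      simpa using e1
    obtain ⟨l, -, hl⟩ := prod_ev Finset.univ (fun l _ => (h.zan j).sub
      (AnalyticAt.comp_of_eq (hσ.an l 0 (zero_mem_BD hσ.r_pos)) hχa hχp)) h1
    exact ⟨l, by filter_upwards [hl] with q hq using sub_eq_zero.1 hq⟩
  choose τ hτ using hprod
  have hτinj : Function.Injective τ := by
    intro j j' hjj
    obtain ⟨q, hq, a1, a2, a3⟩ := (h.nz.and_eventually (h.inj.and ((hτ j).and (hτ j')))).exists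
    apply a1 hq
    show ζ j q = ζ j' q
    rw [a2, a3, hjj]
  have hτbij : Function.Bijective τ := Finite.injective_iff_bijective.1 hτinj
  have hsh : ∀ l, Sh1 T i k (W p) r (σ l) := fun l => sh1_of hσ hsp l
  have hatt : ∀ j, Att T i k (hsh (τ j)).pt μ (ζ j) p := by
    intro j
    refine ⟨h.s0, W, σ (τ j), h.hW, rfl, (hsh _).an 0 (zero_mem_BD hσ.r_pos), rfl, ?_⟩
    filter_upwards [hmapχ, hτ j] with q a1 a2
    exact ⟨a1, a2⟩
  refine ⟨fun j => (hsh (τ j)).pt, hatt, fun j => rfl, ?_, ?_, ?_⟩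
  · intro j j' hjj
    have h1 : ((hsh (τ j)).pt).1.2 = ((hsh (τ j')).pt).1.2 := by
      have := congrArg Subtype.val hjj
      exact congrArg Prod.snd this
    have h2 : σ (τ j) =ᶠ[𝓝 0] σ (τ j') := Germ.coe_eq.1 h1
    by_contra hne
    have hne' : τ j ≠ τ j' := fun h => hne (hτinj h)
    obtain ⟨q, hq, a1, a2⟩ := (h.nz.and_eventually ((hχ.eventually h2).and
      (hχ.eventually (BD_nhds hσ.r_pos)))).exists
    exact hne' (hσ.inj _ a2 hq a1)
  · rintro ⟨⟨w, g⟩, hw, r', ξ', hξ', hg⟩ hyw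
    simp only at hyw hw hξ' hg
    subst hyw
    obtain ⟨l, hl⟩ := sh1_eq hσ hξ'
    obtain ⟨j, hj⟩ := hτbij.2 l
    refine ⟨j, Subtype.ext (Prod.ext rfl ?_)⟩
    show ((σ (τ j) : ℂ × ℂ → ℂ) : Z2) = g
    rw [hg, hj]
    exact (Germ.coe_eq.2 hl).symm
  · -- local constancy
    have hWsmall : ∀ᶠ p' in 𝓝 p, ‖W p' - W p‖ < r := by
      have h1 : Tendsto (fun p' => W p' - W p) (𝓝 p) (𝓝 0) := by
        have := h.hW.continuousAt.tendsto.sub_const (W p)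
        rwa [sub_self] at this
      filter_upwards [h1.eventually (ball_mem_nhds 0 hσ.r_pos)] with p' hp'
      simpa using hp'
    have hall : ∀ᶠ q in 𝓝 p, ∀ j, ζ j q = σ (τ j) (χ q) := Filter.eventually_all.2 hτ
    filter_upwards [hmapχ.eventually_nhds, hall.eventually_nhds, hWsmall,
      h.hW.eventually_analyticAt] with p' a1 a2 a3 a4 hp' j
    refine ⟨((hsh (τ j)).shift a3).pt, ?_, (hsh (τ j)).step a3⟩
    refine ⟨hp', W, fun q => σ (τ j) (q.1, q.2 + (W p' - W p)), a4, ?_, ?_, ?_, ?_⟩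
    · show W p' = W p + (W p' - W p)
      ring
    · exact ((hsh (τ j)).shift a3).an 0 (zero_mem_BD ((hsh (τ j)).shift a3).r_pos)
    · rfl
    · filter_upwards [a1, a2] with q b1 b2
      refine ⟨?_, ?_⟩
      · have e1 : T.map (.vert i k (W p)) (χ q) = bm T i k ((μ q).1, W q) := by
          rw [hχdef]; simp only; rw [map_vert_sub]
        show μ q = T.map (.vert i k (W p + (W p' - W p))) ((μ q).1, W q - (W p + (W p' - W p)))
        rw [map_vert_sub, ← e1]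
        exact b1
      · rw [b2 j]
        show σ (τ j) (χ q) = σ (τ j) ((μ q).1, W q - (W p + (W p' - W p)) + (W p' - W p))
        congr 1
        simp only [hχdef]
        congr 1
        ring

/-- the local branch of a vertex chart -/
theorem locBr_vert {i : Fin T.m} {k : ℕ} {w : ℂ} {r : ℝ}
    {ζ : Fin T.d → ℂ × ℂ → ℂ} (h : T.Sheets (.vert i k w) r ζ) {β : ℂ} (hβ : ‖β‖ < r)
    (hsp : w + β ∉ T.Sp i k) :
    LocBr (T := T) i k (T.map (.vert i k w)) (fun p => w + p.2) ζ (0, β) := by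
  have hmem : ((0 : ℂ), β) ∈ BD r r := ⟨by simpa using h.r_pos, hβ⟩
  refine ⟨analyticAt_const.add analyticAt_snd, analyticAt_fst, rfl, hsp, ?_, ?_, ?_, ?_, ?_⟩
  · exact Eventually.of_forall fun q => rfl
  · show ∃ᶠ q : ℂ × ℂ in 𝓝 ((0 : ℂ), β), q.1 ≠ 0
    rw [frequently_iff]
    intro U hU
    have h1 : ContinuousAt (fun t : ℂ => ((t, β) : ℂ × ℂ)) 0 := by fun_prop
    have h2 : ∀ᶠ t : ℂ in 𝓝[≠] 0, ((t, β) : ℂ × ℂ) ∈ U :=
      (h1.eventually hU).filter_mono nhdsWithin_le_nhds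
    obtain ⟨t, ht, ht0⟩ := (h2.and self_mem_nhdsWithin).exists
    exact ⟨(t, β), ht, ht0⟩
  · exact fun j => h.an j _ hmem
  · filter_upwards [(isOpen_BD r r).mem_nhds hmem] with q hq
    exact h.split q hq
  · filter_upwards [(isOpen_BD r r).mem_nhds hmem] with q hq hq0
    exact h.inj q hq hq0

theorem att_shift {i : Fin T.m} {k : ℕ} {w : ℂ} {r : ℝ} {ξ : ℂ × ℂ → ℂ} (h : Sh1 T i k w r ξ)
    {β : ℂ} (hβ : ‖β‖ < r) :
    Att T i k (h.shift hβ).pt (T.map (.vert i k w)) ξ (0, β) := by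
  refine ⟨rfl, fun q => w + q.2, fun p => ξ (p.1, p.2 + β), analyticAt_const.add analyticAt_snd,
    rfl, (h.shift hβ).an 0 (zero_mem_BD (h.shift hβ).r_pos), rfl, ?_⟩
  refine Eventually.of_forall fun q => ⟨?_, ?_⟩
  · show T.map (.vert i k w) q = T.map (.vert i k (w + β))
      ((T.map (.vert i k w) q).1, w + q.2 - (w + β))
    rw [map_vert_sub]
    rfl
  · show ξ q = ξ ((T.map (.vert i k w) q).1, w + q.2 - (w + β) + β)
    congr 1
    refine Prod.ext rfl ?_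
    show q.2 = w + q.2 - (w + β) + β
    ring

/-- the points over `w + β` are the shifts of the sheets at `w` -/
theorem shift_surj (hS : T.SheetsStmt) {i : Fin T.m} {k : ℕ} (hk : k ∈ T.lev i) {w : ℂ} {r : ℝ}
    {σ : Fin T.d → ℂ × ℂ → ℂ} (hσ : T.Sheets (.vert i k w) r σ)
    (hsp : ∀ β : ℂ, ‖β‖ < r → w + β ∉ T.Sp i k) {β : ℂ} (hβ : ‖β‖ < r) (y : X T i k)
    (hy : y.1.1 = w + β) : ∃ l, ((sh1_of hσ hsp l).shift hβ).pt = y := by
  have hlb := locBr_vert hσ hβ (hsp β hβ)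
  obtain ⟨ξ, hatt, -, -, hsurj, -⟩ := hlb.pts hS hk
  obtain ⟨j, hj⟩ := hsurj y hy
  refine ⟨j, ?_⟩
  rw [← hj]
  exact Att.unique hS hk hlb.hμ hlb.nz (att_shift (sh1_of hσ hsp j) hβ) (hatt j)

/-- every component meets the fibre over every ordinary point -/
theorem exists_over (hS : T.SheetsStmt) {i : Fin T.m} {k : ℕ} (hk : k ∈ T.lev i)
    (x : X T i k) {w : ℂ} (hw : w ∉ T.Sp i k) : ∃ y : X T i k, y.1.1 = w ∧ cl T y = cl T x := by
  set C : Set ℂ := {w | w ∉ T.Sp i k} with hC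
  have hCc : IsPreconnected C := by
    have h1 : (C : Set ℂ) = ((T.Sp i k : Finset ℂ) : Set ℂ)ᶜ := rfl
    rw [h1]
    have hrank : 1 < Module.rank ℝ ℂ := by rw [Complex.rank_real_complex]; exact Nat.one_lt_ofNat
    exact ((T.Sp i k).finite_toSet.countable.isPathConnected_compl_of_one_lt_rank
      hrank).isConnected.isPreconnected
  set S : Set ℂ := {w | ∃ y : X T i k, y.1.1 = w ∧ cl T y = cl T x} with hSdef
  -- local constancy of membership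
  have hloc : ∀ w₀ ∈ C, ∀ᶠ w' in 𝓝 w₀, (w' ∈ S ↔ w₀ ∈ S) := by
    intro w₀ hw₀
    obtain ⟨r, σ, hσ, hsp⟩ := exists_sheets_vert hS hk hw₀
    filter_upwards [ball_mem_nhds w₀ hσ.r_pos] with w' hw'
    have hβ : ‖w' - w₀‖ < r := by simpa [dist_eq_norm] using hw'
    have h0 : ‖(0 : ℂ)‖ < r := by simpa using hσ.r_pos
    have hst : ∀ l, cl T ((sh1_of hσ hsp l).shift hβ).pt = cl T (sh1_of hσ hsp l).pt :=
      fun l => (Quot.sound ((sh1_of hσ hsp l).step hβ)).symm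
    have hst0 : ∀ l, cl T ((sh1_of hσ hsp l).shift h0).pt = cl T (sh1_of hσ hsp l).pt :=
      fun l => (Quot.sound ((sh1_of hσ hsp l).step h0)).symm
    constructor
    · rintro ⟨y, hy1, hy2⟩
      obtain ⟨l, hl⟩ := shift_surj hS hk hσ hsp hβ y (by rw [hy1]; ring)
      exact ⟨(sh1_of hσ hsp l).pt, rfl, by rw [← hy2, ← hl, hst l]⟩
    · rintro ⟨y, hy1, hy2⟩
      obtain ⟨l, hl⟩ := shift_surj hS hk hσ hsp h0 y (by rw [hy1]; ring)
      refine ⟨((sh1_of hσ hsp l).shift hβ).pt, ?_, by rw [← hy2, ← hl, hst l, hst0 l]⟩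
      show w₀ + (w' - w₀) = w'
      ring
  -- conclusion by preconnectedness
  have hx : x.1.1 ∈ C := x.2.1
  by_contra hcon
  have h1 : IsOpen (C ∩ S) := by
    rw [isOpen_iff_mem_nhds]
    rintro w₀ ⟨h1, h2⟩
    filter_upwards [hloc w₀ h1, (T.Sp i k).finite_toSet.isClosed.isOpen_compl.mem_nhds h1]
      with w' a b
    exact ⟨b, a.2 h2⟩
  have h2 : IsOpen (C ∩ Sᶜ) := by
    rw [isOpen_iff_mem_nhds]
    rintro w₀ ⟨h1, h2⟩
    filter_upwards [hloc w₀ h1, (T.Sp i k).finite_toSet.isClosed.isOpen_compl.mem_nhds h1]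
      with w' a b
    exact ⟨b, fun h => h2 (a.1 h)⟩
  obtain ⟨w', -, ⟨-, h3⟩, ⟨-, h4⟩⟩ := hCc (C ∩ S) (C ∩ Sᶜ) h1 h2
    (fun w' hw' => by
      by_cases h : w' ∈ S
      · exact Or.inl ⟨hw', h⟩
      · exact Or.inr ⟨hw', h⟩)
    ⟨x.1.1, hx, hx, x, rfl, rfl⟩ ⟨w, hw, hw, hcon⟩
  exact h4 h3

/-- **finitely many components** -/
theorem finite_Cmp (hS : T.SheetsStmt) {i : Fin T.m} {k : ℕ} (hk : k ∈ T.lev i) :
    Finite (Cmp T i k) := by
  obtain ⟨w, hw⟩ : ∃ w : ℂ, w ∉ T.Sp i k := by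
    have h1 : ((T.Sp i k : Finset ℂ) : Set ℂ) ≠ univ := by
      intro h
      have := (T.Sp i k).finite_toSet
      rw [h] at this
      exact Set.infinite_univ this
    obtain ⟨w, hw⟩ := (Set.ne_univ_iff_exists_notMem _).1 h1
    exact ⟨w, hw⟩
  obtain ⟨r, σ, hσ, hsp⟩ := exists_sheets_vert hS hk hw
  have h0 : ‖(0 : ℂ)‖ < r := by simpa using hσ.r_pos
  refine Finite.of_surjective (fun l : Fin T.d => cl T ((sh1_of hσ hsp l).shift h0).pt) ?_
  intro E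
  obtain ⟨x, rfl⟩ := Quot.exists_rep E
  obtain ⟨y, hy1, hy2⟩ := exists_over hS hk x hw
  obtain ⟨l, hl⟩ := shift_surj hS hk hσ hsp h0 y (by rw [hy1]; ring)
  exact ⟨l, by show cl T _ = _; rw [hl]; exact hy2⟩

end Crest.Agent.R257.Frm_547
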