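import Crest.Agent.R257.FrmB_547

/-!
R257 / FrmC_547 (task C-FRAME): canonical vertices and charts, the ends of the sheets of a chart.

* `prv i k`    : the level before `k` (`0` if there is none), `cons_prv`;
* `Vx T`       : the canonical vertices `(i, k)`, `k ∈ lev i`, `rep i k = i`; `mkV i k`;
* `CI T`       : all components over all canonical vertices;
* `CC T`       : the canonical charts (`edge v` = the parent edge of `v`), `CC.ch : Ch T.m`;
* `Av c r`     : the radius `r` avoids the special points;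
* `locBr_edge1`, `locBr_edge2`, `locBr_leg`, `locBr_vs` : local branches, with a shift;
* `Ends μ ζ S e` : the sheet `ζ` of `μ` is on the component `e` along `S`; `ends`, `ends_surj`.
-/

set_option autoImplicit false
set_option linter.unusedSectionVars false

open Polynomial Set Filter Topology Metric
open Crest.AlgGeometry.Germ Crest.Agent.R257.AJ387 Crest.Agent.R257.T387

noncomputable section

namespace Crest.Agent.R257.Frm_547

variable {f : (Fin 3 → ℂ) → ℂ} {T : TB f}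

/-! ### levels -/

theorem lev_pos {i : Fin T.m} {k : ℕ} (hk : k ∈ T.lev i) : 0 < k := by
  classical
  unfold TB.lev at hk
  rcases Finset.mem_insert.1 hk with h | h
  · omega
  · obtain ⟨l, -, h⟩ := Finset.mem_image.1 h
    rw [← h]
    exact T.del_pos i l

theorem top_mem (i : Fin T.m) : T.top i ∈ T.lev i := Finset.max'_mem _ _

theorem le_top {i : Fin T.m} {k : ℕ} (hk : k ∈ T.lev i) : k ≤ T.top i := Finset.le_max' _ _ hk

/-- the level before `k`, `0` if there is none -/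
def prv (i : Fin T.m) (k : ℕ) : ℕ := ((T.lev i).filter fun l => l < k).sup id

theorem prv_lt {i : Fin T.m} {k : ℕ} (hk : k ∈ T.lev i) : prv i k < k := by
  unfold prv
  rw [Finset.sup_lt_iff (lev_pos hk)]
  intro b hb
  exact (Finset.mem_filter.1 hb).2

theorem le_prv {i : Fin T.m} {k l : ℕ} (hl : l ∈ T.lev i) (hlk : l < k) : l ≤ prv i k :=
  Finset.le_sup (f := id) (Finset.mem_filter.2 ⟨hl, hlk⟩)

theorem prv_mem {i : Fin T.m} {k : ℕ} (h : prv i k ≠ 0) : prv i k ∈ T.lev i := by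
  unfold prv at h ⊢
  have hne : ((T.lev i).filter fun l => l < k).Nonempty := by
    by_contra hcon
    rw [Finset.not_nonempty_iff_eq_empty] at hcon
    rw [hcon] at h
    exact h rfl
  obtain ⟨b, hb, hbe⟩ := Finset.exists_mem_eq_sup _ hne (id : ℕ → ℕ)
  rw [hbe]
  exact (Finset.mem_filter.1 hb).1

theorem cons_prv {i : Fin T.m} {k : ℕ} (hk : k ∈ T.lev i) : T.Cons i (prv i k) k := by
  refine ⟨?_, hk, prv_lt hk, ?_⟩
  · by_cases h : prv i k = 0
    · exact Or.inl h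
    · exact Or.inr (prv_mem h)
  · intro l hl
    rcases lt_or_ge l k with h | h
    · exact Or.inl (le_prv hl h)
    · exact Or.inr h

theorem cons_eq_prv {i : Fin T.m} {k k' : ℕ} (h : T.Cons i k k') : k = prv i k' := by
  obtain ⟨h1, h2, h3, h4⟩ := h
  apply le_antisymm
  · rcases h1 with h | h
    · rw [h]; exact Nat.zero_le _
    · exact le_prv h h3
  · by_cases h5 : prv i k' = 0
    · rw [h5]; exact Nat.zero_le _
    · rcases h4 _ (prv_mem h5) with h6 | h6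
      · exact h6
      · exact absurd (prv_lt h2) (by omega)

/-! ### canonical vertices -/

variable (T) in
/-- canonical vertices -/
structure Vx where
  i : Fin T.m
  k : ℕ
  mem : k ∈ T.lev i
  rep : rep T i k = i

theorem Vx.ext' {v w : Vx T} (h1 : v.i = w.i) (h2 : v.k = w.k) : v = w := by
  cases v; cases w; simp only at h1 h2; subst h1 h2; rfl

instance : Finite (Vx T) := by
  refine Finite.of_injective (β := Σ i : Fin T.m, T.lev i) (fun v => ⟨v.i, ⟨v.k, v.mem⟩⟩) ?_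
  intro v w h
  simp only [Sigma.mk.injEq] at h
  obtain ⟨h1, h2⟩ := h
  refine Vx.ext' h1 ?_
  cases v; cases w
  simp only at h1
  subst h1
  simpa using h2

/-- the canonical vertex of `(i, k)` -/
def mkV (i : Fin T.m) (k : ℕ) (hk : k ∈ T.lev i) : Vx T :=
  ⟨rep T i k, k, rep_lev T hk, rep_rep T i k⟩

theorem mkV_eq (v : Vx T) : mkV v.i v.k v.mem = v := Vx.ext' v.rep rfl

theorem mkV_congr {i j : Fin T.m} {k : ℕ} (hi : k ∈ T.lev i) (hj : k ∈ T.lev j) (h : Eqv T k i j) :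
    mkV i k hi = mkV j k hj := Vx.ext' (rep_congr T h) rfl

/-- canonical vertices are determined by the level and the class -/
theorem Vx.eq_of_eqv {v w : Vx T} (h1 : v.k = w.k) (h2 : Eqv T v.k v.i w.i) : v = w := by
  refine Vx.ext' ?_ h1
  rw [← v.rep, ← w.rep, ← h1]
  exact rep_congr T h2

variable (T) in
/-- all components over all canonical vertices -/
abbrev CI : Type := Σ v : Vx T, Cmp T v.i v.k

theorem finite_CI (hS : T.SheetsStmt) : Finite (CI T) := by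
  have : ∀ v : Vx T, Finite (Cmp T v.i v.k) := fun v => finite_Cmp hS v.mem
  infer_instance

/-! ### canonical charts -/

variable (T) in
/-- canonical charts: the parent edges of the canonical vertices, all legs, vertex charts of canonical
vertices -/
inductive CC : Type
  | edge (v : Vx T) : CC
  | leg (i : Fin T.m) : CC
  | vert (v : Vx T) (w : ℂ) (hw : w ∉ T.Sp v.i v.k) : CC

namespace CC

/-- the chart -/
def ch : CC T → Ch T.m
  | edge v => .edge v.i (prv v.i v.k) v.k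
  | leg i => .leg i
  | vert v w _ => .vert v.i v.k w

theorem valid (c : CC T) : T.Valid c.ch := by
  cases c with
  | edge v => exact cons_prv v.mem
  | leg i => trivial
  | vert v w hw => exact ⟨v.mem, hw⟩

open Classical in
/-- the vertex of the branch `α = 0`; `none` for the top edges -/
def v1 : CC T → Option (Vx T)
  | edge v => if h : prv v.i v.k = 0 then none else some (mkV v.i (prv v.i v.k) (prv_mem h))
  | leg i => some (mkV i (T.top i) (top_mem i))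
  | vert v _ _ => some v

/-- the vertex of the branch `β = 0` -/
def v2 : CC T → Option (Vx T)
  | edge v => some v
  | leg _ => none
  | vert _ _ _ => none

/-- the branch `α = 0` -/
def br1 (r : ℝ) : CC T → Set (ℂ × ℂ)
  | vert _ _ _ => {p | p.1 = 0 ∧ ‖p.2‖ < r}
  | _ => {p | p.1 = 0 ∧ ‖p.2‖ < r ∧ p.2 ≠ 0}

end CC

/-- the branch `β = 0` -/
def br2 (r : ℝ) : Set (ℂ × ℂ) := {p | p.2 = 0 ∧ ‖p.1‖ < r ∧ p.1 ≠ 0}

/-- the radius `r` avoids the special points -/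
def Av (T : TB f) : Ch T.m → ℝ → Prop
  | .edge i k k', r => (∀ β : ℂ, ‖β‖ < r → β ≠ 0 → β ^ (T.M * (k' - k)) ∉ T.Sp i k) ∧
      ∀ α : ℂ, ‖α‖ < r → α ≠ 0 → (α ^ (T.M * (k' - k)))⁻¹ ∉ T.Sp i k'
  | .leg i, r => ∀ β : ℂ, ‖β‖ < r → β ≠ 0 → β ^ T.M ∉ T.Sp i (T.top i)
  | .vert i k w, r => ∀ β : ℂ, ‖β‖ < r → w + β ∉ T.Sp i k

/-- small non-zero numbers avoid a finite set -/
theorem exists_av_zero (S : Finset ℂ) {n : ℕ} (hn : n ≠ 0) :
    ∃ r > 0, ∀ β : ℂ, ‖β‖ < r → β ≠ 0 → β ^ n ∉ S := by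
  classical
  have h1 : Tendsto (fun β : ℂ => β ^ n) (𝓝 0) (𝓝 0) := by
    have := (continuous_pow n : Continuous fun β : ℂ => β ^ n).tendsto 0
    simpa [hn] using this
  have h2 : ∀ᶠ z in 𝓝 (0 : ℂ), z ∉ S.erase 0 :=
    (S.erase 0).finite_toSet.isClosed.isOpen_compl.mem_nhds (by simp)
  obtain ⟨r, hr, hb⟩ := Metric.eventually_nhds_iff.1 (h1.eventually h2)
  refine ⟨r, hr, fun β hβ h0 hmem => ?_⟩
  exact hb (by simpa using hβ) (Finset.mem_erase.2 ⟨pow_ne_zero _ h0, hmem⟩)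

theorem exists_av_inf (S : Finset ℂ) {n : ℕ} (hn : n ≠ 0) :
    ∃ r > 0, ∀ β : ℂ, ‖β‖ < r → β ≠ 0 → (β ^ n)⁻¹ ∉ S := by
  classical
  obtain ⟨r, hr, h⟩ := exists_av_zero (S.image fun z => z⁻¹) hn
  refine ⟨r, hr, fun β hβ h0 hmem => h β hβ h0 (Finset.mem_image.2 ⟨_, hmem, inv_inv _⟩)⟩

theorem exists_av (c : Ch T.m) (hc : T.Valid c) : ∃ r > 0, ∀ r' ≤ r, Av T c r' := by
  cases c with
  | edge i k k' =>
    have h1 : T.M * (k' - k) ≠ 0 := by
      have := hc.2.2.1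
      exact Nat.mul_ne_zero T.M_pos.ne' (by omega)
    obtain ⟨r₁, hr₁, h₁⟩ := exists_av_zero (T.Sp i k) h1
    obtain ⟨r₂, hr₂, h₂⟩ := exists_av_inf (T.Sp i k') h1
    exact ⟨min r₁ r₂, lt_min hr₁ hr₂, fun r' hr' =>
      ⟨fun β hβ => h₁ β (hβ.trans_le (hr'.trans (min_le_left _ _))),
      fun β hβ => h₂ β (hβ.trans_le (hr'.trans (min_le_right _ _)))⟩⟩
  | leg i =>
    obtain ⟨r₁, hr₁, h₁⟩ := exists_av_zero (T.Sp i (T.top i)) T.M_pos.ne'
    exact ⟨r₁, hr₁, fun r' hr' β hβ => h₁ β (hβ.trans_le hr')⟩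
  | vert i k w =>
    have h1 : ∀ᶠ w' in 𝓝 w, w' ∉ T.Sp i k :=
      (T.Sp i k).finite_toSet.isClosed.isOpen_compl.mem_nhds hc.2
    obtain ⟨ε, hε, hb⟩ := Metric.eventually_nhds_iff_ball.1 h1
    refine ⟨ε, hε, fun r' hr' β hβ => hb _ ?_⟩
    rw [mem_ball, dist_eq_norm, add_sub_cancel_left]
    exact hβ.trans_le hr'

variable (T) in
/-- a choice of radii and sheets for all valid charts -/
structure SD where
  r : Ch T.m → ℝ
  ζ : Ch T.m → Fin T.d → ℂ × ℂ → ℂ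
  sh : ∀ c, T.Valid c → T.Sheets c (r c) (ζ c)
  av : ∀ c, T.Valid c → Av T c (r c)

theorem exists_SD (hS : T.SheetsStmt) : Nonempty (SD T) := by
  classical
  have h : ∀ c : Ch T.m, ∃ (r : ℝ) (ζ : Fin T.d → ℂ × ℂ → ℂ), T.Valid c →
      T.Sheets c r ζ ∧ Av T c r := by
    intro c
    by_cases hc : T.Valid c
    · obtain ⟨r₁, hr₁, h₁⟩ := exists_av c hc
      obtain ⟨r₀, hr₀, h₀⟩ := hS c hc
      obtain ⟨ζ, hζ⟩ := h₀ (min r₀ r₁) (lt_min hr₀ hr₁) (min_le_left _ _)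
      exact ⟨_, ζ, fun _ => ⟨hζ, h₁ _ (min_le_right _ _)⟩⟩
    · exact ⟨0, fun _ _ => 0, fun h => absurd h hc⟩
  choose r ζ h using h
  exact ⟨⟨r, ζ, fun c hc => (h c hc).1, fun c hc => (h c hc).2⟩⟩

/-! ### local branches -/

theorem freq_fst (b : ℂ) {P : ℂ × ℂ → Prop} (h : ∀ᶠ t in 𝓝[≠] (0 : ℂ), P (t, b)) :
    ∃ᶠ q in 𝓝 ((0 : ℂ), b), P q := by
  have h1 : Tendsto (fun t : ℂ => ((t, b) : ℂ × ℂ)) (𝓝[≠] 0) (𝓝 ((0 : ℂ), b)) :=
    ((by fun_prop : Continuous fun t : ℂ => ((t, b) : ℂ × ℂ)).tendsto 0).mono_left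
      nhdsWithin_le_nhds
  exact h1.frequently h.frequently

theorem freq_snd (a : ℂ) {P : ℂ × ℂ → Prop} (h : ∀ᶠ t in 𝓝[≠] (0 : ℂ), P (a, t)) :
    ∃ᶠ q in 𝓝 (a, (0 : ℂ)), P q := by
  have h1 : Tendsto (fun t : ℂ => ((a, t) : ℂ × ℂ)) (𝓝[≠] 0) (𝓝 (a, (0 : ℂ))) :=
    ((by fun_prop : Continuous fun t : ℂ => ((a, t) : ℂ × ℂ)).tendsto 0).mono_left
      nhdsWithin_le_nhds
  exact h1.frequently h.frequently

/-- general construction of a local branch from the sheets of a chart -/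
theorem locBr_mk {c : Ch T.m} {r : ℝ} {ζ : Fin T.d → ℂ × ℂ → ℂ} (h : T.Sheets c r ζ)
    {i : Fin T.m} {k : ℕ} {W : ℂ × ℂ → ℂ} {p : ℂ × ℂ} (hp : p ∈ BD r r)
    (hW : AnalyticAt ℂ W p) (hμ : AnalyticAt ℂ (fun q => (T.map c q).1) p) (s0 : (T.map c p).1 = 0)
    (sp : W p ∉ T.Sp i k) (eq : ∀ᶠ q in 𝓝 p, T.map c q = bm T i k ((T.map c q).1, W q))
    (nz : ∃ᶠ q in 𝓝 p, (T.map c q).1 ≠ 0)
    (gen : ∀ᶠ q in 𝓝 p, (T.map c q).1 ≠ 0 → T.Gen c q) :
    LocBr (T := T) i k (T.map c) W ζ p :=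
  ⟨hW, hμ, s0, sp, eq, nz, fun j => h.an j p hp,
    by filter_upwards [(isOpen_BD r r).mem_nhds hp] with q hq using h.split q hq,
    by filter_upwards [(isOpen_BD r r).mem_nhds hp, gen] with q hq hg h0 using h.inj q hq (hg h0)⟩

theorem sh_comp_an (k : ℕ) (i j : Fin T.m) {g : ℂ × ℂ → ℂ} {p : ℂ × ℂ} (hg : AnalyticAt ℂ g p)
    (h0 : g p ∈ sD T) : AnalyticAt ℂ (fun q => sh T k i j (g q)) p :=
  AnalyticAt.comp (g := sh T k i j) (f := g) (sh_an T _ h0) hg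

/-- the coordinate `w` of the vertex `(j, k)` in the edge chart `(i, k, k')`, first branch -/
def W1 (T : TB f) (i j : Fin T.m) (k k' : ℕ) (p : ℂ × ℂ) : ℂ :=
  p.2 ^ (T.M * (k' - k)) + sh T k i j (p.1 * p.2)

/-- the coordinate `w` of the vertex `(j, k')` in the edge chart `(i, k, k')`, second branch -/
def W2 (T : TB f) (i j : Fin T.m) (k k' : ℕ) (p : ℂ × ℂ) : ℂ :=
  (p.1 ^ (T.M * (k' - k)))⁻¹ + sh T k' i j (p.1 * p.2)

/-- the coordinate `w` of the vertex `(j, top i)` in the leg chart `i` -/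
def WL (T : TB f) (i j : Fin T.m) (p : ℂ × ℂ) : ℂ := p.2 ^ T.M + sh T (T.top i) i j p.1

/-- the coordinate `w` of the vertex `(j, k)` in the vertex chart `(i, k, w)` -/
def WV (T : TB f) (i j : Fin T.m) (k : ℕ) (w : ℂ) (p : ℂ × ℂ) : ℂ := w + p.2 + sh T k i j p.1

theorem map_W1 {i j : Fin T.m} {k k' : ℕ} (hkk : k < k') (hij : Eqv T k i j) {p : ℂ × ℂ}
    (hp : p.1 * p.2 ∈ sD T) :
    T.map (.edge i k k') p = bm T j k (p.1 * p.2, W1 T i j k k' p) := by
  refine Prod.ext rfl ?_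
  simp only [TB.map, bm, W1]
  have h1 : T.M * k' = T.M * k + T.M * (k' - k) := by
    rw [← Nat.mul_add, Nat.add_sub_cancel' hkk.le]
  rw [φ_sh T hij hp, h1, pow_add p.2, mul_pow]
  ring

theorem map_W2 {i j : Fin T.m} {k k' : ℕ} (hkk : k < k') (hij : Eqv T k' i j) {p : ℂ × ℂ}
    (hp : p.1 * p.2 ∈ sD T) (h0 : p.1 ≠ 0) :
    T.map (.edge i k k') p = bm T j k' (p.1 * p.2, W2 T i j k k' p) := by
  refine Prod.ext rfl ?_
  simp only [TB.map, bm, W2]
  have h1 : T.M * k' = T.M * k + T.M * (k' - k) := by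
    rw [← Nat.mul_add, Nat.add_sub_cancel' hkk.le]
  have h2 : p.1 ^ (T.M * k) * p.2 ^ (T.M * k') =
      (p.1 * p.2) ^ (T.M * k') * (p.1 ^ (T.M * (k' - k)))⁻¹ := by
    have h3 : p.1 ^ (T.M * (k' - k)) ≠ 0 := pow_ne_zero _ h0
    rw [eq_mul_inv_iff_mul_eq₀ h3, mul_pow, h1, pow_add p.1, pow_add p.2]
    ring
  rw [φ_sh T hij hp, h2]
  ring

theorem map_WL {i j : Fin T.m} (hij : Eqv T (T.top i) i j) {p : ℂ × ℂ}
    (hp : p.1 ∈ sD T) : T.map (.leg i) p = bm T j (T.top i) (p.1, WL T i j p) := by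
  refine Prod.ext rfl ?_
  simp only [TB.map, bm, WL]
  rw [φ_sh T hij hp]
  ring

theorem map_WV {i j : Fin T.m} {k : ℕ} (hij : Eqv T k i j) {w : ℂ} {p : ℂ × ℂ}
    (hp : p.1 ∈ sD T) : T.map (.vert i k w) p = bm T j k (p.1, WV T i j k w p) := by
  refine Prod.ext rfl ?_
  simp only [TB.map, bm, WV]
  rw [φ_sh T hij hp]
  ring

theorem s_mem {c : Ch T.m} {r : ℝ} {ζ : Fin T.d → ℂ × ℂ → ℂ} (h : T.Sheets c r ζ) {p : ℂ × ℂ}
    (hp : p ∈ BD r r) : (T.map c p).1 ∈ sD T := (h.mem p hp).2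

theorem locBr_edge1 {i j : Fin T.m} {k k' : ℕ} {r : ℝ} {ζ : Fin T.d → ℂ × ℂ → ℂ}
    (h : T.Sheets (.edge i k k') r ζ) (hav : Av T (.edge i k k') r) (hkk : k < k')
    (hij : Eqv T k i j) {p : ℂ × ℂ} (h0 : p.1 = 0) (hr : ‖p.2‖ < r) (hp0 : p.2 ≠ 0) :
    LocBr (T := T) j k (T.map (.edge i k k')) (W1 T i j k k') ζ p := by
  obtain ⟨a, b⟩ := p
  simp only at h0 hr hp0
  subst h0
  have hp : ((0 : ℂ), b) ∈ BD r r := ⟨by simpa using h.r_pos, hr⟩
  have hs : AnalyticAt ℂ (fun q : ℂ × ℂ => q.1 * q.2) ((0 : ℂ), b) :=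
    analyticAt_fst.mul analyticAt_snd
  have h0m : (fun q : ℂ × ℂ => q.1 * q.2) ((0 : ℂ), b) ∈ sD T := by
    simpa using zero_mem_sD T
  refine locBr_mk h hp ((analyticAt_snd.pow _).add (sh_comp_an k i j hs h0m)) hs (zero_mul b)
    ?_ ?_ ?_ ?_
  · show b ^ (T.M * (k' - k)) + sh T k i j (0 * b) ∉ T.Sp j k
    rw [zero_mul, ← sp_shift T hij]
    exact hav.1 b hr hp0
  · filter_upwards [(isOpen_BD r r).mem_nhds hp] with q hq
    exact map_W1 hkk hij (s_mem h hq)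
  · refine freq_fst b ?_
    filter_upwards [self_mem_nhdsWithin] with t ht
    exact mul_ne_zero ht hp0
  · refine Eventually.of_forall fun q hq => ?_
    exact ⟨left_ne_zero_of_mul hq, right_ne_zero_of_mul hq⟩

theorem locBr_edge2 {i j : Fin T.m} {k k' : ℕ} {r : ℝ} {ζ : Fin T.d → ℂ × ℂ → ℂ}
    (h : T.Sheets (.edge i k k') r ζ) (hav : Av T (.edge i k k') r) (hkk : k < k')
    (hij : Eqv T k' i j) {p : ℂ × ℂ} (h0 : p.2 = 0) (hr : ‖p.1‖ < r) (hp0 : p.1 ≠ 0) :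
    LocBr (T := T) j k' (T.map (.edge i k k')) (W2 T i j k k') ζ p := by
  obtain ⟨a, b⟩ := p
  simp only at h0 hr hp0
  subst h0
  have hp : (a, (0 : ℂ)) ∈ BD r r := ⟨hr, by simpa using h.r_pos⟩
  have hs : AnalyticAt ℂ (fun q : ℂ × ℂ => q.1 * q.2) (a, (0 : ℂ)) :=
    analyticAt_fst.mul analyticAt_snd
  have h0m : (fun q : ℂ × ℂ => q.1 * q.2) (a, (0 : ℂ)) ∈ sD T := by
    simpa using zero_mem_sD T
  refine locBr_mk h hp (((analyticAt_fst.pow _).inv (pow_ne_zero _ hp0)).add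
    (sh_comp_an k' i j hs h0m)) hs (mul_zero a) ?_ ?_ ?_ ?_
  · show (a ^ (T.M * (k' - k)))⁻¹ + sh T k' i j (a * 0) ∉ T.Sp j k'
    rw [mul_zero, ← sp_shift T hij]
    exact hav.2 a hr hp0
  · filter_upwards [(isOpen_BD r r).mem_nhds hp,
      continuousAt_fst.eventually_ne (show ((a, (0 : ℂ)) : ℂ × ℂ).1 ≠ 0 from hp0)] with q hq hq0
    exact map_W2 hkk hij (s_mem h hq) hq0
  · refine freq_snd a ?_
    filter_upwards [self_mem_nhdsWithin] with t ht
    exact mul_ne_zero hp0 ht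
  · refine Eventually.of_forall fun q hq => ?_
    exact ⟨left_ne_zero_of_mul hq, right_ne_zero_of_mul hq⟩

theorem locBr_leg {i j : Fin T.m} {r : ℝ} {ζ : Fin T.d → ℂ × ℂ → ℂ}
    (h : T.Sheets (.leg i) r ζ) (hav : Av T (.leg i) r)
    (hij : Eqv T (T.top i) i j) {p : ℂ × ℂ} (h0 : p.1 = 0) (hr : ‖p.2‖ < r) (hp0 : p.2 ≠ 0) :
    LocBr (T := T) j (T.top i) (T.map (.leg i)) (WL T i j) ζ p := by
  obtain ⟨a, b⟩ := p
  simp only at h0 hr hp0
  subst h0
  have hp : ((0 : ℂ), b) ∈ BD r r := ⟨by simpa using h.r_pos, hr⟩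
  refine locBr_mk h hp ((analyticAt_snd.pow _).add (sh_comp_an _ i j analyticAt_fst
    (zero_mem_sD T))) analyticAt_fst rfl ?_ ?_ ?_ ?_
  · show b ^ T.M + sh T (T.top i) i j 0 ∉ T.Sp j (T.top i)
    rw [← sp_shift T hij]
    exact hav b hr hp0
  · filter_upwards [(isOpen_BD r r).mem_nhds hp] with q hq
    exact map_WL hij (s_mem h hq)
  · refine freq_fst b ?_
    filter_upwards [self_mem_nhdsWithin] with t ht
    exact ht
  · filter_upwards [continuousAt_snd.eventually_ne (show (((0 : ℂ), b) : ℂ × ℂ).2 ≠ 0 from hp0)]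
      with q hq hq1
    exact ⟨hq1, hq⟩

theorem locBr_vs {i j : Fin T.m} {k : ℕ} {w : ℂ} {r : ℝ} {ζ : Fin T.d → ℂ × ℂ → ℂ}
    (h : T.Sheets (.vert i k w) r ζ) (hav : Av T (.vert i k w) r)
    (hij : Eqv T k i j) {p : ℂ × ℂ} (h0 : p.1 = 0) (hr : ‖p.2‖ < r) :
    LocBr (T := T) j k (T.map (.vert i k w)) (WV T i j k w) ζ p := by
  obtain ⟨a, b⟩ := p
  simp only at h0 hr
  subst h0
  have hp : ((0 : ℂ), b) ∈ BD r r := ⟨by simpa using h.r_pos, hr⟩
  refine locBr_mk h hp ((analyticAt_const.add analyticAt_snd).add (sh_comp_an _ i j analyticAt_fst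
    (zero_mem_sD T))) analyticAt_fst rfl ?_ ?_ ?_ ?_
  · show w + b + sh T k i j 0 ∉ T.Sp j k
    rw [← sp_shift T hij]
    exact hav b hr
  · filter_upwards [(isOpen_BD r r).mem_nhds hp] with q hq
    exact map_WV hij (s_mem h hq)
  · refine freq_fst b ?_
    filter_upwards [self_mem_nhdsWithin] with t ht
    exact ht
  · exact Eventually.of_forall fun q hq => hq

/-! ### ends -/

/-- the punctured disc is preconnected -/
theorem punct_preconnected (r : ℝ) : IsPreconnected {z : ℂ | ‖z‖ < r ∧ z ≠ 0} := by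
  rcases le_or_gt r 0 with hr | hr
  · have : {z : ℂ | ‖z‖ < r ∧ z ≠ 0} = ∅ := by
      ext z
      simp only [mem_ofPred_eq, mem_empty_iff_false, iff_false, not_and]
      intro h
      exact absurd h (by have := norm_nonneg z; linarith)
    rw [this]
    exact isPreconnected_empty
  · have h1 : {z : ℂ | ‖z‖ < r ∧ z ≠ 0} = Complex.exp '' {z : ℂ | z.re < Real.log r} := by
      ext z
      constructor
      · rintro ⟨h1, h2⟩
        refine ⟨Complex.log z, ?_, Complex.exp_log h2⟩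
        show (Complex.log z).re < Real.log r
        rw [Complex.log_re]
        exact Real.log_lt_log (norm_pos_iff.2 h2) h1
      · rintro ⟨x, hx, rfl⟩
        refine ⟨?_, Complex.exp_ne_zero _⟩
        rw [Complex.norm_exp]
        have hx' : x.re < Real.log r := hx
        calc Real.exp x.re < Real.exp (Real.log r) := Real.exp_lt_exp.2 hx'
          _ = r := Real.exp_log hr
    rw [h1]
    exact ((convex_halfSpace_re_lt _).isPreconnected).image _ Complex.continuous_exp.continuousOn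

/-- the sheet `ζ` of the chart map `μ` is on the component `e` along `S` -/
def Ends (μ : ℂ × ℂ → ℂ × ℂ) (ζ : ℂ × ℂ → ℂ) (S : Set (ℂ × ℂ)) (e : CI T) : Prop :=
  ∀ p ∈ S, ∃ x : X T e.1.i e.1.k, Att T e.1.i e.1.k x μ ζ p ∧ cl T x = e.2

/-- **the ends of the sheets of a chart** -/
theorem exists_ends (hS : T.SheetsStmt) (v : Vx T) {μ : ℂ × ℂ → ℂ × ℂ} {W : ℂ × ℂ → ℂ}
    {ζ : Fin T.d → ℂ × ℂ → ℂ} {S : Set (ℂ × ℂ)} (hSc : IsPreconnected S) (hne : S.Nonempty)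
    (h : ∀ p ∈ S, LocBr (T := T) v.i v.k μ W ζ p) :
    ∃ E : Fin T.d → Cmp T v.i v.k, (∀ j, Ends μ (ζ j) S ⟨v, E j⟩) ∧
      ∀ e : Cmp T v.i v.k, ∃ j, E j = e := by
  classical
  obtain ⟨p₀, hp₀⟩ := hne
  haveI : Nonempty (Fin T.d → X T v.i v.k) := ⟨((h p₀ hp₀).pts hS v.mem).choose⟩
  choose! ξ hξ using fun p hp => (h p hp).pts hS v.mem
  let F : ℂ × ℂ → (Fin T.d → Cmp T v.i v.k) := fun p j => cl T (ξ p j)
  letI : TopologicalSpace (Fin T.d → Cmp T v.i v.k) := ⊥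
  haveI : DiscreteTopology (Fin T.d → Cmp T v.i v.k) := ⟨rfl⟩
  have hc : ContinuousOn F S := by
    intro p hp
    refine ContinuousWithinAt.congr_of_eventuallyEq (f := fun _ => F p)
      continuousWithinAt_const ?_ rfl
    have h1 := (hξ p hp).2.2.2.2
    filter_upwards [nhdsWithin_le_nhds h1, self_mem_nhdsWithin] with p' hp' hp'S
    funext j
    obtain ⟨y, hy1, hy2⟩ := hp' (h p' hp'S).s0 j
    have h2 : ξ p' j = y :=
      Att.unique hS v.mem (h p' hp'S).hμ (h p' hp'S).nz ((hξ p' hp'S).1 j) hy1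
    show cl T (ξ p' j) = cl T (ξ p j)
    rw [h2]
    exact (Quot.sound hy2).symm
  have hcst : ∀ p ∈ S, F p = F p₀ := fun p hp => hSc.constant hc hp hp₀
  refine ⟨F p₀, fun j p hp => ⟨ξ p j, (hξ p hp).1 j, ?_⟩, fun e => ?_⟩
  · exact congrFun (hcst p hp) j
  · obtain ⟨x, rfl⟩ := Quot.exists_rep e
    obtain ⟨y, hy1, hy2⟩ := exists_over hS v.mem x (h p₀ hp₀).sp
    obtain ⟨j, hj⟩ := (hξ p₀ hp₀).2.2.2.1 y hy1
    refine ⟨j, ?_⟩
    show cl T (ξ p₀ j) = _
    rw [hj]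
    exact hy2

end Crest.Agent.R257.Frm_547
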