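import Crest.Agent.R257.FrmC_547

/-!
R257 / FrmD_547 (task C-FRAME): the ends of all canonical charts.

* `br1_preconnected`, `br2_preconnected`, `br1_nonempty`, `br2_nonempty`;
* `locBr1`, `locBr2` : local branches of the canonical charts along the two branches;
* `ED D`    : a choice of the ends `e1 c j`, `e2 c j : Option (CI T)`; `exists_ED`;
* `ED.end_unique` : uniqueness.
-/

set_option autoImplicit false
set_option linter.unusedSectionVars false

open Polynomial Set Filter Topology Metric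
open Crest.AlgGeometry.Germ Crest.Agent.R257.AJ387 Crest.Agent.R257.T387

noncomputable section

namespace Crest.Agent.R257.Frm_547

variable {f : (Fin 3 → ℂ) → ℂ} {T : TB f}

theorem slice_fst_pre {S : Set ℂ} (hS : IsPreconnected S) :
    IsPreconnected {p : ℂ × ℂ | p.1 = 0 ∧ p.2 ∈ S} := by
  have h1 : {p : ℂ × ℂ | p.1 = 0 ∧ p.2 ∈ S} = (fun b : ℂ => ((0 : ℂ), b)) '' S := by
    ext ⟨a, b⟩
    constructor
    · rintro ⟨h1, h2⟩
      simp only at h1 h2
      exact ⟨b, h2, by rw [h1]⟩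
    · rintro ⟨b', h1, h2⟩
      simp only [Prod.mk.injEq] at h2
      exact ⟨h2.1.symm, by rw [← h2.2]; exact h1⟩
  rw [h1]
  exact hS.image _ (by fun_prop)

theorem slice_snd_pre {S : Set ℂ} (hS : IsPreconnected S) :
    IsPreconnected {p : ℂ × ℂ | p.2 = 0 ∧ p.1 ∈ S} := by
  have h1 : {p : ℂ × ℂ | p.2 = 0 ∧ p.1 ∈ S} = (fun b : ℂ => (b, (0 : ℂ))) '' S := by
    ext ⟨a, b⟩
    constructor
    · rintro ⟨h1, h2⟩
      simp only at h1 h2
      exact ⟨a, h2, by rw [h1]⟩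
    · rintro ⟨b', h1, h2⟩
      simp only [Prod.mk.injEq] at h2
      exact ⟨h2.2.symm, by rw [← h2.1]; exact h1⟩
  rw [h1]
  exact hS.image _ (by fun_prop)

theorem br1_preconnected (r : ℝ) (c : CC T) : IsPreconnected (c.br1 r) := by
  cases c with
  | edge v => exact slice_fst_pre (punct_preconnected r)
  | leg i => exact slice_fst_pre (punct_preconnected r)
  | vert v w hw =>
    have h1 := slice_fst_pre (convex_ball (0 : ℂ) r).isPreconnected
    simp only [mem_ball_zero_iff] at h1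
    exact h1

theorem br2_preconnected (r : ℝ) : IsPreconnected (br2 r) := slice_snd_pre (punct_preconnected r)

theorem exists_small {r : ℝ} (hr : 0 < r) : ∃ z : ℂ, ‖z‖ < r ∧ z ≠ 0 := by
  refine ⟨((r / 2 : ℝ) : ℂ), ?_, ?_⟩
  · rw [Complex.norm_real, Real.norm_eq_abs, abs_of_pos (by linarith)]
    linarith
  · exact_mod_cast (by linarith : (r / 2 : ℝ) ≠ 0)

theorem br1_nonempty {r : ℝ} (hr : 0 < r) (c : CC T) : (c.br1 r).Nonempty := by
  obtain ⟨z, h1, h2⟩ := exists_small hr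
  cases c with
  | edge v => exact ⟨(0, z), rfl, h1, h2⟩
  | leg i => exact ⟨(0, z), rfl, h1, h2⟩
  | vert v w hw => exact ⟨(0, z), rfl, h1⟩

theorem br2_nonempty {r : ℝ} (hr : 0 < r) : (br2 r).Nonempty := by
  obtain ⟨z, h1, h2⟩ := exists_small hr
  exact ⟨(z, 0), rfl, h1, h2⟩

/-- local branches along the first branch -/
theorem locBr1 {r : ℝ} {ζ : Fin T.d → ℂ × ℂ → ℂ} (c : CC T) (h : T.Sheets c.ch r ζ)
    (hav : Av T c.ch r) {v : Vx T} (hv : c.v1 = some v) : ∃ W : ℂ × ℂ → ℂ, ∀ p ∈ c.br1 r,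
      LocBr (T := T) v.i v.k (T.map c.ch) W ζ p := by
  classical
  cases c with
  | edge u =>
    simp only [CC.v1] at hv
    split_ifs at hv with h0
    have hv' := Option.some.inj hv
    subst hv'
    exact ⟨_, fun p hp => locBr_edge1 h hav (prv_lt u.mem) (rep_eqv T _ _) hp.1 hp.2.1 hp.2.2⟩
  | leg i =>
    have hv' := Option.some.inj hv
    subst hv'
    exact ⟨_, fun p hp => locBr_leg h hav (rep_eqv T _ _) hp.1 hp.2.1 hp.2.2⟩
  | vert u w hw =>
    have hv' := Option.some.inj hv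
    subst hv'
    exact ⟨_, fun p hp => locBr_vs h hav (Eqv.refl T _ _) hp.1 hp.2⟩

/-- local branches along the second branch -/
theorem locBr2 {r : ℝ} {ζ : Fin T.d → ℂ × ℂ → ℂ} (c : CC T) (h : T.Sheets c.ch r ζ)
    (hav : Av T c.ch r) {v : Vx T} (hv : c.v2 = some v) : ∃ W : ℂ × ℂ → ℂ, ∀ p ∈ br2 r,
      LocBr (T := T) v.i v.k (T.map c.ch) W ζ p := by
  cases c with
  | edge u =>
    have hv' := Option.some.inj hv
    subst hv'
    exact ⟨_, fun p hp => locBr_edge2 h hav (prv_lt u.mem) (Eqv.refl T _ _) hp.1 hp.2.1 hp.2.2⟩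
  | leg i => exact absurd hv (by simp [CC.v2])
  | vert u w hw => exact absurd hv (by simp [CC.v2])

/-- a choice of the ends of all canonical charts -/
structure ED (D : SD T) where
  e1 : CC T → Fin T.d → Option (CI T)
  e2 : CC T → Fin T.d → Option (CI T)
  v1 : ∀ c j, (e1 c j).map Sigma.fst = c.v1
  v2 : ∀ c j, (e2 c j).map Sigma.fst = c.v2
  end1 : ∀ c j e, e1 c j = some e → Ends (T.map c.ch) (D.ζ c.ch j) (c.br1 (D.r c.ch)) e
  end2 : ∀ c j e, e2 c j = some e → Ends (T.map c.ch) (D.ζ c.ch j) (br2 (D.r c.ch)) e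
  surj1 : ∀ c e, c.v1 = some e.1 → ∃ j, e1 c j = some e
  surj2 : ∀ c e, c.v2 = some e.1 → ∃ j, e2 c j = some e

theorem exists_end_aux (hS : T.SheetsStmt) {μ : ℂ × ℂ → ℂ × ℂ}
    {ζ : Fin T.d → ℂ × ℂ → ℂ} {S : Set (ℂ × ℂ)} (hSc : IsPreconnected S) (hne : S.Nonempty)
    (o : Option (Vx T)) (h : ∀ v, o = some v → ∃ W : ℂ × ℂ → ℂ, ∀ p ∈ S,
      LocBr (T := T) v.i v.k μ W ζ p) :
    ∃ e : Fin T.d → Option (CI T), (∀ j, (e j).map Sigma.fst = o) ∧
      (∀ j e', e j = some e' → Ends μ (ζ j) S e') ∧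
      ∀ e' : CI T, o = some e'.1 → ∃ j, e j = some e' := by
  cases o with
  | none => exact ⟨fun _ => none, fun _ => rfl, fun _ _ h => by simp at h, fun _ h => by simp at h⟩
  | some v =>
    obtain ⟨W, hW⟩ := h v rfl
    obtain ⟨E, h1, h2⟩ := exists_ends hS v hSc hne hW
    refine ⟨fun j => some ⟨v, E j⟩, fun _ => rfl, fun j e' he => ?_, fun e' he => ?_⟩
    · rw [← Option.some.inj he]
      exact h1 j
    · obtain ⟨v', e'⟩ := e'
      have := Option.some.inj he
      simp only at this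
      subst this
      obtain ⟨j, hj⟩ := h2 e'
      exact ⟨j, by show some _ = some _; rw [hj]⟩

theorem exists_ED (hS : T.SheetsStmt) (D : SD T) : Nonempty (ED D) := by
  have h1 := fun c : CC T => exists_end_aux hS (br1_preconnected (D.r c.ch) c)
    (br1_nonempty (D.sh _ c.valid).r_pos c) c.v1
    (fun v hv => locBr1 c (D.sh _ c.valid) (D.av _ c.valid) hv)
  have h2 := fun c : CC T => exists_end_aux hS (br2_preconnected (D.r c.ch))
    (br2_nonempty (D.sh _ c.valid).r_pos) c.v2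
    (fun v hv => locBr2 c (D.sh _ c.valid) (D.av _ c.valid) hv)
  choose e1 a1 a2 a3 using h1
  choose e2 b1 b2 b3 using h2
  exact ⟨⟨e1, e2, a1, b1, a2, b2, a3, b3⟩⟩

/-- uniqueness: the class of any point attached to the sheet -/
theorem Ends.cl_eq (hS : T.SheetsStmt) {μ : ℂ × ℂ → ℂ × ℂ} {ζ : ℂ × ℂ → ℂ} {S : Set (ℂ × ℂ)}
    {e : CI T} (he : Ends μ ζ S e) {p : ℂ × ℂ} (hp : p ∈ S)
    (hμ : AnalyticAt ℂ (fun q => (μ q).1) p) (hnz : ∃ᶠ q in 𝓝 p, (μ q).1 ≠ 0)
    {x : X T e.1.i e.1.k} (hx : Att T e.1.i e.1.k x μ ζ p) : cl T x = e.2 := by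
  obtain ⟨y, hy, h⟩ := he p hp
  rw [Att.unique hS e.1.mem hμ hnz hx hy, h]

end Crest.Agent.R257.Frm_547
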