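import Crest.Agent.R257.C2F3_625

/-!
# R257 (S0395), part (GB), leaf GB-LIM (helper625): curvature bound of Kaehler-Einstein surfaces

* `quad_entry` : every curvature component at a point with `K = 1` is `≤ sqrt (c2)`
* `einstein_rm` : `|R(x, x̄, v, v̄)|² ≤ 16 (c2 K / det K) |x|⁴ |v|⁴`
* `einstein_psd` : the same as inequalities of Hermitian forms
-/

set_option autoImplicit false
set_option linter.unusedSectionVars false
set_option linter.unusedSimpArgs false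

open Finset Matrix Complex Filter Topology
open scoped ContDiff ComplexConjugate ComplexOrder

namespace Crest.Agent.R257.GBL3_625

open Crest.Agent.R275.Geo Crest.Agent.R275.EDR890
open Crest.Agent.R273.Fock_243 Crest.Agent.R273.Calc_243
open Crest.Agent.R273.Bkn_243 Crest.Agent.R273.Pos_243 Crest.Agent.R273.BochA_101
open Crest.Agent.R273.BochB_101
open Crest.Agent.R273.BochC_101 Crest.Agent.R273.BochD_101
open Crest.Agent.R273.Hess_333 Crest.Agent.R273.HessB_333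
open Crest.Agent.R257.C2F1_625 Crest.Agent.R257.C2F2_625 Crest.Agent.R257.C2F3_625

noncomputable section

theorem quad_entry {Z : Fin 2 → Fin 2 → Matrix (Fin 2) (Fin 2) ℂ}
    (s1 : ∀ a b c d, Z c d b a = Z a d b c) (s2 : ∀ a b c d, Z c d b a = Z c b d a)
    (hh : ∀ c d, (Z c d)ᴴ = Z d c) (ht : ∀ c d, (Z c d).trace = if c = d then -1 else 0) :
    ∀ a b c d, ‖Z c d b a‖ ^ 2 ≤ (pd (Z 0 0) (Z 1 1) - pd (Z 0 1) (Z 1 0)).re := by
  have hh' : ∀ a b c d, conj (Z c d a b) = Z d c b a := fun a b c d => by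
    rw [← hh c d, Matrix.conjTranspose_apply]; rfl
  have t00 := ht 0 0
  have t11 := ht 1 1
  have t01 := ht 0 1
  have t10 := ht 1 0
  simp only [Matrix.trace_fin_two] at t00 t11 t01 t10
  simp only [if_true, Fin.isValue, zero_ne_one, one_ne_zero, if_false] at t00 t11 t01 t10
  have e1 : Z 1 1 0 0 = Z 0 0 1 1 := by rw [s1 0 0 1 1, s2 1 0 0 1, s1]
  have e2 : Z 0 0 0 1 = Z 1 0 0 0 := s1 1 0 0 0
  have e3 : Z 0 0 1 0 = Z 0 1 0 0 := s2 0 1 0 0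
  have e4 : Z 1 1 1 0 = Z 0 1 1 1 := s1 0 1 1 1
  have e5 : Z 1 1 0 1 = Z 1 0 1 1 := s2 1 0 1 1
  have e6 : Z 0 1 0 1 = Z 0 0 1 1 := (s1 1 0 0 1).trans e1
  have e7 : Z 1 0 1 0 = Z 0 0 1 1 := s1 0 1 1 0
  have e8 : Z 1 0 0 1 = conj (Z 0 1 1 0) := (hh' 1 0 0 1).symm
  have e9 : Z 1 0 0 0 = conj (Z 0 1 0 0) := (hh' 0 0 0 1).symm
  have e10 : Z 0 1 1 1 = - Z 0 1 0 0 := by linear_combination t01
  have e11 : Z 1 0 1 1 = - conj (Z 0 1 0 0) := by rw [← e9]; linear_combination t10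
  have e12 : Z 0 0 1 1 = -1 - Z 0 0 0 0 := by linear_combination t00
  have e13 : Z 1 1 1 1 = Z 0 0 0 0 := by
    have : Z 1 1 1 1 = -1 - Z 1 1 0 0 := by linear_combination t11
    rw [this, e1, e12]; ring
  have eA : Z 0 0 0 0 = ((Z 0 0 0 0).re : ℂ) := (Complex.conj_eq_iff_real.1 (hh' 0 0 0 0)).elim
    fun r hr => by rw [hr, ofReal_re]
  have key : pd (Z 0 0) (Z 1 1) - pd (Z 0 1) (Z 1 0) = (((Z 0 0 0 0).re ^ 2
      + 2 * (1 + (Z 0 0 0 0).re) ^ 2 + 4 * normSq (Z 0 1 0 0) + normSq (Z 0 1 1 0) : ℝ) : ℂ) := by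
    unfold pd
    rw [e2, e3, e4, e5, e6, e7, e8, e9, e10, e11, e13, e1, e12]
    push_cast
    rw [Complex.normSq_eq_conj_mul_self, Complex.normSq_eq_conj_mul_self, ← eA]
    ring
  have nb := Complex.normSq_nonneg (Z 0 1 0 0)
  have ng := Complex.normSq_nonneg (Z 0 1 1 0)
  have qa := sq_nonneg ((Z 0 0 0 0).re)
  have qb := sq_nonneg (1 + (Z 0 0 0 0).re)
  have n0 : ‖Z 0 0 0 0‖ ^ 2 = (Z 0 0 0 0).re ^ 2 := by
    rw [eA, Complex.norm_real, ofReal_re, Real.norm_eq_abs, sq_abs]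
  have n1 : ‖Z 0 0 1 1‖ ^ 2 = (1 + (Z 0 0 0 0).re) ^ 2 := by
    have : Z 0 0 1 1 = ((-(1 + (Z 0 0 0 0).re) : ℝ) : ℂ) := by
      rw [e12]; push_cast; rw [← eA]; ring
    rw [this, Complex.norm_real, Real.norm_eq_abs, sq_abs]; ring
  have n2 : ‖Z 0 1 0 0‖ ^ 2 = normSq (Z 0 1 0 0) := (Complex.normSq_eq_norm_sq _).symm
  have n3 : ‖Z 0 1 1 0‖ ^ 2 = normSq (Z 0 1 1 0) := (Complex.normSq_eq_norm_sq _).symm
  rw [key, ofReal_re]
  intro a b c d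
  fin_cases a <;> fin_cases b <;> fin_cases c <;> fin_cases d <;>
    simp only [Fin.zero_eta, Fin.mk_one, Fin.isValue]
  · nlinarith
  · nlinarith
  · rw [e9, Complex.norm_conj]; nlinarith
  · rw [e1]; nlinarith
  · rw [e3]; nlinarith
  · nlinarith
  · rw [e7]; nlinarith
  · rw [e4, e10, norm_neg]; nlinarith
  · rw [e2, e9, Complex.norm_conj]; nlinarith
  · rw [e6]; nlinarith
  · rw [e8, Complex.norm_conj]; nlinarith
  · rw [e5, e11, norm_neg, Complex.norm_conj]; nlinarith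
  · nlinarith
  · rw [e10, norm_neg]; nlinarith
  · rw [e11, norm_neg, Complex.norm_conj]; nlinarith
  · rw [e13]; nlinarith

/-- a unitary frame at a point of a Kaehler-Einstein surface -/
theorem einstein_frame {K : Cn 2 → Matrix (Fin 2) (Fin 2) ℂ} {z : Cn 2}
    (hK : ∀ᶠ y in 𝓝 z, SmM y K) (hh : ∀ᶠ y in 𝓝 z, (K y).IsHermitian) (hp : (K z).PosDef)
    (hk : ∀ᶠ y in 𝓝 z, KahAt K y) (hE : ∀ a b, ric K z a b = - K z b a) :
    ∃ M B : Matrix (Fin 2) (Fin 2) ℂ, M * B = 1 ∧ K z = Bᴴ * B ∧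
      (∀ a b c d, ‖tf M (rm K z) c d b a‖ ^ 2 ≤ (c2 K z).re / (K z).det.re) := by
  have hKz := hK.self_of_nhds
  obtain ⟨B, hB⟩ := exists_fac hp.posSemidef
  have hdet : 0 < (K z).det := hp.det_pos
  have hB0 : B.det ≠ 0 := by
    intro h0
    rw [hB, Matrix.det_mul, h0, mul_zero] at hdet
    exact lt_irrefl _ hdet
  set M := B⁻¹ with hM
  have i1 : B * M = 1 := Matrix.mul_nonsing_inv _ (isUnit_iff_ne_zero.2 hB0)
  have i2 : M * B = 1 := Matrix.nonsing_inv_mul _ (isUnit_iff_ne_zero.2 hB0)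
  have i3 : Mᴴ * Bᴴ = 1 := by rw [← Matrix.conjTranspose_mul, i1, Matrix.conjTranspose_one]
  have hMK : Mᴴ * K z * M = 1 := by
    rw [hB, ← Matrix.mul_assoc, i3, Matrix.one_mul, i1]
  have hMM : M * Mᴴ = (K z)⁻¹ := by
    refine (Matrix.inv_eq_right_inv ?_).symm
    rw [hB]
    calc Bᴴ * B * (M * Mᴴ) = Bᴴ * (B * M) * Mᴴ := by simp only [Matrix.mul_assoc]
      _ = Bᴴ * Mᴴ := by rw [i1, Matrix.mul_one]
      _ = (M * B)ᴴ := by rw [Matrix.conjTranspose_mul]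
      _ = 1 := by rw [i2, Matrix.conjTranspose_one]
  have x1 : ∀ s q, rm K z 0 s q 1 = rm K z 1 s q 0 := fun s q => rm_hol hKz hk 1 q 0 s
  have x2 : ∀ r p, rm K z r 0 1 p = rm K z r 1 0 p := fun r p => rm_bar hKz hk p 1 r 0
  have x3 : ∀ r s, (rm K z r s)ᴴ = rm K z s r := fun r s => rm_herm hK hh r s
  have s1 : ∀ a b c d, tf M (rm K z) c d b a = tf M (rm K z) a d b c := by
    intro a b c d
    rw [tf_apply, tf_apply]
    simp only [Fin.sum_univ_two, x1]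
    ring
  have s2 : ∀ a b c d, tf M (rm K z) c d b a = tf M (rm K z) c b d a := by
    intro a b c d
    rw [tf_apply, tf_apply]
    simp only [Fin.sum_univ_two, x2]
    ring
  have s3 : ∀ c d, (tf M (rm K z) c d)ᴴ = tf M (rm K z) d c := by
    intro c d
    have e : ∀ r s, (Mᴴ * rm K z r s * M)ᴴ = Mᴴ * rm K z s r * M := fun r s => by
      rw [Matrix.conjTranspose_mul, Matrix.conjTranspose_mul, Matrix.conjTranspose_conjTranspose,
        x3, ← Matrix.mul_assoc]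
    simp only [tf, Fin.sum_univ_two, Matrix.conjTranspose_add, Matrix.conjTranspose_smul, e,
      star_mul', RCLike.star_def, Complex.conj_conj]
    simp only [mul_comm (conj (M _ c)) (M _ d)]
    abel
  have s4 : ∀ c d, (tf M (rm K z) c d).trace = if c = d then -1 else 0 := by
    intro c d
    have e : ∀ r s, (Mᴴ * rm K z r s * M).trace = - K z s r := fun r s => by
      rw [Matrix.mul_assoc, Matrix.trace_mul_comm, Matrix.mul_assoc, hMM, Matrix.trace_mul_comm]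
      exact hE r s
    have h1 : (tf M (rm K z) c d).trace = - (Mᴴ * K z * M) d c := by
      simp only [tf, Fin.sum_univ_two, Matrix.trace_add, Matrix.trace_smul, e, smul_eq_mul,
        Matrix.mul_apply, Matrix.conjTranspose_apply, RCLike.star_def]
      ring
    rw [h1, hMK, Matrix.one_apply]
    by_cases hcd : c = d
    · rw [if_pos hcd, if_pos hcd.symm]
    · rw [if_neg hcd, if_neg fun h => hcd h.symm, neg_zero]
  have h5 := quad_entry s1 s2 s3 s4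
  rw [tf_pd] at h5
  have hdM : (M.det * conj M.det) * (K z).det = 1 := by
    have := congrArg Matrix.det hMK
    rw [Matrix.det_mul, Matrix.det_mul, Matrix.det_conjTranspose, Matrix.det_one] at this
    rw [← this]
    simp only [RCLike.star_def]
    ring
  have hdre : (K z).det = ((K z).det.re : ℂ) :=
    Complex.ext (by simp) (by simpa using (Complex.lt_def.1 hdet).2.symm)
  have h6 : (M.det * conj M.det) ^ 2 * (pd (rm K z 0 0) (rm K z 1 1)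
      - pd (rm K z 0 1) (rm K z 1 0)) = (((K z).det.re)⁻¹ : ℝ) * c2 K z := by
    have e1 : M.det * conj M.det = ((K z).det)⁻¹ := eq_inv_of_mul_eq_one_left hdM
    rw [e1, c2, Complex.ofReal_inv, ← hdre]
    have : (K z).det ≠ 0 := hdet.ne'
    field_simp
  rw [h6, Complex.re_ofReal_mul] at h5
  refine ⟨M, B, i2, hB, fun a b c d => ?_⟩
  rw [div_eq_inv_mul]
  exact h5 a b c d

/-- the full contraction of the curvature -/
def RR (X : Fin 2 → Fin 2 → Matrix (Fin 2) (Fin 2) ℂ) (x v : Fin 2 → ℂ) : ℂ :=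
  ∑ c, ∑ d, x c * conj (x d) * (star v ⬝ᵥ (X c d *ᵥ v))

theorem RR_eq (X : Fin 2 → Fin 2 → Matrix (Fin 2) (Fin 2) ℂ) (x v : Fin 2 → ℂ) :
    RR X x v = ∑ c, ∑ d, ∑ b, ∑ a, x c * conj (x d) * conj (v b) * v a * X c d b a := by
  simp only [RR, dotProduct, Matrix.mulVec, Finset.mul_sum, Pi.star_apply, RCLike.star_def]
  refine Finset.sum_congr rfl fun c _ => Finset.sum_congr rfl fun d _ =>
    Finset.sum_congr rfl fun b _ => Finset.sum_congr rfl fun a _ => by ring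

theorem RR_tf (M : Matrix (Fin 2) (Fin 2) ℂ) (X : Fin 2 → Fin 2 → Matrix (Fin 2) (Fin 2) ℂ)
    (x v : Fin 2 → ℂ) : RR (tf M X) x v = RR X (M *ᵥ x) (M *ᵥ v) := by
  have e1 : ∀ c d, star v ⬝ᵥ (tf M X c d *ᵥ v) = ∑ r, ∑ s, (M r c * conj (M s d)) *
      (star (M *ᵥ v) ⬝ᵥ (X r s *ᵥ (M *ᵥ v))) := by
    intro c d
    unfold tf
    rw [Matrix.sum_mulVec, dotProduct_sum]
    refine Finset.sum_congr rfl fun r _ => ?_
    rw [Matrix.sum_mulVec, dotProduct_sum]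
    refine Finset.sum_congr rfl fun s _ => ?_
    rw [Matrix.smul_mulVec, dotProduct_smul, smul_eq_mul]
    congr 1
    rw [Matrix.star_mulVec, ← Matrix.mulVec_mulVec, ← Matrix.mulVec_mulVec,
      Matrix.dotProduct_mulVec, Matrix.dotProduct_mulVec, Matrix.dotProduct_mulVec,
      Matrix.vecMul_vecMul]
  have e2 : ∀ Q : Fin 2 → Fin 2 → ℂ, ∑ c, ∑ d, x c * conj (x d) *
      (∑ r, ∑ s, (M r c * conj (M s d)) * Q r s) =
      ∑ r, ∑ s, (M *ᵥ x) r * conj ((M *ᵥ x) s) * Q r s := by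
    intro Q
    simp only [Fin.sum_univ_two, Matrix.mulVec, dotProduct, map_add, map_mul]
    ring
  unfold RR
  simp only [e1]
  exact e2 _

theorem RR_le {X : Fin 2 → Fin 2 → Matrix (Fin 2) (Fin 2) ℂ} {q : ℝ}
    (h : ∀ a b c d, ‖X c d b a‖ ^ 2 ≤ q) (x v : Fin 2 → ℂ) :
    ‖RR X x v‖ ≤ 4 * Real.sqrt q * ((‖x 0‖ ^ 2 + ‖x 1‖ ^ 2) * (‖v 0‖ ^ 2 + ‖v 1‖ ^ 2)) := by
  have hq : ∀ a b c d, ‖X c d b a‖ ≤ Real.sqrt q := fun a b c d =>
    Real.le_sqrt_of_sq_le (h a b c d)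
  have h1 : ‖RR X x v‖ ≤ ∑ c, ∑ d, ∑ b, ∑ a, ‖x c‖ * ‖x d‖ * ‖v b‖ * ‖v a‖ * Real.sqrt q := by
    rw [RR_eq]
    refine (norm_sum_le _ _).trans (Finset.sum_le_sum fun c _ => ?_)
    refine (norm_sum_le _ _).trans (Finset.sum_le_sum fun d _ => ?_)
    refine (norm_sum_le _ _).trans (Finset.sum_le_sum fun b _ => ?_)
    refine (norm_sum_le _ _).trans (Finset.sum_le_sum fun a _ => ?_)
    rw [norm_mul, norm_mul, norm_mul, norm_mul, Complex.norm_conj, Complex.norm_conj]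
    exact mul_le_mul_of_nonneg_left (hq a b c d) (by positivity)
  refine h1.trans ?_
  have h2 : ∑ c, ∑ d, ∑ b, ∑ a, ‖x c‖ * ‖x d‖ * ‖v b‖ * ‖v a‖ * Real.sqrt q
      = Real.sqrt q * ((‖x 0‖ + ‖x 1‖) ^ 2 * (‖v 0‖ + ‖v 1‖) ^ 2) := by
    simp only [Fin.sum_univ_two]
    ring
  rw [h2]
  have a1 : (‖x 0‖ + ‖x 1‖) ^ 2 ≤ 2 * (‖x 0‖ ^ 2 + ‖x 1‖ ^ 2) := by
    nlinarith [sq_nonneg (‖x 0‖ - ‖x 1‖)]
  have a2 : (‖v 0‖ + ‖v 1‖) ^ 2 ≤ 2 * (‖v 0‖ ^ 2 + ‖v 1‖ ^ 2) := by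
    nlinarith [sq_nonneg (‖v 0‖ - ‖v 1‖)]
  calc Real.sqrt q * ((‖x 0‖ + ‖x 1‖) ^ 2 * (‖v 0‖ + ‖v 1‖) ^ 2)
      ≤ Real.sqrt q * ((2 * (‖x 0‖ ^ 2 + ‖x 1‖ ^ 2)) * (2 * (‖v 0‖ ^ 2 + ‖v 1‖ ^ 2))) := by
        refine mul_le_mul_of_nonneg_left ?_ (Real.sqrt_nonneg _)
        exact mul_le_mul a1 a2 (by positivity) (by positivity)
    _ = _ := by ring

theorem nq_fac {B : Matrix (Fin 2) (Fin 2) ℂ} (x : Fin 2 → ℂ) :
    star x ⬝ᵥ ((Bᴴ * B) *ᵥ x) = (((‖(B *ᵥ x) 0‖ ^ 2 + ‖(B *ᵥ x) 1‖ ^ 2 : ℝ)) : ℂ) := by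
  have h1 : star x ⬝ᵥ ((Bᴴ * B) *ᵥ x) = star (B *ᵥ x) ⬝ᵥ (B *ᵥ x) := by
    rw [Matrix.star_mulVec, ← Matrix.mulVec_mulVec, Matrix.dotProduct_mulVec]
  rw [h1]
  simp only [dotProduct, Fin.sum_univ_two, Pi.star_apply, RCLike.star_def]
  push_cast
  rw [← Complex.conj_mul', ← Complex.conj_mul']

/-- **curvature bound** of Kaehler-Einstein surfaces -/
theorem einstein_rm {K : Cn 2 → Matrix (Fin 2) (Fin 2) ℂ} {z : Cn 2}
    (hK : ∀ᶠ y in 𝓝 z, SmM y K) (hh : ∀ᶠ y in 𝓝 z, (K y).IsHermitian) (hp : (K z).PosDef)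
    (hk : ∀ᶠ y in 𝓝 z, KahAt K y) (hE : ∀ a b, ric K z a b = - K z b a) (x v : Fin 2 → ℂ) :
    ‖RR (rm K z) x v‖ ≤ 4 * Real.sqrt ((c2 K z).re / (K z).det.re) *
      ((star x ⬝ᵥ (K z *ᵥ x)).re * (star v ⬝ᵥ (K z *ᵥ v)).re) := by
  obtain ⟨M, B, h1, h2, h3⟩ := einstein_frame hK hh hp hk hE
  have e1 : ∀ y : Fin 2 → ℂ, M *ᵥ (B *ᵥ y) = y := fun y => by
    rw [Matrix.mulVec_mulVec, h1, Matrix.one_mulVec]
  have e2 := RR_le h3 (B *ᵥ x) (B *ᵥ v)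
  rw [RR_tf, e1, e1] at e2
  rw [h2, nq_fac, nq_fac, Complex.ofReal_re, Complex.ofReal_re, ← h2]
  exact e2

theorem star_q (N : Matrix (Fin 2) (Fin 2) ℂ) (y : Fin 2 → ℂ) :
    star (star y ⬝ᵥ (N *ᵥ y)) = star y ⬝ᵥ (Nᴴ *ᵥ y) := by
  simp only [dotProduct, Matrix.mulVec, Fin.sum_univ_two, Pi.star_apply,
    Matrix.conjTranspose_apply, RCLike.star_def, map_add, map_mul, Complex.conj_conj]
  ring

/-- the curvature form of a vector is Hermitian -/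
theorem rv_herm {K : Cn 2 → Matrix (Fin 2) (Fin 2) ℂ} {z : Cn 2}
    (hK : ∀ᶠ y in 𝓝 z, SmM y K) (hh : ∀ᶠ y in 𝓝 z, (K y).IsHermitian) (v : Fin 2 → ℂ) :
    (Matrix.of fun c d => star v ⬝ᵥ (rm K z c d *ᵥ v)).IsHermitian := by
  ext c d
  rw [Matrix.conjTranspose_apply, Matrix.of_apply, Matrix.of_apply, star_q, rm_herm hK hh d c]

theorem psd_pm {G S : Matrix (Fin 2) (Fin 2) ℂ} (hG : G.IsHermitian) (hS : S.IsHermitian) {t : ℝ}
    (h : ∀ y, |(star y ⬝ᵥ (S *ᵥ y)).re| ≤ t * (star y ⬝ᵥ (G *ᵥ y)).re) :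
    ((t : ℂ) • G - S).PosSemidef ∧ ((t : ℂ) • G + S).PosSemidef := by
  have im0 : ∀ {N : Matrix (Fin 2) (Fin 2) ℂ}, N.IsHermitian → ∀ y : Fin 2 → ℂ,
      (star y ⬝ᵥ (N *ᵥ y)).im = 0 := by
    intro N hN y
    have h1 : conj (star y ⬝ᵥ (N *ᵥ y)) = star y ⬝ᵥ (N *ᵥ y) := by
      have h2 : star (star y ⬝ᵥ (N *ᵥ y)) = star y ⬝ᵥ (N *ᵥ y) := by
        rw [star_q, hN.eq]
      exact h2
    exact Complex.conj_eq_iff_im.1 h1
  have hG' : ((t : ℂ) • G).IsHermitian := by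
    rw [Matrix.IsHermitian, Matrix.conjTranspose_smul, hG.eq, RCLike.star_def, Complex.conj_ofReal]
  refine ⟨Matrix.PosSemidef.of_dotProduct_mulVec_nonneg (hG'.sub hS) fun y => ?_,
    Matrix.PosSemidef.of_dotProduct_mulVec_nonneg (hG'.add hS) fun y => ?_⟩
  · have hy := (abs_le.1 (h y)).2
    rw [Complex.le_def]
    rw [Matrix.sub_mulVec, Matrix.smul_mulVec, dotProduct_sub, dotProduct_smul, smul_eq_mul]
    constructor
    · rw [Complex.sub_re, Complex.re_ofReal_mul, Complex.zero_re]; linarith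
    · rw [Complex.sub_im, Complex.im_ofReal_mul, im0 hG, im0 hS]; simp
  · have hy := (abs_le.1 (h y)).1
    rw [Complex.le_def]
    rw [Matrix.add_mulVec, Matrix.smul_mulVec, dotProduct_add, dotProduct_smul, smul_eq_mul]
    constructor
    · rw [Complex.add_re, Complex.re_ofReal_mul, Complex.zero_re]; linarith
    · rw [Complex.add_im, Complex.im_ofReal_mul, im0 hG, im0 hS]; simp

/-- **curvature bound** as inequalities of Hermitian forms -/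
theorem einstein_psd {K : Cn 2 → Matrix (Fin 2) (Fin 2) ℂ} {z : Cn 2}
    (hK : ∀ᶠ y in 𝓝 z, SmM y K) (hh : ∀ᶠ y in 𝓝 z, (K y).IsHermitian) (hp : (K z).PosDef)
    (hk : ∀ᶠ y in 𝓝 z, KahAt K y) (hE : ∀ a b, ric K z a b = - K z b a) (v : Fin 2 → ℂ) {r : ℝ}
    (hr : 4 * Real.sqrt ((c2 K z).re / (K z).det.re) ≤ r) :
    (((r * (star v ⬝ᵥ (K z *ᵥ v)).re : ℝ) : ℂ) • (K z)ᵀ -
      Matrix.of fun c d => star v ⬝ᵥ (rm K z c d *ᵥ v)).PosSemidef ∧
    (((r * (star v ⬝ᵥ (K z *ᵥ v)).re : ℝ) : ℂ) • (K z)ᵀ +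
      Matrix.of fun c d => star v ⬝ᵥ (rm K z c d *ᵥ v)).PosSemidef := by
  have nn : ∀ w : Fin 2 → ℂ, 0 ≤ (star w ⬝ᵥ (K z *ᵥ w)).re := fun w =>
    (Complex.le_def.1 (hp.posSemidef.dotProduct_mulVec_nonneg w)).1
  have hG : ((K z)ᵀ).IsHermitian := hp.1.transpose
  refine psd_pm hG (rv_herm hK hh v) fun y => ?_
  have e1 : star y ⬝ᵥ ((Matrix.of fun c d => star v ⬝ᵥ (rm K z c d *ᵥ v)) *ᵥ y)
      = RR (rm K z) (star y) v := by
    unfold RR
    simp only [dotProduct, Matrix.mulVec, Matrix.of_apply, Fin.sum_univ_two, Pi.star_apply,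
      RCLike.star_def, Complex.conj_conj]
    ring
  have e2 : star y ⬝ᵥ ((K z)ᵀ *ᵥ y) = star (star y) ⬝ᵥ (K z *ᵥ star y) := by
    simp only [dotProduct, Matrix.mulVec, Matrix.transpose_apply, Fin.sum_univ_two, Pi.star_apply,
      RCLike.star_def, Complex.conj_conj]
    ring
  rw [e1, e2]
  refine (Complex.abs_re_le_norm _).trans ((einstein_rm hK hh hp hk hE (star y) v).trans ?_)
  calc 4 * Real.sqrt ((c2 K z).re / (K z).det.re) *
      ((star (star y) ⬝ᵥ (K z *ᵥ star y)).re * (star v ⬝ᵥ (K z *ᵥ v)).re)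
      ≤ r * ((star (star y) ⬝ᵥ (K z *ᵥ star y)).re * (star v ⬝ᵥ (K z *ᵥ v)).re) :=
        mul_le_mul_of_nonneg_right hr (mul_nonneg (nn _) (nn _))
    _ = _ := by ring

end

end Crest.Agent.R257.GBL3_625
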