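import Crest.Agent.R257.GBL4_625

/-!
# R257 (S0395), part (GB), leaf GB-LIM (helper625): the loss lemma

`A : Atl 2 M` (not compact), `Kg` a Kaehler metric `= ∂∂̄w`, `E` a Hermitian holomorphic bundle of
rank 2, `s` a section without zeros on `U`, `θ` a function equal to `1` towards the end
`{ρ large}`, with compact support otherwise, `|dρ|, |∂∂̄ρ| ≤ C`, `|log |s|²| ≤ C ρ`,
curvature `≤ r`, `r² ≤ C (c₂ + C)`, finite volume.  Then `∫ θ c₂ = ∫ ∂∂̄θ ∧ (Λ Z + bb)`: nothing is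
lost in the end.
-/

set_option autoImplicit false
set_option linter.unusedSectionVars false

open Set Filter Topology Complex MeasureTheory
open scoped ContDiff Matrix ComplexConjugate ComplexOrder

namespace Crest.Agent.R257.GBL5_625

open Crest.Agent.R273 Crest.Agent.R275 Crest.Agent.R275.Geo Crest.Agent.R275.TorS666
open Crest.Agent.R275.Tor812 hiding pd
open Crest.Agent.R275.C1d194 Crest.Agent.R275.Pai323 Crest.Agent.R275.OmT75
open Crest.Agent.R275.SerG398 (lint dens)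
open Crest.Agent.R275.EDR890
open Crest.Agent.R273.StokesV_332
open Crest.Agent.R275.Core144 Crest.Agent.R273.Defs_333 Crest.Agent.R273.HM_333
open Crest.Agent.R273.Hess_333 Crest.Agent.R273.HessB_333 Crest.Agent.R273.Kah_333
open Crest.Agent.R273.Vol_333 Crest.Agent.R273.Vm_333
open Crest.Agent.R273.GreenM_5
open Crest.Agent.R257.C2F1_625 Crest.Agent.R257.C2F2_625
open Crest.Agent.R257.C2F5_335 Crest.Agent.R257.GBL1_625 Crest.Agent.R257.GBL2_625
open Crest.Agent.R257.GBL4_625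
open Crest.Agent.R257.C2F6_335 hiding ddD
open Crest.Agent.R257.GBLcut_844 Crest.Agent.R257.Up3_938

noncomputable section

variable {M : Type} [TopologicalSpace M] {A : Atl 2 M}

/-- the data at one end -/
structure End (Kg : Kah A) (w : M → ℝ) (U : Set M) (θ ρ : M → ℝ) (R0 C : ℝ) : Prop where
  hU : IsOpen U
  w_sm : A.Sm w
  gw : ∀ i, ∀ x ∈ (A.e i).source, Kg.g i x = hsf A w i x
  θ_sm : A.Sm θ
  θ0 : ∀ x, 0 ≤ θ x
  ρ_sm : A.Sm ρ
  cpt : ∀ R : ℝ, ∃ K, IsCompact K ∧ K ⊆ U ∧ ∀ x, x ∉ K → θ x = 0 ∨ R < ρ x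
  one : ∀ x, R0 < ρ x → θ =ᶠ[𝓝 x] fun _ => 1
  C0 : 0 < C
  gr : ∀ i, ∀ x ∈ (A.e i).source, R0 < ρ x → ∀ v,
    ‖Levi_145.gr (fun z => ρ ((A.e i).symm z)) (A.e i x) v‖ ^ 2 ≤
      C * Levi_145.lev (fun z => w ((A.e i).symm z)) (A.e i x) v
  lv : ∀ i, ∀ x ∈ (A.e i).source, R0 < ρ x → ∀ v,
    |Levi_145.lev (fun z => ρ ((A.e i).symm z)) (A.e i x) v| ≤
      C * Levi_145.lev (fun z => w ((A.e i).symm z)) (A.e i x) v

namespace End

variable {Kg : Kah A} {w : M → ℝ} {U : Set M} {θ ρ : M → ℝ} {R0 C : ℝ}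

theorem mem_U (h : End Kg w U θ ρ R0 C) {x : M} (hx : θ x ≠ 0) : x ∈ U := by
  obtain ⟨K, -, hK, h0⟩ := h.cpt (ρ x)
  by_contra hU
  rcases h0 x fun h' => hU (hK h') with h1 | h1
  · exact hx h1
  · exact lt_irrefl _ h1

theorem one_at (h : End Kg w U θ ρ R0 C) {x : M} (hx : R0 < ρ x) : θ x = 1 :=
  (h.one x hx).self_of_nhds

variable [T2Space M] [MeasurableSpace M] [BorelSpace M] [Countable A.ι]

theorem ρ_cont (h : End Kg w U θ ρ R0 C) : Continuous ρ := sm_continuous h.ρ_sm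

theorem hsf_θ (h : End Kg w U θ ρ R0 C) {i : A.ι} {x : M} (hx : x ∈ (A.e i).source)
    (hR : R0 < ρ x) : hsf A θ i x = 0 := by
  rw [hsf_congr hx (h.one x hR), hsf_const]

/-- product with a cut-off function -/
theorem hsf_prod (h : End Kg w U θ ρ R0 C) {χ : M → ℝ} {j : ℝ} (hj : R0 < j)
    (h1 : ∀ x, ρ x ≤ j → χ x = 1) {i : A.ι} {x : M} (hx : x ∈ (A.e i).source) :
    hsf A (fun y => θ y * χ y) i x = hsf A θ i x + hsf A χ i x := by
  by_cases hlt : ρ x < j
  · have e : ∀ᶠ y in 𝓝 x, χ y = 1 := by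
      filter_upwards [h.ρ_cont.continuousAt.eventually (gt_mem_nhds hlt)] with y hy
      exact h1 y (le_of_lt hy)
    rw [hsf_congr hx (e.mono fun y hy => by simp only [hy, mul_one] :
        (fun y => θ y * χ y) =ᶠ[𝓝 x] θ), hsf_congr hx (e : χ =ᶠ[𝓝 x] fun _ => 1), hsf_const,
      add_zero]
  · have hR : R0 < ρ x := lt_of_lt_of_le hj (not_lt.1 hlt)
    rw [h.hsf_θ hx hR, zero_add]
    exact hsf_congr hx ((h.one x hR).mono fun y hy => by simp only [hy, one_mul])

theorem prod_sm (h : End Kg w U θ ρ R0 C) {χ : M → ℝ} (hχ : A.Sm χ) :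
    A.Sm fun y => θ y * χ y := fun i => (h.θ_sm i).mul (hχ i)

theorem prod_cpt (h : End Kg w U θ ρ R0 C) {χ : M → ℝ} {R : ℝ} (h0 : ∀ x, R ≤ ρ x → χ x = 0) :
    ∃ K, IsCompact K ∧ K ⊆ U ∧ ∀ x, x ∉ K → θ x * χ x = 0 := by
  obtain ⟨K, hK, hKU, hz⟩ := h.cpt R
  refine ⟨K, hK, hKU, fun x hx => ?_⟩
  rcases hz x hx with h1 | h1
  · rw [h1, zero_mul]
  · rw [h0 x h1.le, mul_zero]

variable {T : A.ι → M → Matrix (Fin 2) (Fin 2) ℂ}

/-- the outer term is integrable -/
theorem out_int (h : End Kg w U θ ρ R0 C) (P : Part A) (hT : SmS A U T) (hT' : TnO A U T) :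
    Integrable (fR Kg fun i x => pd (hsf A θ i x) (T i x)) (vm (volK Kg)) := by
  set j : ℝ := |R0| + 1 with hj
  have hj0 : 0 < j := by positivity
  have hjR : R0 < j := by
    have := le_abs_self R0
    linarith
  have h2j : 0 < 2 * j := by positivity
  obtain ⟨K, hK, hKU, hz⟩ := h.prod_cpt (χ := chi ρ (2 * j)) (R := 2 * (2 * j))
    fun x hx => chi_eq_zero h2j hx
  have hs := h.prod_sm (chi_Sm h.ρ_sm (2 * j))
  have hd : Den A (fun i x => (chi ρ j x : ℂ) *
      pd (hsf A (fun y => θ y * chi ρ (2 * j) y) i x) (T i x)) :=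
    (den_hsf hs hK.isClosed hKU hz hT hT').mulF (φ := fun x => (chi ρ j x : ℂ))
      fun i => smAt_ofReal (chi_Sm h.ρ_sm j i)
  have ho : OffK A (fun i x => (chi ρ j x : ℂ) *
      pd (hsf A (fun y => θ y * chi ρ (2 * j) y) i x) (T i x)) K :=
    (off_hsf hK.isClosed hz T).mul_left _
  have e : fR Kg (fun i x => pd (hsf A θ i x) (T i x)) = fR Kg (fun i x => (chi ρ j x : ℂ) *
      pd (hsf A (fun y => θ y * chi ρ (2 * j) y) i x) (T i x)) := by
    funext x
    refine fR_congr Kg fun i hx => ?_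
    rw [h.hsf_prod (lt_trans hjR (by linarith)) (fun y hy => chi_eq_one h2j hy) hx]
    by_cases h1 : ρ x < j
    · have h2 : x ∉ trn ρ (2 * j) := fun hm => by have := hm.1; linarith
      rw [hsf_chi_off h2j h.ρ_sm i hx h2, add_zero, chi_eq_one hj0 h1.le]
      simp
    · rw [h.hsf_θ hx (lt_of_lt_of_le hjR (not_lt.1 h1)), zero_add]
      by_cases h2 : ρ x < 2 * j
      · have h3 : x ∉ trn ρ (2 * j) := fun hm => by have := hm.1; linarith
        rw [hsf_chi_off h2j h.ρ_sm i hx h3]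
        simp [pd]
      · rw [chi_eq_zero hj0 (not_lt.1 h2)]
        simp [pd]
  rw [e]
  exact (int_fR Kg P hd hK ho).1

/-- splitting of the integral of `∂∂̄(θχ) ∧ T` -/
theorem split (h : End Kg w U θ ρ R0 C) (P : Part A) (hT : SmS A U T) (hT' : TnO A U T)
    {χ : M → ℝ} {j : ℝ} (hj : R0 < j) (hχ : A.Sm χ) (h1 : ∀ x, ρ x ≤ j → χ x = 1)
    (h0 : ∀ x, 2 * j ≤ ρ x → χ x = 0) :
    Integrable (fR Kg fun i x => pd (hsf A χ i x) (T i x)) (vm (volK Kg)) ∧
    (intD P (fun i x => pd (hsf A (fun y => θ y * χ y) i x) (T i x))).re =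
      ∫ x, fR Kg (fun i x => pd (hsf A θ i x) (T i x)) x ∂(vm (volK Kg)) +
      ∫ x, fR Kg (fun i x => pd (hsf A χ i x) (T i x)) x ∂(vm (volK Kg)) := by
  obtain ⟨K, hK, hKU, hz⟩ := h.prod_cpt h0
  have hd := den_hsf (h.prod_sm hχ) hK.isClosed hKU hz hT hT'
  obtain ⟨i1, i2⟩ := int_fR Kg P hd hK (off_hsf hK.isClosed hz T)
  have i3 := h.out_int P hT hT'
  have e : ∀ x, fR Kg (fun i x => pd (hsf A (fun y => θ y * χ y) i x) (T i x)) x =
      fR Kg (fun i x => pd (hsf A θ i x) (T i x)) x +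
        fR Kg (fun i x => pd (hsf A χ i x) (T i x)) x := by
    intro x
    rw [← fR_add]
    refine fR_congr Kg fun i hx => ?_
    rw [h.hsf_prod hj h1 hx, add_pd]
  have i4 : Integrable (fR Kg fun i x => pd (hsf A χ i x) (T i x)) (vm (volK Kg)) := by
    refine (i1.sub i3).congr (Eventually.of_forall fun x => ?_)
    show fR Kg _ x - fR Kg _ x = _
    rw [e x]
    ring
  refine ⟨i4, ?_⟩
  rw [← i2, ← integral_add i3 i4]
  exact integral_congr_ae (Eventually.of_forall e)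

/-- the constant of the loss lemma -/
def CC' (C : ℝ) : ℝ := C + 2 + 4 * cK * C ^ 2 + cK * C * (1 + 8 * C)

theorem Kg_sm (Kg : Kah A) (U : Set M) : SmS A U Kg.g := fun i a b => SmAt.smO (Kg.sm i a b) U

theorem Kg_tn (Kg : Kah A) (U : Set M) : TnO A U Kg.g := fun i j x hx _ => Kg.tr i j x hx

theorem fR_abs_le {f : A.ι → M → ℂ} {x : M} {t : ℝ}
    (h : |(f (ci A x) x).re| ≤ t * (Kg.g (ci A x) x).det.re) : |fR Kg f x| ≤ t := by
  have hd := det_pos' Kg x
  rw [fR_eq, abs_div, abs_of_pos hd, div_le_iff₀ hd]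
  exact h

variable {E : HB A (Fin 2)} {s : HSec E}

theorem F_le (h : End Kg w U θ ρ R0 C) (hlam : ∀ x, R0 < ρ x → |s.lam x| ≤ C * ρ x) {j : ℝ}
    (hj : 1 ≤ j) (hjR : R0 < j) (x : M) :
    |fR Kg (fun i x => pd (hsf A (chs ρ j) i x) (LT s Kg.g i x)) x| ≤
      CC' C * (trn ρ j).indicator θ x := by
  have hj0 : 0 < j := by linarith
  have hC := h.C0
  have hcK := cK_nonneg
  by_cases hx : x ∈ trn ρ j
  · have hR : R0 < ρ x := lt_of_lt_of_le hjR hx.1
    rw [indicator_of_mem hx, h.one_at hR, mul_one]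
    have hci := mem_ci (A := A) x
    obtain ⟨p1, p2⟩ := psd_chs_hsf hj h.w_sm h.ρ_sm _ hci (h.gr _ x hci hR) (h.lv _ x hci hR)
    rw [← h.gw _ x hci] at p1 p2
    have b := F_pt (L := s.lam x) (Kg.pos _ x hci).posSemidef p1 p2
    refine (fR_abs_le (t := cK * C / j * (|s.lam x| * 2)) ?_).trans ?_
    · calc _ ≤ _ := b
        _ = _ := by ring
    · have h1 : |s.lam x| ≤ C * (2 * j) :=
        (hlam x hR).trans (mul_le_mul_of_nonneg_left hx.2 hC.le)
      have h2 : cK * C / j * (|s.lam x| * 2) ≤ cK * C / j * (C * (2 * j) * 2) :=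
        mul_le_mul_of_nonneg_left (by linarith) (by positivity)
      have h3 : cK * C / j * (C * (2 * j) * 2) = 4 * cK * C ^ 2 := by
        field_simp
        ring
      have h4 : 0 ≤ cK * C * (1 + 8 * C) := by positivity
      unfold CC'
      linarith
  · rw [indicator_of_notMem hx, mul_zero]
    have e : fR Kg (fun i x => pd (hsf A (chs ρ j) i x) (LT s Kg.g i x)) x = 0 := by
      rw [fR_eq, hsf_chs_off hj0 h.ρ_sm _ (mem_ci x) hx]
      simp [pd]
    rw [e, abs_zero]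

theorem E_le (h : End Kg w U θ ρ R0 C) (hN : Nz s U)
    (hlam : ∀ x, R0 < ρ x → |s.lam x| ≤ C * ρ x) {r : M → ℝ} (hr0 : ∀ x, 0 ≤ r x)
    (hV : ∀ i, ∀ x ∈ (A.e i).source, x ∈ U → ((r x : ℂ) • Kg.g i x - RV s i x).PosSemidef ∧
      ((r x : ℂ) • Kg.g i x + RV s i x).PosSemidef)
    (hρ : ∀ i, ∀ x ∈ (A.e i).source, x ∈ U → ((r x : ℂ) • Kg.g i x - E.rho i x).PosSemidef ∧
      ((r x : ℂ) • Kg.g i x + E.rho i x).PosSemidef) {j : ℝ}
    (hj : 1 ≤ j) (hjR : R0 < j) (x : M) :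
    |fR Kg (fun i x => pd (hsf A (chi ρ j) i x) (Sf s i x)) x| ≤
      CC' C * (trn ρ j).indicator (fun x => θ x * chs ρ j x *
        (fR Kg (fun i x => pd (Kg.g i x) (s.bbD i x)) x + r x)) x := by
  have hj0 : 0 < j := by linarith
  have hC := h.C0
  have hcK := cK_nonneg
  by_cases hx : x ∈ trn ρ j
  · have hR : R0 < ρ x := lt_of_lt_of_le hjR hx.1
    have hθ := h.one_at hR
    have hxU : x ∈ U := h.mem_U (by rw [hθ]; exact one_ne_zero)
    rw [indicator_of_mem hx, hθ, one_mul]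
    have hci := mem_ci (A := A) x
    obtain ⟨p1, p2⟩ := psd_chi_hsf hj h.w_sm h.ρ_sm _ hci (h.gr _ x hci hR) (h.lv _ x hci hR)
    rw [← h.gw _ x hci, ← chs_eq_sqrt] at p1 p2
    obtain ⟨v1, v2⟩ := hV _ x hci hxU
    obtain ⟨q1, q2⟩ := hρ _ x hci hxU
    have w1 : (((2 * r x : ℝ) : ℂ) • Kg.g (ci A x) x - (RV s (ci A x) x - E.rho (ci A x) x)).PosSemidef := by
      have e : ((2 * r x : ℝ) : ℂ) • Kg.g (ci A x) x - (RV s (ci A x) x - E.rho (ci A x) x) =
          ((r x : ℂ) • Kg.g (ci A x) x - RV s (ci A x) x) +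
            ((r x : ℂ) • Kg.g (ci A x) x + E.rho (ci A x) x) := by
        push_cast
        module
      rw [e]
      exact v1.add q2
    have w2 : (((2 * r x : ℝ) : ℂ) • Kg.g (ci A x) x + (RV s (ci A x) x - E.rho (ci A x) x)).PosSemidef := by
      have e : ((2 * r x : ℝ) : ℂ) • Kg.g (ci A x) x + (RV s (ci A x) x - E.rho (ci A x) x) =
          ((r x : ℂ) • Kg.g (ci A x) x + RV s (ci A x) x) +
            ((r x : ℂ) • Kg.g (ci A x) x - E.rho (ci A x) x) := by
        push_cast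
        module
      rw [e]
      exact v2.add q1
    have hY := bb_psd (s := s) hci (hN x hxU _ hci)
    have b := E_pt (L := s.lam x) p1 p2 hY w1 w2
    have eS : Sf s (ci A x) x = (s.lam x : ℂ) • ((RV s (ci A x) x - E.rho (ci A x) x) -
        s.bbD (ci A x) x) + s.bbD (ci A x) x := by
      unfold Sf Zf
      rw [bbD_eq s hci]
      congr 1
      congr 1
      abel
    rw [← eS] at b
    set bx := fR Kg (fun i x => pd (Kg.g i x) (s.bbD i x)) x with hbx
    have hbx0 : 0 ≤ bx := by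
      rw [hbx, fR_eq]
      exact div_nonneg (pd_nonneg (Kg.pos _ x hci).posSemidef hY) (det_pos' Kg x).le
    have eb : (pd (Kg.g (ci A x) x) (s.bbD (ci A x) x)).re = bx * (Kg.g (ci A x) x).det.re := by
      rw [hbx, fR_eq, div_mul_cancel₀ _ (det_pos' Kg x).ne']
    rw [eb] at b
    have hs0 : 0 ≤ chs ρ j x := chs_nonneg
    refine (fR_abs_le (t := cK * C / j * chs ρ j x *
      ((1 + |s.lam x|) * bx + |s.lam x| * (4 * r x))) ?_).trans ?_
    · calc _ ≤ _ := b
        _ = _ := by ring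
    · have h1 : |s.lam x| ≤ C * (2 * j) :=
        (hlam x hR).trans (mul_le_mul_of_nonneg_left hx.2 hC.le)
      have hr := hr0 x
      have h2 : (1 + |s.lam x|) * bx + |s.lam x| * (4 * r x) ≤
          j * ((1 + 8 * C) * (bx + r x)) := by
        have a1 : (1 + |s.lam x|) * bx ≤ (j + C * (2 * j)) * bx :=
          mul_le_mul_of_nonneg_right (by linarith) hbx0
        have a2 : |s.lam x| * (4 * r x) ≤ C * (2 * j) * (4 * r x) :=
          mul_le_mul_of_nonneg_right h1 (by positivity)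
        have a3 : 0 ≤ j * (6 * C * bx + r x) := by positivity
        nlinarith
      have h3 : cK * C / j * chs ρ j x * ((1 + |s.lam x|) * bx + |s.lam x| * (4 * r x)) ≤
          cK * C / j * chs ρ j x * (j * ((1 + 8 * C) * (bx + r x))) :=
        mul_le_mul_of_nonneg_left h2 (by positivity)
      have h4 : cK * C / j * chs ρ j x * (j * ((1 + 8 * C) * (bx + r x))) =
          cK * C * (1 + 8 * C) * (chs ρ j x * (bx + r x)) := by
        field_simp
      have h5 : cK * C * (1 + 8 * C) * (chs ρ j x * (bx + r x)) ≤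
          CC' C * (chs ρ j x * (bx + r x)) := by
        refine mul_le_mul_of_nonneg_right ?_ (by positivity)
        unfold CC'
        have : 0 ≤ 4 * cK * C ^ 2 := by positivity
        linarith
      linarith
  · rw [indicator_of_notMem hx, mul_zero]
    have e : fR Kg (fun i x => pd (hsf A (chi ρ j) i x) (Sf s i x)) x = 0 := by
      rw [fR_eq, hsf_chi_off hj0 h.ρ_sm _ (mem_ci x) hx]
      simp [pd]
    rw [e, abs_zero]

/-- **the loss lemma**: no second Chern form is lost at the end `ρ = ∞` -/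
theorem loss_HB (h : End Kg w U θ ρ R0 C) (P : Part A) (hN : Nz s U)
    (hlam : ∀ x, R0 < ρ x → |s.lam x| ≤ C * ρ x) {r : M → ℝ} (hrc : Continuous r)
    (hr0 : ∀ x, 0 ≤ r x)
    (hV : ∀ i, ∀ x ∈ (A.e i).source, x ∈ U → ((r x : ℂ) • Kg.g i x - RV s i x).PosSemidef ∧
      ((r x : ℂ) • Kg.g i x + RV s i x).PosSemidef)
    (hρ : ∀ i, ∀ x ∈ (A.e i).source, x ∈ U → ((r x : ℂ) • Kg.g i x - E.rho i x).PosSemidef ∧
      ((r x : ℂ) • Kg.g i x + E.rho i x).PosSemidef)
    (hr : ∀ x ∈ U, r x ^ 2 ≤ C * (fR Kg E.c2D x + C)) (hvol : Integrable θ (vm (volK Kg))) :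
    Integrable (fun x => θ x * fR Kg E.c2D x) (vm (volK Kg)) ∧
    Integrable (fun x => θ x * fR Kg (fun i x => pd (Kg.g i x) (s.bbD i x)) x) (vm (volK Kg)) ∧
    ∫ x, θ x * fR Kg E.c2D x ∂(vm (volK Kg)) =
      ∫ x, fR Kg (fun i x => pd (hsf A θ i x) (Sf s i x)) x ∂(vm (volK Kg)) := by
  set μ := vm (volK Kg) with hμ
  set b : M → ℝ := fR Kg (fun i x => pd (Kg.g i x) (s.bbD i x)) with hb
  set c : M → ℝ := fR Kg E.c2D with hc
  set q : M → ℝ := fR Kg (fun i x => pd (Kg.g i x) (RV s i x)) with hq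
  have hC := h.C0
  have hcK := cK_nonneg
  have hCC : 0 < CC' C := by unfold CC'; positivity
  have hCC1 : C ≤ CC' C := by
    unfold CC'
    have : 0 ≤ 4 * cK * C ^ 2 + cK * C * (1 + 8 * C) := by positivity
    linarith
  have hCC2 : 2 ≤ CC' C := by
    unfold CC'
    have : 0 ≤ 4 * cK * C ^ 2 + cK * C * (1 + 8 * C) := by positivity
    linarith
  have hUm : MeasurableSet U := h.hU.measurableSet
  have θU : ∀ x, x ∉ U → θ x = 0 := fun x hx => by
    by_contra h0
    exact hx (h.mem_U h0)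
  have ρU : ∀ x, x ∉ U → ρ x ≤ R0 := fun x hx => by
    by_contra h0
    have := h.one_at (not_le.1 h0)
    rw [θU x hx] at this
    exact zero_ne_one this
  -- pointwise facts on `U`
  have b0 : ∀ x ∈ U, 0 ≤ b x := fun x hx => by
    have hci := mem_ci (A := A) x
    rw [hb, fR_eq]
    exact div_nonneg (pd_nonneg (Kg.pos _ x hci).posSemidef (bb_psd (s := s) hci (hN x hx _ hci)))
      (det_pos' Kg x).le
  have q_le : ∀ x ∈ U, |q x| ≤ CC' C * r x := fun x hx => by
    have hci := mem_ci (A := A) x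
    obtain ⟨v1, v2⟩ := hV _ x hci hx
    have := s_pt (Kg.pos _ x hci).posSemidef v1 v2
    refine (fR_abs_le (t := 2 * r x) ?_).trans (mul_le_mul_of_nonneg_right hCC2 (hr0 x))
    calc _ ≤ _ := this
      _ = _ := by ring
  have r_le : ∀ x ∈ U, r x ^ 2 ≤ CC' C * (c x + CC' C) := fun x hx => by
    have h1 := hr x hx
    have h2 : 0 ≤ c x + C := by
      by_contra h0
      have : C * (c x + C) < 0 := mul_neg_of_pos_of_neg hC (not_le.1 h0)
      have h3 := sq_nonneg (r x)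
      linarith
    calc r x ^ 2 ≤ C * (c x + C) := h1
      _ ≤ CC' C * (c x + C) := mul_le_mul_of_nonneg_right hCC1 h2
      _ ≤ CC' C * (c x + CC' C) := mul_le_mul_of_nonneg_left (by linarith) hCC.le
  have set_int : ∀ {f : M → ℝ}, (∀ x, x ∉ U → f x = 0) → ∫ x, f x ∂(μ.restrict U) = ∫ x, f x ∂μ :=
    fun hf => setIntegral_eq_integral_of_forall_compl_eq_zero hf
  -- fields
  have gS := Kg_sm Kg U
  have gT := Kg_tn Kg U
  have bS := bbD_sm (s := s) hN
  have bT := bbD_tn (s := s) hN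
  have vS := RV_sm (s := s) hN
  have vT := RV_tn (s := s) hN
  have sS := Sf_sm (s := s) hN
  have sT := Sf_tn (s := s) hN
  have lS := LT_sm (s := s) hN gS
  have lT := LT_tn (s := s) gT
  set O : ℝ := ∫ x, fR Kg (fun i x => pd (hsf A θ i x) (Sf s i x)) x ∂μ with hO
  set O' : ℝ := ∫ x, fR Kg (fun i x => pd (hsf A θ i x) (LT s Kg.g i x)) x ∂μ with hO'
  have main := GBLabs_844.loss (μ := μ.restrict U) (C := CC' C) (O := O) (O' := O') (θ := θ)
    (b := b) (r := r) (s := q) (c := c) (a := fun j : ℕ => chs ρ (j : ℝ))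
    (D := fun j : ℕ => trn ρ (j : ℝ))
    (F := fun j : ℕ => fR Kg (fun i x => pd (hsf A (chs ρ (j : ℝ)) i x) (LT s Kg.g i x)))
    (E := fun j : ℕ => fR Kg (fun i x => pd (hsf A (chi ρ (j : ℝ)) i x) (Sf s i x)))
    hCC hvol.restrict (Eventually.of_forall h.θ0)
    (ae_restrict_of_forall_mem hUm b0) (Eventually.of_forall hr0)
    (ae_restrict_of_forall_mem hUm r_le) (ae_restrict_of_forall_mem hUm q_le)
    (Eventually.of_forall fun x => eventually_chs ρ x)
    (Eventually.of_forall fun x => eventually_trn ρ x) ?_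
  · obtain ⟨m1, -, m3, m4, -⟩ := main
    have onU : ∀ {f : M → ℝ}, (∀ x, x ∉ U → f x = 0) → Integrable f (μ.restrict U) →
        Integrable f μ := by
      intro f hf hi
      exact (integrableOn_iff_integrable_of_support_subset fun x hx => by
        by_contra hxU
        exact hx (hf x hxU)).1 hi
    refine ⟨onU (fun x hx => by rw [θU x hx, zero_mul]) m3,
      onU (fun x hx => by rw [θU x hx, zero_mul]) m1, ?_⟩
    rw [← m4]
    exact (set_int fun x hx => by rw [θU x hx, zero_mul]).symm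
  · filter_upwards [eventually_ge_atTop 1, eventually_gt_atTop ⌈R0⌉₊] with j hj1 hj2
    have hj : (1 : ℝ) ≤ j := by exact_mod_cast hj1
    have hj0 : (0 : ℝ) < j := by linarith
    have hjR : R0 < j := (Nat.le_ceil _).trans_lt (by exact_mod_cast hj2)
    have sm1 := chs_Sm h.ρ_sm (j : ℝ)
    have sm2 := chi_Sm h.ρ_sm (j : ℝ)
    have z1 : ∀ x, 2 * (j : ℝ) ≤ ρ x → chs ρ j x = 0 := fun x hx => chs_eq_zero hj0 hx
    have z2 : ∀ x, 2 * (j : ℝ) ≤ ρ x → chi ρ j x = 0 := fun x hx => chi_eq_zero hj0 hx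
    have o1 : ∀ x, ρ x ≤ (j : ℝ) → chs ρ j x = 1 := fun x hx => chs_eq_one hj0 hx
    have o2 : ∀ x, ρ x ≤ (j : ℝ) → chi ρ j x = 1 := fun x hx => chi_eq_one hj0 hx
    obtain ⟨K1, hK1, hKU1, hz1⟩ := h.prod_cpt z1
    obtain ⟨K2, hK2, hKU2, hz2⟩ := h.prod_cpt z2
    have p1 := h.prod_sm sm1
    have p2 := h.prod_sm sm2
    have cθ1 : Continuous fun x => θ x * chs ρ (j : ℝ) x := sm_continuous p1
    have cθ2 : Continuous fun x => θ x * chi ρ (j : ℝ) x := sm_continuous p2
    -- integrals of densities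
    obtain ⟨ib, eb⟩ := int_fR Kg P (den_mul p1 hK1.isClosed hKU1 hz1 gS gT bS bT) hK1
      (off_mul hz1 _)
    obtain ⟨iq, eq⟩ := int_fR Kg P (den_mul p1 hK1.isClosed hKU1 hz1 gS gT vS vT) hK1
      (off_mul hz1 _)
    obtain ⟨ic, ec⟩ := int_fR Kg P (den_c2 (E := E) p2) hK2 (off_mul hz2 _)
    have fb : ∀ x, fR Kg (fun i x => ((θ x * chs ρ (j : ℝ) x : ℝ) : ℂ) *
        pd (Kg.g i x) (s.bbD i x)) x = θ x * chs ρ (j : ℝ) x * b x := fun x => by rw [fR_mul]
    have fq : ∀ x, fR Kg (fun i x => ((θ x * chs ρ (j : ℝ) x : ℝ) : ℂ) *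
        pd (Kg.g i x) (RV s i x)) x = θ x * chs ρ (j : ℝ) x * q x := fun x => by rw [fR_mul]
    have fc : ∀ x, fR Kg (fun i x => ((θ x * chi ρ (j : ℝ) x : ℝ) : ℂ) * E.c2D i x) x =
        θ x * chs ρ (j : ℝ) x ^ 2 * c x := fun x => by rw [fR_mul, chs_sq]
    have ib' : Integrable (fun x => θ x * chs ρ (j : ℝ) x * b x) μ :=
      ib.congr (Eventually.of_forall fb)
    have iq' : Integrable (fun x => θ x * chs ρ (j : ℝ) x * q x) μ :=
      iq.congr (Eventually.of_forall fq)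
    have ic' : Integrable (fun x => θ x * chs ρ (j : ℝ) x ^ 2 * c x) μ :=
      ic.congr (Eventually.of_forall fc)
    have ir' : Integrable (fun x => θ x * chs ρ (j : ℝ) x * r x) μ :=
      integrable_cs (volK Kg) (cθ1.mul hrc) hK1 fun x hx => by rw [hz1 x hx, zero_mul]
    have ir2' : Integrable (fun x => θ x * chs ρ (j : ℝ) x ^ 2 * r x ^ 2) μ := by
      refine integrable_cs (volK Kg) (f := fun x => θ x * chs ρ (j : ℝ) x ^ 2 * r x ^ 2) ?_ hK2
        fun x hx => by rw [chs_sq, hz2 x hx, zero_mul]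
      have : (fun x => θ x * chs ρ (j : ℝ) x ^ 2 * r x ^ 2) =
          fun x => (θ x * chi ρ (j : ℝ) x) * r x ^ 2 := by
        funext x; rw [chs_sq]
      rw [this]
      exact cθ2.mul (hrc.pow 2)
    obtain ⟨iF, eF⟩ := h.split P lS lT hjR sm1 o1 z1
    obtain ⟨iE, eE⟩ := h.split P sS sT hjR sm2 o2 z2
    refine ⟨(chs_cont h.ρ_cont).aestronglyMeasurable, Eventually.of_forall fun x => chs_nonneg,
      Eventually.of_forall fun x => chs_le_one, trn_meas h.ρ_cont.measurable,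
      Eventually.of_forall fun x => h.F_le hlam hj hjR x,
      Eventually.of_forall fun x => h.E_le hN hlam hr0 hV hρ hj hjR x,
      ib'.restrict, ir'.restrict, iq'.restrict, ic'.restrict, ir2'.restrict, ?_, ?_⟩
    · -- first identity
      have e1 := stokes_bb P Kg h.hU hN p1 hK1 hKU1 hz1
      have e2 : intD P (fun i x => (s.lam x : ℂ) *
          pd (hsf A (fun y => θ y * chs ρ (j : ℝ) y) i x) (Kg.g i x)) =
          intD P (fun i x => pd (hsf A (fun y => θ y * chs ρ (j : ℝ) y) i x) (LT s Kg.g i x)) :=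
        intD_congr P fun i x _ => by unfold GBL2_625.LT; rw [pd_smul]
      have e3 := congrArg Complex.re e1
      rw [Complex.add_re, e2, ← eb, ← eq, eF, integral_congr_ae (Eventually.of_forall fb),
        integral_congr_ae (Eventually.of_forall fq)] at e3
      have s1 := set_int (f := fun x => θ x * chs ρ (j : ℝ) x * b x) fun x hx => by
        show θ x * chs ρ (j : ℝ) x * b x = 0
        rw [θU x hx, zero_mul, zero_mul]
      have s2 := set_int (f := fun x => θ x * chs ρ (j : ℝ) x * q x) fun x hx => by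
        show θ x * chs ρ (j : ℝ) x * q x = 0
        rw [θU x hx, zero_mul, zero_mul]
      have s3 := set_int (f := fR Kg (fun i x => pd (hsf A (chs ρ (j : ℝ)) i x)
          (GBL2_625.LT s Kg.g i x))) fun x hx => by
        have hx' : x ∉ trn ρ (j : ℝ) := fun hm => by
          have := ρU x hx
          have := hm.1
          linarith
        rw [fR_eq, hsf_chs_off hj0 h.ρ_sm _ (mem_ci x) hx']
        simp [pd]
      rw [s1, s2, s3]
      exact e3
    · -- second identity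
      have e1 := stokes_c2 P h.hU hN p2 hK2 hKU2 hz2
      have e3 := congrArg Complex.re e1
      rw [← ec, eE, integral_congr_ae (Eventually.of_forall fc)] at e3
      have s1 := set_int (f := fun x => θ x * chs ρ (j : ℝ) x ^ 2 * c x) fun x hx => by
        show θ x * chs ρ (j : ℝ) x ^ 2 * c x = 0
        rw [θU x hx, zero_mul, zero_mul]
      have s3 := set_int (f := fR Kg (fun i x => pd (hsf A (chi ρ (j : ℝ)) i x)
          (Sf s i x))) fun x hx => by
        have hx' : x ∉ trn ρ (j : ℝ) := fun hm => by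
          have := ρU x hx
          have := hm.1
          linarith
        rw [fR_eq, hsf_chi_off hj0 h.ρ_sm _ (mem_ci x) hx']
        simp [pd]
      rw [s1, s3]
      exact e3

end End

end

end Crest.Agent.R257.GBL5_625
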