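import Crest.Agent.R257.Uni3_554
import Crest.Prelude.Def_GermMilnor

/-!
Row 257 (S0395), leaf E-GLOB, part 2d (helper554): the Jacobian quotient of the template versus
the quotient of the ring of germs; uniform isolatedness of the critical point.
-/

set_option autoImplicit false

open Set Filter Topology
open Crest.Agent.R275.Loc2879

noncomputable section

namespace Crest.Agent.R257.Jac554

open Crest.Agent.R257.Fin554 Crest.Agent.R257.Uni554
open Crest.AlgGeometry.Germ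

variable {n : ℕ}

lemma analyticAt_coordDeriv {f : (Fin n → ℂ) → ℂ} {x : Fin n → ℂ} (hf : AnalyticAt ℂ f x)
    (i : Fin n) : AnalyticAt ℂ (coordDeriv f i) x := by
  have h1 : AnalyticAt ℂ (fderiv ℂ f) x := hf.fderiv
  exact ((ContinuousLinearMap.apply ℂ ℂ (Pi.single i 1 : Fin n → ℂ)).analyticAt _).comp h1

/-- the ideal of the partial derivatives -/
abbrev JF (f : (Fin n → ℂ) → ℂ) : Ideal (On n) := JI (fun i => coordDeriv f i)

lemma an (g : analyticAtOrigin n) : AnalyticAt ℂ (g : (Fin n → ℂ) → ℂ) 0 := g.2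

/-- germs of analytic functions, linear map to the quotient -/
def toQ (f : (Fin n → ℂ) → ℂ) : analyticAtOrigin n →ₗ[ℂ] On n ⧸ JF f where
  toFun g := Ideal.Quotient.mk _ (gm (g : (Fin n → ℂ) → ℂ) (an g))
  map_add' g h := by
    rw [← map_add]; rfl
  map_smul' c g := by
    rw [RingHom.id_apply, Algebra.smul_def]
    change _ = Ideal.Quotient.mk _ (algebraMap ℂ (On n) c) * _
    rw [← map_mul]; rfl

lemma toQ_surj (f : (Fin n → ℂ) → ℂ) : Function.Surjective (toQ f) := by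
  intro y
  obtain ⟨y, rfl⟩ := Ideal.Quotient.mk_surjective y
  obtain ⟨g, hg, rfl⟩ := exists_gm y
  exact ⟨⟨g, hg⟩, rfl⟩

lemma ker_toQ {f : (Fin n → ℂ) → ℂ} (hf : AnalyticAt ℂ f 0) :
    LinearMap.ker (toQ f) = jacobianGerms n f := by
  have hd : ∀ i, AnalyticAt ℂ (coordDeriv f i) 0 := analyticAt_coordDeriv hf
  ext g
  rw [LinearMap.mem_ker]
  change Ideal.Quotient.mk (JF f) (gm (g : (Fin n → ℂ) → ℂ) (an g)) = 0 ↔ _
  rw [Ideal.Quotient.eq_zero_iff_mem, JF, JI_eq_span hd, Ideal.mem_span_range_iff_exists_fun]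
  constructor
  · rintro ⟨c, hc⟩
    choose A hA hAa using fun i => exists_gm (c i)
    obtain rfl : (fun i => gm (A i) (hA i)) = c := funext hAa
    simp only [gm_mul] at hc
    obtain ⟨h2, e2⟩ := gm_sum Finset.univ (fun i => A i * coordDeriv f i)
      (fun i => (hA i).mul (hd i))
    rw [e2, gm_eq_gm] at hc
    refine ⟨A, hA, ?_⟩
    filter_upwards [hc] with x hx
    rw [← hx]; rfl
  · rintro ⟨A, hA, h⟩
    refine ⟨fun i => gm (A i) (hA i), ?_⟩
    simp only [gm_mul]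
    obtain ⟨h2, e2⟩ := gm_sum Finset.univ (fun i => A i * coordDeriv f i)
      (fun i => (hA i).mul (hd i))
    rw [e2, gm_eq_gm]
    filter_upwards [h] with x hx
    rw [hx]; rfl

/-- the template's local algebra is the quotient of the ring of germs -/
def jacEquiv {f : (Fin n → ℂ) → ℂ} (hf : AnalyticAt ℂ f 0) :
    JacobianQuotient n f ≃ₗ[ℂ] (On n ⧸ JF f) :=
  (Submodule.quotEquivOfEq _ _ (ker_toQ hf).symm).trans
    ((toQ f).quotKerEquivOfSurjective (toQ_surj f))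

lemma finite_iff {f : (Fin n → ℂ) → ℂ} (hf : AnalyticAt ℂ f 0) :
    Module.Finite ℂ (JacobianQuotient n f) ↔ Module.Finite ℂ (On n ⧸ JF f) :=
  Module.Finite.equiv_iff (jacEquiv hf)

lemma milnor_eq {f : (Fin n → ℂ) → ℂ} (hf : AnalyticAt ℂ f 0) :
    milnorNumber n f = Module.finrank ℂ (On n ⧸ JF f) :=
  (jacEquiv hf).finrank_eq

/-- the partial derivatives in `x` of a function of `(x,t)` -/
def pd (F : (Fin n → ℂ) × ℂ → ℂ) (i : Fin n) (p : (Fin n → ℂ) × ℂ) : ℂ :=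
  coordDeriv (fun x => F (x, p.2)) i p.1

lemma pd_eq {F : (Fin n → ℂ) × ℂ → ℂ} {p : (Fin n → ℂ) × ℂ} (hF : DifferentiableAt ℂ F p)
    (i : Fin n) : pd F i p = fderiv ℂ F p (Pi.single i 1, 0) := by
  obtain ⟨x, t⟩ := p
  rw [pd, coordDeriv]
  have h1 : HasFDerivAt (fun y : Fin n → ℂ => (y, t)) (ContinuousLinearMap.inl ℂ (Fin n → ℂ) ℂ) x :=
    hasFDerivAt_prodMk_left x t
  have h2 : HasFDerivAt (fun y : Fin n → ℂ => F (y, t))
      ((fderiv ℂ F (x, t)).comp (ContinuousLinearMap.inl ℂ (Fin n → ℂ) ℂ)) x :=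
    HasFDerivAt.comp x (g := F) (by exact hF.hasFDerivAt) h1
  rw [h2.fderiv]
  simp

lemma analyticAt_pd {F : (Fin n → ℂ) × ℂ → ℂ} {p : (Fin n → ℂ) × ℂ} (hF : AnalyticAt ℂ F p)
    (i : Fin n) : AnalyticAt ℂ (pd F i) p := by
  have h1 : AnalyticAt ℂ (fun q => fderiv ℂ F q ((Pi.single i 1 : Fin n → ℂ), (0 : ℂ))) p :=
    ((ContinuousLinearMap.apply ℂ ℂ ((Pi.single i 1 : Fin n → ℂ), (0 : ℂ))).analyticAt _).comp
      hF.fderiv
  refine h1.congr ?_
  filter_upwards [hF.eventually_analyticAt] with q hq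
  exact (pd_eq hq.differentiableAt i).symm

/-- **uniform ideal lemma for the gradient** -/
theorem grad_uniform {F : (Fin n → ℂ) × ℂ → ℂ} {μ : ℕ} (hF : AnalyticAt ℂ F (0, 0))
    (hμ : ∀ᶠ t in 𝓝 (0 : ℂ), Module.Finite ℂ (JacobianQuotient n (fun x => F (x, t))) ∧
      milnorNumber n (fun x => F (x, t)) = μ) (w : Fin μ → Fin n) :
    ∃ a : Fin n → (Fin n → ℂ) × ℂ → ℂ, (∀ i, AnalyticAt ℂ (a i) (0, 0)) ∧
      ∀ᶠ p in 𝓝 ((0 : Fin n → ℂ), (0 : ℂ)), ∏ j, p.1 (w j) = ∑ i, a i p * pd F i p := by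
  refine uniform (pd F) (analyticAt_pd hF) μ ?_ w
  filter_upwards [hμ, eventually_slice hF] with t ht h2
  rw [finite_iff h2, milnor_eq h2] at ht
  exact ht

end Crest.Agent.R257.Jac554
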