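import Crest.Agent.R257.Defs_219
import Crest.Agent.R257.GA_554
import Crest.Agent.R257.GB_554
import Crest.Agent.R257.Jac_554

/-!
Row 257 (S0395), leaf E-GLOB, part 3c (helper554): the polynomial family
`G(x,t) = P_t(x) + ∑ c_i x_i^d`, its gradient, boundedness of the critical points, property (G5).
-/

set_option autoImplicit false

open Set Filter Topology
open Crest.AlgGeometry.Germ

noncomputable section

namespace Crest.Agent.R257.Glob554

open Crest.Agent.R257.Defs_219 Crest.Agent.R257.Jac554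
open MvPolynomial

variable {n : ℕ}

/-- the family -/
def Gf (P : ℂ → MvPolynomial (Fin n) ℂ) (c : Fin n → ℂ) (d : ℕ) (p : (Fin n → ℂ) × ℂ) : ℂ :=
  eval p.1 (P p.2) + ∑ i, c i * p.1 i ^ d

/-- the linear form with given coefficients -/
def lin (a : Fin n → ℂ) : (Fin n → ℂ) →L[ℂ] ℂ :=
  ∑ i, a i • (ContinuousLinearMap.proj (R := ℂ) (φ := fun _ : Fin n => ℂ) i)

@[simp] lemma lin_apply (a v : Fin n → ℂ) : lin a v = ∑ i, a i * v i := by
  simp [lin]

lemma hasFDerivAt_eval (p : MvPolynomial (Fin n) ℂ) (x : Fin n → ℂ) :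
    HasFDerivAt (fun y : Fin n → ℂ => eval y p) (lin fun i => eval x (pderiv i p)) x := by
  induction p using MvPolynomial.induction_on with
  | C a =>
    simp only [eval_C]
    refine (hasFDerivAt_const a x).congr_fderiv ?_
    ext v
    simp
  | add p q hp hq =>
    simp only [map_add]
    refine (hp.fun_add hq).congr_fderiv ?_
    ext v
    simp [add_mul, Finset.sum_add_distrib]
  | mul_X p j hp =>
    simp only [map_mul, eval_X]
    have h1 : HasFDerivAt (fun y : Fin n → ℂ => y j)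
      (ContinuousLinearMap.proj (R := ℂ) (φ := fun _ : Fin n => ℂ) j) x :=
      (ContinuousLinearMap.proj (R := ℂ) (φ := fun _ : Fin n => ℂ) j).hasFDerivAt
    refine (hp.fun_mul h1).congr_fderiv ?_
    ext v
    simp only [pderiv_mul, map_add, map_mul, eval_X, lin_apply, add_mul,
      Finset.sum_add_distrib]
    change eval x p • v j + x j • lin (fun i => eval x (pderiv i p)) v = _
    rw [lin_apply, smul_eq_mul, smul_eq_mul, add_comm]
    congr 1
    · rw [Finset.mul_sum]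
      exact Finset.sum_congr rfl (fun i _ => by ring)
    · rw [Finset.sum_eq_single j]
      · rw [pderiv_X_self, map_one, mul_one]
      · intro i _ hi
        rw [pderiv_X_of_ne hi.symm, map_zero, mul_zero, zero_mul]
      · intro h; exact absurd (Finset.mem_univ j) h

lemma hasFDerivAt_Gf (P : ℂ → MvPolynomial (Fin n) ℂ) (c : Fin n → ℂ) (d : ℕ) (x : Fin n → ℂ)
    (t : ℂ) :
    HasFDerivAt (sl (Gf P c d) t)
      (lin fun i => eval x (pderiv i (P t)) + d * c i * x i ^ (d - 1)) x := by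
  have h0 : ∀ i ∈ (Finset.univ : Finset (Fin n)), HasFDerivAt (fun y : Fin n → ℂ => c i * y i ^ d)
      ((d * c i * x i ^ (d - 1)) • (ContinuousLinearMap.proj (R := ℂ) (φ := fun _ : Fin n => ℂ) i))
      x := by
    intro i _
    have h1 : HasFDerivAt (fun y : Fin n → ℂ => y i)
        (ContinuousLinearMap.proj (R := ℂ) (φ := fun _ : Fin n => ℂ) i) x :=
        (ContinuousLinearMap.proj (R := ℂ) (φ := fun _ : Fin n => ℂ) i).hasFDerivAt
    refine ((h1.pow d).const_mul (c i)).congr_fderiv ?_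
    ext v
    simp
    ring
  refine ((hasFDerivAt_eval (P t) x).fun_add (HasFDerivAt.fun_sum h0)).congr_fderiv ?_
  ext v
  simp [add_mul, Finset.sum_add_distrib]

lemma gr_Gf (P : ℂ → MvPolynomial (Fin n) ℂ) (c : Fin n → ℂ) (d : ℕ) (x : Fin n → ℂ)
    (t : ℂ) (i : Fin n) :
    coordDeriv (sl (Gf P c d) t) i x = eval x (pderiv i (P t)) + d * c i * x i ^ (d - 1) := by
  rw [coordDeriv, (hasFDerivAt_Gf P c d x t).fderiv, lin_apply, Finset.sum_eq_single i]
  · simp
  · intro j _ hj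
    rw [Pi.single_eq_of_ne hj, mul_zero]
  · intro h; exact absurd (Finset.mem_univ i) h

/-- the multiindices of degree at most `k` -/
def TT (n k : ℕ) : Finset (Fin n →₀ ℕ) := (Finsupp.finite_of_degree_le k).toFinset

lemma mem_TT {k : ℕ} {m : Fin n →₀ ℕ} : m ∈ TT n k ↔ ∑ i, m i ≤ k := by
  rw [TT, Set.Finite.mem_toFinset, mem_ofPred_eq, Finsupp.degree_eq_sum]

lemma eval_TT {q : MvPolynomial (Fin n) ℂ} {k : ℕ} (hq : q.totalDegree ≤ k) (x : Fin n → ℂ) :
    eval x q = ∑ m ∈ TT n k, coeff m q * ∏ i, x i ^ m i := by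
  rw [eval_eq']
  refine Finset.sum_subset ?_ ?_
  · intro m hm
    rw [mem_TT]
    have h1 := le_totalDegree hm
    have h2 : m.sum (fun _ n => n) = ∑ j, m j := Finsupp.sum_fintype _ _ (fun _ => rfl)
    omega
  · intro m _ hm
    rw [notMem_support_iff.1 hm, zero_mul]

lemma totalDegree_pderiv {q : MvPolynomial (Fin n) ℂ} {k : ℕ} (hq : q.totalDegree ≤ k + 1)
    (i : Fin n) : (pderiv i q).totalDegree ≤ k := by
  refine Finset.sup_le (fun m hm => ?_)
  rw [mem_support_iff, coeff_pderiv] at hm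
  have h1 := le_totalDegree (mem_support_iff.2 (left_ne_zero_of_mul hm))
  have h2 : (m + Finsupp.single i 1).sum (fun _ n => n) =
      m.sum (fun _ n => n) + 1 := by
    rw [Finsupp.sum_add_index' (fun _ => rfl) (fun _ _ _ => rfl), Finsupp.sum_single_index rfl]
  omega

section

variable {P : ℂ → MvPolynomial (Fin n) ℂ} {c : Fin n → ℂ} {d : ℕ}

lemma analyticAt_eval {k : ℕ} (hP : ∀ t, (P t).totalDegree ≤ k) {t : ℂ}
    (ha : ∀ m, AnalyticAt ℂ (fun t => (P t).coeff m) t) (x : Fin n → ℂ) :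
    AnalyticAt ℂ (fun p : (Fin n → ℂ) × ℂ => eval p.1 (P p.2)) (x, t) := by
  have : (fun p : (Fin n → ℂ) × ℂ => eval p.1 (P p.2)) =
      fun p => ∑ m ∈ TT n k, coeff m (P p.2) * ∏ i, p.1 i ^ m i := by
    funext p
    exact eval_TT (hP _) _
  rw [this]
  refine Finset.analyticAt_fun_sum _ (fun m _ => ?_)
  refine AnalyticAt.mul ?_ ?_
  · exact AnalyticAt.comp (g := fun t => coeff m (P t)) (f := Prod.snd) (ha m) analyticAt_snd
  · refine Finset.analyticAt_fun_prod _ (fun i _ => ?_)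
    exact (Uni554.analyticAt_coord i _).pow _

lemma analyticAt_pderiv_coeff {t : ℂ} (ha : ∀ m, AnalyticAt ℂ (fun t => (P t).coeff m) t)
    (i : Fin n) (m : Fin n →₀ ℕ) : AnalyticAt ℂ (fun t => (pderiv i (P t)).coeff m) t := by
  simp only [coeff_pderiv]
  exact (ha _).mul analyticAt_const

lemma analyticAt_Gf (hP : ∀ t, (P t).totalDegree < d) {t : ℂ}
    (ha : ∀ m, AnalyticAt ℂ (fun t => (P t).coeff m) t) (x : Fin n → ℂ) :
    AnalyticAt ℂ (Gf P c d) (x, t) := by
  refine (analyticAt_eval (fun t => (hP t).le) ha x).add ?_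
  refine Finset.analyticAt_fun_sum _ (fun i _ => ?_)
  exact analyticAt_const.mul ((Uni554.analyticAt_coord i _).pow _)

lemma continuousAt_grad (hP : ∀ t, (P t).totalDegree < d) {t : ℂ}
    (ha : ∀ m, AnalyticAt ℂ (fun t => (P t).coeff m) t) (x : Fin n → ℂ) (i : Fin n) :
    ContinuousAt (fun p : (Fin n → ℂ) × ℂ => coordDeriv (sl (Gf P c d) p.2) i p.1) (x, t) := by
  simp only [gr_Gf]
  have h1 : ∀ t, (pderiv i (P t)).totalDegree ≤ d := fun t =>
    totalDegree_pderiv (by have := hP t; omega) i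
  refine (analyticAt_eval h1 (analyticAt_pderiv_coeff ha i) x).continuousAt.add ?_
  fun_prop

/-- the critical points are bounded -/
lemma crit_bdd (hP : ∀ t, (P t).totalDegree < d) (hd : 2 ≤ d)
    (ha : ∀ m, AnalyticAt ℂ (fun t => (P t).coeff m) 0) (hc : ∀ i, c i ≠ 0) :
    ∃ K : ℝ, ∀ᶠ t in 𝓝 (0 : ℂ), ∀ x : Fin n → ℂ,
      (∀ i, coordDeriv (sl (Gf P c d) t) i x = 0) → ‖x‖ ≤ K := by
  have hdeg : ∀ i t, (pderiv i (P t)).totalDegree ≤ d - 2 := fun i t =>
    totalDegree_pderiv (by have := hP t; omega) i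
  -- bound of the coefficients
  set A : Fin n → ℝ := fun i => ∑ m ∈ TT n (d - 2), (‖coeff m (pderiv i (P 0))‖ + 1) with hA
  have h1 : ∀ᶠ t in 𝓝 (0 : ℂ), ∀ i, ∀ m ∈ TT n (d - 2),
      ‖coeff m (pderiv i (P t))‖ < ‖coeff m (pderiv i (P 0))‖ + 1 := by
    rw [Filter.eventually_all]
    intro i
    rw [Filter.eventually_all_finset]
    intro m _
    have := (analyticAt_pderiv_coeff ha i m).continuousAt.norm
    exact this.eventually_lt continuousAt_const (by simp)
  have hAnn : ∀ i, 0 ≤ A i := fun i => Finset.sum_nonneg (fun m _ => by positivity)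
  have hd0 : (0 : ℝ) < d := by
    have : 0 < d := by omega
    exact_mod_cast this
  have hcpos : ∀ i, 0 < (d : ℝ) * ‖c i‖ := fun i => mul_pos hd0 (norm_pos_iff.2 (hc i))
  refine ⟨1 + ∑ i, A i / (d * ‖c i‖), ?_⟩
  filter_upwards [h1] with t ht x hx
  have hsum : ∀ i, A i / (d * ‖c i‖) ≤ ∑ i, A i / (d * ‖c i‖) := fun i =>
    Finset.single_le_sum (f := fun i => A i / (d * ‖c i‖))
      (fun j _ => div_nonneg (hAnn j) (hcpos j).le) (Finset.mem_univ i)
  have hsum0 : 0 ≤ ∑ i, A i / (d * ‖c i‖) :=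
    Finset.sum_nonneg (fun j _ => div_nonneg (hAnn j) (hcpos j).le)
  by_cases hx1 : ‖x‖ ≤ 1
  · linarith
  push Not at hx1
  -- the largest coordinate
  obtain ⟨i, hi⟩ : ∃ i, ‖x i‖ = ‖x‖ := by
    by_contra hcon
    push Not at hcon
    have h2 : ∀ i, ‖x i‖ < ‖x‖ := fun i => lt_of_le_of_ne (norm_le_pi_norm x i) (hcon i)
    have h3 := (pi_norm_lt_iff (by linarith : (0 : ℝ) < ‖x‖)).2 h2
    exact lt_irrefl _ h3
  have h4 := hx i
  rw [gr_Gf] at h4
  have h5 : ‖(d : ℂ) * c i * x i ^ (d - 1)‖ ≤ A i * ‖x‖ ^ (d - 2) := by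
    have h6 : (d : ℂ) * c i * x i ^ (d - 1) = -eval x (pderiv i (P t)) := by
      linear_combination h4
    rw [h6, norm_neg, eval_TT (hdeg i t), hA, Finset.sum_mul]
    refine (norm_sum_le _ _).trans (Finset.sum_le_sum (fun m hm => ?_))
    rw [norm_mul]
    refine mul_le_mul (ht i m hm).le ?_ (norm_nonneg _) (by positivity)
    rw [norm_prod]
    calc ∏ j, ‖x j ^ m j‖ ≤ ∏ j, ‖x‖ ^ m j := by
          refine Finset.prod_le_prod (fun j _ => norm_nonneg _) (fun j _ => ?_)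
          rw [norm_pow]
          exact pow_le_pow_left₀ (norm_nonneg _) (norm_le_pi_norm x j) _
      _ = ‖x‖ ^ (∑ j, m j) := Finset.prod_pow_eq_pow_sum _ _ _
      _ ≤ ‖x‖ ^ (d - 2) := pow_le_pow_right₀ hx1.le (mem_TT.1 hm)
  rw [norm_mul, norm_mul, norm_pow, hi, Complex.norm_natCast] at h5
  have h7 : ‖x‖ ^ (d - 1) = ‖x‖ * ‖x‖ ^ (d - 2) := by
    rw [← pow_succ', show d - 2 + 1 = d - 1 from by omega]
  rw [h7, ← mul_assoc] at h5
  have h8 : 0 < ‖x‖ ^ (d - 2) := by positivity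
  have h9 : (d : ℝ) * ‖c i‖ * ‖x‖ ≤ A i := le_of_mul_le_mul_right h5 h8
  have h10 : ‖x‖ ≤ A i / (d * ‖c i‖) := by
    rw [le_div_iff₀ (hcpos i)]
    linarith
  linarith [hsum i]

/-- **(G5)** -/
theorem g5 (hP : ∀ t, (P t).totalDegree < d) (hd : 2 ≤ d)
    (ha : ∀ᶠ t in 𝓝 (0 : ℂ), ∀ m, AnalyticAt ℂ (fun t => (P t).coeff m) t) (hc : ∀ i, c i ≠ 0)
    (h0 : ∀ᶠ t in 𝓝 (0 : ℂ), Gf P c d (0, t) = 0)
    (h3 : ∀ᶠ p in 𝓝 ((0 : Fin n → ℂ), (0 : ℂ)),
      (∀ i, coordDeriv (sl (Gf P c d) p.2) i p.1 = 0) → p.1 = 0)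
    (h4 : ∀ x : Fin n → ℂ, x ≠ 0 → Gf P c d (x, 0) = 0 →
      ∃ i, coordDeriv (sl (Gf P c d) 0) i x ≠ 0) :
    ∃ e : ℝ, 0 < e ∧ ∀ (x : Fin n → ℂ) (t : ℂ), ‖t‖ < e → Gf P c d (x, t) ≠ 0 →
      ‖Gf P c d (x, t)‖ < e → ∃ i, coordDeriv (sl (Gf P c d) t) i x ≠ 0 := by
  obtain ⟨K, hK⟩ := crit_bdd hP hd ha.self_of_nhds hc
  by_contra hcon
  push Not at hcon
  choose x t ht hne hlt hcrit using fun k : ℕ => hcon (1 / (k + 1 : ℝ)) (by positivity)
  have htl : Tendsto (fun k : ℕ => (1 / (k + 1 : ℝ))) atTop (𝓝 0) :=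
    tendsto_one_div_add_atTop_nhds_zero_nat
  have ht0 : Tendsto t atTop (𝓝 0) := by
    rw [tendsto_zero_iff_norm_tendsto_zero]
    exact squeeze_zero (fun k => norm_nonneg _) (fun k => (ht k).le) htl
  have hg0 : Tendsto (fun k => Gf P c d (x k, t k)) atTop (𝓝 0) := by
    rw [tendsto_zero_iff_norm_tendsto_zero]
    exact squeeze_zero (fun k => norm_nonneg _) (fun k => (hlt k).le) htl
  have hbd : ∀ᶠ k in atTop, x k ∈ Metric.closedBall (0 : Fin n → ℂ) K := by
    filter_upwards [ht0.eventually hK] with k hk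
    rw [mem_closedBall_zero_iff]
    exact hk _ (hcrit k)
  obtain ⟨x', -, φ, hφ, hx'⟩ := (isCompact_closedBall (0 : Fin n → ℂ) K).tendsto_subseq'
    hbd.frequently
  have hφt : Tendsto (t ∘ φ) atTop (𝓝 0) := ht0.comp hφ.tendsto_atTop
  have hpair : Tendsto (fun k => (x (φ k), t (φ k))) atTop (𝓝 (x', 0)) := by
    rw [nhds_prod_eq]
    exact hx'.prodMk hφt
  have hG : Gf P c d (x', 0) = 0 := by
    have h5 := (analyticAt_Gf (c := c) hP ha.self_of_nhds x').continuousAt.tendsto.comp hpair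
    exact tendsto_nhds_unique h5 (hg0.comp hφ.tendsto_atTop)
  have hgr : ∀ i, coordDeriv (sl (Gf P c d) 0) i x' = 0 := by
    intro i
    have h5 := (continuousAt_grad (c := c) hP ha.self_of_nhds x' i).tendsto.comp hpair
    refine tendsto_nhds_unique h5 ?_
    have : ((fun p : (Fin n → ℂ) × ℂ => coordDeriv (sl (Gf P c d) p.2) i p.1) ∘
        fun k => (x (φ k), t (φ k))) = fun _ => (0 : ℂ) := by
      funext k
      exact hcrit (φ k) i
    rw [this]
    exact tendsto_const_nhds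
  have hx0 : x' = 0 := by
    by_contra hne'
    obtain ⟨i, hi⟩ := h4 x' hne' hG
    exact hi (hgr i)
  subst hx0
  have h6 := hpair.eventually h3
  have h7 := hφt.eventually h0
  obtain ⟨k, h8, h9⟩ := (h6.and h7).exists
  have h10 : x (φ k) = 0 := h8 (hcrit (φ k))
  refine hne (φ k) ?_
  rw [h10]
  exact h9

end

end Crest.Agent.R257.Glob554
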