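import Crest.Agent.R257.GC_554

/-!
Row 257 (S0395), leaf E-GLOB, part 3d (helper554): functions vanishing to order `k` in `x`,
the lower bound of the gradient, and the transport of the conclusion of S0395.
-/

set_option autoImplicit false

open Set Filter Topology
open Crest.AlgGeometry.Germ

noncomputable section

namespace Crest.Agent.R257.Glob554

open Crest.Agent.R257.Defs_219 Crest.Agent.R257.Jac554
open MvPolynomial

variable {n : ℕ}

/-- order at least `k` in `x`, uniformly in `t` -/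
def InM (k : ℕ) (f : (Fin n → ℂ) × ℂ → ℂ) : Prop :=
  ∃ q : (Fin k → Fin n) → (Fin n → ℂ) × ℂ → ℂ, (∀ w, AnalyticAt ℂ (q w) (0, 0)) ∧
    ∀ᶠ p in 𝓝 ((0 : Fin n → ℂ), (0 : ℂ)), f p = ∑ w, (∏ j, p.1 (w j)) * q w p

lemma InM.sub {k : ℕ} {f g : (Fin n → ℂ) × ℂ → ℂ} (hf : InM k f) (hg : InM k g) :
    InM k (fun p => f p - g p) := by
  obtain ⟨q, hq, h⟩ := hf
  obtain ⟨q', hq', h'⟩ := hg
  refine ⟨fun w p => q w p - q' w p, fun w => (hq w).sub (hq' w), ?_⟩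
  filter_upwards [h, h'] with p hp hp'
  rw [hp, hp', ← Finset.sum_sub_distrib]
  exact Finset.sum_congr rfl (fun w _ => by ring)

lemma InM.pred {k : ℕ} {f : (Fin n → ℂ) × ℂ → ℂ} (hf : InM (k + 1) f) : InM k f := by
  obtain ⟨q, hq, h⟩ := hf
  refine ⟨fun w p => ∑ i, p.1 i * q (Fin.cons i w) p, fun w => ?_, ?_⟩
  · exact Finset.analyticAt_fun_sum _ (fun i _ => (Uni554.analyticAt_coord i _).mul (hq _))
  · filter_upwards [h] with p hp
    rw [hp, ← (Fin.consEquiv (fun _ : Fin (k + 1) => Fin n)).sum_comp,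
      Fintype.sum_prod_type_right]
    refine Finset.sum_congr rfl (fun w _ => ?_)
    rw [Finset.mul_sum]
    refine Finset.sum_congr rfl (fun i _ => ?_)
    have hc : (Fin.consEquiv fun _ : Fin (k + 1) => Fin n) (i, w) = Fin.cons i w := rfl
    rw [hc]
    simp only [Fin.prod_univ_succ, Fin.cons_zero, Fin.cons_succ]
    ring

lemma InM.mono {k l : ℕ} (hkl : k ≤ l) {f : (Fin n → ℂ) × ℂ → ℂ} (hf : InM l f) : InM k f := by
  induction l, hkl using Nat.le_induction with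
  | base => exact hf
  | succ l _ ih => exact ih hf.pred

lemma inM_pure (c : Fin n → ℂ) (k : ℕ) : InM k (fun p => ∑ i, c i * p.1 i ^ k) := by
  refine ⟨fun w _ => ∑ i, if w = (fun _ => i) then c i else 0, fun w => analyticAt_const, ?_⟩
  refine Eventually.of_forall (fun p => ?_)
  simp only [Finset.mul_sum]
  rw [Finset.sum_comm]
  refine Finset.sum_congr rfl (fun i _ => ?_)
  rw [Finset.sum_eq_single (fun _ => i)]
  · simp [mul_comm]
  · intro w _ hw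
    rw [if_neg hw, mul_zero]
  · intro h; exact absurd (Finset.mem_univ _) h

/-- lower bound of the gradient -/
theorem lower_bound {F : (Fin n → ℂ) × ℂ → ℂ} {μ : ℕ} (hF : AnalyticAt ℂ F (0, 0)) (hn : 0 < n)
    (hμ : ∀ᶠ t in 𝓝 (0 : ℂ), Module.Finite ℂ (JacobianQuotient n (fun x => F (x, t))) ∧
      milnorNumber n (fun x => F (x, t)) = μ) :
    ∃ c₀ : ℝ, 0 < c₀ ∧ ∀ᶠ p in 𝓝 ((0 : Fin n → ℂ), (0 : ℂ)),
      c₀ * ‖p.1‖ ^ μ ≤ ‖gr (sl F p.2) p.1‖ := by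
  choose a ha h using fun w : Fin μ → Fin n => grad_uniform hF hμ w
  set A : ℝ := 1 + ∑ i, ∑ j, (‖a (fun _ => i) j (0, 0)‖ + 1) with hA
  have hA1 : 0 < A := by positivity
  have hb : ∀ᶠ p in 𝓝 ((0 : Fin n → ℂ), (0 : ℂ)), ∀ i j,
      ‖a (fun _ => i) j p‖ < ‖a (fun _ => i) j (0, 0)‖ + 1 := by
    rw [Filter.eventually_all]
    intro i
    rw [Filter.eventually_all]
    intro j
    exact ((ha _ j).continuousAt.norm).eventually_lt continuousAt_const (by simp)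
  have hw : ∀ᶠ p in 𝓝 ((0 : Fin n → ℂ), (0 : ℂ)), ∀ i : Fin n,
      ∏ _j : Fin μ, p.1 i = ∑ j, a (fun _ => i) j p * pd F j p :=
    Filter.eventually_all.2 (fun i => h (fun _ => i))
  refine ⟨A⁻¹, inv_pos.2 hA1, ?_⟩
  filter_upwards [hb, hw] with p hp1 hp2
  obtain ⟨i, hi⟩ : ∃ i, ‖p.1‖ = ‖p.1 i‖ := by
    by_contra hcon
    push Not at hcon
    have h2 : ∀ i, ‖p.1 i‖ < ‖p.1‖ := fun i =>
      lt_of_le_of_ne (norm_le_pi_norm p.1 i) (fun h => hcon i h.symm)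
    have h3 : 0 < ‖p.1‖ := lt_of_le_of_lt (norm_nonneg _) (h2 ⟨0, hn⟩)
    exact lt_irrefl _ ((pi_norm_lt_iff h3).2 h2)
  rw [inv_mul_le_iff₀ hA1, hi, ← norm_pow]
  have h3 := hp2 i
  rw [Finset.prod_const, Finset.card_univ, Fintype.card_fin] at h3
  rw [h3]
  refine (norm_sum_le _ _).trans ?_
  have h4 : ∀ j, ‖a (fun _ => i) j p * pd F j p‖ ≤
      (‖a (fun _ => i) j (0, 0)‖ + 1) * ‖gr (sl F p.2) p.1‖ := by
    intro j
    rw [norm_mul]
    refine mul_le_mul (hp1 i j).le ?_ (norm_nonneg _) (by positivity)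
    exact norm_le_pi_norm (gr (sl F p.2) p.1) j
  refine (Finset.sum_le_sum (fun j _ => h4 j)).trans ?_
  rw [← Finset.sum_mul]
  refine mul_le_mul_of_nonneg_right ?_ (norm_nonneg _)
  have h5 : ∑ j, (‖a (fun _ => i) j (0, 0)‖ + 1) ≤ ∑ i, ∑ j, (‖a (fun _ => i) j (0, 0)‖ + 1) :=
    Finset.single_le_sum (f := fun i => ∑ j, (‖a (fun _ => i) j (0, 0)‖ + 1))
      (fun i _ => by positivity) (Finset.mem_univ i)
  linarith

section transport

variable {ψ : (Fin n → ℂ) × ℂ → (Fin n → ℂ)}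

lemma fderiv_psi (hψ : AnalyticAt ℂ ψ 0) (h0 : ∀ᶠ t in 𝓝 (0 : ℂ), ψ (0, t) = 0)
    (hd : fderiv ℂ (fun x => ψ (x, 0)) 0 = ContinuousLinearMap.id ℂ _) :
    fderiv ℂ ψ 0 = ContinuousLinearMap.fst ℂ (Fin n → ℂ) ℂ := by
  have h1 : HasFDerivAt ψ (fderiv ℂ ψ 0) ((0 : Fin n → ℂ), (0 : ℂ)) :=
    hψ.differentiableAt.hasFDerivAt
  have h2 : HasFDerivAt (fun x : Fin n → ℂ => ψ (x, 0))
      ((fderiv ℂ ψ 0).comp (ContinuousLinearMap.inl ℂ (Fin n → ℂ) ℂ)) 0 :=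
    HasFDerivAt.comp (0 : Fin n → ℂ) (g := ψ) h1 (hasFDerivAt_prodMk_left _ _)
  have h3 : HasFDerivAt (fun t : ℂ => ψ (0, t))
      ((fderiv ℂ ψ 0).comp (ContinuousLinearMap.inr ℂ (Fin n → ℂ) ℂ)) 0 :=
    HasFDerivAt.comp (0 : ℂ) (g := ψ) h1 (hasFDerivAt_prodMk_right _ _)
  have h4 : HasFDerivAt (fun t : ℂ => ψ (0, t)) (0 : ℂ →L[ℂ] (Fin n → ℂ)) 0 :=
    (hasFDerivAt_const (0 : Fin n → ℂ) (0 : ℂ)).congr_of_eventuallyEq h0
  have h5 := h3.unique h4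
  have h6 := h2.fderiv.symm.trans hd
  refine ContinuousLinearMap.ext (fun v => ?_)
  obtain ⟨x, t⟩ := v
  have h7 : ((x, t) : (Fin n → ℂ) × ℂ) = (x, 0) + (0, t) := by simp
  rw [h7, map_add]
  have h8 : fderiv ℂ ψ 0 (x, 0) = x := by
    have := DFunLike.congr_fun h6 x
    simpa using this
  have h9 : fderiv ℂ ψ 0 (0, t) = 0 := by
    have := DFunLike.congr_fun h5 t
    simpa using this
  rw [h8, h9]
  simp

lemma strict_one (hψ : AnalyticAt ℂ ψ 0) (h0 : ∀ᶠ t in 𝓝 (0 : ℂ), ψ (0, t) = 0)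
    (hd : fderiv ℂ (fun x => ψ (x, 0)) 0 = ContinuousLinearMap.id ℂ _) :
    HasStrictFDerivAt (fun p : (Fin n → ℂ) × ℂ => (ψ p, p.2))
      ((ContinuousLinearEquiv.refl ℂ ((Fin n → ℂ) × ℂ) :
        ((Fin n → ℂ) × ℂ) ≃L[ℂ] ((Fin n → ℂ) × ℂ)) : ((Fin n → ℂ) × ℂ) →L[ℂ] ((Fin n → ℂ) × ℂ))
      0 := by
  have h1 : HasStrictFDerivAt ψ (ContinuousLinearMap.fst ℂ (Fin n → ℂ) ℂ) 0 := by
    rw [← fderiv_psi hψ h0 hd]
    exact hψ.hasStrictFDerivAt
  refine (h1.prodMk hasStrictFDerivAt_snd).congr_fderiv ?_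
  exact ContinuousLinearMap.ext (fun v => rfl)

lemma strict_zero (hψ : AnalyticAt ℂ ψ 0) (h0 : ∀ᶠ t in 𝓝 (0 : ℂ), ψ (0, t) = 0)
    (hd : fderiv ℂ (fun x => ψ (x, 0)) 0 = ContinuousLinearMap.id ℂ _) :
    HasStrictFDerivAt (fun p : (Fin n → ℂ) × ℂ => (ψ (p.1, 0), p.2))
      ((ContinuousLinearEquiv.refl ℂ ((Fin n → ℂ) × ℂ) :
        ((Fin n → ℂ) × ℂ) ≃L[ℂ] ((Fin n → ℂ) × ℂ)) : ((Fin n → ℂ) × ℂ) →L[ℂ] ((Fin n → ℂ) × ℂ))
      0 := by
  have h1 : HasStrictFDerivAt ψ (ContinuousLinearMap.fst ℂ (Fin n → ℂ) ℂ)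
      ((((0 : (Fin n → ℂ) × ℂ)).1, (0 : ℂ)) : (Fin n → ℂ) × ℂ) := by
    rw [← fderiv_psi hψ h0 hd]
    exact hψ.hasStrictFDerivAt
  have h2 : HasStrictFDerivAt (fun p : (Fin n → ℂ) × ℂ => ((p.1, (0 : ℂ)) : (Fin n → ℂ) × ℂ))
      ((ContinuousLinearMap.fst ℂ (Fin n → ℂ) ℂ).prod 0) 0 :=
    hasStrictFDerivAt_fst.prodMk (hasStrictFDerivAt_const _ _)
  have h3 : HasStrictFDerivAt (fun p : (Fin n → ℂ) × ℂ => ψ (p.1, 0))
      ((ContinuousLinearMap.fst ℂ (Fin n → ℂ) ℂ).comp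
        ((ContinuousLinearMap.fst ℂ (Fin n → ℂ) ℂ).prod 0)) 0 :=
    HasStrictFDerivAt.comp (0 : (Fin n → ℂ) × ℂ) (g := ψ) h1 h2
  refine (h3.prodMk hasStrictFDerivAt_snd).congr_fderiv ?_
  exact ContinuousLinearMap.ext (fun v => rfl)

/-- **transport of the conclusion of S0395** -/
theorem concl_transport {F G : E3 × ℂ → ℂ} {ψ : E3 × ℂ → E3} (hψ : AnalyticAt ℂ ψ 0)
    (h0 : ∀ᶠ t in 𝓝 (0 : ℂ), ψ (0, t) = 0)
    (hd : fderiv ℂ (fun x => ψ (x, 0)) 0 = ContinuousLinearMap.id ℂ _)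
    (hFG : ∀ᶠ p in 𝓝 (0 : E3 × ℂ), F (ψ p, p.2) = G p) (hG : Concl G) : Concl F := by
  obtain ⟨δ, hδ, Φ, hΦ0, hΦ1, hΦ2⟩ := hG
  obtain ⟨U, hUF, hUo, hU0⟩ := eventually_nhds_iff.1 hFG
  have hs1 := strict_one hψ h0 hd
  have hs0 := strict_zero hψ h0 hd
  set e := hs1.toOpenPartialHomeomorph with he
  set e0 := hs0.toOpenPartialHomeomorph with he0
  have hV : IsOpen {p : E3 × ℂ | ((p.1, (0 : ℂ)) : E3 × ℂ) ∈ U} :=
    hUo.preimage (continuous_fst.prodMk continuous_const)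
  set e1 := e.restrOpen U hUo with he1
  set e2 := e0.restrOpen {p : E3 × ℂ | ((p.1, (0 : ℂ)) : E3 × ℂ) ∈ U} hV with he2
  have he1c : ∀ p, e1 p = (ψ p, p.2) := fun p => rfl
  have he2c : ∀ p, e2 p = (ψ (p.1, 0), p.2) := fun p => rfl
  have h1s : e1.source ∈ 𝓝 (0 : E3 × ℂ) := by
    refine e1.open_source.mem_nhds ?_
    rw [he1, OpenPartialHomeomorph.restrOpen_source]
    exact ⟨hs1.mem_toOpenPartialHomeomorph_source, hU0⟩
  have h2s : e2.source ∈ 𝓝 (0 : E3 × ℂ) := by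
    refine e2.open_source.mem_nhds ?_
    rw [he2, OpenPartialHomeomorph.restrOpen_source]
    exact ⟨hs0.mem_toOpenPartialHomeomorph_source, hU0⟩
  have hU1 : ∀ p ∈ e1.source, p ∈ U := by
    intro p hp
    rw [he1, OpenPartialHomeomorph.restrOpen_source] at hp
    exact hp.2
  have hU2 : ∀ p ∈ e2.source, ((p.1, (0 : ℂ)) : E3 × ℂ) ∈ U := by
    intro p hp
    rw [he2, OpenPartialHomeomorph.restrOpen_source] at hp
    exact hp.2
  have htend : Tendsto (fun t : ℂ => ((0 : E3), t)) (𝓝 0) (𝓝 (0 : E3 × ℂ)) :=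
    (Continuous.prodMk_right (0 : E3)).tendsto 0
  have hψ0 : ψ (0, 0) = 0 := h0.self_of_nhds
  have hev : ∀ᶠ t in 𝓝 (0 : ℂ), ((0 : E3), t) ∈ e1.source ∧ ((0 : E3), t) ∈ e2.source ∧
      ψ (0, t) = 0 :=
    (htend.eventually (Filter.eventually_mem_set.2 h1s)).and
      ((htend.eventually (Filter.eventually_mem_set.2 h2s)).and h0)
  obtain ⟨ε, hε, hball⟩ := Metric.eventually_nhds_iff.1 hev
  refine ⟨min δ ε, lt_min hδ hε, e2.symm.trans (Φ.trans e1), ?_, ?_, ?_⟩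
  · intro t ht
    obtain ⟨a1, a2, a3⟩ := hball (y := t) (by
      rw [dist_zero_right]; exact ht.trans_le (min_le_right _ _))
    obtain ⟨b1, b2⟩ := hΦ0 t (ht.trans_le (min_le_left _ _))
    have c1 : e2 ((0 : E3), t) = (0, t) := by
      rw [he2c]
      simp [hψ0]
    have c2 : ((0 : E3), t) ∈ e2.target := by
      rw [← c1]; exact e2.map_source a2
    have c3 : e2.symm ((0 : E3), t) = (0, t) := by
      conv_lhs => rw [← c1]
      exact e2.left_inv a2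
    constructor
    · rw [OpenPartialHomeomorph.trans_source, OpenPartialHomeomorph.trans_source]
      refine ⟨c2, ?_⟩
      rw [mem_preimage, c3]
      refine ⟨b1, ?_⟩
      rw [mem_preimage, b2]
      exact a1
    · rw [OpenPartialHomeomorph.coe_trans, Function.comp_apply, c3,
        OpenPartialHomeomorph.coe_trans, Function.comp_apply, b2, he1c, a3]
  · intro p hp
    rw [OpenPartialHomeomorph.trans_source, OpenPartialHomeomorph.trans_source] at hp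
    obtain ⟨hp1, hp2, hp3⟩ := hp
    rw [OpenPartialHomeomorph.coe_trans, Function.comp_apply,
        OpenPartialHomeomorph.coe_trans, Function.comp_apply, he1c]
    set q := e2.symm p with hq
    have hqs : q ∈ e2.source := e2.map_target hp1
    have hqp : e2 q = p := e2.right_inv hp1
    rw [he2c] at hqp
    obtain ⟨d1, d2⟩ := hΦ1 q hp2
    constructor
    · rw [← hqp]; exact d1
    · have e3 : F (ψ (Φ q), (Φ q).2) = G (Φ q) := hUF _ (hU1 _ hp3)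
      have e4 : F (ψ (q.1, 0), 0) = G (q.1, 0) := hUF _ (hU2 _ hqs)
      rw [e3, d2, ← e4, ← hqp]
  · intro x hx
    rw [OpenPartialHomeomorph.trans_source, OpenPartialHomeomorph.trans_source] at hx
    obtain ⟨hp1, hp2, hp3⟩ := hx
    rw [OpenPartialHomeomorph.coe_trans, Function.comp_apply,
        OpenPartialHomeomorph.coe_trans, Function.comp_apply, he1c]
    have hqp : e2 (e2.symm (x, 0)) = (x, 0) := e2.right_inv hp1
    obtain ⟨⟨y, s⟩, h⟩ : ∃ q, e2.symm (x, 0) = q := ⟨_, rfl⟩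
    rw [h, he2c, Prod.mk.injEq] at hqp
    obtain ⟨f1, f2⟩ := hqp
    simp only at f1 f2
    subst f2
    have hp2' : ((y, (0 : ℂ)) : E3 × ℂ) ∈ Φ.source := by
      rw [← h]; exact hp2
    rw [h, hΦ2 y hp2']
    simp only [f1]

end transport

end Crest.Agent.R257.Glob554
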