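import Crest.Agent.R257.GD_554

/-!
Row 257 (S0395), leaf E-GLOB, part 3e (helper554): assembly of `GlobStmt` from Tougeron's theorem
in families (TOU) and the invariance of the Milnor number (INV).
-/

set_option autoImplicit false

open Set Filter Topology
open Crest.AlgGeometry.Germ

noncomputable section

namespace Crest.Agent.R257.Glob554

open Crest.Agent.R257.Defs_219 Crest.Agent.R257.Jac554 Crest.Agent.R257.Uni554
open MvPolynomial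

/-- Tougeron in families, for `n = 3` -/
def TouStmt : Prop := ∀ (μ : ℕ) (F G : E3 × ℂ → ℂ), AnalyticAt ℂ F 0 → AnalyticAt ℂ G 0 →
  (∀ᶠ t in 𝓝 (0 : ℂ), Module.Finite ℂ (JacobianQuotient 3 (fun x => F (x, t))) ∧
    milnorNumber 3 (fun x => F (x, t)) = μ) →
  (∀ᶠ t in 𝓝 (0 : ℂ), fderiv ℂ (fun x => F (x, t)) 0 = 0) →
  ∀ (q : (Fin (2 * μ + 1) → Fin 3) → E3 × ℂ → ℂ), (∀ w, AnalyticAt ℂ (q w) 0) →
  (∀ᶠ p in 𝓝 (0 : E3 × ℂ), G p - F p = ∑ w, (∏ j, p.1 (w j)) * q w p) →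
  ∃ ψ : E3 × ℂ → E3, AnalyticAt ℂ ψ 0 ∧ (∀ᶠ t in 𝓝 (0 : ℂ), ψ (0, t) = 0) ∧
    (∀ᶠ t in 𝓝 (0 : ℂ), fderiv ℂ (fun x => ψ (x, t)) 0 = ContinuousLinearMap.id ℂ _) ∧
    ∀ᶠ p in 𝓝 (0 : E3 × ℂ), F (ψ p, p.2) = G p

/-- invariance of the Milnor number, for `n = 3` -/
def InvStmt : Prop := ∀ (f g : E3 → ℂ) (Φ : E3 → E3), AnalyticAt ℂ f 0 → AnalyticAt ℂ Φ 0 →
  Φ 0 = 0 → fderiv ℂ Φ 0 = ContinuousLinearMap.id ℂ _ → g =ᶠ[𝓝 0] f ∘ Φ →
  (Module.Finite ℂ (JacobianQuotient 3 f) → Module.Finite ℂ (JacobianQuotient 3 g)) ∧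
    milnorNumber 3 g = milnorNumber 3 f

lemma eventually_slices {p : (E3 × ℂ) → Prop} (h : ∀ᶠ q in 𝓝 (0 : E3 × ℂ), p q) :
    ∀ᶠ t in 𝓝 (0 : ℂ), ∀ᶠ x in 𝓝 (0 : E3), p (x, t) := by
  obtain ⟨U, hU, hUo, hU0⟩ := eventually_nhds_iff.1 h
  have h3 : Tendsto (fun t : ℂ => ((0 : E3), t)) (𝓝 0) (𝓝 (0 : E3 × ℂ)) :=
    (Continuous.prodMk_right (0 : E3)).tendsto 0
  filter_upwards [h3.eventually (hUo.mem_nhds hU0)] with t ht
  have h4 : Tendsto (fun x : E3 => (x, t)) (𝓝 0) (𝓝 ((0 : E3), t)) :=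
    (Continuous.prodMk_left t).tendsto 0
  filter_upwards [h4.eventually (hUo.mem_nhds ht)] with x hx
  exact hU _ hx

theorem glob_of (tou : TouStmt) (inv : InvStmt) : GlobStmt := by
  intro R F hR hyp
  obtain ⟨hF, hcrit, hμ⟩ := hyp
  set μ := milnorNumber 3 (fun x => F (x, 0)) with hμdef
  have hball : ∀ᶠ t in 𝓝 (0 : ℂ), ‖t‖ < R := by
    have := Metric.ball_mem_nhds (0 : ℂ) hR
    filter_upwards [this] with t ht
    rwa [mem_ball_zero_iff] at ht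
  have hFa : AnalyticAt ℂ F (0, 0) := (hF 0 (by simpa using hR)).1
  have hF0 : ∀ᶠ t in 𝓝 (0 : ℂ), F (0, t) = 0 := hball.mono (fun t ht => (hF t ht).2)
  have hFc : ∀ᶠ t in 𝓝 (0 : ℂ), fderiv ℂ (fun x => F (x, t)) 0 = 0 :=
    hball.mono (fun t ht => (hcrit t ht).1)
  have hFμ : ∀ᶠ t in 𝓝 (0 : ℂ), Module.Finite ℂ (JacobianQuotient 3 (fun x => F (x, t))) ∧
      milnorNumber 3 (fun x => F (x, t)) = μ := hball.mono (fun t ht => hμ t ht)
  set d : ℕ := 4 * μ + 21 with hd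
  -- Taylor
  obtain ⟨P, q, hPdeg, hPa, hq, hPF⟩ := taylor_family F hFa d
  have hPdeg' : ∀ t, (P t).totalDegree < d := fun t => by have := hPdeg t; omega
  -- Bertini
  obtain ⟨c, hc, hbert⟩ := Bert554.bertini (hPdeg' 0)
  set G : E3 × ℂ → ℂ := Gf P c d with hG
  have hGa : AnalyticAt ℂ G (0, 0) := analyticAt_Gf hPdeg' hPa.self_of_nhds 0
  -- order of G - F
  have hGF : InM (2 * μ + 1) (fun p => G p - F p) := by
    refine InM.mono (l := d) (by omega) ?_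
    have h1 : InM d (fun p => F p - eval p.1 (P p.2)) := by
      refine ⟨q, hq, ?_⟩
      filter_upwards [hPF] with p hp
      rw [hp]; ring
    obtain ⟨q', hq', h'⟩ := (inM_pure c d).sub h1
    refine ⟨q', hq', ?_⟩
    filter_upwards [h'] with p hp
    rw [← hp, hG, Gf]
    ring
  obtain ⟨q', hq', hGF'⟩ := hGF
  obtain ⟨ψ, hψ, hψ0, hψd, hFG⟩ := tou μ F G hFa hGa hFμ hFc q' hq' hGF'
  -- zero
  have hG0 : ∀ᶠ t in 𝓝 (0 : ℂ), G (0, t) = 0 := by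
    have h3 : Tendsto (fun t : ℂ => ((0 : E3), t)) (𝓝 0) (𝓝 (0 : E3 × ℂ)) :=
      (Continuous.prodMk_right (0 : E3)).tendsto 0
    filter_upwards [h3.eventually hFG, hψ0, hF0] with t h1 h2 h4
    rw [← h1]
    simp only [h2, h4]
  -- slices
  have hFs : ∀ᶠ t in 𝓝 (0 : ℂ), AnalyticAt ℂ (fun x => F (x, t)) 0 := eventually_slice hFa
  have hGs : ∀ᶠ t in 𝓝 (0 : ℂ), AnalyticAt ℂ (fun x => G (x, t)) 0 := eventually_slice hGa
  have hψs : ∀ᶠ t in 𝓝 (0 : ℂ), AnalyticAt ℂ (fun x => ψ (x, t)) 0 := by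
    have h1 := hψ.eventually_analyticAt
    have h3 : Tendsto (fun t : ℂ => ((0 : E3), t)) (𝓝 0) (𝓝 (0 : E3 × ℂ)) :=
      (Continuous.prodMk_right (0 : E3)).tendsto 0
    filter_upwards [h3.eventually h1] with t ht
    exact AnalyticAt.comp (g := ψ) (f := fun x : E3 => (x, t)) ht
      (analyticAt_id.prod analyticAt_const)
  have hFGs := eventually_slices hFG
  -- critical point
  have hGc : ∀ᶠ t in 𝓝 (0 : ℂ), fderiv ℂ (fun x => G (x, t)) 0 = 0 := by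
    filter_upwards [hFs, hψs, hFGs, hFc, hψ0] with t h1 h2 h3 h4 h5
    have h6 : HasFDerivAt (fun x => F (x, t)) (0 : E3 →L[ℂ] ℂ) (ψ (0, t)) := by
      rw [h5, ← h4]
      exact h1.differentiableAt.hasFDerivAt
    have h7 : HasFDerivAt (fun x => F (ψ (x, t), t))
        ((0 : E3 →L[ℂ] ℂ).comp (fderiv ℂ (fun x => ψ (x, t)) 0)) 0 :=
      HasFDerivAt.comp (0 : E3) (g := fun x => F (x, t)) h6 h2.differentiableAt.hasFDerivAt
    have h8 : HasFDerivAt (fun x => G (x, t))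
        ((0 : E3 →L[ℂ] ℂ).comp (fderiv ℂ (fun x => ψ (x, t)) 0)) 0 :=
      h7.congr_of_eventuallyEq (h3.mono (fun x hx => hx.symm))
    rw [h8.fderiv, ContinuousLinearMap.zero_comp]
  -- Milnor number
  have hGμ : ∀ᶠ t in 𝓝 (0 : ℂ), Module.Finite ℂ (JacobianQuotient 3 (fun x => G (x, t))) ∧
      milnorNumber 3 (fun x => G (x, t)) = μ := by
    filter_upwards [hFs, hψs, hFGs, hFμ, hψ0, hψd] with t h1 h2 h3 h4 h5 h6
    obtain ⟨a, b⟩ := inv (fun x => F (x, t)) (fun x => G (x, t)) (fun x => ψ (x, t)) h1 h2 h5 h6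
      (h3.mono (fun x hx => hx.symm))
    exact ⟨a h4.1, b.trans h4.2⟩
  -- lower bound
  obtain ⟨c₀, hc₀, hlow⟩ := lower_bound hGa (by norm_num) hGμ
  -- (G4)
  have hG4 : ∀ x : E3, x ≠ 0 → G (x, 0) = 0 → ∃ i, coordDeriv (sl G 0) i x ≠ 0 := by
    intro x hx h0
    obtain ⟨i, hi⟩ := hbert x hx h0
    refine ⟨i, ?_⟩
    rw [hG, gr_Gf]
    exact hi
  -- (G5)
  obtain ⟨e, he, hG5⟩ := g5 (c := c) hPdeg' (by omega) hPa hc hG0 (by
    filter_upwards [hlow] with p hp hcr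
    by_contra hne
    have h1 : gr (sl (Gf P c d) p.2) p.1 = 0 := funext hcr
    have h2 : c₀ * ‖p.1‖ ^ μ ≤ 0 := by
      rw [← norm_zero (E := E3), ← h1]
      exact hp
    have h3 : 0 < c₀ * ‖p.1‖ ^ μ := mul_pos hc₀ (pow_pos (norm_pos_iff.2 hne) _)
    linarith) hG4
  -- radii
  obtain ⟨r₁, hr₁, hlow'⟩ := Metric.eventually_nhds_iff.1 hlow
  obtain ⟨r₂, hr₂, hall⟩ := Metric.eventually_nhds_iff.1 (hG0.and (hGc.and (hGμ.and (hGs.and hPa))))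
  have hall' : ∀ t : ℂ, ‖t‖ < min r₁ r₂ → _ := fun t ht =>
    hall (y := t) (by rw [dist_zero_right]; exact ht.trans_le (min_le_right _ _))
  refine ⟨G, μ, d, min r₁ r₂, r₁, c₀, e, P, c, ⟨lt_min hr₁ hr₂, by omega, fun x t => rfl, hPdeg',
    ?_, hc, fun t ht => (hall' t ht).1, ?_, ?_, ?_, hr₁, hc₀, ?_, ?_, he, ?_⟩, ?_⟩
  · intro m t ht
    rw [mem_ball_zero_iff] at ht
    exact (hall' t ht).2.2.2.2 m
  · intro t ht i
    have h1 := (hall' t ht).2.1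
    change fderiv ℂ (fun x => G (x, t)) 0 (Pi.single i 1) = 0
    rw [h1]; rfl
  · intro t ht
    exact (hall' t ht).2.2.1.1
  · intro t ht
    exact (hall' t ht).2.2.1.2
  · intro x t hx ht
    refine hlow' (y := (x, t)) ?_
    rw [Prod.dist_eq, max_lt_iff]
    simp only [dist_zero_right]
    exact ⟨hx, ht.trans_le (min_le_left _ _)⟩
  · intro x hx h0 hgr
    obtain ⟨i, hi⟩ := hG4 x hx h0
    exact hi (congrFun hgr i)
  · intro x t ht hne hlt hgr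
    obtain ⟨i, hi⟩ := hG5 x t ht hne hlt
    exact hi (congrFun hgr i)
  · exact concl_transport hψ hψ0 hψd.self_of_nhds hFG

end Crest.Agent.R257.Glob554
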