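import Crest.Agent.R257.CLD_39
import Crest.Agent.R257.GradB_537

/-!
# Row 257 (S0395), leaf GRAD-MOV (helper101), part a: the local maximum principle

`trH u p` = Laplacian of `p` for the Kaehler form `∂∂̄u`; `lev`, `gr` are those of `Levi_145`.
* `trH_le`, `trH_comp` (invariance under holomorphic changes of coordinates)
* `bochner_max` : at a local maximum of `|dF|² Z` one has `Δ log Z ≤ κ`
* `cut_max`     : at a local maximum of `|dF|² ζ⁴ / (W (2G - |F|²))` the value is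
  `≤ κ + 8 k n + c₃ + 2 c₁`
-/

set_option autoImplicit false
set_option linter.unusedSectionVars false

open Set Filter Topology Complex
open scoped ContDiff ComplexConjugate Matrix

namespace Crest.Agent.R257.GMa_101

open Crest.Agent.R275.Geo Crest.Agent.R275.Core144 Crest.Agent.R275.GC293
open Crest.Agent.R273 Crest.Agent.R273.Levi_145
open Crest.Agent.R273.YauDefs_635 Crest.Agent.R273.Hess_333 Crest.Agent.R273.HessB_333
open Crest.Agent.R273.FS_333 (sq)
open Crest.Agent.R257.CLC_39 (trH contDiffOn_trH contDiffOn_of_hol trace_congr_frame)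
open Crest.Agent.R257.CLD_39 (trH_hess trH_add trH_sub trH_const_mul trH_congr trH_self
  trH_nonpos_of_localMax chern_lu_flat contDiffOn_sq two_le' trH_add_const)

noncomputable section

variable {n N : ℕ}

section pt

variable {u p q : Cn n → ℝ} {z : Cn n}

theorem pos333 (hpos : ∀ v, v ≠ 0 → 0 < lev u z v) :
    ∀ v : Cn n, v ≠ 0 → 0 < Defs_333.lev u z v := fun v hv => by
  rw [lev333_eq_lev145]
  have := hpos v hv
  linarith

theorem trH_le (hu : ContDiffAt ℝ ∞ u z) (hpos : ∀ v, v ≠ 0 → 0 < lev u z v)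
    (hp : ContDiffAt ℝ ∞ p z) (hq : ContDiffAt ℝ ∞ q z) (h : ∀ v, lev p z v ≤ lev q z v) :
    trH u p z ≤ trH u q z :=
  CLD_39.trH_mono hu (pos333 hpos) hp hq fun v => by
    rw [lev333_eq_lev145, lev333_eq_lev145]
    linarith [h v]

theorem trH_le_n (hu : ContDiffAt ℝ ∞ u z) (hpos : ∀ v, v ≠ 0 → 0 < lev u z v)
    (hp : ContDiffAt ℝ ∞ p z) {c : ℝ} (h : ∀ v, lev p z v ≤ c * lev u z v) :
    trH u p z ≤ c * n :=
  CLD_39.trH_le_of_lev hu (pos333 hpos) hp fun v => by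
    rw [lev333_eq_lev145, lev333_eq_lev145]
    linarith [h v]

theorem le_trH (hu : ContDiffAt ℝ ∞ u z) (hpos : ∀ v, v ≠ 0 → 0 < lev u z v)
    (hp : ContDiffAt ℝ ∞ p z) (h : ∀ v, 0 ≤ lev p z v) (v : Cn n) :
    lev p z v ≤ trH u p z * lev u z v := by
  have h1 := CLD_39.lev_le_trH hu (pos333 hpos) hp (fun v => by
    rw [lev333_eq_lev145]
    linarith [h v]) v
  rw [lev333_eq_lev145, lev333_eq_lev145] at h1
  linarith

theorem trH_nn (hu : ContDiffAt ℝ ∞ u z) (hpos : ∀ v, v ≠ 0 → 0 < lev u z v)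
    (hp : ContDiffAt ℝ ∞ p z) (h : ∀ v, 0 ≤ lev p z v) : 0 ≤ trH u p z :=
  CLD_39.trH_nonneg hu (pos333 hpos) hp fun v => by
    rw [lev333_eq_lev145]
    linarith [h v]

/-- the Laplacian is invariant under holomorphic changes of coordinates -/
theorem trH_comp {T : Cn n → Cn n} (hT : ∀ᶠ w in 𝓝 z, DifferentiableAt ℂ T w)
    (hdet : ∃ L : Cn n → Cn n, DifferentiableAt ℂ L (T z) ∧ ∀ᶠ w in 𝓝 z, L (T w) = w)
    (hu : ContDiffAt ℝ ∞ u (T z)) (hp : ContDiffAt ℝ ∞ p (T z)) :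
    trH (fun w => u (T w)) (fun w => p (T w)) z = trH u p (T z) := by
  have hTz := hT.self_of_nhds
  have hTc : ContDiffAt ℝ ∞ T z := by
    obtain ⟨U, hU, hUo, hUz⟩ := eventually_nhds_iff.1 hT
    have h1 : DifferentiableOn ℂ T U := fun w hw => (hU w hw).differentiableWithinAt
    exact (((Crest.Agent.R266.SCV.contDiffOn_omega_of_differentiableOn hUo h1).restrict_scalars
      ℝ).of_le le_top).contDiffAt (hUo.mem_nhds hUz)
  have hu2 : ContDiffAt ℝ ∞ (fun w => u (T w)) z := hu.comp z hTc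
  have hp2 : ContDiffAt ℝ ∞ (fun w => p (T w)) z := hp.comp z hTc
  rw [trH_hess hu2 hp2, trH_hess hu hp]
  set C : Matrix (Fin n) (Fin n) ℂ :=
    Matrix.of fun a c => (fderiv ℂ T z (EuclideanSpace.single a 1)) c with hC
  have hh : ∀ {g : Cn n → ℝ}, ContDiffAt ℝ ∞ g (T z) →
      hess (fun w => g (T w)) z = C * hess g (T z) * Cᴴ := by
    intro g hg
    ext a b
    rw [hess_comp hg hT]
    simp only [Matrix.mul_apply, Matrix.conjTranspose_apply, hC, Matrix.of_apply,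
      RCLike.star_def, Finset.sum_mul]
    rw [Finset.sum_comm]
  have hCu : IsUnit C.det := by
    obtain ⟨L, hL, hLT⟩ := hdet
    have h1 : HasFDerivAt (fun w => L (T w)) ((fderiv ℂ L (T z)).comp (fderiv ℂ T z)) z :=
      hL.hasFDerivAt.comp z hTz.hasFDerivAt
    have h2 : HasFDerivAt (fun w => L (T w)) (ContinuousLinearMap.id ℂ (Cn n)) z :=
      (hasFDerivAt_id z).congr_of_eventuallyEq hLT
    have h3 := h1.unique h2
    set C' : Matrix (Fin n) (Fin n) ℂ :=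
      Matrix.of fun a c => (fderiv ℂ L (T z) (EuclideanSpace.single a 1)) c with hC'
    have h4 : C * C' = 1 := by
      ext a b
      have h5 := congrArg (fun l : Cn n →L[ℂ] Cn n => (l (EuclideanSpace.single a 1)) b) h3
      simp only [ContinuousLinearMap.comp_apply, ContinuousLinearMap.id_apply] at h5
      have h6 : fderiv ℂ T z (EuclideanSpace.single a 1)
          = ∑ c, (fderiv ℂ T z (EuclideanSpace.single a 1)) c •
            (EuclideanSpace.single c (1 : ℂ) : Cn n) := vec_exp _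
      rw [h6, map_sum] at h5
      simp only [map_smul, WithLp.ofLp_sum, WithLp.ofLp_smul, Finset.sum_apply, Pi.smul_apply,
        smul_eq_mul] at h5
      simp only [Matrix.mul_apply, hC, hC', Matrix.of_apply]
      rw [h5]
      simp [Matrix.one_apply, eq_comm]
    have h5 := congrArg Matrix.det h4
    rw [Matrix.det_mul, Matrix.det_one] at h5
    exact IsUnit.of_mul_eq_one _ h5
  have e := trace_congr_frame C (hess u (T z)) (hess p (T z)) hCu
  rw [← hh hu, ← hh hp] at e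
  rw [e]

end pt

section main

variable {U : Set (Cn n)} (hU : IsOpen U) {u f : Cn n → ℝ} (hu : ContDiffOn ℝ ∞ u U)
  (hf : ContDiffOn ℝ ∞ f U) (hdet : ∀ z ∈ U, (cH u z).det = (Real.exp (f z) : ℂ))
  (hpos : ∀ z ∈ U, ∀ v : Cn n, v ≠ 0 → 0 < lev u z v) {κ : ℝ}
  (hK : ∀ z ∈ U, ∀ v : Cn n, lev f z v ≤ κ * lev u z v)
  {F : Cn n → Fin N → ℂ} (hF : ∀ k, DifferentiableOn ℂ (fun z => F z k) U)

include hU hu hf hdet hpos hK hF in
/-- at a local maximum of `|dF|² Z` one has `Δ log Z ≤ κ` -/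
theorem bochner_max {Z : Cn n → ℝ} {x : Cn n} (hx : x ∈ U) (hT : 0 < trH u (sq F) x)
    (hZ : ContDiffAt ℝ ∞ Z x) (hZ0 : 0 < Z x)
    (hmax : IsLocalMax (fun z => trH u (sq F) z * Z z) x) :
    trH u (fun z => Real.log (Z z)) x ≤ κ := by
  have hun : U ∈ 𝓝 x := hU.mem_nhds hx
  have hux : ContDiffAt ℝ ∞ u x := hu.contDiffAt hun
  have hTs : ContDiffAt ℝ ∞ (trH u (sq F)) x :=
    (contDiffOn_trH hU hu (contDiffOn_sq hU hF) hdet).contDiffAt hun
  have h1 : ContDiffAt ℝ ∞ (fun z => Real.log (trH u (sq F) z)) x := hTs.log hT.ne'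
  have h2 : ContDiffAt ℝ ∞ (fun z => Real.log (Z z)) x := hZ.log hZ0.ne'
  have h3 : IsLocalMax (fun z => Real.log (trH u (sq F) z) + Real.log (Z z)) x := by
    filter_upwards [hmax, hTs.continuousAt.eventually (lt_mem_nhds hT),
      hZ.continuousAt.eventually (lt_mem_nhds hZ0)] with z a1 a2 a3
    rw [← Real.log_mul a2.ne' a3.ne', ← Real.log_mul hT.ne' hZ0.ne']
    exact Real.log_le_log (mul_pos a2 a3) a1
  have h4 := trH_nonpos_of_localMax hux (pos333 (hpos x hx)) (h1.add h2) h3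
  rw [trH_add hux h1 h2] at h4
  have h5 := chern_lu_flat hU hu hf hdet (fun z hz => pos333 (hpos z hz)) (K := κ)
    (fun z hz v => by
      rw [lev333_eq_lev145, lev333_eq_lev145]
      linarith [hK z hz v]) hF hx hT
  linarith

include hU hu hf hdet hpos hK hF in
/-- **the estimate at a local maximum** of `|dF|² ζ⁴ / (W (2G - |F|²))` -/
theorem cut_max {ζ W G : Cn n → ℝ} {x : Cn n} (hx : x ∈ U) (hκ : 0 ≤ κ)
    (hζ : ContDiffAt ℝ ∞ ζ x) (hζ0 : 0 < ζ x) (hζ1 : ζ x ≤ 1) {k : ℝ} (hk : 0 ≤ k)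
    (hζl : ∀ v, -(k * lev u x v) ≤ lev ζ x v) (hζg : ∀ v, ‖gr ζ x v‖ ^ 2 ≤ k * lev u x v)
    (hW : ContDiffAt ℝ ∞ W x) (hW1 : 1 ≤ W x) {c₁ c₃ : ℝ} (hc₁ : 0 ≤ c₁) (hc₃ : 0 ≤ c₃)
    (hWl : trH u (fun z => Real.log (W z)) x ≤ c₃ * W x)
    (hG : ContDiffAt ℝ ∞ G x) (hG0 : 0 < G x) (hFG : sq F x ≤ G x)
    (hGl : trH u G x ≤ c₁ * W x * G x)
    (hmax : IsLocalMax (fun z => trH u (sq F) z * (ζ z ^ 4 / (W z * (2 * G z - sq F z)))) x) :
    trH u (sq F) x * (ζ x ^ 4 / (W x * (2 * G x - sq F x))) ≤ κ + 8 * k * n + c₃ + 2 * c₁ := by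
  have hun : U ∈ 𝓝 x := hU.mem_nhds hx
  have hux : ContDiffAt ℝ ∞ u x := hu.contDiffAt hun
  have hu0 := hpos x hx
  have hn : (0 : ℝ) ≤ n := Nat.cast_nonneg n
  have hkn : 0 ≤ 8 * k * n := by positivity
  have hsq : ContDiffAt ℝ ∞ (sq F) x := (contDiffOn_sq hU hF).contDiffAt hun
  set D : Cn n → ℝ := fun z => 2 * G z - sq F z with hD
  have hDs : ContDiffAt ℝ ∞ D x := (contDiffAt_const.mul hG).sub hsq
  have hDG : G x ≤ D x := by simp only [hD]; linarith
  have hD0 : 0 < D x := hG0.trans_le hDG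
  have hW0 : 0 < W x := by linarith
  have hWD : 0 < W x * D x := mul_pos hW0 hD0
  set Z : Cn n → ℝ := fun z => ζ z ^ 4 / (W z * D z) with hZdef
  have hZ0 : 0 < Z x := div_pos (pow_pos hζ0 4) hWD
  have hZ : ContDiffAt ℝ ∞ Z x := (hζ.pow 4).div (hW.mul hDs) hWD.ne'
  rcases le_or_gt (trH u (sq F) x) 0 with hT | hT
  · exact (mul_nonpos_of_nonpos_of_nonneg hT hZ0.le).trans (by positivity)
  have h1 := bochner_max hU hu hf hdet hpos hK hF hx hT hZ hZ0 hmax
  -- the logarithm of the weight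
  have lζ : ContDiffAt ℝ ∞ (fun z => Real.log (ζ z)) x := hζ.log hζ0.ne'
  have lW : ContDiffAt ℝ ∞ (fun z => Real.log (W z)) x := hW.log hW0.ne'
  have lD : ContDiffAt ℝ ∞ (fun z => Real.log (D z)) x := hDs.log hD0.ne'
  have l4 : ContDiffAt ℝ ∞ (fun z => 4 * Real.log (ζ z)) x := contDiffAt_const.mul lζ
  have e1 : (fun z => Real.log (Z z)) =ᶠ[𝓝 x]
      fun z => 4 * Real.log (ζ z) - Real.log (W z) - Real.log (D z) := by
    filter_upwards [hζ.continuousAt.eventually (lt_mem_nhds hζ0),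
      hW.continuousAt.eventually (lt_mem_nhds hW0),
      hDs.continuousAt.eventually (lt_mem_nhds hD0)] with z a1 a2 a3
    have a4 : 0 < W z * D z := mul_pos a2 a3
    rw [hZdef]
    simp only
    rw [Real.log_div (pow_pos a1 4).ne' a4.ne', Real.log_pow, Real.log_mul a2.ne' a3.ne']
    push_cast
    ring
  have hZl : ContDiffAt ℝ ∞ (fun z => Real.log (Z z)) x := hZ.log hZ0.ne'
  rw [trH_congr hux hZl e1,
    trH_sub (p := fun z => 4 * Real.log (ζ z) - Real.log (W z)) hux (l4.sub lW) lD,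
    trH_sub (p := fun z => 4 * Real.log (ζ z)) hux l4 lW, trH_const_mul hux lζ] at h1
  -- the cut-off function
  have h2 : -(2 * k / ζ x ^ 2 * n) ≤ trH u (fun z => Real.log (ζ z)) x := by
    have b1 : ContDiffAt ℝ ∞ (fun z => (-1 : ℝ) * Real.log (ζ z)) x := contDiffAt_const.mul lζ
    have b2 : trH u (fun z => (-1 : ℝ) * Real.log (ζ z)) x ≤ 2 * k / ζ x ^ 2 * n := by
      refine trH_le_n hux hu0 b1 fun v => ?_
      rw [lev_const_mul (-1) (two_le' lζ), lev_log (two_le' hζ) hζ0]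
      have hl : 0 ≤ lev u x v := by
        rcases eq_or_ne v 0 with h0 | h0
        · rw [h0, lev_zero]
        · exact (hu0 v h0).le
      have b3 : -(lev ζ x v / ζ x) ≤ k * lev u x v / ζ x ^ 2 := by
        rw [← neg_div, div_le_div_iff₀ hζ0 (by positivity)]
        have c1 : - lev ζ x v ≤ k * lev u x v := by linarith [hζl v]
        have c2 : 0 ≤ k * lev u x v := by positivity
        calc - lev ζ x v * ζ x ^ 2 ≤ k * lev u x v * ζ x ^ 2 := by gcongr
          _ ≤ k * lev u x v * ζ x := by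
            have : ζ x ^ 2 ≤ ζ x := by nlinarith
            gcongr
      have b4 : ‖gr ζ x v‖ ^ 2 / ζ x ^ 2 ≤ k * lev u x v / ζ x ^ 2 := by
        gcongr
        exact hζg v
      calc -1 * (lev ζ x v / ζ x - ‖gr ζ x v‖ ^ 2 / ζ x ^ 2)
          = -(lev ζ x v / ζ x) + ‖gr ζ x v‖ ^ 2 / ζ x ^ 2 := by ring
        _ ≤ k * lev u x v / ζ x ^ 2 + k * lev u x v / ζ x ^ 2 := add_le_add b3 b4
        _ = 2 * k / ζ x ^ 2 * lev u x v := by ring
    rw [trH_const_mul hux lζ] at b2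
    linarith
  -- the denominator
  have h3 : trH u (fun z => Real.log (D z)) x ≤ (D x)⁻¹ * trH u D x := by
    rw [← trH_const_mul hux hDs]
    refine trH_le hux hu0 lD (contDiffAt_const.mul hDs) fun v => ?_
    rw [lev_const_mul _ (two_le' hDs), lev_log (two_le' hDs) hD0]
    have : 0 ≤ ‖gr D x v‖ ^ 2 / D x ^ 2 := by positivity
    have e : lev D x v / D x = (D x)⁻¹ * lev D x v := by ring
    linarith
  have h4 : trH u D x = 2 * trH u G x - trH u (sq F) x := by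
    rw [hD, trH_sub (p := fun z => 2 * G z) hux (contDiffAt_const.mul hG) hsq,
      trH_const_mul hux hG]
  rw [h4] at h3
  have h5 : trH u G x ≤ c₁ * W x * D x := hGl.trans (by gcongr)
  -- conclusion
  set t := trH u (sq F) x with ht
  have h6 : t / D x ≤ κ + 8 * k * n / ζ x ^ 2 + c₃ * W x + 2 * (c₁ * W x) := by
    have c1 : t / D x = (D x)⁻¹ * (2 * trH u G x) - (D x)⁻¹ * (2 * trH u G x - t) := by ring
    have c2 : (D x)⁻¹ * (2 * trH u G x) ≤ 2 * (c₁ * W x) := by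
      rw [inv_mul_le_iff₀ hD0]
      linarith
    have c3 : 4 * (2 * k / ζ x ^ 2 * n) = 8 * k * n / ζ x ^ 2 := by ring
    linarith
  have h7 : t * Z x = t / D x * (ζ x ^ 4 / W x) := by
    simp only [hZdef]
    field_simp
  have h8 : 0 ≤ ζ x ^ 4 / W x := by positivity
  have hz4 : ζ x ^ 4 ≤ 1 := pow_le_one₀ hζ0.le hζ1
  have hz2 : ζ x ^ 2 ≤ 1 := pow_le_one₀ hζ0.le hζ1
  have g1 : ζ x ^ 4 / W x ≤ 1 := by
    rw [div_le_one hW0]
    linarith
  have g2 : 8 * k * n / ζ x ^ 2 * (ζ x ^ 4 / W x) ≤ 8 * k * n := by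
    have c1 : 8 * k * n / ζ x ^ 2 * (ζ x ^ 4 / W x) = 8 * k * n * (ζ x ^ 2 / W x) := by
      field_simp
    rw [c1]
    have c2 : ζ x ^ 2 / W x ≤ 1 := by
      rw [div_le_one hW0]
      linarith
    exact mul_le_of_le_one_right hkn c2
  have g3 : W x * (ζ x ^ 4 / W x) ≤ 1 := by
    rw [mul_div_cancel₀ _ hW0.ne']
    exact hz4
  calc t * Z x = t / D x * (ζ x ^ 4 / W x) := h7
    _ ≤ (κ + 8 * k * n / ζ x ^ 2 + c₃ * W x + 2 * (c₁ * W x)) * (ζ x ^ 4 / W x) := by gcongr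
    _ = κ * (ζ x ^ 4 / W x) + 8 * k * n / ζ x ^ 2 * (ζ x ^ 4 / W x)
        + c₃ * (W x * (ζ x ^ 4 / W x)) + 2 * c₁ * (W x * (ζ x ^ 4 / W x)) := by ring
    _ ≤ κ * 1 + 8 * k * n + c₃ * 1 + 2 * c₁ * 1 := by gcongr
    _ = _ := by ring

end main

end

end Crest.Agent.R257.GMa_101
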