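import Crest.Agent.R257.GMa_101
import Crest.Agent.R273.GreenM_5

/-!
# Row 257 (S0395), leaf GRAD-MOV (helper101), part b: the Laplacian on `M` and the global
maximum principle with cut-off functions

* `Lp A u p x`  : Laplacian of `p` at `x` for the Kaehler form `∂∂̄u`, `u p : M → ℝ` smooth;
  `Lp_eq` : computed in any chart
* `KEle A u κ`  : `Ric(∂∂̄u) ≥ -κ ∂∂̄u` (Kaehler-Einstein with pluriharmonic factor: `κ = 1`)
* `grad_mov`    : global form of `cut_max`
-/

set_option autoImplicit false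
set_option linter.unusedSectionVars false

open Set Filter Topology Complex
open scoped ContDiff ComplexConjugate Matrix

namespace Crest.Agent.R257.GMb_101

open Crest.Agent.R275.Geo Crest.Agent.R275.Core144 Crest.Agent.R275.GC293
open Crest.Agent.R273 Crest.Agent.R273.Levi_145
open Crest.Agent.R273.YauDefs_635 Crest.Agent.R273.YauMax_635
open Crest.Agent.R273.GreenM_5 (ci mem_ci)
open Crest.Agent.R257.CLC_39 (trH contDiffOn_trH)
open Crest.Agent.R257.CLD_39 (contDiffOn_sq two_le' trH_congr)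
open Crest.Agent.R257.GMa_101

noncomputable section

variable {n N : ℕ} {M : Type} [TopologicalSpace M] {A : Atl n M}

/-- strictly plurisubharmonic function on `M` -/
def Psh (A : Atl n M) (u : M → ℝ) : Prop :=
  ∀ i, ∀ z ∈ (A.e i).target, ∀ v : Cn n, v ≠ 0 → 0 < lev (inC A i u) z v

/-- `Ric (∂∂̄u) ≥ - κ ∂∂̄u` -/
def KEle (A : Atl n M) (u : M → ℝ) (κ : ℝ) : Prop :=
  ∀ i, ∃ f : Cn n → ℝ, ContDiffOn ℝ ∞ f (A.e i).target ∧
    (∀ z ∈ (A.e i).target, (cH (inC A i u) z).det = (Real.exp (f z) : ℂ)) ∧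
    ∀ z ∈ (A.e i).target, ∀ v : Cn n, lev f z v ≤ κ * lev (inC A i u) z v

/-- Laplacian of `p` at `x` for the Kaehler form `∂∂̄u` -/
def Lp (A : Atl n M) (u p : M → ℝ) (x : M) : ℝ :=
  trH (inC A (ci A x) u) (inC A (ci A x) p) (A.e (ci A x) x)

theorem trH_chart {u p : M → ℝ} (hu : A.Sm u) (hp : A.Sm p) {i j : A.ι} {x : M}
    (hi : x ∈ (A.e i).source) (hj : x ∈ (A.e j).source) :
    trH (inC A i u) (inC A i p) (A.e i x) = trH (inC A j u) (inC A j p) (A.e j x) := by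
  set T : Cn n → Cn n := fun w => A.e j ((A.e i).symm w) with hT
  have hTx : T (A.e i x) = A.e j x := by simp only [hT, (A.e i).left_inv hi]
  have hov : A.ov i j ∈ 𝓝 (A.e i x) := by
    have h1 : IsOpen (A.ov i j) := (A.e i).symm.isOpen_inter_preimage (A.e j).open_source
    refine h1.mem_nhds ⟨(A.e i).map_source hi, ?_⟩
    show (A.e i).symm (A.e i x) ∈ _
    rwa [(A.e i).left_inv hi]
  have hTd : ∀ᶠ w in 𝓝 (A.e i x), DifferentiableAt ℂ T w := by
    have h1 : IsOpen (A.ov i j) := (A.e i).symm.isOpen_inter_preimage (A.e j).open_source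
    filter_upwards [hov] with w hw
    exact (A.holo i j).differentiableAt (h1.mem_nhds hw)
  have hjt : A.e j x ∈ (A.e j).target := (A.e j).map_source hj
  have hinv : ∃ L : Cn n → Cn n, DifferentiableAt ℂ L (T (A.e i x)) ∧
      ∀ᶠ w in 𝓝 (A.e i x), L (T w) = w := by
    refine ⟨fun w => A.e i ((A.e j).symm w), ?_, ?_⟩
    · rw [hTx]
      have h1 : IsOpen (A.ov j i) := (A.e j).symm.isOpen_inter_preimage (A.e i).open_source
      refine (A.holo j i).differentiableAt (h1.mem_nhds ⟨hjt, ?_⟩)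
      show (A.e j).symm (A.e j x) ∈ _
      rwa [(A.e j).left_inv hj]
    · filter_upwards [hov] with w hw
      show A.e i ((A.e j).symm (A.e j ((A.e i).symm w))) = w
      rw [(A.e j).left_inv hw.2, (A.e i).right_inv hw.1]
  have key := trH_comp (u := inC A j u) (p := inC A j p) hTd hinv
    (by rw [hTx]; exact inC_contDiffAt hu j hjt) (by rw [hTx]; exact inC_contDiffAt hp j hjt)
  rw [hTx] at key
  rw [← key]
  have hcg : ∀ g : M → ℝ, (fun w => inC A j g (T w)) =ᶠ[𝓝 (A.e i x)] inC A i g := by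
    intro g
    filter_upwards [hov] with w hw
    show g ((A.e j).symm (A.e j ((A.e i).symm w))) = g ((A.e i).symm w)
    rw [(A.e j).left_inv hw.2]
  have hit : A.e i x ∈ (A.e i).target := (A.e i).map_source hi
  have c1 : cH (fun w => inC A j u (T w)) (A.e i x) = cH (inC A i u) (A.e i x) := by
    rw [cH_eq_hess ((inC_contDiffAt hu i hit).congr_of_eventuallyEq (hcg u)),
      cH_eq_hess (inC_contDiffAt hu i hit), HessB_333.hess_congr (hcg u)]
  have c2 : cH (fun w => inC A j p (T w)) (A.e i x) = cH (inC A i p) (A.e i x) := by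
    rw [cH_eq_hess ((inC_contDiffAt hp i hit).congr_of_eventuallyEq (hcg p)),
      cH_eq_hess (inC_contDiffAt hp i hit), HessB_333.hess_congr (hcg p)]
  unfold trH
  rw [c1, c2]

theorem Lp_eq {u p : M → ℝ} (hu : A.Sm u) (hp : A.Sm p) {i : A.ι} {x : M}
    (hi : x ∈ (A.e i).source) : Lp A u p x = trH (inC A i u) (inC A i p) (A.e i x) :=
  trH_chart hu hp (mem_ci x) hi

theorem Lp_eq' {u p : M → ℝ} (hu : A.Sm u) (hp : A.Sm p) {i : A.ι} {z : Cn n}
    (hz : z ∈ (A.e i).target) : inC A i (Lp A u p) z = trH (inC A i u) (inC A i p) z := by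
  show Lp A u p ((A.e i).symm z) = _
  rw [Lp_eq hu hp ((A.e i).map_target hz), (A.e i).right_inv hz]

theorem sm_Lp {u p : M → ℝ} (hu : A.Sm u) (hp : A.Sm p) {κ : ℝ} (hKE : KEle A u κ) :
    A.Sm (Lp A u p) := by
  intro i
  obtain ⟨f, hf, hdet, -⟩ := hKE i
  have h1 : ContDiffOn ℝ ∞ (trH (inC A i u) (inC A i p)) (A.e i).target :=
    contDiffOn_trH (A.e i).open_target (hu i) (hp i) hdet
  exact h1.congr fun z hz => Lp_eq' hu hp hz

/-- `∑ |F_k|²` -/
def nF (F : M → Fin N → ℂ) (x : M) : ℝ := ∑ k, ‖F x k‖ ^ 2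

/-- holomorphic functions on `M` -/
def Hol (A : Atl n M) (F : M → Fin N → ℂ) : Prop :=
  ∀ i k, DifferentiableOn ℂ (fun z => F ((A.e i).symm z) k) (A.e i).target

theorem inC_nF (F : M → Fin N → ℂ) (i : A.ι) :
    inC A i (nF F) = FS_333.sq (fun z => F ((A.e i).symm z)) := rfl

theorem sm_nF {F : M → Fin N → ℂ} (hF : Hol A F) : A.Sm (nF F) := fun i =>
  contDiffOn_sq (A.e i).open_target (F := fun z => F ((A.e i).symm z)) (hF i)

theorem lev_nF_nonneg {F : M → Fin N → ℂ} (hF : Hol A F) (i : A.ι) {z : Cn n}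
    (hz : z ∈ (A.e i).target) (v : Cn n) : 0 ≤ lev (inC A i (nF F)) z v := by
  have ha : ∀ k, AnalyticAt ℂ (fun z => F ((A.e i).symm z) k) z := fun k =>
    anal_of_ev (by
      filter_upwards [(A.e i).open_target.mem_nhds hz] with w hw
      exact (hF i k).differentiableAt ((A.e i).open_target.mem_nhds hw))
  have h1 := lev_sumSq (F := fun k z => F ((A.e i).symm z) k) ha v
  have e : inC A i (nF F) = sumSq (fun k z => F ((A.e i).symm z) k) := rfl
  rw [e, h1]
  positivity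

theorem Lp_nF_nonneg {u : M → ℝ} (hu : A.Sm u) (hpos : Psh A u) {F : M → Fin N → ℂ}
    (hF : Hol A F) (x : M) : 0 ≤ Lp A u (nF F) x := by
  have hz : A.e (ci A x) x ∈ (A.e (ci A x)).target := (A.e _).map_source (mem_ci x)
  exact trH_nn (inC_contDiffAt hu _ hz) (hpos _ _ hz) (inC_contDiffAt (sm_nF hF) _ hz)
    (lev_nF_nonneg hF _ hz)

/-- bounds of a cut-off function: `∂∂̄ζ ≥ -k ω`, `|∂ζ|² ≤ k` at `x` -/
def CutB (A : Atl n M) (u ζ : M → ℝ) (k : ℝ) (x : M) : Prop :=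
  ∀ i, x ∈ (A.e i).source → ∀ v : Cn n,
    -(k * lev (inC A i u) (A.e i x) v) ≤ lev (inC A i ζ) (A.e i x) v ∧
    ‖gr (inC A i ζ) (A.e i x) v‖ ^ 2 ≤ k * lev (inC A i u) (A.e i x) v

theorem inC_localMax {φ : M → ℝ} {x : M} (hm : IsLocalMax φ x) {i : A.ι}
    (hx : x ∈ (A.e i).source) : IsLocalMax (inC A i φ) (A.e i x) := by
  have h1 : Tendsto (A.e i).symm (𝓝 (A.e i x)) (𝓝 x) := by
    have := (A.e i).continuousAt_symm ((A.e i).map_source hx)
    rw [ContinuousAt, (A.e i).left_inv hx] at this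
    exact this
  have h2 := h1.eventually hm
  simp only [IsLocalMax, IsMaxFilter, inC, (A.e i).left_inv hx]
  exact h2

/-- the estimate at an interior maximum, on `M` -/
theorem cut_max_M {u ζ W G : M → ℝ} {κ k c₁ c₃ : ℝ} (hu : A.Sm u) (hpos : Psh A u)
    (hKE : KEle A u κ) (hκ : 0 ≤ κ) {F : M → Fin N → ℂ} (hF : Hol A F)
    (hζ : A.Sm ζ) (hW : A.Sm W) (hG : A.Sm G) {x : M} (hζ0 : 0 < ζ x) (hζ1 : ζ x ≤ 1)
    (hk : 0 ≤ k) (hζb : CutB A u ζ k x) (hW1 : 1 ≤ W x) (hc₁ : 0 ≤ c₁) (hc₃ : 0 ≤ c₃)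
    (hWl : Lp A u (fun y => Real.log (W y)) x ≤ c₃ * W x) (hG0 : 0 < G x) (hFG : nF F x ≤ G x)
    (hGl : Lp A u G x ≤ c₁ * W x * G x)
    (hmax : IsLocalMax (fun y => Lp A u (nF F) y * (ζ y ^ 4 / (W y * (2 * G y - nF F y)))) x) :
    Lp A u (nF F) x * (ζ x ^ 4 / (W x * (2 * G x - nF F x))) ≤ κ + 8 * k * n + c₃ + 2 * c₁ := by
  set i := ci A x with hi
  have hx : x ∈ (A.e i).source := mem_ci x
  have hz : A.e i x ∈ (A.e i).target := (A.e i).map_source hx
  obtain ⟨f, hf, hdet, hle⟩ := hKE i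
  have hinv : ∀ φ : M → ℝ, inC A i φ (A.e i x) = φ x := fun φ => by
    simp only [inC, (A.e i).left_inv hx]
  have hm := inC_localMax hmax hx
  have hm' : IsLocalMax (fun z => trH (inC A i u) (FS_333.sq fun z => F ((A.e i).symm z)) z *
      (inC A i ζ z ^ 4 / (inC A i W z * (2 * inC A i G z - FS_333.sq (fun z => F ((A.e i).symm z)) z))))
      (A.e i x) := by
    refine hm.congr ?_
    filter_upwards [(A.e i).open_target.mem_nhds hz] with z hz'
    have := Lp_eq' hu (sm_nF hF) hz'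
    show inC A i (Lp A u (nF F)) z * _ = _
    rw [this]
    rfl
  have key := cut_max (A.e i).open_target (hu i) hf hdet (hpos i) hle
    (F := fun z => F ((A.e i).symm z)) (hF i) hz hκ (inC_contDiffAt hζ i hz)
    (by rw [hinv]; exact hζ0) (by rw [hinv]; exact hζ1) hk (fun v => (hζb i hx v).1)
    (fun v => (hζb i hx v).2) (inC_contDiffAt hW i hz) (by rw [hinv]; exact hW1) hc₁ hc₃
    (by rw [hinv]; exact hWl) (inC_contDiffAt hG i hz) (by rw [hinv]; exact hG0)
    (by rw [hinv, ← inC_nF, hinv]; exact hFG) (by rw [hinv, hinv]; exact hGl) hm'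
  rw [← inC_nF, hinv, hinv, hinv, hinv] at key
  exact key

/-- **global estimate**: `|dF|² ≤ C W G` from a maximum principle with cut-off functions -/
theorem grad_mov {u W G : M → ℝ} {κ k c₁ c₃ B : ℝ} (hu : A.Sm u) (hpos : Psh A u)
    (hKE : KEle A u κ) (hκ : 0 ≤ κ) {F : M → Fin N → ℂ} (hF : Hol A F)
    (hW : A.Sm W) (hG : A.Sm G) (hk : 0 ≤ k) (hc₁ : 0 ≤ c₁) (hc₃ : 0 ≤ c₃) (S : Set M)
    (hW1 : ∀ x ∈ S, 1 ≤ W x) (hWl : ∀ x ∈ S, Lp A u (fun y => Real.log (W y)) x ≤ c₃ * W x)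
    (hG0 : ∀ x ∈ S, 0 < G x) (hFG : ∀ x ∈ S, nF F x ≤ G x)
    (hGl : ∀ x ∈ S, Lp A u G x ≤ c₁ * W x * G x)
    (hbd : ∀ x ∈ S, x ∉ interior S → Lp A u (nF F) x ≤ B * W x * G x)
    (hcut : ∀ x ∈ S, ∀ ε > 0, ∃ ζ : M → ℝ, A.Sm ζ ∧ (∀ y ∈ S, 0 ≤ ζ y ∧ ζ y ≤ 1) ∧
      1 - ε ≤ ζ x ∧ (∃ K ⊆ S, IsCompact K ∧ ∀ y ∈ S, y ∉ K → ζ y = 0) ∧ ∀ y ∈ S, CutB A u ζ k y) :
    ∀ x ∈ S, Lp A u (nF F) x ≤ 2 * max B (κ + 8 * k * n + c₃ + 2 * c₁) * W x * G x := by
  set K₀ : ℝ := max B (κ + 8 * k * n + c₃ + 2 * c₁) with hK₀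
  have hK0 : 0 ≤ K₀ := le_trans (by positivity) (le_max_right _ _)
  have hD : ∀ x ∈ S, G x ≤ 2 * G x - nF F x := fun x hx => by linarith [hFG x hx]
  have hT0 : ∀ x, 0 ≤ Lp A u (nF F) x := Lp_nF_nonneg hu hpos hF
  -- the estimate with cut-off function
  have main : ∀ x ∈ S, ∀ ζ : M → ℝ, A.Sm ζ → (∀ y ∈ S, 0 ≤ ζ y ∧ ζ y ≤ 1) →
      (∃ K ⊆ S, IsCompact K ∧ ∀ y ∈ S, y ∉ K → ζ y = 0) → (∀ y ∈ S, CutB A u ζ k y) →
      Lp A u (nF F) x * (ζ x ^ 4 / (W x * (2 * G x - nF F x))) ≤ K₀ := by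
    intro x hx ζ hζ h01 hKc hcb
    obtain ⟨K, hKS, hK, hK0'⟩ := hKc
    set Φ : M → ℝ := fun y => Lp A u (nF F) y * (ζ y ^ 4 / (W y * (2 * G y - nF F y))) with hΦ
    by_cases hxK : x ∈ K
    · -- maximum on `K`
      have hcont : ContinuousOn Φ K := by
        have c1 : Continuous (Lp A u (nF F)) := continuous_of_sm (sm_Lp hu (sm_nF hF) hKE)
        have c2 := continuous_of_sm hζ
        have c3 := continuous_of_sm hW
        have c4 := continuous_of_sm hG
        have c5 := continuous_of_sm (sm_nF hF)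
        refine c1.continuousOn.mul ((c2.pow 4).continuousOn.div
          (c3.mul ((continuous_const.mul c4).sub c5)).continuousOn fun y hy => ?_)
        have hyS := hKS hy
        have := hD y hyS
        have := hG0 y hyS
        have := hW1 y hyS
        exact (mul_pos (by linarith) (by linarith)).ne'
      obtain ⟨x₀, hx₀, hmx⟩ := hK.exists_isMaxOn ⟨x, hxK⟩ hcont
      have hx₀S := hKS hx₀
      have hpos' : ∀ y ∈ S, 0 ≤ Φ y := by
        intro y hy
        have := hD y hy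
        have := hG0 y hy
        have := hW1 y hy
        have h3 : 0 < W y * (2 * G y - nF F y) := mul_pos (by linarith) (by linarith)
        exact mul_nonneg (hT0 y) (div_nonneg (pow_nonneg (h01 y hy).1 4) h3.le)
      have hmS : ∀ y ∈ S, Φ y ≤ Φ x₀ := by
        intro y hy
        by_cases hyK : y ∈ K
        · exact hmx hyK
        · have : Φ y = 0 := by simp only [hΦ, hK0' y hy hyK]; simp
          rw [this]
          exact hpos' x₀ hx₀S
      refine (hmS x hx).trans ?_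
      have hDx := hD x₀ hx₀S
      have hGx := hG0 x₀ hx₀S
      have hWx := hW1 x₀ hx₀S
      have hWD : 0 < W x₀ * (2 * G x₀ - nF F x₀) := mul_pos (by linarith) (by linarith)
      by_cases hin : x₀ ∈ interior S
      · rcases (h01 x₀ hx₀S).1.eq_or_lt with h0 | h0
        · have : Φ x₀ = 0 := by simp only [hΦ, ← h0]; simp
          rw [this]; exact hK0
        · have hlm : IsLocalMax Φ x₀ := by
            filter_upwards [mem_interior_iff_mem_nhds.1 hin] with y hy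
            exact hmS y hy
          exact (cut_max_M hu hpos hKE hκ hF hζ hW hG h0 (h01 x₀ hx₀S).2 hk (hcb x₀ hx₀S) hWx
            hc₁ hc₃ (hWl x₀ hx₀S) hGx (hFG x₀ hx₀S) (hGl x₀ hx₀S) hlm).trans (le_max_right _ _)
      · have h1 := hbd x₀ hx₀S hin
        have h2 : Lp A u (nF F) x₀ ≤ K₀ * W x₀ * G x₀ := by
          refine h1.trans ?_
          have : 0 ≤ W x₀ * G x₀ := by positivity
          nlinarith [le_max_left B (κ + 8 * k * n + c₃ + 2 * c₁)]
        have h4 : ζ x₀ ^ 4 ≤ 1 := pow_le_one₀ (h01 x₀ hx₀S).1 (h01 x₀ hx₀S).2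
        calc Φ x₀ ≤ Lp A u (nF F) x₀ * (1 / (W x₀ * (2 * G x₀ - nF F x₀))) := by
              simp only [hΦ]
              have := hT0 x₀
              gcongr
          _ ≤ K₀ := by
              rw [mul_one_div, div_le_iff₀ hWD]
              refine h2.trans ?_
              rw [← mul_assoc]
              have : 0 ≤ K₀ * W x₀ := by positivity
              gcongr
    · have h1 : Φ x = 0 := by simp only [hΦ, hK0' x hx hxK]; simp
      show Φ x ≤ K₀
      rw [h1]
      exact hK0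
  intro x hx
  have hDx := hD x hx
  have hGx := hG0 x hx
  have hWx := hW1 x hx
  have hW0 : 0 < W x := by linarith
  have hWD : 0 < W x * (2 * G x - nF F x) := mul_pos (by linarith) (by linarith)
  have hlim : ∀ ε ∈ Ioo (0 : ℝ) 1, Lp A u (nF F) x * ((1 - ε) ^ 4 / (W x * (2 * G x - nF F x)))
      ≤ K₀ := by
    intro ε hε
    obtain ⟨ζ, hζ, h01, h1, h2, h3⟩ := hcut x hx ε hε.1
    refine le_trans ?_ (main x hx ζ hζ h01 h2 h3)
    have h5 : 0 ≤ 1 - ε := by linarith [hε.2]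
    have := hT0 x
    gcongr
  have hlim2 : Lp A u (nF F) x * ((1 - 0) ^ 4 / (W x * (2 * G x - nF F x))) ≤ K₀ := by
    have hc : ContinuousAt (fun ε : ℝ => Lp A u (nF F) x *
        ((1 - ε) ^ 4 / (W x * (2 * G x - nF F x)))) 0 := by fun_prop
    have ht := hc.tendsto.mono_left (nhdsWithin_le_nhds (s := Ioi 0))
    refine le_of_tendsto ht ?_
    filter_upwards [Ioo_mem_nhdsGT (zero_lt_one (α := ℝ))] with ε hε
    exact hlim ε hε
  rw [sub_zero, one_pow, mul_one_div, div_le_iff₀ hWD] at hlim2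
  refine hlim2.trans ?_
  have h6 : 2 * G x - nF F x ≤ 2 * G x := by
    have : 0 ≤ nF F x := Finset.sum_nonneg fun k _ => by positivity
    linarith
  calc K₀ * (W x * (2 * G x - nF F x)) ≤ K₀ * (W x * (2 * G x)) := by gcongr
    _ = _ := by ring

end

end Crest.Agent.R257.GMb_101
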