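import Crest.Agent.R257.GMb_101

/-!
# Row 257 (S0395), leaf GRAD-MOV (helper101), part c: the moving gradient estimate

`grad_mov_ke` : `u` strictly psh on `M`, `Ric(∂∂̄u) ≥ -κ ∂∂̄u`, `u + 1 ≤ A₀`,
`|∂u|² ≤ Cg (A₀ - u)²`, `{x ∈ S | -R ≤ u x}` compact, `S \ interior S` compact, `F` holomorphic with
`|F|² ≤ C e^{a u} (A₀ - u)^m` on `S`; then `|dF|² ≤ C' e^{a u} (A₀ - u)^(m + 2)` on `S`.
-/

set_option autoImplicit false
set_option linter.unusedSectionVars false

open Set Filter Topology Complex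
open scoped ContDiff ComplexConjugate Matrix

namespace Crest.Agent.R257.GMc_101

open Crest.Agent.R275.Geo Crest.Agent.R275.Core144 Crest.Agent.R275.GC293
open Crest.Agent.R273 Crest.Agent.R273.Levi_145
open Crest.Agent.R273.YauDefs_635 Crest.Agent.R273.YauMax_635
open Crest.Agent.R273.GreenM_5 (ci mem_ci)
open Crest.Agent.R257.CLC_39 (trH contDiffOn_trH)
open Crest.Agent.R257.CLD_39 (contDiffOn_sq two_le' trH_congr)
open Crest.Agent.R257.GMa_101 Crest.Agent.R257.GMb_101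
open Crest.Agent.R257.GradB_537 (rho sm_rho cut_off)

noncomputable section

/-! ### a cut-off function on the line -/

theorem exists_chi : ∃ (χ χ' χ'' : ℝ → ℝ) (K : ℝ), ContDiff ℝ ∞ χ ∧ (∀ t, HasDerivAt χ (χ' t) t) ∧
    (∀ t, HasDerivAt χ' (χ'' t) t) ∧ (∀ t, |χ' t| ≤ K) ∧ (∀ t, |χ'' t| ≤ K) ∧
    (∀ t, 0 ≤ χ t ∧ χ t ≤ 1) ∧ (∀ t, t ≤ 1 → χ t = 1) ∧ (∀ t, 2 ≤ t → χ t = 0) := by
  set χ : ℝ → ℝ := fun t => Real.smoothTransition (2 - t) with hχ
  have hs : ContDiff ℝ ∞ χ :=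
    Real.smoothTransition.contDiff.comp (contDiff_const.sub contDiff_id)
  have h1 : ∀ t, t ≤ 1 → χ t = 1 := fun t ht =>
    Real.smoothTransition.one_of_one_le (by linarith)
  have h2 : ∀ t, 2 ≤ t → χ t = 0 := fun t ht =>
    Real.smoothTransition.zero_of_nonpos (by linarith)
  have hd : ContDiff ℝ ∞ (deriv χ) := by
    have := (contDiff_infty_iff_deriv (𝕜 := ℝ) (f := χ)).1 hs
    exact this.2
  have hdd : ContDiff ℝ ∞ (deriv (deriv χ)) := by
    have := (contDiff_infty_iff_deriv (𝕜 := ℝ) (f := deriv χ)).1 hd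
    exact this.2
  have z1 : ∀ t, t < 1 → deriv χ =ᶠ[𝓝 t] fun _ => 0 := by
    intro t ht
    filter_upwards [gt_mem_nhds ht] with s hs
    have : χ =ᶠ[𝓝 s] fun _ => 1 := by
      filter_upwards [gt_mem_nhds hs] with r hr
      exact h1 r hr.le
    rw [this.deriv_eq, deriv_const]
  have z2 : ∀ t, 2 < t → deriv χ =ᶠ[𝓝 t] fun _ => 0 := by
    intro t ht
    filter_upwards [lt_mem_nhds ht] with s hs
    have : χ =ᶠ[𝓝 s] fun _ => 0 := by
      filter_upwards [lt_mem_nhds hs] with r hr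
      exact h2 r hr.le
    rw [this.deriv_eq, deriv_const]
  obtain ⟨K₁, hK₁⟩ := isCompact_Icc (a := (1 : ℝ)) (b := 2) |>.exists_bound_of_continuousOn
    hd.continuous.continuousOn
  obtain ⟨K₂, hK₂⟩ := isCompact_Icc (a := (1 : ℝ)) (b := 2) |>.exists_bound_of_continuousOn
    hdd.continuous.continuousOn
  refine ⟨χ, deriv χ, deriv (deriv χ), max 0 (max K₁ K₂), hs,
    fun t => (hs.differentiable (by simp)).differentiableAt.hasDerivAt,
    fun t => (hd.differentiable (by simp)).differentiableAt.hasDerivAt, fun t => ?_, fun t => ?_,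
    fun t => ⟨Real.smoothTransition.nonneg _, Real.smoothTransition.le_one _⟩, h1, h2⟩
  · by_cases ht : t ∈ Icc (1 : ℝ) 2
    · exact ((hK₁ t ht).trans (le_max_left _ _)).trans (le_max_right _ _)
    · have : deriv χ t = 0 := by
        rw [mem_Icc, not_and_or, not_le, not_le] at ht
        rcases ht with h | h
        · exact (z1 t h).self_of_nhds
        · exact (z2 t h).self_of_nhds
      rw [this, abs_zero]
      exact le_max_left _ _
  · by_cases ht : t ∈ Icc (1 : ℝ) 2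
    · exact ((hK₂ t ht).trans (le_max_right _ _)).trans (le_max_right _ _)
    · have : deriv (deriv χ) t = 0 := by
        rw [mem_Icc, not_and_or, not_le, not_le] at ht
        rcases ht with h | h
        · rw [(z1 t h).deriv_eq, deriv_const]
        · rw [(z2 t h).deriv_eq, deriv_const]
      rw [this, abs_zero]
      exact le_max_left _ _

variable {n N : ℕ} {M : Type} [TopologicalSpace M] {A : Atl n M}

/-- `|∂u|² ≤ Cg (A₀ - u)² ∂∂̄u` at the points of `S` -/
def GradB (A : Atl n M) (u : M → ℝ) (A₀ Cg : ℝ) (S : Set M) : Prop :=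
  ∀ x ∈ S, ∀ i, x ∈ (A.e i).source → ∀ v : Cn n,
    ‖gr (inC A i u) (A.e i x) v‖ ^ 2 ≤ Cg * ((A₀ - u x) ^ 2 * lev (inC A i u) (A.e i x) v)

theorem lev_nn {u : M → ℝ} (hpos : Psh A u) {i : A.ι} {z : Cn n} (hz : z ∈ (A.e i).target)
    (v : Cn n) : 0 ≤ lev (inC A i u) z v := by
  rcases eq_or_ne v 0 with h0 | h0
  · rw [h0, lev_zero]
  · exact (hpos i z hz v h0).le

/-- the weight `e^{a u} (A₀ - u)^m` -/
def Gw (u : M → ℝ) (A₀ a : ℝ) (m : ℕ) (x : M) : ℝ := Real.exp (a * u x) * (A₀ - u x) ^ m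

theorem sm_Gw {u : M → ℝ} (hu : A.Sm u) (A₀ a : ℝ) (m : ℕ) : A.Sm (Gw u A₀ a m) := fun i =>
  ((contDiffOn_const.mul (hu i)).exp).mul ((contDiffOn_const.sub (hu i)).pow m)

section local_calc

variable {u : Cn n → ℝ} {z : Cn n} {A₀ : ℝ}

theorem gr_add' {f g : Cn n → ℝ} (hf : DifferentiableAt ℝ f z) (hg : DifferentiableAt ℝ g z)
    (v : Cn n) : gr (fun y => f y + g y) z v = gr f z v + gr g z v := by
  have h : fderiv ℝ (fun y => f y + g y) z = fderiv ℝ f z + fderiv ℝ g z :=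
    fderiv_fun_add hf hg
  have hfg : DifferentiableAt ℝ (fun y => f y + g y) z := hf.add hg
  rw [gr_eq hfg, gr_eq hf, gr_eq hg, h]
  simp only [_root_.add_apply]
  push_cast
  ring

theorem gr_const_mul' {f : Cn n → ℝ} (hf : DifferentiableAt ℝ f z) (c : ℝ) (v : Cn n) :
    gr (fun y => c * f y) z v = c * gr f z v := by
  have h : fderiv ℝ (fun y => c * f y) z = c • fderiv ℝ f z := fderiv_const_mul hf c
  rw [gr_eq (hf.const_mul c), gr_eq hf, h]
  simp only [_root_.smul_apply, smul_eq_mul]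
  push_cast
  ring

theorem lev_Gw (hu : ContDiffAt ℝ ∞ u z) (hA : u z + 1 ≤ A₀) (a : ℝ) (m : ℕ) {Cg : ℝ} (v : Cn n)
    (h0 : 0 ≤ lev u z v) (hCg : 0 ≤ Cg)
    (hC : ‖gr u z v‖ ^ 2 ≤ Cg * ((A₀ - u z) ^ 2 * lev u z v)) :
    lev (fun y => Real.exp (a * u y) * (A₀ - u y) ^ m) z v ≤
      (|a| + (|a| + m) ^ 2 * Cg) * (A₀ - u z) ^ 2 * (Real.exp (a * u z) * (A₀ - u z) ^ m) *
        lev u z v := by
  have hw1 : 1 ≤ A₀ - u z := by linarith
  have hw0 : 0 < A₀ - u z := by linarith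
  have hAz : u z < A₀ := by linarith
  have hr : ContDiffAt ℝ ∞ (rho A₀ u) z := sm_rho hu hAz
  set b : Cn n → ℝ := fun y => a * u y + m * rho A₀ u y with hb
  have hau : ContDiffAt ℝ ∞ (fun y => a * u y) z := contDiffAt_const.mul hu
  have hmr : ContDiffAt ℝ ∞ (fun y => (m : ℝ) * rho A₀ u y) z := contDiffAt_const.mul hr
  have hbs : ContDiffAt ℝ ∞ b z := hau.add hmr
  have e1 : (fun y => Real.exp (a * u y) * (A₀ - u y) ^ m) =ᶠ[𝓝 z] fun y => Real.exp (b y) := by
    filter_upwards [hu.continuousAt.eventually (gt_mem_nhds hAz)] with y hy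
    have h1 : 0 < A₀ - u y := by linarith
    simp only [hb, rho]
    have h2 : Real.exp (m * Real.log (A₀ - u y)) = (A₀ - u y) ^ m := by
      rw [Real.exp_nat_mul, Real.exp_log h1]
    rw [Real.exp_add, h2]
  have e2 : Real.exp (b z) = Real.exp (a * u z) * (A₀ - u z) ^ m := e1.self_of_nhds.symm
  rw [lev_congr e1, lev_exp (two_le' hbs), e2]
  have l1 : lev b z v ≤ |a| * lev u z v := by
    rw [hb, lev_add (u := fun y => a * u y) (two_le' hau) (two_le' hmr),
      lev_const_mul a (two_le' hu), lev_const_mul (m : ℝ) (two_le' hr),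
      GradB_537.lev_rho (two_le' hu) hAz]
    have c1 : a * lev u z v ≤ |a| * lev u z v := by
      gcongr
      exact le_abs_self a
    have c2 : 0 ≤ (m : ℝ) * (lev u z v / (A₀ - u z)) := by positivity
    have c3 : 0 ≤ (m : ℝ) * (‖gr u z v‖ ^ 2 / (A₀ - u z) ^ 2) := by positivity
    nlinarith
  have g1 : ‖gr b z v‖ ≤ (|a| + m) * ‖gr u z v‖ := by
    rw [hb, gr_add' (f := fun y => a * u y) (c2_diff (two_le' hau)) (c2_diff (two_le' hmr)),
      gr_const_mul' (c2_diff (two_le' hu)), gr_const_mul' (c2_diff (two_le' hr)),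
      GradB_537.gr_rho (c2_diff (two_le' hu)) hAz]
    refine (norm_add_le _ _).trans ?_
    rw [norm_mul, norm_mul, norm_mul, norm_neg, Complex.norm_real, Complex.norm_real,
      Complex.norm_real, Real.norm_eq_abs, Real.norm_eq_abs, Real.norm_eq_abs, Nat.abs_cast,
      abs_of_pos (inv_pos.2 hw0)]
    have c1 : (A₀ - u z)⁻¹ ≤ 1 := inv_le_one_of_one_le₀ hw1
    have c2 : (m : ℝ) * ((A₀ - u z)⁻¹ * ‖gr u z v‖) ≤ m * (1 * ‖gr u z v‖) := by gcongr
    linarith
  have g2 : ‖gr b z v‖ ^ 2 ≤ (|a| + m) ^ 2 * Cg * (A₀ - u z) ^ 2 * lev u z v := by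
    calc ‖gr b z v‖ ^ 2 ≤ ((|a| + m) * ‖gr u z v‖) ^ 2 := by gcongr
      _ = (|a| + m) ^ 2 * ‖gr u z v‖ ^ 2 := by ring
      _ ≤ (|a| + m) ^ 2 * (Cg * ((A₀ - u z) ^ 2 * lev u z v)) := by gcongr
      _ = _ := by ring
  have hE : 0 ≤ Real.exp (a * u z) * (A₀ - u z) ^ m := by positivity
  have hw2 : 1 ≤ (A₀ - u z) ^ 2 := one_le_pow₀ hw1
  calc Real.exp (a * u z) * (A₀ - u z) ^ m * (lev b z v + ‖gr b z v‖ ^ 2)
      ≤ Real.exp (a * u z) * (A₀ - u z) ^ m * (|a| * lev u z v * (A₀ - u z) ^ 2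
        + (|a| + m) ^ 2 * Cg * (A₀ - u z) ^ 2 * lev u z v) := by
        have c1 : |a| * lev u z v ≤ |a| * lev u z v * (A₀ - u z) ^ 2 :=
          le_mul_of_one_le_right (by positivity) hw2
        have c2 := add_le_add (l1.trans c1) g2
        exact mul_le_mul_of_nonneg_left c2 hE
    _ = _ := by ring

theorem lev_logW (hu : ContDiffAt ℝ ∞ u z) (hA : u z + 1 ≤ A₀) (v : Cn n) (h0 : 0 ≤ lev u z v) :
    lev (fun y => Real.log ((A₀ - u y) ^ 2)) z v ≤ 0 := by
  have hw0 : 0 < A₀ - u z := by linarith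
  have hAz : u z < A₀ := by linarith
  have hr : ContDiffAt ℝ ∞ (rho A₀ u) z := sm_rho hu hAz
  have e1 : (fun y => Real.log ((A₀ - u y) ^ 2)) = fun y => 2 * rho A₀ u y := by
    funext y
    rw [Real.log_pow]
    push_cast
    rfl
  rw [e1, lev_const_mul 2 (two_le' hr), GradB_537.lev_rho (two_le' hu) hAz]
  have c2 : 0 ≤ lev u z v / (A₀ - u z) := by positivity
  have c3 : 0 ≤ ‖gr u z v‖ ^ 2 / (A₀ - u z) ^ 2 := by positivity
  linarith

end local_calc

/-- **GRAD-MOV.**  The moving gradient estimate. -/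
theorem grad_mov_ke {u : M → ℝ} {κ A₀ Cg C a : ℝ} {m : ℕ} (hu : A.Sm u) (hpos : Psh A u)
    (hKE : KEle A u κ) (hκ : 0 ≤ κ) (hA : ∀ x, u x + 1 ≤ A₀) (hCg : 0 ≤ Cg) {S : Set M}
    (hgr : GradB A u A₀ Cg S) (hprop : ∀ R : ℝ, IsCompact {x ∈ S | -R ≤ u x})
    (hfr : IsCompact (S \ interior S)) {F : M → Fin N → ℂ} (hF : Hol A F) (hC : 0 < C)
    (hFG : ∀ x ∈ S, nF F x ≤ C * Gw u A₀ a m x) :
    ∃ C' : ℝ, 0 < C' ∧ ∀ x ∈ S, Lp A u (nF F) x ≤ C' * Gw u A₀ a (m + 2) x := by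
  obtain ⟨χ, χ', χ'', K, hχ, hχ', hχ'', hK1, hK2, h01, hone, hzero⟩ := exists_chi
  have hK0 : 0 ≤ K := (abs_nonneg _).trans (hK1 0)
  set W : M → ℝ := fun x => (A₀ - u x) ^ 2 with hWdef
  set G : M → ℝ := fun x => C * Gw u A₀ a m x with hGdef
  have hW : A.Sm W := fun i => (contDiffOn_const.sub (hu i)).pow 2
  have hG : A.Sm G := fun i => contDiffOn_const.mul (sm_Gw hu A₀ a m i)
  have hw1 : ∀ x, 1 ≤ A₀ - u x := fun x => by linarith [hA x]
  have hW1 : ∀ x, 1 ≤ W x := fun x => one_le_pow₀ (hw1 x)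
  have hG0 : ∀ x, 0 < G x := fun x => by
    have : 0 < A₀ - u x := by linarith [hw1 x]
    simp only [hGdef, Gw]
    positivity
  set k : ℝ := max (K * (2 * Cg + 1)) (K ^ 2 * Cg) with hk
  have hk0 : 0 ≤ k := le_trans (by positivity) (le_max_right _ _)
  set c₁ : ℝ := (|a| + (|a| + m) ^ 2 * Cg) * n with hc₁
  have hc₁0 : 0 ≤ c₁ := by positivity
  have hchart : ∀ x : M, ∃ i, x ∈ (A.e i).source := A.cover
  -- the boundary constant
  have hbdd : ∃ B : ℝ, ∀ x ∈ S, x ∉ interior S → Lp A u (nF F) x ≤ B * W x * G x := by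
    have hcont : Continuous (fun x => Lp A u (nF F) x / (W x * G x)) := by
      refine (continuous_of_sm (sm_Lp hu (sm_nF hF) hKE)).div
        ((continuous_of_sm hW).mul (continuous_of_sm hG)) fun x => ?_
      exact (mul_pos (by linarith [hW1 x]) (hG0 x)).ne'
    obtain ⟨B, hB⟩ := hfr.exists_bound_of_continuousOn hcont.continuousOn
    refine ⟨B, fun x hx hxi => ?_⟩
    have h1 := (le_abs_self _).trans (hB x ⟨hx, hxi⟩)
    rw [div_le_iff₀ (mul_pos (by linarith [hW1 x]) (hG0 x))] at h1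
    linarith
  obtain ⟨B, hB⟩ := hbdd
  have hWl : ∀ x ∈ S, Lp A u (fun y => Real.log (W y)) x ≤ 0 * W x := by
    intro x hx
    have hz : A.e (ci A x) x ∈ (A.e (ci A x)).target := (A.e _).map_source (mem_ci x)
    have hinv : inC A (ci A x) u (A.e (ci A x) x) = u x := by
      simp only [inC, (A.e _).left_inv (mem_ci x)]
    have hlW : A.Sm (fun y => Real.log (W y)) := fun i =>
      (hW i).log fun z hz => by
        have := hW1 ((A.e i).symm z)
        exact (by linarith : (0 : ℝ) < W ((A.e i).symm z)).ne'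
    have h1 : trH (inC A (ci A x) u) (inC A (ci A x) fun y => Real.log (W y))
        (A.e (ci A x) x) ≤ 0 * n := by
      refine trH_le_n (inC_contDiffAt hu _ hz) (hpos _ _ hz) (inC_contDiffAt hlW _ hz) fun v => ?_
      rw [zero_mul]
      exact lev_logW (u := inC A (ci A x) u) (inC_contDiffAt hu _ hz) (by rw [hinv]; exact hA x) v
        (lev_nn hpos hz v)
    rw [zero_mul] at h1 ⊢
    exact h1
  have hGl : ∀ x ∈ S, Lp A u G x ≤ c₁ * W x * G x := by
    intro x hx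
    have hz : A.e (ci A x) x ∈ (A.e (ci A x)).target := (A.e _).map_source (mem_ci x)
    have hinv : inC A (ci A x) u (A.e (ci A x) x) = u x := by
      simp only [inC, (A.e _).left_inv (mem_ci x)]
    have h1 : trH (inC A (ci A x) u) (inC A (ci A x) G) (A.e (ci A x) x) ≤
        ((|a| + (|a| + m) ^ 2 * Cg) * (A₀ - u x) ^ 2 * G x) * n := by
      refine trH_le_n (inC_contDiffAt hu _ hz) (hpos _ _ hz) (inC_contDiffAt hG _ hz) fun v => ?_
      have e1 : inC A (ci A x) G = fun y => C * (fun y => Real.exp (a * inC A (ci A x) u y) *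
        (A₀ - inC A (ci A x) u y) ^ m) y := rfl
      have s1 : ContDiffAt ℝ ∞ (fun y => Real.exp (a * inC A (ci A x) u y) *
          (A₀ - inC A (ci A x) u y) ^ m) (A.e (ci A x) x) := inC_contDiffAt (sm_Gw hu A₀ a m) _ hz
      rw [e1, lev_const_mul C (two_le' s1)]
      have h2 := lev_Gw (u := inC A (ci A x) u) (A₀ := A₀) (inC_contDiffAt hu _ hz)
        (by rw [hinv]; exact hA x) a m (Cg := Cg) v (lev_nn hpos hz v) hCg
        (by rw [hinv]; exact hgr x hx _ (mem_ci x) v)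
      rw [hinv] at h2
      calc C * _ ≤ C * _ := mul_le_mul_of_nonneg_left h2 hC.le
        _ = _ := by simp only [hGdef, Gw]; ring
    refine h1.trans (le_of_eq ?_)
    simp only [hc₁, hWdef]
    ring
  have hcut : ∀ x ∈ S, ∀ ε > 0, ∃ ζ : M → ℝ, A.Sm ζ ∧ (∀ y ∈ S, 0 ≤ ζ y ∧ ζ y ≤ 1) ∧
      1 - ε ≤ ζ x ∧ (∃ K ⊆ S, IsCompact K ∧ ∀ y ∈ S, y ∉ K → ζ y = 0) ∧
      ∀ y ∈ S, CutB A u ζ k y := by
    intro x hx ε hε
    set j : ℝ := max 1 (Real.log (A₀ - u x)) with hj
    have hj1 : 1 ≤ j := le_max_left _ _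
    have hj0 : 0 < j := by linarith
    refine ⟨fun y => χ (Real.log (A₀ - u y) / j), ?_, fun y _ => h01 _, ?_, ?_, ?_⟩
    · intro i
      refine hχ.comp_contDiffOn (((contDiffOn_const.sub (hu i)).log fun z hz => ?_).div_const j)
      have := hw1 ((A.e i).symm z)
      exact (by linarith : (0 : ℝ) < A₀ - u ((A.e i).symm z)).ne'
    · have : Real.log (A₀ - u x) / j ≤ 1 := by
        rw [div_le_one hj0]; exact le_max_right _ _
      simp only
      rw [hone _ this]
      linarith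
    · refine ⟨{y ∈ S | -(Real.exp (2 * j) - A₀) ≤ u y}, sep_subset _ _, hprop _, ?_⟩
      intro y hy hyK
      apply hzero
      rw [le_div_iff₀ hj0]
      have h1 : u y < -(Real.exp (2 * j) - A₀) := by
        by_contra h
        exact hyK ⟨hy, not_lt.1 h⟩
      have h2 : Real.exp (2 * j) ≤ A₀ - u y := by linarith
      calc 2 * j = Real.log (Real.exp (2 * j)) := (Real.log_exp _).symm
        _ ≤ _ := Real.log_le_log (Real.exp_pos _) h2
    · intro y hy i hyi v
      have hz : A.e i y ∈ (A.e i).target := (A.e i).map_source hyi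
      have hinv : inC A i u (A.e i y) = u y := by simp only [inC, (A.e i).left_inv hyi]
      have h1 := cut_off (A := A₀) (C := Cg) (u := inC A i u) (x := A.e i y) hχ' hχ'' hK1 hK2 hj1
        (inC_contDiffAt hu i hz) (by rw [hinv]; exact hA y) v (lev_nn hpos hz v)
        (by rw [hinv]; exact hgr y hy i hyi v)
      have e : inC A i (fun y => χ (Real.log (A₀ - u y) / j)) =
        fun z => χ (rho A₀ (inC A i u) z / j) := rfl
      rw [e]
      have hl := lev_nn hpos hz v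
      refine ⟨?_, h1.2.trans ?_⟩
      · have h2 := (abs_le.1 h1.1).1
        have h3 : K * (2 * Cg + 1) / j ≤ k :=
          (div_le_self (by positivity) hj1).trans (le_max_left _ _)
        have h4 := mul_le_mul_of_nonneg_right h3 hl
        linarith
      · have h3 : K ^ 2 * Cg / j ^ 2 ≤ k :=
          (div_le_self (by positivity) (one_le_pow₀ hj1)).trans (le_max_right _ _)
        exact mul_le_mul_of_nonneg_right h3 hl
  have key := grad_mov (κ := κ) (k := k) (c₁ := c₁) (c₃ := 0) (B := B) hu hpos hKE hκ hF hW hG hk0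
    hc₁0 le_rfl S (fun x _ => hW1 x) hWl (fun x _ => hG0 x) hFG hGl hB hcut
  set K₀ : ℝ := max B (κ + 8 * k * n + 0 + 2 * c₁) with hK₀
  have hK₀0 : 0 ≤ K₀ := le_trans (by positivity) (le_max_right _ _)
  refine ⟨2 * K₀ * C + 1, by positivity, fun x hx => (key x hx).trans ?_⟩
  have hw0 : 0 < A₀ - u x := by linarith [hw1 x]
  have e : 2 * K₀ * W x * G x = (2 * K₀ * C) * Gw u A₀ a (m + 2) x := by
    simp only [hWdef, hGdef, Gw]
    ring
  have h5 : 0 ≤ Gw u A₀ a (m + 2) x := by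
    unfold Gw
    positivity
  rw [e]
  nlinarith

/-- the form in the tangent directions -/
theorem fderiv_le {u : M → ℝ} (hu : A.Sm u) (hpos : Psh A u) {F : M → Fin N → ℂ} (hF : Hol A F)
    {i : A.ι} {x : M} (hx : x ∈ (A.e i).source) (v : Cn n) :
    ∑ k, ‖fderiv ℂ (fun z => F ((A.e i).symm z) k) (A.e i x) v‖ ^ 2 ≤
      Lp A u (nF F) x * lev (inC A i u) (A.e i x) v := by
  have hz : A.e i x ∈ (A.e i).target := (A.e i).map_source hx
  have ha : ∀ k, AnalyticAt ℂ (fun z => F ((A.e i).symm z) k) (A.e i x) := fun k =>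
    anal_of_ev (by
      filter_upwards [(A.e i).open_target.mem_nhds hz] with w hw
      exact (hF i k).differentiableAt ((A.e i).open_target.mem_nhds hw))
  have h1 := lev_sumSq (F := fun k z => F ((A.e i).symm z) k) ha v
  rw [← h1, Lp_eq hu (sm_nF hF) hx]
  exact le_trH (inC_contDiffAt hu i hz) (hpos i _ hz) (inC_contDiffAt (sm_nF hF) i hz)
    (lev_nF_nonneg hF i hz) v

end

end Crest.Agent.R257.GMc_101
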