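import Crest.Agent.R257.GMc_101

/-!
# Row 257 (S0395), leaf GRAD-MOV (helper101), part d: Kaehler-Einstein form

* `KEq A u c`      : `det ∂∂̄u = e^{c u} |h_i|²` in every chart, `h_i` holomorphic without zeros
* `KEq.kele`       : `KEle A u c`
* `grad_mov_fderiv`: the estimate in the tangent directions, `N` functions
* `grad_mov_one`   : one function `g : M → ℂ`
-/

set_option autoImplicit false
set_option linter.unusedSectionVars false

open Set Filter Topology Complex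
open scoped ContDiff ComplexConjugate Matrix

namespace Crest.Agent.R257.GMd_101

open Crest.Agent.R275.Geo Crest.Agent.R275.Core144 Crest.Agent.R275.GC293
open Crest.Agent.R273 Crest.Agent.R273.Levi_145
open Crest.Agent.R273.YauDefs_635 Crest.Agent.R273.YauMax_635
open Crest.Agent.R257.CLD_39 (two_le')
open Crest.Agent.R257.GMa_101 Crest.Agent.R257.GMb_101 Crest.Agent.R257.GMc_101

noncomputable section

variable {n N : ℕ} {M : Type} [TopologicalSpace M] {A : Atl n M}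

/-- `det ∂∂̄u = e^{c u} |h_i|²`, `h_i` holomorphic without zeros -/
def KEq (A : Atl n M) (u : M → ℝ) (c : ℝ) : Prop :=
  ∀ i, ∃ h : Cn n → ℂ, DifferentiableOn ℂ h (A.e i).target ∧ (∀ z ∈ (A.e i).target, h z ≠ 0) ∧
    ∀ z ∈ (A.e i).target,
      (cH (inC A i u) z).det = ((Real.exp (c * inC A i u z) * ‖h z‖ ^ 2 : ℝ) : ℂ)

theorem KEq.kele {u : M → ℝ} {c : ℝ} (hu : A.Sm u) (h : KEq A u c) : KEle A u c := by
  intro i
  obtain ⟨g, hg, hg0, hdet⟩ := h i
  have hopen := (A.e i).open_target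
  have ha : ∀ z ∈ (A.e i).target, AnalyticAt ℂ g z := fun z hz =>
    anal_of_ev (by
      filter_upwards [hopen.mem_nhds hz] with w hw
      exact hg.differentiableAt (hopen.mem_nhds hw))
  refine ⟨fun z => c * inC A i u z + Real.log (‖g z‖ ^ 2), ?_, ?_, ?_⟩
  · intro z hz
    exact ((contDiffAt_const.mul (inC_contDiffAt hu i hz)).add
      (c2_log_normSq (ha z hz) (hg0 z hz) ∞)).contDiffWithinAt
  · intro z hz
    have h0 : 0 < ‖g z‖ ^ 2 := by
      have := norm_pos_iff.2 (hg0 z hz)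
      positivity
    rw [hdet z hz, Real.exp_add, Real.exp_log h0]
  · intro z hz v
    have s1 : ContDiffAt ℝ ∞ (fun z => c * inC A i u z) z :=
      contDiffAt_const.mul (inC_contDiffAt hu i hz)
    rw [lev_add (u := fun z => c * inC A i u z) (two_le' s1)
      (c2_log_normSq (ha z hz) (hg0 z hz) 2), lev_log_normSq (ha z hz) (hg0 z hz), add_zero,
      lev_const_mul c (two_le' (inC_contDiffAt hu i hz))]

/-- **GRAD-MOV**, several functions, tangent directions -/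
theorem grad_mov_fderiv {u : M → ℝ} {κ A₀ Cg C a : ℝ} {m : ℕ} (hu : A.Sm u) (hpos : Psh A u)
    (hKE : KEle A u κ) (hκ : 0 ≤ κ) (hA : ∀ x, u x + 1 ≤ A₀) (hCg : 0 ≤ Cg) {S : Set M}
    (hgr : GradB A u A₀ Cg S) (hprop : ∀ R : ℝ, IsCompact {x ∈ S | -R ≤ u x})
    (hfr : IsCompact (S \ interior S)) {F : M → Fin N → ℂ} (hF : Hol A F) (hC : 0 < C)
    (hFG : ∀ x ∈ S, nF F x ≤ C * (Real.exp (a * u x) * (A₀ - u x) ^ m)) :
    ∃ C' : ℝ, 0 < C' ∧ ∀ x ∈ S, ∀ i, x ∈ (A.e i).source → ∀ v : Cn n,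
      ∑ k, ‖fderiv ℂ (fun z => F ((A.e i).symm z) k) (A.e i x) v‖ ^ 2 ≤
        C' * (Real.exp (a * u x) * (A₀ - u x) ^ (m + 2)) * lev (inC A i u) (A.e i x) v := by
  obtain ⟨C', hC', h⟩ := grad_mov_ke (a := a) (m := m) hu hpos hKE hκ hA hCg hgr hprop hfr hF hC
    hFG
  refine ⟨C', hC', fun x hx i hi v => (fderiv_le hu hpos hF hi v).trans ?_⟩
  exact mul_le_mul_of_nonneg_right (h x hx) (lev_nn hpos ((A.e i).map_source hi) v)

/-- **GRAD-MOV**, one function `g`, `|g|² ≤ C e^{a u}`, `-u ≥ 1`, `{x ∈ S | -R ≤ u x}` compact -/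
theorem grad_mov_one {u : M → ℝ} {c Cg C a : ℝ} (hu : A.Sm u) (hpos : Psh A u)
    (hKE : KEq A u c) (hc : 0 ≤ c) (hA : ∀ x, u x ≤ -1) (hCg : 0 ≤ Cg) {S : Set M}
    (hgr : ∀ x ∈ S, ∀ i, x ∈ (A.e i).source → ∀ v : Cn n,
      ‖gr (inC A i u) (A.e i x) v‖ ^ 2 ≤ Cg * (u x ^ 2 * lev (inC A i u) (A.e i x) v))
    (hprop : ∀ R : ℝ, IsCompact {x ∈ S | -R ≤ u x}) (hfr : IsCompact (S \ interior S))
    {g : M → ℂ} (hg : ∀ i, DifferentiableOn ℂ (fun z => g ((A.e i).symm z)) (A.e i).target)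
    (hC : 0 < C) (hFG : ∀ x ∈ S, ‖g x‖ ^ 2 ≤ C * Real.exp (a * u x)) :
    ∃ C' : ℝ, 0 < C' ∧ ∀ x ∈ S, ∀ i, x ∈ (A.e i).source → ∀ v : Cn n,
      ‖fderiv ℂ (fun z => g ((A.e i).symm z)) (A.e i x) v‖ ^ 2 ≤
        C' * (Real.exp (a * u x) * u x ^ 2) * lev (inC A i u) (A.e i x) v := by
  have h1 := grad_mov_fderiv (N := 1) (F := fun x _ => g x) (A₀ := 0) (m := 0) (a := a) (C := C)
    hu hpos (hKE.kele hu) hc (fun x => by linarith [hA x]) hCg (S := S)
    (fun x hx i hi v => by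
      have := hgr x hx i hi v
      rw [zero_sub, neg_sq]
      exact this) hprop hfr (fun i k => hg i) hC
    (fun x hx => by simpa [nF] using hFG x hx)
  obtain ⟨C', hC', h⟩ := h1
  refine ⟨C', hC', fun x hx i hi v => ?_⟩
  have := h x hx i hi v
  simpa using this

end

end Crest.Agent.R257.GMd_101
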