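import Crest.Agent.R257.Gen1_812
import Crest.Agent.R257.KEG_952

/-!
Row 257 (S0395), leaf GenStmt (helper812): literal form.
-/

set_option autoImplicit false

open Set Filter Topology
open Crest.Agent.R257.UI939 Crest.Agent.R257.Defs_219

noncomputable section

namespace Crest.Agent.R257.Gen_812

theorem genStmt : KEG_952.GenStmt := by
  intro f g g' hf hg hg' hg0 hg'0 hfin hm hm'
  obtain ⟨v, h1, h2, h3, h4⟩ := gen hf.an hg hg' hg0 hg'0 hfin hm hm'
  exact ⟨fun x => ∑ i, v i * x i,
    Finset.analyticAt_fun_sum _ fun i _ => analyticAt_const.mul (an_coord i 0), by simp,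
    h1, h2, h3, h4⟩

end Crest.Agent.R257.Gen_812
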