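import Crest.Agent.R257.Dim_812
import Crest.Agent.R257.LossD_309

/-!
Row 257 (S0395), leaf GenLinStmt (helper812): literal form.
-/

set_option autoImplicit false

open Set Filter Topology
open Crest.Agent.R257.UI939 Crest.Agent.R257.Defs_219

noncomputable section

namespace Crest.Agent.R257.Det_812

theorem genLinStmt : LossD_309.GenLinStmt := by
  intro f hf
  obtain ⟨v, hv⟩ := gen_lin hf.an hf.fin
  exact ⟨fun x => ∑ i, v i * x i,
    Finset.analyticAt_fun_sum _ fun i _ => analyticAt_const.mul (an_coord i 0), by simp, hv⟩

end Crest.Agent.R257.Det_812
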