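import Crest.Agent.R257.Gen1_812
import Crest.Agent.R257.LossD_309

/-!
Row 257 (S0395), leaf LOSS-GENLIN (helper847): `GenLinStmt` of `LossD_309`: for a germ with an
isolated critical point a generic linear form `h` satisfies `ColFin (mnr f h)`.

Prime avoidance: `(f, x_1, x_2)` has finite colength; replace `x_2` and `x_1` one after the other by
generic combinations `a · ∇f`, `b · ∇f`; `h = (a × b) · x`.
-/

set_option autoImplicit false
set_option linter.unusedSectionVars false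

open Set Filter Topology Metric Complex
open Crest.AlgGeometry.Germ
open Crest.Agent.R275.Loc2879 hiding AA
open Crest.Agent.R257.UI939 Crest.Agent.R257.Defs_219 Crest.Agent.R257.Num488

noncomputable section

namespace Crest.Agent.R257.GenLin_847

section Avoid

variable {n : ℕ}

/-- replacing one generator of an ideal of finite colength -/
theorem fin_avoid (I : Ideal (BB n)) (c z : BB n) (hc : ¬ IsUnit c)
    (h : dl (BB n ⧸ (I ⊔ Ideal.span {c})) ≠ ⊤)
    (hz : ∀ P ∈ I.minimalPrimes, P ≠ IsLocalRing.maximalIdeal (BB n) → z ∉ P) :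
    dl (BB n ⧸ (I ⊔ Ideal.span {z})) ≠ ⊤ := by
  refine fin_of_primes fun Q hQ hIQ => ?_
  by_contra hne
  have hIQ1 : I ≤ Q := le_sup_left.trans hIQ
  have hlQ : z ∈ Q := (le_sup_right.trans hIQ) (Ideal.mem_span_singleton_self _)
  obtain ⟨P, hPmin, hPQ⟩ := Ideal.exists_minimalPrimes_le hIQ1
  have hP := hPmin.1.1
  have hPm : P ≠ IsLocalRing.maximalIdeal (BB n) := by
    intro e
    rw [e] at hPQ
    exact hne (le_antisymm (IsLocalRing.le_maximalIdeal hQ.ne_top) hPQ)
  have hlP := hz P hPmin hPm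
  have hPQ' : P < Q := lt_of_le_of_ne hPQ (fun e => hlP (e ▸ hlQ))
  have hQm : Q < IsLocalRing.maximalIdeal (BB n) :=
    lt_of_le_of_ne (IsLocalRing.le_maximalIdeal hQ.ne_top) hne
  have hcm : c ∈ IsLocalRing.maximalIdeal (BB n) := (IsLocalRing.mem_maximalIdeal _).2 hc
  have hmin : IsLocalRing.maximalIdeal (BB n) ∈ (P ⊔ Ideal.span {c}).minimalPrimes := by
    refine ⟨⟨inferInstance, sup_le (hPQ.trans hQm.le) ?_⟩, fun Q' hQ' _ => ?_⟩
    · rw [Ideal.span_singleton_le_iff_mem]; exact hcm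
    · rw [primes_of_fin h hQ'.1 ((sup_le_sup_right hPmin.1.2 _).trans hQ'.2)]
  have hht := Ideal.map_height_le_one_of_mem_minimalPrimes hmin
  set mm := IsLocalRing.maximalIdeal (BB n) with hmm
  have hmm' : mm.IsPrime := by rw [hmm]; infer_instance
  have hsurj : Function.Surjective (Ideal.Quotient.mk P) := Ideal.Quotient.mk_surjective
  have hkerQ : RingHom.ker (Ideal.Quotient.mk P) ≤ Q := by rw [Ideal.mk_ker]; exact hPQ
  have hkerm : RingHom.ker (Ideal.Quotient.mk P) ≤ mm := by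
    rw [Ideal.mk_ker]; exact hPQ.trans hQm.le
  have i1 : (Q.map (Ideal.Quotient.mk P)).IsPrime := Ideal.map_isPrime_of_surjective hsurj hkerQ
  have i2 : (mm.map (Ideal.Quotient.mk P)).IsPrime := Ideal.map_isPrime_of_surjective hsurj hkerm
  have hcomap : ∀ J : Ideal (BB n), RingHom.ker (Ideal.Quotient.mk P) ≤ J →
      (J.map (Ideal.Quotient.mk P)).comap (Ideal.Quotient.mk P) = J := fun J hJ =>
    (Ideal.comap_map_of_surjective _ hsurj J).trans (sup_eq_left.mpr hJ)
  have l2 : Q.map (Ideal.Quotient.mk P) < mm.map (Ideal.Quotient.mk P) := by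
    refine lt_of_le_of_ne (Ideal.map_mono hQm.le) fun e => ?_
    have := congrArg (Ideal.comap (Ideal.Quotient.mk P)) e
    rw [hcomap Q hkerQ, hcomap mm hkerm] at this
    exact hQm.ne this
  have i0 : (⊥ : Ideal (BB n ⧸ P)).IsPrime := Ideal.isPrime_bot
  have l1 : ⊥ < Q.map (Ideal.Quotient.mk P) := by
    rw [bot_lt_iff_ne_bot, Ne, Ideal.map_eq_bot_iff_le_ker, Ideal.mk_ker]
    exact hPQ'.not_ge
  have e1 := Ideal.height_add_one_le_of_lt_of_isPrime l1
  have e2 := Ideal.height_add_one_le_of_lt_of_isPrime l2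
  have e3 := e2.trans hht
  have e4 : (1 : ℕ∞) + 1 ≤ 1 := by
    refine le_trans ?_ e3
    gcongr
    exact le_trans (by simp) e1
  exact absurd e4 (by norm_num)

/-- `v ↦ ∑ v_i y_i` -/
def cb {k : ℕ} (y : Fin k → BB n) : (Fin k → ℂ) →ₗ[ℂ] BB n where
  toFun v := ∑ i, algebraMap ℂ (BB n) (v i) * y i
  map_add' v w := by
    rw [← Finset.sum_add_distrib]
    exact Finset.sum_congr rfl fun i _ => by rw [Pi.add_apply, map_add, add_mul]
  map_smul' c v := by
    rw [RingHom.id_apply, Finset.smul_sum]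
    exact Finset.sum_congr rfl fun i _ => by
      rw [Pi.smul_apply, smul_eq_mul, map_mul, Algebra.smul_def, mul_assoc]

lemma cb_single {k : ℕ} (y : Fin k → BB n) (i : Fin k) : cb y (Pi.single i 1) = y i := by
  classical
  show ∑ j, algebraMap ℂ (BB n) ((Pi.single i 1 : Fin k → ℂ) j) * y j = _
  rw [Finset.sum_eq_single i]
  · simp
  · intro j _ hj; simp [Pi.single_eq_of_ne hj]
  · intro h; exact absurd (Finset.mem_univ _) h

/-- exchange with a generic combination -/
theorem exists_cb {k : ℕ} (I : Ideal (BB n)) (c : BB n) (hc : ¬ IsUnit c)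
    (h : dl (BB n ⧸ (I ⊔ Ideal.span {c})) ≠ ⊤) (y : Fin k → BB n)
    (hy : dl (BB n ⧸ Ideal.span (Set.range y)) ≠ ⊤) (W : Submodule ℂ (Fin k → ℂ)) (hW : W ≠ ⊤) :
    ∃ v : Fin k → ℂ, v ∉ W ∧ dl (BB n ⧸ (I ⊔ Ideal.span {cb y v})) ≠ ⊤ := by
  classical
  have hfin : ({P ∈ I.minimalPrimes | P ≠ IsLocalRing.maximalIdeal (BB n)}).Finite :=
    (Ideal.finite_minimalPrimes_of_isNoetherianRing _ I).subset (Set.sep_subset _ _)
  set V : Ideal (BB n) → Submodule ℂ (Fin k → ℂ) :=
    fun P => (P.restrictScalars ℂ).comap (cb y) with hV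
  set S : Finset (Submodule ℂ (Fin k → ℂ)) := insert W (hfin.toFinset.image V) with hS
  have h1 : ⊤ ∉ S := by
    rw [hS, Finset.mem_insert, not_or]
    refine ⟨fun h => hW h.symm, ?_⟩
    rw [Finset.mem_image]
    rintro ⟨P, hP, hPV⟩
    rw [Set.Finite.mem_toFinset] at hP
    refine hP.2 (primes_of_fin hy hP.1.1.1 ?_)
    rw [Ideal.span_le]
    rintro _ ⟨i, rfl⟩
    have h2 : (Pi.single i 1 : Fin k → ℂ) ∈ V P := by rw [hPV]; trivial
    have h3 : cb y (Pi.single i 1) ∈ P := h2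
    rwa [cb_single] at h3
  obtain ⟨v, hv⟩ := (Set.ne_univ_iff_exists_notMem _).1 (Subspace.biUnion_ne_univ_of_top_notMem h1)
  simp only [Set.mem_iUnion, not_exists] at hv
  refine ⟨v, hv W (Finset.mem_insert_self _ _), fin_avoid I c _ hc h fun P hP hPm hvP => ?_⟩
  exact hv (V P) (Finset.mem_insert_of_mem (Finset.mem_image_of_mem _
    ((Set.Finite.mem_toFinset _).2 ⟨hP, hPm⟩))) hvP

end Avoid

/-- `f` regular in `x_0`: `(f, x_1, x_2)` has finite colength -/
theorem fin_coord {f : E3 → ℂ} (hf : AnalyticAt ℂ f 0)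
    (hreg : ∃ᶠ z : ℂ in 𝓝[≠] 0, f (Fin.cons z 0) ≠ 0) :
    dl (BB 3 ⧸ (Ideal.span {(gm f hf : BB 3), xB 1} ⊔ Ideal.span {xB 2})) ≠ ⊤ := by
  classical
  refine fin_of_primes fun P hP hIP => ?_
  have m0 : (gm f hf : BB 3) ∈ P := hIP (Ideal.mem_sup_left (Ideal.subset_span (by simp)))
  have m1 : (xB 1 : BB 3) ∈ P := hIP (Ideal.mem_sup_left (Ideal.subset_span (by simp)))
  have m2 : (xB 2 : BB 3) ∈ P := hIP (Ideal.mem_sup_right (Ideal.subset_span (by simp)))
  have hk : CM_812.kill {1, 2} (gm f hf : BB 3) ∈ P := by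
    have h1 := CM_812.sub_kill_mem {1, 2} (gm f hf : BB 3)
    have h2 : Ideal.span (xB '' ((({1, 2} : Finset (Fin 3)) : Set (Fin 3)))) ≤ P := by
      rw [Ideal.span_le]
      rintro _ ⟨i, hi, rfl⟩
      simp only [Finset.coe_insert, Finset.coe_singleton, Set.mem_insert_iff,
        Set.mem_singleton_iff] at hi
      rcases hi with rfl | rfl
      · exact m1
      · exact m2
    have h3 : CM_812.kill {1, 2} (gm f hf : BB 3) = gm f hf -
        (gm f hf - CM_812.kill {1, 2} (gm f hf)) := by ring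
    rw [h3]
    exact P.sub_mem m0 (h2 h1)
  -- the function of one variable
  have hc : AnalyticAt ℂ (fun z : ℂ => (Fin.cons z 0 : E3)) 0 := by
    refine AnalyticAt.pi fun i => ?_
    refine Fin.cases ?_ (fun j => ?_) i
    · exact analyticAt_id
    · exact analyticAt_const
  have hc0 : (Fin.cons (0 : ℂ) 0 : E3) = 0 := by
    funext i
    refine Fin.cases ?_ (fun j => ?_) i <;> simp
  have hφ : AnalyticAt ℂ (fun z : ℂ => f (Fin.cons z 0)) 0 :=
    AnalyticAt.comp (g := f) (f := fun z : ℂ => (Fin.cons z 0 : E3)) (by rw [hc0]; exact hf) hc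
  have hne : ¬ ∀ᶠ z in 𝓝 (0 : ℂ), f (Fin.cons z 0) = 0 := by
    intro h
    exact hreg ((h.filter_mono nhdsWithin_le_nhds).mono fun z hz hn => hn hz)
  obtain ⟨k, ψ, hψ, hψ0, he⟩ := hφ.exists_eventuallyEq_pow_smul_nonzero_iff.2 hne
  have hx0 : Tendsto (fun x : E3 => x 0) (𝓝 0) (𝓝 0) := by
    have : Continuous (fun x : E3 => x 0) := continuous_apply 0
    simpa using this.tendsto 0
  have hψ' : AnalyticAt ℂ (fun x : E3 => ψ (x 0)) 0 :=
    AnalyticAt.comp (g := ψ) (f := fun x : E3 => x 0) hψ (an_coord 0 0)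
  have hF : AnalyticAt ℂ
      (fun x : E3 => f (fun i => if i ∈ ({1, 2} : Finset (Fin 3)) then (0 : ℂ) else x i)) 0 := by
    refine AnalyticAt.comp (g := f) ?_ (CM_812.an_kill {1, 2} 0)
    have := CM_812.kill_zero ({1, 2} : Finset (Fin 3))
    simp only at this
    rw [this]; exact hf
  have e1 : CM_812.kill {1, 2} (gm f hf : BB 3) = xB 0 ^ k * gm _ hψ' := by
    rw [CM_812.kill_gm _ hf hF, xB, gm_pow, gm_mul, gm_eq_gm]
    filter_upwards [hx0.eventually he] with x hx
    have e2 : (fun i => if i ∈ ({1, 2} : Finset (Fin 3)) then (0 : ℂ) else x i) =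
        (Fin.cons (x 0) 0 : E3) := by
      funext i
      fin_cases i
      · simp
      · simp
      · simp only [Finset.mem_insert, Finset.mem_singleton, Fin.reduceFinMk, or_true, if_true]
        rfl
    rw [e2, hx]
    simp
  rw [e1] at hk
  have hu : IsUnit (gm _ hψ' : BB 3) := by
    rw [isUnit_gm]; exact hψ0
  have h0 : (xB 0 : BB 3) ∈ P := by
    rcases hP.mem_or_mem hk with h | h
    · exact hP.mem_of_pow_mem k h
    · exact absurd (Ideal.eq_top_of_isUnit_mem _ h hu) hP.ne_top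
  refine le_antisymm (IsLocalRing.le_maximalIdeal hP.ne_top) ?_
  rw [max_eq, Ideal.span_le]
  rintro _ ⟨i, rfl⟩
  fin_cases i
  · exact h0
  · exact m1
  · exact m2

/-- the combinations of `∇f` orthogonal to `v` lie in the ideal of the minors of `(∇f, v)` -/
theorem mem_minors {f : E3 → ℂ} (ha : AnalyticAt ℂ f 0) (hp : ∀ i, AnalyticAt ℂ (par f i) 0)
    {v : Fin 3 → ℂ} (hv : v ≠ 0) (hl : AnalyticAt ℂ (fun x : E3 => ∑ i, v i * x i) 0)
    (w : Fin 3 → ℂ) (hw : w 0 * v 0 + w 1 * v 1 + w 2 * v 2 = 0) :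
    cb (fun j => (gm (par f j) (hp j) : BB 3)) w ∈
      Ideal.span (Set.range fun j => (gm (mnr f (fun x => ∑ i, v i * x i) j)
        (Gen_812.an_mnr ha hl j) : BB 3)) := by
  set J := Ideal.span (Set.range fun j => (gm (mnr f (fun x => ∑ i, v i * x i) j)
        (Gen_812.an_mnr ha hl j) : BB 3)) with hJ
  set y : Fin 3 → BB 3 := fun j => gm (par f j) (hp j) with hy
  set C : ℂ →+* BB 3 := algebraMap ℂ (BB 3) with hC
  have hgr : ∀ x i, gr (fun x : E3 => ∑ i, v i * x i) x i = v i := fun x i =>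
    Gen_812.coordDeriv_lin v i x
  have m1 : y 1 * C (v 2) - y 2 * C (v 1) ∈ J := by
    have h : (gm (mnr f (fun x => ∑ i, v i * x i) 1) (Gen_812.an_mnr ha hl 1) : BB 3) ∈ J :=
      Ideal.subset_span ⟨1, rfl⟩
    have e : (gm (mnr f (fun x => ∑ i, v i * x i) 1) (Gen_812.an_mnr ha hl 1) : BB 3) +
        y 2 * C (v 1) = y 1 * C (v 2) := by
      simp only [hy, hC, Crest.Agent.R275.Loc2879.algebraMap_apply, gm_mul, gm_add, gm_eq_gm]
      refine Eventually.of_forall fun x => ?_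
      show (gr f x 1 * gr (fun x : E3 => ∑ i, v i * x i) x 2 -
        gr f x 2 * gr (fun x : E3 => ∑ i, v i * x i) x 1) + gr f x 2 * v 1 = gr f x 1 * v 2
      rw [hgr, hgr]; ring
    rw [← e, add_sub_cancel_right]; exact h
  have m2 : y 2 * C (v 0) - y 0 * C (v 2) ∈ J := by
    have h : (gm (mnr f (fun x => ∑ i, v i * x i) 2) (Gen_812.an_mnr ha hl 2) : BB 3) ∈ J :=
      Ideal.subset_span ⟨2, rfl⟩
    have e : (gm (mnr f (fun x => ∑ i, v i * x i) 2) (Gen_812.an_mnr ha hl 2) : BB 3) +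
        y 0 * C (v 2) = y 2 * C (v 0) := by
      simp only [hy, hC, Crest.Agent.R275.Loc2879.algebraMap_apply, gm_mul, gm_add, gm_eq_gm]
      refine Eventually.of_forall fun x => ?_
      show (gr f x 2 * gr (fun x : E3 => ∑ i, v i * x i) x 0 -
        gr f x 0 * gr (fun x : E3 => ∑ i, v i * x i) x 2) + gr f x 0 * v 2 = gr f x 2 * v 0
      rw [hgr, hgr]; ring
    rw [← e, add_sub_cancel_right]; exact h
  have m3 : y 0 * C (v 1) - y 1 * C (v 0) ∈ J := by
    have h : (gm (mnr f (fun x => ∑ i, v i * x i) 3) (Gen_812.an_mnr ha hl 3) : BB 3) ∈ J :=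
      Ideal.subset_span ⟨3, rfl⟩
    have e : (gm (mnr f (fun x => ∑ i, v i * x i) 3) (Gen_812.an_mnr ha hl 3) : BB 3) +
        y 1 * C (v 0) = y 0 * C (v 1) := by
      simp only [hy, hC, Crest.Agent.R275.Loc2879.algebraMap_apply, gm_mul, gm_add, gm_eq_gm]
      refine Eventually.of_forall fun x => ?_
      show (gr f x 0 * gr (fun x : E3 => ∑ i, v i * x i) x 1 -
        gr f x 1 * gr (fun x : E3 => ∑ i, v i * x i) x 0) + gr f x 1 * v 0 = gr f x 0 * v 1
      rw [hgr, hgr]; ring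
    rw [← e, add_sub_cancel_right]; exact h
  have hcb : cb y w = C (w 0) * y 0 + C (w 1) * y 1 + C (w 2) * y 2 := by
    show ∑ i, C (w i) * y i = _
    rw [Fin.sum_univ_three]
  have hw' : C (w 0) * C (v 0) + C (w 1) * C (v 1) + C (w 2) * C (v 2) = 0 := by
    rw [← map_mul, ← map_mul, ← map_mul, ← map_add, ← map_add, hw, map_zero]
  have key : ∀ k, C (v k) * cb y w ∈ J := by
    intro k
    fin_cases k
    · have e : C (v 0) * cb y w = C (w 2) * (y 2 * C (v 0) - y 0 * C (v 2)) -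
          C (w 1) * (y 0 * C (v 1) - y 1 * C (v 0)) := by
        rw [hcb]; linear_combination y 0 * hw'
      exact e ▸ J.sub_mem (J.mul_mem_left _ m2) (J.mul_mem_left _ m3)
    · have e : C (v 1) * cb y w = C (w 0) * (y 0 * C (v 1) - y 1 * C (v 0)) -
          C (w 2) * (y 1 * C (v 2) - y 2 * C (v 1)) := by
        rw [hcb]; linear_combination y 1 * hw'
      exact e ▸ J.sub_mem (J.mul_mem_left _ m3) (J.mul_mem_left _ m1)
    · have e : C (v 2) * cb y w = C (w 1) * (y 1 * C (v 2) - y 2 * C (v 1)) -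
          C (w 0) * (y 2 * C (v 0) - y 0 * C (v 2)) := by
        rw [hcb]; linear_combination y 2 * hw'
      exact e ▸ J.sub_mem (J.mul_mem_left _ m1) (J.mul_mem_left _ m2)
  obtain ⟨k, hk⟩ := Function.ne_iff.1 hv
  have hu : IsUnit (C (v k)) := (IsUnit.mk0 _ hk).map C
  obtain ⟨u, hu⟩ := hu
  have e : cb y w = ((u⁻¹ : (BB 3)ˣ) : BB 3) * (C (v k) * cb y w) := by
    rw [← hu, ← mul_assoc, Units.inv_mul, one_mul]
  rw [e]
  exact J.mul_mem_left _ (key k)

/-- **a generic linear form** -/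
theorem gen_lin {f : E3 → ℂ} (hf : Iso f) :
    ∃ v : Fin 3 → ℂ, v ≠ 0 ∧ ColFin (mnr f fun x => ∑ i, v i * x i) := by
  classical
  have ha := hf.an
  have hp : ∀ i, AnalyticAt ℂ (par f i) 0 := fun i => Gen_812.an_gr ha i
  set y : Fin 3 → BB 3 := fun j => gm (par f j) (hp j) with hy
  have hy1 : dl (BB 3 ⧸ Ideal.span (Set.range y)) ≠ ⊤ := (Gen_812.colFin_iff_dl hp).1 hf.fin
  have hI0 := fin_coord ha hf.reg
  obtain ⟨a, ha0, h1⟩ := exists_cb (Ideal.span {(gm f ha : BB 3), xB 1}) (xB 2) (xB_not_unit 2)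
    hI0 y hy1 ⊥ bot_ne_top
  have ha0' : a ≠ 0 := fun h => ha0 (by rw [h]; exact Submodule.zero_mem _)
  have h2 : dl (BB 3 ⧸ (Ideal.span {(gm f ha : BB 3), cb y a} ⊔ Ideal.span {xB 1})) ≠ ⊤ := by
    have e : Ideal.span {(gm f ha : BB 3), cb y a} ⊔ Ideal.span {xB 1} =
        Ideal.span {(gm f ha : BB 3), xB 1} ⊔ Ideal.span {cb y a} := by
      rw [← span3, ← span3]
      congr 1
      ext x; simp; tauto
    rw [e]; exact h1
  have hW : Submodule.span ℂ {a} ≠ ⊤ := by
    intro htop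
    have h5 := finrank_span_singleton (K := ℂ) ha0'
    rw [htop, finrank_top, Module.finrank_fin_fun] at h5
    omega
  obtain ⟨b, hb, h3⟩ := exists_cb (Ideal.span {(gm f ha : BB 3), cb y a}) (xB 1) (xB_not_unit 1)
    h2 y hy1 _ hW
  -- the vector product
  set v : Fin 3 → ℂ := ![a 1 * b 2 - a 2 * b 1, a 2 * b 0 - a 0 * b 2, a 0 * b 1 - a 1 * b 0]
    with hv
  have hv0 : v 0 = a 1 * b 2 - a 2 * b 1 := rfl
  have hv1 : v 1 = a 2 * b 0 - a 0 * b 2 := rfl
  have hv2 : v 2 = a 0 * b 1 - a 1 * b 0 := rfl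
  have hvne : v ≠ 0 := by
    intro h
    have z0 : a 1 * b 2 - a 2 * b 1 = 0 := by rw [← hv0, h]; rfl
    have z1 : a 2 * b 0 - a 0 * b 2 = 0 := by rw [← hv1, h]; rfl
    have z2 : a 0 * b 1 - a 1 * b 0 = 0 := by rw [← hv2, h]; rfl
    obtain ⟨i, hi⟩ := Function.ne_iff.1 ha0'
    refine hb (Submodule.mem_span_singleton.2 ⟨b i / a i, ?_⟩)
    funext j
    simp only [Pi.zero_apply] at hi
    simp only [Pi.smul_apply, smul_eq_mul]
    rw [div_mul_eq_mul_div, div_eq_iff hi]
    fin_cases i <;> fin_cases j <;> simp only [Fin.zero_eta, Fin.mk_one, Fin.reduceFinMk] <;>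
      first
      | ring1
      | linear_combination z0
      | linear_combination -z0
      | linear_combination z1
      | linear_combination -z1
      | linear_combination z2
      | linear_combination -z2
  refine ⟨v, hvne, ?_⟩
  have hl : AnalyticAt ℂ (fun x : E3 => ∑ i, v i * x i) 0 :=
    Finset.analyticAt_fun_sum _ fun i _ => analyticAt_const.mul (an_coord i 0)
  rw [Gen_812.colFin_iff_dl fun i => Gen_812.an_mnr ha hl i]
  refine ne_top_of_le_ne_top h3 (dl_anti ?_)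
  rw [← span3, Ideal.span_le]
  have hd : a 0 * v 0 + a 1 * v 1 + a 2 * v 2 = 0 := by rw [hv0, hv1, hv2]; ring
  have hd' : b 0 * v 0 + b 1 * v 1 + b 2 * v 2 = 0 := by rw [hv0, hv1, hv2]; ring
  have hmem := mem_minors ha hp hvne hl
  intro x hx
  simp only [Set.mem_insert_iff, Set.mem_singleton_iff] at hx
  rcases hx with rfl | rfl | rfl
  · exact Ideal.subset_span ⟨0, rfl⟩
  · exact hmem a hd
  · exact hmem b hd'

theorem genLinStmt : LossD_309.GenLinStmt := by
  intro f hf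
  obtain ⟨v, -, h⟩ := gen_lin hf
  exact ⟨fun x => ∑ i, v i * x i,
    Finset.analyticAt_fun_sum _ fun i _ => analyticAt_const.mul (an_coord i 0), by simp, h⟩

end Crest.Agent.R257.GenLin_847
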