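import Crest.Agent.R257.GE_554
import Crest.Agent.R275.Loc2G_879

/-!
Row 257 (S0395), leaf E-GLOB, INV (helper554): the Jacobian quotient is invariant under local
biholomorphisms.
-/

set_option autoImplicit false

open Set Filter Topology
open Crest.Agent.R275.Loc2879
open Crest.AlgGeometry.Germ

noncomputable section

namespace Crest.Agent.R257.Inv554

open Crest.Agent.R257.Jac554 Crest.Agent.R257.Uni554

variable {n : ℕ}

lemma sum_coordDeriv {f : (Fin n → ℂ) → ℂ} {x : Fin n → ℂ} (v : Fin n → ℂ) :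
    fderiv ℂ f x v = ∑ i, coordDeriv f i x * v i := by
  conv_lhs => rw [← Finset.univ_sum_single v, map_sum]
  refine Finset.sum_congr rfl (fun i _ => ?_)
  have : Pi.single i (v i) = v i • (Pi.single i 1 : Fin n → ℂ) := by
    rw [← Pi.single_smul, smul_eq_mul, mul_one]
  rw [this, map_smul, smul_eq_mul, coordDeriv, mul_comm]

/-- chain rule: the partials of `f ∘ Φ` lie in the pulled back ideal -/
lemma JF_le {f g : (Fin n → ℂ) → ℂ} {Φ : (Fin n → ℂ) → (Fin n → ℂ)} (hf : AnalyticAt ℂ f 0)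
    (hΦ : AnalyticAt ℂ Φ 0) (h0 : Φ 0 = 0) (hg : g =ᶠ[𝓝 0] f ∘ Φ) :
    JF g ≤ (JF f).map (pull Φ hΦ h0) := by
  have hga : AnalyticAt ℂ g 0 :=
    (AnalyticAt.comp (g := f) (f := Φ) (by rw [h0]; exact hf) hΦ).congr hg.symm
  rw [JF, JI_eq_span (fun i => analyticAt_coordDeriv hga i), Ideal.span_le]
  rintro _ ⟨j, rfl⟩
  have hΦj : ∀ i, AnalyticAt ℂ (fun x => fderiv ℂ Φ x (Pi.single j 1) i) 0 := by
    intro i
    have h1 : AnalyticAt ℂ (fderiv ℂ Φ) 0 := hΦ.fderiv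
    have h2 : AnalyticAt ℂ (fun x => fderiv ℂ Φ x (Pi.single j 1)) 0 :=
      ((ContinuousLinearMap.apply ℂ (Fin n → ℂ) (Pi.single j 1 : Fin n → ℂ)).analyticAt _).comp h1
    exact ((ContinuousLinearMap.proj (R := ℂ) (φ := fun _ : Fin n => ℂ) i).analyticAt _).comp h2
  have hfi : ∀ i, AnalyticAt ℂ (coordDeriv f i) 0 := analyticAt_coordDeriv hf
  have hfi' : ∀ i, AnalyticAt ℂ (coordDeriv f i ∘ Φ) 0 := fun i =>
    AnalyticAt.comp (by rw [h0]; exact hfi i) hΦ
  have key : gm (coordDeriv g j) (analyticAt_coordDeriv hga j) =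
      ∑ i, gm (coordDeriv f i ∘ Φ) (hfi' i) * gm _ (hΦj i) := by
    simp only [gm_mul]
    obtain ⟨h2, e2⟩ := gm_sum Finset.univ
      (fun i => (coordDeriv f i ∘ Φ) * fun x => fderiv ℂ Φ x (Pi.single j 1) i)
      (fun i => (hfi' i).mul (hΦj i))
    rw [e2, gm_eq_gm]
    have e3 : ∀ᶠ x in 𝓝 (0 : Fin n → ℂ), g =ᶠ[𝓝 x] f ∘ Φ := hg.eventually_nhds
    have e4 : ∀ᶠ x in 𝓝 (0 : Fin n → ℂ), AnalyticAt ℂ Φ x := hΦ.eventually_analyticAt
    have e5 : ∀ᶠ x in 𝓝 (0 : Fin n → ℂ), AnalyticAt ℂ f (Φ x) := by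
      have := hΦ.continuousAt
      rw [ContinuousAt, h0] at this
      exact this.eventually hf.eventually_analyticAt
    filter_upwards [e3, e4, e5] with x h3 h4 h5
    rw [coordDeriv, h3.fderiv_eq, fderiv_comp x h5.differentiableAt h4.differentiableAt,
      ContinuousLinearMap.comp_apply, sum_coordDeriv]
    rfl
  change gm (coordDeriv g j) (analyticAt_coordDeriv hga j) ∈ (JF f).map (pull Φ hΦ h0)
  rw [key]
  refine Ideal.sum_mem _ (fun i _ => Ideal.mul_mem_right _ _ ?_)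
  have : gm (coordDeriv f i ∘ Φ) (hfi' i) = pull Φ hΦ h0 (gm (coordDeriv f i) (hfi i)) := rfl
  rw [this]
  exact Ideal.mem_map_of_mem _ (Ideal.subset_span ⟨i, hfi i, rfl⟩)

/-- **invariance of the Jacobian quotient** -/
theorem inv {f g : (Fin n → ℂ) → ℂ} {Φ : (Fin n → ℂ) → (Fin n → ℂ)} (hf : AnalyticAt ℂ f 0)
    (hΦ : AnalyticAt ℂ Φ 0) (h0 : Φ 0 = 0) (hinj : ∀ v, fderiv ℂ Φ 0 v = 0 → v = 0)
    (hg : g =ᶠ[𝓝 0] f ∘ Φ) :
    Nonempty (JacobianQuotient n f ≃ₗ[ℂ] JacobianQuotient n g) := by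
  have hga : AnalyticAt ℂ g 0 :=
    (AnalyticAt.comp (g := f) (f := Φ) (by rw [h0]; exact hf) hΦ).congr hg.symm
  obtain ⟨R, hR, haR, -, hRa, hRs⟩ := exists_bihol rfl hΦ hinj univ_mem
  have hR0 : R 0 = 0 := by rw [hR, h0]
  have hmem : (0 : Fin n → ℂ) ∈ R.target := by rw [← hR0]; exact R.map_source haR
  have hs0 : R.symm 0 = 0 := by
    conv_lhs => rw [← hR0]
    exact R.left_inv haR
  have hsa : AnalyticAt ℂ R.symm 0 := hRs _ hmem
  have h1 : ∀ᶠ x in 𝓝 (0 : Fin n → ℂ), R.symm (Φ x) = x := by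
    filter_upwards [R.open_source.mem_nhds haR] with x hx
    rw [← hR]; exact R.left_inv hx
  have h2 : ∀ᶠ y in 𝓝 (0 : Fin n → ℂ), Φ (R.symm y) = y := by
    filter_upwards [R.open_target.mem_nhds hmem] with y hy
    rw [← hR]; exact R.right_inv hy
  have hf' : f =ᶠ[𝓝 0] g ∘ R.symm := by
    have h3 : Tendsto R.symm (𝓝 0) (𝓝 0) := by
      have := hsa.continuousAt
      rwa [ContinuousAt, hs0] at this
    filter_upwards [h3.eventually hg, h2] with y hy hy2
    rw [Function.comp_apply, hy, Function.comp_apply, hy2]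
  have le1 := JF_le hf hΦ h0 hg
  have le2 := JF_le hga hsa hs0 hf'
  set e := pullEquiv Φ hΦ h0 R.symm hsa hs0 h1 h2 with he
  have hmap : JF g = (JF f).map (e : On n →+* On n) := by
    refine le_antisymm le1 ?_
    have h5 : (JF f).map (pull Φ hΦ h0) ≤ ((JF g).map (pull R.symm hsa hs0)).map (pull Φ hΦ h0) :=
      Ideal.map_mono le2
    refine h5.trans ?_
    rw [Ideal.map_map]
    have h6 : (pull Φ hΦ h0).comp (pull R.symm hsa hs0) = RingHom.id (On n) := by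
      ext x
      exact congrArg Subtype.val (e.apply_symm_apply x)
    rw [h6, Ideal.map_id]
  let θ : On n ≃ₐ[ℂ] On n := AlgEquiv.ofRingEquiv (f := e) (fun _ => rfl)
  have e2 := (Ideal.quotientEquivAlg (JF f) (JF g) θ hmap).toLinearEquiv
  exact ⟨(jacEquiv hf).trans (e2.trans (jacEquiv hga).symm)⟩

theorem invStmt : Crest.Agent.R257.Glob554.InvStmt := by
  intro f g Φ hf hΦ h0 hd hg
  obtain ⟨e⟩ := inv hf hΦ h0 (fun v hv => by rw [hd] at hv; exact hv) hg
  refine ⟨fun h => ?_, ?_⟩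
  · exact (Module.Finite.equiv_iff e).1 h
  · exact e.symm.finrank_eq

end Crest.Agent.R257.Inv554
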