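import Crest.Agent.R257.Tou2_939
import Crest.Agent.R257.GE_554
import Crest.Agent.R257.Inv_554

/-!
Row 257 (S0395): `GlobStmt` of `Defs_219` (assembly of GE_554, Tou2_939, Inv_554).
-/

set_option autoImplicit false

open Crest.Agent.R257.Defs_219

namespace Crest.Agent.R257.UI939

theorem touStmt : Crest.Agent.R257.Glob554.TouStmt :=
  fun _ F G hF hG hmu hcrit q hq hGF => tou F G hF hG hmu hcrit q hq hGF

theorem globStmt : GlobStmt :=
  Crest.Agent.R257.Glob554.glob_of touStmt Crest.Agent.R257.Inv554.invStmt

end Crest.Agent.R257.UI939
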