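import Crest.Agent.R257.Gr1_157

/-!
# Tails of the Zariski decomposition of `K + E` (row 257, part C, leaf C-GR)

Integral configurations. `M` intersection numbers of the curves of a set `S`, `κ i = K.E_i`,
`a i = E_out.E_i`; `y` the cycle supported on `S` with `(K + E_out + y).E_i = 0` on `S`.

* `tail_nonneg` : `a i > 0 → 0 ≤ y i` (by contraction of `(-1)`-curves, no tree structure needed).
* `tail_eq_zero` : if `S` is connected and `y i = 0` for some `i` with `a i > 0` then the total
  number of intersections with the outside is one.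
* `genus_eq_zero` : on a curve with `N_i = 0` and `P.E_i = 0` the genus is zero unless `P ≡ 0`.
-/

set_option autoImplicit false
set_option linter.unusedSectionVars false
set_option linter.deprecated false

namespace Crest.Agent.R257.Gr2_157

open Finset Crest.Agent.R257.Gr1_157

variable {ι : Type*} [DecidableEq ι]

/-- integral data on a finite set of curves -/
structure LG (S : Finset ι) (M : ι → ι → ℤ) (κ a : ι → ℤ) : Prop where
  symm : ∀ i j, M i j = M j i
  off : ∀ i ∈ S, ∀ j ∈ S, i ≠ j → 0 ≤ M i j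
  neg : ∀ x : ι → ℚ, (∀ i, i ∉ S → x i = 0) → x ≠ 0 →
    ∑ i ∈ S, ∑ j ∈ S, x i * ((M i j : ℚ) * x j) < 0
  pa : ∀ i ∈ S, -2 ≤ κ i + M i i
  a0 : ∀ i ∈ S, 0 ≤ a i

/-- connectedness -/
def ConnOn (S : Finset ι) (M : ι → ι → ℤ) : Prop :=
  ∀ T : Finset ι, T ⊆ S → T.Nonempty → (∀ i ∈ T, ∀ j ∈ S, M i j ≠ 0 → j ∈ T) → T = S

variable {S : Finset ι} {M : ι → ι → ℤ} {κ a : ι → ℤ}

/-- the form on the subtype -/
lemma LG.iform (h : LG S M κ a) : IForm (fun i j : S => (M i j : ℚ)) := by
  refine ⟨fun i j => by simp [h.symm i j], fun i j hij => ?_, fun x hx => ?_⟩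
  · have := h.off i i.2 j j.2 (fun e => hij (Subtype.ext e))
    exact_mod_cast this
  · set x' : ι → ℚ := fun i => if hi : i ∈ S then x ⟨i, hi⟩ else 0 with hx'
    have h1 := h.neg x' (fun i hi => by simp [hx', hi]) (by
      intro h0
      apply hx
      funext i
      have := congrFun h0 i
      simpa [hx', i.2] using this)
    have h2 : dt (fun i j : S => (M i j : ℚ)) x x
        = ∑ i ∈ S, ∑ j ∈ S, x' i * ((M i j : ℚ) * x' j) := by
      unfold dt
      rw [← Finset.sum_coe_sort S (fun i => ∑ j ∈ S, x' i * ((M i j : ℚ) * x' j))]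
      refine Finset.sum_congr rfl fun i _ => ?_
      rw [← Finset.sum_coe_sort S (fun j => x' i * ((M i j : ℚ) * x' j))]
      refine Finset.sum_congr rfl fun j _ => ?_
      simp [hx', i.2, j.2]
    rw [h2]; exact h1

lemma dg_sub_type (x : ι → ℚ) (i : S) :
    dg (fun i j : S => (M i j : ℚ)) (fun i : S => x i) i = ∑ j ∈ S, (M i j : ℚ) * x j := by
  unfold dg
  rw [← Finset.sum_coe_sort S (fun j => (M i j : ℚ) * x j)]

lemma LG.nonneg (h : LG S M κ a) {x : ι → ℚ}
    (hx : ∀ i ∈ S, ∑ j ∈ S, (M i j : ℚ) * x j ≤ 0) : ∀ i ∈ S, 0 ≤ x i := by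
  intro i hi
  exact nonneg_of h.iform (S := Set.univ) (x := fun i : S => x i)
    (fun j _ => by rw [dg_sub_type]; exact hx j j.2) (fun j hj => absurd (Set.mem_univ j) hj) ⟨i, hi⟩

lemma LG.pos (h : LG S M κ a) (hc : ConnOn S M) {x : ι → ℚ}
    (hx : ∀ i ∈ S, ∑ j ∈ S, (M i j : ℚ) * x j ≤ 0) {i₀ : ι} (hi₀ : i₀ ∈ S)
    (hlt : ∑ j ∈ S, (M i₀ j : ℚ) * x j < 0) : ∀ i ∈ S, 0 < x i := by
  have hconn : Conn (fun i j : S => (M i j : ℚ)) := by
    intro T hT hcl
    classical
    set T' : Finset ι := S.filter (fun i => ∃ hi : i ∈ S, (⟨i, hi⟩ : S) ∈ T) with hT'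
    have h1 : T' = S := by
      refine hc T' (Finset.filter_subset _ _) ?_ ?_
      · obtain ⟨t, ht⟩ := hT
        exact ⟨t, Finset.mem_filter.mpr ⟨t.2, t.2, ht⟩⟩
      · intro i hi j hj hij
        obtain ⟨hiS, hi', hiT⟩ := Finset.mem_filter.mp hi
        exact Finset.mem_filter.mpr ⟨hj, hj, hcl ⟨i, hi'⟩ hiT ⟨j, hj⟩ (by simpa using hij)⟩
    refine Set.eq_univ_of_forall fun j => ?_
    have : (j : ι) ∈ T' := by rw [h1]; exact j.2
    obtain ⟨_, hj'⟩ := Finset.mem_filter.mp this
    obtain ⟨_, hj⟩ := hj'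
    exact hj
  intro i hi
  refine pos_of_connected h.iform hconn (x := fun i : S => x i)
    (fun j => by rw [dg_sub_type]; exact hx j j.2) ?_ ⟨i, hi⟩
  intro h0
  have : ∑ j ∈ S, (M i₀ j : ℚ) * x j = 0 := by
    refine Finset.sum_eq_zero fun j hj => ?_
    have := congrFun h0 ⟨j, hj⟩
    simp only [Pi.zero_apply] at this
    rw [this]; simp
  linarith

lemma LG.diag (h : LG S M κ a) {i : ι} (hi : i ∈ S) : M i i ≤ -1 := by
  have := diag_neg h.iform ⟨i, hi⟩
  have h2 : (M i i : ℚ) < 0 := this
  have h3 : M i i < 0 := by exact_mod_cast h2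
  omega

/-- contracted intersection numbers -/
def cM (M : ι → ι → ℤ) (i₀ : ι) : ι → ι → ℤ := fun j l => M j l + M j i₀ * M l i₀
/-- contracted canonical degrees -/
def cκ (M : ι → ι → ℤ) (κ : ι → ℤ) (i₀ : ι) : ι → ℤ := fun j => κ j - M j i₀
/-- contracted outer degrees -/
def ca (M : ι → ι → ℤ) (a : ι → ℤ) (i₀ : ι) : ι → ℤ := fun j => a j + a i₀ * M j i₀

/-- contraction of a `(-1)`-curve -/
lemma LG.contract (h : LG S M κ a) {i₀ : ι} (hi₀ : i₀ ∈ S) (hM : M i₀ i₀ = -1) :
    LG (S.erase i₀) (cM M i₀) (cκ M κ i₀) (ca M a i₀) := by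
  have hoff : ∀ j ∈ S.erase i₀, 0 ≤ M j i₀ := fun j hj =>
    h.off j (Finset.mem_of_mem_erase hj) i₀ hi₀ (Finset.ne_of_mem_erase hj)
  refine ⟨fun i j => by simp only [cM]; rw [h.symm i j]; ring, ?_, ?_, ?_, ?_⟩
  · intro i hi j hj hij
    have := h.off i (Finset.mem_of_mem_erase hi) j (Finset.mem_of_mem_erase hj) hij
    have := mul_nonneg (hoff i hi) (hoff j hj)
    simp only [cM]; linarith
  · intro x hx hne
    set s : ℚ := ∑ j ∈ S.erase i₀, (M j i₀ : ℚ) * x j with hs
    have hx0 : x i₀ = 0 := hx i₀ (Finset.notMem_erase i₀ S)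
    set x' : ι → ℚ := fun i => if i = i₀ then s else x i with hx'
    have hx'i : ∀ i, i ≠ i₀ → x' i = x i := fun i hi => by simp [hx', hi]
    have hx'0 : x' i₀ = s := by simp [hx']
    have key := h.neg x' (fun i hi => by
        have : i ≠ i₀ := fun e => hi (e ▸ hi₀)
        rw [hx'i i this]
        exact hx i (fun h' => hi (Finset.mem_of_mem_erase h'))) (by
        intro h0
        apply hne
        funext i
        by_cases hi : i = i₀
        · rw [hi, hx0]; rfl
        · have := congrFun h0 i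
          rwa [hx'i i hi] at this)
    have e1 : ∀ i ∈ S.erase i₀, ∑ j ∈ S, x' i * ((M i j : ℚ) * x' j)
        = x i * ((M i i₀ : ℚ) * s) + ∑ j ∈ S.erase i₀, x i * ((M i j : ℚ) * x j) := by
      intro i hi
      rw [← Finset.add_sum_erase S _ hi₀, hx'0, hx'i i (Finset.ne_of_mem_erase hi)]
      congr 1
      refine Finset.sum_congr rfl fun j hj => ?_
      rw [hx'i j (Finset.ne_of_mem_erase hj)]
    have e2 : ∑ j ∈ S, x' i₀ * ((M i₀ j : ℚ) * x' j) = - s ^ 2 + s * s := by
      rw [← Finset.add_sum_erase S _ hi₀, hx'0, hM]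
      have : ∑ j ∈ S.erase i₀, s * ((M i₀ j : ℚ) * x' j) = s * s := by
        conv_rhs => rw [hs]
        rw [Finset.mul_sum]
        refine Finset.sum_congr rfl fun j hj => ?_
        rw [hx'i j (Finset.ne_of_mem_erase hj), h.symm i₀ j]
      rw [this]; push_cast; ring
    have e3 : ∑ i ∈ S, ∑ j ∈ S, x' i * ((M i j : ℚ) * x' j)
        = s ^ 2 + ∑ i ∈ S.erase i₀, ∑ j ∈ S.erase i₀, x i * ((M i j : ℚ) * x j) := by
      rw [← Finset.add_sum_erase S _ hi₀, e2, Finset.sum_congr rfl e1, Finset.sum_add_distrib]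
      have : ∑ i ∈ S.erase i₀, x i * ((M i i₀ : ℚ) * s) = s * s := by
        conv_rhs => rw [hs]
        rw [Finset.mul_sum]
        exact Finset.sum_congr rfl fun i _ => by ring
      rw [this]; ring
    have e4 : ∑ i ∈ S.erase i₀, ∑ j ∈ S.erase i₀, x i * (((cM M i₀ i j : ℤ) : ℚ) * x j)
        = s ^ 2 + ∑ i ∈ S.erase i₀, ∑ j ∈ S.erase i₀, x i * ((M i j : ℚ) * x j) := by
      have : s ^ 2 = ∑ i ∈ S.erase i₀, ∑ j ∈ S.erase i₀,
          ((M i i₀ : ℚ) * x i) * ((M j i₀ : ℚ) * x j) := by
        rw [sq]; conv_lhs => rw [hs]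
        rw [Finset.sum_mul_sum]
      rw [this, ← Finset.sum_add_distrib]
      refine Finset.sum_congr rfl fun i _ => ?_
      rw [← Finset.sum_add_distrib]
      refine Finset.sum_congr rfl fun j _ => ?_
      simp only [cM]; push_cast; ring
    rw [e4, ← e3]
    exact key
  · intro i hi
    have h1 := h.pa i (Finset.mem_of_mem_erase hi)
    have h2 := hoff i hi
    have h3 : 0 ≤ M i i₀ * M i i₀ - M i i₀ := by
      rcases h2.eq_or_lt with h | h
      · rw [← h]; norm_num
      · have : 1 ≤ M i i₀ := h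
        nlinarith
    simp only [cM, cκ]; linarith
  · intro i hi
    have h1 := h.a0 i (Finset.mem_of_mem_erase hi)
    have h2 := mul_nonneg (h.a0 i₀ hi₀) (hoff i hi)
    simp only [ca]; linarith

/-- the solution of the tail equation -/
def Sol (S : Finset ι) (M : ι → ι → ℤ) (κ a : ι → ℤ) (y : ι → ℚ) : Prop :=
  ∀ i ∈ S, ∑ j ∈ S, (M i j : ℚ) * y j = - ((κ i : ℚ) + a i)

lemma Sol.contract_eq {i₀ : ι} (hi₀ : i₀ ∈ S) (hM : M i₀ i₀ = -1)
    (hκ : κ i₀ = -1) (symm : ∀ i j, M i j = M j i) {y : ι → ℚ} (hy : Sol S M κ a y) :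
    ∑ j ∈ S.erase i₀, (M j i₀ : ℚ) * y j = y i₀ + 1 - a i₀ := by
  have h1 := hy i₀ hi₀
  rw [← Finset.add_sum_erase S _ hi₀, hM, hκ] at h1
  have : ∑ j ∈ S.erase i₀, (M i₀ j : ℚ) * y j = ∑ j ∈ S.erase i₀, (M j i₀ : ℚ) * y j :=
    Finset.sum_congr rfl fun j _ => by rw [symm i₀ j]
  rw [this] at h1
  push_cast at h1
  linarith


lemma Sol.contract {i₀ : ι} (hi₀ : i₀ ∈ S) (hM : M i₀ i₀ = -1)
    (hκ : κ i₀ = -1) (symm : ∀ i j, M i j = M j i) {y : ι → ℚ} (hy : Sol S M κ a y) :
    Sol (S.erase i₀) (cM M i₀) (cκ M κ i₀) (ca M a i₀) y := by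
  intro i hi
  have h1 := hy i (Finset.mem_of_mem_erase hi)
  rw [← Finset.add_sum_erase S _ hi₀] at h1
  have h2 := Sol.contract_eq hi₀ hM hκ symm hy
  have h3 : ∑ j ∈ S.erase i₀, ((cM M i₀ i j : ℤ) : ℚ) * y j
      = ∑ j ∈ S.erase i₀, (M i j : ℚ) * y j
        + (M i i₀ : ℚ) * ∑ j ∈ S.erase i₀, (M j i₀ : ℚ) * y j := by
    rw [Finset.mul_sum, ← Finset.sum_add_distrib]
    refine Finset.sum_congr rfl fun j _ => ?_
    simp only [cM]; push_cast; ring
  rw [h3, h2]
  simp only [cκ, ca]; push_cast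
  linear_combination h1

lemma LG.minus_one (h : LG S M κ a) {i : ι} (hi : i ∈ S) (hκ : κ i < 0) :
    M i i = -1 ∧ κ i = -1 := by
  have h1 := h.diag hi
  have h2 := h.pa i hi
  constructor <;> omega

/-- **Tail lemma.** On the curves meeting the outside, `y` is non-negative. -/
theorem tail_nonneg : ∀ (n : ℕ) (S : Finset ι) (M : ι → ι → ℤ) (κ a : ι → ℤ), S.card = n →
    LG S M κ a → ∀ y : ι → ℚ, Sol S M κ a y → ∀ i ∈ S, 0 < a i → 0 ≤ y i := by
  intro n
  induction n with
  | zero =>
    intro S M κ a hS _ y _ i hi _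
    rw [Finset.card_eq_zero] at hS
    subst hS; simp at hi
  | succ n ih =>
    intro S M κ a hS h y hy i hi hai
    by_cases hκ : ∃ i₀ ∈ S, κ i₀ < 0
    · obtain ⟨i₀, hi₀, hk⟩ := hκ
      obtain ⟨hM, hk1⟩ := h.minus_one hi₀ hk
      have hc := h.contract hi₀ hM
      have hs := Sol.contract hi₀ hM hk1 h.symm hy
      have hcard : (S.erase i₀).card = n := by rw [Finset.card_erase_of_mem hi₀, hS]; rfl
      have ih' := ih (S.erase i₀) _ _ _ hcard hc y hs
      have hoff : ∀ j ∈ S.erase i₀, 0 ≤ M j i₀ := fun j hj =>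
        h.off j (Finset.mem_of_mem_erase hj) i₀ hi₀ (Finset.ne_of_mem_erase hj)
      by_cases hii : i = i₀
      · subst hii
        have he := Sol.contract_eq hi hM hk1 h.symm hy
        have h0 : 0 ≤ ∑ j ∈ S.erase i, (M j i : ℚ) * y j := by
          refine Finset.sum_nonneg fun j hj => ?_
          rcases (hoff j hj).eq_or_lt with hz | hz
          · rw [← hz]; simp
          · refine mul_nonneg (by exact_mod_cast hz.le) (ih' j hj ?_)
            have h1 := h.a0 j (Finset.mem_of_mem_erase hj)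
            have h2 := mul_pos hai hz
            simp only [ca]; linarith
        have h1 : (1 : ℚ) ≤ a i := by exact_mod_cast hai
        linarith
      · have hi' : i ∈ S.erase i₀ := Finset.mem_erase.mpr ⟨hii, hi⟩
        refine ih' i hi' ?_
        have h2 := mul_nonneg (h.a0 i₀ hi₀) (hoff i hi')
        simp only [ca]; linarith
    · push_neg at hκ
      refine h.nonneg (fun j hj => ?_) i hi
      rw [hy j hj]
      have h1 : (0 : ℚ) ≤ κ j := by exact_mod_cast hκ j hj
      have h2 : (0 : ℚ) ≤ a j := by exact_mod_cast h.a0 j hj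
      linarith

lemma LG.conn_contract (h : LG S M κ a) (hc : ConnOn S M) {i₀ : ι} (hi₀ : i₀ ∈ S) :
    ConnOn (S.erase i₀) (cM M i₀) := by
  have hoff : ∀ j ∈ S.erase i₀, 0 ≤ M j i₀ := fun j hj =>
    h.off j (Finset.mem_of_mem_erase hj) i₀ hi₀ (Finset.ne_of_mem_erase hj)
  intro T hT hne hcl
  have hnotin : i₀ ∉ T := fun hh => Finset.notMem_erase i₀ S (hT hh)
  by_cases hadj : ∃ t ∈ T, M t i₀ ≠ 0
  · obtain ⟨t, ht, htm⟩ := hadj
    have htpos : 0 < M t i₀ := lt_of_le_of_ne (hoff t (hT ht)) (Ne.symm htm)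
    have hT' : insert i₀ T = S := by
      refine hc _ ?_ ⟨i₀, Finset.mem_insert_self _ _⟩ ?_
      · intro j hj
        rcases Finset.mem_insert.mp hj with e | e
        · rw [e]; exact hi₀
        · exact Finset.mem_of_mem_erase (hT e)
      · intro j hj l hl hjl
        by_cases hl0 : l = i₀
        · rw [hl0]; exact Finset.mem_insert_self _ _
        have hl' : l ∈ S.erase i₀ := Finset.mem_erase.mpr ⟨hl0, hl⟩
        refine Finset.mem_insert_of_mem ?_
        rcases Finset.mem_insert.mp hj with e | e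
        · rw [e] at hjl
          by_cases hlt : l = t
          · rw [hlt]; exact ht
          refine hcl t ht l hl' ?_
          have h1 := h.off t (Finset.mem_of_mem_erase (hT ht)) l hl (Ne.symm hlt)
          have h2 : 0 < M l i₀ := lt_of_le_of_ne (hoff l hl') (by
            rw [h.symm l i₀]; exact Ne.symm hjl)
          have h3 := mul_pos htpos h2
          simp only [cM]; omega
        · by_cases hlj : l = j
          · rw [hlj]; exact e
          refine hcl j e l hl' ?_
          have h1 := h.off j (Finset.mem_of_mem_erase (hT e)) l hl (Ne.symm hlj)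
          have h1' : 0 < M j l := lt_of_le_of_ne h1 (Ne.symm hjl)
          have h2 := mul_nonneg (hoff j (hT e)) (hoff l hl')
          simp only [cM]; omega
    rw [← hT', Finset.erase_insert hnotin]
  · push_neg at hadj
    exfalso
    have : T = S := by
      refine hc T (fun j hj => Finset.mem_of_mem_erase (hT hj)) hne ?_
      intro j hj l hl hjl
      by_cases hl0 : l = i₀
      · rw [hl0] at hjl; exact absurd (hadj j hj) hjl
      refine hcl j hj l (Finset.mem_erase.mpr ⟨hl0, hl⟩) ?_
      simp only [cM, hadj j hj]; simpa using hjl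
    exact hnotin (this ▸ hi₀)

/-- **Rigid tails.** If `y` vanishes on a curve of a connected `S` meeting the outside, then `S`
meets the outside exactly once. -/
theorem tail_eq_zero : ∀ (n : ℕ) (S : Finset ι) (M : ι → ι → ℤ) (κ a : ι → ℤ), S.card = n →
    LG S M κ a → ConnOn S M → ∀ y : ι → ℚ, Sol S M κ a y → ∀ t ∈ S, 0 < a t → y t = 0 →
    ∑ i ∈ S, a i = 1 := by
  intro n
  induction n with
  | zero =>
    intro S M κ a hS _ _ y _ i hi _ _
    rw [Finset.card_eq_zero] at hS
    subst hS; simp at hi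
  | succ n ih =>
    intro S M κ a hS h hconn y hy t ht hat hyt
    by_cases hκ : ∃ i₀ ∈ S, κ i₀ < 0
    · obtain ⟨i₀, hi₀, hk⟩ := hκ
      obtain ⟨hM, hk1⟩ := h.minus_one hi₀ hk
      have hc := h.contract hi₀ hM
      have hs := Sol.contract hi₀ hM hk1 h.symm hy
      have hcard : (S.erase i₀).card = n := by rw [Finset.card_erase_of_mem hi₀, hS]; rfl
      have hcc := h.conn_contract hconn hi₀
      have ih' := ih (S.erase i₀) _ _ _ hcard hc hcc y hs
      have hoff : ∀ j ∈ S.erase i₀, 0 ≤ M j i₀ := fun j hj =>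
        h.off j (Finset.mem_of_mem_erase hj) i₀ hi₀ (Finset.ne_of_mem_erase hj)
      have hsum : ∑ j ∈ S.erase i₀, ca M a i₀ j
          = ∑ j ∈ S.erase i₀, a j + a i₀ * ∑ j ∈ S.erase i₀, M j i₀ := by
        simp only [ca, Finset.sum_add_distrib, Finset.mul_sum]
      have hsplit : ∑ i ∈ S, a i = a i₀ + ∑ j ∈ S.erase i₀, a j :=
        (Finset.add_sum_erase S _ hi₀).symm
      -- either `S = {i₀}` or some curve meets `i₀`
      have hadj : S.erase i₀ = ∅ ∨ 1 ≤ ∑ j ∈ S.erase i₀, M j i₀ := by
        by_cases he : S.erase i₀ = ∅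
        · exact Or.inl he
        · right
          have hex : ∃ j ∈ S.erase i₀, M j i₀ ≠ 0 := by
            by_contra hcon
            push_neg at hcon
            have : ({i₀} : Finset ι) = S := by
              refine hconn _ (by simpa using hi₀) ⟨i₀, by simp⟩ ?_
              intro i hi j hj hij
              rw [Finset.mem_singleton] at hi ⊢
              subst hi
              by_contra hji
              exact hij (by rw [h.symm i j]; exact hcon j (Finset.mem_erase.mpr ⟨hji, hj⟩))
            apply he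
            rw [← this]; simp
          obtain ⟨j, hj, hjm⟩ := hex
          have h1 : 1 ≤ M j i₀ := lt_of_le_of_ne (hoff j hj) (Ne.symm hjm)
          exact h1.trans (Finset.single_le_sum (f := fun j => M j i₀) hoff hj)
      have hA0 : 0 ≤ ∑ j ∈ S.erase i₀, a j :=
        Finset.sum_nonneg fun j hj => h.a0 j (Finset.mem_of_mem_erase hj)
      by_cases hti : t = i₀
      · subst hti
        have he := Sol.contract_eq ht hM hk1 h.symm hy
        have hnn : ∀ j ∈ S.erase t, 0 ≤ (M j t : ℚ) * y j := by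
          intro j hj
          rcases (hoff j hj).eq_or_lt with hz | hz
          · rw [← hz]; simp
          · refine mul_nonneg (by exact_mod_cast hz.le)
              (tail_nonneg n _ _ _ _ hcard hc y hs j hj ?_)
            have h1 := h.a0 j (Finset.mem_of_mem_erase hj)
            have h2 := mul_pos hat hz
            simp only [ca]; linarith
        have h0 := Finset.sum_nonneg hnn
        have h1 : (1 : ℚ) ≤ a t := by exact_mod_cast hat
        have hat1 : (a t : ℚ) = 1 := by linarith
        have hat1' : a t = 1 := by exact_mod_cast hat1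
        have hz : ∑ j ∈ S.erase t, (M j t : ℚ) * y j = 0 := by linarith
        rcases hadj with he' | hge
        · rw [hsplit, he', hat1']; simp
        · have hex : ∃ j ∈ S.erase t, 0 < M j t := by
            by_contra hcon
            push_neg at hcon
            have : ∑ j ∈ S.erase t, M j t ≤ 0 := Finset.sum_nonpos hcon
            omega
          obtain ⟨j, hj, hjm⟩ := hex
          have hyj : y j = 0 := by
            have := (Finset.sum_eq_zero_iff_of_nonneg hnn).mp hz j hj
            rcases mul_eq_zero.mp this with h' | h'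
            · exact absurd h' (by exact_mod_cast hjm.ne')
            · exact h'
          have haj : 0 < ca M a t j := by
            have h1 := h.a0 j (Finset.mem_of_mem_erase hj)
            have h2 := mul_pos hat hjm
            simp only [ca]; linarith
          have := ih' j hj haj hyj
          rw [hsum, hat1'] at this
          rw [hsplit, hat1']
          linarith
      · have ht' : t ∈ S.erase i₀ := Finset.mem_erase.mpr ⟨hti, ht⟩
        have hat' : 0 < ca M a i₀ t := by
          have h2 := mul_nonneg (h.a0 i₀ hi₀) (hoff t ht')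
          simp only [ca]; linarith
        have h1 := ih' t ht' hat' hyt
        rcases hadj with he' | hge
        · rw [he'] at ht'; simp at ht'
        · rw [hsum] at h1
          have h2 := mul_le_mul_of_nonneg_left hge (h.a0 i₀ hi₀)
          have h3 : a t ≤ ∑ i ∈ S, a i := Finset.single_le_sum (f := a) (fun j hj => h.a0 j hj) ht
          rw [hsplit] at h3 ⊢
          linarith
    · push_neg at hκ
      exfalso
      have hle : ∀ j ∈ S, ∑ l ∈ S, (M j l : ℚ) * y l ≤ 0 := by
        intro j hj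
        rw [hy j hj]
        have h1 : (0 : ℚ) ≤ κ j := by exact_mod_cast hκ j hj
        have h2 : (0 : ℚ) ≤ a j := by exact_mod_cast h.a0 j hj
        linarith
      have hlt : ∑ l ∈ S, (M t l : ℚ) * y l < 0 := by
        rw [hy t ht]
        have h1 : (0 : ℚ) ≤ κ t := by exact_mod_cast hκ t ht
        have h2 : (0 : ℚ) < a t := by exact_mod_cast hat
        linarith
      have := h.pos hconn hle ht hlt t ht
      linarith

end Crest.Agent.R257.Gr2_157
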