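import Crest.Agent.R257.Gr2_157

/-!
# The `P`-trivial curves with `N = 0` are rational (row 257, part C, leaf C-GR)

`M` = intersection matrix (integers) of the exceptional curves of a log resolution of a normal
surface germ, `g i` = genus, `v` = the cycle with `K + E ≡ - v`, `q` = the least anti-nef cycle
above `v` (`Gr1_157.exists_least`), so `P = - q`, `N = q - v`.

* `deg_ge` : `P.E_i ≥ 2 g_i - 2 + #(neighbours with N = 0)` when `N_i = 0`.
* `genus_eq_zero` : if `P ≢ 0`, `N_i = 0`, `P.E_i = 0` then `g_i = 0`.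
-/

set_option autoImplicit false
set_option linter.unusedSectionVars false
set_option linter.deprecated false

namespace Crest.Agent.R257.Gr3_157

open Finset Crest.Agent.R257.Gr1_157 Crest.Agent.R257.Gr2_157

variable {ι : Type*} [Fintype ι] [DecidableEq ι] {M : ι → ι → ℤ}

/-- the rational matrix -/
abbrev Mq (M : ι → ι → ℤ) : ι → ι → ℚ := fun i j => (M i j : ℚ)

lemma symm_of (hM : IForm (Mq M)) (i j : ι) : M i j = M j i := by
  have := hM.symm i j
  exact_mod_cast this

lemma off_of (hM : IForm (Mq M)) {i j : ι} (hij : i ≠ j) : 0 ≤ M i j := by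
  have : (0 : ℚ) ≤ (M i j : ℚ) := hM.off i j hij
  exact_mod_cast this

lemma lg_of (hM : IForm (Mq M)) (S : Finset ι) {κ a : ι → ℤ} (hpa : ∀ i ∈ S, -2 ≤ κ i + M i i)
    (ha : ∀ i ∈ S, 0 ≤ a i) : LG S M κ a := by
  refine ⟨symm_of hM, fun i _ j _ hij => off_of hM hij, fun x hx hne => ?_, hpa, ha⟩
  have h1 := hM.neg x hne
  have h2 : dt (Mq M) x x = ∑ i ∈ S, ∑ j ∈ S, x i * ((M i j : ℚ) * x j) := by
    unfold dt
    symm
    have e1 : ∀ i, ∑ j ∈ S, x i * ((M i j : ℚ) * x j) = ∑ j, x i * ((M i j : ℚ) * x j) := fun i =>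
      Finset.sum_subset (Finset.subset_univ _) fun j _ hj => by rw [hx j hj]; simp
    simp only [e1]
    exact Finset.sum_subset (Finset.subset_univ _) fun j _ hj => by simp [hx j hj]
  rw [← h2]; exact h1

/-- the data of a log resolution of a germ -/
structure Germ (M : ι → ι → ℤ) (g : ι → ℕ) (v q : ι → ℚ) : Prop where
  form : IForm (Mq M)
  adj : ∀ i, dg (Mq M) v i = -(2 * (g i : ℚ) - 2 + ∑ j ∈ univ.erase i, (M i j : ℚ))
  le : ∀ i, v i ≤ q i
  nef : ∀ i, dg (Mq M) q i ≤ 0
  triv : ∀ i, q i ≠ v i → dg (Mq M) q i = 0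

variable {g : ι → ℕ} {v q : ι → ℚ}

/-- support of `N` -/
def supN (v q : ι → ℚ) : Finset ι := univ.filter fun i => q i ≠ v i

/-- the coefficient `1 - N` -/
def yy (v q : ι → ℚ) : ι → ℚ := fun i => 1 - (q i - v i)

lemma mem_supN {i : ι} : i ∈ supN v q ↔ q i ≠ v i := by simp [supN]

lemma yy_eq_one {i : ι} (hi : i ∉ supN v q) : yy v q i = 1 := by
  have : q i = v i := by by_contra h; exact hi (mem_supN.mpr h)
  simp [yy, this]

/-- canonical degrees -/
def kap (M : ι → ι → ℤ) (g : ι → ℕ) : ι → ℤ := fun i => 2 * (g i : ℤ) - 2 - M i i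

/-- intersection with the curves with `N = 0` -/
def aa (M : ι → ι → ℤ) (v q : ι → ℚ) : ι → ℤ := fun i => ∑ j ∈ univ \ supN v q, M i j

lemma dg_yy (h : Germ M g v q) (i : ι) :
    ∑ j, (M i j : ℚ) * yy v q j = -(kap M g i : ℚ) - dg (Mq M) q i := by
  have h1 := h.adj i
  have h2 : ∑ j, (M i j : ℚ) * yy v q j
      = ∑ j, (M i j : ℚ) - dg (Mq M) q i + dg (Mq M) v i := by
    simp only [yy, dg, ← Finset.sum_sub_distrib, ← Finset.sum_add_distrib]
    exact Finset.sum_congr rfl fun j _ => by ring
  have h3 : ∑ j, (M i j : ℚ) = M i i + ∑ j ∈ univ.erase i, (M i j : ℚ) :=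
    (Finset.add_sum_erase univ (fun j => (M i j : ℚ)) (Finset.mem_univ i)).symm
  rw [h2, h1, h3]
  simp only [kap]; push_cast; ring

lemma sum_split (i : ι) (v q : ι → ℚ) :
    ∑ j, (M i j : ℚ) * yy v q j
      = ∑ j ∈ supN v q, (M i j : ℚ) * yy v q j + (aa M v q i : ℚ) := by
  rw [← Finset.sum_sdiff (Finset.subset_univ (supN v q)), add_comm]
  congr 1
  simp only [aa]; push_cast
  refine Finset.sum_congr rfl fun j hj => ?_
  rw [yy_eq_one (Finset.mem_sdiff.mp hj).2]; ring

lemma aa_nonneg (h : Germ M g v q) {i : ι} (hi : i ∈ supN v q) : 0 ≤ aa M v q i := by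
  refine Finset.sum_nonneg fun j hj => off_of h.form ?_
  rintro rfl
  exact (Finset.mem_sdiff.mp hj).2 hi

lemma sol_sup (h : Germ M g v q) : Sol (supN v q) M (kap M g) (aa M v q) (yy v q) := by
  intro i hi
  have h1 := dg_yy h i
  rw [sum_split, h.triv i (mem_supN.mp hi)] at h1
  linarith

/-- the connected component of `l` in the support of `N` -/
def comp (M : ι → ι → ℤ) (v q : ι → ℚ) (l : ι) : Set ι :=
  {j | j ∈ supN v q ∧ Relation.ReflTransGen (fun a b => b ∈ supN v q ∧ M a b ≠ 0) l j}

/-- `y ≥ 0` on the curves of the support of `N` meeting the curves with `N = 0` -/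
lemma yy_nonneg (h : Germ M g v q) {j : ι} (hj : j ∈ supN v q) (ha : 0 < aa M v q j) :
    0 ≤ yy v q j :=
  tail_nonneg _ _ _ _ _ rfl
    (lg_of h.form _ (fun i _ => by simp only [kap]; have := Int.natCast_nonneg (g i); omega)
      fun i hi => aa_nonneg h hi) _ (sol_sup h) j hj ha

lemma aa_pos (h : Germ M g v q) {i j : ι} (hi : i ∉ supN v q) (hj : j ∈ supN v q)
    (hij : M j i ≠ 0) : 0 < aa M v q j := by
  have hne : j ≠ i := fun e => hi (e ▸ hj)
  have h1 : 0 < M j i := lt_of_le_of_ne (off_of h.form hne) (Ne.symm hij)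
  refine lt_of_lt_of_le h1 (Finset.single_le_sum (f := fun l => M j l) ?_ ?_)
  · intro l hl
    refine off_of h.form ?_
    rintro rfl
    exact (Finset.mem_sdiff.mp hl).2 hj
  · exact Finset.mem_sdiff.mpr ⟨Finset.mem_univ _, hi⟩

/-- degree of `P` on a curve with `N = 0` -/
lemma deg_eq (h : Germ M g v q) {i : ι} (hi : i ∉ supN v q) :
    - dg (Mq M) q i = 2 * (g i : ℚ) - 2 + ∑ j ∈ (univ \ supN v q).erase i, (M i j : ℚ)
      + ∑ j ∈ supN v q, (M i j : ℚ) * yy v q j := by
  have h1 := dg_yy h i
  rw [sum_split] at h1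
  have h2 : (aa M v q i : ℚ) = M i i + ∑ j ∈ (univ \ supN v q).erase i, (M i j : ℚ) := by
    simp only [aa]; push_cast
    exact (Finset.add_sum_erase _ (fun j => (M i j : ℚ))
      (Finset.mem_sdiff.mpr ⟨Finset.mem_univ i, hi⟩)).symm
  rw [h2] at h1
  simp only [kap] at h1; push_cast at h1
  linarith

lemma terms_nonneg (h : Germ M g v q) {i : ι} (hi : i ∉ supN v q) :
    ∀ j ∈ supN v q, 0 ≤ (M i j : ℚ) * yy v q j := by
  intro j hj
  have hne : i ≠ j := fun e => hi (e ▸ hj)
  by_cases hz : M i j = 0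
  · rw [hz]; simp
  · have hz' : M j i ≠ 0 := by rw [symm_of h.form j i]; exact hz
    exact mul_nonneg (by exact_mod_cast off_of h.form hne) (yy_nonneg h hj (aa_pos h hi hj hz'))

/-- **lower bound** of the degree of `P` on a curve with `N = 0` -/
theorem deg_ge (h : Germ M g v q) {i : ι} (hi : q i = v i) :
    2 * (g i : ℚ) - 2 + ∑ j ∈ (univ \ supN v q).erase i, (M i j : ℚ) ≤ - dg (Mq M) q i := by
  have hi' : i ∉ supN v q := fun hh => mem_supN.mp hh hi
  rw [deg_eq h hi']
  have := Finset.sum_nonneg (terms_nonneg h hi')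
  linarith

open Classical in
/-- **rationality** of the `P`-trivial curves with `N = 0` -/
theorem genus_eq_zero (h : Germ M g v q) (hc : Conn (Mq M)) (hP : ∃ i, dg (Mq M) q i ≠ 0)
    {i : ι} (hi : q i = v i) (hd : dg (Mq M) q i = 0) : g i = 0 := by
  by_contra hg
  have hg1 : 1 ≤ g i := Nat.one_le_iff_ne_zero.mpr hg
  have hi' : i ∉ supN v q := fun hh => mem_supN.mp hh hi
  have h1 := deg_eq h hi'
  have hs1 := terms_nonneg h hi'
  have hs2 : ∀ j ∈ (univ \ supN v q).erase i, (0 : ℚ) ≤ (M i j : ℚ) := by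
    intro j hj
    exact_mod_cast off_of h.form (Finset.ne_of_mem_erase hj).symm
  have hgq : (1 : ℚ) ≤ g i := by exact_mod_cast hg1
  have n1 := Finset.sum_nonneg hs1
  have n2 := Finset.sum_nonneg hs2
  have z1 : ∑ j ∈ supN v q, (M i j : ℚ) * yy v q j = 0 := by linarith
  have z2 : ∑ j ∈ (univ \ supN v q).erase i, (M i j : ℚ) = 0 := by linarith
  have w1 := (Finset.sum_eq_zero_iff_of_nonneg hs1).mp z1
  have w2 := (Finset.sum_eq_zero_iff_of_nonneg hs2).mp z2
  -- the closed set
  let R : ι → ι → Prop := fun a b => b ∈ supN v q ∧ M a b ≠ 0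
  let U : Set ι := {j | Relation.ReflTransGen R i j}
  have hUS : ∀ j ∈ U, j = i ∨ j ∈ supN v q := by
    intro j hj
    rcases Relation.ReflTransGen.cases_tail hj with e | ⟨b, -, hb⟩
    · exact Or.inl e
    · exact Or.inr hb.1
  -- a component adjacent to `i` meets the outside only in `i`
  have hcomp : ∀ l ∈ supN v q, M i l ≠ 0 → ∀ j, Relation.ReflTransGen R l j → ∀ m,
      M j m ≠ 0 → m ∉ supN v q → m = i := by
    intro l hl hil j hlj m hjm hm
    set C : Finset ι := (supN v q).filter fun b => Relation.ReflTransGen R l b with hC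
    have hlC : l ∈ C := Finset.mem_filter.mpr ⟨hl, Relation.ReflTransGen.refl⟩
    have hjS : j ∈ supN v q := by
      rcases Relation.ReflTransGen.cases_tail hlj with e | ⟨b, -, hb⟩
      · rw [e]; exact hl
      · exact hb.1
    have hjC : j ∈ C := Finset.mem_filter.mpr ⟨hjS, hlj⟩
    have hcl : ∀ a ∈ C, ∀ b ∈ supN v q, b ∉ C → M a b = 0 := by
      intro a ha b hb hbC
      by_contra hne
      exact hbC (Finset.mem_filter.mpr ⟨hb, (Finset.mem_filter.mp ha).2.tail ⟨hb, hne⟩⟩)
    have hlg : LG C M (kap M g) (aa M v q) :=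
      lg_of h.form _ (fun b _ => by simp only [kap]; have := Int.natCast_nonneg (g b); omega)
        fun b hb => aa_nonneg h (Finset.mem_filter.mp hb).1
    have hsol : Sol C M (kap M g) (aa M v q) (yy v q) := by
      intro a ha
      rw [← sol_sup h a (Finset.mem_filter.mp ha).1]
      refine Finset.sum_subset (Finset.filter_subset _ _) fun b hb hbC => ?_
      rw [hcl a ha b hb hbC]; simp
    have hconn : ConnOn C M := by
      intro T hT hne hcT
      obtain ⟨t, ht⟩ := hne
      -- `l ∈ T`
      have hlT : l ∈ T := by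
        have hpath : Relation.ReflTransGen R l t := (Finset.mem_filter.mp (hT ht)).2
        -- walk backwards
        have : ∀ b, Relation.ReflTransGen R l b → b ∈ T → l ∈ T := by
          intro b hb
          induction hb with
          | refl => exact fun hx => hx
          | tail hab hbc ih =>
            intro hcT'
            rename_i a c
            refine ih (hcT c hcT' a ?_ (by rw [symm_of h.form c a]; exact hbc.2))
            refine Finset.mem_filter.mpr ⟨?_, hab⟩
            rcases Relation.ReflTransGen.cases_tail hab with e | ⟨d, -, hd'⟩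
            · rw [e]; exact hl
            · exact hd'.1
        exact this t hpath ht
      refine Finset.Subset.antisymm hT fun b hb => ?_
      have hpath : Relation.ReflTransGen R l b := (Finset.mem_filter.mp hb).2
      clear hb
      induction hpath with
      | refl => exact hlT
      | tail hab hbc ih =>
        exact hcT _ ih _ (Finset.mem_filter.mpr ⟨hbc.1, hab.tail hbc⟩) hbc.2
    have hyl : yy v q l = 0 := by
      rcases mul_eq_zero.mp (w1 l hl) with e | e
      · exact absurd (by exact_mod_cast e) hil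
      · exact e
    have hli : M l i ≠ 0 := by rw [symm_of h.form l i]; exact hil
    have htot := tail_eq_zero _ C M _ _ rfl hlg hconn _ hsol l hlC (aa_pos h hi' hl hli) hyl
    by_contra hmi
    -- both `M l i` and `M j m` contribute
    have hnli : l ≠ i := by
      rintro rfl
      exact hi' hl
    have hnjm : j ≠ m := by
      rintro rfl
      exact hm hjS
    have ha1 : 1 ≤ M l i := lt_of_le_of_ne (off_of h.form hnli) (Ne.symm hli)
    have ha2 : 1 ≤ M j m := lt_of_le_of_ne (off_of h.form hnjm) (Ne.symm hjm)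
    have hge : ∀ b ∈ C, M b i + M b m ≤ aa M v q b := by
      intro b hb
      have hbS := (Finset.mem_filter.mp hb).1
      have hsub : ({i, m} : Finset ι) ⊆ univ \ supN v q := by
        intro c hc
        rcases Finset.mem_insert.mp hc with e | e
        · rw [e]; exact Finset.mem_sdiff.mpr ⟨Finset.mem_univ _, hi'⟩
        · rw [Finset.mem_singleton.mp e]; exact Finset.mem_sdiff.mpr ⟨Finset.mem_univ _, hm⟩
      have := Finset.sum_le_sum_of_subset_of_nonneg (f := fun c => M b c) hsub (fun c hc _ => by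
        refine off_of h.form ?_
        rintro rfl
        exact (Finset.mem_sdiff.mp hc).2 hbS)
      rw [Finset.sum_pair (Ne.symm hmi)] at this
      exact this
    have hbi : ∀ b ∈ C, 0 ≤ M b i := by
      intro b hb
      refine off_of h.form ?_
      rintro rfl
      exact hi' (Finset.mem_filter.mp hb).1
    have hbm : ∀ b ∈ C, 0 ≤ M b m := by
      intro b hb
      refine off_of h.form ?_
      rintro rfl
      exact hm (Finset.mem_filter.mp hb).1
    have s1 : M l i ≤ ∑ b ∈ C, M b i := Finset.single_le_sum (f := fun b => M b i) hbi hlC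
    have s2 : M j m ≤ ∑ b ∈ C, M b m := Finset.single_le_sum (f := fun b => M b m) hbm hjC
    have s3 : ∑ b ∈ C, (M b i + M b m) ≤ ∑ b ∈ C, aa M v q b := Finset.sum_le_sum hge
    rw [Finset.sum_add_distrib] at s3
    omega
  have hU : U = Set.univ := by
    refine hc U ⟨i, Relation.ReflTransGen.refl⟩ ?_
    intro a ha b hab
    have hab' : M a b ≠ 0 := by intro e; apply hab; simp [Mq, e]
    by_cases hbS : b ∈ supN v q
    · exact Relation.ReflTransGen.tail ha ⟨hbS, hab'⟩
    · -- `b = i`
      have hbi : b = i := by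
        rcases Relation.ReflTransGen.cases_head ha with e | ⟨l, hl, hla⟩
        · subst e
          by_contra hne
          have := w2 b (Finset.mem_erase.mpr ⟨hne, Finset.mem_sdiff.mpr ⟨Finset.mem_univ _, hbS⟩⟩)
          exact hab' (by exact_mod_cast this)
        · exact hcomp l hl.1 hl.2 a hla b hab' hbS
      rw [hbi]; exact Relation.ReflTransGen.refl
  obtain ⟨j, hj⟩ := hP
  apply hj
  have hjU : j ∈ U := by rw [hU]; exact Set.mem_univ j
  rcases hUS j hjU with e | e
  · rw [e]; exact hd
  · exact h.triv j (mem_supN.mp e)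

end Crest.Agent.R257.Gr3_157
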