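import Crest.Agent.R257.Gr1_157

/-!
# The killing weights (row 257, part C, leaf C-TIE)

`M` an intersection form, `p ≥ nu` with `dg M p ≤ 0`; `T = {dg M p = 0}` (null vertices),
`S = {p = nu}`. `A` is a set of null vertices where `p - nu = n`.

* `Rch M p A l` : there is a path of null vertices outside `A` from `l` to a non-null vertex;
* `Tch M p A l` : there is a path of null vertices outside `A` from `l` to a neighbour of `A`;
* `weight` : for all large `k` there is `y` with `dg M y < 0` everywhere, `y + nu = k p` on `A`,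
  `y + nu < k p` off `A`, `y + nu > k p - ε` on `S`, invariant under the automorphisms preserving
  `M`, `p`, `A`.
* `exists_far` : the null vertices of `S` at maximal distance from the non-null vertices satisfy
  the hypotheses of `weight` with `n = 0`.
-/

set_option autoImplicit false
set_option linter.unusedSectionVars false
set_option linter.deprecated false

namespace Crest.Agent.R257.Gr4_157

open Finset Crest.Agent.R257.Gr1_157

variable {ι : Type*} [Fintype ι]

/-- path of null vertices outside `A` from `l` to a non-null vertex -/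
inductive Rch (M : ι → ι → ℝ) (p : ι → ℝ) (A : Set ι) : ι → Prop
  | base {l j : ι} : dg M p l = 0 → l ∉ A → M l j ≠ 0 → dg M p j ≠ 0 → Rch M p A l
  | step {l j : ι} : dg M p l = 0 → l ∉ A → M l j ≠ 0 → Rch M p A j → Rch M p A l

/-- path of null vertices outside `A` from `l` to a neighbour of `A` -/
inductive Tch (M : ι → ι → ℝ) (p : ι → ℝ) (A : Set ι) : ι → Prop
  | base {l j : ι} : dg M p l = 0 → l ∉ A → M l j ≠ 0 → j ∈ A → Tch M p A l
  | step {l j : ι} : dg M p l = 0 → l ∉ A → M l j ≠ 0 → Tch M p A j → Tch M p A l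

variable {M : ι → ι → ℝ} {p nu : ι → ℝ} {A : Set ι}

lemma Rch.null {l : ι} (h : Rch M p A l) : dg M p l = 0 ∧ l ∉ A := by
  cases h with
  | base h1 h2 _ _ => exact ⟨h1, h2⟩
  | step h1 h2 _ _ => exact ⟨h1, h2⟩

lemma Tch.null {l : ι} (h : Tch M p A l) : dg M p l = 0 ∧ l ∉ A := by
  cases h with
  | base h1 h2 _ _ => exact ⟨h1, h2⟩
  | step h1 h2 _ _ => exact ⟨h1, h2⟩

/-- the Dirichlet problem -/
lemma dirichlet (hM : IForm M) (B : Set ι) (b d : ι → ℝ) :
    ∃ x : ι → ℝ, (∀ i, i ∉ B → x i = b i) ∧ ∀ i ∈ B, dg M x i = d i := by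
  classical
  obtain ⟨x, h1, h2⟩ := exists_sol hM B (fun i => d i - dg M (fun j => if j ∈ B then 0 else b j) i)
  refine ⟨x + fun j => if j ∈ B then 0 else b j, fun i hi => by simp [h1 i hi, hi], fun i hi => ?_⟩
  rw [dg_add, h2 i hi]; ring

lemma dg_comp {σ : Equiv.Perm ι} (hσ : ∀ i j, M (σ i) (σ j) = M i j) (x : ι → ℝ) (i : ι) :
    dg M (fun j => x (σ j)) i = dg M x (σ i) := by
  unfold dg
  rw [← Equiv.sum_comp σ (fun j => M (σ i) j * x j)]
  exact Finset.sum_congr rfl fun j _ => by rw [hσ]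

lemma perm_unique (hM : IForm M) {B : Set ι} {x : ι → ℝ} {σ : Equiv.Perm ι}
    (hσ : ∀ i j, M (σ i) (σ j) = M i j)
    (hx : ∀ i, i ∉ B → x (σ i) = x i) (hd : ∀ i ∈ B, dg M x (σ i) = dg M x i) (i : ι) :
    x (σ i) = x i := by
  have : (fun j => x (σ j)) = x := sol_unique hM (S := B) hx
    (fun i hi => by rw [dg_comp hσ]; exact hd i hi)
  exact congrFun this i

/-- positivity on `Rch` of a function harmonic on the null vertices outside `A` -/
lemma pos_of_rch (hM : IForm M) {x : ι → ℝ} (h0 : ∀ i, 0 ≤ x i)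
    (h1 : ∀ i, dg M p i ≠ 0 → 0 < x i) (h2 : ∀ i, dg M p i = 0 → i ∉ A → dg M x i ≤ 0) {l : ι}
    (h : Rch M p A l) : 0 < x l := by
  induction h with
  | @base l j a b c d =>
    refine lt_of_le_of_ne (h0 l) fun e => ?_
    exact (h1 j d).ne' (nbr_zero hM h0 e.symm (h2 l a b) c)
  | @step l j a b c d ih =>
    refine lt_of_le_of_ne (h0 l) fun e => ?_
    exact ih.ne' (nbr_zero hM h0 e.symm (h2 l a b) c)

/-- vanishing off `Tch` -/
lemma zero_of_not_tch (hM : IForm M) {x : ι → ℝ} (h1 : ∀ i, dg M p i ≠ 0 → x i = 0)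
    (h2 : ∀ i, dg M p i = 0 → i ∉ A → dg M x i = 0) {l : ι} (hl : l ∉ A) (h : ¬ Tch M p A l) :
    x l = 0 := by
  classical
  set z : ι → ℝ := fun i => if i ∈ A ∨ Tch M p A i then x i else 0 with hz
  have key : z = x := by
    refine sol_unique hM (S := {i | dg M p i = 0 ∧ i ∉ A}) ?_ ?_
    · intro i hi
      simp only [Set.mem_setOf_eq, not_and, not_not] at hi
      by_cases ha : i ∈ A
      · simp [hz, ha]
      · have : dg M p i ≠ 0 := fun e => ha (hi e)
        simp [hz, h1 i this]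
    · rintro i ⟨hi, hiA⟩
      by_cases ht : Tch M p A i
      · unfold dg
        refine Finset.sum_congr rfl fun j _ => ?_
        by_cases hm : M i j = 0
        · simp [hm]
        · congr 1
          by_cases hj : j ∈ A
          · simp [hz, hj]
          · by_cases hjp : dg M p j = 0
            · have : Tch M p A j := Tch.step hjp hj (by rw [hM.symm]; exact hm) ht
              simp [hz, this]
            · simp [hz, h1 j hjp]
      · rw [h2 i hi hiA]
        unfold dg
        refine Finset.sum_eq_zero fun j _ => ?_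
        by_cases hm : M i j = 0
        · simp [hm]
        · have h3 : ¬ (j ∈ A ∨ Tch M p A j) := by
            rintro (hj | hj)
            · exact ht (Tch.base hi hiA hm hj)
            · exact ht (Tch.step hi hiA hm hj)
          simp [hz, h3]
  rw [← key]
  simp [hz, hl, h]

/-- a positive constant smaller than finitely many positive ones -/
lemma exists_small (s : ι → ℝ) (hs : ∀ i, 0 < s i) : ∃ c : ℝ, 0 < c ∧ ∀ i, c < s i := by
  rcases isEmpty_or_nonempty ι with h | h
  · exact ⟨1, one_pos, fun i => (h.false i).elim⟩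
  · obtain ⟨i, hi⟩ := Finite.exists_min s
    exact ⟨s i / 2, by linarith [hs i], fun j => by linarith [hs i, hi j]⟩

/-- a positive multiple small with respect to finitely many positive numbers -/
lemma exists_small_mul (s t : ι → ℝ) (hs : ∀ i, 0 < s i) :
    ∃ c : ℝ, 0 < c ∧ ∀ i, c * t i < s i := by
  obtain ⟨c, hc, h⟩ := exists_small (fun i => s i / (1 + |t i|)) (fun i => by
    have := hs i; positivity)
  refine ⟨c, hc, fun i => ?_⟩
  have h1 := h i
  have h2 : (0 : ℝ) < 1 + |t i| := by positivity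
  rw [lt_div_iff₀ h2] at h1
  nlinarith [le_abs_self (t i)]

/-- the vertices where the weight is small -/
def Good (M : ι → ι → ℝ) (p nu : ι → ℝ) (A : Set ι) (n : ℝ) (i : ι) : Prop :=
  dg M p i ≠ 0 ∨ n < p i - nu i ∨
    (Rch M p A i ∨ 0 < p i - nu i) ∧ (n ≠ 0 → ¬ Tch M p A i)

/-- **The weight lemma**, pointwise form. -/
theorem weight' (hM : IForm M) (hge : ∀ i, nu i ≤ p i) (hdg : ∀ i, dg M p i ≤ 0)
    (hA : ∀ i ∈ A, dg M p i = 0) {n : ℝ} (hn : 0 ≤ n) (hAn : ∀ i ∈ A, p i - nu i = n)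
    (rs : n ≠ 0 → ∀ i, ∑ j, M i j ≤ 0)
    (h2 : ∀ i ∈ A, ∃ l, l ∉ A ∧ M i l ≠ 0 ∧ (dg M p l ≠ 0 ∨ Rch M p A l))
    {ε : ℝ} (hε : 0 < ε) :
    ∃ k₀ : ℝ, ∀ k : ℝ, k₀ ≤ k → ∃ y : ι → ℝ, (∀ i, dg M y i < 0) ∧
      (∀ i ∈ A, y i + nu i = k * p i) ∧
      (∀ i, i ∉ A → Good M p nu A n i → y i + nu i < k * p i) ∧
      (∀ i, p i = nu i → k * p i - ε < y i + nu i) ∧
      ∀ σ : Equiv.Perm ι, (∀ i j, M (σ i) (σ j) = M i j) → (∀ i, p (σ i) = p i) →
        (∀ i, σ i ∈ A ↔ i ∈ A) → ∀ i, y (σ i) = y i := by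
  classical
  set B : Set ι := {i | dg M p i = 0 ∧ i ∉ A} with hB
  -- the three solutions
  obtain ⟨h, hh0, hh1⟩ := dirichlet hM B (fun i => if i ∈ A then 0 else 1) (fun _ => 0)
  obtain ⟨a, ha0, ha1⟩ := dirichlet hM B (fun i => if i ∈ A then 1 else 0) (fun _ => 0)
  obtain ⟨g, hg0, hg1⟩ := dirichlet hM B (fun _ => 0) (fun _ => -1)
  have hhA : ∀ i ∈ A, h i = 0 := fun i hi => by
    rw [hh0 i (fun hb => hb.2 hi)]; simp [hi]
  have hhT : ∀ i, dg M p i ≠ 0 → h i = 1 := fun i hi => by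
    have : i ∉ A := fun ha => hi (hA i ha)
    rw [hh0 i (fun hb => hi hb.1)]; simp [this]
  have haA : ∀ i ∈ A, a i = 1 := fun i hi => by
    rw [ha0 i (fun hb => hb.2 hi)]; simp [hi]
  have haT : ∀ i, dg M p i ≠ 0 → a i = 0 := fun i hi => by
    have : i ∉ A := fun ha => hi (hA i ha)
    rw [ha0 i (fun hb => hi hb.1)]; simp [this]
  have hgA : ∀ i ∈ A, g i = 0 := fun i hi => hg0 i (fun hb => hb.2 hi)
  have hgT : ∀ i, dg M p i ≠ 0 → g i = 0 := fun i hi => hg0 i (fun hb => hi hb.1)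
  have hhn : ∀ i, 0 ≤ h i := nonneg_of hM (S := B) (fun i hi => by rw [hh1 i hi])
    (fun i hi => by rw [hh0 i hi]; split_ifs <;> norm_num)
  have han : ∀ i, 0 ≤ a i := nonneg_of hM (S := B) (fun i hi => by rw [ha1 i hi])
    (fun i hi => by rw [ha0 i hi]; split_ifs <;> norm_num)
  have hgn : ∀ i, 0 ≤ g i := nonneg_of hM (S := B) (fun i hi => by rw [hg1 i hi]; norm_num)
    (fun i hi => by rw [hg0 i hi])
  have hhpos : ∀ l, Rch M p A l → 0 < h l := fun l hl =>
    pos_of_rch hM hhn (fun i hi => by rw [hhT i hi]; exact one_pos)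
      (fun i hi hiA => by rw [hh1 i ⟨hi, hiA⟩]) hl
  have hazero : ∀ l, l ∉ A → ¬ Tch M p A l → a l = 0 := fun l hl ht =>
    zero_of_not_tch hM haT (fun i hi hiA => ha1 i ⟨hi, hiA⟩) hl ht
  have hale : n ≠ 0 → ∀ i, a i ≤ 1 := by
    intro hn0 i
    have : ∀ i, 0 ≤ ((1 : ι → ℝ) - a) i := by
      refine nonneg_of hM (S := B) (fun i hi => ?_) (fun i hi => ?_)
      · rw [dg_sub, ha1 i hi]
        have := rs hn0 i
        simpa [dg] using this
      · simp only [Pi.sub_apply, Pi.one_apply]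
        rw [ha0 i hi]; split_ifs <;> norm_num
    have := this i
    simp only [Pi.sub_apply, Pi.one_apply] at this
    linarith
  -- degrees of `h` and `a` on `A`
  have hdh : ∀ i ∈ A, 0 < dg M h i := by
    intro i hi
    obtain ⟨l, hlA, hl, hl2⟩ := h2 i hi
    unfold dg
    have hnn : ∀ j ∈ (Finset.univ : Finset ι), 0 ≤ M i j * h j := by
      intro j _
      by_cases hj : i = j
      · rw [← hj, hhA i hi]; simp
      · exact mul_nonneg (hM.off i j hj) (hhn j)
    refine Finset.sum_pos' hnn ⟨l, Finset.mem_univ l, ?_⟩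
    have hil : i ≠ l := fun e => hlA (e ▸ hi)
    refine mul_pos (lt_of_le_of_ne (hM.off i l hil) (Ne.symm hl)) ?_
    rcases hl2 with h' | h'
    · rw [hhT l h']; exact one_pos
    · exact hhpos l h'
  have hda : n ≠ 0 → ∀ i ∈ A, dg M a i ≤ 0 := by
    intro hn0 i hi
    refine le_trans ?_ (rs hn0 i)
    unfold dg
    refine Finset.sum_le_sum fun j _ => ?_
    by_cases hj : i = j
    · rw [← hj, haA i hi]; simp
    · nlinarith [hM.off i j hj, hale hn0 j]
  have hnda : ∀ i ∈ A, n * dg M a i ≤ 0 := by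
    intro i hi
    by_cases hn0 : n = 0
    · simp [hn0]
    · exact mul_nonpos_of_nonneg_of_nonpos hn (hda hn0 i hi)
  -- the constants
  obtain ⟨c, hc, hcs⟩ := exists_small_mul (fun _ : ι => ε) h (fun _ => hε)
  obtain ⟨η₁, hη₁, hη₁s⟩ := exists_small_mul (fun i => if i ∈ A then c * dg M h i else 1)
    (dg M g) (fun i => by
      by_cases hi : i ∈ A
      · simp only [hi, if_true]; exact mul_pos hc (hdh i hi)
      · simp [hi])
  have hmarg : ∀ i, i ∉ A → Good M p nu A n i → 0 < p i - nu i + (c * h i - n * a i) := by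
    intro i hi hgood
    by_cases hip : dg M p i = 0
    · rcases hgood.resolve_left (not_not.mpr hip) with h' | ⟨h', h''⟩
      · have : n * a i ≤ n := by
          by_cases hn0 : n = 0
          · simp [hn0]
          · have := hale hn0 i
            nlinarith
        have := mul_nonneg hc.le (hhn i)
        linarith
      · have : n * a i = 0 := by
          by_cases hn0 : n = 0
          · simp [hn0]
          · rw [hazero i hi (h'' hn0)]; simp
        rw [this]
        rcases h' with h3 | h3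
        · have := mul_pos hc (hhpos i h3)
          linarith [hge i]
        · have := mul_nonneg hc.le (hhn i)
          linarith
    · rw [hhT i hip, haT i hip]
      linarith [hge i]
  obtain ⟨η₂, hη₂, hη₂s⟩ := exists_small_mul
    (fun i => if i ∉ A ∧ Good M p nu A n i then p i - nu i + (c * h i - n * a i) else 1) g
    (fun i => by
      by_cases hi : i ∉ A ∧ Good M p nu A n i
      · rw [if_pos hi]; exact hmarg i hi.1 hi.2
      · rw [if_neg hi]; exact one_pos)
  set η : ℝ := min η₁ η₂ with hη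
  have hηpos : 0 < η := lt_min hη₁ hη₂
  set u : ι → ℝ := c • h - n • a - η • g with hu
  have hui : ∀ i, u i = c * h i - n * a i - η * g i := fun i => by
    simp [hu]
  have hdu : ∀ i, dg M u i = c * dg M h i - n * dg M a i - η * dg M g i := fun i => by
    simp only [hu, dg_sub, dg_smul]
  have hduB : ∀ i, dg M p i = 0 → 0 < dg M u i := by
    intro i hi
    rw [hdu]
    by_cases hiA : i ∈ A
    · have e1 := hη₁s i
      simp only [hiA, if_true] at e1
      have e2 := hnda i hiA
      have e3 : η * dg M g i < c * dg M h i := by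
        rcases le_total 0 (dg M g i) with h' | h'
        · exact lt_of_le_of_lt (mul_le_mul_of_nonneg_right (min_le_left _ _) h') e1
        · exact lt_of_le_of_lt (mul_nonpos_of_nonneg_of_nonpos hηpos.le h')
            (mul_pos hc (hdh i hiA))
      linarith
    · rw [hh1 i ⟨hi, hiA⟩, ha1 i ⟨hi, hiA⟩, hg1 i ⟨hi, hiA⟩]
      linarith
  have huA : ∀ i ∈ A, u i = - n := fun i hi => by
    rw [hui, hhA i hi, haA i hi, hgA i hi]; ring
  have hunA : ∀ i, i ∉ A → Good M p nu A n i → 0 < p i - nu i + u i := by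
    intro i hi hgood
    have e1 := hη₂s i
    rw [if_pos ⟨hi, hgood⟩] at e1
    have e2 : η * g i ≤ η₂ * g i := mul_le_mul_of_nonneg_right (min_le_right _ _) (hgn i)
    rw [hui]; linarith
  have huε : ∀ i, u i < ε := by
    intro i
    rw [hui]
    have := hcs i
    have := mul_nonneg hn (han i)
    have := mul_nonneg hηpos.le (hgn i)
    linarith
  -- the large constant
  obtain ⟨k₁, hk₁⟩ : ∃ k₁ : ℝ, ∀ i, dg M p i ≠ 0 → ∀ t : ℝ, k₁ ≤ t →
      t * dg M p i - dg M u i < 0 := by
    obtain ⟨s, hs, hss⟩ := exists_small_mul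
      (fun i => if dg M p i = 0 then 1 else - dg M p i) (fun i => - dg M u i) (fun i => by
        by_cases hi : dg M p i = 0
        · simp [hi]
        · simp only [hi, if_false]
          have := lt_of_le_of_ne (hdg i) hi
          linarith)
    refine ⟨1 / s, fun i hi t ht => ?_⟩
    have e1 := hss i
    simp only [hi, if_false] at e1
    have e2 : dg M p i < 0 := lt_of_le_of_ne (hdg i) hi
    have e3 : 1 ≤ t * s := by rwa [div_le_iff₀ hs] at ht
    have e4 : (t * s) * dg M p i ≤ dg M p i := by nlinarith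
    have e5 : s * (t * dg M p i - dg M u i) < 0 := by nlinarith
    by_contra hcon
    push Not at hcon
    have := mul_nonneg hs.le hcon
    linarith
  refine ⟨k₁ + 1, fun k hk => ⟨(k - 1) • p - u, ?_, ?_, ?_, ?_, ?_⟩⟩
  · intro i
    rw [dg_sub, dg_smul]
    by_cases hi : dg M p i = 0
    · rw [hi]; have := hduB i hi; linarith
    · exact hk₁ i hi (k - 1) (by linarith)
  · intro i hi
    simp only [Pi.sub_apply, Pi.smul_apply, smul_eq_mul]
    rw [huA i hi]
    have := hAn i hi
    linarith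
  · intro i hi hgood
    simp only [Pi.sub_apply, Pi.smul_apply, smul_eq_mul]
    have := hunA i hi hgood
    linarith
  · intro i hi
    simp only [Pi.sub_apply, Pi.smul_apply, smul_eq_mul]
    have := huε i
    linarith
  · intro σ hσ hσp hσA i
    have hdp : ∀ i, dg M p (σ i) = dg M p i := by
      intro i
      rw [← dg_comp hσ]
      congr 1
      funext j; exact hσp j
    have hσB : ∀ i, σ i ∈ B ↔ i ∈ B := by
      intro i
      simp only [hB, Set.mem_setOf_eq, hdp i, hσA i]
    have e1 : h (σ i) = h i := by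
      refine perm_unique hM hσ (B := B) (fun i hi => ?_) (fun i hi => ?_) i
      · rw [hh0 i hi, hh0 (σ i) (fun hb => hi ((hσB i).mp hb))]
        simp only [hσA i]
      · rw [hh1 i hi, hh1 (σ i) ((hσB i).mpr hi)]
    have e2 : a (σ i) = a i := by
      refine perm_unique hM hσ (B := B) (fun i hi => ?_) (fun i hi => ?_) i
      · rw [ha0 i hi, ha0 (σ i) (fun hb => hi ((hσB i).mp hb))]
        simp only [hσA i]
      · rw [ha1 i hi, ha1 (σ i) ((hσB i).mpr hi)]
    have e3 : g (σ i) = g i := by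
      refine perm_unique hM hσ (B := B) (fun i hi => ?_) (fun i hi => ?_) i
      · rw [hg0 i hi, hg0 (σ i) (fun hb => hi ((hσB i).mp hb))]
      · rw [hg1 i hi, hg1 (σ i) ((hσB i).mpr hi)]
    simp only [Pi.sub_apply, Pi.smul_apply, smul_eq_mul, hui, hσp i, e1, e2, e3]

/-- **The weight lemma.** -/
theorem weight (hM : IForm M) (hge : ∀ i, nu i ≤ p i) (hdg : ∀ i, dg M p i ≤ 0)
    (hA : ∀ i ∈ A, dg M p i = 0) {n : ℝ} (hn : 0 ≤ n) (hAn : ∀ i ∈ A, p i - nu i = n)
    (rs : n ≠ 0 → ∀ i, ∑ j, M i j ≤ 0)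
    (h1 : ∀ l, dg M p l = 0 → l ∉ A →
      n < p l - nu l ∨ (Rch M p A l ∨ 0 < p l - nu l) ∧ (n ≠ 0 → ¬ Tch M p A l))
    (h2 : ∀ i ∈ A, ∃ l, l ∉ A ∧ M i l ≠ 0 ∧ (dg M p l ≠ 0 ∨ Rch M p A l))
    {ε : ℝ} (hε : 0 < ε) :
    ∃ k₀ : ℝ, ∀ k : ℝ, k₀ ≤ k → ∃ y : ι → ℝ, (∀ i, dg M y i < 0) ∧
      (∀ i ∈ A, y i + nu i = k * p i) ∧ (∀ i, i ∉ A → y i + nu i < k * p i) ∧
      (∀ i, p i = nu i → k * p i - ε < y i + nu i) ∧
      ∀ σ : Equiv.Perm ι, (∀ i j, M (σ i) (σ j) = M i j) → (∀ i, p (σ i) = p i) →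
        (∀ i, σ i ∈ A ↔ i ∈ A) → ∀ i, y (σ i) = y i := by
  obtain ⟨k₀, hk⟩ := weight' hM hge hdg hA hn hAn rs h2 hε
  refine ⟨k₀, fun k hkk => ?_⟩
  obtain ⟨y, y1, y2, y3, y4, y5⟩ := hk k hkk
  refine ⟨y, y1, y2, fun i hi => y3 i hi ?_, y4, y5⟩
  by_cases hip : dg M p i = 0
  · exact Or.inr (h1 i hip hi)
  · exact Or.inl hip

end Crest.Agent.R257.Gr4_157
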