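import Crest.Agent.R257.Gr5_157

/-!
# Killing at nodes and points (row 257, part C, leaf C-TIE)

`starM M w` : the configuration obtained by inserting new vertices `a : κ`, joined to the old
vertices `i` with conductances `w a i`, in such a way that elimination of the new vertices gives
back `M` (blow-up of a node: two neighbours; blow-up of a point of a component: one neighbour).

`star_kill` : the weights killing the new vertices, in terms of the old configuration.
-/

set_option autoImplicit false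
set_option linter.unusedSectionVars false
set_option linter.deprecated false

namespace Crest.Agent.R257.Gr6_157

open Finset Crest.Agent.R257.Gr1_157 Crest.Agent.R257.Gr4_157 Crest.Agent.R257.Gr5_157

variable {ι κ : Type*} [Fintype ι] [Fintype κ] {M : ι → ι → ℝ} {w : κ → ι → ℝ}

/-- total conductance of a new vertex -/
def W (w : κ → ι → ℝ) (a : κ) : ℝ := ∑ i, w a i

/-- the harmonic value at a new vertex -/
noncomputable def hv (w : κ → ι → ℝ) (x : ι → ℝ) (a : κ) : ℝ := (∑ i, w a i * x i) / W w a

open Classical in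
/-- insertion of new vertices -/
noncomputable def starM (M : ι → ι → ℝ) (w : κ → ι → ℝ) : ι ⊕ κ → ι ⊕ κ → ℝ
  | .inl i, .inl j => M i j - ∑ a, w a i * w a j / W w a
  | .inl i, .inr a => w a i
  | .inr a, .inl i => w a i
  | .inr a, .inr b => if a = b then - W w a else 0

lemma dg_inl (x : ι ⊕ κ → ℝ) (i : ι) :
    dg (starM M w) x (.inl i) = dg M (fun j => x (.inl j)) i
      + ∑ a, w a i * (x (.inr a) - hv w (fun j => x (.inl j)) a) := by
  have e1 : ∀ a, w a i * (x (.inr a) - hv w (fun j => x (.inl j)) a)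
      = w a i * x (.inr a) - ∑ j, w a i * w a j / W w a * x (.inl j) := by
    intro a
    rw [mul_sub]
    congr 1
    unfold hv
    rw [Finset.sum_div, Finset.mul_sum]
    exact Finset.sum_congr rfl fun j _ => by ring
  simp only [e1, Finset.sum_sub_distrib]
  unfold dg
  rw [Fintype.sum_sum_type]
  simp only [starM, sub_mul, Finset.sum_sub_distrib, Finset.sum_mul]
  rw [Finset.sum_comm]
  ring

lemma dg_inr (hW : ∀ a, 0 < W w a) (x : ι ⊕ κ → ℝ) (a : κ) :
    dg (starM M w) x (.inr a) = - (W w a * (x (.inr a) - hv w (fun j => x (.inl j)) a)) := by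
  classical
  have h := (hW a).ne'
  unfold dg hv
  rw [Fintype.sum_sum_type]
  simp only [starM, ite_mul, zero_mul, Finset.sum_ite_eq, Finset.mem_univ, if_true]
  field_simp
  ring

theorem star_form (hM : IForm M) (hw : ∀ a i, 0 ≤ w a i) (hW : ∀ a, 0 < W w a)
    (hsub : ∀ i j, i ≠ j → ∑ a, w a i * w a j / W w a ≤ M i j) : IForm (starM M w) := by
  classical
  refine ⟨?_, ?_, ?_⟩
  · rintro (i | a) (j | b)
    · simp only [starM, hM.symm i j]
      congr 1
      exact Finset.sum_congr rfl fun a _ => by ring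
    · rfl
    · rfl
    · simp only [starM]
      by_cases h : a = b
      · subst h; rfl
      · rw [if_neg h, if_neg (Ne.symm h)]
  · rintro (i | a) (j | b) h
    · simp only [starM]
      have := hsub i j (fun e => h (by rw [e]))
      linarith
    · exact hw b i
    · exact hw a j
    · simp only [starM]
      rw [if_neg (fun e => h (by rw [e]))]
  · intro x hx
    set x₁ : ι → ℝ := fun j => x (.inl j) with hx₁
    have key : dt (starM M w) x x = dt M x₁ x₁ - ∑ a, W w a * (x (.inr a) - hv w x₁ a) ^ 2 := by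
      rw [dt_eq, Fintype.sum_sum_type]
      simp only [dg_inl, dg_inr hW, mul_add, Finset.sum_add_distrib, Finset.mul_sum]
      rw [dt_eq, Finset.sum_comm, add_assoc, sub_eq_add_neg, ← Finset.sum_neg_distrib,
        ← Finset.sum_add_distrib]
      congr 1
      refine Finset.sum_congr rfl fun a _ => ?_
      have h := (hW a).ne'
      have e : ∑ i, x (.inl i) * (w a i * (x (.inr a) - hv w (fun j => x (.inl j)) a))
          = W w a * hv w x₁ a * (x (.inr a) - hv w x₁ a) := by
        have : W w a * hv w x₁ a = ∑ i, w a i * x₁ i := by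
          unfold hv; field_simp
        rw [this, Finset.sum_mul]
        exact Finset.sum_congr rfl fun i _ => by simp only [hx₁]; ring
      rw [e]; ring
    rw [key]
    have hs : 0 ≤ ∑ a, W w a * (x (.inr a) - hv w x₁ a) ^ 2 :=
      Finset.sum_nonneg fun a _ => mul_nonneg (hW a).le (sq_nonneg _)
    by_cases h0 : x₁ = 0
    · obtain ⟨a, ha⟩ : ∃ a, x (.inr a) ≠ 0 := by
        by_contra hcon
        push Not at hcon
        apply hx
        funext v
        rcases v with i | a
        · exact congrFun h0 i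
        · exact hcon a
      have h1 : dt M x₁ x₁ = 0 := by rw [h0]; simp [dt]
      have h2 : ∀ b, hv w x₁ b = 0 := by intro b; rw [h0]; simp [hv]
      have h3 : 0 < ∑ a, W w a * (x (.inr a) - hv w x₁ a) ^ 2 := by
        refine Finset.sum_pos' (fun a _ => mul_nonneg (hW a).le (sq_nonneg _))
          ⟨a, Finset.mem_univ a, ?_⟩
        rw [h2 a]
        have := hW a
        have : 0 < (x (.inr a) - 0) ^ 2 := by rw [sub_zero]; positivity
        positivity
      linarith
    · have := hM.neg x₁ h0
      linarith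

/-- **Kill at nodes and points.** -/
theorem star_kill (hM : IForm M) {p nu : ι → ℝ} (hge : ∀ i, nu i ≤ p i)
    (hdg : ∀ i, dg M p i ≤ 0) (hr : Reach M p)
    (hw : ∀ a i, 0 ≤ w a i) (hW : ∀ a, 0 < W w a)
    (hsub : ∀ i j, i ≠ j → ∑ a, w a i * w a j / W w a ≤ M i j)
    (hpos : ∀ a, ∃ i, w a i ≠ 0 ∧ dg M p i ≠ 0) {n : ℝ} (hn : 0 ≤ n) {nuF : κ → ℝ}
    (hnF : ∀ a, hv w p a - nuF a = n) (rs : n ≠ 0 → ∀ i, ∑ j, M i j ≤ 0) {ε : ℝ} (hε : 0 < ε) :
    ∃ k₀ : ℝ, ∀ k : ℝ, k₀ ≤ k → ∃ (y : ι → ℝ) (D : κ → ℝ), (∀ a, 0 < D a) ∧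
      (∀ i, dg M y i + ∑ a, w a i * D a < 0) ∧
      (∀ a, hv w y a + D a + nuF a = k * hv w p a) ∧
      (∀ i, (dg M p i ≠ 0 ∨ n < p i - nu i ∨
        ∀ a j, w a j ≠ 0 → dg M p j = 0 → ¬ NP M p i j) → y i + nu i < k * p i) ∧
      (∀ i, p i = nu i → k * p i - ε < y i + nu i) ∧
      ∀ (σ : Equiv.Perm ι) (τ : Equiv.Perm κ), (∀ i j, M (σ i) (σ j) = M i j) →
        (∀ i, p (σ i) = p i) → (∀ a i, w (τ a) (σ i) = w a i) →
        (∀ i, y (σ i) = y i) ∧ ∀ a, D (τ a) = D a := by
  classical
  set p' : ι ⊕ κ → ℝ := Sum.elim p (hv w p) with hp'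
  set nu' : ι ⊕ κ → ℝ := Sum.elim nu nuF with hnu'
  set A : Set (ι ⊕ κ) := Set.range Sum.inr with hA
  have hS := star_form hM hw hW hsub
  have hpl : (fun j => p' (.inl j)) = p := rfl
  have e1 : ∀ i, dg (starM M w) p' (.inl i) = dg M p i := by
    intro i
    rw [dg_inl, hpl]
    simp [hp']
  have e2 : ∀ a, dg (starM M w) p' (.inr a) = 0 := by
    intro a
    rw [dg_inr hW, hpl]
    simp [hp']
  have memA : ∀ i : ι, (Sum.inl i : ι ⊕ κ) ∉ A := by
    rintro i ⟨a, ha⟩; exact absurd ha (by simp)
  have rs' : n ≠ 0 → ∀ v, ∑ u, starM M w v u ≤ 0 := by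
    intro hn0 v
    have h1 : ∀ v, ∑ u, starM M w v u = dg (starM M w) 1 v := fun v => by simp [dg]
    have h2 : ∀ a, hv w (fun _ => (1 : ℝ)) a = 1 := fun a => by
      have := (hW a).ne'
      unfold hv
      simp only [mul_one]
      exact div_self this
    rw [h1]
    rcases v with i | a
    · rw [dg_inl]
      have := rs hn0 i
      simp only [Pi.one_apply, h2]
      simpa [dg] using this
    · rw [dg_inr hW]
      simp only [Pi.one_apply, h2]
      simp
  obtain ⟨k₀, hk⟩ := weight' hS (p := p') (nu := nu') (A := A) (n := n)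
    (by
      rintro (i | a)
      · exact hge i
      · have := hnF a
        simp only [hp', hnu', Sum.elim_inr]; linarith)
    (by
      rintro (i | a)
      · rw [e1]; exact hdg i
      · rw [e2])
    (by rintro _ ⟨a, rfl⟩; exact e2 a) hn
    (by rintro _ ⟨a, rfl⟩; exact hnF a) rs'
    (by
      rintro _ ⟨a, rfl⟩
      obtain ⟨i, hi, hi2⟩ := hpos a
      exact ⟨.inl i, memA i, hi, Or.inl (by rw [e1]; exact hi2)⟩) hε
  -- separated vertices
  let Sep : ι → Prop := fun i => ∀ a j, w a j ≠ 0 → dg M p j = 0 → ¬ NP M p i j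
  have sep0 : ∀ i, dg M p i = 0 → Sep i → ∀ a, w a i = 0 := by
    intro i hi hs a
    by_contra hcon
    exact hs a i hcon hi Relation.ReflTransGen.refl
  have sepM : ∀ i, dg M p i = 0 → Sep i → ∀ j, starM M w (.inl i) (.inl j) = M i j := by
    intro i hi hs j
    simp only [starM]
    rw [Finset.sum_eq_zero (fun a _ => by rw [sep0 i hi hs a]; simp)]
    ring
  have sepS : ∀ i j, M i j ≠ 0 → dg M p j = 0 → Sep i → Sep j := by
    intro i j hij hj hs a l hl hl0 hjl
    exact hs a l hl hl0 (Relation.ReflTransGen.head ⟨hij, hj⟩ hjl)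
  have rch : ∀ m : ℕ, ∀ i, dist M p i = m → dg M p i = 0 → Sep i →
      Rch (starM M w) p' A (.inl i) := by
    intro m
    induction m using Nat.strong_induction_on with
    | _ m ih =>
      intro i hm hi hs
      obtain ⟨j, hj, hjd⟩ := exists_nbr hM hr hi
      have hj' : starM M w (.inl i) (.inl j) ≠ 0 := by rw [sepM i hi hs]; exact hj
      by_cases hj0 : dg M p j = 0
      · exact Rch.step (by rw [e1]; exact hi) (memA i) hj'
          (ih (dist M p j) (by omega) j rfl hj0 (sepS i j hj hj0 hs))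
      · exact Rch.base (by rw [e1]; exact hi) (memA i) hj' (by rw [e1]; exact hj0)
  have tch : ∀ v, Tch (starM M w) p' A v → ∀ i, v = .inl i → ¬ Sep i := by
    intro v hv
    induction hv with
    | @base l j hl hlA hlj hjA =>
      rintro i rfl hs
      rw [e1] at hl
      obtain ⟨a, rfl⟩ := hjA
      exact hs a i hlj hl Relation.ReflTransGen.refl
    | @step l j hl hlA hlj hj ih =>
      rintro i rfl hs
      rw [e1] at hl
      rcases j with j | a
      · have hj0 := hj.null.1
        rw [e1] at hj0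
        rw [sepM i hl hs] at hlj
        exact ih j rfl (sepS i j hlj hj0 hs)
      · exact hj.null.2 ⟨a, rfl⟩
  refine ⟨k₀, fun k hkk => ?_⟩
  obtain ⟨y, y1, y2, y3, y4, y5⟩ := hk k hkk
  have hD : ∀ a, 0 < y (.inr a) - hv w (fun j => y (.inl j)) a := by
    intro a
    have h := y1 (.inr a)
    rw [dg_inr hW] at h
    by_contra hcon
    push Not at hcon
    have := mul_nonpos_of_nonneg_of_nonpos (hW a).le hcon
    linarith
  refine ⟨fun j => y (.inl j), fun a => y (.inr a) - hv w (fun j => y (.inl j)) a, hD, ?_, ?_, ?_,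
    ?_, ?_⟩
  · intro i
    have h := y1 (.inl i)
    rwa [dg_inl] at h
  · intro a
    have h := y2 (.inr a) ⟨a, rfl⟩
    simp only [hp', hnu', Sum.elim_inr] at h
    linarith
  · intro i hi
    refine y3 (.inl i) (memA i) ?_
    by_cases hip : dg M p i = 0
    · rcases hi.resolve_left (not_not.mpr hip) with h | h
      · exact Or.inr (Or.inl h)
      · exact Or.inr (Or.inr ⟨Or.inl (rch _ i rfl hip h), fun _ ht => tch _ ht i rfl h⟩)
    · exact Or.inl (by rw [e1]; exact hip)
  · intro i hi
    exact y4 (.inl i) hi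
  · intro σ τ hσ hσp hτ
    have hWτ : ∀ a, W w (τ a) = W w a := by
      intro a
      unfold W
      rw [← Equiv.sum_comp σ]
      exact Finset.sum_congr rfl fun i _ => hτ a i
    have hvτ : ∀ x : ι → ℝ, (∀ i, x (σ i) = x i) → ∀ a, hv w x (τ a) = hv w x a := by
      intro x hx a
      unfold hv
      rw [hWτ, ← Equiv.sum_comp σ]
      congr 1
      exact Finset.sum_congr rfl fun i _ => by rw [hτ, hx]
    have hy := y5 (Equiv.sumCongr σ τ) (by
      rintro (i | a) (j | b)
      · simp only [Equiv.sumCongr_apply, Sum.map_inl, starM, hσ]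
        congr 1
        rw [← Equiv.sum_comp τ]
        exact Finset.sum_congr rfl fun a _ => by rw [hτ, hτ, hWτ]
      · simp only [Equiv.sumCongr_apply, Sum.map_inl, Sum.map_inr, starM, hτ]
      · simp only [Equiv.sumCongr_apply, Sum.map_inl, Sum.map_inr, starM, hτ]
      · simp only [Equiv.sumCongr_apply, Sum.map_inr, starM, hWτ, EmbeddingLike.apply_eq_iff_eq])
      (by
        rintro (i | a)
        · exact hσp i
        · exact hvτ p hσp a)
      (by
        rintro (i | a)
        · simp only [Equiv.sumCongr_apply, Sum.map_inl, memA]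
        · simp only [Equiv.sumCongr_apply, Sum.map_inr]
          exact ⟨fun _ => ⟨a, rfl⟩, fun _ => ⟨τ a, rfl⟩⟩)
    have hyl : ∀ i, y (.inl (σ i)) = y (.inl i) := fun i => hy (.inl i)
    refine ⟨hyl, fun a => ?_⟩
    have h1 : y (.inr (τ a)) = y (.inr a) := hy (.inr a)
    dsimp only
    rw [h1, hvτ (fun j => y (.inl j)) hyl a]

end Crest.Agent.R257.Gr6_157
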