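import Crest.Agent.R257.Gr1_157

/-!
R257 / GrH_547: intersection forms from half-edges (task C-FRAME).

`I` vertices, `H` half-edges with ends `a h, b h : Option I` (`none` = Dirichlet boundary) and
conductances `c h > 0`.

* `LM a b c`  : the matrix `M i j` (minus the weighted graph Laplacian, value `0` at `none`);
* `dg_LM`     : `dg M x i = ∑ h, c h (δ_{a h = i} (x(b h) - x(a h)) + δ_{b h = i} (x(a h) - x(b h)))`;
* `dt_LM`     : `dt M x x = - ∑ h, c h (x(a h) - x(b h))²`;
* `iform_LM`, `conn_LM`.
-/

set_option autoImplicit false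

open Finset

noncomputable section

namespace Crest.Agent.R257.GrH_547

open Crest.Agent.R257.Gr1_157

variable {I : Type} [Fintype I] {H : Type} [Fintype H]

open Classical in
/-- indicator of `o = some i` -/
def dl (o : Option I) (i : I) : ℝ := if o = some i then 1 else 0

/-- extension by `0` to `none` -/
def ev (x : I → ℝ) (o : Option I) : ℝ := o.elim 0 x

omit [Fintype I] in
@[simp] theorem ev_none (x : I → ℝ) : ev x none = 0 := rfl

omit [Fintype I] in
@[simp] theorem ev_some (x : I → ℝ) (i : I) : ev x (some i) = x i := rfl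

theorem sum_dl (x : I → ℝ) (o : Option I) : ∑ j, dl o j * x j = ev x o := by
  classical
  cases o with
  | none => simp [dl]
  | some i =>
    rw [Finset.sum_eq_single i]
    · simp [dl]
    · intro b _ hb
      have : ¬ (some i = some b) := fun h => hb (Option.some.inj h).symm
      simp [dl, this]
    · simp

omit [Fintype I] in
theorem dl_nonneg (o : Option I) (i : I) : 0 ≤ dl o i := by
  unfold dl; split_ifs <;> norm_num

omit [Fintype I] in
theorem dl_mul_ne (o : Option I) {i j : I} (h : i ≠ j) : dl o i * dl o j = 0 := by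
  unfold dl
  by_cases h1 : o = some i
  · have : ¬ (o = some j) := fun h2 => h (Option.some.inj (h1.symm.trans h2))
    simp [this]
  · simp [h1]

omit [Fintype I] in
@[simp] theorem dl_some (i : I) : dl (some i) i = 1 := by simp [dl]

omit [Fintype I] in
theorem dl_of_eq {o : Option I} {i : I} (h : o = some i) : dl o i = 1 := by simp [dl, h]

/-- minus the weighted graph Laplacian -/
def LM (a b : H → Option I) (c : H → ℝ) (i j : I) : ℝ :=
  ∑ h, c h * (dl (a h) i * (dl (b h) j - dl (a h) j) + dl (b h) i * (dl (a h) j - dl (b h) j))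

variable {a b : H → Option I} {c : H → ℝ}

theorem dg_LM (x : I → ℝ) (i : I) : dg (LM a b c) x i =
    ∑ h, c h * (dl (a h) i * (ev x (b h) - ev x (a h)) + dl (b h) i * (ev x (a h) - ev x (b h))) := by
  unfold dg LM
  simp only [Finset.sum_mul]
  rw [Finset.sum_comm]
  refine Finset.sum_congr rfl fun h _ => ?_
  rw [← sum_dl x (a h), ← sum_dl x (b h)]
  simp only [Finset.mul_sum, ← Finset.sum_sub_distrib, ← Finset.sum_add_distrib]
  refine Finset.sum_congr rfl fun j _ => ?_
  ring

theorem dt_LM (x : I → ℝ) : dt (LM a b c) x x = - ∑ h, c h * (ev x (a h) - ev x (b h)) ^ 2 := by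
  rw [dt_eq]
  simp only [dg_LM, Finset.mul_sum]
  rw [Finset.sum_comm, ← Finset.sum_neg_distrib]
  refine Finset.sum_congr rfl fun h _ => ?_
  have h1 : ∑ i, x i * (c h * (dl (a h) i * (ev x (b h) - ev x (a h)) +
      dl (b h) i * (ev x (a h) - ev x (b h)))) =
      c h * ((∑ i, dl (a h) i * x i) * (ev x (b h) - ev x (a h)) +
        (∑ i, dl (b h) i * x i) * (ev x (a h) - ev x (b h))) := by
    rw [Finset.sum_mul, Finset.sum_mul, ← Finset.sum_add_distrib, Finset.mul_sum]
    exact Finset.sum_congr rfl fun i _ => by ring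
  rw [h1, sum_dl, sum_dl]
  ring

omit [Fintype I] in
theorem LM_symm (i j : I) : LM a b c i j = LM a b c j i := by
  unfold LM
  exact Finset.sum_congr rfl fun h _ => by ring

omit [Fintype I] in
theorem LM_off (hc : ∀ h, 0 < c h) {i j : I} (hij : i ≠ j) : LM a b c i j =
    ∑ h, c h * (dl (a h) i * dl (b h) j + dl (b h) i * dl (a h) j) := by
  unfold LM
  refine Finset.sum_congr rfl fun h _ => ?_
  have h1 := dl_mul_ne (a h) hij
  have h2 := dl_mul_ne (b h) hij
  linear_combination (-(c h)) * h1 - (c h) * h2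

omit [Fintype I] in
theorem LM_pos (hc : ∀ h, 0 < c h) {i j : I} (hij : i ≠ j) {h : H}
    (hh : (a h = some i ∧ b h = some j) ∨ (a h = some j ∧ b h = some i)) : 0 < LM a b c i j := by
  rw [LM_off hc hij]
  have hnn : ∀ h ∈ Finset.univ, 0 ≤ c h * (dl (a h) i * dl (b h) j + dl (b h) i * dl (a h) j) :=
    fun h _ => mul_nonneg (hc h).le (add_nonneg (mul_nonneg (dl_nonneg _ _) (dl_nonneg _ _))
      (mul_nonneg (dl_nonneg _ _) (dl_nonneg _ _)))
  refine lt_of_lt_of_le ?_ (Finset.single_le_sum hnn (Finset.mem_univ h))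
  refine mul_pos (hc h) ?_
  rcases hh with ⟨h1, h2⟩ | ⟨h1, h2⟩
  · rw [dl_of_eq h1, dl_of_eq h2]
    have := mul_nonneg (dl_nonneg (b h) i) (dl_nonneg (a h) j)
    linarith
  · rw [dl_of_eq h1, dl_of_eq h2]
    have := mul_nonneg (dl_nonneg (a h) i) (dl_nonneg (b h) j)
    linarith

/-- connectedness of the graph without the boundary -/
def HConn (a b : H → Option I) : Prop := ∀ S : Set I, S.Nonempty →
  (∀ h i j, a h = some i → b h = some j → (i ∈ S ↔ j ∈ S)) → S = Set.univ

/-- some half-edge ends at the boundary -/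
def HTop (a b : H → Option I) : Prop :=
  ∃ h i, (a h = some i ∧ b h = none) ∨ (b h = some i ∧ a h = none)

theorem iform_LM (hc : ∀ h, 0 < c h) (h1 : HConn a b) (h2 : HTop a b) : IForm (LM a b c) where
  symm := LM_symm
  off := fun i j hij => by
    rw [LM_off hc hij]
    exact Finset.sum_nonneg fun h _ => mul_nonneg (hc h).le (add_nonneg
      (mul_nonneg (dl_nonneg _ _) (dl_nonneg _ _)) (mul_nonneg (dl_nonneg _ _) (dl_nonneg _ _)))
  neg := fun x hx => by
    rw [dt_LM]
    have hnn : ∀ h ∈ Finset.univ, 0 ≤ c h * (ev x (a h) - ev x (b h)) ^ 2 :=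
      fun h _ => mul_nonneg (hc h).le (sq_nonneg _)
    rcases (Finset.sum_nonneg hnn).lt_or_eq with h | h
    · linarith
    · exfalso
      have h3 : ∀ h, ev x (a h) = ev x (b h) := by
        intro k
        have h4 := (Finset.sum_eq_zero_iff_of_nonneg hnn).1 h.symm k (Finset.mem_univ k)
        rcases mul_eq_zero.1 h4 with h5 | h5
        · exact absurd h5 (hc k).ne'
        · exact sub_eq_zero.1 (pow_eq_zero_iff (two_ne_zero) |>.1 h5)
      have hS : {i | x i = 0} = Set.univ := by
        refine h1 _ ?_ ?_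
        · obtain ⟨k, i, h5 | h5⟩ := h2
          · refine ⟨i, ?_⟩
            have := h3 k
            rw [h5.1, h5.2] at this
            simpa using this
          · refine ⟨i, ?_⟩
            have := h3 k
            rw [h5.1, h5.2] at this
            simpa using this.symm
        · intro k i j h5 h6
          have := h3 k
          rw [h5, h6, ev_some, ev_some] at this
          show x i = 0 ↔ x j = 0
          rw [this]
      refine hx (funext fun i => ?_)
      have : i ∈ {i | x i = 0} := hS ▸ Set.mem_univ i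
      exact this

theorem conn_LM (hc : ∀ h, 0 < c h) (h1 : HConn a b) : Conn (LM a b c) := by
  intro S hS hcl
  refine h1 S hS ?_
  intro h i j hi hj
  by_cases hij : i = j
  · rw [hij]
  · constructor
    · intro hiS
      exact hcl i hiS j (LM_pos hc hij (Or.inl ⟨hi, hj⟩)).ne'
    · intro hjS
      exact hcl j hjS i (LM_pos hc (Ne.symm hij) (Or.inr ⟨hi, hj⟩)).ne'

end Crest.Agent.R257.GrH_547
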