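import Crest.Agent.R273.C2e_793

/-!
# R257 (S0395), leaf E-GRAD (helper537), part a: the gradient estimate, pointwise computation

`u` strictly plurisubharmonic, `det (u_{a b̄}) = e^{ld u}`, `w = A - u > 0`.
* `hs_conj`, `hs_normSq'` : Levi form of `|p|²`, `p` complex valued
* `PV u V = ∂_V u`, `dbj_PV`, `hs_PV_one`
* `grad_one` : at a maximum point of `|∂_ξ u|² / (w² u_{ξ ξ̄})` (in coordinates with
  `u_{a b̄}(x) = δ_ab`) one has `2 |∂_v u|² / (w² u_{v v̄}) ≤ lev (ld u) v / lev u v`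
-/

set_option autoImplicit false
set_option linter.unusedSectionVars false

open Set Filter Topology Complex
open scoped ContDiff Matrix ComplexConjugate ComplexOrder

namespace Crest.Agent.R257.GradA_537

open Crest.Agent.R275.Geo Crest.Agent.R275.Core144 Crest.Agent.R275.GC293
open Crest.Agent.R275.OmT75
open Crest.Agent.R273 Crest.Agent.R273.Levi_145 Crest.Agent.R273.C2a_793
open Crest.Agent.R273.C2b_793 Crest.Agent.R273.C2c_793 Crest.Agent.R273.C2d_793
open Crest.Agent.R273.C2e_793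

noncomputable section

variable {n : ℕ} {u : Cn n → ℝ} {x : Cn n} {V : Cn n → Cn n}

theorem c2_conj {p : Cn n → ℂ} (hp : ContDiffAt ℝ 2 p x) :
    ContDiffAt ℝ 2 (fun w => conj (p w)) x :=
  Complex.conjCLE.contDiff.contDiffAt.comp x hp

/-- `∂_a ∂̄_b` of a conjugate -/
theorem hs_conj {p : Cn n → ℂ} (hp : ContDiffAt ℝ 2 p x) (a b : Fin n) :
    hs (fun w => conj (p w)) x a b = conj (hs p x b a) := by
  have h1 : dbj b (fun w => conj (p w)) =ᶠ[𝓝 x] fun w => conj (dj b p w) := by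
    filter_upwards [c2_evd hp] with y hy
    exact dbj_conj hy b
  unfold hs
  rw [dj_congr h1, dj_conj (diff_dj hp b), dj_dbj_comm hp b a]

theorem hs_normSq' {p : Cn n → ℂ} (hp : ContDiffAt ℝ 2 p x) (c : Fin n) :
    hs (cx fun w => ‖p w‖ ^ 2) x c c = hs p x c c * conj (p x) + p x * conj (hs p x c c)
      + dj c p x * conj (dj c p x) + dbj c p x * conj (dbj c p x) := by
  rw [cx_normSq, hs_mul hp (c2_conj hp), hs_conj hp, dbj_conj (c2_diff hp), dj_conj (c2_diff hp)]

theorem dj_normSq' {p : Cn n → ℂ} (hp : ContDiffAt ℝ 2 p x) (c : Fin n) :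
    dj c (cx fun w => ‖p w‖ ^ 2) x = dj c p x * conj (p x) + p x * conj (dbj c p x) := by
  rw [cx_normSq]
  have e := dj_mul (a := c) (g := fun w => conj (p w)) (c2_diff hp) (c2_diff (c2_conj hp))
  rw [e, dj_conj (c2_diff hp)]

theorem c2_normSq' {p : Cn n → ℂ} (hp : ContDiffAt ℝ 2 p x) :
    ContDiffAt ℝ 2 (fun w => ‖p w‖ ^ 2) x := by
  have e : (fun w => ‖p w‖ ^ 2) = fun w => (p w).re * (p w).re + (p w).im * (p w).im := by
    funext w
    rw [← Complex.normSq_eq_norm_sq, Complex.normSq_apply]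
  rw [e]
  have hre : ContDiffAt ℝ 2 (fun w => (p w).re) x := Complex.reCLM.contDiff.contDiffAt.comp x hp
  have him : ContDiffAt ℝ 2 (fun w => (p w).im) x := Complex.imCLM.contDiff.contDiffAt.comp x hp
  exact (hre.mul hre).add (him.mul him)

theorem dj_log {g : Cn n → ℝ} (hg : DifferentiableAt ℝ g x) (h0 : 0 < g x) (c : Fin n) :
    dj c (cx fun y => Real.log (g y)) x = dj c (cx g) x / g x := by
  have e : HasFDerivAt (fun y => Real.log (g y)) ((g x)⁻¹ • fderiv ℝ g x) x :=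
    (Real.hasDerivAt_log h0.ne').comp_hasFDerivAt x hg.hasFDerivAt
  have hc : (g x : ℂ) ≠ 0 := by exact_mod_cast h0.ne'
  unfold dj
  rw [fderiv_cx e.differentiableAt, fderiv_cx e.differentiableAt, fderiv_cx hg, fderiv_cx hg,
    e.fderiv]
  simp only [_root_.smul_apply, smul_eq_mul]
  push_cast
  field_simp

theorem dj_cx_sub {f g : Cn n → ℝ} (hf : DifferentiableAt ℝ f x) (hg : DifferentiableAt ℝ g x)
    (c : Fin n) : dj c (cx fun y => f y - g y) x = dj c (cx f) x - dj c (cx g) x := by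
  have hfg : DifferentiableAt ℝ (fun y => f y - g y) x := hf.sub hg
  unfold dj
  rw [fderiv_cx hfg, fderiv_cx hfg, fderiv_cx hf, fderiv_cx hf, fderiv_cx hg,
    fderiv_cx hg, fderiv_fun_sub hf hg]
  simp only [_root_.sub_apply, smul_eq_mul]
  push_cast
  ring

theorem dj_cx_smul {f : Cn n → ℝ} (hf : DifferentiableAt ℝ f x) (k : ℝ)
    (c : Fin n) : dj c (cx fun y => k * f y) x = k * dj c (cx f) x := by
  unfold dj
  rw [fderiv_cx (hf.const_mul k), fderiv_cx (hf.const_mul k), fderiv_cx hf, fderiv_cx hf,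
    fderiv_const_mul hf]
  simp only [_root_.smul_apply, smul_eq_mul]
  push_cast
  ring

theorem dj_cx_zero {f : Cn n → ℝ} (hf : DifferentiableAt ℝ f x) (h : fderiv ℝ f x = 0)
    (c : Fin n) : dj c (cx f) x = 0 := by
  unfold dj
  rw [fderiv_cx hf, fderiv_cx hf, h]
  simp

/-! ### the derivative in the direction of a holomorphic field -/

/-- `∂_V u` -/
def PV (u : Cn n → ℝ) (V : Cn n → Cn n) (z : Cn n) : ℂ := gr u z (V z)

theorem c2_PV (hu : ContDiffAt ℝ ∞ u x) (hV : ∀ᶠ z in 𝓝 x, DifferentiableAt ℂ V z) :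
    ContDiffAt ℝ 2 (PV u V) x := by
  have h : ContDiffAt ℝ 2 (fun z => ∑ a, dj a (cx u) z * V z a) x :=
    ContDiffAt.sum fun a _ => (sm2 (sm_dj (sm_cx hu) a)).mul
      (c2_of_anal (anal_of_ev (hV_apply hV a)) 2)
  exact h

theorem dbj_PV (hu : ContDiffAt ℝ 2 u x) (hV : DifferentiableAt ℂ V x) (c : Fin n) :
    dbj c (PV u V) x = ∑ a, hs (cx u) x a c * V x a := by
  have hVa : ∀ a, DifferentiableAt ℂ (fun z => V z a) x := fun a =>
    (EuclideanSpace.proj (𝕜 := ℂ) a : Cn n →L[ℂ] ℂ).differentiableAt.comp x hV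
  have hm : ∀ a : Fin n, DifferentiableAt ℝ (fun z => dj a (cx u) z * V z a) x := fun a =>
    (diff_dj (cx_c2 hu) a).mul ((hVa a).restrictScalars ℝ)
  unfold PV gr
  rw [dbj_sum fun a _ => hm a]
  refine Finset.sum_congr rfl fun a _ => ?_
  have e := dbj_mul' (a := c) (g := fun z => V z a) (diff_dj (cx_c2 hu) a)
    ((hVa a).restrictScalars ℝ)
  rw [e, dbj_holo (hVa a), mul_zero, add_zero, ← dj_dbj_comm (cx_c2 hu)]
  rfl

theorem hs_PV (hu : ContDiffAt ℝ ∞ u x) (hV : ∀ᶠ z in 𝓝 x, DifferentiableAt ℂ V z) (c : Fin n) :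
    hs (PV u V) x c c = ∑ a, (tt u x a c c * V x a
      + hs (cx u) x a c * (fderiv ℂ V x (ee c)) a) := by
  have hVa := hV_apply hV
  have h1 : dbj c (PV u V) =ᶠ[𝓝 x] fun z => ∑ a, hs (cx u) z a c * V z a := by
    filter_upwards [ev_sm2 hu, hV] with y hy hy2
    exact dbj_PV hy hy2 c
  have hd : ∀ a, DifferentiableAt ℝ (fun z => hs (cx u) z a c) x := fun a =>
    c2_diff (sm2 (sm_hs (sm_cx hu) a c))
  have hr : ∀ a, DifferentiableAt ℝ (fun z => V z a) x := fun a =>
    ((hVa a).self_of_nhds).restrictScalars ℝ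
  unfold hs
  rw [dj_congr h1, dj_sum (f := fun a z => hs (cx u) z a c * V z a) fun a _ => (hd a).mul (hr a)]
  refine Finset.sum_congr rfl fun a _ => ?_
  have e : fderiv ℂ (fun z => V z a) x (ee c) = (fderiv ℂ V x (ee c)) a := by
    have : HasFDerivAt (fun z => V z a)
        ((EuclideanSpace.proj (𝕜 := ℂ) a : Cn n →L[ℂ] ℂ).comp (fderiv ℂ V x)) x :=
      (EuclideanSpace.proj (𝕜 := ℂ) a : Cn n →L[ℂ] ℂ).hasFDerivAt.comp x
        hV.self_of_nhds.hasFDerivAt
    rw [this.fderiv]; rfl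
  rw [dj_mul (hd a) (hr a), dj_holo (hVa a).self_of_nhds, e]
  rfl

theorem hs_PV_one (hu : ContDiffAt ℝ ∞ u x) (h1 : Um u x = 1)
    (hV : ∀ᶠ z in 𝓝 x, DifferentiableAt ℂ V z)
    (hB : ∀ c b, (fderiv ℂ V x (ee c)) b = - tau u x (V x) c b) (c : Fin n) :
    hs (PV u V) x c c = 0 := by
  rw [hs_PV hu hV]
  have e1 : ∀ a b, hs (cx u) x a b = (1 : Matrix (Fin n) (Fin n) ℂ) a b := fun a b => by
    rw [← h1]; rfl
  simp only [e1, Finset.sum_add_distrib, Matrix.one_apply, ite_mul, one_mul, zero_mul,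
    Finset.sum_ite_eq', Finset.mem_univ, if_true, hB, tau]
  ring

/-- **the computation at the maximum point**, coordinates with `u_{a b̄}(x) = δ_ab` -/
theorem grad_one {v : Cn n} {A : ℝ} (hu : ContDiffAt ℝ ∞ u x) (h1 : Um u x = 1)
    (hu0 : ∀ v, v ≠ 0 → 0 < lev u x v) (hv : v ≠ 0) (hA : u x < A) (hg : gr u x v ≠ 0)
    (hmax : ∀ᶠ z in 𝓝 x, ∀ ξ, ‖gr u z ξ‖ ^ 2 * ((A - u x) ^ 2 * lev u x v) ≤
      ‖gr u x v‖ ^ 2 * ((A - u z) ^ 2 * lev u z ξ)) :
    2 * ‖gr u x v‖ ^ 2 / ((A - u x) ^ 2 * lev u x v) ≤ lev (ld u) x v / lev u x v := by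
  -- the field
  set T : Matrix (Fin n) (Fin n) ℂ := Matrix.of fun b c => - tau u x v c b with hT
  set B : Cn n →L[ℂ] Cn n := Matrix.toEuclideanCLM (n := Fin n) (𝕜 := ℂ) T with hBdef
  have hBe : ∀ ξ : Cn n, ∀ a, (B ξ) a = ∑ c, T a c * ξ c := fun ξ a => rfl
  have hBc : ∀ c a, (B (ee c)) a = - tau u x v c a := by
    intro c a
    rw [hBe]
    simp [ee, hT]
  set V : Cn n → Cn n := aff x v B with hVdef
  have hVx : V x = v := aff_self x v B
  have hV : ∀ᶠ z in 𝓝 x, DifferentiableAt ℂ V z := Eventually.of_forall (diff_aff x v B)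
  have hVB : ∀ c b, (fderiv ℂ V x (ee c)) b = - tau u x (V x) c b := by
    intro c b
    rw [hVx, hVdef, fderiv_aff, hBc]
  have hV0 : V x ≠ 0 := by rw [hVx]; exact hv
  -- the functions
  have hp2 := c2_PV hu hV
  have hpx : PV u V x = gr u x v := by rw [PV, hVx]
  set N : Cn n → ℝ := fun z => ‖PV u V z‖ ^ 2 with hN
  set W : Cn n → ℝ := fun z => A - u z with hW
  set Q : Cn n → ℝ := QV u V with hQ
  have hN2 : ContDiffAt ℝ 2 N x := c2_normSq' hp2
  have hW2 : ContDiffAt ℝ 2 W x := contDiffAt_const.sub (sm2 hu)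
  have hQ2 : ContDiffAt ℝ 2 Q x := c2_QV hu hV
  have hNx : 0 < N x := by
    have : PV u V x ≠ 0 := by rw [hpx]; exact hg
    have := norm_pos_iff.2 this
    simp only [hN]
    positivity
  have hWx : 0 < W x := by simp only [hW]; linarith
  have hQx : Q x = lev u x v := by rw [hQ, QV, hVx]
  have hQ0 : 0 < Q x := by rw [hQx]; exact hu0 v hv
  -- local maximum
  have hmaxF : IsLocalMax (fun z => Real.log (N z) - 2 * Real.log (W z) - Real.log (Q z)) x := by
    filter_upwards [hmax, hN2.continuousAt.eventually (lt_mem_nhds hNx),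
      hW2.continuousAt.eventually (lt_mem_nhds hWx),
      hQ2.continuousAt.eventually (lt_mem_nhds hQ0)] with z h2 hNz hWz hQz
    have h3 := h2 (V z)
    have e1 : N z * (W x ^ 2 * Q x) ≤ N x * (W z ^ 2 * Q z) := by
      rw [hQx]
      simp only [hN, hW, hQ, PV, QV] at h3 ⊢
      rw [hVx]
      exact h3
    have e2 := Real.log_le_log (by positivity) e1
    have l1 : Real.log (W x ^ 2) = 2 * Real.log (W x) := by rw [Real.log_pow]; push_cast; ring
    have l2 : Real.log (W z ^ 2) = 2 * Real.log (W z) := by rw [Real.log_pow]; push_cast; ring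
    rw [Real.log_mul hNz.ne' (by positivity), Real.log_mul (by positivity) hQ0.ne',
      Real.log_mul hNx.ne' (by positivity), Real.log_mul (by positivity) hQz.ne', l1, l2] at e2
    linarith
  have hlN : ContDiffAt ℝ 2 (fun z => Real.log (N z)) x := hN2.log hNx.ne'
  have hlW : ContDiffAt ℝ 2 (fun z => Real.log (W z)) x := hW2.log hWx.ne'
  have hlQ : ContDiffAt ℝ 2 (fun z => Real.log (Q z)) x := hQ2.log hQ0.ne'
  have hl2W : ContDiffAt ℝ 2 (fun z => 2 * Real.log (W z)) x := contDiffAt_const.mul hlW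
  have hF2 : ContDiffAt ℝ 2 (fun z => Real.log (N z) - 2 * Real.log (W z) - Real.log (Q z)) x :=
    (hlN.sub hl2W).sub hlQ
  have hlev : ∀ c, lev (fun z => Real.log (N z)) x (ee c) -
      2 * lev (fun z => Real.log (W z)) x (ee c) - lev (fun z => Real.log (Q z)) x (ee c) ≤ 0 := by
    intro c
    have h2 := lev_nonpos_of_localMax hF2 hmaxF (ee c)
    rw [lev_sub (u := fun z => Real.log (N z) - 2 * Real.log (W z))
      (v := fun z => Real.log (Q z)) (hlN.sub hl2W) hlQ,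
      lev_sub (u := fun z => Real.log (N z)) (v := fun z => 2 * Real.log (W z)) hlN hl2W,
      lev_const_mul 2 hlW] at h2
    exact h2
  have hdj : ∀ c, dj c (cx N) x / N x - 2 * (dj c (cx W) x / W x) - dj c (cx Q) x / Q x = 0 := by
    intro c
    have h2 := dj_cx_zero (c2_diff hF2) hmaxF.fderiv_eq_zero c
    rw [dj_cx_sub (f := fun z => Real.log (N z) - 2 * Real.log (W z))
      (g := fun z => Real.log (Q z)) (c2_diff (hlN.sub hl2W)) (c2_diff hlQ),
      dj_cx_sub (f := fun z => Real.log (N z)) (g := fun z => 2 * Real.log (W z))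
      (c2_diff hlN) (c2_diff hl2W), dj_cx_smul (c2_diff hlW), dj_log (c2_diff hN2) hNx,
      dj_log (c2_diff hW2) hWx, dj_log (c2_diff hQ2) hQ0] at h2
    push_cast at h2
    exact h2
  -- first and second derivatives
  set p : ℂ := gr u x v with hp
  set g : Fin n → ℂ := fun c => dj c (cx u) x with hgdef
  set q : Fin n → ℂ := fun c => dj c (PV u V) x with hqdef
  have hum : ∀ a b, hs (cx u) x a b = (1 : Matrix (Fin n) (Fin n) ℂ) a b := fun a b => by
    rw [← h1]; rfl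
  have hdb : ∀ c, dbj c (PV u V) x = v c := by
    intro c
    rw [dbj_PV (sm2 hu) hV.self_of_nhds, hVx]
    simp [hum, Matrix.one_apply]
  have hhs : ∀ c, hs (PV u V) x c c = 0 := hs_PV_one hu h1 hV hVB
  have hdjN : ∀ c, dj c (cx N) x = q c * conj p + p * conj (v c) := by
    intro c
    rw [hN, dj_normSq' hp2, hdb, hpx]
  have hlevN : ∀ c, lev N x (ee c) = ‖q c‖ ^ 2 + ‖v c‖ ^ 2 := by
    intro c
    have e1 := lev_ee hN2 c
    rw [hN, hs_normSq' hp2, hhs, hdb] at e1
    have e2 : ((lev (fun z => ‖PV u V z‖ ^ 2) x (ee c) : ℝ) : ℂ) =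
        ((‖q c‖ ^ 2 + ‖v c‖ ^ 2 : ℝ) : ℂ) := by
      rw [e1]
      push_cast
      rw [← Complex.mul_conj', ← Complex.mul_conj']
      simp [hqdef]
    exact_mod_cast e2
  have hdjW : ∀ c, dj c (cx W) x = - g c := by
    intro c
    have e : W = fun z => (fun _ => A) z - u z := rfl
    rw [e, dj_cx_sub (f := fun _ => A) (differentiableAt_const _) (c2_diff (sm2 hu))]
    have : dj c (cx fun _ : Cn n => A) x = 0 := dj_const _ _ _
    rw [this, zero_sub]
  have hlevW : ∀ c, lev W x (ee c) = -1 := by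
    intro c
    have e : W = fun z => (fun _ => A) z - u z := rfl
    rw [e, lev_sub (u := fun _ => A) contDiffAt_const (sm2 hu), lev_const, lev_one hu h1]
    simp [ee, apply_ite, ite_pow]
  have hdjQ : ∀ c, dj c (cx Q) x = 0 := by
    intro c
    rw [hQ, dj_QV_one hu h1 hV]
    simp [hVB]
  have hlevQ : ∀ c, lev Q x (ee c) = (RR u x v c c).re - ∑ b, ‖tau u x v c b‖ ^ 2 := by
    intro c
    have e1 := lev_ee hQ2 c
    rw [hQ, hs_QV_one hu h1 hV] at e1
    have e2 := congrArg Complex.re e1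
    simp only [Complex.ofReal_re, Complex.add_re, Complex.sub_re, Complex.re_sum, hVx] at e2
    rw [← hQ] at e2
    rw [e2]
    have e3 : ∀ b, tau u x v c b + (fderiv ℂ V x (ee c)) b = 0 := by
      intro b
      have := hVB c b
      rw [hVx] at this
      rw [this]; ring
    simp [e3]
  have hQn : Q x = ∑ b, ‖v b‖ ^ 2 := by rw [hQx, lev_one hu h1]
  have hsumQ : ∑ c, lev (fun z => Real.log (Q z)) x (ee c) = lev (ld u) x v / lev u x v := by
    have e1 : ∀ c, lev (fun z => Real.log (Q z)) x (ee c) =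
        ((RR u x v c c).re - ∑ b, ‖tau u x v c b‖ ^ 2) / Q x := by
      intro c
      rw [lev_log hQ2 hQ0, hlevQ, gr_ee, hdjQ]
      simp
    simp only [e1]
    rw [← Finset.sum_div, ← hQx]
    congr 1
    have e2 := congrArg Complex.re (lev_ld_one hu h1 v)
    simp only [Complex.ofReal_re, Complex.sub_re, Complex.re_sum] at e2
    rw [e2]
  -- the first order condition
  have hp0 : p ≠ 0 := hg
  have hcp0 : conj p ≠ 0 := (map_ne_zero _).2 hp0
  have hWc : ((W x : ℝ) : ℂ) ≠ 0 := by exact_mod_cast hWx.ne'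
  have hNc : ((N x : ℝ) : ℂ) = p * conj p := by
    rw [Complex.mul_conj']
    simp only [hN, hpx]
    push_cast
    rfl
  have hq : ∀ c, q c / p = - (conj (v c) / conj p) - 2 * (g c / W x) := by
    intro c
    have e1 := hdj c
    rw [hdjN, hdjW, hdjQ, hNc] at e1
    have e2 : (q c * conj p + p * conj (v c)) / (p * conj p) = q c / p + conj (v c) / conj p := by
      field_simp
    rw [e2] at e1
    linear_combination e1
  have hNp : N x = ‖p‖ ^ 2 := by simp only [hN, hpx]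
  have hqn : ∀ c, ‖q c‖ ^ 2 / N x = ‖v c‖ ^ 2 / N x + 4 * (‖g c‖ ^ 2 / W x ^ 2)
      + 4 / W x * (g c * v c / p).re := by
    intro c
    have e0 : ‖q c‖ ^ 2 / N x = ‖q c / p‖ ^ 2 := by rw [hNp, norm_div, div_pow]
    have e1 : ((‖q c / p‖ ^ 2 : ℝ) : ℂ) = ((‖v c‖ ^ 2 / N x + 4 * (‖g c‖ ^ 2 / W x ^ 2)
      + 4 / W x * (g c * v c / p).re : ℝ) : ℂ) := by
      have e2 : ((‖q c / p‖ ^ 2 : ℝ) : ℂ) = (q c / p) * conj (q c / p) := by
        rw [Complex.mul_conj']; push_cast; rfl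
      have e3 : (((g c * v c / p).re : ℝ) : ℂ) = (g c * v c / p + conj (g c * v c / p)) / 2 :=
        Complex.re_eq_add_conj _
      rw [e2, hq]
      push_cast
      rw [e3, hNc, ← Complex.mul_conj', ← Complex.mul_conj']
      simp only [map_sub, map_neg, map_mul, map_div₀, Complex.conj_conj, Complex.conj_ofReal,
        map_ofNat]
      field_simp
      ring
    rw [e0]
    exact_mod_cast e1
  have hlN' : ∀ c, lev (fun z => Real.log (N z)) x (ee c) =
      2 * (‖v c‖ ^ 2 / N x) + 4 / W x * (g c * v c / p).re := by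
    intro c
    have e1 : dj c (cx N) x / N x = - (2 * (g c / W x)) := by
      have := hdj c
      rw [hdjW, hdjQ] at this
      linear_combination this
    have e2 : ‖dj c (cx N) x‖ ^ 2 / N x ^ 2 = 4 * (‖g c‖ ^ 2 / W x ^ 2) := by
      have e3 : ‖dj c (cx N) x / N x‖ ^ 2 = ‖dj c (cx N) x‖ ^ 2 / N x ^ 2 := by
        rw [norm_div, div_pow, Complex.norm_real, Real.norm_eq_abs, sq_abs]
      rw [← e3, e1, norm_neg, norm_mul, norm_div, Complex.norm_real, Real.norm_eq_abs, mul_pow,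
        div_pow, sq_abs]
      norm_num
    rw [lev_log hN2 hNx, hlevN, gr_ee, e2, add_div, hqn]
    ring
  have hlW' : ∀ c, lev (fun z => Real.log (W z)) x (ee c) = - (1 / W x) - ‖g c‖ ^ 2 / W x ^ 2 := by
    intro c
    rw [lev_log hW2 hWx, hlevW, gr_ee, hdjW, norm_neg]
    ring
  -- summation
  have hsum : ∑ c, (2 * (‖v c‖ ^ 2 / N x) + 4 / W x * (g c * v c / p).re
      + 2 * (1 / W x) + 2 * (‖g c‖ ^ 2 / W x ^ 2)) ≤ lev (ld u) x v / lev u x v := by
    rw [← hsumQ]
    refine Finset.sum_le_sum fun c _ => ?_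
    have := hlev c
    rw [hlN', hlW'] at this
    linarith
  have hre : ∑ c, (g c * v c / p).re = 1 := by
    have e1 : ∑ c, g c * v c / p = 1 := by
      rw [← Finset.sum_div]
      exact div_self hp0
    have e2 := congrArg Complex.re e1
    simpa only [Complex.re_sum, Complex.one_re] using e2
  have hsum2 : 2 * (Q x / N x) + 4 / W x + 2 * (n / W x) + 2 * ((∑ c, ‖g c‖ ^ 2) / W x ^ 2) ≤
      lev (ld u) x v / lev u x v := by
    refine le_of_eq_of_le ?_ hsum
    simp only [Finset.sum_add_distrib, ← Finset.mul_sum, ← Finset.sum_div, hre, hQn]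
    simp only [Finset.sum_const, Finset.card_univ, Fintype.card_fin, nsmul_eq_mul]
    ring
  have hcs : ‖p‖ ^ 2 ≤ (∑ c, ‖g c‖ ^ 2) * Q x := by
    rw [hQn]
    have h3 : ‖p‖ ≤ ∑ c, ‖g c‖ * ‖v c‖ := by
      rw [hp, gr]
      refine (norm_sum_le _ _).trans (le_of_eq ?_)
      exact Finset.sum_congr rfl fun c _ => norm_mul _ _
    calc ‖p‖ ^ 2 ≤ (∑ c, ‖g c‖ * ‖v c‖) ^ 2 := by gcongr
      _ ≤ _ := Finset.sum_mul_sq_le_sq_mul_sq _ _ _
  have h5 : 2 * ((∑ c, ‖g c‖ ^ 2) / W x ^ 2) ≤ lev (ld u) x v / lev u x v := by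
    have a1 : 0 ≤ 2 * (Q x / N x) := by positivity
    have a2 : 0 ≤ 4 / W x := by positivity
    have a3 : 0 ≤ 2 * ((n : ℝ) / W x) := by positivity
    linarith
  refine le_trans ?_ h5
  have hWW : (A - u x) ^ 2 = W x ^ 2 := rfl
  rw [hWW, ← hQx, mul_div_assoc]
  refine mul_le_mul_of_nonneg_left ?_ (by norm_num)
  rw [div_le_div_iff₀ (by positivity) (by positivity)]
  calc ‖p‖ ^ 2 * W x ^ 2 ≤ ((∑ c, ‖g c‖ ^ 2) * Q x) * W x ^ 2 := by gcongr
    _ = (∑ c, ‖g c‖ ^ 2) * (W x ^ 2 * Q x) := by ring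

end

end Crest.Agent.R257.GradA_537
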