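import Crest.Agent.R257.GradB_537

/-!
# R257 (S0395), leaf E-GRAD (helper537), part c: the gradient estimate with a cut-off function

`η ≥ 0` a cut-off (for instance `η = r² - |x|²`), `w = A - u`:
* `grad_one_W` : the computation at a maximum point of `|∂_ξ u|² / (W² u_{ξ ξ̄})`, `W > 0` arbitrary
* `grad_one_cut`, `grad_cut_at_max` : at a maximum point of `η² |∂_ξ u|² / (w² u_{ξ ξ̄})`:
  `2 η² |∂_v u|² / (w² u_{v v̄}) ≤ κ η² + 4 C₁ + 2 n C₂ η`
  if `|∂η|² ≤ C₁ ω`, `- ∂∂̄ η ≤ C₂ ω`, `∂∂̄ log det ≤ κ ω`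
-/

set_option autoImplicit false
set_option linter.unusedSectionVars false

open Set Filter Topology Complex
open scoped ContDiff Matrix ComplexConjugate ComplexOrder

namespace Crest.Agent.R257.GradC_537

open Crest.Agent.R275.Geo Crest.Agent.R275.Core144 Crest.Agent.R275.GC293
open Crest.Agent.R275.OmT75
open Crest.Agent.R273 Crest.Agent.R273.Levi_145 Crest.Agent.R273.C2a_793
open Crest.Agent.R273.C2b_793 Crest.Agent.R273.C2c_793 Crest.Agent.R273.C2d_793
open Crest.Agent.R273.C2e_793 Crest.Agent.R257.GradA_537 Crest.Agent.R257.GradB_537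

noncomputable section

variable {n : ℕ} {u : Cn n → ℝ} {x : Cn n}

/-- the computation at the maximum point, general weight, coordinates with `u_{a b̄}(x) = δ_ab` -/
theorem grad_one_W {v : Cn n} {W : Cn n → ℝ} (hu : ContDiffAt ℝ ∞ u x) (h1 : Um u x = 1)
    (hu0 : ∀ v, v ≠ 0 → 0 < lev u x v) (hv : v ≠ 0) (hW2 : ContDiffAt ℝ 2 W x) (hWx : 0 < W x)
    (hg : gr u x v ≠ 0)
    (hmax : ∀ᶠ z in 𝓝 x, ∀ ξ, ‖gr u z ξ‖ ^ 2 * (W x ^ 2 * lev u x v) ≤
      ‖gr u x v‖ ^ 2 * (W z ^ 2 * lev u z ξ)) :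
    2 * (lev u x v / ‖gr u x v‖ ^ 2) - 4 * (gr W x v / W x / gr u x v).re
      - 2 * ∑ c, lev (fun z => Real.log (W z)) x (ee c) ≤ lev (ld u) x v / lev u x v := by
  -- the field
  set T : Matrix (Fin n) (Fin n) ℂ := Matrix.of fun b c => - tau u x v c b with hT
  set B : Cn n →L[ℂ] Cn n := Matrix.toEuclideanCLM (n := Fin n) (𝕜 := ℂ) T with hBdef
  have hBe : ∀ ξ : Cn n, ∀ a, (B ξ) a = ∑ c, T a c * ξ c := fun ξ a => rfl
  have hBc : ∀ c a, (B (ee c)) a = - tau u x v c a := by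
    intro c a
    rw [hBe]
    simp [ee, hT]
  set V : Cn n → Cn n := aff x v B with hVdef
  have hVx : V x = v := aff_self x v B
  have hV : ∀ᶠ z in 𝓝 x, DifferentiableAt ℂ V z := Eventually.of_forall (diff_aff x v B)
  have hVB : ∀ c b, (fderiv ℂ V x (ee c)) b = - tau u x (V x) c b := by
    intro c b
    rw [hVx, hVdef, fderiv_aff, hBc]
  have hV0 : V x ≠ 0 := by rw [hVx]; exact hv
  -- the functions
  have hp2 := c2_PV hu hV
  have hpx : PV u V x = gr u x v := by rw [PV, hVx]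
  set N : Cn n → ℝ := fun z => ‖PV u V z‖ ^ 2 with hN
  set Q : Cn n → ℝ := QV u V with hQ
  have hN2 : ContDiffAt ℝ 2 N x := c2_normSq' hp2
  have hQ2 : ContDiffAt ℝ 2 Q x := c2_QV hu hV
  have hNx : 0 < N x := by
    have : PV u V x ≠ 0 := by rw [hpx]; exact hg
    have := norm_pos_iff.2 this
    simp only [hN]
    positivity
  have hQx : Q x = lev u x v := by rw [hQ, QV, hVx]
  have hQ0 : 0 < Q x := by rw [hQx]; exact hu0 v hv
  -- local maximum
  have hmaxF : IsLocalMax (fun z => Real.log (N z) - 2 * Real.log (W z) - Real.log (Q z)) x := by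
    filter_upwards [hmax, hN2.continuousAt.eventually (lt_mem_nhds hNx),
      hW2.continuousAt.eventually (lt_mem_nhds hWx),
      hQ2.continuousAt.eventually (lt_mem_nhds hQ0)] with z h2 hNz hWz hQz
    have h3 := h2 (V z)
    have e1 : N z * (W x ^ 2 * Q x) ≤ N x * (W z ^ 2 * Q z) := by
      rw [hQx]
      simp only [hN, hQ, PV, QV] at h3 ⊢
      rw [hVx]
      exact h3
    have e2 := Real.log_le_log (by positivity) e1
    have l1 : Real.log (W x ^ 2) = 2 * Real.log (W x) := by rw [Real.log_pow]; push_cast; ring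
    have l2 : Real.log (W z ^ 2) = 2 * Real.log (W z) := by rw [Real.log_pow]; push_cast; ring
    rw [Real.log_mul hNz.ne' (by positivity), Real.log_mul (by positivity) hQ0.ne',
      Real.log_mul hNx.ne' (by positivity), Real.log_mul (by positivity) hQz.ne', l1, l2] at e2
    linarith
  have hlN : ContDiffAt ℝ 2 (fun z => Real.log (N z)) x := hN2.log hNx.ne'
  have hlW : ContDiffAt ℝ 2 (fun z => Real.log (W z)) x := hW2.log hWx.ne'
  have hlQ : ContDiffAt ℝ 2 (fun z => Real.log (Q z)) x := hQ2.log hQ0.ne'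
  have hl2W : ContDiffAt ℝ 2 (fun z => 2 * Real.log (W z)) x := contDiffAt_const.mul hlW
  have hF2 : ContDiffAt ℝ 2 (fun z => Real.log (N z) - 2 * Real.log (W z) - Real.log (Q z)) x :=
    (hlN.sub hl2W).sub hlQ
  have hlev : ∀ c, lev (fun z => Real.log (N z)) x (ee c) -
      2 * lev (fun z => Real.log (W z)) x (ee c) - lev (fun z => Real.log (Q z)) x (ee c) ≤ 0 := by
    intro c
    have h2 := lev_nonpos_of_localMax hF2 hmaxF (ee c)
    rw [lev_sub (u := fun z => Real.log (N z) - 2 * Real.log (W z))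
      (v := fun z => Real.log (Q z)) (hlN.sub hl2W) hlQ,
      lev_sub (u := fun z => Real.log (N z)) (v := fun z => 2 * Real.log (W z)) hlN hl2W,
      lev_const_mul 2 hlW] at h2
    exact h2
  have hdj : ∀ c, dj c (cx N) x / N x - 2 * (dj c (cx W) x / W x) - dj c (cx Q) x / Q x = 0 := by
    intro c
    have h2 := dj_cx_zero (c2_diff hF2) hmaxF.fderiv_eq_zero c
    rw [dj_cx_sub (f := fun z => Real.log (N z) - 2 * Real.log (W z))
      (g := fun z => Real.log (Q z)) (c2_diff (hlN.sub hl2W)) (c2_diff hlQ),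
      dj_cx_sub (f := fun z => Real.log (N z)) (g := fun z => 2 * Real.log (W z))
      (c2_diff hlN) (c2_diff hl2W), dj_cx_smul (c2_diff hlW), dj_log (c2_diff hN2) hNx,
      dj_log (c2_diff hW2) hWx, dj_log (c2_diff hQ2) hQ0] at h2
    push_cast at h2
    exact h2
  -- first and second derivatives
  set p : ℂ := gr u x v with hp
  set g : Fin n → ℂ := fun c => dj c (cx W) x with hgdef
  set q : Fin n → ℂ := fun c => dj c (PV u V) x with hqdef
  have hum : ∀ a b, hs (cx u) x a b = (1 : Matrix (Fin n) (Fin n) ℂ) a b := fun a b => by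
    rw [← h1]; rfl
  have hdb : ∀ c, dbj c (PV u V) x = v c := by
    intro c
    rw [dbj_PV (sm2 hu) hV.self_of_nhds, hVx]
    simp [hum, Matrix.one_apply]
  have hhs : ∀ c, hs (PV u V) x c c = 0 := hs_PV_one hu h1 hV hVB
  have hdjN : ∀ c, dj c (cx N) x = q c * conj p + p * conj (v c) := by
    intro c
    rw [hN, dj_normSq' hp2, hdb, hpx]
  have hlevN : ∀ c, lev N x (ee c) = ‖q c‖ ^ 2 + ‖v c‖ ^ 2 := by
    intro c
    have e1 := lev_ee hN2 c
    rw [hN, hs_normSq' hp2, hhs, hdb] at e1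
    have e2 : ((lev (fun z => ‖PV u V z‖ ^ 2) x (ee c) : ℝ) : ℂ) =
        ((‖q c‖ ^ 2 + ‖v c‖ ^ 2 : ℝ) : ℂ) := by
      rw [e1]
      push_cast
      rw [← Complex.mul_conj', ← Complex.mul_conj']
      simp [hqdef]
    exact_mod_cast e2
  have hdjQ : ∀ c, dj c (cx Q) x = 0 := by
    intro c
    rw [hQ, dj_QV_one hu h1 hV]
    simp [hVB]
  have hlevQ : ∀ c, lev Q x (ee c) = (RR u x v c c).re - ∑ b, ‖tau u x v c b‖ ^ 2 := by
    intro c
    have e1 := lev_ee hQ2 c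
    rw [hQ, hs_QV_one hu h1 hV] at e1
    have e2 := congrArg Complex.re e1
    simp only [Complex.ofReal_re, Complex.add_re, Complex.sub_re, Complex.re_sum, hVx] at e2
    rw [← hQ] at e2
    rw [e2]
    have e3 : ∀ b, tau u x v c b + (fderiv ℂ V x (ee c)) b = 0 := by
      intro b
      have := hVB c b
      rw [hVx] at this
      rw [this]; ring
    simp [e3]
  have hQn : Q x = ∑ b, ‖v b‖ ^ 2 := by rw [hQx, lev_one hu h1]
  have hsumQ : ∑ c, lev (fun z => Real.log (Q z)) x (ee c) = lev (ld u) x v / lev u x v := by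
    have e1 : ∀ c, lev (fun z => Real.log (Q z)) x (ee c) =
        ((RR u x v c c).re - ∑ b, ‖tau u x v c b‖ ^ 2) / Q x := by
      intro c
      rw [lev_log hQ2 hQ0, hlevQ, gr_ee, hdjQ]
      simp
    simp only [e1]
    rw [← Finset.sum_div, ← hQx]
    congr 1
    have e2 := congrArg Complex.re (lev_ld_one hu h1 v)
    simp only [Complex.ofReal_re, Complex.sub_re, Complex.re_sum] at e2
    rw [e2]
  -- the first order condition
  have hp0 : p ≠ 0 := hg
  have hcp0 : conj p ≠ 0 := (map_ne_zero _).2 hp0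
  have hWc : ((W x : ℝ) : ℂ) ≠ 0 := by exact_mod_cast hWx.ne'
  have hNc : ((N x : ℝ) : ℂ) = p * conj p := by
    rw [Complex.mul_conj']
    simp only [hN, hpx]
    push_cast
    rfl
  have hq : ∀ c, q c / p = - (conj (v c) / conj p) + 2 * (g c / W x) := by
    intro c
    have e1 := hdj c
    rw [hdjN, hdjQ, hNc] at e1
    have e2 : (q c * conj p + p * conj (v c)) / (p * conj p) = q c / p + conj (v c) / conj p := by
      field_simp
    rw [e2] at e1
    linear_combination e1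
  have hNp : N x = ‖p‖ ^ 2 := by simp only [hN, hpx]
  have hqn : ∀ c, ‖q c‖ ^ 2 / N x = ‖v c‖ ^ 2 / N x + 4 * (‖g c‖ ^ 2 / W x ^ 2)
      - 4 / W x * (g c * v c / p).re := by
    intro c
    have e0 : ‖q c‖ ^ 2 / N x = ‖q c / p‖ ^ 2 := by rw [hNp, norm_div, div_pow]
    have e1 : ((‖q c / p‖ ^ 2 : ℝ) : ℂ) = ((‖v c‖ ^ 2 / N x + 4 * (‖g c‖ ^ 2 / W x ^ 2)
      - 4 / W x * (g c * v c / p).re : ℝ) : ℂ) := by
      have e2 : ((‖q c / p‖ ^ 2 : ℝ) : ℂ) = (q c / p) * conj (q c / p) := by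
        rw [Complex.mul_conj']; push_cast; rfl
      have e3 : (((g c * v c / p).re : ℝ) : ℂ) = (g c * v c / p + conj (g c * v c / p)) / 2 :=
        Complex.re_eq_add_conj _
      rw [e2, hq]
      push_cast
      rw [e3, hNc, ← Complex.mul_conj', ← Complex.mul_conj']
      simp only [map_add, map_neg, map_mul, map_div₀, Complex.conj_conj, Complex.conj_ofReal,
        map_ofNat]
      field_simp
      ring
    rw [e0]
    exact_mod_cast e1
  have hlN' : ∀ c, lev (fun z => Real.log (N z)) x (ee c) =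
      2 * (‖v c‖ ^ 2 / N x) - 4 / W x * (g c * v c / p).re := by
    intro c
    have e1 : dj c (cx N) x / N x = 2 * (g c / W x) := by
      have := hdj c
      rw [hdjQ] at this
      linear_combination this
    have e2 : ‖dj c (cx N) x‖ ^ 2 / N x ^ 2 = 4 * (‖g c‖ ^ 2 / W x ^ 2) := by
      have e3 : ‖dj c (cx N) x / N x‖ ^ 2 = ‖dj c (cx N) x‖ ^ 2 / N x ^ 2 := by
        rw [norm_div, div_pow, Complex.norm_real, Real.norm_eq_abs, sq_abs]
      rw [← e3, e1, norm_mul, norm_div, Complex.norm_real, Real.norm_eq_abs, mul_pow,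
        div_pow, sq_abs]
      norm_num
    rw [lev_log hN2 hNx, hlevN, gr_ee, e2, add_div, hqn]
    ring
  -- summation
  have hsum : ∑ c, (2 * (‖v c‖ ^ 2 / N x) - 4 / W x * (g c * v c / p).re
      - 2 * lev (fun z => Real.log (W z)) x (ee c)) ≤ lev (ld u) x v / lev u x v := by
    rw [← hsumQ]
    refine Finset.sum_le_sum fun c _ => ?_
    have := hlev c
    rw [hlN'] at this
    linarith
  refine le_of_eq_of_le ?_ hsum
  have hre : ∑ c, (g c * v c / p).re = (gr W x v / p).re := by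
    rw [← Complex.re_sum, ← Finset.sum_div]
    rfl
  simp only [Finset.sum_sub_distrib, ← Finset.mul_sum, ← Finset.sum_div, hre]
  rw [← hQx, hQn, ← hNp]
  have e5 : (gr W x v / (W x : ℂ) / p).re = (gr W x v / p).re / W x := by
    rw [div_right_comm, Complex.div_ofReal_re]
  rw [e5]
  ring

/-- the computation at the maximum point with a cut-off, coordinates with `u_{a b̄}(x) = δ_ab` -/
theorem grad_one_cut {v : Cn n} {η : Cn n → ℝ} {A C₁ C₂ : ℝ} (hu : ContDiffAt ℝ ∞ u x)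
    (h1 : Um u x = 1) (hu0 : ∀ v, v ≠ 0 → 0 < lev u x v) (hv : v ≠ 0) (hA : u x < A)
    (hη : ContDiffAt ℝ 2 η x) (hη0 : 0 < η x) (hC₁ : 0 ≤ C₁)
    (hη1 : ∀ ξ, ‖gr η x ξ‖ ^ 2 ≤ C₁ * lev u x ξ) (hη2 : ∀ ξ, -(C₂ * lev u x ξ) ≤ lev η x ξ)
    (hg : gr u x v ≠ 0)
    (hmax : ∀ᶠ z in 𝓝 x, ∀ ξ, ‖gr u z ξ‖ ^ 2 * η z ^ 2 * ((A - u x) ^ 2 * lev u x v) ≤
      ‖gr u x v‖ ^ 2 * η x ^ 2 * ((A - u z) ^ 2 * lev u z ξ)) :
    2 * ‖gr u x v‖ ^ 2 / ((A - u x) ^ 2 * lev u x v) ≤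
      lev (ld u) x v / lev u x v + 4 * C₁ / η x ^ 2 + 2 * n * C₂ / η x := by
  have hwx : 0 < A - u x := by linarith
  set w : Cn n → ℝ := fun z => A - u z with hw
  have hw2 : ContDiffAt ℝ 2 w x := contDiffAt_const.sub (sm2 hu)
  have hwx' : 0 < w x := hwx
  set W : Cn n → ℝ := fun z => w z / η z with hW
  have hW2 : ContDiffAt ℝ 2 W x := hw2.div hη hη0.ne'
  have hWx : 0 < W x := by simp only [hW]; positivity
  have hev1 : ∀ᶠ z in 𝓝 x, 0 < w z := hw2.continuousAt.eventually (lt_mem_nhds hwx')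
  have hev2 : ∀ᶠ z in 𝓝 x, 0 < η z := hη.continuousAt.eventually (lt_mem_nhds hη0)
  have hmaxW : ∀ᶠ z in 𝓝 x, ∀ ξ, ‖gr u z ξ‖ ^ 2 * (W x ^ 2 * lev u x v) ≤
      ‖gr u x v‖ ^ 2 * (W z ^ 2 * lev u z ξ) := by
    filter_upwards [hmax, hev2] with z hz hz2 ξ
    have h := hz ξ
    have e1 : ‖gr u z ξ‖ ^ 2 * (W x ^ 2 * lev u x v) =
        (‖gr u z ξ‖ ^ 2 * η z ^ 2 * ((A - u x) ^ 2 * lev u x v)) / (η x ^ 2 * η z ^ 2) := by
      simp only [hW, hw]
      field_simp
    have e2 : ‖gr u x v‖ ^ 2 * (W z ^ 2 * lev u z ξ) =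
        (‖gr u x v‖ ^ 2 * η x ^ 2 * ((A - u z) ^ 2 * lev u z ξ)) / (η x ^ 2 * η z ^ 2) := by
      simp only [hW, hw]
      field_simp
    rw [e1, e2]
    gcongr
  have key := grad_one_W hu h1 hu0 hv hW2 hWx hg hmaxW
  -- notation
  set p : ℂ := gr u x v with hp
  set Q : ℝ := lev u x v with hQ
  have hQ0 : 0 < Q := hu0 v hv
  have hp0 : 0 < ‖p‖ := norm_pos_iff.2 hg
  have hQn : Q = ∑ b, ‖v b‖ ^ 2 := by rw [hQ, lev_one hu h1]
  -- logarithms
  have hlw2 : ContDiffAt ℝ 2 (fun z => Real.log (w z)) x := hw2.log hwx'.ne'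
  have hlη2 : ContDiffAt ℝ 2 (fun z => Real.log (η z)) x := hη.log hη0.ne'
  have hlog : (fun z => Real.log (W z)) =ᶠ[𝓝 x] fun z => Real.log (w z) - Real.log (η z) := by
    filter_upwards [hev1, hev2] with z h3 h4
    exact Real.log_div h3.ne' h4.ne'
  have hdw : ∀ c, dj c (cx w) x = - dj c (cx u) x := by
    intro c
    have e : w = fun z => (fun _ => A) z - u z := rfl
    rw [e, dj_cx_sub (f := fun _ => A) (differentiableAt_const _) (c2_diff (sm2 hu))]
    have : dj c (cx fun _ : Cn n => A) x = 0 := dj_const _ _ _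
    rw [this, zero_sub]
  have hlevw : ∀ c, lev w x (ee c) = -1 := by
    intro c
    have e : w = fun z => (fun _ => A) z - u z := rfl
    rw [e, lev_sub (u := fun _ => A) contDiffAt_const (sm2 hu), lev_const, lev_one hu h1]
    simp [ee, apply_ite, ite_pow]
  have hlevlw : ∀ c, lev (fun z => Real.log (w z)) x (ee c) =
      - (1 / w x) - ‖dj c (cx u) x‖ ^ 2 / w x ^ 2 := by
    intro c
    rw [lev_log hw2 hwx', hlevw, gr_ee, hdw, norm_neg]
    ring
  have hlevlη : ∀ c, lev (fun z => Real.log (η z)) x (ee c) =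
      lev η x (ee c) / η x - ‖dj c (cx η) x‖ ^ 2 / η x ^ 2 := by
    intro c
    rw [lev_log hη hη0, gr_ee]
  have hlevW : ∀ c, lev (fun z => Real.log (W z)) x (ee c) =
      - (1 / w x) - ‖dj c (cx u) x‖ ^ 2 / w x ^ 2 -
        (lev η x (ee c) / η x - ‖dj c (cx η) x‖ ^ 2 / η x ^ 2) := by
    intro c
    rw [lev_congr hlog, lev_sub (u := fun z => Real.log (w z)) (v := fun z => Real.log (η z))
      hlw2 hlη2, hlevlw, hlevlη]
  -- first derivative of `W`
  have hdW : ∀ c, dj c (cx W) x / W x = - (dj c (cx u) x / w x) - dj c (cx η) x / η x := by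
    intro c
    have e1 := dj_log (c2_diff hW2) hWx c
    have e2 : dj c (cx fun z => Real.log (W z)) x =
        dj c (cx fun z => Real.log (w z) - Real.log (η z)) x :=
      (dj_ev (cx_congr hlog) c).self_of_nhds
    rw [← e1, e2, dj_cx_sub (f := fun z => Real.log (w z)) (g := fun z => Real.log (η z))
      (c2_diff hlw2) (c2_diff hlη2), dj_log (c2_diff hw2) hwx', dj_log (c2_diff hη) hη0, hdw]
    ring
  have hgW : gr W x v / W x / p = - (1 / (w x : ℂ)) - gr η x v / η x / p := by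
    have hpc : p ≠ 0 := hg
    have e1 : gr W x v / W x = - (p / w x) - gr η x v / η x := by
      have e3 : gr W x v / (W x : ℂ) = ∑ c, dj c (cx W) x / W x * v c := by
        rw [gr, Finset.sum_div]
        exact Finset.sum_congr rfl fun c _ => by ring
      have e4 : p / (w x : ℂ) = ∑ c, dj c (cx u) x / w x * v c := by
        rw [hp, gr, Finset.sum_div]
        exact Finset.sum_congr rfl fun c _ => by ring
      have e5 : gr η x v / (η x : ℂ) = ∑ c, dj c (cx η) x / η x * v c := by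
        rw [gr, Finset.sum_div]
        exact Finset.sum_congr rfl fun c _ => by ring
      rw [e3, e4, e5, ← Finset.sum_neg_distrib, ← Finset.sum_sub_distrib]
      exact Finset.sum_congr rfl fun c _ => by rw [hdW]; ring
    rw [e1]
    field_simp
  -- bounds of the cut-off
  have hSη : ∑ c, ‖dj c (cx η) x‖ ^ 2 ≤ C₁ := by
    set S : ℝ := ∑ c, ‖dj c (cx η) x‖ ^ 2 with hS
    set ξ : Cn n := WithLp.toLp 2 fun c => conj (dj c (cx η) x) with hξ
    have e1 : gr η x ξ = (S : ℂ) := by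
      rw [gr, hS]
      push_cast
      exact Finset.sum_congr rfl fun c _ => by
        rw [hξ]
        show dj c (cx η) x * conj (dj c (cx η) x) = _
        rw [Complex.mul_conj']
    have e2 : lev u x ξ = S := by
      rw [lev_one hu h1, hS]
      exact Finset.sum_congr rfl fun c _ => by
        rw [hξ]
        show ‖conj (dj c (cx η) x)‖ ^ 2 = _
        rw [Complex.norm_conj]
    have e3 := hη1 ξ
    rw [e1, e2, Complex.norm_real, Real.norm_eq_abs, sq_abs] at e3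
    have hS0 : 0 ≤ S := Finset.sum_nonneg fun c _ => sq_nonneg _
    rcases hS0.eq_or_lt with h | h
    · rw [← h]; exact hC₁
    · nlinarith
  have hΔη : -(n * C₂) ≤ ∑ c, lev η x (ee c) := by
    have e1 : ∀ c : Fin n, -C₂ ≤ lev η x (ee c) := by
      intro c
      have e2 := hη2 (ee c)
      rw [lev_one hu h1] at e2
      simpa [ee, apply_ite, ite_pow] using e2
    calc -(n * C₂) = ∑ c : Fin n, -C₂ := by
          rw [Finset.sum_const, Finset.card_univ, Fintype.card_fin, nsmul_eq_mul]; ring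
      _ ≤ _ := Finset.sum_le_sum fun c _ => e1 c
  have hηv : ‖gr η x v‖ ^ 2 ≤ C₁ * Q := hη1 v
  -- summation
  have hsumW : ∑ c, lev (fun z => Real.log (W z)) x (ee c) =
      - (n / w x) - (∑ c, ‖dj c (cx u) x‖ ^ 2) / w x ^ 2 -
        ((∑ c, lev η x (ee c)) / η x - (∑ c, ‖dj c (cx η) x‖ ^ 2) / η x ^ 2) := by
    simp only [hlevW, Finset.sum_sub_distrib, Finset.sum_neg_distrib, ← Finset.sum_div]
    simp only [Finset.sum_const, Finset.card_univ, Fintype.card_fin, nsmul_eq_mul]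
    ring
  have hre1 : (gr η x v / (η x : ℂ) / p).re ≥ -(‖gr η x v‖ / η x / ‖p‖) := by
    have e1 := Complex.abs_re_le_norm (gr η x v / (η x : ℂ) / p)
    rw [norm_div, norm_div, Complex.norm_real, Real.norm_eq_abs, abs_of_pos hη0] at e1
    exact (abs_le.1 e1).1
  have hre2 : (gr W x v / W x / p).re = -(1 / w x) - (gr η x v / (η x : ℂ) / p).re := by
    rw [hgW, Complex.sub_re, Complex.neg_re]
    congr 2
    rw [← Complex.ofReal_one, ← Complex.ofReal_div, Complex.ofReal_re]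
  have hamgm : 4 * (‖gr η x v‖ / η x / ‖p‖) ≤ 2 * (Q / ‖p‖ ^ 2) + 2 * (C₁ / η x ^ 2) := by
    have e1 : (‖gr η x v‖ / η x) ^ 2 ≤ C₁ / η x ^ 2 * Q := by
      rw [div_pow, div_mul_eq_mul_div]
      gcongr
    have e2 : ∀ a q s c : ℝ, 0 ≤ a → 0 < q → 0 < s → a ^ 2 ≤ c * q →
        4 * (a / s) ≤ 2 * (q / s ^ 2) + 2 * c := by
      intro a q s c ha hq hs h
      have h3 : a ^ 2 / q ≤ c := by rwa [div_le_iff₀ hq]
      have h4 : 0 ≤ 2 * (q / s ^ 2) + 2 * (a ^ 2 / q) - 4 * (a / s) := by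
        have : 2 * (q / s ^ 2) + 2 * (a ^ 2 / q) - 4 * (a / s) =
            2 * (q - a * s) ^ 2 / (q * s ^ 2) := by
          field_simp
          ring
        rw [this]
        positivity
      linarith
    exact e2 _ Q _ _ (by positivity) hQ0 hp0 e1
  have hcs : ‖p‖ ^ 2 ≤ (∑ c, ‖dj c (cx u) x‖ ^ 2) * Q := by
    rw [hQn]
    have h3 : ‖p‖ ≤ ∑ c, ‖dj c (cx u) x‖ * ‖v c‖ := by
      rw [hp, gr]
      refine (norm_sum_le _ _).trans (le_of_eq ?_)
      exact Finset.sum_congr rfl fun c _ => norm_mul _ _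
    calc ‖p‖ ^ 2 ≤ (∑ c, ‖dj c (cx u) x‖ * ‖v c‖) ^ 2 := by gcongr
      _ ≤ _ := Finset.sum_mul_sq_le_sq_mul_sq _ _ _
  have h5 : 2 * ‖p‖ ^ 2 / ((A - u x) ^ 2 * Q) ≤
      2 * ((∑ c, ‖dj c (cx u) x‖ ^ 2) / w x ^ 2) := by
    rw [mul_div_assoc]
    refine mul_le_mul_of_nonneg_left ?_ (by norm_num)
    show ‖p‖ ^ 2 / (w x ^ 2 * Q) ≤ _
    rw [div_le_div_iff₀ (by positivity) (by positivity)]
    calc ‖p‖ ^ 2 * w x ^ 2 ≤ ((∑ c, ‖dj c (cx u) x‖ ^ 2) * Q) * w x ^ 2 := by gcongr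
      _ = (∑ c, ‖dj c (cx u) x‖ ^ 2) * (w x ^ 2 * Q) := by ring
  have h6 : (∑ c, ‖dj c (cx η) x‖ ^ 2) / η x ^ 2 ≤ C₁ / η x ^ 2 := by gcongr
  have h7 : -(n * C₂ / η x) ≤ (∑ c, lev η x (ee c)) / η x := by
    rw [← neg_div]
    gcongr
  have h8 : 0 ≤ n / w x := by positivity
  have h9 : 0 < 1 / w x := by positivity
  rw [hsumW, hre2] at key
  have e8 : 4 * C₁ / η x ^ 2 = 4 * (C₁ / η x ^ 2) := mul_div_assoc _ _ _
  have e9 : 2 * n * C₂ / η x = 2 * (n * C₂ / η x) := by ring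
  rw [e8, e9]
  linarith

/-- **the gradient estimate at a maximum point, with a cut-off** -/
theorem grad_cut_at_max {v : Cn n} {η : Cn n → ℝ} {A κ C₁ C₂ : ℝ} (hu : ContDiffAt ℝ ∞ u x)
    (hu0 : ∀ v, v ≠ 0 → 0 < lev u x v) (hv : v ≠ 0) (hA : u x < A) (hκ0 : 0 ≤ κ)
    (hκ : lev (ld u) x v ≤ κ * lev u x v)
    (hη : ContDiffAt ℝ 2 η x) (hη0 : 0 < η x) (hC₁ : 0 ≤ C₁) (hC₂ : 0 ≤ C₂)
    (hη1 : ∀ ξ, ‖gr η x ξ‖ ^ 2 ≤ C₁ * lev u x ξ) (hη2 : ∀ ξ, -(C₂ * lev u x ξ) ≤ lev η x ξ)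
    (hmax : ∀ᶠ z in 𝓝 x, ∀ ξ, ‖gr u z ξ‖ ^ 2 * η z ^ 2 * ((A - u x) ^ 2 * lev u x v) ≤
      ‖gr u x v‖ ^ 2 * η x ^ 2 * ((A - u z) ^ 2 * lev u z ξ)) :
    2 * (‖gr u x v‖ ^ 2 * η x ^ 2) ≤
      (κ * η x ^ 2 + 4 * C₁ + 2 * n * C₂ * η x) * ((A - u x) ^ 2 * lev u x v) := by
  have hlv : 0 < lev u x v := hu0 v hv
  have hAx : 0 < A - u x := by linarith
  by_cases hg : gr u x v = 0
  · rw [hg]
    simp only [norm_zero, ne_eq, OfNat.ofNat_ne_zero, not_false_eq_true, zero_pow, mul_zero,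
      zero_mul]
    positivity
  obtain ⟨E, hE, hE1⟩ := exists_norm (Um_posDef (sm2 hu) hu0)
  have hu2 : ContDiffAt ℝ 2 u (TT x E 0) := by rw [TT_zero]; exact sm2 hu
  have h1 : Um (fun y => u (TT x E y)) 0 = 1 := by rw [Um_lin hu2, TT_zero, hE1]
  have hus := sm_comp_TT hu E
  have hTc : Tendsto (TT x E) (𝓝 0) (𝓝 x) := by
    have := (sm_TT x E).continuous.tendsto 0
    rwa [TT_zero] at this
  set ζ : Cn n := ml E⁻¹ v with hζ
  have hEζ : ml E ζ = v := ml_inv hE v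
  have hζ0 : ζ ≠ 0 := by
    intro h
    rw [h, map_zero] at hEζ
    exact hv hEζ.symm
  have hinj : ∀ ξ : Cn n, ξ ≠ 0 → ml E ξ ≠ 0 := by
    intro ξ hξ h0
    apply hξ
    have h3 : ml E⁻¹ (ml E ξ) = ξ := by
      rw [ml_mul, Matrix.nonsing_inv_mul _ (isUnit_iff_ne_zero.2 hE), ml_one]
    rw [← h3, h0, map_zero]
  have hpos' : ∀ ξ : Cn n, ξ ≠ 0 → 0 < lev (fun y => u (TT x E y)) 0 ξ := by
    intro ξ hξ
    rw [lev_lin (sm2 hu)]
    exact hu0 _ (hinj ξ hξ)
  have ha0 : u (TT x E 0) = u x := by rw [TT_zero]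
  have hη00 : η (TT x E 0) = η x := by rw [TT_zero]
  have hg0 : gr (fun y => u (TT x E y)) 0 ζ = gr u x v := by
    rw [gr_lin (by rw [TT_zero]; exact c2_diff (sm2 hu)), TT_zero, hEζ]
  have hl0 : lev (fun y => u (TT x E y)) 0 ζ = lev u x v := by
    rw [lev_lin (sm2 hu), hEζ]
  have hηT : ContDiffAt ℝ 2 η (TT x E 0) := by rw [TT_zero]; exact hη
  have hηs : ContDiffAt ℝ 2 (fun y => η (TT x E y)) 0 :=
    hηT.comp (0 : Cn n) (sm2 (sm_TT x E).contDiffAt)
  have key := grad_one_cut (u := fun y => u (TT x E y)) (x := 0) (v := ζ)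
    (η := fun y => η (TT x E y)) (A := A) (C₁ := C₁) (C₂ := C₂) hus h1 hpos' hζ0
    (by simp only [ha0]; exact hA) hηs (by simp only [hη00]; exact hη0) hC₁
    (fun ξ => by
      rw [gr_lin (u := η) (by rw [TT_zero]; exact c2_diff hη), TT_zero, lev_lin (sm2 hu)]
      exact hη1 _)
    (fun ξ => by
      rw [lev_lin' (u := η) hηT, TT_zero, lev_lin (sm2 hu)]
      exact hη2 _)
    (by rw [hg0]; exact hg) (by
      filter_upwards [hTc.eventually hmax, hTc.eventually (ev_sm2 hu)] with y hy hy2 ξ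
      have h4 := hy (ml E ξ)
      rw [hl0, hg0, gr_lin (c2_diff hy2), lev_lin' hy2]
      simp only [ha0, hη00]
      exact h4)
  rw [hg0, hl0] at key
  simp only [ha0, hη00] at key
  have hup := Um_posDef (sm2 hu) hu0
  have hdp : 0 < (Um u x).det.re := (Complex.pos_iff.1 hup.det_pos).1
  have hdc : ContinuousAt (fun z => (Um u z).det.re) x :=
    (Complex.reCLM.contDiff.contDiffAt.comp x (cd_det (sm_Um hu))).continuousAt
  have hld : lev (ld fun y => u (TT x E y)) 0 ζ = lev (ld u) x v := by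
    have e1 : (ld fun y => u (TT x E y)) =ᶠ[𝓝 0]
        fun y => (fun z => Real.log (‖E.det‖ ^ 2) + ld u z) (TT x E y) := by
      filter_upwards [hTc.eventually (ev_sm2 hu),
        hTc.eventually (hdc.eventually (lt_mem_nhds hdp))] with y hy hy2
      unfold ld
      rw [det_lin hy, Complex.re_ofReal_mul]
      have h5 : ‖E.det‖ ^ 2 ≠ 0 := by
        have := norm_ne_zero_iff.2 hE
        positivity
      exact Real.log_mul h5 hy2.ne'
    have e2 : ContDiffAt ℝ 2 (ld u) x := sm2 (sm_ld hu hdp.ne')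
    rw [lev_congr e1, lev_lin (contDiffAt_const.add e2),
      lev_add (u := fun _ => Real.log (‖E.det‖ ^ 2)) contDiffAt_const e2, lev_const, zero_add,
      hEζ]
  rw [hld] at key
  have k2 : lev (ld u) x v / lev u x v ≤ κ := (div_le_iff₀ hlv).2 hκ
  have k3 : 2 * ‖gr u x v‖ ^ 2 / ((A - u x) ^ 2 * lev u x v) ≤
      κ + 4 * C₁ / η x ^ 2 + 2 * n * C₂ / η x := by linarith
  rw [div_le_iff₀ (by positivity)] at k3
  have k4 := mul_le_mul_of_nonneg_right k3 (sq_nonneg (η x))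
  calc 2 * (‖gr u x v‖ ^ 2 * η x ^ 2) = 2 * ‖gr u x v‖ ^ 2 * η x ^ 2 := by ring
    _ ≤ _ := k4
    _ = _ := by field_simp

end

end Crest.Agent.R257.GradC_537
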