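import Crest.Agent.R257.GradC_537
import Crest.Agent.R273.Fam_835

/-!
# R257 (S0395), leaf E-GRAD (helper537), part d: the global gradient estimate on a manifold

* `gn u z` = `|∂u|²_ω` (`ω = dd^c u`), `gr_sq_le`, `gr_gv`, `gn_cont`
* `SPsh C Ω u` : smooth, strictly plurisubharmonic on the open set `Ω` in the charts of `C : Fam n M`
* `grad_est`   : the gradient estimate with a cut-off `η`, `{η > 0} ∩ Ω` in a compact `K ⊆ Ω`
-/

set_option autoImplicit false
set_option linter.unusedSectionVars false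

open Set Filter Topology Complex
open scoped ContDiff Matrix ComplexConjugate ComplexOrder

namespace Crest.Agent.R257.GradD_537

open Crest.Agent.R275.Geo Crest.Agent.R275.Core144 Crest.Agent.R275.GC293
open Crest.Agent.R275.OmT75
open Crest.Agent.R273 Crest.Agent.R273.Levi_145 Crest.Agent.R273.C2a_793
open Crest.Agent.R273.C2b_793 Crest.Agent.R273.C2c_793 Crest.Agent.R273.C2d_793
open Crest.Agent.R273.C2e_793 Crest.Agent.R257.GradA_537 Crest.Agent.R257.GradB_537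
open Crest.Agent.R257.GradC_537 Crest.Agent.R273.Fam_835

noncomputable section

variable {n : ℕ} {u : Cn n → ℝ} {x z : Cn n}

/-! ### the norm of the gradient -/

/-- the polarised Levi form -/
def bl (u : Cn n → ℝ) (z ξ ζ : Cn n) : ℂ := ∑ a, ∑ b, hs (cx u) z a b * ξ a * conj (ζ b)

/-- the vector dual to `∂u` -/
def gv (u : Cn n → ℝ) (z : Cn n) : Cn n :=
  WithLp.toLp 2 fun a => conj (((Um u z)⁻¹ *ᵥ fun b => dj b (cx u) z) a)

/-- `|∂u|²_ω` -/
def gn (u : Cn n → ℝ) (z : Cn n) : ℝ := (gr u z (gv u z)).re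

theorem bl_gv (h : (Um u z).det ≠ 0) (ξ : Cn n) : bl u z ξ (gv u z) = gr u z ξ := by
  have h1 : ∀ a, ∑ b, hs (cx u) z a b * conj (gv u z b) = dj a (cx u) z := by
    intro a
    have h2 : (Um u z) *ᵥ ((Um u z)⁻¹ *ᵥ fun b => dj b (cx u) z) = fun b => dj b (cx u) z := by
      rw [Matrix.mulVec_mulVec, Matrix.mul_nonsing_inv _ (isUnit_iff_ne_zero.2 h),
        Matrix.one_mulVec]
    have h3 := congrFun h2 a
    rw [← h3]
    simp only [Matrix.mulVec, dotProduct, gv, Complex.conj_conj, Um_apply]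
  unfold bl gr
  refine Finset.sum_congr rfl fun a _ => ?_
  rw [← h1 a, Finset.sum_mul]
  exact Finset.sum_congr rfl fun b _ => by ring

theorem bl_self (h : ContDiffAt ℝ 2 u z) (ξ : Cn n) : bl u z ξ ξ = (lev u z ξ : ℂ) :=
  (lev_eq h ξ).symm

theorem bl_symm (h : ContDiffAt ℝ 2 u z) (ξ ζ : Cn n) : bl u z ζ ξ = conj (bl u z ξ ζ) := by
  unfold bl
  rw [map_sum, Finset.sum_comm]
  refine Finset.sum_congr rfl fun a _ => ?_
  rw [map_sum]
  refine Finset.sum_congr rfl fun b _ => ?_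
  rw [map_mul, map_mul, Complex.conj_conj, hs_herm h]
  ring

theorem bl_sub_smul (s p : ℂ) (ξ ζ : Cn n) :
    bl u z (s • ξ - p • ζ) (s • ξ - p • ζ) = s * conj s * bl u z ξ ξ - s * conj p * bl u z ξ ζ
      - p * conj s * bl u z ζ ξ + p * conj p * bl u z ζ ζ := by
  unfold bl
  simp only [Finset.mul_sum, ← Finset.sum_sub_distrib, ← Finset.sum_add_distrib]
  refine Finset.sum_congr rfl fun a _ => Finset.sum_congr rfl fun b _ => ?_
  simp only [PiLp.sub_apply, PiLp.smul_apply, smul_eq_mul, map_sub, map_mul]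
  ring

section Pos

variable (hu : ContDiffAt ℝ 2 u z) (hp : ∀ v : Cn n, v ≠ 0 → 0 < lev u z v)

include hu hp

theorem det_ne : (Um u z).det ≠ 0 := (Um_posDef hu hp).det_pos.ne'

theorem gr_gv : gr u z (gv u z) = (lev u z (gv u z) : ℂ) := by
  rw [← bl_gv (det_ne hu hp), bl_self hu]

theorem gn_eq : gn u z = lev u z (gv u z) := by
  rw [gn, gr_gv hu hp, Complex.ofReal_re]

theorem gn_nonneg : 0 ≤ gn u z := by
  rw [gn_eq hu hp]
  exact lev_nn_zero hp _

/-- Cauchy-Schwarz -/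
theorem gr_sq_le (ξ : Cn n) : ‖gr u z ξ‖ ^ 2 ≤ gn u z * lev u z ξ := by
  have hs0 := gn_nonneg hu hp
  rcases hs0.eq_or_lt with h | h
  · have h1 : gv u z = 0 := by
      by_contra h0
      have := hp _ h0
      rw [← gn_eq hu hp] at this
      linarith
    have h2 : gr u z ξ = 0 := by
      rw [← bl_gv (det_ne hu hp), h1]
      simp [bl]
    rw [h2, ← h]
    simp
  · set s := gn u z with hs
    set p := gr u z ξ with hpp
    have e1 : bl u z ξ (gv u z) = p := bl_gv (det_ne hu hp) ξ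
    have e2 : bl u z (gv u z) ξ = conj p := by rw [bl_symm hu ξ, e1]
    have e3 : bl u z (gv u z) (gv u z) = (s : ℂ) := by rw [bl_self hu, hs, gn_eq hu hp]
    have e4 := bl_sub_smul (u := u) (z := z) (s : ℂ) p ξ (gv u z)
    rw [e1, e2, e3, bl_self hu, bl_self hu, Complex.conj_ofReal] at e4
    have e5 : (lev u z ((s : ℂ) • ξ - p • gv u z) : ℂ) =
        ((s * (s * lev u z ξ - ‖p‖ ^ 2) : ℝ) : ℂ) := by
      rw [e4]
      push_cast
      rw [← Complex.mul_conj']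
      ring
    have e6 : lev u z ((s : ℂ) • ξ - p • gv u z) = s * (s * lev u z ξ - ‖p‖ ^ 2) := by
      exact_mod_cast e5
    have e7 := lev_nn_zero hp ((s : ℂ) • ξ - p • gv u z)
    rw [e6] at e7
    have e8 := nonneg_of_mul_nonneg_right e7 h
    linarith

theorem gn_le_of {c : ℝ} (hc : ∀ ξ, ‖gr u z ξ‖ ^ 2 ≤ c * lev u z ξ) (hc0 : 0 ≤ c) :
    gn u z ≤ c := by
  have h0 := gn_nonneg hu hp
  rcases h0.eq_or_lt with h | h
  · rw [← h]; exact hc0
  · have h1 := hc (gv u z)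
    rw [gr_gv hu hp, Complex.norm_real, Real.norm_eq_abs, sq_abs, ← gn_eq hu hp, sq] at h1
    exact le_of_mul_le_mul_right h1 h

theorem gr_gv_sq : ‖gr u z (gv u z)‖ ^ 2 = gn u z * lev u z (gv u z) := by
  rw [gr_gv hu hp, Complex.norm_real, Real.norm_eq_abs, sq_abs, ← gn_eq hu hp, sq]

end Pos

theorem gn_cont (hu : ContDiffAt ℝ ∞ u x) (hp : ∀ v : Cn n, v ≠ 0 → 0 < lev u x v) :
    ContinuousAt (gn u) x := by
  have hU : ContinuousAt (Um u) x := by
    refine continuousAt_pi.2 fun a => continuousAt_pi.2 fun b => ?_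
    exact (sm_Um hu a b).continuousAt
  have hdet : ContinuousAt (fun z => (Um u z).det) x :=
    (continuous_id.matrix_det).continuousAt.comp hU
  have hadj : ContinuousAt (fun z => (Um u z).adjugate) x :=
    (continuous_id.matrix_adjugate).continuousAt.comp hU
  have hd0 : (Um u x).det ≠ 0 := det_ne (sm2 hu) hp
  have hinv : ContinuousAt (fun z => (Um u z)⁻¹) x := by
    have e : (fun z => (Um u z)⁻¹) = fun z => ((Um u z).det)⁻¹ • (Um u z).adjugate := by
      funext z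
      rw [Matrix.inv_def, Ring.inverse_eq_inv']
    rw [e]
    exact (hdet.inv₀ hd0).smul hadj
  have hdj : ∀ a, ContinuousAt (fun z => dj a (cx u) z) x := fun a =>
    (sm_dj (sm_cx hu) a).continuousAt
  have hinvab : ∀ a b, ContinuousAt (fun z => (Um u z)⁻¹ a b) x := fun a b =>
    continuousAt_pi.1 (continuousAt_pi.1 hinv a) b
  have hgv : ∀ a, ContinuousAt (fun z => (gv u z) a) x := by
    intro a
    refine Complex.continuous_conj.continuousAt.comp ?_
    simp only [Matrix.mulVec, dotProduct]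
    exact tendsto_finsetSum _ fun b _ => (hinvab a b).mul (hdj b)
  refine Complex.continuous_re.continuousAt.comp ?_
  unfold gr
  exact tendsto_finsetSum _ fun a _ => (hdj a).mul (hgv a)

/-! ### functions on a manifold -/

variable {M : Type} [TopologicalSpace M] {C : Fam n M} {Ω K : Set M}

/-- a function in a chart -/
def inF (C : Fam n M) (i : C.ι) (u : M → ℝ) (z : Cn n) : ℝ := u ((C.e i).symm z)

/-- transition map -/
def TF (C : Fam n M) (i j : C.ι) (z : Cn n) : Cn n := C.e j ((C.e i).symm z)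

theorem inF_apply {i : C.ι} {p : M} (hp : p ∈ (C.e i).source) (u : M → ℝ) :
    inF C i u (C.e i p) = u p := by rw [inF, (C.e i).left_inv hp]

theorem TF_anal {i j : C.ι} {p : M} (hi : p ∈ (C.e i).source) (hj : p ∈ (C.e j).source) :
    AnalyticAt ℂ (TF C i j) (C.e i p) := by
  have ho : IsOpen ((C.e i).target ∩ (C.e i).symm ⁻¹' (C.e j).source) :=
    (C.e i).isOpen_inter_preimage_symm (C.e j).open_source
  have hm : C.e i p ∈ (C.e i).target ∩ (C.e i).symm ⁻¹' (C.e j).source :=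
    ⟨(C.e i).map_source hi, by rw [mem_preimage, (C.e i).left_inv hi]; exact hj⟩
  exact (Crest.Agent.R266.SCV.contDiffOn_omega_of_differentiableOn ho
    (C.holo i j)).contDiffAt (ho.mem_nhds hm) |>.analyticAt

theorem TF_apply {i j : C.ι} {p : M} (hi : p ∈ (C.e i).source) :
    TF C i j (C.e i p) = C.e j p := by rw [TF, (C.e i).left_inv hi]

theorem inF_ev {i j : C.ι} {p : M} (hi : p ∈ (C.e i).source) (hj : p ∈ (C.e j).source)
    (u : M → ℝ) : inF C i u =ᶠ[𝓝 (C.e i p)] fun w => inF C j u (TF C i j w) := by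
  have ho : IsOpen ((C.e i).target ∩ (C.e i).symm ⁻¹' (C.e j).source) :=
    (C.e i).isOpen_inter_preimage_symm (C.e j).open_source
  have hm : C.e i p ∈ (C.e i).target ∩ (C.e i).symm ⁻¹' (C.e j).source :=
    ⟨(C.e i).map_source hi, by rw [mem_preimage, (C.e i).left_inv hi]; exact hj⟩
  filter_upwards [ho.mem_nhds hm] with w hw
  rw [inF, inF, TF, (C.e j).left_inv hw.2]

theorem gr_congr {f g : Cn n → ℝ} (h : f =ᶠ[𝓝 x] g) (v : Cn n) : gr f x v = gr g x v := by
  unfold gr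
  refine Finset.sum_congr rfl fun a _ => ?_
  rw [dj_congr (cx_congr h)]

theorem gr_change {i j : C.ι} {p : M} (hi : p ∈ (C.e i).source) (hj : p ∈ (C.e j).source)
    {u : M → ℝ} (hu : DifferentiableAt ℝ (inF C j u) (C.e j p)) (v : Cn n) :
    gr (inF C i u) (C.e i p) v = gr (inF C j u) (C.e j p) (fderiv ℂ (TF C i j) (C.e i p) v) := by
  rw [gr_congr (inF_ev hi hj u), gr_comp (TF_anal hi hj).differentiableAt
    (by rw [TF_apply hi]; exact hu), TF_apply hi]

theorem lev_change {i j : C.ι} {p : M} (hi : p ∈ (C.e i).source) (hj : p ∈ (C.e j).source)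
    {u : M → ℝ} (hu : ContDiffAt ℝ 2 (inF C j u) (C.e j p)) (v : Cn n) :
    lev (inF C i u) (C.e i p) v = lev (inF C j u) (C.e j p) (fderiv ℂ (TF C i j) (C.e i p) v) := by
  rw [lev_congr (inF_ev hi hj u), lev_comp (TF_anal hi hj)
    (by rw [TF_apply hi]; exact hu), TF_apply hi]

/-- smooth and strictly plurisubharmonic on `Ω` in the charts of `C` -/
structure SPsh (C : Fam n M) (Ω : Set M) (u : M → ℝ) : Prop where
  sm : ∀ i, ∀ p ∈ (C.e i).source, p ∈ Ω → ContDiffAt ℝ ∞ (inF C i u) (C.e i p)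
  pos : ∀ i, ∀ p ∈ (C.e i).source, p ∈ Ω → ∀ v, v ≠ 0 → 0 < lev (inF C i u) (C.e i p) v

section Glob

variable {u : M → ℝ} (hu : SPsh C Ω u)

include hu

theorem gn_change_le {i j : C.ι} {p : M} (hi : p ∈ (C.e i).source) (hj : p ∈ (C.e j).source)
    (hΩ : p ∈ Ω) : gn (inF C i u) (C.e i p) ≤ gn (inF C j u) (C.e j p) := by
  refine gn_le_of (sm2 (hu.sm i p hi hΩ)) (hu.pos i p hi hΩ) (fun ξ => ?_)
    (gn_nonneg (sm2 (hu.sm j p hj hΩ)) (hu.pos j p hj hΩ))
  rw [gr_change hi hj (c2_diff (sm2 (hu.sm j p hj hΩ))), lev_change hi hj (sm2 (hu.sm j p hj hΩ))]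
  exact gr_sq_le (sm2 (hu.sm j p hj hΩ)) (hu.pos j p hj hΩ) _

theorem gn_change {i j : C.ι} {p : M} (hi : p ∈ (C.e i).source) (hj : p ∈ (C.e j).source)
    (hΩ : p ∈ Ω) : gn (inF C i u) (C.e i p) = gn (inF C j u) (C.e j p) :=
  le_antisymm (gn_change_le hu hi hj hΩ) (gn_change_le hu hj hi hΩ)

omit hu in
/-- `|∂u|²_ω` on `M` -/
def gM (C : Fam n M) (u : M → ℝ) (p : M) : ℝ :=
  gn (inF C (C.cover p).choose u) (C.e (C.cover p).choose p)

theorem gM_eq {i : C.ι} {p : M} (hi : p ∈ (C.e i).source) (hΩ : p ∈ Ω) :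
    gM C u p = gn (inF C i u) (C.e i p) :=
  gn_change hu (C.cover p).choose_spec hi hΩ

theorem gM_cont (hΩo : IsOpen Ω) {p : M} (hΩ : p ∈ Ω) : ContinuousAt (gM C u) p := by
  obtain ⟨i, hi⟩ := C.cover p
  have h1 : gM C u =ᶠ[𝓝 p] fun q => gn (inF C i u) (C.e i q) := by
    filter_upwards [hΩo.mem_nhds hΩ, (C.e i).open_source.mem_nhds hi] with q hq hq'
    exact gM_eq hu hq' hq
  have h2 : ContinuousAt (fun q => gn (inF C i u) (C.e i q)) p :=
    ContinuousAt.comp (g := gn (inF C i u)) (gn_cont (hu.sm i p hi hΩ) (hu.pos i p hi hΩ))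
      ((C.e i).continuousAt hi)
  exact h2.congr h1.symm

omit hu in
theorem inF_cont {f : M → ℝ} {i : C.ι} {p : M} (hi : p ∈ (C.e i).source)
    (h : ContinuousAt (inF C i f) (C.e i p)) : ContinuousAt f p := by
  have h1 : ContinuousAt (fun q => inF C i f (C.e i q)) p :=
    ContinuousAt.comp (g := inF C i f) h ((C.e i).continuousAt hi)
  refine h1.congr ?_
  filter_upwards [(C.e i).open_source.mem_nhds hi] with q hq
  exact inF_apply hq f

/-- **the gradient estimate with a cut-off** -/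
theorem grad_est (hΩo : IsOpen Ω) (hK : IsCompact K) (hKΩ : K ⊆ Ω) {η : M → ℝ}
    {A κ C₁ C₂ H : ℝ} (hκ0 : 0 ≤ κ) (hC₁ : 0 ≤ C₁) (hC₂ : 0 ≤ C₂)
    (hκ : ∀ i, ∀ p ∈ (C.e i).source, p ∈ K → ∀ v,
      lev (ld (inF C i u)) (C.e i p) v ≤ κ * lev (inF C i u) (C.e i p) v)
    (hη : ∀ i, ∀ p ∈ (C.e i).source, p ∈ Ω → ContDiffAt ℝ 2 (inF C i η) (C.e i p))
    (hη1 : ∀ i, ∀ p ∈ (C.e i).source, p ∈ K → ∀ v,
      ‖gr (inF C i η) (C.e i p) v‖ ^ 2 ≤ C₁ * lev (inF C i u) (C.e i p) v)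
    (hη2 : ∀ i, ∀ p ∈ (C.e i).source, p ∈ K → ∀ v,
      -(C₂ * lev (inF C i u) (C.e i p) v) ≤ lev (inF C i η) (C.e i p) v)
    (hηK : ∀ p ∈ Ω, 0 < η p → p ∈ K) (hH : ∀ p ∈ K, η p ≤ H) (hA : ∀ p ∈ K, u p < A) :
    ∀ i, ∀ p ∈ (C.e i).source, p ∈ Ω → 0 < η p → ∀ v,
      2 * (‖gr (inF C i u) (C.e i p) v‖ ^ 2 * η p ^ 2) ≤
        (κ * H ^ 2 + 4 * C₁ + 2 * n * C₂ * H) * ((A - u p) ^ 2 * lev (inF C i u) (C.e i p) v) := by
  intro i₁ p₁ hi₁ hΩ₁ hη₁ v₁
  -- the function to maximise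
  set F : M → ℝ := fun p => max (η p) 0 ^ 2 * gM C u p / (A - u p) ^ 2 with hF
  have hηc : ∀ p ∈ Ω, ContinuousAt η p := by
    intro p hp
    obtain ⟨i, hi⟩ := C.cover p
    exact inF_cont hi (hη i p hi hp).continuousAt
  have huc : ∀ p ∈ Ω, ContinuousAt u p := by
    intro p hp
    obtain ⟨i, hi⟩ := C.cover p
    exact inF_cont hi (hu.sm i p hi hp).continuousAt
  have hFc : ContinuousOn F K := by
    intro p hp
    refine ContinuousAt.continuousWithinAt ?_
    have h1 := hA p hp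
    exact ((((hηc p (hKΩ hp)).max continuousAt_const).pow 2).mul
      (gM_cont hu hΩo (hKΩ hp))).div ((continuousAt_const.sub (huc p (hKΩ hp))).pow 2)
      (by have : 0 < A - u p := by linarith
          positivity)
  have hp₁K : p₁ ∈ K := hηK p₁ hΩ₁ hη₁
  obtain ⟨p₀, hp₀, hmax⟩ := hK.exists_isMaxOn ⟨p₁, hp₁K⟩ hFc
  have hp₀Ω := hKΩ hp₀
  have hH0 : 0 ≤ H := hη₁.le.trans (hH p₁ hp₁K)
  have hC0 : 0 ≤ κ * H ^ 2 + 4 * C₁ + 2 * n * C₂ * H := by positivity
  have hgM0 : ∀ p ∈ Ω, 0 ≤ gM C u p := by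
    intro p hp
    obtain ⟨i, hi⟩ := C.cover p
    rw [gM_eq hu hi hp]
    exact gn_nonneg (sm2 (hu.sm i p hi hp)) (hu.pos i p hi hp)
  -- bound of `F p₀`
  have key : 2 * F p₀ ≤ κ * H ^ 2 + 4 * C₁ + 2 * n * C₂ * H := by
    rcases le_or_gt (F p₀) 0 with h0 | h0
    · linarith
    have hη₀ : 0 < η p₀ := by
      by_contra hneg
      have : max (η p₀) 0 = 0 := max_eq_right (not_lt.1 hneg)
      rw [hF] at h0
      simp only [this] at h0
      simp at h0
    have hgM : 0 < gM C u p₀ := by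
      rcases (hgM0 p₀ hp₀Ω).eq_or_lt with h | h
      · rw [hF] at h0
        simp only [← h] at h0
        simp at h0
      · exact h
    obtain ⟨i, hi⟩ := C.cover p₀
    set x := C.e i p₀ with hx
    set f := inF C i u with hf
    set e := inF C i η with he
    have hfs : ContDiffAt ℝ ∞ f x := hu.sm i p₀ hi hp₀Ω
    have hfp := hu.pos i p₀ hi hp₀Ω
    have hgn : gn f x = gM C u p₀ := (gM_eq hu hi hp₀Ω).symm
    set v := gv f x with hv
    have hlv : lev f x v = gn f x := (gn_eq (sm2 hfs) hfp).symm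
    have hlv0 : 0 < lev f x v := by rw [hlv, hgn]; exact hgM
    have hv0 : v ≠ 0 := by
      intro h
      rw [h, lev_zero] at hlv0
      exact lt_irrefl _ hlv0
    have hgr : ‖gr f x v‖ ^ 2 = gn f x * lev f x v := gr_gv_sq (sm2 hfs) hfp
    have hfx : f x = u p₀ := inF_apply hi u
    have hex : e x = η p₀ := inF_apply hi η
    have hAx : f x < A := by rw [hfx]; exact hA p₀ hp₀
    have hsymm : ContinuousAt (C.e i).symm x := (C.e i).continuousAt_symm ((C.e i).map_source hi)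
    have hsx : (C.e i).symm x = p₀ := (C.e i).left_inv hi
    have hΩx : ∀ᶠ z in 𝓝 x, (C.e i).symm z ∈ Ω :=
      hsymm.preimage_mem_nhds (by rw [hsx]; exact hΩo.mem_nhds hp₀Ω)
    have hηx : ∀ᶠ z in 𝓝 x, 0 < e z :=
      (hη i p₀ hi hp₀Ω).continuousAt.eventually (lt_mem_nhds (by rw [← he, hex]; exact hη₀))
    have hm : ∀ᶠ z in 𝓝 x, ∀ ξ, ‖gr f z ξ‖ ^ 2 * e z ^ 2 * ((A - f x) ^ 2 * lev f x v) ≤
        ‖gr f x v‖ ^ 2 * e x ^ 2 * ((A - f z) ^ 2 * lev f z ξ) := by
      filter_upwards [hΩx, hηx, (C.e i).open_target.mem_nhds ((C.e i).map_source hi)] with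
        z hz1 hz2 hz3 ξ
      set q := (C.e i).symm z with hq
      have hqi : q ∈ (C.e i).source := (C.e i).map_target hz3
      have hqz : C.e i q = z := (C.e i).right_inv hz3
      have hηq : η q = e z := rfl
      have hqK : q ∈ K := hηK q hz1 (by rw [hηq]; exact hz2)
      have hqs := hu.sm i q hqi hz1
      have hqp := hu.pos i q hqi hz1
      have hgq := gM_eq hu hqi hz1
      rw [hqz] at hqs hqp hgq
      have h1 : F q ≤ F p₀ := hmax hqK
      have h2 : max (η q) 0 = e z := max_eq_left (by rw [hηq]; exact hz2.le)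
      have h3 : max (η p₀) 0 = e x := by rw [hex]; exact max_eq_left hη₀.le
      have h4 : u q = f z := rfl
      simp only [hF] at h1
      rw [h2, h3, h4, hgq, ← hgn, ← hfx] at h1
      have hAz : f z < A := hA q hqK
      have hAz' : 0 < A - f z := by linarith
      have hAx' : 0 < A - f x := by linarith
      rw [div_le_div_iff₀ (by positivity) (by positivity)] at h1
      have h5 := gr_sq_le (sm2 hqs) hqp ξ
      have h6 : 0 ≤ lev f z ξ := lev_nn_zero hqp ξ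
      calc ‖gr f z ξ‖ ^ 2 * e z ^ 2 * ((A - f x) ^ 2 * lev f x v)
          ≤ (gn f z * lev f z ξ) * e z ^ 2 * ((A - f x) ^ 2 * lev f x v) := by gcongr
        _ = (e z ^ 2 * gn f z * (A - f x) ^ 2) * (lev f z ξ * lev f x v) := by ring
        _ ≤ (e x ^ 2 * gn f x * (A - f z) ^ 2) * (lev f z ξ * lev f x v) := by
            refine mul_le_mul_of_nonneg_right h1 (by positivity)
        _ = _ := by rw [hgr]; ring
    have hres := grad_cut_at_max (v := v) (η := e) hfs hfp hv0 hAx hκ0 (hκ i p₀ hi hp₀ v)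
      (hη i p₀ hi hp₀Ω) (by rw [hex]; exact hη₀) hC₁ hC₂ (hη1 i p₀ hi hp₀)
      (hη2 i p₀ hi hp₀) hm
    have hAx' : 0 < A - f x := by linarith
    have hH₀ := hH p₀ hp₀
    have h7 : 2 * F p₀ * ((A - f x) ^ 2 * lev f x v) = 2 * (‖gr f x v‖ ^ 2 * e x ^ 2) := by
      have h3 : max (η p₀) 0 = e x := by rw [hex]; exact max_eq_left hη₀.le
      simp only [hF]
      rw [h3, hgr, ← hgn, ← hfx]
      field_simp
    rw [← h7] at hres
    have h8 := le_of_mul_le_mul_right hres (by positivity)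
    refine h8.trans ?_
    rw [hex]
    gcongr
  -- conclusion
  have h1 : F p₁ ≤ F p₀ := hmax hp₁K
  have h2 : 2 * F p₁ ≤ κ * H ^ 2 + 4 * C₁ + 2 * n * C₂ * H := by linarith
  have hs₁ := hu.sm i₁ p₁ hi₁ hΩ₁
  have hq₁ := hu.pos i₁ p₁ hi₁ hΩ₁
  have h3 := gr_sq_le (sm2 hs₁) hq₁ v₁
  rw [← gM_eq hu hi₁ hΩ₁] at h3
  have hA₁ : 0 < A - u p₁ := by linarith [hA p₁ hp₁K]
  have h4 : F p₁ * (A - u p₁) ^ 2 = η p₁ ^ 2 * gM C u p₁ := by
    simp only [hF]
    rw [max_eq_left hη₁.le]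
    field_simp
  have h5 : 0 ≤ lev (inF C i₁ u) (C.e i₁ p₁) v₁ := lev_nn_zero hq₁ v₁
  calc 2 * (‖gr (inF C i₁ u) (C.e i₁ p₁) v₁‖ ^ 2 * η p₁ ^ 2)
      ≤ 2 * ((gM C u p₁ * lev (inF C i₁ u) (C.e i₁ p₁) v₁) * η p₁ ^ 2) := by gcongr
    _ = 2 * F p₁ * ((A - u p₁) ^ 2 * lev (inF C i₁ u) (C.e i₁ p₁) v₁) := by
        rw [show 2 * F p₁ * ((A - u p₁) ^ 2 * lev (inF C i₁ u) (C.e i₁ p₁) v₁) =
          2 * (F p₁ * (A - u p₁) ^ 2) * lev (inF C i₁ u) (C.e i₁ p₁) v₁ by ring, h4]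
        ring
    _ ≤ _ := by
        refine mul_le_mul_of_nonneg_right h2 (by positivity)

end Glob

end

end Crest.Agent.R257.GradD_537
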