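import Crest.Agent.R257.PN_835
import Crest.Agent.R273.YauMax_635
import Crest.Agent.R273.FS_333

/-!
# R257 (S0395), Part E (helper835): Gram determinants and the adjunction formula

For `F : Cn n → ℂ^m` holomorphic, `RF F z` = the matrix with rows `F z, ∂_1 F z, …, ∂_n F z`,
`gdet R = det (R Rᴴ)`:

* `gram_log`  : `gdet (RF F z) = |F z|^(2(n+1)) * det (cH (log |F|²) z)`;
* `gram_flat` : `gdet (rows ∂_a θ) = det (cH |θ|² z)`;
* `gdet_row`  : if the rows of `R` are in the kernel of the covector `l` and `R` with one more row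
                `w` is square, then `gdet (R, w) * |l|² = gdet R * |l(w)|²`.
-/

set_option autoImplicit false
set_option linter.unusedSectionVars false

open Set Filter Topology Complex
open scoped ContDiff Matrix ComplexConjugate Manifold

namespace Crest.Agent.R257.Gram_835

open Crest.Agent.R275.Geo Crest.Agent.R275.Core144
open Crest.Agent.R273.Defs_333 Crest.Agent.R273.YauDefs_635 Crest.Agent.R273.YauMax_635
open Crest.Agent.R273.FS_333 Crest.Agent.R273.Kah_333
open Crest.Agent.R257.PN_835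

noncomputable section

/-! ### linear algebra -/

section LA

variable {α β : Type*} [Fintype α] [Fintype β] [DecidableEq α] [DecidableEq β]

/-- Gram determinant of the rows -/
def gdet (R : Matrix α β ℂ) : ℂ := (R * Rᴴ).det

/-- a new row -/
def addRow (R : Matrix α β ℂ) (w : β → ℂ) : Matrix (α ⊕ Unit) β ℂ :=
  Matrix.of (Sum.elim (fun a => R a) (fun _ => w))

theorem gdet_submatrix (R : Matrix α β ℂ) (e : β ≃ α) :
    gdet R = (R.submatrix e id).det * conj (R.submatrix e id).det := by
  unfold gdet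
  have h1 : (R * Rᴴ).submatrix e e = R.submatrix e id * (R.submatrix e id)ᴴ := by
    ext a b
    rw [Matrix.mul_apply]
    rfl
  rw [← Matrix.det_submatrix_equiv_self e, h1, Matrix.det_mul, Matrix.det_conjTranspose]
  rfl

theorem gdet_reindex {α' : Type*} [Fintype α'] [DecidableEq α'] (R : Matrix α β ℂ) (e : α' ≃ α) :
    gdet (R.submatrix e id) = gdet R := by
  unfold gdet
  have h1 : (R * Rᴴ).submatrix e e = R.submatrix e id * (R.submatrix e id)ᴴ := by
    ext a b
    rw [Matrix.mul_apply]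
    rfl
  rw [← h1, Matrix.det_submatrix_equiv_self]

theorem gdet_reindex_col {β' : Type*} [Fintype β'] [DecidableEq β'] (R : Matrix α β ℂ)
    (e : β' ≃ β) : gdet (R.submatrix id e) = gdet R := by
  unfold gdet
  rw [Matrix.conjTranspose_submatrix, Matrix.submatrix_mul_equiv R Rᴴ id e id]
  rfl

/-- the determinant with one more row, as a linear function of the row -/
theorem exists_rowLin (R : Matrix α β ℂ) (e : β ≃ α ⊕ Unit) : ∃ T : (β → ℂ) →ₗ[ℂ] ℂ,
    ∀ w, T w = ((addRow R w).submatrix e id).det := by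
  refine ⟨Matrix.detRowAlternating.toMultilinearMap.toLinearMap
    (fun b => ((addRow R 0).submatrix e id) b) (e.symm (Sum.inr ())), fun w => ?_⟩
  show Matrix.det (Function.update _ _ w) = _
  congr 1
  funext b
  by_cases hb : b = e.symm (Sum.inr ())
  · subst hb
    rw [Function.update_self]
    funext k
    simp [addRow]
  · rw [Function.update_of_ne hb]
    funext k
    rcases h : e b with a | u
    · simp [addRow, h]
    · exact absurd (by rw [← e.symm_apply_apply b, h]) hb

/-- pairing of a covector with a vector -/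
def prg (l w : β → ℂ) : ℂ := ∑ k, l k * w k

/-- the conjugate gradient -/
theorem prg_conj (l : β → ℂ) : prg l (fun k => conj (l k)) = ((∑ k, ‖l k‖ ^ 2 : ℝ) : ℂ) := by
  unfold prg
  rw [ofReal_sum]
  refine Finset.sum_congr rfl fun k _ => ?_
  rw [Complex.mul_conj, Complex.normSq_eq_norm_sq]

variable {R : Matrix α β ℂ} {l : β → ℂ}

theorem det_zero_of_ker (e : β ≃ α ⊕ Unit) (hl : l ≠ 0) (hR : ∀ a, prg l (R a) = 0) {w : β → ℂ}
    (hw : prg l w = 0) : ((addRow R w).submatrix e id).det = 0 := by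
  refine Matrix.exists_mulVec_eq_zero_iff.1 ⟨l, hl, ?_⟩
  funext b
  show ∑ k, (addRow R w) (e b) k * l k = 0
  rcases e b with a | u
  · have := hR a
    unfold prg at this
    rw [← this]
    exact Finset.sum_congr rfl fun k _ => mul_comm _ _
  · unfold prg at hw
    rw [← hw]
    exact Finset.sum_congr rfl fun k _ => mul_comm _ _

theorem prg_add (l w w' : β → ℂ) : prg l (w + w') = prg l w + prg l w' := by
  unfold prg
  rw [← Finset.sum_add_distrib]
  exact Finset.sum_congr rfl fun k _ => by rw [Pi.add_apply, mul_add]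

theorem prg_smul (l : β → ℂ) (c : ℂ) (w : β → ℂ) : prg l (c • w) = c * prg l w := by
  unfold prg
  rw [Finset.mul_sum]
  exact Finset.sum_congr rfl fun k _ => by rw [Pi.smul_apply, smul_eq_mul]; ring

theorem prg_sub (l w w' : β → ℂ) : prg l (w - w') = prg l w - prg l w' := by
  unfold prg
  rw [← Finset.sum_sub_distrib]
  exact Finset.sum_congr rfl fun k _ => by rw [Pi.sub_apply, mul_sub]

/-- Gram determinant with an orthogonal row -/
theorem gdet_addRow_orth {w : β → ℂ} (h : ∀ a, ∑ k, R a k * conj (w k) = 0) :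
    gdet (addRow R w) = gdet R * ((∑ k, ‖w k‖ ^ 2 : ℝ) : ℂ) := by
  unfold gdet
  have h1 : addRow R w * (addRow R w)ᴴ = Matrix.fromBlocks (R * Rᴴ) 0 0
      (Matrix.of fun _ _ => ((∑ k, ‖w k‖ ^ 2 : ℝ) : ℂ)) := by
    ext a b
    rw [Matrix.mul_apply]
    rcases a with a | a <;> rcases b with b | b
    · rfl
    · show ∑ k, R a k * conj (w k) = 0
      exact h a
    · show ∑ k, w k * conj (R b k) = 0
      have h2 := congrArg conj (h b)
      rw [map_sum, map_zero] at h2
      rw [← h2]
      refine Finset.sum_congr rfl fun k _ => ?_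
      rw [map_mul, Complex.conj_conj, mul_comm]
    · show ∑ k, w k * conj (w k) = ((∑ k, ‖w k‖ ^ 2 : ℝ) : ℂ)
      rw [ofReal_sum]
      exact Finset.sum_congr rfl fun k _ => by rw [Complex.mul_conj, Complex.normSq_eq_norm_sq]
  rw [h1, Matrix.det_fromBlocks_zero₂₁, Matrix.det_unique (n := Unit)]
  rfl

/-- **adjunction**: rows in the kernel of a covector -/
theorem gdet_row (e : β ≃ α ⊕ Unit) (hl : l ≠ 0) (hR : ∀ a, prg l (R a) = 0) (w : β → ℂ) :
    gdet (addRow R w) * ((∑ k, ‖l k‖ ^ 2 : ℝ) : ℂ) = gdet R * ((‖prg l w‖ ^ 2 : ℝ) : ℂ) := by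
  obtain ⟨T, hT⟩ := exists_rowLin R e
  set w0 : β → ℂ := fun k => conj (l k) with hw0
  set s : ℂ := ((∑ k, ‖l k‖ ^ 2 : ℝ) : ℂ) with hs
  have hs0 : s ≠ 0 := by
    rw [hs, Ne, ofReal_eq_zero]
    obtain ⟨k, hk⟩ := Function.ne_iff.1 hl
    have h1 : 0 < ‖l k‖ ^ 2 := by
      have : l k ≠ 0 := hk
      positivity
    exact (h1.trans_le (Finset.single_le_sum (f := fun k => ‖l k‖ ^ 2) (fun _ _ => sq_nonneg _)
      (Finset.mem_univ k))).ne'
  have h1 : prg l w0 = s := prg_conj l
  -- proportionality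
  have h2 : s * T w = prg l w * T w0 := by
    have h3 : T (s • w - (prg l w) • w0) = 0 := by
      rw [hT]
      refine det_zero_of_ker e hl hR ?_
      rw [prg_sub, prg_smul, prg_smul, h1, mul_comm, sub_self]
    rw [map_sub, map_smul, map_smul, sub_eq_zero, smul_eq_mul, smul_eq_mul] at h3
    exact h3
  have h4 : ∀ w, gdet (addRow R w) = T w * conj (T w) := fun w => by
    rw [gdet_submatrix (addRow R w) e, hT]
  have h5 : gdet (addRow R w0) = gdet R * s := by
    rw [gdet_addRow_orth (R := R) (w := w0)]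
    · rw [hs]
      simp only [hw0, RCLike.norm_conj]
    · intro a
      have := hR a
      unfold prg at this
      rw [← this]
      refine Finset.sum_congr rfl fun k _ => ?_
      simp only [hw0, Complex.conj_conj]
      ring
  have hsc : conj s = s := by rw [hs]; exact conj_ofReal _
  have h6 : s * s * gdet (addRow R w) = ((‖prg l w‖ ^ 2 : ℝ) : ℂ) * (gdet R * s) := by
    rw [← h5, h4 w, h4 w0]
    have h7 := congrArg conj h2
    rw [map_mul, map_mul, hsc] at h7
    have h8 : ((‖prg l w‖ ^ 2 : ℝ) : ℂ) = prg l w * conj (prg l w) := by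
      rw [Complex.mul_conj, Complex.normSq_eq_norm_sq]
    rw [h8]
    calc s * s * (T w * conj (T w)) = (s * T w) * (s * conj (T w)) := by ring
      _ = (prg l w * T w0) * (conj (prg l w) * conj (T w0)) := by rw [h2, h7]
      _ = _ := by ring
  have h9 : s * (gdet (addRow R w) * s) = s * (gdet R * ((‖prg l w‖ ^ 2 : ℝ) : ℂ)) := by
    calc s * (gdet (addRow R w) * s) = s * s * gdet (addRow R w) := by ring
      _ = _ := by rw [h6]; ring
  exact mul_left_cancel₀ hs0 h9

end LA

/-! ### holomorphic maps -/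

section Hol

variable {n m : ℕ}

/-- partial derivatives -/
def pd (F : Cn n → Fin m → ℂ) (z : Cn n) (a : Fin n) : Fin m → ℂ := fun k =>
  fderiv ℂ (fun z => F z k) z (EuclideanSpace.single a 1)

/-- the matrix of the partial derivatives -/
def DF (F : Cn n → Fin m → ℂ) (z : Cn n) : Matrix (Fin n) (Fin m) ℂ := Matrix.of (pd F z)

/-- rows `F z, ∂_a F z` -/
def RF (F : Cn n → Fin m → ℂ) (z : Cn n) : Matrix (Unit ⊕ Fin n) (Fin m) ℂ :=
  Matrix.of (Sum.elim (fun _ => F z) (pd F z))

variable {F : Cn n → Fin m → ℂ} {U : Set (Cn n)} {z : Cn n}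

theorem contDiffAt_sq (hU : IsOpen U) (hF : ∀ k, DifferentiableOn ℂ (fun z => F z k) U)
    (hz : z ∈ U) : ContDiffAt ℝ ∞ (sq F) z := by
  refine ContDiffAt.sum fun k _ => ?_
  exact (contDiffAt_of_hol hU (hF k) hz).norm_sq ℝ

theorem gram_flat (hU : IsOpen U) (hF : ∀ k, DifferentiableOn ℂ (fun z => F z k) U)
    (hz : z ∈ U) : gdet (DF F z) = (cH (sq F) z).det := by
  unfold gdet
  congr 1
  rw [cH_eq_hess (contDiffAt_sq hU hF hz)]
  ext a b
  rw [hess_sq hU hF hz, Matrix.mul_apply]
  rfl

theorem gram_log (hU : IsOpen U) (hF : ∀ k, DifferentiableOn ℂ (fun z => F z k) U)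
    (hz : z ∈ U) (h0 : F z ≠ 0) : gdet (RF F z) =
      ((sq F z : ℝ) : ℂ) ^ (n + 1) * (cH (fun w => Real.log (sq F w)) z).det := by
  have hs := contDiffAt_sq hU hF hz
  have hp := sq_pos h0
  have hl : ContDiffAt ℝ ∞ (fun w => Real.log (sq F w)) z := hs.log hp.ne'
  set s : ℂ := ((sq F z : ℝ) : ℂ) with hsdef
  have hs0 : s ≠ 0 := by rw [hsdef, Ne, ofReal_eq_zero]; exact hp.ne'
  have hss : ∑ k, F z k * conj (F z k) = s := by
    have := congrFun (cu_sq F) z
    exact this.symm
  let A : Matrix Unit Unit ℂ := Matrix.of fun _ _ => s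
  let Bm : Matrix Unit (Fin n) ℂ := Matrix.of fun _ b => ∑ k, F z k * conj (pd F z b k)
  let Cm : Matrix (Fin n) Unit ℂ := Matrix.of fun a _ => ∑ k, pd F z a k * conj (F z k)
  let Dm : Matrix (Fin n) (Fin n) ℂ := Matrix.of fun a b => ∑ k, pd F z a k * conj (pd F z b k)
  have h1 : RF F z * (RF F z)ᴴ = Matrix.fromBlocks A Bm Cm Dm := by
    ext a b
    rw [Matrix.mul_apply]
    rcases a with a | a <;> rcases b with b | b
    · exact hss
    · rfl
    · rfl
    · rfl
  let hinv : Invertible A := ⟨Matrix.of fun _ _ => s⁻¹, by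
    ext i j
    rw [Matrix.mul_apply]
    simp [A, hs0], by
    ext i j
    rw [Matrix.mul_apply]
    simp [A, hs0]⟩
  have hdetA : A.det = s := Matrix.det_unique A
  have h2 : Dm - Cm * ⅟A * Bm = s • cH (fun w => Real.log (sq F w)) z := by
    rw [cH_eq_hess hl]
    ext a b
    rw [Matrix.smul_apply, hess_log hs hp, hess_sq hU hF hz, wd_sq hU hF hz, wd_sq' hU hF hz,
      Matrix.sub_apply, Matrix.mul_apply]
    have h3 : ∀ u : Unit, (Cm * ⅟A) a u = (∑ k, pd F z a k * conj (F z k)) * s⁻¹ := by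
      intro u
      rw [Matrix.mul_apply]
      simp only [Finset.univ_unique, Finset.sum_singleton]
      rfl
    simp only [Finset.univ_unique, Finset.sum_singleton, h3]
    show (∑ k, pd F z a k * conj (pd F z b k)) -
      (∑ k, pd F z a k * conj (F z k)) * s⁻¹ * (∑ k, F z k * conj (pd F z b k)) = _
    rw [smul_eq_mul, mul_sub, ← mul_assoc, mul_inv_cancel₀ hs0, one_mul]
    congr 1
    have h4 : s * (s⁻¹ ^ 2 * ((∑ k, fderiv ℂ (fun z => F z k) z (EuclideanSpace.single a 1) *
        conj (F z k)) * ∑ k, F z k * conj (fderiv ℂ (fun z => F z k) z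
          (EuclideanSpace.single b 1)))) = (s * s⁻¹) * s⁻¹ *
        ((∑ k, fderiv ℂ (fun z => F z k) z (EuclideanSpace.single a 1) *
        conj (F z k)) * ∑ k, F z k * conj (fderiv ℂ (fun z => F z k) z
          (EuclideanSpace.single b 1))) := by ring
    rw [h4, mul_inv_cancel₀ hs0, one_mul]
    unfold pd
    ring
  unfold gdet
  rw [h1, Matrix.det_fromBlocks₁₁, hdetA, h2, Matrix.det_smul, Fintype.card_fin, pow_succ]
  ring

end Hol

end

end Crest.Agent.R257.Gram_835
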