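import Crest.Agent.R257.OutD_309

/-!
# R257 (S0395), trial metric (helper540), part A: Hermitian metrics on `Ω¹` of a level

* `Fr T w`      : transition matrix `((Jac T w)ᵀ)⁻¹` of `Ω¹`
* `MO f s r H`  : `H θ z`, smooth positive definite, with the transition law of `Ω¹`
* `mo_HO`       : `MO f s r (HO u φ)`
* `MO.bun`      : `Bun f s r H (dV g)`
* `scl f P`     : a chart independent scalar as a function on the level
* `U0`, `N0`    : `(H θ z).det.re * |η|² = exp (-U0 (θ z))`, `N0 (θ z) = hV (H θ) (dV g θ) z`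
* `MO.hess_det` : `∂∂̄ log det H = - ∂∂̄ U0`
* `MO.Gm_eq`    : the form `Γ` in terms of `U0`, `N0`
* `MO.glue`     : `ζ H + (1 - ζ) H'`
-/

set_option autoImplicit false
set_option linter.unusedSectionVars false

open Set Filter Topology Complex MeasureTheory
open scoped ContDiff Matrix ComplexConjugate ComplexOrder ENNReal

namespace Crest.Agent.R257.H0_540

open Crest.Agent.R275.Geo Crest.Agent.R275.EDR890
open Crest.Agent.R273.Fock_243 Crest.Agent.R273.Calc_243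
open Crest.Agent.R273.Bkn_243 Crest.Agent.R273.Pos_243 Crest.Agent.R273.BochA_101
open Crest.Agent.R273.BochB_101
open Crest.Agent.R273.BochC_101 Crest.Agent.R273.BochD_101
open Crest.Agent.R273.Hess_333 Crest.Agent.R273.HessB_333
open Crest.Agent.R273.Defs_333 (lev)
open Crest.Agent.R273.YauDefs_635 (cH)
open Crest.Agent.R273.YauMax_635 (cH_eq_hess)
open Crest.Agent.R257.C2F1_625 Crest.Agent.R257.C2F2_625 Crest.Agent.R257.C2F3_625
open Crest.Agent.R257.C2F4_335 Crest.Agent.R257.C2F5_335 Crest.Agent.R257.C2F6_335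
open Crest.Agent.R257.Defs_219
open Crest.Agent.R257.PN_835 (nsq)
open Crest.Agent.R257.Aff_835 (eta2a)
open Crest.Agent.R257.KED_952 Crest.Agent.R257.Ked1_397 Crest.Agent.R257.Ked2_397
open Crest.Agent.R257.V1Defs_822 (SmL LvlOK)
open Crest.Agent.R257.OutA_309 Crest.Agent.R257.OutB_309 Crest.Agent.R257.LossD_309
open Crest.Agent.R257.OutC_309 Crest.Agent.R257.OutD_309

noncomputable section

/-- a family of matrix functions, one for each parametrisation -/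
abbrev Met := (Cn 2 → E3) → Cn 2 → Matrix (Fin 2) (Fin 2) ℂ

/-- transition matrix of `Ω¹` -/
def Fr (T : Cn 2 → Cn 2) (w : Cn 2) : Matrix (Fin 2) (Fin 2) ℂ := ((Jac T w)ᵀ)⁻¹

/-- Hermitian metric on `Ω¹` of the level -/
structure MO (f : E3 → ℂ) (s : ℂ) (r : ℝ) (H : Met) : Prop where
  sm : ∀ θ O, PE f s r θ O → ∀ z ∈ O, SmM z (H θ)
  pos : ∀ θ O, PE f s r θ O → ∀ z ∈ O, (H θ z).PosDef
  tr : ∀ θ O, PE f s r θ O → ∀ (θ' : Cn 2 → E3) (z' : Cn 2) (T : Cn 2 → Cn 2),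
      (∀ᶠ w in 𝓝 z', DifferentiableAt ℂ T w) → T z' ∈ O →
      (∀ᶠ w in 𝓝 z', T w ∈ O ∧ θ' w = θ (T w)) → (Jac T z').det ≠ 0 →
      ∀ᶠ w in 𝓝 z', H θ' w = (Fr T w)ᴴ * H θ (T w) * Fr T w

variable {f : E3 → ℂ} {s : ℂ} {r : ℝ} {H H' : Met}

/-! ### the transition matrix -/

section
variable {T : Cn 2 → Cn 2} {z' : Cn 2}

theorem Jac_hol (hT : ∀ᶠ w in 𝓝 z', DifferentiableAt ℂ T w) (i j : Fin 2) :
    ∀ᶠ y in 𝓝 z', DifferentiableAt ℂ (fun w => Jac T w i j) y := J_hol hT i j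

theorem det_ev (hT : ∀ᶠ w in 𝓝 z', DifferentiableAt ℂ T w) (hdet : (Jac T z').det ≠ 0) :
    ∀ᶠ y in 𝓝 z', (Jac T y).det ≠ 0 := by
  have h1 : ContinuousAt (fun y => (Jac T y).det) z' := by
    have : (fun y => (Jac T y).det) = fun y => Jac T y 0 0 * Jac T y 1 1 -
        Jac T y 0 1 * Jac T y 1 0 := funext fun y => Matrix.det_fin_two _
    rw [this]
    exact ((Jac_hol hT 0 0).self_of_nhds.continuousAt.mul
      (Jac_hol hT 1 1).self_of_nhds.continuousAt).sub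
      ((Jac_hol hT 0 1).self_of_nhds.continuousAt.mul (Jac_hol hT 1 0).self_of_nhds.continuousAt)
  exact h1.eventually_ne hdet

theorem Fr_det (T : Cn 2 → Cn 2) (w : Cn 2) : (Fr T w).det = ((Jac T w).det)⁻¹ := by
  unfold Fr
  rw [Matrix.det_nonsing_inv, Ring.inverse_eq_inv', Matrix.det_transpose]

theorem Fr_hol (hT : ∀ᶠ w in 𝓝 z', DifferentiableAt ℂ T w) (hdet : (Jac T z').det ≠ 0) :
    HolM z' (Fr T) := by
  have hJij := Jac_hol hT
  have hdc := det_ev hT hdet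
  intro i j
  have e : ∀ y, Fr T y i j = ((Jac T y).det)⁻¹ * (Jac T y)ᵀ.adjugate i j := by
    intro y
    unfold Fr
    rw [Matrix.inv_def, Ring.inverse_eq_inv', Matrix.det_transpose]
    rfl
  have ha : ∀ᶠ y in 𝓝 z', DifferentiableAt ℂ (fun w => (Jac T w)ᵀ.adjugate i j) y := by
    have e2 : ∀ w, (Jac T w)ᵀ.adjugate i j =
        !![Jac T w 1 1, -Jac T w 1 0; -Jac T w 0 1, Jac T w 0 0] i j := by
      intro w
      rw [Matrix.adjugate_fin_two]
      rfl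
    simp only [e2]
    filter_upwards [hJij 0 0, hJij 0 1, hJij 1 0, hJij 1 1] with y a b c d
    fin_cases i <;> fin_cases j
    · exact d
    · exact c.neg
    · exact b.neg
    · exact a
  have hdd : ∀ᶠ y in 𝓝 z', DifferentiableAt ℂ (fun w => (Jac T w).det) y := by
    have : (fun y => (Jac T y).det) = fun y => Jac T y 0 0 * Jac T y 1 1 -
        Jac T y 0 1 * Jac T y 1 0 := funext fun y => Matrix.det_fin_two _
    rw [this]
    filter_upwards [hJij 0 0, hJij 0 1, hJij 1 0, hJij 1 1] with y a b c d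
    exact (a.fun_mul d).fun_sub (b.fun_mul c)
  simp only [e]
  filter_upwards [ha, hdd, hdc] with y h1 h2 h3
  exact (h2.fun_inv h3).fun_mul h1

end

/-- restriction of a parametrisation to an open set -/
theorem PE.cut {θ : Cn 2 → E3} {O : Set (Cn 2)} (h : PE f s r θ O) {W : Set E3} (hW : IsOpen W)
    {r' : ℝ} (hr : ∀ x ∈ W, nsq x < r' ^ 2) : PE f s r' θ (O ∩ θ ⁻¹' W) :=
  ⟨h.par.mono (h.par.hol.continuousOn.isOpen_inter_preimage h.par.isOpen hW) inter_subset_left,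
    fun z hz => h.ne z hz.1, fun z hz => hr _ hz.2⟩

theorem isOpen_nsq (r : ℝ) : IsOpen {x : E3 | nsq x < r ^ 2} :=
  isOpen_lt continuous_nsq continuous_const

namespace MO

theorem mono (M : MO f s r H) {r' : ℝ} (h : r' ^ 2 ≤ r ^ 2) : MO f s r' H where
  sm θ O hP z hz := M.sm θ O ⟨hP.par, hP.ne, fun z hz => (hP.lt z hz).trans_le h⟩ z hz
  pos θ O hP z hz := M.pos θ O ⟨hP.par, hP.ne, fun z hz => (hP.lt z hz).trans_le h⟩ z hz
  tr θ O hP := M.tr θ O ⟨hP.par, hP.ne, fun z hz => (hP.lt z hz).trans_le h⟩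

/-- **the bundle `Ω¹` with the section `dg`** -/
theorem bun (M : MO f s r H) {g : E3 → ℂ} (hg : ∀ x, nsq x < r ^ 2 → AnalyticAt ℂ g x) :
    Bun f s r H (dV g) where
  bv θ O hP z hz := by
    have hO := hP.par.isOpen
    refine ⟨?_, ?_, fun i => ?_⟩
    · filter_upwards [hO.mem_nhds hz] with y hy using M.sm θ O hP y hy
    · filter_upwards [hO.mem_nhds hz] with y hy using M.pos θ O hP y hy
    · filter_upwards [hO.mem_nhds hz] with y hy
      exact (dV_hol hg hP i).differentiableAt (hO.mem_nhds hy)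
  tr θ O hP θ' z' T hT hTO hTe hdet := by
    have hTe' := eventually_eventually_nhds.2 hTe
    have hT' := eventually_eventually_nhds.2 hT
    refine ⟨Fr T, hT, Fr_hol hT hdet, ?_, M.tr θ O hP θ' z' T hT hTO hTe hdet, ?_⟩
    · rw [Fr_det]
      exact inv_ne_zero hdet
    · filter_upwards [hTe', hT', det_ev hT hdet] with w h1 h2 h3
      unfold Fr
      rw [dV_trans hg hP h2.self_of_nhds h1, Matrix.mulVec_mulVec, Matrix.nonsing_inv_mul _
        (by rw [Matrix.det_transpose]; exact isUnit_iff_ne_zero.2 h3), Matrix.one_mulVec]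

end MO

/-- the metric `e^{-φ} (∂∂̄u)⁻¹` -/
theorem mo_HO {u φ : E3 → ℝ} (hu : SmL f s r u)
    (hpos : ∀ θ O, PE f s r θ O → ∀ z ∈ O, ∀ v, v ≠ 0 → 0 < lev (fun z => u (θ z)) z v)
    (hφ : SmL f s r φ) : MO f s r (HO u φ) where
  sm θ O hP z hz := by
    have hO := hP.par.isOpen
    refine Hc_smM (Pot.of_on hO (hu θ O hP) (hpos θ O hP) hz) ?_
    filter_upwards [hO.mem_nhds hz] with y' hy'
    exact (hφ θ O hP).contDiffAt (hO.mem_nhds hy')
  pos θ O hP z hz := by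
    have hO := hP.par.isOpen
    exact Hc_posDef (Pot.of_on hO (hu θ O hP) (hpos θ O hP) hz) (fun z => φ (θ z))
  tr θ O hP θ' z' T hT hTO hTe hdet := by
    have hO := hP.par.isOpen
    have hTe' := eventually_eventually_nhds.2 hTe
    have hT' := eventually_eventually_nhds.2 hT
    filter_upwards [hTe', hT', det_ev hT hdet] with w h1 h2 h3
    have hTw := h1.self_of_nhds
    have hP' : ContDiffAt ℝ ∞ (fun z => u (θ z)) (T w) :=
      (hu θ O hP).contDiffAt (hO.mem_nhds hTw.1)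
    obtain ⟨a1, a2⟩ := hess_trans h2 h1 (a := u) hP'
    have e1 : cH (fun z => u (θ' z)) w = (Jac T w)ᵀ * cH (fun z => u (θ z)) (T w) *
        (Jac T w).map conj := by
      rw [cH_eq_hess a1, a2, cH_eq_hess hP']
      rfl
    unfold HO Fr
    rw [e1, hTw.2, Matrix.mul_inv_rev, Matrix.mul_inv_rev]
    have e2 : ((Jac T w)ᵀ⁻¹)ᴴ = ((Jac T w).map conj)⁻¹ := by
      rw [Matrix.conjTranspose_nonsing_inv]
      rfl
    rw [e2]
    simp only [Matrix.mul_smul, Matrix.smul_mul, Matrix.mul_assoc]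

theorem smL_zero : SmL f s r (fun _ => (0 : ℝ)) := fun _ _ _ => contDiffOn_const

/-- the Kähler–Einstein metric on `Ω¹` -/
theorem mo_KE {u : E3 → ℝ} (hu : KEon f s r u) : MO f s r (HO u fun _ => 0) :=
  mo_HO hu.sm hu.pos smL_zero

/-! ### chart independent scalars -/

/-- a chart independent scalar as a function on the level -/
def scl (f : E3 → ℂ) (P : (Cn 2 → E3) → Cn 2 → ℝ) : E3 → ℝ :=
  dns f fun θ z => P θ z * eta2a (n := 2) f θ z

theorem scl_eq {θ : Cn 2 → E3} {O : Set (Cn 2)} (h : Aff_835.Par (n := 2) f s θ O)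
    {z : Cn 2} (hz : z ∈ O) (hf : AnalyticAt ℂ f (θ z)) (h0 : fderiv ℂ f (θ z) ≠ 0)
    {P : (Cn 2 → E3) → Cn 2 → ℝ}
    (hP : ∀ (θ' : Cn 2 → E3) (O' : Set (Cn 2)) (z' : Cn 2) (T : Cn 2 → Cn 2),
      Aff_835.Par (n := 2) f s θ' O' → z' ∈ O' →
      (∀ᶠ w in 𝓝 z', DifferentiableAt ℂ T w) → T z' = z →
      (∀ᶠ w in 𝓝 z', T w ∈ O ∧ θ' w = θ (T w)) → (Jac T z').det ≠ 0 → P θ' z' = P θ z) :
    scl f P (θ z) = P θ z := by
  have hex : ∃ p : (Cn 2 → E3) × Set (Cn 2) × Cn 2,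
      Aff_835.Par (n := 2) f (f (θ z)) p.1 p.2.1 ∧ p.2.2 ∈ p.2.1 ∧ p.1 p.2.2 = θ z :=
    ⟨(θ, O, z), by rw [h.lvl z hz]; exact h, hz, rfl⟩
  unfold scl dns
  rw [dif_pos hex]
  obtain ⟨h1, h2, h3⟩ := hex.choose_spec
  set θ' := hex.choose.1
  set O' := hex.choose.2.1
  set z' := hex.choose.2.2
  rw [h.lvl z hz] at h1
  obtain ⟨T, hT, hTz, hTe⟩ := exists_trans h1 h h2 hz h3 hf.hasStrictFDerivAt h0
  have hdet := det_trans h1 h h2 hT hTe
  have e1 := hP θ' O' z' T h1 h2 hT hTz hTe hdet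
  have hpos : 0 < eta2a (n := 2) f θ' z' := Loc_835.eta2a_pos h1 h2 (by rw [h3]; exact h0)
  show P θ' z' * eta2a (n := 2) f θ' z' / eta2a (n := 2) f θ' z' = P θ z
  rw [e1]
  field_simp

/-- `(H θ z).det.re * |η|² = exp (-U0)` -/
def U0 (f : E3 → ℂ) (H : Met) : E3 → ℝ :=
  scl f fun θ z => - Real.log ((H θ z).det.re * eta2a (n := 2) f θ z)

/-- `|dg|²` -/
def N0 (f : E3 → ℂ) (H : Met) (g : E3 → ℂ) : E3 → ℝ := scl f fun θ z => hV (H θ) (dV g θ) z

namespace MO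

theorem det_pos (M : MO f s r H) {θ : Cn 2 → E3} {O : Set (Cn 2)} (h : PE f s r θ O) {z : Cn 2}
    (hz : z ∈ O) : 0 < (H θ z).det.re := det_re_pos'' (M.pos θ O h z hz)

theorem U0_def (M : MO f s r H) (L : LvlOK f s r) {θ : Cn 2 → E3} {O : Set (Cn 2)}
    (h : PE f s r θ O) {z : Cn 2} (hz : z ∈ O) :
    U0 f H (θ z) = - Real.log ((H θ z).det.re * eta2a (n := 2) f θ z) := by
  refine scl_eq (P := fun θ z => - Real.log ((H θ z).det.re * eta2a (n := 2) f θ z)) h.par hz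
    (L.an _ (h.lt z hz)) (L.sm _ (h.ne z hz) (h.lt z hz) (h.par.lvl z hz)) ?_
  intro θ' O' z' T h1 h2 hT hTz hTe hdet
  have hTO : T z' ∈ O := by rw [hTz]; exact hz
  have e := (M.tr θ O h θ' z' T hT hTO hTe hdet).self_of_nhds
  have e2 := eta2a_trans h1 h.par h2 hT hTe
  rw [hTz] at e e2
  show - Real.log ((H θ' z').det.re * eta2a (n := 2) f θ' z') = _
  have e3 : (H θ' z').det = ((‖(Fr T z').det‖ ^ 2 : ℝ) : ℂ) * (H θ z).det := by
    rw [e, Matrix.det_mul, Matrix.det_mul, Matrix.det_conjTranspose,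
      ← Complex.normSq_eq_norm_sq, Complex.normSq_eq_conj_mul_self]
    show star (Fr T z').det * _ * _ = conj (Fr T z').det * _ * _
    rw [Complex.star_def]
    ring
  have h4 : ‖(Jac T z').det‖ ≠ 0 := norm_ne_zero_iff.2 hdet
  rw [e3, Complex.re_ofReal_mul, e2, Fr_det, norm_inv]
  congr 2
  field_simp

theorem U0_eq (M : MO f s r H) (L : LvlOK f s r) {θ : Cn 2 → E3} {O : Set (Cn 2)}
    (h : PE f s r θ O) {z : Cn 2} (hz : z ∈ O) :
    (H θ z).det.re * eta2a (n := 2) f θ z = Real.exp (- U0 f H (θ z)) := by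
  have h1 := M.det_pos h hz
  have h2 := eta2a_nn h L.sm hz
  rw [M.U0_def L h hz, neg_neg, Real.exp_log (mul_pos h1 h2)]

/-- `log det H = - U0 - log |η|²` near a point, with `log |η|²` pluriharmonic -/
theorem log_det_ev (M : MO f s r H) (L : LvlOK f s r) {θ : Cn 2 → E3} {O : Set (Cn 2)}
    (h : PE f s r θ O) {z : Cn 2} (hz : z ∈ O) :
    ∃ q : Cn 2 → ℂ, AnalyticAt ℂ q z ∧ q z ≠ 0 ∧ (∀ᶠ y in 𝓝 z, DifferentiableAt ℂ q y) ∧
      ∀ᶠ y in 𝓝 z, U0 f H (θ y) = - Real.log (H θ y).det.re - Real.log (‖q y‖ ^ 2) := by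
  have hO := h.par.isOpen
  obtain ⟨q, hq, hq0, hqe⟩ := eta2a_norm (n := 2) h.par hz (L.an _ (h.lt z hz))
    (L.sm _ (h.ne z hz) (h.lt z hz) (h.par.lvl z hz))
  refine ⟨q, hq, hq0, hq.eventually_analyticAt.mono fun w hw => hw.differentiableAt, ?_⟩
  filter_upwards [hO.mem_nhds hz, hqe, hq.continuousAt.eventually_ne hq0] with y hy hy' hy0
  have h1 : eta2a (n := 2) f θ y = ‖q y‖ ^ 2 := hy'
  have h2 : 0 < ‖q y‖ := norm_pos_iff.2 hy0
  rw [M.U0_def L h hy, h1, Real.log_mul (M.det_pos h hy).ne' (by positivity)]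
  ring

theorem sm_ldet (M : MO f s r H) {θ : Cn 2 → E3} {O : Set (Cn 2)}
    (h : PE f s r θ O) {z : Cn 2} (hz : z ∈ O) :
    ContDiffAt ℝ ∞ (fun y => Real.log (H θ y).det.re) z :=
  (Complex.reCLM.contDiff.contDiffAt.comp z (SmM.det (M.sm θ O h z hz))).log
    (M.det_pos h hz).ne'

theorem U0_smL (M : MO f s r H) (L : LvlOK f s r) : SmL f s r (U0 f H) := by
  intro θ O h z hz
  obtain ⟨q, hq, hq0, -, he⟩ := M.log_det_ev L h hz
  have h1 : ContDiffAt ℝ ∞ (fun w => Real.log (‖q w‖ ^ 2)) z := KEl_835.c2_log hq hq0 ∞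
  exact (((M.sm_ldet h hz).neg.sub h1).congr_of_eventuallyEq he).contDiffWithinAt

theorem hess_det (M : MO f s r H) (L : LvlOK f s r) {θ : Cn 2 → E3} {O : Set (Cn 2)}
    (h : PE f s r θ O) {z : Cn 2} (hz : z ∈ O) :
    hess (fun y => Real.log (H θ y).det.re) z = - hess (fun y => U0 f H (θ y)) z := by
  obtain ⟨q, hq, hq0, hqd, he⟩ := M.log_det_ev L h hz
  have h1 : ContDiffAt ℝ ∞ (fun w => Real.log (‖q w‖ ^ 2)) z := KEl_835.c2_log hq hq0 ∞
  have h2 : ContDiffAt ℝ ∞ (fun y => U0 f H (θ y)) z :=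
    (M.U0_smL L θ O h).contDiffAt (h.par.isOpen.mem_nhds hz)
  have e : (fun y => Real.log (H θ y).det.re) =ᶠ[𝓝 z]
      fun y => (fun y => - U0 f H (θ y)) y + (fun y => - Real.log (‖q y‖ ^ 2)) y := by
    filter_upwards [he] with y hy
    show _ = - U0 f H (θ y) + - Real.log (‖q y‖ ^ 2)
    rw [hy]; ring
  rw [hess_congr e, hess_add h2.neg h1.neg, hess_neg h2, hess_neg h1, hess_log_norm hqd hq0,
    neg_zero, add_zero]

theorem N0_eq (M : MO f s r H) (L : LvlOK f s r) {g : E3 → ℂ}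
    (hg : ∀ x, nsq x < r ^ 2 → AnalyticAt ℂ g x) {θ : Cn 2 → E3} {O : Set (Cn 2)}
    (h : PE f s r θ O) {z : Cn 2} (hz : z ∈ O) :
    N0 f H g (θ z) = hV (H θ) (dV g θ) z := by
  refine scl_eq (P := fun θ z => hV (H θ) (dV g θ) z) h.par hz
    (L.an _ (h.lt z hz)) (L.sm _ (h.ne z hz) (h.lt z hz) (h.par.lvl z hz)) ?_
  intro θ' O' z' T h1 h2 hT hTz hTe hdet
  have hTO : T z' ∈ O := by rw [hTz]; exact hz
  obtain ⟨F, c⟩ := (M.bun hg).tr θ O h θ' z' T hT hTO hTe hdet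
  have e : hV (H θ') (dV g θ') z' = hV (H θ) (dV g θ) (T z') := c.hV_eq.self_of_nhds
  rw [hTz] at e
  exact e

theorem N0_smL (M : MO f s r H) (L : LvlOK f s r) {g : E3 → ℂ}
    (hg : ∀ x, nsq x < r ^ 2 → AnalyticAt ℂ g x) : SmL f s r (N0 f H g) := by
  intro θ O h z hz
  have h1 := ((M.bun hg).bv θ O h z hz).sm_hV
  have e : (fun z => N0 f H g (θ z)) =ᶠ[𝓝 z] hV (H θ) (dV g θ) := by
    filter_upwards [h.par.isOpen.mem_nhds hz] with y hy using M.N0_eq L hg h hy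
  exact (h1.congr_of_eventuallyEq e).contDiffWithinAt

theorem N0_pos (M : MO f s r H) (L : LvlOK f s r) {g : E3 → ℂ}
    (hg : ∀ x, nsq x < r ^ 2 → AnalyticAt ℂ g x) {θ : Cn 2 → E3} {O : Set (Cn 2)}
    (h : PE f s r θ O) {z : Cn 2} (hz : z ∈ O) (h0 : dV g θ z ≠ 0) : 0 < N0 f H g (θ z) := by
  rw [M.N0_eq L hg h hz]
  exact ((M.bun hg).bv θ O h z hz).pos h0

/-- **the form `Γ`** -/
theorem Gm_eq (M : MO f s r H) (L : LvlOK f s r) {g : E3 → ℂ}
    (hg : ∀ x, nsq x < r ^ 2 → AnalyticAt ℂ g x) {θ : Cn 2 → E3} {O : Set (Cn 2)}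
    (h : PE f s r θ O) {z : Cn 2} (hz : z ∈ O) :
    Gm (H θ) (dV g θ) z = (Real.log (N0 f H g (θ z)) : ℂ) •
      (- hess (fun y => U0 f H (θ y)) z - hess (fun y => Real.log (N0 f H g (θ y))) z)
        + bb (H θ) (dV g θ) z := by
  unfold Gm
  have e : (fun y => Real.log (N0 f H g (θ y))) =ᶠ[𝓝 z]
      fun y => Real.log (hV (H θ) (dV g θ) y) := by
    filter_upwards [h.par.isOpen.mem_nhds hz] with y hy
    rw [M.N0_eq L hg h hy]
  rw [M.hess_det L h hz, hess_congr e, M.N0_eq L hg h hz]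

end MO

/-! ### gluing -/

/-- `ζ H + (1 - ζ) H'` -/
def glu (ζ : E3 → ℝ) (H H' : Met) : Met := fun θ z =>
  ((ζ (θ z) : ℝ) : ℂ) • H θ z + ((1 - ζ (θ z) : ℝ) : ℂ) • H' θ z

theorem glu_one {ζ : E3 → ℝ} {θ : Cn 2 → E3} {z : Cn 2} (h : ζ (θ z) = 1) :
    glu ζ H H' θ z = H θ z := by
  unfold glu
  rw [h]
  simp

theorem glu_zero {ζ : E3 → ℝ} {θ : Cn 2 → E3} {z : Cn 2} (h : ζ (θ z) = 0) :
    glu ζ H H' θ z = H' θ z := by
  unfold glu
  rw [h]
  simp

theorem posDef_conv {A B : Matrix (Fin 2) (Fin 2) ℂ} (hA : A.PosDef) (hB : B.PosDef) {t : ℝ}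
    (h0 : 0 ≤ t) (h1 : t ≤ 1) : ((t : ℂ) • A + ((1 - t : ℝ) : ℂ) • B).PosDef := by
  rcases h0.eq_or_lt with h | h
  · rw [← h]
    simpa using hB
  · refine Matrix.PosDef.add_posSemidef (hA.smul (Complex.zero_lt_real.2 h)) ?_
    exact hB.posSemidef.smul (Complex.zero_le_real.2 (by linarith))

theorem MO.glue {r₁ : ℝ} (M : MO f s r₁ H) (M' : MO f s r H') {ζ : E3 → ℝ}
    (hζ : ContDiff ℝ ∞ ζ) (h0 : ∀ x, 0 ≤ ζ x) (h1 : ∀ x, ζ x ≤ 1)
    (hs : ∀ x ∈ tsupport ζ, nsq x < r₁ ^ 2) : MO f s r (glu ζ H H') where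
  sm θ O hP z hz := by
    by_cases hx : θ z ∈ tsupport ζ
    · have hP' : PE f s r₁ θ (O ∩ θ ⁻¹' {x | nsq x < r₁ ^ 2}) :=
        PE.cut hP (isOpen_nsq r₁) fun x hx => hx
      have a1 := M.sm θ _ hP' z ⟨hz, hs _ hx⟩
      have a2 := M'.sm θ O hP z hz
      have a3 : ContDiffAt ℝ ∞ (fun z => ζ (θ z)) z := comp_sm hζ hP hz
      intro i j
      exact ((contDiffAt_cu a3 : Sm z (cu _)).mul (a1 i j)).add
        ((contDiffAt_cu (contDiffAt_const.sub a3) : Sm z (cu _)).mul (a2 i j))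
    · have hc : ContinuousAt θ z := (hol_contDiffAt hP hz).continuousAt
      have e : ∀ᶠ y in 𝓝 z, ζ (θ y) = 0 :=
        hc.eventually (notMem_tsupport_iff_eventuallyEq.1 hx)
      intro i j
      refine (M'.sm θ O hP z hz i j).congr_of_eventuallyEq ?_
      filter_upwards [e] with y hy
      rw [glu_zero hy]
  pos θ O hP z hz := by
    by_cases hx : θ z ∈ tsupport ζ
    · have hP' : PE f s r₁ θ (O ∩ θ ⁻¹' {x | nsq x < r₁ ^ 2}) :=
        PE.cut hP (isOpen_nsq r₁) fun x hx => hx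
      exact posDef_conv (M.pos θ _ hP' z ⟨hz, hs _ hx⟩) (M'.pos θ O hP z hz) (h0 _) (h1 _)
    · rw [glu_zero (image_eq_zero_of_notMem_tsupport hx)]
      exact M'.pos θ O hP z hz
  tr θ O hP θ' z' T hT hTO hTe hdet := by
    have e' := M'.tr θ O hP θ' z' T hT hTO hTe hdet
    by_cases hx : θ (T z') ∈ tsupport ζ
    · have hP' : PE f s r₁ θ (O ∩ θ ⁻¹' {x | nsq x < r₁ ^ 2}) :=
        PE.cut hP (isOpen_nsq r₁) fun x hx => hx
      have hTc : ContinuousAt T z' := hT.self_of_nhds.continuousAt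
      have hTe1 : ∀ᶠ w in 𝓝 z', T w ∈ O ∩ θ ⁻¹' {x | nsq x < r₁ ^ 2} ∧ θ' w = θ (T w) := by
        have h2 := hTc.eventually (hP'.par.isOpen.mem_nhds ⟨hTO, hs _ hx⟩)
        filter_upwards [h2, hTe] with w a b using ⟨a, b.2⟩
      have e := M.tr θ _ hP' θ' z' T hT ⟨hTO, hs _ hx⟩ hTe1 hdet
      filter_upwards [e, e', hTe] with w a b c
      unfold glu
      rw [a, b, c.2]
      simp only [Matrix.mul_add, Matrix.add_mul, Matrix.mul_smul, Matrix.smul_mul]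
    · have hc : ContinuousAt θ (T z') := (hol_contDiffAt hP hTO).continuousAt
      have hTc : ContinuousAt T z' := hT.self_of_nhds.continuousAt
      have e : ∀ᶠ y in 𝓝 z', ζ (θ (T y)) = 0 :=
        (hTc.eventually (hc.eventually (notMem_tsupport_iff_eventuallyEq.1 hx)))
      filter_upwards [e, e', hTe] with w a b c
      rw [glu_zero (by rw [c.2]; exact a), glu_zero a, b]

end

end Crest.Agent.R257.H0_540
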