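import Crest.Agent.R257.H0B_540

/-!
# R257 (S0395), trial metric (helper540), part C: the second fundamental form of `O dg`

* `Chd G Q μ α β z` : data near a point of a chart
* `bf`              : `b_d = (∑ l, ∑ m, ∂̄_d P_l * P_m * (Q_l ∧ Q_m)) / nA²`
* `dS_kc`           : `∂̄_d κ' = b_d G`
* `bb_hm`           : `bb (hm ..) G c d = (α / β) * conj (b_c) * b_d`
* `TrD.bb`          : the same for `Htr`
-/

set_option autoImplicit false
set_option linter.unusedSectionVars false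
set_option linter.unusedSimpArgs false

open Set Filter Topology Complex MeasureTheory
open scoped ContDiff Matrix ComplexConjugate ComplexOrder ENNReal

namespace Crest.Agent.R257.H0_540

open Crest.Agent.R275.Geo Crest.Agent.R275.EDR890
open Crest.Agent.R273.Fock_243 Crest.Agent.R273.Calc_243
open Crest.Agent.R273.Bkn_243 Crest.Agent.R273.Pos_243 Crest.Agent.R273.BochA_101
open Crest.Agent.R273.BochB_101
open Crest.Agent.R273.BochC_101 Crest.Agent.R273.BochD_101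
open Crest.Agent.R273.Hess_333 Crest.Agent.R273.HessB_333
open Crest.Agent.R273.Defs_333 (lev)
open Crest.Agent.R273.YauDefs_635 (cH)
open Crest.Agent.R273.YauMax_635 (cH_eq_hess)
open Crest.Agent.R257.C2F1_625 Crest.Agent.R257.C2F2_625 Crest.Agent.R257.C2F3_625
open Crest.Agent.R257.C2F4_335 Crest.Agent.R257.C2F5_335 Crest.Agent.R257.C2F6_335
open Crest.Agent.R257.Defs_219
open Crest.Agent.R257.PN_835 (nsq)
open Crest.Agent.R257.Aff_835 (eta2a)
open Crest.Agent.R257.KED_952 Crest.Agent.R257.Ked1_397 Crest.Agent.R257.Ked2_397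
open Crest.Agent.R257.V1Defs_822 (SmL LvlOK)
open Crest.Agent.R257.OutA_309 Crest.Agent.R257.OutB_309 Crest.Agent.R257.LossD_309
open Crest.Agent.R257.OutC_309 Crest.Agent.R257.OutD_309

noncomputable section

variable {ι : Type} [Fintype ι]

/-- data near a point of a chart -/
structure Chd (G : Cn 2 → Fin 2 → ℂ) (Q : Cn 2 → ι → Fin 2 → ℂ) (μ : Cn 2 → ι → ℝ)
    (α β : Cn 2 → ℝ) (z : Cn 2) : Prop where
  hG : ∀ i, ∀ᶠ y in 𝓝 z, DifferentiableAt ℂ (fun w => G w i) y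
  hQ : ∀ l i, ∀ᶠ y in 𝓝 z, DifferentiableAt ℂ (fun w => Q w l i) y
  hμ : ∀ l, ∀ᶠ y in 𝓝 z, ContDiffAt ℝ ∞ (fun w => μ w l) y
  hα : ∀ᶠ y in 𝓝 z, ContDiffAt ℝ ∞ α y ∧ 0 < α y
  hβ : ∀ᶠ y in 𝓝 z, ContDiffAt ℝ ∞ β y ∧ 0 < β y
  h0 : nA (G z) (Q z) (μ z) ≠ 0

/-- `b_d` -/
def bf (G : Cn 2 → Fin 2 → ℂ) (Q : Cn 2 → ι → Fin 2 → ℂ) (μ : Cn 2 → ι → ℝ) (z : Cn 2)
    (d : Fin 2) : ℂ :=
  (∑ l, ∑ m, dS I d (fun y => Pl (G y) (Q y) (μ y) l) z * Pl (G z) (Q z) (μ z) m *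
    wd (Q z l) (Q z m)) / (nA (G z) (Q z) (μ z) : ℂ) ^ 2

variable {G : Cn 2 → Fin 2 → ℂ} {Q : Cn 2 → ι → Fin 2 → ℂ} {μ : Cn 2 → ι → ℝ}
  {α β : Cn 2 → ℝ} {z : Cn 2}

/-- `⟨v, G⟩ = α xc(v)` -/
theorem hm_Gv {G : Fin 2 → ℂ} {Q : ι → Fin 2 → ℂ} {μ : ι → ℝ} {α β : ℝ}
    (h : nA G Q μ ≠ 0) (v : Fin 2 → ℂ) :
    star G ⬝ᵥ (hm G Q μ α β *ᵥ v) = (α : ℂ) * (xc G Q μ 0 * v 0 + xc G Q μ 1 * v 1) := by
  have e1 : xc G Q μ 0 * G 0 + xc G Q μ 1 * G 1 = 1 := by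
    show kc G Q μ 1 * G 0 + - kc G Q μ 0 * G 1 = 1
    linear_combination kc_rel h
  have e1' : conj (xc G Q μ 0) * conj (G 0) + conj (xc G Q μ 1) * conj (G 1) = 1 := by
    have := congrArg conj e1
    simpa only [map_add, map_mul, map_one] using this
  have e2 : yc G 0 * G 0 + yc G 1 * G 1 = 0 := by
    show - G 1 * G 0 + G 0 * G 1 = 0
    ring
  have e2' : conj (yc G 0) * conj (G 0) + conj (yc G 1) * conj (G 1) = 0 := by
    have := congrArg conj e2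
    simpa only [map_add, map_mul, map_zero] using this
  simp only [dotProduct, Matrix.mulVec, Fin.sum_univ_two, hm, Matrix.of_apply, Pi.star_apply,
    Complex.star_def]
  have a : conj (G 0) * (((α : ℂ) * (conj (xc G Q μ 0) * xc G Q μ 0) +
        (β : ℂ) * (conj (yc G 0) * yc G 0)) * v 0 +
      ((α : ℂ) * (conj (xc G Q μ 0) * xc G Q μ 1) +
        (β : ℂ) * (conj (yc G 0) * yc G 1)) * v 1) +
    conj (G 1) * (((α : ℂ) * (conj (xc G Q μ 1) * xc G Q μ 0) +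
        (β : ℂ) * (conj (yc G 1) * yc G 0)) * v 0 +
      ((α : ℂ) * (conj (xc G Q μ 1) * xc G Q μ 1) +
        (β : ℂ) * (conj (yc G 1) * yc G 1)) * v 1)
    = (α : ℂ) * (conj (xc G Q μ 0) * conj (G 0) + conj (xc G Q μ 1) * conj (G 1)) *
        (xc G Q μ 0 * v 0 + xc G Q μ 1 * v 1) +
      (β : ℂ) * (conj (yc G 0) * conj (G 0) + conj (yc G 1) * conj (G 1)) *
        (yc G 0 * v 0 + yc G 1 * v 1) := by ring
  rw [a, e1', e2']
  ring

theorem hm_G' {G : Fin 2 → ℂ} {Q : ι → Fin 2 → ℂ} {μ : ι → ℝ} {α β : ℝ}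
    (h : nA G Q μ ≠ 0) : star G ⬝ᵥ (hm G Q μ α β *ᵥ G) = (α : ℂ) := by
  rw [hm_Gv h]
  have e1 : xc G Q μ 0 * G 0 + xc G Q μ 1 * G 1 = 1 := by
    show kc G Q μ 1 * G 0 + - kc G Q μ 0 * G 1 = 1
    linear_combination kc_rel h
  rw [e1, mul_one]

namespace Chd

theorem smG (h : Chd G Q μ α β z) (i : Fin 2) : Sm z (fun y => G y i) := sm_of_hol (h.hG i)

theorem smQ (h : Chd G Q μ α β z) (l : ι) (i : Fin 2) : Sm z (fun y => Q y l i) :=
  sm_of_hol (h.hQ l i)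

theorem smμ (h : Chd G Q μ α β z) (l : ι) : ContDiffAt ℝ ∞ (fun y => μ y l) z :=
  (h.hμ l).self_of_nhds

theorem sm_Pl (h : Chd G Q μ α β z) (l : ι) : Sm z (fun y => Pl (G y) (Q y) (μ y) l) :=
  (contDiffAt_cu (h.smμ l) : Sm z (cu _)).mul (sm_conj (sm_wd h.smG (h.smQ l)))

theorem ne_ev (h : Chd G Q μ α β z) : ∀ᶠ y in 𝓝 z, nA (G y) (Q y) (μ y) ≠ 0 :=
  (sm_nA h.smG h.smQ h.smμ).continuousAt.eventually_ne h.h0

theorem ev (h : Chd G Q μ α β z) : ∀ᶠ y in 𝓝 z, Chd G Q μ α β y := by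
  have h1 : ∀ᶠ y in 𝓝 z, ∀ i, ∀ᶠ w in 𝓝 y, DifferentiableAt ℂ (fun x => G x i) w := by
    rw [eventually_all]
    exact fun i => (h.hG i).eventually_nhds
  have h2 : ∀ᶠ y in 𝓝 z, ∀ l i, ∀ᶠ w in 𝓝 y, DifferentiableAt ℂ (fun x => Q x l i) w := by
    rw [eventually_all]
    intro l
    rw [eventually_all]
    exact fun i => (h.hQ l i).eventually_nhds
  have h3 : ∀ᶠ y in 𝓝 z, ∀ l, ∀ᶠ w in 𝓝 y, ContDiffAt ℝ ∞ (fun x => μ x l) w := by
    rw [eventually_all]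
    exact fun i => (h.hμ i).eventually_nhds
  filter_upwards [h1, h2, h3, h.hα.eventually_nhds, h.hβ.eventually_nhds, h.ne_ev]
    with y a b c d e g using ⟨a, b, c, d, e, g⟩

/-- `∂̄ nA = ∑ ∂̄P_m A_m` -/
theorem dS_nA (h : Chd G Q μ α β z) (d : Fin 2) :
    dS I d (fun y => (nA (G y) (Q y) (μ y) : ℂ)) z =
      ∑ m, dS I d (fun y => Pl (G y) (Q y) (μ y) m) z * wd (G z) (Q z m) := by
  have e : (fun y => (nA (G y) (Q y) (μ y) : ℂ)) =
      fun y => ∑ m, (fun y => Pl (G y) (Q y) (μ y) m * wd (G y) (Q y m)) y :=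
    funext fun y => nA_eq_sum _ _ _
  rw [e, dS_sum _ fun m _ => ((h.sm_Pl m).mul (sm_wd h.smG (h.smQ m))).differentiableAt (by simp)]
  refine Finset.sum_congr rfl fun m _ => ?_
  have hw : DifferentiableAt ℂ (fun y => wd (G y) (Q y m)) z :=
    ((h.hG 0).self_of_nhds.fun_mul (h.hQ m 1).self_of_nhds).fun_sub
      ((h.hG 1).self_of_nhds.fun_mul (h.hQ m 0).self_of_nhds)
  rw [dS_mul (h.sm_Pl m).diff (sm_wd h.smG (h.smQ m)).diff, dS_I_hol hw, mul_zero, add_zero]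

/-- **`∂̄_d κ' = b_d G`** -/
theorem dS_kc (h : Chd G Q μ α β z) (d i : Fin 2) :
    dS I d (fun y => kc (G y) (Q y) (μ y) i) z = G z i * bf G Q μ z d := by
  have h0 : (nA (G z) (Q z) (μ z) : ℂ) ≠ 0 := Complex.ofReal_ne_zero.2 h.h0
  have hk : Sm z (fun y => kc (G y) (Q y) (μ y) i) := sm_kc h.smG h.smQ h.smμ h.h0 i
  have hn : Sm z (fun y => (nA (G y) (Q y) (μ y) : ℂ)) := contDiffAt_cu (sm_nA h.smG h.smQ h.smμ)
  have e0 : (fun y => kc (G y) (Q y) (μ y) i * (nA (G y) (Q y) (μ y) : ℂ)) =ᶠ[𝓝 z]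
      fun y => ∑ l, (fun y => Pl (G y) (Q y) (μ y) l * Q y l i) y := by
    filter_upwards [h.ne_ev] with y hy
    have h1 : (nA (G y) (Q y) (μ y) : ℂ) ≠ 0 := Complex.ofReal_ne_zero.2 hy
    unfold kc
    rw [div_mul_cancel₀ _ h1]
  have e1 := dS_congr (s := I) (a := d) e0
  rw [dS_mul hk.diff hn.diff, dS_sum _ fun l _ => ((h.sm_Pl l).mul (h.smQ l i)).differentiableAt
    (by simp), h.dS_nA] at e1
  have e2 : ∀ l, dS I d (fun y => Pl (G y) (Q y) (μ y) l * Q y l i) z =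
      dS I d (fun y => Pl (G y) (Q y) (μ y) l) z * Q z l i := fun l => by
    rw [dS_mul (h.sm_Pl l).diff (h.smQ l i).diff, dS_I_hol (h.hQ l i).self_of_nhds, mul_zero,
      add_zero]
  simp only [e2] at e1
  set p : ι → ℂ := fun l => dS I d (fun y => Pl (G y) (Q y) (μ y) l) z with hp
  have e3 : dS I d (fun y => kc (G y) (Q y) (μ y) i) z * (nA (G z) (Q z) (μ z) : ℂ) =
      ∑ l, p l * Q z l i - kc (G z) (Q z) (μ z) i * ∑ m, p m * wd (G z) (Q z m) := by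
    linear_combination e1
  have e4 : kc (G z) (Q z) (μ z) i * (nA (G z) (Q z) (μ z) : ℂ) =
      ∑ l, Pl (G z) (Q z) (μ z) l * Q z l i := by
    unfold kc
    rw [div_mul_cancel₀ _ h0]
  have e5 : dS I d (fun y => kc (G y) (Q y) (μ y) i) z * (nA (G z) (Q z) (μ z) : ℂ) ^ 2 =
      (∑ l, p l * Q z l i) * (∑ m, Pl (G z) (Q z) (μ z) m * wd (G z) (Q z m)) -
      (∑ m, Pl (G z) (Q z) (μ z) m * Q z m i) * ∑ l, p l * wd (G z) (Q z l) := by
    rw [← e4, ← nA_eq_sum]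
    linear_combination (nA (G z) (Q z) (μ z) : ℂ) * e3
  have e6 : (∑ l, p l * Q z l i) * (∑ m, Pl (G z) (Q z) (μ z) m * wd (G z) (Q z m)) -
      (∑ m, Pl (G z) (Q z) (μ z) m * Q z m i) * ∑ l, p l * wd (G z) (Q z l) =
      G z i * ∑ l, ∑ m, p l * Pl (G z) (Q z) (μ z) m * wd (Q z l) (Q z m) := by
    rw [mul_comm (∑ m, Pl (G z) (Q z) (μ z) m * Q z m i), Finset.sum_mul_sum, Finset.sum_mul_sum,
      ← Finset.sum_sub_distrib, Finset.mul_sum]
    refine Finset.sum_congr rfl fun l _ => ?_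
    rw [← Finset.sum_sub_distrib, Finset.mul_sum]
    refine Finset.sum_congr rfl fun m _ => ?_
    unfold wd
    fin_cases i
    · simp only [Fin.zero_eta]
      ring
    · simp only [Fin.mk_one]
      ring
  rw [e6] at e5
  unfold bf
  rw [mul_div_assoc', eq_div_iff (pow_ne_zero 2 h0), e5]

theorem smM (h : Chd G Q μ α β z) :
    SmM z (fun y => hm (G y) (Q y) (μ y) (α y) (β y)) :=
  smM_hm h.smG h.smQ h.smμ h.h0 h.hα.self_of_nhds.1 h.hβ.self_of_nhds.1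

theorem posDef (h : Chd G Q μ α β z) : (hm (G z) (Q z) (μ z) (α z) (β z)).PosDef :=
  hm_posDef h.h0 h.hα.self_of_nhds.2 h.hβ.self_of_nhds.2

theorem G_ne (h : Chd G Q μ α β z) : G z ≠ 0 := by
  intro h1
  apply h.h0
  unfold nA wd
  rw [h1]
  simp

/-- **the second fundamental form of `O G`** -/
theorem bb_hm (h : Chd G Q μ α β z) (c d : Fin 2) :
    bb (fun y => hm (G y) (Q y) (μ y) (α y) (β y)) G z c d =
      ((α z / β z : ℝ) : ℂ) * (conj (bf G Q μ z c) * bf G Q μ z d) := by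
  obtain ⟨k, hk⟩ : ∃ k, G z k ≠ 0 := by
    by_contra hcon
    push Not at hcon
    exact h.G_ne (funext hcon)
  have hH := h.ev.mono fun y hy => hy.smM
  have hp := h.ev.mono fun y hy => hy.posDef
  obtain ⟨hh, q, τ, σ, hall, hE⟩ := frame_pt hH hp h.hG hk
  have hH0 : (hm (G z) (Q z) (μ z) (α z) (β z)).det ≠ 0 := h.posDef.det_pos.ne'
  rw [← bt_eq_bb hH hH0 h.hG hk (hall.mono fun w hw => ⟨hw.1, hw.2.1, hw.2.2.1, hw.2.2.2.1,
    hw.2.2.2.2.1, hw.2.2.2.2.2.1, hw.2.2.2.2.2.2.1⟩) hE c d]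
  obtain ⟨s1, s2, s3, s4, p1, p2, e1, e2, e3⟩ := hall.self_of_nhds
  have hσ : dS (-I) c σ z = conj (dS I c τ z) := by
    have : σ =ᶠ[𝓝 z] fun y => conj (τ y) := hall.mono fun y hy => hy.2.2.2.2.2.2.2.1
    rw [dS_congr this, dS_conj s3.diff, conjnI]
  have hα := h.hα.self_of_nhds.2
  have hβ := h.hβ.self_of_nhds.2
  have hVα : ∀ᶠ y in 𝓝 z, hV (fun y => hm (G y) (Q y) (μ y) (α y) (β y)) G y = α y := by
    filter_upwards [h.ev] with y hy using hm_G hy.h0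
  have hh1 : hh z = (α z : ℂ) := by rw [e1, hVα.self_of_nhds]
  have hq : q z = ((q z).re : ℂ) :=
    Complex.ext (by simp) (by simpa using (Complex.lt_def.1 p2).2.symm)
  have hq1 : (q z).re = ‖G z k‖ ^ 2 * β z := by
    rw [e3, hVα.self_of_nhds, hm_det h.h0, Complex.ofReal_re, det_fr]
    have : ‖(if k = 0 then G z 0 else - G z 1 : ℂ)‖ = ‖G z k‖ := by
      fin_cases k <;> simp
    rw [this]
    field_simp
  -- `τ` is the covector `xc`
  have hτ : ∀ᶠ y in 𝓝 z, τ y = if k = 0 then - kc (G y) (Q y) (μ y) 0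
      else kc (G y) (Q y) (μ y) 1 := by
    filter_upwards [h.ev, hall, hE, hVα] with y a1 a2 a3 a4
    have b1 := congrFun (congrFun a3 0) 1
    have b2 : ((fr G k y)ᴴ * hm (G y) (Q y) (μ y) (α y) (β y) * fr G k y) 0 1 =
        star (G y) ⬝ᵥ (hm (G y) (Q y) (μ y) (α y) (β y) *ᵥ (fun a => fr G k y a 1)) := by
      by_cases hk0 : k = 0 <;>
        simp [hk0, fr, Matrix.mul_apply, Fin.sum_univ_two, dotProduct, Matrix.mulVec,
          Matrix.conjTranspose_apply]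
    have b3 : ldu hh q τ σ y 0 1 = hh y * τ y := rfl
    rw [b3, b2, hm_Gv a1.h0, a2.2.2.2.2.2.2.1, a4] at b1
    have b4 : (α y : ℂ) ≠ 0 := Complex.ofReal_ne_zero.2 a1.hα.self_of_nhds.2.ne'
    have b5 := mul_left_cancel₀ b4 b1
    rw [← b5]
    fin_cases k
    · simp [fr, xc]
    · simp [fr, xc]
  have hkc : ∀ i, Sm z (fun y => kc (G y) (Q y) (μ y) i) := sm_kc h.smG h.smQ h.smμ h.h0
  have hdτ : ∀ e : Fin 2, dS I e τ z = (if k = 0 then -1 else 1) * G z k * bf G Q μ z e := by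
    intro e
    rw [dS_congr hτ]
    fin_cases k
    · simp only [Fin.zero_eta, if_true]
      rw [dS_neg, h.dS_kc]
      ring
    · simp only [Fin.mk_one, one_ne_zero, if_false]
      rw [h.dS_kc]
      ring
  rw [bt, hσ, hdτ, hdτ, hh1, hq, hq1]
  have hG0 : (G z k) ≠ 0 := hk
  have hG1 : conj (G z k) ≠ 0 := (map_ne_zero _).2 hk
  have hβ' : (β z : ℂ) ≠ 0 := Complex.ofReal_ne_zero.2 hβ.ne'
  have e5 : ((‖G z k‖ ^ 2 * β z : ℝ) : ℂ) = conj (G z k) * G z k * β z := by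
    rw [Complex.ofReal_mul, ← Complex.normSq_eq_norm_sq, Complex.normSq_eq_conj_mul_self]
  have e6 : conj (if k = 0 then -1 else 1 : ℂ) * (if k = 0 then -1 else 1 : ℂ) = 1 := by
    fin_cases k <;> simp
  rw [e5, map_mul, map_mul]
  have e7 : (α z : ℂ) / (conj (G z k) * G z k * β z) *
      (conj (if k = 0 then -1 else 1 : ℂ) * conj (G z k) * conj (bf G Q μ z c) *
        ((if k = 0 then -1 else 1 : ℂ) * G z k * bf G Q μ z d)) =
      (conj (if k = 0 then -1 else 1 : ℂ) * (if k = 0 then -1 else 1 : ℂ)) *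
      ((α z : ℂ) / (β z : ℂ)) * (conj (bf G Q μ z c) * bf G Q μ z d) := by
    field_simp
  rw [e7, e6]
  push_cast
  ring

end Chd

/-! ### on a level -/

section lvl
variable {f : E3 → ℂ} {s : ℂ} {r : ℝ} {g : E3 → ℂ} {q : ι → E3 → ℂ} {φ : ι → E3 → ℝ}
  {ψ : E3 → ℝ} {k : ℝ} {θ : Cn 2 → E3} {O : Set (Cn 2)}

theorem TrD.chd (D : TrD f s r g q φ ψ) (L : LvlOK f s r) (hP : PE f s r θ O) (hz : z ∈ O)
    (k : ℝ) : Chd (dV g θ) (fun y l => dV (q l) θ y) (fun y l => Real.exp (-φ l (θ y)))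
      (fun y => Real.exp (ψ (θ y)))
      (fun y => Real.exp (-((1 + 1 / k) * ψ (θ y))) / eta2a (n := 2) f θ y) z := by
  have hO := hP.par.isOpen.mem_nhds hz
  refine ⟨fun i => ?_, fun l i => ?_, fun l => ?_, ?_, ?_, (D.nL_pos L hP hz).ne'⟩
  · filter_upwards [hO] with y hy
    exact (dV_hol D.g_an hP i).differentiableAt (hP.par.isOpen.mem_nhds hy)
  · filter_upwards [hO] with y hy
    exact (dV_hol (D.q_an l) hP i).differentiableAt (hP.par.isOpen.mem_nhds hy)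
  · filter_upwards [hO] with y hy
    exact (smL_at (D.φ_sm l) hP hy).neg.exp
  · filter_upwards [hO] with y hy
    exact ⟨(smL_at D.ψ_sm hP hy).exp, Real.exp_pos _⟩
  · filter_upwards [hO] with y hy
    exact ⟨((contDiffAt_const.mul (smL_at D.ψ_sm hP hy)).neg.exp).div (sm_eta L hP hy)
      (eta2a_nn hP L.sm hy).ne', div_pos (Real.exp_pos _) (eta2a_nn hP L.sm hy)⟩

/-- **the second fundamental form of `O dg` for the trial metric** -/
theorem TrD.bb_eq (D : TrD f s r g q φ ψ) (L : LvlOK f s r) (hP : PE f s r θ O) (hz : z ∈ O)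
    (k : ℝ) (c d : Fin 2) :
    bb (Htr f g q φ ψ k θ) (dV g θ) z c d =
      ((Real.exp ((2 + 1 / k) * ψ (θ z)) * eta2a (n := 2) f θ z : ℝ) : ℂ) *
      (conj (bf (dV g θ) (fun y l => dV (q l) θ y) (fun y l => Real.exp (-φ l (θ y))) z c) *
        bf (dV g θ) (fun y l => dV (q l) θ y) (fun y l => Real.exp (-φ l (θ y))) z d) := by
  have h1 := (D.chd L hP hz k).bb_hm c d
  have h2 : Real.exp (ψ (θ z)) / (Real.exp (-((1 + 1 / k) * ψ (θ z))) / eta2a (n := 2) f θ z) =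
      Real.exp ((2 + 1 / k) * ψ (θ z)) * eta2a (n := 2) f θ z := by
    rw [div_div_eq_mul_div, Real.exp_neg, div_inv_eq_mul, mul_right_comm, ← Real.exp_add]
    congr 2
    ring
  rw [h2] at h1
  exact h1

end lvl

end

end Crest.Agent.R257.H0_540
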