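import Crest.Agent.R257.Aff_835

/-!
# R257 (S0395), Part E (helper835): homogenisation

`G x = eval x P + ∑ c_i x_i^d` with `P.totalDegree < d`:

* `HH d P c s`  : the homogeneous equation of the closure of `{G = s}`;
* `hyp`         : the nonsingular hypersurface `Hyp n d`, `cl_hyp : Cl (hyp …) G s`;
* `HT`          : the equation with analytic parameters, `continuousOn_HT`, `continuousOn_dHT`.
-/

set_option autoImplicit false
set_option linter.unusedSectionVars false

open Set Filter Topology Complex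
open scoped ContDiff Matrix ComplexConjugate Manifold

namespace Crest.Agent.R257.Hom_835

open Crest.Agent.R257.PN_835 Crest.Agent.R257.Gram_835 Crest.Agent.R257.Hyp_835
open Crest.Agent.R257.KE_835 Crest.Agent.R257.Aff_835

noncomputable section

variable {n d : ℕ}

/-- the exponent vector -/
def ex (e : Fin (n + 1) → Fin d) : Fin (n + 1) →₀ ℕ :=
  Finsupp.equivFunOnFinite.symm fun i => (e i : ℕ)

@[simp] theorem ex_apply (e : Fin (n + 1) → Fin d) (i : Fin (n + 1)) : ex e i = (e i : ℕ) := rfl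

/-- coefficients -/
def cf (P : MvPolynomial (Fin (n + 1)) ℂ) (e : Fin (n + 1) → Fin d) : ℂ := P.coeff (ex e)

theorem ex_injective : Function.Injective (ex : (Fin (n + 1) → Fin d) → _) := by
  intro e e' h
  funext i
  have := DFunLike.congr_fun h i
  exact Fin.ext this

theorem cf_eq_zero {P : MvPolynomial (Fin (n + 1)) ℂ} (hP : P.totalDegree < d)
    {e : Fin (n + 1) → Fin d} (he : d ≤ ∑ i, (e i : ℕ)) : cf P e = 0 := by
  unfold cf
  by_contra h
  have h1 : ex e ∈ P.support := MvPolynomial.mem_support_iff.2 h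
  have h2 := MvPolynomial.le_totalDegree h1
  rw [Finsupp.sum_fintype _ _ (fun _ => rfl)] at h2
  simp only [ex_apply] at h2
  omega

/-- the evaluation of a polynomial of degree `< d` -/
theorem eval_eq {P : MvPolynomial (Fin (n + 1)) ℂ} (hP : P.totalDegree < d) (x : AC n) :
    MvPolynomial.eval x P = ∑ e : Fin (n + 1) → Fin d, cf P e * ∏ i, x i ^ (e i : ℕ) := by
  classical
  rw [MvPolynomial.eval_eq']
  have h1 : ∑ e : Fin (n + 1) → Fin d, cf P e * ∏ i, x i ^ (e i : ℕ) =
      ∑ m ∈ (Finset.univ : Finset (Fin (n + 1) → Fin d)).image ex,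
        P.coeff m * ∏ i, x i ^ m i := by
    rw [Finset.sum_image fun a _ b _ h => ex_injective h]
    rfl
  rw [h1]
  refine Finset.sum_subset ?_ fun m _ hm => ?_
  · intro m hm
    rw [Finset.mem_image]
    have h2 : ∀ i, m i < d := by
      intro i
      have h3 := MvPolynomial.le_totalDegree hm
      rw [Finsupp.sum_fintype _ _ (fun _ => rfl)] at h3
      have h4 : m i ≤ ∑ i, m i := Finset.single_le_sum (fun _ _ => Nat.zero_le _) (Finset.mem_univ i)
      omega
    refine ⟨fun i => ⟨m i, h2 i⟩, Finset.mem_univ _, ?_⟩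
    ext i
    rfl
  · rw [MvPolynomial.notMem_support_iff.1 hm, zero_mul]

/-- the homogenisation of `P` in degree `d` -/
def hmP (d : ℕ) (P : MvPolynomial (Fin (n + 1)) ℂ) (Z : HC (n + 1)) : ℂ :=
  ∑ e : Fin (n + 1) → Fin d, cf P e * (Z 0 ^ (d - ∑ i, (e i : ℕ)) * ∏ i, Z (Fin.succ i) ^ (e i : ℕ))

/-- the homogeneous equation of the level `s` -/
def HH (d : ℕ) (P : MvPolynomial (Fin (n + 1)) ℂ) (c : AC n) (s : ℂ) (Z : HC (n + 1)) : ℂ :=
  hmP d P Z + ∑ i, c i * Z (Fin.succ i) ^ d - s * Z 0 ^ d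

/-- the affine function -/
def Gf (d : ℕ) (P : MvPolynomial (Fin (n + 1)) ℂ) (c : AC n) (x : AC n) : ℂ :=
  MvPolynomial.eval x P + ∑ i, c i * x i ^ d

variable {P : MvPolynomial (Fin (n + 1)) ℂ} {c : AC n} {s : ℂ}

theorem HH_hc (hP : P.totalDegree < d) (x : AC n) : HH d P c s (hc x) = Gf d P c x - s := by
  unfold HH Gf hmP
  rw [eval_eq hP]
  simp only [hc_zero, hc_succ, one_pow, one_mul, mul_one]

theorem hmP_smul (hPd : P.totalDegree < d) (a : ℂ) (Z : HC (n + 1)) :
    hmP d P (a • Z) = a ^ d * hmP d P Z := by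
  unfold hmP
  rw [Finset.mul_sum]
  refine Finset.sum_congr rfl fun e _ => ?_
  by_cases he : d ≤ ∑ i, (e i : ℕ)
  · rw [cf_eq_zero hPd he]
    ring
  · have h1 : a ^ d = a ^ (d - ∑ i, (e i : ℕ)) * ∏ i, a ^ (e i : ℕ) := by
      rw [Finset.prod_pow_eq_pow_sum, ← pow_add]
      congr 1
      omega
    simp only [Pi.smul_apply, smul_eq_mul, mul_pow, Finset.prod_mul_distrib]
    rw [h1]
    ring

theorem HH_smul (hPd : P.totalDegree < d) (a : ℂ) (Z : HC (n + 1)) :
    HH d P c s (a • Z) = a ^ d * HH d P c s Z := by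
  unfold HH
  rw [hmP_smul hPd]
  simp only [Pi.smul_apply, smul_eq_mul, mul_pow]
  have h1 : ∑ i, c i * (a ^ d * Z (Fin.succ i) ^ d) = a ^ d * ∑ i, c i * Z (Fin.succ i) ^ d := by
    rw [Finset.mul_sum]
    exact Finset.sum_congr rfl fun i _ => by ring
  rw [h1]
  ring

theorem differentiable_HH : Differentiable ℂ (HH d P c s) := by
  unfold HH hmP
  fun_prop

/-- at infinity -/
theorem HH_inf (hPd : P.totalDegree < d) {Z : HC (n + 1)} (h0 : Z 0 = 0) :
    HH d P c s Z = ∑ i, c i * Z (Fin.succ i) ^ d := by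
  have hd : d ≠ 0 := by omega
  have h1 : hmP d P Z = 0 := by
    unfold hmP
    refine Finset.sum_eq_zero fun e _ => ?_
    by_cases he : d ≤ ∑ i, (e i : ℕ)
    · rw [cf_eq_zero hPd he, zero_mul]
    · rw [h0, zero_pow (by omega), zero_mul, mul_zero]
  unfold HH
  rw [h1, h0, zero_pow hd, mul_zero, sub_zero, zero_add]

theorem hasDerivAt_line (Z W : HC (n + 1)) :
    HasDerivAt (fun a : ℂ => HH d P c s (Z + a • W)) (fderiv ℂ (HH d P c s) Z W) 0 := by
  have h1 : HasDerivAt (fun a : ℂ => Z + a • W) W 0 := by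
    simpa using ((hasDerivAt_id (0 : ℂ)).smul_const W).const_add Z
  have h2 : HasFDerivAt (HH d P c s) (fderiv ℂ (HH d P c s) (Z + (0 : ℂ) • W))
      (Z + (0 : ℂ) • W) := (differentiable_HH _).hasFDerivAt
  have h3 := h2.comp_hasDerivAt (0 : ℂ) h1
  rw [zero_smul, add_zero] at h3
  exact h3

theorem fderiv_inf (hPd : P.totalDegree < d) {Z : HC (n + 1)} (h0 : Z 0 = 0) (k : Fin (n + 1)) :
    fderiv ℂ (HH d P c s) Z (Pi.single k.succ 1) = c k * (d * Z k.succ ^ (d - 1)) := by
  refine (hasDerivAt_line Z _).unique ?_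
  have h1 : (fun a : ℂ => HH d P c s (Z + a • Pi.single k.succ 1)) = fun a =>
      ∑ i, c i * (Z (Fin.succ i) + a * (Pi.single k.succ 1 : HC (n + 1)) (Fin.succ i)) ^ d := by
    funext a
    rw [HH_inf hPd]
    · rfl
    · rw [Pi.add_apply, Pi.smul_apply, h0, Pi.single_eq_of_ne (Fin.succ_ne_zero k).symm]
      simp
  rw [h1]
  have h2 : ∀ i ∈ Finset.univ, HasDerivAt (fun a : ℂ => c i * (Z (Fin.succ i) +
      a * (Pi.single k.succ 1 : HC (n + 1)) (Fin.succ i)) ^ d)
      (c i * (d * Z (Fin.succ i) ^ (d - 1) * (Pi.single k.succ 1 : HC (n + 1)) (Fin.succ i))) 0 := by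
    intro i _
    have h3 : HasDerivAt (fun a : ℂ => Z (Fin.succ i) +
        a * (Pi.single k.succ 1 : HC (n + 1)) (Fin.succ i))
        ((Pi.single k.succ 1 : HC (n + 1)) (Fin.succ i)) 0 := by
      simpa using ((hasDerivAt_id (0 : ℂ)).mul_const _).const_add (Z (Fin.succ i))
    have h4 := (h3.pow d).const_mul (c i)
    simpa using h4
  have h5 := HasDerivAt.fun_sum h2
  refine h5.congr_deriv ?_
  rw [Finset.sum_eq_single k]
  · rw [Pi.single_eq_same, mul_one]
  · intro i _ hi
    rw [Pi.single_eq_of_ne (by simpa using hi)]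
    ring
  · intro h
    exact absurd (Finset.mem_univ k) h

theorem hasFDerivAt_Gf (hPd : P.totalDegree < d) (x : AC n) :
    HasFDerivAt (Gf d P c) ((fderiv ℂ (HH d P c s) (hc x)).comp (hvL n)) x := by
  have h1 : HasFDerivAt (fun x => HH d P c s (hc x) + s)
      ((fderiv ℂ (HH d P c s) (hc x)).comp (hvL n)) x :=
    (HasFDerivAt.comp x (g := HH d P c s) (differentiable_HH _).hasFDerivAt
      (hasFDerivAt_hc x)).add_const s
  refine h1.congr_of_eventuallyEq (Eventually.of_forall fun x => ?_)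
  show Gf d P c x = HH d P c s (hc x) + s
  rw [HH_hc hPd]
  ring

/-- every point off infinity is affine -/
theorem eq_smul_hc {Z : HC (n + 1)} (h0 : Z 0 ≠ 0) :
    Z = Z 0 • hc (fun k => Z (Fin.succ k) / Z 0) := by
  funext k
  refine Fin.cases ?_ (fun k => ?_) k
  · rw [Pi.smul_apply, hc_zero, smul_eq_mul, mul_one]
  · rw [Pi.smul_apply, hc_succ, smul_eq_mul, mul_div_cancel₀ _ h0]

theorem fderiv_smul (hPd : P.totalDegree < d) (a : ℂ) (Z : HC (n + 1)) :
    a • fderiv ℂ (HH d P c s) (a • Z) = a ^ d • fderiv ℂ (HH d P c s) Z := by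
  have h1 : HasFDerivAt (fun Z : HC (n + 1) => HH d P c s (a • Z))
      (a • fderiv ℂ (HH d P c s) (a • Z)) Z := by
    have h2 : HasFDerivAt (fun Z : HC (n + 1) => a • Z)
        (a • ContinuousLinearMap.id ℂ (HC (n + 1))) Z := (hasFDerivAt_id Z).const_smul a
    have h3 := HasFDerivAt.comp Z (g := HH d P c s) (differentiable_HH (a • Z)).hasFDerivAt h2
    refine h3.congr_fderiv ?_
    ext v
    simp
  have h2 : (fun Z : HC (n + 1) => HH d P c s (a • Z)) = fun Z => a ^ d • HH d P c s Z := by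
    funext W
    rw [HH_smul hPd, smul_eq_mul]
  rw [h2] at h1
  exact h1.unique ((differentiable_HH Z).hasFDerivAt.const_smul (a ^ d))

/-- **the hypersurface** -/
def hyp (hPd : P.totalDegree < d) (hc0 : ∀ i, c i ≠ 0)
    (hs : ∀ x, Gf d P c x = s → fderiv ℂ (Gf d P c) x ≠ 0) : Hyp n d where
  H := HH d P c s
  diff := differentiable_HH
  hom := HH_smul hPd
  ns Z hZ h0 hcon := by
    by_cases hZ0 : Z 0 = 0
    · have h1 : ∃ k : Fin (n + 1), Z k.succ ≠ 0 := by
        by_contra h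
        push Not at h
        apply hZ
        funext k
        refine Fin.cases hZ0 (fun k => h k) k
      obtain ⟨k, hk⟩ := h1
      have h2 := fderiv_inf (c := c) (s := s) hPd hZ0 k
      rw [hcon] at h2
      have h3 : c k * (d * Z k.succ ^ (d - 1)) ≠ 0 :=
        mul_ne_zero (hc0 k) (mul_ne_zero (by exact_mod_cast (by omega : d ≠ 0)) (pow_ne_zero _ hk))
      exact h3 h2.symm
    · set x : AC n := fun k => Z (Fin.succ k) / Z 0 with hx
      have hZx : Z = Z 0 • hc x := eq_smul_hc hZ0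
      have h1 : Gf d P c x = s := by
        have h2 : HH d P c s (Z 0 • hc x) = 0 := by rw [← hZx]; exact h0
        rw [HH_smul hPd, HH_hc hPd] at h2
        exact sub_eq_zero.1 ((mul_eq_zero.1 h2).resolve_left (pow_ne_zero _ hZ0))
      apply hs x h1
      rw [(hasFDerivAt_Gf (s := s) hPd x).fderiv]
      have h3 := fderiv_smul (c := c) (s := s) hPd (Z 0) (hc x)
      rw [← hZx, hcon] at h3
      have h4 : fderiv ℂ (HH d P c s) (hc x) = 0 := by
        ext w
        have h5 : Z 0 * (0 : ℂ) = Z 0 ^ d * fderiv ℂ (HH d P c s) (hc x) w :=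
          congrArg (fun T : HC (n + 1) →L[ℂ] ℂ => T w) h3
        rw [mul_zero] at h5
        exact (mul_eq_zero.1 h5.symm).resolve_left (pow_ne_zero _ hZ0)
      rw [h4]
      rfl

theorem cl_hyp (hPd : P.totalDegree < d) (hc0 : ∀ i, c i ≠ 0)
    (hs : ∀ x, Gf d P c x = s → fderiv ℂ (Gf d P c) x ≠ 0) :
    Cl (hyp hPd hc0 hs) (Gf d P c) s := HH_hc hPd

end

end Crest.Agent.R257.Hom_835
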