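import Crest.Agent.R257.HypP_835
import Crest.Agent.R257.Gram_835

/-!
# R257 (S0395), Part E (helper835): lifts to the cone over a hypersurface

* `gr X Z`, `ng X Z` : gradient and its squared norm;
* `Lift X F U`  : `F : U → cone`, holomorphic, nowhere zero, immersive modulo scaling;
* `lift_diffAt` : `z ↦ [F z]` is holomorphic in the charts of the hypersurface;
* `eta2`        : `|η|²` for the residue form; `eta2_spec`, `det_log`.
-/

set_option autoImplicit false
set_option linter.unusedSectionVars false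

open Set Filter Topology Complex
open scoped ContDiff Matrix ComplexConjugate Manifold

namespace Crest.Agent.R257.Hyp_835

open Crest.Agent.R275.Geo Crest.Agent.R275.Core144 Crest.Agent.R275.GC293
open Crest.Agent.R273.Fam_835 Crest.Agent.R273.Sub_835 Crest.Agent.R273.Reg_835
open Crest.Agent.R273.Defs_333 Crest.Agent.R273.Map_835 Crest.Agent.R273.PB_835
open Crest.Agent.R273.FS_333 Crest.Agent.R273.YauDefs_635
open Crest.Agent.R257.PN_835 Crest.Agent.R257.Gram_835

noncomputable section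

variable {n d : ℕ} (X : Hyp n d)

/-- the gradient covector -/
def Hyp.gr (Z : HC (n + 1)) : HC (n + 1) := fun k => fderiv ℂ X.H Z (Pi.single k 1)

/-- squared norm of the gradient -/
def Hyp.ng (Z : HC (n + 1)) : ℝ := ∑ k, ‖X.gr Z k‖ ^ 2

theorem Hyp.prg_gr (Z W : HC (n + 1)) : prg (X.gr Z) W = fderiv ℂ X.H Z W := by
  have h1 : W = ∑ k, W k • (Pi.single k (1 : ℂ) : HC (n + 1)) := by
    funext j
    simp [Finset.sum_apply, Pi.single_apply]
  conv_rhs => rw [h1, map_sum]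
  unfold prg Hyp.gr
  refine Finset.sum_congr rfl fun k _ => ?_
  rw [map_smul, smul_eq_mul, mul_comm]

theorem Hyp.gr_ne {Z : HC (n + 1)} (hZ : Z ≠ 0) (h0 : X.H Z = 0) : X.gr Z ≠ 0 := by
  intro h
  apply X.ns Z hZ h0
  ext W
  rw [← X.prg_gr, h]
  simp [prg]

theorem Hyp.ng_pos {Z : HC (n + 1)} (hZ : Z ≠ 0) (h0 : X.H Z = 0) : 0 < X.ng Z :=
  nsq_pos (X.gr_ne hZ h0)

/-- homogeneity of the derivative -/
theorem Hyp.fderiv_smul (c : ℂ) (Z : HC (n + 1)) :
    c • fderiv ℂ X.H (c • Z) = c ^ d • fderiv ℂ X.H Z := by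
  have h1 : HasFDerivAt (fun Z : HC (n + 1) => X.H (c • Z)) (c • fderiv ℂ X.H (c • Z)) Z := by
    have h2 : HasFDerivAt (fun Z : HC (n + 1) => c • Z)
        (c • ContinuousLinearMap.id ℂ (HC (n + 1))) Z := (hasFDerivAt_id Z).const_smul c
    have h3 := HasFDerivAt.comp Z (g := X.H) (X.diff (c • Z)).hasFDerivAt h2
    refine h3.congr_fderiv ?_
    ext v
    simp
  have h2 : (fun Z : HC (n + 1) => X.H (c • Z)) = fun Z => c ^ d • X.H Z := by
    funext W
    rw [X.hom, smul_eq_mul]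
  rw [h2] at h1
  exact h1.unique ((X.diff Z).hasFDerivAt.const_smul (c ^ d))

theorem Hyp.ng_smul (c : ℂ) (Z : HC (n + 1)) :
    ‖c‖ ^ 2 * X.ng (c • Z) = ‖c‖ ^ (2 * d) * X.ng Z := by
  have h1 : ∀ k, c * X.gr (c • Z) k = c ^ d * X.gr Z k := fun k =>
    congrArg (fun T : HC (n + 1) →L[ℂ] ℂ => T (Pi.single k 1)) (X.fderiv_smul c Z)
  unfold Hyp.ng
  rw [Finset.mul_sum, Finset.mul_sum]
  refine Finset.sum_congr rfl fun k _ => ?_
  rw [← mul_pow, ← norm_mul, h1, norm_mul, norm_pow, mul_pow]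
  ring

/-! ### lifts -/

/-- local lifts to the cone, immersive modulo scaling -/
structure Lift (F : Cn n → HC (n + 1)) (U : Set (Cn n)) : Prop where
  isOpen : IsOpen U
  hol : DifferentiableOn ℂ F U
  ne : ∀ z ∈ U, F z ≠ 0
  zero : ∀ z ∈ U, X.H (F z) = 0
  imm : ∀ z ∈ U, ∀ v : Cn n, (∃ c : ℂ, fderiv ℂ F z v = c • F z) → v = 0

variable {X}

namespace Lift

variable {F : Cn n → HC (n + 1)} {U : Set (Cn n)} (hF : Lift X F U)
include hF

theorem diffAt {z : Cn n} (hz : z ∈ U) : DifferentiableAt ℂ F z :=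
  hF.hol.differentiableAt (hF.isOpen.mem_nhds hz)

theorem holk (k : Fin (n + 2)) : DifferentiableOn ℂ (fun z => F z k) U := fun z hz =>
  (differentiableAt_pi.1 (hF.diffAt hz) k).differentiableWithinAt

theorem pd_eq {z : Cn n} (hz : z ∈ U) (a : Fin n) :
    pd F z a = fderiv ℂ F z (EuclideanSpace.single a 1) := by
  funext k
  have h1 := hasFDerivAt_pi'.1 (hF.diffAt hz).hasFDerivAt k
  show fderiv ℂ (fun z => F z k) z _ = _
  rw [h1.fderiv]
  rfl

theorem ker_F {z : Cn n} (hz : z ∈ U) : prg (X.gr (F z)) (F z) = 0 := by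
  rw [X.prg_gr]
  exact X.euler (hF.zero z hz)

theorem ker_dF {z : Cn n} (hz : z ∈ U) (v : Cn n) : fderiv ℂ X.H (F z) (fderiv ℂ F z v) = 0 := by
  have h1 : HasFDerivAt (fun z => X.H (F z)) ((fderiv ℂ X.H (F z)).comp (fderiv ℂ F z)) z :=
    HasFDerivAt.comp z (g := X.H) (X.diff _).hasFDerivAt (hF.diffAt hz).hasFDerivAt
  have h2 : HasFDerivAt (fun z => X.H (F z)) (0 : Cn n →L[ℂ] ℂ) z := by
    refine (hasFDerivAt_const (0 : ℂ) z).congr_of_eventuallyEq ?_
    filter_upwards [hF.isOpen.mem_nhds hz] with w hw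
    exact hF.zero w hw
  exact congrArg (fun T : Cn n →L[ℂ] ℂ => T v) (h1.unique h2)

theorem ker_RF {z : Cn n} (hz : z ∈ U) (a : Unit ⊕ Fin n) :
    prg (X.gr (F z)) (RF F z a) = 0 := by
  rcases a with a | a
  · exact hF.ker_F hz
  · show prg (X.gr (F z)) (pd F z a) = 0
    rw [hF.pd_eq hz, X.prg_gr]
    exact hF.ker_dF hz _

end Lift

/-- `|η|²` of the residue form -/
def eta2 (X : Hyp n d) (F : Cn n → HC (n + 1)) (z : Cn n) : ℝ := (gdet (RF F z)).re / X.ng (F z)

/-- rows of the cone -/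
def rowE (n : ℕ) : Fin (n + 2) ≃ (Unit ⊕ Fin n) ⊕ Unit :=
  Fintype.equivOfCardEq (by simp; ring)

theorem gdet_real {α β : Type*} [Fintype α] [Fintype β] [DecidableEq α] [DecidableEq β]
    (R : Matrix α β ℂ) : (((gdet R).re : ℝ) : ℂ) = gdet R := by
  have h1 : conj (gdet R) = gdet R := by
    unfold gdet
    have h2 : (R * Rᴴ)ᴴ = R * Rᴴ := by
      rw [Matrix.conjTranspose_mul, Matrix.conjTranspose_conjTranspose]
    have h3 := Matrix.det_conjTranspose (R * Rᴴ)
    rw [h2] at h3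
    exact h3.symm
  exact Complex.conj_eq_iff_re.1 h1

namespace Lift

variable {F : Cn n → HC (n + 1)} {U : Set (Cn n)} (hF : Lift X F U)
include hF

theorem gdet_eq {z : Cn n} (hz : z ∈ U) :
    gdet (RF F z) = ((eta2 X F z * X.ng (F z) : ℝ) : ℂ) := by
  have h1 := X.ng_pos (hF.ne z hz) (hF.zero z hz)
  rw [eta2, div_mul_cancel₀ _ h1.ne', gdet_real]

/-- **residue form**: `η(∂_1, …, ∂_n) = det (F, ∂F, w) / dH(w)` for every `w` -/
theorem eta2_spec {z : Cn n} (hz : z ∈ U) (w : HC (n + 1)) :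
    gdet (addRow (RF F z) w) = ((eta2 X F z * ‖fderiv ℂ X.H (F z) w‖ ^ 2 : ℝ) : ℂ) := by
  have h1 := X.ng_pos (hF.ne z hz) (hF.zero z hz)
  have h2 := gdet_row (rowE n) (X.gr_ne (hF.ne z hz) (hF.zero z hz)) (hF.ker_RF hz) w
  rw [hF.gdet_eq hz, X.prg_gr] at h2
  have h3 : ((∑ k, ‖X.gr (F z) k‖ ^ 2 : ℝ) : ℂ) = ((X.ng (F z) : ℝ) : ℂ) := rfl
  rw [h3] at h2
  have h4 : ((X.ng (F z) : ℝ) : ℂ) ≠ 0 := by rw [Ne, ofReal_eq_zero]; exact h1.ne'
  apply mul_right_cancel₀ h4
  rw [h2]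
  push_cast
  ring

/-- the volume form of the Fubini-Study metric -/
theorem det_log {z : Cn n} (hz : z ∈ U) :
    ((sq F z : ℝ) : ℂ) ^ (n + 1) * (cH (fun w => Real.log (sq F w)) z).det =
      ((eta2 X F z * X.ng (F z) : ℝ) : ℂ) := by
  rw [← gram_log hF.isOpen hF.holk hz (hF.ne z hz), hF.gdet_eq hz]

end Lift

/-- the chart lifts -/
theorem HAtl.lift (B : HAtl X) (i : B.A.ι) :
    Lift X (fun z => B.F i ((B.A.e i).symm z)) (B.A.e i).target where
  isOpen := (B.A.e i).open_target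
  hol z hz := (HAtl.F_diffAt hz).differentiableWithinAt
  ne z hz := HAtl.F_ne ((B.A.e i).map_target hz)
  zero z hz := HAtl.H_F ((B.A.e i).map_target hz)
  imm z hz v h := by
    obtain ⟨c, hc⟩ := h
    exact HAtl.F_imm hz hc

/-- **`z ↦ [F z]` is holomorphic in the charts of the hypersurface** -/
theorem lift_diffAt (B : HAtl X) {F : Cn n → HC (n + 1)} {U : Set (Cn n)} (hU : IsOpen U)
    (hol : DifferentiableOn ℂ F U) (hne : ∀ z ∈ U, F z ≠ 0) {x : Cn n → X.S}
    (hx : ∀ z (hz : z ∈ U), (x z).1 = cls (F z) (hne z hz)) {z : Cn n} (hz : z ∈ U) {i : B.A.ι}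
    (hi : x z ∈ (B.A.e i).source) :
    ContinuousAt x z ∧ DifferentiableAt ℂ (fun w => B.A.e i (x w)) z := by
  have hd : DifferentiableAt ℂ F z := hol.differentiableAt (hU.mem_nhds hz)
  -- continuity
  have hc1 : ContinuousAt (fun w => (x w).1) z := by
    have h1 : ContinuousAt (fun w => (x w).1.1) z := by
      have h2 : ContinuousAt (fun w => pm (F w)) z :=
        ContinuousAt.comp (g := pm) (continuousAt_pm (hne z hz)) hd.continuousAt
      refine h2.congr ?_
      filter_upwards [hU.mem_nhds hz] with w hw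
      rw [hx w hw]
      rfl
    rw [continuousAt_def]
    intro V hV
    obtain ⟨V', hV', hVV⟩ := mem_nhds_subtype _ _ _ |>.1 hV
    filter_upwards [h1.preimage_mem_nhds hV'] with y hy
    exact hVV hy
  have hc : ContinuousAt x z := by
    rw [continuousAt_def]
    intro V hV
    obtain ⟨V', hV', hVV⟩ := mem_nhds_subtype _ _ _ |>.1 hV
    filter_upwards [hc1.preimage_mem_nhds hV'] with y hy
    exact hVV hy
  refine ⟨hc, ?_⟩
  obtain ⟨j, hj⟩ := Function.ne_iff.1 (hne z hz)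
  have hj' : F z j ≠ 0 := hj
  set x0 := x z with hx0
  set c := X.isSub_S.ch x0 with hcdef
  have hxs : x0.1 ∈ c.ψ.source := X.isSub_S.mem_ch x0
  have hxj : x0.1 ∈ (aff j).source := by
    rw [hx0, hx z hz]
    exact (cls_mem_aff (hne z hz)).2 hj'
  have haff : aff j x0.1 = afc j (F z) := by
    rw [hx0, hx z hz, aff_cls (hne z hz) hj']
  -- the coordinates of the adapted chart
  have h1 : DifferentiableAt ℂ (fun y => c.ψ ((aff j).symm y)) (afc j (F z)) := by
    refine (c.hol j).differentiableAt ((c.isOpen1 j).mem_nhds ⟨mem_univ _, ?_⟩)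
    show (aff j).symm (afc j (F z)) ∈ c.ψ.source
    rw [← haff, (aff j).left_inv hxj]
    exact hxs
  have h2 : DifferentiableAt ℂ (fun w => c.pi (c.ψ ((aff j).symm (afc j (F w))))) z :=
    c.pi.differentiableAt.comp _ (DifferentiableAt.comp z (g := fun y => c.ψ ((aff j).symm y)) h1
      (DifferentiableAt.comp z (g := afc j) (differentiableAt_afc hj') hd))
  have hFj : ∀ᶠ w in 𝓝 z, F w j ≠ 0 :=
    (continuousAt_pi.1 hd.continuousAt j).eventually_ne hj'
  have h3 : DifferentiableAt ℂ (fun w => (subFam X.isSub_S).e x0 (x w)) z := by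
    refine h2.congr_of_eventuallyEq ?_
    filter_upwards [hU.mem_nhds hz, hFj] with w hw hwj
    show c.pi (c.ψ (x w).1) = c.pi (c.ψ ((aff j).symm (afc j (F w))))
    have h4 : (x w).1 ∈ (aff j).source := by
      rw [hx w hw]
      exact (cls_mem_aff (hne w hw)).2 hwj
    have h5 : afc j (F w) = aff j (x w).1 := by rw [hx w hw, aff_cls (hne w hw) hwj]
    rw [h5, (aff j).left_inv h4]
  have hsrc : x0 ∈ ((subFam X.isSub_S).e x0).source := X.isSub_S.mem_ch x0
  have h6 : DifferentiableAt ℂ (fun z => B.A.e i (((subFam X.isSub_S).e x0).symm z))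
      ((subFam X.isSub_S).e x0 x0) :=
    B.hol'.diffAt (i := x0) (j := i) (((subFam X.isSub_S).e x0).map_source hsrc) (by
      show ((subFam X.isSub_S).e x0).symm ((subFam X.isSub_S).e x0 x0) ∈ _
      rw [((subFam X.isSub_S).e x0).left_inv hsrc]; exact hi)
  have h7 : DifferentiableAt ℂ (fun w => B.A.e i (((subFam X.isSub_S).e x0).symm
      ((subFam X.isSub_S).e x0 (x w)))) z :=
    DifferentiableAt.comp z (g := fun z => B.A.e i (((subFam X.isSub_S).e x0).symm z)) h6 h3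
  refine h7.congr_of_eventuallyEq ?_
  have h8 : ∀ᶠ w in 𝓝 z, x w ∈ ((subFam X.isSub_S).e x0).source :=
    hc.preimage_mem_nhds (((subFam X.isSub_S).e x0).open_source.mem_nhds hsrc)
  filter_upwards [h8] with w hw
  rw [((subFam X.isSub_S).e x0).left_inv hw]

end

end Crest.Agent.R257.Hyp_835
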