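import Crest.Agent.R257.Hyp_835
import Crest.Agent.R273.FS_333

/-!
# R257 (S0395), Part E (helper835): homogeneous coordinates of a hypersurface

* `imm_iso`   : immersions after a change of the family of charts;
* `HAtl.P`    : `ProjD B.A` with `N = n + 1` and `F i x = lft (r i) x`;
* `lift_diffAt` : maps `z ↦ [F z]` into the hypersurface are holomorphic in the charts of `B.A`.
-/

set_option autoImplicit false
set_option linter.unusedSectionVars false

open Set Filter Topology Complex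
open scoped ContDiff Matrix ComplexConjugate Manifold

namespace Crest.Agent.R257.Hyp_835

open Crest.Agent.R275.Geo Crest.Agent.R275.Core144 Crest.Agent.R275.GC293
open Crest.Agent.R273.Fam_835 Crest.Agent.R273.Sub_835 Crest.Agent.R273.Reg_835
open Crest.Agent.R273.Defs_333 Crest.Agent.R273.Map_835 Crest.Agent.R273.PB_835
open Crest.Agent.R257.PN_835

noncomputable section

section

variable {n m : ℕ} {M N : Type} [TopologicalSpace M] [TopologicalSpace N] {C C' : Fam n M}
  {D : Fam m N} {f : M → N}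

/-- immersions after a change of the family of charts -/
theorem imm_iso (h : HolC C' C id) (h' : HolC C C' id) (hf : HolC C D f) (hi : Imm C D f) :
    Imm C' D f := by
  refine imm_of_local (hf.comp h) fun x => ?_
  obtain ⟨i, hi'⟩ := C'.cover x
  obtain ⟨i0, hi0⟩ := C.cover x
  obtain ⟨j, hj⟩ := D.cover (f x)
  refine ⟨i, j, hi', hj, ?_⟩
  have hd1 : DifferentiableAt ℂ (fun z => C.e i0 ((C'.e i).symm z)) (C'.e i x) :=
    h.diffAt (i := i) (j := i0) ((C'.e i).map_source hi') (by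
      show (C'.e i).symm (C'.e i x) ∈ _
      rw [(C'.e i).left_inv hi']; exact hi0)
  have hd1' : DifferentiableAt ℂ (fun z => C'.e i ((C.e i0).symm z)) (C.e i0 x) :=
    h'.diffAt (i := i0) (j := i) ((C.e i0).map_source hi0) (by
      show (C.e i0).symm (C.e i0 x) ∈ _
      rw [(C.e i0).left_inv hi0]; exact hi')
  have hd2 : DifferentiableAt ℂ (fun z => D.e j (f ((C.e i0).symm z))) (C.e i0 x) :=
    hf.diffAt (i := i0) (j := j) ((C.e i0).map_source hi0) (by
      rw [(C.e i0).left_inv hi0]; exact hj)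
  have e1 : C.e i0 ((C'.e i).symm (C'.e i x)) = C.e i0 x := by rw [(C'.e i).left_inv hi']
  have hc : ContinuousAt (C'.e i).symm (C'.e i x) :=
    (C'.e i).continuousAt_symm ((C'.e i).map_source hi')
  have h8 : ∀ᶠ z in 𝓝 (C'.e i x), (C'.e i).symm z ∈ (C.e i0).source :=
    hc.preimage_mem_nhds (by
      rw [(C'.e i).left_inv hi']
      exact (C.e i0).open_source.mem_nhds hi0)
  have hev : (fun z => D.e j (f ((C'.e i).symm z))) =ᶠ[𝓝 (C'.e i x)]
      (fun z => D.e j (f ((C.e i0).symm z))) ∘ (fun z => C.e i0 ((C'.e i).symm z)) := by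
    filter_upwards [h8] with z hz
    simp only [Function.comp]
    rw [(C.e i0).left_inv hz]
  have h7 := fderiv_comp (C'.e i x) (g := fun z => D.e j (f ((C.e i0).symm z)))
    (f := fun z => C.e i0 ((C'.e i).symm z)) (by rw [e1]; exact hd2) hd1
  rw [hev.fderiv_eq, h7, e1]
  have h9 := fderiv_comp (C'.e i x) (g := fun z => C'.e i ((C.e i0).symm z))
    (f := fun z => C.e i0 ((C'.e i).symm z)) (by rw [e1]; exact hd1') hd1
  have h10 : (fun z => C'.e i ((C.e i0).symm z)) ∘
      (fun z => C.e i0 ((C'.e i).symm z)) =ᶠ[𝓝 (C'.e i x)] id := by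
    filter_upwards [h8, (C'.e i).open_target.mem_nhds ((C'.e i).map_source hi')] with z hz hz'
    simp only [Function.comp, id]
    rw [(C.e i0).left_inv hz, (C'.e i).right_inv hz']
  rw [h10.fderiv_eq, fderiv_id, e1] at h9
  have hinj : Function.Injective (fderiv ℂ (fun z => C.e i0 ((C'.e i).symm z)) (C'.e i x)) := by
    intro v w hvw
    have h7 := congrArg (fun T : Cn n →L[ℂ] Cn n => T v) h9
    have h8 := congrArg (fun T : Cn n →L[ℂ] Cn n => T w) h9
    simp only [ContinuousLinearMap.coe_id', id_eq, ContinuousLinearMap.coe_comp,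
      Function.comp_apply] at h7 h8
    rw [h7, h8, hvw]
  have hs := hi i0 j (C.e i0 x) ((C.e i0).map_source hi0) (by
    rw [(C.e i0).left_inv hi0]; exact hj)
  exact hs.comp hinj

end

variable {n d : ℕ} {X : Hyp n d} (B : HAtl X)

theorem HAtl.holVal : HolC (fam B.A) (pnFam (n + 1)) (Subtype.val : X.S → PN (n + 1)) :=
  (subFam_hol X.isSub_S).comp B.hol

theorem HAtl.immVal : Imm (fam B.A) (pnFam (n + 1)) (Subtype.val : X.S → PN (n + 1)) :=
  imm_iso B.hol B.hol' (subFam_hol X.isSub_S) (subFam_imm X.isSub_S)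

/-- local lifts to homogeneous coordinates -/
def HAtl.F (i : B.A.ι) (x : X.S) : HC (n + 1) := lft (B.r i) x.1

variable {B}

theorem HAtl.mem_aff {i : B.A.ι} {x : X.S} (hx : x ∈ (B.A.e i).source) :
    x.1.1 (B.r i) (B.r i) ≠ 0 := B.sub i x hx

theorem HAtl.F_one {i : B.A.ι} {x : X.S} (hx : x ∈ (B.A.e i).source) : B.F i x (B.r i) = 1 :=
  lft_self (HAtl.mem_aff hx)

theorem HAtl.F_ne {i : B.A.ι} {x : X.S} (hx : x ∈ (B.A.e i).source) : B.F i x ≠ 0 :=
  lft_ne (HAtl.mem_aff hx)

theorem HAtl.cls_F {i : B.A.ι} {x : X.S} (hx : x ∈ (B.A.e i).source) :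
    cls (B.F i x) (HAtl.F_ne hx) = x.1 := cls_lft (HAtl.mem_aff hx)

theorem HAtl.H_F {i : B.A.ι} {x : X.S} (hx : x ∈ (B.A.e i).source) : X.H (B.F i x) = 0 :=
  (X.lft_mem (HAtl.mem_aff hx)).1 x.2

/-- the lift in a chart -/
theorem HAtl.F_eq {i : B.A.ι} {z : Cn n} (hz : z ∈ (B.A.e i).target) :
    B.F i ((B.A.e i).symm z) = hmg (B.r i) (aff (B.r i) ((B.A.e i).symm z).1) :=
  (hmg_aff (HAtl.mem_aff ((B.A.e i).map_target hz))).symm

theorem HAtl.diffAt_aff {i : B.A.ι} {z : Cn n} (hz : z ∈ (B.A.e i).target) :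
    DifferentiableAt ℂ (fun z => aff (B.r i) ((B.A.e i).symm z).1) z :=
  B.holVal.diffAt (i := i) (j := B.r i) hz (B.sub i _ ((B.A.e i).map_target hz))

theorem HAtl.F_diffAt {i : B.A.ι} {z : Cn n} (hz : z ∈ (B.A.e i).target) :
    DifferentiableAt ℂ (fun z => B.F i ((B.A.e i).symm z)) z := by
  have h1 : DifferentiableAt ℂ (fun z => hmg (B.r i) (aff (B.r i) ((B.A.e i).symm z).1)) z :=
    DifferentiableAt.comp z (g := hmg (B.r i)) (differentiable_hmg (B.r i) _)
      (HAtl.diffAt_aff hz)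
  refine h1.congr_of_eventuallyEq ?_
  filter_upwards [(B.A.e i).open_target.mem_nhds hz] with w hw
  exact HAtl.F_eq hw

/-- immersion modulo scaling -/
theorem HAtl.F_imm {i : B.A.ι} {z : Cn n} (hz : z ∈ (B.A.e i).target) {v : Cn n} {c : ℂ}
    (h : fderiv ℂ (fun z => B.F i ((B.A.e i).symm z)) z v = c • B.F i ((B.A.e i).symm z)) :
    v = 0 := by
  have hd := HAtl.F_diffAt hz
  have hx := (B.A.e i).map_target hz
  -- the component `r i` is constant
  have h1 : fderiv ℂ (fun z => B.F i ((B.A.e i).symm z)) z v (B.r i) = 0 := by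
    have h2 := hasFDerivAt_pi'.1 hd.hasFDerivAt (B.r i)
    have h3 : HasFDerivAt (fun z => B.F i ((B.A.e i).symm z) (B.r i)) (0 : Cn n →L[ℂ] ℂ) z := by
      refine (hasFDerivAt_const (1 : ℂ) z).congr_of_eventuallyEq ?_
      filter_upwards [(B.A.e i).open_target.mem_nhds hz] with w hw
      exact HAtl.F_one ((B.A.e i).map_target hw)
    exact congrArg (fun T : Cn n →L[ℂ] ℂ => T v) (h2.unique h3)
  have hc : c = 0 := by
    have h2 := congrFun h (B.r i)
    rw [h1, Pi.smul_apply, HAtl.F_one hx, smul_eq_mul, mul_one] at h2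
    exact h2.symm
  rw [hc, zero_smul] at h
  -- the affine coordinates
  have hF1 : B.F i ((B.A.e i).symm z) (B.r i) ≠ 0 := by rw [HAtl.F_one hx]; exact one_ne_zero
  have h4 : HasFDerivAt (fun z => afc (B.r i) (B.F i ((B.A.e i).symm z)))
      ((fderiv ℂ (afc (B.r i)) (B.F i ((B.A.e i).symm z))).comp
        (fderiv ℂ (fun z => B.F i ((B.A.e i).symm z)) z)) z :=
    HasFDerivAt.comp z (g := afc (B.r i)) (differentiableAt_afc hF1).hasFDerivAt hd.hasFDerivAt
  have h5 : (fun z => afc (B.r i) (B.F i ((B.A.e i).symm z))) =ᶠ[𝓝 z]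
      fun z => aff (B.r i) ((B.A.e i).symm z).1 := Eventually.of_forall fun w => rfl
  have h6 := B.immVal i (B.r i) z hz (B.sub i _ hx)
  have h7 : fderiv ℂ (fun z => aff (B.r i) ((B.A.e i).symm z).1) z v = 0 := by
    rw [← h5.fderiv_eq, h4.fderiv]
    show fderiv ℂ (afc (B.r i)) (B.F i ((B.A.e i).symm z))
      (fderiv ℂ (fun z => B.F i ((B.A.e i).symm z)) z v) = 0
    rw [h, map_zero]
  exact h6 (h7.trans (map_zero _).symm)

variable (B)

/-- **homogeneous coordinates** -/
def HAtl.P : ProjD B.A where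
  N := n + 1
  F := B.F
  hol i k := by
    intro z hz
    have h1 := HAtl.F_diffAt (B := B) hz.1
    exact (differentiableAt_pi.1 h1 k).differentiableWithinAt
  ne i x hx := HAtl.F_ne hx
  tr i j x hx := by
    have h1 : cls (B.F i x) (HAtl.F_ne hx.1) = cls (B.F j x) (HAtl.F_ne hx.2) := by
      rw [HAtl.cls_F hx.1, HAtl.cls_F hx.2]
    exact (cls_eq_iff _ _).1 h1
  inj i j x hx y hy h := by
    have h1 := (cls_eq_iff (HAtl.F_ne hx) (HAtl.F_ne hy)).2 h
    rw [HAtl.cls_F hx, HAtl.cls_F hy] at h1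
    exact Subtype.ext h1
  imm i z hz v h := by
    obtain ⟨c, hc⟩ := h
    exact HAtl.F_imm hz hc

end

end Crest.Agent.R257.Hyp_835
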