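import Crest.Agent.R257.PN_835
import Crest.Agent.R273.Reg_835

/-!
# R257 (S0395), Part E (helper835): nonsingular projective hypersurfaces

* `Hyp n d`   : homogeneous `H` of degree `d` in `n + 2` variables, nonsingular;
* `X.S`       : the hypersurface in `PN (n + 1)`, closed (`isClosed_S`), a submanifold (`isSub_S`);
* `HAtl X`    : a finite good atlas of `X.S`, subordinate to the affine patches (`exists_hAtl`);
* `HAtl.P`    : homogeneous coordinates (`ProjD`).
-/

set_option autoImplicit false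
set_option linter.unusedSectionVars false

open Set Filter Topology Complex
open scoped ContDiff Matrix ComplexConjugate Manifold

namespace Crest.Agent.R257.Hyp_835

open Crest.Agent.R275.Geo Crest.Agent.R275.Core144 Crest.Agent.R275.GC293
open Crest.Agent.R273.Fam_835 Crest.Agent.R273.Sub_835 Crest.Agent.R273.Reg_835
open Crest.Agent.R273.Defs_333 Crest.Agent.R273.Map_835 Crest.Agent.R273.PB_835
open Crest.Agent.R257.PN_835

noncomputable section

variable {n d : ℕ}

/-- a nonsingular hypersurface of degree `d` and dimension `n` -/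
structure Hyp (n d : ℕ) where
  H : HC (n + 1) → ℂ
  diff : Differentiable ℂ H
  hom : ∀ (c : ℂ) (Z : HC (n + 1)), H (c • Z) = c ^ d * H Z
  ns : ∀ Z, Z ≠ 0 → H Z = 0 → fderiv ℂ H Z ≠ 0

variable (X : Hyp n d)

/-- Euler's identity on the cone -/
theorem Hyp.euler {Z : HC (n + 1)} (hZ : H X Z = 0) : fderiv ℂ X.H Z Z = 0 := by
  have h1 : HasDerivAt (fun c : ℂ => X.H (c • Z)) (fderiv ℂ X.H Z Z) 1 := by
    have h2 : HasFDerivAt X.H (fderiv ℂ X.H ((1 : ℂ) • Z)) ((1 : ℂ) • Z) :=
      (X.diff _).hasFDerivAt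
    have h3 : HasDerivAt (fun c : ℂ => c • Z) Z 1 := by
      simpa using (hasDerivAt_id (1 : ℂ)).smul_const Z
    have h4 := h2.comp_hasDerivAt (1 : ℂ) h3
    rw [one_smul] at h4
    exact h4
  have h5 : (fun c : ℂ => X.H (c • Z)) = fun _ => 0 := by
    funext c
    rw [X.hom, hZ, mul_zero]
  rw [h5] at h1
  exact h1.unique (hasDerivAt_const _ _)

/-- the hypersurface -/
def Hyp.S : Set (PN (n + 1)) := {P | ∀ j, X.H (fun k => P.1 k j) = 0}

theorem Hyp.isClosed_S : IsClosed X.S := by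
  have h1 : X.S = ⋂ j, {P : PN (n + 1) | X.H (fun k => P.1 k j) = 0} := by
    ext P
    simp only [mem_iInter, mem_ofPred_eq]
    exact Iff.rfl
  rw [h1]
  refine isClosed_iInter fun j => isClosed_eq ?_ continuous_const
  exact X.diff.continuous.comp (continuous_pi fun k => continuous_entry k j)

theorem Hyp.cls_mem {Z : HC (n + 1)} (hZ : Z ≠ 0) : cls Z hZ ∈ X.S ↔ X.H Z = 0 := by
  have h0 : (nsq Z : ℂ) ≠ 0 := by exact_mod_cast (nsq_pos hZ).ne'
  have h1 : ∀ j, (fun k => (cls Z hZ).1 k j) = (conj (Z j) / (nsq Z : ℂ)) • Z := by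
    intro j
    funext k
    show Z k * conj (Z j) / (nsq Z : ℂ) = conj (Z j) / (nsq Z : ℂ) * Z k
    ring
  constructor
  · intro h
    obtain ⟨j, hj⟩ := Function.ne_iff.1 hZ
    have h2 : X.H (fun k => (cls Z hZ).1 k j) = 0 := h j
    rw [h1, X.hom] at h2
    have h3 : (conj (Z j) / (nsq Z : ℂ)) ^ d ≠ 0 := by
      have : Z j ≠ 0 := hj
      exact pow_ne_zero _ (div_ne_zero (by simpa using this) h0)
    exact (mul_eq_zero.1 h2).resolve_left h3
  · intro h j
    rw [h1, X.hom, h, mul_zero]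

theorem Hyp.lft_mem {j : Fin (n + 2)} {P : PN (n + 1)} (hP : P.1 j j ≠ 0) :
    P ∈ X.S ↔ X.H (lft j P) = 0 := by
  have h1 := X.cls_mem (lft_ne hP)
  rw [cls_lft hP] at h1
  exact h1

/-- the derivative of `hmg j` -/
theorem hasFDerivAt_hmg {N : ℕ} (j : Fin (N + 1)) (y : Cn N) : ∃ T : Cn N →L[ℂ] HC N,
    HasFDerivAt (hmg (N := N) j) T y ∧ (∀ v, T v j = 0) ∧ ∀ v k, T v (j.succAbove k) = v k := by
  refine ⟨fderiv ℂ (hmg j) y, (differentiable_hmg j y).hasFDerivAt, fun v => ?_, fun v k => ?_⟩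
  · have h1 := hasFDerivAt_pi'.1 (differentiable_hmg j y).hasFDerivAt j
    have h2 : HasFDerivAt (fun y => hmg (N := N) j y j) (0 : Cn N →L[ℂ] ℂ) y := by
      simp only [hmg_self]
      exact hasFDerivAt_const _ _
    have h3 := h1.unique h2
    exact congrArg (fun T : Cn N →L[ℂ] ℂ => T v) h3
  · have h1 := hasFDerivAt_pi'.1 (differentiable_hmg j y).hasFDerivAt (j.succAbove k)
    have h2 : HasFDerivAt (fun y => hmg (N := N) j y (j.succAbove k))
        (EuclideanSpace.proj k : Cn N →L[ℂ] ℂ) y := by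
      simp only [hmg_succAbove]
      exact (EuclideanSpace.proj k : Cn N →L[ℂ] ℂ).hasFDerivAt
    have h3 := h1.unique h2
    exact congrArg (fun T : Cn N →L[ℂ] ℂ => T v) h3

/-- the differential of the affine equation does not vanish -/
theorem Hyp.exists_dir {Z : HC (n + 1)} (hZ : Z ≠ 0) (h0 : X.H Z = 0) {j : Fin (n + 2)}
    (hj : Z j = 1) : ∃ W : HC (n + 1), W j = 0 ∧ fderiv ℂ X.H Z W ≠ 0 := by
  by_contra hcon
  push Not at hcon
  apply X.ns Z hZ h0
  ext W
  have h1 : W = (W j) • Z + (W - (W j) • Z) := by abel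
  have h2 : (W - (W j) • Z) j = 0 := by
    rw [Pi.sub_apply, Pi.smul_apply, smul_eq_mul, hj, mul_one, sub_self]
  rw [h1, map_add, map_smul, X.euler h0, smul_zero, zero_add, hcon _ h2]
  rfl

/-- **the hypersurface is a submanifold** -/
theorem Hyp.isSub_S : IsSub (pnFam (n + 1)) X.S n := by
  refine isSub_of_submersion (k := 1) (by omega) fun P hP => ?_
  obtain ⟨j, hj'⟩ := exists_patch P
  have hj : P ∈ (aff j).source := hj'
  refine ⟨j, (aff j).source, fun Q => WithLp.toLp 2 fun _ => X.H (lft j Q), hj,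
    (aff j).open_source, hj, ?_, ?_, fun Q hQ => ?_⟩
  · -- holomorphic
    have h1 : Differentiable ℂ (fun y => X.H (hmg j y)) := X.diff.comp (differentiable_hmg j)
    have h2 : Differentiable ℂ (fun y => (WithLp.toLp 2 (fun _ : Fin 1 => X.H (hmg j y)) : Cn 1)) :=
      (PiLp.continuousLinearEquiv 2 ℂ (fun _ : Fin 1 => ℂ)).symm.differentiable.comp
        (differentiable_pi.2 fun _ => h1)
    refine h2.differentiableOn.congr fun y _ => ?_
    show (WithLp.toLp 2 (fun _ : Fin 1 => X.H (lft j ((aff j).symm y))) : Cn 1) = _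
    rw [lft_aff_symm]
  · -- submersion
    set y := aff j P with hy
    have hfun : (fun z => (WithLp.toLp 2 (fun _ : Fin 1 => X.H (lft j ((aff j).symm z))) : Cn 1)) =
        fun z => (WithLp.toLp 2 (fun _ : Fin 1 => X.H (hmg j z)) : Cn 1) := by
      funext z
      rw [lft_aff_symm]
    show Function.Surjective (fderiv ℂ (fun z =>
      (WithLp.toLp 2 (fun _ : Fin 1 => X.H (lft j ((aff j).symm z))) : Cn 1)) y)
    rw [hfun]
    have hL : hmg j y = lft j P := hmg_aff hj'
    have hH : X.H (hmg j y) = 0 := by rw [hL]; exact (X.lft_mem hj').1 hP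
    obtain ⟨W, hWj, hW⟩ := X.exists_dir (hmg_ne j y) hH (hmg_self j y)
    obtain ⟨T, hT, hT1, hT2⟩ := hasFDerivAt_hmg j y
    have h2 : HasFDerivAt (fun z => X.H (hmg j z)) ((fderiv ℂ X.H (hmg j y)).comp T) y :=
      (X.diff _).hasFDerivAt.comp y hT
    have h3 : HasFDerivAt (fun z => (WithLp.toLp 2 (fun _ : Fin 1 => X.H (hmg j z)) : Cn 1))
        (((PiLp.continuousLinearEquiv 2 ℂ (fun _ : Fin 1 => ℂ)).symm :
          (Fin 1 → ℂ) →L[ℂ] Cn 1).comp (ContinuousLinearMap.pi fun _ =>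
            (fderiv ℂ X.H (hmg j y)).comp T)) y :=
      ((PiLp.continuousLinearEquiv 2 ℂ (fun _ : Fin 1 => ℂ)).symm :
          (Fin 1 → ℂ) →L[ℂ] Cn 1).hasFDerivAt.comp y (hasFDerivAt_pi.2 fun _ => h2)
    rw [h3.fderiv]
    intro w
    set v : Cn (n + 1) := WithLp.toLp 2 fun k => W (j.succAbove k) with hv
    have hTv : T v = W := by
      funext k
      rcases Fin.eq_self_or_eq_succAbove j k with rfl | ⟨l, rfl⟩
      · rw [hT1, hWj]
      · rw [hT2]
    refine ⟨(w 0 * (fderiv ℂ X.H (hmg j y) W)⁻¹) • v, ?_⟩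
    ext i
    have hi : i = 0 := Subsingleton.elim _ _
    subst hi
    show fderiv ℂ X.H (hmg j y) (T ((w 0 * (fderiv ℂ X.H (hmg j y) W)⁻¹) • v)) = w 0
    rw [map_smul, map_smul, hTv, smul_eq_mul, mul_assoc, inv_mul_cancel₀ hW, mul_one]
  · show Q ∈ X.S ↔ (WithLp.toLp 2 (fun _ : Fin 1 => X.H (lft j Q)) : Cn 1) =
      WithLp.toLp 2 (fun _ : Fin 1 => X.H (lft j P))
    rw [(X.lft_mem hj').1 hP, X.lft_mem hQ]
    constructor
    · intro h
      rw [h]
    · intro h
      have := congrArg (fun v : Cn 1 => v 0) h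
      exact this

instance : CompactSpace X.S := isCompact_iff_compactSpace.1 X.isClosed_S.isCompact

/-- a finite good atlas of the hypersurface, subordinate to the affine patches -/
structure HAtl (X : Hyp n d) where
  A : Atl n X.S
  fin : Finite A.ι
  good : GoodA A
  part : Nonempty (Part A)
  r : A.ι → Fin (n + 2)
  sub : ∀ i, ∀ x ∈ (A.e i).source, x.1 ∈ (aff (r i)).source
  hol : HolC (fam A) (subFam X.isSub_S) id
  hol' : HolC (subFam X.isSub_S) (fam A) id

theorem Hyp.exists_hAtl : Nonempty (HAtl X) := by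
  obtain ⟨A, h1, h2, h3, h4, h5, h6⟩ := (subFam X.isSub_S).exists_atl
    (fun j : Fin (n + 2) => (Subtype.val : X.S → PN (n + 1)) ⁻¹' (aff j).source)
    (fun j => (aff j).open_source.preimage continuous_subtype_val)
    (fun x => (pnFam (n + 1)).cover x.1)
  choose r hr using h4
  exact ⟨⟨A, h1, h2, h3, r, fun i x hx => hr i hx, h5, h6⟩⟩

end

end Crest.Agent.R257.Hyp_835
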