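import Crest.Agent.R257.C2F3_625
import Mathlib.Analysis.Calculus.LineDeriv.IntegrationByParts

/-!
# R257 (S0395), leaf GB-IDX, part 1 (helper761): integration by parts for `(1,1)`-forms on `C^2`

* `CS U f`   : `f` smooth with compact support in `U`
* `int_dS`   : `∫ dS s a f = 0` for `f` smooth with compact support
* `hs f z`   : complex Hessian `∂_a ∂̄_b f` of a complex valued function
* `Cl W z`   : the `(1,1)`-form `W` is smooth and closed at `z`
* `parts_pd` : `∫ κ * pd (hs a) W = ∫ a * pd (hs κ) W` for `W` closed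
* `parts_ddm`: `∫ κ * ddm b = ∫ pd (hs κ) b`
-/

set_option autoImplicit false
set_option linter.unusedSectionVars false

open Set Filter Topology Complex MeasureTheory
open scoped ContDiff Matrix ComplexConjugate

namespace Crest.Agent.R257.Idx1_761

open Crest.Agent.R275.Geo Crest.Agent.R275.EDR890 Crest.Agent.R273.Calc_243
open Crest.Agent.R273.Hess_333 Crest.Agent.R273.HessB_333 Crest.Agent.R273.BochD_101
open Crest.Agent.R257.C2F1_625

noncomputable section

variable {n : ℕ}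

theorem contDiff_of_tsup {f : Cn n → ℂ} (h : ∀ x ∈ tsupport f, Sm x f) : ContDiff ℝ ∞ f := by
  refine contDiff_iff_contDiffAt.2 fun x => ?_
  by_cases hx : x ∈ tsupport f
  · exact h x hx
  · exact (contDiffAt_const (c := (0 : ℂ))).congr_of_eventuallyEq (notMem_tsupport_iff_eventuallyEq.1 hx)

/-- smooth with compact support in `U` -/
structure CS (U : Set (Cn n)) (f : Cn n → ℂ) : Prop where
  sm : ContDiff ℝ ∞ f
  cpt : HasCompactSupport f
  sub : tsupport f ⊆ U

theorem CS.at {U : Set (Cn n)} {f : Cn n → ℂ} (h : CS U f) (z : Cn n) : Sm z f := h.sm.contDiffAt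

theorem CS.mono {U U' : Set (Cn n)} {f : Cn n → ℂ} (h : CS U f) (hU : U ⊆ U') : CS U' f :=
  ⟨h.sm, h.cpt, h.sub.trans hU⟩

theorem CS.add {U : Set (Cn n)} {f g : Cn n → ℂ} (hf : CS U f) (hg : CS U g) :
    CS U (fun z => f z + g z) where
  sm := hf.sm.add hg.sm
  cpt := hf.cpt.add hg.cpt
  sub := (tsupport_add f g).trans (union_subset hf.sub hg.sub)

theorem CS.neg {U : Set (Cn n)} {f : Cn n → ℂ} (hf : CS U f) : CS U (fun z => - f z) where
  sm := hf.sm.neg
  cpt := by
    have : (fun z => - f z) = -f := rfl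
    rw [this]; exact hf.cpt.neg
  sub := by
    have : (fun z => - f z) = -f := rfl
    rw [this, tsupport_neg]; exact hf.sub

theorem CS.sub' {U : Set (Cn n)} {f g : Cn n → ℂ} (hf : CS U f) (hg : CS U g) :
    CS U (fun z => f z - g z) := by
  simpa only [sub_eq_add_neg] using hf.add hg.neg

theorem CS.mul {U : Set (Cn n)} {f g : Cn n → ℂ} (hf : CS U f) (hg : ∀ z ∈ U, Sm z g) :
    CS U (fun z => f z * g z) where
  sm := by
    refine contDiff_of_tsup fun x hx => ?_
    have hx' : x ∈ tsupport f := tsupport_mul_subset_left hx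
    exact (hf.at x).mul (hg x (hf.sub hx'))
  cpt := hf.cpt.mul_right
  sub := tsupport_mul_subset_left.trans hf.sub

theorem CS.mul' {U : Set (Cn n)} {f g : Cn n → ℂ} (hg : ∀ z ∈ U, Sm z g) (hf : CS U f) :
    CS U (fun z => g z * f z) := by
  simpa only [mul_comm] using hf.mul hg

theorem tsupport_dS_subset (s : ℂ) (a : Fin n) (f : Cn n → ℂ) : tsupport (dS s a f) ⊆ tsupport f := by
  refine (closure_mono ?_).trans (tsupport_fderiv_subset ℝ)
  intro x hx
  simp only [Function.mem_support] at hx ⊢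
  intro h0
  exact hx (by simp [dS, h0])

theorem CS.dS {U : Set (Cn n)} {f : Cn n → ℂ} (hf : CS U f) (s : ℂ) (a : Fin n) :
    CS U (dS s a f) where
  sm := contDiff_iff_contDiffAt.2 fun z => (hf.at z).dS s a
  cpt := hf.cpt.mono' ((subset_tsupport _).trans (tsupport_dS_subset s a f))
  sub := (tsupport_dS_subset s a f).trans hf.sub

theorem CS.integrable {U : Set (Cn n)} {f : Cn n → ℂ} (hf : CS U f) : Integrable f :=
  hf.sm.continuous.integrable_of_hasCompactSupport hf.cpt

theorem CS.zero_off {U : Set (Cn n)} {f : Cn n → ℂ} (hf : CS U f) {z : Cn n} (hz : z ∉ U) : f z = 0 :=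
  image_eq_zero_of_notMem_tsupport fun h => hz (hf.sub h)

theorem int_fderiv {f : Cn n → ℂ} (hf : ContDiff ℝ ∞ f) (hc : HasCompactSupport f) (v : Cn n) :
    ∫ z, fderiv ℝ f z v = 0 := by
  have hd : ContDiff ℝ ∞ (fun z => fderiv ℝ f z v) :=
    (hf.fderiv_right (m := ∞) (by simp)).clm_apply contDiff_const
  have hcd : HasCompactSupport (fun z => fderiv ℝ f z v) := hc.fderiv_apply (𝕜 := ℝ) v
  have h := integral_smul_fderiv_eq_neg_fderiv_smul_of_integrable (μ := (volume : Measure (Cn n)))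
    (𝕜 := ℝ) (f := fun _ => (1 : ℝ)) (g := f) (v := v) (by simp)
    (by simpa using hd.continuous.integrable_of_hasCompactSupport hcd)
    (by simpa using hf.continuous.integrable_of_hasCompactSupport hc)
    (fun x _ => differentiableAt_const _) (fun x _ => hf.contDiffAt.differentiableAt (by simp))
  simpa using h

theorem int_dS {U : Set (Cn n)} {f : Cn n → ℂ} (hf : CS U f) (s : ℂ) (a : Fin n) :
    ∫ z, dS s a f z = 0 := by
  have hd : ∀ v, Integrable (fun z => fderiv ℝ f z v) := fun v =>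
    ((hf.sm.fderiv_right (m := ∞) (by simp)).clm_apply contDiff_const).continuous
      |>.integrable_of_hasCompactSupport (hf.cpt.fderiv_apply (𝕜 := ℝ) v)
  unfold Crest.Agent.R273.Calc_243.dS
  rw [integral_const_mul, integral_add (hd _) ((hd _).const_mul s), integral_const_mul,
    int_fderiv hf.sm hf.cpt, int_fderiv hf.sm hf.cpt]
  simp

/-- complex Hessian of a complex valued function -/
def hs (f : Cn n → ℂ) (z : Cn n) : Matrix (Fin n) (Fin n) ℂ :=
  Matrix.of fun a b => dS (-I) a (dS I b f) z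

theorem hs_apply (f : Cn n → ℂ) (z : Cn n) (a b : Fin n) : hs f z a b = dS (-I) a (dS I b f) z := rfl

theorem hs_cu (u : Cn n → ℝ) (z : Cn n) : hs (cu u) z = hess u z := by
  ext a b
  rw [hess_eq]; rfl

/-- smooth closed `(1,1)`-form at `z` (only the relations needed in dimension 2) -/
structure Cl (W : Cn 2 → Matrix (Fin 2) (Fin 2) ℂ) (z : Cn 2) : Prop where
  sm : SmM z W
  l : ∀ a b c, dS (-I) c (fun y => W y a b) z = dS (-I) a (fun y => W y c b) z
  r : ∀ a b c, dS I c (fun y => W y a b) z = dS I b (fun y => W y a c) z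

theorem ev_sm {f : Cn n → ℂ} {U : Set (Cn n)} (hU : IsOpen U) (hf : ∀ z ∈ U, Sm z f) {z : Cn n}
    (hz : z ∈ U) : ∀ᶠ y in 𝓝 z, Sm y f := by
  filter_upwards [hU.mem_nhds hz] with y hy using hf y hy

theorem cl_hs {f : Cn 2 → ℂ} {U : Set (Cn 2)} (hU : IsOpen U) (hf : ∀ z ∈ U, Sm z f) {z : Cn 2}
    (hz : z ∈ U) : Cl (hs f) z where
  sm := fun a b => ((hf z hz).dS I b).dS (-I) a
  l := fun a b c => dS_comm ((hf z hz).dS I b)
  r := fun a b c => by
    have h1 : ∀ d : Fin 2, (fun y => hs f y a d) =ᶠ[𝓝 z] dS I d (dS (-I) a f) := by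
      intro d
      filter_upwards [ev_sm hU hf hz] with y hy
      exact dS_comm hy
    rw [dS_congr (h1 b), dS_congr (h1 c)]
    exact dS_comm ((hf z hz).dS (-I) a)

theorem dS_mul3 {s : ℂ} {a : Fin n} {f g h : Cn n → ℂ} {z : Cn n} (hf : Sm z f) (hg : Sm z g)
    (hh : Sm z h) : dS s a (fun y => f y * g y * h y) z =
      dS s a f z * g z * h z + f z * dS s a g z * h z + f z * g z * dS s a h z := by
  rw [dS_mul (f := fun y => f y * g y) (hf.diff.mul hg.diff) hh.diff, dS_mul hf.diff hg.diff]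
  ring

theorem dS_sub {s : ℂ} {a : Fin n} {f g : Cn n → ℂ} {z : Cn n} (hf : DifferentiableAt ℝ f z)
    (hg : DifferentiableAt ℝ g z) :
    dS s a (fun y => f y - g y) z = dS s a f z - dS s a g z := by
  have h : DifferentiableAt ℝ (fun y => - g y) z := hg.neg
  simp only [sub_eq_add_neg]
  rw [dS_add hf h, dS_neg]

/-- **Green's formula** for a closed form `W` -/
theorem parts_pd {U : Set (Cn 2)} {κ a : Cn 2 → ℂ} {W : Cn 2 → Matrix (Fin 2) (Fin 2) ℂ}
    (hκ : CS U κ) (ha : ∀ z ∈ U, Sm z a) (hW : ∀ z ∈ U, Cl W z) :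
    ∫ z, a z * pd (hs κ z) (W z) = ∫ z, κ z * pd (hs a z) (W z) := by
  have hWs : ∀ i j, ∀ z ∈ U, Sm z (fun y => W y i j) := fun i j z hz => (hW z hz).sm i j
  have had : ∀ s i, ∀ z ∈ U, Sm z (dS s i a) := fun s i z hz => (ha z hz).dS s i
  -- the four fields
  set F0 : Cn 2 → ℂ := fun y => a y * dS I 0 κ y * W y 1 1 - a y * dS I 1 κ y * W y 1 0 with hF0
  set F1 : Cn 2 → ℂ := fun y => a y * dS I 1 κ y * W y 0 0 - a y * dS I 0 κ y * W y 0 1 with hF1
  set G0 : Cn 2 → ℂ := fun y => κ y * dS (-I) 0 a y * W y 1 1 - κ y * dS (-I) 1 a y * W y 0 1 with hG0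
  set G1 : Cn 2 → ℂ := fun y => κ y * dS (-I) 1 a y * W y 0 0 - κ y * dS (-I) 0 a y * W y 1 0 with hG1
  have c1 : ∀ i j k, CS U (fun y => a y * dS I i κ y * W y j k) := fun i j k =>
    (CS.mul' ha (hκ.dS I i)).mul (hWs j k)
  have c2 : ∀ i j k, CS U (fun y => κ y * dS (-I) i a y * W y j k) := fun i j k =>
    (hκ.mul (had (-I) i)).mul (hWs j k)
  have cF0 : CS U F0 := (c1 0 1 1).sub' (c1 1 1 0)
  have cF1 : CS U F1 := (c1 1 0 0).sub' (c1 0 0 1)
  have cG0 : CS U G0 := (c2 0 1 1).sub' (c2 1 0 1)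
  have cG1 : CS U G1 := (c2 1 0 0).sub' (c2 0 1 0)
  have key : ∀ z, a z * pd (hs κ z) (W z) - κ z * pd (hs a z) (W z) =
      (dS (-I) 0 F0 z + dS (-I) 1 F1 z) - (dS I 0 G0 z + dS I 1 G1 z) := by
    intro z
    by_cases hz : z ∈ U
    · have sa := ha z hz
      have sk := hκ.at z
      have sW := fun i j => hWs i j z hz
      have e1 : ∀ (i : Fin 2) (c : Fin 2) (j k : Fin 2), dS (-I) c (fun y => a y * dS I i κ y * W y j k) z =
          dS (-I) c a z * dS I i κ z * W z j k + a z * dS (-I) c (dS I i κ) z * W z j k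
            + a z * dS I i κ z * dS (-I) c (fun y => W y j k) z := fun i c j k =>
        dS_mul3 sa (sk.dS I i) (sW j k)
      have e2 : ∀ (i : Fin 2) (c : Fin 2) (j k : Fin 2), dS I c (fun y => κ y * dS (-I) i a y * W y j k) z =
          dS I c κ z * dS (-I) i a z * W z j k + κ z * dS I c (dS (-I) i a) z * W z j k
            + κ z * dS (-I) i a z * dS I c (fun y => W y j k) z := fun i c j k =>
        dS_mul3 sk (sa.dS (-I) i) (sW j k)
      have d1 : ∀ i j k, DifferentiableAt ℝ (fun y => a y * dS I i κ y * W y j k) z := fun i j k =>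
        ((c1 i j k).at z).diff
      have d2 : ∀ i j k, DifferentiableAt ℝ (fun y => κ y * dS (-I) i a y * W y j k) z := fun i j k =>
        ((c2 i j k).at z).diff
      rw [hF0, hF1, hG0, hG1, dS_sub (d1 _ _ _) (d1 _ _ _), dS_sub (d1 _ _ _) (d1 _ _ _),
        dS_sub (d2 _ _ _) (d2 _ _ _), dS_sub (d2 _ _ _) (d2 _ _ _)]
      simp only [e1, e2]
      have w1 := (hW z hz).l
      have w2 := (hW z hz).r
      have m : ∀ b c : Fin 2, dS I b (dS (-I) c a) z = dS (-I) c (dS I b a) z := fun b c => dS_comm sa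
      simp only [m, pd, hs_apply]
      rw [w1 1 1 0, w1 1 0 0, w2 1 1 0, w2 0 1 0]
      ring
    · have z1 : ∀ i j, dS (-I) i (dS I j κ) z = 0 := fun i j => ((hκ.dS I j).dS (-I) i).zero_off hz
      rw [(cF0.dS _ _).zero_off hz, (cF1.dS _ _).zero_off hz, (cG0.dS _ _).zero_off hz,
        (cG1.dS _ _).zero_off hz, hκ.zero_off hz]
      simp only [pd, hs_apply, z1]
      ring
  have i1 : Integrable fun z => a z * pd (hs κ z) (W z) := by
    have : CS U (fun z => a z * pd (hs κ z) (W z)) := by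
      have h := fun i j k l => (CS.mul' ha ((hκ.dS I j).dS (-I) i)).mul (hWs k l)
      have e : (fun z => a z * pd (hs κ z) (W z)) = fun z =>
          ((a z * dS (-I) 0 (dS I 0 κ) z * W z 1 1 + a z * dS (-I) 1 (dS I 1 κ) z * W z 0 0) -
            a z * dS (-I) 0 (dS I 1 κ) z * W z 1 0) - a z * dS (-I) 1 (dS I 0 κ) z * W z 0 1 := by
        funext z; simp only [pd, hs_apply]; ring
      rw [e]
      exact (((h 0 0 1 1).add (h 1 1 0 0)).sub' (h 0 1 1 0)).sub' (h 1 0 0 1)
    exact this.integrable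
  have i2 : Integrable fun z => κ z * pd (hs a z) (W z) := by
    have hp : ∀ z ∈ U, Sm z (fun y => pd (hs a y) (W y)) := by
      intro z hz
      have h1 : ∀ i j, Sm z (fun y => hs a y i j) := fun i j => ((ha z hz).dS I j).dS (-I) i
      have h2 := fun i j => hWs i j z hz
      exact ((((h1 0 0).mul (h2 1 1)).add ((h1 1 1).mul (h2 0 0))).sub ((h1 0 1).mul (h2 1 0))).sub
        ((h1 1 0).mul (h2 0 1))
    exact (hκ.mul hp).integrable
  have h3 : ∫ z, (a z * pd (hs κ z) (W z) - κ z * pd (hs a z) (W z)) = 0 := by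
    rw [integral_congr_ae (Eventually.of_forall key), integral_sub, integral_add, integral_add,
      int_dS cF0, int_dS cF1, int_dS cG0, int_dS cG1]
    · simp
    · exact (cG0.dS _ _).integrable
    · exact (cG1.dS _ _).integrable
    · exact (cF0.dS _ _).integrable
    · exact (cF1.dS _ _).integrable
    · exact (cF0.dS _ _).integrable.add (cF1.dS _ _).integrable
    · exact (cG0.dS _ _).integrable.add (cG1.dS _ _).integrable
  rw [integral_sub i1 i2] at h3
  exact sub_eq_zero.1 h3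

/-- two integrations by parts -/
theorem parts2 {U : Set (Cn n)} {κ f : Cn n → ℂ} (hκ : CS U κ) (hf : ∀ z ∈ U, Sm z f)
    (s t : ℂ) (c d : Fin n) :
    ∫ z, κ z * dS s c (dS t d f) z = ∫ z, dS s c (dS t d κ) z * f z := by
  have hf1 : ∀ z ∈ U, Sm z (dS t d f) := fun z hz => (hf z hz).dS t d
  have c1 := hκ.mul hf1
  have c2 := (hκ.dS s c).mul hf
  have p1 : ∀ z, dS s c (fun y => κ y * dS t d f y) z =
      dS s c κ z * dS t d f z + κ z * dS s c (dS t d f) z := by
    intro z
    by_cases hz : z ∈ U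
    · exact dS_mul (hκ.at z).diff (hf1 z hz).diff
    · rw [(c1.dS s c).zero_off hz, (hκ.dS s c).zero_off hz, hκ.zero_off hz]
      ring
  have p2 : ∀ z, dS t d (fun y => dS s c κ y * f y) z =
      dS t d (dS s c κ) z * f z + dS s c κ z * dS t d f z := by
    intro z
    by_cases hz : z ∈ U
    · exact dS_mul ((hκ.dS s c).at z).diff (hf z hz).diff
    · rw [(c2.dS t d).zero_off hz, ((hκ.dS s c).dS t d).zero_off hz, (hκ.dS s c).zero_off hz]
      ring
  have j1 : Integrable fun z => dS s c κ z * dS t d f z := ((hκ.dS s c).mul hf1).integrable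
  have j2 : Integrable fun z => κ z * dS s c (dS t d f) z :=
    (hκ.mul (fun z hz => (hf1 z hz).dS s c)).integrable
  have j3 : Integrable fun z => dS t d (dS s c κ) z * f z :=
    (((hκ.dS s c).dS t d).mul hf).integrable
  have e1 := int_dS c1 s c
  rw [integral_congr_ae (Eventually.of_forall p1), integral_add j1 j2] at e1
  have e2 := int_dS c2 t d
  rw [integral_congr_ae (Eventually.of_forall p2), integral_add j3 j1] at e2
  have e3 : ∫ z, dS s c (dS t d κ) z * f z = ∫ z, dS t d (dS s c κ) z * f z := by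
    congr 1; funext z; rw [dS_comm (hκ.at z)]
  rw [e3]
  linear_combination e1 - e2

theorem int4 {f1 f2 f3 f4 : Cn n → ℂ} (h1 : Integrable f1) (h2 : Integrable f2)
    (h3 : Integrable f3) (h4 : Integrable f4) :
    ∫ z, (((f1 z + f2 z) - f3 z) - f4 z) =
      ((∫ z, f1 z) + (∫ z, f2 z) - ∫ z, f3 z) - ∫ z, f4 z := by
  have h12 : Integrable (fun z => f1 z + f2 z) := h1.add h2
  have h123 : Integrable (fun z => (f1 z + f2 z) - f3 z) := h12.sub h3
  rw [integral_sub h123 h4, integral_sub h12 h3, integral_add h1 h2]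

/-- Stokes' formula for a `(1,1)`-form -/
theorem parts_ddm {U : Set (Cn 2)} {κ : Cn 2 → ℂ} {b : Cn 2 → Matrix (Fin 2) (Fin 2) ℂ}
    (hκ : CS U κ) (hb : ∀ z ∈ U, SmM z b) :
    ∫ z, κ z * ddm b z = ∫ z, pd (hs κ z) (b z) := by
  have hbs : ∀ i j, ∀ z ∈ U, Sm z (fun y => b y i j) := fun i j z hz => hb z hz i j
  have j1 : ∀ (s t : ℂ) (c d i j : Fin 2),
      Integrable fun z => κ z * dS s c (dS t d (fun y => b y i j)) z :=
    fun s t c d i j => (hκ.mul (fun z hz => ((hbs i j z hz).dS t d).dS s c)).integrable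
  have j2 : ∀ (s t : ℂ) (c d i j : Fin 2), Integrable fun z => dS s c (dS t d κ) z * b z i j :=
    fun s t c d i j => (((hκ.dS t d).dS s c).mul (hbs i j)).integrable
  have l1 : ∫ z, κ z * ddm b z = ∫ z,
      (((κ z * dS (-I) 0 (dS I 0 (fun y => b y 1 1)) z + κ z * dS (-I) 1 (dS I 1 (fun y => b y 0 0)) z)
      - κ z * dS (-I) 0 (dS I 1 (fun y => b y 1 0)) z)
      - κ z * dS (-I) 1 (dS I 0 (fun y => b y 0 1)) z) := by
    congr 1; funext z; unfold ddm; ring
  have l2 : ∫ z, pd (hs κ z) (b z) = ∫ z,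
      (((dS (-I) 0 (dS I 0 κ) z * b z 1 1 + dS (-I) 1 (dS I 1 κ) z * b z 0 0)
      - dS (-I) 0 (dS I 1 κ) z * b z 1 0) - dS (-I) 1 (dS I 0 κ) z * b z 0 1) := by
    congr 1
  rw [l1, l2, int4 (j1 _ _ _ _ _ _) (j1 _ _ _ _ _ _) (j1 _ _ _ _ _ _) (j1 _ _ _ _ _ _),
    int4 (j2 _ _ _ _ _ _) (j2 _ _ _ _ _ _) (j2 _ _ _ _ _ _) (j2 _ _ _ _ _ _),
    parts2 hκ (hbs 1 1), parts2 hκ (hbs 0 0), parts2 hκ (hbs 1 0), parts2 hκ (hbs 0 1)]

end

end Crest.Agent.R257.Idx1_761
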