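import Crest.Agent.R257.Idx1_761
import Mathlib.MeasureTheory.Measure.Lebesgue.VolumeOfBalls
import Mathlib.MeasureTheory.Integral.IntegralEqImproper

/-!
# R257 (S0395), leaf GB-IDX, part 2 (helper761): the flat model

* `flat_const` : `∫_{C^2} 2 / (|w|^2 + 1)^3 = π^2`
* `flat_G`     : `∫_{C^2} 2 det G / (w^* G w + 1)^3 = π^2` for `G` positive definite
* `int_norm3`  : `|z|^{-3}` is integrable on balls of `C^2`
-/

set_option autoImplicit false
set_option linter.unusedSectionVars false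

open Set Filter Topology Complex MeasureTheory
open scoped ContDiff Matrix ComplexConjugate ComplexOrder

namespace Crest.Agent.R257.Idx2_761

open Crest.Agent.R275.Geo

noncomputable section

theorem finrank4 : Module.finrank ℝ (Cn 2) = 4 := by
  have h := Module.finrank_mul_finrank ℝ ℂ (Cn 2)
  rw [Complex.finrank_real_complex, finrank_euclideanSpace_fin] at h
  omega

theorem vol_ball1 : (volume : Measure (Cn 2)).real (Metric.ball 0 1) = Real.pi ^ 2 / 2 := by
  rw [Measure.real, InnerProductSpace.volume_ball, finrank4]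
  have h1 : Real.Gamma ((4 : ℕ) / 2 + 1) = 2 := by
    have : ((4 : ℕ) : ℝ) / 2 + 1 = ((2 : ℕ) : ℝ) + 1 := by norm_num
    rw [this, Real.Gamma_nat_eq_factorial]
    norm_num
  rw [h1]
  have h2 : √Real.pi ^ 4 = Real.pi ^ 2 := by
    rw [show (4 : ℕ) = 2 * 2 from rfl, pow_mul, Real.sq_sqrt Real.pi_pos.le]
  rw [h2, ENNReal.ofReal_one, one_pow, one_mul, ENNReal.toReal_ofReal (by positivity)]

theorem radial_deriv (y : ℝ) :
    HasDerivAt (fun y : ℝ => y ^ 4 / (2 * (y ^ 2 + 1) ^ 2)) (y ^ 3 * (2 / (y ^ 2 + 1) ^ 3)) y := by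
  have h0 : y ^ 2 + 1 ≠ 0 := by positivity
  have h1 : HasDerivAt (fun y : ℝ => y ^ 4) (4 * y ^ 3) y := by simpa using hasDerivAt_pow 4 y
  have h2 : HasDerivAt (fun y : ℝ => y ^ 2 + 1) (2 * y) y := by
    simpa using (hasDerivAt_pow 2 y).add_const 1
  have h3 : HasDerivAt (fun y : ℝ => 2 * (y ^ 2 + 1) ^ 2) (2 * (2 * (y ^ 2 + 1) * (2 * y))) y := by
    simpa using (h2.pow 2).const_mul 2
  refine (h1.div h3 (by positivity)).congr_deriv ?_
  field_simp
  ring

theorem radial_lim : Tendsto (fun y : ℝ => y ^ 4 / (2 * (y ^ 2 + 1) ^ 2)) atTop (𝓝 (1 / 2)) := by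
  have h1 : Tendsto (fun y : ℝ => (y ^ 2)⁻¹) atTop (𝓝 0) :=
    (tendsto_pow_atTop (by norm_num : (2 : ℕ) ≠ 0)).inv_tendsto_atTop
  have h2 : Tendsto (fun y : ℝ => 1 / (2 * (1 + (y ^ 2)⁻¹) ^ 2)) atTop (𝓝 (1 / (2 * (1 + 0) ^ 2))) := by
    refine Tendsto.div tendsto_const_nhds ?_ (by norm_num)
    exact ((tendsto_const_nhds.add h1).pow 2).const_mul 2
  have h3 : (1 : ℝ) / (2 * (1 + 0) ^ 2) = 1 / 2 := by norm_num
  rw [h3] at h2
  refine h2.congr' ?_
  filter_upwards [eventually_gt_atTop (0 : ℝ)] with y hy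
  field_simp

theorem radial_int : ∫ y in Ioi (0 : ℝ), y ^ 3 * (2 / (y ^ 2 + 1) ^ 3) = 1 / 2 := by
  have h := integral_Ioi_of_hasDerivAt_of_nonneg' (a := 0) (fun x _ => radial_deriv x)
    (fun x hx => by have : (0:ℝ) < x := hx; positivity) radial_lim
  rw [h]
  norm_num

theorem radial_intble : IntegrableOn (fun y : ℝ => y ^ 3 * (2 / (y ^ 2 + 1) ^ 3)) (Ioi 0) :=
  integrableOn_Ioi_deriv_of_nonneg' (a := 0) (fun x _ => radial_deriv x)
    (fun x hx => by have : (0:ℝ) < x := hx; positivity) radial_lim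

theorem flat_const : ∫ w : Cn 2, 2 / (‖w‖ ^ 2 + 1) ^ 3 = Real.pi ^ 2 := by
  have h := integral_fun_norm_addHaar (volume : Measure (Cn 2)) (fun y : ℝ => 2 / (y ^ 2 + 1) ^ 3)
  rw [h, finrank4, vol_ball1]
  have : ∫ y in Ioi (0 : ℝ), y ^ (4 - 1) • (2 / (y ^ 2 + 1) ^ 3) = 1 / 2 := by
    simpa only [smul_eq_mul] using radial_int
  rw [this]
  simp only [nsmul_eq_mul, smul_eq_mul]
  push_cast
  ring

theorem flat_intble : Integrable (fun w : Cn 2 => 2 / (‖w‖ ^ 2 + 1) ^ 3) := by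
  refine (integrable_fun_norm_addHaar (volume : Measure (Cn 2))
    (f := fun y : ℝ => 2 / (y ^ 2 + 1) ^ 3)).2 ?_
  rw [finrank4]
  simpa only [smul_eq_mul] using radial_intble

/-- the linear map of a matrix -/
def LB (B : Matrix (Fin 2) (Fin 2) ℂ) : Cn 2 →ₗ[ℂ] Cn 2 := Matrix.toLpLin 2 2 B

theorem LB_apply (B : Matrix (Fin 2) (Fin 2) ℂ) (w : Cn 2) (i : Fin 2) :
    LB B w i = ∑ a, B i a * w a := rfl

/-- real determinant of a complex linear map -/
theorem det_real (B : Matrix (Fin 2) (Fin 2) ℂ) :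
    LinearMap.det ((LB B).restrictScalars ℝ : Cn 2 →ₗ[ℝ] Cn 2) = normSq B.det := by
  rw [LinearMap.det_restrictScalars, LB, Matrix.toLpLin_eq_toLin, LinearMap.det_toLin,
    Algebra.norm_complex_eq]
  rfl

/-- the Hermitian form of `G` -/
def qf (G : Matrix (Fin 2) (Fin 2) ℂ) (w : Cn 2) : ℝ := (∑ a, ∑ b, G a b * w a * conj (w b)).re

theorem qf_eq (C : Matrix (Fin 2) (Fin 2) ℂ) (w : Cn 2) :
    ∑ a, ∑ b, (Cᴴ * C) a b * w a * conj (w b) = ((‖LB (C.map conj) w‖ ^ 2 : ℝ) : ℂ) := by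
  rw [EuclideanSpace.norm_sq_eq]
  simp only [Fin.sum_univ_two, LB_apply, Matrix.mul_apply, Matrix.conjTranspose_apply,
    Matrix.map_apply, ← Complex.mul_conj', ofReal_add, ofReal_pow, map_add, map_mul,
    Complex.conj_conj, RCLike.star_def]
  ring

open scoped MatrixOrder in
theorem exists_fac {G : Matrix (Fin 2) (Fin 2) ℂ} (h : G.PosDef) :
    ∃ C : Matrix (Fin 2) (Fin 2) ℂ, G = Cᴴ * C ∧ C.det ≠ 0 := by
  obtain ⟨B, hB⟩ := CStarAlgebra.nonneg_iff_eq_star_mul_self.mp h.posSemidef.nonneg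
  refine ⟨B, hB, fun h0 => h.det_pos.ne' ?_⟩
  rw [hB, Matrix.det_mul, h0, mul_zero]

theorem flat_G {G : Matrix (Fin 2) (Fin 2) ℂ} (hG : G.PosDef) :
    Integrable (fun w : Cn 2 => 2 * G.det.re / (qf G w + 1) ^ 3) ∧
      ∫ w : Cn 2, 2 * G.det.re / (qf G w + 1) ^ 3 = Real.pi ^ 2 := by
  obtain ⟨C, hC, hC0⟩ := exists_fac hG
  set L := ((LB (C.map conj)).restrictScalars ℝ : Cn 2 →ₗ[ℝ] Cn 2) with hL
  have hd : LinearMap.det L = normSq C.det := by
    rw [hL, det_real]
    have : (C.map conj).det = conj C.det := by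
      simp only [Matrix.det_fin_two, Matrix.map_apply, map_sub, map_mul]
    rw [this, Complex.normSq_conj]
  have hpos : 0 < normSq C.det := Complex.normSq_pos.2 hC0
  have hd0 : LinearMap.det L ≠ 0 := by rw [hd]; exact hpos.ne'
  have hdet : G.det.re = normSq C.det := by
    rw [hC, Matrix.det_mul, Matrix.det_conjTranspose, RCLike.star_def, mul_comm, Complex.mul_conj,
      ofReal_re]
  have hq : ∀ w, qf G w = ‖L w‖ ^ 2 := by
    intro w
    rw [qf, hC, qf_eq, ofReal_re]
    rfl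
  have hmap := Measure.map_linearMap_addHaar_eq_smul_addHaar (volume : Measure (Cn 2)) hd0
  rw [hd, abs_of_pos (inv_pos.2 hpos)] at hmap
  have hLc : Continuous L := L.continuous_of_finiteDimensional
  have hfun : (fun w : Cn 2 => 2 * G.det.re / (qf G w + 1) ^ 3) =
      fun w => normSq C.det * (fun v : Cn 2 => 2 / (‖v‖ ^ 2 + 1) ^ 3) (L w) := by
    funext w
    rw [hq, hdet]
    ring
  have hm : AEStronglyMeasurable (fun v : Cn 2 => 2 / (‖v‖ ^ 2 + 1) ^ 3)
      (Measure.map L (volume : Measure (Cn 2))) := by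
    have : Continuous (fun v : Cn 2 => 2 / (‖v‖ ^ 2 + 1) ^ 3) :=
      continuous_const.div (by fun_prop) fun v => by positivity
    exact this.aestronglyMeasurable
  rw [hfun]
  constructor
  · refine Integrable.const_mul ?_ _
    refine (integrable_map_measure hm hLc.aemeasurable).1 ?_
    rw [hmap]
    exact flat_intble.smul_measure ENNReal.ofReal_ne_top
  · rw [integral_const_mul, ← integral_map hLc.aemeasurable hm, hmap, integral_smul_measure,
      flat_const, ENNReal.toReal_ofReal (by positivity), smul_eq_mul]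
    field_simp

/-- lower bound of the form -/
theorem qf_ge {G : Matrix (Fin 2) (Fin 2) ℂ} (hG : G.PosDef) :
    ∃ c > 0, ∀ w : Cn 2, c * ‖w‖ ^ 2 ≤ qf G w := by
  obtain ⟨C, hC, hC0⟩ := exists_fac hG
  have hinj : Function.Injective (LB (C.map conj)) := by
    have hd : (C.map conj).det ≠ 0 := by
      have : (C.map conj).det = conj C.det := by
        simp only [Matrix.det_fin_two, Matrix.map_apply, map_sub, map_mul]
      rw [this]
      simpa using hC0
    have : LinearMap.det (LB (C.map conj)) ≠ 0 := by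
      rw [LB, Matrix.toLpLin_eq_toLin, LinearMap.det_toLin]
      exact hd
    exact (LinearEquiv.ofIsUnitDet (f := LB (C.map conj)) (v := (PiLp.basisFun 2 ℂ (Fin 2)))
      (v' := (PiLp.basisFun 2 ℂ (Fin 2))) (by rw [LinearMap.det_toMatrix]; exact this.isUnit)).injective
  obtain ⟨K, hK, hanti⟩ := (LB (C.map conj)).exists_antilipschitzWith (LinearMap.ker_eq_bot.2 hinj)
  refine ⟨((K : ℝ) ^ 2)⁻¹, by positivity, fun w => ?_⟩
  have h1 : ‖w‖ ≤ K * ‖LB (C.map conj) w‖ := by
    have := hanti.le_mul_dist w 0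
    simpa using this
  have h2 : qf G w = ‖LB (C.map conj) w‖ ^ 2 := by
    rw [qf, hC, qf_eq, ofReal_re]
  rw [h2, inv_mul_le_iff₀ (by positivity), ← mul_pow]
  exact pow_le_pow_left₀ (norm_nonneg _) h1 2

theorem int_norm3 (R : ℝ) : IntegrableOn (fun z : Cn 2 => (‖z‖ ^ 3)⁻¹) (Metric.ball 0 R) := by
  have h := (integrable_fun_norm_addHaar (volume : Measure (Cn 2))
    (f := fun y : ℝ => if y < R then (y ^ 3)⁻¹ else 0)).2 (by
      rw [finrank4]
      have h1 : IntegrableOn (fun y : ℝ => if y < R then (1:ℝ) else 0) (Ioi 0) := by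
        have : (fun y : ℝ => if y < R then (1:ℝ) else 0) = (Iio R).indicator (fun _ => (1:ℝ)) := by
          funext y; simp [indicator]
        rw [this, IntegrableOn, integrable_indicator_iff measurableSet_Iio, IntegrableOn,
          Measure.restrict_restrict measurableSet_Iio]
        refine integrableOn_const (by
          have : Iio R ∩ Ioi 0 = Ioo 0 R := by ext; simp [and_comm]
          rw [this, Real.volume_Ioo]; exact ENNReal.ofReal_ne_top)
      refine h1.congr_fun (fun y hy => ?_) measurableSet_Ioi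
      have hy0 : (0:ℝ) < y := hy
      show (if y < R then (1:ℝ) else 0) = y ^ (4 - 1) • (if y < R then (y ^ 3)⁻¹ else 0)
      split_ifs
      · show (1:ℝ) = y ^ 3 * (y ^ 3)⁻¹
        rw [mul_inv_cancel₀ (by positivity)]
      · simp)
  refine (h.integrableOn (s := Metric.ball 0 R)).congr_fun (fun z hz => ?_) measurableSet_ball
  rw [mem_ball_zero_iff] at hz
  show (if ‖z‖ < R then (‖z‖ ^ 3)⁻¹ else 0) = _
  rw [if_pos hz]

end

end Crest.Agent.R257.Idx2_761
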