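import Crest.Agent.R257.Idx2_761

/-!
# R257 (S0395), leaf GB-IDX, part 3 (helper761): Taylor estimates at a nondegenerate zero

`NZ q p` : `q` is smooth at `p`, vanishes there to second order, its `(2,0)`-part is zero and its
complex Hessian `G` is positive definite. Then near `p`
`q = w^* G w + O(|w|^3)`, `∂_a q = O(|w|)`, `N = q det Q - pd Q (∂q ∂̄q) = O(|w|^3)`, `w = z - p`.
-/

set_option autoImplicit false
set_option linter.unusedSectionVars false

open Set Filter Topology Complex MeasureTheory Asymptotics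
open scoped ContDiff Matrix ComplexConjugate ComplexOrder

namespace Crest.Agent.R257.Idx3_761

open Crest.Agent.R275.Geo Crest.Agent.R275.EDR890 Crest.Agent.R273.Calc_243
open Crest.Agent.R273.Hess_333 Crest.Agent.R273.HessB_333 Crest.Agent.R273.BochD_101
open Crest.Agent.R257.C2F1_625 Crest.Agent.R257.Idx1_761 Crest.Agent.R257.Idx2_761

noncomputable section

variable {n : ℕ}

/-- `f = O(|z - p|^k)` near `p` -/
def Oo (p : Cn n) (k : ℕ) (f : Cn n → ℂ) : Prop := f =O[𝓝 p] fun z => ‖z - p‖ ^ k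

namespace Oo

variable {p : Cn n} {j k : ℕ} {f g : Cn n → ℂ}

theorem add (hf : Oo p k f) (hg : Oo p k g) : Oo p k (fun z => f z + g z) := IsBigO.add hf hg

theorem sub (hf : Oo p k f) (hg : Oo p k g) : Oo p k (fun z => f z - g z) := IsBigO.sub hf hg

theorem neg (hf : Oo p k f) : Oo p k (fun z => - f z) := IsBigO.neg_left hf

theorem mul (hf : Oo p j f) (hg : Oo p k g) : Oo p (j + k) (fun z => f z * g z) := by
  have h := IsBigO.mul hf hg
  refine h.congr_right fun z => ?_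
  rw [pow_add]

theorem mono (h : j ≤ k) (hf : Oo p k f) : Oo p j f := by
  refine IsBigO.trans hf (IsBigO.of_bound 1 ?_)
  have h1 : ∀ᶠ z in 𝓝 p, ‖z - p‖ < 1 := by
    filter_upwards [Metric.ball_mem_nhds p one_pos] with z hz
    rwa [← dist_eq_norm]
  filter_upwards [h1] with z hz
  rw [one_mul, norm_pow, norm_pow, norm_norm]
  exact pow_le_pow_of_le_one (norm_nonneg _) hz.le h

theorem const (c : ℂ) : Oo p 0 (fun _ => c) := by
  unfold Oo
  simp only [pow_zero]
  exact isBigO_const_const c one_ne_zero _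

theorem of_cont (h : ContinuousAt f p) : Oo p 0 f := by
  unfold Oo
  simp only [pow_zero]
  exact h.isBigO_one ℝ

theorem of_diff (h : DifferentiableAt ℝ f p) (h0 : f p = 0) : Oo p 1 f := by
  have := h.isBigO_sub
  simp only [h0, sub_zero] at this
  unfold Oo
  simp only [pow_one]
  exact this.norm_right

theorem congr (hf : Oo p k f) (h : f =ᶠ[𝓝 p] g) : Oo p k g := IsBigO.congr' hf h EventuallyEq.rfl

theorem cjg (hf : Oo p k f) : Oo p k (fun z => conj (f z)) := by
  refine IsBigO.trans (IsBigO.of_bound 1 (Eventually.of_forall fun z => ?_)) hf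
  rw [RCLike.norm_conj, one_mul]

theorem coord (a : Fin n) : Oo p 1 (fun z => (z - p) a) := by
  refine IsBigO.of_bound 1 (Eventually.of_forall fun z => ?_)
  rw [one_mul, pow_one, norm_norm]
  exact PiLp.norm_apply_le _ _

end Oo

/-- a function is as small as its derivative allows -/
theorem oo_integ {p : Cn n} {k : ℕ} {f : Cn n → ℂ} (hf : Sm p f) (h0 : f p = 0)
    (h1 : ∀ a, Oo p k (dS (-I) a f)) (h2 : ∀ a, Oo p k (dS I a f)) : Oo p (k + 1) f := by
  have hL : (fun z => fderiv ℝ f z) =O[𝓝 p] fun z => ‖z - p‖ ^ k := by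
    have e : ∀ z, ‖fderiv ℝ f z‖ ≤ ∑ s : WI n, ‖wdL s (fderiv ℝ f z)‖ := by
      intro z
      refine ContinuousLinearMap.opNorm_le_bound _ (Finset.sum_nonneg fun _ _ => norm_nonneg _) ?_
      intro v
      rw [apply_eq_sum (fderiv ℝ f z) v, Finset.sum_mul]
      refine (norm_sum_le _ _).trans (Finset.sum_le_sum fun s _ => ?_)
      rw [norm_smul, mul_comm]
      refine mul_le_mul_of_nonneg_left ?_ (norm_nonneg _)
      rw [ze_apply]
      have h3 : ‖cj s.1 (v s.2)‖ = ‖v s.2‖ := by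
        cases s.1 <;> simp
      rw [h3]
      exact PiLp.norm_apply_le _ _
    refine IsBigO.trans (IsBigO.of_bound 1 (Eventually.of_forall fun z => ?_))
      (g := fun z => ∑ s : WI n, ‖wdL s (fderiv ℝ f z)‖) ?_
    · rw [one_mul, Real.norm_of_nonneg (Finset.sum_nonneg fun _ _ => norm_nonneg _)]
      exact e z
    · refine IsBigO.fun_sum fun s _ => ?_
      obtain ⟨b, a⟩ := s
      cases b
      · exact IsBigO.norm_left (h1 a)
      · exact IsBigO.norm_left (h2 a)
  obtain ⟨C, hC⟩ := hL.bound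
  have hd : ∀ᶠ z in 𝓝 p, DifferentiableAt ℝ f z := ev_diff hf
  obtain ⟨r, hr, hb⟩ := Metric.eventually_nhds_iff_ball.1 (hC.and hd)
  refine IsBigO.of_bound (|C|) ?_
  filter_upwards [Metric.ball_mem_nhds p hr] with z hz
  rw [norm_pow, norm_norm, pow_succ, ← mul_assoc]
  have hconv : Convex ℝ (Metric.closedBall p ‖z - p‖) := convex_closedBall _ _
  have hsub : Metric.closedBall p ‖z - p‖ ⊆ Metric.ball p r := by
    rw [← dist_eq_norm]
    exact Metric.closedBall_subset_ball hz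
  have key := hconv.norm_image_sub_le_of_norm_fderiv_le (𝕜 := ℝ) (f := f) (C := |C| * ‖z - p‖ ^ k)
    (x := p) (y := z) (fun y hy => (hb y (hsub hy)).2) (fun y hy => ?_)
    (Metric.mem_closedBall_self (norm_nonneg _)) (by rw [Metric.mem_closedBall, dist_eq_norm])
  · rwa [h0, sub_zero] at key
  · refine ((hb y (hsub hy)).1).trans ?_
    rw [norm_pow, norm_norm]
    have h3 : ‖y - p‖ ≤ ‖z - p‖ := by
      rw [← dist_eq_norm]; exact hy
    exact mul_le_mul (le_abs_self C) (pow_le_pow_left₀ (norm_nonneg _) h3 k) (by positivity)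
      (abs_nonneg C)

theorem dS_coord {p : Cn n} (s : ℂ) (c b : Fin n) (z : Cn n) :
    dS s c (fun y => (y - p) b) z = if b = c then (1 / 2 : ℂ) * (1 + s * I) else 0 := by
  have h : HasFDerivAt (𝕜 := ℝ) (fun y : Cn n => (y - p) b)
      ((EuclideanSpace.proj b : Cn n →L[ℂ] ℂ).restrictScalars ℝ) z := by
    have h1 := ((EuclideanSpace.proj b : Cn n →L[ℂ] ℂ).restrictScalars ℝ).hasFDerivAt (x := z)
    have h2 := h1.sub_const (p b)
    exact h2
  rw [dS, h.fderiv]
  by_cases h1 : b = c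
  · subst h1
    simp
  · simp [h1]

theorem dS_coord_f {p : Cn n} (c b : Fin n) (z : Cn n) :
    dS (-I) c (fun y => (y - p) b) z = if b = c then 1 else 0 := by
  rw [dS_coord]
  split_ifs
  · rw [neg_mul, I_mul_I]; norm_num
  · rfl

theorem dS_coord_t {p : Cn n} (c b : Fin n) (z : Cn n) :
    dS I c (fun y => (y - p) b) z = 0 := by
  rw [dS_coord]
  split_ifs
  · rw [I_mul_I]; norm_num
  · rfl

theorem sm_coord {p : Cn n} (b : Fin n) (z : Cn n) : Sm z (fun y => (y - p) b) := by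
  have h : ContDiff ℝ ∞ (fun y : Cn n => (y - p) b) :=
    (((EuclideanSpace.proj b : Cn n →L[ℂ] ℂ).restrictScalars ℝ).contDiff).sub contDiff_const
  exact h.contDiffAt

theorem sm_ccoord {p : Cn n} (b : Fin n) (z : Cn n) : Sm z (fun y => conj ((y - p) b)) :=
  Complex.conjCLE.contDiff.contDiffAt.comp z (sm_coord b z)

theorem dS_ccoord_f {p : Cn n} (c b : Fin n) (z : Cn n) :
    dS (-I) c (fun y => conj ((y - p) b)) z = 0 := by
  rw [dS_conj (sm_coord b z).diff, conjnI, dS_coord_t, map_zero]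

theorem dS_ccoord_t {p : Cn n} (c b : Fin n) (z : Cn n) :
    dS I c (fun y => conj ((y - p) b)) z = if b = c then 1 else 0 := by
  rw [dS_conj (sm_coord b z).diff, Complex.conj_I, dS_coord_f]
  split_ifs <;> simp

/-- nondegenerate zero of a nonnegative function `|V|^2_H` -/
structure NZ (q : Cn 2 → ℝ) (p : Cn 2) : Prop where
  sm : ∀ᶠ z in 𝓝 p, ContDiffAt ℝ ∞ q z
  v0 : q p = 0
  v1 : ∀ a, dS (-I) a (cu q) p = 0
  v2 : ∀ a b, dS (-I) a (dS (-I) b (cu q)) p = 0
  pos : (hess q p).PosDef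

namespace NZ

variable {q : Cn 2 → ℝ} {p : Cn 2}

/-- `∂_a` of the quadratic part -/
def la (G : Matrix (Fin 2) (Fin 2) ℂ) (p : Cn 2) (a : Fin 2) (z : Cn 2) : ℂ :=
  G a 0 * conj ((z - p) 0) + G a 1 * conj ((z - p) 1)

/-- `∂̄_b` of the quadratic part -/
def lb (G : Matrix (Fin 2) (Fin 2) ℂ) (p : Cn 2) (b : Fin 2) (z : Cn 2) : ℂ :=
  G 0 b * (z - p) 0 + G 1 b * (z - p) 1

/-- the quadratic part -/
def qq (G : Matrix (Fin 2) (Fin 2) ℂ) (p : Cn 2) (z : Cn 2) : ℂ :=
  (z - p) 0 * la G p 0 z + (z - p) 1 * la G p 1 z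

theorem hb {q : Cn n → ℝ} {z : Cn n} (h : ContDiffAt ℝ ∞ q z) (b : Fin n) :
    dS I b (cu q) z = conj (dS (-I) b (cu q) z) :=
  (conj_wd_real (false, b) (h.differentiableAt (by simp))).symm

theorem smq (h : NZ q p) : Sm p (cu q) := contDiffAt_cu h.sm.self_of_nhds

theorem evq (h : NZ q p) : ∀ᶠ z in 𝓝 p, Sm z (cu q) := h.sm.mono fun _ hz => contDiffAt_cu hz

theorem evb (h : NZ q p) (b : Fin 2) : dS I b (cu q) =ᶠ[𝓝 p] fun z => conj (dS (-I) b (cu q) z) := by
  filter_upwards [h.sm] with z hz using hb hz b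

theorem oH (h : NZ q p) (a b : Fin 2) : Oo p 1 (fun z => hess q z a b - hess q p a b) := by
  refine Oo.of_diff ?_ (sub_self _)
  have h1 : Sm p (fun z => hess q z a b) := contDiffAt_hess h.sm.self_of_nhds a b
  exact h1.diff.sub_const _

theorem sla (G : Matrix (Fin 2) (Fin 2) ℂ) (a : Fin 2) (z : Cn 2) : Sm z (la G p a) :=
  (contDiffAt_const.mul (sm_ccoord 0 z)).add (contDiffAt_const.mul (sm_ccoord 1 z))

theorem dla (G : Matrix (Fin 2) (Fin 2) ℂ) (s : ℂ) (a c : Fin 2) (z : Cn 2) :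
    dS s c (la G p a) z = G a 0 * dS s c (fun y => conj ((y - p) 0)) z +
      G a 1 * dS s c (fun y => conj ((y - p) 1)) z := by
  have e1 := (sm_ccoord (p := p) 0 z).diff
  have e2 := (sm_ccoord (p := p) 1 z).diff
  rw [← dS_const_mul _ e1, ← dS_const_mul _ e2]
  exact dS_add (e1.const_mul _) (e2.const_mul _)

theorem dla_f (G : Matrix (Fin 2) (Fin 2) ℂ) (a c : Fin 2) (z : Cn 2) :
    dS (-I) c (la G p a) z = 0 := by
  rw [dla, dS_ccoord_f, dS_ccoord_f]
  ring

theorem dla_t (G : Matrix (Fin 2) (Fin 2) ℂ) (a c : Fin 2) (z : Cn 2) :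
    dS I c (la G p a) z = G a c := by
  rw [dla, dS_ccoord_t, dS_ccoord_t]
  fin_cases c <;> simp

theorem oA (h : NZ q p) (a : Fin 2) :
    Oo p 2 (fun z => dS (-I) a (cu q) z - la (hess q p) p a z) := by
  have sq := h.smq
  refine oo_integ ((sq.dS (-I) a).sub (sla _ a p)) ?_ ?_ ?_
  · simp [h.v1 a, la]
  · intro c
    have e : Oo p 1 (dS (-I) c (dS (-I) a (cu q))) :=
      Oo.of_diff (((sq.dS (-I) a).dS (-I) c).diff) (h.v2 c a)
    refine e.congr ?_
    filter_upwards [h.evq] with z hz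
    rw [dS_sub (hz.dS _ _).diff (sla _ _ z).diff, dla_f, sub_zero]
  · intro c
    refine (h.oH a c).congr ?_
    filter_upwards [h.evq] with z hz
    rw [dS_sub (hz.dS _ _).diff (sla _ _ z).diff, dla_t, dS_comm hz]
    rfl

theorem lb_eq (h : NZ q p) (b : Fin 2) (z : Cn 2) :
    lb (hess q p) p b z = conj (la (hess q p) p b z) := by
  unfold lb la
  rw [map_add, map_mul, map_mul, Complex.conj_conj, Complex.conj_conj,
    hess_symm h.sm.self_of_nhds, hess_symm h.sm.self_of_nhds]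

theorem oA' (h : NZ q p) (b : Fin 2) :
    Oo p 2 (fun z => dS I b (cu q) z - lb (hess q p) p b z) := by
  refine (h.oA b).cjg.congr ?_
  filter_upwards [h.evb b] with z hz
  rw [hz, h.lb_eq, map_sub]

theorem sqq (G : Matrix (Fin 2) (Fin 2) ℂ) (z : Cn 2) : Sm z (qq G p) :=
  ((sm_coord 0 z).mul (sla G 0 z)).add ((sm_coord 1 z).mul (sla G 1 z))

theorem dqq (G : Matrix (Fin 2) (Fin 2) ℂ) (s : ℂ) (c : Fin 2) (z : Cn 2) :
    dS s c (qq G p) z = dS s c (fun y => (y - p) 0) z * la G p 0 z + (z - p) 0 * dS s c (la G p 0) z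
      + (dS s c (fun y => (y - p) 1) z * la G p 1 z + (z - p) 1 * dS s c (la G p 1) z) := by
  have e0 := (sm_coord (p := p) 0 z)
  have e1 := (sm_coord (p := p) 1 z)
  rw [← dS_mul e0.diff (sla G 0 z).diff, ← dS_mul e1.diff (sla G 1 z).diff]
  exact dS_add (e0.diff.mul (sla G 0 z).diff) (e1.diff.mul (sla G 1 z).diff)

theorem dqq_f (G : Matrix (Fin 2) (Fin 2) ℂ) (c : Fin 2) (z : Cn 2) :
    dS (-I) c (qq G p) z = la G p c z := by
  rw [dqq, dS_coord_f, dS_coord_f, dla_f, dla_f]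
  fin_cases c <;> simp

theorem dqq_t (G : Matrix (Fin 2) (Fin 2) ℂ) (c : Fin 2) (z : Cn 2) :
    dS I c (qq G p) z = lb G p c z := by
  rw [dqq, dS_coord_t, dS_coord_t, dla_t, dla_t, lb]
  ring

theorem oB (h : NZ q p) : Oo p 3 (fun z => cu q z - qq (hess q p) p z) := by
  have sq := h.smq
  refine oo_integ (sq.sub (sqq _ p)) ?_ ?_ ?_
  · simp [cu, h.v0, qq]
  · intro c
    refine (h.oA c).congr ?_
    filter_upwards [h.evq] with z hz
    rw [dS_sub hz.diff (sqq _ z).diff, dqq_f]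
  · intro c
    refine (h.oA' c).congr ?_
    filter_upwards [h.evq] with z hz
    rw [dS_sub hz.diff (sqq _ z).diff, dqq_t]

theorem ola (G : Matrix (Fin 2) (Fin 2) ℂ) (a : Fin 2) : Oo p 1 (la G p a) := by
  have e := fun b : Fin 2 => (Oo.const (p := p) (G a b)).mul (Oo.coord (p := p) b).cjg
  exact (e 0).add (e 1)

theorem olb (G : Matrix (Fin 2) (Fin 2) ℂ) (b : Fin 2) : Oo p 1 (lb G p b) := by
  have e := fun a : Fin 2 => (Oo.const (p := p) (G a b)).mul (Oo.coord (p := p) a)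
  exact (e 0).add (e 1)

theorem oqq (G : Matrix (Fin 2) (Fin 2) ℂ) : Oo p 2 (qq G p) := by
  have e := fun a : Fin 2 => (Oo.coord (p := p) a).mul (ola (p := p) G a)
  exact (e 0).add (e 1)

theorem oqa (h : NZ q p) (a : Fin 2) : Oo p 1 (dS (-I) a (cu q)) := by
  have := ((h.oA a).mono (j := 1) (by norm_num)).add (ola (hess q p) a)
  refine this.congr (Eventually.of_forall fun z => ?_)
  show _ - _ + _ = _
  ring

theorem oqb (h : NZ q p) (a : Fin 2) : Oo p 1 (dS I a (cu q)) := by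
  have := ((h.oA' a).mono (j := 1) (by norm_num)).add (olb (hess q p) a)
  refine this.congr (Eventually.of_forall fun z => ?_)
  show _ - _ + _ = _
  ring

/-- `Y = ∂q ∂̄q` -/
def YY (q : Cn 2 → ℝ) (z : Cn 2) : Matrix (Fin 2) (Fin 2) ℂ :=
  Matrix.of fun a b => dS (-I) a (cu q) z * dS I b (cu q) z

/-- `N = q det Q - pd Q Y` -/
def NN (q : Cn 2 → ℝ) (z : Cn 2) : ℂ := q z * (hess q z).det - pd (hess q z) (YY q z)

theorem oNN (h : NZ q p) : Oo p 3 (NN q) := by
  set G := hess q p with hG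
  have oG : ∀ a b, Oo p 0 (fun _ => G a b) := fun a b => Oo.const _
  have oHe : ∀ a b, Oo p 1 (fun z => hess q z a b - G a b) := h.oH
  have oHe0 : ∀ a b, Oo p 0 (fun z => hess q z a b) := fun a b =>
    Oo.of_cont (contDiffAt_hess h.sm.self_of_nhds a b).continuousAt
  -- the error terms
  have t1 : ∀ a b c d, Oo p 3 (fun z => qq G p z * ((hess q z a b - G a b) * hess q z c d)) :=
    fun a b c d => (oqq G).mul ((oHe a b).mul (oHe0 c d))
  have t2 : ∀ a b c d, Oo p 3 (fun z => qq G p z * (G a b * (hess q z c d - G c d))) :=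
    fun a b c d => (oqq G).mul ((oG a b).mul (oHe c d))
  have t3 : ∀ a b c d, Oo p 3 (fun z => (cu q z - qq G p z) * (hess q z a b * hess q z c d)) :=
    fun a b c d => h.oB.mul ((oHe0 a b).mul (oHe0 c d))
  have t4 : ∀ a b c d, Oo p 3 (fun z => (hess q z a b - G a b) *
      (dS (-I) c (cu q) z * dS I d (cu q) z)) :=
    fun a b c d => (oHe a b).mul ((h.oqa c).mul (h.oqb d))
  have t5 : ∀ a b c d, Oo p 3 (fun z => G a b * ((dS (-I) c (cu q) z - la G p c z) *
      dS I d (cu q) z)) :=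
    fun a b c d => (oG a b).mul ((h.oA c).mul (h.oqb d))
  have t6 : ∀ a b c d, Oo p 3 (fun z => G a b * (la G p c z *
      (dS I d (cu q) z - lb G p d z))) :=
    fun a b c d => (oG a b).mul ((ola G c).mul (h.oA' d))
  have key : NN q = fun z =>
      ((qq G p z * ((hess q z 0 0 - G 0 0) * hess q z 1 1) + qq G p z * (G 0 0 * (hess q z 1 1 - G 1 1)))
      - (qq G p z * ((hess q z 0 1 - G 0 1) * hess q z 1 0) + qq G p z * (G 0 1 * (hess q z 1 0 - G 1 0))))
      + ((cu q z - qq G p z) * (hess q z 0 0 * hess q z 1 1)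
        - (cu q z - qq G p z) * (hess q z 0 1 * hess q z 1 0))
      - ((((hess q z 0 0 - G 0 0) * (dS (-I) 1 (cu q) z * dS I 1 (cu q) z)
        + (hess q z 1 1 - G 1 1) * (dS (-I) 0 (cu q) z * dS I 0 (cu q) z))
        - (hess q z 0 1 - G 0 1) * (dS (-I) 1 (cu q) z * dS I 0 (cu q) z))
        - (hess q z 1 0 - G 1 0) * (dS (-I) 0 (cu q) z * dS I 1 (cu q) z))
      - (((G 0 0 * ((dS (-I) 1 (cu q) z - la G p 1 z) * dS I 1 (cu q) z)
        + G 1 1 * ((dS (-I) 0 (cu q) z - la G p 0 z) * dS I 0 (cu q) z))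
        - G 0 1 * ((dS (-I) 1 (cu q) z - la G p 1 z) * dS I 0 (cu q) z))
        - G 1 0 * ((dS (-I) 0 (cu q) z - la G p 0 z) * dS I 1 (cu q) z))
      - (((G 0 0 * (la G p 1 z * (dS I 1 (cu q) z - lb G p 1 z))
        + G 1 1 * (la G p 0 z * (dS I 0 (cu q) z - lb G p 0 z)))
        - G 0 1 * (la G p 1 z * (dS I 0 (cu q) z - lb G p 0 z)))
        - G 1 0 * (la G p 0 z * (dS I 1 (cu q) z - lb G p 1 z))) := by
    funext z
    have hcu : (q z : ℂ) = cu q z := rfl
    simp only [NN, YY, pd, Matrix.det_fin_two, Matrix.of_apply, hcu]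
    have e : qq G p z * (G 0 0 * G 1 1 - G 0 1 * G 1 0) = G 0 0 * (la G p 1 z * lb G p 1 z)
        + G 1 1 * (la G p 0 z * lb G p 0 z) - G 0 1 * (la G p 1 z * lb G p 0 z)
        - G 1 0 * (la G p 0 z * lb G p 1 z) := by
      unfold qq la lb
      ring
    linear_combination e
  rw [key]
  exact ((((((t1 0 0 1 1).add (t2 0 0 1 1)).sub ((t1 0 1 1 0).add (t2 0 1 1 0))).add
    ((t3 0 0 1 1).sub (t3 0 1 1 0))).sub
    ((((t4 0 0 1 1).add (t4 1 1 0 0)).sub (t4 0 1 1 0)).sub (t4 1 0 0 1))).sub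
    ((((t5 0 0 1 1).add (t5 1 1 0 0)).sub (t5 0 1 1 0)).sub (t5 1 0 0 1))).sub
    ((((t6 0 0 1 1).add (t6 1 1 0 0)).sub (t6 0 1 1 0)).sub (t6 1 0 0 1))

theorem qq_re (G : Matrix (Fin 2) (Fin 2) ℂ) (z : Cn 2) : (qq G p z).re = qf G (z - p) := by
  unfold qq qf la
  congr 1
  simp only [Fin.sum_univ_two]
  ring

end NZ

end

end Crest.Agent.R257.Idx3_761
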