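import Crest.Agent.R257.Idx3_761

/-!
# R257 (S0395), leaf GB-IDX, part 4 (helper761): the residue of `log q` at a nondegenerate zero

`Gd q p r c C` : the estimates of part 3 hold on the ball `B(p, r)`, `r ≤ 1`.
* `exists_good` : `NZ q p → ∃ r c C, Gd q p r c C` (and then for every smaller radius)
* `res` : `∫ Λ pd (hs κ) (hess Λ) = π² κ(p) + ∫ κ pd (hess Λ) (hess Λ)`, `Λ = log q`
* `res1` : `∫ Λ pd (hs κ) W = ∫ κ pd (hess Λ) W` for `W` smooth and closed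
-/

set_option autoImplicit false
set_option linter.unusedSectionVars false

open Set Filter Topology Complex MeasureTheory Asymptotics
open scoped ContDiff Matrix ComplexConjugate ComplexOrder

namespace Crest.Agent.R257.Idx4_761

open Crest.Agent.R275.Geo Crest.Agent.R275.EDR890 Crest.Agent.R273.Calc_243
open Crest.Agent.R273.Hess_333 Crest.Agent.R273.HessB_333 Crest.Agent.R273.BochD_101
open Crest.Agent.R257.C2F1_625 Crest.Agent.R257.C2F2_625
open Crest.Agent.R257.Idx1_761 Crest.Agent.R257.Idx2_761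
open Crest.Agent.R257.Idx3_761 Crest.Agent.R257.Idx3_761.NZ

noncomputable section

theorem Oo.exs {n : ℕ} {p : Cn n} {k : ℕ} {ι : Type} [Fintype ι] {f : ι → Cn n → ℂ}
    (h : ∀ i, Oo p k (f i)) :
    ∃ C > 0, ∀ᶠ z in 𝓝 p, ∀ i, ‖f i z‖ ≤ C * ‖z - p‖ ^ k := by
  have h1 : (fun z i => f i z) =O[𝓝 p] fun z => ‖z - p‖ ^ k := isBigO_pi.2 h
  obtain ⟨C, hC, hb⟩ := h1.exists_pos
  refine ⟨C, hC, ?_⟩
  filter_upwards [hb.bound] with z hz i
  have h2 := (norm_le_pi_norm (fun i => f i z) i).trans hz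
  rwa [norm_pow, norm_norm] at h2

/-- the estimates near a nondegenerate zero -/
structure Gd (q : Cn 2 → ℝ) (p : Cn 2) (r c C : ℝ) : Prop where
  r0 : 0 < r
  r1 : r ≤ 1
  c0 : 0 < c
  C0 : 0 < C
  pos : (hess q p).PosDef
  sm : ∀ z ∈ Metric.ball p r, ContDiffAt ℝ ∞ q z
  v0 : q p = 0
  lo : ∀ z ∈ Metric.ball p r, c * ‖z - p‖ ^ 2 ≤ q z
  hi : ∀ z ∈ Metric.ball p r, q z ≤ C
  qa : ∀ z ∈ Metric.ball p r, ∀ a, ‖dS (-I) a (cu q) z‖ ≤ C * ‖z - p‖
  qb : ∀ z ∈ Metric.ball p r, ∀ a, ‖dS I a (cu q) z‖ ≤ C * ‖z - p‖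
  Q : ∀ z ∈ Metric.ball p r, ∀ a b, ‖hess q z a b‖ ≤ C
  N : ∀ z ∈ Metric.ball p r, ‖NN q z‖ ≤ C * ‖z - p‖ ^ 3
  B : ∀ z ∈ Metric.ball p r, |q z - qf (hess q p) (z - p)| ≤ C * ‖z - p‖ ^ 3

theorem Gd.mono {q : Cn 2 → ℝ} {p : Cn 2} {r r' c C : ℝ} (h : Gd q p r c C) (h0 : 0 < r')
    (hr : r' ≤ r) : Gd q p r' c C := by
  have hs : Metric.ball p r' ⊆ Metric.ball p r := Metric.ball_subset_ball hr
  exact ⟨h0, hr.trans h.r1, h.c0, h.C0, h.pos, fun z hz => h.sm z (hs hz), h.v0,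
    fun z hz => h.lo z (hs hz), fun z hz => h.hi z (hs hz), fun z hz => h.qa z (hs hz),
    fun z hz => h.qb z (hs hz), fun z hz => h.Q z (hs hz), fun z hz => h.N z (hs hz),
    fun z hz => h.B z (hs hz)⟩

theorem exists_good {q : Cn 2 → ℝ} {p : Cn 2} (h : NZ q p) : ∃ r c C, Gd q p r c C := by
  obtain ⟨c0, hc0, hqf⟩ := qf_ge h.pos
  obtain ⟨C1, hC1, e1⟩ := Oo.exs (ι := Unit) (f := fun _ z => cu q z - qq (hess q p) p z)
    (fun _ => h.oB)
  obtain ⟨C2, hC2, e2⟩ := Oo.exs (f := fun a => dS (-I) a (cu q)) h.oqa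
  obtain ⟨C3, hC3, e3⟩ := Oo.exs (f := fun a => dS I a (cu q)) h.oqb
  obtain ⟨C4, hC4, e4⟩ := Oo.exs (ι := Unit) (f := fun _ => NN q) (fun _ => h.oNN)
  obtain ⟨C5, hC5, e5⟩ := Oo.exs (ι := Fin 2 × Fin 2) (p := p) (k := 0)
    (f := fun ab z => hess q z ab.1 ab.2) (fun ab =>
      Oo.of_cont (contDiffAt_hess h.sm.self_of_nhds ab.1 ab.2).continuousAt)
  obtain ⟨C6, hC6, e6⟩ := Oo.exs (ι := Unit) (p := p) (k := 0) (f := fun _ => cu q)
    (fun _ => Oo.of_cont h.smq.continuousAt)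
  obtain ⟨r0, hr0, hb⟩ := Metric.eventually_nhds_iff_ball.1
    (((((((e1.and e2).and e3).and e4).and e5).and e6)).and h.sm)
  set C := C1 + C2 + C3 + C4 + C5 + C6 with hC
  have l1 : C1 ≤ C := by rw [hC]; linarith
  have l2 : C2 ≤ C := by rw [hC]; linarith
  have l3 : C3 ≤ C := by rw [hC]; linarith
  have l4 : C4 ≤ C := by rw [hC]; linarith
  have l5 : C5 ≤ C := by rw [hC]; linarith
  have l6 : C6 ≤ C := by rw [hC]; linarith
  have hCp : 0 < C := by linarith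
  set r := min (min r0 1) (c0 / (2 * C)) with hr
  have hrpos : 0 < r := lt_min (lt_min hr0 one_pos) (by positivity)
  have hrr0 : r ≤ r0 := (min_le_left _ _).trans (min_le_left _ _)
  have hr1 : r ≤ 1 := (min_le_left _ _).trans (min_le_right _ _)
  have hrc : r ≤ c0 / (2 * C) := min_le_right _ _
  have hB : ∀ z ∈ Metric.ball p r, |q z - qf (hess q p) (z - p)| ≤ C * ‖z - p‖ ^ 3 := by
    intro z hz
    obtain ⟨⟨⟨⟨⟨⟨g1, g2⟩, g3⟩, g4⟩, g5⟩, g6⟩, g7⟩ := hb z (Metric.ball_subset_ball hrr0 hz)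
    have h1 := g1 ()
    have h2 : q z - qf (hess q p) (z - p) = (cu q z - qq (hess q p) p z).re := by
      rw [Complex.sub_re, qq_re]
      rfl
    rw [h2]
    exact (Complex.abs_re_le_norm _).trans (h1.trans
      (mul_le_mul_of_nonneg_right l1 (by positivity)))
  refine ⟨r, c0 / 2, C, hrpos, hr1, by positivity, hCp, h.pos, fun z hz =>
    (hb z (Metric.ball_subset_ball hrr0 hz)).2, h.v0, ?_, ?_, ?_, ?_, ?_, ?_, hB⟩
  · intro z hz
    have h1 := (abs_le.1 (hB z hz)).1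
    have h2 := hqf (z - p)
    have h3 : ‖z - p‖ < r := by rwa [← dist_eq_norm]
    have h4 : C * ‖z - p‖ ≤ c0 / 2 := by
      have h5 : ‖z - p‖ ≤ c0 / (2 * C) := h3.le.trans hrc
      calc C * ‖z - p‖ ≤ C * (c0 / (2 * C)) := mul_le_mul_of_nonneg_left h5 hCp.le
        _ = c0 / 2 := by field_simp
    have h6 : C * ‖z - p‖ ^ 3 ≤ c0 / 2 * ‖z - p‖ ^ 2 := by
      calc C * ‖z - p‖ ^ 3 = (C * ‖z - p‖) * ‖z - p‖ ^ 2 := by ring
        _ ≤ _ := mul_le_mul_of_nonneg_right h4 (by positivity)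
    linarith
  · intro z hz
    obtain ⟨⟨⟨⟨⟨⟨g1, g2⟩, g3⟩, g4⟩, g5⟩, g6⟩, g7⟩ := hb z (Metric.ball_subset_ball hrr0 hz)
    have h1 := g6 ()
    rw [pow_zero, mul_one] at h1
    have h2 : q z = (cu q z).re := rfl
    rw [h2]
    exact ((le_abs_self _).trans (Complex.abs_re_le_norm _)).trans (h1.trans l6)
  · intro z hz a
    obtain ⟨⟨⟨⟨⟨⟨g1, g2⟩, g3⟩, g4⟩, g5⟩, g6⟩, g7⟩ := hb z (Metric.ball_subset_ball hrr0 hz)
    have h1 := g2 a
    rw [pow_one] at h1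
    exact h1.trans (mul_le_mul_of_nonneg_right l2 (norm_nonneg _))
  · intro z hz a
    obtain ⟨⟨⟨⟨⟨⟨g1, g2⟩, g3⟩, g4⟩, g5⟩, g6⟩, g7⟩ := hb z (Metric.ball_subset_ball hrr0 hz)
    have h1 := g3 a
    rw [pow_one] at h1
    exact h1.trans (mul_le_mul_of_nonneg_right l3 (norm_nonneg _))
  · intro z hz a b
    obtain ⟨⟨⟨⟨⟨⟨g1, g2⟩, g3⟩, g4⟩, g5⟩, g6⟩, g7⟩ := hb z (Metric.ball_subset_ball hrr0 hz)
    have h1 := g5 (a, b)
    rw [pow_zero, mul_one] at h1
    exact h1.trans l5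
  · intro z hz
    obtain ⟨⟨⟨⟨⟨⟨g1, g2⟩, g3⟩, g4⟩, g5⟩, g6⟩, g7⟩ := hb z (Metric.ball_subset_ball hrr0 hz)
    exact (g4 ()).trans (mul_le_mul_of_nonneg_right l4 (by positivity))

/-! ### `log (q + δ)` -/

/-- `log (q + δ)` -/
def Ld (q : Cn 2 → ℝ) (δ : ℝ) (z : Cn 2) : ℝ := Real.log (q z + δ)

theorem cu_add_const (q : Cn 2 → ℝ) (δ : ℝ) : cu (fun z => q z + δ) = fun z => cu q z + (δ : ℂ) := by
  funext z; simp [cu]

theorem dS_cu_add (q : Cn 2 → ℝ) (δ : ℝ) (s : ℂ) (a : Fin 2) :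
    dS s a (cu fun z => q z + δ) = dS s a (cu q) := by
  funext z
  rw [cu_add_const, dS, dS, fderiv_add_const]

theorem sm_Ld {q : Cn 2 → ℝ} {δ : ℝ} {z : Cn 2} (hq : ContDiffAt ℝ ∞ q z) (h0 : 0 < q z + δ) :
    ContDiffAt ℝ ∞ (Ld q δ) z := (hq.add contDiffAt_const).log h0.ne'

/-- explicit Hessian of `log (q + δ)` -/
theorem hess_Ld {q : Cn 2 → ℝ} {δ : ℝ} {z : Cn 2} (hq : ContDiffAt ℝ ∞ q z) (h0 : 0 < q z + δ)
    (a b : Fin 2) : hess (Ld q δ) z a b = hess q z a b / ((q z + δ : ℝ) : ℂ)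
      - YY q z a b / ((q z + δ : ℝ) : ℂ) ^ 2 := by
  have h1 : Sm z (cu fun z => q z + δ) := contDiffAt_cu (hq.add contDiffAt_const)
  have h2 := lg_eq_hess h1 (Eventually.of_forall fun y => by simp [cu])
    (by simpa [cu] using h0) a b
  have h3 : (fun y => Real.log ((cu fun z => q z + δ) y).re) = Ld q δ := by
    funext y
    show Real.log (((q y + δ : ℝ) : ℂ)).re = _
    rw [ofReal_re]
    rfl
  rw [h3] at h2
  rw [← h2, lg, dS_cu_add, dS_cu_add]
  rfl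

theorem pd_Ld {q : Cn 2 → ℝ} {δ : ℝ} {z : Cn 2} (hq : ContDiffAt ℝ ∞ q z) (h0 : 0 < q z + δ) :
    pd (hess (Ld q δ) z) (hess (Ld q δ) z) =
      2 * NN q z / ((q z + δ : ℝ) : ℂ) ^ 3 + 2 * δ * (hess q z).det / ((q z + δ : ℝ) : ℂ) ^ 3 := by
  have hm : ((q z + δ : ℝ) : ℂ) ≠ 0 := by exact_mod_cast h0.ne'
  have e : (q z : ℂ) = ((q z + δ : ℝ) : ℂ) - δ := by push_cast; ring
  simp only [pd, hess_Ld hq h0, NN, YY, Matrix.of_apply, Matrix.det_fin_two]
  rw [e]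
  field_simp
  ring

/-! ### dominated convergence -/

theorem norm_pd_le {X Y : Matrix (Fin 2) (Fin 2) ℂ} {A B : ℝ} (hX : ∀ a b, ‖X a b‖ ≤ A)
    (hY : ∀ a b, ‖Y a b‖ ≤ B) : ‖pd X Y‖ ≤ 4 * (A * B) := by
  have hA : 0 ≤ A := (norm_nonneg _).trans (hX 0 0)
  have h : ∀ a b c d, ‖X a b * Y c d‖ ≤ A * B := fun a b c d => by
    rw [norm_mul]
    exact mul_le_mul (hX a b) (hY c d) (norm_nonneg _) hA
  unfold pd
  calc ‖X 0 0 * Y 1 1 + X 1 1 * Y 0 0 - X 0 1 * Y 1 0 - X 1 0 * Y 0 1‖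
      ≤ ‖X 0 0 * Y 1 1‖ + ‖X 1 1 * Y 0 0‖ + ‖X 0 1 * Y 1 0‖ + ‖X 1 0 * Y 0 1‖ :=
        (norm_sub_le _ _).trans (add_le_add_left ((norm_sub_le _ _).trans
          (add_le_add_left (norm_add_le _ _) _)) _)
    _ ≤ _ := by linarith [h 0 0 1 1, h 1 1 0 0, h 0 1 1 0, h 1 0 0 1]

/-- the dominating function -/
def dom (p : Cn 2) (r : ℝ) : Cn 2 → ℝ := (Metric.ball p r).indicator fun z => (‖z - p‖ ^ 3)⁻¹

theorem dom_int (p : Cn 2) (r : ℝ) : Integrable (dom p r) := by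
  have h := (int_norm3 r).integrable_indicator measurableSet_ball
  have h2 := h.comp_sub_right p
  refine h2.congr (Eventually.of_forall fun z => ?_)
  unfold dom
  by_cases hz : z ∈ Metric.ball p r
  · have : z - p ∈ Metric.ball (0 : Cn 2) r := by rwa [mem_ball_zero_iff, ← dist_eq_norm]
    rw [indicator_of_mem hz]
    exact indicator_of_mem this _
  · have : z - p ∉ Metric.ball (0 : Cn 2) r := by rwa [mem_ball_zero_iff, ← dist_eq_norm]
    rw [indicator_of_notMem hz]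
    exact indicator_of_notMem this _

theorem dom_of_mem {p : Cn 2} {r : ℝ} {z : Cn 2} (hz : z ∈ Metric.ball p r) :
    dom p r z = (‖z - p‖ ^ 3)⁻¹ := indicator_of_mem hz _

theorem dom_nonneg (p : Cn 2) (r : ℝ) (z : Cn 2) : 0 ≤ dom p r z :=
  indicator_nonneg (fun _ _ => by positivity) _

theorem ae_ne (p : Cn 2) : ∀ᵐ z : Cn 2, z ≠ p := by
  rw [ae_iff]
  simp

theorem dct {p : Cn 2} {r K : ℝ} {F : ℝ → Cn 2 → ℂ} {f : Cn 2 → ℂ}
    (hm : ∀ᶠ δ in 𝓝[>] (0 : ℝ), AEStronglyMeasurable (F δ) volume)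
    (hb : ∀ᶠ δ in 𝓝[>] (0 : ℝ), ∀ z, z ≠ p → ‖F δ z‖ ≤ K * dom p r z)
    (hl : ∀ z, z ≠ p → Tendsto (fun δ => F δ z) (𝓝[>] 0) (𝓝 (f z))) :
    Tendsto (fun δ => ∫ z, F δ z) (𝓝[>] 0) (𝓝 (∫ z, f z)) ∧ Integrable f := by
  have hlae : ∀ᵐ z : Cn 2, Tendsto (fun δ => F δ z) (𝓝[>] 0) (𝓝 (f z)) :=
    (ae_ne p).mono fun z hz => hl z hz
  refine ⟨tendsto_integral_filter_of_dominated_convergence (fun z => K * dom p r z) hm
    (hb.mono fun δ h => (ae_ne p).mono fun z hz => h z hz) ((dom_int p r).const_mul K) hlae, ?_⟩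
  obtain ⟨u, hu⟩ := exists_seq_tendsto (𝓝[>] (0 : ℝ))
  have hm' : AEStronglyMeasurable f volume := by
    obtain ⟨N, hN⟩ := eventually_atTop.1 (hu.eventually hm)
    refine aestronglyMeasurable_of_tendsto_ae (u := atTop) (f := fun k => F (u (k + N)))
      (fun k => hN _ (Nat.le_add_left _ _)) ?_
    filter_upwards [hlae] with z hz
    exact (hz.comp hu).comp (tendsto_add_atTop_nat N)
  refine Integrable.mono' ((dom_int p r).const_mul K) hm' ?_
  filter_upwards [ae_ne p] with z hz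
  exact le_of_tendsto (hl z hz).norm (hb.mono fun δ h => h z hz)

namespace Gd

variable {q : Cn 2 → ℝ} {p : Cn 2} {r c C : ℝ}

theorem wpos {z : Cn 2} (hz : z ≠ p) : 0 < ‖z - p‖ := norm_pos_iff.2 (sub_ne_zero.2 hz)

theorem wle (h : Gd q p r c C) {z : Cn 2} (hz : z ∈ Metric.ball p r) : ‖z - p‖ ≤ 1 := by
  rw [← dist_eq_norm]
  exact (Metric.mem_ball.1 hz).le.trans h.r1

theorem q_nonneg (h : Gd q p r c C) {z : Cn 2} (hz : z ∈ Metric.ball p r) : 0 ≤ q z :=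
  (mul_nonneg h.c0.le (by positivity)).trans (h.lo z hz)

theorem q_pos (h : Gd q p r c C) {z : Cn 2} (hz : z ∈ Metric.ball p r) (hzp : z ≠ p) : 0 < q z :=
  lt_of_lt_of_le (mul_pos h.c0 (pow_pos (wpos hzp) 2)) (h.lo z hz)

theorem qd_pos (h : Gd q p r c C) {z : Cn 2} (hz : z ∈ Metric.ball p r) {δ : ℝ} (hδ : 0 < δ) :
    0 < q z + δ := add_pos_of_nonneg_of_pos (h.q_nonneg hz) hδ

/-- bound of `log (q + δ)` -/
theorem Ld_le (h : Gd q p r c C) {z : Cn 2} (hz : z ∈ Metric.ball p r) (hzp : z ≠ p) {δ : ℝ}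
    (h0 : 0 ≤ δ) (h1 : δ ≤ 1) : |Ld q δ z| ≤ (C + 2 / √c) * ‖z - p‖⁻¹ := by
  have hw := wpos hzp
  have hw1 := h.wle hz
  have hx : c * ‖z - p‖ ^ 2 ≤ q z + δ := (h.lo z hz).trans (by linarith)
  have hx0 : 0 < q z + δ := lt_of_lt_of_le (mul_pos h.c0 (pow_pos hw 2)) hx
  have hinv : 1 ≤ ‖z - p‖⁻¹ := (one_le_inv₀ hw).2 hw1
  have hC := h.C0
  have hc : 0 < √c := Real.sqrt_pos.2 h.c0
  rw [abs_le]
  constructor
  · have h2 : √c * ‖z - p‖ ≤ √(q z + δ) := by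
      have : √(c * ‖z - p‖ ^ 2) = √c * ‖z - p‖ := by
        rw [Real.sqrt_mul h.c0.le, Real.sqrt_sq hw.le]
      rw [← this]
      exact Real.sqrt_le_sqrt hx
    have h3 : 0 < √(q z + δ) := Real.sqrt_pos.2 hx0
    have h4 : Real.log (√(q z + δ))⁻¹ ≤ (√(q z + δ))⁻¹ - 1 := Real.log_le_sub_one_of_pos (by positivity)
    rw [Real.log_inv, Real.log_sqrt hx0.le] at h4
    have h5 : (√(q z + δ))⁻¹ ≤ (√c)⁻¹ * ‖z - p‖⁻¹ := by
      rw [← mul_inv]
      exact inv_anti₀ (by positivity) h2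
    have h6 : 0 ≤ C * ‖z - p‖⁻¹ := by positivity
    have h7 : (2 / √c) * ‖z - p‖⁻¹ = 2 * ((√c)⁻¹ * ‖z - p‖⁻¹) := by ring
    unfold Ld
    rw [add_mul, h7]
    linarith
  · have h2 := Real.log_le_sub_one_of_pos hx0
    have h3 := h.hi z hz
    have h4 : C ≤ C * ‖z - p‖⁻¹ := le_mul_of_one_le_right hC.le hinv
    have h5 : 0 ≤ (2 / √c) * ‖z - p‖⁻¹ := by positivity
    unfold Ld
    rw [add_mul]
    linarith

/-- bound of the Hessian of `log (q + δ)` -/
theorem hess_le (h : Gd q p r c C) {z : Cn 2} (hz : z ∈ Metric.ball p r) (hzp : z ≠ p) {δ : ℝ}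
    (h0 : 0 ≤ δ) (a b : Fin 2) :
    ‖hess (Ld q δ) z a b‖ ≤ (C / c + C ^ 2 / c ^ 2) * (‖z - p‖ ^ 2)⁻¹ := by
  have hw := wpos hzp
  have hx : c * ‖z - p‖ ^ 2 ≤ q z + δ := (h.lo z hz).trans (by linarith)
  have hcw : 0 < c * ‖z - p‖ ^ 2 := mul_pos h.c0 (pow_pos hw 2)
  have hx0 : 0 < q z + δ := lt_of_lt_of_le hcw hx
  have hn : ‖((q z + δ : ℝ) : ℂ)‖ = q z + δ := by rw [norm_real, Real.norm_of_nonneg hx0.le]
  rw [hess_Ld (h.sm z hz) hx0]
  have e1 : ‖hess q z a b / ((q z + δ : ℝ) : ℂ)‖ ≤ C / (c * ‖z - p‖ ^ 2) := by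
    rw [norm_div, hn]
    exact div_le_div₀ h.C0.le (h.Q z hz a b) hcw hx
  have e2 : ‖YY q z a b / ((q z + δ : ℝ) : ℂ) ^ 2‖ ≤
      (C * ‖z - p‖) * (C * ‖z - p‖) / (c * ‖z - p‖ ^ 2) ^ 2 := by
    rw [norm_div, norm_pow, hn]
    refine div_le_div₀ (by have := h.C0; positivity) ?_ (by positivity)
      (pow_le_pow_left₀ hcw.le hx 2)
    show ‖dS (-I) a (cu q) z * dS I b (cu q) z‖ ≤ _
    rw [norm_mul]
    exact mul_le_mul (h.qa z hz a) (h.qb z hz b) (norm_nonneg _)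
      (mul_nonneg h.C0.le (norm_nonneg _))
  refine (norm_sub_le _ _).trans ((add_le_add e1 e2).trans (le_of_eq ?_))
  have hc := h.c0.ne'
  have := hw.ne'
  field_simp

end Gd

/-- bound of a `CS` function -/
theorem cs_bdd {n : ℕ} {U : Set (Cn n)} {f : Cn n → ℂ} (hf : CS U f) : ∃ K > 0, ∀ z, ‖f z‖ ≤ K := by
  obtain ⟨K, hK⟩ := hf.cpt.exists_bound_of_continuous hf.sm.continuous
  exact ⟨max K 1, lt_max_of_lt_right one_pos, fun z => (hK z).trans (le_max_left _ _)⟩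

theorem cs_hs {U : Set (Cn 2)} {f : Cn 2 → ℂ} (hf : CS U f) (a b : Fin 2) :
    CS U (fun z => hs f z a b) := (hf.dS I b).dS (-I) a

theorem cs_hs_bdd {U : Set (Cn 2)} {f : Cn 2 → ℂ} (hf : CS U f) :
    ∃ K > 0, ∀ z a b, ‖hs f z a b‖ ≤ K := by
  have h := fun ab : Fin 2 × Fin 2 => cs_bdd (cs_hs hf ab.1 ab.2)
  choose K hK hb using h
  refine ⟨∑ ab, K ab, Finset.sum_pos (fun ab _ => hK ab) Finset.univ_nonempty, fun z a b => ?_⟩
  exact (hb (a, b) z).trans (Finset.single_le_sum (f := K) (fun ab _ => (hK ab).le)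
    (Finset.mem_univ (a, b)))

theorem cs_pd {U : Set (Cn 2)} {f : Cn 2 → ℂ} {W : Cn 2 → Matrix (Fin 2) (Fin 2) ℂ} (hf : CS U f)
    (hW : ∀ z ∈ U, SmM z W) : CS U (fun z => pd (hs f z) (W z)) := by
  have h := fun i j k l => (cs_hs hf i j).mul (fun z hz => hW z hz k l)
  exact (((h 0 0 1 1).add (h 1 1 0 0)).sub' (h 0 1 1 0)).sub' (h 1 0 0 1)

/-! ### the three limits -/

namespace Gd

variable {q : Cn 2 → ℝ} {p : Cn 2} {r c C : ℝ} {κ : Cn 2 → ℂ}

theorem sm_hess_Ld (h : Gd q p r c C) {δ : ℝ} (hδ : 0 < δ) {z : Cn 2} (hz : z ∈ Metric.ball p r) :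
    SmM z (hess (Ld q δ)) := fun a b =>
  contDiffAt_hess (sm_Ld (h.sm z hz) (h.qd_pos hz hδ)) a b

theorem cl_hess_Ld (h : Gd q p r c C) {δ : ℝ} (hδ : 0 < δ) {z : Cn 2} (hz : z ∈ Metric.ball p r) :
    Cl (hess (Ld q δ)) z := by
  have h1 : hess (Ld q δ) = hs (cu (Ld q δ)) := funext fun z => (hs_cu _ z).symm
  rw [h1]
  exact cl_hs Metric.isOpen_ball (fun y hy => contDiffAt_cu (sm_Ld (h.sm y hy) (h.qd_pos hy hδ))) hz

theorem tendsto_Ld (h : Gd q p r c C) {z : Cn 2} (hz : z ∈ Metric.ball p r) (hzp : z ≠ p) :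
    Tendsto (fun δ => Ld q δ z) (𝓝[>] 0) (𝓝 (Ld q 0 z)) := by
  have h0 := h.q_pos hz hzp
  have h1 : Tendsto (fun δ : ℝ => q z + δ) (𝓝[>] 0) (𝓝 (q z + 0)) :=
    (tendsto_const_nhds.add tendsto_id).mono_left nhdsWithin_le_nhds
  exact (Real.continuousAt_log (by rw [add_zero]; exact h0.ne')).tendsto.comp h1

theorem tendsto_hess (h : Gd q p r c C) {z : Cn 2} (hz : z ∈ Metric.ball p r) (hzp : z ≠ p)
    (a b : Fin 2) : Tendsto (fun δ => hess (Ld q δ) z a b) (𝓝[>] 0) (𝓝 (hess (Ld q 0) z a b)) := by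
  have h0 := h.q_pos hz hzp
  have h1 : Tendsto (fun δ : ℝ => ((q z + δ : ℝ) : ℂ)) (𝓝[>] 0) (𝓝 ((q z + 0 : ℝ) : ℂ)) :=
    (Complex.continuous_ofReal.tendsto _).comp
      ((tendsto_const_nhds.add tendsto_id).mono_left nhdsWithin_le_nhds)
  have hne : ((q z + 0 : ℝ) : ℂ) ≠ 0 := by
    rw [add_zero]; exact_mod_cast h0.ne'
  rw [hess_Ld (h.sm z hz) (by rw [add_zero]; exact h0)]
  have h2 : Tendsto (fun δ : ℝ => hess q z a b / ((q z + δ : ℝ) : ℂ)
      - YY q z a b / ((q z + δ : ℝ) : ℂ) ^ 2) (𝓝[>] 0) (𝓝 (hess q z a b / ((q z + 0 : ℝ) : ℂ)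
      - YY q z a b / ((q z + 0 : ℝ) : ℂ) ^ 2)) :=
    (tendsto_const_nhds.div h1 hne).sub (tendsto_const_nhds.div (h1.pow 2) (pow_ne_zero 2 hne))
  refine h2.congr' ?_
  filter_upwards [self_mem_nhdsWithin] with δ hδ
  exact (hess_Ld (h.sm z hz) (h.qd_pos hz hδ) a b).symm

theorem tendsto_pd (h : Gd q p r c C) {z : Cn 2} (hz : z ∈ Metric.ball p r) (hzp : z ≠ p)
    (X : Matrix (Fin 2) (Fin 2) ℂ) :
    Tendsto (fun δ => pd X (hess (Ld q δ) z)) (𝓝[>] 0) (𝓝 (pd X (hess (Ld q 0) z))) := by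
  have t := fun a b => h.tendsto_hess hz hzp a b
  unfold pd
  exact (((tendsto_const_nhds.mul (t 1 1)).add (tendsto_const_nhds.mul (t 0 0))).sub
    (tendsto_const_nhds.mul (t 1 0))).sub (tendsto_const_nhds.mul (t 0 1))

theorem ev01 : ∀ᶠ δ : ℝ in 𝓝[>] 0, 0 < δ ∧ δ ≤ 1 := by
  have h1 : ∀ᶠ δ : ℝ in 𝓝[>] 0, δ < 1 := nhdsWithin_le_nhds (gt_mem_nhds one_pos)
  filter_upwards [self_mem_nhdsWithin, h1] with δ h2 h3
  exact ⟨h2, h3.le⟩

/-- first limit -/
theorem lim1 (h : Gd q p r c C) (hκ : CS (Metric.ball p r) κ) :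
    Tendsto (fun δ => ∫ z, (Ld q δ z : ℂ) * pd (hs κ z) (hess (Ld q δ) z)) (𝓝[>] 0)
      (𝓝 (∫ z, (Ld q 0 z : ℂ) * pd (hs κ z) (hess (Ld q 0) z))) ∧
    Integrable (fun z => (Ld q 0 z : ℂ) * pd (hs κ z) (hess (Ld q 0) z)) := by
  obtain ⟨Kκ, hKκ, hκb⟩ := cs_hs_bdd hκ
  have hC := h.C0
  have hc := h.c0
  refine dct (p := p) (r := r)
    (K := (C + 2 / √c) * (4 * (Kκ * (C / c + C ^ 2 / c ^ 2)))) ?_ ?_ ?_
  · filter_upwards [self_mem_nhdsWithin] with δ hδ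
    have : CS (Metric.ball p r) (fun z => (Ld q δ z : ℂ) * pd (hs κ z) (hess (Ld q δ) z)) :=
      CS.mul' (fun z hz => contDiffAt_cu (sm_Ld (h.sm z hz) (h.qd_pos hz hδ)))
        (cs_pd hκ fun z hz => h.sm_hess_Ld hδ hz)
    exact this.sm.continuous.aestronglyMeasurable
  · filter_upwards [ev01] with δ hδ z hzp
    by_cases hz : z ∈ Metric.ball p r
    · have hw := wpos hzp
      rw [dom_of_mem hz, norm_mul, norm_real]
      have e1 := h.Ld_le hz hzp hδ.1.le hδ.2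
      have e2 := norm_pd_le (hκb z) (fun a b => h.hess_le hz hzp hδ.1.le a b)
      calc ‖Ld q δ z‖ * ‖pd (hs κ z) (hess (Ld q δ) z)‖
          ≤ ((C + 2 / √c) * ‖z - p‖⁻¹) * (4 * (Kκ * ((C / c + C ^ 2 / c ^ 2) * (‖z - p‖ ^ 2)⁻¹))) :=
            mul_le_mul e1 e2 (norm_nonneg _) (by positivity)
        _ = _ := by
          field_simp
    · have : CS (Metric.ball p r) (fun z => pd (hs κ z) (hess (Ld q δ) z)) :=
        cs_pd hκ fun z hz => h.sm_hess_Ld hδ.1 hz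
      rw [this.zero_off hz, mul_zero, norm_zero]
      exact mul_nonneg (by positivity) (dom_nonneg _ _ _)
  · intro z hzp
    by_cases hz : z ∈ Metric.ball p r
    · exact ((Complex.continuous_ofReal.tendsto _).comp (h.tendsto_Ld hz hzp)).mul
        (h.tendsto_pd hz hzp _)
    · have : hs κ z = 0 := by
        ext a b
        exact (cs_hs hκ a b).zero_off hz
      simp only [this, pd, Matrix.zero_apply, zero_mul, add_zero, sub_zero, mul_zero]
      exact tendsto_const_nhds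

/-- second limit -/
theorem lim2 (h : Gd q p r c C) (hκ : CS (Metric.ball p r) κ) :
    Tendsto (fun δ => ∫ z, κ z * (2 * NN q z / ((q z + δ : ℝ) : ℂ) ^ 3)) (𝓝[>] 0)
      (𝓝 (∫ z, κ z * (2 * NN q z / ((q z + 0 : ℝ) : ℂ) ^ 3))) ∧
    Integrable (fun z => κ z * (2 * NN q z / ((q z + 0 : ℝ) : ℂ) ^ 3)) := by
  obtain ⟨Kκ, hKκ, hκb⟩ := cs_bdd hκ
  have hC := h.C0
  have hc := h.c0
  refine dct (p := p) (r := r) (K := Kκ * (2 * C / c ^ 3)) ?_ ?_ ?_
  · filter_upwards [self_mem_nhdsWithin] with δ hδ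
    have : CS (Metric.ball p r) (fun z => κ z * (2 * NN q z / ((q z + δ : ℝ) : ℂ) ^ 3)) := by
      refine hκ.mul fun z hz => ?_
      have s1 : Sm z (cu q) := contDiffAt_cu (h.sm z hz)
      have s2 : ∀ a b, Sm z (fun y => hess q y a b) := fun a b => contDiffAt_hess (h.sm z hz) a b
      have s3 : ∀ a b, Sm z (fun y => YY q y a b) := fun a b => (s1.dS _ _).mul (s1.dS _ _)
      have s4 : Sm z (NN q) := by
        have : NN q = fun y => cu q y * (hess q y 0 0 * hess q y 1 1 - hess q y 0 1 * hess q y 1 0) -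
            (((hess q y 0 0 * YY q y 1 1 + hess q y 1 1 * YY q y 0 0) -
              hess q y 0 1 * YY q y 1 0) - hess q y 1 0 * YY q y 0 1) := by
          funext y
          simp only [NN, pd, Matrix.det_fin_two]
          rfl
        rw [this]
        exact (s1.mul (((s2 0 0).mul (s2 1 1)).sub ((s2 0 1).mul (s2 1 0)))).sub
          (((((s2 0 0).mul (s3 1 1)).add ((s2 1 1).mul (s3 0 0))).sub
            ((s2 0 1).mul (s3 1 0))).sub ((s2 1 0).mul (s3 0 1)))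
      have s5 : Sm z (fun y => ((q y + δ : ℝ) : ℂ) ^ 3) :=
        (contDiffAt_cu ((h.sm z hz).add contDiffAt_const)).pow 3
      have h0 : ((q z + δ : ℝ) : ℂ) ^ 3 ≠ 0 := by
        have := h.qd_pos hz hδ
        exact pow_ne_zero 3 (by exact_mod_cast this.ne')
      have s6 : Sm z (fun y => (((q y + δ : ℝ) : ℂ) ^ 3)⁻¹) := s5.inv h0
      have e : (fun y => 2 * NN q y / ((q y + δ : ℝ) : ℂ) ^ 3) =
          fun y => 2 * NN q y * (((q y + δ : ℝ) : ℂ) ^ 3)⁻¹ := by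
        funext y; rw [div_eq_mul_inv]
      rw [e]
      exact (contDiffAt_const.mul s4).mul s6
    exact this.sm.continuous.aestronglyMeasurable
  · filter_upwards [ev01] with δ hδ z hzp
    by_cases hz : z ∈ Metric.ball p r
    · have hw := wpos hzp
      have hx : c * ‖z - p‖ ^ 2 ≤ q z + δ := (h.lo z hz).trans (by linarith [hδ.1])
      have hcw : 0 < c * ‖z - p‖ ^ 2 := mul_pos h.c0 (pow_pos hw 2)
      have hx0 : 0 < q z + δ := lt_of_lt_of_le hcw hx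
      rw [dom_of_mem hz, norm_mul, norm_div, norm_pow, norm_real, Real.norm_of_nonneg hx0.le,
        norm_mul, Complex.norm_two]
      calc ‖κ z‖ * (2 * ‖NN q z‖ / (q z + δ) ^ 3)
          ≤ Kκ * (2 * (C * ‖z - p‖ ^ 3) / (c * ‖z - p‖ ^ 2) ^ 3) := by
            refine mul_le_mul (hκb z) ?_ (by positivity) hKκ.le
            exact div_le_div₀ (by positivity) (mul_le_mul_of_nonneg_left (h.N z hz) (by norm_num))
              (by positivity) (pow_le_pow_left₀ hcw.le hx 3)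
        _ = _ := by
          field_simp
    · rw [hκ.zero_off hz, zero_mul, norm_zero]
      exact mul_nonneg (by positivity) (dom_nonneg _ _ _)
  · intro z hzp
    by_cases hz : z ∈ Metric.ball p r
    · have h0 := h.q_pos hz hzp
      have h1 : Tendsto (fun δ : ℝ => ((q z + δ : ℝ) : ℂ) ^ 3) (𝓝[>] 0)
          (𝓝 (((q z + 0 : ℝ) : ℂ) ^ 3)) :=
        ((Complex.continuous_ofReal.tendsto _).comp
          ((tendsto_const_nhds.add tendsto_id).mono_left nhdsWithin_le_nhds)).pow 3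
      exact tendsto_const_nhds.mul (tendsto_const_nhds.div h1
        (pow_ne_zero 3 (by rw [add_zero]; exact_mod_cast h0.ne')))
    · simp only [hκ.zero_off hz, zero_mul]
      exact tendsto_const_nhds

theorem sm_det (h : Gd q p r c C) {z : Cn 2} (hz : z ∈ Metric.ball p r) :
    Sm z (fun y => (hess q y).det) := by
  have s2 : ∀ a b, Sm z (fun y => hess q y a b) := fun a b => contDiffAt_hess (h.sm z hz) a b
  simp only [Matrix.det_fin_two]
  exact ((s2 0 0).mul (s2 1 1)).sub ((s2 0 1).mul (s2 1 0))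

/-- third limit: the approximate identity -/
theorem lim3 (h : Gd q p r c C) (hκ : CS (Metric.ball p r) κ) :
    Tendsto (fun ε : ℝ => ∫ z, κ z * (2 * ((ε ^ 2 : ℝ) : ℂ) * (hess q z).det /
      ((q z + ε ^ 2 : ℝ) : ℂ) ^ 3)) (𝓝[>] 0) (𝓝 ((Real.pi : ℂ) ^ 2 * κ p)) := by
  set Φ : Cn 2 → ℂ := fun z => κ z * (2 * (hess q z).det) with hΦ
  have cΦ : CS (Metric.ball p r) Φ := hκ.mul fun z hz => contDiffAt_const.mul (h.sm_det hz)
  obtain ⟨K, hK, hKb⟩ := cs_bdd cΦ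
  set G := hess q p with hG
  have hC := h.C0
  have hc := h.c0
  -- rescaling
  have e1 : ∀ ε : ℝ, 0 < ε → ∫ z, κ z * (2 * ((ε ^ 2 : ℝ) : ℂ) * (hess q z).det /
      ((q z + ε ^ 2 : ℝ) : ℂ) ^ 3) =
      ∫ w : Cn 2, Φ (p + ε • w) / ((q (p + ε • w) / ε ^ 2 + 1 : ℝ) : ℂ) ^ 3 := by
    intro ε hε
    set F : Cn 2 → ℂ := fun z => κ z * (2 * ((ε ^ 2 : ℝ) : ℂ) * (hess q z).det /
      ((q z + ε ^ 2 : ℝ) : ℂ) ^ 3) with hF
    have h1 : ∫ z, F z = ∫ z, F (p + z) := (integral_add_left_eq_self F p).symm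
    have h2 := Measure.integral_comp_smul (volume : Measure (Cn 2)) (fun z => F (p + z)) ε
    rw [finrank4] at h2
    have h3 : |(ε ^ 4)⁻¹| = (ε ^ 4)⁻¹ := abs_of_pos (by positivity)
    rw [h3] at h2
    have h4 : ∫ z, F (p + z) = (ε ^ 4 : ℝ) • ∫ w, F (p + ε • w) := by
      rw [h2, smul_smul, mul_inv_cancel₀ (by positivity), one_smul]
    rw [h1, h4, ← integral_smul]
    refine integral_congr_ae (Eventually.of_forall fun w => ?_)
    have hε0 : (ε : ℂ) ≠ 0 := by exact_mod_cast hε.ne'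
    show (ε ^ 4 : ℝ) • F (p + ε • w) = _
    rw [Complex.real_smul, hF, hΦ]
    have h5 : ((q (p + ε • w) / ε ^ 2 + 1 : ℝ) : ℂ) = ((q (p + ε • w) + ε ^ 2 : ℝ) : ℂ) / (ε : ℂ) ^ 2 := by
      push_cast
      field_simp
    simp only [h5]
    push_cast
    rw [div_pow, div_div_eq_mul_div]
    ring
  -- the dominating function
  set m := min c 1 with hm
  have hm0 : 0 < m := lt_min hc one_pos
  have hbint : Integrable (fun w : Cn 2 => K / (2 * m ^ 3) * (2 / (‖w‖ ^ 2 + 1) ^ 3)) :=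
    flat_intble.const_mul _
  have hlow : ∀ (ε : ℝ), 0 < ε → ∀ w : Cn 2, p + ε • w ∈ Metric.ball p r →
      m * (‖w‖ ^ 2 + 1) ≤ q (p + ε • w) / ε ^ 2 + 1 := by
    intro ε hε w hw
    have h1 := h.lo _ hw
    rw [add_sub_cancel_left, norm_smul, Real.norm_of_nonneg hε.le, mul_pow] at h1
    have h2 : c * ‖w‖ ^ 2 ≤ q (p + ε • w) / ε ^ 2 := by
      rw [le_div_iff₀ (by positivity)]
      linarith
    have h3 : m * ‖w‖ ^ 2 ≤ c * ‖w‖ ^ 2 := mul_le_mul_of_nonneg_right (min_le_left _ _) (by positivity)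
    have h4 : m ≤ 1 := min_le_right _ _
    linarith
  have key : Tendsto (fun ε : ℝ => ∫ w : Cn 2, Φ (p + ε • w) /
      ((q (p + ε • w) / ε ^ 2 + 1 : ℝ) : ℂ) ^ 3) (𝓝[>] 0)
      (𝓝 (∫ w : Cn 2, Φ p / ((qf G w + 1 : ℝ) : ℂ) ^ 3)) := by
    refine tendsto_integral_filter_of_dominated_convergence
      (fun w => K / (2 * m ^ 3) * (2 / (‖w‖ ^ 2 + 1) ^ 3)) ?_ ?_ hbint ?_
    · filter_upwards [self_mem_nhdsWithin] with ε hε
      have hε' : (0:ℝ) < ε := hε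
      have hcs : CS (Metric.ball p r) (fun z => Φ z / ((q z / ε ^ 2 + 1 : ℝ) : ℂ) ^ 3) := by
        simp only [div_eq_mul_inv]
        refine cΦ.mul fun z hz => ?_
        have s1 : ContDiffAt ℝ ∞ (fun y => q y * (ε ^ 2)⁻¹ + 1) z :=
          ((h.sm z hz).mul contDiffAt_const).add contDiffAt_const
        have s2 : Sm z (fun y => ((q y * (ε ^ 2)⁻¹ + 1 : ℝ) : ℂ) ^ 3) := (contDiffAt_cu s1).pow 3
        refine s2.inv (pow_ne_zero 3 ?_)
        have h1 := h.q_nonneg hz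
        have : (0:ℝ) < q z * (ε ^ 2)⁻¹ + 1 := by positivity
        exact_mod_cast this.ne'
      have hcont : Continuous fun w : Cn 2 => p + ε • w := by fun_prop
      exact (hcs.sm.continuous.comp hcont).aestronglyMeasurable
    · filter_upwards [self_mem_nhdsWithin] with ε hε
      refine Eventually.of_forall fun w => ?_
      have hε' : (0:ℝ) < ε := hε
      by_cases hw : p + ε • w ∈ Metric.ball p r
      · have h1 := hlow ε hε' w hw
        have h2 : 0 < m * (‖w‖ ^ 2 + 1) := by positivity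
        have h3 : 0 < q (p + ε • w) / ε ^ 2 + 1 := lt_of_lt_of_le h2 h1
        rw [norm_div, norm_pow, norm_real, Real.norm_of_nonneg h3.le]
        calc ‖Φ (p + ε • w)‖ / (q (p + ε • w) / ε ^ 2 + 1) ^ 3
            ≤ K / (m * (‖w‖ ^ 2 + 1)) ^ 3 :=
              div_le_div₀ hK.le (hKb _) (by positivity) (pow_le_pow_left₀ h2.le h1 3)
          _ = _ := by
            field_simp
      · rw [cΦ.zero_off hw, zero_div, norm_zero]
        positivity
    · refine Eventually.of_forall fun w => ?_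
      have hin : ∀ᶠ ε : ℝ in 𝓝[>] 0, p + ε • w ∈ Metric.ball p r := by
        have hcont : Tendsto (fun ε : ℝ => p + ε • w) (𝓝 0) (𝓝 (p + (0:ℝ) • w)) :=
          (continuous_const.add (continuous_id.smul continuous_const)).tendsto 0
        rw [zero_smul, add_zero] at hcont
        exact nhdsWithin_le_nhds (hcont (Metric.ball_mem_nhds p h.r0))
      have h1 : Tendsto (fun ε : ℝ => Φ (p + ε • w)) (𝓝[>] 0) (𝓝 (Φ p)) := by
        have hcont : Continuous fun ε : ℝ => Φ (p + ε • w) := cΦ.sm.continuous.comp (by fun_prop)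
        have := hcont.tendsto 0
        rw [zero_smul, add_zero] at this
        exact this.mono_left nhdsWithin_le_nhds
      have h2 : Tendsto (fun ε : ℝ => q (p + ε • w) / ε ^ 2) (𝓝[>] 0) (𝓝 (qf G w)) := by
        rw [tendsto_iff_norm_sub_tendsto_zero]
        have hz : Tendsto (fun ε : ℝ => C * ‖w‖ ^ 3 * ε) (𝓝[>] 0) (𝓝 0) := by
          have : Tendsto (fun ε : ℝ => C * ‖w‖ ^ 3 * ε) (𝓝 0) (𝓝 (C * ‖w‖ ^ 3 * 0)) :=
            (continuous_const.mul continuous_id).tendsto 0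
          rw [mul_zero] at this
          exact this.mono_left nhdsWithin_le_nhds
        refine squeeze_zero' (Eventually.of_forall fun _ => norm_nonneg _) ?_ hz
        filter_upwards [hin, self_mem_nhdsWithin] with ε hε1 hε2
        have hε' : (0:ℝ) < ε := hε2
        have h3 := h.B _ hε1
        rw [add_sub_cancel_left] at h3
        have h4 : qf G (ε • w) = ε ^ 2 * qf G w := by
          unfold qf
          have : ∀ a b : Fin 2, G a b * (ε • w) a * conj ((ε • w) b) =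
              ((ε ^ 2 : ℝ) : ℂ) * (G a b * w a * conj (w b)) := by
            intro a b
            simp only [PiLp.smul_apply, Complex.real_smul, map_mul, conj_ofReal]
            push_cast
            ring
          simp only [this, ← Finset.mul_sum]
          rw [Complex.re_ofReal_mul]
        rw [h4, norm_smul, Real.norm_of_nonneg hε'.le] at h3
        have h5 : q (p + ε • w) / ε ^ 2 - qf G w = (q (p + ε • w) - ε ^ 2 * qf G w) / ε ^ 2 := by
          field_simp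
        rw [h5, Real.norm_eq_abs, abs_div, abs_of_pos (by positivity : (0:ℝ) < ε ^ 2),
          div_le_iff₀ (by positivity)]
        refine h3.trans (le_of_eq ?_)
        ring
      have h3 : Tendsto (fun ε : ℝ => ((q (p + ε • w) / ε ^ 2 + 1 : ℝ) : ℂ) ^ 3) (𝓝[>] 0)
          (𝓝 (((qf G w + 1 : ℝ) : ℂ) ^ 3)) :=
        ((Complex.continuous_ofReal.tendsto _).comp (h2.add tendsto_const_nhds)).pow 3
      refine h1.div h3 (pow_ne_zero 3 ?_)
      obtain ⟨c', hc', hq'⟩ := qf_ge h.pos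
      have : 0 < qf G w + 1 := by
        have := hq' w
        have h6 : 0 ≤ c' * ‖w‖ ^ 2 := by positivity
        linarith
      exact_mod_cast this.ne'
  have hval : ∫ w : Cn 2, Φ p / ((qf G w + 1 : ℝ) : ℂ) ^ 3 = (Real.pi : ℂ) ^ 2 * κ p := by
    obtain ⟨f1, f2⟩ := flat_G h.pos
    have h1 : (fun w : Cn 2 => Φ p / ((qf G w + 1 : ℝ) : ℂ) ^ 3) =
        fun w => κ p * ((2 * G.det.re / (qf G w + 1) ^ 3 : ℝ) : ℂ) := by
      funext w
      have h2 : ((G.det.re : ℝ) : ℂ) = G.det := herm_det_im h.pos.isHermitian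
      rw [hΦ]
      push_cast
      rw [h2]
      ring
    rw [h1, integral_const_mul, integral_complex_ofReal, f2]
    push_cast
    ring
  rw [← hval]
  refine key.congr' ?_
  filter_upwards [self_mem_nhdsWithin] with ε hε
  exact (e1 ε hε).symm

/-- `pd (hess Λ) (hess Λ) = 2 N / q³` off `p` -/
theorem pd_L0 (h : Gd q p r c C) {z : Cn 2} (hz : z ∈ Metric.ball p r) (hzp : z ≠ p) :
    pd (hess (Ld q 0) z) (hess (Ld q 0) z) = 2 * NN q z / ((q z + 0 : ℝ) : ℂ) ^ 3 := by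
  rw [pd_Ld (h.sm z hz) (by rw [add_zero]; exact h.q_pos hz hzp)]
  simp

/-- **the residue of `log q`** -/
theorem res (h : Gd q p r c C) (hκ : CS (Metric.ball p r) κ) :
    Integrable (fun z => (Ld q 0 z : ℂ) * pd (hs κ z) (hess (Ld q 0) z)) ∧
    Integrable (fun z => κ z * pd (hess (Ld q 0) z) (hess (Ld q 0) z)) ∧
    ∫ z, (Ld q 0 z : ℂ) * pd (hs κ z) (hess (Ld q 0) z) =
      (Real.pi : ℂ) ^ 2 * κ p + ∫ z, κ z * pd (hess (Ld q 0) z) (hess (Ld q 0) z) := by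
  obtain ⟨l1, i1⟩ := h.lim1 hκ
  obtain ⟨l2, i2⟩ := h.lim2 hκ
  have l3 := h.lim3 hκ
  have hE : (fun z => κ z * (2 * NN q z / ((q z + 0 : ℝ) : ℂ) ^ 3)) =ᵐ[volume]
      fun z => κ z * pd (hess (Ld q 0) z) (hess (Ld q 0) z) := by
    filter_upwards [ae_ne p] with z hz
    by_cases hzb : z ∈ Metric.ball p r
    · rw [h.pd_L0 hzb hz]
    · rw [hκ.zero_off hzb, zero_mul, zero_mul]
  refine ⟨i1, i2.congr hE, ?_⟩
  have ht : Tendsto (fun ε : ℝ => ε ^ 2) (𝓝[>] 0) (𝓝[>] 0) := by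
    refine tendsto_nhdsWithin_iff.2 ⟨?_, ?_⟩
    · have : Tendsto (fun ε : ℝ => ε ^ 2) (𝓝 0) (𝓝 (0 ^ 2)) := (continuous_pow 2).tendsto 0
      rw [zero_pow two_ne_zero] at this
      exact this.mono_left nhdsWithin_le_nhds
    · filter_upwards [self_mem_nhdsWithin] with ε hε
      have : (0:ℝ) < ε := hε
      exact pow_pos this 2
  have l1' := l1.comp ht
  have l2' := l2.comp ht
  have l23 := l2'.add l3
  rw [← integral_congr_ae hE, add_comm]
  refine tendsto_nhds_unique l1' (l23.congr' ?_)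
  filter_upwards [self_mem_nhdsWithin] with ε hε
  have hε' : (0:ℝ) < ε := hε
  have hδ : (0:ℝ) < ε ^ 2 := pow_pos hε' 2
  -- the regularised identity
  have e1 : ∫ z, (Ld q (ε ^ 2) z : ℂ) * pd (hs κ z) (hess (Ld q (ε ^ 2)) z) =
      ∫ z, κ z * pd (hess (Ld q (ε ^ 2)) z) (hess (Ld q (ε ^ 2)) z) := by
    have := parts_pd (a := cu (Ld q (ε ^ 2))) (W := hess (Ld q (ε ^ 2))) hκ
      (fun z hz => contDiffAt_cu (sm_Ld (h.sm z hz) (h.qd_pos hz hδ)))
      (fun z hz => h.cl_hess_Ld hδ hz)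
    simp only [hs_cu] at this
    exact this
  show (∫ z, κ z * (2 * NN q z / ((q z + ε ^ 2 : ℝ) : ℂ) ^ 3)) +
    (∫ z, κ z * (2 * ((ε ^ 2 : ℝ) : ℂ) * (hess q z).det / ((q z + ε ^ 2 : ℝ) : ℂ) ^ 3)) =
    ∫ z, (Ld q (ε ^ 2) z : ℂ) * pd (hs κ z) (hess (Ld q (ε ^ 2)) z)
  rw [e1]
  have sden : ∀ z ∈ Metric.ball p r, Sm z (fun y => (((q y + ε ^ 2 : ℝ) : ℂ) ^ 3)⁻¹) := by
    intro z hz
    have s5 : Sm z (fun y => ((q y + ε ^ 2 : ℝ) : ℂ) ^ 3) :=
      (contDiffAt_cu ((h.sm z hz).add contDiffAt_const)).pow 3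
    exact s5.inv (pow_ne_zero 3 (by exact_mod_cast (h.qd_pos hz hδ).ne'))
  have sN : ∀ z ∈ Metric.ball p r, Sm z (NN q) := by
    intro z hz
    have s1 : Sm z (cu q) := contDiffAt_cu (h.sm z hz)
    have s2 : ∀ a b, Sm z (fun y => hess q y a b) := fun a b => contDiffAt_hess (h.sm z hz) a b
    have s3 : ∀ a b, Sm z (fun y => YY q y a b) := fun a b => (s1.dS _ _).mul (s1.dS _ _)
    have : NN q = fun y => cu q y * (hess q y 0 0 * hess q y 1 1 - hess q y 0 1 * hess q y 1 0) -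
        (((hess q y 0 0 * YY q y 1 1 + hess q y 1 1 * YY q y 0 0) -
          hess q y 0 1 * YY q y 1 0) - hess q y 1 0 * YY q y 0 1) := by
      funext y
      simp only [NN, pd, Matrix.det_fin_two]
      rfl
    rw [this]
    exact (s1.mul (((s2 0 0).mul (s2 1 1)).sub ((s2 0 1).mul (s2 1 0)))).sub
      (((((s2 0 0).mul (s3 1 1)).add ((s2 1 1).mul (s3 0 0))).sub
        ((s2 0 1).mul (s3 1 0))).sub ((s2 1 0).mul (s3 0 1)))
  have j1 : Integrable fun z => κ z * (2 * NN q z / ((q z + ε ^ 2 : ℝ) : ℂ) ^ 3) := by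
    simp only [div_eq_mul_inv]
    exact (hκ.mul fun z hz => (contDiffAt_const.mul (sN z hz)).mul (sden z hz)).integrable
  have j2 : Integrable fun z => κ z * (2 * ((ε ^ 2 : ℝ) : ℂ) * (hess q z).det /
      ((q z + ε ^ 2 : ℝ) : ℂ) ^ 3) := by
    simp only [div_eq_mul_inv]
    exact (hκ.mul fun z hz => (contDiffAt_const.mul (h.sm_det hz)).mul (sden z hz)).integrable
  rw [← integral_add j1 j2]
  refine integral_congr_ae (Eventually.of_forall fun z => ?_)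
  by_cases hz : z ∈ Metric.ball p r
  · show _ = κ z * pd (hess (Ld q (ε ^ 2)) z) (hess (Ld q (ε ^ 2)) z)
    rw [pd_Ld (h.sm z hz) (h.qd_pos hz hδ), mul_add]
  · show _ + _ = κ z * _
    rw [hκ.zero_off hz]
    ring

/-- no residue for `Λ W`, `W` smooth closed -/
theorem res1 (h : Gd q p r c C) (hκ : CS (Metric.ball p r) κ) {W : Cn 2 → Matrix (Fin 2) (Fin 2) ℂ}
    (hW : ∀ z ∈ Metric.ball p r, Cl W z) :
    Integrable (fun z => (Ld q 0 z : ℂ) * pd (hs κ z) (W z)) ∧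
    Integrable (fun z => κ z * pd (hess (Ld q 0) z) (W z)) ∧
    ∫ z, (Ld q 0 z : ℂ) * pd (hs κ z) (W z) = ∫ z, κ z * pd (hess (Ld q 0) z) (W z) := by
  have hC := h.C0
  have hc := h.c0
  have cW : CS (Metric.ball p r) (fun z => pd (hs κ z) (W z)) := cs_pd hκ fun z hz => (hW z hz).sm
  have cκW : ∀ a b, CS (Metric.ball p r) (fun z => κ z * W z a b) := fun a b =>
    hκ.mul fun z hz => (hW z hz).sm a b
  obtain ⟨K1, hK1, hb1⟩ := cs_bdd cW
  have hK2 : ∃ K > 0, ∀ z a b, ‖κ z * W z a b‖ ≤ K := by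
    have h := fun ab : Fin 2 × Fin 2 => cs_bdd (cκW ab.1 ab.2)
    choose K hK hb using h
    refine ⟨∑ ab, K ab, Finset.sum_pos (fun ab _ => hK ab) Finset.univ_nonempty, fun z a b => ?_⟩
    exact (hb (a, b) z).trans (Finset.single_le_sum (f := K) (fun ab _ => (hK ab).le)
      (Finset.mem_univ (a, b)))
  obtain ⟨K2, hK2, hb2⟩ := hK2
  have A := dct (p := p) (r := r) (K := (C + 2 / √c) * K1)
    (F := fun δ z => (Ld q δ z : ℂ) * pd (hs κ z) (W z))
    (f := fun z => (Ld q 0 z : ℂ) * pd (hs κ z) (W z)) (by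
      filter_upwards [self_mem_nhdsWithin] with δ hδ
      exact (CS.mul' (fun z hz => contDiffAt_cu (sm_Ld (h.sm z hz)
        (h.qd_pos hz hδ))) cW).sm.continuous.aestronglyMeasurable) (by
      filter_upwards [ev01] with δ hδ z hzp
      by_cases hz : z ∈ Metric.ball p r
      · have hw := wpos hzp
        have hw1 := h.wle hz
        rw [dom_of_mem hz, norm_mul, norm_real]
        have e1 := h.Ld_le hz hzp hδ.1.le hδ.2
        have e3 : ‖z - p‖⁻¹ ≤ (‖z - p‖ ^ 3)⁻¹ :=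
          inv_anti₀ (by positivity) (by
            calc ‖z - p‖ ^ 3 ≤ ‖z - p‖ ^ 1 := pow_le_pow_of_le_one hw.le hw1 (by norm_num)
              _ = _ := pow_one _)
        calc ‖Ld q δ z‖ * ‖pd (hs κ z) (W z)‖ ≤ ((C + 2 / √c) * ‖z - p‖⁻¹) * K1 :=
              mul_le_mul e1 (hb1 z) (norm_nonneg _) (by positivity)
          _ ≤ ((C + 2 / √c) * (‖z - p‖ ^ 3)⁻¹) * K1 := by gcongr
          _ = _ := by ring
      · rw [cW.zero_off hz, mul_zero, norm_zero]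
        exact mul_nonneg (by positivity) (dom_nonneg _ _ _)) (by
      intro z hzp
      by_cases hz : z ∈ Metric.ball p r
      · exact ((Complex.continuous_ofReal.tendsto _).comp (h.tendsto_Ld hz hzp)).mul
          tendsto_const_nhds
      · simp only [cW.zero_off hz, mul_zero]
        exact tendsto_const_nhds)
  have hpd : ∀ (X : Matrix (Fin 2) (Fin 2) ℂ) z, κ z * pd X (W z) = pd X (κ z • W z) := by
    intro X z
    rw [pd_smul]
  have B := dct (p := p) (r := r) (K := 4 * ((C / c + C ^ 2 / c ^ 2) * K2))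
    (F := fun δ z => κ z * pd (hess (Ld q δ) z) (W z))
    (f := fun z => κ z * pd (hess (Ld q 0) z) (W z)) (by
      filter_upwards [self_mem_nhdsWithin] with δ hδ
      have : CS (Metric.ball p r) (fun z => κ z * pd (hess (Ld q δ) z) (W z)) := by
        refine hκ.mul fun z hz => ?_
        have s1 := h.sm_hess_Ld hδ hz
        have s2 := (hW z hz).sm
        exact ((((s1 0 0).mul (s2 1 1)).add ((s1 1 1).mul (s2 0 0))).sub
          ((s1 0 1).mul (s2 1 0))).sub ((s1 1 0).mul (s2 0 1))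
      exact this.sm.continuous.aestronglyMeasurable) (by
      filter_upwards [ev01] with δ hδ z hzp
      by_cases hz : z ∈ Metric.ball p r
      · have hw := wpos hzp
        have hw1 := h.wle hz
        rw [dom_of_mem hz, hpd]
        have e3 : (‖z - p‖ ^ 2)⁻¹ ≤ (‖z - p‖ ^ 3)⁻¹ :=
          inv_anti₀ (by positivity) (pow_le_pow_of_le_one hw.le hw1 (by norm_num))
        calc ‖pd (hess (Ld q δ) z) (κ z • W z)‖
            ≤ 4 * (((C / c + C ^ 2 / c ^ 2) * (‖z - p‖ ^ 2)⁻¹) * K2) :=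
              norm_pd_le (fun a b => h.hess_le hz hzp hδ.1.le a b) (fun a b => hb2 z a b)
          _ ≤ 4 * (((C / c + C ^ 2 / c ^ 2) * (‖z - p‖ ^ 3)⁻¹) * K2) := by gcongr
          _ = _ := by ring
      · rw [hκ.zero_off hz, zero_mul, norm_zero]
        exact mul_nonneg (by positivity) (dom_nonneg _ _ _)) (by
      intro z hzp
      by_cases hz : z ∈ Metric.ball p r
      · refine tendsto_const_nhds.mul ?_
        simp only [pd_comm _ (W z)]
        exact h.tendsto_pd hz hzp _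
      · simp only [hκ.zero_off hz, zero_mul]
        exact tendsto_const_nhds)
  refine ⟨A.2, B.2, tendsto_nhds_unique A.1 (B.1.congr' ?_)⟩
  filter_upwards [self_mem_nhdsWithin] with δ hδ
  have := parts_pd (a := cu (Ld q δ)) (W := W) hκ
      (fun z hz => contDiffAt_cu (sm_Ld (h.sm z hz) (h.qd_pos hz hδ))) hW
  simp only [hs_cu] at this
  exact this.symm

end Gd

end

end Crest.Agent.R257.Idx4_761
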