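import Crest.Agent.R257.Idx4_761

/-!
# R257 (S0395), leaf GB-IDX, part 5 (helper761): forms without residue

* `res0` : `∫ pd (hs κ) (hess Λ) = 0`
* `resT` : `∫ κ ddm Θ = ∫ pd (hs κ) Θ` for `Θ = f / q`, `f` smooth, `f = O(|z - p|^2)`
-/

set_option autoImplicit false
set_option linter.unusedSectionVars false

open Set Filter Topology Complex MeasureTheory Asymptotics
open scoped ContDiff Matrix ComplexConjugate ComplexOrder

namespace Crest.Agent.R257.Idx5_761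

open Crest.Agent.R275.Geo Crest.Agent.R275.EDR890 Crest.Agent.R273.Calc_243
open Crest.Agent.R273.Hess_333 Crest.Agent.R273.HessB_333 Crest.Agent.R273.BochD_101
open Crest.Agent.R257.C2F1_625 Crest.Agent.R257.C2F2_625
open Crest.Agent.R257.Idx1_761 Crest.Agent.R257.Idx2_761
open Crest.Agent.R257.Idx3_761 Crest.Agent.R257.Idx3_761.NZ Crest.Agent.R257.Idx4_761

noncomputable section

variable {q : Cn 2 → ℝ} {p : Cn 2} {r c C : ℝ} {κ : Cn 2 → ℂ}

/-- no residue for `hess Λ` -/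
theorem res0 (h : Gd q p r c C) (hκ : CS (Metric.ball p r) κ) :
    Integrable (fun z => pd (hs κ z) (hess (Ld q 0) z)) ∧
    ∫ z, pd (hs κ z) (hess (Ld q 0) z) = 0 := by
  have hC := h.C0
  have hc := h.c0
  obtain ⟨Kκ, hKκ, hκb⟩ := cs_hs_bdd hκ
  have A := dct (p := p) (r := r) (K := 4 * (Kκ * (C / c + C ^ 2 / c ^ 2)))
    (F := fun δ z => pd (hs κ z) (hess (Ld q δ) z))
    (f := fun z => pd (hs κ z) (hess (Ld q 0) z)) (by
      filter_upwards [self_mem_nhdsWithin] with δ hδ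
      exact (cs_pd hκ fun z hz => h.sm_hess_Ld hδ hz).sm.continuous.aestronglyMeasurable) (by
      filter_upwards [Gd.ev01] with δ hδ z hzp
      by_cases hz : z ∈ Metric.ball p r
      · have hw := Gd.wpos hzp
        have hw1 := h.wle hz
        rw [dom_of_mem hz]
        have e3 : (‖z - p‖ ^ 2)⁻¹ ≤ (‖z - p‖ ^ 3)⁻¹ :=
          inv_anti₀ (by positivity) (pow_le_pow_of_le_one hw.le hw1 (by norm_num))
        calc ‖pd (hs κ z) (hess (Ld q δ) z)‖
            ≤ 4 * (Kκ * ((C / c + C ^ 2 / c ^ 2) * (‖z - p‖ ^ 2)⁻¹)) :=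
              norm_pd_le (hκb z) (fun a b => h.hess_le hz hzp hδ.1.le a b)
          _ ≤ 4 * (Kκ * ((C / c + C ^ 2 / c ^ 2) * (‖z - p‖ ^ 3)⁻¹)) := by gcongr
          _ = _ := by ring
      · rw [(cs_pd hκ fun z hz => h.sm_hess_Ld hδ.1 hz).zero_off hz, norm_zero]
        exact mul_nonneg (by positivity) (dom_nonneg _ _ _)) (by
      intro z hzp
      by_cases hz : z ∈ Metric.ball p r
      · exact h.tendsto_pd hz hzp _
      · have : hs κ z = 0 := by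
          ext a b
          exact (cs_hs hκ a b).zero_off hz
        simp only [this, pd, Matrix.zero_apply, zero_mul, add_zero, sub_zero]
        exact tendsto_const_nhds)
  refine ⟨A.2, tendsto_nhds_unique A.1 (tendsto_const_nhds.congr' ?_)⟩
  filter_upwards [self_mem_nhdsWithin] with δ hδ
  have e := parts_pd (a := fun _ => (1 : ℂ)) (W := hess (Ld q δ)) hκ
      (fun z _ => contDiffAt_const) (fun z hz => h.cl_hess_Ld hδ hz)
  have h1 : ∀ z, hs (fun _ : Cn 2 => (1 : ℂ)) z = 0 := by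
    intro z
    ext a b
    rw [hs_apply]
    have : dS I b (fun _ : Cn 2 => (1 : ℂ)) = fun _ => 0 := by
      funext y; exact dS_const
    rw [this]
    exact dS_const
  simp only [one_mul, h1, pd, Matrix.zero_apply, zero_mul, add_zero, sub_zero, mul_zero,
    integral_zero] at e
  exact e.symm

/-- `f / (q + δ)` -/
def Th (q : Cn 2 → ℝ) (f : Cn 2 → ℂ) (δ : ℝ) (z : Cn 2) : ℂ := f z * (((q z + δ : ℝ) : ℂ))⁻¹

theorem dS_inv {n : ℕ} {f : Cn n → ℂ} {z : Cn n} (hf : DifferentiableAt ℝ f z) (h0 : f z ≠ 0)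
    (s : ℂ) (a : Fin n) : dS s a (fun y => (f y)⁻¹) z = - dS s a f z * ((f z)⁻¹) ^ 2 := by
  have h1 : (fun y => f y * (f y)⁻¹) =ᶠ[𝓝 z] fun _ => (1 : ℂ) := by
    filter_upwards [hf.continuousAt.eventually_ne h0] with y hy
    exact mul_inv_cancel₀ hy
  have h2 := dS_congr (s := s) (a := a) h1
  rw [dS_const, dS_mul (g := fun y => (f y)⁻¹) hf (hf.inv h0)] at h2
  have h3 : f z * dS s a (fun y => (f y)⁻¹) z = - (dS s a f z * (f z)⁻¹) := by
    linear_combination h2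
  field_simp
  field_simp at h3
  linear_combination h3

theorem dS_pow2 {n : ℕ} {f : Cn n → ℂ} {z : Cn n} (hf : DifferentiableAt ℝ f z)
    (s : ℂ) (a : Fin n) : dS s a (fun y => (f y) ^ 2) z = 2 * f z * dS s a f z := by
  have : (fun y => (f y) ^ 2) = fun y => f y * f y := by funext y; ring
  rw [this, dS_mul hf hf]
  ring

theorem sm_qd {δ : ℝ} {z : Cn 2} (hq : ContDiffAt ℝ ∞ q z) (h0 : 0 < q z + δ) :
    Sm z (fun y => (((q y + δ : ℝ) : ℂ))⁻¹) := by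
  have hq' : Sm z (fun y => ((q y + δ : ℝ) : ℂ)) := contDiffAt_cu (hq.add contDiffAt_const)
  exact hq'.inv (by exact_mod_cast h0.ne')

theorem sm_Th {f : Cn 2 → ℂ} {δ : ℝ} {z : Cn 2} (hf : Sm z f) (hq : ContDiffAt ℝ ∞ q z)
    (h0 : 0 < q z + δ) : Sm z (Th q f δ) := hf.mul (sm_qd hq h0)

theorem dS_qd {δ : ℝ} {z : Cn 2} (hq : ContDiffAt ℝ ∞ q z) (h0 : 0 < q z + δ) (s : ℂ) (a : Fin 2) :
    dS s a (fun y => (((q y + δ : ℝ) : ℂ))⁻¹) z =
      - dS s a (cu q) z * ((((q z + δ : ℝ) : ℂ))⁻¹) ^ 2 := by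
  have hq' : Sm z (fun y => ((q y + δ : ℝ) : ℂ)) := contDiffAt_cu (hq.add contDiffAt_const)
  rw [dS_inv hq'.diff (by exact_mod_cast h0.ne')]
  congr 2
  exact congrFun (dS_cu_add q δ s a) z

/-- first derivative of a quotient by `q + δ` -/
theorem dS_Th {f : Cn 2 → ℂ} {δ : ℝ} {z : Cn 2} (hf : Sm z f) (hq : ContDiffAt ℝ ∞ q z)
    (h0 : 0 < q z + δ) (s : ℂ) (a : Fin 2) :
    dS s a (Th q f δ) z = dS s a f z * (((q z + δ : ℝ) : ℂ))⁻¹
      - f z * (dS s a (cu q) z * ((((q z + δ : ℝ) : ℂ))⁻¹) ^ 2) := by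
  have : Th q f δ = fun y => f y * (((q y + δ : ℝ) : ℂ))⁻¹ := rfl
  rw [this, dS_mul hf.diff (sm_qd hq h0).diff, dS_qd hq h0]
  ring

/-- second derivative of a quotient by `q + δ` -/
def E2 (q : Cn 2 → ℝ) (f : Cn 2 → ℂ) (a b : Fin 2) (δ : ℝ) (z : Cn 2) : ℂ :=
  dS (-I) a (dS I b f) z * (((q z + δ : ℝ) : ℂ))⁻¹
    - (dS I b f z * dS (-I) a (cu q) z + dS (-I) a f z * dS I b (cu q) z + f z * hess q z a b) *
      ((((q z + δ : ℝ) : ℂ))⁻¹) ^ 2
    + 2 * f z * dS I b (cu q) z * dS (-I) a (cu q) z * ((((q z + δ : ℝ) : ℂ))⁻¹) ^ 3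

theorem dS2_Th {f : Cn 2 → ℂ} {δ : ℝ} {z : Cn 2} (hf : ∀ᶠ y in 𝓝 z, Sm y f)
    (hq : ∀ᶠ y in 𝓝 z, ContDiffAt ℝ ∞ q y) (h0 : ∀ᶠ y in 𝓝 z, 0 < q y + δ) (a b : Fin 2) :
    dS (-I) a (dS I b (Th q f δ)) z = E2 q f a b δ z := by
  have e1 : dS I b (Th q f δ) =ᶠ[𝓝 z] fun y => dS I b f y * (((q y + δ : ℝ) : ℂ))⁻¹
      - f y * (dS I b (cu q) y * ((((q y + δ : ℝ) : ℂ))⁻¹) ^ 2) := by
    filter_upwards [hf, hq, h0] with y h1 h2 h3
    exact dS_Th h1 h2 h3 I b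
  have sf := hf.self_of_nhds
  have sq := hq.self_of_nhds
  have s0 := h0.self_of_nhds
  have cq : Sm z (cu q) := contDiffAt_cu sq
  have sI := sm_qd sq s0
  have sI2 : Sm z (fun y => ((((q y + δ : ℝ) : ℂ))⁻¹) ^ 2) := sI.pow 2
  have d1 : Sm z (fun y => dS I b f y * (((q y + δ : ℝ) : ℂ))⁻¹) := (sf.dS I b).mul sI
  have d2 : Sm z (fun y => dS I b (cu q) y * ((((q y + δ : ℝ) : ℂ))⁻¹) ^ 2) := (cq.dS I b).mul sI2
  have d3 : Sm z (fun y => f y * (dS I b (cu q) y * ((((q y + δ : ℝ) : ℂ))⁻¹) ^ 2)) := sf.mul d2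
  rw [dS_congr e1, dS_sub d1.diff d3.diff, dS_mul (sf.dS I b).diff sI.diff, dS_mul sf.diff d2.diff,
    dS_mul (cq.dS I b).diff sI2.diff, dS_pow2 sI.diff, dS_qd sq s0, E2, hess_eq]
  ring

/-- bounds for a smooth function vanishing to second order -/
structure FB (f : Cn 2 → ℂ) (p : Cn 2) (r K : ℝ) : Prop where
  K0 : 0 < K
  sm : ∀ z ∈ Metric.ball p r, Sm z f
  b0 : ∀ z ∈ Metric.ball p r, ‖f z‖ ≤ K * ‖z - p‖ ^ 2
  b1 : ∀ z ∈ Metric.ball p r, ∀ a, ‖dS (-I) a f z‖ ≤ K * ‖z - p‖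
  b1' : ∀ z ∈ Metric.ball p r, ∀ a, ‖dS I a f z‖ ≤ K * ‖z - p‖
  b2 : ∀ z ∈ Metric.ball p r, ∀ a b, ‖dS (-I) a (dS I b f) z‖ ≤ K

theorem FB.mono {f : Cn 2 → ℂ} {r' K : ℝ} (h : FB f p r K) (hr : r' ≤ r) : FB f p r' K := by
  have hs : Metric.ball p r' ⊆ Metric.ball p r := Metric.ball_subset_ball hr
  exact ⟨h.K0, fun z hz => h.sm z (hs hz), fun z hz => h.b0 z (hs hz), fun z hz => h.b1 z (hs hz),
    fun z hz => h.b1' z (hs hz), fun z hz => h.b2 z (hs hz)⟩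

theorem exists_FB {f : Cn 2 → ℂ} (hf : ∀ᶠ z in 𝓝 p, Sm z f) (h2 : Oo p 2 f) :
    ∃ r > 0, ∃ K, FB f p r K := by
  have sf := hf.self_of_nhds
  have hf0 : f p = 0 := by
    obtain ⟨C, hC⟩ := IsBigO.bound h2
    have := hC.self_of_nhds
    simpa using this
  have hfd : fderiv ℝ f p = 0 := by
    have h3 : f =o[𝓝 p] fun z => z - p := by
      refine IsBigO.trans_isLittleO h2 ?_
      have h4 : (fun z : Cn 2 => ‖z - p‖ ^ 2) = fun z => ‖z - p‖ * ‖z - p‖ := by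
        funext z; ring
      rw [h4]
      have h5 : (fun z : Cn 2 => ‖z - p‖ * ‖z - p‖) =o[𝓝 p] fun z => (1:ℝ) * ‖z - p‖ := by
        refine IsLittleO.mul_isBigO ?_ (isBigO_refl _ _)
        refine (isLittleO_one_iff ℝ).2 ?_
        have : Tendsto (fun z : Cn 2 => ‖z - p‖) (𝓝 p) (𝓝 ‖p - p‖) :=
          (continuous_id.sub continuous_const).norm.tendsto p
        rwa [sub_self, norm_zero] at this
      simp only [one_mul] at h5
      exact h5.of_norm_right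
    have h6 : HasFDerivAt f (0 : Cn 2 →L[ℝ] ℂ) p := by
      rw [hasFDerivAt_iff_isLittleO]
      simpa [hf0] using h3
    exact h6.fderiv
  have z1 : ∀ s a, dS s a f p = 0 := fun s a => by simp [dS, hfd]
  obtain ⟨C1, hC1, e1⟩ := Oo.exs (ι := Unit) (f := fun _ => f) (fun _ => h2)
  obtain ⟨C2, hC2, e2⟩ := Oo.exs (f := fun a => dS (-I) a f) (fun a =>
    Oo.of_diff (sf.dS (-I) a).diff (z1 _ _))
  obtain ⟨C3, hC3, e3⟩ := Oo.exs (f := fun a => dS I a f) (fun a =>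
    Oo.of_diff (sf.dS I a).diff (z1 _ _))
  obtain ⟨C4, hC4, e4⟩ := Oo.exs (ι := Fin 2 × Fin 2) (p := p) (k := 0)
    (f := fun ab => dS (-I) ab.1 (dS I ab.2 f)) (fun ab =>
      Oo.of_cont ((sf.dS I ab.2).dS (-I) ab.1).continuousAt)
  obtain ⟨r, hr, hb⟩ := Metric.eventually_nhds_iff_ball.1 (((((e1.and e2).and e3).and e4)).and hf)
  set K := C1 + C2 + C3 + C4 with hK
  refine ⟨r, hr, K, by positivity, fun z hz => (hb z hz).2, ?_, ?_, ?_, ?_⟩
  · intro z hz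
    exact ((hb z hz).1.1.1.1 ()).trans (mul_le_mul_of_nonneg_right (by rw [hK]; linarith)
      (by positivity))
  · intro z hz a
    have := (hb z hz).1.1.1.2 a
    rw [pow_one] at this
    exact this.trans (mul_le_mul_of_nonneg_right (by rw [hK]; linarith) (norm_nonneg _))
  · intro z hz a
    have := (hb z hz).1.1.2 a
    rw [pow_one] at this
    exact this.trans (mul_le_mul_of_nonneg_right (by rw [hK]; linarith) (norm_nonneg _))
  · intro z hz a b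
    have := (hb z hz).1.2 (a, b)
    rw [pow_zero, mul_one] at this
    exact this.trans (by rw [hK]; linarith)

/-- bound of the second derivative -/
theorem E2_le (h : Gd q p r c C) {f : Cn 2 → ℂ} {K : ℝ} (hf : FB f p r K) {z : Cn 2}
    (hz : z ∈ Metric.ball p r) (hzp : z ≠ p) {δ : ℝ} (h0 : 0 ≤ δ) (a b : Fin 2) :
    ‖E2 q f a b δ z‖ ≤ (K / c + 3 * K * C / c ^ 2 + 2 * K * C ^ 2 / c ^ 3) * (‖z - p‖ ^ 2)⁻¹ := by
  have hw := Gd.wpos hzp
  have hC := h.C0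
  have hc := h.c0
  have hK := hf.K0
  have hx : c * ‖z - p‖ ^ 2 ≤ q z + δ := (h.lo z hz).trans (by linarith)
  have hcw : 0 < c * ‖z - p‖ ^ 2 := mul_pos h.c0 (pow_pos hw 2)
  have hx0 : 0 < q z + δ := lt_of_lt_of_le hcw hx
  set m := (((q z + δ : ℝ) : ℂ))⁻¹ with hm
  have hmn : ‖m‖ ≤ (c * ‖z - p‖ ^ 2)⁻¹ := by
    rw [hm, norm_inv, norm_real, Real.norm_of_nonneg hx0.le]
    exact inv_anti₀ hcw hx
  have g1 : ‖dS (-I) a (dS I b f) z * m‖ ≤ K * (c * ‖z - p‖ ^ 2)⁻¹ := by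
    rw [norm_mul]
    exact mul_le_mul (hf.b2 z hz a b) hmn (norm_nonneg _) hK.le
  have g2 : ‖(dS I b f z * dS (-I) a (cu q) z + dS (-I) a f z * dS I b (cu q) z
      + f z * hess q z a b) * m ^ 2‖ ≤ 3 * K * C * ‖z - p‖ ^ 2 * ((c * ‖z - p‖ ^ 2)⁻¹) ^ 2 := by
    rw [norm_mul, norm_pow]
    refine mul_le_mul ?_ (pow_le_pow_left₀ (norm_nonneg _) hmn 2) (by positivity) (by positivity)
    have t1 : ‖dS I b f z * dS (-I) a (cu q) z‖ ≤ (K * ‖z - p‖) * (C * ‖z - p‖) := by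
      rw [norm_mul]
      exact mul_le_mul (hf.b1' z hz b) (h.qa z hz a) (norm_nonneg _) (by positivity)
    have t2 : ‖dS (-I) a f z * dS I b (cu q) z‖ ≤ (K * ‖z - p‖) * (C * ‖z - p‖) := by
      rw [norm_mul]
      exact mul_le_mul (hf.b1 z hz a) (h.qb z hz b) (norm_nonneg _) (by positivity)
    have t3 : ‖f z * hess q z a b‖ ≤ (K * ‖z - p‖ ^ 2) * C := by
      rw [norm_mul]
      exact mul_le_mul (hf.b0 z hz) (h.Q z hz a b) (norm_nonneg _) (by positivity)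
    refine (norm_add_le _ _).trans ?_
    have t4 := norm_add_le (dS I b f z * dS (-I) a (cu q) z) (dS (-I) a f z * dS I b (cu q) z)
    nlinarith
  have g3 : ‖2 * f z * dS I b (cu q) z * dS (-I) a (cu q) z * m ^ 3‖ ≤
      2 * (K * ‖z - p‖ ^ 2) * (C * ‖z - p‖) * (C * ‖z - p‖) * ((c * ‖z - p‖ ^ 2)⁻¹) ^ 3 := by
    rw [norm_mul, norm_mul, norm_mul, norm_mul, norm_pow, Complex.norm_two]
    refine mul_le_mul ?_ (pow_le_pow_left₀ (norm_nonneg _) hmn 3) (by positivity) (by positivity)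
    refine mul_le_mul ?_ (h.qa z hz a) (norm_nonneg _) (by positivity)
    refine mul_le_mul ?_ (h.qb z hz b) (norm_nonneg _) (by positivity)
    exact mul_le_mul_of_nonneg_left (hf.b0 z hz) (by norm_num)
  have e : E2 q f a b δ z = dS (-I) a (dS I b f) z * m -
      (dS I b f z * dS (-I) a (cu q) z + dS (-I) a f z * dS I b (cu q) z
      + f z * hess q z a b) * m ^ 2 + 2 * f z * dS I b (cu q) z * dS (-I) a (cu q) z * m ^ 3 := rfl
  rw [e]
  refine (norm_add_le _ _).trans ((add_le_add ((norm_sub_le _ _).trans (add_le_add g1 g2)) g3).trans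
    (le_of_eq ?_))
  have := hw.ne'
  have := hc.ne'
  field_simp

theorem Th_le (h : Gd q p r c C) {f : Cn 2 → ℂ} {K : ℝ} (hf : FB f p r K) {z : Cn 2}
    (hz : z ∈ Metric.ball p r) (hzp : z ≠ p) {δ : ℝ} (h0 : 0 ≤ δ) :
    ‖Th q f δ z‖ ≤ K / c := by
  have hw := Gd.wpos hzp
  have hc := h.c0
  have hK := hf.K0
  have hx : c * ‖z - p‖ ^ 2 ≤ q z + δ := (h.lo z hz).trans (by linarith)
  have hcw : 0 < c * ‖z - p‖ ^ 2 := mul_pos h.c0 (pow_pos hw 2)
  have hx0 : 0 < q z + δ := lt_of_lt_of_le hcw hx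
  rw [Th, norm_mul, norm_inv, norm_real, Real.norm_of_nonneg hx0.le]
  calc ‖f z‖ * (q z + δ)⁻¹ ≤ (K * ‖z - p‖ ^ 2) * (c * ‖z - p‖ ^ 2)⁻¹ :=
        mul_le_mul (hf.b0 z hz) (inv_anti₀ hcw hx) (by positivity) (by positivity)
    _ = _ := by field_simp

theorem tendsto_m (h : Gd q p r c C) {z : Cn 2} (hz : z ∈ Metric.ball p r) (hzp : z ≠ p) :
    Tendsto (fun δ : ℝ => (((q z + δ : ℝ) : ℂ))⁻¹) (𝓝[>] 0) (𝓝 ((((q z + 0 : ℝ) : ℂ))⁻¹)) := by
  have h0 := h.q_pos hz hzp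
  have h1 : Tendsto (fun δ : ℝ => ((q z + δ : ℝ) : ℂ)) (𝓝[>] 0) (𝓝 ((q z + 0 : ℝ) : ℂ)) :=
    (Complex.continuous_ofReal.tendsto _).comp
      ((tendsto_const_nhds.add tendsto_id).mono_left nhdsWithin_le_nhds)
  exact h1.inv₀ (by rw [add_zero]; exact_mod_cast h0.ne')

theorem tendsto_E2 (h : Gd q p r c C) (f : Cn 2 → ℂ) {z : Cn 2} (hz : z ∈ Metric.ball p r)
    (hzp : z ≠ p) (a b : Fin 2) :
    Tendsto (fun δ => E2 q f a b δ z) (𝓝[>] 0) (𝓝 (E2 q f a b 0 z)) := by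
  have hm := tendsto_m h hz hzp
  exact ((tendsto_const_nhds.mul hm).sub (tendsto_const_nhds.mul (hm.pow 2))).add
    (tendsto_const_nhds.mul (hm.pow 3))

/-- the matrix version of `Th` -/
def TM (q : Cn 2 → ℝ) (f : Cn 2 → Matrix (Fin 2) (Fin 2) ℂ) (δ : ℝ) (z : Cn 2) :
    Matrix (Fin 2) (Fin 2) ℂ := Matrix.of fun a b => Th q (fun y => f y a b) δ z

/-- `ddm` of `f / (q + δ)` in terms of `E2` -/
def DE (q : Cn 2 → ℝ) (f : Cn 2 → Matrix (Fin 2) (Fin 2) ℂ) (δ : ℝ) (z : Cn 2) : ℂ :=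
  E2 q (fun y => f y 1 1) 0 0 δ z + E2 q (fun y => f y 0 0) 1 1 δ z
    - E2 q (fun y => f y 1 0) 0 1 δ z - E2 q (fun y => f y 0 1) 1 0 δ z

theorem ddm_TM {f : Cn 2 → Matrix (Fin 2) (Fin 2) ℂ} {δ : ℝ} {z : Cn 2}
    (hf : ∀ a b, ∀ᶠ y in 𝓝 z, Sm y (fun y => f y a b))
    (hq : ∀ᶠ y in 𝓝 z, ContDiffAt ℝ ∞ q y) (h0 : ∀ᶠ y in 𝓝 z, 0 < q y + δ) :
    ddm (TM q f δ) z = DE q f δ z := by
  have e := fun a b i j => dS2_Th (δ := δ) (hf i j) hq h0 a b
  have e' : ∀ i j, (fun y => TM q f δ y i j) = Th q (fun y => f y i j) δ := fun i j => rfl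
  unfold ddm DE
  rw [e', e', e', e', e, e, e, e]

/-- no residue for a bounded form `f / q` -/
theorem resT (h : Gd q p r c C) (hκ : CS (Metric.ball p r) κ)
    {f : Cn 2 → Matrix (Fin 2) (Fin 2) ℂ} {K : ℝ} (hf : ∀ a b, FB (fun y => f y a b) p r K) :
    Integrable (fun z => κ z * ddm (TM q f 0) z) ∧
    Integrable (fun z => pd (hs κ z) (TM q f 0 z)) ∧
    ∫ z, κ z * ddm (TM q f 0) z = ∫ z, pd (hs κ z) (TM q f 0 z) := by
  have hC := h.C0
  have hc := h.c0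
  have hK := (hf 0 0).K0
  obtain ⟨Kκ, hKκ, hκb⟩ := cs_bdd hκ
  obtain ⟨Kh, hKh, hhb⟩ := cs_hs_bdd hκ
  have hev : ∀ z ∈ Metric.ball p r, ∀ᶠ y in 𝓝 z, y ∈ Metric.ball p r := fun z hz =>
    Metric.isOpen_ball.mem_nhds hz
  have sT : ∀ δ, 0 < δ → ∀ z ∈ Metric.ball p r, SmM z (TM q f δ) := fun δ hδ z hz a b =>
    sm_Th ((hf a b).sm z hz) (h.sm z hz) (h.qd_pos hz hδ)
  have dT : ∀ δ, 0 < δ → ∀ z ∈ Metric.ball p r, ddm (TM q f δ) z = DE q f δ z := by
    intro δ hδ z hz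
    refine ddm_TM (fun a b => ?_) ?_ ?_
    · filter_upwards [hev z hz] with y hy using (hf a b).sm y hy
    · filter_upwards [hev z hz] with y hy using h.sm y hy
    · filter_upwards [hev z hz] with y hy using h.qd_pos hy hδ
  have dT0 : ∀ z ∈ Metric.ball p r, z ≠ p → ddm (TM q f 0) z = DE q f 0 z := by
    intro z hz hzp
    refine ddm_TM (fun a b => ?_) ?_ ?_
    · filter_upwards [hev z hz] with y hy using (hf a b).sm y hy
    · filter_upwards [hev z hz] with y hy using h.sm y hy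
    · filter_upwards [hev z hz, isOpen_ne.mem_nhds hzp] with y hy hy2
      rw [add_zero]
      exact h.q_pos hy hy2
  set K2 := K / c + 3 * K * C / c ^ 2 + 2 * K * C ^ 2 / c ^ 3 with hK2
  have hK2p : 0 < K2 := by positivity
  have hDE : ∀ δ, 0 ≤ δ → ∀ z ∈ Metric.ball p r, z ≠ p →
      ‖DE q f δ z‖ ≤ 4 * K2 * (‖z - p‖ ^ 2)⁻¹ := by
    intro δ hδ z hz hzp
    have t := fun a b i j => E2_le h (hf i j) hz hzp hδ a b
    unfold DE
    calc _ ≤ ‖E2 q (fun y => f y 1 1) 0 0 δ z‖ + ‖E2 q (fun y => f y 0 0) 1 1 δ z‖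
          + ‖E2 q (fun y => f y 1 0) 0 1 δ z‖ + ‖E2 q (fun y => f y 0 1) 1 0 δ z‖ :=
        (norm_sub_le _ _).trans (add_le_add_left ((norm_sub_le _ _).trans
          (add_le_add_left (norm_add_le _ _) _)) _)
      _ ≤ _ := by linarith [t 0 0 1 1, t 1 1 0 0, t 0 1 1 0, t 1 0 0 1]
  have A := dct (p := p) (r := r) (K := Kκ * (4 * K2))
    (F := fun δ z => κ z * ddm (TM q f δ) z)
    (f := fun z => κ z * ddm (TM q f 0) z) (by
      filter_upwards [self_mem_nhdsWithin] with δ hδ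
      have : CS (Metric.ball p r) (fun z => κ z * ddm (TM q f δ) z) := by
        refine hκ.mul fun z hz => ?_
        have s := fun s t a b i j => ((sT δ hδ z hz i j).dS t b).dS s a
        exact (((s (-I) I 0 0 1 1).add (s (-I) I 1 1 0 0)).sub (s (-I) I 0 1 1 0)).sub
          (s (-I) I 1 0 0 1)
      exact this.sm.continuous.aestronglyMeasurable) (by
      filter_upwards [Gd.ev01] with δ hδ z hzp
      by_cases hz : z ∈ Metric.ball p r
      · have hw := Gd.wpos hzp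
        have hw1 := h.wle hz
        rw [dom_of_mem hz, norm_mul, dT δ hδ.1 z hz]
        have e3 : (‖z - p‖ ^ 2)⁻¹ ≤ (‖z - p‖ ^ 3)⁻¹ :=
          inv_anti₀ (by positivity) (pow_le_pow_of_le_one hw.le hw1 (by norm_num))
        calc ‖κ z‖ * ‖DE q f δ z‖ ≤ Kκ * (4 * K2 * (‖z - p‖ ^ 2)⁻¹) :=
              mul_le_mul (hκb z) (hDE δ hδ.1.le z hz hzp) (norm_nonneg _) hKκ.le
          _ ≤ Kκ * (4 * K2 * (‖z - p‖ ^ 3)⁻¹) := by gcongr
          _ = _ := by ring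
      · rw [hκ.zero_off hz, zero_mul, norm_zero]
        exact mul_nonneg (by positivity) (dom_nonneg _ _ _)) (by
      intro z hzp
      by_cases hz : z ∈ Metric.ball p r
      · rw [dT0 z hz hzp]
        have t := fun a b i j => tendsto_E2 h (fun y => f y i j) hz hzp a b
        have t2 : Tendsto (fun δ => κ z * DE q f δ z) (𝓝[>] 0) (𝓝 (κ z * DE q f 0 z)) :=
          tendsto_const_nhds.mul ((((t 0 0 1 1).add (t 1 1 0 0)).sub (t 0 1 1 0)).sub (t 1 0 0 1))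
        refine t2.congr' ?_
        filter_upwards [self_mem_nhdsWithin] with δ hδ
        rw [dT δ hδ z hz]
      · simp only [hκ.zero_off hz, zero_mul]
        exact tendsto_const_nhds)
  have B := dct (p := p) (r := r) (K := 4 * (Kh * (K / c)))
    (F := fun δ z => pd (hs κ z) (TM q f δ z))
    (f := fun z => pd (hs κ z) (TM q f 0 z)) (by
      filter_upwards [self_mem_nhdsWithin] with δ hδ
      exact (cs_pd hκ (sT δ hδ)).sm.continuous.aestronglyMeasurable) (by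
      filter_upwards [Gd.ev01] with δ hδ z hzp
      by_cases hz : z ∈ Metric.ball p r
      · have hw := Gd.wpos hzp
        have hw1 := h.wle hz
        rw [dom_of_mem hz]
        have e3 : 1 ≤ (‖z - p‖ ^ 3)⁻¹ :=
          (one_le_inv₀ (by positivity)).2 (pow_le_one₀ hw.le hw1)
        calc ‖pd (hs κ z) (TM q f δ z)‖ ≤ 4 * (Kh * (K / c)) :=
              norm_pd_le (hhb z) (fun a b => Th_le h (hf a b) hz hzp hδ.1.le)
          _ ≤ _ := le_mul_of_one_le_right (by positivity) e3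
      · rw [(cs_pd hκ (sT δ hδ.1)).zero_off hz, norm_zero]
        exact mul_nonneg (by positivity) (dom_nonneg _ _ _)) (by
      intro z hzp
      by_cases hz : z ∈ Metric.ball p r
      · have hm := tendsto_m h hz hzp
        have t : ∀ a b, Tendsto (fun δ => TM q f δ z a b) (𝓝[>] 0) (𝓝 (TM q f 0 z a b)) :=
          fun a b => tendsto_const_nhds.mul hm
        unfold pd
        exact (((tendsto_const_nhds.mul (t 1 1)).add (tendsto_const_nhds.mul (t 0 0))).sub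
          (tendsto_const_nhds.mul (t 1 0))).sub (tendsto_const_nhds.mul (t 0 1))
      · have : hs κ z = 0 := by
          ext a b
          exact (cs_hs hκ a b).zero_off hz
        simp only [this, pd, Matrix.zero_apply, zero_mul, add_zero, sub_zero]
        exact tendsto_const_nhds)
  refine ⟨A.2, B.2, tendsto_nhds_unique A.1 (B.1.congr' ?_)⟩
  filter_upwards [self_mem_nhdsWithin] with δ hδ
  exact (parts_ddm hκ (sT δ hδ)).symm

end

end Crest.Agent.R257.Idx5_761
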