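import Crest.Agent.R257.Idx5_761

/-!
# R257 (S0395), leaf GB-IDX, part 6 (helper761): **local index formula**

`ND H V p` : `H` (metric matrix) smooth and positive definite near `p`, `V` holomorphic near `p`
with a nondegenerate zero at `p`.
* `idx` : for `κ` smooth with compact support in a small ball around `p`
  `∫ κ c2(H) = ∫ pd (hs κ) (Λ (hess log det H - hess Λ) + bb H V) + π² κ(p)`, `Λ = log |V|²_H`
-/

set_option autoImplicit false
set_option linter.unusedSectionVars false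

open Set Filter Topology Complex MeasureTheory Asymptotics
open scoped ContDiff Matrix ComplexConjugate ComplexOrder

namespace Crest.Agent.R257.Idx6_761

open Crest.Agent.R275.Geo Crest.Agent.R275.EDR890 Crest.Agent.R273.Calc_243
open Crest.Agent.R273.Fock_243 Crest.Agent.R273.Bkn_243 Crest.Agent.R273.Pos_243
open Crest.Agent.R273.BochA_101 Crest.Agent.R273.BochB_101 Crest.Agent.R273.BochC_101
open Crest.Agent.R273.Hess_333 Crest.Agent.R273.HessB_333 Crest.Agent.R273.BochD_101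
open Crest.Agent.R257.C2F1_625 Crest.Agent.R257.C2F2_625
open Crest.Agent.R257.Idx1_761 Crest.Agent.R257.Idx2_761
open Crest.Agent.R257.Idx3_761 Crest.Agent.R257.Idx3_761.NZ Crest.Agent.R257.Idx4_761
open Crest.Agent.R257.Idx5_761

noncomputable section

/-- nondegenerate zero of a holomorphic section -/
structure ND (H : Cn 2 → Matrix (Fin 2) (Fin 2) ℂ) (V : Cn 2 → Fin 2 → ℂ) (p : Cn 2) : Prop where
  mH : ∀ᶠ y in 𝓝 p, SmM y H
  mP : ∀ᶠ y in 𝓝 p, (H y).PosDef
  mV : ∀ i, ∀ᶠ y in 𝓝 p, DifferentiableAt ℂ (fun w => V w i) y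
  v0 : V p = 0
  nd : (Matrix.of fun i a => dS (-I) a (fun w => V w i) p : Matrix (Fin 2) (Fin 2) ℂ).det ≠ 0

section hol

variable {n : ℕ} {p : Cn n} {v X : Cn n → ℂ}

theorem hol_sm (hv : ∀ᶠ y in 𝓝 p, DifferentiableAt ℂ v y) : ∀ᶠ y in 𝓝 p, Sm y v := by
  filter_upwards [hv.eventually_nhds] with y hy using sm_of_hol hy

theorem hol_dbar (hv : ∀ᶠ y in 𝓝 p, DifferentiableAt ℂ v y) (a : Fin n) :
    ∀ᶠ y in 𝓝 p, dS I a v y = 0 := by
  filter_upwards [hv] with y hy
  exact wd_hol hy a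

theorem sm_conj {z : Cn n} (hv : Sm z v) : Sm z (fun y => conj (v y)) :=
  Complex.conjCLE.contDiff.contDiffAt.comp z hv

/-- derivatives of `conj v * X` -/
theorem d1_cX (hv : ∀ᶠ y in 𝓝 p, DifferentiableAt ℂ v y) (hX : ∀ᶠ y in 𝓝 p, Sm y X) (a : Fin n) :
    dS (-I) a (fun y => conj (v y) * X y) =ᶠ[𝓝 p] fun y => conj (v y) * dS (-I) a X y := by
  filter_upwards [hol_sm hv, hol_dbar hv a, hX] with y h1 h2 h3
  rw [dS_mul (sm_conj h1).diff h3.diff, dS_conj h1.diff, conjnI, h2, map_zero]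
  ring

theorem d1_cX' (hv : ∀ᶠ y in 𝓝 p, DifferentiableAt ℂ v y) (hX : ∀ᶠ y in 𝓝 p, Sm y X) (a : Fin n) :
    dS I a (fun y => conj (v y) * X y) =ᶠ[𝓝 p] fun y =>
      conj (dS (-I) a v y) * X y + conj (v y) * dS I a X y := by
  filter_upwards [hol_sm hv, hX] with y h1 h3
  rw [dS_mul (sm_conj h1).diff h3.diff, dS_conj h1.diff, Complex.conj_I]

theorem cX1 (hv : ∀ᶠ y in 𝓝 p, DifferentiableAt ℂ v y) (hX : ∀ᶠ y in 𝓝 p, Sm y X) (h0 : v p = 0)
    (a : Fin n) : dS (-I) a (fun y => conj (v y) * X y) p = 0 := by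
  have h1 : dS (-I) a (fun y => conj (v y) * X y) p = conj (v p) * dS (-I) a X p :=
    (d1_cX hv hX a).self_of_nhds
  rw [h1, h0, map_zero, zero_mul]

theorem cX2 (hv : ∀ᶠ y in 𝓝 p, DifferentiableAt ℂ v y) (hX : ∀ᶠ y in 𝓝 p, Sm y X) (h0 : v p = 0)
    (a b : Fin n) : dS (-I) a (dS (-I) b (fun y => conj (v y) * X y)) p = 0 := by
  have sv := (hol_sm hv).self_of_nhds
  have sX := hX.self_of_nhds
  rw [dS_congr (d1_cX hv hX b), dS_mul (sm_conj sv).diff (sX.dS _ _).diff, dS_conj sv.diff, conjnI,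
    (hol_dbar hv a).self_of_nhds, h0]
  simp

theorem cX3 (hv : ∀ᶠ y in 𝓝 p, DifferentiableAt ℂ v y) (hX : ∀ᶠ y in 𝓝 p, Sm y X) (h0 : v p = 0)
    (hX0 : X p = 0) (a b : Fin n) : dS (-I) a (dS I b (fun y => conj (v y) * X y)) p =
      conj (dS (-I) b v p) * dS (-I) a X p := by
  have sv := (hol_sm hv).self_of_nhds
  have sX := hX.self_of_nhds
  have s1 : Sm p (fun y => conj (dS (-I) b v y)) := sm_conj (sv.dS _ _)
  have s2 : Sm p (fun y => conj (dS (-I) b v y) * X y) := s1.mul sX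
  have s3 : Sm p (fun y => conj (v y) * dS I b X y) := (sm_conj sv).mul (sX.dS _ _)
  rw [dS_congr (d1_cX' hv hX b), dS_add s2.diff s3.diff, dS_mul s1.diff sX.diff,
    dS_mul (sm_conj sv).diff (sX.dS _ _).diff, dS_conj sv.diff, conjnI,
    (hol_dbar hv a).self_of_nhds, h0, hX0]
  simp

end hol

variable {H : Cn 2 → Matrix (Fin 2) (Fin 2) ℂ} {V : Cn 2 → Fin 2 → ℂ} {p : Cn 2}

namespace ND

/-- `X = H V` -/
def X (H : Cn 2 → Matrix (Fin 2) (Fin 2) ℂ) (V : Cn 2 → Fin 2 → ℂ) (i : Fin 2) (y : Cn 2) : ℂ :=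
  H y i 0 * V y 0 + H y i 1 * V y 1

theorem smX (h : ND H V p) (i : Fin 2) : ∀ᶠ y in 𝓝 p, Sm y (X H V i) := by
  filter_upwards [h.mH, hol_sm (h.mV 0), hol_sm (h.mV 1)] with y h1 h2 h3
  exact ((h1 i 0).mul h2).add ((h1 i 1).mul h3)

theorem X0 (h : ND H V p) (i : Fin 2) : X H V i p = 0 := by
  simp [X, h.v0]

theorem hVc (H : Cn 2 → Matrix (Fin 2) (Fin 2) ℂ) (V : Cn 2 → Fin 2 → ℂ) (y : Cn 2) :
    star (V y) ⬝ᵥ (H y *ᵥ V y) = conj (V y 0) * X H V 0 y + conj (V y 1) * X H V 1 y := by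
  simp [dotProduct, Matrix.mulVec, Fin.sum_univ_two, X]

theorem cu_hV (h : ND H V p) : cu (hV H V) =ᶠ[𝓝 p] fun y =>
    conj (V y 0) * X H V 0 y + conj (V y 1) * X H V 1 y := by
  filter_upwards [h.mP] with y hy
  rw [← hVc]
  have h1 : 0 ≤ star (V y) ⬝ᵥ (H y *ᵥ V y) := hy.posSemidef.dotProduct_mulVec_nonneg _
  show (((star (V y) ⬝ᵥ (H y *ᵥ V y)).re : ℝ) : ℂ) = _
  exact Complex.ext (by simp) (by simpa using (Complex.le_def.1 h1).2)

theorem dX (h : ND H V p) (i a : Fin 2) : dS (-I) a (X H V i) p =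
    H p i 0 * dS (-I) a (fun w => V w 0) p + H p i 1 * dS (-I) a (fun w => V w 1) p := by
  have s0 := (hol_sm (h.mV 0)).self_of_nhds
  have s1 := (hol_sm (h.mV 1)).self_of_nhds
  have sH := h.mH.self_of_nhds
  have e : X H V i = fun y => H y i 0 * V y 0 + H y i 1 * V y 1 := rfl
  have d0 : DifferentiableAt ℝ (fun y => H y i 0 * V y 0) p := (sH i 0).diff.mul s0.diff
  have d1 : DifferentiableAt ℝ (fun y => H y i 1 * V y 1) p := (sH i 1).diff.mul s1.diff
  rw [e, dS_add d0 d1, dS_mul (f := fun y => H y i 0) (sH i 0).diff s0.diff,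
    dS_mul (f := fun y => H y i 1) (sH i 1).diff s1.diff, h.v0]
  simp

theorem sm_hV (h : ND H V p) : ∀ᶠ z in 𝓝 p, ContDiffAt ℝ ∞ (hV H V) z := by
  filter_upwards [h.mH, hol_sm (h.mV 0), hol_sm (h.mV 1)] with y h1 h2 h3
  have e : hV H V = fun y => (conj (V y 0) * X H V 0 y + conj (V y 1) * X H V 1 y).re := by
    funext y
    rw [← hVc]
    rfl
  rw [e]
  have sX : ∀ i, Sm y (X H V i) := fun i => ((h1 i 0).mul h2).add ((h1 i 1).mul h3)
  exact Complex.reCLM.contDiff.contDiffAt.comp y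
    (((sm_conj h2).mul (sX 0)).add ((sm_conj h3).mul (sX 1)))

/-- `|V|²_H` has a nondegenerate zero -/
theorem nz (h : ND H V p) : NZ (hV H V) p := by
  set J : Matrix (Fin 2) (Fin 2) ℂ := Matrix.of fun i a => dS (-I) a (fun w => V w i) p with hJ
  have f0 := h.smX 0
  have f1 := h.smX 1
  have sv : ∀ i, Sm p (fun w => V w i) := fun i => (hol_sm (h.mV i)).self_of_nhds
  have e1 : ∀ i, ∀ᶠ y in 𝓝 p, Sm y (fun y => conj (V y i) * X H V i y) := by
    intro i
    filter_upwards [hol_sm (h.mV i), h.smX i] with y h1 h2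
    exact (sm_conj h1).mul h2
  have add1 : ∀ s a, dS s a (cu (hV H V)) =ᶠ[𝓝 p] fun y =>
      dS s a (fun y => conj (V y 0) * X H V 0 y) y + dS s a (fun y => conj (V y 1) * X H V 1 y) y := by
    intro s a
    filter_upwards [h.cu_hV.eventually_nhds, e1 0, e1 1] with y h1 h2 h3
    rw [dS_congr h1]
    exact dS_add h2.diff h3.diff
  have add2 : ∀ s a t b, dS t b (dS s a (cu (hV H V))) p =
      dS t b (dS s a (fun y => conj (V y 0) * X H V 0 y)) p +
      dS t b (dS s a (fun y => conj (V y 1) * X H V 1 y)) p := by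
    intro s a t b
    rw [dS_congr (add1 s a)]
    exact dS_add ((e1 0).self_of_nhds.dS _ _).diff ((e1 1).self_of_nhds.dS _ _).diff
  have v0 : ∀ i, V p i = 0 := fun i => by rw [h.v0]; rfl
  have hG : hess (hV H V) p = (Jᴴ * H p * J)ᵀ := by
    ext a b
    rw [hess_eq, add2, cX3 (h.mV 0) f0 (v0 0) (h.X0 0), cX3 (h.mV 1) f1 (v0 1) (h.X0 1), h.dX, h.dX]
    simp only [Matrix.transpose_apply, Matrix.mul_apply, Fin.sum_univ_two,
      Matrix.conjTranspose_apply, hJ, Matrix.of_apply, RCLike.star_def]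
    ring
  refine ⟨h.sm_hV, ?_, ?_, ?_, ?_⟩
  · simp [hV, h.v0]
  · intro a
    rw [(add1 (-I) a).self_of_nhds]
    show dS (-I) a (fun y => conj (V y 0) * X H V 0 y) p +
      dS (-I) a (fun y => conj (V y 1) * X H V 1 y) p = 0
    rw [cX1 (h.mV 0) f0 (v0 0), cX1 (h.mV 1) f1 (v0 1), add_zero]
  · intro a b
    rw [add2, cX2 (h.mV 0) f0 (v0 0), cX2 (h.mV 1) f1 (v0 1), add_zero]
  · rw [hG]
    exact (posDef_frame h.mP.self_of_nhds h.nd).transpose

/-- numerators of the curvature term -/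
def ff (H : Cn 2 → Matrix (Fin 2) (Fin 2) ℂ) (V : Cn 2 → Fin 2 → ℂ) (y : Cn 2) :
    Matrix (Fin 2) (Fin 2) ℂ := Matrix.of fun c d => star (V y) ⬝ᵥ (rm H y c d *ᵥ V y)

theorem smM_rm {z : Cn 2} (hH : SmM z H) (h0 : (H z).det ≠ 0) (c d : Fin 2) :
    SmM z (fun y => rm H y c d) := by
  have h1 : SmM z (fun y => dM I d H y * (H y)⁻¹ * dM (-I) c H y) :=
    SmM.mul (SmM.mul (SmM.dM hH _ _) (SmM.inv hH h0)) (SmM.dM hH _ _)
  have h2 : SmM z (fun y => dM (-I) c (dM I d H) y) := SmM.dM (SmM.dM hH _ _) _ _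
  intro S T
  have : (fun y => rm H y c d S T) = fun y => - dM (-I) c (dM I d H) y S T +
      (dM I d H y * (H y)⁻¹ * dM (-I) c H y) S T := rfl
  rw [this]
  exact (h2 S T).neg.add (h1 S T)

theorem ff_eq (H : Cn 2 → Matrix (Fin 2) (Fin 2) ℂ) (V : Cn 2 → Fin 2 → ℂ) (c d : Fin 2) (y : Cn 2) :
    ff H V y c d = conj (V y 0) * (rm H y c d 0 0 * V y 0 + rm H y c d 0 1 * V y 1) +
      conj (V y 1) * (rm H y c d 1 0 * V y 0 + rm H y c d 1 1 * V y 1) := by
  simp [ff, dotProduct, Matrix.mulVec, Fin.sum_univ_two]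

theorem sm_ff (h : ND H V p) (c d : Fin 2) : ∀ᶠ y in 𝓝 p, Sm y (fun y => ff H V y c d) := by
  filter_upwards [h.mH, h.mP, hol_sm (h.mV 0), hol_sm (h.mV 1)] with y h1 h2 h3 h4
  have hr := smM_rm h1 h2.det_pos.ne' c d
  simp only [ff_eq]
  exact ((sm_conj h3).mul (((hr 0 0).mul h3).add ((hr 0 1).mul h4))).add
    ((sm_conj h4).mul (((hr 1 0).mul h3).add ((hr 1 1).mul h4)))

theorem oo_ff (h : ND H V p) (c d : Fin 2) : Oo p 2 (fun y => ff H V y c d) := by
  have hr := smM_rm h.mH.self_of_nhds h.mP.self_of_nhds.det_pos.ne' c d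
  have oV : ∀ i, Oo p 1 (fun y => V y i) := fun i =>
    Oo.of_diff (hol_sm (h.mV i)).self_of_nhds.diff (by rw [h.v0]; rfl)
  have oR : ∀ i j, Oo p 0 (fun y => rm H y c d i j) := fun i j =>
    Oo.of_cont (hr i j).continuousAt
  have t : ∀ i j, Oo p 2 (fun y => conj (V y i) * (rm H y c d i j * V y j)) := fun i j =>
    (oV i).cjg.mul ((oR i j).mul (oV j))
  refine (((t 0 0).add (t 0 1)).add ((t 1 0).add (t 1 1))).congr (Eventually.of_forall fun y => ?_)
  show _ = ff H V y c d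
  rw [ff_eq]
  ring

end ND

/-- **local index formula** -/
theorem idx (h : ND H V p) : ∃ r > 0, ∀ κ : Cn 2 → ℂ, CS (Metric.ball p r) κ →
    Integrable (fun z => κ z * c2 H z) ∧
    Integrable (fun z => pd (hs κ z) ((Real.log (hV H V z) : ℂ) •
      (hess (fun y => Real.log (H y).det.re) z - hess (fun y => Real.log (hV H V y)) z)
        + bb H V z)) ∧
    ∫ z, κ z * c2 H z = (∫ z, pd (hs κ z) ((Real.log (hV H V z) : ℂ) •
      (hess (fun y => Real.log (H y).det.re) z - hess (fun y => Real.log (hV H V y)) z)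
        + bb H V z)) + (Real.pi : ℂ) ^ 2 * κ p := by
  obtain ⟨r0, c, C, hgd⟩ := exists_good h.nz
  have hFB := fun ab : Fin 2 × Fin 2 => exists_FB (h.sm_ff ab.1 ab.2) (h.oo_ff ab.1 ab.2)
  choose rF hrF KF hFB using hFB
  -- common constant
  have hev := ((h.mH.and h.mP).and ((h.mV 0).and (h.mV 1)))
  obtain ⟨r1, hr1, hb⟩ := Metric.eventually_nhds_iff_ball.1 hev
  set r := min (min r0 r1) (min (min (rF (0, 0)) (rF (0, 1))) (min (rF (1, 0)) (rF (1, 1)))) with hr
  have hr0 : 0 < r := lt_min (lt_min hgd.r0 hr1)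
    (lt_min (lt_min (hrF _) (hrF _)) (lt_min (hrF _) (hrF _)))
  have hg : Gd (hV H V) p r c C := hgd.mono hr0 ((min_le_left _ _).trans (min_le_left _ _))
  have hrr1 : r ≤ r1 := (min_le_left _ _).trans (min_le_right _ _)
  set K := ∑ ab, KF ab with hK
  have hKF : ∀ ab, KF ab ≤ K := fun ab =>
    Finset.single_le_sum (f := KF) (fun ab _ => (hFB ab).K0.le) (Finset.mem_univ ab)
  have hFr : ∀ ab, r ≤ rF ab := by
    have hx : r ≤ min (min (rF (0, 0)) (rF (0, 1))) (min (rF (1, 0)) (rF (1, 1))) := min_le_right _ _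
    rintro ⟨a, b⟩
    fin_cases a <;> fin_cases b
    · exact hx.trans ((min_le_left _ _).trans (min_le_left _ _))
    · exact hx.trans ((min_le_left _ _).trans (min_le_right _ _))
    · exact hx.trans ((min_le_right _ _).trans (min_le_left _ _))
    · exact hx.trans ((min_le_right _ _).trans (min_le_right _ _))
  have hF : ∀ a b, FB (fun y => ND.ff H V y a b) p r K := by
    intro a b
    have h1 := (hFB (a, b)).mono (hFr (a, b))
    have hle := hKF (a, b)
    exact ⟨lt_of_lt_of_le h1.K0 hle, h1.sm, fun z hz => (h1.b0 z hz).trans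
      (mul_le_mul_of_nonneg_right hle (by positivity)), fun z hz a => (h1.b1 z hz a).trans
      (mul_le_mul_of_nonneg_right hle (norm_nonneg _)), fun z hz a => (h1.b1' z hz a).trans
      (mul_le_mul_of_nonneg_right hle (norm_nonneg _)), fun z hz a b => (h1.b2 z hz a b).trans hle⟩
  refine ⟨r, hr0, fun κ hκ => ?_⟩
  have hin : ∀ z ∈ Metric.ball p r, ∀ᶠ y in 𝓝 z, y ∈ Metric.ball p r := fun z hz =>
    Metric.isOpen_ball.mem_nhds hz
  have hbr : ∀ z ∈ Metric.ball p r, (SmM z H ∧ (H z).PosDef) ∧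
      (DifferentiableAt ℂ (fun w => V w 0) z ∧ DifferentiableAt ℂ (fun w => V w 1) z) :=
    fun z hz => hb z (Metric.ball_subset_ball hrr1 hz)
  set D : Cn 2 → ℝ := fun y => Real.log (H y).det.re with hD
  have sD : ∀ z ∈ Metric.ball p r, ContDiffAt ℝ ∞ D z := by
    intro z hz
    have h1 := hbr z hz
    exact (Complex.reCLM.contDiff.contDiffAt.comp z (SmM.det h1.1.1)).log
      (det_re_pos'' h1.1.2).ne'
  have clD : ∀ z ∈ Metric.ball p r, Cl (hess D) z := by
    intro z hz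
    have h1 : hess D = hs (cu D) := funext fun z => (hs_cu _ z).symm
    rw [h1]
    exact cl_hs Metric.isOpen_ball (fun y hy => contDiffAt_cu (sD y hy)) hz
  obtain ⟨i1, i2, e1⟩ := hg.res hκ
  obtain ⟨i3, i4, e2⟩ := hg.res1 hκ clD
  obtain ⟨i5, e3⟩ := res0 hg hκ
  obtain ⟨i6, i7, e4⟩ := resT hg hκ hF
  have hL0 : (fun y => Real.log (hV H V y)) = Ld (hV H V) 0 := by
    funext y; simp [Ld]
  have hLz : ∀ z, Real.log (hV H V z) = Ld (hV H V) 0 z := fun z => by simp [Ld]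
  have hbb : ∀ z, bb H V z = hess (Ld (hV H V) 0) z + TM (hV H V) (ND.ff H V) 0 z := by
    intro z
    ext a b
    rw [Matrix.add_apply, bb, Matrix.of_apply, hL0]
    congr 1
    show _ = Th (hV H V) (fun y => ND.ff H V y a b) 0 z
    rw [Th, add_zero, div_eq_mul_inv]
    rfl
  -- the pointwise identity
  have hVne : ∀ z ∈ Metric.ball p r, z ≠ p → V z ≠ 0 := by
    intro z hz hzp h0
    have := hg.q_pos hz hzp
    rw [hV, h0] at this
    simp at this
  have sL : ∀ z ∈ Metric.ball p r, z ≠ p → ContDiffAt ℝ ∞ (Ld (hV H V) 0) z := fun z hz hzp =>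
    sm_Ld (hg.sm z hz) (by rw [add_zero]; exact hg.q_pos hz hzp)
  have hddm : ∀ z ∈ Metric.ball p r, z ≠ p → ddm (bb H V) z = ddm (TM (hV H V) (ND.ff H V) 0) z := by
    intro z hz hzp
    have hin' : ∀ᶠ y in 𝓝 z, y ∈ Metric.ball p r ∧ y ≠ p := (hin z hz).and (isOpen_ne.mem_nhds hzp)
    have e : bb H V =ᶠ[𝓝 z] fun y => hess (Ld (hV H V) 0) y + TM (hV H V) (ND.ff H V) 0 y :=
      Eventually.of_forall hbb
    rw [ddm_congr e]
    have s1 : ∀ a b, ∀ᶠ y in 𝓝 z, Sm y (fun y => hess (Ld (hV H V) 0) y a b) := by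
      intro a b
      filter_upwards [hin'] with y hy
      exact contDiffAt_hess (sL y hy.1 hy.2) a b
    have s2 : ∀ a b, ∀ᶠ y in 𝓝 z, Sm y (fun y => TM (hV H V) (ND.ff H V) 0 y a b) := by
      intro a b
      filter_upwards [hin'] with y hy
      exact sm_Th ((hF a b).sm y hy.1) (hg.sm y hy.1) (by rw [add_zero]; exact hg.q_pos hy.1 hy.2)
    have s3 : ∀ s c t d a b, dS s c (dS t d (fun y => (hess (Ld (hV H V) 0) y +
        TM (hV H V) (ND.ff H V) 0 y) a b)) z =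
        dS s c (dS t d (fun y => hess (Ld (hV H V) 0) y a b)) z +
        dS s c (dS t d (fun y => TM (hV H V) (ND.ff H V) 0 y a b)) z := fun s c t d a b =>
      dS2_add (s1 a b).self_of_nhds (s2 a b).self_of_nhds s t c d
    have s4 : ∀ y, y ∈ Metric.ball p r ∧ y ≠ p → Sm y (cu (Ld (hV H V) 0)) := fun y hy =>
      contDiffAt_cu (sL y hy.1 hy.2)
    have s5 : ddm (hess (Ld (hV H V) 0)) z = 0 := by
      set L := cu (Ld (hV H V) 0) with hL
      have g0 : ∀ a b, (fun y => hess (Ld (hV H V) 0) y a b) = dS (-I) a (dS I b L) := fun a b => rfl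
      have f2 : ∀ a b d : Fin 2, dS I d (dS (-I) a (dS I b L)) =ᶠ[𝓝 z]
          dS I b (dS (-I) a (dS I d L)) := by
        intro a b d
        filter_upwards [hin'.eventually_nhds] with y hy
        have hy0 := s4 y hy.self_of_nhds
        have g3 : dS I d (dS I b L) =ᶠ[𝓝 y] dS I b (dS I d L) := by
          filter_upwards [hy] with w hw
          exact dS_comm (s4 w hw)
        rw [dS_comm (hy0.dS _ _), dS_congr g3, dS_comm (hy0.dS _ _)]
      unfold ddm
      rw [g0, g0, g0, g0, dS_congr (f2 1 0 1), dS_congr (f2 0 1 0)]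
      ring
    have s6 : ddm (fun y => hess (Ld (hV H V) 0) y + TM (hV H V) (ND.ff H V) 0 y) z =
        ddm (hess (Ld (hV H V) 0)) z + ddm (TM (hV H V) (ND.ff H V) 0) z := by
      unfold ddm
      rw [s3, s3, s3, s3]
      ring
    rw [s6, s5, zero_add]
  have hpt : ∀ z ∈ Metric.ball p r, z ≠ p → κ z * c2 H z =
      (κ z * pd (hess (Ld (hV H V) 0) z) (hess D z) -
        κ z * pd (hess (Ld (hV H V) 0) z) (hess (Ld (hV H V) 0) z)) +
      κ z * ddm (TM (hV H V) (ND.ff H V) 0) z := by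
    intro z hz hzp
    have a1 : ∀ᶠ y in 𝓝 z, SmM y H := by
      filter_upwards [hin z hz] with y hy using (hbr y hy).1.1
    have a2 : ∀ᶠ y in 𝓝 z, (H y).PosDef := by
      filter_upwards [hin z hz] with y hy using (hbr y hy).1.2
    have a3 : ∀ i, ∀ᶠ y in 𝓝 z, DifferentiableAt ℂ (fun w => V w i) y := by
      intro i
      fin_cases i
      · filter_upwards [hin z hz] with y hy using (hbr y hy).2.1
      · filter_upwards [hin z hz] with y hy using (hbr y hy).2.2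
    rw [c2_eq a1 a2 a3 (hVne z hz hzp), hL0, hddm z hz hzp, pd_sub]
    ring
  have hae : (fun z => κ z * c2 H z) =ᵐ[volume] fun z =>
      (κ z * pd (hess (Ld (hV H V) 0) z) (hess D z) -
        κ z * pd (hess (Ld (hV H V) 0) z) (hess (Ld (hV H V) 0) z)) +
      κ z * ddm (TM (hV H V) (ND.ff H V) 0) z := by
    filter_upwards [ae_ne p] with z hz
    by_cases hzb : z ∈ Metric.ball p r
    · exact hpt z hzb hz
    · rw [hκ.zero_off hzb]; ring
  have hR : (fun z => pd (hs κ z) ((Real.log (hV H V z) : ℂ) •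
      (hess D z - hess (fun y => Real.log (hV H V y)) z) + bb H V z)) = fun z =>
      (((Ld (hV H V) 0 z : ℂ) * pd (hs κ z) (hess D z) -
        (Ld (hV H V) 0 z : ℂ) * pd (hs κ z) (hess (Ld (hV H V) 0) z)) +
        pd (hs κ z) (hess (Ld (hV H V) 0) z)) + pd (hs κ z) (TM (hV H V) (ND.ff H V) 0 z) := by
    funext z
    rw [hbb, hL0, hLz, pd_add, pd_add, pd_smul, pd_sub]
    ring
  have j1 : Integrable (fun z => κ z * pd (hess (Ld (hV H V) 0) z) (hess D z) -
      κ z * pd (hess (Ld (hV H V) 0) z) (hess (Ld (hV H V) 0) z)) := i4.sub i2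
  have j2 : Integrable (fun z => (κ z * pd (hess (Ld (hV H V) 0) z) (hess D z) -
      κ z * pd (hess (Ld (hV H V) 0) z) (hess (Ld (hV H V) 0) z)) +
      κ z * ddm (TM (hV H V) (ND.ff H V) 0) z) := j1.add i6
  have j3 : Integrable (fun z => (Ld (hV H V) 0 z : ℂ) * pd (hs κ z) (hess D z) -
        (Ld (hV H V) 0 z : ℂ) * pd (hs κ z) (hess (Ld (hV H V) 0) z)) := i3.sub i1
  have j4 : Integrable (fun z => ((Ld (hV H V) 0 z : ℂ) * pd (hs κ z) (hess D z) -
        (Ld (hV H V) 0 z : ℂ) * pd (hs κ z) (hess (Ld (hV H V) 0) z)) +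
        pd (hs κ z) (hess (Ld (hV H V) 0) z)) := j3.add i5
  refine ⟨j2.congr hae.symm, ?_, ?_⟩
  · rw [hR]
    exact j4.add i7
  · rw [integral_congr_ae hae, hR, integral_add j1 i6, integral_sub i4 i2,
      integral_add j4 i7, integral_add j3 i5, integral_sub i3 i1,
      e1, e2, e3, e4]
    ring

end

end Crest.Agent.R257.Idx6_761
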