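import Crest.Agent.R257.UI5_939
import Crest.Agent.R275.Loc2G_879

/-!
Row 257 (S0395), leaf INV (helper939): invariance of the Milnor number (and of the multiplicity of
an ideal of germs) under local biholomorphisms.
-/

set_option autoImplicit false
set_option linter.unusedSectionVars false

open Set Filter Topology Metric Complex
open Crest.Agent.R275.Loc2879
open Crest.AlgGeometry Crest.AlgGeometry.Germ

noncomputable section

namespace Crest.Agent.R257.UI939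

universe u v w

section Pull

variable {E : Type u} [NormedAddCommGroup E] [NormedSpace ℂ E]
variable {E' : Type v} [NormedAddCommGroup E'] [NormedSpace ℂ E']
variable {p : E} {p' : E'} {κ : Type*}

lemma gz_congr {f g : E → ℂ} (h : f =ᶠ[𝓝 p] g) : (gz f : OO p) = gz g := by
  classical
  by_cases hf : AnalyticAt ℂ f p
  · have hg : AnalyticAt ℂ g p := hf.congr h
    rw [gz_eq hf, gz_eq hg, gm_eq_gm]
    exact h
  · have hg : ¬ AnalyticAt ℂ g p := fun hg => hf (hg.congr h.symm)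
    simp [gz, hf, hg]

lemma Idl_congr {f g : κ → E → ℂ} (h : ∀ j, f j =ᶠ[𝓝 p] g j) : Idl p f = Idl p g := by
  unfold Idl
  congr 1
  congr 1
  ext j
  rw [gz_congr (h j)]

lemma pull_gz {φ : E → E'} (hφ : AnalyticAt ℂ φ p) (h : φ p = p') {f : E' → ℂ}
    (hf : AnalyticAt ℂ f p') : pull φ hφ h (gz f) = gz (f ∘ φ) := by
  have h1 : AnalyticAt ℂ (f ∘ φ) p := AnalyticAt.comp (by rw [h]; exact hf) hφ
  rw [gz_eq hf, gz_eq h1, pull_gm]

lemma Idl_map {φ : E → E'} (hφ : AnalyticAt ℂ φ p) (h : φ p = p') {g : κ → E' → ℂ}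
    (hg : ∀ j, AnalyticAt ℂ (g j) p') :
    (Idl p' g).map (pull φ hφ h) = Idl p (fun j => g j ∘ φ) := by
  unfold Idl
  rw [Ideal.map_span, ← Set.range_comp]
  congr 1
  congr 1
  ext j
  exact congrArg Subtype.val (pull_gz hφ h (hg j))

/-- the ideals generated by `g ∘ φ` and `g` have isomorphic quotients -/
theorem quot_pull (φ : E → E') (hφ : AnalyticAt ℂ φ p) (h : φ p = p') (ψ : E' → E)
    (hψ : AnalyticAt ℂ ψ p') (h' : ψ p' = p) (h1 : ∀ᶠ x in 𝓝 p, ψ (φ x) = x)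
    (h2 : ∀ᶠ y in 𝓝 p', φ (ψ y) = y) {g : κ → E' → ℂ} (hg : ∀ j, AnalyticAt ℂ (g j) p') :
    Nonempty ((OO p' ⧸ Idl p' g) ≃ₗ[ℂ] (OO p ⧸ Idl p (fun j => g j ∘ φ))) := by
  let e : OO p' ≃ₐ[ℂ] OO p := AlgEquiv.ofRingEquiv (f := pullEquiv φ hφ h ψ hψ h' h1 h2)
    (fun c => rfl)
  have he : Idl p (fun j => g j ∘ φ) = (Idl p' g).map (e : OO p' →+* OO p) :=
    (Idl_map hφ h hg).symm
  exact ⟨(Ideal.quotientEquivAlg _ _ e he).toLinearEquiv⟩

theorem dimQ_pull (φ : E → E') (hφ : AnalyticAt ℂ φ p) (h : φ p = p') (ψ : E' → E)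
    (hψ : AnalyticAt ℂ ψ p') (h' : ψ p' = p) (h1 : ∀ᶠ x in 𝓝 p, ψ (φ x) = x)
    (h2 : ∀ᶠ y in 𝓝 p', φ (ψ y) = y) {g : κ → E' → ℂ} (hg : ∀ j, AnalyticAt ℂ (g j) p') :
    (Module.Finite ℂ (OO p ⧸ Idl p (fun j => g j ∘ φ)) ↔ Module.Finite ℂ (OO p' ⧸ Idl p' g)) ∧
      dimQ p (fun j => g j ∘ φ) = dimQ p' g := by
  obtain ⟨e⟩ := quot_pull φ hφ h ψ hψ h' h1 h2 hg
  exact ⟨⟨fun _ => Module.Finite.equiv e.symm, fun _ => Module.Finite.equiv e⟩,
    e.finrank_eq.symm⟩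

end Pull

variable {n : ℕ}

lemma an_coordDeriv {f : (Fin n → ℂ) → ℂ} {p : Fin n → ℂ} (hf : AnalyticAt ℂ f p) (i : Fin n) :
    AnalyticAt ℂ (coordDeriv f i) p :=
  (ContinuousLinearMap.analyticAt
    (ContinuousLinearMap.apply ℂ ℂ (Pi.single i 1 : Fin n → ℂ)) _).comp hf.fderiv

lemma fderiv_eq_sum (f : (Fin n → ℂ) → ℂ) (x v : Fin n → ℂ) :
    fderiv ℂ f x v = ∑ j, v j * coordDeriv f j x := by
  have h1 : v = ∑ j, v j • (Pi.single j 1 : Fin n → ℂ) := by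
    ext k
    simp [Finset.sum_apply, Pi.single_apply]
  conv_lhs => rw [h1]
  rw [map_sum]
  refine Finset.sum_congr rfl fun j _ => ?_
  rw [map_smul]
  rfl

/-- chain rule -/
lemma coordDeriv_comp {f g : (Fin n → ℂ) → ℂ} {Phi : (Fin n → ℂ) → (Fin n → ℂ)}
    (hf : AnalyticAt ℂ f 0) (hPhi : AnalyticAt ℂ Phi 0) (h0 : Phi 0 = 0)
    (hg : g =ᶠ[𝓝 0] f ∘ Phi) (i : Fin n) :
    coordDeriv g i =ᶠ[𝓝 0]
      fun x => ∑ j, coordDeriv (fun x => Phi x j) i x * coordDeriv f j (Phi x) := by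
  have h1 : ∀ᶠ x in 𝓝 (0 : Fin n → ℂ), AnalyticAt ℂ f (Phi x) := by
    have h2 : Tendsto Phi (𝓝 0) (𝓝 0) := by
      have := hPhi.continuousAt.tendsto
      rwa [h0] at this
    exact h2.eventually hf.eventually_analyticAt
  filter_upwards [h1, hPhi.eventually_analyticAt, hg.eventuallyEq_nhds] with x h2 h3 h4
  have h5 : coordDeriv g i x = fderiv ℂ f (Phi x) (fderiv ℂ Phi x (Pi.single i 1)) := by
    change fderiv ℂ g x (Pi.single i 1) = _
    rw [h4.fderiv_eq, fderiv_comp x h2.differentiableAt h3.differentiableAt]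
    rfl
  rw [h5, fderiv_eq_sum]
  refine Finset.sum_congr rfl fun j _ => ?_
  congr 1
  change _ = fderiv ℂ (fun x => Phi x j) x (Pi.single i 1)
  rw [fderiv_apply h3.differentiableAt]
  rfl

lemma Idl_comp_le {f g : (Fin n → ℂ) → ℂ} {Phi : (Fin n → ℂ) → (Fin n → ℂ)}
    (hf : AnalyticAt ℂ f 0) (hPhi : AnalyticAt ℂ Phi 0) (h0 : Phi 0 = 0)
    (hg : g =ᶠ[𝓝 0] f ∘ Phi) :
    Idl (0 : Fin n → ℂ) (fun i => coordDeriv g i) ≤
      (Idl (0 : Fin n → ℂ) (fun i => coordDeriv f i)).map (pull Phi hPhi h0) := by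
  rw [Idl_map hPhi h0 (fun j => an_coordDeriv hf j)]
  have hc : ∀ j, AnalyticAt ℂ (coordDeriv f j ∘ Phi) 0 := fun j =>
    AnalyticAt.comp (by rw [h0]; exact an_coordDeriv hf j) hPhi
  have hgan : AnalyticAt ℂ g 0 :=
    (AnalyticAt.comp (g := f) (f := Phi) (by rw [h0]; exact hf) hPhi).congr hg.symm
  refine Ideal.span_le.2 ?_
  rintro _ ⟨i, rfl⟩
  rw [SetLike.mem_coe, mem_Idl hc]
  have hb : ∀ j, AnalyticAt ℂ (coordDeriv (fun x => Phi x j) i) 0 := fun j =>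
    an_coordDeriv (analyticAt_pi_iff.1 hPhi j) i
  refine ⟨fun j => gm _ (hb j), ?_⟩
  obtain ⟨h1, h2⟩ := exists_sum_gm' (p := (0 : Fin n → ℂ)) Finset.univ
    (fun j => coordDeriv (fun x => Phi x j) i) (fun j => coordDeriv f j ∘ Phi) hb hc
  dsimp only
  rw [h2, gz_eq (an_coordDeriv hgan i), gm_eq_gm]
  exact coordDeriv_comp hf hPhi h0 hg i

/-- invariance, with an explicit inverse -/
theorem inv_aux {f g : (Fin n → ℂ) → ℂ} {Phi Psi : (Fin n → ℂ) → (Fin n → ℂ)}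
    (hf : AnalyticAt ℂ f 0) (hPhi : AnalyticAt ℂ Phi 0) (h0 : Phi 0 = 0)
    (hPsi : AnalyticAt ℂ Psi 0) (h0' : Psi 0 = 0)
    (h1 : ∀ᶠ x in 𝓝 0, Psi (Phi x) = x) (h2 : ∀ᶠ y in 𝓝 0, Phi (Psi y) = y)
    (hg : g =ᶠ[𝓝 0] f ∘ Phi) :
    Nonempty (JacobianQuotient n f ≃ₗ[ℂ] JacobianQuotient n g) := by
  have hgan : AnalyticAt ℂ g 0 :=
    (AnalyticAt.comp (g := f) (f := Phi) (by rw [h0]; exact hf) hPhi).congr hg.symm
  have hfg : f =ᶠ[𝓝 0] g ∘ Psi := by
    have h3 : Tendsto Psi (𝓝 0) (𝓝 0) := by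
      have := hPsi.continuousAt.tendsto
      rwa [h0'] at this
    filter_upwards [h2, h3.eventually hg] with y h4 h5
    change f y = g (Psi y)
    rw [h5]
    change f y = f (Phi (Psi y))
    rw [h4]
  have hle1 := Idl_comp_le hf hPhi h0 hg
  have hle2 := Idl_comp_le hgan hPsi h0' hfg
  have hid : (pull Phi hPhi h0).comp (pull Psi hPsi h0') = RingHom.id _ := by
    ext x
    obtain ⟨f, hf, rfl⟩ := exists_gm x
    simp only [RingHom.comp_apply, RingHom.id_apply, pull_gm]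
    refine congrArg Subtype.val ?_
    rw [gm_eq_gm]
    filter_upwards [h1] with x hx
    simp [hx]
  have heq : Idl (0 : Fin n → ℂ) (fun i => coordDeriv g i) =
      Idl (0 : Fin n → ℂ) (fun i => coordDeriv f i ∘ Phi) := by
    refine le_antisymm (hle1.trans_eq (Idl_map hPhi h0 (fun j => an_coordDeriv hf j))) ?_
    rw [← Idl_map hPhi h0 (fun j => an_coordDeriv hf j)]
    refine (Ideal.map_mono (f := pull Phi hPhi h0) hle2).trans ?_
    rw [Ideal.map_map, hid, Ideal.map_id]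
  obtain ⟨e1⟩ := dict (fun i => an_coordDeriv hf i)
  obtain ⟨e2⟩ := dict (fun i => an_coordDeriv hgan i)
  obtain ⟨e3⟩ := quot_pull Phi hPhi h0 Psi hPsi h0' h1 h2 (fun j => an_coordDeriv hf j)
  have e4 : (BB n ⧸ Idl (0 : Fin n → ℂ) (fun i => coordDeriv f i ∘ Phi)) ≃ₗ[ℂ]
      (BB n ⧸ Idl (0 : Fin n → ℂ) (fun i => coordDeriv g i)) :=
    (Ideal.quotientEquivAlgOfEq ℂ heq.symm).toLinearEquiv
  exact ⟨((e1.trans e3).trans e4).trans e2.symm⟩

/-- **(INV)** the Milnor number is invariant under local biholomorphisms -/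
theorem inv {f g : (Fin n → ℂ) → ℂ} {Phi : (Fin n → ℂ) → (Fin n → ℂ)}
    (hf : AnalyticAt ℂ f 0) (hPhi : AnalyticAt ℂ Phi 0) (h0 : Phi 0 = 0)
    (hbij : Function.Injective (fderiv ℂ Phi 0)) (hg : g =ᶠ[𝓝 0] f ∘ Phi) :
    (Module.Finite ℂ (JacobianQuotient n g) ↔ Module.Finite ℂ (JacobianQuotient n f)) ∧
      milnorNumber n g = milnorNumber n f := by
  obtain ⟨R, hR, hR0, -, -, hRs⟩ := exists_bihol (F := Fin n → ℂ) (G := Fin n → ℂ) rfl hPhi
    (fun v hv => hbij (by rw [hv, map_zero])) Filter.univ_mem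
  have hR00 : R 0 = 0 := by rw [hR]; exact h0
  have h0t : (0 : Fin n → ℂ) ∈ R.target := by
    rw [← hR00]; exact R.map_source hR0
  have hs0 : R.symm 0 = 0 := by
    conv_lhs => rw [← hR00]
    exact R.left_inv hR0
  obtain ⟨e⟩ := inv_aux hf hPhi h0 (hRs 0 h0t) hs0
    (by
      filter_upwards [R.open_source.mem_nhds hR0] with x hx
      rw [← hR]; exact R.left_inv hx)
    (by
      filter_upwards [R.open_target.mem_nhds h0t] with y hy
      rw [← hR]; exact R.right_inv hy) hg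
  exact ⟨⟨fun _ => Module.Finite.equiv e.symm, fun _ => Module.Finite.equiv e⟩,
    e.finrank_eq.symm⟩

/-- **(INV)** in the form asked for (`fderiv` bijective) -/
theorem inv' {f g : (Fin n → ℂ) → ℂ} {Phi : (Fin n → ℂ) → (Fin n → ℂ)}
    (hf : AnalyticAt ℂ f 0) (hPhi : AnalyticAt ℂ Phi 0) (h0 : Phi 0 = 0)
    (hbij : Function.Bijective (fderiv ℂ Phi 0)) (hg : g =ᶠ[𝓝 0] f ∘ Phi) :
    (Module.Finite ℂ (JacobianQuotient n g) ↔ Module.Finite ℂ (JacobianQuotient n f)) ∧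
      milnorNumber n g = milnorNumber n f := inv hf hPhi h0 hbij.1 hg

/-- the local algebra depends only on the germ of the function (no analyticity needed) -/
theorem jac_congr {f g : (Fin n → ℂ) → ℂ} (h : g =ᶠ[𝓝 0] f) :
    jacobianGerms n g = jacobianGerms n f := by
  have h1 : ∀ᶠ x in 𝓝 (0 : Fin n → ℂ), ∀ i, coordDeriv g i x = coordDeriv f i x := by
    filter_upwards [h.eventuallyEq_nhds] with x hx i
    change fderiv ℂ g x _ = fderiv ℂ f x _
    rw [hx.fderiv_eq]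
  ext k
  constructor
  · rintro ⟨a, ha, hk⟩
    refine ⟨a, ha, ?_⟩
    filter_upwards [hk, h1] with x h2 h3
    rw [h2]
    exact Finset.sum_congr rfl fun i _ => by rw [h3 i]
  · rintro ⟨a, ha, hk⟩
    refine ⟨a, ha, ?_⟩
    filter_upwards [hk, h1] with x h2 h3
    rw [h2]
    exact Finset.sum_congr rfl fun i _ => by rw [h3 i]

theorem milnor_congr {f g : (Fin n → ℂ) → ℂ} (h : g =ᶠ[𝓝 0] f) :
    (Module.Finite ℂ (JacobianQuotient n g) ↔ Module.Finite ℂ (JacobianQuotient n f)) ∧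
      milnorNumber n g = milnorNumber n f := by
  have e : JacobianQuotient n g ≃ₗ[ℂ] JacobianQuotient n f :=
    Submodule.quotEquivOfEq _ _ (jac_congr h)
  exact ⟨⟨fun _ => Module.Finite.equiv e, fun _ => Module.Finite.equiv e.symm⟩, e.finrank_eq⟩

end Crest.Agent.R257.UI939
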