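import Crest.Agent.R257.AJ2_387
import Crest.Agent.R257.NodeA_547

/-!
R257 / IrrA_547 (task C-FRAME, leaf IRR): clopen parts of a family of monic polynomials over a domain
of `ℂ²` with simple roots off `{D = 0}` are factors.

* `riemann_bd` : bounded Riemann extension in `ℂ × ℂ`;
* `MonFam Δ d P D` : monic polynomials of degree `d` with analytic coefficients on `Δ`, simple roots
  off `{D = 0}`;
* `Clo P Δ D A` : `A` is a clopen part of `{(p,z) | p ∈ Δ, D p ≠ 0, P p z = 0}`;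
* `factor` : the factor `P_A` with analytic coefficients on `Δ`.
-/

set_option autoImplicit false

open Polynomial Set Filter Topology Metric MeasureTheory
open scoped ContDiff ENNReal

noncomputable section

namespace Crest.Agent.R257.Irr_547

/-- Riemann extension across `{D = 0}` for locally bounded functions of two variables -/
theorem riemann_bd {U : Set (ℂ × ℂ)} (hU : IsOpen U) {D f : ℂ × ℂ → ℂ} (hD : AnalyticOnNhd ℂ D U)
    (hne : ∀ a ∈ U, ¬ (∀ᶠ z in 𝓝 a, D z = 0))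
    (hf : DifferentiableOn ℂ f (U ∩ {p | D p ≠ 0}))
    (hb : ∀ a ∈ U, ∃ C : ℝ, ∀ᶠ p in 𝓝 a, D p ≠ 0 → ‖f p‖ ≤ C) :
    ∃ g : ℂ × ℂ → ℂ, AnalyticOnNhd ℂ g U ∧ ∀ p ∈ U, D p ≠ 0 → g p = f p := by
  let e : (Fin 2 → ℂ) ≃L[ℂ] ℂ × ℂ := ContinuousLinearEquiv.finTwoArrow ℂ ℂ
  have hDe : AnalyticOnNhd ℂ (fun z => D (e z)) (e ⁻¹' U) := by
    intro z hz
    exact AnalyticAt.comp (g := D) (f := fun z => e z) (hD (e z) hz)
      ((e : (Fin 2 → ℂ) →L[ℂ] ℂ × ℂ).analyticAt z)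
  have hnz : ∀ a ∈ e ⁻¹' U, ¬ (∀ᶠ z in 𝓝 a, D (e z) = 0) := by
    intro a ha hcon
    refine hne (e a) ha ?_
    have h1 : Tendsto (fun p => e.symm p) (𝓝 (e a)) (𝓝 a) := by
      have := e.symm.continuous.tendsto (e a)
      rwa [e.symm_apply_apply] at this
    filter_upwards [h1.eventually hcon] with p hp
    rwa [e.apply_symm_apply] at hp
  have hfd : DifferentiableOn ℂ (fun z => f (e z)) (e ⁻¹' U ∩ {z | D (e z) ≠ 0}) :=
    hf.comp e.differentiable.differentiableOn fun z hz => ⟨hz.1, hz.2⟩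
  have hL : ∀ a ∈ e ⁻¹' U, ∃ W ∈ 𝓝 a, ∫⁻ z in W ∩ {z | D (e z) ≠ 0}, ‖f (e z)‖ₑ ^ 2 < ⊤ := by
    intro a ha
    obtain ⟨C, hC⟩ := hb (e a) ha
    have h1 := e.continuous.continuousAt.eventually hC
    have h0 : e ⁻¹' U ∈ 𝓝 a := (hU.preimage e.continuous).mem_nhds ha
    obtain ⟨ρ, hρ, hρC⟩ := Metric.eventually_nhds_iff_ball.1 (h1.and h0)
    refine ⟨ball a ρ, ball_mem_nhds a hρ, ?_⟩
    have hms : MeasurableSet (ball a ρ ∩ {z | D (e z) ≠ 0}) := by
      have h2 : ContinuousOn (fun z => D (e z)) (ball a ρ) := fun z hz =>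
        (hDe z (hρC z hz).2).continuousAt.continuousWithinAt
      exact (h2.isOpen_inter_preimage isOpen_ball (isOpen_ne : IsOpen {w : ℂ | w ≠ 0})).measurableSet
    calc ∫⁻ z in ball a ρ ∩ {z | D (e z) ≠ 0}, ‖f (e z)‖ₑ ^ 2
        ≤ ∫⁻ _ in ball a ρ ∩ {z | D (e z) ≠ 0}, (ENNReal.ofReal (|C| ^ 2)) := by
          refine setLIntegral_mono' hms ?_
          rintro z ⟨hz1, hz2⟩
          have h2 : ‖f (e z)‖ ≤ |C| := ((hρC z hz1).1 hz2).trans (le_abs_self C)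
          rw [ENNReal.ofReal_pow (abs_nonneg C)]
          gcongr
          rw [← ofReal_norm]
          exact ENNReal.ofReal_le_ofReal h2
      _ ≤ ENNReal.ofReal (|C| ^ 2) * volume (ball a ρ) := by
          rw [setLIntegral_const]
          gcongr
          exact inter_subset_left
      _ < ⊤ := ENNReal.mul_lt_top ENNReal.ofReal_lt_top measure_ball_lt_top
  obtain ⟨g, hg, hgf⟩ := Crest.Agent.R271.RExt747.riemann_ext (hU.preimage e.continuous) hDe
    hnz hfd hL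
  refine ⟨fun p => g (e.symm p), ?_, fun p hp hne => ?_⟩
  · refine Crest.Agent.R266.SCV.analyticOnNhd_of_differentiableOn hU ?_
    exact hg.comp e.symm.differentiable.differentiableOn fun p hp => by
      simpa using hp
  · have := hgf (e.symm p) (by simpa using hp) (by simpa using hne)
    simpa using this

/-- monic polynomials of degree `d` with analytic coefficients, simple roots off `{D = 0}` -/
structure MonFam (Δ : Set (ℂ × ℂ)) (d : ℕ) (P : ℂ × ℂ → ℂ[X]) (D : ℂ × ℂ → ℂ) : Prop where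
  op : IsOpen Δ
  conn : IsPreconnected Δ
  monic : ∀ p ∈ Δ, (P p).Monic
  deg : ∀ p ∈ Δ, (P p).natDegree = d
  an : ∀ k, AnalyticOnNhd ℂ (fun p => (P p).coeff k) Δ
  hD : AnalyticOnNhd ℂ D Δ
  Dne : ∃ p ∈ Δ, D p ≠ 0
  nodup : ∀ p ∈ Δ, D p ≠ 0 → (P p).roots.Nodup

variable {Δ : Set (ℂ × ℂ)} {d : ℕ} {P : ℂ × ℂ → ℂ[X]} {D : ℂ × ℂ → ℂ}

namespace MonFam

variable (F : MonFam Δ d P D)

include F

theorem nz {a : ℂ × ℂ} (ha : a ∈ Δ) : ¬ ∀ᶠ z in 𝓝 a, D z = 0 := by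
  intro h
  obtain ⟨p, hp, hpD⟩ := F.Dne
  exact hpD (F.hD.eqOn_zero_of_preconnected_of_eventuallyEq_zero F.conn ha h hp)

theorem freq {a : ℂ × ℂ} (ha : a ∈ Δ) : ∃ᶠ z in 𝓝 a, D z ≠ 0 := not_eventually.1 (F.nz ha)

/-- the regular part of the base -/
theorem isOpen_reg : IsOpen (Δ ∩ {p | D p ≠ 0}) :=
  F.hD.continuousOn.isOpen_inter_preimage F.op (isOpen_ne : IsOpen {w : ℂ | w ≠ 0})

/-- 387's family over the regular part of the base -/
def fam : AJ387.Fam (↥(Δ ∩ {p | D p ≠ 0})) d where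
  Q s := P s.1
  monic s := F.monic s.1 s.2.1
  deg s := F.deg s.1 s.2.1
  cont i := by
    have h : ContinuousOn (fun p => (P p).coeff i) (Δ ∩ {p | D p ≠ 0}) :=
      (F.an i).continuousOn.mono inter_subset_left
    exact continuousOn_iff_continuous_domRestrict.1 h
  nodup s := F.nodup s.1 s.2.1 s.2.2

omit F in
theorem ev_sub {R : Set (ℂ × ℂ)} (hR : IsOpen R) {s : ↥R} {Q : ↥R → Prop}
    (h : ∀ᶠ s' in 𝓝 s, Q s') : ∀ᶠ p in 𝓝 s.1, ∀ hp : p ∈ R, Q ⟨p, hp⟩ := by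
  have h1 : 𝓝 s.1 = Filter.map Subtype.val (𝓝 s) :=
    (hR.isOpenEmbedding_subtypeVal.map_nhds_eq s).symm
  rw [h1, Filter.eventually_map]
  filter_upwards [h] with s' hs' hp
  exact hs'

/-- **local form of the roots**: analytic root functions `φ z` near a point of the regular part -/
theorem loc {p₀ : ℂ × ℂ} (hp : p₀ ∈ Δ) (hpD : D p₀ ≠ 0) : ∃ φ : ℂ → ℂ × ℂ → ℂ,
    (∀ z ∈ (P p₀).roots.toFinset, AnalyticAt ℂ (φ z) p₀ ∧ φ z p₀ = z) ∧
    ∀ᶠ p in 𝓝 p₀, (P p).roots.toFinset = (P p₀).roots.toFinset.image (fun z => φ z p) ∧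
      Set.InjOn (fun z => φ z p) ((P p₀).roots.toFinset : Set ℂ) := by
  classical
  set s₀ : ↥(Δ ∩ {p | D p ≠ 0}) := ⟨p₀, hp, hpD⟩ with hs₀
  have hR := F.isOpen_reg
  obtain ⟨ε₀, hε₀, hloc⟩ := (F.fam).local_str s₀
  obtain ⟨ε₁, hε₁, hsep⟩ := (F.fam).exists_sep s₀
  set ε := min ε₀ ε₁ with hε
  have hε0 : 0 < ε := lt_min hε₀ hε₁
  have hrt : ∀ z, z ∈ (P p₀).roots.toFinset ↔ z ∈ (F.fam).rts s₀ := fun z => Iff.rfl
  have hreg : ∀ᶠ p in 𝓝 p₀, p ∈ Δ ∩ {p | D p ≠ 0} := hR.mem_nhds ⟨hp, hpD⟩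
  have hev : ∀ η, 0 < η → η ≤ ε → ∀ᶠ p in 𝓝 p₀,
      (∀ z ∈ (P p₀).roots.toFinset, ∃! w, (P p).eval w = 0 ∧ ‖z - w‖ < η) ∧
      ∀ w, (P p).eval w = 0 → ∃ z ∈ (P p₀).roots.toFinset, ‖z - w‖ < η := by
    intro η hη hηε
    have h1 := ev_sub hR (hloc η hη (hηε.trans (min_le_left _ _)))
    filter_upwards [h1, hreg] with p h2 h3
    exact h2 h3
  -- the root functions
  set φ : ℂ → ℂ × ℂ → ℂ := fun z p => if h : ∃ w, (P p).eval w = 0 ∧ ‖z - w‖ < ε then h.choose else z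
    with hφ
  have hφs : ∀ᶠ p in 𝓝 p₀, ∀ z ∈ (P p₀).roots.toFinset,
      (P p).eval (φ z p) = 0 ∧ ‖z - φ z p‖ < ε := by
    filter_upwards [hev ε hε0 le_rfl] with p hp z hz
    obtain ⟨w, hw, -⟩ := hp.1 z hz
    have h : ∃ w, (P p).eval w = 0 ∧ ‖z - w‖ < ε := ⟨w, hw⟩
    simp only [hφ, dif_pos h]
    exact h.choose_spec
  have hφu : ∀ η, 0 < η → η ≤ ε → ∀ᶠ p in 𝓝 p₀, ∀ z ∈ (P p₀).roots.toFinset,
      ‖z - φ z p‖ < η := by
    intro η hη hηε
    filter_upwards [hev ε hε0 le_rfl, hev η hη hηε, hφs] with p h1 h2 h3 z hz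
    obtain ⟨w, hw, -⟩ := h2.1 z hz
    obtain ⟨w', hw', hu⟩ := h1.1 z hz
    have e1 : w = w' := hu w ⟨hw.1, hw.2.trans_le hηε⟩
    have e2 : φ z p = w' := hu _ (h3 z hz)
    rw [e2, ← e1]
    exact hw.2
  have hφ0 : ∀ z ∈ (P p₀).roots.toFinset, φ z p₀ = z := by
    intro z hz
    by_contra hne
    have h1 : 0 < ‖z - φ z p₀‖ := norm_pos_iff.2 (sub_ne_zero.2 (Ne.symm hne))
    have h2 := (hφu (min ε ‖z - φ z p₀‖) (lt_min hε0 h1) (min_le_left _ _)).self_of_nhds z hz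
    exact absurd (h2.trans_le (min_le_right _ _)) (lt_irrefl _)
  refine ⟨φ, fun z hz => ⟨?_, hφ0 z hz⟩, ?_⟩
  · have hcont : ContinuousAt (φ z) p₀ := by
      rw [Metric.continuousAt_iff']
      intro η hη
      filter_upwards [hφu (min ε η) (lt_min hε0 hη) (min_le_left _ _)] with p h1
      rw [hφ0 z hz, dist_comm, dist_eq_norm]
      exact (h1 z hz).trans_le (min_le_right _ _)
    refine AJ387.analyticAt_root (Q := P) (d := d) ?_ (fun i => F.an i p₀ hp) hcont ?_ ?_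
    · filter_upwards [F.op.mem_nhds hp] with p h1
      exact (F.deg p h1).le
    · filter_upwards [hφs] with p h1
      exact (h1 z hz).1
    · rw [hφ0 z hz]
      refine AJ387.derivative_ne_of_nodup (F.monic p₀ hp).ne_zero (F.nodup p₀ hp hpD) ?_
      have h1 := Multiset.mem_toFinset.1 hz
      exact (mem_roots (F.monic p₀ hp).ne_zero).1 h1
  · filter_upwards [hev ε hε0 le_rfl, hφs, hreg] with p h1 h2 h3
    have hne := (F.monic p h3.1).ne_zero
    refine ⟨?_, ?_⟩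
    · ext w
      rw [Multiset.mem_toFinset, mem_roots hne, Finset.mem_image]
      constructor
      · intro hw
        obtain ⟨z, hz, hzw⟩ := h1.2 w hw
        obtain ⟨w', hw', hu⟩ := h1.1 z hz
        refine ⟨z, hz, ?_⟩
        rw [hu _ (h2 z hz), hu w ⟨hw, hzw⟩]
      · rintro ⟨z, hz, rfl⟩
        exact (h2 z hz).1
    · intro z hz w hw hzw
      by_contra hne
      simp only at hzw
      have h5 := hsep z hz w hw hne
      have h6 := (h2 z hz).2
      have h7 := (h2 w hw).2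
      rw [← hzw] at h7
      have h8 : ‖z - w‖ ≤ ‖z - φ z p‖ + ‖w - φ z p‖ := by
        have := norm_sub_le (z - φ z p) (w - φ z p)
        simpa using this
      have h9 : ε ≤ ε₁ := min_le_right _ _
      linarith

end MonFam

end Crest.Agent.R257.Irr_547
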