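import Crest.Agent.R257.IrrA_547
import Crest.Agent.R257.AJ4_387

/-!
R257 / IrrB_331 (leaf IRR of task C-FRAME): the regular part of an isolated surface germ
`{P_p(z) = 0}` over the complement of the discriminant is connected: a nonempty clopen part is
everything.

* `Clo.factor` : a clopen part is a monic factor with analytic coefficients on all of `Δ`;
* `irr` : connectedness.
-/

set_option autoImplicit false

open Polynomial Set Filter Topology Metric

noncomputable section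

namespace Crest.Agent.R257.IrrB_331

open Crest.Agent.R257.Irr_547

variable {Δ : Set (ℂ × ℂ)} {d : ℕ} {P : ℂ × ℂ → ℂ[X]} {D : ℂ × ℂ → ℂ}

/-- the part of the hypersurface over the complement of `{D = 0}` -/
def Vo (Δ : Set (ℂ × ℂ)) (P : ℂ × ℂ → ℂ[X]) (D : ℂ × ℂ → ℂ) : Set ((ℂ × ℂ) × ℂ) :=
  {x | x.1 ∈ Δ ∧ D x.1 ≠ 0 ∧ (P x.1).eval x.2 = 0}

/-- clopen parts of `Vo` -/
structure Clo (Δ : Set (ℂ × ℂ)) (P : ℂ × ℂ → ℂ[X]) (D : ℂ × ℂ → ℂ) (A : Set ((ℂ × ℂ) × ℂ)) :
    Prop where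
  sub : A ⊆ Vo Δ P D
  op : ∀ x ∈ A, ∀ᶠ y in 𝓝 x, y ∈ Vo Δ P D → y ∈ A
  cl : ∀ x ∈ Vo Δ P D, x ∉ A → ∀ᶠ y in 𝓝 x, y ∉ A

theorem Clo.compl {A : Set ((ℂ × ℂ) × ℂ)} (C : Clo Δ P D A) : Clo Δ P D (Vo Δ P D \ A) where
  sub := sdiff_subset
  op x hx := by
    filter_upwards [C.cl x hx.1 hx.2] with y hy hV
    exact ⟨hV, hy⟩
  cl x hx hxA := by
    have h1 : x ∈ A := by
      by_contra h
      exact hxA ⟨hx, h⟩
    filter_upwards [C.op x h1] with y hy hV
    exact hV.2 (hy hV.1)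

open Classical in
/-- the roots over `p` which belong to `A` -/
def rA (P : ℂ × ℂ → ℂ[X]) (A : Set ((ℂ × ℂ) × ℂ)) (p : ℂ × ℂ) : Finset ℂ :=
  (P p).roots.toFinset.filter (fun z => (p, z) ∈ A)

theorem mem_rA (F : MonFam Δ d P D) {A : Set ((ℂ × ℂ) × ℂ)} {p : ℂ × ℂ} (hp : p ∈ Δ) {z : ℂ} :
    z ∈ rA P A p ↔ (P p).eval z = 0 ∧ (p, z) ∈ A := by
  classical
  unfold rA
  rw [Finset.mem_filter, Multiset.mem_toFinset, mem_roots (F.monic p hp).ne_zero]
  rfl

theorem mem_rA' (F : MonFam Δ d P D) {A : Set ((ℂ × ℂ) × ℂ)} (C : Clo Δ P D A) {p : ℂ × ℂ}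
    (hp : p ∈ Δ) {z : ℂ} : z ∈ rA P A p ↔ (p, z) ∈ A := by
  rw [mem_rA F hp]
  exact ⟨fun h => h.2, fun h => ⟨(C.sub h).2.2, h⟩⟩

theorem card_rA_le (F : MonFam Δ d P D) (A : Set ((ℂ × ℂ) × ℂ)) {p : ℂ × ℂ} (hp : p ∈ Δ) :
    (rA P A p).card ≤ d := by
  classical
  unfold rA
  refine (Finset.card_filter_le _ _).trans ((Multiset.toFinset_card_le _).trans ?_)
  rw [← F.deg p hp]
  exact card_roots' _

/-- local form of the roots in `A` -/
theorem Clo.loc (F : MonFam Δ d P D) {A : Set ((ℂ × ℂ) × ℂ)} (C : Clo Δ P D A) {p₀ : ℂ × ℂ}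
    (hp : p₀ ∈ Δ) (hpD : D p₀ ≠ 0) : ∃ φ : ℂ → ℂ × ℂ → ℂ,
    (∀ z ∈ rA P A p₀, AnalyticAt ℂ (φ z) p₀) ∧
    ∀ᶠ p in 𝓝 p₀, rA P A p = (rA P A p₀).image (fun z => φ z p) ∧
      Set.InjOn (fun z => φ z p) (rA P A p₀ : Set ℂ) := by
  classical
  obtain ⟨φ, hφ, hev⟩ := F.loc hp hpD
  have hsub : rA P A p₀ ⊆ (P p₀).roots.toFinset := Finset.filter_subset _ _
  refine ⟨φ, fun z hz => (hφ z (hsub hz)).1, ?_⟩
  have hreg : ∀ᶠ p in 𝓝 p₀, p ∈ Δ ∩ {p | D p ≠ 0} := F.isOpen_reg.mem_nhds ⟨hp, hpD⟩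
  have hz : ∀ z ∈ (P p₀).roots.toFinset, ∀ᶠ p in 𝓝 p₀,
      (P p).eval (φ z p) = 0 → ((p, φ z p) ∈ A ↔ (p₀, z) ∈ A) := by
    intro z hz
    have hc : Tendsto (fun p => (p, φ z p)) (𝓝 p₀) (𝓝 (p₀, z)) := by
      have h1 := (hφ z hz).1.continuousAt.tendsto
      rw [(hφ z hz).2] at h1
      exact (tendsto_id.prodMk_nhds h1)
    have hV : (p₀, z) ∈ Vo Δ P D :=
      ⟨hp, hpD, (mem_roots (F.monic p₀ hp).ne_zero).1 (Multiset.mem_toFinset.1 hz)⟩
    by_cases hA : (p₀, z) ∈ A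
    · filter_upwards [hc.eventually (C.op _ hA), hreg] with p h1 h2 h3
      exact ⟨fun _ => hA, fun _ => h1 ⟨h2.1, h2.2, h3⟩⟩
    · filter_upwards [hc.eventually (C.cl _ hV hA)] with p h1 _
      exact ⟨fun h => absurd h h1, fun h => absurd h hA⟩
  have hall : ∀ᶠ p in 𝓝 p₀, ∀ z ∈ (P p₀).roots.toFinset,
      (P p).eval (φ z p) = 0 → ((p, φ z p) ∈ A ↔ (p₀, z) ∈ A) :=
    (Filter.eventually_all_finset _).2 hz
  filter_upwards [hev, hall, hreg] with p h1 h2 h3
  have hroot : ∀ z ∈ (P p₀).roots.toFinset, (P p).eval (φ z p) = 0 := by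
    intro z hz
    have h4 : φ z p ∈ (P p).roots.toFinset := by
      rw [h1.1]
      exact Finset.mem_image_of_mem _ hz
    exact (mem_roots (F.monic p h3.1).ne_zero).1 (Multiset.mem_toFinset.1 h4)
  refine ⟨?_, h1.2.mono (by exact_mod_cast hsub)⟩
  ext w
  rw [Finset.mem_image]
  constructor
  · intro hw
    have h4 : w ∈ (P p).roots.toFinset := Finset.filter_subset _ _ hw
    rw [h1.1, Finset.mem_image] at h4
    obtain ⟨z, hz, rfl⟩ := h4
    refine ⟨z, ?_, rfl⟩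
    unfold rA
    rw [Finset.mem_filter]
    exact ⟨hz, (h2 z hz (hroot z hz)).1 (Finset.mem_filter.1 hw).2⟩
  · rintro ⟨z, hz, rfl⟩
    have hz' := Finset.mem_filter.1 hz
    unfold rA
    rw [Finset.mem_filter]
    refine ⟨?_, (h2 z hz'.1 (hroot z hz'.1)).2 hz'.2⟩
    rw [h1.1]
    exact Finset.mem_image_of_mem _ hz'.1

theorem analyticAt_coeff_prod {E : Type*} [NormedAddCommGroup E] [NormedSpace ℂ E] {ι : Type*}
    (S : Finset ι) {φ : ι → E → ℂ} {p₀ : E} (h : ∀ z ∈ S, AnalyticAt ℂ (φ z) p₀) (k : ℕ) :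
    AnalyticAt ℂ (fun p => (∏ z ∈ S, (X - C (φ z p))).coeff k) p₀ := by
  classical
  induction S using Finset.induction_on generalizing k with
  | empty => simpa using analyticAt_const
  | insert a S ha ih =>
    simp only [Finset.prod_insert ha, coeff_mul]
    refine Finset.analyticAt_fun_sum _ fun x _ => ?_
    refine AnalyticAt.mul ?_ (ih (fun z hz => h z (Finset.mem_insert_of_mem hz)) x.2)
    simp only [coeff_sub, coeff_C]
    refine analyticAt_const.sub ?_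
    split_ifs
    · exact h a (Finset.mem_insert_self _ _)
    · exact analyticAt_const

/-- the number of roots in `A` is constant -/
theorem Clo.card (F : MonFam Δ d P D) {A : Set ((ℂ × ℂ) × ℂ)} (C : Clo Δ P D A) :
    ∃ n ≤ d, ∀ p ∈ Δ, D p ≠ 0 → (rA P A p).card = n := by
  classical
  have hloc : ∀ p₀ ∈ Δ, D p₀ ≠ 0 → ∀ᶠ p in 𝓝 p₀, (rA P A p).card = (rA P A p₀).card := by
    intro p₀ hp hpD
    obtain ⟨φ, -, h⟩ := C.loc F hp hpD
    filter_upwards [h] with p h1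
    rw [h1.1]
    exact Finset.card_image_of_injOn h1.2
  obtain ⟨g, hg, hgf⟩ := riemann_bd (D := D) (f := fun p => ((rA P A p).card : ℂ)) F.op F.hD
    (fun a ha => F.nz ha) (by
      intro p₀ hp
      refine DifferentiableAt.differentiableWithinAt ?_
      refine (differentiableAt_const ((rA P A p₀).card : ℂ)).congr_of_eventuallyEq ?_
      filter_upwards [hloc p₀ hp.1 hp.2] with p h1
      rw [h1]) (by
      intro a ha
      refine ⟨d, ?_⟩
      filter_upwards [F.op.mem_nhds ha] with p hp _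
      rw [Complex.norm_natCast]
      exact_mod_cast card_rA_le F A hp)
  set T : Set ℂ := (↑((Finset.range (d + 1)).image (fun n : ℕ => (n : ℂ))) : Set ℂ) with hT
  have hTf : T.Finite := Finset.finite_toSet _
  have hmem : ∀ p ∈ Δ, D p ≠ 0 → g p ∈ T := by
    intro p hp hpD
    rw [hgf p hp hpD, hT, Finset.coe_image]
    exact ⟨_, by simpa using Nat.lt_succ_of_le (card_rA_le F A hp), rfl⟩
  have hmaps : MapsTo g Δ T := by
    intro a ha
    refine hTf.isClosed.mem_of_frequently_of_tendsto ?_ (hg a ha).continuousAt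
    refine ((F.freq ha).and_eventually (F.op.mem_nhds ha)).mono ?_
    rintro z ⟨h1, h2⟩
    exact hmem z h2 h1
  obtain ⟨p₁, hp₁, hp₁D⟩ := F.Dne
  refine ⟨(rA P A p₁).card, card_rA_le F A hp₁, fun p hp hpD => ?_⟩
  have h1 := F.conn.constant_of_mapsTo hTf.isDiscrete hg.continuousOn hmaps hp hp₁
  rw [hgf p hp hpD, hgf p₁ hp₁ hp₁D] at h1
  exact_mod_cast h1

/-- **clopen parts are factors** -/
theorem Clo.factor (F : MonFam Δ d P D) {A : Set ((ℂ × ℂ) × ℂ)} (C : Clo Δ P D A) :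
    ∃ n ≤ d, ∃ G : ℂ × ℂ → ℂ[X], (∀ k, AnalyticOnNhd ℂ (fun p => (G p).coeff k) Δ) ∧
      (∀ p, (G p).Monic ∧ (G p).natDegree = n) ∧
      ∀ p ∈ Δ, D p ≠ 0 → (rA P A p).card = n ∧ G p = ∏ z ∈ rA P A p, (X - Polynomial.C z) := by
  classical
  obtain ⟨n, hnd, hn⟩ := C.card F
  set Q : ℂ × ℂ → ℂ[X] := fun p => ∏ z ∈ rA P A p, (X - Polynomial.C z) with hQ
  have hQm : ∀ p, (Q p).Monic := fun p => monic_prod_of_monic _ _ fun z _ => monic_X_sub_C z
  have hQd : ∀ p, (Q p).natDegree = (rA P A p).card := fun p =>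
    natDegree_finsetProd_X_sub_C_eq_card (s := rA P A p) (fun z => z)
  have hex : ∀ k, ∃ g : ℂ × ℂ → ℂ, AnalyticOnNhd ℂ g Δ ∧ ∀ p ∈ Δ, D p ≠ 0 → g p = (Q p).coeff k := by
    intro k
    refine riemann_bd (D := D) (f := fun p => (Q p).coeff k) F.op F.hD (fun a ha => F.nz ha) ?_ ?_
    · intro p₀ hp
      obtain ⟨φ, hφ, h⟩ := C.loc F hp.1 hp.2
      refine DifferentiableAt.differentiableWithinAt ?_
      refine (analyticAt_coeff_prod _ hφ k).differentiableAt.congr_of_eventuallyEq ?_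
      filter_upwards [h] with p h1
      simp only [hQ]
      rw [h1.1, Finset.prod_image h1.2]
    · intro a ha
      have hcont : ContinuousAt (fun p => 1 + ∑ i ∈ Finset.range d, ‖(P p).coeff i‖) a := by
        refine continuousAt_const.add ?_
        refine tendsto_finsetSum _ fun i _ => ?_
        exact (F.an i a ha).continuousAt.norm
      set B : ℝ := (1 + ∑ i ∈ Finset.range d, ‖(P a).coeff i‖) + 1 with hB
      have hle : ∀ᶠ p in 𝓝 a, (1 + ∑ i ∈ Finset.range d, ‖(P p).coeff i‖) ≤ B := by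
        have := hcont.eventually (eventually_le_nhds (show (1 + ∑ i ∈ Finset.range d,
          ‖(P a).coeff i‖) < B by rw [hB]; linarith))
        exact this
      refine ⟨max B 1 ^ d * d.choose (d / 2), ?_⟩
      filter_upwards [hle, F.op.mem_nhds ha] with p h1 h2 _
      have h3 := coeff_bdd_of_roots_le (B := B) (d := d) (RingHom.id ℂ) (hQm p)
        (IsAlgClosed.splits _) (by rw [hQd]; exact card_rA_le F A h2) (by
          intro z hz
          rw [Polynomial.map_id] at hz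
          have h4 : z ∈ rA P A p := by
            simp only [hQ] at hz
            rwa [roots_prod_X_sub_C] at hz
          have h5 := AJ387.norm_root_le (F.monic p h2) ((mem_rA F h2).1 h4).1
          rw [F.deg p h2] at h5
          exact h5.trans h1) k
      rwa [Polynomial.map_id] at h3
  choose g hg hgQ using hex
  have hdeg : ∀ p, (∑ k ∈ Finset.range n, Polynomial.C (g k p) * X ^ k).degree < (n : WithBot ℕ) := by
    intro p
    rw [degree_lt_iff_coeff_zero]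
    intro m hm
    rw [finsetSum_coeff]
    refine Finset.sum_eq_zero fun k hk => ?_
    rw [coeff_C_mul_X_pow, if_neg]
    have := Finset.mem_range.1 hk
    omega
  refine ⟨n, hnd, fun p => X ^ n + ∑ k ∈ Finset.range n, Polynomial.C (g k p) * X ^ k, ?_, ?_, ?_⟩
  · intro k p hp
    simp only [coeff_add, finsetSum_coeff, coeff_C_mul_X_pow]
    refine analyticAt_const.add (Finset.analyticAt_fun_sum _ fun i _ => ?_)
    split_ifs
    · exact hg i p hp
    · exact analyticAt_const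
  · intro p
    refine ⟨monic_X_pow_add (hdeg p), ?_⟩
    rw [natDegree_add_eq_left_of_degree_lt (by rw [degree_X_pow]; exact hdeg p), natDegree_X_pow]
  · intro p hp hpD
    refine ⟨hn p hp hpD, ?_⟩
    have h1 := (hQm p).as_sum
    rw [hQd, hn p hp hpD] at h1
    have h2 : ∑ k ∈ Finset.range n, Polynomial.C (g k p) * X ^ k =
        ∑ k ∈ Finset.range n, Polynomial.C ((Q p).coeff k) * X ^ k :=
      Finset.sum_congr rfl fun k _ => by rw [hgQ k p hp hpD]
    beta_reduce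
    rw [h2]
    exact h1.symm

/-- the two factors of a clopen part and of its complement multiply to `P` -/
theorem Clo.mul_eq (F : MonFam Δ d P D) {A : Set ((ℂ × ℂ) × ℂ)} (C : Clo Δ P D A) {p : ℂ × ℂ}
    (hp : p ∈ Δ) (hpD : D p ≠ 0) :
    (∏ z ∈ rA P A p, (X - Polynomial.C z)) * (∏ z ∈ rA P (Vo Δ P D \ A) p, (X - Polynomial.C z)) =
      P p := by
  classical
  have hdis : Disjoint (rA P A p) (rA P (Vo Δ P D \ A) p) := by
    rw [Finset.disjoint_left]
    intro z h1 h2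
    exact ((mem_rA' F C.compl hp).1 h2).2 ((mem_rA' F C hp).1 h1)
  have hun : (rA P A p) ∪ (rA P (Vo Δ P D \ A) p) = (P p).roots.toFinset := by
    ext z
    rw [Finset.mem_union, mem_rA' F C hp, mem_rA' F C.compl hp, Multiset.mem_toFinset,
      mem_roots (F.monic p hp).ne_zero]
    constructor
    · rintro (h | h)
      · exact (C.sub h).2.2
      · exact h.1.2.2
    · intro h
      by_cases hA : (p, z) ∈ A
      · exact Or.inl hA
      · exact Or.inr ⟨⟨hp, hpD, h⟩, hA⟩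
  rw [← Finset.prod_union hdis, hun]
  have h1 : (P p).roots.toFinset.val = (P p).roots := by
    rw [Multiset.toFinset_val, (F.nodup p hp hpD).dedup]
  have h2 : ∏ z ∈ (P p).roots.toFinset, (X - Polynomial.C z) =
      ((P p).roots.map (fun z => X - Polynomial.C z)).prod := by
    rw [Finset.prod_eq_multiset_prod, h1]
  rw [h2]
  exact ((IsAlgClosed.splits (P p)).eq_prod_roots_of_monic (F.monic p hp)).symm

theorem analyticAt_resultant {E : Type*} [NormedAddCommGroup E] [NormedSpace ℂ E]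
    {G H : E → ℂ[X]} {p₀ : E} (hG : ∀ k, AnalyticAt ℂ (fun p => (G p).coeff k) p₀)
    (hH : ∀ k, AnalyticAt ℂ (fun p => (H p).coeff k) p₀) (m n : ℕ) :
    AnalyticAt ℂ (fun p => resultant (G p) (H p) m n) p₀ := by
  unfold resultant
  simp only [Matrix.det_apply']
  refine Finset.analyticAt_fun_sum _ fun σ _ => analyticAt_const.mul ?_
  refine Finset.analyticAt_fun_prod _ fun i _ => ?_
  unfold sylvester
  simp only [Matrix.of_apply]
  induction i using Fin.addCases with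
  | left j =>
    simp only [Fin.addCases_left]
    split_ifs
    · exact hH _
    · exact analyticAt_const
  | right j =>
    simp only [Fin.addCases_right]
    split_ifs
    · exact hG _
    · exact analyticAt_const

theorem analyticAt_eval {E : Type*} [NormedAddCommGroup E] [NormedSpace ℂ E] {G : E → ℂ[X]}
    {n : ℕ} {x : E × ℂ} (hG : ∀ k, AnalyticAt ℂ (fun p => (G p).coeff k) x.1)
    (hn : ∀ p, (G p).natDegree = n) : AnalyticAt ℂ (fun q : E × ℂ => (G q.1).eval q.2) x := by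
  simp_rw [eval_eq_sum_range, hn]
  refine Finset.analyticAt_fun_sum _ fun i _ => ?_
  refine AnalyticAt.mul ?_ (analyticAt_snd.pow i)
  exact AnalyticAt.comp (g := fun p => (G p).coeff i) (f := fun q : E × ℂ => q.1) (hG i)
    analyticAt_fst

/-- the roots tend to `0` with `p` -/
theorem roots_small (F : MonFam Δ d P D) (h0 : ((0 : ℂ), (0 : ℂ)) ∈ Δ)
    (hP : P (0, 0) = X ^ d) {ε : ℝ} (hε : 0 < ε) :
    ∀ᶠ p in 𝓝 ((0 : ℂ), (0 : ℂ)), ∀ z, (P p).eval z = 0 → ‖z‖ < ε := by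
  have hc : ∀ i, i < d → Tendsto (fun p => ‖(P p).coeff i‖) (𝓝 ((0 : ℂ), (0 : ℂ))) (𝓝 0) := by
    intro i hi
    have h1 := (F.an i _ h0).continuousAt.norm.tendsto
    have h2 : (P (0, 0)).coeff i = 0 := by
      rw [hP, coeff_X_pow, if_neg hi.ne]
    rwa [h2, norm_zero] at h1
  have hs : Tendsto (fun p => ∑ i ∈ Finset.range d, ‖(P p).coeff i‖) (𝓝 ((0 : ℂ), (0 : ℂ)))
      (𝓝 0) := by
    have := tendsto_finsetSum (Finset.range d) fun i hi => hc i (Finset.mem_range.1 hi)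
    simpa using this
  have he1 : ∀ᶠ p in 𝓝 ((0 : ℂ), (0 : ℂ)), ∑ i ∈ Finset.range d, ‖(P p).coeff i‖ < 1 :=
    hs.eventually (eventually_lt_nhds one_pos)
  have he2 : ∀ᶠ p in 𝓝 ((0 : ℂ), (0 : ℂ)), ∑ i ∈ Finset.range d, ‖(P p).coeff i‖ <
      ε ^ d / 2 ^ d := hs.eventually (eventually_lt_nhds (by positivity))
  filter_upwards [he1, he2, F.op.mem_nhds h0] with p h1 h2 hp z hz
  have h3 := AJ387.norm_root_le (F.monic p hp) hz
  rw [F.deg p hp] at h3
  have h4 : ‖z‖ ≤ 2 := by linarith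
  have h5 : ‖z‖ ^ d ≤ (∑ i ∈ Finset.range d, ‖(P p).coeff i‖) * 2 ^ d := by
    rw [eval_eq_sum_range, F.deg p hp, Finset.sum_range_succ] at hz
    have h6 : (P p).coeff d = 1 := by
      have := (F.monic p hp).coeff_natDegree
      rwa [F.deg p hp] at this
    rw [h6, one_mul] at hz
    have h7 : z ^ d = - ∑ i ∈ Finset.range d, (P p).coeff i * z ^ i := by
      linear_combination hz
    calc ‖z‖ ^ d = ‖z ^ d‖ := (norm_pow _ _).symm
      _ = ‖∑ i ∈ Finset.range d, (P p).coeff i * z ^ i‖ := by rw [h7, norm_neg]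
      _ ≤ ∑ i ∈ Finset.range d, ‖(P p).coeff i * z ^ i‖ := norm_sum_le _ _
      _ ≤ ∑ i ∈ Finset.range d, ‖(P p).coeff i‖ * 2 ^ d := by
          refine Finset.sum_le_sum fun i hi => ?_
          rw [norm_mul, norm_pow]
          refine mul_le_mul_of_nonneg_left ?_ (norm_nonneg _)
          calc ‖z‖ ^ i ≤ 2 ^ i := pow_le_pow_left₀ (norm_nonneg _) h4 i
            _ ≤ 2 ^ d := pow_le_pow_right₀ (by norm_num) (Finset.mem_range.1 hi).le
      _ = _ := by rw [Finset.sum_mul]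
  have h6 : ‖z‖ ^ d < ε ^ d := by
    refine h5.trans_lt ?_
    rwa [lt_div_iff₀ (by positivity)] at h2
  exact lt_of_pow_lt_pow_left₀ d hε.le h6

/-- **(IRR)** the regular part is connected -/
theorem irr (F : MonFam Δ d P D) (h0 : ((0 : ℂ), (0 : ℂ)) ∈ Δ) (hP : P (0, 0) = X ^ d)
    (hreg : ∀ᶠ x in 𝓝 (((0 : ℂ), (0 : ℂ)), (0 : ℂ)), (P x.1).eval x.2 = 0 → x ≠ 0 →
      fderiv ℂ (fun q : (ℂ × ℂ) × ℂ => (P q.1).eval q.2) x ≠ 0)
    (A : Set ((ℂ × ℂ) × ℂ))
    (hA : A ⊆ {x : (ℂ × ℂ) × ℂ | x.1 ∈ Δ ∧ D x.1 ≠ 0 ∧ (P x.1).eval x.2 = 0})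
    (h1 : ∀ x ∈ A, ∀ᶠ y in 𝓝 x,
      y ∈ {x : (ℂ × ℂ) × ℂ | x.1 ∈ Δ ∧ D x.1 ≠ 0 ∧ (P x.1).eval x.2 = 0} → y ∈ A)
    (h2 : ∀ x ∈ {x : (ℂ × ℂ) × ℂ | x.1 ∈ Δ ∧ D x.1 ≠ 0 ∧ (P x.1).eval x.2 = 0}, x ∉ A →
      ∀ᶠ y in 𝓝 x, y ∉ A)
    (hne : A.Nonempty) :
    A = {x : (ℂ × ℂ) × ℂ | x.1 ∈ Δ ∧ D x.1 ≠ 0 ∧ (P x.1).eval x.2 = 0} := by
  classical
  have C : Clo Δ P D A := ⟨hA, h1, h2⟩
  obtain ⟨n, hnd, G, hG, hGm, hGp⟩ := C.factor F
  obtain ⟨m, hmd, H, hH, hHm, hHp⟩ := C.compl.factor F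
  have hprod : ∀ p ∈ Δ, G p * H p = P p := by
    intro p hp
    ext k
    have hc1 : ContinuousAt (fun p => (G p * H p).coeff k) p := by
      simp only [coeff_mul]
      refine tendsto_finsetSum _ fun x _ => ?_
      exact (hG x.1 p hp).continuousAt.mul (hH x.2 p hp).continuousAt
    have hc2 : ContinuousAt (fun p => (P p).coeff k) p := (F.an k p hp).continuousAt
    refine tendsto_nhds_unique_of_frequently_eq hc1 hc2 ?_
    refine ((F.freq hp).and_eventually (F.op.mem_nhds hp)).mono ?_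
    rintro q ⟨hq1, hq2⟩
    rw [(hGp q hq2 hq1).2, (hHp q hq2 hq1).2, C.mul_eq F hq2 hq1]
  rcases Nat.eq_zero_or_pos n with hn0 | hn0
  · exfalso
    obtain ⟨⟨p, z⟩, hx⟩ := hne
    have hx' := C.sub hx
    have h3 := (hGp p hx'.1 hx'.2.1).1
    rw [hn0, Finset.card_eq_zero] at h3
    have h4 := (mem_rA' F C hx'.1 (z := z)).2 hx
    rw [h3] at h4
    exact absurd h4 (Finset.notMem_empty _)
  rcases Nat.eq_zero_or_pos m with hm0 | hm0
  · refine hA.antisymm ?_
    rintro ⟨p, z⟩ hx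
    by_contra hcon
    have h3 := (hHp p hx.1 hx.2.1).1
    rw [hm0, Finset.card_eq_zero] at h3
    have h4 := (mem_rA' F C.compl hx.1 (z := z)).2 ⟨hx, hcon⟩
    rw [h3] at h4
    exact absurd h4 (Finset.notMem_empty _)
  exfalso
  -- `0` is a common root over the origin
  have hroot0 : ∀ {Q : ℂ[X]} {k : ℕ}, 0 < k → Q.natDegree = k → Q ∣ X ^ d → Q.eval 0 = 0 := by
    intro Q k hk hQ hdvd
    obtain ⟨w, hw⟩ := IsAlgClosed.exists_root Q (by
      intro hdeg
      have h9 : Q.natDegree = 0 := natDegree_eq_of_degree_eq_some hdeg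
      omega)
    have h3 : (X ^ d : ℂ[X]).eval w = 0 := by
      obtain ⟨R, hR⟩ := hdvd
      rw [hR, eval_mul, hw.eq_zero, zero_mul]
    rw [eval_pow, eval_X] at h3
    have h4 : w = 0 := by
      rcases Nat.eq_zero_or_pos d with hd | hd
      · omega
      · exact (pow_eq_zero_iff hd.ne').1 h3
    rw [h4] at hw
    exact hw
  have hG0 : (G (0, 0)).eval 0 = 0 :=
    hroot0 hn0 (hGm _).2 ⟨H (0, 0), by rw [hprod _ h0, hP]⟩
  have hH0 : (H (0, 0)).eval 0 = 0 :=
    hroot0 hm0 (hHm _).2 ⟨G (0, 0), by rw [mul_comm, hprod _ h0, hP]⟩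
  have hres : ∀ p, resultant (G p) (H p) n m = 0 ↔ ∃ z, (G p).eval z = 0 ∧ (H p).eval z = 0 := by
    intro p
    have h3 := resultant_eq_zero_iff (f := G p) (g := H p)
    rw [(hGm p).2, (hHm p).2] at h3
    rw [h3]
    constructor
    · rintro ⟨-, h4⟩
      by_contra hcon
      refine h4 ?_
      push Not at hcon
      rw [isCoprime_iff_aeval_ne_zero_of_isAlgClosed ℂ ℂ]
      intro a
      by_cases ha : (G p).eval a = 0
      · right
        simpa [aeval_def, eval₂_eq_eval_map] using hcon a ha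
      · left
        simpa [aeval_def, eval₂_eq_eval_map] using ha
    · rintro ⟨z, h4, h5⟩
      refine ⟨Or.inl (hGm p).1.ne_zero, fun hcop => ?_⟩
      obtain ⟨a, b, hab⟩ := hcop
      have := congrArg (Polynomial.eval z) hab
      rw [eval_add, eval_mul, eval_mul, h4, h5] at this
      simp at this
  refine Node_547.no_isolated (K := fun p => resultant (G p) (H p) n m)
    (analyticAt_resultant (fun k => hG k _ h0) (fun k => hH k _ h0) n m)
    ((hres _).2 ⟨0, hG0, hH0⟩) ?_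
  obtain ⟨ε, hε, hball⟩ := Metric.eventually_nhds_iff_ball.1 hreg
  filter_upwards [roots_small F h0 hP hε, F.op.mem_nhds h0, ball_mem_nhds _ hε] with p h3 h4 h5 hr
  obtain ⟨z, hz1, hz2⟩ := (hres p).1 hr
  by_contra hp0
  have hPz : (P p).eval z = 0 := by
    rw [← hprod p h4, eval_mul, hz1, zero_mul]
  have hmem : (p, z) ∈ ball (((0 : ℂ), (0 : ℂ)), (0 : ℂ)) ε := by
    rw [← ball_prod_same]
    exact ⟨h5, by simpa using h3 z hPz⟩
  refine hball (p, z) hmem hPz (fun h => hp0 (congrArg Prod.fst h)) ?_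
  have hd1 := (analyticAt_eval (x := (p, z)) (fun k => hG k p h4) (fun p => (hGm p).2)).differentiableAt
  have hd2 := (analyticAt_eval (x := (p, z)) (fun k => hH k p h4) (fun p => (hHm p).2)).differentiableAt
  have hev : (fun q : (ℂ × ℂ) × ℂ => (P q.1).eval q.2) =ᶠ[𝓝 (p, z)]
      fun q => (G q.1).eval q.2 * (H q.1).eval q.2 := by
    have : ∀ᶠ q : (ℂ × ℂ) × ℂ in 𝓝 (p, z), q.1 ∈ Δ :=
      continuousAt_fst.eventually (F.op.mem_nhds h4)
    filter_upwards [this] with q hq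
    rw [← hprod q.1 hq, eval_mul]
  rw [hev.fderiv_eq, fderiv_fun_mul hd1 hd2]
  rw [hz1, hz2]
  refine ContinuousLinearMap.ext fun v => ?_
  simp

end Crest.Agent.R257.IrrB_331
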