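import Crest.Agent.R273.Sub_835

/-!
# R257 (S0395), Part E (helper835): complex projective space as rank one projections

* `PN N`      : the compact Hausdorff space of the matrices `v vᴴ`, `|v| = 1`;
* `cls Z`     : the class of `Z ≠ 0` (`cls_eq_iff`, `continuousAt_cls`);
* `lft j P`   : the representative with `j`-th coordinate one;
* `aff j`     : the affine charts, `pnFam N : Fam N (PN N)`.
-/

set_option autoImplicit false
set_option linter.unusedSectionVars false

open Set Filter Topology Complex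
open scoped ContDiff Matrix ComplexConjugate Manifold

namespace Crest.Agent.R257.PN_835

open Crest.Agent.R275.Geo Crest.Agent.R275.Core144
open Crest.Agent.R273.Fam_835 Crest.Agent.R273.Sub_835

noncomputable section

variable {N : ℕ}

/-- homogeneous coordinates -/
abbrev HC (N : ℕ) : Type := Fin (N + 1) → ℂ

/-- squared norm -/
def nsq {m : ℕ} (Z : Fin m → ℂ) : ℝ := ∑ k, ‖Z k‖ ^ 2

theorem nsq_nonneg {m : ℕ} (Z : Fin m → ℂ) : 0 ≤ nsq Z := Finset.sum_nonneg fun _ _ => sq_nonneg _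

theorem nsq_pos {m : ℕ} {Z : Fin m → ℂ} (hZ : Z ≠ 0) : 0 < nsq Z := by
  obtain ⟨k, hk⟩ := Function.ne_iff.1 hZ
  have h1 : 0 < ‖Z k‖ ^ 2 := by
    have : Z k ≠ 0 := hk
    positivity
  exact h1.trans_le (Finset.single_le_sum (f := fun k => ‖Z k‖ ^ 2) (fun _ _ => sq_nonneg _)
    (Finset.mem_univ k))

theorem nsq_smul {m : ℕ} (c : ℂ) (Z : Fin m → ℂ) : nsq (c • Z) = ‖c‖ ^ 2 * nsq Z := by
  unfold nsq
  rw [Finset.mul_sum]
  refine Finset.sum_congr rfl fun k _ => ?_
  rw [Pi.smul_apply, smul_eq_mul, norm_mul, mul_pow]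

theorem continuous_nsq {m : ℕ} : Continuous (nsq : (Fin m → ℂ) → ℝ) :=
  continuous_finsetSum _ fun k _ => ((continuous_apply k).norm).pow 2

theorem sq_le_nsq {m : ℕ} (Z : Fin m → ℂ) (k : Fin m) : ‖Z k‖ ^ 2 ≤ nsq Z :=
  Finset.single_le_sum (f := fun k => ‖Z k‖ ^ 2) (fun _ _ => sq_nonneg _) (Finset.mem_univ k)

theorem isCompact_nsq_eq {m : ℕ} (r : ℝ) : IsCompact {Z : Fin m → ℂ | nsq Z = r} := by
  refine Metric.isCompact_of_isClosed_isBounded
    (isClosed_eq continuous_nsq continuous_const) ?_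
  refine (Metric.isBounded_iff_subset_closedBall 0).2 ⟨|r| + 1, fun Z hZ => ?_⟩
  rw [mem_closedBall_zero_iff]
  refine (pi_norm_le_iff_of_nonneg (by positivity)).2 fun k => ?_
  have h1 := sq_le_nsq Z k
  have h2 : nsq Z = r := hZ
  rw [h2] at h1
  have h3 : r ≤ |r| := le_abs_self r
  nlinarith [norm_nonneg (Z k), abs_nonneg r, sq_nonneg (‖Z k‖ - 1)]

/-- the matrix of the class of `Z` -/
def pm (Z : HC N) : Matrix (Fin (N + 1)) (Fin (N + 1)) ℂ :=
  Matrix.of fun a b => Z a * conj (Z b) / (nsq Z : ℂ)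

theorem pm_apply (Z : HC N) (a b : Fin (N + 1)) : pm Z a b = Z a * conj (Z b) / (nsq Z : ℂ) := rfl

theorem pm_smul {c : ℂ} (hc : c ≠ 0) (Z : HC N) : pm (c • Z) = pm Z := by
  ext a b
  rw [pm_apply, pm_apply, nsq_smul]
  simp only [Pi.smul_apply, smul_eq_mul, map_mul]
  have h1 : (((‖c‖ ^ 2 * nsq Z : ℝ)) : ℂ) = c * conj c * (nsq Z : ℂ) := by
    rw [Complex.mul_conj, Complex.normSq_eq_norm_sq]
    push_cast
    ring
  rw [h1]
  have h2 : c * conj c ≠ 0 := mul_ne_zero hc (by simpa using hc)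
  by_cases hZ : (nsq Z : ℂ) = 0
  · rw [hZ, mul_zero, div_zero, div_zero]
  · rw [div_eq_div_iff (mul_ne_zero h2 hZ) hZ]
    ring

/-- projective space -/
def PN (N : ℕ) : Type := {P : Matrix (Fin (N + 1)) (Fin (N + 1)) ℂ // ∃ Z : HC N, Z ≠ 0 ∧ pm Z = P}

instance : TopologicalSpace (PN N) := instTopologicalSpaceSubtype

theorem continuous_val : Continuous (fun P : PN N => P.1) :=
  show Continuous (Subtype.val : {P : Matrix (Fin (N + 1)) (Fin (N + 1)) ℂ //
    ∃ Z : HC N, Z ≠ 0 ∧ pm Z = P} → _) from continuous_subtype_val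

theorem continuous_entry (a b : Fin (N + 1)) : Continuous (fun P : PN N => P.1 a b) :=
  (continuous_apply_apply a b).comp continuous_val

instance : T2Space (PN N) := inferInstanceAs (T2Space {P : Matrix (Fin (N + 1)) (Fin (N + 1)) ℂ //
    ∃ Z : HC N, Z ≠ 0 ∧ pm Z = P})

theorem continuousAt_pm {Z : HC N} (hZ : Z ≠ 0) : ContinuousAt pm Z := by
  refine continuousAt_pi.2 fun a => continuousAt_pi.2 fun b => ?_
  show ContinuousAt (fun Z : HC N => Z a * conj (Z b) / (nsq Z : ℂ)) Z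
  refine ContinuousAt.div ?_ ?_ ?_
  · exact ((continuous_apply a).mul (continuous_conj.comp (continuous_apply b))).continuousAt
  · exact (continuous_ofReal.comp continuous_nsq).continuousAt
  · exact_mod_cast (nsq_pos hZ).ne'

theorem exists_unit (P : PN N) : ∃ Z : HC N, nsq Z = 1 ∧ pm Z = P.1 := by
  obtain ⟨Z, hZ, hP⟩ := P.2
  have h0 := nsq_pos hZ
  have hc : ((1 / Real.sqrt (nsq Z) : ℝ) : ℂ) ≠ 0 := by
    rw [Ne, Complex.ofReal_eq_zero]
    positivity
  refine ⟨((1 / Real.sqrt (nsq Z) : ℝ) : ℂ) • Z, ?_, ?_⟩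
  · rw [nsq_smul, Complex.norm_real, Real.norm_eq_abs, sq_abs, div_pow, one_pow,
      Real.sq_sqrt h0.le]
    exact one_div_mul_cancel h0.ne'
  · rw [pm_smul hc, hP]

instance : CompactSpace (PN N) := by
  have h1 : IsCompact (pm '' {Z : HC N | nsq Z = 1}) := by
    refine (isCompact_nsq_eq 1).image_of_continuousOn fun Z hZ => ?_
    refine (continuousAt_pm ?_).continuousWithinAt
    rintro rfl
    have h2 : nsq (0 : HC N) = 1 := hZ
    simp [nsq] at h2
  have h2 : pm '' {Z : HC N | nsq Z = 1} =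
      {P : Matrix (Fin (N + 1)) (Fin (N + 1)) ℂ | ∃ Z : HC N, Z ≠ 0 ∧ pm Z = P} := by
    ext Q
    constructor
    · rintro ⟨Z, hZ, rfl⟩
      refine ⟨Z, ?_, rfl⟩
      rintro rfl
      have h2 : nsq (0 : HC N) = 1 := hZ
      simp [nsq] at h2
    · intro h
      obtain ⟨Z, h1, h2⟩ := exists_unit ⟨Q, h⟩
      exact ⟨Z, h1, h2⟩
  rw [h2] at h1
  exact isCompact_iff_compactSpace.1 h1

/-- the class of `Z` -/
def cls (Z : HC N) (hZ : Z ≠ 0) : PN N := ⟨pm Z, Z, hZ, rfl⟩

theorem cls_smul {c : ℂ} (hc : c ≠ 0) {Z : HC N} (hZ : Z ≠ 0) :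
    cls (c • Z) (smul_ne_zero hc hZ) = cls Z hZ := Subtype.ext (pm_smul hc Z)

theorem exists_rep (P : PN N) : ∃ (Z : HC N) (hZ : Z ≠ 0), cls Z hZ = P := by
  obtain ⟨Z, hZ, hP⟩ := P.2
  exact ⟨Z, hZ, Subtype.ext hP⟩

/-! ### affine charts -/

/-- the representative with `j`-th coordinate one -/
def lft (j : Fin (N + 1)) (P : PN N) : HC N := fun k => P.1 k j / P.1 j j

theorem pm_ne {Z : HC N} (hZ : Z ≠ 0) {j : Fin (N + 1)} : pm Z j j ≠ 0 ↔ Z j ≠ 0 := by
  have h0 : (nsq Z : ℂ) ≠ 0 := by exact_mod_cast (nsq_pos hZ).ne'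
  rw [pm_apply]
  simp [h0]

theorem lft_cls {Z : HC N} (hZ : Z ≠ 0) {j : Fin (N + 1)} (hj : Z j ≠ 0) :
    lft j (cls Z hZ) = (Z j)⁻¹ • Z := by
  have h0 : (nsq Z : ℂ) ≠ 0 := by exact_mod_cast (nsq_pos hZ).ne'
  funext k
  show pm Z k j / pm Z j j = (Z j)⁻¹ * Z k
  rw [pm_apply, pm_apply]
  have h1 : conj (Z j) ≠ 0 := by simpa using hj
  field_simp

theorem lft_self {j : Fin (N + 1)} {P : PN N} (hP : P.1 j j ≠ 0) : lft j P j = 1 := div_self hP

theorem lft_ne {j : Fin (N + 1)} {P : PN N} (hP : P.1 j j ≠ 0) : lft j P ≠ 0 := by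
  intro h
  have h1 := lft_self hP
  rw [h] at h1
  exact zero_ne_one h1

theorem cls_lft {j : Fin (N + 1)} {P : PN N} (hP : P.1 j j ≠ 0) : cls (lft j P) (lft_ne hP) = P := by
  obtain ⟨Z, hZ, rfl⟩ := exists_rep P
  have hj : Z j ≠ 0 := (pm_ne hZ).1 hP
  refine Subtype.ext ?_
  show pm (lft j (cls Z hZ)) = pm Z
  rw [lft_cls hZ hj, pm_smul (inv_ne_zero hj)]

theorem cls_eq_iff {Z W : HC N} (hZ : Z ≠ 0) (hW : W ≠ 0) :
    cls Z hZ = cls W hW ↔ ∃ c : ℂ, Z = c • W := by
  constructor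
  · intro h
    obtain ⟨j, hj⟩ := Function.ne_iff.1 hZ
    have hj' : Z j ≠ 0 := hj
    have h1 : (cls W hW).1 j j ≠ 0 := by
      rw [← h]
      exact (pm_ne hZ).2 hj'
    have hWj : W j ≠ 0 := (pm_ne hW).1 h1
    have h2 := lft_cls hZ hj'
    rw [h, lft_cls hW hWj] at h2
    refine ⟨Z j * (W j)⁻¹, ?_⟩
    rw [mul_smul, h2, smul_smul, mul_inv_cancel₀ hj', one_smul]
  · rintro ⟨c, hc⟩
    have hc0 : c ≠ 0 := by
      rintro rfl
      rw [zero_smul] at hc
      exact hZ hc
    refine Subtype.ext ?_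
    show pm Z = pm W
    rw [hc, pm_smul hc0]

/-- the affine point with coordinates `y` in the `j`-th patch -/
def hmg (j : Fin (N + 1)) (y : Cn N) : HC N := Fin.insertNth j (1 : ℂ) (fun k => y k)

@[simp] theorem hmg_self (j : Fin (N + 1)) (y : Cn N) : hmg j y j = 1 := Fin.insertNth_apply_same ..

@[simp] theorem hmg_succAbove (j : Fin (N + 1)) (y : Cn N) (k : Fin N) :
    hmg j y (j.succAbove k) = y k := Fin.insertNth_apply_succAbove ..

theorem hmg_ne (j : Fin (N + 1)) (y : Cn N) : hmg j y ≠ 0 := by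
  intro h
  have h1 := hmg_self j y
  rw [h] at h1
  exact zero_ne_one h1

theorem differentiable_hmg (j : Fin (N + 1)) : Differentiable ℂ (hmg (N := N) j) := by
  refine differentiable_pi.2 fun k => ?_
  rcases Fin.eq_self_or_eq_succAbove j k with rfl | ⟨l, rfl⟩
  · simp only [hmg_self]
    exact differentiable_const _
  · simp only [hmg_succAbove]
    exact (EuclideanSpace.proj l : Cn N →L[ℂ] ℂ).differentiable

theorem hmg_affine (j : Fin (N + 1)) (y : Cn N) {Z : HC N} (h1 : Z j = 1)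
    (h2 : ∀ k, Z (j.succAbove k) = y k) : Z = hmg j y := by
  funext k
  rcases Fin.eq_self_or_eq_succAbove j k with rfl | ⟨l, rfl⟩
  · rw [h1, hmg_self]
  · rw [h2, hmg_succAbove]

/-- affine coordinates of homogeneous coordinates -/
def afc (j : Fin (N + 1)) (Z : HC N) : Cn N := WithLp.toLp 2 fun k => Z (j.succAbove k) / Z j

@[simp] theorem afc_apply (j : Fin (N + 1)) (Z : HC N) (k : Fin N) :
    afc j Z k = Z (j.succAbove k) / Z j := rfl

theorem hmg_afc {j : Fin (N + 1)} {Z : HC N} (hZ : Z j ≠ 0) : hmg j (afc j Z) = (Z j)⁻¹ • Z := by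
  refine (hmg_affine j _ ?_ fun k => ?_).symm
  · rw [Pi.smul_apply, smul_eq_mul, inv_mul_cancel₀ hZ]
  · rw [Pi.smul_apply, smul_eq_mul, afc_apply, div_eq_inv_mul]

theorem afc_hmg (j : Fin (N + 1)) (y : Cn N) : afc j (hmg j y) = y := by
  ext k
  rw [afc_apply, hmg_self, hmg_succAbove, div_one]

theorem afc_smul {j : Fin (N + 1)} {c : ℂ} (hc : c ≠ 0) (Z : HC N) : afc j (c • Z) = afc j Z := by
  ext k
  rw [afc_apply, afc_apply, Pi.smul_apply, Pi.smul_apply, smul_eq_mul, smul_eq_mul,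
    mul_div_mul_left _ _ hc]

theorem differentiableAt_afc {j : Fin (N + 1)} {Z : HC N} (hZ : Z j ≠ 0) :
    DifferentiableAt ℂ (afc (N := N) j) Z := by
  have h1 : DifferentiableAt ℂ (fun Z : HC N => fun k => Z (j.succAbove k) / Z j) Z := by
    refine differentiableAt_pi.2 fun k => ?_
    have h2 : DifferentiableAt ℂ (fun Z : HC N => Z (j.succAbove k)) Z := differentiableAt_apply _ _
    have h3 : DifferentiableAt ℂ (fun Z : HC N => Z j) Z := differentiableAt_apply _ _
    have h4 : DifferentiableAt ℂ (fun Z : HC N => (Z j)⁻¹) Z :=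
      (differentiableAt_inv hZ).comp Z h3
    simp only [div_eq_mul_inv]
    exact h2.mul h4
  exact (PiLp.continuousLinearEquiv 2 ℂ (fun _ : Fin N => ℂ)).symm.differentiableAt.comp Z h1

/-- the affine charts -/
def aff (j : Fin (N + 1)) : OpenPartialHomeomorph (PN N) (Cn N) where
  toFun P := afc j (lft j P)
  invFun y := cls (hmg j y) (hmg_ne j y)
  source := {P | P.1 j j ≠ 0}
  target := univ
  map_source' _ _ := mem_univ _
  map_target' y _ := (pm_ne (hmg_ne j y)).2 (by rw [hmg_self]; exact one_ne_zero)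
  left_inv' P hP := by
    have h1 : lft j P j ≠ 0 := by rw [lft_self hP]; exact one_ne_zero
    have h2 : hmg j (afc j (lft j P)) = lft j P := by
      rw [hmg_afc h1, lft_self hP, inv_one, one_smul]
    have h3 := cls_lft hP
    refine Eq.trans ?_ h3
    exact Subtype.ext (congrArg pm h2)
  right_inv' y _ := by
    show afc j (lft j (cls (hmg j y) (hmg_ne j y))) = y
    rw [lft_cls (hmg_ne j y) (by rw [hmg_self]; exact one_ne_zero), hmg_self, inv_one, one_smul,
      afc_hmg]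
  open_source := by
    exact isOpen_ne.preimage (continuous_entry j j)
  open_target := isOpen_univ
  continuousOn_toFun := by
    intro P hP
    refine ContinuousAt.continuousWithinAt ?_
    have h1 : ContinuousAt (lft (N := N) j) P := by
      refine continuousAt_pi.2 fun k => ?_
      exact ContinuousAt.div (continuous_entry k j).continuousAt
        (continuous_entry j j).continuousAt hP
    exact ContinuousAt.comp (g := afc j) (differentiableAt_afc (by
      rw [lft_self hP]; exact one_ne_zero)).continuousAt h1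
  continuousOn_invFun := by
    refine (Continuous.subtype_mk ?_ _).continuousOn
    refine continuous_iff_continuousAt.2 fun y => ?_
    exact ContinuousAt.comp (g := pm) (continuousAt_pm (hmg_ne j y))
      (differentiable_hmg j y).continuousAt

theorem aff_source (j : Fin (N + 1)) : (aff (N := N) j).source = {P | P.1 j j ≠ 0} := rfl

theorem aff_symm (j : Fin (N + 1)) (y : Cn N) : (aff j).symm y = cls (hmg j y) (hmg_ne j y) := rfl

theorem aff_cls {j : Fin (N + 1)} {Z : HC N} (hZ : Z ≠ 0) (hj : Z j ≠ 0) :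
    aff j (cls Z hZ) = afc j Z := by
  show afc j (lft j (cls Z hZ)) = afc j Z
  rw [lft_cls hZ hj, afc_smul (inv_ne_zero hj)]

theorem cls_mem_aff {j : Fin (N + 1)} {Z : HC N} (hZ : Z ≠ 0) :
    cls Z hZ ∈ (aff j).source ↔ Z j ≠ 0 := pm_ne hZ

theorem lft_aff_symm (j : Fin (N + 1)) (y : Cn N) : lft j ((aff j).symm y) = hmg j y := by
  rw [aff_symm, lft_cls (hmg_ne j y) (by rw [hmg_self]; exact one_ne_zero), hmg_self, inv_one,
    one_smul]

theorem hmg_aff {j : Fin (N + 1)} {P : PN N} (hP : P.1 j j ≠ 0) : hmg j (aff j P) = lft j P := by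
  have h1 : lft j P j ≠ 0 := by rw [lft_self hP]; exact one_ne_zero
  show hmg j (afc j (lft j P)) = lft j P
  rw [hmg_afc h1, lft_self hP, inv_one, one_smul]

theorem exists_patch (P : PN N) : ∃ j : Fin (N + 1), P.1 j j ≠ 0 := by
  obtain ⟨Z, hZ, rfl⟩ := exists_rep P
  obtain ⟨j, hj⟩ := Function.ne_iff.1 hZ
  exact ⟨j, (pm_ne hZ).2 hj⟩

/-- the family of affine charts -/
def pnFam (N : ℕ) : Fam N (PN N) where
  ι := Fin (N + 1)
  e := aff
  cover P := by
    obtain ⟨Z, hZ, rfl⟩ := exists_rep P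
    obtain ⟨j, hj⟩ := Function.ne_iff.1 hZ
    exact ⟨j, (cls_mem_aff hZ).2 hj⟩
  holo i j := by
    intro y hy
    have hj : hmg i y j ≠ 0 := (cls_mem_aff (hmg_ne i y)).1 hy.2
    have h1 : DifferentiableAt ℂ (fun y => afc j (hmg (N := N) i y)) y :=
      DifferentiableAt.comp y (g := afc j) (differentiableAt_afc hj) (differentiable_hmg i y)
    refine (h1.congr_of_eventuallyEq ?_).differentiableWithinAt
    have h2 : ∀ᶠ y' in 𝓝 y, hmg (N := N) i y' j ≠ 0 :=
      (continuousAt_pi.1 (differentiable_hmg i y).continuousAt j).eventually_ne hj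
    filter_upwards [h2] with y' hy'
    show aff j ((aff i).symm y') = _
    rw [aff_symm, aff_cls (hmg_ne i y') hy']

/-- holomorphic dependence of the class on the homogeneous coordinates -/
theorem continuousAt_cls {X : Type*} [TopologicalSpace X] {f : X → HC N} (hf : ∀ x, f x ≠ 0)
    {x : X} (hc : ContinuousAt f x) : ContinuousAt (fun x => cls (f x) (hf x)) x := by
  rw [continuousAt_def]
  intro U hU
  obtain ⟨V, hV, hVU⟩ := mem_nhds_subtype _ _ _ |>.1 hU
  have h1 : ContinuousAt (fun x => pm (f x)) x :=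
    ContinuousAt.comp (g := pm) (continuousAt_pm (hf x)) hc
  filter_upwards [h1.preimage_mem_nhds hV] with y hy
  exact hVU hy

end

end Crest.Agent.R257.PN_835
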