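import Crest.Agent.R257.Defs_219
import Crest.Agent.R257.PN_835
import Mathlib.Analysis.Complex.AbsMax
import Mathlib.Analysis.Analytic.IsolatedZeros
import Mathlib.Analysis.Complex.CauchyIntegral

/-!
# R257 (S0395), leaf JNU (helper5), part 1: the projection `(x_1, x_2)` of `{f = 0}` is open

* `open_at`  : zeros of `f(·, x')` persist
* `slice_ne` : `f(·, x')` does not vanish identically for small `x'`
-/

set_option autoImplicit false
set_option linter.unusedSectionVars false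

open Set Filter Topology Complex MeasureTheory
open scoped ContDiff Matrix ComplexConjugate ENNReal

namespace Crest.Agent.R257.Jnu_5

open Crest.Agent.R257.Defs_219
open Crest.Agent.R257.PN_835 (nsq nsq_nonneg nsq_pos continuous_nsq sq_le_nsq)

noncomputable section

theorem continuous_cons : Continuous fun p : ℂ × (Fin 2 → ℂ) => (Fin.cons p.1 p.2 : E3) := by
  refine continuous_pi fun i => ?_
  refine Fin.cases ?_ (fun j => ?_) i
  · exact continuous_fst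
  · exact (continuous_apply j).comp continuous_snd

theorem diff_cons (x' : Fin 2 → ℂ) : Differentiable ℂ fun t : ℂ => (Fin.cons t x' : E3) := by
  refine differentiable_pi.2 fun i => ?_
  refine Fin.cases ?_ (fun j => ?_) i
  · exact differentiable_id
  · exact differentiable_const _

theorem nsq_cons (t : ℂ) (x' : Fin 2 → ℂ) :
    nsq (Fin.cons t x' : E3) = ‖t‖ ^ 2 + nsq x' := by
  unfold nsq
  rw [Fin.sum_univ_succ]
  rfl

/-- zeros of `f(·, x')` persist -/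
theorem open_at {f : E3 → ℂ} {x₀ : E3} {V : Set E3} (hV : IsOpen V) (hx : x₀ ∈ V)
    (hf : DifferentiableOn ℂ f V) (h0 : f x₀ = 0)
    (hne : ¬ ∀ᶠ t in 𝓝 (x₀ 0), f (Fin.cons t (Fin.tail x₀)) = 0) :
    ∀ᶠ x' in 𝓝 (Fin.tail x₀), ∃ t : ℂ, (Fin.cons t x' : E3) ∈ V ∧ f (Fin.cons t x') = 0 := by
  set t₀ : ℂ := x₀ 0 with ht₀
  set y₀ : Fin 2 → ℂ := Fin.tail x₀ with hy₀
  have hx₀ : (Fin.cons t₀ y₀ : E3) = x₀ := Fin.cons_self_tail x₀
  -- a product neighbourhood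
  have hV' : (fun p : ℂ × (Fin 2 → ℂ) => (Fin.cons p.1 p.2 : E3)) ⁻¹' V ∈ 𝓝 (t₀, y₀) := by
    refine (hV.preimage continuous_cons).mem_nhds ?_
    show (Fin.cons t₀ y₀ : E3) ∈ V
    rw [hx₀]; exact hx
  rw [nhds_prod_eq] at hV'
  obtain ⟨A, hA, B, hB, hAB⟩ := Filter.mem_prod_iff.1 hV'
  have hAB' : ∀ t ∈ A, ∀ y ∈ B, (Fin.cons t y : E3) ∈ V := fun t ht y hy => by
    have h : (t, y) ∈ (fun p : ℂ × (Fin 2 → ℂ) => (Fin.cons p.1 p.2 : E3)) ⁻¹' V :=
      hAB (show (t, y) ∈ A ×ˢ B from ⟨ht, hy⟩)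
    exact h
  -- isolated zero
  have hφd : DifferentiableOn ℂ (fun t => f (Fin.cons t y₀)) (interior A) := by
    intro t ht
    exact (hf.differentiableAt (hV.mem_nhds (hAB' t (interior_subset ht) y₀
      (mem_of_mem_nhds hB)))).comp_differentiableWithinAt t
      ((diff_cons y₀).differentiableAt.differentiableWithinAt)
  have hφa : AnalyticAt ℂ (fun t => f (Fin.cons t y₀)) t₀ :=
    hφd.analyticAt (isOpen_interior.mem_nhds (mem_interior_iff_mem_nhds.2 hA))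
  have hne' : ∀ᶠ t in 𝓝[≠] t₀, f (Fin.cons t y₀) ≠ 0 :=
    hφa.eventually_eq_zero_or_eventually_ne_zero.resolve_left hne
  obtain ⟨ρ, hρ0, hρ⟩ : ∃ ρ > 0, ∀ t, ‖t - t₀‖ ≤ ρ → t ∈ A ∧ (t ≠ t₀ → f (Fin.cons t y₀) ≠ 0) := by
    have h1 : ∀ᶠ t in 𝓝 t₀, t ∈ A ∧ (t ≠ t₀ → f (Fin.cons t y₀) ≠ 0) := by
      filter_upwards [hA, eventually_nhdsWithin_iff.1 hne'] with t h2 h3
      exact ⟨h2, h3⟩
    obtain ⟨ρ, hρ0, hρ⟩ := Metric.eventually_nhds_iff.1 h1
    refine ⟨ρ / 2, by positivity, fun t ht => hρ ?_⟩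
    rw [dist_eq_norm]
    linarith
  have hSc : IsCompact (Metric.sphere t₀ ρ) := isCompact_sphere t₀ ρ
  have hSne : (Metric.sphere t₀ ρ).Nonempty := ⟨t₀ + ρ, by
    rw [mem_sphere_iff_norm]
    simp [abs_of_pos hρ0]⟩
  have hSA : ∀ t ∈ Metric.sphere t₀ ρ, ‖t - t₀‖ ≤ ρ := fun t ht => (mem_sphere_iff_norm.1 ht).le
  have hfc : ∀ t ∈ A, ∀ y ∈ B, ContinuousAt (fun p : (Fin 2 → ℂ) × ℂ => f (Fin.cons p.2 p.1))
      (y, t) := by
    intro t ht y hy
    have h1 : ContinuousAt f (Fin.cons t y) :=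
      (hf.differentiableAt (hV.mem_nhds (hAB' t ht y hy))).continuousAt
    exact ContinuousAt.comp (f := fun p : (Fin 2 → ℂ) × ℂ => (Fin.cons p.2 p.1 : E3)) h1
      (continuous_cons.comp (continuous_snd.prodMk continuous_fst)).continuousAt
  have hyB : y₀ ∈ B := mem_of_mem_nhds hB
  obtain ⟨m, hm0, hm⟩ : ∃ m > 0, ∀ t ∈ Metric.sphere t₀ ρ, m ≤ ‖f (Fin.cons t y₀)‖ := by
    have hc : ContinuousOn (fun t => ‖f (Fin.cons t y₀)‖) (Metric.sphere t₀ ρ) := by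
      intro t ht
      have h1 := hfc t (hρ t (hSA t ht)).1 y₀ hyB
      exact (ContinuousAt.comp (f := fun t : ℂ => (y₀, t)) h1
        (by fun_prop)).norm.continuousWithinAt
    obtain ⟨s, hs, hmin⟩ := hSc.exists_isMinOn hSne hc
    refine ⟨_, ?_, fun t ht => hmin ht⟩
    refine norm_pos_iff.2 ((hρ s (hSA s hs)).2 ?_)
    intro h
    have h' : ‖s - t₀‖ = ρ := mem_sphere_iff_norm.1 hs
    rw [h, sub_self, norm_zero] at h'
    exact hρ0.ne h'
  have h1 : ∀ᶠ y in 𝓝 y₀, ∀ t ∈ Metric.sphere t₀ ρ, m / 2 < ‖f (Fin.cons t y)‖ := by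
    refine hSc.eventually_forall_of_forall_eventually fun t ht => ?_
    exact ((hfc t (hρ t (hSA t ht)).1 y₀ hyB).norm).eventually
      (lt_mem_nhds (by have := hm t ht; simp only; linarith))
  have h2 : ∀ᶠ y in 𝓝 y₀, ‖f (Fin.cons t₀ y)‖ < m / 2 := by
    have h3 : ContinuousAt (fun y => ‖f (Fin.cons t₀ y)‖) y₀ :=
      (ContinuousAt.comp (f := fun y : Fin 2 → ℂ => (y, t₀))
        (hfc t₀ (mem_of_mem_nhds hA) y₀ hyB) (by fun_prop)).norm
    refine h3.eventually (gt_mem_nhds ?_)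
    show ‖f (Fin.cons t₀ y₀)‖ < m / 2
    rw [hx₀, h0, norm_zero]
    linarith
  filter_upwards [h1, h2, hB] with y h3 h4 h5
  by_contra hcon
  push Not at hcon
  have hz : ∀ t, ‖t - t₀‖ ≤ ρ → f (Fin.cons t y) ≠ 0 := fun t ht =>
    hcon t (hAB' t (hρ t ht).1 y h5)
  have hd : ∀ t, ‖t - t₀‖ ≤ ρ → DifferentiableAt ℂ (fun t => f (Fin.cons t y)) t := fun t ht =>
    (hf.differentiableAt (hV.mem_nhds (hAB' t (hρ t ht).1 y h5))).comp t (diff_cons y t)
  have hdc : DiffContOnCl ℂ (fun t => (f (Fin.cons t y))⁻¹) (Metric.ball t₀ ρ) := by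
    refine DifferentiableOn.diffContOnCl ?_
    rw [closure_ball t₀ hρ0.ne']
    intro t ht
    have ht' : ‖t - t₀‖ ≤ ρ := mem_closedBall_iff_norm.1 ht
    exact ((hd t ht').inv (hz t ht')).differentiableWithinAt
  have h6 := Complex.norm_le_of_forall_mem_frontier_norm_le Metric.isBounded_ball hdc
    (C := 2 / m) (fun t ht => by
      rw [frontier_ball t₀ hρ0.ne'] at ht
      rw [norm_inv, inv_le_comm₀ (lt_trans (by positivity) (h3 t ht)) (by positivity), inv_div]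
      exact (h3 t ht).le) (subset_closure (Metric.mem_ball_self hρ0))
  rw [norm_inv] at h6
  have h7 : 0 < ‖f (Fin.cons t₀ y)‖ := norm_pos_iff.2 (hz t₀ (by simpa using hρ0.le))
  rw [inv_le_comm₀ h7 (by positivity), inv_div] at h6
  linarith

/-- `f(·, x')` does not vanish identically near `x_0` for small `x` -/
theorem slice_ne {f : E3 → ℂ} {r : ℝ} (hr : 0 < r) (hf : DifferentiableOn ℂ f {x | nsq x < r ^ 2})
    (hreg : ∃ᶠ z : ℂ in 𝓝[≠] 0, f (Fin.cons z 0) ≠ 0) :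
    ∃ δ : ℝ, 0 < δ ∧ δ ≤ r ∧ ∀ x₀ : E3, nsq x₀ < δ ^ 2 →
      ¬ ∀ᶠ t in 𝓝 (x₀ 0), f (Fin.cons t (Fin.tail x₀)) = 0 := by
  have hO : IsOpen {x : E3 | nsq x < r ^ 2} := isOpen_lt continuous_nsq continuous_const
  have hs : ∀ᶠ z : ℂ in 𝓝[≠] (0 : ℂ), ‖z‖ < r / 2 := by
    have : ∀ᶠ z : ℂ in 𝓝 (0 : ℂ), ‖z‖ < r / 2 := by
      have h1 : Continuous fun z : ℂ => ‖z‖ := continuous_norm
      exact (h1.tendsto' 0 0 norm_zero).eventually (gt_mem_nhds (by positivity))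
    exact this.filter_mono nhdsWithin_le_nhds
  obtain ⟨t₁, ht₁, ht₁r⟩ := (hreg.and_eventually hs).exists
  have hn0 : nsq (0 : Fin 2 → ℂ) = 0 := by simp [nsq]
  have hmem : (Fin.cons t₁ 0 : E3) ∈ {x : E3 | nsq x < r ^ 2} := by
    show nsq (Fin.cons t₁ (0 : Fin 2 → ℂ) : E3) < r ^ 2
    rw [nsq_cons, hn0, add_zero]
    nlinarith [norm_nonneg t₁]
  have h1 : ∀ᶠ x' in 𝓝 (0 : Fin 2 → ℂ), f (Fin.cons t₁ x') ≠ 0 := by
    have h2 : ContinuousAt (fun x' : Fin 2 → ℂ => f (Fin.cons t₁ x')) 0 :=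
      ContinuousAt.comp (f := fun x' : Fin 2 → ℂ => (Fin.cons t₁ x' : E3))
        (hf.differentiableAt (hO.mem_nhds hmem)).continuousAt
        (continuous_cons.comp (continuous_const.prodMk continuous_id)).continuousAt
    exact h2.eventually_ne ht₁
  obtain ⟨δ₁, hδ₁0, hδ₁⟩ := Metric.eventually_nhds_iff.1 h1
  refine ⟨min δ₁ (r / 2), lt_min hδ₁0 (by positivity), (min_le_right _ _).trans (by linarith), ?_⟩
  intro x₀ hx₀ hev
  set δ := min δ₁ (r / 2) with hδ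
  have hδ0 : 0 < δ := lt_min hδ₁0 (by positivity)
  set y₀ : Fin 2 → ℂ := Fin.tail x₀ with hy₀
  have hx₀' : (Fin.cons (x₀ 0) y₀ : E3) = x₀ := Fin.cons_self_tail x₀
  have hns : nsq x₀ = ‖x₀ 0‖ ^ 2 + nsq y₀ := by
    conv_lhs => rw [← hx₀']
    exact nsq_cons _ _
  have hy₀n : nsq y₀ < δ ^ 2 := by nlinarith [sq_nonneg ‖x₀ 0‖]
  have hyn : ‖y₀‖ < δ₁ := by
    refine (pi_norm_lt_iff hδ₁0).2 fun k => ?_
    have h3 := (sq_le_nsq y₀ k).trans_lt hy₀n
    exact (lt_of_pow_lt_pow_left₀ 2 hδ0.le h3).trans_le (min_le_left _ _)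
  have hf1 : f (Fin.cons t₁ y₀) ≠ 0 := hδ₁ (by rwa [dist_zero_right])
  have hδr : δ ^ 2 ≤ (r / 2) ^ 2 := pow_le_pow_left₀ hδ0.le (min_le_right _ _) 2
  set s : ℝ := Real.sqrt (r ^ 2 - nsq y₀) with hs'
  have hs0 : 0 ≤ r ^ 2 - nsq y₀ := by nlinarith
  have hball : ∀ t : ℂ, t ∈ Metric.ball (0 : ℂ) s ↔ nsq (Fin.cons t y₀ : E3) < r ^ 2 := by
    intro t
    rw [mem_ball_zero_iff, nsq_cons, hs', Real.lt_sqrt (norm_nonneg _)]
    constructor <;> intro h <;> linarith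
  have hana : AnalyticOnNhd ℂ (fun t => f (Fin.cons t y₀)) (Metric.ball (0 : ℂ) s) := by
    refine DifferentiableOn.analyticOnNhd (fun t ht => ?_) Metric.isOpen_ball
    exact ((hf.differentiableAt (hO.mem_nhds ((hball t).1 ht))).comp t
      (diff_cons y₀ t)).differentiableWithinAt
  have h5 : x₀ 0 ∈ Metric.ball (0 : ℂ) s := by
    rw [hball, hx₀']
    nlinarith
  have h6 : t₁ ∈ Metric.ball (0 : ℂ) s := by
    rw [hball, nsq_cons]
    nlinarith [norm_nonneg t₁]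
  have h7 := hana.eqOn_zero_of_preconnected_of_eventuallyEq_zero
    (convex_ball (0 : ℂ) s).isPreconnected h5 hev
  exact hf1 (h7 h6)

end

end Crest.Agent.R257.Jnu_5
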