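import Crest.Agent.R257.Jnu1_5
import Crest.Agent.R257.DegBr_5
import Crest.Agent.R257.DegV2_5
import Crest.Agent.R273.SteinL_794

/-!
# R257 (S0395), leaf JNU (helper5), part 2: `{∂_0 f = 0}` is a null set of the level `{f = 0}`

* `null_d0`
-/

set_option autoImplicit false
set_option linter.unusedSectionVars false

open Set Filter Topology Complex MeasureTheory
open scoped ContDiff Matrix ComplexConjugate ENNReal

namespace Crest.Agent.R257.Jnu_5

open Crest.Agent.R275 Crest.Agent.R275.Geo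
open Crest.Agent.R275.C1d194 Crest.Agent.R275.Pai323
open Crest.Agent.R273.Vm_333
open Crest.Agent.R273.Defs_333
open Crest.Agent.R257.Defs_219
open Crest.Agent.R257.Atl_941 (SFam dX dch inj_chart dch_tangent par_chart sm_comp_val)
open Crest.Agent.R257.KED_952 Crest.Agent.R257.V1Defs_822 Crest.Agent.R257.UpK_938
open Crest.Agent.R257.DegM_5 Crest.Agent.R257.DegV_5
open Crest.Agent.R257.PN_835 (nsq nsq_nonneg nsq_pos continuous_nsq sq_le_nsq)
open Crest.Agent.R257.Jac_39 (jc jac ee)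

noncomputable section

/-- the coordinates -/
abbrev c1 : E3 → ℂ := fun x => x 1
/-- the coordinates -/
abbrev c2 : E3 → ℂ := fun x => x 2

theorem gr_c1 (x : E3) : gr c1 x = Pi.single 1 1 := by
  funext i
  show fderiv ℂ (fun x : E3 => x 1) x (Pi.single i 1) = _
  rw [show fderiv ℂ (fun x : E3 => x 1) x = ContinuousLinearMap.proj (R := ℂ)
    (φ := fun _ : Fin 3 => ℂ) 1 from
    (ContinuousLinearMap.proj (R := ℂ) (φ := fun _ : Fin 3 => ℂ) 1).hasFDerivAt.fderiv]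
  fin_cases i <;> simp

theorem gr_c2 (x : E3) : gr c2 x = Pi.single 2 1 := by
  funext i
  show fderiv ℂ (fun x : E3 => x 2) x (Pi.single i 1) = _
  rw [show fderiv ℂ (fun x : E3 => x 2) x = ContinuousLinearMap.proj (R := ℂ)
    (φ := fun _ : Fin 3 => ℂ) 2 from
    (ContinuousLinearMap.proj (R := ℂ) (φ := fun _ : Fin 3 => ℂ) 2).hasFDerivAt.fderiv]
  fin_cases i <;> simp

theorem Dt_c (f : E3 → ℂ) (x : E3) : Dt f c1 c2 x = Crest.AlgGeometry.Germ.coordDeriv f 0 x := by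
  unfold Dt
  rw [gr_c1, gr_c2, Matrix.det_fin_three]
  simp [gr]

theorem diff_c1 : Differentiable ℂ c1 := fun x => differentiableAt_apply (1 : Fin 3) x
theorem diff_c2 : Differentiable ℂ c2 := fun x => differentiableAt_apply (2 : Fin 3) x

section lvl

variable {f : E3 → ℂ} {r : ℝ} (hL : LvlOK f 0 r)

/-- the Jacobian of the projection -/
theorem det_jm_proj {x : (LX hL).M 0} {l : ((LX hL).A 0).ι}
    (hx : x ∈ (((LX hL).A 0).e l).source)
    (h0 : Crest.AlgGeometry.Germ.coordDeriv f 0 x.1 = 0) :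
    (jm ((LX hL).A 0) (gh (LX hL) 0 c1 c2) l x).det = 0 := by
  have hz := (((LX hL).A 0).e l).map_source hx
  have hxm := mem_M hL x
  have hP := pe_chart hL l
  have h1 := jac hP.par hz (f := f) (g := c1) (h := c2)
    (by rw [thc_eq hL hx]; exact (hL.an _ hxm.2.2).differentiableAt)
    (by rw [thc_eq hL hx]; exact hL.sm _ hxm.2.1 hxm.2.2 hxm.1) (diff_c1 _) (diff_c2 _)
  rw [thc_eq hL hx, Dt_c, h0, norm_zero, zero_pow two_ne_zero, zero_mul] at h1
  have h2 : jc (fun z => c1 (thc hL l z)) (fun z => c2 (thc hL l z)) (((LX hL).A 0).e l x) = 0 := by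
    exact norm_eq_zero.1 (pow_eq_zero_iff two_ne_zero |>.1 h1)
  have hd1 : DifferentiableAt ℂ (fun z => c1 (thc hL l z)) (((LX hL).A 0).e l x) :=
    (diff_c1 _).comp _ (hP.par.hol.differentiableAt (hP.par.isOpen.mem_nhds hz))
  have hd2 : DifferentiableAt ℂ (fun z => c2 (thc hL l z)) (((LX hL).A 0).e l x) :=
    (diff_c2 _).comp _ (hP.par.hol.differentiableAt (hP.par.isOpen.mem_nhds hz))
  have hπ : DifferentiableAt ℂ (fun z => gh (LX hL) 0 c1 c2 ((((LX hL).A 0).e l).symm z))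
      (((LX hL).A 0).e l x) := by
    have h2 : DifferentiableAt ℂ (fun z => (![c1 (thc hL l z), c2 (thc hL l z)] : Fin 2 → ℂ))
        (((LX hL).A 0).e l x) := by
      refine differentiableAt_pi.2 fun i => ?_
      fin_cases i
      · exact hd1
      · exact hd2
    exact ((PiLp.continuousLinearEquiv 2 ℂ (fun _ : Fin 2 => ℂ)).symm.differentiableAt).comp _ h2
  have hc : ∀ (i : Fin 2) v, (fderiv ℂ (fun z => gh (LX hL) 0 c1 c2
      ((((LX hL).A 0).e l).symm z)) (((LX hL).A 0).e l x) v) i =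
      fderiv ℂ (fun z => gh (LX hL) 0 c1 c2 ((((LX hL).A 0).e l).symm z) i)
        (((LX hL).A 0).e l x) v := by
    intro i v
    have h3 : HasFDerivAt (fun z => gh (LX hL) 0 c1 c2 ((((LX hL).A 0).e l).symm z) i) _
        (((LX hL).A 0).e l x) :=
      (EuclideanSpace.proj i : Cn 2 →L[ℂ] ℂ).hasFDerivAt.comp _ hπ.hasFDerivAt
    rw [h3.fderiv]
    rfl
  rw [Matrix.det_fin_two]
  simp only [jm, Matrix.of_apply, hc]
  refine Eq.trans ?_ h2
  exact congrArg₂ (· - ·) rfl (mul_comm _ _)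

/-- on a level, the zero set of `∂_0 f` has no interior near the origin -/
theorem not_ev {δ : ℝ} (hδ0 : 0 < δ) (hδr : δ ≤ r)
    (hsl : ∀ x₀ : E3, nsq x₀ < δ ^ 2 → ¬ ∀ᶠ t in 𝓝 (x₀ 0), f (Fin.cons t (Fin.tail x₀)) = 0)
    {l : ((LX hL).A 0).ι} {a : Cn 2} (ha : a ∈ (((LX hL).A 0).e l).target)
    (haδ : nsq (thc hL l a) < δ ^ 2) :
    ¬ ∀ᶠ z in 𝓝 a, Crest.AlgGeometry.Germ.coordDeriv f 0 (thc hL l z) = 0 := by
  intro hev
  have hcI := (LX hL).countable 0
  set x₀ : (LX hL).M 0 := (((LX hL).A 0).e l).symm a with hx₀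
  have hx₀s : x₀ ∈ (((LX hL).A 0).e l).source := (((LX hL).A 0).e l).map_target ha
  have hx₀m := mem_M hL x₀
  have hπ : HolN ((LX hL).A 0) (NN (LX hL) 0 δ) (gh (LX hL) 0 c1 c2) :=
    holN_gh diff_c1.differentiableOn diff_c2.differentiableOn
  have hs := sard hcI (isOpen_NN δ) hπ
  -- an ambient neighbourhood
  obtain ⟨W, hW, hWo, haW⟩ := eventually_nhds_iff.1 hev
  have hN1 : (((LX hL).A 0).e l).source ∩ (((LX hL).A 0).e l) ⁻¹' W ∈ 𝓝 x₀ := by
    refine ((((LX hL).A 0).e l).isOpen_inter_preimage hWo).mem_nhds ⟨hx₀s, ?_⟩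
    show ((LX hL).A 0).e l x₀ ∈ W
    rw [hx₀, (((LX hL).A 0).e l).right_inv ha]
    exact haW
  obtain ⟨V₀, hV₀, hV₀s⟩ := mem_nhds_subtype _ _ _ |>.1 hN1
  obtain ⟨V₁, hV₁s, hV₁o, hV₁x⟩ := mem_nhds_iff.1 hV₀
  set V : Set E3 := V₁ ∩ ({x | x ≠ 0} ∩ {x | nsq x < δ ^ 2}) with hV
  have hVo : IsOpen V := hV₁o.inter (isOpen_ne.inter (isOpen_lt continuous_nsq continuous_const))
  have hx₀V : x₀.1 ∈ V := ⟨hV₁x, hx₀m.2.1, haδ⟩
  have hVr : ∀ x ∈ V, nsq x < r ^ 2 := fun x hx =>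
    lt_of_lt_of_le hx.2.2 (pow_le_pow_left₀ hδ0.le hδr 2)
  have hfV : DifferentiableOn ℂ f V := fun x hx =>
    (hL.an x (hVr x hx)).differentiableAt.differentiableWithinAt
  have hop := open_at hVo hx₀V hfV hx₀m.1 (hsl _ haδ)
  -- the good values
  have hcont : Continuous fun y : RI 2 → ℝ => (fun i => (cc y : Cn 2) i : Fin 2 → ℂ) := by
    refine continuous_pi fun i => ?_
    exact (EuclideanSpace.proj i : Cn 2 →L[ℂ] ℂ).continuous.comp continuous_cc
  set y₀ : RI 2 → ℝ := rc (gh (LX hL) 0 c1 c2 x₀) with hy₀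
  have hy₀t : (fun i => (cc y₀ : Cn 2) i : Fin 2 → ℂ) = Fin.tail x₀.1 := by
    rw [hy₀, cc_rc]
    funext i
    fin_cases i <;> rfl
  have hop' : ∀ᶠ y in 𝓝 y₀, ∃ t : ℂ, (Fin.cons t (fun i => (cc y : Cn 2) i) : E3) ∈ V ∧
      f (Fin.cons t (fun i => (cc y : Cn 2) i)) = 0 := by
    have h1 := hcont.tendsto y₀
    rw [hy₀t] at h1
    exact h1.eventually hop
  obtain ⟨U, hU, hUo, hUy⟩ := eventually_nhds_iff.1 hop'
  obtain ⟨y, hyU, hy⟩ : ∃ y ∈ U, ∀ x ∈ NN (LX hL) 0 δ, gh (LX hL) 0 c1 c2 x = cc y →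
      ∀ l, x ∈ (((LX hL).A 0).e l).source → (jm ((LX hL).A 0) (gh (LX hL) 0 c1 c2) l x).det ≠ 0 := by
    by_contra hcon
    push Not at hcon
    have h2 : volume U = 0 := measure_mono_null (fun y hy => by
      obtain ⟨x, h1, h2, l, h3, h4⟩ := hcon y hy
      exact fun h => h x h1 h2 l h3 h4) (ae_iff.1 hs)
    exact (hUo.measure_pos volume ⟨y₀, hUy⟩).ne' h2
  obtain ⟨t, htV, htf⟩ := hU y hyU
  set x : E3 := Fin.cons t (fun i => (cc y : Cn 2) i) with hx
  set x' : (LX hL).M 0 := mkM hL htf htV.2.1 (hVr x htV) with hx'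
  have h3 : x' ∈ (((LX hL).A 0).e l).source ∩ (((LX hL).A 0).e l) ⁻¹' W := hV₀s (hV₁s htV.1)
  have h4 : gh (LX hL) 0 c1 c2 x' = cc y := by
    ext i
    fin_cases i <;> rfl
  refine hy x' htV.2.2 h4 l h3.1 (det_jm_proj hL h3.1 ?_)
  have h5 := hW _ h3.2
  rwa [thc_eq hL h3.1] at h5

include hL in
/-- **the null set** -/
theorem null_d0 {ν : Measure E3} (hν : IsNu f 0 r ν) {δ : ℝ} (hδ0 : 0 < δ) (hδr : δ ≤ r)
    (hsl : ∀ x₀ : E3, nsq x₀ < δ ^ 2 → ¬ ∀ᶠ t in 𝓝 (x₀ 0), f (Fin.cons t (Fin.tail x₀)) = 0) :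
    ν {x | nsq x < δ ^ 2 ∧ Crest.AlgGeometry.Germ.coordDeriv f 0 x = 0} = 0 := by
  have hcI := (LX hL).countable 0
  have hme : MeasurableEmbedding (Subtype.val : (LX hL).M 0 → E3) :=
    MeasurableEmbedding.subtype_coe (meas_lvl hL)
  rw [← nu_eq hL hν]
  show ((LX hL).vol 0).map Subtype.val _ = 0
  rw [hme.map_apply]
  have hcd : DifferentiableOn ℂ (Crest.AlgGeometry.Germ.coordDeriv f 0) {x | nsq x < r ^ 2} := by
    have h1 : AnalyticOnNhd ℂ f {x | nsq x < r ^ 2} := fun x hx => hL.an x hx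
    have h2 : DifferentiableOn ℂ (fderiv ℂ f) {x | nsq x < r ^ 2} := h1.fderiv.differentiableOn
    exact h2.clm_apply (differentiableOn_const _)
  have hcc : Continuous fun x : (LX hL).M 0 => Crest.AlgGeometry.Germ.coordDeriv f 0 x.1 :=
    hcd.continuousOn.comp_continuous continuous_subtype_val fun x => (mem_M hL x).2.2
  set Z : Set ((LX hL).M 0) := Subtype.val ⁻¹'
    {x | nsq x < δ ^ 2 ∧ Crest.AlgGeometry.Germ.coordDeriv f 0 x = 0} with hZ
  have hZm : MeasurableSet Z := by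
    have h1 : MeasurableSet {x : (LX hL).M 0 | nsq x.1 < δ ^ 2} :=
      (isOpen_lt (continuous_nsq.comp continuous_subtype_val) continuous_const).measurableSet
    have h2 : MeasurableSet {x : (LX hL).M 0 | Crest.AlgGeometry.Germ.coordDeriv f 0 x.1 = 0} :=
      (isClosed_eq hcc continuous_const).measurableSet
    exact h1.inter h2
  have hcov : Z = ⋃ l, Z ∩ (((LX hL).A 0).e l).source := by
    rw [← inter_iUnion]
    refine (inter_eq_left.2 fun x _ => ?_).symm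
    obtain ⟨l, hl⟩ := ((LX hL).A 0).cover x
    exact mem_iUnion.2 ⟨l, hl⟩
  rw [hcov]
  refine measure_iUnion_null fun l => ?_
  have hm : MeasurableSet (Z ∩ (((LX hL).A 0).e l).source) := hZm.inter (((LX hL).A 0).e l).open_source.measurableSet
  have h1 : (LX hL).vol 0 (Z ∩ (((LX hL).A 0).e l).source) = chm ((LX hL).eta 0) l (Z ∩ (((LX hL).A 0).e l).source) :=
    vm_apply_chart ((LX hL).eta 0) hm inter_subset_right
  rw [h1, chm_apply _ l hm]
  have hU : IsOpen {z | z ∈ (((LX hL).A 0).e l).target ∧ nsq (thc hL l z) < δ ^ 2} :=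
    (pe_chart hL l).par.hol.continuousOn.isOpen_inter_preimage (((LX hL).A 0).e l).open_target
      (isOpen_lt continuous_nsq continuous_const)
  have h2 : volume {y : RI 2 → ℝ | (cc y : Cn 2) ∈ {z | z ∈ (((LX hL).A 0).e l).target ∧
      nsq (thc hL l z) < δ ^ 2} ∧
      Crest.AlgGeometry.Germ.coordDeriv f 0 (thc hL l (cc y)) = 0} = 0 := by
    refine Crest.Agent.R273.SteinL_794.null_real
      (f := fun z => Crest.AlgGeometry.Germ.coordDeriv f 0 (thc hL l z)) hU ?_ fun a ha => ?_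
    · refine Crest.Agent.R266.SCV.analyticOnNhd_of_differentiableOn hU ?_
      exact hcd.comp ((pe_chart hL l).par.hol.mono fun z hz => hz.1) fun z hz =>
        (pe_chart hL l).lt z hz.1
    · exact not_ev hL hδ0 hδr hsl ha.1 ha.2
  refine setLIntegral_measure_zero _ _ (measure_mono_null (fun y hy => ?_) h2)
  exact ⟨⟨hy.1, hy.2.1.1⟩, hy.2.1.2⟩

end lvl

end

end Crest.Agent.R257.Jnu_5
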