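import Crest.Agent.R257.Jnu2_5
import Crest.Agent.R257.DetE_219

/-!
# R257 (S0395), leaf JNU (helper5)

* `jnu` : `InJ p f g` implies `∫_{|x| < δ} |g|^{2/p} dν < ∞` on the level `{f = 0}`
-/

set_option autoImplicit false
set_option linter.unusedSectionVars false

open Set Filter Topology Complex MeasureTheory
open scoped ContDiff Matrix ComplexConjugate ENNReal NNReal

namespace Crest.Agent.R257.Jnu_5

open Crest.Agent.R275 Crest.Agent.R275.Geo
open Crest.Agent.R257.Defs_219 Crest.Agent.R257.Det_219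
open Crest.Agent.R257.KED_952 Crest.Agent.R257.V1Defs_822
open Crest.AlgGeometry.Germ (coordDeriv)
open Crest.Agent.R257.PN_835 (nsq nsq_nonneg nsq_pos continuous_nsq sq_le_nsq)
open Crest.Agent.R257.Aff_835 (eta2a)
open Crest.Agent.R257.Jac_39 (jc jac ee)

noncomputable section

/-- `Cn 2` and `ℂ²` -/
def eC : Cn 2 ≃L[ℂ] (Fin 2 → ℂ) := PiLp.continuousLinearEquiv 2 ℂ (fun _ : Fin 2 => ℂ)

theorem eC_apply (z : Cn 2) (i : Fin 2) : eC z i = z i := rfl

/-- the volumes are proportional -/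
theorem exists_const : ∃ c : ℝ≥0, ∀ (B : Set (Fin 2 → ℂ)) (F : (Fin 2 → ℂ) → ℝ≥0∞),
    MeasurableSet B → ∫⁻ z in eC ⁻¹' B, F (eC z) = c * ∫⁻ y in B, F y := by
  let e : Cn 2 ≃L[ℝ] (Fin 2 → ℂ) := PiLp.continuousLinearEquiv 2 ℝ (fun _ : Fin 2 => ℂ)
  have hH : ((volume : Measure (Cn 2)).map e).IsAddHaarMeasure :=
    ContinuousLinearEquiv.isAddHaarMeasure_map e volume
  refine ⟨Measure.addHaarScalarFactor ((volume : Measure (Cn 2)).map e) volume, fun B F hB => ?_⟩
  have h1 := Measure.isAddLeftInvariant_eq_smul ((volume : Measure (Cn 2)).map e) volume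
  have hme : MeasurableEmbedding e := e.toHomeomorph.measurableEmbedding
  have h2 := hme.restrict_map (volume : Measure (Cn 2)) B
  have h3 := hme.lintegral_map (μ := (volume : Measure (Cn 2)).restrict (e ⁻¹' B)) F
  rw [← h2, h1, Measure.restrict_smul, lintegral_smul_measure] at h3
  refine Eq.trans h3.symm ?_
  rfl

section ch

variable {f : E3 → ℂ} {r : ℝ} {U : Set E3}

/-- the sheet as a parametrisation -/
def thC (C : Ch f U) (z : Cn 2) : E3 := C.gm (eC z)

/-- its domain -/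
def OC (C : Ch f U) : Set (Cn 2) := {z | eC z ∈ C.O ∧ thC C z ≠ 0}

theorem thC_diff (C : Ch f U) {z : Cn 2} (hz : eC z ∈ C.O) : DifferentiableAt ℂ (thC C) z :=
  DifferentiableAt.comp z (g := C.gm) (C.gm_diff hz) eC.differentiableAt

theorem thC_fderiv (C : Ch f U) {z : Cn 2} (hz : eC z ∈ C.O) (v : Cn 2) :
    fderiv ℂ (thC C) z v = fderiv ℂ C.gm (eC z) (eC v) := by
  have h1 : HasFDerivAt (thC C) ((fderiv ℂ C.gm (eC z)).comp (eC : Cn 2 →L[ℂ] (Fin 2 → ℂ))) z :=
    HasFDerivAt.comp z (g := C.gm) (C.gm_diff hz).hasFDerivAt eC.hasFDerivAt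
  rw [h1.fderiv]
  rfl

theorem thC_tail (C : Ch f U) (z : Cn 2) : Fin.tail (thC C z) = eC z := by
  show Fin.tail (Fin.cons (C.s (eC z)) (eC z) : E3) = eC z
  rw [Fin.tail_cons]

theorem pe_ch (C : Ch f U) (hU : U ⊆ {x | nsq x < r ^ 2}) : PE f 0 r (thC C) (OC C) where
  par :=
    { isOpen := by
        have h1 : IsOpen {z : Cn 2 | eC z ∈ C.O} := C.Oo.preimage eC.continuous
        have h2 : ContinuousOn (thC C) {z : Cn 2 | eC z ∈ C.O} := fun z hz =>
          (thC_diff C hz).continuousAt.continuousWithinAt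
        exact h2.isOpen_inter_preimage h1 isOpen_compl_singleton
      hol := fun z hz => (thC_diff C hz.1).differentiableWithinAt
      lvl := fun z hz => (C.b _ hz.1).2
      imm := fun z hz v hv => by
        rw [thC_fderiv C hz.1] at hv
        apply eC.injective
        rw [map_zero]
        funext i
        have h1 := C.gm_fderiv_succ hz.1 (eC v) i
        rw [hv] at h1
        exact h1.symm }
  ne := fun z hz => hz.2
  lt := fun z hz => hU (C.VU (C.b _ hz.1).1)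

theorem inj_thC (C : Ch f U) (S : Set (Cn 2)) : InjOn (thC C) S := by
  intro z _ w _ h
  apply eC.injective
  rw [← thC_tail C z, ← thC_tail C w, h]

/-- `|η|² = 1 / |∂_0 f|²` on a sheet -/
theorem eta_ch (C : Ch f U) (hf : AnalyticOnNhd ℂ f U) (hU : U ⊆ {x | nsq x < r ^ 2}) {z : Cn 2}
    (hz : z ∈ OC C) : eta2a (n := 2) f (thC C) z = (‖coordDeriv f 0 (thC C z)‖ ^ 2)⁻¹ := by
  have hd : coordDeriv f 0 (thC C z) ≠ 0 := C.fz _ (C.b _ hz.1).1
  have hfa := hf _ (C.VU (C.b _ hz.1).1)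
  have h0 : fderiv ℂ f (thC C z) ≠ 0 := by
    intro h
    apply hd
    show fderiv ℂ f (thC C z) (Pi.single 0 1) = 0
    rw [h]; rfl
  have h1 := jac (pe_ch C hU).par hz (f := f) (g := c1) (h := c2) hfa.differentiableAt h0
    (diff_c1 _) (diff_c2 _)
  rw [Dt_c] at h1
  have h2 : ∀ (i : Fin 2) (v : Cn 2), fderiv ℂ (fun z => thC C z i.succ) z v = v i := by
    intro i v
    have h3 : (fun z => thC C z i.succ) = fun z : Cn 2 => (EuclideanSpace.proj i : Cn 2 →L[ℂ] ℂ) z := by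
      funext w
      rfl
    rw [h3, ContinuousLinearMap.fderiv]
    rfl
  have h4 : jc (fun z => c1 (thC C z)) (fun z => c2 (thC C z)) z = 1 := by
    have a1 := h2 0
    have a2 := h2 1
    unfold jc
    show fderiv ℂ (fun z => thC C z (0 : Fin 2).succ) z (ee 0) *
      fderiv ℂ (fun z => thC C z (1 : Fin 2).succ) z (ee 1) -
      fderiv ℂ (fun z => thC C z (0 : Fin 2).succ) z (ee 1) *
      fderiv ℂ (fun z => thC C z (1 : Fin 2).succ) z (ee 0) = 1
    rw [a1, a1, a2, a2]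
    simp
  rw [h4, norm_one, one_pow] at h1
  exact eq_inv_of_mul_eq_one_right h1.symm

end ch

/-- **`InJ` bounds the integrals over the level** -/
theorem jnu {f g : E3 → ℂ} {r p : ℝ} {ν : Measure E3} (hiso : Iso f) (hL : LvlOK f 0 r)
    (hν : IsNu f 0 r ν) (hp : 1 ≤ p) (hg : AnalyticAt ℂ g 0) (hJ : InJ p f g) :
    ∃ δ : ℝ, 0 < δ ∧
      ∫⁻ x in {x | PN_835.nsq x < δ ^ 2}, ENNReal.ofReal (‖g x‖ ^ (2 / p)) ∂ν < ⊤ := by
  classical
  have hr := hL.pos
  have hfd : DifferentiableOn ℂ f {x | nsq x < r ^ 2} := fun x hx =>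
    (hL.an x hx).differentiableAt.differentiableWithinAt
  obtain ⟨δ₀, hδ₀, hδ₀r, hsl⟩ := slice_ne hr hfd hiso.reg
  obtain ⟨R₀, hR₀, hJ⟩ := hJ
  -- the domain of `f` and `g`
  obtain ⟨U₀, hU₀, hU₀o, h0U₀⟩ := eventually_nhds_iff.1 hg.eventually_analyticAt
  set U : Set E3 := {x | nsq x < r ^ 2} ∩ U₀ with hU
  have hUo : IsOpen U := (isOpen_lt continuous_nsq continuous_const).inter hU₀o
  have h0U : (0 : E3) ∈ U := by
    refine ⟨?_, h0U₀⟩
    show nsq (0 : E3) < r ^ 2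
    have : nsq (0 : E3) = 0 := by simp [nsq]
    rw [this]; positivity
  have hUr : U ⊆ {x | nsq x < r ^ 2} := inter_subset_left
  have hfa : AnalyticOnNhd ℂ f U := fun x hx => hL.an x hx.1
  have hga : AnalyticOnNhd ℂ g U := fun x hx => hU₀ x hx.2
  obtain ⟨R₁, hR₁, hR₁U⟩ := exists_box (hUo.mem_nhds h0U)
  set R : ℝ := min R₀ R₁ with hR
  have hR0 : 0 < R := lt_min hR₀ hR₁
  have hRU : Bx R ⊆ U := (Bx_mono (min_le_right _ _)).trans hR₁U
  have hJR : Jint p (fun _ => R) f g < ⊤ := (jint_mono p f g (min_le_left _ _)).trans_lt hJ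
  obtain ⟨K⟩ := exists_cov hUo hfa hRU
  rw [jint_cov hp hfa hga K] at hJR
  -- the radius
  set δ : ℝ := min δ₀ R with hδ
  have hδ0 : 0 < δ := lt_min hδ₀ hR0
  refine ⟨δ, hδ0, ?_⟩
  set S : Set E3 := {x | nsq x < δ ^ 2} with hS
  have hSm : MeasurableSet S := (isOpen_lt continuous_nsq continuous_const).measurableSet
  have hSB : S ⊆ Bx R := fun x hx i => by
    have h1 := (sq_le_nsq x i).trans_lt hx
    exact (lt_of_pow_lt_pow_left₀ 2 hδ0.le h1).trans_le (min_le_right _ _)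
  have hSU : S ⊆ U := hSB.trans hRU
  -- the integrand
  set G : E3 → ℝ≥0∞ := U.indicator fun x => ENNReal.ofReal (‖g x‖ ^ (2 / p)) with hG
  have hGm : Measurable G := by
    have h1 : ContinuousOn (fun x => ENNReal.ofReal (‖g x‖ ^ (2 / p))) U :=
      ENNReal.continuous_ofReal.comp_continuousOn
        (hga.continuousOn.norm.rpow_const fun x _ => Or.inr (by positivity))
    have h2 := h1.measurable_piecewise (g := fun _ => (0 : ℝ≥0∞)) continuousOn_const
      hUo.measurableSet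
    have h3 : G = U.piecewise (fun x => ENNReal.ofReal (‖g x‖ ^ (2 / p))) (fun _ => 0) :=
      (Set.piecewise_eq_indicator).symm
    rw [h3]
    exact h2
  have hSG : ∫⁻ x in S, ENNReal.ofReal (‖g x‖ ^ (2 / p)) ∂ν = ∫⁻ x in S, G x ∂ν :=
    setLIntegral_congr_fun hSm fun x hx => by
      show _ = U.indicator (fun x => ENNReal.ofReal (‖g x‖ ^ (2 / p))) x
      rw [indicator_of_mem (hSU hx)]
  rw [hSG]
  -- the pieces
  have htail : Continuous (Fin.tail : E3 → Fin 2 → ℂ) :=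
    continuous_pi fun i => continuous_apply i.succ
  set Q : ℕ → Set E3 := fun i => {x | Fin.tail x ∈ K.B i} with hQ
  have hQm : ∀ i, MeasurableSet (Q i) := fun i => htail.measurable (K.Bm i)
  set T : ℕ → Set E3 := fun i => Q i ∩ thC (K.C i) '' OC (K.C i) with hT
  have hcov : S ≤ᵐ[ν] ⋃ i, T i := by
    have h1 : ∀ᵐ x ∂ν, f x = 0 ∧ x ≠ 0 ∧ nsq x < r ^ 2 := by
      rw [ae_iff]
      exact hν.null
    have h2 : ∀ᵐ x ∂ν, ¬ (nsq x < δ₀ ^ 2 ∧ coordDeriv f 0 x = 0) := by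
      rw [ae_iff]
      simpa only [not_not] using null_d0 hL hν hδ₀ hδ₀r hsl
    filter_upwards [h1, h2] with x hx hx2 hxS
    have hxδ : nsq x < δ₀ ^ 2 := lt_of_lt_of_le hxS (pow_le_pow_left₀ hδ0.le (min_le_left _ _) 2)
    have hx3 : coordDeriv f 0 x ≠ 0 := fun h => hx2 ⟨hxδ, h⟩
    obtain ⟨i, hi1, hi2⟩ := K.cov x (hSB hxS) hx.1 hx3
    refine mem_iUnion.2 ⟨i, hi1, eC.symm (Fin.tail x), ⟨?_, ?_⟩, ?_⟩
    · rw [eC.apply_symm_apply]
      exact K.BO i hi1
    · unfold thC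
      rw [eC.apply_symm_apply, hi2]
      exact hx.2.1
    · unfold thC
      rw [eC.apply_symm_apply, hi2]
  obtain ⟨c, hc⟩ := exists_const
  have hpiece : ∀ i, ∫⁻ x in T i, G x ∂ν ≤ c * ∫⁻ y in K.B i, Jf p f g ((K.C i).gm y) := by
    intro i
    have hPE := pe_ch (K.C i) hUr
    have h1 := hν.par _ _ hPE (inj_thC (K.C i) _) ((Q i).indicator G) (hGm.indicator (hQm i))
    have h2 : ∫⁻ x in T i, G x ∂ν = ∫⁻ x in thC (K.C i) '' OC (K.C i), (Q i).indicator G x ∂ν := by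
      rw [lintegral_indicator (hQm i), Measure.restrict_restrict (hQm i)]
    rw [h2, h1, ← hc (K.B i) _ (K.Bm i)]
    have h3 : ∀ z ∈ OC (K.C i), (Q i).indicator G (thC (K.C i) z) *
        ENNReal.ofReal (eta2a (n := 2) f (thC (K.C i)) z) ≤
        (eC ⁻¹' (K.B i)).indicator (fun z => Jf p f g ((K.C i).gm (eC z))) z := by
      intro z hz
      by_cases hzB : eC z ∈ K.B i
      · have hzQ : thC (K.C i) z ∈ Q i := by
          show Fin.tail (thC (K.C i) z) ∈ K.B i
          rw [thC_tail]; exact hzB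
        have hzU : thC (K.C i) z ∈ U := (K.C i).VU ((K.C i).b _ hz.1).1
        rw [indicator_of_mem hzQ, indicator_of_mem (show z ∈ eC ⁻¹' (K.B i) from hzB), hG,
          indicator_of_mem hzU, eta_ch (K.C i) hfa hUr hz,
          ← ENNReal.ofReal_mul (Real.rpow_nonneg (norm_nonneg _) _)]
        exact le_of_eq rfl
      · have hzQ : thC (K.C i) z ∉ Q i := by
          show ¬ Fin.tail (thC (K.C i) z) ∈ K.B i
          rw [thC_tail]; exact hzB
        rw [indicator_of_notMem hzQ, zero_mul]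
        exact bot_le
    calc ∫⁻ z in OC (K.C i), (Q i).indicator G (thC (K.C i) z) *
          ENNReal.ofReal (eta2a (n := 2) f (thC (K.C i)) z)
        ≤ ∫⁻ z in OC (K.C i),
            (eC ⁻¹' (K.B i)).indicator (fun z => Jf p f g ((K.C i).gm (eC z))) z :=
          setLIntegral_mono' hPE.par.isOpen.measurableSet h3
      _ ≤ ∫⁻ z, (eC ⁻¹' (K.B i)).indicator (fun z => Jf p f g ((K.C i).gm (eC z))) z :=
          setLIntegral_le_lintegral _ _
      _ = _ := lintegral_indicator (eC.continuous.measurable (K.Bm i)) _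
  calc ∫⁻ x in S, G x ∂ν ≤ ∫⁻ x in ⋃ i, T i, G x ∂ν := lintegral_mono_set' hcov
    _ ≤ ∑' i, ∫⁻ x in T i, G x ∂ν := lintegral_iUnion_le _ _
    _ ≤ ∑' i, c * ∫⁻ y in K.B i, Jf p f g ((K.C i).gm y) := ENNReal.tsum_le_tsum hpiece
    _ = c * ∑' i, ∫⁻ y in K.B i, Jf p f g ((K.C i).gm y) := ENNReal.tsum_mul_left
    _ < ⊤ := ENNReal.mul_lt_top ENNReal.coe_lt_top hJR

end

end Crest.Agent.R257.Jnu_5
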