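import Crest.Agent.R257.HypL_835
import Crest.Agent.R273.YauCh_635

/-!
# R257 (S0395), Part E (helper835): local rules for `cH` and `lev`

* `cH_comp`, `det_cH_comp`, `lev_comp'` : composition with a holomorphic map;
* `cH_plh`, `lev_plh` : a term `c log |f|²` does not change `cH`, `lev`;
* `cH_mul`, `lev_mul` : real multiples.
-/

set_option autoImplicit false
set_option linter.unusedSectionVars false

open Set Filter Topology Complex
open scoped ContDiff Matrix ComplexConjugate Manifold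

namespace Crest.Agent.R257.KEl_835

open Crest.Agent.R275.Geo Crest.Agent.R275.Core144
open Crest.Agent.R273.Defs_333 Crest.Agent.R273.YauDefs_635 Crest.Agent.R273.YauCh_635
open Crest.Agent.R273

noncomputable section

variable {n m : ℕ}

theorem cH_eq {u : Cn n → ℝ} {z : Cn n} (h : ContDiffAt ℝ 2 u z) :
    cH u z = Matrix.of (Levi_145.hs (Levi_145.cx u) z) := by
  ext a b
  exact cH_eq_hs h a b

theorem D2_congr {u v : Cn n → ℝ} {z : Cn n} (h : u =ᶠ[𝓝 z] v) (a b : Cn n) :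
    D2 u z a b = D2 v z a b := by
  unfold D2
  have h1 : fderiv ℝ u =ᶠ[𝓝 z] fderiv ℝ v := h.fderiv
  rw [h1.fderiv_eq]

theorem cH_congr {u v : Cn n → ℝ} {z : Cn n} (h : u =ᶠ[𝓝 z] v) : cH u z = cH v z := by
  ext a b
  simp only [cH, Matrix.of_apply, D2_congr h]

theorem lev_congr {u v : Cn n → ℝ} {z : Cn n} (h : u =ᶠ[𝓝 z] v) (w : Cn n) :
    lev u z w = lev v z w := by
  rw [lev333_eq, lev333_eq, D2_congr h, D2_congr h]

/-- the Jacobian matrix (rows = source directions) -/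
def Jm (T : Cn n → Cn m) (z : Cn n) : Matrix (Fin n) (Fin m) ℂ := Matrix.of fun a c =>
  (fderiv ℂ T z (EuclideanSpace.single a 1)) c

theorem cH_comp {u : Cn m → ℝ} {T : Cn n → Cn m} {z : Cn n} (hT : AnalyticAt ℂ T z)
    (hu : ContDiffAt ℝ 2 u (T z)) :
    cH (fun w => u (T w)) z = Jm T z * cH u (T z) * (Jm T z)ᴴ := by
  have hTc : ContDiffAt ℝ 2 T z := hT.contDiffAt.restrict_scalars ℝ
  have hc : ContDiffAt ℝ 2 (fun w => u (T w)) z := hu.comp z hTc
  rw [cH_eq hc, cH_eq hu]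
  ext a b
  rw [Matrix.mul_apply]
  simp only [Matrix.mul_apply, Matrix.of_apply, Matrix.conjTranspose_apply]
  have e : Levi_145.cx (fun w => u (T w)) = fun w => (Levi_145.cx u) (T w) := rfl
  rw [e, Levi_145.hs_comp hT (Levi_145.cx_c2 hu), Finset.sum_comm]
  refine Finset.sum_congr rfl fun d _ => ?_
  rw [Finset.sum_mul]
  refine Finset.sum_congr rfl fun c _ => ?_
  simp only [Jm, Matrix.of_apply]
  show _ = _ * _ * (starRingEnd ℂ) _
  ring

theorem det_cH_comp {u : Cn n → ℝ} {T : Cn n → Cn n} {z : Cn n} (hT : AnalyticAt ℂ T z)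
    (hu : ContDiffAt ℝ 2 u (T z)) :
    (cH (fun w => u (T w)) z).det = ((‖(Jm T z).det‖ ^ 2 : ℝ) : ℂ) * (cH u (T z)).det := by
  rw [cH_comp hT hu, Matrix.det_mul, Matrix.det_mul, Matrix.det_conjTranspose]
  have h1 : ((‖(Jm T z).det‖ ^ 2 : ℝ) : ℂ) = (Jm T z).det * star (Jm T z).det := by
    show _ = _ * (starRingEnd ℂ) _
    rw [Complex.mul_conj, Complex.normSq_eq_norm_sq]
  rw [h1]
  ring

theorem lev_comp' {u : Cn m → ℝ} {T : Cn n → Cn m} {z : Cn n} (hT : AnalyticAt ℂ T z)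
    (hu : ContDiffAt ℝ 2 u (T z)) (v : Cn n) :
    lev (fun w => u (T w)) z v = lev u (T z) (fderiv ℂ T z v) := by
  rw [lev333_eq_lev145, lev333_eq_lev145, Levi_145.lev_comp hT hu]

theorem c2_log {f : Cn n → ℂ} {z : Cn n} (hf : AnalyticAt ℂ f z) (h0 : f z ≠ 0) (k : WithTop ℕ∞) :
    ContDiffAt ℝ k (fun w => Real.log (‖f w‖ ^ 2)) z :=
  Levi_145.c2_log_normSq hf h0 k

theorem cH_plh {u : Cn n → ℝ} {f : Cn n → ℂ} {z : Cn n} (hu : ContDiffAt ℝ 2 u z)
    (hf : AnalyticAt ℂ f z) (h0 : f z ≠ 0) (c : ℝ) :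
    cH (fun w => u w + c * Real.log (‖f w‖ ^ 2)) z = cH u z := by
  have h1 := c2_log hf h0 2
  have h2 : ContDiffAt ℝ 2 (fun w => c * Real.log (‖f w‖ ^ 2)) z := contDiffAt_const.mul h1
  rw [cH_eq (hu.add h2), cH_eq hu]
  ext a b
  simp only [Matrix.of_apply]
  have e : Levi_145.cx (fun w => u w + c * Real.log (‖f w‖ ^ 2)) =
      fun w => Levi_145.cx u w + (c : ℂ) * Levi_145.cx (fun w => Real.log (‖f w‖ ^ 2)) w := by
    funext w
    simp only [Levi_145.cx]
    push_cast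
    ring
  rw [e, Levi_145.hs_add (Levi_145.cx_c2 hu) (contDiffAt_const.mul (Levi_145.cx_c2 h1)),
    Levi_145.hs_const_mul _ (Levi_145.cx_c2 h1), Levi_145.hs_log_normSq hf h0, mul_zero, add_zero]

theorem lev_plh {u : Cn n → ℝ} {f : Cn n → ℂ} {z : Cn n} (hu : ContDiffAt ℝ 2 u z)
    (hf : AnalyticAt ℂ f z) (h0 : f z ≠ 0) (c : ℝ) (v : Cn n) :
    lev (fun w => u w + c * Real.log (‖f w‖ ^ 2)) z v = lev u z v := by
  have h1 := c2_log hf h0 2
  have h2 : ContDiffAt ℝ 2 (fun w => c * Real.log (‖f w‖ ^ 2)) z := contDiffAt_const.mul h1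
  rw [lev333_eq_lev145, lev333_eq_lev145, Levi_145.lev_add hu h2, Levi_145.lev_const_mul _ h1,
    Levi_145.lev_log_normSq hf h0, mul_zero, add_zero]

theorem cH_mul {u : Cn n → ℝ} {z : Cn n} (hu : ContDiffAt ℝ 2 u z) (c : ℝ) :
    cH (fun w => c * u w) z = (c : ℂ) • cH u z := by
  rw [cH_eq (contDiffAt_const.mul hu), cH_eq hu]
  ext a b
  rw [Matrix.smul_apply, Matrix.of_apply, Matrix.of_apply]
  have e : Levi_145.cx (fun w => c * u w) = fun w => (c : ℂ) * Levi_145.cx u w := by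
    funext w
    simp only [Levi_145.cx]
    push_cast
    ring
  rw [e, Levi_145.hs_const_mul _ (Levi_145.cx_c2 hu), smul_eq_mul]

theorem lev_mul {u : Cn n → ℝ} {z : Cn n} (hu : ContDiffAt ℝ 2 u z) (c : ℝ) (v : Cn n) :
    lev (fun w => c * u w) z v = c * lev u z v := by
  rw [lev333_eq_lev145, lev333_eq_lev145, Levi_145.lev_const_mul _ hu]
  ring

end

end Crest.Agent.R257.KEl_835
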