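import Crest.Agent.R257.KED_952
import Crest.Agent.R257.C2F5_335
import Crest.Agent.R257.Atl2_941

/-!
# R257 (S0395), task KED-DEN (helper397)

* `exists_trans` : transition of two parametrisations of a level through the same point
* `exists_par`   : every smooth point of a level has a parametrisation
* `eta2a_trans`  : `|η|²` under a change of parametrisation
-/

set_option autoImplicit false
set_option linter.unusedSectionVars false

open Set Filter Topology Complex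
open scoped ContDiff Matrix ComplexConjugate

namespace Crest.Agent.R257.Ked1_397

open Crest.Agent.R275.Geo
open Crest.Agent.R273.Defs_333 Crest.Agent.R273.YauDefs_635
open Crest.Agent.R257.PN_835 Crest.Agent.R257.Gram_835 Crest.Agent.R257.Aff_835
open Crest.Agent.R257.C2F4_335

noncomputable section

variable {n : ℕ}

/-- transition between two parametrisations of the same level -/
theorem exists_trans {f : AC n → ℂ} {s : ℂ} {θ θ' : Cn n → AC n} {O O' : Set (Cn n)}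
    (h : Par f s θ O) (h' : Par f s θ' O') {z z' : Cn n} (hz : z ∈ O) (hz' : z' ∈ O')
    (e : θ z = θ' z') (hf : HasStrictFDerivAt f (fderiv ℂ f (θ' z')) (θ' z'))
    (h0 : fderiv ℂ f (θ' z') ≠ 0) :
    ∃ T : Cn n → Cn n, (∀ᶠ w in 𝓝 z, DifferentiableAt ℂ T w) ∧ T z = z' ∧
      (∀ᶠ w in 𝓝 z, T w ∈ O' ∧ θ w = θ' (T w)) := by
  -- direction transversal to the level
  obtain ⟨w₀, hw₀⟩ : ∃ w₀, fderiv ℂ f (θ' z') w₀ ≠ 0 := by
    by_contra hcon
    push Not at hcon
    exact h0 (ContinuousLinearMap.ext hcon)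
  set D := fderiv ℂ θ' z' with hD
  set Φ : Cn n × ℂ → AC n := fun q => θ' q.1 + q.2 • w₀ with hΦ
  set L : Cn n × ℂ →L[ℂ] AC n := D.comp (ContinuousLinearMap.fst ℂ (Cn n) ℂ) +
    (ContinuousLinearMap.snd ℂ (Cn n) ℂ).smulRight w₀ with hL
  have hLinj : Function.Injective L := by
    refine (injective_iff_map_eq_zero L).2 ?_
    rintro ⟨v, c⟩ hv
    have h1 : D v + c • w₀ = 0 := hv
    have h2 : fderiv ℂ f (θ' z') (D v) = 0 := h'.ker hz' hf.hasFDerivAt.differentiableAt v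
    have h3 : c * fderiv ℂ f (θ' z') w₀ = 0 := by
      have := congrArg (fderiv ℂ f (θ' z')) h1
      rwa [map_add, h2, zero_add, map_smul, smul_eq_mul, map_zero] at this
    have h4 : c = 0 := (mul_eq_zero.1 h3).resolve_right hw₀
    rw [h4, zero_smul, add_zero] at h1
    rw [h4, h'.imm z' hz' v h1]
    rfl
  have hfr : Module.finrank ℂ (Cn n × ℂ) = Module.finrank ℂ (AC n) := by
    rw [Module.finrank_prod]
    simp
  set T₀ : (Cn n × ℂ) ≃L[ℂ] AC n :=
    (LinearEquiv.ofInjectiveOfFinrankEq (L : Cn n × ℂ →ₗ[ℂ] AC n) hLinj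
      hfr).toContinuousLinearEquiv with hT₀
  have hT₀L : (T₀ : Cn n × ℂ →L[ℂ] AC n) = L := ContinuousLinearMap.ext fun q => rfl
  have hΦd : HasFDerivAt Φ (T₀ : Cn n × ℂ →L[ℂ] AC n) (z', 0) := by
    rw [hT₀L, hL, hΦ]
    have h1 : HasFDerivAt (fun q : Cn n × ℂ => θ' q.1)
        (D.comp (ContinuousLinearMap.fst ℂ (Cn n) ℂ)) (z', 0) :=
      HasFDerivAt.comp (z', (0 : ℂ)) (g := θ') (h'.diffAt hz').hasFDerivAt hasFDerivAt_fst
    exact h1.add (hasFDerivAt_snd.smul_const w₀)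
  have hV : IsOpen (O' ×ˢ (univ : Set ℂ)) := h'.isOpen.prod isOpen_univ
  have hΦV : DifferentiableOn ℂ Φ (O' ×ˢ (univ : Set ℂ)) := by
    intro q hq
    have h1 : DifferentiableAt ℂ (fun q : Cn n × ℂ => θ' q.1) q :=
      DifferentiableAt.comp q (h'.diffAt hq.1) differentiableAt_fst
    exact (h1.add (differentiableAt_snd.smul_const w₀)).differentiableWithinAt
  obtain ⟨R, hzR, hRV, hRΦ, hRd⟩ := Crest.Agent.R257.Atl_941.exists_invFun' hV hΦV
    (z := (z', (0 : ℂ))) ⟨hz', mem_univ _⟩ T₀ hΦd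
  have hRz : R (z', 0) = θ z := by
    rw [hRΦ, e]
    simp [hΦ]
  have htz : θ z ∈ R.target := by
    rw [← hRz]
    exact R.map_source hzR
  have hsz : R.symm (θ z) = (z', 0) := by
    rw [← hRz]
    exact R.left_inv hzR
  set T : Cn n → Cn n := fun w => (R.symm (θ w)).1 with hT
  have hθc : ContinuousAt θ z := (h.diffAt hz).continuousAt
  have hev1 : ∀ᶠ w in 𝓝 z, w ∈ O ∧ θ w ∈ R.target := by
    filter_upwards [h.isOpen.mem_nhds hz, hθc.eventually (R.open_target.mem_nhds htz)]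
      with w h1 h2
    exact ⟨h1, h2⟩
  have hTd : ∀ᶠ w in 𝓝 z, DifferentiableAt ℂ T w := by
    filter_upwards [hev1] with w hw
    have h1 : DifferentiableAt ℂ R.symm (θ w) :=
      hRd.differentiableAt (R.open_target.mem_nhds hw.2)
    exact (h1.comp w (h.diffAt hw.1)).fst
  have hTz : T z = z' := by
    rw [hT]
    simp only [hsz]
  refine ⟨T, hTd, hTz, ?_⟩
  -- strict differentiability: `f` is injective along `w₀`
  have hpos : 0 < ‖fderiv ℂ f (θ' z') w₀‖ := norm_pos_iff.2 hw₀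
  set c : ℝ := ‖fderiv ℂ f (θ' z') w₀‖ / (2 * (‖w₀‖ + 1)) with hc
  have hc0 : 0 < c := by positivity
  have hs := hf.isLittleO.def hc0
  have hcS : ContinuousAt R.symm (θ z) := (hRd.differentiableAt
    (R.open_target.mem_nhds htz)).continuousAt
  have hcT : ContinuousAt T z := hTd.self_of_nhds.continuousAt
  have hlim : Tendsto (fun w => (θ w, θ' (T w))) (𝓝 z) (𝓝 (θ' z', θ' z')) := by
    refine Tendsto.prodMk_nhds ?_ ?_
    · rw [← e]
      exact hθc
    · have h1 : ContinuousAt (fun w => θ' (T w)) z :=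
        ContinuousAt.comp (g := θ') (by rw [hTz]; exact (h'.diffAt hz').continuousAt) hcT
      have h2 := h1.tendsto
      rwa [hTz] at h2
  have hOT : ∀ᶠ w in 𝓝 z, T w ∈ O' := hcT.eventually (h'.isOpen.mem_nhds (by rw [hTz]; exact hz'))
  filter_upwards [hlim.eventually hs, hev1, hOT] with w hw1 hw2 hw3
  refine ⟨hw3, ?_⟩
  set σ : ℂ := (R.symm (θ w)).2 with hσ
  have h1 : θ w = θ' (T w) + σ • w₀ := by
    have h2 : R (R.symm (θ w)) = θ w := R.right_inv hw2.2
    rw [hRΦ] at h2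
    exact h2.symm
  have h2 : f (θ w) = s := h.lvl w hw2.1
  have h3 : f (θ' (T w)) = s := h'.lvl _ hw3
  have h4 : ‖f (θ w) - f (θ' (T w)) - fderiv ℂ f (θ' z') (θ w - θ' (T w))‖ ≤
      c * ‖θ w - θ' (T w)‖ := hw1
  have h5 : θ w - θ' (T w) = σ • w₀ := by rw [h1]; abel
  rw [h2, h3, h5, sub_self, zero_sub, norm_neg, map_smul, norm_smul, norm_smul] at h4
  have h6 : ‖σ‖ = 0 := by
    by_contra hne
    have hσp : 0 < ‖σ‖ := lt_of_le_of_ne (norm_nonneg _) (Ne.symm hne)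
    have h7 : ‖fderiv ℂ f (θ' z') w₀‖ ≤ c * ‖w₀‖ := by
      have : ‖σ‖ * ‖fderiv ℂ f (θ' z') w₀‖ ≤ ‖σ‖ * (c * ‖w₀‖) := by
        calc _ ≤ c * (‖σ‖ * ‖w₀‖) := h4
          _ = _ := by ring
      exact le_of_mul_le_mul_left this hσp
    have h8 : c * ‖w₀‖ ≤ ‖fderiv ℂ f (θ' z') w₀‖ / 2 := by
      rw [hc]
      rw [div_mul_eq_mul_div, div_le_div_iff₀ (by positivity) (by norm_num)]
      nlinarith [norm_nonneg w₀]
    linarith
  rw [h1, norm_eq_zero.1 h6, zero_smul, add_zero]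

/-- a transition is immersive -/
theorem det_trans {f : AC n → ℂ} {s : ℂ} {θ θ' : Cn n → AC n} {O O' : Set (Cn n)}
    (h : Par f s θ O) (h' : Par f s θ' O') {z : Cn n} (hz : z ∈ O) {T : Cn n → Cn n}
    (hT : ∀ᶠ w in 𝓝 z, DifferentiableAt ℂ T w)
    (hTe : ∀ᶠ w in 𝓝 z, T w ∈ O' ∧ θ w = θ' (T w)) : (Jac T z).det ≠ 0 := by
  intro hdet
  obtain ⟨v, hv0, hv⟩ := Matrix.exists_mulVec_eq_zero_iff.2 hdet
  set v' : Cn n := WithLp.toLp 2 v with hv'
  have h1 : fderiv ℂ T z v' = 0 := by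
    have hsum : v' = ∑ a, v a • (EuclideanSpace.single a (1 : ℂ) : Cn n) := by
      ext b
      simp [hv', Pi.single_apply]
    ext b
    have h2 := congrFun hv b
    rw [hsum, map_sum]
    simp only [map_smul]
    rw [Matrix.mulVec, dotProduct] at h2
    simp only [Jac, Matrix.of_apply] at h2
    simp only [WithLp.ofLp_sum, Finset.sum_apply, PiLp.smul_apply, smul_eq_mul]
    refine Eq.trans ?_ h2
    exact Finset.sum_congr rfl fun a _ => mul_comm _ _
  have h2 : fderiv ℂ θ z = (fderiv ℂ θ' (T z)).comp (fderiv ℂ T z) := by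
    have h3 : HasFDerivAt (fun w => θ' (T w)) ((fderiv ℂ θ' (T z)).comp (fderiv ℂ T z)) z :=
      HasFDerivAt.comp z (g := θ') (h'.diffAt hTe.self_of_nhds.1).hasFDerivAt
        hT.self_of_nhds.hasFDerivAt
    exact (h3.congr_of_eventuallyEq (hTe.mono fun w hw => hw.2)).fderiv
  have h3 : v' = 0 := by
    apply h.imm z hz
    rw [h2, ContinuousLinearMap.comp_apply, h1, map_zero]
  apply hv0
  funext a
  have := congrArg (fun u : Cn n => u a) h3
  simpa [hv'] using this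

/-- `DF` of a composition -/
theorem DF_trans {f : AC n → ℂ} {s : ℂ} {θ θ' : Cn n → AC n} {O O' : Set (Cn n)}
    (h : Par f s θ O) (h' : Par f s θ' O') {z : Cn n} (hz : z ∈ O) {T : Cn n → Cn n}
    (hT : ∀ᶠ w in 𝓝 z, DifferentiableAt ℂ T w)
    (hTe : ∀ᶠ w in 𝓝 z, T w ∈ O' ∧ θ w = θ' (T w)) :
    DF θ z = (Jac T z)ᵀ * DF θ' (T z) := by
  have h2 : fderiv ℂ θ z = (fderiv ℂ θ' (T z)).comp (fderiv ℂ T z) := by
    have h3 : HasFDerivAt (fun w => θ' (T w)) ((fderiv ℂ θ' (T z)).comp (fderiv ℂ T z)) z :=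
      HasFDerivAt.comp z (g := θ') (h'.diffAt hTe.self_of_nhds.1).hasFDerivAt
        hT.self_of_nhds.hasFDerivAt
    exact (h3.congr_of_eventuallyEq (hTe.mono fun w hw => hw.2)).fderiv
  ext a k
  rw [Matrix.mul_apply]
  simp only [DF, Matrix.of_apply, Matrix.transpose_apply]
  rw [h.pd_eq hz, h2, ContinuousLinearMap.comp_apply]
  have hsum : fderiv ℂ T z (EuclideanSpace.single a 1) =
      ∑ b, Jac T z b a • (EuclideanSpace.single b (1 : ℂ) : Cn n) := by
    ext c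
    simp [Jac, Pi.single_apply]
  rw [hsum, map_sum, Finset.sum_apply]
  refine Finset.sum_congr rfl fun b _ => ?_
  rw [map_smul, Pi.smul_apply, smul_eq_mul, h'.pd_eq hTe.self_of_nhds.1]

/-- **`|η|²` under a change of parametrisation** -/
theorem eta2a_trans {f : AC n → ℂ} {s : ℂ} {θ θ' : Cn n → AC n} {O O' : Set (Cn n)}
    (h : Par f s θ O) (h' : Par f s θ' O') {z : Cn n} (hz : z ∈ O) {T : Cn n → Cn n}
    (hT : ∀ᶠ w in 𝓝 z, DifferentiableAt ℂ T w)
    (hTe : ∀ᶠ w in 𝓝 z, T w ∈ O' ∧ θ w = θ' (T w)) :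
    eta2a f θ z = ‖(Jac T z).det‖ ^ 2 * eta2a f θ' (T z) := by
  unfold eta2a
  rw [DF_trans h h' hz hT hTe, hTe.self_of_nhds.2]
  have h1 : gdet ((Jac T z)ᵀ * DF θ' (T z)) =
      ((‖(Jac T z).det‖ ^ 2 : ℝ) : ℂ) * gdet (DF θ' (T z)) := by
    unfold gdet
    rw [Matrix.conjTranspose_mul]
    have h2 : (Jac T z)ᵀ * DF θ' (T z) * ((DF θ' (T z))ᴴ * ((Jac T z)ᵀ)ᴴ) =
        (Jac T z)ᵀ * (DF θ' (T z) * (DF θ' (T z))ᴴ) * ((Jac T z)ᵀ)ᴴ := by
      simp only [Matrix.mul_assoc]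
    rw [h2, Matrix.det_mul, Matrix.det_mul, Matrix.det_conjTranspose, Matrix.det_transpose]
    have h3 : (Jac T z).det * star (Jac T z).det = ((‖(Jac T z).det‖ ^ 2 : ℝ) : ℂ) := by
      rw [← starRingEnd_apply, Complex.mul_conj, Complex.normSq_eq_norm_sq]
    rw [← h3]
    ring
  rw [h1, Complex.re_ofReal_mul, mul_div_assoc]

end

end Crest.Agent.R257.Ked1_397
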