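import Crest.Agent.R257.Ked2_397

/-!
# R257 (S0395), task KED-DEN (helper397)

* `CC`, `CI` : continuous convergence (of all derivatives) of families of functions
* `CI.of_cvOn`, `CI.joint`, `CI.dS`, `CC.c2`
-/

set_option autoImplicit false
set_option linter.unusedSectionVars false

open Set Filter Topology Complex
open scoped ContDiff Matrix ComplexConjugate ComplexOrder

namespace Crest.Agent.R257.Ked3_397

open Crest.Agent.R275.Geo Crest.Agent.R275.EDR890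
open Crest.Agent.R273.Fock_243 Crest.Agent.R273.Calc_243
open Crest.Agent.R273.Bkn_243 Crest.Agent.R273.Pos_243 Crest.Agent.R273.BochA_101
open Crest.Agent.R273.BochB_101
open Crest.Agent.R273.BochC_101 Crest.Agent.R273.BochD_101
open Crest.Agent.R273.Hess_333 Crest.Agent.R273.HessB_333
open Crest.Agent.R273.Defs_333 Crest.Agent.R273.YauDefs_635 Crest.Agent.R273.YauMax_635
open Crest.Agent.R257.C2F1_625 (c2)
open Crest.Agent.R257.KED_952 (PP CvOn)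

noncomputable section

variable {X : Type*} [TopologicalSpace X] {l : Filter PP} {O : Set (Cn 2)} {z : Cn 2}

/-- continuous convergence at `z` -/
def CC (l : Filter PP) (F : PP → Cn 2 → X) (F₀ : Cn 2 → X) (z : Cn 2) : Prop :=
  Tendsto (fun p : PP × Cn 2 => F p.1 p.2) (l ×ˢ 𝓝 z) (𝓝 (F₀ z))

theorem CC.comp {Y : Type*} [TopologicalSpace Y] {F : PP → Cn 2 → X} {F₀ : Cn 2 → X} {g : X → Y}
    (h : CC l F F₀ z) (hg : ContinuousAt g (F₀ z)) :
    CC l (fun τ y => g (F τ y)) (fun y => g (F₀ y)) z := hg.tendsto.comp h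

theorem CC.congr {F G : PP → Cn 2 → X} {F₀ G₀ : Cn 2 → X} (h : CC l F F₀ z)
    (he : ∀ᶠ p : PP × Cn 2 in l ×ˢ 𝓝 z, F p.1 p.2 = G p.1 p.2) (h0 : F₀ z = G₀ z) :
    CC l G G₀ z := by
  unfold CC
  rw [← h0]
  exact h.congr' he

theorem CC.congrO {F G : PP → Cn 2 → X} {F₀ G₀ : Cn 2 → X} (h : CC l F F₀ z)
    (hO : IsOpen O) (hz : z ∈ O) (he : ∀ᶠ τ in l, ∀ y ∈ O, F τ y = G τ y)
    (h0 : ∀ y ∈ O, F₀ y = G₀ y) : CC l G G₀ z := by
  refine h.congr ?_ (h0 z hz)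
  have := he.prod_mk (hO.mem_nhds hz : ∀ᶠ y in 𝓝 z, y ∈ O)
  filter_upwards [this] with p hp
  exact hp.1 p.2 hp.2

/-- uniform convergence on compact sets -/
theorem tendstoUniformlyOn_of_cc {Y : Type*} [PseudoMetricSpace Y] {F : PP → Cn 2 → Y}
    {F₀ : Cn 2 → Y} {K : Set (Cn 2)} (hK : IsCompact K) (h : ∀ z ∈ K, CC l F F₀ z)
    (hc : ∀ z ∈ K, ContinuousAt F₀ z) : TendstoUniformlyOn F F₀ l K := by
  rw [← tendstoLocallyUniformlyOn_iff_tendstoUniformlyOn_of_compact hK,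
    Metric.tendstoLocallyUniformlyOn_iff]
  intro ε hε x hx
  have h1 := (Metric.tendsto_nhds.1 (h x hx)) (ε / 2) (by positivity)
  have h2 := Metric.tendsto_nhds.1 (hc x hx) (ε / 2) (by positivity)
  obtain ⟨A, hA, B, hB, hAB⟩ := Filter.mem_prod_iff.1 h1
  refine ⟨(B ∩ {y | dist (F₀ y) (F₀ x) < ε / 2}) ∩ K,
    inter_mem (mem_nhdsWithin_of_mem_nhds (inter_mem hB h2)) self_mem_nhdsWithin, ?_⟩
  filter_upwards [hA] with τ hτ y hy
  have h3 : dist (F τ y) (F₀ x) < ε / 2 := hAB (mk_mem_prod hτ hy.1.1)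
  have h4 : dist (F₀ y) (F₀ x) < ε / 2 := hy.1.2
  calc dist (F₀ y) (F τ y) ≤ dist (F₀ y) (F₀ x) + dist (F τ y) (F₀ x) := dist_triangle_right _ _ _
    _ < ε := by linarith

variable {E : Type} [NormedAddCommGroup E] [NormedSpace ℝ E]
  {G : Type} [NormedAddCommGroup G] [NormedSpace ℝ G]

/-- continuous convergence of all derivatives on `O` -/
structure CI (l : Filter PP) (O : Set (Cn 2)) (F : PP → Cn 2 → E) (F₀ : Cn 2 → E) : Prop where
  sm : ∀ᶠ τ in l, ContDiffOn ℝ ∞ (F τ) O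
  sm0 : ContDiffOn ℝ ∞ F₀ O
  cv : ∀ k : ℕ, ∀ z ∈ O, CC l (fun τ => iteratedFDeriv ℝ k (F τ)) (iteratedFDeriv ℝ k F₀) z

theorem CI.cc {F : PP → Cn 2 → E} {F₀ : Cn 2 → E} (h : CI l O F F₀) (hz : z ∈ O) :
    CC l F F₀ z := by
  have h1 := h.cv 0 z hz
  have h2 : Continuous fun m : (Cn 2) [×0]→L[ℝ] E => m 0 :=
    (ContinuousMultilinearMap.apply ℝ (fun _ : Fin 0 => Cn 2) E 0).continuous
  exact h1.comp (g := fun m : (Cn 2) [×0]→L[ℝ] E => m 0) h2.continuousAt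

theorem CI.fderiv (hO : IsOpen O) {F : PP → Cn 2 → E} {F₀ : Cn 2 → E} (h : CI l O F F₀) :
    CI l O (fun τ => fderiv ℝ (F τ)) (fderiv ℝ F₀) where
  sm := h.sm.mono fun τ hτ => hτ.fderiv_of_isOpen hO (m := ∞) le_rfl
  sm0 := h.sm0.fderiv_of_isOpen hO (m := ∞) le_rfl
  cv k z hz := by
    have h1 := h.cv (k + 1) z hz
    have h2 := (continuousMultilinearCurryRightEquiv' ℝ k (Cn 2) E).continuous
    have h3 : ∀ (f : Cn 2 → E) (y : Cn 2), iteratedFDeriv ℝ k (_root_.fderiv ℝ f) y =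
        continuousMultilinearCurryRightEquiv' ℝ k (Cn 2) E (iteratedFDeriv ℝ (k + 1) f y) := by
      intro f y
      rw [iteratedFDeriv_succ_eq_comp_right, Function.comp_apply]
      exact ((continuousMultilinearCurryRightEquiv' ℝ k (Cn 2) E).apply_symm_apply _).symm
    have h4 := h1.comp (g := continuousMultilinearCurryRightEquiv' ℝ k (Cn 2) E) h2.continuousAt
    unfold CC at h4 ⊢
    simp only [h3]
    exact h4

theorem CI.clm (hO : IsOpen O) {F : PP → Cn 2 → E} {F₀ : Cn 2 → E} (h : CI l O F F₀)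
    (L : E →L[ℝ] G) : CI l O (fun τ y => L (F τ y)) (fun y => L (F₀ y)) where
  sm := h.sm.mono fun τ hτ => L.contDiff.comp_contDiffOn hτ
  sm0 := L.contDiff.comp_contDiffOn h.sm0
  cv k z hz := by
    have h1 := h.cv k z hz
    have h2 : Continuous fun m : (Cn 2) [×k]→L[ℝ] E => L.compContinuousMultilinearMap m :=
      (ContinuousLinearMap.compContinuousMultilinearMapL ℝ (fun _ : Fin k => Cn 2) E G L).continuous
    have h3 := h1.comp (g := fun m : (Cn 2) [×k]→L[ℝ] E => L.compContinuousMultilinearMap m)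
      h2.continuousAt
    have h4 : ∀ (f : Cn 2 → E), ContDiffOn ℝ ∞ f O → ∀ y ∈ O,
        L.compContinuousMultilinearMap (iteratedFDeriv ℝ k f y) =
          iteratedFDeriv ℝ k (fun y => L (f y)) y := by
      intro f hf y hy
      exact (L.iteratedFDeriv_comp_left (hf.contDiffAt (hO.mem_nhds hy))
        (by exact_mod_cast le_top)).symm
    exact h3.congrO hO hz (h.sm.mono fun τ hτ y hy => h4 _ hτ y hy) fun y hy => h4 _ h.sm0 y hy

theorem CI.congr (hO : IsOpen O) {F F' : PP → Cn 2 → E} {F₀ F₀' : Cn 2 → E} (h : CI l O F F₀)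
    (he : ∀ᶠ τ in l, ∀ y ∈ O, F τ y = F' τ y) (h0 : ∀ y ∈ O, F₀ y = F₀' y) : CI l O F' F₀' where
  sm := (h.sm.and he).mono fun τ hτ => hτ.1.congr fun y hy => (hτ.2 y hy).symm
  sm0 := h.sm0.congr fun y hy => (h0 y hy).symm
  cv k z hz := by
    have h4 : ∀ (f f' : Cn 2 → E), (∀ y ∈ O, f y = f' y) → ∀ y ∈ O,
        iteratedFDeriv ℝ k f y = iteratedFDeriv ℝ k f' y := by
      intro f f' hf y hy
      have h5 : f =ᶠ[𝓝 y] f' := by
        filter_upwards [hO.mem_nhds hy] with w hw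
        exact hf w hw
      exact (h5.iteratedFDeriv ℝ k).eq_of_nhds
    exact (h.cv k z hz).congrO hO hz (he.mono fun τ hτ => h4 _ _ hτ) (h4 _ _ h0)

/-- the operator `dS` as a continuous linear map of the derivative -/
def dSL (s : ℂ) (a : Fin 2) : (Cn 2 →L[ℝ] ℂ) →L[ℝ] ℂ :=
  (ContinuousLinearMap.apply ℝ ℂ (EuclideanSpace.single a (1 : ℂ) : Cn 2) +
    ((ContinuousLinearMap.mul ℝ ℂ) s).comp
      (ContinuousLinearMap.apply ℝ ℂ (EuclideanSpace.single a I : Cn 2)))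

theorem dS_eq_dSL (s : ℂ) (a : Fin 2) (f : Cn 2 → ℂ) (y : Cn 2) :
    dS s a f y = ((ContinuousLinearMap.mul ℝ ℂ) (1 / 2)) (dSL s a (_root_.fderiv ℝ f y)) := rfl

theorem CI.dS (hO : IsOpen O) {F : PP → Cn 2 → ℂ} {F₀ : Cn 2 → ℂ} (h : CI l O F F₀) (s : ℂ)
    (a : Fin 2) : CI l O (fun τ => dS s a (F τ)) (dS s a F₀) :=
  ((h.fderiv hO).clm hO (dSL s a)).clm hO ((ContinuousLinearMap.mul ℝ ℂ) (1 / 2))

theorem CI.hess (hO : IsOpen O) {v : PP → Cn 2 → ℝ} {v₀ : Cn 2 → ℝ} (h : CI l O v v₀)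
    (a b : Fin 2) : CI l O (fun τ y => hess (v τ) y a b) (fun y => hess v₀ y a b) :=
  ((h.clm hO Complex.ofRealCLM).dS hO I b).dS hO (-I) a

/-- from `CvOn` -/
theorem CI.of_cvOn (hO : IsOpen O) {v : PP → Cn 2 → ℝ} {v₀ : Cn 2 → ℝ}
    (hs : ∀ᶠ τ in l, ContDiffOn ℝ ∞ (v τ) O) (hs0 : ContDiffOn ℝ ∞ v₀ O)
    (h : CvOn l O v v₀) : CI l O v v₀ where
  sm := hs
  sm0 := hs0
  cv k z hz := by
    obtain ⟨K, hK, hzK, hKO⟩ := exists_compact_subset hO hz
    have h1 := Metric.tendstoUniformlyOn_iff.1 (h k K hKO hK)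
    have h2 : ContinuousAt (iteratedFDeriv ℝ k v₀) z := by
      have h3 : ContDiffAt ℝ k v₀ z :=
        (hs0.contDiffAt (hO.mem_nhds hz)).of_le (by exact_mod_cast le_top)
      exact h3.continuousAt_iteratedFDeriv le_rfl
    refine Metric.tendsto_nhds.2 fun ε hε => ?_
    have h4 := Metric.tendsto_nhds.1 h2 (ε / 2) (by positivity)
    have h5 := (h1 (ε / 2) (by positivity)).prod_mk
      ((h4.and (mem_interior_iff_mem_nhds.1 hzK : ∀ᶠ y in 𝓝 z, y ∈ K)))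
    filter_upwards [h5] with p hp
    have h6 := hp.1 p.2 hp.2.2
    calc dist (iteratedFDeriv ℝ k (v p.1) p.2) (iteratedFDeriv ℝ k v₀ z)
        ≤ dist (iteratedFDeriv ℝ k (v p.1) p.2) (iteratedFDeriv ℝ k v₀ p.2)
          + dist (iteratedFDeriv ℝ k v₀ p.2) (iteratedFDeriv ℝ k v₀ z) := dist_triangle _ _ _
      _ < ε := by rw [dist_comm] at h6; linarith [hp.2.1]

/-- jointly smooth families -/
theorem CI.joint_aux {τ₀ : PP} (hl : l ≤ 𝓝 τ₀) (hO : IsOpen O) {N : Set PP} (hN : IsOpen N)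
    (hτ : τ₀ ∈ N) (k : ℕ) : ∀ {E : Type} [NormedAddCommGroup E] [NormedSpace ℝ E]
    (f : Cn 2 × PP → E), ContDiffOn ℝ ∞ f (O ×ˢ N) → ∀ z ∈ O,
    CC l (fun τ => iteratedFDeriv ℝ k fun y => f (y, τ)) (iteratedFDeriv ℝ k fun y => f (y, τ₀))
      z := by
  have hON : IsOpen (O ×ˢ N) := hO.prod hN
  have hsw : ∀ z : Cn 2, Tendsto (fun p : PP × Cn 2 => (p.2, p.1)) (l ×ˢ 𝓝 z) (𝓝 (z, τ₀)) := by
    intro z
    rw [nhds_prod_eq]
    exact tendsto_snd.prodMk (tendsto_fst.mono_right hl)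
  induction k with
  | zero =>
    intro E _ _ f hf z hz
    have h1 : ContinuousAt f (z, τ₀) := (hf.contDiffAt (hON.mem_nhds ⟨hz, hτ⟩)).continuousAt
    have h2 := (continuousMultilinearCurryFin0 ℝ (Cn 2) E).symm.continuous
    exact h2.continuousAt.tendsto.comp (h1.tendsto.comp (hsw z))
  | succ k ih =>
    intro E _ _ f hf z hz
    set g : Cn 2 × PP → (Cn 2 →L[ℝ] E) := fun q =>
      (_root_.fderiv ℝ f q).comp (ContinuousLinearMap.inl ℝ (Cn 2) PP) with hg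
    have hgs : ContDiffOn ℝ ∞ g (O ×ˢ N) := by
      have h1 : ContDiffOn ℝ ∞ (_root_.fderiv ℝ f) (O ×ˢ N) :=
        hf.fderiv_of_isOpen hON (m := ∞) le_rfl
      exact h1.clm_comp contDiffOn_const
    have h1 := ih g hgs z hz
    have h2 := (continuousMultilinearCurryRightEquiv' ℝ k (Cn 2) E).symm.continuous
    have h3 : ∀ τ ∈ N, ∀ y ∈ O, (continuousMultilinearCurryRightEquiv' ℝ k (Cn 2) E).symm
        (iteratedFDeriv ℝ k (fun y => g (y, τ)) y) =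
          iteratedFDeriv ℝ (k + 1) (fun y => f (y, τ)) y := by
      intro τ hτN y hy
      rw [iteratedFDeriv_succ_eq_comp_right, Function.comp_apply]
      have h4 : (fun y => g (y, τ)) =ᶠ[𝓝 y] fun y' => _root_.fderiv ℝ (fun y => f (y, τ)) y' := by
        filter_upwards [hO.mem_nhds hy] with w hw
        have h5 : HasFDerivAt f (_root_.fderiv ℝ f (w, τ)) (w, τ) :=
          ((hf.contDiffAt (hON.mem_nhds ⟨hw, hτN⟩)).differentiableAt (by simp)).hasFDerivAt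
        exact (h5.comp w (hasFDerivAt_prodMk_left w τ)).fderiv.symm
      rw [(h4.iteratedFDeriv ℝ k).eq_of_nhds]
    have h4 := h1.comp (g := (continuousMultilinearCurryRightEquiv' ℝ k (Cn 2) E).symm)
      h2.continuousAt
    refine h4.congrO hO hz ?_ (h3 τ₀ hτ)
    filter_upwards [hl (hN.mem_nhds hτ)] with τ hτN
    exact h3 τ hτN

theorem CI.joint {τ₀ : PP} (hl : l ≤ 𝓝 τ₀) (hO : IsOpen O) {N : Set PP} (hN : N ∈ 𝓝 τ₀)
    {f : Cn 2 × PP → E} (hf : ContDiffOn ℝ ∞ f (O ×ˢ N)) :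
    CI l O (fun τ y => f (y, τ)) (fun y => f (y, τ₀)) := by
  have hτ : τ₀ ∈ interior N := mem_interior_iff_mem_nhds.2 hN
  have hf' : ContDiffOn ℝ ∞ f (O ×ˢ interior N) := hf.mono (prod_mono_right interior_subset)
  have hs : ∀ τ ∈ interior N, ContDiffOn ℝ ∞ (fun y => f (y, τ)) O := by
    intro τ hτ
    exact hf'.comp (contDiffOn_id.prodMk contDiffOn_const) fun y hy => ⟨hy, hτ⟩
  have hev : ∀ᶠ τ in l, τ ∈ interior N := hl (isOpen_interior.mem_nhds hτ)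
  exact ⟨hev.mono hs, hs τ₀ hτ, fun k => CI.joint_aux hl hO isOpen_interior hτ k f hf'⟩

/-! ### matrices -/

theorem cc_mat {K : PP → Cn 2 → Matrix (Fin 2) (Fin 2) ℂ} {K₀ : Cn 2 → Matrix (Fin 2) (Fin 2) ℂ}
    (h : ∀ a b, CC l (fun τ y => K τ y a b) (fun y => K₀ y a b) z) : CC l K K₀ z :=
  tendsto_pi_nhds.2 fun a => tendsto_pi_nhds.2 fun b => h a b

theorem cont_inv {m : Matrix (Fin 2) (Fin 2) ℂ} (h : m.det ≠ 0) :
    ContinuousAt (fun m : Matrix (Fin 2) (Fin 2) ℂ => m⁻¹) m := by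
  have h1 : (fun m : Matrix (Fin 2) (Fin 2) ℂ => m⁻¹) = fun m => m.det⁻¹ • m.adjugate := by
    funext m
    rw [Matrix.inv_def, Ring.inverse_eq_inv]
  rw [h1]
  have h2 : ContinuousAt (fun m : Matrix (Fin 2) (Fin 2) ℂ => m.det) m :=
    (continuous_id.matrix_det).continuousAt
  have h3 : ContinuousAt (fun m : Matrix (Fin 2) (Fin 2) ℂ => m.adjugate) m :=
    (continuous_id.matrix_adjugate).continuousAt
  exact (h2.inv₀ h).smul h3

/-- convergence of the curvature -/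
theorem cc_rm (hO : IsOpen O) {K : PP → Cn 2 → Matrix (Fin 2) (Fin 2) ℂ}
    {K₀ : Cn 2 → Matrix (Fin 2) (Fin 2) ℂ}
    (h : ∀ a b, CI l O (fun τ y => K τ y a b) (fun y => K₀ y a b)) (hz : z ∈ O)
    (h0 : (K₀ z).det ≠ 0) (c d : Fin 2) :
    CC l (fun τ y => rm (K τ) y c d) (fun y => rm K₀ y c d) z := by
  have e1 : CC l (fun τ y => dM (-I) c (dM I d (K τ)) y) (fun y => dM (-I) c (dM I d K₀) y) z :=
    cc_mat fun a b => (((h a b).dS hO I d).dS hO (-I) c).cc hz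
  have e2 : CC l (fun τ y => dM I d (K τ) y) (fun y => dM I d K₀ y) z :=
    cc_mat fun a b => ((h a b).dS hO I d).cc hz
  have e3 : CC l (fun τ y => dM (-I) c (K τ) y) (fun y => dM (-I) c K₀ y) z :=
    cc_mat fun a b => ((h a b).dS hO (-I) c).cc hz
  have e4 : CC l (fun τ y => (K τ y)⁻¹) (fun y => (K₀ y)⁻¹) z :=
    (cc_mat fun a b => (h a b).cc hz).comp (cont_inv h0)
  unfold rm
  exact (Filter.Tendsto.neg e1).add ((Filter.Tendsto.mul e2 e4).mul e3)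

theorem cont_pd : Continuous fun q : Matrix (Fin 2) (Fin 2) ℂ × Matrix (Fin 2) (Fin 2) ℂ =>
    C2F1_625.pd q.1 q.2 := by
  unfold C2F1_625.pd
  fun_prop

theorem cc_pd {R R' : PP → Cn 2 → Matrix (Fin 2) (Fin 2) ℂ}
    {R₀ R₀' : Cn 2 → Matrix (Fin 2) (Fin 2) ℂ} (h : CC l R R₀ z) (h' : CC l R' R₀' z) :
    CC l (fun τ y => C2F1_625.pd (R τ y) (R' τ y)) (fun y => C2F1_625.pd (R₀ y) (R₀' y)) z :=
  Tendsto.comp (g := fun q : Matrix (Fin 2) (Fin 2) ℂ × Matrix (Fin 2) (Fin 2) ℂ =>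
    C2F1_625.pd q.1 q.2) (f := fun p : PP × Cn 2 => (R p.1 p.2, R' p.1 p.2))
    (cont_pd.tendsto (R₀ z, R₀' z)) (Tendsto.prodMk_nhds h h')

theorem CC.div {f g : PP → Cn 2 → ℂ} {f₀ g₀ : Cn 2 → ℂ} (h : CC l f f₀ z) (h' : CC l g g₀ z)
    (h0 : g₀ z ≠ 0) : CC l (fun τ y => f τ y / g τ y) (fun y => f₀ y / g₀ y) z :=
  Tendsto.div h h' h0

theorem CC.sub {f g : PP → Cn 2 → ℂ} {f₀ g₀ : Cn 2 → ℂ} (h : CC l f f₀ z) (h' : CC l g g₀ z) :
    CC l (fun τ y => f τ y - g τ y) (fun y => f₀ y - g₀ y) z :=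
  Tendsto.sub h h'

theorem cc_det {K : PP → Cn 2 → Matrix (Fin 2) (Fin 2) ℂ}
    {K₀ : Cn 2 → Matrix (Fin 2) (Fin 2) ℂ} (h : CC l K K₀ z) :
    CC l (fun τ y => (K τ y).det) (fun y => (K₀ y).det) z :=
  h.comp (g := fun m : Matrix (Fin 2) (Fin 2) ℂ => m.det) (continuous_id.matrix_det).continuousAt

/-- convergence of the second Chern form -/
theorem cc_c2 (hO : IsOpen O) {K : PP → Cn 2 → Matrix (Fin 2) (Fin 2) ℂ}
    {K₀ : Cn 2 → Matrix (Fin 2) (Fin 2) ℂ}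
    (h : ∀ a b, CI l O (fun τ y => K τ y a b) (fun y => K₀ y a b)) (hz : z ∈ O)
    (h0 : (K₀ z).det ≠ 0) : CC l (fun τ => c2 (K τ)) (c2 K₀) z := by
  have e0 : CC l K K₀ z := cc_mat fun a b => (h a b).cc hz
  have e2 := fun c d => cc_rm hO h hz h0 c d
  have e3 := CC.sub (cc_pd (e2 0 0) (e2 1 1)) (cc_pd (e2 0 1) (e2 1 0))
  exact CC.div e3 (cc_det e0) h0

end

end Crest.Agent.R257.Ked3_397
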