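import Mathlib

/-!
R257 / KlA_540: K5' of the KLT leaf, part 1 (integration by parts in `ℂⁿ`).

`P L v` : the `ℂ`-linear part of a real-linear functional `L : ℂⁿ → ℂ`;
`gen`   : if `∑ k_j ∂_j f = θ f` and `Re ∑ ∂_j k_j ≥ (1+c) θ - B`, with everything compactly
supported, then `(c+s) ∫ θ (|f|²+ε²)^(s-1) ≤ ∫ B (|f|²+ε²)^(s-1)`.
-/

set_option autoImplicit false

open Topology Filter MeasureTheory Set
open scoped ENNReal

noncomputable section

namespace Crest.Agent.R257.KlA_540

variable {n : ℕ}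

abbrev En (n : ℕ) : Type := Fin n → ℂ

/-- the `ℂ`-linear part of a real-linear functional -/
def P (L : En n →L[ℝ] ℂ) (v : En n) : ℂ := (L v - Complex.I * L (Complex.I • v)) / 2

theorem P_add (L M : En n →L[ℝ] ℂ) (v : En n) : P (L + M) v = P L v + P M v := by
  simp only [P, add_apply]; ring

theorem P_smul (c : ℂ) (L : En n →L[ℝ] ℂ) (v : En n) : P (c • L) v = c * P L v := by
  simp only [P, smul_apply, smul_eq_mul]; ring

theorem P_restrict (L : En n →L[ℂ] ℂ) (v : En n) : P (L.restrictScalars ℝ) v = L v := by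
  simp only [P, ContinuousLinearMap.coe_restrictScalars', map_smul, smul_eq_mul]
  have h : Complex.I * (Complex.I * L v) = - L v := by
    rw [← mul_assoc, Complex.I_mul_I]; ring
  rw [h]; ring

/-- the real functional `v ↦ 2 Re (conj w * L v)` has complex linear part `conj w * L v` -/
theorem P_re (w : ℂ) (L : En n →L[ℂ] ℂ) (v : En n) (M : En n →L[ℝ] ℝ)
    (hM : ∀ v, M v = 2 * (starRingEnd ℂ w * L v).re) :
    P (Complex.ofRealCLM.comp M) v = starRingEnd ℂ w * L v := by
  simp only [P, ContinuousLinearMap.comp_apply, Complex.ofRealCLM_apply, hM, map_smul, smul_eq_mul]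
  apply Complex.ext
  · simp
  · simp
    ring

/-- the derivative of `‖f‖²` -/
theorem hasFDerivAt_normSq {f : En n → ℂ} {x : En n} {L : En n →L[ℂ] ℂ} (hf : HasFDerivAt f L x) :
    ∃ M : En n →L[ℝ] ℝ, HasFDerivAt (fun y => ‖f y‖ ^ 2) M x ∧
      ∀ v, M v = 2 * (starRingEnd ℂ (f x) * L v).re := by
  have h1 : HasFDerivAt f (L.restrictScalars ℝ) x := hf.restrictScalars ℝ
  have h2 := h1.norm_sq
  refine ⟨_, h2, fun v => ?_⟩
  simp [Complex.inner, mul_comm]
  ring

/-- the derivative of `(‖f‖²+ε²)^q` -/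
theorem hasFDerivAt_G {f : En n → ℂ} {x : En n} {L : En n →L[ℂ] ℂ} (hf : HasFDerivAt f L x)
    (q : ℝ) {ε : ℝ} (hε : 0 < ε) :
    ∃ M : En n →L[ℝ] ℂ, HasFDerivAt (fun y => (((‖f y‖ ^ 2 + ε ^ 2) ^ q : ℝ) : ℂ)) M x ∧
      ∀ v, P M v = (q * (‖f x‖ ^ 2 + ε ^ 2) ^ (q - 1) : ℝ) * (starRingEnd ℂ (f x) * L v) := by
  obtain ⟨M, hM, hMv⟩ := hasFDerivAt_normSq hf
  have hpos : (0 : ℝ) < ‖f x‖ ^ 2 + ε ^ 2 := by positivity
  have h1 : HasFDerivAt (fun y => ‖f y‖ ^ 2 + ε ^ 2) M x := hM.add_const _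
  have h2 := h1.rpow_const (p := q) (Or.inl hpos.ne')
  have h3 := Complex.ofRealCLM.hasFDerivAt.comp x h2
  refine ⟨_, h3, fun v => ?_⟩
  have h4 : Complex.ofRealCLM.comp ((q * (‖f x‖ ^ 2 + ε ^ 2) ^ (q - 1)) • M) =
      ((q * (‖f x‖ ^ 2 + ε ^ 2) ^ (q - 1) : ℝ) : ℂ) • (Complex.ofRealCLM.comp M) := by
    ext v
    simp
  rw [h4, P_smul, P_re (f x) L v M hMv]

/-- integral of a derivative of a compactly supported function -/
theorem integral_fderiv_zero {u : En n → ℂ} (hu : ContDiff ℝ 1 u) (hc : HasCompactSupport u)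
    (v : En n) : ∫ x, fderiv ℝ u x v = 0 := by
  have hd : Continuous (fun x => fderiv ℝ u x v) :=
    (hu.continuous_fderiv one_ne_zero).clm_apply continuous_const
  have hdc : HasCompactSupport (fun x => fderiv ℝ u x v) := by
    have := hc.fderiv (𝕜 := ℝ)
    exact this.comp_left (g := fun L : En n →L[ℝ] ℂ => L v) (by simp)
  have h := integral_mul_fderiv_eq_neg_fderiv_mul_of_integrable (μ := (volume : Measure (En n)))
    (f := fun _ : En n => (1 : ℂ)) (g := u) (v := v) (𝕜 := ℂ)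
    (by simp) (by simpa using hd.integrable_of_hasCompactSupport hdc)
    (by simpa using hu.continuous.integrable_of_hasCompactSupport hc)
    (fun x _ => differentiableAt_const _)
    (fun x _ => (hu.differentiable one_ne_zero) x)
  simpa using h

theorem integral_P_zero {u : En n → ℂ} (hu : ContDiff ℝ 1 u) (hc : HasCompactSupport u)
    (v : En n) : Integrable (fun x => P (fderiv ℝ u x) v) ∧ ∫ x, P (fderiv ℝ u x) v = 0 := by
  have hi : ∀ w : En n, Integrable (fun x => fderiv ℝ u x w) := by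
    intro w
    have hd : Continuous (fun x => fderiv ℝ u x w) :=
      (hu.continuous_fderiv one_ne_zero).clm_apply continuous_const
    have hdc : HasCompactSupport (fun x => fderiv ℝ u x w) := by
      have := hc.fderiv (𝕜 := ℝ)
      exact this.comp_left (g := fun L : En n →L[ℝ] ℂ => L w) (by simp)
    exact hd.integrable_of_hasCompactSupport hdc
  have h1 := hi v
  have h2 := (hi (Complex.I • v)).const_mul Complex.I
  constructor
  · exact (h1.sub h2).div_const 2
  · simp only [P]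
    rw [integral_div, integral_sub h1 h2, integral_const_mul, integral_fderiv_zero hu hc,
      integral_fderiv_zero hu hc]
    simp

theorem contDiff_mul {k g : En n → ℂ} (hk : ContDiff ℝ 1 k)
    (hg : ∀ x ∈ tsupport k, ContDiffAt ℝ 1 g x) : ContDiff ℝ 1 (fun x => k x * g x) := by
  rw [contDiff_iff_contDiffAt]
  intro x
  by_cases hx : x ∈ tsupport k
  · exact hk.contDiffAt.mul (hg x hx)
  · have h0 : k =ᶠ[𝓝 x] 0 := notMem_tsupport_iff_eventuallyEq.1 hx
    have h1 : (fun x => k x * g x) =ᶠ[𝓝 x] fun _ => 0 := by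
      filter_upwards [h0] with y hy
      simp [hy]
    exact contDiffAt_const.congr_of_eventuallyEq h1

theorem continuous_mul_of {θ g : En n → ℝ} {U : Set (En n)} (hU : IsOpen U) (hθ : Continuous θ)
    (hθU : tsupport θ ⊆ U) (hg : ContinuousOn g U) : Continuous (fun x => θ x * g x) := by
  rw [continuous_iff_continuousAt]
  intro x
  by_cases hx : x ∈ tsupport θ
  · exact hθ.continuousAt.mul (hg.continuousAt (hU.mem_nhds (hθU hx)))
  · have h0 : θ =ᶠ[𝓝 x] 0 := notMem_tsupport_iff_eventuallyEq.1 hx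
    have h1 : (fun x => θ x * g x) =ᶠ[𝓝 x] fun _ => 0 := by
      filter_upwards [h0] with y hy
      simp [hy]
    exact continuousAt_const.congr h1.symm

/-- the weight -/
def G (f : En n → ℂ) (s ε : ℝ) (x : En n) : ℝ := (‖f x‖ ^ 2 + ε ^ 2) ^ (s - 1)

theorem G_nonneg (f : En n → ℂ) (s ε : ℝ) (x : En n) : 0 ≤ G f s ε x := by
  unfold G; positivity

theorem contDiffAt_G {f : En n → ℂ} {x : En n} (hf : AnalyticAt ℂ f x) (s : ℝ) {ε : ℝ}
    (hε : 0 < ε) : ContDiffAt ℝ 1 (G f s ε) x := by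
  have h1 : ContDiffAt ℝ 1 f x := (hf.contDiffAt (n := 1)).restrict_scalars ℝ
  have h2 : ContDiffAt ℝ 1 (fun y => ‖f y‖ ^ 2 + ε ^ 2) x := (h1.norm_sq ℝ).add contDiffAt_const
  exact h2.rpow_const_of_ne (by positivity)

theorem continuousOn_G {f : En n → ℂ} {U : Set (En n)} (hf : AnalyticOnNhd ℂ f U) (s : ℝ) {ε : ℝ}
    (hε : 0 < ε) : ContinuousOn (G f s ε) U := fun x hx =>
  (contDiffAt_G (hf x hx) s hε).continuousAt.continuousWithinAt

/-- the basic inequality -/
theorem gen {U : Set (En n)} (hU : IsOpen U) {f : En n → ℂ} (hf : AnalyticOnNhd ℂ f U)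
    {k : Fin n → En n → ℂ} (hk : ∀ j, ContDiff ℝ 1 (k j)) (hkU : ∀ j, tsupport (k j) ⊆ U)
    (hkc : ∀ j, HasCompactSupport (k j)) {θ B : En n → ℝ} (hθ : Continuous θ)
    (hθ0 : ∀ x, 0 ≤ θ x) (hθc : HasCompactSupport θ) (hθU : tsupport θ ⊆ U)
    (hB : Continuous B) (hBc : HasCompactSupport B) (hBU : tsupport B ⊆ U)
    (h1 : ∀ x ∈ U, ∑ j, k j x * fderiv ℂ f x (Pi.single j 1) = θ x * f x) {c : ℝ}
    (h2 : ∀ x ∈ U, (1 + c) * θ x - B x ≤ (∑ j, P (fderiv ℝ (k j) x) (Pi.single j 1)).re)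
    {s ε : ℝ} (hs1 : s ≤ 1) (hε : 0 < ε) :
    (c + s) * ∫ x, θ x * G f s ε x ≤ ∫ x, B x * G f s ε x := by
  have hGc := continuousOn_G hf s hε
  set u : Fin n → En n → ℂ := fun j x => k j x * (G f s ε x : ℂ) with hu
  have huC : ∀ j, ContDiff ℝ 1 (u j) := fun j => contDiff_mul (hk j) fun x hx =>
    Complex.ofRealCLM.contDiff.contDiffAt.comp x (contDiffAt_G (hf x (hkU j hx)) s hε)
  have huc : ∀ j, HasCompactSupport (u j) := fun j => (hkc j).mul_right
  have hint : Integrable (fun x => (∑ j, P (fderiv ℝ (u j) x) (Pi.single j 1))) :=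
    integrable_finsetSum _ fun j _ => (integral_P_zero (huC j) (huc j) _).1
  have hzero : ∫ x, (∑ j, P (fderiv ℝ (u j) x) (Pi.single j 1)).re = 0 := by
    have h3 : ∫ x, (∑ j, P (fderiv ℝ (u j) x) (Pi.single j 1)) = 0 := by
      rw [integral_finsetSum _ fun j _ => (integral_P_zero (huC j) (huc j) _).1]
      exact Finset.sum_eq_zero fun j _ => (integral_P_zero (huC j) (huc j) _).2
    have h4 := integral_re hint
    simp only [RCLike.re_to_complex] at h4
    rw [h4, h3]; simp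
  have hθi : Integrable (fun x => θ x * G f s ε x) :=
    (continuous_mul_of hU hθ hθU hGc).integrable_of_hasCompactSupport hθc.mul_right
  have hBi : Integrable (fun x => B x * G f s ε x) :=
    (continuous_mul_of hU hB hBU hGc).integrable_of_hasCompactSupport hBc.mul_right
  have hpt : ∀ x, (c + s) * (θ x * G f s ε x) - B x * G f s ε x ≤
      (∑ j, P (fderiv ℝ (u j) x) (Pi.single j 1)).re := by
    intro x
    by_cases hx : x ∈ U
    · obtain ⟨M, hM, hMv⟩ := hasFDerivAt_G (hf x hx).differentiableAt.hasFDerivAt (s - 1) hε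
      have hj : ∀ j, P (fderiv ℝ (u j) x) (Pi.single j 1) =
          k j x * (((s - 1) * (‖f x‖ ^ 2 + ε ^ 2) ^ (s - 1 - 1) : ℝ) *
            (starRingEnd ℂ (f x) * fderiv ℂ f x (Pi.single j 1))) +
          G f s ε x * P (fderiv ℝ (k j) x) (Pi.single j 1) := by
        intro j
        have hd : HasFDerivAt (k j) (fderiv ℝ (k j) x) x :=
          ((hk j).differentiable one_ne_zero x).hasFDerivAt
        have := (hd.mul hM).fderiv
        rw [show fderiv ℝ (u j) x = _ from this, P_add, P_smul, P_smul, hMv]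
        rfl
      have hsum : (∑ j, P (fderiv ℝ (u j) x) (Pi.single j 1)) =
          ((s - 1) * (‖f x‖ ^ 2 + ε ^ 2) ^ (s - 1 - 1) : ℝ) * (starRingEnd ℂ (f x) *
            (∑ j, k j x * fderiv ℂ f x (Pi.single j 1))) +
          G f s ε x * ∑ j, P (fderiv ℝ (k j) x) (Pi.single j 1) := by
        rw [Finset.sum_congr rfl fun j _ => hj j, Finset.sum_add_distrib, Finset.mul_sum,
          Finset.mul_sum, Finset.mul_sum]
        congr 1
        refine Finset.sum_congr rfl fun j _ => by ring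
      have hconj : starRingEnd ℂ (f x) * (θ x * f x) = ((θ x * ‖f x‖ ^ 2 : ℝ) : ℂ) := by
        have : starRingEnd ℂ (f x) * f x = ((‖f x‖ ^ 2 : ℝ) : ℂ) := by
          rw [mul_comm, Complex.mul_conj, Complex.normSq_eq_norm_sq]
        rw [Complex.ofReal_mul, ← this]; ring
      rw [hsum, h1 x hx, hconj, ← Complex.ofReal_mul, Complex.add_re, Complex.ofReal_re,
        Complex.re_ofReal_mul]
      have hpos : (0 : ℝ) < ‖f x‖ ^ 2 + ε ^ 2 := by positivity
      have hle : ‖f x‖ ^ 2 * (‖f x‖ ^ 2 + ε ^ 2) ^ (s - 1 - 1) ≤ G f s ε x := by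
        have e1 : G f s ε x = (‖f x‖ ^ 2 + ε ^ 2) * (‖f x‖ ^ 2 + ε ^ 2) ^ (s - 1 - 1) := by
          unfold G
          rw [mul_comm, ← Real.rpow_add_one hpos.ne']
          congr 1; ring
        rw [e1]
        have : 0 ≤ (‖f x‖ ^ 2 + ε ^ 2) ^ (s - 1 - 1) := by positivity
        nlinarith [sq_nonneg ε]
      have h3 := mul_le_mul_of_nonneg_left (h2 x hx) (G_nonneg f s ε x)
      have h4 : (1 - s) * (θ x * (‖f x‖ ^ 2 * (‖f x‖ ^ 2 + ε ^ 2) ^ (s - 1 - 1))) ≤
          (1 - s) * (θ x * G f s ε x) :=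
        mul_le_mul_of_nonneg_left (mul_le_mul_of_nonneg_left hle (hθ0 x)) (by linarith)
      nlinarith
    · have e1 : θ x = 0 := image_eq_zero_of_notMem_tsupport fun h => hx (hθU h)
      have e2 : B x = 0 := image_eq_zero_of_notMem_tsupport fun h => hx (hBU h)
      have e3 : ∀ j, fderiv ℝ (u j) x = 0 := by
        intro j
        have : x ∉ tsupport (u j) := fun h => hx (hkU j (tsupport_mul_subset_left h))
        have h0 : u j =ᶠ[𝓝 x] 0 := notMem_tsupport_iff_eventuallyEq.1 this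
        rw [h0.fderiv_eq]
        simp
      simp [e1, e2, e3, P]
  have hmono : ∫ x, ((c + s) * (θ x * G f s ε x) - B x * G f s ε x) ≤
      ∫ x, (∑ j, P (fderiv ℝ (u j) x) (Pi.single j 1)).re :=
    integral_mono ((hθi.const_mul _).sub hBi) hint.re hpt
  rw [hzero, integral_sub (hθi.const_mul _) hBi, integral_const_mul] at hmono
  linarith

end Crest.Agent.R257.KlA_540
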