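import Crest.Agent.R257.KlA_540

/-!
R257 / KlB_540: K5' of the KLT leaf, part 2.  `tube`: if `χ f = f`, `Re div χ > 1` near `0` and
`0` is an isolated critical point of `f`, then `s ∫_{ball} (|f|²+ε²)^(s-1)` is bounded uniformly in
`0 < s ≤ 1/2`, `0 < ε ≤ 1`.
-/

set_option autoImplicit false

open Topology Filter MeasureTheory Set
open scoped ENNReal ContDiff Manifold

noncomputable section

namespace Crest.Agent.R257.KlB_540

open Crest.Agent.R257.KlA_540

variable {n : ℕ}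

/-- cut-off functions -/
theorem cutoff {K V : Set (En n)} (hK : IsCompact K) (hV : IsOpen V) (hKV : K ⊆ V) :
    ∃ ρ : En n → ℝ, ContDiff ℝ ∞ ρ ∧ HasCompactSupport ρ ∧ tsupport ρ ⊆ V ∧ (∀ x ∈ K, ρ x = 1) ∧
      ∀ x, 0 ≤ ρ x ∧ ρ x ≤ 1 := by
  obtain ⟨L, hL, hKL, hLV⟩ := exists_compact_between hK hV hKV
  obtain ⟨f, h1, h0, h01⟩ := exists_contMDiffMap_one_nhds_of_subset_interior (n := (⊤ : ℕ∞))
    𝓘(ℝ, En n) hK.isClosed hKL
  have hsub : tsupport (f : En n → ℝ) ⊆ L :=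
    closure_minimal (fun x hx => by by_contra h; exact hx (h0 x h)) hL.isClosed
  refine ⟨f, contMDiff_iff_contDiff.1 f.contMDiff, ?_, hsub.trans hLV, fun x hx => ?_,
    fun x => h01 x⟩
  · exact hL.of_isClosed_subset (isClosed_tsupport _) hsub
  · exact h1.self_of_nhdsSet x hx

theorem P_cont {k : En n → ℂ} (hk : ContDiff ℝ 1 k) (v : En n) :
    Continuous (fun x => P (fderiv ℝ k x) v) := by
  have h : ∀ w : En n, Continuous (fun x => fderiv ℝ k x w) := fun w =>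
    (hk.continuous_fderiv one_ne_zero).clm_apply continuous_const
  unfold P
  exact ((h v).sub (continuous_const.mul (h _))).div_const 2

/-- the shell inequality -/
theorem shell {V : Set (En n)} (hV : IsOpen V) {f : En n → ℂ} (hf : AnalyticOnNhd ℂ f V)
    (hcr : ∀ x ∈ V, ∃ j : Fin n, fderiv ℂ f x (Pi.single j 1) ≠ 0) {ρ : En n → ℝ}
    (hρ : ContDiff ℝ ∞ ρ) (hρc : HasCompactSupport ρ) (hρV : tsupport ρ ⊆ V)
    (hρ0 : ∀ x, 0 ≤ ρ x) :
    ∃ Λ : En n → ℝ, Continuous Λ ∧ HasCompactSupport Λ ∧ tsupport Λ ⊆ V ∧ (∀ x, 0 ≤ Λ x) ∧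
      ∀ s ε : ℝ, s ≤ 1 → 0 < ε →
        s * ∫ x, ρ x * G f s ε x ≤ ∫ x, (Λ x * ‖f x‖) * G f s ε x := by
  set D : Fin n → En n → ℂ := fun j x => fderiv ℂ f x (Pi.single j 1) with hD
  have hDan : ∀ j, AnalyticOnNhd ℂ (D j) V := fun j x hx =>
    ((ContinuousLinearMap.apply ℂ ℂ (Pi.single j 1 : En n)).analyticAt _).comp
      (hf.fderiv x hx)
  set N : En n → ℝ := fun x => ∑ i, ‖D i x‖ ^ 2 with hN
  have hNpos : ∀ x ∈ V, 0 < N x := by
    intro x hx
    obtain ⟨j, hj⟩ := hcr x hx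
    exact lt_of_lt_of_le (by have := norm_pos_iff.2 hj; positivity : 0 < ‖D j x‖ ^ 2)
      (Finset.single_le_sum (f := fun i => ‖D i x‖ ^ 2) (fun i _ => by positivity)
        (Finset.mem_univ j))
  have hDr : ∀ j, ∀ x ∈ V, ContDiffAt ℝ 1 (D j) x := fun j x hx =>
    ((hDan j x hx).contDiffAt (n := 1)).restrict_scalars ℝ
  have hNr : ∀ x ∈ V, ContDiffAt ℝ 1 N x := fun x hx =>
    ContDiffAt.sum fun i _ => (hDr i x hx).norm_sq ℝ
  set b : Fin n → En n → ℂ := fun j x => starRingEnd ℂ (D j x) * ((N x)⁻¹ : ℝ) with hb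
  have hbr : ∀ j, ∀ x ∈ V, ContDiffAt ℝ 1 (b j) x := by
    intro j x hx
    refine ContDiffAt.mul ?_ ?_
    · exact Complex.conjCLE.contDiff.contDiffAt.comp x (hDr j x hx)
    · exact Complex.ofRealCLM.contDiff.contDiffAt.comp x ((hNr x hx).inv (hNpos x hx).ne')
  have hbD : ∀ x ∈ V, ∑ j, b j x * D j x = 1 := by
    intro x hx
    have h1 : ∀ j, b j x * D j x = ((‖D j x‖ ^ 2 * (N x)⁻¹ : ℝ) : ℂ) := by
      intro j
      have : starRingEnd ℂ (D j x) * D j x = ((‖D j x‖ ^ 2 : ℝ) : ℂ) := by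
        rw [mul_comm, Complex.mul_conj, Complex.normSq_eq_norm_sq]
      rw [Complex.ofReal_mul, ← this, hb]; ring
    rw [Finset.sum_congr rfl fun j _ => h1 j, ← Complex.ofReal_sum, ← Finset.sum_mul]
    rw [show (∑ i, ‖D i x‖ ^ 2) = N x from rfl, mul_inv_cancel₀ (hNpos x hx).ne']
    simp
  -- the vector field `ρ b`
  set q : Fin n → En n → ℂ := fun j x => (ρ x : ℂ) * b j x with hq
  have hρC : ContDiff ℝ 1 (fun x => (ρ x : ℂ)) :=
    Complex.ofRealCLM.contDiff.comp (hρ.of_le (by exact_mod_cast le_top))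
  have hsuppC : tsupport (fun x => (ρ x : ℂ)) ⊆ tsupport ρ :=
    closure_mono fun x hx => by
      intro h; exact hx (by simp [h])
  have hqC : ∀ j, ContDiff ℝ 1 (q j) := fun j => contDiff_mul hρC fun x hx =>
    hbr j x (hρV (hsuppC hx))
  have hqs : ∀ j, tsupport (q j) ⊆ tsupport ρ := fun j =>
    (tsupport_mul_subset_left).trans hsuppC
  set L : En n → ℂ := fun x => ∑ j, P (fderiv ℝ (q j) x) (Pi.single j 1) with hL
  have hLcont : Continuous L := continuous_finsetSum _ fun j _ => P_cont (hqC j) _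
  have hLs : tsupport L ⊆ tsupport ρ := by
    refine closure_minimal (fun x hx => ?_) (isClosed_tsupport _)
    by_contra h
    apply hx
    refine Finset.sum_eq_zero fun j _ => ?_
    have h0 : q j =ᶠ[𝓝 x] 0 := notMem_tsupport_iff_eventuallyEq.1 fun h' => h (hqs j h')
    rw [h0.fderiv_eq]
    simp [P]
  have hΛs : tsupport (fun x => ‖L x‖) ⊆ tsupport ρ :=
    (closure_mono fun x hx => by
      intro h; exact hx (by simp [h])).trans hLs
  refine ⟨fun x => ‖L x‖, hLcont.norm, hρc.of_isClosed_subset (isClosed_tsupport _) hΛs,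
    hΛs.trans hρV, fun x => norm_nonneg _, fun s ε hs hε => ?_⟩
  set k : Fin n → En n → ℂ := fun j x => q j x * f x with hk
  have hfr : ∀ x ∈ V, ContDiffAt ℝ 1 f x := fun x hx =>
    ((hf x hx).contDiffAt (n := 1)).restrict_scalars ℝ
  have hkC : ∀ j, ContDiff ℝ 1 (k j) := fun j => contDiff_mul (hqC j) fun x hx =>
    hfr x (hρV (hqs j hx))
  have hks : ∀ j, tsupport (k j) ⊆ tsupport ρ := fun j => tsupport_mul_subset_left.trans (hqs j)
  have hres := gen hV hf (k := k) hkC (fun j => (hks j).trans hρV)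
    (fun j => hρc.of_isClosed_subset (isClosed_tsupport _) (hks j))
    (θ := ρ) (B := fun x => ‖L x‖ * ‖f x‖) hρ.continuous hρ0 hρc hρV
    (continuous_mul_of hV hLcont.norm (hΛs.trans hρV) hf.continuousOn.norm)
    (hρc.of_isClosed_subset (isClosed_tsupport _) (tsupport_mul_subset_left.trans hΛs))
    ((tsupport_mul_subset_left.trans hΛs).trans hρV)
    (fun x hx => ?_) (c := 0) (fun x hx => ?_) (s := s) (ε := ε) hs hε
  · simpa using hres
  · have : ∀ j, k j x * fderiv ℂ f x (Pi.single j 1) = (ρ x * f x) * (b j x * D j x) := by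
      intro j; simp only [hk, hq, hD]; ring
    rw [Finset.sum_congr rfl fun j _ => this j, ← Finset.mul_sum, hbD x hx, mul_one]
  · have hj : ∀ j, P (fderiv ℝ (k j) x) (Pi.single j 1) =
        (ρ x : ℂ) * (b j x * D j x) + f x * P (fderiv ℝ (q j) x) (Pi.single j 1) := by
      intro j
      have hd : HasFDerivAt (q j) (fderiv ℝ (q j) x) x :=
        ((hqC j).differentiable one_ne_zero x).hasFDerivAt
      have hf' : HasFDerivAt f ((fderiv ℂ f x).restrictScalars ℝ) x :=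
        (hf x hx).differentiableAt.hasFDerivAt.restrictScalars ℝ
      rw [show fderiv ℝ (k j) x = _ from (hd.mul hf').fderiv, P_add, P_smul, P_smul, P_restrict]
      simp only [hq, hD]; ring
    rw [Finset.sum_congr rfl fun j _ => hj j, Finset.sum_add_distrib, ← Finset.mul_sum,
      ← Finset.mul_sum, hbD x hx, mul_one, Complex.add_re, Complex.ofReal_re]
    have h3 : -(‖L x‖ * ‖f x‖) ≤ (f x * L x).re := by
      have := Complex.abs_re_le_norm (f x * L x)
      rw [norm_mul] at this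
      have := neg_abs_le (f x * L x).re
      linarith
    have h4 : (f x * ∑ j, P (fderiv ℝ (q j) x) (Pi.single j 1)).re = (f x * L x).re := rfl
    rw [h4]
    linarith

/-- the shell bound -/
theorem shell_bound {V : Set (En n)} (hV : IsOpen V) {f : En n → ℂ} (hf : AnalyticOnNhd ℂ f V)
    (hcr : ∀ x ∈ V, ∃ j : Fin n, fderiv ℂ f x (Pi.single j 1) ≠ 0) {B : En n → ℝ}
    (hB : Continuous B) (hBc : HasCompactSupport B) (hBV : tsupport B ⊆ V) (hB0 : ∀ x, 0 ≤ B x) :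
    ∃ C : ℝ, 0 ≤ C ∧ ∀ s ε : ℝ, 0 < s → s ≤ 1 / 2 → 0 < ε → ε ≤ 1 →
      s * ∫ x, B x * G f s ε x ≤ C := by
  -- integrability
  have hint : ∀ (θ : En n → ℝ), Continuous θ → HasCompactSupport θ → tsupport θ ⊆ V →
      ∀ s ε : ℝ, 0 < ε → Integrable (fun x => θ x * G f s ε x) := fun θ h1 h2 h3 s ε hε =>
    (continuous_mul_of hV h1 h3 (continuousOn_G hf s hε)).integrable_of_hasCompactSupport
      h2.mul_right
  -- domination by a cut-off
  have dom : ∀ (θ : En n → ℝ), Continuous θ → HasCompactSupport θ → tsupport θ ⊆ V →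
      (∀ x, 0 ≤ θ x) → ∃ (ρ : En n → ℝ) (C : ℝ), 0 ≤ C ∧ ContDiff ℝ ∞ ρ ∧ HasCompactSupport ρ ∧
        tsupport ρ ⊆ V ∧ (∀ x, 0 ≤ ρ x) ∧ ∀ x, θ x ≤ C * ρ x := by
    intro θ h1 h2 h3 h4
    obtain ⟨ρ, hρ, hρc, hρV, hρ1, hρ01⟩ := cutoff h2 hV h3
    obtain ⟨C, hC⟩ := h1.bounded_above_of_compact_support h2
    refine ⟨ρ, C, (norm_nonneg _).trans (hC 0), hρ, hρc, hρV, fun x => (hρ01 x).1, fun x => ?_⟩
    by_cases hx : x ∈ tsupport θ
    · rw [hρ1 x hx, mul_one]; exact (le_abs_self _).trans (hC x)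
    · rw [image_eq_zero_of_notMem_tsupport hx]
      exact mul_nonneg ((norm_nonneg _).trans (hC 0)) (hρ01 x).1
  obtain ⟨ρ, C₁, hC₁, hρ, hρc, hρV, hρ0, hBρ⟩ := dom B hB hBc hBV hB0
  obtain ⟨Λ, hΛ, hΛc, hΛV, hΛ0, hΛi⟩ := shell hV hf hcr hρ hρc hρV hρ0
  obtain ⟨ρ', C₂, hC₂, hρ', hρc', hρV', hρ0', hΛρ⟩ := dom Λ hΛ hΛc hΛV hΛ0
  obtain ⟨Λ', hΛ', hΛc', hΛV', hΛ0', hΛi'⟩ := shell hV hf hcr hρ' hρc' hρV' hρ0'
  -- a bound of `f` on the support of `Λ`
  obtain ⟨M, hM⟩ : ∃ M : ℝ, ∀ x ∈ tsupport Λ, ‖f x‖ ≤ M :=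
    hΛc.isCompact.exists_bound_of_continuousOn (hf.continuousOn.mono hΛV)
  set I' : ℝ := ∫ x, Λ' x with hI'
  have hI'0 : 0 ≤ I' := integral_nonneg hΛ0'
  refine ⟨C₁ * ((M ^ 2 + 1) * (C₂ * (2 * I'))), by positivity, fun s ε hs hs2 hε hε1 => ?_⟩
  have e1 : ∫ x, B x * G f s ε x ≤ C₁ * ∫ x, ρ x * G f s ε x := by
    rw [← integral_const_mul]
    refine integral_mono (hint B hB hBc hBV s ε hε) ((hint ρ hρ.continuous hρc hρV s ε hε).const_mul _)
      fun x => ?_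
    have := mul_le_mul_of_nonneg_right (hBρ x) (G_nonneg f s ε x)
    simpa [mul_assoc] using this
  have e2 := hΛi s ε (by linarith) hε
  have hΛf : Continuous (fun x => Λ x * ‖f x‖) := continuous_mul_of hV hΛ hΛV hf.continuousOn.norm
  have hΛfs : tsupport (fun x => Λ x * ‖f x‖) ⊆ tsupport Λ := tsupport_mul_subset_left
  have hΛ'f : Continuous (fun x => Λ' x * ‖f x‖) :=
    continuous_mul_of hV hΛ' hΛV' hf.continuousOn.norm
  have hΛ'fs : tsupport (fun x => Λ' x * ‖f x‖) ⊆ tsupport Λ' := tsupport_mul_subset_left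
  have e3 : ∫ x, (Λ x * ‖f x‖) * G f s ε x ≤ (M ^ 2 + 1) * ∫ x, Λ x * G f (1 / 2) ε x := by
    rw [← integral_const_mul]
    refine integral_mono (hint _ hΛf (hΛc.mul_right) (hΛfs.trans hΛV) s ε hε)
      ((hint Λ hΛ hΛc hΛV (1 / 2) ε hε).const_mul _) fun x => ?_
    by_cases hx : x ∈ tsupport Λ
    · have hpos : (0 : ℝ) < ‖f x‖ ^ 2 + ε ^ 2 := by positivity
      have h1 : ‖f x‖ ≤ (‖f x‖ ^ 2 + ε ^ 2) ^ (1 / 2 : ℝ) := by
        rw [← Real.sqrt_eq_rpow]
        exact Real.le_sqrt_of_sq_le (by nlinarith [sq_nonneg ε])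
      have h2 : (‖f x‖ ^ 2 + ε ^ 2) ^ s ≤ M ^ 2 + 1 := by
        have hb : ‖f x‖ ^ 2 + ε ^ 2 ≤ M ^ 2 + 1 := by
          have := hM x hx
          have := norm_nonneg (f x)
          nlinarith
        calc (‖f x‖ ^ 2 + ε ^ 2) ^ s ≤ (M ^ 2 + 1) ^ s :=
              Real.rpow_le_rpow hpos.le hb hs.le
          _ ≤ (M ^ 2 + 1) ^ (1 : ℝ) :=
              Real.rpow_le_rpow_of_exponent_le (by nlinarith [sq_nonneg M]) (by linarith)
          _ = _ := Real.rpow_one _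
      have h3 : ‖f x‖ * G f s ε x ≤ (M ^ 2 + 1) * G f (1 / 2) ε x := by
        have hG : G f s ε x = (‖f x‖ ^ 2 + ε ^ 2) ^ s * (‖f x‖ ^ 2 + ε ^ 2) ^ (-1 / 2 : ℝ) *
            (‖f x‖ ^ 2 + ε ^ 2) ^ (-1 / 2 : ℝ) := by
          unfold G
          rw [← Real.rpow_add hpos, ← Real.rpow_add hpos]
          congr 1; ring
        have hG2 : G f (1 / 2) ε x = (‖f x‖ ^ 2 + ε ^ 2) ^ (-1 / 2 : ℝ) := by
          unfold G; congr 1; ring
        have hi : (‖f x‖ ^ 2 + ε ^ 2) ^ (1 / 2 : ℝ) * (‖f x‖ ^ 2 + ε ^ 2) ^ (-1 / 2 : ℝ) = 1 := by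
          rw [← Real.rpow_add hpos]
          norm_num
        have hp1 : 0 ≤ (‖f x‖ ^ 2 + ε ^ 2) ^ (-1 / 2 : ℝ) := by positivity
        have hp2 : 0 ≤ (‖f x‖ ^ 2 + ε ^ 2) ^ s := by positivity
        rw [hG, hG2]
        calc ‖f x‖ * ((‖f x‖ ^ 2 + ε ^ 2) ^ s * (‖f x‖ ^ 2 + ε ^ 2) ^ (-1 / 2 : ℝ) *
              (‖f x‖ ^ 2 + ε ^ 2) ^ (-1 / 2 : ℝ))
            ≤ (‖f x‖ ^ 2 + ε ^ 2) ^ (1 / 2 : ℝ) * ((‖f x‖ ^ 2 + ε ^ 2) ^ s *
              (‖f x‖ ^ 2 + ε ^ 2) ^ (-1 / 2 : ℝ) * (‖f x‖ ^ 2 + ε ^ 2) ^ (-1 / 2 : ℝ)) :=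
              mul_le_mul_of_nonneg_right h1 (by positivity)
          _ = (‖f x‖ ^ 2 + ε ^ 2) ^ s * (‖f x‖ ^ 2 + ε ^ 2) ^ (-1 / 2 : ℝ) *
              ((‖f x‖ ^ 2 + ε ^ 2) ^ (1 / 2 : ℝ) * (‖f x‖ ^ 2 + ε ^ 2) ^ (-1 / 2 : ℝ)) := by ring
          _ = (‖f x‖ ^ 2 + ε ^ 2) ^ s * (‖f x‖ ^ 2 + ε ^ 2) ^ (-1 / 2 : ℝ) := by
              rw [hi, mul_one]
          _ ≤ _ := mul_le_mul_of_nonneg_right h2 hp1
      have := mul_le_mul_of_nonneg_left h3 (hΛ0 x)
      calc Λ x * ‖f x‖ * G f s ε x = Λ x * (‖f x‖ * G f s ε x) := by ring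
        _ ≤ Λ x * ((M ^ 2 + 1) * G f (1 / 2) ε x) := this
        _ = _ := by ring
    · simp [image_eq_zero_of_notMem_tsupport hx]
  have e4 : ∫ x, Λ x * G f (1 / 2) ε x ≤ C₂ * ∫ x, ρ' x * G f (1 / 2) ε x := by
    rw [← integral_const_mul]
    refine integral_mono (hint Λ hΛ hΛc hΛV _ ε hε)
      ((hint ρ' hρ'.continuous hρc' hρV' _ ε hε).const_mul _) fun x => ?_
    have := mul_le_mul_of_nonneg_right (hΛρ x) (G_nonneg f (1 / 2) ε x)
    simpa [mul_assoc] using this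
  have e5 := hΛi' (1 / 2) ε (by norm_num) hε
  have e6 : ∫ x, (Λ' x * ‖f x‖) * G f (1 / 2) ε x ≤ I' := by
    refine integral_mono (hint _ hΛ'f (hΛc'.mul_right) (hΛ'fs.trans hΛV') _ ε hε)
      (hΛ'.integrable_of_hasCompactSupport hΛc') fun x => ?_
    have hpos : (0 : ℝ) < ‖f x‖ ^ 2 + ε ^ 2 := by positivity
    have h1 : ‖f x‖ ≤ (‖f x‖ ^ 2 + ε ^ 2) ^ (1 / 2 : ℝ) := by
      rw [← Real.sqrt_eq_rpow]
      exact Real.le_sqrt_of_sq_le (by nlinarith [sq_nonneg ε])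
    have hi : (‖f x‖ ^ 2 + ε ^ 2) ^ (1 / 2 : ℝ) * G f (1 / 2) ε x = 1 := by
      unfold G
      rw [← Real.rpow_add hpos]
      norm_num
    have h2 : ‖f x‖ * G f (1 / 2) ε x ≤ 1 :=
      (mul_le_mul_of_nonneg_right h1 (G_nonneg f (1 / 2) ε x)).trans hi.le
    calc Λ' x * ‖f x‖ * G f (1 / 2) ε x = Λ' x * (‖f x‖ * G f (1 / 2) ε x) := by ring
      _ ≤ Λ' x * 1 := mul_le_mul_of_nonneg_left h2 (hΛ0' x)
      _ = _ := mul_one _
  have e7 : ∫ x, ρ' x * G f (1 / 2) ε x ≤ 2 * I' := by linarith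
  calc s * ∫ x, B x * G f s ε x ≤ s * (C₁ * ∫ x, ρ x * G f s ε x) :=
        mul_le_mul_of_nonneg_left e1 hs.le
    _ = C₁ * (s * ∫ x, ρ x * G f s ε x) := by ring
    _ ≤ C₁ * ∫ x, (Λ x * ‖f x‖) * G f s ε x := mul_le_mul_of_nonneg_left e2 hC₁
    _ ≤ C₁ * ((M ^ 2 + 1) * ∫ x, Λ x * G f (1 / 2) ε x) := mul_le_mul_of_nonneg_left e3 hC₁
    _ ≤ C₁ * ((M ^ 2 + 1) * (C₂ * ∫ x, ρ' x * G f (1 / 2) ε x)) :=
        mul_le_mul_of_nonneg_left (mul_le_mul_of_nonneg_left e4 (by positivity)) hC₁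
    _ ≤ C₁ * ((M ^ 2 + 1) * (C₂ * (2 * I'))) :=
        mul_le_mul_of_nonneg_left (mul_le_mul_of_nonneg_left
          (mul_le_mul_of_nonneg_left e7 hC₂) (by positivity)) hC₁

theorem continuous_mulC {k g : En n → ℂ} {U : Set (En n)} (hU : IsOpen U) (hk : Continuous k)
    (hkU : tsupport k ⊆ U) (hg : ContinuousOn g U) : Continuous (fun x => k x * g x) := by
  rw [continuous_iff_continuousAt]
  intro x
  by_cases hx : x ∈ tsupport k
  · exact hk.continuousAt.mul (hg.continuousAt (hU.mem_nhds (hkU hx)))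
  · have h0 : k =ᶠ[𝓝 x] 0 := notMem_tsupport_iff_eventuallyEq.1 hx
    have h1 : (fun x => k x * g x) =ᶠ[𝓝 x] fun _ => 0 := by
      filter_upwards [h0] with y hy
      simp [hy]
    exact continuousAt_const.congr h1.symm

/-- K5': the tube bound -/
theorem tube {f : En n → ℂ} {r : ℝ} (hr : 0 < r) (hf : AnalyticOnNhd ℂ f (Metric.ball 0 r))
    (hcr : ∀ x ∈ Metric.ball (0 : En n) r, x ≠ 0 →
      ∃ j : Fin n, fderiv ℂ f x (Pi.single j 1) ≠ 0)
    {a : Fin n → En n → ℂ} (ha : ∀ j, AnalyticOnNhd ℂ (a j) (Metric.ball 0 r))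
    (hχ : ∀ x ∈ Metric.ball (0 : En n) r, ∑ j, a j x * fderiv ℂ f x (Pi.single j 1) = f x)
    {c : ℝ} (hc : 0 < c)
    (hdiv : ∀ x ∈ Metric.ball (0 : En n) r,
      1 + c ≤ (∑ j, fderiv ℂ (a j) x (Pi.single j 1)).re) :
    ∃ C : ℝ, 0 ≤ C ∧ ∀ s ε : ℝ, 0 < s → s ≤ 1 / 2 → 0 < ε → ε ≤ 1 →
      ∫⁻ x in Metric.ball (0 : En n) (r / 2), ENNReal.ofReal (s * G f s ε x) ≤
        ENNReal.ofReal C := by
  set U : Set (En n) := Metric.ball 0 r with hU
  have hUo : IsOpen U := Metric.isOpen_ball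
  obtain ⟨ψ, hψ, hψc, hψU, hψ1, hψ01⟩ := cutoff (isCompact_closedBall (0 : En n) (r / 2)) hUo
    (Metric.closedBall_subset_ball (by linarith))
  have hψC : ContDiff ℝ 1 (fun x => (ψ x : ℂ)) :=
    Complex.ofRealCLM.contDiff.comp (hψ.of_le (by exact_mod_cast le_top))
  have hsuppC : tsupport (fun x => (ψ x : ℂ)) ⊆ tsupport ψ :=
    closure_mono fun x hx => by
      intro h; exact hx (by simp [h])
  set p : Fin n → En n → ℂ := fun j x => P (fderiv ℝ (fun x => (ψ x : ℂ)) x) (Pi.single j 1)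
    with hp
  have hpc : ∀ j, Continuous (p j) := fun j => P_cont hψC _
  -- the support of `p`
  set S : Set (En n) := tsupport ψ \ Metric.ball 0 (r / 2) with hS
  have hSc : IsClosed S := (isClosed_tsupport _).sdiff Metric.isOpen_ball
  have hps : ∀ j, Function.support (p j) ⊆ S := by
    intro j x hx
    refine ⟨?_, ?_⟩
    · by_contra h
      apply hx
      have h0 : (fun x => (ψ x : ℂ)) =ᶠ[𝓝 x] 0 :=
        notMem_tsupport_iff_eventuallyEq.1 fun h' => h (hsuppC h')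
      simp only [hp]
      rw [h0.fderiv_eq]
      simp [P]
    · intro h
      apply hx
      have h0 : (fun x => (ψ x : ℂ)) =ᶠ[𝓝 x] fun _ => 1 := by
        filter_upwards [Metric.isOpen_ball.mem_nhds h] with y hy
        rw [hψ1 y (Metric.ball_subset_closedBall hy)]
        simp
      simp only [hp]
      rw [h0.fderiv_eq]
      simp [P]
  have hpts : ∀ j, tsupport (p j) ⊆ S := fun j => closure_minimal (hps j) hSc
  set W : En n → ℂ := fun x => ∑ j, p j x * a j x with hW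
  have hWc : Continuous W := continuous_finsetSum _ fun j _ =>
    continuous_mulC hUo (hpc j) ((hpts j).trans (sdiff_subset.trans hψU)) (ha j).continuousOn
  have hWs : tsupport (fun x => ‖W x‖) ⊆ S := by
    refine closure_minimal (fun x hx => ?_) hSc
    by_contra h
    apply hx
    have : ∀ j, p j x = 0 := fun j => by
      by_contra h'; exact h (hps j h')
    simp [hW, this]
  have hBc : HasCompactSupport (fun x => ‖W x‖) :=
    hψc.of_isClosed_subset (isClosed_tsupport _) (hWs.trans sdiff_subset)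
  -- the punctured ball
  set V : Set (En n) := U \ {0} with hV
  have hVo : IsOpen V := hUo.sdiff isClosed_singleton
  have hSV : S ⊆ V := fun x hx => ⟨hψU hx.1, fun h => hx.2 (by
    rw [mem_singleton_iff.1 h]; exact Metric.mem_ball_self (by linarith))⟩
  obtain ⟨C, hC0, hC⟩ := shell_bound hVo (hf.mono sdiff_subset)
    (fun x hx => hcr x hx.1 hx.2) hWc.norm hBc (hWs.trans hSV) (fun x => norm_nonneg _)
  refine ⟨C / c, by positivity, fun s ε hs hs2 hε hε1 => ?_⟩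
  -- the main inequality
  set k : Fin n → En n → ℂ := fun j x => (ψ x : ℂ) * a j x with hk
  have har : ∀ j, ∀ x ∈ U, ContDiffAt ℝ 1 (a j) x := fun j x hx =>
    ((ha j x hx).contDiffAt (n := 1)).restrict_scalars ℝ
  have hkC : ∀ j, ContDiff ℝ 1 (k j) := fun j => contDiff_mul hψC fun x hx =>
    har j x (hψU (hsuppC hx))
  have hks : ∀ j, tsupport (k j) ⊆ tsupport ψ := fun j => tsupport_mul_subset_left.trans hsuppC
  have hmain := gen hUo hf (k := k) hkC (fun j => (hks j).trans hψU)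
    (fun j => hψc.of_isClosed_subset (isClosed_tsupport _) (hks j))
    (θ := ψ) (B := fun x => ‖W x‖) hψ.continuous (fun x => (hψ01 x).1) hψc hψU
    hWc.norm hBc (hWs.trans (sdiff_subset.trans hψU))
    (fun x hx => ?_) (c := c) (fun x hx => ?_) (s := s) (ε := ε) (by linarith) hε
  · have hI0 : 0 ≤ ∫ x, ψ x * G f s ε x :=
      integral_nonneg fun x => mul_nonneg (hψ01 x).1 (G_nonneg _ _ _ _)
    have h1 := hC s ε hs hs2 hε hε1
    have h2 : c * (s * ∫ x, ψ x * G f s ε x) ≤ C := by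
      have h3 : c * ∫ x, ψ x * G f s ε x ≤ ∫ x, ‖W x‖ * G f s ε x := by
        have : 0 ≤ s * ∫ x, ψ x * G f s ε x := mul_nonneg hs.le hI0
        linarith [hmain, add_mul c s (∫ x, ψ x * G f s ε x)]
      have h4 := mul_le_mul_of_nonneg_left h3 hs.le
      linarith
    have h5 : s * ∫ x, ψ x * G f s ε x ≤ C / c := by
      rw [le_div_iff₀ hc]; linarith
    have hψi : Integrable (fun x => ψ x * G f s ε x) :=
      (continuous_mul_of hUo hψ.continuous hψU
        (continuousOn_G hf s hε)).integrable_of_hasCompactSupport hψc.mul_right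
    calc ∫⁻ x in Metric.ball (0 : En n) (r / 2), ENNReal.ofReal (s * G f s ε x)
        ≤ ∫⁻ x in Metric.ball (0 : En n) (r / 2),
            ENNReal.ofReal (s * (ψ x * G f s ε x)) := by
          refine lintegral_mono_ae ?_
          filter_upwards [ae_restrict_mem Metric.isOpen_ball.measurableSet] with x hx
          rw [hψ1 x (Metric.ball_subset_closedBall hx), one_mul]
      _ ≤ ∫⁻ x, ENNReal.ofReal (s * (ψ x * G f s ε x)) := setLIntegral_le_lintegral _ _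
      _ = ENNReal.ofReal (∫ x, s * (ψ x * G f s ε x)) := by
          rw [ofReal_integral_eq_lintegral_ofReal (hψi.const_mul s)]
          exact Eventually.of_forall fun x =>
            mul_nonneg hs.le (mul_nonneg (hψ01 x).1 (G_nonneg _ _ _ _))
      _ ≤ ENNReal.ofReal (C / c) := by
          rw [integral_const_mul]
          exact ENNReal.ofReal_le_ofReal h5
  · have : ∀ j, k j x * fderiv ℂ f x (Pi.single j 1) =
        ψ x * (a j x * fderiv ℂ f x (Pi.single j 1)) := by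
      intro j; simp only [hk]; ring
    rw [Finset.sum_congr rfl fun j _ => this j, ← Finset.mul_sum, hχ x hx]
  · have hj : ∀ j, P (fderiv ℝ (k j) x) (Pi.single j 1) =
        (ψ x : ℂ) * fderiv ℂ (a j) x (Pi.single j 1) + p j x * a j x := by
      intro j
      have hd : HasFDerivAt (fun x => (ψ x : ℂ)) (fderiv ℝ (fun x => (ψ x : ℂ)) x) x :=
        (hψC.differentiable one_ne_zero x).hasFDerivAt
      have hf' : HasFDerivAt (a j) ((fderiv ℂ (a j) x).restrictScalars ℝ) x :=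
        (ha j x hx).differentiableAt.hasFDerivAt.restrictScalars ℝ
      rw [show fderiv ℝ (k j) x = _ from (hd.mul hf').fderiv, P_add, P_smul, P_smul, P_restrict]
      simp only [hp]; ring
    rw [Finset.sum_congr rfl fun j _ => hj j, Finset.sum_add_distrib, ← Finset.mul_sum,
      Complex.add_re, Complex.re_ofReal_mul]
    have h3 : -‖W x‖ ≤ (W x).re := by
      have := Complex.abs_re_le_norm (W x)
      have := neg_abs_le (W x).re
      linarith
    have h4 : (∑ j, p j x * a j x).re = (W x).re := rfl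
    have h5 := mul_le_mul_of_nonneg_left (hdiv x hx) (hψ01 x).1
    rw [h4]
    linarith

end Crest.Agent.R257.KlB_540
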