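import Crest.Agent.R257.KlB_540

/-!
R257 / KlC_540: K5' of the KLT leaf, part 3 (Fatou on the discs in the special direction).
`sheet_le`: a bound of `s ∫_{ball} (|f|²+ε²)^(s-1)` uniform in `s, ε` bounds the sheet integral of
`|η|²`.
-/

set_option autoImplicit false

open Topology Filter MeasureTheory Set
open scoped ENNReal ContDiff Real

noncomputable section

namespace Crest.Agent.R257.KlC_540

open Crest.Agent.R257.KlA_540

theorem disc_int {A δ ε s : ℝ} (hA : 0 < A) (hδ : 0 < δ) (hε : 0 < ε) (hs : 0 < s) :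
    ∫⁻ w in Metric.ball (0 : ℂ) δ, ENNReal.ofReal (s * (A ^ 2 * ‖w‖ ^ 2 + ε ^ 2) ^ (s - 1)) =
      ENNReal.ofReal (π / A ^ 2 * ((A ^ 2 * δ ^ 2 + ε ^ 2) ^ s - (ε ^ 2) ^ s)) := by
  set g : ℝ → ℝ := fun y => s * (A ^ 2 * y ^ 2 + ε ^ 2) ^ (s - 1) with hg
  have hpos : ∀ y : ℝ, 0 < A ^ 2 * y ^ 2 + ε ^ 2 := fun y => by positivity
  have hgc : Continuous g := continuous_const.mul
    (Continuous.rpow_const (by fun_prop) fun y => Or.inl (hpos y).ne')
  have hg0 : ∀ y, 0 ≤ g y := fun y => by have := hpos y; simp only [hg]; positivity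
  have hint : IntegrableOn (fun w : ℂ => g ‖w‖) (Metric.ball (0 : ℂ) δ) := by
    refine IntegrableOn.mono_set ?_ Metric.ball_subset_closedBall
    exact (hgc.comp continuous_norm).continuousOn.integrableOn_compact
      (isCompact_closedBall (0 : ℂ) δ)
  have h1 : ∫⁻ w in Metric.ball (0 : ℂ) δ, ENNReal.ofReal (g ‖w‖) =
      ENNReal.ofReal (∫ w in Metric.ball (0 : ℂ) δ, g ‖w‖) :=
    (ofReal_integral_eq_lintegral_ofReal hint (Eventually.of_forall fun w => hg0 _)).symm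
  rw [show (fun w : ℂ => ENNReal.ofReal (s * (A ^ 2 * ‖w‖ ^ 2 + ε ^ 2) ^ (s - 1))) =
    fun w : ℂ => ENNReal.ofReal (g ‖w‖) from rfl, h1]
  congr 1
  have h2 : ∫ w in Metric.ball (0 : ℂ) δ, g ‖w‖ = ∫ w : ℂ, (Iio δ).indicator g ‖w‖ := by
    rw [← integral_indicator Metric.isOpen_ball.measurableSet]
    congr 1
    funext w
    by_cases hw : ‖w‖ < δ
    · rw [indicator_of_mem (by simpa using hw), indicator_of_mem (by simpa using hw)]
    · rw [indicator_of_notMem (by simpa using hw), indicator_of_notMem (by simpa using hw)]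
  have h3 := integral_fun_norm_addHaar (volume : Measure ℂ) ((Iio δ).indicator g)
  rw [h2, h3]
  have h4 : (volume : Measure ℂ).real (Metric.ball 0 1) = π := by
    rw [Measure.real, Complex.volume_ball]
    simp
  have h5 : ∫ y in Ioi (0 : ℝ), y ^ (Module.finrank ℝ ℂ - 1) • (Iio δ).indicator g y =
      ∫ y in (0 : ℝ)..δ, y * g y := by
    rw [intervalIntegral.integral_of_le hδ.le, integral_Ioc_eq_integral_Ioo,
      ← integral_indicator measurableSet_Ioi, ← integral_indicator measurableSet_Ioo]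
    congr 1
    funext y
    simp only [Complex.finrank_real_complex, indicator, mem_Ioi, mem_Iio, mem_Ioo, smul_eq_mul]
    by_cases h0 : 0 < y <;> by_cases h1 : y < δ <;> simp [h0, h1]
  have h6 : ∫ y in (0 : ℝ)..δ, y * g y =
      (A ^ 2 * δ ^ 2 + ε ^ 2) ^ s / (2 * A ^ 2) - (A ^ 2 * 0 ^ 2 + ε ^ 2) ^ s / (2 * A ^ 2) := by
    refine intervalIntegral.integral_eq_sub_of_hasDerivAt
      (f := fun y => (A ^ 2 * y ^ 2 + ε ^ 2) ^ s / (2 * A ^ 2)) (fun y _ => ?_)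
      ((continuous_id.mul hgc).intervalIntegrable _ _)
    have h7 : HasDerivAt (fun y : ℝ => A ^ 2 * y ^ 2 + ε ^ 2) (A ^ 2 * (2 * y)) y := by
      simpa using ((hasDerivAt_pow 2 y).const_mul (A ^ 2)).add_const (ε ^ 2)
    have h8 := (h7.rpow_const (p := s) (Or.inl (hpos y).ne')).div_const (2 * A ^ 2)
    refine h8.congr_deriv ?_
    change _ = y * (s * (A ^ 2 * y ^ 2 + ε ^ 2) ^ (s - 1))
    field_simp
  rw [h5, h6, h4, Complex.finrank_real_complex]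
  simp only [nsmul_eq_mul, smul_eq_mul]
  field_simp
  norm_num

/-- the sequences `s_m → 0`, `ε_m → 0` very fast -/
def sm (m : ℕ) : ℝ := 1 / ((m : ℝ) + 2)

def em (m : ℕ) : ℝ := Real.exp (-((m : ℝ) + 2) ^ 2)

theorem sm_pos (m : ℕ) : 0 < sm m := by unfold sm; positivity

theorem sm_le (m : ℕ) : sm m ≤ 1 / 2 := by
  unfold sm
  apply one_div_le_one_div_of_le (by norm_num)
  have : (0 : ℝ) ≤ m := Nat.cast_nonneg m
  linarith

theorem em_pos (m : ℕ) : 0 < em m := Real.exp_pos _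

theorem em_le (m : ℕ) : em m ≤ 1 := Real.exp_le_one_iff.2 (by nlinarith [sq_nonneg ((m : ℝ) + 2)])

theorem tendsto_sm : Tendsto sm atTop (𝓝 0) := by
  have h : Tendsto (fun m : ℕ => (m : ℝ) + 2) atTop atTop :=
    tendsto_atTop_add_const_right _ _ tendsto_natCast_atTop_atTop
  exact tendsto_const_nhds.div_atTop h

theorem em_pow (m : ℕ) : (em m ^ 2) ^ (sm m) = Real.exp (-2 * ((m : ℝ) + 2)) := by
  have h0 : (0 : ℝ) ≤ m := Nat.cast_nonneg m
  unfold em sm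
  rw [← Real.exp_nat_mul, ← Real.exp_mul]
  congr 1
  push_cast
  field_simp

theorem tendsto_em_pow : Tendsto (fun m => (em m ^ 2) ^ (sm m)) atTop (𝓝 0) := by
  simp only [em_pow]
  have h : Tendsto (fun m : ℕ => (m : ℝ) + 2) atTop atTop :=
    tendsto_atTop_add_const_right _ _ tendsto_natCast_atTop_atTop
  exact Real.tendsto_exp_atBot.comp (h.const_mul_atTop_of_neg (by norm_num))

/-- a lower bound for the disc integrals -/
def lb (A δ : ℝ) (m : ℕ) : ℝ := π / A ^ 2 * ((A ^ 2 * δ ^ 2) ^ (sm m) - (em m ^ 2) ^ (sm m))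

theorem tendsto_lb {A δ : ℝ} (hA : 0 < A) (hδ : 0 < δ) :
    Tendsto (lb A δ) atTop (𝓝 (π / A ^ 2)) := by
  have h1 : Tendsto (fun m => (A ^ 2 * δ ^ 2) ^ (sm m)) atTop (𝓝 ((A ^ 2 * δ ^ 2) ^ (0 : ℝ))) :=
    (Real.continuousAt_const_rpow (by positivity : A ^ 2 * δ ^ 2 ≠ 0)).tendsto.comp tendsto_sm
  rw [Real.rpow_zero] at h1
  have h2 := (h1.sub tendsto_em_pow).const_mul (π / A ^ 2)
  rw [sub_zero, mul_one] at h2
  exact h2

theorem lb_le {A δ : ℝ} (hA : 0 < A) (hδ : 0 < δ) (m : ℕ) :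
    ENNReal.ofReal (lb A δ m) ≤
      ∫⁻ w in Metric.ball (0 : ℂ) δ,
        ENNReal.ofReal (sm m * (A ^ 2 * ‖w‖ ^ 2 + em m ^ 2) ^ (sm m - 1)) := by
  rw [disc_int hA hδ (em_pos m) (sm_pos m)]
  apply ENNReal.ofReal_le_ofReal
  unfold lb
  have h1 : (A ^ 2 * δ ^ 2) ^ (sm m) ≤ (A ^ 2 * δ ^ 2 + em m ^ 2) ^ (sm m) :=
    Real.rpow_le_rpow (by positivity) (by nlinarith [sq_nonneg (em m)]) (sm_pos m).le
  exact mul_le_mul_of_nonneg_left (by linarith) (by positivity)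

/-- near a simple zero -/
theorem near_zero {h : ℂ → ℂ} {ξ d : ℂ} (hd : HasDerivAt h d ξ) (h0 : h ξ = 0) {A : ℝ}
    (hA : ‖d‖ < A) {D : Set ℂ} (hD : D ∈ 𝓝 ξ) {δ₀ : ℝ} (hδ₀ : 0 < δ₀) :
    ∃ δ : ℝ, 0 < δ ∧ δ ≤ δ₀ ∧ Metric.ball ξ δ ⊆ D ∧ ∀ m : ℕ, ENNReal.ofReal (lb A δ m) ≤
      ∫⁻ z in Metric.ball ξ δ,
        ENNReal.ofReal (sm m * (‖h z‖ ^ 2 + em m ^ 2) ^ (sm m - 1)) := by
  have hA0 : 0 < A := (norm_nonneg _).trans_lt hA
  have h1 : ∀ᶠ z in 𝓝 ξ, ‖h z‖ ≤ A * ‖z - ξ‖ := by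
    have h2 := hd.isLittleO.def (c := A - ‖d‖) (by linarith)
    filter_upwards [h2] with z hz
    rw [h0, sub_zero, smul_eq_mul] at hz
    calc ‖h z‖ = ‖(h z - (z - ξ) * d) + (z - ξ) * d‖ := by ring_nf
      _ ≤ ‖h z - (z - ξ) * d‖ + ‖(z - ξ) * d‖ := norm_add_le _ _
      _ ≤ (A - ‖d‖) * ‖z - ξ‖ + ‖z - ξ‖ * ‖d‖ := by
          rw [norm_mul]; exact add_le_add hz le_rfl
      _ = A * ‖z - ξ‖ := by ring
  obtain ⟨δ₁, hδ₁, hball⟩ := Metric.eventually_nhds_iff_ball.1 (h1.and hD)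
  refine ⟨min δ₀ δ₁, lt_min hδ₀ hδ₁, min_le_left _ _, fun z hz => ?_, fun m => ?_⟩
  · exact (hball z (Metric.ball_subset_ball (min_le_right _ _) hz)).2
  · set δ := min δ₀ δ₁ with hδ
    have hδ0 : 0 < δ := lt_min hδ₀ hδ₁
    refine (lb_le hA0 hδ0 m).trans ?_
    have e1 : ∫⁻ w in Metric.ball (0 : ℂ) δ,
        ENNReal.ofReal (sm m * (A ^ 2 * ‖w‖ ^ 2 + em m ^ 2) ^ (sm m - 1)) =
        ∫⁻ z in Metric.ball ξ δ,
        ENNReal.ofReal (sm m * (A ^ 2 * ‖z - ξ‖ ^ 2 + em m ^ 2) ^ (sm m - 1)) := by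
      rw [← lintegral_indicator Metric.isOpen_ball.measurableSet,
        ← lintegral_indicator Metric.isOpen_ball.measurableSet,
        ← lintegral_sub_right_eq_self _ ξ]
      congr 1
      funext z
      by_cases hz : z ∈ Metric.ball ξ δ
      · rw [indicator_of_mem hz, indicator_of_mem]
        simpa [dist_eq_norm] using hz
      · rw [indicator_of_notMem hz, indicator_of_notMem]
        simpa [dist_eq_norm] using hz
    rw [e1]
    refine lintegral_mono_ae ?_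
    filter_upwards [ae_restrict_mem Metric.isOpen_ball.measurableSet] with z hz
    apply ENNReal.ofReal_le_ofReal
    refine mul_le_mul_of_nonneg_left ?_ (sm_pos m).le
    have h3 := (hball z (Metric.ball_subset_ball (min_le_right _ _) hz)).1
    have hem := em_pos m
    have h4 : ‖h z‖ ^ 2 + em m ^ 2 ≤ A ^ 2 * ‖z - ξ‖ ^ 2 + em m ^ 2 := by
      have : ‖h z‖ ^ 2 ≤ (A * ‖z - ξ‖) ^ 2 := pow_le_pow_left₀ (norm_nonneg _) h3 2
      nlinarith
    exact Real.rpow_le_rpow_of_nonpos (by positivity) h4 (by have := sm_le m; linarith)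

/-- the one-variable lower bound -/
theorem sum_le_liminf {h : ℂ → ℂ} {d : ℂ → ℂ} {D : Set ℂ} (hD : IsOpen D) (T : Finset ℂ)
    (hT : ∀ ξ ∈ T, ξ ∈ D ∧ HasDerivAt h (d ξ) ξ ∧ h ξ = 0 ∧ d ξ ≠ 0) :
    ∑ ξ ∈ T, ENNReal.ofReal (π / ‖d ξ‖ ^ 2) ≤
      liminf (fun m => ∫⁻ z in D, ENNReal.ofReal (sm m * (‖h z‖ ^ 2 + em m ^ 2) ^ (sm m - 1)))
        atTop := by
  set L : ℝ≥0∞ := liminf (fun m => ∫⁻ z in D,
    ENNReal.ofReal (sm m * (‖h z‖ ^ 2 + em m ^ 2) ^ (sm m - 1))) atTop with hL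
  -- separation of the points
  obtain ⟨δ₀, hδ₀, hsep⟩ : ∃ δ₀ : ℝ, 0 < δ₀ ∧ ∀ ξ ∈ T, ∀ ζ ∈ T, ξ ≠ ζ → 2 * δ₀ ≤ dist ξ ζ := by
    classical
    have : ∀ T : Finset ℂ, ∃ δ₀ : ℝ, 0 < δ₀ ∧ ∀ ξ ∈ T, ∀ ζ ∈ T, ξ ≠ ζ → 2 * δ₀ ≤ dist ξ ζ := by
      intro T
      by_cases hne : (T.offDiag).Nonempty
      · obtain ⟨p, hp, hmin⟩ := T.offDiag.exists_min_image (fun p => dist p.1 p.2) hne
        rw [Finset.mem_offDiag] at hp
        have hpd : 0 < dist p.1 p.2 := dist_pos.2 hp.2.2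
        refine ⟨dist p.1 p.2 / 2, by linarith, fun ξ hξ ζ hζ hne => ?_⟩
        have := hmin (ξ, ζ) (Finset.mem_offDiag.2 ⟨hξ, hζ, hne⟩)
        simp only at this
        linarith
      · refine ⟨1, one_pos, fun ξ hξ ζ hζ hneq => ?_⟩
        exact absurd ⟨(ξ, ζ), Finset.mem_offDiag.2 ⟨hξ, hζ, hneq⟩⟩ hne
    exact this T
  -- for each `η > 0`
  have key : ∀ η : ℝ, 0 < η → ∑ ξ ∈ T, ENNReal.ofReal (π / (‖d ξ‖ * (1 + η)) ^ 2) ≤ L := by
    intro η hη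
    have hch : ∀ ξ : ℂ, ξ ∈ T → ∃ δ : ℝ, 0 < δ ∧ δ ≤ δ₀ ∧ Metric.ball ξ δ ⊆ D ∧
        ∀ m : ℕ, ENNReal.ofReal (lb (‖d ξ‖ * (1 + η)) δ m) ≤ ∫⁻ z in Metric.ball ξ δ,
          ENNReal.ofReal (sm m * (‖h z‖ ^ 2 + em m ^ 2) ^ (sm m - 1)) := by
      intro ξ hξ
      obtain ⟨h1, h2, h3, h4⟩ := hT ξ hξ
      have : 0 < ‖d ξ‖ := norm_pos_iff.2 h4
      exact near_zero h2 h3 (by nlinarith) (hD.mem_nhds h1) hδ₀
    choose! δ hδ0 hδle hδD hδi using hch
    have hlim : Tendsto (fun m => ∑ ξ ∈ T, ENNReal.ofReal (lb (‖d ξ‖ * (1 + η)) (δ ξ) m)) atTop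
        (𝓝 (∑ ξ ∈ T, ENNReal.ofReal (π / (‖d ξ‖ * (1 + η)) ^ 2))) := by
      refine tendsto_finsetSum _ fun ξ hξ => ?_
      have : 0 < ‖d ξ‖ := norm_pos_iff.2 (hT ξ hξ).2.2.2
      exact ENNReal.tendsto_ofReal (tendsto_lb (by positivity) (hδ0 ξ hξ))
    have hdisj : (T : Set ℂ).PairwiseDisjoint (fun ξ => Metric.ball ξ (δ ξ)) := by
      intro ξ hξ ζ hζ hne
      refine Metric.ball_disjoint_ball ?_
      have := hsep ξ hξ ζ hζ hne
      have h1 := hδle ξ hξ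
      have h2 := hδle ζ hζ
      linarith
    rw [← hlim.liminf_eq]
    refine liminf_le_liminf (Eventually.of_forall fun m => ?_)
    calc ∑ ξ ∈ T, ENNReal.ofReal (lb (‖d ξ‖ * (1 + η)) (δ ξ) m)
        ≤ ∑ ξ ∈ T, ∫⁻ z in Metric.ball ξ (δ ξ),
            ENNReal.ofReal (sm m * (‖h z‖ ^ 2 + em m ^ 2) ^ (sm m - 1)) :=
          Finset.sum_le_sum fun ξ hξ => hδi ξ hξ m
      _ = ∫⁻ z in ⋃ ξ ∈ T, Metric.ball ξ (δ ξ),
            ENNReal.ofReal (sm m * (‖h z‖ ^ 2 + em m ^ 2) ^ (sm m - 1)) :=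
          (lintegral_biUnion_finset hdisj (fun ξ _ => Metric.isOpen_ball.measurableSet) _).symm
      _ ≤ _ := lintegral_mono_set (iUnion₂_subset fun ξ hξ => hδD ξ hξ)
  -- let `η → 0`
  have hlim2 : Tendsto (fun k : ℕ => ∑ ξ ∈ T,
      ENNReal.ofReal (π / (‖d ξ‖ * (1 + 1 / ((k : ℝ) + 1))) ^ 2)) atTop
      (𝓝 (∑ ξ ∈ T, ENNReal.ofReal (π / ‖d ξ‖ ^ 2))) := by
    refine tendsto_finsetSum _ fun ξ hξ => ?_
    have hdp : 0 < ‖d ξ‖ := norm_pos_iff.2 (hT ξ hξ).2.2.2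
    refine ENNReal.tendsto_ofReal ?_
    have h1 : Tendsto (fun k : ℕ => ‖d ξ‖ * (1 + 1 / ((k : ℝ) + 1))) atTop
        (𝓝 (‖d ξ‖ * (1 + 0))) :=
      (tendsto_const_nhds.add tendsto_one_div_add_atTop_nhds_zero_nat).const_mul _
    have h2 := (h1.pow 2)
    rw [add_zero, mul_one] at h2
    exact tendsto_const_nhds.div h2 (by positivity)
  exact le_of_tendsto' hlim2 fun k => key _ (by positivity)

variable {n : ℕ}

theorem ball_eq {r : ℝ} (hr : 0 < r) (z : ℂ) (x' : Fin n → ℂ) :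
    (Fin.cons z x' : Fin (n + 1) → ℂ) ∈ Metric.ball (0 : Fin (n + 1) → ℂ) r ↔
      ‖z‖ < r ∧ ∀ i, ‖x' i‖ < r := by
  rw [mem_ball_zero_iff, pi_norm_lt_iff hr, Fin.forall_fin_succ]
  simp

theorem hasDerivAt_cons (z : ℂ) (x' : Fin n → ℂ) :
    HasDerivAt (fun z : ℂ => (Fin.cons z x' : Fin (n + 1) → ℂ)) (Pi.single 0 1) z := by
  rw [hasDerivAt_pi]
  intro i
  refine Fin.cases ?_ (fun j => ?_) i
  · change HasDerivAt (fun z : ℂ => z) ((Pi.single 0 1 : Fin (n + 1) → ℂ) 0) z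
    rw [Pi.single_eq_same]
    exact hasDerivAt_id' z
  · change HasDerivAt (fun _ : ℂ => x' j) ((Pi.single 0 1 : Fin (n + 1) → ℂ) j.succ) z
    rw [Pi.single_eq_of_ne (Fin.succ_ne_zero j)]
    exact hasDerivAt_const z _

theorem piSucc_symm (z : ℂ) (x' : Fin n → ℂ) :
    (MeasurableEquiv.piFinSuccAbove (fun _ : Fin (n + 1) => ℂ) 0).symm (z, x') =
      (Fin.cons z x' : Fin (n + 1) → ℂ) := by
  funext i
  refine Fin.cases ?_ (fun j => ?_) i
  · rfl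
  · rfl

/-- the sheet bound -/
theorem sheet_le {f : (Fin (n + 1) → ℂ) → ℂ} {r : ℝ} (hr : 0 < r)
    (hf : AnalyticOnNhd ℂ f (Metric.ball 0 r)) {C : ℝ}
    (hC : ∀ s ε : ℝ, 0 < s → s ≤ 1 / 2 → 0 < ε → ε ≤ 1 →
      ∫⁻ x in Metric.ball (0 : Fin (n + 1) → ℂ) r, ENNReal.ofReal (s * G f s ε x) ≤
        ENNReal.ofReal C) :
    ∫⁻ x' : Fin n → ℂ in {x' | ∀ i, ‖x' i‖ < r},
      ∑' z : {z : ℂ // ‖z‖ < r ∧ f (Fin.cons z x') = 0 ∧
        fderiv ℂ f (Fin.cons z x') (Pi.single 0 1) ≠ 0},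
      ENNReal.ofReal (π / ‖fderiv ℂ f (Fin.cons z.1 x') (Pi.single 0 1)‖ ^ 2) ≤
        ENNReal.ofReal C := by
  classical
  set F : ℕ → (Fin (n + 1) → ℂ) → ℝ≥0∞ := fun m => (Metric.ball 0 r).indicator fun x =>
    ENNReal.ofReal (sm m * G f (sm m) (em m) x) with hF
  have hFm : ∀ m, Measurable (F m) := by
    intro m
    have h1 : ContinuousOn (fun x => ENNReal.ofReal (sm m * G f (sm m) (em m) x))
        (Metric.ball 0 r) :=
      ENNReal.continuous_ofReal.comp_continuousOn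
        (continuousOn_const.mul (continuousOn_G hf _ (em_pos m)))
    have h2 := h1.measurable_piecewise (g := 0) continuousOn_const
      Metric.isOpen_ball.measurableSet
    rwa [Set.piecewise_eq_indicator] at h2
  have hFc : ∀ m, Measurable (fun p : ℂ × (Fin n → ℂ) => F m (Fin.cons p.1 p.2)) := by
    intro m
    have h1 := (hFm m).comp
      (MeasurableEquiv.piFinSuccAbove (fun _ : Fin (n + 1) => ℂ) 0).symm.measurable
    have h2 : (F m ∘ (MeasurableEquiv.piFinSuccAbove (fun _ : Fin (n + 1) => ℂ) 0).symm) =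
        fun p : ℂ × (Fin n → ℂ) => F m (Fin.cons p.1 p.2) := by
      funext p
      exact congrArg (F m) (piSucc_symm p.1 p.2)
    rw [← h2]
    exact h1
  have hFub : ∀ m, ∫⁻ x' : Fin n → ℂ, ∫⁻ z : ℂ, F m (Fin.cons z x') ≤ ENNReal.ofReal C := by
    intro m
    have h1 := hC (sm m) (em m) (sm_pos m) (sm_le m) (em_pos m) (em_le m)
    rw [← lintegral_indicator Metric.isOpen_ball.measurableSet] at h1
    refine le_trans (le_of_eq ?_) h1
    have mp := (volume_preserving_piFinSuccAbove (fun _ : Fin (n + 1) => ℂ) 0).symm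
    change _ = ∫⁻ x, F m x
    rw [← mp.lintegral_comp_emb (MeasurableEquiv.measurableEmbedding _)]
    have h2 : ∀ p : ℂ × (Fin n → ℂ),
        F m ((MeasurableEquiv.piFinSuccAbove (fun _ : Fin (n + 1) => ℂ) 0).symm p) =
        F m (Fin.cons p.1 p.2) := fun p => congrArg (F m) (piSucc_symm p.1 p.2)
    have h3 : (∫⁻ p : ℂ × (Fin n → ℂ),
        F m ((MeasurableEquiv.piFinSuccAbove (fun _ : Fin (n + 1) => ℂ) 0).symm p)) =
        ∫⁻ p : ℂ × (Fin n → ℂ), F m (Fin.cons p.1 p.2) := lintegral_congr h2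
    refine Eq.trans ?_ h3.symm
    rw [Measure.volume_eq_prod, lintegral_prod_symm' _ (hFc m)]
  have hΦm : ∀ m, Measurable (fun x' : Fin n → ℂ => ∫⁻ z : ℂ, F m (Fin.cons z x')) := fun m =>
    (hFc m).lintegral_prod_left'
  have hbox : MeasurableSet {x' : Fin n → ℂ | ∀ i, ‖x' i‖ < r} := by
    have : {x' : Fin n → ℂ | ∀ i, ‖x' i‖ < r} = Metric.ball 0 r := by
      ext x'
      rw [mem_ball_zero_iff, pi_norm_lt_iff hr]
      rfl
    rw [this]
    exact Metric.isOpen_ball.measurableSet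
  have hpt : ∀ x' ∈ {x' : Fin n → ℂ | ∀ i, ‖x' i‖ < r},
      ∑' z : {z : ℂ // ‖z‖ < r ∧ f (Fin.cons z x') = 0 ∧
        fderiv ℂ f (Fin.cons z x') (Pi.single 0 1) ≠ 0},
      ENNReal.ofReal (π / ‖fderiv ℂ f (Fin.cons z.1 x') (Pi.single 0 1)‖ ^ 2) ≤
      liminf (fun m => ∫⁻ z : ℂ, F m (Fin.cons z x')) atTop := by
    intro x' hx'
    set h : ℂ → ℂ := fun z => f (Fin.cons z x') with hh
    set d : ℂ → ℂ := fun z => fderiv ℂ f (Fin.cons z x') (Pi.single 0 1) with hd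
    have hder : ∀ z, ‖z‖ < r → HasDerivAt h (d z) z := by
      intro z hz
      have h1 : HasFDerivAt f (fderiv ℂ f (Fin.cons z x')) (Fin.cons z x') :=
        (hf _ ((ball_eq hr z x').2 ⟨hz, hx'⟩)).differentiableAt.hasFDerivAt
      exact h1.comp_hasDerivAt z (hasDerivAt_cons z x')
    have hFe : ∀ m, ∫⁻ z : ℂ, F m (Fin.cons z x') = ∫⁻ z in Metric.ball (0 : ℂ) r,
        ENNReal.ofReal (sm m * (‖h z‖ ^ 2 + em m ^ 2) ^ (sm m - 1)) := by
      intro m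
      rw [← lintegral_indicator Metric.isOpen_ball.measurableSet]
      congr 1
      funext z
      by_cases hz : ‖z‖ < r
      · rw [indicator_of_mem (by simpa using hz)]
        simp only [hF]
        rw [indicator_of_mem ((ball_eq hr z x').2 ⟨hz, hx'⟩)]
        rfl
      · rw [indicator_of_notMem (by simpa using hz)]
        simp only [hF]
        rw [indicator_of_notMem]
        exact fun h' => hz ((ball_eq hr z x').1 h').1
    simp only [hFe]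
    rw [ENNReal.tsum_eq_iSup_sum]
    refine iSup_le fun S => ?_
    have key := sum_le_liminf (h := h) (d := d) (D := Metric.ball (0 : ℂ) r) Metric.isOpen_ball
      (S.map (Function.Embedding.subtype _)) (fun ξ hξ => by
        rw [Finset.mem_map] at hξ
        obtain ⟨z, -, rfl⟩ := hξ
        exact ⟨by simpa using z.2.1, hder _ z.2.1, z.2.2.1, z.2.2.2⟩)
    rw [Finset.sum_map] at key
    exact key
  calc _ ≤ ∫⁻ x' : Fin n → ℂ in {x' | ∀ i, ‖x' i‖ < r},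
        liminf (fun m => ∫⁻ z : ℂ, F m (Fin.cons z x')) atTop := by
        refine lintegral_mono_ae ?_
        filter_upwards [ae_restrict_mem hbox] with x' hx'
        exact hpt x' hx'
    _ ≤ ∫⁻ x' : Fin n → ℂ, liminf (fun m => ∫⁻ z : ℂ, F m (Fin.cons z x')) atTop :=
        setLIntegral_le_lintegral _ _
    _ ≤ liminf (fun m => ∫⁻ x' : Fin n → ℂ, ∫⁻ z : ℂ, F m (Fin.cons z x')) atTop :=
        lintegral_liminf_le hΦm
    _ ≤ ENNReal.ofReal C := by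
        refine liminf_le_of_le (by isBoundedDefault) fun b hb => ?_
        obtain ⟨m, hm⟩ := hb.exists
        exact hm.trans (hFub m)

end Crest.Agent.R257.KlC_540
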