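import Crest.Agent.R257.KlC_540
import Crest.Agent.R257.Defs_219

/-!
R257 / KlD_540: K5' at the level of germs in the notation of `Defs_219`:
a germ with an isolated critical point and a holomorphic vector field `χ` with `χ f = f` and
`Re div χ (0) > 1` is klt: `1 ∈ J_1(f)`.
-/

set_option autoImplicit false

open Topology Filter MeasureTheory Set
open scoped ENNReal ContDiff Real
open Crest.AlgGeometry.Germ

noncomputable section

namespace Crest.Agent.R257.KlD_540

open Crest.Agent.R257.KlA_540 Crest.Agent.R257.KlB_540 Crest.Agent.R257.KlC_540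
open Crest.Agent.R257.Defs_219

/-- `1 ∈ J_1(f)` -/
def Klt (f : E3 → ℂ) : Prop := InJ 1 f (fun _ => 1)

/-- K5' -/
theorem klt_of_field {f : E3 → ℂ} (hf : AnalyticAt ℂ f 0)
    (hiso : ∀ᶠ x in 𝓝[≠] (0 : E3), ∃ j, coordDeriv f j x ≠ 0)
    {a : Fin 3 → E3 → ℂ} (ha : ∀ j, AnalyticAt ℂ (a j) 0)
    (hχ : ∀ᶠ x in 𝓝 (0 : E3), f x = ∑ j, a j x * coordDeriv f j x)
    (hdiv : 1 < (∑ j, coordDeriv (a j) j 0).re) : Klt f := by
  set c : ℝ := ((∑ j, coordDeriv (a j) j 0).re - 1) / 2 with hc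
  have hc0 : 0 < c := by rw [hc]; linarith
  have hcont : ContinuousAt (fun x => (∑ j, coordDeriv (a j) j x).re) 0 := by
    have h1 : ∀ j, ContinuousAt (fun x => coordDeriv (a j) j x) 0 := fun j =>
      (((ContinuousLinearMap.apply ℂ ℂ (Pi.single j 1 : E3)).analyticAt _).comp
        (ha j).fderiv).continuousAt
    have h2 : ContinuousAt (fun x => ∑ j, coordDeriv (a j) j x) 0 :=
      tendsto_finsetSum _ fun j _ => h1 j
    exact Complex.continuous_re.continuousAt.comp h2
  have e1 : ∀ᶠ x in 𝓝 (0 : E3), 1 + c ≤ (∑ j, coordDeriv (a j) j x).re := by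
    have : 1 + c < (∑ j, coordDeriv (a j) j (0 : E3)).re := by rw [hc]; linarith
    exact (hcont.eventually (lt_mem_nhds this)).mono fun x hx => hx.le
  have e2 : ∀ᶠ x in 𝓝 (0 : E3), x ≠ 0 → ∃ j, coordDeriv f j x ≠ 0 :=
    eventually_nhdsWithin_iff.1 hiso
  have e3 : ∀ᶠ x in 𝓝 (0 : E3), AnalyticAt ℂ f x := hf.eventually_analyticAt
  have e4 : ∀ᶠ x in 𝓝 (0 : E3), ∀ j, AnalyticAt ℂ (a j) x :=
    eventually_all.2 fun j => (ha j).eventually_analyticAt
  obtain ⟨r, hr, hball⟩ := Metric.eventually_nhds_iff_ball.1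
    ((((e1.and e2).and e3).and e4).and hχ)
  obtain ⟨C, -, hC⟩ := tube hr (f := f) (a := a) (c := c)
    (fun x hx => (hball x hx).1.1.2) (fun x hx h0 => (hball x hx).1.1.1.2 h0)
    (fun j x hx => (hball x hx).1.2 j) (fun x hx => (hball x hx).2.symm) hc0
    (fun x hx => (hball x hx).1.1.1.1)
  refine ⟨r / 2, by linarith, ?_⟩
  have hr2 : 0 < r / 2 := by linarith
  have key := sheet_le hr2 (f := f) (fun x hx =>
    (hball x (Metric.ball_subset_ball (by linarith) hx)).1.1.2) (C := C) hC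
  refine lt_of_le_of_lt ?_ (lt_of_le_of_lt key ENNReal.ofReal_lt_top)
  unfold Jint
  refine lintegral_mono fun x' => ?_
  refine ENNReal.tsum_le_tsum fun z => ?_
  apply ENNReal.ofReal_le_ofReal
  have h1 : ‖(1 : ℂ)‖ ^ ((2 : ℝ) / 1) = 1 := by simp
  change ‖(1 : ℂ)‖ ^ ((2 : ℝ) / 1) / _ ≤ _
  rw [h1]
  have hπ : (1 : ℝ) ≤ π := by linarith [Real.pi_gt_three]
  exact div_le_div_of_nonneg_right hπ (by positivity)

/-- a klt germ has `mstar = 0` -/
theorem mstar_eq_zero_of_klt {f : E3 → ℂ} (h : Klt f) : mstar f = 0 := by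
  have hcol : gens ![f, fun _ => 1, fun _ => 1] = ⊤ := by
    rw [eq_top_iff]
    rintro ⟨g, hg⟩ -
    refine ⟨![0, g, 0], fun i => ?_, ?_⟩
    · fin_cases i
      · exact analyticAt_const
      · exact hg
      · exact analyticAt_const
    · refine Eventually.of_forall fun x => ?_
      simp [Fin.sum_univ_succ]
  have hsub : Subsingleton (Quo ![f, fun _ => 1, fun _ => 1]) := by
    unfold Quo
    rw [hcol]
    infer_instance
  have hfin : ColFin ![f, fun _ => 1, fun _ => 1] := by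
    unfold ColFin
    infer_instance
  have hz : col ![f, fun _ => 1, fun _ => 1] = 0 := Module.finrank_zero_of_subsingleton
  have h1 := mul_mstar_le (f := f) (g := fun _ => 1) (h := fun _ => 1) (a := 1) (b := 1) le_rfl
    le_rfl analyticAt_const analyticAt_const h h hfin
  rw [hz] at h1
  have := mstar_nonneg f
  simp at h1
  linarith

end Crest.Agent.R257.KlD_540
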