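import Crest.Agent.R273.TLs_201
import Crest.Agent.R273.C2e_793

/-!
# Row 257 (S0395), UP0 (helper101), Kolodziej's estimate a la Guo-Phong-Tong, pointwise part

* `psd_max` : at a local maximum of `q ∘ ψ - φ`, `q'' ≥ 0`: `∂∂̄φ - q'(ψ) ∂∂̄ψ ≥ 0`
* `det_cmp` : `K + ∂∂̄φ`, `K + ∂∂̄ψ` positive, `0 < c ≤ 1`, `∂∂̄φ - c ∂∂̄ψ ≥ 0`:
              `c^n det (K + ∂∂̄ψ) ≤ det (K + ∂∂̄φ)`
* `gpt`     : the comparison of `φ` with the solution `ψ` of the auxiliary equation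
-/

set_option autoImplicit false
set_option linter.unusedSectionVars false

open Set Filter Topology Complex MeasureTheory
open scoped ContDiff Matrix ComplexConjugate ComplexOrder ENNReal

namespace Crest.Agent.R257.Kol1_101

open Crest.Agent.R275 Crest.Agent.R275.Geo Crest.Agent.R275.Core144 Crest.Agent.R275.EDR890
open Crest.Agent.R275.GC293
open Crest.Agent.R273 Crest.Agent.R273.Defs_333 Crest.Agent.R273.Hess_333
open Crest.Agent.R273.HessB_333 Crest.Agent.R273.HM_333 Crest.Agent.R273.Kah_333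
open Crest.Agent.R273.YauDefs_635 Crest.Agent.R273.YauMax_635
open Crest.Agent.R273.FIb0_597 (ch mem_ch)

noncomputable section

variable {n : ℕ}

theorem two {f : Cn n → ℝ} {z : Cn n} (hf : ContDiffAt ℝ ∞ f z) : ContDiffAt ℝ 2 f z :=
  hf.of_le (WithTop.coe_le_coe.2 le_top)

/-- the Hessian at a maximum of `q ∘ ψ - φ` -/
theorem psd_max {φ ψ : Cn n → ℝ} {z : Cn n} (hφ : ContDiffAt ℝ ∞ φ z) (hψ : ContDiffAt ℝ ∞ ψ z)
    {q q' : ℝ → ℝ} {q2 : ℝ} (hq : ContDiffAt ℝ ∞ q (ψ z))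
    (h1 : ∀ᶠ t in 𝓝 (ψ z), HasDerivAt q (q' t) t) (h2 : HasDerivAt q' q2 (ψ z)) (h0 : 0 ≤ q2)
    (hm : IsLocalMax (fun y => q (ψ y) - φ y) z) :
    (hess φ z - (q' (ψ z) : ℂ) • hess ψ z).PosSemidef := by
  have hqψ : ContDiffAt ℝ ∞ (fun y => q (ψ y)) z := hq.comp z hψ
  have hcψ : ContDiffAt ℝ ∞ (fun y => q' (ψ z) * ψ y) z := contDiffAt_const.mul hψ
  have e : hess (fun y => φ y - q' (ψ z) * ψ y) z
      = hess φ z - (q' (ψ z) : ℂ) • hess ψ z := by
    rw [hess_sub (u := φ) hφ hcψ, hess_const_mul _ hψ]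
  rw [← e]
  refine posSemidef_hess (hφ.sub hcψ) fun v => ?_
  have h3 := C2e_793.lev_nonpos_of_localMax (F := fun y => q (ψ y) - φ y) (two (hqψ.sub hφ)) hm v
  rw [Levi_145.lev_sub (u := fun y => q (ψ y)) (two hqψ) (two hφ),
    Levi_145.lev_comp_real (χ := q) (χ' := q') (χ'' := q2) (two hψ) h1 h2] at h3
  rw [lev333_eq_lev145, Levi_145.lev_sub (u := φ) (two hφ) (two hcψ),
    Levi_145.lev_const_mul _ (two hψ)]
  have : 0 ≤ q2 * ‖Levi_145.gr ψ z v‖ ^ 2 := by positivity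
  linarith

/-- comparison of determinants -/
theorem det_cmp {G S T : Matrix (Fin n) (Fin n) ℂ} (hG : G.PosDef) (hT : (G + T).PosDef) {c : ℝ}
    (hc0 : 0 < c) (hc1 : c ≤ 1) (h : (S - (c : ℂ) • T).PosSemidef) :
    c ^ n * (G + T).det.re ≤ (G + S).det.re := by
  have hX : ((c : ℂ) • (G + T)).PosDef := hT.smul (by exact_mod_cast hc0)
  have hP : (((1 - c : ℝ) : ℂ) • G + (S - (c : ℂ) • T)).PosSemidef :=
    (hG.posSemidef.smul (by
      have : (0 : ℝ) ≤ 1 - c := by linarith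
      exact_mod_cast this)).add h
  have h1 := det_le_det_add hX hP
  have e : (c : ℂ) • (G + T) + (((1 - c : ℝ) : ℂ) • G + (S - (c : ℂ) • T)) = G + S := by
    push_cast
    module
  rw [e, Matrix.det_smul, Fintype.card_fin] at h1
  have h2 := (Complex.le_def.1 h1).1
  have h3 : (((c : ℂ) ^ n) * (G + T).det).re = c ^ n * (G + T).det.re := by
    rw [← Complex.ofReal_pow, Complex.re_ofReal_mul]
  rw [h3] at h2
  exact h2

/-- the test function `-ε (Λ - t)^(2/3)` -/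
def tq (ε Λ t : ℝ) : ℝ := -(ε * (Λ - t) ^ ((2 : ℝ) / 3))

/-- its derivative -/
def tq' (ε Λ t : ℝ) : ℝ := 2 / 3 * ε * (Λ - t) ^ (-(1 : ℝ) / 3)

/-- its second derivative -/
def tq2 (ε Λ t : ℝ) : ℝ := 2 / 9 * ε * (Λ - t) ^ (-(4 : ℝ) / 3)

theorem tq_deriv (ε : ℝ) {Λ t : ℝ} (h : t < Λ) : HasDerivAt (tq ε Λ) (tq' ε Λ t) t := by
  have h1 : HasDerivAt (fun t => Λ - t) (-1) t := by
    simpa using (hasDerivAt_id t).const_sub Λ
  have h2 := (h1.rpow_const (p := (2 : ℝ) / 3) (Or.inl (by linarith : Λ - t ≠ 0))).const_mul ε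
  have h3 := h2.neg
  refine h3.congr_deriv ?_
  unfold tq'
  rw [show (2 : ℝ) / 3 - 1 = -1 / 3 by norm_num]
  ring

theorem tq'_deriv (ε : ℝ) {Λ t : ℝ} (h : t < Λ) : HasDerivAt (tq' ε Λ) (tq2 ε Λ t) t := by
  have h1 : HasDerivAt (fun t => Λ - t) (-1) t := by
    simpa using (hasDerivAt_id t).const_sub Λ
  have h2 := (h1.rpow_const (p := -(1 : ℝ) / 3) (Or.inl (by linarith : Λ - t ≠ 0))).const_mul
    (2 / 3 * ε)
  refine h2.congr_deriv ?_
  unfold tq2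
  rw [show -(1 : ℝ) / 3 - 1 = -4 / 3 by norm_num]
  ring

theorem tq_sm (ε : ℝ) {Λ t : ℝ} (h : t < Λ) : ContDiffAt ℝ ∞ (tq ε Λ) t := by
  have h1 : ContDiffAt ℝ ∞ (fun t => Λ - t) t := contDiffAt_const.sub contDiffAt_id
  exact (contDiffAt_const.mul (h1.rpow_const_of_ne (by linarith : Λ - t ≠ 0))).neg

variable {M : Type} [TopologicalSpace M] [CompactSpace M] {A : Atl 2 M}

/-- **the comparison of Guo, Phong and Tong** in dimension two -/
theorem gpt {φ ψ F E : M → ℝ} (K K1 K2 : Kah A) (hφ : A.Sm φ) (hψ : A.Sm ψ)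
    (g1 : ∀ i, ∀ x ∈ (A.e i).source, K1.g i x = K.g i x + hsf A φ i x)
    (g2 : ∀ i, ∀ x ∈ (A.e i).source, K2.g i x = K.g i x + hsf A ψ i x)
    {a ε s : ℝ} (ha : 0 < a) (hε : 0 < ε) (hεa : ε ^ 3 = 9 / 4 * a) (hF : ∀ x, 0 < F x)
    (h1 : ∀ i, ∀ x ∈ (A.e i).source, (K1.g i x).det.re = F x * (K.g i x).det.re)
    (h2 : ∀ i, ∀ x ∈ (A.e i).source,
      (K2.g i x).det.re = 1 / a * (E x * F x) * (K.g i x).det.re)
    (hE : ∀ x, - φ x - s ≤ E x) (hψ0 : ∀ x, ψ x ≤ 0) (x : M) :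
    - φ x - s ≤ ε * (2 / 3 * a - ψ x) ^ ((2 : ℝ) / 3) := by
  set Λ : ℝ := 2 / 3 * a with hΛ
  have hΛ0 : 0 < Λ := by positivity
  have hlt : ∀ x, ψ x < Λ := fun x => (hψ0 x).trans_lt hΛ0
  have hcont : Continuous fun x => tq ε Λ (ψ x) - φ x := by
    have c1 : Continuous ψ := continuous_of_sm hψ
    have c2 : Continuous φ := continuous_of_sm hφ
    unfold tq
    refine ((continuous_const.mul ((continuous_const.sub c1).rpow_const fun x => ?_)).neg).sub c2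
    exact Or.inr (by norm_num)
  obtain ⟨y, -, hy⟩ := isCompact_univ.exists_isMaxOn ⟨x, mem_univ x⟩ hcont.continuousOn
  have hmain : tq ε Λ (ψ y) - φ y ≤ s := by
    by_contra hcon
    push Not at hcon
    obtain ⟨i, hi⟩ := A.cover y
    have hz : A.e i y ∈ (A.e i).target := (A.e i).map_source hi
    have hinv : ∀ f : M → ℝ, inC A i f (A.e i y) = f y := fun f => by
      simp only [inC, (A.e i).left_inv hi]
    have hτ : 0 < Λ - ψ y := sub_pos.2 (hlt y)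
    have hlm : IsLocalMax (fun z => tq ε Λ (inC A i ψ z) - inC A i φ z) (A.e i y) := by
      have h3 : IsLocalMax (fun x => tq ε Λ (ψ x) - φ x) y := hy.isLocalMax univ_mem
      have h4 := inC_localMin (φ := fun x => -(tq ε Λ (ψ x) - φ x)) h3.neg hi
      have h5 := h4.neg
      refine h5.congr (Eventually.of_forall fun z => ?_)
      simp only [inC, neg_neg]
    have hpsd := psd_max (φ := inC A i φ) (ψ := inC A i ψ) (q := tq ε Λ) (q' := tq' ε Λ)
      (inC_contDiffAt hφ i hz) (inC_contDiffAt hψ i hz)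
      (by rw [hinv]; exact tq_sm ε (hlt y))
      (by
        rw [hinv]
        filter_upwards [gt_mem_nhds (hlt y)] with t ht
        exact tq_deriv ε ht)
      (by rw [hinv]; exact tq'_deriv ε (hlt y))
      (by unfold tq2; positivity) hlm
    rw [hinv] at hpsd
    set c : ℝ := tq' ε Λ (ψ y) with hc
    have hc0 : 0 < c := by
      rw [hc]; unfold tq'; positivity
    have hΛ3 : (2 / 3 * ε) ^ 3 = Λ := by
      rw [mul_pow, hεa, hΛ]; ring
    have hc1 : c ≤ 1 := by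
      have b1 : (Λ - ψ y) ^ (-(1 : ℝ) / 3) ≤ Λ ^ (-(1 : ℝ) / 3) :=
        Real.rpow_le_rpow_of_nonpos hΛ0 (by linarith [hψ0 y]) (by norm_num)
      have b2 : Λ ^ (-(1 : ℝ) / 3) = (2 / 3 * ε)⁻¹ := by
        rw [← hΛ3, ← Real.rpow_natCast, ← Real.rpow_mul (by positivity)]
        rw [show ((3 : ℕ) : ℝ) * (-1 / 3) = -1 by norm_num, Real.rpow_neg_one]
      rw [hc]
      unfold tq'
      calc 2 / 3 * ε * (Λ - ψ y) ^ (-(1 : ℝ) / 3) ≤ 2 / 3 * ε * Λ ^ (-(1 : ℝ) / 3) := by gcongr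
        _ = 1 := by rw [b2]; field_simp
    have hdet := det_cmp (G := K.g i y) (S := hsf A φ i y) (T := hsf A ψ i y) (K.pos i y hi)
      (by rw [← g2 i y hi]; exact K2.pos i y hi) hc0 hc1 hpsd
    rw [← g1 i y hi, ← g2 i y hi, h1 i y hi, h2 i y hi] at hdet
    have hd : 0 < (K.g i y).det.re := (Complex.lt_def.1 (K.pos i y hi).det_pos).1
    have h6 : c ^ 2 * (1 / a * (E y * F y)) ≤ F y := by
      have h7 : c ^ 2 * (1 / a * (E y * F y)) * (K.g i y).det.re ≤ F y * (K.g i y).det.re := by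
        linarith
      exact le_of_mul_le_mul_right h7 hd
    have h8 : c ^ 2 * E y ≤ a := by
      have h9 : (c ^ 2 * E y) * F y ≤ a * F y := by
        have e1 : (c ^ 2 * E y) * F y = a * (c ^ 2 * (1 / a * (E y * F y))) := by
          field_simp
        rw [e1]
        exact mul_le_mul_of_nonneg_left h6 ha.le
      exact le_of_mul_le_mul_right h9 (hF y)
    have h10 : c ^ 2 * (- φ y - s) ≤ a := (mul_le_mul_of_nonneg_left (hE y) (by positivity)).trans h8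
    -- `c² = (4/9) ε² τ^(-2/3)`
    set τ : ℝ := Λ - ψ y with hτd
    have e2 : c ^ 2 * (ε * τ ^ ((2 : ℝ) / 3)) = a := by
      rw [hc]
      unfold tq'
      have e3 : (τ ^ (-(1 : ℝ) / 3)) ^ 2 * τ ^ ((2 : ℝ) / 3) = 1 := by
        rw [← Real.rpow_natCast, ← Real.rpow_mul hτ.le, ← Real.rpow_add hτ]
        rw [show (-(1 : ℝ) / 3) * ((2 : ℕ) : ℝ) + 2 / 3 = 0 by norm_num, Real.rpow_zero]
      calc (2 / 3 * ε * τ ^ (-(1 : ℝ) / 3)) ^ 2 * (ε * τ ^ ((2 : ℝ) / 3))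
          = 4 / 9 * ε ^ 3 * ((τ ^ (-(1 : ℝ) / 3)) ^ 2 * τ ^ ((2 : ℝ) / 3)) := by ring
        _ = a := by rw [e3, hεa]; ring
    have h11 : - φ y - s ≤ ε * τ ^ ((2 : ℝ) / 3) := by
      have h12 : c ^ 2 * (- φ y - s) ≤ c ^ 2 * (ε * τ ^ ((2 : ℝ) / 3)) := by rw [e2]; exact h10
      exact le_of_mul_le_mul_left h12 (by positivity)
    unfold tq at hcon
    rw [← hτd] at hcon
    linarith
  have h13 : tq ε Λ (ψ x) - φ x ≤ tq ε Λ (ψ y) - φ y := hy (mem_univ x)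
  have h14 := h13.trans hmain
  unfold tq at h14
  linarith

end

end Crest.Agent.R257.Kol1_101
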