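import Mathlib.MeasureTheory.Integral.MeanInequalities
import Mathlib.MeasureTheory.Integral.Bochner.Set
import Mathlib.Analysis.SpecialFunctions.Pow.Real
import Mathlib.Analysis.SpecialFunctions.Pow.Continuity
import Mathlib.MeasureTheory.Measure.OpenPos
import Mathlib.MeasureTheory.Function.LocallyIntegrable

/-!
# Row 257 (S0395), UP0 (helper101), Kolodziej's estimate, measure theoretic part

* `dg`     : De Giorgi's lemma: `r N (s + r) ≤ B N(s)^(9/8)` implies `N (2^9 B V^(1/8)) = 0`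
* `dg_int` : `∫ h_s⁴ F ≤ C (∫ h_s F)^(4/3)`, `h_s = (-φ-s)⁺`, for all `s ≥ 0`, implies
             `-φ ≤ 2^9 C^(3/8) V^(1/8)`
-/

set_option autoImplicit false
set_option linter.unusedSectionVars false

open Set Filter Topology MeasureTheory

namespace Crest.Agent.R257.Kol2_101

noncomputable section

/-- **De Giorgi's lemma** -/
theorem dg {N : ℝ → ℝ} {B V : ℝ} (hB : 0 < B) (hV : 0 < V) (h0 : N 0 ≤ V) (hn : ∀ s, 0 ≤ N s)
    (hm : ∀ s t, 0 ≤ s → s ≤ t → N t ≤ N s)
    (h : ∀ s, 0 ≤ s → ∀ r, 0 < r → r * N (s + r) ≤ B * N s ^ ((9 : ℝ) / 8)) :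
    N (2 ^ 9 * B * V ^ ((1 : ℝ) / 8)) = 0 := by
  set d : ℝ := 2 ^ 9 * B * V ^ ((1 : ℝ) / 8) with hd
  have hd0 : 0 < d := by positivity
  set y : ℕ → ℝ := fun k => (1 / 2 : ℝ) ^ k with hy
  have hy0 : ∀ k, 0 < y k := fun k => by positivity
  have hy1 : ∀ k, y k ≤ 1 := fun k => pow_le_one₀ (by norm_num) (by norm_num)
  have key : ∀ k : ℕ, N (d * (1 - y k)) ≤ V * y k ^ 8 := by
    intro k
    induction k with
    | zero =>
      have e1 : d * (1 - y 0) = 0 := by simp [hy]
      have e2 : y 0 = 1 := by simp [hy]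
      rw [e1, e2]
      simpa using h0
    | succ k ih =>
      have e1 : d * (1 - y (k + 1)) = d * (1 - y k) + d * (y k / 2) := by
        simp only [hy, pow_succ]; ring
      have hs : 0 ≤ d * (1 - y k) := mul_nonneg hd0.le (by linarith [hy1 k])
      have hr : 0 < d * (y k / 2) := mul_pos hd0 (by linarith [hy0 k])
      have h1 := h _ hs _ hr
      rw [← e1] at h1
      have h2 : N (d * (1 - y k)) ^ ((9 : ℝ) / 8) ≤ (V * y k ^ 8) ^ ((9 : ℝ) / 8) :=
        Real.rpow_le_rpow (hn _) ih (by norm_num)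
      have h3 : (V * y k ^ 8) ^ ((9 : ℝ) / 8) = V * V ^ ((1 : ℝ) / 8) * y k ^ 9 := by
        rw [Real.mul_rpow hV.le (by have := hy0 k; positivity)]
        have e2 : V ^ ((9 : ℝ) / 8) = V * V ^ ((1 : ℝ) / 8) := by
          rw [show (9 : ℝ) / 8 = 1 + 1 / 8 by norm_num, Real.rpow_add hV, Real.rpow_one]
        have e3 : (y k ^ 8) ^ ((9 : ℝ) / 8) = y k ^ 9 := by
          rw [← Real.rpow_natCast, ← Real.rpow_mul (hy0 k).le, ← Real.rpow_natCast]
          norm_num
        rw [e2, e3]
      have h4 : d * (y k / 2) * N (d * (1 - y (k + 1))) ≤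
          d * (y k / 2) * (V * y (k + 1) ^ 8) := by
        refine h1.trans ?_
        calc B * N (d * (1 - y k)) ^ ((9 : ℝ) / 8) ≤ B * (V * V ^ ((1 : ℝ) / 8) * y k ^ 9) := by
              rw [← h3]; exact mul_le_mul_of_nonneg_left h2 hB.le
          _ = d * (y k / 2) * (V * y (k + 1) ^ 8) := by
              have e4 : y (k + 1) = y k / 2 := by simp only [hy, pow_succ]; ring
              rw [e4, hd]; ring
      exact le_of_mul_le_mul_left h4 hr
  have hle : ∀ k : ℕ, N d ≤ V * y k ^ 8 := fun k =>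
    (hm _ _ (mul_nonneg hd0.le (by linarith [hy1 k])) (by
      have := hy0 k
      nlinarith)).trans (key k)
  have hlim : Tendsto (fun k => V * y k ^ 8) atTop (𝓝 0) := by
    have h1 : Tendsto y atTop (𝓝 0) :=
      tendsto_pow_atTop_nhds_zero_of_lt_one (by norm_num) (by norm_num)
    have h2 := (h1.pow 8).const_mul V
    simpa using h2
  exact le_antisymm (ge_of_tendsto' hlim hle) (hn _)

variable {X : Type*} [TopologicalSpace X] [CompactSpace X] [MeasurableSpace X] [BorelSpace X]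
  {μ : Measure X} [IsFiniteMeasure μ]

theorem bdd {f : X → ℝ} (hf : Continuous f) : ∃ C : ℝ, 0 ≤ C ∧ ∀ x, |f x| ≤ C := by
  obtain ⟨C, hC⟩ := isCompact_univ.exists_bound_of_continuousOn (f := f) hf.continuousOn
  exact ⟨max C 0, le_max_right _ _, fun x => (hC x (mem_univ x)).trans (le_max_left _ _)⟩

theorem int_cont {f : X → ℝ} (hf : Continuous f) : Integrable f μ := by
  obtain ⟨C, -, hC⟩ := bdd hf
  exact Integrable.of_bound hf.measurable.aestronglyMeasurable C (Eventually.of_forall hC)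

theorem memLp_cont {f : X → ℝ} (hf : Continuous f) (p : ENNReal) : MemLp f p μ := by
  obtain ⟨C, -, hC⟩ := bdd hf
  exact MemLp.of_bound hf.measurable.aestronglyMeasurable C (Eventually.of_forall hC)

/-- `(-φ - s)⁺` -/
def hh (φ : X → ℝ) (s : ℝ) (x : X) : ℝ := max (- φ x - s) 0

theorem hh_cont {φ : X → ℝ} (hφ : Continuous φ) (s : ℝ) : Continuous (hh φ s) :=
  (hφ.neg.sub continuous_const).max continuous_const

theorem hh_nonneg (φ : X → ℝ) (s : ℝ) (x : X) : 0 ≤ hh φ s x := le_max_right _ _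

/-- the level inequality implies the bound -/
theorem dg_int [μ.IsOpenPosMeasure] {φ F : X → ℝ} (hφ : Continuous φ) (hF : Continuous F)
    (hF0 : ∀ x, 0 < F x) {C V : ℝ} (hC : 0 < C) (hV : 0 < V) (hFV : ∫ x, F x ∂μ ≤ V)
    (h : ∀ s, 0 ≤ s → ∫ x, hh φ s x ^ 4 * F x ∂μ ≤ C * (∫ x, hh φ s x * F x ∂μ) ^ ((4 : ℝ) / 3))
    (x : X) : - φ x ≤ 2 ^ 9 * C ^ ((3 : ℝ) / 8) * V ^ ((1 : ℝ) / 8) := by
  set N : ℝ → ℝ := fun s => ∫ x in {x | φ x < - s}, F x ∂μ with hN
  have hms : ∀ s : ℝ, MeasurableSet {x | φ x < - s} := fun s =>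
    (isOpen_lt hφ continuous_const).measurableSet
  have hFi : Integrable F μ := int_cont hF
  have hN0 : ∀ s, 0 ≤ N s := fun s => setIntegral_nonneg (hms s) fun x _ => (hF0 x).le
  have hmono : ∀ s t, 0 ≤ s → s ≤ t → N t ≤ N s := fun s t _ hst =>
    setIntegral_mono_set hFi.integrableOn (Eventually.of_forall fun x => (hF0 x).le)
      (LE.le.eventuallyLE fun x (hx : φ x < - t) => show φ x < - s by linarith)
  have hNV : N 0 ≤ V := (setIntegral_le_integral hFi
    (Eventually.of_forall fun x => (hF0 x).le)).trans hFV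
  have hind : ∀ s, N s = ∫ x, {x | φ x < - s}.indicator F x ∂μ := fun s =>
    (integral_indicator (hms s)).symm
  have hN2 : ∀ s, 0 ≤ s → ∀ r, 0 < r →
      r * N (s + r) ≤ C ^ ((3 : ℝ) / 8) * N s ^ ((9 : ℝ) / 8) := by
    intro s hs r hr
    have hhc := hh_cont hφ s
    set a : ℝ := ∫ x, hh φ s x * F x ∂μ with ha
    have ha0 : 0 ≤ a := integral_nonneg fun x => mul_nonneg (hh_nonneg _ _ _) (hF0 x).le
    -- Chebyshev
    have c1 : r * N (s + r) ≤ a := by
      rw [hind, ← integral_const_mul]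
      refine integral_mono ((hFi.indicator (hms _)).const_mul r) (int_cont (hhc.mul hF)) fun x => ?_
      simp only
      by_cases hx : φ x < - (s + r)
      · rw [indicator_of_mem (show x ∈ {x | φ x < - (s + r)} from hx)]
        refine mul_le_mul_of_nonneg_right ?_ (hF0 x).le
        unfold hh
        exact le_max_of_le_left (by linarith)
      · rw [indicator_of_notMem (show x ∉ {x | φ x < - (s + r)} from hx), mul_zero]
        exact mul_nonneg (hh_nonneg _ _ _) (hF0 x).le
    -- Hölder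
    have c2 : a ≤ (∫ x, hh φ s x ^ 4 * F x ∂μ) ^ ((1 : ℝ) / 4) * N s ^ ((3 : ℝ) / 4) := by
      set f : X → ℝ := fun x => hh φ s x * F x ^ ((1 : ℝ) / 4) with hf
      set g : X → ℝ := {x | φ x < - s}.indicator fun x => F x ^ ((3 : ℝ) / 4) with hg
      have hfc : Continuous f := hhc.mul (hF.rpow_const fun x => Or.inl (hF0 x).ne')
      have hgc : Continuous fun x => F x ^ ((3 : ℝ) / 4) :=
        hF.rpow_const fun x => Or.inl (hF0 x).ne'
      have hpq : Real.HolderConjugate 4 (4 / 3) := by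
        rw [Real.holderConjugate_iff]; norm_num
      have h1 := integral_mul_le_Lp_mul_Lq_of_nonneg (μ := μ) hpq (f := f) (g := g)
        (Eventually.of_forall fun x => mul_nonneg (hh_nonneg _ _ _)
          (Real.rpow_nonneg (hF0 x).le _))
        (Eventually.of_forall fun x => indicator_nonneg (fun x _ =>
          Real.rpow_nonneg (hF0 x).le _) x)
        (memLp_cont hfc _) ((memLp_cont hgc _).indicator (hms s))
      have e1 : ∀ x, f x * g x = hh φ s x * F x := by
        intro x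
        by_cases hx : φ x < - s
        · simp only [hf, hg, indicator_of_mem (show x ∈ {x | φ x < - s} from hx)]
          rw [mul_assoc, ← Real.rpow_add (hF0 x)]
          norm_num
        · simp only [hf, hg, indicator_of_notMem (show x ∉ {x | φ x < - s} from hx)]
          have : hh φ s x = 0 := max_eq_right (by linarith [not_lt.1 hx])
          rw [this]; ring
      have e2 : ∀ x, f x ^ (4 : ℝ) = hh φ s x ^ 4 * F x := by
        intro x
        simp only [hf]
        rw [Real.mul_rpow (hh_nonneg _ _ _) (Real.rpow_nonneg (hF0 x).le _),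
          ← Real.rpow_mul (hF0 x).le]
        norm_num
      have e3 : ∀ x, g x ^ ((4 : ℝ) / 3) = {x | φ x < - s}.indicator F x := by
        intro x
        by_cases hx : φ x < - s
        · simp only [hg, indicator_of_mem (show x ∈ {x | φ x < - s} from hx)]
          rw [← Real.rpow_mul (hF0 x).le]
          norm_num
        · simp only [hg, indicator_of_notMem (show x ∉ {x | φ x < - s} from hx)]
          exact Real.zero_rpow (by norm_num)
      simp only [e1, e2, e3] at h1
      rw [← hind s] at h1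
      have e4 : (1 : ℝ) / (4 / 3) = 3 / 4 := by norm_num
      rw [e4] at h1
      exact h1
    have hN0s := hN0 s
    have c3 : a ≤ C ^ ((3 : ℝ) / 8) * N s ^ ((9 : ℝ) / 8) := by
      rcases ha0.eq_or_lt with h0 | h0
      · rw [← h0]; positivity
      have h1 : (∫ x, hh φ s x ^ 4 * F x ∂μ) ^ ((1 : ℝ) / 4) ≤
          (C * a ^ ((4 : ℝ) / 3)) ^ ((1 : ℝ) / 4) :=
        Real.rpow_le_rpow (integral_nonneg fun x =>
          mul_nonneg (pow_nonneg (hh_nonneg _ _ _) _) (hF0 x).le) (h s hs) (by norm_num)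
      have h2 : (C * a ^ ((4 : ℝ) / 3)) ^ ((1 : ℝ) / 4) = C ^ ((1 : ℝ) / 4) * a ^ ((1 : ℝ) / 3) := by
        rw [Real.mul_rpow hC.le (by positivity), ← Real.rpow_mul ha0]
        norm_num
      have h3 : a ≤ C ^ ((1 : ℝ) / 4) * a ^ ((1 : ℝ) / 3) * N s ^ ((3 : ℝ) / 4) :=
        c2.trans (mul_le_mul_of_nonneg_right (h1.trans h2.le) (Real.rpow_nonneg hN0s _))
      have h4 : a ^ ((2 : ℝ) / 3) ≤ C ^ ((1 : ℝ) / 4) * N s ^ ((3 : ℝ) / 4) := by
        have e5 : a ^ ((2 : ℝ) / 3) * a ^ ((1 : ℝ) / 3) = a := by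
          rw [← Real.rpow_add h0]; norm_num
        have h5 : a ^ ((2 : ℝ) / 3) * a ^ ((1 : ℝ) / 3) ≤
            C ^ ((1 : ℝ) / 4) * N s ^ ((3 : ℝ) / 4) * a ^ ((1 : ℝ) / 3) := by
          rw [e5]; linarith
        exact le_of_mul_le_mul_right h5 (by positivity)
      have h6 := Real.rpow_le_rpow (by positivity) h4 (show (0 : ℝ) ≤ 3 / 2 by norm_num)
      rw [← Real.rpow_mul ha0, Real.mul_rpow (by positivity) (Real.rpow_nonneg hN0s _),
        ← Real.rpow_mul hC.le, ← Real.rpow_mul hN0s] at h6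
      norm_num at h6
      norm_num
      exact h6
    exact c1.trans c3
  have hzero := dg (N := N) (B := C ^ ((3 : ℝ) / 8)) (V := V) (by positivity) hV hNV hN0 hmono hN2
  set d : ℝ := 2 ^ 9 * C ^ ((3 : ℝ) / 8) * V ^ ((1 : ℝ) / 8) with hd
  by_contra hcon
  push Not at hcon
  have hopen : IsOpen {x | φ x < - d} := isOpen_lt hφ continuous_const
  have hpos : 0 < μ {x | φ x < - d} := hopen.measure_pos μ ⟨x, show φ x < - d by linarith⟩
  have h1 : F =ᵐ[μ.restrict {x | φ x < - d}] 0 :=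
    (setIntegral_eq_zero_iff_of_nonneg_ae (Eventually.of_forall fun x => (hF0 x).le)
      hFi.integrableOn).1 hzero
  have h2 : ∀ᵐ x ∂(μ.restrict {x | φ x < - d}), False := by
    filter_upwards [h1] with x hx
    exact (hF0 x).ne' hx
  rw [ae_iff] at h2
  simp only [not_false_eq_true, ofPred_true, Measure.restrict_apply MeasurableSet.univ, univ_inter] at h2
  exact hpos.ne' h2

end

end Crest.Agent.R257.Kol2_101
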