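import Mathlib

/-!
R257 / Kp1_405: calculus of Euler fields: `Eul f τ` = there is an analytic vector field `χ`, `χ 0 = 0`,
`χ f = f`, `tr Dχ(0) = τ`. Invariance under local biholomorphisms, units, adding a square.
-/

set_option autoImplicit false
set_option linter.unusedSectionVars false
set_option linter.deprecated false

open Set Filter Topology Metric

noncomputable section

namespace Crest.Agent.R257.Kp_405

variable {E : Type*} [NormedAddCommGroup E] [NormedSpace ℂ E] [FiniteDimensional ℂ E]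
variable {F : Type*} [NormedAddCommGroup F] [NormedSpace ℂ F] [FiniteDimensional ℂ F]

/-- `χ` is an Euler field of `f` at `0` with trace `τ` -/
def IsEul (f : E → ℂ) (χ : E → E) (τ : ℂ) : Prop :=
  AnalyticAt ℂ χ 0 ∧ χ 0 = 0 ∧ (∀ᶠ w in 𝓝 (0 : E), fderiv ℂ f w (χ w) = f w) ∧
    LinearMap.trace ℂ E ((fderiv ℂ χ 0 : E →L[ℂ] E) : E →ₗ[ℂ] E) = τ

/-- existence of an Euler field with trace `τ` -/
def Eul (f : E → ℂ) (τ : ℂ) : Prop := ∃ χ : E → E, IsEul f χ τ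

/-- local biholomorphisms `(E,0) → (F,0)` with given inverse -/
structure LB (Φ : E → F) (Ψ : F → E) : Prop where
  an : AnalyticAt ℂ Φ 0
  an' : AnalyticAt ℂ Ψ 0
  map0 : Φ 0 = 0
  map0' : Ψ 0 = 0
  left : ∀ᶠ w in 𝓝 (0 : E), Ψ (Φ w) = w
  right : ∀ᶠ v in 𝓝 (0 : F), Φ (Ψ v) = v

namespace LB

lemma symm {Φ : E → F} {Ψ : F → E} (h : LB Φ Ψ) : LB Ψ Φ :=
  ⟨h.an', h.an, h.map0', h.map0, h.right, h.left⟩

lemma tendsto {Φ : E → F} {Ψ : F → E} (h : LB Φ Ψ) : Tendsto Φ (𝓝 0) (𝓝 0) := by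
  have := h.an.continuousAt.tendsto
  rwa [h.map0] at this

lemma of_equiv (e : E ≃L[ℂ] F) : LB (e : E → F) (e.symm : F → E) :=
  ⟨(e : E →L[ℂ] F).analyticAt 0, (e.symm : F →L[ℂ] E).analyticAt 0, map_zero e, map_zero e.symm,
    Eventually.of_forall fun w => e.symm_apply_apply w,
    Eventually.of_forall fun w => e.apply_symm_apply w⟩

/-- derivative identities near `0` -/
lemma fderiv_comp {Φ : E → F} {Ψ : F → E} (h : LB Φ Ψ) :
    ∀ᶠ w in 𝓝 (0 : E), (fderiv ℂ Φ w).comp (fderiv ℂ Ψ (Φ w)) = ContinuousLinearMap.id ℂ F := by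
  have h1 : ∀ᶠ v in 𝓝 (0 : F), ∀ᶠ v' in 𝓝 v, Φ (Ψ v') = v' := h.right.eventually_nhds
  have h2 : ∀ᶠ v in 𝓝 (0 : F), AnalyticAt ℂ Ψ v := h.an'.eventually_analyticAt
  filter_upwards [h.tendsto.eventually h1, h.tendsto.eventually h2, h.left,
    h.an.eventually_analyticAt] with w a b c d
  have e1 : HasFDerivAt (fun v' => Φ (Ψ v')) ((fderiv ℂ Φ w).comp (fderiv ℂ Ψ (Φ w))) (Φ w) := by
    have hb := b.differentiableAt.hasFDerivAt
    have hd : HasFDerivAt Φ (fderiv ℂ Φ w) (Ψ (Φ w)) := by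
      rw [c]; exact d.differentiableAt.hasFDerivAt
    exact hd.comp _ hb
  have e2 : HasFDerivAt (fun v' => Φ (Ψ v')) (ContinuousLinearMap.id ℂ F) (Φ w) :=
    (hasFDerivAt_id _).congr_of_eventuallyEq (by filter_upwards [a] with v' hv'; exact hv')
  exact e1.unique e2

lemma fderiv_comp_zero {Φ : E → F} {Ψ : F → E} (h : LB Φ Ψ) :
    (fderiv ℂ Φ 0).comp (fderiv ℂ Ψ 0) = ContinuousLinearMap.id ℂ F := by
  have := h.fderiv_comp.self_of_nhds
  rwa [h.map0] at this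

end LB

lemma an_clm_apply {G H : Type*} [NormedAddCommGroup G] [NormedSpace ℂ G]
    [NormedAddCommGroup H] [NormedSpace ℂ H] {A : E → G →L[ℂ] H} {g : E → G} {x : E}
    (hA : AnalyticAt ℂ A x) (hg : AnalyticAt ℂ g x) : AnalyticAt ℂ (fun w => A w (g w)) x := by
  have h1 := (ContinuousLinearMap.id ℂ (G →L[ℂ] H)).analyticAt_bilinear (A x, g x)
  exact AnalyticAt.comp (g := fun q : (G →L[ℂ] H) × G => (ContinuousLinearMap.id ℂ (G →L[ℂ] H)) q.1 q.2)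
    (f := fun w => (A w, g w)) h1 (hA.prod hg)

/-- derivative of `A(w) (g w)` at a zero of `g` -/
lemma hasFDerivAt_clm_apply_zero {G H : Type*} [NormedAddCommGroup G] [NormedSpace ℂ G]
    [NormedAddCommGroup H] [NormedSpace ℂ H] {A : E → G →L[ℂ] H} {g : E → G} {x : E}
    (hA : AnalyticAt ℂ A x) (hg : AnalyticAt ℂ g x) (h0 : g x = 0) :
    HasFDerivAt (fun w => A w (g w)) ((A x).comp (fderiv ℂ g x)) x := by
  have h1 := hA.differentiableAt.hasFDerivAt.clm_apply hg.differentiableAt.hasFDerivAt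
  refine h1.congr_fderiv ?_
  ext v
  simp [h0]

/-- derivative of `s(w) • g w` at a zero of `g` -/
lemma hasFDerivAt_smul_zero {G : Type*} [NormedAddCommGroup G] [NormedSpace ℂ G]
    {s : E → ℂ} {g : E → G} {x : E}
    (hs : AnalyticAt ℂ s x) (hg : AnalyticAt ℂ g x) (h0 : g x = 0) :
    HasFDerivAt (fun w => s w • g w) ((s x) • (fderiv ℂ g x)) x := by
  have h1 := hs.differentiableAt.hasFDerivAt.smul hg.differentiableAt.hasFDerivAt
  refine h1.congr_fderiv ?_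
  ext v
  simp [h0]

lemma Eul.congr {f g : E → ℂ} {τ : ℂ} (hf : Eul f τ) (h : f =ᶠ[𝓝 0] g) : Eul g τ := by
  obtain ⟨χ, h1, h2, h3, h4⟩ := hf
  refine ⟨χ, h1, h2, ?_, h4⟩
  filter_upwards [h3, h, h.fderiv (𝕜 := ℂ)] with w a b c
  rw [← c, a, b]

/-- (L1) invariance under local biholomorphisms -/
theorem Eul.comp {f : F → ℂ} (hfa : AnalyticAt ℂ f 0) {τ : ℂ} (hf : Eul f τ) {Φ : E → F} {Ψ : F → E}
    (h : LB Φ Ψ) : Eul (fun w => f (Φ w)) τ := by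
  have : CompleteSpace E := FiniteDimensional.complete ℂ E
  have : CompleteSpace F := FiniteDimensional.complete ℂ F
  obtain ⟨χ, h1, h2, h3, h4⟩ := hf
  have hχΦ : AnalyticAt ℂ (fun w => χ (Φ w)) 0 :=
    AnalyticAt.comp (g := χ) (f := Φ) (by rw [h.map0]; exact h1) h.an
  have hDΨ : AnalyticAt ℂ (fun w => fderiv ℂ Ψ (Φ w)) 0 :=
    AnalyticAt.comp (g := fderiv ℂ Ψ) (f := Φ) (by rw [h.map0]; exact h.an'.fderiv) h.an
  have hχ0 : χ (Φ 0) = 0 := by rw [h.map0, h2]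
  have hder := hasFDerivAt_clm_apply_zero hDΨ hχΦ hχ0
  refine ⟨fun w => fderiv ℂ Ψ (Φ w) (χ (Φ w)), an_clm_apply hDΨ hχΦ, by simp [hχ0], ?_, ?_⟩
  · filter_upwards [h.tendsto.eventually h3, h.fderiv_comp, h.an.eventually_analyticAt,
      h.tendsto.eventually hfa.eventually_analyticAt] with w a b c d
    have e1 : HasFDerivAt (fun w => f (Φ w)) ((fderiv ℂ f (Φ w)).comp (fderiv ℂ Φ w)) w :=
      d.differentiableAt.hasFDerivAt.comp w c.differentiableAt.hasFDerivAt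
    rw [e1.fderiv, ContinuousLinearMap.comp_apply]
    have e2 := congrArg (fun T : F →L[ℂ] F => T (χ (Φ w))) b
    simp only [ContinuousLinearMap.comp_apply, ContinuousLinearMap.id_apply] at e2
    rw [e2, a]
  · rw [hder.fderiv]
    have e3 : fderiv ℂ (fun w => χ (Φ w)) 0 = (fderiv ℂ χ 0).comp (fderiv ℂ Φ 0) := by
      have e4 : HasFDerivAt χ (fderiv ℂ χ 0) (Φ 0) := by
        rw [h.map0]; exact h1.differentiableAt.hasFDerivAt
      exact (e4.comp (0 : E) h.an.differentiableAt.hasFDerivAt).fderiv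
    rw [e3, h.map0]
    have e5 : (((fderiv ℂ Ψ 0).comp ((fderiv ℂ χ 0).comp (fderiv ℂ Φ 0)) : E →L[ℂ] E) : E →ₗ[ℂ] E)
        = ((fderiv ℂ Ψ 0 : F →L[ℂ] E) : F →ₗ[ℂ] E) ∘ₗ
          (((fderiv ℂ χ 0).comp (fderiv ℂ Φ 0) : E →L[ℂ] F) : E →ₗ[ℂ] F) := rfl
    rw [e5, LinearMap.trace_comp_comm']
    have e6 : (((fderiv ℂ χ 0).comp (fderiv ℂ Φ 0) : E →L[ℂ] F) : E →ₗ[ℂ] F) ∘ₗ
        ((fderiv ℂ Ψ 0 : F →L[ℂ] E) : F →ₗ[ℂ] E) = ((fderiv ℂ χ 0 : F →L[ℂ] F) : F →ₗ[ℂ] F) := by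
      have := h.fderiv_comp_zero
      ext v
      have e7 := congrArg (fun T : F →L[ℂ] F => T v) this
      simp only [ContinuousLinearMap.comp_apply, ContinuousLinearMap.id_apply] at e7
      simp [e7]
    rw [e6, h4]

/-- (L2) multiplication by a unit -/
theorem Eul.unit_mul {f : E → ℂ} (hfa : AnalyticAt ℂ f 0) {τ : ℂ} (hf : Eul f τ) {u : E → ℂ}
    (hu : AnalyticAt ℂ u 0) (hu0 : u 0 ≠ 0) : Eul (fun w => u w * f w) τ := by
  have : CompleteSpace E := FiniteDimensional.complete ℂ E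
  obtain ⟨χ, h1, h2, h3, h4⟩ := hf
  set D : E → ℂ := fun w => u w + fderiv ℂ u w (χ w) with hD
  have hDa : AnalyticAt ℂ D 0 := hu.add (an_clm_apply hu.fderiv h1)
  have hD0 : D 0 = u 0 := by simp [hD, h2]
  have hD0' : D 0 ≠ 0 := by rw [hD0]; exact hu0
  have hsa : AnalyticAt ℂ (fun w => u w / D w) 0 := hu.div hDa hD0'
  have hder := hasFDerivAt_smul_zero hsa h1 h2
  refine ⟨fun w => (u w / D w) • χ w, hsa.smul h1, by simp [h2], ?_, ?_⟩
  · filter_upwards [h3, hu.eventually_analyticAt, hfa.eventually_analyticAt,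
      hDa.continuousAt.eventually_ne hD0'] with w a b c d
    have e1 := b.differentiableAt.hasFDerivAt.mul c.differentiableAt.hasFDerivAt
    have e2 : fderiv ℂ (fun w => u w * f w) w = u w • fderiv ℂ f w + f w • fderiv ℂ u w := e1.fderiv
    rw [e2, map_smul]
    simp only [ContinuousLinearMap.add_apply, ContinuousLinearMap.smul_apply, smul_eq_mul, a]
    have e3 : u w * f w + f w * fderiv ℂ u w (χ w) = f w * D w := by simp only [hD]; ring
    rw [e3]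
    field_simp
  · rw [hder.fderiv, hD0, div_self hu0, one_smul, h4]

/-- (L3) adding a square -/
theorem Eul.add_sq {f : E → ℂ} (hfa : AnalyticAt ℂ f 0) {τ : ℂ} (hf : Eul f τ) :
    Eul (fun w : E × ℂ => f w.1 + w.2 ^ 2) (τ + 1 / 2) := by
  have : CompleteSpace E := FiniteDimensional.complete ℂ E
  obtain ⟨χ, h1, h2, h3, h4⟩ := hf
  have a1 : AnalyticAt ℂ (fun w : E × ℂ => χ w.1) 0 :=
    AnalyticAt.comp (g := χ) (f := Prod.fst) h1 analyticAt_fst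
  have a2 : AnalyticAt ℂ (fun w : E × ℂ => (1 / 2 : ℂ) * w.2) 0 := analyticAt_const.mul analyticAt_snd
  refine ⟨fun w => (χ w.1, (1 / 2 : ℂ) * w.2), a1.prod a2, by simp [h2], ?_, ?_⟩
  · have t1 : Tendsto (Prod.fst : E × ℂ → E) (𝓝 0) (𝓝 0) := continuous_fst.tendsto' _ _ rfl
    filter_upwards [t1.eventually h3, t1.eventually hfa.eventually_analyticAt] with w a b
    have e1 : HasFDerivAt (fun w : E × ℂ => f w.1)
        ((fderiv ℂ f w.1).comp (ContinuousLinearMap.fst ℂ E ℂ)) w :=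
      b.differentiableAt.hasFDerivAt.comp w hasFDerivAt_fst
    have e2 : HasFDerivAt (fun w : E × ℂ => w.2 ^ 2)
        ((2 * w.2) • (ContinuousLinearMap.snd ℂ E ℂ)) w := by
      have := (hasFDerivAt_snd (𝕜 := ℂ) (E := E) (F := ℂ) (p := w)).pow 2
      refine this.congr_fderiv ?_
      ext v <;> simp
    have e3 : fderiv ℂ (fun w : E × ℂ => f w.1 + w.2 ^ 2) w = _ := (e1.add e2).fderiv
    rw [e3]
    simp only [ContinuousLinearMap.add_apply, ContinuousLinearMap.comp_apply,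
      ContinuousLinearMap.smul_apply, ContinuousLinearMap.coe_fst', ContinuousLinearMap.coe_snd',
      smul_eq_mul, a]
    ring
  · have e1 : HasFDerivAt (fun w : E × ℂ => χ w.1)
        ((fderiv ℂ χ 0).comp (ContinuousLinearMap.fst ℂ E ℂ)) 0 := by
      have : HasFDerivAt χ (fderiv ℂ χ 0) (Prod.fst (0 : E × ℂ)) :=
        h1.differentiableAt.hasFDerivAt
      exact this.comp (0 : E × ℂ) hasFDerivAt_fst
    have e2 : HasFDerivAt (fun w : E × ℂ => (1 / 2 : ℂ) * w.2)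
        ((1 / 2 : ℂ) • (ContinuousLinearMap.snd ℂ E ℂ)) 0 :=
      (hasFDerivAt_snd (𝕜 := ℂ) (E := E) (F := ℂ) (p := 0)).const_mul (1 / 2 : ℂ)
    rw [(e1.prodMk e2).fderiv]
    have e3 : (((((fderiv ℂ χ 0).comp (ContinuousLinearMap.fst ℂ E ℂ)).prod
        ((1 / 2 : ℂ) • (ContinuousLinearMap.snd ℂ E ℂ)) : E × ℂ →L[ℂ] E × ℂ)) : E × ℂ →ₗ[ℂ] E × ℂ)
        = LinearMap.prodMap ((fderiv ℂ χ 0 : E →L[ℂ] E) : E →ₗ[ℂ] E)
          ((1 / 2 : ℂ) • (LinearMap.id : ℂ →ₗ[ℂ] ℂ)) := by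
      ext v <;> simp
    rw [e3, LinearMap.trace_prodMap', h4, map_smul, LinearMap.trace_id]
    simp

/-! ### curves along which the gradient is small -/

/-- there is a curve germ `γ` along which `∇f = O(s^k)`, `f = O(s^(k+1))` -/
def Cv (f : E → ℂ) (k : ℕ) : Prop :=
  ∃ γ : ℂ → E, AnalyticAt ℂ γ 0 ∧ γ 0 = 0 ∧ ∃ c > 0, ∃ C : ℝ, ∀ᶠ s in 𝓝 (0 : ℂ),
    c * ‖s‖ ≤ ‖γ s‖ ∧ ‖fderiv ℂ f (γ s)‖ ≤ C * ‖s‖ ^ k ∧ ‖f (γ s)‖ ≤ C * ‖s‖ ^ (k + 1)

lemma Cv.congr {f g : E → ℂ} {k : ℕ} (hf : Cv f k) (h : f =ᶠ[𝓝 0] g) : Cv g k := by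
  obtain ⟨γ, h1, h2, c, hc, C, h3⟩ := hf
  refine ⟨γ, h1, h2, c, hc, C, ?_⟩
  have t1 : Tendsto γ (𝓝 0) (𝓝 0) := by
    have := h1.continuousAt.tendsto; rwa [h2] at this
  filter_upwards [h3, t1.eventually h, t1.eventually (h.fderiv (𝕜 := ℂ))] with s a b d
  rw [← b, ← d]; exact a

theorem Cv.unit_mul {f : E → ℂ} (hfa : AnalyticAt ℂ f 0) {k : ℕ} (hf : Cv f k) {u : E → ℂ}
    (hu : AnalyticAt ℂ u 0) : Cv (fun w => u w * f w) k := by
  have : CompleteSpace E := FiniteDimensional.complete ℂ E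
  obtain ⟨γ, h1, h2, c, hc, C, h3⟩ := hf
  have t1 : Tendsto γ (𝓝 0) (𝓝 0) := by
    have := h1.continuousAt.tendsto; rwa [h2] at this
  obtain ⟨M, hM, hM'⟩ : ∃ M : ℝ, 0 < M ∧ ∀ᶠ w in 𝓝 (0 : E), ‖u w‖ ≤ M ∧ ‖fderiv ℂ u w‖ ≤ M := by
    refine ⟨max (‖u 0‖ + 1) (‖fderiv ℂ u 0‖ + 1), by positivity, ?_⟩
    have a1 := hu.continuousAt.norm.eventually_lt (continuousAt_const (y := ‖u 0‖ + 1))
      (by simp)
    have a2 := hu.fderiv.continuousAt.norm.eventually_lt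
      (continuousAt_const (y := ‖fderiv ℂ u 0‖ + 1)) (by simp)
    filter_upwards [a1, a2] with w b1 b2
    exact ⟨b1.le.trans (le_max_left _ _), b2.le.trans (le_max_right _ _)⟩
  have hs1 : ∀ᶠ s in 𝓝 (0 : ℂ), ‖s‖ ≤ 1 := by
    filter_upwards [closedBall_mem_nhds (0 : ℂ) one_pos] with s hs
    simpa using hs
  refine ⟨γ, h1, h2, c, hc, M * |C| + |C| * M, ?_⟩
  filter_upwards [h3, t1.eventually hM', t1.eventually hu.eventually_analyticAt,
    t1.eventually hfa.eventually_analyticAt, hs1] with s a b d e hs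
  obtain ⟨a1, a2, a3⟩ := a
  have e1 := d.differentiableAt.hasFDerivAt.mul e.differentiableAt.hasFDerivAt
  have e2 : fderiv ℂ (fun w => u w * f w) (γ s) = u (γ s) • fderiv ℂ f (γ s) +
    f (γ s) • fderiv ℂ u (γ s) := e1.fderiv
  have hC : C ≤ |C| := le_abs_self C
  have hsk : (0:ℝ) ≤ ‖s‖ ^ k := by positivity
  have hsk1 : (0:ℝ) ≤ ‖s‖ ^ (k + 1) := by positivity
  have hk1 : ‖s‖ ^ (k + 1) ≤ ‖s‖ ^ k := by
    rw [pow_succ]; exact mul_le_of_le_one_right hsk hs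
  refine ⟨a1, ?_, ?_⟩
  · rw [e2]
    calc ‖u (γ s) • fderiv ℂ f (γ s) + f (γ s) • fderiv ℂ u (γ s)‖
        ≤ ‖u (γ s)‖ * ‖fderiv ℂ f (γ s)‖ + ‖f (γ s)‖ * ‖fderiv ℂ u (γ s)‖ := by
          refine (norm_add_le _ _).trans ?_
          rw [norm_smul, norm_smul]
      _ ≤ M * (|C| * ‖s‖ ^ k) + (|C| * ‖s‖ ^ k) * M := by
          gcongr
          · exact b.1
          · exact a2.trans (by gcongr)
          · exact a3.trans (by gcongr)
          · exact b.2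
      _ = (M * |C| + |C| * M) * ‖s‖ ^ k := by ring
  · rw [norm_mul]
    calc ‖u (γ s)‖ * ‖f (γ s)‖ ≤ M * (|C| * ‖s‖ ^ (k + 1)) := by
          gcongr
          · exact b.1
          · exact a3.trans (by gcongr)
      _ ≤ (M * |C| + |C| * M) * ‖s‖ ^ (k + 1) := by
          have : 0 ≤ |C| * M * ‖s‖ ^ (k + 1) := by positivity
          nlinarith

theorem Cv.comp {f : F → ℂ} (hfa : AnalyticAt ℂ f 0) {k : ℕ} (hf : Cv f k) {Φ : E → F} {Ψ : F → E}
    (h : LB Φ Ψ) : Cv (fun w => f (Φ w)) k := by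
  have : CompleteSpace E := FiniteDimensional.complete ℂ E
  have : CompleteSpace F := FiniteDimensional.complete ℂ F
  obtain ⟨γ, h1, h2, c, hc, C, h3⟩ := hf
  have t1 : Tendsto γ (𝓝 0) (𝓝 0) := by
    have := h1.continuousAt.tendsto; rwa [h2] at this
  have t2 : Tendsto (fun s => Ψ (γ s)) (𝓝 0) (𝓝 0) := h.symm.tendsto.comp t1
  obtain ⟨M, hM, hM'⟩ : ∃ M : ℝ, 0 < M ∧ ∀ᶠ w in 𝓝 (0 : E), ‖fderiv ℂ Φ w‖ ≤ M := by
    refine ⟨‖fderiv ℂ Φ 0‖ + 1, by positivity, ?_⟩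
    have a2 := h.an.fderiv.continuousAt.norm.eventually_lt
      (continuousAt_const (y := ‖fderiv ℂ Φ 0‖ + 1)) (by simp)
    filter_upwards [a2] with w b2
    exact b2.le
  -- `Φ` is Lipschitz near `0`
  have hO : (fun w => Φ w) =O[𝓝 0] (fun w : E => w) := by
    have := h.an.differentiableAt.hasFDerivAt.isBigO_sub
    simpa [h.map0] using this
  obtain ⟨K, hK, hK'⟩ := hO.exists_pos
  have hK'' := hK'.bound
  refine ⟨fun s => Ψ (γ s), AnalyticAt.comp (g := Ψ) (f := γ) (by rw [h2]; exact h.an') h1,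
    by simp [h2, h.map0'], c / K, by positivity, |C| * M + |C|, ?_⟩
  filter_upwards [h3, t1.eventually h.right, t2.eventually h.an.eventually_analyticAt,
    t2.eventually hM', t1.eventually hfa.eventually_analyticAt, t2.eventually hK''] with
    s a b d e g l
  obtain ⟨a1, a2, a3⟩ := a
  have hC : C ≤ |C| := le_abs_self C
  refine ⟨?_, ?_, ?_⟩
  · rw [b] at l
    rw [div_mul_eq_mul_div, div_le_iff₀ hK]
    calc c * ‖s‖ ≤ ‖γ s‖ := a1
      _ ≤ K * ‖Ψ (γ s)‖ := l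
      _ = ‖Ψ (γ s)‖ * K := mul_comm _ _
  · have e1 : HasFDerivAt (fun w => f (Φ w)) ((fderiv ℂ f (γ s)).comp (fderiv ℂ Φ (Ψ (γ s))))
        (Ψ (γ s)) := by
      have : HasFDerivAt f (fderiv ℂ f (γ s)) (Φ (Ψ (γ s))) := by
        rw [b]; exact g.differentiableAt.hasFDerivAt
      exact this.comp _ d.differentiableAt.hasFDerivAt
    rw [e1.fderiv]
    calc ‖(fderiv ℂ f (γ s)).comp (fderiv ℂ Φ (Ψ (γ s)))‖
        ≤ ‖fderiv ℂ f (γ s)‖ * ‖fderiv ℂ Φ (Ψ (γ s))‖ := ContinuousLinearMap.opNorm_comp_le _ _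
      _ ≤ (|C| * ‖s‖ ^ k) * M := by
          gcongr
          exact a2.trans (by gcongr)
      _ ≤ (|C| * M + |C|) * ‖s‖ ^ k := by
          have : 0 ≤ |C| * ‖s‖ ^ k := by positivity
          nlinarith
  · rw [b]
    calc ‖f (γ s)‖ ≤ C * ‖s‖ ^ (k + 1) := a3
      _ ≤ |C| * ‖s‖ ^ (k + 1) := by gcongr
      _ ≤ (|C| * M + |C|) * ‖s‖ ^ (k + 1) := by
          have : 0 ≤ |C| * M * ‖s‖ ^ (k + 1) := by positivity
          nlinarith

theorem Cv.add_sq {f : E → ℂ} (hfa : AnalyticAt ℂ f 0) {k : ℕ} (hf : Cv f k) :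
    Cv (fun w : E × ℂ => f w.1 + w.2 ^ 2) k := by
  obtain ⟨γ, h1, h2, c, hc, C, h3⟩ := hf
  have t1 : Tendsto γ (𝓝 0) (𝓝 0) := by
    have := h1.continuousAt.tendsto; rwa [h2] at this
  refine ⟨fun s => (γ s, 0), h1.prod analyticAt_const, by simp [h2], c, hc, C, ?_⟩
  filter_upwards [h3, t1.eventually hfa.eventually_analyticAt] with s a b
  obtain ⟨a1, a2, a3⟩ := a
  have e1 : HasFDerivAt (fun w : E × ℂ => f w.1)
      ((fderiv ℂ f (γ s)).comp (ContinuousLinearMap.fst ℂ E ℂ)) (γ s, 0) := by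
    have : HasFDerivAt f (fderiv ℂ f (γ s)) (Prod.fst (γ s, (0:ℂ))) :=
      b.differentiableAt.hasFDerivAt
    exact this.comp (γ s, (0:ℂ)) hasFDerivAt_fst
  have e2 : HasFDerivAt (fun w : E × ℂ => w.2 ^ 2) (0 : E × ℂ →L[ℂ] ℂ) (γ s, 0) := by
    have := (hasFDerivAt_snd (𝕜 := ℂ) (E := E) (F := ℂ) (p := (γ s, (0:ℂ)))).pow 2
    refine this.congr_fderiv ?_
    ext v <;> simp
  refine ⟨a1.trans ?_, ?_, ?_⟩
  · exact le_max_left ‖γ s‖ ‖(0:ℂ)‖
  · have e3 : fderiv ℂ (fun w : E × ℂ => f w.1 + w.2 ^ 2) (γ s, 0) = _ := (e1.add e2).fderiv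
    rw [e3, add_zero]
    refine (ContinuousLinearMap.opNorm_comp_le _ _).trans ?_
    calc ‖fderiv ℂ f (γ s)‖ * ‖ContinuousLinearMap.fst ℂ E ℂ‖ ≤ ‖fderiv ℂ f (γ s)‖ * 1 := by
          gcongr
          exact ContinuousLinearMap.norm_fst_le _ _ _
      _ = ‖fderiv ℂ f (γ s)‖ := mul_one _
      _ ≤ _ := a2
  · simpa using a3

/-- the Łojasiewicz exponent bounds `k` -/
theorem Cv.le_of_lojasiewicz {f : E → ℂ} {k N : ℕ} (hf : Cv f k) {c : ℝ} (hc : 0 < c)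
    (h : ∀ᶠ w in 𝓝 (0 : E), c * ‖w‖ ^ N ≤ ‖fderiv ℂ f w‖) : k ≤ N := by
  obtain ⟨γ, h1, h2, c', hc', C, h3⟩ := hf
  have t1 : Tendsto γ (𝓝 0) (𝓝 0) := by
    have := h1.continuousAt.tendsto; rwa [h2] at this
  by_contra hk
  push Not at hk
  have h4 : ∀ᶠ s in 𝓝 (0 : ℂ), c * c' ^ N * ‖s‖ ^ N ≤ |C| * ‖s‖ ^ (N + 1) := by
    have hs1 : ∀ᶠ s in 𝓝 (0 : ℂ), ‖s‖ ≤ 1 := by
      filter_upwards [closedBall_mem_nhds (0 : ℂ) one_pos] with s hs
      simpa using hs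
    filter_upwards [h3, t1.eventually h, hs1] with s a b hs
    obtain ⟨a1, a2, -⟩ := a
    calc c * c' ^ N * ‖s‖ ^ N = c * (c' * ‖s‖) ^ N := by ring
      _ ≤ c * ‖γ s‖ ^ N := by gcongr
      _ ≤ ‖fderiv ℂ f (γ s)‖ := b
      _ ≤ C * ‖s‖ ^ k := a2
      _ ≤ |C| * ‖s‖ ^ k := by gcongr; exact le_abs_self C
      _ ≤ |C| * ‖s‖ ^ (N + 1) := by
          gcongr ?_ * ?_
          exact pow_le_pow_of_le_one (norm_nonneg _) hs hk
  have h5 : ∀ᶠ s in 𝓝[≠] (0 : ℂ), c * c' ^ N ≤ |C| * ‖s‖ := by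
    filter_upwards [h4.filter_mono nhdsWithin_le_nhds, self_mem_nhdsWithin] with s a b
    have hs : 0 < ‖s‖ := norm_pos_iff.2 b
    have hsN : 0 < ‖s‖ ^ N := by positivity
    rw [pow_succ] at a
    refine le_of_mul_le_mul_right ?_ hsN
    linarith
  have h6 : Tendsto (fun s : ℂ => |C| * ‖s‖) (𝓝[≠] (0 : ℂ)) (𝓝 (|C| * ‖(0 : ℂ)‖)) :=
    ((continuous_norm.const_mul |C|).tendsto (0 : ℂ)).mono_left nhdsWithin_le_nhds
  have h7 := ge_of_tendsto h6 h5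
  have h8 : 0 < c * c' ^ N := by positivity
  simp at h7
  linarith

end Crest.Agent.R257.Kp_405
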