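import Crest.Agent.R257.Kp1_405
import Crest.Agent.R275.Loc2A_879

/-!
R257 / Kp2_405: Weierstrass preparation at the level of functions; one-variable divisions.
-/

set_option autoImplicit false
set_option linter.unusedSectionVars false
set_option linter.deprecated false

open Set Filter Topology Metric

noncomputable section

namespace Crest.Agent.R257.Kp_405

variable {E : Type*} [NormedAddCommGroup E] [NormedSpace ℂ E] [FiniteDimensional ℂ E]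

/-- Weierstrass preparation, function form. -/
theorem wprepF {F : E × ℂ → ℂ} (hF : AnalyticAt ℂ F 0) {n : ℕ}
    (hn : analyticOrderAt (fun w : ℂ => F (0, w)) 0 = n) :
    ∃ (u : E × ℂ → ℂ) (c : Fin n → E → ℂ), AnalyticAt ℂ u 0 ∧ u 0 ≠ 0 ∧
      (∀ j, AnalyticAt ℂ (c j) 0) ∧ (∀ j, c j 0 = 0) ∧
      ∀ᶠ p in 𝓝 (0 : E × ℂ), F p = u p * (p.2 ^ n + ∑ j : Fin n, c j p.1 * p.2 ^ (j : ℕ)) := by
  have hF' : AnalyticAt ℂ F ((0 : E), (0 : ℂ)) := hF
  have hg : AnalyticAt ℂ (fun p : E × ℂ => p.2 ^ n) ((0 : E), (0 : ℂ)) := analyticAt_snd.pow n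
  obtain ⟨q, c, hq, hc, he⟩ := Crest.Agent.R275.Loc2879.wdiv (z₀ := (0 : E)) hF' hn hg
  have hfa : AnalyticAt ℂ (fun w : ℂ => F (0, w)) 0 :=
    AnalyticAt.comp (g := F) (f := fun w : ℂ => ((0 : E), w)) hF'
      (analyticAt_const.prod analyticAt_id)
  have hqa : AnalyticAt ℂ (fun w : ℂ => q (0, w)) 0 :=
    AnalyticAt.comp (g := q) (f := fun w : ℂ => ((0 : E), w)) hq
      (analyticAt_const.prod analyticAt_id)
  obtain ⟨v, hv, hv0, hfv⟩ := (hfa.analyticOrderAt_eq_natCast).1 hn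
  have t1 : Tendsto (fun w : ℂ => ((0 : E), w)) (𝓝 0) (𝓝 ((0 : E), (0 : ℂ))) :=
    (Continuous.prodMk_right (0 : E)).tendsto 0
  -- the polynomial at the central point vanishes
  set P : Polynomial ℂ := ∑ j : Fin n, Polynomial.C (c j 0) * Polynomial.X ^ (j : ℕ) with hP
  have hPe : ∀ w, P.eval w = ∑ j : Fin n, c j 0 * w ^ (j : ℕ) := by
    intro w; simp [hP, Polynomial.eval_finsetSum]
  have hPd : P.degree < n := by
    refine (Polynomial.degree_sum_le _ _).trans_lt ?_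
    rw [Finset.sup_lt_iff (by exact_mod_cast WithBot.bot_lt_coe n)]
    intro j _
    refine (Polynomial.degree_C_mul_X_pow_le _ _).trans_lt ?_
    exact_mod_cast j.2
  have key : ∀ᶠ w in 𝓝 (0 : ℂ), P.eval w = w ^ n * (1 - q (0, w) * v w) := by
    filter_upwards [t1.eventually he, hfv] with w a b
    simp only [sub_zero, smul_eq_mul] at b
    simp only [b] at a
    rw [hPe]
    linear_combination -a
  have hh : ContinuousAt (fun w : ℂ => 1 - q (0, w) * v w) 0 :=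
    continuousAt_const.sub (hqa.continuousAt.mul hv.continuousAt)
  have hP0 : P = 0 := Crest.Agent.R275.Loc2879.poly_eq_zero hPd hh
    (key.filter_mono nhdsWithin_le_nhds)
  have hc0 : ∀ j, c j 0 = 0 := by
    intro j
    have := congrArg (fun Q : Polynomial ℂ => Q.coeff j) hP0
    simp only [hP, Polynomial.finsetSum_coeff, Polynomial.coeff_C_mul, Polynomial.coeff_X_pow,
      Polynomial.coeff_zero] at this
    rw [Finset.sum_eq_single j] at this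
    · simpa using this
    · intro b _ hb
      have : (j : ℕ) ≠ b := fun h => hb (Fin.ext h.symm)
      simp [this]
    · simp
  have hq0 : q (0, 0) * v 0 = 1 := by
    have h1 : ∀ᶠ w in 𝓝[≠] (0 : ℂ), 1 - q (0, w) * v w = 0 := by
      filter_upwards [key.filter_mono nhdsWithin_le_nhds, self_mem_nhdsWithin] with w a b
      rw [hP0, Polynomial.eval_zero] at a
      have b' : w ^ n ≠ 0 := pow_ne_zero _ b
      exact (mul_eq_zero.1 a.symm).resolve_left b'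
    have h2 : Tendsto (fun w : ℂ => 1 - q (0, w) * v w) (𝓝[≠] (0 : ℂ)) (𝓝 (1 - q (0, 0) * v 0)) :=
      hh.tendsto.mono_left nhdsWithin_le_nhds
    have h3 := tendsto_nhds_unique (h2.congr' h1) tendsto_const_nhds
    linear_combination -h3
  have hq0' : q (0, 0) ≠ 0 := fun h => by rw [h, zero_mul] at hq0; exact zero_ne_one hq0
  refine ⟨fun p => (q p)⁻¹, fun j z => - c j z, hq.inv hq0', inv_ne_zero hq0',
    fun j => (hc j).neg, fun j => by simp [hc0 j], ?_⟩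
  have hne : ∀ᶠ p in 𝓝 (0 : E × ℂ), q p ≠ 0 := hq.continuousAt.eventually_ne hq0'
  filter_upwards [he, hne] with p a b
  have : (∑ j : Fin n, - c j p.1 * p.2 ^ (j : ℕ)) = - ∑ j : Fin n, c j p.1 * p.2 ^ (j : ℕ) := by
    rw [← Finset.sum_neg_distrib]
    exact Finset.sum_congr rfl fun j _ => by ring
  rw [this, a]
  field_simp
  ring

/-- degree `2` -/
theorem wprep2 {F : E × ℂ → ℂ} (hF : AnalyticAt ℂ F 0)
    (hn : analyticOrderAt (fun w : ℂ => F (0, w)) 0 = 2) :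
    ∃ (u : E × ℂ → ℂ) (a₀ a₁ : E → ℂ), AnalyticAt ℂ u 0 ∧ u 0 ≠ 0 ∧
      AnalyticAt ℂ a₀ 0 ∧ AnalyticAt ℂ a₁ 0 ∧ a₀ 0 = 0 ∧ a₁ 0 = 0 ∧
      ∀ᶠ p in 𝓝 (0 : E × ℂ), F p = u p * (p.2 ^ 2 + a₁ p.1 * p.2 + a₀ p.1) := by
  obtain ⟨u, c, hu, hu0, hc, hc0, he⟩ := wprepF hF (n := 2) (by exact_mod_cast hn)
  refine ⟨u, c 0, c 1, hu, hu0, hc 0, hc 1, hc0 0, hc0 1, ?_⟩
  filter_upwards [he] with p a
  rw [a, Fin.sum_univ_two]
  simp only [Fin.val_zero, Fin.val_one, pow_zero, pow_one, mul_one]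
  ring

/-- degree `3` -/
theorem wprep3 {F : E × ℂ → ℂ} (hF : AnalyticAt ℂ F 0)
    (hn : analyticOrderAt (fun w : ℂ => F (0, w)) 0 = 3) :
    ∃ (u : E × ℂ → ℂ) (a₀ a₁ a₂ : E → ℂ), AnalyticAt ℂ u 0 ∧ u 0 ≠ 0 ∧
      AnalyticAt ℂ a₀ 0 ∧ AnalyticAt ℂ a₁ 0 ∧ AnalyticAt ℂ a₂ 0 ∧
      a₀ 0 = 0 ∧ a₁ 0 = 0 ∧ a₂ 0 = 0 ∧
      ∀ᶠ p in 𝓝 (0 : E × ℂ), F p = u p * (p.2 ^ 3 + a₂ p.1 * p.2 ^ 2 + a₁ p.1 * p.2 + a₀ p.1) := by
  obtain ⟨u, c, hu, hu0, hc, hc0, he⟩ := wprepF hF (n := 3) (by exact_mod_cast hn)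
  refine ⟨u, c 0, c 1, c 2, hu, hu0, hc 0, hc 1, hc 2, hc0 0, hc0 1, hc0 2, ?_⟩
  filter_upwards [he] with p a
  rw [a, Fin.sum_univ_three]
  simp only [Fin.val_zero, Fin.val_one, Fin.val_two, pow_zero, pow_one, mul_one]
  ring

/-! ### shears -/

/-- the shear `(z, w) ↦ (z, w + θ z)` -/
def shear (θ : E → ℂ) (p : E × ℂ) : E × ℂ := (p.1, p.2 + θ p.1)

lemma LB_shear {θ : E → ℂ} (hθ : AnalyticAt ℂ θ 0) (h0 : θ 0 = 0) :
    LB (shear θ) (shear (fun z => - θ z)) := by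
  have a1 : ∀ θ : E → ℂ, AnalyticAt ℂ θ 0 → AnalyticAt ℂ (shear θ) 0 := by
    intro θ hθ
    have : AnalyticAt ℂ (fun p : E × ℂ => θ p.1) 0 :=
      AnalyticAt.comp (g := θ) (f := Prod.fst) hθ analyticAt_fst
    exact analyticAt_fst.prod (analyticAt_snd.add this)
  refine ⟨a1 θ hθ, a1 _ hθ.neg, by simp [shear, h0], by simp [shear, h0], ?_, ?_⟩
  · exact Eventually.of_forall fun w => by simp [shear]
  · exact Eventually.of_forall fun w => by simp [shear]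

/-- swapping the factors of `ℂ × ℂ` -/
lemma LB_swap : LB (Prod.swap : ℂ × ℂ → ℂ × ℂ) (Prod.swap : ℂ × ℂ → ℂ × ℂ) := by
  refine ⟨?_, ?_, rfl, rfl, Eventually.of_forall fun _ => rfl, Eventually.of_forall fun _ => rfl⟩
  · exact analyticAt_snd.prod analyticAt_fst
  · exact analyticAt_snd.prod analyticAt_fst

lemma LB.comp {F G : Type*} [NormedAddCommGroup F] [NormedSpace ℂ F] [FiniteDimensional ℂ F]
    [NormedAddCommGroup G] [NormedSpace ℂ G] [FiniteDimensional ℂ G]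
    {Φ : E → F} {Ψ : F → E} {Φ' : F → G} {Ψ' : G → F}
    (h' : LB Φ' Ψ') (h : LB Φ Ψ) : LB (fun w => Φ' (Φ w)) (fun w => Ψ (Ψ' w)) := by
  refine ⟨?_, ?_, by simp [h.map0, h'.map0], by simp [h.map0', h'.map0'], ?_, ?_⟩
  · exact AnalyticAt.comp (g := Φ') (f := Φ) (by rw [h.map0]; exact h'.an) h.an
  · exact AnalyticAt.comp (g := Ψ) (f := Ψ') (by rw [h'.map0']; exact h.an') h'.an'
  · filter_upwards [h.tendsto.eventually h'.left, h.left] with w a b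
    rw [a, b]
  · filter_upwards [h'.symm.tendsto.eventually h.right, h'.right] with w a b
    rw [a, b]

/-! ### one variable -/

/-- extraction of a power of `y` from a bound -/
lemma exists_pow_mul_of_bound {a : ℂ → ℂ} (ha : AnalyticAt ℂ a 0) {n : ℕ} {C : ℝ}
    (h : ∀ᶠ y in 𝓝 (0 : ℂ), ‖a y‖ ≤ C * ‖y‖ ^ n) :
    ∃ g : ℂ → ℂ, AnalyticAt ℂ g 0 ∧ ∀ᶠ y in 𝓝 (0 : ℂ), a y = y ^ n * g y := by
  have h1 : (n : ℕ∞) ≤ analyticOrderAt a 0 := by
    by_contra hlt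
    push Not at hlt
    obtain ⟨m, hm⟩ := ENat.ne_top_iff_exists.1 (ne_top_of_lt hlt)
    rw [← hm] at hlt
    have hmn : m < n := by exact_mod_cast hlt
    obtain ⟨g, hg, hg0, he⟩ := (ha.analyticOrderAt_eq_natCast).1 hm.symm
    have h2 : ∀ᶠ y in 𝓝[≠] (0 : ℂ), ‖g y‖ ≤ |C| * ‖y‖ := by
      have hs1 : ∀ᶠ s in 𝓝 (0 : ℂ), ‖s‖ ≤ 1 := by
        filter_upwards [closedBall_mem_nhds (0 : ℂ) one_pos] with s hs
        simpa using hs
      filter_upwards [h.filter_mono nhdsWithin_le_nhds, he.filter_mono nhdsWithin_le_nhds,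
        hs1.filter_mono nhdsWithin_le_nhds, self_mem_nhdsWithin] with y b c hy1 d
      have hy : 0 < ‖y‖ := norm_pos_iff.2 d
      rw [c, sub_zero, norm_smul, norm_pow] at b
      have e1 : C * ‖y‖ ^ n ≤ |C| * ‖y‖ ^ (m + 1) := by
        calc C * ‖y‖ ^ n ≤ |C| * ‖y‖ ^ n := by gcongr; exact le_abs_self C
          _ ≤ |C| * ‖y‖ ^ (m + 1) := by
            gcongr ?_ * ?_
            exact pow_le_pow_of_le_one (norm_nonneg _) hy1 hmn
      have e2 : ‖y‖ ^ m * ‖g y‖ ≤ ‖y‖ ^ m * (|C| * ‖y‖) := by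
        calc _ ≤ _ := b
          _ ≤ _ := e1
          _ = _ := by ring
      exact le_of_mul_le_mul_left e2 (by positivity)
    have h3 : Tendsto (fun y : ℂ => |C| * ‖y‖) (𝓝[≠] (0 : ℂ)) (𝓝 (|C| * ‖(0 : ℂ)‖)) :=
      ((continuous_norm.const_mul |C|).tendsto (0 : ℂ)).mono_left nhdsWithin_le_nhds
    have h4 : Tendsto (fun y : ℂ => ‖g y‖) (𝓝[≠] (0 : ℂ)) (𝓝 ‖g 0‖) :=
      hg.continuousAt.norm.tendsto.mono_left nhdsWithin_le_nhds
    have h5 := le_of_tendsto_of_tendsto h4 h3 h2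
    simp at h5
    exact hg0 h5
  obtain ⟨g, hg, he⟩ := (natCast_le_analyticOrderAt ha).1 h1
  exact ⟨g, hg, by simpa using he⟩

/-- a function of finite order: `a = y^n g`, `g 0 ≠ 0`, and the derivative -/
lemma deriv_pow_mul {a g : ℂ → ℂ} {n : ℕ} (hg : AnalyticAt ℂ g 0)
    (he : ∀ᶠ y in 𝓝 (0 : ℂ), a y = y ^ (n + 1) * g y) :
    ∀ᶠ y in 𝓝 (0 : ℂ), deriv a y = y ^ n * ((n + 1) * g y + y * deriv g y) := by
  filter_upwards [he.eventually_nhds, hg.eventually_analyticAt] with y a1 a2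
  have a1' : a =ᶠ[𝓝 y] fun y => y ^ (n + 1) * g y := a1
  rw [a1'.deriv_eq]
  have e1 : HasDerivAt (fun y : ℂ => y ^ (n + 1)) (((n + 1 : ℕ) : ℂ) * y ^ n) y := by
    simpa using hasDerivAt_pow (n + 1) y
  have e2 := (e1.mul a2.differentiableAt.hasDerivAt).deriv
  have e3 : deriv (fun y => y ^ (n + 1) * g y) y =
    ((n + 1 : ℕ) : ℂ) * y ^ n * g y + y ^ (n + 1) * deriv g y := e2
  rw [e3]
  push_cast
  ring

end Crest.Agent.R257.Kp_405
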