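import Crest.Agent.R257.Kp2_405

/-!
R257 / Kp3_405: Euler fields of the models `x² + c(y)`, `ξ (z² + B(ξ))`, `x³ + b(y) x + c(y)`.
-/

set_option autoImplicit false
set_option linter.unusedSectionVars false
set_option linter.deprecated false

open Set Filter Topology Metric

noncomputable section

namespace Crest.Agent.R257.Kp_405

variable {E : Type*} [NormedAddCommGroup E] [NormedSpace ℂ E] [FiniteDimensional ℂ E]
variable {F : Type*} [NormedAddCommGroup F] [NormedSpace ℂ F] [FiniteDimensional ℂ F]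

/-- the result: an Euler field with trace `1/2 + 1/h` and the bound for `h` -/
def PRes (f : E → ℂ) : Prop :=
  ∃ h k : ℕ, 1 ≤ h ∧ h ≤ 2 * k + 30 ∧ Eul f (1 / 2 + 1 / (h : ℂ)) ∧ Cv f k

lemma PRes.congr {f g : E → ℂ} (hf : PRes f) (h : f =ᶠ[𝓝 0] g) : PRes g := by
  obtain ⟨n, k, h1, h2, h3, h4⟩ := hf
  exact ⟨n, k, h1, h2, h3.congr h, h4.congr h⟩

lemma PRes.unit_mul {f : E → ℂ} (hfa : AnalyticAt ℂ f 0) (hf : PRes f) {u : E → ℂ}
    (hu : AnalyticAt ℂ u 0) (hu0 : u 0 ≠ 0) : PRes (fun w => u w * f w) := by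
  obtain ⟨n, k, h1, h2, h3, h4⟩ := hf
  exact ⟨n, k, h1, h2, h3.unit_mul hfa hu hu0, h4.unit_mul hfa hu⟩

lemma PRes.comp {f : F → ℂ} (hfa : AnalyticAt ℂ f 0) (hf : PRes f) {Φ : E → F} {Ψ : F → E}
    (h : LB Φ Ψ) : PRes (fun w => f (Φ w)) := by
  obtain ⟨n, k, h1, h2, h3, h4⟩ := hf
  exact ⟨n, k, h1, h2, h3.comp hfa h, h4.comp hfa h⟩

lemma trace_prod (T : ℂ × ℂ →ₗ[ℂ] ℂ × ℂ) :
    LinearMap.trace ℂ (ℂ × ℂ) T = (T (1, 0)).1 + (T (0, 1)).2 := by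
  rw [LinearMap.trace_eq_matrix_trace ℂ (Module.Basis.finTwoProd ℂ) T, Matrix.trace_fin_two,
    LinearMap.toMatrix_apply, LinearMap.toMatrix_apply]
  simp

/-- Euler fields in the plane -/
lemma Eul_plane {W β α : ℂ × ℂ → ℂ} (hβ : AnalyticAt ℂ β 0) (hα : AnalyticAt ℂ α 0)
    (hβ0 : β 0 = 0) (hα0 : α 0 = 0)
    (h : ∀ᶠ w in 𝓝 (0 : ℂ × ℂ), fderiv ℂ W w (β w, α w) = W w) {τ : ℂ}
    (hτ : fderiv ℂ β 0 (1, 0) + fderiv ℂ α 0 (0, 1) = τ) : Eul W τ := by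
  refine ⟨fun w => (β w, α w), hβ.prod hα, by simp [hβ0, hα0], h, ?_⟩
  have e1 := hβ.differentiableAt.hasFDerivAt.prodMk hα.differentiableAt.hasFDerivAt
  rw [e1.fderiv, trace_prod]
  simpa using hτ

/-- functions of the first variable -/
lemma hasFDerivAt_fst_fun {c : ℂ → ℂ} {w : ℂ × ℂ} (hc : AnalyticAt ℂ c w.1) :
    HasFDerivAt (fun p : ℂ × ℂ => c p.1) (deriv c w.1 • ContinuousLinearMap.fst ℂ ℂ ℂ) w :=
  hc.differentiableAt.hasDerivAt.comp_hasFDerivAt w hasFDerivAt_fst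

lemma an_fst {c : ℂ → ℂ} (hc : AnalyticAt ℂ c 0) : AnalyticAt ℂ (fun p : ℂ × ℂ => c p.1) 0 :=
  AnalyticAt.comp (g := c) (f := Prod.fst) hc analyticAt_fst

lemma tendsto_fst0 : Tendsto (Prod.fst : ℂ × ℂ → ℂ) (𝓝 0) (𝓝 0) := continuous_fst.tendsto' _ _ rfl

lemma ev_fst {P : ℂ → Prop} (h : ∀ᶠ y in 𝓝 (0 : ℂ), P y) : ∀ᶠ w in 𝓝 (0 : ℂ × ℂ), P w.1 :=
  tendsto_fst0.eventually h

/-- the quotient `y g / ((n+1) g + y g')` -/
lemma quot_aux {g : ℂ → ℂ} (hg : AnalyticAt ℂ g 0) (hg0 : g 0 ≠ 0) (n : ℕ) :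
    ∃ q : ℂ → ℂ, AnalyticAt ℂ q 0 ∧ q 0 = 1 / ((n : ℂ) + 1) ∧
      ∀ᶠ y in 𝓝 (0 : ℂ), q y * ((n + 1) * g y + y * deriv g y) = g y := by
  have hn : ((n : ℂ) + 1) ≠ 0 := Nat.cast_add_one_ne_zero n
  have hD : AnalyticAt ℂ (fun y => ((n : ℂ) + 1) * g y + y * deriv g y) 0 :=
    (analyticAt_const.mul hg).add (analyticAt_id.mul hg.deriv)
  have hD0 : ((n : ℂ) + 1) * g 0 + 0 * deriv g 0 ≠ 0 := by simp [hn, hg0]
  refine ⟨fun y => g y / (((n : ℂ) + 1) * g y + y * deriv g y), hg.div hD hD0, ?_, ?_⟩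
  · simp only [zero_mul, add_zero]
    field_simp
  · filter_upwards [hD.continuousAt.eventually_ne hD0] with y hy
    exact div_mul_cancel₀ _ hy

/-! ### the model `x² + c(y)` -/

theorem model_A {c g : ℂ → ℂ} (hg : AnalyticAt ℂ g 0) (hg0 : g 0 ≠ 0) {n : ℕ}
    (hc : AnalyticAt ℂ c 0) (he : ∀ᶠ y in 𝓝 (0 : ℂ), c y = y ^ (n + 1) * g y) :
    PRes (fun w : ℂ × ℂ => w.2 ^ 2 + c w.1) := by
  obtain ⟨q, hq, hq0, hqe⟩ := quot_aux hg hg0 n
  have hder := deriv_pow_mul hg he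
  have hW : ∀ w : ℂ × ℂ, AnalyticAt ℂ c w.1 → HasFDerivAt (fun w : ℂ × ℂ => w.2 ^ 2 + c w.1)
      ((2 * w.2) • ContinuousLinearMap.snd ℂ ℂ ℂ + deriv c w.1 • ContinuousLinearMap.fst ℂ ℂ ℂ) w := by
    intro w hw
    have e2 : HasFDerivAt (fun w : ℂ × ℂ => w.2 ^ 2)
        ((2 * w.2) • (ContinuousLinearMap.snd ℂ ℂ ℂ)) w := by
      have := (hasFDerivAt_snd (𝕜 := ℂ) (E := ℂ) (F := ℂ) (p := w)).pow 2
      refine this.congr_fderiv ?_
      ext v <;> simp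
    exact e2.add (hasFDerivAt_fst_fun hw)
  refine ⟨n + 1, n, by omega, by omega, ?_, ?_⟩
  · have a1 : AnalyticAt ℂ (fun w : ℂ × ℂ => w.1 * q w.1) 0 := analyticAt_fst.mul (an_fst hq)
    have a2 : AnalyticAt ℂ (fun w : ℂ × ℂ => (1 / 2 : ℂ) * w.2) 0 :=
      analyticAt_const.mul analyticAt_snd
    refine Eul_plane a1 a2 (by simp) (by simp) ?_ ?_
    · filter_upwards [ev_fst hc.eventually_analyticAt, ev_fst he, ev_fst hder, ev_fst hqe] with
        w h1 h2 h3 h4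
      rw [(hW w h1).fderiv]
      simp only [ContinuousLinearMap.add_apply, ContinuousLinearMap.smul_apply,
        ContinuousLinearMap.coe_fst', ContinuousLinearMap.coe_snd', smul_eq_mul, h2, h3]
      linear_combination (w.1 ^ (n + 1)) * h4
    · have e1 : HasFDerivAt (fun w : ℂ × ℂ => w.1 * q w.1) _ (0 : ℂ × ℂ) :=
        hasFDerivAt_fst.mul (hasFDerivAt_fst_fun (w := 0) hq)
      have e2 : HasFDerivAt (fun w : ℂ × ℂ => (1 / 2 : ℂ) * w.2)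
          ((1 / 2 : ℂ) • (ContinuousLinearMap.snd ℂ ℂ ℂ)) 0 :=
        (hasFDerivAt_snd (𝕜 := ℂ) (E := ℂ) (F := ℂ) (p := 0)).const_mul (1 / 2 : ℂ)
      rw [e1.fderiv, e2.fderiv]
      simp [hq0]
      ring
  · have e1 := hc.deriv
    obtain ⟨M, hM⟩ : ∃ M : ℝ, ∀ᶠ y in 𝓝 (0 : ℂ), ‖g y‖ ≤ M ∧
        ‖((n : ℂ) + 1) * g y + y * deriv g y‖ ≤ M := by
      have hD : AnalyticAt ℂ (fun y => ((n : ℂ) + 1) * g y + y * deriv g y) 0 :=
        (analyticAt_const.mul hg).add (analyticAt_id.mul hg.deriv)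
      refine ⟨max (‖g 0‖ + 1) (‖((n : ℂ) + 1) * g 0 + 0 * deriv g 0‖ + 1), ?_⟩
      have b1 := hg.continuousAt.norm.eventually_lt (continuousAt_const (y := ‖g 0‖ + 1)) (by simp)
      have b2 := hD.continuousAt.norm.eventually_lt
        (continuousAt_const (y := ‖((n : ℂ) + 1) * g 0 + 0 * deriv g 0‖ + 1)) (by simp)
      filter_upwards [b1, b2] with w c1 c2
      exact ⟨c1.le.trans (le_max_left _ _), c2.le.trans (le_max_right _ _)⟩
    refine ⟨fun s => (s, 0), analyticAt_id.prod analyticAt_const, rfl, 1, one_pos, M, ?_⟩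
    filter_upwards [hc.eventually_analyticAt, he, hder, hM] with s h1 h2 h3 h4
    refine ⟨?_, ?_, ?_⟩
    · rw [one_mul]; exact le_max_left ‖s‖ ‖(0:ℂ)‖
    · have e1 : fderiv ℂ (fun w : ℂ × ℂ => w.2 ^ 2 + c w.1) (s, 0) =
          (s ^ n * (((n : ℂ) + 1) * g s + s * deriv g s)) • ContinuousLinearMap.fst ℂ ℂ ℂ := by
        rw [(hW (s, 0) h1).fderiv]
        refine ContinuousLinearMap.ext fun v => ?_
        simp only [ContinuousLinearMap.add_apply, ContinuousLinearMap.smul_apply,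
          ContinuousLinearMap.coe_fst', ContinuousLinearMap.coe_snd', smul_eq_mul, h3]
        ring
      rw [e1, norm_smul, norm_mul, norm_pow]
      have : ‖ContinuousLinearMap.fst ℂ ℂ ℂ‖ ≤ 1 := ContinuousLinearMap.norm_fst_le _ _ _
      calc ‖s‖ ^ n * ‖((n : ℂ) + 1) * g s + s * deriv g s‖ * ‖ContinuousLinearMap.fst ℂ ℂ ℂ‖
          ≤ ‖s‖ ^ n * M * 1 := by
            have hM0 : 0 ≤ M := (norm_nonneg _).trans h4.1
            gcongr
            exact h4.2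
        _ = M * ‖s‖ ^ n := by ring
    · simp only [ne_eq, OfNat.ofNat_ne_zero, not_false_eq_true, zero_pow, zero_add, h2, norm_mul,
        norm_pow]
      rw [mul_comm]
      gcongr
      exact h4.1

/-! ### the model `ξ (z² + B(ξ))` -/

theorem model_D {B g : ℂ → ℂ} (hg : AnalyticAt ℂ g 0) (hg0 : g 0 ≠ 0) {n : ℕ}
    (hB : AnalyticAt ℂ B 0) (he : ∀ᶠ y in 𝓝 (0 : ℂ), B y = y ^ (n + 1) * g y) :
    PRes (fun w : ℂ × ℂ => w.1 * (w.2 ^ 2 + B w.1)) := by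
  obtain ⟨q, hq, hq0, hqe⟩ := quot_aux hg hg0 (n + 1)
  have hder := deriv_pow_mul hg he
  have hW : ∀ w : ℂ × ℂ, AnalyticAt ℂ B w.1 →
      HasFDerivAt (fun w : ℂ × ℂ => w.1 * (w.2 ^ 2 + B w.1))
      (w.1 • ((2 * w.2) • ContinuousLinearMap.snd ℂ ℂ ℂ + deriv B w.1 • ContinuousLinearMap.fst ℂ ℂ ℂ)
        + (w.2 ^ 2 + B w.1) • ContinuousLinearMap.fst ℂ ℂ ℂ) w := by
    intro w hw
    have e2 : HasFDerivAt (fun w : ℂ × ℂ => w.2 ^ 2)
        ((2 * w.2) • (ContinuousLinearMap.snd ℂ ℂ ℂ)) w := by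
      have := (hasFDerivAt_snd (𝕜 := ℂ) (E := ℂ) (F := ℂ) (p := w)).pow 2
      refine this.congr_fderiv ?_
      ext v <;> simp
    exact hasFDerivAt_fst.mul (e2.add (hasFDerivAt_fst_fun hw))
  refine ⟨2 * (n + 2), n + 1, by omega, by omega, ?_, ?_⟩
  · have a1 : AnalyticAt ℂ (fun w : ℂ × ℂ => w.1 * q w.1) 0 := analyticAt_fst.mul (an_fst hq)
    have a2 : AnalyticAt ℂ (fun w : ℂ × ℂ => w.2 * ((1 - q w.1) / 2)) 0 :=
      analyticAt_snd.mul ((analyticAt_const.sub (an_fst hq)).div analyticAt_const (by norm_num))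
    refine Eul_plane a1 a2 (by simp) (by simp) ?_ ?_
    · filter_upwards [ev_fst hB.eventually_analyticAt, ev_fst he, ev_fst hder, ev_fst hqe] with
        w h1 h2 h3 h4
      rw [(hW w h1).fderiv]
      simp only [ContinuousLinearMap.add_apply, ContinuousLinearMap.smul_apply,
        ContinuousLinearMap.coe_fst', ContinuousLinearMap.coe_snd', smul_eq_mul, h2, h3]
      push_cast at h4
      linear_combination (w.1 ^ (n + 2)) * h4
    · have e1 : HasFDerivAt (fun w : ℂ × ℂ => w.1 * q w.1) _ (0 : ℂ × ℂ) :=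
        hasFDerivAt_fst.mul (hasFDerivAt_fst_fun (w := 0) hq)
      have e3 : AnalyticAt ℂ (fun y => (1 - q y) / 2) 0 :=
        (analyticAt_const.sub hq).div analyticAt_const (by norm_num)
      have e2 : HasFDerivAt (fun w : ℂ × ℂ => w.2 * ((1 - q w.1) / 2)) _ (0 : ℂ × ℂ) :=
        hasFDerivAt_snd.mul (hasFDerivAt_fst_fun (w := 0) e3)
      rw [e1.fderiv, e2.fderiv]
      have hn : ((n : ℂ) + 2) ≠ 0 := by
        have := Nat.cast_add_one_ne_zero (R := ℂ) (n + 1)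
        push_cast at this
        intro h; apply this; linear_combination h
      have hn' : ((n : ℂ) + 1 + 1) ≠ 0 := by
        intro h; apply hn; linear_combination h
      simp [hq0]
      field_simp
      ring
  · obtain ⟨M, hM⟩ : ∃ M : ℝ, ∀ᶠ y in 𝓝 (0 : ℂ), ‖g y‖ ≤ M ∧
        ‖((n : ℂ) + 1) * g y + y * deriv g y + g y‖ ≤ M := by
      have hD : AnalyticAt ℂ (fun y => ((n : ℂ) + 1) * g y + y * deriv g y + g y) 0 :=
        ((analyticAt_const.mul hg).add (analyticAt_id.mul hg.deriv)).add hg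
      refine ⟨max (‖g 0‖ + 1) (‖((n : ℂ) + 1) * g 0 + 0 * deriv g 0 + g 0‖ + 1), ?_⟩
      have b1 := hg.continuousAt.norm.eventually_lt (continuousAt_const (y := ‖g 0‖ + 1)) (by simp)
      have b2 := hD.continuousAt.norm.eventually_lt
        (continuousAt_const (y := ‖((n : ℂ) + 1) * g 0 + 0 * deriv g 0 + g 0‖ + 1)) (by simp)
      filter_upwards [b1, b2] with w c1 c2
      exact ⟨c1.le.trans (le_max_left _ _), c2.le.trans (le_max_right _ _)⟩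
    refine ⟨fun s => (s, 0), analyticAt_id.prod analyticAt_const, rfl, 1, one_pos, M, ?_⟩
    filter_upwards [hB.eventually_analyticAt, he, hder, hM] with s h1 h2 h3 h4
    have hM0 : 0 ≤ M := (norm_nonneg _).trans h4.1
    refine ⟨?_, ?_, ?_⟩
    · rw [one_mul]; exact le_max_left ‖s‖ ‖(0:ℂ)‖
    · have e1 : fderiv ℂ (fun w : ℂ × ℂ => w.1 * (w.2 ^ 2 + B w.1)) (s, 0) =
          (s ^ (n + 1) * (((n : ℂ) + 1) * g s + s * deriv g s + g s)) •
            ContinuousLinearMap.fst ℂ ℂ ℂ := by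
        rw [(hW (s, 0) h1).fderiv]
        refine ContinuousLinearMap.ext fun v => ?_
        simp only [ContinuousLinearMap.add_apply, ContinuousLinearMap.smul_apply,
          ContinuousLinearMap.coe_fst', ContinuousLinearMap.coe_snd', smul_eq_mul, h2, h3]
        ring
      rw [e1, norm_smul, norm_mul, norm_pow]
      have : ‖ContinuousLinearMap.fst ℂ ℂ ℂ‖ ≤ 1 := ContinuousLinearMap.norm_fst_le _ _ _
      calc ‖s‖ ^ (n + 1) * ‖((n : ℂ) + 1) * g s + s * deriv g s + g s‖ *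
            ‖ContinuousLinearMap.fst ℂ ℂ ℂ‖
          ≤ ‖s‖ ^ (n + 1) * M * 1 := by
            gcongr
            exact h4.2
        _ = M * ‖s‖ ^ (n + 1) := by ring
    · simp only [ne_eq, OfNat.ofNat_ne_zero, not_false_eq_true, zero_pow, zero_add, h2, norm_mul,
        norm_pow]
      calc ‖s‖ * (‖s‖ ^ (n + 1) * ‖g s‖) ≤ ‖s‖ * (‖s‖ ^ (n + 1) * M) := by
            gcongr
            exact h4.1
        _ = M * ‖s‖ ^ (n + 1 + 1) := by ring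

/-- `Cv f 0` always holds for `f 0 = 0` -/
lemma Cv_zero [Nontrivial E] {f : E → ℂ} (hf : AnalyticAt ℂ f 0) (hf0 : f 0 = 0) : Cv f 0 := by
  have : CompleteSpace E := FiniteDimensional.complete ℂ E
  obtain ⟨v, hv⟩ := exists_ne (0 : E)
  have hv' : 0 < ‖v‖ := norm_pos_iff.2 hv
  have t1 : Tendsto (fun s : ℂ => s • v) (𝓝 0) (𝓝 0) := by
    have : Continuous (fun s : ℂ => s • v) := by fun_prop
    simpa using this.tendsto 0
  have b1 := hf.fderiv.continuousAt.norm.eventually_lt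
    (continuousAt_const (y := ‖fderiv ℂ f 0‖ + 1)) (by simp)
  have hO : (fun w => f w) =O[𝓝 0] (fun w : E => w) := by
    have := hf.differentiableAt.hasFDerivAt.isBigO_sub
    simpa [hf0] using this
  obtain ⟨K, hK, hK'⟩ := hO.exists_pos
  refine ⟨fun s => s • v, ?_, by simp, ‖v‖, hv', max (‖fderiv ℂ f 0‖ + 1) (K * ‖v‖), ?_⟩
  · exact analyticAt_id.smul analyticAt_const
  · filter_upwards [t1.eventually b1, t1.eventually hK'.bound] with s h1 h2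
    refine ⟨?_, ?_, ?_⟩
    · rw [norm_smul, mul_comm]
    · rw [pow_zero, mul_one]; exact h1.le.trans (le_max_left _ _)
    · rw [norm_smul] at h2
      calc ‖f (s • v)‖ ≤ K * (‖s‖ * ‖v‖) := h2
        _ = (K * ‖v‖) * ‖s‖ ^ (0 + 1) := by ring
        _ ≤ _ := by gcongr; exact le_max_right _ _

/-! ### the model `x³ + b(y) x + c(y)` -/

theorem cubic_field {b c g₁ g₂ : ℂ → ℂ} (hg₁ : AnalyticAt ℂ g₁ 0) (hg₂ : AnalyticAt ℂ g₂ 0)
    {i j : ℕ} (hb : AnalyticAt ℂ b 0) (hc : AnalyticAt ℂ c 0)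
    (hbe : ∀ᶠ y in 𝓝 (0 : ℂ), b y = y ^ (i + j + 2) * g₁ y)
    (hce : ∀ᶠ y in 𝓝 (0 : ℂ), c y = y ^ (i + 2 * j + 3) * g₂ y)
    {δ ν : ℂ} (hδ : δ = 0 ^ i * g₁ 0 * ((i + j + 2) * g₁ 0) ^ 2 +
      3 * 0 ^ j * ((i + 2 * j + 3) * g₂ 0) ^ 2) (hδ0 : δ ≠ 0)
    (hν : ν = 2 / 3 * 0 ^ i * g₁ 0 ^ 2 * ((i + j + 2) * g₁ 0) +
      3 * 0 ^ j * g₂ 0 * ((i + 2 * j + 3) * g₂ 0)) :
    Eul (fun w : ℂ × ℂ => w.2 ^ 3 + b w.1 * w.2 + c w.1) (1 / 3 + ν / δ) := by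
  have hb' := deriv_pow_mul (a := b) (n := i + j + 1) hg₁ hbe
  have hc' := deriv_pow_mul (a := c) (n := i + 2 * j + 2) hg₂ hce
  set B : ℂ → ℂ := fun y => (((i + j + 1 : ℕ) : ℂ) + 1) * g₁ y + y * deriv g₁ y with hB
  set C : ℂ → ℂ := fun y => (((i + 2 * j + 2 : ℕ) : ℂ) + 1) * g₂ y + y * deriv g₂ y with hC
  have hBa : AnalyticAt ℂ B 0 := (analyticAt_const.mul hg₁).add (analyticAt_id.mul hg₁.deriv)
  have hCa : AnalyticAt ℂ C 0 := (analyticAt_const.mul hg₂).add (analyticAt_id.mul hg₂.deriv)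
  have hB0 : B 0 = ((i + j + 2) * g₁ 0) := by simp only [hB]; push_cast; ring
  have hC0 : C 0 = ((i + 2 * j + 3) * g₂ 0) := by simp only [hC]; push_cast; ring
  set D : ℂ → ℂ := fun y => y ^ i * g₁ y * B y ^ 2 + 3 * y ^ j * C y ^ 2 with hD
  set N₀ : ℂ → ℂ := fun y => 2 / 3 * y ^ i * g₁ y ^ 2 * B y + 3 * y ^ j * g₂ y * C y with hN₀
  set N₁ : ℂ → ℂ := fun y => 2 * g₁ y * C y - 3 * B y * g₂ y with hN₁
  have hDa : AnalyticAt ℂ D 0 :=
    (((analyticAt_id.pow i).mul hg₁).mul (hBa.pow 2)).add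
      ((analyticAt_const.mul (analyticAt_id.pow j)).mul (hCa.pow 2))
  have hN₀a : AnalyticAt ℂ N₀ 0 :=
    (((analyticAt_const.mul (analyticAt_id.pow i)).mul (hg₁.pow 2)).mul hBa).add
      (((analyticAt_const.mul (analyticAt_id.pow j)).mul hg₂).mul hCa)
  have hN₁a : AnalyticAt ℂ N₁ 0 :=
    ((analyticAt_const.mul hg₁).mul hCa).sub ((analyticAt_const.mul hBa).mul hg₂)
  have hD0 : D 0 = δ := by simp only [hD, hB0, hC0]; rw [hδ]
  have hD0' : D 0 ≠ 0 := by rw [hD0]; exact hδ0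
  have hN0 : N₀ 0 = ν := by simp only [hN₀, hB0, hC0]; rw [hν]
  set Q₀ : ℂ → ℂ := fun y => N₀ y / D y with hQ₀
  set Q₁ : ℂ → ℂ := fun y => N₁ y / D y with hQ₁
  have hQ₀a : AnalyticAt ℂ Q₀ 0 := hN₀a.div hDa hD0'
  have hQ₁a : AnalyticAt ℂ Q₁ 0 := hN₁a.div hDa hD0'
  set A₀ : ℂ → ℂ := fun y => - (Q₁ y * (y ^ (i + j + 1) * B y)) / 3 with hA₀
  have hA₀a : AnalyticAt ℂ A₀ 0 :=
    ((hQ₁a.mul ((analyticAt_id.pow _).mul hBa)).neg).div analyticAt_const (by norm_num)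
  have a1 : AnalyticAt ℂ (fun w : ℂ × ℂ => w.1 * Q₀ w.1 + Q₁ w.1 * w.2) 0 :=
    (analyticAt_fst.mul (an_fst hQ₀a)).add ((an_fst hQ₁a).mul analyticAt_snd)
  have a2 : AnalyticAt ℂ (fun w : ℂ × ℂ => A₀ w.1 + (1 / 3 : ℂ) * w.2) 0 :=
    (an_fst hA₀a).add (analyticAt_const.mul analyticAt_snd)
  have hA00 : A₀ 0 = 0 := by simp [hA₀]
  refine Eul_plane a1 a2 (by simp) (by simp [hA00]) ?_ ?_
  · filter_upwards [ev_fst hb.eventually_analyticAt, ev_fst hc.eventually_analyticAt, ev_fst hbe,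
      ev_fst hce, ev_fst hb', ev_fst hc', ev_fst (hDa.continuousAt.eventually_ne hD0')] with
      w h1 h2 h3 h4 h5 h6 h7
    have e2 : HasFDerivAt (fun w : ℂ × ℂ => w.2 ^ 3)
        ((3 * w.2 ^ 2) • (ContinuousLinearMap.snd ℂ ℂ ℂ)) w := by
      have := (hasFDerivAt_snd (𝕜 := ℂ) (E := ℂ) (F := ℂ) (p := w)).pow 3
      refine this.congr_fderiv ?_
      ext v <;> simp
    have e3 : HasFDerivAt (fun w : ℂ × ℂ => w.2 ^ 3 + b w.1 * w.2 + c w.1) _ w :=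
      (e2.add ((hasFDerivAt_fst_fun h1).mul hasFDerivAt_snd)).add (hasFDerivAt_fst_fun h2)
    rw [e3.fderiv]
    simp only [ContinuousLinearMap.add_apply, ContinuousLinearMap.smul_apply,
      ContinuousLinearMap.coe_fst', ContinuousLinearMap.coe_snd', smul_eq_mul]
    have hBw : ((((i + j + 1 : ℕ) : ℂ) + 1) * g₁ w.1 + w.1 * deriv g₁ w.1) = B w.1 := rfl
    have hCw : ((((i + 2 * j + 2 : ℕ) : ℂ) + 1) * g₂ w.1 + w.1 * deriv g₂ w.1) = C w.1 := rfl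
    rw [h5, h6, h3, h4, hBw, hCw]
    simp only [hA₀]
    have k0 : Q₀ w.1 * D w.1 = N₀ w.1 := by simp only [hQ₀]; field_simp
    have k1 : Q₁ w.1 * D w.1 = N₁ w.1 := by simp only [hQ₁]; field_simp
    generalize Q₀ w.1 = q0 at *
    generalize Q₁ w.1 = q1 at *
    have key1 : q0 * B w.1 + w.1 ^ j * q1 * C w.1 = 2 / 3 * g₁ w.1 := by
      apply mul_right_cancel₀ h7
      have : (q0 * B w.1 + w.1 ^ j * q1 * C w.1) * D w.1 =
        (q0 * D w.1) * B w.1 + w.1 ^ j * (q1 * D w.1) * C w.1 := by ring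
      rw [this, k0, k1]
      simp only [hN₀, hN₁, hD]
      ring
    have key2 : q0 * C w.1 - 1 / 3 * w.1 ^ i * q1 * B w.1 * g₁ w.1 = g₂ w.1 := by
      apply mul_right_cancel₀ h7
      have : (q0 * C w.1 - 1 / 3 * w.1 ^ i * q1 * B w.1 * g₁ w.1) * D w.1 =
        (q0 * D w.1) * C w.1 - 1 / 3 * w.1 ^ i * (q1 * D w.1) * B w.1 * g₁ w.1 := by ring
      rw [this, k0, k1]
      simp only [hN₀, hN₁, hD]
      ring
    linear_combination (w.1 ^ (i + j + 2) * w.2) * key1 + (w.1 ^ (i + 2 * j + 3)) * key2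
  · have e1 : HasFDerivAt (fun w : ℂ × ℂ => w.1 * Q₀ w.1 + Q₁ w.1 * w.2) _ (0 : ℂ × ℂ) :=
      (hasFDerivAt_fst.mul (hasFDerivAt_fst_fun (w := 0) hQ₀a)).add
        ((hasFDerivAt_fst_fun (w := 0) hQ₁a).mul hasFDerivAt_snd)
    have e2 : HasFDerivAt (fun w : ℂ × ℂ => A₀ w.1 + (1 / 3 : ℂ) * w.2) _ (0 : ℂ × ℂ) :=
      (hasFDerivAt_fst_fun (w := 0) hA₀a).add
        ((hasFDerivAt_snd (𝕜 := ℂ) (E := ℂ) (F := ℂ) (p := 0)).const_mul (1 / 3 : ℂ))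
    rw [e1.fderiv, e2.fderiv]
    have hQ00 : Q₀ 0 = ν / δ := by simp only [hQ₀, hD0, hN0]
    simp [hQ00]
    ring

end Crest.Agent.R257.Kp_405
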