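import Crest.Agent.R257.Kp3_405

/-!
R257 / Kp4_405: `KI p`: `1/|p|` is integrable near the origin of `ℂ²`; invariance; non-integrability.
-/

set_option autoImplicit false
set_option linter.unusedSectionVars false
set_option linter.deprecated false

open Set Filter Topology Metric MeasureTheory
open scoped ENNReal

noncomputable section

namespace Crest.Agent.R257.Kp_405

/-- `1/|p|` is integrable near `0` -/
def KI (p : ℂ × ℂ → ℂ) : Prop := ∃ U ∈ 𝓝 (0 : ℂ × ℂ), ∫⁻ w in U, ‖p w‖ₑ⁻¹ < ⊤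

lemma KI.mono {p : ℂ × ℂ → ℂ} (h : KI p) {V : Set (ℂ × ℂ)} (hV : V ∈ 𝓝 (0 : ℂ × ℂ)) :
    ∃ U ∈ 𝓝 (0 : ℂ × ℂ), IsOpen U ∧ U ⊆ V ∧ ∫⁻ w in U, ‖p w‖ₑ⁻¹ < ⊤ := by
  obtain ⟨U, hU, h1⟩ := h
  obtain ⟨W, hW, hWo, hW0⟩ := _root_.mem_nhds_iff.1 (inter_mem hU hV)
  exact ⟨W, hWo.mem_nhds hW0, hWo, hW.trans inter_subset_right,
    (lintegral_mono_set (hW.trans inter_subset_left)).trans_lt h1⟩

lemma KI.of_le {p q : ℂ × ℂ → ℂ} (h : KI p) {C : ℝ} (hC : 0 < C)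
    (hle : ∀ᶠ w in 𝓝 (0 : ℂ × ℂ), ‖p w‖ ≤ C * ‖q w‖) : KI q := by
  obtain ⟨U, hU, hUo, hUV, hUi⟩ := h.mono hle
  refine ⟨U, hU, ?_⟩
  have h1 : ∀ w ∈ U, ‖q w‖ₑ⁻¹ ≤ ENNReal.ofReal C * ‖p w‖ₑ⁻¹ := by
    intro w hw
    have h2 : ‖p w‖ ≤ C * ‖q w‖ := hUV hw
    have h3 : ‖p w‖ₑ ≤ ENNReal.ofReal C * ‖q w‖ₑ := by
      rw [← ofReal_norm, ← ofReal_norm, ← ENNReal.ofReal_mul hC.le]
      exact ENNReal.ofReal_le_ofReal h2
    have hC0 : ENNReal.ofReal C ≠ 0 := (ENNReal.ofReal_pos.2 hC).ne'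
    have hCt : ENNReal.ofReal C ≠ ⊤ := ENNReal.ofReal_ne_top
    calc ‖q w‖ₑ⁻¹ = ENNReal.ofReal C * (ENNReal.ofReal C * ‖q w‖ₑ)⁻¹ := by
          rw [ENNReal.mul_inv (Or.inl hC0) (Or.inl hCt), ← mul_assoc, ENNReal.mul_inv_cancel hC0 hCt,
            one_mul]
      _ ≤ ENNReal.ofReal C * ‖p w‖ₑ⁻¹ := by gcongr
  calc ∫⁻ w in U, ‖q w‖ₑ⁻¹ ≤ ∫⁻ w in U, ENNReal.ofReal C * ‖p w‖ₑ⁻¹ :=
        setLIntegral_mono' hUo.measurableSet h1
    _ = ENNReal.ofReal C * ∫⁻ w in U, ‖p w‖ₑ⁻¹ := lintegral_const_mul' _ _ ENNReal.ofReal_ne_top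
    _ < ⊤ := ENNReal.mul_lt_top ENNReal.ofReal_lt_top hUi

lemma KI.congr {p q : ℂ × ℂ → ℂ} (h : KI p) (he : p =ᶠ[𝓝 0] q) : KI q :=
  h.of_le one_pos (by filter_upwards [he] with w hw; rw [hw, one_mul])

/-- dropping a unit -/
lemma KI.of_unit_mul {p u : ℂ × ℂ → ℂ} (hu : ContinuousAt u 0)
    (h : KI (fun w => u w * p w)) : KI p := by
  refine h.of_le (C := ‖u 0‖ + 1) (by positivity) ?_
  have b1 := hu.norm.eventually_lt (continuousAt_const (y := ‖u 0‖ + 1)) (by simp)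
  filter_upwards [b1] with w hw
  rw [norm_mul]
  gcongr

/-- change of variables -/
theorem KI.comp {p : ℂ × ℂ → ℂ} (h : KI p) {Φ Ψ : ℂ × ℂ → ℂ × ℂ} (hL : LB Φ Ψ) :
    KI (fun w => p (Φ w)) := by
  set D : ℂ × ℂ → (ℂ × ℂ →L[ℝ] ℂ × ℂ) := fun w => (fderiv ℂ Φ w).restrictScalars ℝ with hD
  have hDc : ContinuousAt D 0 := by
    have h1 : ContinuousAt (fderiv ℂ Φ) 0 := hL.an.fderiv.continuousAt
    exact (ContinuousLinearMap.restrictScalarsL ℂ (ℂ × ℂ) (ℂ × ℂ) ℝ ℝ).continuous.continuousAt.comp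
      h1
  have hdet : ContinuousAt (fun w => (D w).det) 0 :=
    ContinuousLinearMap.continuous_det.continuousAt.comp hDc
  have hd0 : (D 0).det ≠ 0 := by
    have h1 := hL.fderiv_comp_zero
    have h2 : (D 0).comp ((fderiv ℂ Ψ 0).restrictScalars ℝ) = ContinuousLinearMap.id ℝ (ℂ × ℂ) := by
      refine ContinuousLinearMap.ext fun v => ?_
      have h3 := congrArg (fun T : ℂ × ℂ →L[ℂ] ℂ × ℂ => T v) h1
      exact h3
    intro h3
    have h4 : ((D 0).comp ((fderiv ℂ Ψ 0).restrictScalars ℝ)).det = 0 := by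
      change LinearMap.det (((D 0 : ℂ × ℂ →L[ℝ] ℂ × ℂ) : ℂ × ℂ →ₗ[ℝ] ℂ × ℂ) ∘ₗ
        (((fderiv ℂ Ψ 0).restrictScalars ℝ : ℂ × ℂ →L[ℝ] ℂ × ℂ) : ℂ × ℂ →ₗ[ℝ] ℂ × ℂ)) = 0
      rw [LinearMap.det_comp]
      have : LinearMap.det ((D 0 : ℂ × ℂ →L[ℝ] ℂ × ℂ) : ℂ × ℂ →ₗ[ℝ] ℂ × ℂ) = 0 := h3
      rw [this, zero_mul]
    rw [h2] at h4
    have h5 : (ContinuousLinearMap.id ℝ (ℂ × ℂ)).det = 1 := LinearMap.det_id
    rw [h5] at h4
    exact one_ne_zero h4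
  set δ : ℝ := |(D 0).det| / 2 with hδ
  have hδ0 : 0 < δ := by have := abs_pos.2 hd0; positivity
  have hge : ∀ᶠ w in 𝓝 (0 : ℂ × ℂ), δ ≤ |(D w).det| := by
    have := (continuousAt_const (y := δ)).eventually_lt hdet.abs (by
      rw [hδ]; have := abs_pos.2 hd0; linarith)
    filter_upwards [this] with w hw using hw.le
  obtain ⟨V, hV, hVo, -, hVi⟩ := h.mono univ_mem
  have hgood : ∀ᶠ w in 𝓝 (0 : ℂ × ℂ), Φ w ∈ V ∧ δ ≤ |(D w).det| ∧ Ψ (Φ w) = w ∧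
      AnalyticAt ℂ Φ w := by
    filter_upwards [hL.tendsto.eventually hV, hge, hL.left, hL.an.eventually_analyticAt] with
      w a b c d using ⟨a, b, c, d⟩
  obtain ⟨U, hU, hUo, hU0⟩ := _root_.mem_nhds_iff.1 hgood
  refine ⟨U, hUo.mem_nhds hU0, ?_⟩
  have : (volume : Measure (ℂ × ℂ)).IsAddHaarMeasure := by
    rw [Measure.volume_eq_prod]; infer_instance
  have hcv := lintegral_image_eq_lintegral_abs_det_fderiv_mul (volume : Measure (ℂ × ℂ))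
    hUo.measurableSet (f := Φ) (f' := D)
    (fun w hw => ((hU hw).2.2.2.differentiableAt.hasFDerivAt.restrictScalars ℝ).hasFDerivWithinAt)
    (fun w hw w' hw' he => by
      rw [← (hU hw).2.2.1, ← (hU hw').2.2.1, he]) (fun w => ‖p w‖ₑ⁻¹)
  have h1 : ∀ w ∈ U, ‖p (Φ w)‖ₑ⁻¹ ≤ ENNReal.ofReal δ⁻¹ *
      (ENNReal.ofReal |(D w).det| * ‖p (Φ w)‖ₑ⁻¹) := by
    intro w hw
    have h2 : δ ≤ |(D w).det| := (hU hw).2.1
    rw [← mul_assoc, ← ENNReal.ofReal_mul (by positivity)]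
    have h3 : 1 ≤ ENNReal.ofReal (δ⁻¹ * |(D w).det|) := by
      rw [← ENNReal.ofReal_one]
      apply ENNReal.ofReal_le_ofReal
      rw [inv_mul_eq_div, le_div_iff₀ hδ0]
      linarith
    calc ‖p (Φ w)‖ₑ⁻¹ = 1 * ‖p (Φ w)‖ₑ⁻¹ := (one_mul _).symm
      _ ≤ _ := by gcongr
  calc ∫⁻ w in U, ‖p (Φ w)‖ₑ⁻¹
      ≤ ∫⁻ w in U, ENNReal.ofReal δ⁻¹ * (ENNReal.ofReal |(D w).det| * ‖p (Φ w)‖ₑ⁻¹) :=
        setLIntegral_mono' hUo.measurableSet h1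
    _ = ENNReal.ofReal δ⁻¹ * ∫⁻ w in U, ENNReal.ofReal |(D w).det| * ‖p (Φ w)‖ₑ⁻¹ :=
        lintegral_const_mul' _ _ ENNReal.ofReal_ne_top
    _ = ENNReal.ofReal δ⁻¹ * ∫⁻ w in Φ '' U, ‖p w‖ₑ⁻¹ := by rw [hcv]
    _ ≤ ENNReal.ofReal δ⁻¹ * ∫⁻ w in V, ‖p w‖ₑ⁻¹ := by
        gcongr
        rintro _ ⟨w, hw, rfl⟩
        exact (hU hw).1
    _ < ⊤ := ENNReal.mul_lt_top ENNReal.ofReal_lt_top hVi

/-- non-integrability -/
theorem not_KI {p : ℂ × ℂ → ℂ} (a b : ℕ) (ha : 1 ≤ a) {r C : ℝ} (hr : 0 < r)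
    (h : ∀ t : ℝ, 0 < t → t ≤ 1 → ∀ w : ℂ × ℂ, ‖w.1‖ ≤ r * t ^ b → ‖w.2‖ ≤ r * t ^ a →
      ‖p w‖ ≤ C * t ^ (2 * a + 2 * b)) : ¬ KI p := by
  rintro ⟨U, hU, hUi⟩
  obtain ⟨ε, hε, hεU⟩ := Metric.mem_nhds_iff.1 hU
  set ρ : ℝ := min r (ε / 2) with hρ
  have hρ0 : 0 < ρ := lt_min hr (by positivity)
  have hρr : ρ ≤ r := min_le_left _ _
  have hρε : ρ < ε := (min_le_right _ _).trans_lt (by linarith)
  set K : ℝ := max C 1 with hK
  have hK0 : 0 < K := lt_max_of_lt_right one_pos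
  set t : ℕ → ℝ := fun k => (1 / 2 : ℝ) ^ k with ht
  have ht0 : ∀ k, 0 < t k := fun k => by positivity
  have ht1 : ∀ k, t k ≤ 1 := fun k => pow_le_one₀ (by norm_num) (by norm_num)
  set S : ℕ → Set (ℂ × ℂ) := fun k => ball (0 : ℂ) (ρ * t k ^ b) ×ˢ
    ball (((3 / 4 * (ρ * t k ^ a) : ℝ)) : ℂ) (ρ * t k ^ a / 4) with hS
  have hSm : ∀ k, MeasurableSet (S k) := fun k => measurableSet_ball.prod measurableSet_ball
  have hSn : ∀ k, ∀ w ∈ S k, ‖w.1‖ < ρ * t k ^ b ∧ ρ * t k ^ a / 2 < ‖w.2‖ ∧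
      ‖w.2‖ < ρ * t k ^ a := by
    intro k w hw
    have hw1 : ‖w.1‖ < ρ * t k ^ b := by simpa using hw.1
    have hw2 : ‖w.2 - ((3 / 4 * (ρ * t k ^ a) : ℝ) : ℂ)‖ < ρ * t k ^ a / 4 := by
      simpa [dist_eq_norm] using hw.2
    have hR : 0 < ρ * t k ^ a := mul_pos hρ0 (pow_pos (ht0 k) _)
    have hc : ‖((3 / 4 * (ρ * t k ^ a) : ℝ) : ℂ)‖ = 3 / 4 * (ρ * t k ^ a) := by
      rw [Complex.norm_real, Real.norm_eq_abs, abs_of_pos (by positivity)]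
    refine ⟨hw1, ?_, ?_⟩
    · have := norm_sub_norm_le (((3 / 4 * (ρ * t k ^ a) : ℝ)) : ℂ) w.2
      rw [norm_sub_rev] at this
      linarith
    · have := norm_le_norm_add_norm_sub' w.2 (((3 / 4 * (ρ * t k ^ a) : ℝ)) : ℂ)
      linarith
  have hSU : ∀ k, S k ⊆ U := by
    intro k w hw
    apply hεU
    obtain ⟨h1, -, h3⟩ := hSn k w hw
    have e1 : ρ * t k ^ b ≤ ρ := mul_le_of_le_one_right hρ0.le (pow_le_one₀ (ht0 k).le (ht1 k))
    have e2 : ρ * t k ^ a ≤ ρ := mul_le_of_le_one_right hρ0.le (pow_le_one₀ (ht0 k).le (ht1 k))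
    rw [mem_ball_zero_iff, Prod.norm_def]
    exact max_lt (by linarith) (by linarith)
  have hSd : Pairwise (Function.onFun Disjoint S) := by
    have key : ∀ k l, k < l → Disjoint (S k) (S l) := by
      intro k l hkl
      rw [Set.disjoint_left]
      intro w hk hl
      obtain ⟨-, h2, -⟩ := hSn k w hk
      obtain ⟨-, -, h3⟩ := hSn l w hl
      have e1 : t l ≤ t k / 2 := by
        have : t l ≤ t (k + 1) := pow_le_pow_of_le_one (by norm_num) (by norm_num) hkl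
        calc t l ≤ t (k + 1) := this
          _ = t k / 2 := by simp only [ht, pow_succ]; ring
      have e2 : t l ^ a ≤ t k ^ a / 2 := by
        calc t l ^ a ≤ (t k / 2) ^ a := pow_le_pow_left₀ (ht0 l).le e1 a
          _ = t k ^ a * (1 / 2) ^ a := by rw [div_eq_mul_one_div, mul_pow]
          _ ≤ t k ^ a * (1 / 2) ^ 1 := by
              have := pow_pos (ht0 k) a
              exact mul_le_mul_of_nonneg_left
                (pow_le_pow_of_le_one (by norm_num : (0:ℝ) ≤ 1 / 2)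
                  (by norm_num : (1 / 2 : ℝ) ≤ 1) ha) this.le
          _ = t k ^ a / 2 := by ring
      have e3 : ρ * t l ^ a ≤ ρ * (t k ^ a / 2) := by gcongr
      have e4 : ρ * (t k ^ a / 2) = ρ * t k ^ a / 2 := by ring
      linarith
    intro k l hkl
    rcases lt_or_gt_of_ne hkl with h1 | h1
    · exact key k l h1
    · exact (key l k h1).symm
  set κ : ℝ := Real.pi * ρ ^ 2 * (Real.pi * (ρ / 4) ^ 2) / K with hκ
  have hκ0 : 0 < κ := by have := Real.pi_pos; positivity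
  have hlow : ∀ k, ENNReal.ofReal κ ≤ ∫⁻ w in S k, ‖p w‖ₑ⁻¹ := by
    intro k
    have htN : 0 < t k ^ (2 * a + 2 * b) := pow_pos (ht0 k) _
    have h1 : ∀ w ∈ S k, (ENNReal.ofReal (K * t k ^ (2 * a + 2 * b)))⁻¹ ≤ ‖p w‖ₑ⁻¹ := by
      intro w hw
      obtain ⟨e1, -, e3⟩ := hSn k w hw
      have e4 : ‖p w‖ ≤ C * t k ^ (2 * a + 2 * b) := by
        refine h (t k) (ht0 k) (ht1 k) w (e1.le.trans ?_) (e3.le.trans ?_)
        · have := pow_pos (ht0 k) b; gcongr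
        · have := pow_pos (ht0 k) a; gcongr
      rw [ENNReal.inv_le_inv, ← ofReal_norm]
      apply ENNReal.ofReal_le_ofReal
      refine e4.trans ?_
      gcongr
      exact le_max_left _ _
    have hvol : volume (S k) = ENNReal.ofReal (Real.pi * ρ ^ 2 * (Real.pi * (ρ / 4) ^ 2) *
        t k ^ (2 * a + 2 * b)) := by
      have hv : ∀ (c : ℂ) (s : ℝ), 0 ≤ s → volume (ball c s) = ENNReal.ofReal (Real.pi * s ^ 2) := by
        intro c s hs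
        rw [Complex.volume_ball, ENNReal.ofReal_mul Real.pi_pos.le, ENNReal.ofReal_pow hs, mul_comm]
        congr 1
        rw [← NNReal.coe_real_pi, ENNReal.ofReal_coe_nnreal]
      have htb := pow_pos (ht0 k) b
      have hta := pow_pos (ht0 k) a
      rw [Measure.volume_eq_prod, hS]
      simp only
      rw [Measure.prod_prod, hv _ _ (by positivity), hv _ _ (by positivity),
        ← ENNReal.ofReal_mul (by have := Real.pi_pos; positivity)]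
      congr 1
      rw [pow_add, pow_mul', pow_mul']
      ring
    calc ENNReal.ofReal κ = (ENNReal.ofReal (K * t k ^ (2 * a + 2 * b)))⁻¹ * volume (S k) := by
          rw [hvol, ← ENNReal.ofReal_inv_of_pos (by positivity), ← ENNReal.ofReal_mul (by positivity)]
          congr 1
          rw [hκ]
          field_simp
      _ = ∫⁻ w in S k, (ENNReal.ofReal (K * t k ^ (2 * a + 2 * b)))⁻¹ := by
          rw [setLIntegral_const]
      _ ≤ ∫⁻ w in S k, ‖p w‖ₑ⁻¹ := setLIntegral_mono' (hSm k) h1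
  have hsum : ∑' k, ∫⁻ w in S k, ‖p w‖ₑ⁻¹ = ∫⁻ w in ⋃ k, S k, ‖p w‖ₑ⁻¹ :=
    (lintegral_iUnion hSm hSd _).symm
  have htop : (⊤ : ℝ≥0∞) ≤ ∑' k, ∫⁻ w in S k, ‖p w‖ₑ⁻¹ := by
    calc (⊤ : ℝ≥0∞) = ∑' _ : ℕ, ENNReal.ofReal κ :=
          (ENNReal.tsum_const_eq_top_of_ne_zero (ENNReal.ofReal_pos.2 hκ0).ne').symm
      _ ≤ _ := ENNReal.tsum_le_tsum hlow
  rw [hsum] at htop
  have := lintegral_mono_set (μ := (volume : Measure (ℂ × ℂ))) (f := fun w => ‖p w‖ₑ⁻¹)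
    (iUnion_subset hSU)
  exact absurd (htop.trans this) (not_le.2 hUi)

end Crest.Agent.R257.Kp_405
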