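import Crest.Agent.R257.Kp4_405

/-!
R257 / Kp5_405: the classification in the plane: `p` analytic at `0 ∈ ℂ²`, `p = 0`, `dp = 0` at `0`,
`1/|p|` integrable ⇒ `PRes p`.
-/

set_option autoImplicit false
set_option linter.unusedSectionVars false
set_option linter.deprecated false

open Set Filter Topology Metric MeasureTheory
open scoped ENNReal

noncomputable section

namespace Crest.Agent.R257.Kp_405

/-! ### orders along lines -/

section Lines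

variable {E : Type*} [NormedAddCommGroup E] [NormedSpace ℂ E] [FiniteDimensional ℂ E]

lemma an_line {q : E → ℂ} (hq : AnalyticAt ℂ q 0) (v : E) :
    AnalyticAt ℂ (fun t : ℂ => q (t • v)) 0 :=
  AnalyticAt.comp (g := q) (f := fun t : ℂ => t • v) (by simpa using hq)
    (analyticAt_id.smul analyticAt_const)

lemma bound_of_orders {q : E → ℂ} (hq : AnalyticAt ℂ q 0) (n : ℕ)
    (h : ∀ v : E, (n : ℕ∞) ≤ analyticOrderAt (fun t : ℂ => q (t • v)) 0) :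
    ∃ C : ℝ, 0 < C ∧ ∀ᶠ w in 𝓝 (0 : E), ‖q w‖ ≤ C * ‖w‖ ^ n := by
  obtain ⟨P, hP⟩ := hq
  have hcoef : ∀ v : E, ∀ k < n, P k (fun _ => v) = 0 := by
    intro v k hk
    set L : ℂ →L[ℂ] E := ContinuousLinearMap.toSpanSingleton ℂ v with hL
    have hP' : HasFPowerSeriesAt q P (L 0) := by simpa using hP
    have h1 := hP'.compContinuousLinearMap
    obtain ⟨r, hr⟩ := h1
    have h2 := hr.factorial_smul (1 : ℂ) k
    have h3 : iteratedDeriv k (q ∘ L) 0 = 0 := by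
      have h4 : AnalyticAt ℂ (q ∘ L) 0 := hr.analyticAt
      have h5 : (n : ℕ∞) ≤ analyticOrderAt (q ∘ L) 0 := h v
      exact (natCast_le_analyticOrderAt_iff_iteratedDeriv_eq_zero h4).1 h5 k hk
    rw [iteratedDeriv_eq_iteratedFDeriv] at h3
    rw [h3] at h2
    have h6 : (k.factorial : ℕ) ≠ 0 := k.factorial_ne_zero
    have h7 : (P.compContinuousLinearMap L) k (fun _ => (1 : ℂ)) = 0 := by
      rcases smul_eq_zero.1 h2 with h8 | h8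
      · exact absurd h8 h6
      · exact h8
    have h9 : (P.compContinuousLinearMap L) k (fun _ => (1 : ℂ)) = P k (fun _ => v) := by
      rw [FormalMultilinearSeries.compContinuousLinearMap_apply]
      congr 1
      funext i
      simp [hL, Function.comp]
    rw [← h9, h7]
  have h1 := hP.isBigO_sub_partialSum_pow n
  obtain ⟨C, hC, h2⟩ := h1.exists_pos
  refine ⟨C, hC, ?_⟩
  filter_upwards [h2.bound] with w hw
  have h3 : P.partialSum n w = 0 := by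
    rw [FormalMultilinearSeries.partialSum]
    exact Finset.sum_eq_zero fun k hk => hcoef w k (Finset.mem_range.1 hk)
  simpa [h3] using hw

lemma two_le_order {q : E → ℂ} (hq : AnalyticAt ℂ q 0) (h0 : q 0 = 0) (h1 : fderiv ℂ q 0 = 0)
    (v : E) : ((2 : ℕ) : ℕ∞) ≤ analyticOrderAt (fun t : ℂ => q (t • v)) 0 := by
  rw [natCast_le_analyticOrderAt_iff_iteratedDeriv_eq_zero (an_line hq v)]
  intro i hi
  interval_cases i
  · simp [h0]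
  · rw [iteratedDeriv_one]
    have e1 : HasDerivAt (fun t : ℂ => t • v) v 0 := by
      simpa using (hasDerivAt_id (0 : ℂ)).smul_const v
    have e2 : HasFDerivAt q (fderiv ℂ q 0) ((0 : ℂ) • v) := by
      rw [zero_smul]; exact hq.differentiableAt.hasFDerivAt
    have e3 := (e2.comp_hasDerivAt (0 : ℂ) e1).deriv
    have e4 : deriv (fun t : ℂ => q (t • v)) 0 = fderiv ℂ q 0 v := e3
    rw [e4, h1]
    simp

lemma order_line_zero {q : E → ℂ} (h0 : q 0 = 0) :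
    analyticOrderAt (fun t : ℂ => q (t • (0 : E))) 0 = ⊤ := by
  rw [analyticOrderAt_eq_top]
  exact Eventually.of_forall fun t => by simp [h0]

lemma add_one_le_of_ne {a : ℕ∞} {n : ℕ} (h : (n : ℕ∞) ≤ a) (h' : a ≠ n) :
    ((n + 1 : ℕ) : ℕ∞) ≤ a := by
  have : (n : ℕ∞) < a := lt_of_le_of_ne h (Ne.symm h')
  exact_mod_cast Order.add_one_le_of_lt this

end Lines

/-- an automorphism with `e (0, 1) = v` -/
lemma exists_equiv {v : ℂ × ℂ} (hv : v ≠ 0) : ∃ e : (ℂ × ℂ) ≃L[ℂ] (ℂ × ℂ), e (0, 1) = v := by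
  have h1 : ((0 : ℂ), (1 : ℂ)) ≠ 0 := by simp
  exact SeparatingDual.exists_continuousLinearEquiv_apply_eq h1 hv

/-- raising the exponent -/
lemma pow_step {a g : ℂ → ℂ} {n : ℕ} (hg : AnalyticAt ℂ g 0) (hg0 : g 0 = 0)
    (he : ∀ᶠ y in 𝓝 (0 : ℂ), a y = y ^ n * g y) :
    ∃ g' : ℂ → ℂ, AnalyticAt ℂ g' 0 ∧ ∀ᶠ y in 𝓝 (0 : ℂ), a y = y ^ (n + 1) * g' y := by
  have h1 : ((1 : ℕ) : ℕ∞) ≤ analyticOrderAt g 0 := by
    have : analyticOrderAt g 0 ≠ 0 := hg.analyticOrderAt_ne_zero.2 hg0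
    exact_mod_cast Order.one_le_iff_ne_zero.2 this
  obtain ⟨g', hg', he'⟩ := (natCast_le_analyticOrderAt hg).1 h1
  refine ⟨g', hg', ?_⟩
  filter_upwards [he, he'] with y h2 h3
  rw [h2, h3, sub_zero, pow_one, smul_eq_mul, pow_succ]
  ring

/-- finite order, positive -/
lemma exists_ord {a : ℂ → ℂ} (ha : AnalyticAt ℂ a 0) (h0 : a 0 = 0)
    (hne : ¬ ∀ᶠ y in 𝓝 (0 : ℂ), a y = 0) :
    ∃ (n : ℕ) (g : ℂ → ℂ), AnalyticAt ℂ g 0 ∧ g 0 ≠ 0 ∧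
      ∀ᶠ y in 𝓝 (0 : ℂ), a y = y ^ (n + 1) * g y := by
  rw [← analyticOrderAt_eq_top] at hne
  obtain ⟨m, hm⟩ := ENat.ne_top_iff_exists.1 hne
  have hm0 : m ≠ 0 := by
    rintro rfl
    exact (ha.analyticOrderAt_ne_zero.2 h0) (by rw [← hm]; rfl)
  obtain ⟨n, rfl⟩ := Nat.exists_eq_succ_of_ne_zero hm0
  obtain ⟨g, hg, hg0, he⟩ := (ha.analyticOrderAt_eq_natCast).1 hm.symm
  refine ⟨n, g, hg, hg0, ?_⟩
  filter_upwards [he] with y hy
  rw [hy, sub_zero, smul_eq_mul]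

lemma exists_bound {g : ℂ → ℂ} (hg : AnalyticAt ℂ g 0) :
    ∃ C r : ℝ, 0 < C ∧ 0 < r ∧ r ≤ 1 ∧ ∀ y, ‖y‖ ≤ r → ‖g y‖ ≤ C := by
  have b1 := hg.continuousAt.norm.eventually_lt (continuousAt_const (y := ‖g 0‖ + 1)) (by simp)
  obtain ⟨r, hr, h⟩ := Metric.nhds_basis_closedBall.eventually_iff.1 b1
  refine ⟨‖g 0‖ + 1, min r 1, by positivity, lt_min hr one_pos, min_le_right _ _, fun y hy => ?_⟩
  exact (h (by simpa using hy.trans (min_le_left _ _))).le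

lemma exists_radius {P : ℂ → Prop} (h : ∀ᶠ y in 𝓝 (0 : ℂ), P y) :
    ∃ r : ℝ, 0 < r ∧ r ≤ 1 ∧ ∀ y, ‖y‖ ≤ r → P y := by
  obtain ⟨r, hr, h⟩ := Metric.nhds_basis_closedBall.eventually_iff.1 h
  exact ⟨min r 1, lt_min hr one_pos, min_le_right _ _, fun y hy =>
    h (by simpa using hy.trans (min_le_left _ _))⟩

/-! ### order two -/

theorem res_A {c : ℂ → ℂ} (hc : AnalyticAt ℂ c 0) (hc0 : c 0 = 0)
    (hK : KI (fun w : ℂ × ℂ => w.2 ^ 2 + c w.1)) : PRes (fun w : ℂ × ℂ => w.2 ^ 2 + c w.1) := by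
  have hne : ¬ ∀ᶠ y in 𝓝 (0 : ℂ), c y = 0 := by
    intro h0
    obtain ⟨r, hr, -, h1⟩ := exists_radius h0
    refine not_KI (p := fun w : ℂ × ℂ => w.2 ^ 2 + c w.1) 1 0 le_rfl (r := r) (C := r ^ 2) hr
      (fun t ht ht1 w hw1 hw2 => ?_) hK
    have h2 : c w.1 = 0 := h1 _ (by simpa using hw1)
    simp only [h2, add_zero, norm_pow]
    calc ‖w.2‖ ^ 2 ≤ (r * t ^ 1) ^ 2 := by gcongr
      _ = r ^ 2 * t ^ (2 * 1 + 2 * 0) := by ring
  obtain ⟨n, g, hg, hg0, he⟩ := exists_ord hc hc0 hne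
  exact model_A hg hg0 hc he

theorem res_D {B : ℂ → ℂ} (hB : AnalyticAt ℂ B 0) (hB0 : B 0 = 0)
    (hK : KI (fun w : ℂ × ℂ => w.1 * (w.2 ^ 2 + B w.1))) :
    PRes (fun w : ℂ × ℂ => w.1 * (w.2 ^ 2 + B w.1)) := by
  have hne : ¬ ∀ᶠ y in 𝓝 (0 : ℂ), B y = 0 := by
    intro h0
    obtain ⟨r, hr, hr1, h1⟩ := exists_radius h0
    refine not_KI (p := fun w : ℂ × ℂ => w.1 * (w.2 ^ 2 + B w.1)) 1 0 le_rfl (r := r)
      (C := r ^ 2) hr (fun t ht ht1 w hw1 hw2 => ?_) hK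
    have hw1' : ‖w.1‖ ≤ r := by simpa using hw1
    have h2 : B w.1 = 0 := h1 _ hw1'
    simp only [h2, add_zero, norm_mul, norm_pow]
    calc ‖w.1‖ * ‖w.2‖ ^ 2 ≤ 1 * (r * t ^ 1) ^ 2 := by
          gcongr
          exact hw1'.trans hr1
      _ = r ^ 2 * t ^ (2 * 1 + 2 * 0) := by ring
  obtain ⟨n, g, hg, hg0, he⟩ := exists_ord hB hB0 hne
  exact model_D hg hg0 hB he

/-- completing the square: `x² + a₁ x + a₀` -/
lemma sq_form {a₀ a₁ : ℂ → ℂ} :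
    (fun w : ℂ × ℂ => w.2 ^ 2 + a₁ w.1 * w.2 + a₀ w.1) =
      fun w : ℂ × ℂ => (fun v : ℂ × ℂ => v.2 ^ 2 + (fun y => a₀ y - a₁ y ^ 2 / 4) v.1)
        (shear (fun y => a₁ y / 2) w) := by
  funext w
  simp only [shear]
  ring

theorem an_A {c : ℂ → ℂ} (hc : AnalyticAt ℂ c 0) :
    AnalyticAt ℂ (fun w : ℂ × ℂ => w.2 ^ 2 + c w.1) 0 := (analyticAt_snd.pow 2).add (an_fst hc)

/-- transfer from the sheared model -/
theorem res_shear {M : ℂ × ℂ → ℂ} (hM : AnalyticAt ℂ M 0) (hres : KI M → PRes M) {θ : ℂ → ℂ}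
    (hθ : AnalyticAt ℂ θ 0) (h0 : θ 0 = 0) (hK : KI (fun w => M (shear θ w))) :
    PRes (fun w => M (shear θ w)) := by
  have hL := LB_shear hθ h0
  have h1 : KI (fun w => (fun w => M (shear θ w)) (shear (fun z => - θ z) w)) := hK.comp hL.symm
  have h2 : KI M := h1.congr (by
    filter_upwards [hL.right] with w hw
    simp only [hw])
  exact (hres h2).comp hM hL

/-- transfer from `F = u M` -/
theorem res_unit {F M u : ℂ × ℂ → ℂ} (hM : AnalyticAt ℂ M 0) (hres : KI M → PRes M)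
    (hu : AnalyticAt ℂ u 0) (hu0 : u 0 ≠ 0) (he : ∀ᶠ w in 𝓝 (0 : ℂ × ℂ), F w = u w * M w)
    (hK : KI F) : PRes F := by
  have h1 : KI (fun w => u w * M w) := hK.congr he
  have h2 : KI M := h1.of_unit_mul hu.continuousAt
  refine ((hres h2).unit_mul hM hu hu0).congr ?_
  filter_upwards [he] with w hw using hw.symm

theorem res_ord2 {q : ℂ × ℂ → ℂ} (hq : AnalyticAt ℂ q 0)
    (hn : analyticOrderAt (fun w : ℂ => q (0, w)) 0 = 2) (hK : KI q) : PRes q := by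
  obtain ⟨u, a₀, a₁, hu, hu0, ha₀, ha₁, h00, h10, he⟩ := wprep2 hq hn
  set c : ℂ → ℂ := fun y => a₀ y - a₁ y ^ 2 / 4 with hc
  have hca : AnalyticAt ℂ c 0 := ha₀.sub ((ha₁.pow 2).div analyticAt_const (by norm_num))
  have hc0 : c 0 = 0 := by simp [hc, h00, h10]
  have hθ : AnalyticAt ℂ (fun y => a₁ y / 2) 0 := ha₁.div analyticAt_const (by norm_num)
  have hθ0 : a₁ 0 / 2 = 0 := by simp [h10]
  have hM := an_A hca
  have hMs : AnalyticAt ℂ (fun w : ℂ × ℂ => (fun v : ℂ × ℂ => v.2 ^ 2 + c v.1)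
      (shear (fun y => a₁ y / 2) w)) 0 := by
    rw [← sq_form]
    exact ((analyticAt_snd.pow 2).add ((an_fst ha₁).mul analyticAt_snd)).add (an_fst ha₀)
  refine res_unit hMs (fun h => res_shear hM (res_A hca hc0) hθ hθ0 h) hu hu0 ?_ hK
  filter_upwards [he] with w hw
  rw [hw]
  congr 1
  simp only [shear, hc]
  ring

/-! ### order three, a simple root -/

lemma exists_simple_root {β γ : ℂ} (h : β ≠ 0 ∨ γ ≠ 0) :
    ∃ ρ : ℂ, ρ ^ 3 + β * ρ + γ = 0 ∧ 3 * ρ ^ 2 + β ≠ 0 := by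
  set P : Polynomial ℂ := Polynomial.X ^ 3 + Polynomial.C β * Polynomial.X + Polynomial.C γ with hP
  have hd : P.degree ≠ 0 := by
    have : P.degree = 3 := by
      rw [hP]
      compute_degree!
    rw [this]; norm_num
  obtain ⟨ρ, hρ⟩ := IsAlgClosed.exists_root P hd
  have h1 : ρ ^ 3 + β * ρ + γ = 0 := by
    have := hρ
    rw [Polynomial.IsRoot, hP] at this
    simpa using this
  by_cases h2 : 3 * ρ ^ 2 + β = 0
  · have hβ : β = - 3 * ρ ^ 2 := by linear_combination h2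
    have hγ : γ = 2 * ρ ^ 3 := by rw [hβ] at h1; linear_combination h1
    have hρ0 : ρ ≠ 0 := by
      rintro rfl
      rcases h with h | h
      · exact h (by rw [hβ]; ring)
      · exact h (by rw [hγ]; ring)
    refine ⟨-2 * ρ, ?_, ?_⟩
    · rw [hβ, hγ]; ring
    · rw [hβ]
      have : 3 * (-2 * ρ) ^ 2 + -3 * ρ ^ 2 = 9 * ρ ^ 2 := by ring
      rw [this]
      exact mul_ne_zero (by norm_num) (pow_ne_zero 2 hρ0)
  · exact ⟨ρ, h1, h2⟩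

/-- an analytic simple root -/
lemma exists_root_fun {β γ : ℂ → ℂ} (hβ : AnalyticAt ℂ β 0) (hγ : AnalyticAt ℂ γ 0) {ρ : ℂ}
    (h1 : ρ ^ 3 + β 0 * ρ + γ 0 = 0) (h2 : 3 * ρ ^ 2 + β 0 ≠ 0) :
    ∃ σ : ℂ → ℂ, AnalyticAt ℂ σ 0 ∧ σ 0 = ρ ∧
      ∀ᶠ y in 𝓝 (0 : ℂ), σ y ^ 3 + β y * σ y + γ y = 0 := by
  set G : ℂ × ℂ → ℂ := fun w => (w.2 + ρ) ^ 3 + β w.1 * (w.2 + ρ) + γ w.1 with hG
  have hGa : AnalyticAt ℂ G 0 :=
    (((analyticAt_snd.add analyticAt_const).pow 3).add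
      ((an_fst hβ).mul (analyticAt_snd.add analyticAt_const))).add (an_fst hγ)
  have hord : analyticOrderAt (fun w : ℂ => G (0, w)) 0 = ((1 : ℕ) : ℕ∞) := by
    have ha : AnalyticAt ℂ (fun w : ℂ => G (0, w)) 0 :=
      AnalyticAt.comp (g := G) (f := fun w : ℂ => ((0 : ℂ), w)) hGa
        (analyticAt_const.prod analyticAt_id)
    rw [ha.analyticOrderAt_eq_natCast]
    refine ⟨fun s => s ^ 2 + 3 * ρ * s + (3 * ρ ^ 2 + β 0), ?_, ?_, ?_⟩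
    · exact ((analyticAt_id.pow 2).add (analyticAt_const.mul analyticAt_id)).add analyticAt_const
    · simpa using h2
    · refine Eventually.of_forall fun s => ?_
      simp only [hG, sub_zero, pow_one, smul_eq_mul]
      linear_combination h1
  obtain ⟨u, c, hu, hu0, hc, hc0, he⟩ := wprepF hGa hord
  refine ⟨fun y => ρ - c 0 y, analyticAt_const.sub (hc 0), by simp [hc0 0], ?_⟩
  have t1 : Tendsto (fun y : ℂ => (y, - c 0 y)) (𝓝 0) (𝓝 (0 : ℂ × ℂ)) := by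
    have h3 : ContinuousAt (fun y : ℂ => (y, - c 0 y)) 0 :=
      continuousAt_id.prodMk (hc 0).continuousAt.neg
    have h4 : ((0 : ℂ), - c 0 0) = (0 : ℂ × ℂ) := by
      simp only [hc0 0, neg_zero]; rfl
    have := h3.tendsto
    rwa [h4] at this
  filter_upwards [t1.eventually he] with y hy
  simp only [hG, Fin.sum_univ_one, Fin.isValue, Fin.val_zero, pow_zero, mul_one, pow_one,
    neg_add_cancel, mul_zero] at hy
  linear_combination hy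

theorem res_simple {b c β γ : ℂ → ℂ} (hβ : AnalyticAt ℂ β 0) (hγ : AnalyticAt ℂ γ 0)
    (hb : AnalyticAt ℂ b 0) (hc : AnalyticAt ℂ c 0)
    (hbe : ∀ᶠ y in 𝓝 (0 : ℂ), b y = y ^ 2 * β y) (hce : ∀ᶠ y in 𝓝 (0 : ℂ), c y = y ^ 3 * γ y)
    (h : β 0 ≠ 0 ∨ γ 0 ≠ 0) (hK : KI (fun w : ℂ × ℂ => w.2 ^ 3 + b w.1 * w.2 + c w.1)) :
    PRes (fun w : ℂ × ℂ => w.2 ^ 3 + b w.1 * w.2 + c w.1) := by
  obtain ⟨ρ, h1, h2⟩ := exists_simple_root h
  obtain ⟨σ, hσ, hσ0, hσe⟩ := exists_root_fun hβ hγ h1 h2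
  set M : ℂ × ℂ → ℂ := fun w => w.2 ^ 3 + b w.1 * w.2 + c w.1 with hM
  have hMa : AnalyticAt ℂ M 0 :=
    ((analyticAt_snd.pow 3).add ((an_fst hb).mul analyticAt_snd)).add (an_fst hc)
  set θ : ℂ → ℂ := fun y => y * σ y with hθ
  have hθa : AnalyticAt ℂ θ 0 := analyticAt_id.mul hσ
  have hθ0 : θ 0 = 0 := by simp [hθ]
  -- the change of variables
  set R : ℂ × ℂ → ℂ := fun w => w.1 ^ 2 + 3 * θ w.2 * w.1 + (3 * θ w.2 ^ 2 + b w.2) with hR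
  have hθs : AnalyticAt ℂ (fun w : ℂ × ℂ => θ w.2) 0 :=
    AnalyticAt.comp (g := θ) (f := Prod.snd) hθa analyticAt_snd
  have hbs : AnalyticAt ℂ (fun w : ℂ × ℂ => b w.2) 0 :=
    AnalyticAt.comp (g := b) (f := Prod.snd) hb analyticAt_snd
  have hRa : AnalyticAt ℂ R 0 :=
    ((analyticAt_fst.pow 2).add ((analyticAt_const.mul hθs).mul analyticAt_fst)).add
      ((analyticAt_const.mul (hθs.pow 2)).add hbs)
  have hord : analyticOrderAt (fun w : ℂ => R (0, w)) 0 = 2 := by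
    have ha : AnalyticAt ℂ (fun w : ℂ => R (0, w)) 0 :=
      AnalyticAt.comp (g := R) (f := fun w : ℂ => ((0 : ℂ), w)) hRa
        (analyticAt_const.prod analyticAt_id)
    have h3 : analyticOrderAt (fun w : ℂ => R (0, w)) 0 = ((2 : ℕ) : ℕ∞) := by
      rw [ha.analyticOrderAt_eq_natCast]
      refine ⟨fun s => 3 * σ s ^ 2 + β s, (analyticAt_const.mul (hσ.pow 2)).add hβ, ?_, ?_⟩
      · change 3 * σ 0 ^ 2 + β 0 ≠ 0
        rw [hσ0]; exact h2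
      · filter_upwards [hbe] with s hs
        simp only [hR, hs, hθ, sub_zero, smul_eq_mul]
        ring
    exact_mod_cast h3
  -- `M ∘ shear θ ∘ swap = ξ R`
  have hcomp : ∀ᶠ w in 𝓝 (0 : ℂ × ℂ), M (shear θ (Prod.swap w)) = w.1 * R w := by
    have h4 : ∀ᶠ w in 𝓝 (0 : ℂ × ℂ), b w.2 = w.2 ^ 2 * β w.2 ∧ c w.2 = w.2 ^ 3 * γ w.2 ∧
        σ w.2 ^ 3 + β w.2 * σ w.2 + γ w.2 = 0 := by
      have t1 : Tendsto (Prod.snd : ℂ × ℂ → ℂ) (𝓝 0) (𝓝 0) := continuous_snd.tendsto' _ _ rfl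
      filter_upwards [t1.eventually hbe, t1.eventually hce, t1.eventually hσe] with w a1 a2 a3
        using ⟨a1, a2, a3⟩
    filter_upwards [h4] with w hw
    obtain ⟨e1, e2, e3⟩ := hw
    simp only [hM, hR, shear, Prod.swap, hθ, e1, e2]
    linear_combination (w.2 ^ 3) * e3
  have hL1 := LB_shear hθa hθ0
  have hL2 : LB (fun w : ℂ × ℂ => shear θ (Prod.swap w))
      (fun w : ℂ × ℂ => Prod.swap (shear (fun z => - θ z) w)) := hL1.comp LB_swap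
  -- it suffices to treat `ξ R`
  have hfin : KI (fun w : ℂ × ℂ => w.1 * R w) → PRes (fun w : ℂ × ℂ => w.1 * R w) := by
    intro hK'
    obtain ⟨u, a₀, a₁, hu, hu0, ha₀, ha₁, h00, h10, he⟩ := wprep2 hRa hord
    set B : ℂ → ℂ := fun y => a₀ y - a₁ y ^ 2 / 4 with hB
    have hBa : AnalyticAt ℂ B 0 := ha₀.sub ((ha₁.pow 2).div analyticAt_const (by norm_num))
    have hB0 : B 0 = 0 := by simp [hB, h00, h10]
    have hθ' : AnalyticAt ℂ (fun y => a₁ y / 2) 0 := ha₁.div analyticAt_const (by norm_num)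
    have hθ0' : a₁ 0 / 2 = 0 := by simp [h10]
    have hN : AnalyticAt ℂ (fun w : ℂ × ℂ => w.1 * (w.2 ^ 2 + B w.1)) 0 :=
      analyticAt_fst.mul (an_A hBa)
    have hNs : AnalyticAt ℂ (fun w : ℂ × ℂ => (fun v : ℂ × ℂ => v.1 * (v.2 ^ 2 + B v.1))
        (shear (fun y => a₁ y / 2) w)) 0 := by
      refine AnalyticAt.comp (g := fun v : ℂ × ℂ => v.1 * (v.2 ^ 2 + B v.1))
        (f := shear (fun y => a₁ y / 2)) ?_ (LB_shear hθ' hθ0').an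
      rw [(LB_shear hθ' hθ0').map0]; exact hN
    refine res_unit hNs (fun h => res_shear hN (res_D hBa hB0) hθ' hθ0' h) hu hu0 ?_ hK'
    filter_upwards [he] with w hw
    rw [hw]
    simp only [shear, hB]
    ring
  -- transfer
  have hK1 : KI (fun w : ℂ × ℂ => w.1 * R w) := (hK.comp hL2).congr hcomp
  have h5 := hfin hK1
  have h6 : PRes (fun w : ℂ × ℂ => M (shear θ (Prod.swap w))) :=
    h5.congr (by filter_upwards [hcomp] with w hw using hw.symm)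
  have hMc : AnalyticAt ℂ (fun w : ℂ × ℂ => M (shear θ (Prod.swap w))) 0 := by
    refine AnalyticAt.comp (g := M) (f := fun w : ℂ × ℂ => shear θ (Prod.swap w)) ?_ hL2.an
    rw [hL2.map0]; exact hMa
  refine (h6.comp hMc hL2.symm).congr ?_
  filter_upwards [hL2.right] with w hw
  exact congrArg M hw

/-! ### order three, all cases -/

theorem PRes_of_Eul {f : ℂ × ℂ → ℂ} (hf : AnalyticAt ℂ f 0) (hf0 : f 0 = 0) {h : ℕ} (h1 : 1 ≤ h)
    (h2 : h ≤ 30) (hE : Eul f (1 / 2 + 1 / (h : ℂ))) : PRes f :=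
  ⟨h, 0, h1, by omega, hE, Cv_zero hf hf0⟩

theorem res_cubic {b c : ℂ → ℂ} (hb : AnalyticAt ℂ b 0) (hc : AnalyticAt ℂ c 0)
    {β γ : ℂ → ℂ} (hβ : AnalyticAt ℂ β 0) (hγ : AnalyticAt ℂ γ 0)
    (hbe : ∀ᶠ y in 𝓝 (0 : ℂ), b y = y ^ 2 * β y) (hce : ∀ᶠ y in 𝓝 (0 : ℂ), c y = y ^ 3 * γ y)
    (hK : KI (fun w : ℂ × ℂ => w.2 ^ 3 + b w.1 * w.2 + c w.1)) :
    PRes (fun w : ℂ × ℂ => w.2 ^ 3 + b w.1 * w.2 + c w.1) := by
  have hMa : AnalyticAt ℂ (fun w : ℂ × ℂ => w.2 ^ 3 + b w.1 * w.2 + c w.1) 0 :=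
    ((analyticAt_snd.pow 3).add ((an_fst hb).mul analyticAt_snd)).add (an_fst hc)
  have hc00 : c 0 = 0 := by have := hce.self_of_nhds; simpa using this
  have hM0 : (fun w : ℂ × ℂ => w.2 ^ 3 + b w.1 * w.2 + c w.1) 0 = 0 := by simp [hc00]
  by_cases h0 : β 0 ≠ 0 ∨ γ 0 ≠ 0
  · exact res_simple hβ hγ hb hc hbe hce h0 hK
  push Not at h0
  obtain ⟨b3, hb3, hb3e⟩ := pow_step hβ h0.1 hbe
  obtain ⟨c4, hc4, hc4e⟩ := pow_step hγ h0.2 hce
  by_cases h4 : c4 0 ≠ 0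
  · -- E6
    have hδ : (0:ℂ) ^ 1 * b3 0 * ((((1:ℕ):ℂ) + ((0:ℕ):ℂ) + 2) * b3 0) ^ 2 +
      3 * 0 ^ 0 * ((((1:ℕ):ℂ) + 2 * ((0:ℕ):ℂ) + 3) * c4 0) ^ 2 = 48 * c4 0 ^ 2 := by
      push_cast; ring
    have hν : 2 / 3 * (0:ℂ) ^ 1 * b3 0 ^ 2 * ((((1:ℕ):ℂ) + ((0:ℕ):ℂ) + 2) * b3 0) +
      3 * 0 ^ 0 * c4 0 * ((((1:ℕ):ℂ) + 2 * ((0:ℕ):ℂ) + 3) * c4 0) = 12 * c4 0 ^ 2 := by
      push_cast; ring
    have h5 := cubic_field (i := 1) (j := 0) hb3 hc4 hb hc hb3e hc4e hδ.symm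
      (mul_ne_zero (by norm_num) (pow_ne_zero 2 h4)) hν.symm
    refine PRes_of_Eul hMa hM0 (h := 12) (by norm_num) (by norm_num) ?_
    have e1 : (1:ℂ) / 3 + 12 * c4 0 ^ 2 / (48 * c4 0 ^ 2) = 1 / 2 + 1 / ((12:ℕ) : ℂ) := by
      field_simp
      push_cast
      norm_num
    rw [← e1]
    exact h5
  push Not at h4
  obtain ⟨c5, hc5, hc5e⟩ := pow_step hc4 h4 hc4e
  by_cases h5 : b3 0 ≠ 0
  · -- E7
    have hδ : (0:ℂ) ^ 0 * b3 0 * ((((0:ℕ):ℂ) + ((1:ℕ):ℂ) + 2) * b3 0) ^ 2 +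
      3 * 0 ^ 1 * ((((0:ℕ):ℂ) + 2 * ((1:ℕ):ℂ) + 3) * c5 0) ^ 2 = 9 * b3 0 ^ 3 := by
      push_cast; ring
    have hν : 2 / 3 * (0:ℂ) ^ 0 * b3 0 ^ 2 * ((((0:ℕ):ℂ) + ((1:ℕ):ℂ) + 2) * b3 0) +
      3 * 0 ^ 1 * c5 0 * ((((0:ℕ):ℂ) + 2 * ((1:ℕ):ℂ) + 3) * c5 0) = 2 * b3 0 ^ 3 := by
      push_cast; ring
    have h6 := cubic_field (i := 0) (j := 1) hb3 hc5 hb hc hb3e hc5e hδ.symm
      (mul_ne_zero (by norm_num) (pow_ne_zero 3 h5)) hν.symm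
    refine PRes_of_Eul hMa hM0 (h := 18) (by norm_num) (by norm_num) ?_
    have e1 : (1:ℂ) / 3 + 2 * b3 0 ^ 3 / (9 * b3 0 ^ 3) = 1 / 2 + 1 / ((18:ℕ) : ℂ) := by
      field_simp
      push_cast
      norm_num
    rw [← e1]
    exact h6
  push Not at h5
  obtain ⟨b4, hb4, hb4e⟩ := pow_step hb3 h5 hb3e
  by_cases h6 : c5 0 ≠ 0
  · -- E8
    have hδ : (0:ℂ) ^ 2 * b4 0 * ((((2:ℕ):ℂ) + ((0:ℕ):ℂ) + 2) * b4 0) ^ 2 +
      3 * 0 ^ 0 * ((((2:ℕ):ℂ) + 2 * ((0:ℕ):ℂ) + 3) * c5 0) ^ 2 = 75 * c5 0 ^ 2 := by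
      push_cast; ring
    have hν : 2 / 3 * (0:ℂ) ^ 2 * b4 0 ^ 2 * ((((2:ℕ):ℂ) + ((0:ℕ):ℂ) + 2) * b4 0) +
      3 * 0 ^ 0 * c5 0 * ((((2:ℕ):ℂ) + 2 * ((0:ℕ):ℂ) + 3) * c5 0) = 15 * c5 0 ^ 2 := by
      push_cast; ring
    have h7 := cubic_field (i := 2) (j := 0) hb4 hc5 hb hc hb4e hc5e hδ.symm
      (mul_ne_zero (by norm_num) (pow_ne_zero 2 h6)) hν.symm
    refine PRes_of_Eul hMa hM0 (h := 30) (by norm_num) (by norm_num) ?_
    have e1 : (1:ℂ) / 3 + 15 * c5 0 ^ 2 / (75 * c5 0 ^ 2) = 1 / 2 + 1 / ((30:ℕ) : ℂ) := by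
      field_simp
      push_cast
      norm_num
    rw [← e1]
    exact h7
  push Not at h6
  obtain ⟨c6, hc6, hc6e⟩ := pow_step hc5 h6 hc5e
  exfalso
  obtain ⟨C1, r1, hC1, hr1, hr11, hB1⟩ := exists_bound hb4
  obtain ⟨C2, r2, hC2, hr2, hr21, hB2⟩ := exists_bound hc6
  obtain ⟨r3, hr3, hr31, hB3⟩ := exists_radius (hb4e.and hc6e)
  set r := min r1 (min r2 r3) with hr
  have hr0 : 0 < r := lt_min hr1 (lt_min hr2 hr3)
  refine not_KI (p := fun w : ℂ × ℂ => w.2 ^ 3 + b w.1 * w.2 + c w.1) 2 1 (by norm_num) (r := r)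
    (C := 1 + C1 + C2) hr0 (fun t ht ht1 w hw1 hw2 => ?_) hK
  have hrr1 : r ≤ r1 := min_le_left _ _
  have hrr2 : r ≤ r2 := (min_le_right _ _).trans (min_le_left _ _)
  have hrr3 : r ≤ r3 := (min_le_right _ _).trans (min_le_right _ _)
  have hrone : r ≤ 1 := hrr1.trans hr11
  have hw1r : ‖w.1‖ ≤ r := hw1.trans (by
    rw [pow_one]; exact mul_le_of_le_one_right hr0.le ht1)
  have hw1t : ‖w.1‖ ≤ t := hw1.trans (by
    rw [pow_one]; exact mul_le_of_le_one_left ht.le hrone)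
  have hw2t : ‖w.2‖ ≤ t ^ 2 := hw2.trans (mul_le_of_le_one_left (by positivity) hrone)
  obtain ⟨e1, e2⟩ := hB3 w.1 (hw1r.trans hrr3)
  have e3 := hB1 w.1 (hw1r.trans hrr1)
  have e4 := hB2 w.1 (hw1r.trans hrr2)
  simp only [e1, e2]
  calc ‖w.2 ^ 3 + w.1 ^ (2 + 1 + 1) * b4 w.1 * w.2 + w.1 ^ (3 + 1 + 1 + 1) * c6 w.1‖
      ≤ ‖w.2‖ ^ 3 + ‖w.1‖ ^ 4 * ‖b4 w.1‖ * ‖w.2‖ + ‖w.1‖ ^ 6 * ‖c6 w.1‖ := by
        refine (norm_add_le _ _).trans ?_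
        gcongr ?_ + ?_
        · refine (norm_add_le _ _).trans ?_
          rw [norm_pow, norm_mul, norm_mul, norm_pow]
        · rw [norm_mul, norm_pow]
    _ ≤ (t ^ 2) ^ 3 + t ^ 4 * C1 * t ^ 2 + t ^ 6 * C2 := by gcongr
    _ = (1 + C1 + C2) * t ^ (2 * 2 + 2 * 1) := by ring

theorem res_ord3 {q : ℂ × ℂ → ℂ} (hq : AnalyticAt ℂ q 0)
    (hn : analyticOrderAt (fun w : ℂ => q (0, w)) 0 = 3)
    {C : ℝ} (hC : 0 < C) (hbd : ∀ᶠ w in 𝓝 (0 : ℂ × ℂ), ‖q w‖ ≤ C * ‖w‖ ^ 3) (hK : KI q) :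
    PRes q := by
  obtain ⟨u, a₀, a₁, a₂, hu, hu0, ha₀, ha₁, ha₂, h00, h10, h20, he⟩ := wprep3 hq hn
  set b : ℂ → ℂ := fun y => a₁ y - a₂ y ^ 2 / 3 with hb
  set c : ℂ → ℂ := fun y => a₀ y - a₁ y * a₂ y / 3 + 2 * a₂ y ^ 3 / 27 with hc
  have hba : AnalyticAt ℂ b 0 := ha₁.sub ((ha₂.pow 2).div analyticAt_const (by norm_num))
  have hca : AnalyticAt ℂ c 0 :=
    (ha₀.sub ((ha₁.mul ha₂).div analyticAt_const (by norm_num))).add
      ((analyticAt_const.mul (ha₂.pow 3)).div analyticAt_const (by norm_num))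
  have hb0 : b 0 = 0 := by simp [hb, h10, h20]
  have hc0 : c 0 = 0 := by simp [hc, h00, h10, h20]
  set M : ℂ × ℂ → ℂ := fun w => w.2 ^ 3 + b w.1 * w.2 + c w.1 with hM
  have hMa : AnalyticAt ℂ M 0 :=
    ((analyticAt_snd.pow 3).add ((an_fst hba).mul analyticAt_snd)).add (an_fst hca)
  set θ : ℂ → ℂ := fun y => a₂ y / 3 with hθ
  have hθa : AnalyticAt ℂ θ 0 := ha₂.div analyticAt_const (by norm_num)
  have hθ0 : θ 0 = 0 := by simp [hθ, h20]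
  have hL := LB_shear hθa hθ0
  have hMs : AnalyticAt ℂ (fun w : ℂ × ℂ => M (shear θ w)) 0 := by
    refine AnalyticAt.comp (g := M) (f := shear θ) ?_ hL.an
    rw [hL.map0]; exact hMa
  have heq : ∀ᶠ w in 𝓝 (0 : ℂ × ℂ), q w = u w * M (shear θ w) := by
    filter_upwards [he] with w hw
    rw [hw]
    simp only [hM, shear, hb, hc, hθ]
    ring
  -- the bound for `M`
  obtain ⟨C', hC', hMb⟩ : ∃ C' : ℝ, 0 < C' ∧ ∀ᶠ w in 𝓝 (0 : ℂ × ℂ), ‖M w‖ ≤ C' * ‖w‖ ^ 3 := by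
    have hO : (fun w => shear (fun z => - θ z) w) =O[𝓝 0] (fun w : ℂ × ℂ => w) := by
      have := hL.an'.differentiableAt.hasFDerivAt.isBigO_sub
      simpa [hL.map0'] using this
    obtain ⟨K, hK0, hK'⟩ := hO.exists_pos
    have huinv : ∀ᶠ w in 𝓝 (0 : ℂ × ℂ), ‖u 0‖ / 2 ≤ ‖u w‖ := by
      have hu0' : 0 < ‖u 0‖ := norm_pos_iff.2 hu0
      have := (continuousAt_const (y := ‖u 0‖ / 2)).eventually_lt hu.continuousAt.norm (by linarith)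
      filter_upwards [this] with w hw using hw.le
    have hu0' : 0 < ‖u 0‖ := norm_pos_iff.2 hu0
    refine ⟨C * K ^ 3 / (‖u 0‖ / 2), by positivity, ?_⟩
    filter_upwards [hK'.bound, hL.symm.tendsto.eventually heq, hL.symm.tendsto.eventually hbd,
      hL.symm.tendsto.eventually huinv, hL.right] with w h1 h2 h3 h4 h5
    rw [h5] at h2
    rw [div_mul_eq_mul_div, le_div_iff₀ (by positivity)]
    calc ‖M w‖ * (‖u 0‖ / 2) ≤ ‖M w‖ * ‖u (shear (fun z => - θ z) w)‖ := by gcongr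
      _ = ‖q (shear (fun z => - θ z) w)‖ := by rw [h2, norm_mul, mul_comm]
      _ ≤ C * ‖shear (fun z => - θ z) w‖ ^ 3 := h3
      _ ≤ C * (K * ‖w‖) ^ 3 := by gcongr
      _ = C * K ^ 3 * ‖w‖ ^ 3 := by ring
  have hcb : ∀ᶠ y in 𝓝 (0 : ℂ), ‖c y‖ ≤ C' * ‖y‖ ^ 3 := by
    have t1 : Tendsto (fun y : ℂ => (y, (0 : ℂ))) (𝓝 0) (𝓝 (0 : ℂ × ℂ)) :=
      (by fun_prop : Continuous (fun y : ℂ => (y, (0 : ℂ)))).tendsto' _ _ rfl
    filter_upwards [t1.eventually hMb] with y hy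
    simpa [hM, Prod.norm_def] using hy
  have hbb : ∀ᶠ y in 𝓝 (0 : ℂ), ‖b y‖ ≤ (C' + 1 + C') * ‖y‖ ^ 2 := by
    have t1 : Tendsto (fun y : ℂ => (y, y)) (𝓝 0) (𝓝 (0 : ℂ × ℂ)) :=
      (by fun_prop : Continuous (fun y : ℂ => (y, y))).tendsto' _ _ rfl
    filter_upwards [t1.eventually hMb, hcb] with y hy hy2
    rcases eq_or_ne y 0 with rfl | hy0
    · simp [hb0]
    have hyp : 0 < ‖y‖ := norm_pos_iff.2 hy0
    have h1 : ‖M (y, y)‖ ≤ C' * ‖y‖ ^ 3 := by simpa [Prod.norm_def] using hy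
    have h2 : b y * y = M (y, y) - y ^ 3 - c y := by simp only [hM]; ring
    have h3 : ‖b y‖ * ‖y‖ ≤ (C' + 1 + C') * ‖y‖ ^ 2 * ‖y‖ := by
      rw [← norm_mul, h2]
      calc ‖M (y, y) - y ^ 3 - c y‖ ≤ ‖M (y, y)‖ + ‖y ^ 3‖ + ‖c y‖ :=
            (norm_sub_le _ _).trans (by gcongr; exact norm_sub_le _ _)
        _ ≤ C' * ‖y‖ ^ 3 + ‖y‖ ^ 3 + C' * ‖y‖ ^ 3 := by rw [norm_pow]; gcongr
        _ = (C' + 1 + C') * ‖y‖ ^ 2 * ‖y‖ := by ring
    exact le_of_mul_le_mul_right h3 hyp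
  obtain ⟨β, hβ, hβe⟩ := exists_pow_mul_of_bound hba hbb
  obtain ⟨γ, hγ, hγe⟩ := exists_pow_mul_of_bound hca hcb
  exact res_unit hMs (fun h => res_shear hMa (fun h' => res_cubic hba hca hβ hγ hβe hγe h')
    hθa hθ0 h) hu hu0 heq hK

/-- **the plane classification** -/
theorem res_plane {p : ℂ × ℂ → ℂ} (hp : AnalyticAt ℂ p 0) (h0 : p 0 = 0)
    (h1 : fderiv ℂ p 0 = 0) (hK : KI p) : PRes p := by
  have key : ∀ (v : ℂ × ℂ) (m : ℕ), analyticOrderAt (fun t : ℂ => p (t • v)) 0 = m →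
      ∃ e : (ℂ × ℂ) ≃L[ℂ] (ℂ × ℂ),
        analyticOrderAt (fun w : ℂ => p (e (0, w))) 0 = m := by
    intro v m hm
    have hv : v ≠ 0 := by
      rintro rfl
      rw [order_line_zero h0] at hm
      exact absurd hm (by simp)
    obtain ⟨e, he⟩ := exists_equiv hv
    refine ⟨e, ?_⟩
    have : (fun w : ℂ => p (e (0, w))) = fun t : ℂ => p (t • v) := by
      funext t
      rw [← he, ← map_smul]
      simp
    rw [this, hm]
  have trans : ∀ e : (ℂ × ℂ) ≃L[ℂ] (ℂ × ℂ), (KI (fun w => p (e w)) → PRes (fun w => p (e w))) →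
      PRes p := by
    intro e h
    have hL := LB.of_equiv e
    have hpe : AnalyticAt ℂ (fun w => p (e w)) 0 := by
      refine AnalyticAt.comp (g := p) (f := fun w => e w) ?_ hL.an
      rw [map_zero]; exact hp
    refine ((h (hK.comp hL)).comp hpe hL.symm).congr ?_
    exact Eventually.of_forall fun w => by simp
  have hpea : ∀ e : (ℂ × ℂ) ≃L[ℂ] (ℂ × ℂ), AnalyticAt ℂ (fun w => p (e w)) 0 := by
    intro e
    refine AnalyticAt.comp (g := p) (f := fun w => e w) ?_ (LB.of_equiv e).an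
    rw [map_zero]; exact hp
  have h2 := fun v => two_le_order hp h0 h1 v
  by_cases hA : ∃ v, analyticOrderAt (fun t : ℂ => p (t • v)) 0 = (2 : ℕ)
  · obtain ⟨v, hv⟩ := hA
    obtain ⟨e, he⟩ := key v 2 hv
    exact trans e fun h => res_ord2 (hpea e) (by exact_mod_cast he) h
  push Not at hA
  have h3 : ∀ v, ((3 : ℕ) : ℕ∞) ≤ analyticOrderAt (fun t : ℂ => p (t • v)) 0 :=
    fun v => add_one_le_of_ne (h2 v) (hA v)
  by_cases hB : ∃ v, analyticOrderAt (fun t : ℂ => p (t • v)) 0 = (3 : ℕ)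
  · obtain ⟨v, hv⟩ := hB
    obtain ⟨e, he⟩ := key v 3 hv
    obtain ⟨C, hC, hbd⟩ := bound_of_orders hp 3 h3
    have hO : (fun w => e w) =O[𝓝 0] (fun w : ℂ × ℂ => w) := by
      have := (LB.of_equiv e).an.differentiableAt.hasFDerivAt.isBigO_sub
      simpa using this
    obtain ⟨K, hK0, hK'⟩ := hO.exists_pos
    refine trans e fun h => res_ord3 (hpea e) (by exact_mod_cast he) (C := C * K ^ 3)
      (by positivity) ?_ h
    filter_upwards [hK'.bound, (LB.of_equiv e).tendsto.eventually hbd] with w a1 a2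
    calc ‖p (e w)‖ ≤ C * ‖e w‖ ^ 3 := a2
      _ ≤ C * (K * ‖w‖) ^ 3 := by gcongr
      _ = C * K ^ 3 * ‖w‖ ^ 3 := by ring
  push Not at hB
  have h4 : ∀ v, ((4 : ℕ) : ℕ∞) ≤ analyticOrderAt (fun t : ℂ => p (t • v)) 0 :=
    fun v => add_one_le_of_ne (h3 v) (hB v)
  exfalso
  obtain ⟨C, hC, hbd⟩ := bound_of_orders hp 4 h4
  obtain ⟨r, hr, hbr⟩ := Metric.nhds_basis_closedBall.eventually_iff.1 hbd
  refine not_KI (p := p) 1 1 le_rfl (r := r) (C := C * r ^ 4) hr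
    (fun t ht ht1 w hw1 hw2 => ?_) hK
  have hw : ‖w‖ ≤ r * t := by
    rw [Prod.norm_def]
    exact max_le (by simpa using hw1) (by simpa using hw2)
  have hw' : ‖w‖ ≤ r := hw.trans (mul_le_of_le_one_right hr.le ht1)
  calc ‖p w‖ ≤ C * ‖w‖ ^ 4 := hbr (by simpa using hw')
    _ ≤ C * (r * t) ^ 4 := by gcongr
    _ = C * r ^ 4 * t ^ (2 * 1 + 2 * 1) := by ring

end Crest.Agent.R257.Kp_405
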