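import Crest.Agent.R257.Kp5_405
import Crest.Agent.R257.CNS_939
import Crest.Agent.R271.Null_821

/-!
R257 / Kp6_405 (leaf KLT-K2): klt double points of `ℂ³` have an Euler field with divergence
`1 + 1/h`, `h ≤ 30 + 2 μ`.
-/

set_option autoImplicit false
set_option linter.unusedSectionVars false
set_option linter.deprecated false

open Set Filter Topology Metric MeasureTheory
open scoped ENNReal
open Crest.Agent.R257.Defs_219 Crest.AlgGeometry.Germ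

noncomputable section

namespace Crest.Agent.R257.Kp_405

/-- coordinates: `((y, x), z) ↦ (z, y, x)` -/
def kap : ((ℂ × ℂ) × ℂ) ≃L[ℂ] E3 :=
  LinearEquiv.toContinuousLinearEquiv
  { toFun := fun w => Fin.cons w.2 ![w.1.1, w.1.2]
    invFun := fun x => ((x 1, x 2), x 0)
    map_add' := fun v w => by
      ext i
      fin_cases i <;> rfl
    map_smul' := fun c w => by
      ext i
      fin_cases i <;> rfl
    left_inv := fun w => rfl
    right_inv := fun x => by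
      ext i
      fin_cases i <;> rfl }

lemma kap_apply (w : (ℂ × ℂ) × ℂ) : kap w = Fin.cons w.2 ![w.1.1, w.1.2] := rfl

lemma kap_single : kap ((0, 0), 1) = Pi.single 0 1 := by
  ext i
  fin_cases i <;> rfl

/-! ### the trace -/

lemma trace_pi3 (T : E3 →ₗ[ℂ] E3) :
    LinearMap.trace ℂ E3 T = ∑ j, T (Pi.single j 1) j := by
  rw [LinearMap.trace_eq_matrix_trace ℂ (Pi.basisFun ℂ (Fin 3)) T, Matrix.trace]
  refine Finset.sum_congr rfl fun j _ => ?_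
  rw [Matrix.diag_apply, LinearMap.toMatrix_apply]
  simp

lemma eul_coord {f : E3 → ℂ} {τ : ℂ} (h : Eul f τ) :
    ∃ a : Fin 3 → E3 → ℂ, (∀ j, AnalyticAt ℂ (a j) 0) ∧ (∀ j, a j 0 = 0) ∧
      (∀ᶠ x in 𝓝 0, f x = ∑ j, a j x * coordDeriv f j x) ∧ ∑ j, coordDeriv (a j) j 0 = τ := by
  obtain ⟨χ, h1, h2, h3, h4⟩ := h
  have hproj : ∀ j : Fin 3, AnalyticAt ℂ (fun x => χ x j) 0 := fun j =>
    AnalyticAt.comp (g := fun v : E3 => v j) (f := χ)
      ((ContinuousLinearMap.proj (R := ℂ) (φ := fun _ : Fin 3 => ℂ) j).analyticAt _) h1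
  refine ⟨fun j x => χ x j, hproj, fun j => by simp [h2], ?_, ?_⟩
  · filter_upwards [h3] with x hx
    rw [← hx]
    have e1 : χ x = ∑ j, χ x j • (Pi.single j (1 : ℂ) : E3) := by
      ext i
      simp [Finset.sum_apply, Pi.single_apply]
    conv_lhs => rw [e1]
    rw [map_sum]
    refine Finset.sum_congr rfl fun j _ => ?_
    rw [map_smul, smul_eq_mul]
    rfl
  · rw [← h4, trace_pi3]
    refine Finset.sum_congr rfl fun j _ => ?_
    have e1 : HasFDerivAt (fun x => χ x j)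
        ((ContinuousLinearMap.proj (R := ℂ) (φ := fun _ : Fin 3 => ℂ) j).comp (fderiv ℂ χ 0)) 0 :=
      (ContinuousLinearMap.proj (R := ℂ) (φ := fun _ : Fin 3 => ℂ) j).hasFDerivAt.comp 0
        h1.differentiableAt.hasFDerivAt
    rw [coordDeriv, e1.fderiv]
    rfl

/-! ### the Łojasiewicz bound -/

theorem loj {f : E3 → ℂ} (hf : AnalyticAt ℂ f 0) (hfin : ColFin (par f)) :
    ∃ c : ℝ, 0 < c ∧ ∀ᶠ x in 𝓝 (0 : E3), c * ‖x‖ ^ (col (par f)) ≤ ‖fderiv ℂ f x‖ := by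
  have hpa : ∀ j, AnalyticAt ℂ (par f j) 0 := by
    intro j
    have h1 : AnalyticAt ℂ (fderiv ℂ f) 0 := hf.fderiv
    exact an_clm_apply h1 analyticAt_const
  set G : Fin 3 → E3 × ℂ → ℂ := fun j q => par f j q.1 with hG
  have hGa : ∀ j, AnalyticAt ℂ (G j) 0 := fun j =>
    AnalyticAt.comp (g := par f j) (f := Prod.fst) (hpa j) analyticAt_fst
  obtain ⟨C, hC, hb⟩ := UI939.lb G hGa (col (par f)) (Eventually.of_forall fun t =>
    ⟨(UI939.colFin_iff hpa).1 hfin, (UI939.col_eq hpa).symm⟩)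
  have t1 : Tendsto (fun x : E3 => (x, (0 : ℂ))) (𝓝 0) (𝓝 (0 : E3 × ℂ)) :=
    (by fun_prop : Continuous (fun x : E3 => (x, (0 : ℂ)))).tendsto' _ _ rfl
  refine ⟨1 / C, by positivity, ?_⟩
  filter_upwards [t1.eventually hb] with x hx
  have h1 : ‖fun j => G j (x, (0 : ℂ))‖ ≤ ‖fderiv ℂ f x‖ := by
    refine (pi_norm_le_iff_of_nonneg (norm_nonneg _)).2 fun j => ?_
    change ‖fderiv ℂ f x (Pi.single j 1)‖ ≤ _
    refine ((fderiv ℂ f x).le_opNorm _).trans ?_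
    rw [Pi.norm_single, norm_one, mul_one]
  have h2 : ‖x‖ ^ col (par f) ≤ C * ‖fderiv ℂ f x‖ := hx.trans (by gcongr)
  rw [one_div, inv_mul_le_iff₀ hC]
  exact h2

/-! ### sheets -/

/-- the integrand of `Jint` at weight `1` -/
def shs (r : ℝ) (F : E3 → ℂ) (x' : Fin 2 → ℂ) : ℝ≥0∞ :=
  ∑' z : {z : ℂ // ‖z‖ < r ∧ F (Fin.cons z x') = 0 ∧ coordDeriv F 0 (Fin.cons z x') ≠ 0},
      ENNReal.ofReal (‖(1 : ℂ)‖ ^ (2 / (1 : ℝ)) / ‖coordDeriv F 0 (Fin.cons z.1 x')‖ ^ 2)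

lemma Jint_eq (r : ℝ) (F : E3 → ℂ) : Jint 1 (fun _ => r) F (fun _ => 1) =
    ∫⁻ x' : Fin 2 → ℂ in {x' | ∀ i, ‖x' i‖ < r}, shs r F x' := rfl

lemma Jint_prod (r : ℝ) (F : E3 → ℂ) : Jint 1 (fun _ => r) F (fun _ => 1) =
    ∫⁻ y : ℂ × ℂ in {y | ‖y.1‖ < r ∧ ‖y.2‖ < r}, shs r F ![y.1, y.2] := by
  rw [Jint_eq]
  have h1 := (volume_preserving_finTwoArrow ℂ).symm
  have h2 := h1.setLIntegral_comp_preimage_emb (MeasurableEquiv.finTwoArrow (α := ℂ)).symm.measurableEmbedding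
    (shs r F) {x' | ∀ i, ‖x' i‖ < r}
  rw [← h2]
  have h3 : (⇑(MeasurableEquiv.finTwoArrow (α := ℂ)).symm ⁻¹' {x' : Fin 2 → ℂ | ∀ i, ‖x' i‖ < r}) =
      {y : ℂ × ℂ | ‖y.1‖ < r ∧ ‖y.2‖ < r} := by
    ext y
    simp only [mem_preimage, mem_ofPred_eq, Fin.forall_fin_two]
    exact Iff.rfl
  rw [h3]
  rfl

/-- `∫ 1/|p|` is bounded by the sheet integral -/
theorem KI_of_Jint {F : E3 → ℂ} (hF : AnalyticAt ℂ F 0) {r : ℝ} (hr : 0 < r)
    (hJ : Jint 1 (fun _ => r) F (fun _ => 1) < ⊤)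
    {u : (ℂ × ℂ) × ℂ → ℂ} {p b : ℂ × ℂ → ℂ} (hu : AnalyticAt ℂ u 0) (hu0 : u 0 ≠ 0)
    (hp : AnalyticAt ℂ p 0) (hb : AnalyticAt ℂ b 0) (hp0 : p 0 = 0) (hb0 : b 0 = 0)
    (hne : ¬ ∀ᶠ y in 𝓝 (0 : ℂ × ℂ), p y = 0)
    (he : ∀ᶠ w in 𝓝 (0 : (ℂ × ℂ) × ℂ), F (kap w) = u w * ((w.2 + b w.1) ^ 2 + p w.1)) :
    KI p := by
  -- good neighbourhood upstairs
  set M : ℝ := ‖u 0‖ + 1 with hM
  have hM0 : 0 < M := by positivity
  have hkt : Tendsto kap (𝓝 0) (𝓝 0) := by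
    have := kap.continuous.tendsto 0
    rwa [map_zero] at this
  have hup : ∀ᶠ w in 𝓝 (0 : (ℂ × ℂ) × ℂ),
      (∀ᶠ w' in 𝓝 w, F (kap w') = u w' * ((w'.2 + b w'.1) ^ 2 + p w'.1)) ∧
      AnalyticAt ℂ u w ∧ ‖u w‖ ≤ M ∧ u w ≠ 0 ∧ AnalyticAt ℂ F (kap w) := by
    have b1 := hu.continuousAt.norm.eventually_lt (continuousAt_const (y := M)) (by simp [hM])
    filter_upwards [he.eventually_nhds, hu.eventually_analyticAt, b1,
      hu.continuousAt.eventually_ne hu0, hkt.eventually hF.eventually_analyticAt] with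
      w a1 a2 a3 a4 a5 using ⟨a1, a2, a3.le, a4, a5⟩
  obtain ⟨δ, hδ, hgood⟩ := Metric.eventually_nhds_iff_ball.1 hup
  set η : ℝ := min δ r / 2 with hη
  have hη0 : 0 < η := by have := lt_min hδ hr; positivity
  have hdown : ∀ᶠ y in 𝓝 (0 : ℂ × ℂ), ‖y‖ < min δ r ∧ ‖b y‖ < η ∧ ‖p y‖ < η ^ 2 := by
    have b1 := hb.continuousAt.norm.eventually_lt (continuousAt_const (y := η)) (by simpa [hb0])
    have b2 := hp.continuousAt.norm.eventually_lt (continuousAt_const (y := η ^ 2))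
      (by rw [hp0, norm_zero]; positivity)
    filter_upwards [b1, b2, ball_mem_nhds (0 : ℂ × ℂ) (lt_min hδ hr)] with y a1 a2 a3
    exact ⟨by simpa using a3, a1, a2⟩
  have hvol : (volume : Measure (ℂ × ℂ)).IsAddHaarMeasure := by
    rw [Measure.volume_eq_prod]; infer_instance
  obtain ⟨ρ, hρ, hae⟩ := Crest.Agent.R271.Local821.eventually_null_zero
    (volume : Measure (ℂ × ℂ)) hp (Filter.not_eventually.1 hne)
  obtain ⟨V, hV, hVo, hV0⟩ := _root_.mem_nhds_iff.1 (inter_mem hdown (ball_mem_nhds 0 hρ))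
  refine ⟨V, hVo.mem_nhds hV0, ?_⟩
  have key : ∀ y ∈ V, p y ≠ 0 → ‖p y‖ₑ⁻¹ ≤ ENNReal.ofReal (4 * M ^ 2) * shs r F ![y.1, y.2] := by
    intro y hy hpy
    obtain ⟨⟨hy1, hy2, hy3⟩, -⟩ := hV hy
    obtain ⟨s, hs2⟩ := IsAlgClosed.exists_pow_nat_eq (-p y) two_pos
    have hs0 : s ≠ 0 := by
      rintro rfl
      apply hpy
      have : - p y = 0 := by rw [← hs2]; ring
      exact neg_eq_zero.1 this
    have hsn : ‖s‖ ^ 2 = ‖p y‖ := by rw [← norm_pow, hs2, norm_neg]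
    have hsη : ‖s‖ < η := by
      by_contra hcon
      push Not at hcon
      have : η ^ 2 ≤ ‖s‖ ^ 2 := pow_le_pow_left₀ hη0.le hcon 2
      linarith
    set z : ℂ := s - b y with hz
    have hzn : ‖z‖ < min δ r := by
      calc ‖z‖ ≤ ‖s‖ + ‖b y‖ := norm_sub_le _ _
        _ < η + η := by linarith
        _ = min δ r := by rw [hη]; ring
    have hwn : ((y, z) : (ℂ × ℂ) × ℂ) ∈ ball 0 δ := by
      rw [mem_ball_zero_iff, Prod.norm_def]
      exact max_lt (hy1.trans_le (min_le_left _ _)) (hzn.trans_le (min_le_left _ _))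
    obtain ⟨g1, g2, g3, g4, g5⟩ := hgood _ hwn
    have hzb : z + b y = s := by rw [hz]; ring
    have hFz : F (Fin.cons z ![y.1, y.2]) = 0 := by
      have := g1.self_of_nhds
      rw [kap_apply] at this
      simp only at this
      rw [this, hzb, hs2]
      ring
    have hDz : coordDeriv F 0 (Fin.cons z ![y.1, y.2]) = u (y, z) * (2 * s) := by
      -- derivative along the last variable
      have e1 : HasDerivAt (fun t : ℂ => kap (y, t)) (kap ((0, 0), 1)) z := by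
        have h1 : HasDerivAt (fun t : ℂ => ((y, t) : (ℂ × ℂ) × ℂ)) ((0, 0), 1) z :=
          (hasDerivAt_const z y).prodMk (hasDerivAt_id z)
        exact (kap : ((ℂ × ℂ) × ℂ) →L[ℂ] E3).hasFDerivAt.comp_hasDerivAt z h1
      have e2 : HasDerivAt (fun t : ℂ => F (kap (y, t)))
          (fderiv ℂ F (kap (y, z)) (kap ((0, 0), 1))) z :=
        g5.differentiableAt.hasFDerivAt.comp_hasDerivAt z e1
      have e3 : HasDerivAt (fun t : ℂ => u (y, t)) (fderiv ℂ u (y, z) ((0, 0), 1)) z := by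
        have h1 : HasDerivAt (fun t : ℂ => ((y, t) : (ℂ × ℂ) × ℂ)) ((0, 0), 1) z :=
          (hasDerivAt_const z y).prodMk (hasDerivAt_id z)
        exact g2.differentiableAt.hasFDerivAt.comp_hasDerivAt z h1
      have e4 : HasDerivAt (fun t : ℂ => (t + b y) ^ 2 + p y) (2 * (z + b y)) z := by
        have h1 : HasDerivAt (fun t : ℂ => t + b y) 1 z := (hasDerivAt_id z).add_const _
        have h2 := (h1.pow 2).add_const (p y)
        simpa using h2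
      have e5 := e3.mul e4
      have e6 : (fun t : ℂ => F (kap (y, t))) =ᶠ[𝓝 z]
          fun t : ℂ => u (y, t) * ((t + b y) ^ 2 + p y) := by
        have t1 : Tendsto (fun t : ℂ => ((y, t) : (ℂ × ℂ) × ℂ)) (𝓝 z) (𝓝 (y, z)) :=
          (Continuous.prodMk_right y).tendsto z
        exact t1.eventually g1
      have e7 := (e5.congr_of_eventuallyEq e6).unique e2
      have e8 : coordDeriv F 0 (Fin.cons z ![y.1, y.2]) =
          fderiv ℂ F (kap (y, z)) (kap ((0, 0), 1)) := by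
        rw [kap_single]; rfl
      rw [e8, ← e7, hzb, hs2]
      ring
    have hDne : coordDeriv F 0 (Fin.cons z ![y.1, y.2]) ≠ 0 := by
      rw [hDz]
      exact mul_ne_zero g4 (mul_ne_zero two_ne_zero hs0)
    have hterm : ENNReal.ofReal (‖(1 : ℂ)‖ ^ (2 / (1 : ℝ)) /
        ‖coordDeriv F 0 (Fin.cons z ![y.1, y.2])‖ ^ 2) ≤ shs r F ![y.1, y.2] :=
      ENNReal.le_tsum (f := fun z : {z : ℂ // ‖z‖ < r ∧ F (Fin.cons z ![y.1, y.2]) = 0 ∧
        coordDeriv F 0 (Fin.cons z ![y.1, y.2]) ≠ 0} => ENNReal.ofReal (‖(1 : ℂ)‖ ^ (2 / (1 : ℝ)) /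
        ‖coordDeriv F 0 (Fin.cons z.1 ![y.1, y.2])‖ ^ 2))
        ⟨z, hzn.trans_le (min_le_right _ _), hFz, hDne⟩
    have hpn : 0 < ‖p y‖ := norm_pos_iff.2 hpy
    have hval : ‖p y‖ₑ⁻¹ ≤ ENNReal.ofReal (4 * M ^ 2) * ENNReal.ofReal (‖(1 : ℂ)‖ ^ (2 / (1 : ℝ)) /
        ‖coordDeriv F 0 (Fin.cons z ![y.1, y.2])‖ ^ 2) := by
      rw [← ofReal_norm, ← ENNReal.ofReal_inv_of_pos hpn, ← ENNReal.ofReal_mul (by positivity)]
      apply ENNReal.ofReal_le_ofReal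
      rw [hDz, norm_one, Real.one_rpow, norm_mul, norm_mul, mul_pow, mul_pow, hsn,
        Complex.norm_ofNat]
      have hun : 0 < ‖u (y, z)‖ := norm_pos_iff.2 g4
      rw [← mul_div_assoc, mul_one, le_div_iff₀ (by positivity)]
      have h1 : ‖p y‖⁻¹ * (‖u (y, z)‖ ^ 2 * (2 ^ 2 * ‖p y‖)) = 4 * ‖u (y, z)‖ ^ 2 := by
        field_simp
        norm_num
      rw [h1]
      gcongr
    exact hval.trans (by gcongr)
  have hae' : ∀ᵐ y ∂(volume.restrict V : Measure (ℂ × ℂ)), p y ≠ 0 :=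
    ae_restrict_of_ae_restrict_of_subset (hV.trans inter_subset_right) hae
  have hVr : V ⊆ {y : ℂ × ℂ | ‖y.1‖ < r ∧ ‖y.2‖ < r} := by
    intro y hy
    obtain ⟨⟨hy1, -, -⟩, -⟩ := hV hy
    have h1 : ‖y‖ < r := hy1.trans_le (min_le_right _ _)
    exact ⟨(norm_fst_le y).trans_lt h1, (norm_snd_le y).trans_lt h1⟩
  calc ∫⁻ y in V, ‖p y‖ₑ⁻¹
      ≤ ∫⁻ y in V, ENNReal.ofReal (4 * M ^ 2) * shs r F ![y.1, y.2] := by
        refine lintegral_mono_ae ?_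
        filter_upwards [hae', ae_restrict_mem hVo.measurableSet] with y hy1 hy2
        exact key y hy2 hy1
    _ = ENNReal.ofReal (4 * M ^ 2) * ∫⁻ y in V, shs r F ![y.1, y.2] :=
        lintegral_const_mul' _ _ ENNReal.ofReal_ne_top
    _ ≤ ENNReal.ofReal (4 * M ^ 2) * Jint 1 (fun _ => r) F (fun _ => 1) := by
        rw [Jint_prod]
        gcongr
    _ < ⊤ := ENNReal.mul_lt_top ENNReal.ofReal_lt_top hJ

/-! ### the theorem -/

lemma fderiv_zero_of_crit {f : E3 → ℂ} (h : ∀ i, coordDeriv f i 0 = 0) : fderiv ℂ f 0 = 0 := by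
  refine ContinuousLinearMap.ext fun v => ?_
  have e1 : v = ∑ j, v j • (Pi.single j (1 : ℂ) : E3) := by
    ext i
    simp [Finset.sum_apply, Pi.single_apply]
  rw [e1, map_sum]
  have h0 : ∀ j, fderiv ℂ f 0 (v j • (Pi.single j (1 : ℂ) : E3)) = 0 := by
    intro j
    have hj : fderiv ℂ f 0 (Pi.single j (1 : ℂ) : E3) = 0 := h j
    rw [map_smul, hj, smul_zero]
  rw [Finset.sum_eq_zero fun j _ => h0 j]
  simp

lemma Cv_zero_fun (k : ℕ) : Cv (fun _ : ℂ × ℂ => (0 : ℂ)) k := by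
  refine ⟨fun s => (s, 0), analyticAt_id.prod analyticAt_const, rfl, 1, one_pos, 0, ?_⟩
  refine Eventually.of_forall fun s => ⟨?_, ?_, ?_⟩
  · rw [one_mul]; exact le_max_left ‖s‖ ‖(0:ℂ)‖
  · simp
  · simp

/-- the core statement: no `Iso` -/
theorem k2_core {f : E3 → ℂ} (hfa : AnalyticAt ℂ f 0) (hf0 : f 0 = 0) (hf1 : fderiv ℂ f 0 = 0)
    {c : ℝ} (hc : 0 < c) {N : ℕ} (hloj : ∀ᶠ x in 𝓝 (0 : E3), c * ‖x‖ ^ N ≤ ‖fderiv ℂ f x‖)
    (L : E3 ≃L[ℂ] E3) (hord : analyticOrderAt (fun z : ℂ => f (L (Fin.cons z 0))) 0 = 2)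
    {r : ℝ} (hr : 0 < r) (hJ : Jint 1 (fun _ => r) (fun x => f (L x)) (fun _ => 1) < ⊤) :
    ∃ h : ℕ, 1 ≤ h ∧ h ≤ 30 + 2 * N ∧ Eul f (1 + 1 / (h : ℂ)) := by
  set e : ((ℂ × ℂ) × ℂ) ≃L[ℂ] E3 := kap.trans L with he
  have hLB := LB.of_equiv e
  set g : (ℂ × ℂ) × ℂ → ℂ := fun w => f (e w) with hg
  have hga : AnalyticAt ℂ g 0 := by
    refine AnalyticAt.comp (g := f) (f := fun w => e w) ?_ hLB.an
    rw [map_zero]; exact hfa
  have hg0 : g 0 = 0 := by simp [hg, hf0]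
  have hg1 : HasFDerivAt g (0 : ((ℂ × ℂ) × ℂ) →L[ℂ] ℂ) 0 := by
    have h1 : HasFDerivAt f (fderiv ℂ f 0) (e 0) := by
      rw [map_zero]; exact hfa.differentiableAt.hasFDerivAt
    have h2 := h1.comp (0 : (ℂ × ℂ) × ℂ) (e : ((ℂ × ℂ) × ℂ) →L[ℂ] E3).hasFDerivAt
    rw [hf1, ContinuousLinearMap.zero_comp] at h2
    exact h2
  have hgord : analyticOrderAt (fun w : ℂ => g (0, w)) 0 = 2 := by
    rw [← hord]
    congr 1
    funext w
    have : kap ((0 : ℂ × ℂ), w) = Fin.cons w 0 := by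
      rw [kap_apply]
      ext i
      fin_cases i <;> rfl
    simp only [hg, he]
    change f (L (kap ((0 : ℂ × ℂ), w))) = _
    rw [this]
  obtain ⟨u, a₀, a₁, hu, hu0, ha₀, ha₁, h00, h10, hW⟩ := wprep2 hga hgord
  set p : ℂ × ℂ → ℂ := fun y => a₀ y - a₁ y ^ 2 / 4 with hp
  set b : ℂ × ℂ → ℂ := fun y => a₁ y / 2 with hb
  have hpa : AnalyticAt ℂ p 0 := ha₀.sub ((ha₁.pow 2).div analyticAt_const (by norm_num))
  have hba : AnalyticAt ℂ b 0 := ha₁.div analyticAt_const (by norm_num)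
  have hp0 : p 0 = 0 := by simp [hp, h00, h10]
  have hb0 : b 0 = 0 := by simp [hb, h10]
  have hW' : ∀ᶠ w in 𝓝 (0 : (ℂ × ℂ) × ℂ), g w = u w * ((w.2 + b w.1) ^ 2 + p w.1) := by
    filter_upwards [hW] with w hw
    rw [hw]
    simp only [hb, hp]
    ring
  -- the model upstairs and the transfer to `f`
  set Q : (ℂ × ℂ) × ℂ → ℂ := fun w => p w.1 + w.2 ^ 2 with hQ
  have hQa : AnalyticAt ℂ Q 0 :=
    (AnalyticAt.comp (g := p) (f := Prod.fst) hpa analyticAt_fst).add (analyticAt_snd.pow 2)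
  have hS := LB_shear hba hb0
  have hQs : AnalyticAt ℂ (fun w => Q (shear b w)) 0 := by
    refine AnalyticAt.comp (g := Q) (f := shear b) ?_ hS.an
    rw [hS.map0]; exact hQa
  have hgQ : (fun w => u w * Q (shear b w)) =ᶠ[𝓝 0] g := by
    filter_upwards [hW'] with w hw
    rw [hw]
    simp only [hQ, shear]
    ring
  have hback : (fun x => g (e.symm x)) =ᶠ[𝓝 0] f :=
    Eventually.of_forall fun x => by simp [hg]
  have tE : ∀ τ : ℂ, Eul Q τ → Eul f τ := by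
    intro τ h
    have h1 := ((h.comp hQa hS).unit_mul hQs hu hu0).congr hgQ
    exact (h1.comp hga hLB.symm).congr hback
  have tC : ∀ k : ℕ, Cv Q k → Cv f k := by
    intro k h
    have h1 := ((h.comp hQa hS).unit_mul hQs hu).congr hgQ
    exact (h1.comp hga hLB.symm).congr hback
  -- `p` is not locally zero
  have hne : ¬ ∀ᶠ y in 𝓝 (0 : ℂ × ℂ), p y = 0 := by
    intro h0
    have h1 : Cv p (N + 1) := (Cv_zero_fun (N + 1)).congr (by
      filter_upwards [h0] with y hy using hy.symm)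
    have h2 := (tC _ (h1.add_sq hpa)).le_of_lojasiewicz hc hloj
    omega
  -- `dp = 0`
  have hp1 : fderiv ℂ p 0 = 0 := by
    have e1 : HasFDerivAt (fun y : ℂ × ℂ => (y, - b y))
        ((ContinuousLinearMap.id ℂ (ℂ × ℂ)).prod (-(fderiv ℂ b 0))) 0 :=
      (hasFDerivAt_id (0 : ℂ × ℂ)).prodMk hba.differentiableAt.hasFDerivAt.neg
    have hz : ((0 : ℂ × ℂ), - b 0) = (0 : (ℂ × ℂ) × ℂ) := by rw [hb0, neg_zero]; rfl
    have e2 : HasFDerivAt (fun y : ℂ × ℂ => g (y, - b y)) (0 : ℂ × ℂ →L[ℂ] ℂ) 0 := by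
      have h1 : HasFDerivAt g (0 : ((ℂ × ℂ) × ℂ) →L[ℂ] ℂ) ((0 : ℂ × ℂ), - b 0) := by
        rw [hz]; exact hg1
      have h2 := h1.comp (0 : ℂ × ℂ) e1
      rw [ContinuousLinearMap.zero_comp] at h2
      exact h2
    have e3 : DifferentiableAt ℂ (fun y : ℂ × ℂ => (u (y, - b y))⁻¹) 0 := by
      have h1 : DifferentiableAt ℂ u ((0 : ℂ × ℂ), - b 0) := by
        rw [hz]; exact hu.differentiableAt
      have h2 : DifferentiableAt ℂ (fun y : ℂ × ℂ => u (y, - b y)) 0 :=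
        h1.comp (0 : ℂ × ℂ) e1.differentiableAt
      refine h2.inv ?_
      rw [hz]; exact hu0
    have e4 := e3.hasFDerivAt.mul e2
    have e5 : p =ᶠ[𝓝 0] fun y => (u (y, - b y))⁻¹ * g (y, - b y) := by
      have t1 : Tendsto (fun y : ℂ × ℂ => (y, - b y)) (𝓝 0) (𝓝 (0 : (ℂ × ℂ) × ℂ)) := by
        have := e1.continuousAt.tendsto
        rwa [hz] at this
      filter_upwards [t1.eventually hW', t1.eventually (hu.continuousAt.eventually_ne hu0)] with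
        y h1 h2
      rw [h1]
      field_simp
      ring
    have e6 := e4.congr_of_eventuallyEq e5
    rw [e6.fderiv]
    have hz' : g (0, - b 0) = 0 := by rw [hz]; exact hg0
    rw [hz']
    refine ContinuousLinearMap.ext fun v => ?_
    rw [ContinuousLinearMap.add_apply, ContinuousLinearMap.smul_apply,
      ContinuousLinearMap.smul_apply, smul_eq_mul, smul_eq_mul, ContinuousLinearMap.zero_apply]
    ring
  have hK : KI p := by
    have hFa : AnalyticAt ℂ (fun x => f (L x)) 0 := by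
      refine AnalyticAt.comp (g := f) (f := fun x => L x) ?_ ((L : E3 →L[ℂ] E3).analyticAt 0)
      rw [map_zero]; exact hfa
    exact KI_of_Jint hFa hr hJ hu hu0 hpa hba hp0 hb0 hne hW'
  obtain ⟨h, k, h1, h2, h3, h4⟩ := res_plane hpa hp0 hp1 hK
  have hkN : k ≤ N := (tC k (h4.add_sq hpa)).le_of_lojasiewicz hc hloj
  refine ⟨h, h1, by omega, ?_⟩
  have h5 := tE _ (h3.add_sq hpa)
  have e1 : (1 : ℂ) / 2 + 1 / (h : ℂ) + 1 / 2 = 1 + 1 / (h : ℂ) := by ring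
  rwa [e1] at h5

/-- **K2** in the shape of helper540. -/
theorem k2 {f : E3 → ℂ} (hf : Iso f) (L : E3 ≃L[ℂ] E3)
    (hord : analyticOrderAt (fun z : ℂ => f (L (Fin.cons z 0))) 0 = 2)
    {r : ℝ} (hr : 0 < r) (hJ : Jint 1 (fun _ => r) (fun x => f (L x)) (fun _ => 1) < ⊤) :
    ∃ a : Fin 3 → E3 → ℂ, (∀ j, AnalyticAt ℂ (a j) 0) ∧ (∀ j, a j 0 = 0) ∧
      (∀ᶠ x in 𝓝 0, f x = ∑ j, a j x * coordDeriv f j x) ∧
      (∃ h : ℕ, 1 ≤ h ∧ h ≤ 30 + 2 * col (par f) ∧ ∑ j, coordDeriv (a j) j 0 = 1 + 1 / (h : ℂ)) ∧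
      1 + 1 / (30 + 2 * (col (par f) : ℝ)) ≤ (∑ j, coordDeriv (a j) j 0).re := by
  obtain ⟨c, hc, hloj⟩ := loj hf.an hf.fin
  obtain ⟨h, h1, h2, hE⟩ := k2_core hf.an hf.zero (fderiv_zero_of_crit hf.crit) hc hloj L hord hr hJ
  obtain ⟨a, ha, ha0, hae, hat⟩ := eul_coord hE
  refine ⟨a, ha, ha0, hae, ⟨h, h1, h2, hat⟩, ?_⟩
  rw [hat]
  have h3 : ((1 : ℂ) + 1 / (h : ℂ)).re = 1 + 1 / (h : ℝ) := by
    have : (1 : ℂ) + 1 / (h : ℂ) = ((1 + 1 / (h : ℝ) : ℝ) : ℂ) := by push_cast; ring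
    rw [this, Complex.ofReal_re]
  rw [h3]
  have h4 : (0 : ℝ) < h := by exact_mod_cast h1
  have h5 : (h : ℝ) ≤ 30 + 2 * (col (par f) : ℝ) := by exact_mod_cast h2
  gcongr

end Crest.Agent.R257.Kp_405
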