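import Crest.Agent.R257.Kp6_405

/-!
R257 / Kp7_405 (leaf KLT-K2, NKW form): the plane classification from the weighted box criterion of
helper540 (`NKW`, post 3159) instead of integrals.
-/

set_option autoImplicit false
set_option linter.unusedSectionVars false
set_option linter.deprecated false

open Set Filter Topology Metric MeasureTheory
open scoped ENNReal
open Crest.Agent.R257.Defs_219 Crest.AlgGeometry.Germ

noncomputable section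

namespace Crest.Agent.R257.Kp_405.NK

/-- box bound with weights `(b, a)` -/
def NB (p : ℂ × ℂ → ℂ) (a b : ℕ) : Prop :=
  ∃ r C : ℝ, 0 < r ∧ ∀ t : ℝ, 0 < t → t ≤ 1 → ∀ w : ℂ × ℂ, ‖w.1‖ ≤ r * t ^ b → ‖w.2‖ ≤ r * t ^ a →
    ‖p w‖ ≤ C * t ^ (2 * a + 2 * b)

lemma NB.of_le {p q : ℂ × ℂ → ℂ} {a b : ℕ} (h : NB p a b) {M : ℝ}
    (hle : ∀ᶠ w in 𝓝 (0 : ℂ × ℂ), ‖q w‖ ≤ M * ‖p w‖) : NB q a b := by
  obtain ⟨r, C, hr, h1⟩ := h
  obtain ⟨ρ, hρ, h2⟩ := Metric.nhds_basis_closedBall.eventually_iff.1 hle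
  refine ⟨min r ρ, |M| * C, lt_min hr hρ, fun t ht ht1 w hw1 hw2 => ?_⟩
  have hb : t ^ b ≤ 1 := pow_le_one₀ ht.le ht1
  have ha : t ^ a ≤ 1 := pow_le_one₀ ht.le ht1
  have hm : 0 < min r ρ := lt_min hr hρ
  have e1 : ‖w.1‖ ≤ r * t ^ b := hw1.trans (by gcongr; exact min_le_left _ _)
  have e2 : ‖w.2‖ ≤ r * t ^ a := hw2.trans (by gcongr; exact min_le_left _ _)
  have e3 : ‖w‖ ≤ ρ := by
    rw [Prod.norm_def]
    refine max_le ?_ ?_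
    · exact hw1.trans ((mul_le_of_le_one_right hm.le hb).trans (min_le_right _ _))
    · exact hw2.trans ((mul_le_of_le_one_right hm.le ha).trans (min_le_right _ _))
  calc ‖q w‖ ≤ M * ‖p w‖ := h2 (by simpa using e3)
    _ ≤ |M| * ‖p w‖ := by gcongr; exact le_abs_self M
    _ ≤ |M| * (C * t ^ (2 * a + 2 * b)) := by gcongr; exact h1 t ht ht1 w e1 e2
    _ = |M| * C * t ^ (2 * a + 2 * b) := by ring

/-- `p` is a non degenerate germ which satisfies no weighted box bound with `w₁ + w₂ = 1/2` -/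
def NK2 (p : ℂ × ℂ → ℂ) : Prop :=
  (∃ k, ¬ Cv p k) ∧ ∀ (Φ Ψ : ℂ × ℂ → ℂ × ℂ), LB Φ Ψ → ∀ a b : ℕ, 1 ≤ a → 1 ≤ b →
    ¬ NB (fun w => p (Φ w)) a b

lemma NK2.congr {p q : ℂ × ℂ → ℂ} (h : NK2 p) (he : p =ᶠ[𝓝 0] q) : NK2 q := by
  obtain ⟨⟨k, hk⟩, h2⟩ := h
  refine ⟨⟨k, fun hq => hk (hq.congr he.symm)⟩, fun Φ Ψ hL a b ha hb hN => ?_⟩
  refine h2 Φ Ψ hL a b ha hb (hN.of_le (M := 1) ?_)
  filter_upwards [hL.tendsto.eventually he] with w hw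
  rw [hw, one_mul]

lemma NK2.of_unit_mul {p u : ℂ × ℂ → ℂ} (hp : AnalyticAt ℂ p 0) (hu : AnalyticAt ℂ u 0)
    (h : NK2 (fun w => u w * p w)) : NK2 p := by
  obtain ⟨⟨k, hk⟩, h2⟩ := h
  refine ⟨⟨k, fun hq => hk (hq.unit_mul hp hu)⟩, fun Φ Ψ hL a b ha hb hN => ?_⟩
  refine h2 Φ Ψ hL a b ha hb (hN.of_le (M := ‖u 0‖ + 1) ?_)
  have b1 := hu.continuousAt.norm.eventually_lt (continuousAt_const (y := ‖u 0‖ + 1)) (by simp)
  filter_upwards [hL.tendsto.eventually b1] with w hw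
  rw [norm_mul]
  gcongr

lemma NK2.comp {p : ℂ × ℂ → ℂ} (hp : AnalyticAt ℂ p 0) (h : NK2 p) {Φ Ψ : ℂ × ℂ → ℂ × ℂ}
    (hL : LB Φ Ψ) : NK2 (fun w => p (Φ w)) := by
  obtain ⟨⟨k, hk⟩, h2⟩ := h
  have hpΦ : AnalyticAt ℂ (fun w => p (Φ w)) 0 := by
    refine AnalyticAt.comp (g := p) (f := Φ) ?_ hL.an
    rw [hL.map0]; exact hp
  refine ⟨⟨k, fun hq => hk ?_⟩, fun Φ' Ψ' hL' a b ha hb hN => ?_⟩
  · refine (hq.comp hpΦ hL.symm).congr ?_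
    filter_upwards [hL.right] with w hw
    exact congrArg p hw
  · exact h2 _ _ (hL.comp hL') a b ha hb hN

theorem not_NK2 {p : ℂ × ℂ → ℂ} (a b : ℕ) (ha : 1 ≤ a) (hb : 1 ≤ b) {r C : ℝ} (hr : 0 < r)
    (h : ∀ t : ℝ, 0 < t → t ≤ 1 → ∀ w : ℂ × ℂ, ‖w.1‖ ≤ r * t ^ b → ‖w.2‖ ≤ r * t ^ a →
      ‖p w‖ ≤ C * t ^ (2 * a + 2 * b)) : ¬ NK2 p := by
  rintro ⟨-, h2⟩
  have hid : LB (fun w : ℂ × ℂ => w) (fun w : ℂ × ℂ => w) :=
    ⟨analyticAt_id, analyticAt_id, rfl, rfl, Eventually.of_forall fun _ => rfl,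
      Eventually.of_forall fun _ => rfl⟩
  exact h2 _ _ hid a b ha hb ⟨r, C, hr, h⟩

lemma Cv_sq (k : ℕ) : Cv (fun w : ℂ × ℂ => w.2 ^ 2) k := by
  refine ⟨fun s => (s, 0), analyticAt_id.prod analyticAt_const, rfl, 1, one_pos, 0, ?_⟩
  refine Eventually.of_forall fun s => ⟨?_, ?_, ?_⟩
  · rw [one_mul]; exact le_max_left ‖s‖ ‖(0:ℂ)‖
  · have e2 : HasFDerivAt (fun w : ℂ × ℂ => w.2 ^ 2) (0 : ℂ × ℂ →L[ℂ] ℂ) (s, 0) := by
      have := (hasFDerivAt_snd (𝕜 := ℂ) (E := ℂ) (F := ℂ) (p := (s, (0:ℂ)))).pow 2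
      refine this.congr_fderiv ?_
      ext <;> simp
    rw [e2.fderiv]
    simp
  · simp

/-! ### order two -/

theorem res_A {c : ℂ → ℂ} (hc : AnalyticAt ℂ c 0) (hc0 : c 0 = 0)
    (hK : NK2 (fun w : ℂ × ℂ => w.2 ^ 2 + c w.1)) : PRes (fun w : ℂ × ℂ => w.2 ^ 2 + c w.1) := by
  have hne : ¬ ∀ᶠ y in 𝓝 (0 : ℂ), c y = 0 := by
    intro h0
    obtain ⟨⟨k, hk⟩, -⟩ := hK
    refine hk ((Cv_sq k).congr ?_)
    filter_upwards [ev_fst h0] with w hw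
    rw [hw, add_zero]
  obtain ⟨n, g, hg, hg0, he⟩ := exists_ord hc hc0 hne
  exact model_A hg hg0 hc he

theorem res_D {B : ℂ → ℂ} (hB : AnalyticAt ℂ B 0) (hB0 : B 0 = 0)
    (hK : NK2 (fun w : ℂ × ℂ => w.1 * (w.2 ^ 2 + B w.1))) :
    PRes (fun w : ℂ × ℂ => w.1 * (w.2 ^ 2 + B w.1)) := by
  have hne : ¬ ∀ᶠ y in 𝓝 (0 : ℂ), B y = 0 := by
    intro h0
    obtain ⟨⟨k, hk⟩, -⟩ := hK
    refine hk (((Cv_sq k).unit_mul (analyticAt_snd.pow 2) analyticAt_fst).congr ?_)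
    filter_upwards [ev_fst h0] with w hw
    rw [hw, add_zero]
    rfl
  obtain ⟨n, g, hg, hg0, he⟩ := exists_ord hB hB0 hne
  exact model_D hg hg0 hB he

/-- transfer from the sheared model -/
theorem res_shear {M : ℂ × ℂ → ℂ} (hM : AnalyticAt ℂ M 0) (hres : NK2 M → PRes M) {θ : ℂ → ℂ}
    (hθ : AnalyticAt ℂ θ 0) (h0 : θ 0 = 0) (hK : NK2 (fun w => M (shear θ w))) :
    PRes (fun w => M (shear θ w)) := by
  have hL := LB_shear hθ h0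
  have hMs : AnalyticAt ℂ (fun w => M (shear θ w)) 0 := by
    refine AnalyticAt.comp (g := M) (f := shear θ) ?_ hL.an
    rw [hL.map0]; exact hM
  have h1 : NK2 (fun w => (fun w => M (shear θ w)) (shear (fun z => - θ z) w)) :=
    NK2.comp hMs hK hL.symm
  have h2 : NK2 M := h1.congr (by
    filter_upwards [hL.right] with w hw
    simp only [hw])
  exact (hres h2).comp hM hL

/-- transfer from `F = u M` -/
theorem res_unit {F M u : ℂ × ℂ → ℂ} (hM : AnalyticAt ℂ M 0) (hres : NK2 M → PRes M)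
    (hu : AnalyticAt ℂ u 0) (hu0 : u 0 ≠ 0) (he : ∀ᶠ w in 𝓝 (0 : ℂ × ℂ), F w = u w * M w)
    (hK : NK2 F) : PRes F := by
  have h1 : NK2 (fun w => u w * M w) := hK.congr he
  have h2 : NK2 M := NK2.of_unit_mul hM hu h1
  refine ((hres h2).unit_mul hM hu hu0).congr ?_
  filter_upwards [he] with w hw using hw.symm

theorem res_ord2 {q : ℂ × ℂ → ℂ} (hq : AnalyticAt ℂ q 0)
    (hn : analyticOrderAt (fun w : ℂ => q (0, w)) 0 = 2) (hK : NK2 q) : PRes q := by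
  obtain ⟨u, a₀, a₁, hu, hu0, ha₀, ha₁, h00, h10, he⟩ := wprep2 hq hn
  set c : ℂ → ℂ := fun y => a₀ y - a₁ y ^ 2 / 4 with hc
  have hca : AnalyticAt ℂ c 0 := ha₀.sub ((ha₁.pow 2).div analyticAt_const (by norm_num))
  have hc0 : c 0 = 0 := by simp [hc, h00, h10]
  have hθ : AnalyticAt ℂ (fun y => a₁ y / 2) 0 := ha₁.div analyticAt_const (by norm_num)
  have hθ0 : a₁ 0 / 2 = 0 := by simp [h10]
  have hM := an_A hca
  have hMs : AnalyticAt ℂ (fun w : ℂ × ℂ => (fun v : ℂ × ℂ => v.2 ^ 2 + c v.1)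
      (shear (fun y => a₁ y / 2) w)) 0 := by
    rw [← sq_form]
    exact ((analyticAt_snd.pow 2).add ((an_fst ha₁).mul analyticAt_snd)).add (an_fst ha₀)
  refine res_unit hMs (fun h => res_shear hM (res_A hca hc0) hθ hθ0 h) hu hu0 ?_ hK
  filter_upwards [he] with w hw
  rw [hw]
  congr 1
  simp only [shear, hc]
  ring

/-! ### order three, a simple root -/

theorem res_simple {b c β γ : ℂ → ℂ} (hβ : AnalyticAt ℂ β 0) (hγ : AnalyticAt ℂ γ 0)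
    (hb : AnalyticAt ℂ b 0) (hc : AnalyticAt ℂ c 0)
    (hbe : ∀ᶠ y in 𝓝 (0 : ℂ), b y = y ^ 2 * β y) (hce : ∀ᶠ y in 𝓝 (0 : ℂ), c y = y ^ 3 * γ y)
    (h : β 0 ≠ 0 ∨ γ 0 ≠ 0) (hK : NK2 (fun w : ℂ × ℂ => w.2 ^ 3 + b w.1 * w.2 + c w.1)) :
    PRes (fun w : ℂ × ℂ => w.2 ^ 3 + b w.1 * w.2 + c w.1) := by
  obtain ⟨ρ, h1, h2⟩ := exists_simple_root h
  obtain ⟨σ, hσ, hσ0, hσe⟩ := exists_root_fun hβ hγ h1 h2
  set M : ℂ × ℂ → ℂ := fun w => w.2 ^ 3 + b w.1 * w.2 + c w.1 with hM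
  have hMa : AnalyticAt ℂ M 0 :=
    ((analyticAt_snd.pow 3).add ((an_fst hb).mul analyticAt_snd)).add (an_fst hc)
  set θ : ℂ → ℂ := fun y => y * σ y with hθ
  have hθa : AnalyticAt ℂ θ 0 := analyticAt_id.mul hσ
  have hθ0 : θ 0 = 0 := by simp [hθ]
  -- the change of variables
  set R : ℂ × ℂ → ℂ := fun w => w.1 ^ 2 + 3 * θ w.2 * w.1 + (3 * θ w.2 ^ 2 + b w.2) with hR
  have hθs : AnalyticAt ℂ (fun w : ℂ × ℂ => θ w.2) 0 :=
    AnalyticAt.comp (g := θ) (f := Prod.snd) hθa analyticAt_snd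
  have hbs : AnalyticAt ℂ (fun w : ℂ × ℂ => b w.2) 0 :=
    AnalyticAt.comp (g := b) (f := Prod.snd) hb analyticAt_snd
  have hRa : AnalyticAt ℂ R 0 :=
    ((analyticAt_fst.pow 2).add ((analyticAt_const.mul hθs).mul analyticAt_fst)).add
      ((analyticAt_const.mul (hθs.pow 2)).add hbs)
  have hord : analyticOrderAt (fun w : ℂ => R (0, w)) 0 = 2 := by
    have ha : AnalyticAt ℂ (fun w : ℂ => R (0, w)) 0 :=
      AnalyticAt.comp (g := R) (f := fun w : ℂ => ((0 : ℂ), w)) hRa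
        (analyticAt_const.prod analyticAt_id)
    have h3 : analyticOrderAt (fun w : ℂ => R (0, w)) 0 = ((2 : ℕ) : ℕ∞) := by
      rw [ha.analyticOrderAt_eq_natCast]
      refine ⟨fun s => 3 * σ s ^ 2 + β s, (analyticAt_const.mul (hσ.pow 2)).add hβ, ?_, ?_⟩
      · change 3 * σ 0 ^ 2 + β 0 ≠ 0
        rw [hσ0]; exact h2
      · filter_upwards [hbe] with s hs
        simp only [hR, hs, hθ, sub_zero, smul_eq_mul]
        ring
    exact_mod_cast h3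
  -- `M ∘ shear θ ∘ swap = ξ R`
  have hcomp : ∀ᶠ w in 𝓝 (0 : ℂ × ℂ), M (shear θ (Prod.swap w)) = w.1 * R w := by
    have h4 : ∀ᶠ w in 𝓝 (0 : ℂ × ℂ), b w.2 = w.2 ^ 2 * β w.2 ∧ c w.2 = w.2 ^ 3 * γ w.2 ∧
        σ w.2 ^ 3 + β w.2 * σ w.2 + γ w.2 = 0 := by
      have t1 : Tendsto (Prod.snd : ℂ × ℂ → ℂ) (𝓝 0) (𝓝 0) := continuous_snd.tendsto' _ _ rfl
      filter_upwards [t1.eventually hbe, t1.eventually hce, t1.eventually hσe] with w a1 a2 a3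
        using ⟨a1, a2, a3⟩
    filter_upwards [h4] with w hw
    obtain ⟨e1, e2, e3⟩ := hw
    simp only [hM, hR, shear, Prod.swap, hθ, e1, e2]
    linear_combination (w.2 ^ 3) * e3
  have hL1 := LB_shear hθa hθ0
  have hL2 : LB (fun w : ℂ × ℂ => shear θ (Prod.swap w))
      (fun w : ℂ × ℂ => Prod.swap (shear (fun z => - θ z) w)) := hL1.comp LB_swap
  -- it suffices to treat `ξ R`
  have hfin : NK2 (fun w : ℂ × ℂ => w.1 * R w) → PRes (fun w : ℂ × ℂ => w.1 * R w) := by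
    intro hK'
    obtain ⟨u, a₀, a₁, hu, hu0, ha₀, ha₁, h00, h10, he⟩ := wprep2 hRa hord
    set B : ℂ → ℂ := fun y => a₀ y - a₁ y ^ 2 / 4 with hB
    have hBa : AnalyticAt ℂ B 0 := ha₀.sub ((ha₁.pow 2).div analyticAt_const (by norm_num))
    have hB0 : B 0 = 0 := by simp [hB, h00, h10]
    have hθ' : AnalyticAt ℂ (fun y => a₁ y / 2) 0 := ha₁.div analyticAt_const (by norm_num)
    have hθ0' : a₁ 0 / 2 = 0 := by simp [h10]
    have hN : AnalyticAt ℂ (fun w : ℂ × ℂ => w.1 * (w.2 ^ 2 + B w.1)) 0 :=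
      analyticAt_fst.mul (an_A hBa)
    have hNs : AnalyticAt ℂ (fun w : ℂ × ℂ => (fun v : ℂ × ℂ => v.1 * (v.2 ^ 2 + B v.1))
        (shear (fun y => a₁ y / 2) w)) 0 := by
      refine AnalyticAt.comp (g := fun v : ℂ × ℂ => v.1 * (v.2 ^ 2 + B v.1))
        (f := shear (fun y => a₁ y / 2)) ?_ (LB_shear hθ' hθ0').an
      rw [(LB_shear hθ' hθ0').map0]; exact hN
    refine res_unit hNs (fun h => res_shear hN (res_D hBa hB0) hθ' hθ0' h) hu hu0 ?_ hK'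
    filter_upwards [he] with w hw
    rw [hw]
    simp only [shear, hB]
    ring
  -- transfer
  have hK1 : NK2 (fun w : ℂ × ℂ => w.1 * R w) := (NK2.comp hMa hK hL2).congr hcomp
  have h5 := hfin hK1
  have h6 : PRes (fun w : ℂ × ℂ => M (shear θ (Prod.swap w))) :=
    h5.congr (by filter_upwards [hcomp] with w hw using hw.symm)
  have hMc : AnalyticAt ℂ (fun w : ℂ × ℂ => M (shear θ (Prod.swap w))) 0 := by
    refine AnalyticAt.comp (g := M) (f := fun w : ℂ × ℂ => shear θ (Prod.swap w)) ?_ hL2.an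
    rw [hL2.map0]; exact hMa
  refine (h6.comp hMc hL2.symm).congr ?_
  filter_upwards [hL2.right] with w hw
  exact congrArg M hw

/-! ### order three, all cases -/

theorem res_cubic {b c : ℂ → ℂ} (hb : AnalyticAt ℂ b 0) (hc : AnalyticAt ℂ c 0)
    {β γ : ℂ → ℂ} (hβ : AnalyticAt ℂ β 0) (hγ : AnalyticAt ℂ γ 0)
    (hbe : ∀ᶠ y in 𝓝 (0 : ℂ), b y = y ^ 2 * β y) (hce : ∀ᶠ y in 𝓝 (0 : ℂ), c y = y ^ 3 * γ y)
    (hK : NK2 (fun w : ℂ × ℂ => w.2 ^ 3 + b w.1 * w.2 + c w.1)) :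
    PRes (fun w : ℂ × ℂ => w.2 ^ 3 + b w.1 * w.2 + c w.1) := by
  have hMa : AnalyticAt ℂ (fun w : ℂ × ℂ => w.2 ^ 3 + b w.1 * w.2 + c w.1) 0 :=
    ((analyticAt_snd.pow 3).add ((an_fst hb).mul analyticAt_snd)).add (an_fst hc)
  have hc00 : c 0 = 0 := by have := hce.self_of_nhds; simpa using this
  have hM0 : (fun w : ℂ × ℂ => w.2 ^ 3 + b w.1 * w.2 + c w.1) 0 = 0 := by simp [hc00]
  by_cases h0 : β 0 ≠ 0 ∨ γ 0 ≠ 0
  · exact res_simple hβ hγ hb hc hbe hce h0 hK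
  push Not at h0
  obtain ⟨b3, hb3, hb3e⟩ := pow_step hβ h0.1 hbe
  obtain ⟨c4, hc4, hc4e⟩ := pow_step hγ h0.2 hce
  by_cases h4 : c4 0 ≠ 0
  · -- E6
    have hδ : (0:ℂ) ^ 1 * b3 0 * ((((1:ℕ):ℂ) + ((0:ℕ):ℂ) + 2) * b3 0) ^ 2 +
      3 * 0 ^ 0 * ((((1:ℕ):ℂ) + 2 * ((0:ℕ):ℂ) + 3) * c4 0) ^ 2 = 48 * c4 0 ^ 2 := by
      push_cast; ring
    have hν : 2 / 3 * (0:ℂ) ^ 1 * b3 0 ^ 2 * ((((1:ℕ):ℂ) + ((0:ℕ):ℂ) + 2) * b3 0) +
      3 * 0 ^ 0 * c4 0 * ((((1:ℕ):ℂ) + 2 * ((0:ℕ):ℂ) + 3) * c4 0) = 12 * c4 0 ^ 2 := by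
      push_cast; ring
    have h5 := cubic_field (i := 1) (j := 0) hb3 hc4 hb hc hb3e hc4e hδ.symm
      (mul_ne_zero (by norm_num) (pow_ne_zero 2 h4)) hν.symm
    refine PRes_of_Eul hMa hM0 (h := 12) (by norm_num) (by norm_num) ?_
    have e1 : (1:ℂ) / 3 + 12 * c4 0 ^ 2 / (48 * c4 0 ^ 2) = 1 / 2 + 1 / ((12:ℕ) : ℂ) := by
      field_simp
      push_cast
      norm_num
    rw [← e1]
    exact h5
  push Not at h4
  obtain ⟨c5, hc5, hc5e⟩ := pow_step hc4 h4 hc4e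
  by_cases h5 : b3 0 ≠ 0
  · -- E7
    have hδ : (0:ℂ) ^ 0 * b3 0 * ((((0:ℕ):ℂ) + ((1:ℕ):ℂ) + 2) * b3 0) ^ 2 +
      3 * 0 ^ 1 * ((((0:ℕ):ℂ) + 2 * ((1:ℕ):ℂ) + 3) * c5 0) ^ 2 = 9 * b3 0 ^ 3 := by
      push_cast; ring
    have hν : 2 / 3 * (0:ℂ) ^ 0 * b3 0 ^ 2 * ((((0:ℕ):ℂ) + ((1:ℕ):ℂ) + 2) * b3 0) +
      3 * 0 ^ 1 * c5 0 * ((((0:ℕ):ℂ) + 2 * ((1:ℕ):ℂ) + 3) * c5 0) = 2 * b3 0 ^ 3 := by
      push_cast; ring
    have h6 := cubic_field (i := 0) (j := 1) hb3 hc5 hb hc hb3e hc5e hδ.symm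
      (mul_ne_zero (by norm_num) (pow_ne_zero 3 h5)) hν.symm
    refine PRes_of_Eul hMa hM0 (h := 18) (by norm_num) (by norm_num) ?_
    have e1 : (1:ℂ) / 3 + 2 * b3 0 ^ 3 / (9 * b3 0 ^ 3) = 1 / 2 + 1 / ((18:ℕ) : ℂ) := by
      field_simp
      push_cast
      norm_num
    rw [← e1]
    exact h6
  push Not at h5
  obtain ⟨b4, hb4, hb4e⟩ := pow_step hb3 h5 hb3e
  by_cases h6 : c5 0 ≠ 0
  · -- E8
    have hδ : (0:ℂ) ^ 2 * b4 0 * ((((2:ℕ):ℂ) + ((0:ℕ):ℂ) + 2) * b4 0) ^ 2 +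
      3 * 0 ^ 0 * ((((2:ℕ):ℂ) + 2 * ((0:ℕ):ℂ) + 3) * c5 0) ^ 2 = 75 * c5 0 ^ 2 := by
      push_cast; ring
    have hν : 2 / 3 * (0:ℂ) ^ 2 * b4 0 ^ 2 * ((((2:ℕ):ℂ) + ((0:ℕ):ℂ) + 2) * b4 0) +
      3 * 0 ^ 0 * c5 0 * ((((2:ℕ):ℂ) + 2 * ((0:ℕ):ℂ) + 3) * c5 0) = 15 * c5 0 ^ 2 := by
      push_cast; ring
    have h7 := cubic_field (i := 2) (j := 0) hb4 hc5 hb hc hb4e hc5e hδ.symm
      (mul_ne_zero (by norm_num) (pow_ne_zero 2 h6)) hν.symm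
    refine PRes_of_Eul hMa hM0 (h := 30) (by norm_num) (by norm_num) ?_
    have e1 : (1:ℂ) / 3 + 15 * c5 0 ^ 2 / (75 * c5 0 ^ 2) = 1 / 2 + 1 / ((30:ℕ) : ℂ) := by
      field_simp
      push_cast
      norm_num
    rw [← e1]
    exact h7
  push Not at h6
  obtain ⟨c6, hc6, hc6e⟩ := pow_step hc5 h6 hc5e
  exfalso
  obtain ⟨C1, r1, hC1, hr1, hr11, hB1⟩ := exists_bound hb4
  obtain ⟨C2, r2, hC2, hr2, hr21, hB2⟩ := exists_bound hc6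
  obtain ⟨r3, hr3, hr31, hB3⟩ := exists_radius (hb4e.and hc6e)
  set r := min r1 (min r2 r3) with hr
  have hr0 : 0 < r := lt_min hr1 (lt_min hr2 hr3)
  refine not_NK2 (p := fun w : ℂ × ℂ => w.2 ^ 3 + b w.1 * w.2 + c w.1) 2 1 (by norm_num) le_rfl (r := r)
    (C := 1 + C1 + C2) hr0 (fun t ht ht1 w hw1 hw2 => ?_) hK
  have hrr1 : r ≤ r1 := min_le_left _ _
  have hrr2 : r ≤ r2 := (min_le_right _ _).trans (min_le_left _ _)
  have hrr3 : r ≤ r3 := (min_le_right _ _).trans (min_le_right _ _)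
  have hrone : r ≤ 1 := hrr1.trans hr11
  have hw1r : ‖w.1‖ ≤ r := hw1.trans (by
    rw [pow_one]; exact mul_le_of_le_one_right hr0.le ht1)
  have hw1t : ‖w.1‖ ≤ t := hw1.trans (by
    rw [pow_one]; exact mul_le_of_le_one_left ht.le hrone)
  have hw2t : ‖w.2‖ ≤ t ^ 2 := hw2.trans (mul_le_of_le_one_left (by positivity) hrone)
  obtain ⟨e1, e2⟩ := hB3 w.1 (hw1r.trans hrr3)
  have e3 := hB1 w.1 (hw1r.trans hrr1)
  have e4 := hB2 w.1 (hw1r.trans hrr2)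
  simp only [e1, e2]
  calc ‖w.2 ^ 3 + w.1 ^ (2 + 1 + 1) * b4 w.1 * w.2 + w.1 ^ (3 + 1 + 1 + 1) * c6 w.1‖
      ≤ ‖w.2‖ ^ 3 + ‖w.1‖ ^ 4 * ‖b4 w.1‖ * ‖w.2‖ + ‖w.1‖ ^ 6 * ‖c6 w.1‖ := by
        refine (norm_add_le _ _).trans ?_
        gcongr ?_ + ?_
        · refine (norm_add_le _ _).trans ?_
          rw [norm_pow, norm_mul, norm_mul, norm_pow]
        · rw [norm_mul, norm_pow]
    _ ≤ (t ^ 2) ^ 3 + t ^ 4 * C1 * t ^ 2 + t ^ 6 * C2 := by gcongr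
    _ = (1 + C1 + C2) * t ^ (2 * 2 + 2 * 1) := by ring

theorem res_ord3 {q : ℂ × ℂ → ℂ} (hq : AnalyticAt ℂ q 0)
    (hn : analyticOrderAt (fun w : ℂ => q (0, w)) 0 = 3)
    {C : ℝ} (hC : 0 < C) (hbd : ∀ᶠ w in 𝓝 (0 : ℂ × ℂ), ‖q w‖ ≤ C * ‖w‖ ^ 3) (hK : NK2 q) :
    PRes q := by
  obtain ⟨u, a₀, a₁, a₂, hu, hu0, ha₀, ha₁, ha₂, h00, h10, h20, he⟩ := wprep3 hq hn
  set b : ℂ → ℂ := fun y => a₁ y - a₂ y ^ 2 / 3 with hb
  set c : ℂ → ℂ := fun y => a₀ y - a₁ y * a₂ y / 3 + 2 * a₂ y ^ 3 / 27 with hc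
  have hba : AnalyticAt ℂ b 0 := ha₁.sub ((ha₂.pow 2).div analyticAt_const (by norm_num))
  have hca : AnalyticAt ℂ c 0 :=
    (ha₀.sub ((ha₁.mul ha₂).div analyticAt_const (by norm_num))).add
      ((analyticAt_const.mul (ha₂.pow 3)).div analyticAt_const (by norm_num))
  have hb0 : b 0 = 0 := by simp [hb, h10, h20]
  have hc0 : c 0 = 0 := by simp [hc, h00, h10, h20]
  set M : ℂ × ℂ → ℂ := fun w => w.2 ^ 3 + b w.1 * w.2 + c w.1 with hM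
  have hMa : AnalyticAt ℂ M 0 :=
    ((analyticAt_snd.pow 3).add ((an_fst hba).mul analyticAt_snd)).add (an_fst hca)
  set θ : ℂ → ℂ := fun y => a₂ y / 3 with hθ
  have hθa : AnalyticAt ℂ θ 0 := ha₂.div analyticAt_const (by norm_num)
  have hθ0 : θ 0 = 0 := by simp [hθ, h20]
  have hL := LB_shear hθa hθ0
  have hMs : AnalyticAt ℂ (fun w : ℂ × ℂ => M (shear θ w)) 0 := by
    refine AnalyticAt.comp (g := M) (f := shear θ) ?_ hL.an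
    rw [hL.map0]; exact hMa
  have heq : ∀ᶠ w in 𝓝 (0 : ℂ × ℂ), q w = u w * M (shear θ w) := by
    filter_upwards [he] with w hw
    rw [hw]
    simp only [hM, shear, hb, hc, hθ]
    ring
  -- the bound for `M`
  obtain ⟨C', hC', hMb⟩ : ∃ C' : ℝ, 0 < C' ∧ ∀ᶠ w in 𝓝 (0 : ℂ × ℂ), ‖M w‖ ≤ C' * ‖w‖ ^ 3 := by
    have hO : (fun w => shear (fun z => - θ z) w) =O[𝓝 0] (fun w : ℂ × ℂ => w) := by
      have := hL.an'.differentiableAt.hasFDerivAt.isBigO_sub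
      simpa [hL.map0'] using this
    obtain ⟨K, hK0, hK'⟩ := hO.exists_pos
    have huinv : ∀ᶠ w in 𝓝 (0 : ℂ × ℂ), ‖u 0‖ / 2 ≤ ‖u w‖ := by
      have hu0' : 0 < ‖u 0‖ := norm_pos_iff.2 hu0
      have := (continuousAt_const (y := ‖u 0‖ / 2)).eventually_lt hu.continuousAt.norm (by linarith)
      filter_upwards [this] with w hw using hw.le
    have hu0' : 0 < ‖u 0‖ := norm_pos_iff.2 hu0
    refine ⟨C * K ^ 3 / (‖u 0‖ / 2), by positivity, ?_⟩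
    filter_upwards [hK'.bound, hL.symm.tendsto.eventually heq, hL.symm.tendsto.eventually hbd,
      hL.symm.tendsto.eventually huinv, hL.right] with w h1 h2 h3 h4 h5
    rw [h5] at h2
    rw [div_mul_eq_mul_div, le_div_iff₀ (by positivity)]
    calc ‖M w‖ * (‖u 0‖ / 2) ≤ ‖M w‖ * ‖u (shear (fun z => - θ z) w)‖ := by gcongr
      _ = ‖q (shear (fun z => - θ z) w)‖ := by rw [h2, norm_mul, mul_comm]
      _ ≤ C * ‖shear (fun z => - θ z) w‖ ^ 3 := h3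
      _ ≤ C * (K * ‖w‖) ^ 3 := by gcongr
      _ = C * K ^ 3 * ‖w‖ ^ 3 := by ring
  have hcb : ∀ᶠ y in 𝓝 (0 : ℂ), ‖c y‖ ≤ C' * ‖y‖ ^ 3 := by
    have t1 : Tendsto (fun y : ℂ => (y, (0 : ℂ))) (𝓝 0) (𝓝 (0 : ℂ × ℂ)) :=
      (by fun_prop : Continuous (fun y : ℂ => (y, (0 : ℂ)))).tendsto' _ _ rfl
    filter_upwards [t1.eventually hMb] with y hy
    simpa [hM, Prod.norm_def] using hy
  have hbb : ∀ᶠ y in 𝓝 (0 : ℂ), ‖b y‖ ≤ (C' + 1 + C') * ‖y‖ ^ 2 := by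
    have t1 : Tendsto (fun y : ℂ => (y, y)) (𝓝 0) (𝓝 (0 : ℂ × ℂ)) :=
      (by fun_prop : Continuous (fun y : ℂ => (y, y))).tendsto' _ _ rfl
    filter_upwards [t1.eventually hMb, hcb] with y hy hy2
    rcases eq_or_ne y 0 with rfl | hy0
    · simp [hb0]
    have hyp : 0 < ‖y‖ := norm_pos_iff.2 hy0
    have h1 : ‖M (y, y)‖ ≤ C' * ‖y‖ ^ 3 := by simpa [Prod.norm_def] using hy
    have h2 : b y * y = M (y, y) - y ^ 3 - c y := by simp only [hM]; ring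
    have h3 : ‖b y‖ * ‖y‖ ≤ (C' + 1 + C') * ‖y‖ ^ 2 * ‖y‖ := by
      rw [← norm_mul, h2]
      calc ‖M (y, y) - y ^ 3 - c y‖ ≤ ‖M (y, y)‖ + ‖y ^ 3‖ + ‖c y‖ :=
            (norm_sub_le _ _).trans (by gcongr; exact norm_sub_le _ _)
        _ ≤ C' * ‖y‖ ^ 3 + ‖y‖ ^ 3 + C' * ‖y‖ ^ 3 := by rw [norm_pow]; gcongr
        _ = (C' + 1 + C') * ‖y‖ ^ 2 * ‖y‖ := by ring
    exact le_of_mul_le_mul_right h3 hyp
  obtain ⟨β, hβ, hβe⟩ := exists_pow_mul_of_bound hba hbb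
  obtain ⟨γ, hγ, hγe⟩ := exists_pow_mul_of_bound hca hcb
  exact res_unit hMs (fun h => res_shear hMa (fun h' => res_cubic hba hca hβ hγ hβe hγe h')
    hθa hθ0 h) hu hu0 heq hK

/-- **the plane classification** -/
theorem res_plane {p : ℂ × ℂ → ℂ} (hp : AnalyticAt ℂ p 0) (h0 : p 0 = 0)
    (h1 : fderiv ℂ p 0 = 0) (hK : NK2 p) : PRes p := by
  have key : ∀ (v : ℂ × ℂ) (m : ℕ), analyticOrderAt (fun t : ℂ => p (t • v)) 0 = m →
      ∃ e : (ℂ × ℂ) ≃L[ℂ] (ℂ × ℂ),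
        analyticOrderAt (fun w : ℂ => p (e (0, w))) 0 = m := by
    intro v m hm
    have hv : v ≠ 0 := by
      rintro rfl
      rw [order_line_zero h0] at hm
      exact absurd hm (by simp)
    obtain ⟨e, he⟩ := exists_equiv hv
    refine ⟨e, ?_⟩
    have : (fun w : ℂ => p (e (0, w))) = fun t : ℂ => p (t • v) := by
      funext t
      rw [← he, ← map_smul]
      simp
    rw [this, hm]
  have trans : ∀ e : (ℂ × ℂ) ≃L[ℂ] (ℂ × ℂ), (NK2 (fun w => p (e w)) → PRes (fun w => p (e w))) →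
      PRes p := by
    intro e h
    have hL := LB.of_equiv e
    have hpe : AnalyticAt ℂ (fun w => p (e w)) 0 := by
      refine AnalyticAt.comp (g := p) (f := fun w => e w) ?_ hL.an
      rw [map_zero]; exact hp
    refine ((h (NK2.comp hp hK hL)).comp hpe hL.symm).congr ?_
    exact Eventually.of_forall fun w => by simp
  have hpea : ∀ e : (ℂ × ℂ) ≃L[ℂ] (ℂ × ℂ), AnalyticAt ℂ (fun w => p (e w)) 0 := by
    intro e
    refine AnalyticAt.comp (g := p) (f := fun w => e w) ?_ (LB.of_equiv e).an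
    rw [map_zero]; exact hp
  have h2 := fun v => two_le_order hp h0 h1 v
  by_cases hA : ∃ v, analyticOrderAt (fun t : ℂ => p (t • v)) 0 = (2 : ℕ)
  · obtain ⟨v, hv⟩ := hA
    obtain ⟨e, he⟩ := key v 2 hv
    exact trans e fun h => res_ord2 (hpea e) (by exact_mod_cast he) h
  push Not at hA
  have h3 : ∀ v, ((3 : ℕ) : ℕ∞) ≤ analyticOrderAt (fun t : ℂ => p (t • v)) 0 :=
    fun v => add_one_le_of_ne (h2 v) (hA v)
  by_cases hB : ∃ v, analyticOrderAt (fun t : ℂ => p (t • v)) 0 = (3 : ℕ)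
  · obtain ⟨v, hv⟩ := hB
    obtain ⟨e, he⟩ := key v 3 hv
    obtain ⟨C, hC, hbd⟩ := bound_of_orders hp 3 h3
    have hO : (fun w => e w) =O[𝓝 0] (fun w : ℂ × ℂ => w) := by
      have := (LB.of_equiv e).an.differentiableAt.hasFDerivAt.isBigO_sub
      simpa using this
    obtain ⟨K, hK0, hK'⟩ := hO.exists_pos
    refine trans e fun h => res_ord3 (hpea e) (by exact_mod_cast he) (C := C * K ^ 3)
      (by positivity) ?_ h
    filter_upwards [hK'.bound, (LB.of_equiv e).tendsto.eventually hbd] with w a1 a2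
    calc ‖p (e w)‖ ≤ C * ‖e w‖ ^ 3 := a2
      _ ≤ C * (K * ‖w‖) ^ 3 := by gcongr
      _ = C * K ^ 3 * ‖w‖ ^ 3 := by ring
  push Not at hB
  have h4 : ∀ v, ((4 : ℕ) : ℕ∞) ≤ analyticOrderAt (fun t : ℂ => p (t • v)) 0 :=
    fun v => add_one_le_of_ne (h3 v) (hB v)
  exfalso
  obtain ⟨C, hC, hbd⟩ := bound_of_orders hp 4 h4
  obtain ⟨r, hr, hbr⟩ := Metric.nhds_basis_closedBall.eventually_iff.1 hbd
  refine not_NK2 (p := p) 1 1 le_rfl le_rfl (r := r) (C := C * r ^ 4) hr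
    (fun t ht ht1 w hw1 hw2 => ?_) hK
  have hw : ‖w‖ ≤ r * t := by
    rw [Prod.norm_def]
    exact max_le (by simpa using hw1) (by simpa using hw2)
  have hw' : ‖w‖ ≤ r := hw.trans (mul_le_of_le_one_right hr.le ht1)
  calc ‖p w‖ ≤ C * ‖w‖ ^ 4 := hbr (by simpa using hw')
    _ ≤ C * (r * t) ^ 4 := by gcongr
    _ = C * r ^ 4 * t ^ (2 * 1 + 2 * 1) := by ring

end Crest.Agent.R257.Kp_405.NK
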