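import Crest.Agent.R257.Kp7_405

/-!
R257 / Kp8_405 (leaf KLT-K2): the Euler field of a germ satisfying helper540's weighted box criterion
`NKW` (post 3159).
-/

set_option autoImplicit false
set_option linter.unusedSectionVars false
set_option linter.deprecated false

open Set Filter Topology Metric MeasureTheory
open scoped ENNReal
open Crest.Agent.R257.Defs_219 Crest.AlgGeometry.Germ

noncomputable section

namespace Crest.Agent.R257.Kp_405

/-- helper540, post 3159 -/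
def NKW (f : E3 → ℂ) : Prop := ∀ (Ψ : E3 → E3) (w : Fin 3 → ℝ) (K : ℝ), AnalyticAt ℂ Ψ 0 →
  Ψ 0 = 0 → Function.Bijective (fderiv ℂ Ψ 0) → (∀ i, 0 < w i) → ∑ i, w i ≤ 1 →
  ¬ ∀ᶠ s in 𝓝[>] (0:ℝ), ∀ X : E3, (∀ i, ‖X i‖ ≤ s ^ (w i)) → ‖f (Ψ X)‖ ≤ K * s

lemma LB.bij {E F : Type*} [NormedAddCommGroup E] [NormedSpace ℂ E] [FiniteDimensional ℂ E]
    [NormedAddCommGroup F] [NormedSpace ℂ F] [FiniteDimensional ℂ F] {Φ : E → F} {Ψ : F → E}
    (h : LB Φ Ψ) : Function.Bijective (fderiv ℂ Φ 0) := by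
  have h1 := h.fderiv_comp_zero
  have h2 := h.symm.fderiv_comp_zero
  refine Function.bijective_iff_has_inverse.2 ⟨fderiv ℂ Ψ 0, fun v => ?_, fun v => ?_⟩
  · exact congrArg (fun T : E →L[ℂ] E => T v) h2
  · exact congrArg (fun T : F →L[ℂ] F => T v) h1

lemma LB_prodmap {E F : Type*} [NormedAddCommGroup E] [NormedSpace ℂ E] [FiniteDimensional ℂ E]
    [NormedAddCommGroup F] [NormedSpace ℂ F] [FiniteDimensional ℂ F] {Φ : E → F} {Ψ : F → E}
    (h : LB Φ Ψ) : LB (fun w : E × ℂ => (Φ w.1, w.2)) (fun w : F × ℂ => (Ψ w.1, w.2)) := by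
  refine ⟨?_, ?_, by simp [h.map0], by simp [h.map0'], ?_, ?_⟩
  · exact (AnalyticAt.comp (g := Φ) (f := Prod.fst) h.an analyticAt_fst).prod analyticAt_snd
  · exact (AnalyticAt.comp (g := Ψ) (f := Prod.fst) h.an' analyticAt_fst).prod analyticAt_snd
  · have t1 : Tendsto (Prod.fst : E × ℂ → E) (𝓝 0) (𝓝 0) := continuous_fst.tendsto' _ _ rfl
    filter_upwards [t1.eventually h.left] with w hw
    rw [hw]
  · have t1 : Tendsto (Prod.fst : F × ℂ → F) (𝓝 0) (𝓝 0) := continuous_fst.tendsto' _ _ rfl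
    filter_upwards [t1.eventually h.right] with w hw
    rw [hw]

lemma LB_smul {E : Type*} [NormedAddCommGroup E] [NormedSpace ℂ E] [FiniteDimensional ℂ E]
    {c : ℂ} (hc : c ≠ 0) : LB (fun w : E => c • w) (fun w : E => c⁻¹ • w) := by
  refine ⟨?_, ?_, by simp, by simp, ?_, ?_⟩
  · exact analyticAt_const.smul analyticAt_id
  · exact analyticAt_const.smul analyticAt_id
  · exact Eventually.of_forall fun w => by simp [smul_smul, inv_mul_cancel₀ hc]
  · exact Eventually.of_forall fun w => by simp [smul_smul, mul_inv_cancel₀ hc]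

/-- multiplicity two -/
lemma exists_ord_two {f : E3 → ℂ} (hf : AnalyticAt ℂ f 0) (h0 : f 0 = 0) (h1 : fderiv ℂ f 0 = 0)
    (hN : NKW f) : ∃ L : E3 ≃L[ℂ] E3,
      analyticOrderAt (fun z : ℂ => f (L (Fin.cons z 0))) 0 = 2 := by
  have h2 := fun v => two_le_order hf h0 h1 v
  by_cases hA : ∃ v, analyticOrderAt (fun t : ℂ => f (t • v)) 0 = (2 : ℕ)
  · obtain ⟨v, hv⟩ := hA
    have hv0 : v ≠ 0 := by
      rintro rfl
      rw [order_line_zero h0] at hv
      exact absurd hv (by simp)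
    have hs : (Pi.single 0 1 : E3) ≠ 0 := by
      intro h
      have := congrFun h 0
      simp at this
    obtain ⟨L, hL⟩ := SeparatingDual.exists_continuousLinearEquiv_apply_eq (R := ℂ) hs hv0
    refine ⟨L, ?_⟩
    have e1 : (fun z : ℂ => f (L (Fin.cons z 0))) = fun t : ℂ => f (t • v) := by
      funext t
      have e2 : (Fin.cons t 0 : E3) = t • (Pi.single 0 1 : E3) := by
        ext i
        refine Fin.cases ?_ (fun j => ?_) i
        · simp
        · simp
      rw [e2, map_smul, hL]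
    rw [e1]
    exact_mod_cast hv
  · exfalso
    push Not at hA
    have h3 : ∀ v, ((3 : ℕ) : ℕ∞) ≤ analyticOrderAt (fun t : ℂ => f (t • v)) 0 :=
      fun v => add_one_le_of_ne (h2 v) (hA v)
    obtain ⟨C, hC, hb⟩ := bound_of_orders hf 3 h3
    obtain ⟨ρ, hρ, hb'⟩ := Metric.nhds_basis_closedBall.eventually_iff.1 hb
    refine hN (fun x => x) (fun _ => 1 / 3) C analyticAt_id rfl ?_ (fun _ => by norm_num)
      (by simp) ?_
    · have : fderiv ℂ (fun x : E3 => x) 0 = ContinuousLinearMap.id ℂ E3 := fderiv_id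
      rw [this]
      exact Function.bijective_id
    · have t1 : Tendsto (fun s : ℝ => s ^ (1 / 3 : ℝ)) (𝓝[>] 0) (𝓝 0) := by
        have h4 : ContinuousAt (fun s : ℝ => s ^ (1 / 3 : ℝ)) 0 :=
          Real.continuousAt_rpow_const 0 (1 / 3) (Or.inr (by norm_num))
        have h5 := h4.tendsto
        rw [Real.zero_rpow (by norm_num)] at h5
        exact h5.mono_left nhdsWithin_le_nhds
      filter_upwards [t1.eventually (Iio_mem_nhds hρ), self_mem_nhdsWithin] with s hs hs0 X hX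
      have hs0' : (0:ℝ) < s := hs0
      have hsp : 0 ≤ s ^ (1 / 3 : ℝ) := Real.rpow_nonneg hs0'.le _
      have hXn : ‖X‖ ≤ s ^ (1 / 3 : ℝ) := (pi_norm_le_iff_of_nonneg hsp).2 hX
      have hXρ : X ∈ closedBall (0 : E3) ρ := by
        rw [mem_closedBall_zero_iff]
        exact hXn.trans (le_of_lt hs)
      calc ‖f X‖ ≤ C * ‖X‖ ^ 3 := hb' hXρ
        _ ≤ C * (s ^ (1 / 3 : ℝ)) ^ 3 := by gcongr
        _ = C * s := by
            rw [← Real.rpow_natCast, ← Real.rpow_mul hs0'.le]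
            norm_num

/-- **K2, NKW form, core** -/
theorem k2w_core {f : E3 → ℂ} (hfa : AnalyticAt ℂ f 0) (hf0 : f 0 = 0) (hf1 : fderiv ℂ f 0 = 0)
    {c : ℝ} (hc : 0 < c) {N : ℕ} (hloj : ∀ᶠ x in 𝓝 (0 : E3), c * ‖x‖ ^ N ≤ ‖fderiv ℂ f x‖)
    (hN : NKW f) : ∃ h : ℕ, 1 ≤ h ∧ h ≤ 30 + 2 * N ∧ Eul f (1 + 1 / (h : ℂ)) := by
  obtain ⟨L, hord⟩ := exists_ord_two hfa hf0 hf1 hN
  set e : ((ℂ × ℂ) × ℂ) ≃L[ℂ] E3 := kap.trans L with he
  have hLB := LB.of_equiv e
  set g : (ℂ × ℂ) × ℂ → ℂ := fun w => f (e w) with hg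
  have hga : AnalyticAt ℂ g 0 := by
    refine AnalyticAt.comp (g := f) (f := fun w => e w) ?_ hLB.an
    rw [map_zero]; exact hfa
  have hg0 : g 0 = 0 := by simp [hg, hf0]
  have hg1 : HasFDerivAt g (0 : ((ℂ × ℂ) × ℂ) →L[ℂ] ℂ) 0 := by
    have h1 : HasFDerivAt f (fderiv ℂ f 0) (e 0) := by
      rw [map_zero]; exact hfa.differentiableAt.hasFDerivAt
    have h2 := h1.comp (0 : (ℂ × ℂ) × ℂ) (e : ((ℂ × ℂ) × ℂ) →L[ℂ] E3).hasFDerivAt
    rw [hf1, ContinuousLinearMap.zero_comp] at h2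
    exact h2
  have hgord : analyticOrderAt (fun w : ℂ => g (0, w)) 0 = 2 := by
    rw [← hord]
    congr 1
    funext w
    have : kap ((0 : ℂ × ℂ), w) = Fin.cons w 0 := by
      rw [kap_apply]
      ext i
      fin_cases i <;> rfl
    simp only [hg, he]
    change f (L (kap ((0 : ℂ × ℂ), w))) = _
    rw [this]
  obtain ⟨u, a₀, a₁, hu, hu0, ha₀, ha₁, h00, h10, hW⟩ := wprep2 hga hgord
  set p : ℂ × ℂ → ℂ := fun y => a₀ y - a₁ y ^ 2 / 4 with hp
  set b : ℂ × ℂ → ℂ := fun y => a₁ y / 2 with hb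
  have hpa : AnalyticAt ℂ p 0 := ha₀.sub ((ha₁.pow 2).div analyticAt_const (by norm_num))
  have hba : AnalyticAt ℂ b 0 := ha₁.div analyticAt_const (by norm_num)
  have hp0 : p 0 = 0 := by simp [hp, h00, h10]
  have hb0 : b 0 = 0 := by simp [hb, h10]
  have hW' : ∀ᶠ w in 𝓝 (0 : (ℂ × ℂ) × ℂ), g w = u w * ((w.2 + b w.1) ^ 2 + p w.1) := by
    filter_upwards [hW] with w hw
    rw [hw]
    simp only [hb, hp]
    ring
  set Q : (ℂ × ℂ) × ℂ → ℂ := fun w => p w.1 + w.2 ^ 2 with hQ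
  have hQa : AnalyticAt ℂ Q 0 :=
    (AnalyticAt.comp (g := p) (f := Prod.fst) hpa analyticAt_fst).add (analyticAt_snd.pow 2)
  have hS := LB_shear hba hb0
  have hQs : AnalyticAt ℂ (fun w => Q (shear b w)) 0 := by
    refine AnalyticAt.comp (g := Q) (f := shear b) ?_ hS.an
    rw [hS.map0]; exact hQa
  have hgQ : (fun w => u w * Q (shear b w)) =ᶠ[𝓝 0] g := by
    filter_upwards [hW'] with w hw
    rw [hw]
    simp only [hQ, shear]
    ring
  have hback : (fun x => g (e.symm x)) =ᶠ[𝓝 0] f :=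
    Eventually.of_forall fun x => by simp [hg]
  have tE : ∀ τ : ℂ, Eul Q τ → Eul f τ := by
    intro τ h
    have h1 := ((h.comp hQa hS).unit_mul hQs hu hu0).congr hgQ
    exact (h1.comp hga hLB.symm).congr hback
  have tC : ∀ k : ℕ, Cv Q k → Cv f k := by
    intro k h
    have h1 := ((h.comp hQa hS).unit_mul hQs hu).congr hgQ
    exact (h1.comp hga hLB.symm).congr hback
  have hp1 : fderiv ℂ p 0 = 0 := by
    have e1 : HasFDerivAt (fun y : ℂ × ℂ => (y, - b y))
        ((ContinuousLinearMap.id ℂ (ℂ × ℂ)).prod (-(fderiv ℂ b 0))) 0 :=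
      (hasFDerivAt_id (0 : ℂ × ℂ)).prodMk hba.differentiableAt.hasFDerivAt.neg
    have hz : ((0 : ℂ × ℂ), - b 0) = (0 : (ℂ × ℂ) × ℂ) := by rw [hb0, neg_zero]; rfl
    have e2 : HasFDerivAt (fun y : ℂ × ℂ => g (y, - b y)) (0 : ℂ × ℂ →L[ℂ] ℂ) 0 := by
      have h1 : HasFDerivAt g (0 : ((ℂ × ℂ) × ℂ) →L[ℂ] ℂ) ((0 : ℂ × ℂ), - b 0) := by
        rw [hz]; exact hg1
      have h2 := h1.comp (0 : ℂ × ℂ) e1
      rw [ContinuousLinearMap.zero_comp] at h2
      exact h2
    have e3 : DifferentiableAt ℂ (fun y : ℂ × ℂ => (u (y, - b y))⁻¹) 0 := by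
      have h1 : DifferentiableAt ℂ u ((0 : ℂ × ℂ), - b 0) := by
        rw [hz]; exact hu.differentiableAt
      have h2 : DifferentiableAt ℂ (fun y : ℂ × ℂ => u (y, - b y)) 0 :=
        h1.comp (0 : ℂ × ℂ) e1.differentiableAt
      refine h2.inv ?_
      rw [hz]; exact hu0
    have e4 := e3.hasFDerivAt.mul e2
    have e5 : p =ᶠ[𝓝 0] fun y => (u (y, - b y))⁻¹ * g (y, - b y) := by
      have t1 : Tendsto (fun y : ℂ × ℂ => (y, - b y)) (𝓝 0) (𝓝 (0 : (ℂ × ℂ) × ℂ)) := by
        have := e1.continuousAt.tendsto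
        rwa [hz] at this
      filter_upwards [t1.eventually hW', t1.eventually (hu.continuousAt.eventually_ne hu0)] with
        y h1 h2
      rw [h1]
      field_simp
      ring
    have e6 := e4.congr_of_eventuallyEq e5
    rw [e6.fderiv]
    have hz' : g (0, - b 0) = 0 := by rw [hz]; exact hg0
    rw [hz']
    refine ContinuousLinearMap.ext fun v => ?_
    rw [ContinuousLinearMap.add_apply, ContinuousLinearMap.smul_apply,
      ContinuousLinearMap.smul_apply, smul_eq_mul, smul_eq_mul, ContinuousLinearMap.zero_apply]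
    ring
  have hK : NK.NK2 p := by
    refine ⟨⟨N + 1, fun h => ?_⟩, fun Φ Ψ hL a b' ha hb' hB => ?_⟩
    · have h2 := (tC _ (h.add_sq hpa)).le_of_lojasiewicz hc hloj
      omega
    · obtain ⟨r, C, hr, hbox⟩ := hB
      -- the coordinate system
      have hrc : (r : ℂ) ≠ 0 := by exact_mod_cast hr.ne'
      have c1 : LB (fun w : ℂ × ℂ => Φ ((r : ℂ) • w)) (fun w => (r : ℂ)⁻¹ • Ψ w) :=
        hL.comp (LB_smul hrc)
      have c2 := LB_prodmap c1
      have c3 := hS.symm.comp c2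
      have c4 := hLB.comp c3
      have c5 := c4.comp (LB.of_equiv kap.symm)
      have hfX : ∀ᶠ X in 𝓝 (0 : E3),
          ‖f (e (shear (fun z => - b z) (Φ ((r : ℂ) • (kap.symm X).1), (kap.symm X).2)))‖ ≤
            (‖u 0‖ + 1) * ‖(X 0) ^ 2 + p (Φ ((r : ℂ) • (X 1, X 2)))‖ := by
        have c6 := c3.comp (LB.of_equiv kap.symm)
        have b1 := hu.continuousAt.norm.eventually_lt (continuousAt_const (y := ‖u 0‖ + 1))
          (by simp)
        filter_upwards [c6.tendsto.eventually hW', c6.tendsto.eventually b1] with X h1 h2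
        have h3 : f (e (shear (fun z => - b z) (Φ ((r : ℂ) • (kap.symm X).1), (kap.symm X).2))) =
          u (shear (fun z => - b z) (Φ ((r : ℂ) • (kap.symm X).1), (kap.symm X).2)) *
            ((X 0) ^ 2 + p (Φ ((r : ℂ) • (X 1, X 2)))) := by
          have h4 : kap.symm X = ((X 1, X 2), X 0) := rfl
          simp only [h4] at h1 ⊢
          refine h1.trans ?_
          simp only [shear]
          ring
        rw [h3, norm_mul]
        gcongr
      have hab : (0:ℝ) < 2 * (a + b') := by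
        have : (1:ℝ) ≤ a := by exact_mod_cast ha
        have : (1:ℝ) ≤ b' := by exact_mod_cast hb'
        linarith
      have ha' : (0:ℝ) < a := by exact_mod_cast ha
      have hb'' : (0:ℝ) < b' := by exact_mod_cast hb'
      refine hN _ ![1 / 2, b' / (2 * (a + b')), a / (2 * (a + b'))] ((‖u 0‖ + 1) * (1 + |C|))
        c5.an c5.map0 c5.bij ?_ ?_ ?_
      · intro i
        fin_cases i
        · norm_num
        · change (0:ℝ) < b' / (2 * (a + b'))
          positivity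
        · change (0:ℝ) < a / (2 * (a + b'))
          positivity
      · rw [Fin.sum_univ_three]
        change (1:ℝ) / 2 + b' / (2 * (a + b')) + a / (2 * (a + b')) ≤ 1
        have : (1:ℝ) / 2 + b' / (2 * (a + b')) + a / (2 * (a + b')) = 1 := by
          field_simp
          ring
        rw [this]
      · obtain ⟨ρ, hρ, hfX'⟩ := Metric.nhds_basis_closedBall.eventually_iff.1 hfX
        have tpow : ∀ w : ℝ, 0 < w → Tendsto (fun s : ℝ => s ^ w) (𝓝[>] 0) (𝓝 0) := by
          intro w hw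
          have h4 : ContinuousAt (fun s : ℝ => s ^ w) 0 :=
            Real.continuousAt_rpow_const 0 w (Or.inr hw.le)
          have h5 := h4.tendsto
          rw [Real.zero_rpow hw.ne'] at h5
          exact h5.mono_left nhdsWithin_le_nhds
        have hw1 : (0:ℝ) < b' / (2 * (a + b')) := by positivity
        have hw2 : (0:ℝ) < a / (2 * (a + b')) := by positivity
        have hs1 : ∀ᶠ s in 𝓝[>] (0:ℝ), s ≤ 1 :=
          (Iic_mem_nhds one_pos : Set.Iic (1:ℝ) ∈ 𝓝 0) |> fun h => mem_nhdsWithin_of_mem_nhds h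
        filter_upwards [(tpow (1/2) (by norm_num)).eventually (Iio_mem_nhds hρ),
          (tpow _ hw1).eventually (Iio_mem_nhds hρ), (tpow _ hw2).eventually (Iio_mem_nhds hρ),
          self_mem_nhdsWithin, hs1] with s k0 k1 k2 hs0 hs1 X hX
        have hs0' : (0:ℝ) < s := hs0
        have x0 : ‖X 0‖ ≤ s ^ (1 / 2 : ℝ) := hX 0
        have x1 : ‖X 1‖ ≤ s ^ (b' / (2 * (a + b')) : ℝ) := hX 1
        have x2 : ‖X 2‖ ≤ s ^ (a / (2 * (a + b')) : ℝ) := hX 2
        have hXρ : X ∈ closedBall (0 : E3) ρ := by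
          rw [mem_closedBall_zero_iff]
          refine (pi_norm_le_iff_of_nonneg hρ.le).2 fun i => ?_
          fin_cases i
          · exact x0.trans (le_of_lt k0)
          · exact x1.trans (le_of_lt k1)
          · exact x2.trans (le_of_lt k2)
        set t : ℝ := s ^ (1 / (2 * (a + b')) : ℝ) with ht
        have ht0 : 0 < t := Real.rpow_pos_of_pos hs0' _
        have ht1 : t ≤ 1 := Real.rpow_le_one hs0'.le hs1 (by positivity)
        have htb : t ^ b' = s ^ (b' / (2 * (a + b')) : ℝ) := by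
          rw [ht, ← Real.rpow_natCast, ← Real.rpow_mul hs0'.le]
          congr 1
          ring
        have hta : t ^ a = s ^ (a / (2 * (a + b')) : ℝ) := by
          rw [ht, ← Real.rpow_natCast, ← Real.rpow_mul hs0'.le]
          congr 1
          ring
        have hts : t ^ (2 * a + 2 * b') = s := by
          rw [ht, ← Real.rpow_natCast, ← Real.rpow_mul hs0'.le]
          push_cast
          have : (1 / (2 * (a + b')) * (2 * a + 2 * b') : ℝ) = 1 := by
            field_simp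
          rw [this, Real.rpow_one]
        have hbx := hbox t ht0 ht1 ((r : ℂ) • (X 1, X 2)) (by
          change ‖(r : ℂ) • X 1‖ ≤ _
          rw [norm_smul, Complex.norm_real, Real.norm_eq_abs, abs_of_pos hr, htb]
          gcongr) (by
          change ‖(r : ℂ) • X 2‖ ≤ _
          rw [norm_smul, Complex.norm_real, Real.norm_eq_abs, abs_of_pos hr, hta]
          gcongr)
        rw [hts] at hbx
        have hx0 : ‖X 0 ^ 2‖ ≤ s := by
          rw [norm_pow]
          calc ‖X 0‖ ^ 2 ≤ (s ^ (1 / 2 : ℝ)) ^ 2 := by gcongr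
            _ = s := by
              rw [← Real.rpow_natCast, ← Real.rpow_mul hs0'.le]
              norm_num
        refine (hfX' hXρ).trans ?_
        calc (‖u 0‖ + 1) * ‖X 0 ^ 2 + p (Φ ((r : ℂ) • (X 1, X 2)))‖
            ≤ (‖u 0‖ + 1) * (s + |C| * s) := by
              gcongr
              refine (norm_add_le _ _).trans (add_le_add hx0 (hbx.trans ?_))
              gcongr
              exact le_abs_self C
          _ = (‖u 0‖ + 1) * (1 + |C|) * s := by ring
  obtain ⟨h, k, h1, h2, h3, h4⟩ := NK.res_plane hpa hp0 hp1 hK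
  have hkN : k ≤ N := (tC k (h4.add_sq hpa)).le_of_lojasiewicz hc hloj
  refine ⟨h, h1, by omega, ?_⟩
  have h5 := tE _ (h3.add_sq hpa)
  have e1 : (1 : ℂ) / 2 + 1 / (h : ℂ) + 1 / 2 = 1 + 1 / (h : ℂ) := by ring
  rwa [e1] at h5

/-- **K2** in the NKW shape of helper540. -/
theorem k2w {f : E3 → ℂ} (hf : Iso f) (hN : NKW f) :
    ∃ a : Fin 3 → E3 → ℂ, (∀ j, AnalyticAt ℂ (a j) 0) ∧ (∀ j, a j 0 = 0) ∧
      (∀ᶠ x in 𝓝 0, f x = ∑ j, a j x * coordDeriv f j x) ∧
      (∃ h : ℕ, 1 ≤ h ∧ h ≤ 30 + 2 * col (par f) ∧ ∑ j, coordDeriv (a j) j 0 = 1 + 1 / (h : ℂ)) ∧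
      1 + 1 / (30 + 2 * (col (par f) : ℝ)) ≤ (∑ j, coordDeriv (a j) j 0).re := by
  obtain ⟨c, hc, hloj⟩ := loj hf.an hf.fin
  obtain ⟨h, h1, h2, hE⟩ := k2w_core hf.an hf.zero (fderiv_zero_of_crit hf.crit) hc hloj hN
  obtain ⟨a, ha, ha0, hae, hat⟩ := eul_coord hE
  refine ⟨a, ha, ha0, hae, ⟨h, h1, h2, hat⟩, ?_⟩
  rw [hat]
  have h3 : ((1 : ℂ) + 1 / (h : ℂ)).re = 1 + 1 / (h : ℝ) := by
    have : (1 : ℂ) + 1 / (h : ℂ) = ((1 + 1 / (h : ℝ) : ℝ) : ℂ) := by push_cast; ring
    rw [this, Complex.ofReal_re]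
  rw [h3]
  have h4 : (0 : ℝ) < h := by exact_mod_cast h1
  have h5 : (h : ℝ) ≤ 30 + 2 * (col (par f) : ℝ) := by exact_mod_cast h2
  gcongr

end Crest.Agent.R257.Kp_405
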