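import Crest.Agent.R257.Defs_219

/-!
R257 / LCDefs_472: the interface of the log canonical case (`LCStmt` of Defs_219).
-/

set_option autoImplicit false

open Topology Filter MeasureTheory Set
open scoped ENNReal
open Crest.AlgGeometry.Germ

noncomputable section

namespace Crest.Agent.R257.LCDefs_472

open Crest.Agent.R257.Defs_219

/-- the second partial derivatives at `0` -/
def H2 {n : ℕ} (f : (Fin n → ℂ) → ℂ) (i j : Fin n) : ℂ := coordDeriv (coordDeriv f i) j 0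

/-- the third partial derivatives at `0` -/
def H3 {n : ℕ} (f : (Fin n → ℂ) → ℂ) (i j k : Fin n) : ℂ :=
  coordDeriv (coordDeriv (coordDeriv f i) j) k 0

/-- the Hessian form at `0` -/
def D2 {n : ℕ} (f : (Fin n → ℂ) → ℂ) (u v : Fin n → ℂ) : ℂ := ∑ i, ∑ j, H2 f i j * u i * v j

/-- the third derivative at `0` as a trilinear form -/
def D3 {n : ℕ} (f : (Fin n → ℂ) → ℂ) (u v w : Fin n → ℂ) : ℂ :=
  ∑ i, ∑ j, ∑ k, H3 f i j k * u i * v j * w k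

/-- the cubic form `D3 f v v v` has only ordinary nodes as singular points in `P²` (smooth
allowed): at every nonzero `v` with `D3 f v v · = 0` the kernel of `D3 f v · ·` is `ℂ v`. -/
def Nodal (f : E3 → ℂ) : Prop :=
  ∀ v u : E3, v ≠ 0 → (∀ w, D3 f v v w = 0) → (∀ w, D3 f v u w = 0) → ∃ c : ℂ, u = c • v

/-- a `μ`-constant family near `(0,0)` (any number of variables) -/
structure Fam {n : ℕ} (F : (Fin n → ℂ) × ℂ → ℂ) (μ : ℕ) : Prop where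
  an : AnalyticAt ℂ F (0, 0)
  zero : ∀ᶠ t in 𝓝 (0 : ℂ), F (0, t) = 0
  crit : ∀ᶠ t in 𝓝 (0 : ℂ), ∀ i, coordDeriv (sl F t) i 0 = 0
  fin : ∀ᶠ t in 𝓝 (0 : ℂ), ColFin (par (sl F t)) ∧ col (par (sl F t)) = μ
  iso : ∀ᶠ q in 𝓝 ((0 : Fin n → ℂ), (0 : ℂ)), (∀ i, coordDeriv (sl F q.2) i q.1 = 0) → q.1 = 0

/-- [980, LC-POS] -/
def POSStmt : Prop := ∀ f : E3 → ℂ, Iso f → (∀ i j, H2 f i j = 0) → ¬ Nodal f → 0 < mstar f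

/-- [20 or 788] rank of the Hessian of `f_t` is at most `1` -/
def RAStmt : Prop := ∀ (F : E3 × ℂ → ℂ) (μ : ℕ), Fam F μ → (∀ i j, H2 (sl F 0) i j = 0) →
  ∀ᶠ t in 𝓝 (0 : ℂ), ∃ l : Fin 3 → ℂ, ∀ i j, H2 (sl F t) i j = l i * l j

/-- [547 (i), 648 (ii), 765 (iii)]: the 2-jet of `f_t` vanishes. `q i j t = t^a * T i j t` are the
second partial derivatives, `T · · 0 ≠ 0`: impossible. -/
def M3Stmt : Prop := ∀ (F : E3 × ℂ → ℂ) (μ : ℕ), Fam F μ → (∀ i j, H2 (sl F 0) i j = 0) →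
  Nodal (sl F 0) →
  (∀ᶠ t in 𝓝 (0 : ℂ), ∃ l : Fin 3 → ℂ, ∀ i j, H2 (sl F t) i j = l i * l j) →
  ∀ᶠ t in 𝓝 (0 : ℂ), ∀ i j, H2 (sl F t) i j = 0

/-- [547 (i)] -/
def NodeStmt : Prop := ∀ (F : E3 × ℂ → ℂ) (μ : ℕ), Fam F μ → (∀ i j, H2 (sl F 0) i j = 0) →
  Nodal (sl F 0) → ∀ (a : ℕ) (T : Fin 3 → Fin 3 → ℂ → ℂ), (∀ i j, AnalyticAt ℂ (T i j) 0) →
  (∀ᶠ t in 𝓝 (0 : ℂ), ∀ i j, H2 (sl F t) i j = t ^ a * T i j t) →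
  ∀ v : E3, v ≠ 0 → (∀ w, D3 (sl F 0) v v w = 0) → ∑ i, ∑ j, T i j 0 * v i * v j = 0

/-- [648 (ii)], all nodes on the line `l = 0`, at least one node -/
def LineStmt : Prop := ∀ (F : E3 × ℂ → ℂ) (μ : ℕ), Fam F μ → (∀ i j, H2 (sl F 0) i j = 0) →
  Nodal (sl F 0) → ∀ (a : ℕ) (T : Fin 3 → Fin 3 → ℂ → ℂ), (∀ i j, AnalyticAt ℂ (T i j) 0) →
  (∀ᶠ t in 𝓝 (0 : ℂ), ∀ i j, H2 (sl F t) i j = t ^ a * T i j t) →
  ∀ l : Fin 3 → ℂ, (∃ i, l i ≠ 0) → (∀ i j, T i j 0 = l i * l j) →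
  (∀ v : E3, v ≠ 0 → (∀ w, D3 (sl F 0) v v w = 0) → ∑ i, l i * v i = 0) →
  (∃ v : E3, v ≠ 0 ∧ ∀ w, D3 (sl F 0) v v w = 0) → False

/-- [765 (iii)], smooth cubic -/
def P8Stmt : Prop := ∀ (F : E3 × ℂ → ℂ) (μ : ℕ), Fam F μ → (∀ i j, H2 (sl F 0) i j = 0) →
  (∀ v : E3, v ≠ 0 → ∃ w, D3 (sl F 0) v v w ≠ 0) →
  ∀ (a : ℕ) (T : Fin 3 → Fin 3 → ℂ → ℂ), (∀ i j, AnalyticAt ℂ (T i j) 0) →
  (∀ᶠ t in 𝓝 (0 : ℂ), ∀ i j, H2 (sl F t) i j = t ^ a * T i j t) →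
  ∀ l : Fin 3 → ℂ, (∃ i, l i ≠ 0) → (∀ i j, T i j 0 = l i * l j) → False

/-- [472] multiplicity 3 -/
def Flag3Stmt : Prop := ∀ (F : E3 × ℂ → ℂ) (μ : ℕ), Fam F μ →
  (∀ᶠ t in 𝓝 (0 : ℂ), ∀ i j, H2 (sl F t) i j = 0) → Nodal (sl F 0) → Concl F

/-- [328] plane curves -/
def N2Stmt : Prop := ∀ (q : (Fin 2 → ℂ) × ℂ → ℂ) (μ : ℕ), Fam q μ →
  Concl (fun p : E3 × ℂ => p.1 0 ^ 2 + q (Fin.tail p.1, p.2))

/-- [472] splitting lemma with parameter -/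
def SplitStmt : Prop := ∀ (F : E3 × ℂ → ℂ) (μ : ℕ), Fam F μ → (∃ i j, H2 (sl F 0) i j ≠ 0) →
  ∃ q : (Fin 2 → ℂ) × ℂ → ℂ, Fam q μ ∧
    (Concl (fun p : E3 × ℂ => p.1 0 ^ 2 + q (Fin.tail p.1, p.2)) → Concl F)

end Crest.Agent.R257.LCDefs_472
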