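import Crest.Agent.R257.LCDefs_472
import Crest.Agent.R257.SkelD_219

/-!
R257 / LCTopA_472: assembly of the log canonical case.
-/

set_option autoImplicit false

open Topology Filter MeasureTheory Set
open scoped ENNReal
open Crest.AlgGeometry.Germ

noncomputable section

namespace Crest.Agent.R257.LCTop_472

open Crest.Agent.R257.Defs_219 Crest.Agent.R257.Skel_219 Crest.Agent.R257.LCDefs_472

/-- a globalised family is a `μ`-constant family -/
theorem fam_of_gfam {G : E3 × ℂ → ℂ} {μ d : ℕ} {R r c₀ e : ℝ} {P : ℂ → MvPolynomial (Fin 3) ℂ}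
    {c : Fin 3 → ℂ} (hG : GFam G μ d R r c₀ e P c) : Fam G μ where
  an := analyticAt_of_gfam hG
  zero := by
    filter_upwards [Metric.ball_mem_nhds (0 : ℂ) hG.R_pos] with t ht
    exact hG.zero t (by simpa using ht)
  crit := by
    filter_upwards [Metric.ball_mem_nhds (0 : ℂ) hG.R_pos] with t ht
    exact hG.crit t (by simpa using ht)
  fin := by
    filter_upwards [Metric.ball_mem_nhds (0 : ℂ) hG.R_pos] with t ht
    exact ⟨hG.fin t (by simpa using ht), hG.mu t (by simpa using ht)⟩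
  iso := by
    have h1 : ∀ᶠ q : E3 × ℂ in 𝓝 ((0 : E3), (0 : ℂ)), ‖q.1‖ < r ∧ ‖q.2‖ < R := by
      have a1 : Tendsto (fun q : E3 × ℂ => ‖q.1‖) (𝓝 (0, 0)) (𝓝 0) := by
        have : Continuous fun q : E3 × ℂ => ‖q.1‖ := by fun_prop
        simpa using this.tendsto (0, 0)
      have a2 : Tendsto (fun q : E3 × ℂ => ‖q.2‖) (𝓝 (0, 0)) (𝓝 0) := by
        have : Continuous fun q : E3 × ℂ => ‖q.2‖ := by fun_prop
        simpa using this.tendsto (0, 0)
      exact (a1.eventually_lt_const hG.r_pos).and (a2.eventually_lt_const hG.R_pos)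
    filter_upwards [h1] with q hq h0
    have h2 := hG.lower q.1 q.2 hq.1 hq.2
    have h3 : gr (sl G q.2) q.1 = 0 := funext fun i => h0 i
    rw [h3, norm_zero] at h2
    have h4 : ‖q.1‖ ^ μ ≤ 0 := by
      by_contra hcon
      push Not at hcon
      have := mul_pos hG.c₀_pos hcon
      linarith
    have h5 : ‖q.1‖ ^ μ = 0 := le_antisymm h4 (by positivity)
    by_contra hx
    exact absurd h5 (pow_ne_zero μ (norm_ne_zero_iff.2 hx))

/-- leading coefficients of a finite family of analytic functions of one variable -/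
theorem exists_lead {ι : Type} [Finite ι] (h : ι → ℂ → ℂ) (ha : ∀ k, AnalyticAt ℂ (h k) 0) :
    (∀ᶠ t in 𝓝 (0 : ℂ), ∀ k, h k t = 0) ∨
    ∃ (a : ℕ) (T : ι → ℂ → ℂ), (∀ k, AnalyticAt ℂ (T k) 0) ∧
      (∀ᶠ t in 𝓝 (0 : ℂ), ∀ k, h k t = t ^ a * T k t) ∧ ∃ k, T k 0 ≠ 0 := by
  classical
  by_cases hz : ∀ k, analyticOrderAt (h k) 0 = ⊤
  · left
    exact eventually_all.2 fun k => analyticOrderAt_eq_top.1 (hz k)
  · right
    push Not at hz
    obtain ⟨k1, hk1⟩ := hz
    have : Nonempty ι := ⟨k1⟩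
    obtain ⟨k0, hk0⟩ := Finite.exists_min (fun k => analyticOrderAt (h k) 0)
    have hne : analyticOrderAt (h k0) 0 ≠ ⊤ := fun h' => hk1 (top_le_iff.1 (h' ▸ hk0 k1))
    obtain ⟨a, haa⟩ := ENat.ne_top_iff_exists.1 hne
    obtain ⟨g, hg, hg0, hge⟩ := ((ha k0).analyticOrderAt_eq_natCast).1 haa.symm
    have hle : ∀ k, (a : ℕ∞) ≤ analyticOrderAt (h k) 0 := fun k => haa ▸ hk0 k
    choose T hT hTe using fun k => (natCast_le_analyticOrderAt (ha k)).1 (hle k)
    refine ⟨a, fun k => if k = k0 then g else T k, fun k => ?_, ?_, k0, ?_⟩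
    · dsimp only
      split_ifs
      · exact hg
      · exact hT k
    · refine eventually_all.2 fun k => ?_
      dsimp only
      split_ifs with hk
      · subst hk
        filter_upwards [hge] with t ht
        simpa using ht
      · filter_upwards [hTe k] with t ht
        simpa using ht
    · simpa using hg0

/-- symmetric matrices of rank one -/
theorem rank_one {T : Fin 3 → Fin 3 → ℂ} (h : ∀ i j k l, T i j * T k l = T i l * T k j)
    (hs : ∀ i j, T i j = T j i) (hne : ∃ i j, T i j ≠ 0) :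
    ∃ l : Fin 3 → ℂ, (∃ i, l i ≠ 0) ∧ ∀ i j, T i j = l i * l j := by
  obtain ⟨i, j, hij⟩ := hne
  have hii : T i i ≠ 0 := by
    intro h0
    have h1 := h i j j i
    rw [h0, zero_mul, hs j i] at h1
    exact hij (mul_self_eq_zero.1 h1)
  obtain ⟨s, hs2⟩ : ∃ s : ℂ, s * s = T i i := by
    obtain ⟨s, hs⟩ := IsAlgClosed.exists_eq_mul_self (T i i)
    exact ⟨s, hs.symm⟩
  have hs0 : s ≠ 0 := by
    rintro rfl
    simp at hs2
    exact hii hs2.symm
  refine ⟨fun j => T i j / s, ⟨i, div_ne_zero hii hs0⟩, fun j k => ?_⟩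
  have h1 := h j i i k
  rw [hs j i] at h1
  field_simp
  have : s ^ 2 = T i i := by rw [sq, hs2]
  rw [this]
  linear_combination -h1

theorem analyticAt_H2 {n : ℕ} {F : (Fin n → ℂ) × ℂ → ℂ} (hF : AnalyticAt ℂ F (0, 0)) (i j : Fin n) :
    AnalyticAt ℂ (fun t : ℂ => H2 (sl F t) i j) 0 := by
  have h1 := analyticAt_pd hF i
  have h2 := analyticAt_pd h1 j
  have h3 : AnalyticAt ℂ (fun t : ℂ => ((0, t) : (Fin n → ℂ) × ℂ)) 0 :=
    analyticAt_const.prod analyticAt_id
  exact AnalyticAt.fun_comp (f := fun t : ℂ => ((0, t) : (Fin n → ℂ) × ℂ))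
    (g := fun q : (Fin n → ℂ) × ℂ => coordDeriv
      (sl (fun q : (Fin n → ℂ) × ℂ => coordDeriv (sl F q.2) i q.1) q.2) j q.1) h2 h3

theorem m3_of (hN : NodeStmt) (hL : LineStmt) (hP : P8Stmt) : M3Stmt := by
  intro F μ hF h0 hnod hR
  rcases exists_lead (fun (k : Fin 3 × Fin 3) t => H2 (sl F t) k.1 k.2)
    (fun k => analyticAt_H2 hF.an k.1 k.2) with h | ⟨a, T, hT, hTe, k, hk⟩
  · filter_upwards [h] with t ht i j
    exact ht (i, j)
  · exfalso
    have hTe' : ∀ᶠ t in 𝓝 (0 : ℂ), ∀ i j, H2 (sl F t) i j = t ^ a * T (i, j) t := by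
      filter_upwards [hTe] with t ht i j
      exact ht (i, j)
    have key : ∀ᶠ t in 𝓝[≠] (0 : ℂ), (∀ i j k l, T (i, j) t * T (k, l) t = T (i, l) t * T (k, j) t)
        ∧ ∀ i j, T (i, j) t = T (j, i) t := by
      filter_upwards [(hTe'.and hR).filter_mono nhdsWithin_le_nhds, self_mem_nhdsWithin] with t ht h0
      obtain ⟨h1, l, hl⟩ := ht
      have hta : t ^ a ≠ 0 := pow_ne_zero _ h0
      have e : ∀ i j, T (i, j) t = l i * l j / t ^ a := fun i j => by
        rw [← hl, h1]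
        field_simp
      constructor
      · intro i j k m
        simp only [e]
        ring
      · intro i j
        simp only [e]
        ring
    have hc : ∀ i j, ContinuousAt (T (i, j)) 0 := fun i j => (hT (i, j)).continuousAt
    have eqz : ∀ u v : ℂ → ℂ, ContinuousAt u 0 → ContinuousAt v 0 →
        (∀ᶠ t in 𝓝[≠] (0 : ℂ), u t = v t) → u 0 = v 0 := by
      intro u v hu hv h
      have h1 : Tendsto u (𝓝[≠] 0) (𝓝 (u 0)) := hu.tendsto.mono_left nhdsWithin_le_nhds
      have h2 : Tendsto v (𝓝[≠] 0) (𝓝 (v 0)) := hv.tendsto.mono_left nhdsWithin_le_nhds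
      exact tendsto_nhds_unique (h1.congr' h) h2
    obtain ⟨l, hl0, hl⟩ := rank_one (T := fun i j => T (i, j) 0)
      (fun i j k m => eqz (fun t => T (i, j) t * T (k, m) t) (fun t => T (i, m) t * T (k, j) t)
        ((hc i j).mul (hc k m)) ((hc i m).mul (hc k j)) (key.mono fun t ht => ht.1 i j k m))
      (fun i j => eqz _ _ (hc i j) (hc j i) (key.mono fun t ht => ht.2 i j)) ⟨k.1, k.2, hk⟩
    have hline : ∀ v : E3, v ≠ 0 → (∀ w, D3 (sl F 0) v v w = 0) → ∑ i, l i * v i = 0 := by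
      intro v hv hvw
      have h1 := hN F μ hF h0 hnod a (fun i j => T (i, j)) (fun i j => hT (i, j)) hTe' v hv hvw
      have h2 : (∑ i, l i * v i) * (∑ i, l i * v i) = 0 := by
        rw [← h1, Finset.sum_mul_sum]
        refine Finset.sum_congr rfl fun i _ => Finset.sum_congr rfl fun j _ => ?_
        rw [show T (i, j) 0 = l i * l j from hl i j]
        ring
      exact mul_self_eq_zero.1 h2
    by_cases hnode : ∃ v : E3, v ≠ 0 ∧ ∀ w, D3 (sl F 0) v v w = 0
    · exact hL F μ hF h0 hnod a (fun i j => T (i, j)) (fun i j => hT (i, j)) hTe' l hl0 hl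
        hline hnode
    · push Not at hnode
      exact hP F μ hF h0 hnode a (fun i j => T (i, j)) (fun i j => hT (i, j)) hTe' l hl0 hl

/-- **LC** from its parts -/
theorem lc_of (pos : POSStmt) (ra : RAStmt) (m3 : M3Stmt) (f3 : Flag3Stmt) (n2 : N2Stmt)
    (sp : SplitStmt) : LCStmt := by
  intro G μ d R r c₀ e P c hG hm
  have hF := fam_of_gfam hG
  by_cases h0 : ∀ i j, H2 (sl G 0) i j = 0
  · have hnod : Nodal (sl G 0) := by
      by_contra hcon
      have := pos (sl G 0) (iso_of_gfam hG) h0 hcon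
      linarith
    exact f3 G μ hF (m3 G μ hF h0 hnod (ra G μ hF h0)) hnod
  · push Not at h0
    obtain ⟨q, hq, hC⟩ := sp G μ hF h0
    exact hC (n2 q μ hq)

end Crest.Agent.R257.LCTop_472
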