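import Crest.Agent.R257.UI2_939

/-!
Row 257 (S0395), leaf UI (helper939), part 3: local algebra of `OO (0 : ℂⁿ)`: Hadamard lemma,
monomials, `dim Q = μ ⇒ m^μ Q = 0`.
-/

set_option autoImplicit false
set_option linter.unusedSectionVars false

open Set Filter Topology Metric Complex
open Crest.Agent.R275.Loc2879

noncomputable section

namespace Crest.Agent.R257.UI939

universe u v w

section One

variable {E : Type u} [NormedAddCommGroup E] [NormedSpace ℂ E] [FiniteDimensional ℂ E]

/-- division by the fibre coordinate -/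
theorem hadamard_one (g : OO ((0, 0) : E × ℂ)) :
    ∃ (q : OO ((0, 0) : E × ℂ)) (c : OO (0 : E)), g = q * Wv 0 + iot 0 c := by
  have hR : Reg (Wv (0 : E)) 1 := ⟨1, by simp⟩
  obtain ⟨q, c, h⟩ := div_exists hR g
  refine ⟨q, c 0, ?_⟩
  rw [h]
  simp

/-- function form: `g(x,t) - g(x,0) = t q(x,t)` -/
theorem hadamard_fun {g : E × ℂ → ℂ} (hg : AnalyticAt ℂ g 0) :
    ∃ q : E × ℂ → ℂ, AnalyticAt ℂ q 0 ∧ ∀ᶠ p in 𝓝 (0 : E × ℂ), g p = g (p.1, 0) + p.2 * q p := by
  obtain ⟨Q, c, h⟩ := hadamard_one (E := E) (gm g hg)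
  obtain ⟨q, hq, rfl⟩ := exists_gm Q
  obtain ⟨c, hc, rfl⟩ := exists_gm c
  rw [Wv, gm_mul, iot, pull_gm, gm_add, gm_eq_gm] at h
  refine ⟨q, hq, ?_⟩
  have h0 : Tendsto (fun p : E × ℂ => ((p.1, 0) : E × ℂ)) (𝓝 ((0 : E), (0 : ℂ)))
      (𝓝 ((0 : E), (0 : ℂ))) := by
    have : Continuous (fun p : E × ℂ => ((p.1, 0) : E × ℂ)) := by fun_prop
    exact this.tendsto' _ _ rfl
  have h1 := h0.eventually h
  filter_upwards [h, h1] with p h2 h3
  have h2' : g p = q p * p.2 + c p.1 := h2
  have h3' : g (p.1, 0) = q (p.1, 0) * 0 + c p.1 := h3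
  rw [h2', h3']
  ring

end One

variable {n : ℕ}

/-- the ring of germs at the origin of `ℂⁿ` -/
abbrev BB (n : ℕ) : Type := OO (0 : Fin n → ℂ)

lemma an_coord (i : Fin n) (p : Fin n → ℂ) : AnalyticAt ℂ (fun x : Fin n → ℂ => x i) p :=
  (ContinuousLinearMap.analyticAt (ContinuousLinearMap.proj (R := ℂ) (φ := fun _ : Fin n => ℂ) i) p)

/-- coordinates -/
def xB (i : Fin n) : BB n := gm (fun x => x i) (an_coord i 0)

/-- one variable at a time -/
lemma hadamard_coord {f : (Fin n → ℂ) → ℂ} (hf : AnalyticAt ℂ f 0) (k : Fin n) :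
    ∃ q : (Fin n → ℂ) → ℂ, AnalyticAt ℂ q 0 ∧
      ∀ᶠ x in 𝓝 (0 : Fin n → ℂ), f x = f (Function.update x k 0) + x k * q x := by
  have hup : ∀ p : (Fin n → ℂ) × ℂ, AnalyticAt ℂ
      (fun p : (Fin n → ℂ) × ℂ => Function.update p.1 k p.2) p := by
    intro p
    refine AnalyticAt.pi fun i => ?_
    by_cases h : i = k
    · subst h
      simpa using analyticAt_snd
    · simpa [Function.update_of_ne h] using an_x i p
  have h1 : AnalyticAt ℂ (fun p : (Fin n → ℂ) × ℂ => f (Function.update p.1 k p.2)) 0 := by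
    refine AnalyticAt.comp (g := f) ?_ (hup 0)
    have : Function.update (0 : (Fin n → ℂ) × ℂ).1 k (0 : (Fin n → ℂ) × ℂ).2 = 0 := by
      ext i
      by_cases h : i = k
      · subst h; simp
      · simp [Function.update_of_ne h]
    rw [this]
    exact hf
  obtain ⟨q, hq, h⟩ := hadamard_fun h1
  have hlin : AnalyticAt ℂ (fun x : Fin n → ℂ => ((x, x k) : (Fin n → ℂ) × ℂ)) 0 :=
    analyticAt_id.prod (an_coord k 0)
  refine ⟨fun x => q (x, x k), AnalyticAt.comp (g := q) (by exact hq) hlin, ?_⟩
  have h2 : Tendsto (fun x : Fin n → ℂ => ((x, x k) : (Fin n → ℂ) × ℂ)) (𝓝 0) (𝓝 0) :=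
    hlin.continuousAt
  filter_upwards [h2.eventually h] with x hx
  simpa using hx

/-- **Hadamard lemma** -/
theorem hadamard (a : BB n) : ∃ (c : ℂ) (y : Fin n → BB n),
    a = algebraMap ℂ (BB n) c + ∑ i, y i * xB i := by
  classical
  obtain ⟨f, hf, rfl⟩ := exists_gm a
  -- kill the coordinates in a finset one after the other
  have key : ∀ s : Finset (Fin n), ∃ y : Fin n → BB n,
      ∃ h : AnalyticAt ℂ (fun x : Fin n → ℂ => f (fun i => if i ∈ s then 0 else x i)) 0,
      gm f hf = gm _ h + ∑ i, y i * xB i := by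
    intro s
    induction s using Finset.induction_on with
    | empty =>
      refine ⟨0, by simpa using hf, ?_⟩
      simp
    | insert k s hk ih =>
      obtain ⟨y, h, e⟩ := ih
      obtain ⟨q, hq, hqe⟩ := hadamard_coord h k
      have hlin : AnalyticAt ℂ (fun x : Fin n → ℂ => (fun i => if i ∈ insert k s then 0 else x i :
          Fin n → ℂ)) 0 := by
        refine AnalyticAt.pi fun i => ?_
        by_cases hi : i ∈ insert k s
        · simpa [hi] using analyticAt_const
        · simpa [hi] using an_coord i 0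
      have h' : AnalyticAt ℂ (fun x : Fin n → ℂ => f (fun i => if i ∈ insert k s then 0 else x i))
          0 := by
        refine AnalyticAt.comp (g := f) ?_ hlin
        have : (fun i => if i ∈ insert k s then 0 else (0 : Fin n → ℂ) i : Fin n → ℂ) = 0 := by
          ext i; simp
        rw [this]; exact hf
      refine ⟨y + Pi.single k (gm q hq), h', ?_⟩
      rw [e]
      simp only [Pi.add_apply, add_mul, Finset.sum_add_distrib]
      have e1 : ∑ i, (Pi.single k (gm q hq) : Fin n → BB n) i * xB i = gm q hq * xB k := by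
        rw [Finset.sum_eq_single k]
        · simp
        · intro j _ hj; simp [Pi.single_eq_of_ne hj]
        · intro h; exact absurd (Finset.mem_univ _) h
      have e2 : (gm (fun x : Fin n → ℂ => f (fun i => if i ∈ s then 0 else x i)) h : BB n) =
          gm _ h' + gm q hq * xB k := by
        rw [xB, gm_mul, gm_add, gm_eq_gm]
        filter_upwards [hqe] with x hx
        rw [hx]
        simp only [Pi.add_apply, Pi.mul_apply]
        rw [mul_comm (x k)]
        congr 2
        ext i
        by_cases hi : i = k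
        · subst hi; simp
        · simp [hi]
      rw [e1, e2]
      ring
  obtain ⟨y, h, e⟩ := key Finset.univ
  refine ⟨f 0, y, ?_⟩
  rw [e]
  congr 1
  rw [Crest.Agent.R275.Loc2879.algebraMap_apply, gm_eq_gm]
  refine Eventually.of_forall (fun x => ?_)
  simp only [Finset.mem_univ, if_true]
  rfl

/-- monomials -/
def mon {A : Type v} [CommRing A] (x : Fin n → A) (β : Fin n → ℕ) : A := ∏ i, x i ^ β i

lemma mon_single_add {A : Type v} [CommRing A] (x : Fin n → A) (β : Fin n → ℕ) (i : Fin n) :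
    mon x (β + Pi.single i 1) = mon x β * x i := by
  classical
  unfold mon
  simp only [Pi.add_apply, pow_add, Finset.prod_mul_distrib]
  congr 1
  rw [Finset.prod_eq_single i]
  · simp
  · intro j _ hj
    simp [Pi.single_eq_of_ne hj]
  · intro h; exact absurd (Finset.mem_univ _) h

lemma sum_single_add (β : Fin n → ℕ) (i : Fin n) :
    ∑ j, (β + Pi.single i 1 : Fin n → ℕ) j = (∑ j, β j) + 1 := by
  classical
  simp [Finset.sum_add_distrib]

/-- the ideal generated by the monomials of degree `k` -/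
def JJ {A : Type v} [CommRing A] (x : Fin n → A) (k : ℕ) : Ideal A :=
  Ideal.span {a | ∃ β : Fin n → ℕ, ∑ i, β i = k ∧ mon x β = a}

/-- the space spanned by the monomials of degree `< k` -/
def VV {A : Type v} [CommRing A] [Algebra ℂ A] (x : Fin n → A) (k : ℕ) : Submodule ℂ A :=
  Submodule.span ℂ {a | ∃ β : Fin n → ℕ, ∑ i, β i < k ∧ mon x β = a}

lemma VV_mono {A : Type v} [CommRing A] [Algebra ℂ A] (x : Fin n → A) {k l : ℕ} (h : k ≤ l) :
    VV x k ≤ VV x l := by
  refine Submodule.span_mono ?_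
  rintro a ⟨β, h1, h2⟩
  exact ⟨β, h1.trans_le h, h2⟩

theorem mem_VV_sup {A : Type v} [CommRing A] [Algebra ℂ A] (x : Fin n → A)
    (hx : ∀ a : A, ∃ (c : ℂ) (y : Fin n → A), a = algebraMap ℂ A c + ∑ i, y i * x i) (k : ℕ)
    (a : A) : a ∈ VV x k ⊔ (JJ x k).restrictScalars ℂ := by
  induction k with
  | zero =>
    refine Submodule.mem_sup_right ?_
    have : (1 : A) ∈ JJ x 0 := Ideal.subset_span ⟨0, by simp, by simp [mon]⟩
    have h2 : JJ x 0 = ⊤ := (Ideal.eq_top_iff_one _).2 this
    rw [h2]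
    trivial
  | succ k ih =>
    obtain ⟨v, hv, w, hw, rfl⟩ := Submodule.mem_sup.1 ih
    refine Submodule.add_mem _ (Submodule.mem_sup_left (VV_mono x (Nat.le_succ k) hv)) ?_
    have hw' : w ∈ JJ x k := hw
    clear ih hv hw
    unfold JJ at hw'
    induction hw' using Submodule.span_induction with
    | mem z hz =>
      obtain ⟨β, h1, rfl⟩ := hz
      refine Submodule.mem_sup_left (Submodule.subset_span ⟨β, by omega, rfl⟩)
    | zero => exact Submodule.zero_mem _
    | add y z _ _ h1 h2 => exact Submodule.add_mem _ h1 h2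
    | smul b z hz hz' =>
      obtain ⟨c, y, hb⟩ := hx b
      rw [hb, smul_eq_mul, add_mul]
      refine Submodule.add_mem _ ?_ ?_
      · rw [← Algebra.smul_def]
        exact Submodule.smul_mem _ _ hz'
      · refine Submodule.mem_sup_right ?_
        change _ ∈ JJ x (k + 1)
        rw [Finset.sum_mul]
        refine Ideal.sum_mem _ (fun i _ => ?_)
        rw [mul_assoc]
        refine Ideal.mul_mem_left _ _ ?_
        clear hz'
        induction hz using Submodule.span_induction with
        | mem z hz =>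
          obtain ⟨β, h1, rfl⟩ := hz
          rw [mul_comm, ← mon_single_add]
          exact Ideal.subset_span ⟨_, by rw [sum_single_add, h1], rfl⟩
        | zero => simp
        | add y z _ _ h1 h2 => rw [mul_add]; exact Ideal.add_mem _ h1 h2
        | smul b z _ hz' =>
          rw [smul_eq_mul, mul_left_comm]
          exact Ideal.mul_mem_left _ _ hz'

lemma JJ_succ_le {A : Type v} [CommRing A] (x : Fin n → A) (k : ℕ) :
    JJ x (k + 1) ≤ Ideal.span (Set.range x) • JJ x k := by
  classical
  refine Ideal.span_le.2 ?_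
  rintro a ⟨β, h1, rfl⟩
  obtain ⟨i, hi⟩ : ∃ i, β i ≠ 0 := by
    by_contra hcon
    push Not at hcon
    have : ∑ i, β i = 0 := Finset.sum_eq_zero (fun i _ => hcon i)
    omega
  have e1 : β = (β - Pi.single i 1) + Pi.single i 1 := by
    ext j
    by_cases hj : j = i
    · subst hj
      simp only [Pi.add_apply, Pi.sub_apply, Pi.single_eq_same]
      omega
    · simp [Pi.single_eq_of_ne hj]
  have e2 : ∑ j, (β - Pi.single i 1 : Fin n → ℕ) j = k := by
    have := sum_single_add (β - Pi.single i 1) i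
    rw [← e1, h1] at this
    omega
  rw [e1, mon_single_add, mul_comm]
  exact Submodule.smul_mem_smul (Ideal.subset_span ⟨i, rfl⟩) (Ideal.subset_span ⟨_, e2, rfl⟩)

lemma JJ_anti {A : Type v} [CommRing A] (x : Fin n → A) (k : ℕ) : JJ x (k + 1) ≤ JJ x k :=
  (JJ_succ_le x k).trans Submodule.smul_le_right

/-- **`dim A/I = μ` implies `m^μ ⊆ I`** -/
theorem JJ_le_of_finrank {A : Type v} [CommRing A] [IsLocalRing A] [IsNoetherianRing A]
    [Algebra ℂ A] (x : Fin n → A) (hx : ∀ i, ¬ IsUnit (x i)) (I : Ideal A)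
    [Module.Finite ℂ (A ⧸ I)] : JJ x (Module.finrank ℂ (A ⧸ I)) ≤ I := by
  classical
  set μ := Module.finrank ℂ (A ⧸ I) with hμ
  let π : A →ₗ[ℂ] (A ⧸ I) := (Ideal.Quotient.mkₐ ℂ I).toLinearMap
  have hπ : ∀ a, π a = 0 ↔ a ∈ I := fun a => Ideal.Quotient.eq_zero_iff_mem
  let W : ℕ → Submodule ℂ (A ⧸ I) := fun k => ((JJ x k).restrictScalars ℂ).map π
  have hWm : ∀ k, W (k + 1) ≤ W k := by
    intro k
    refine Submodule.map_mono ?_
    exact JJ_anti x k
  have hm : Ideal.span (Set.range x) ≤ Ideal.jacobson (⊥ : Ideal A) := by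
    rw [IsLocalRing.jacobson_eq_maximalIdeal ⊥ bot_ne_top, Ideal.span_le]
    rintro _ ⟨i, rfl⟩
    exact (IsLocalRing.mem_maximalIdeal _).2 (hx i)
  have hstab : ∀ k, W (k + 1) = W k → JJ x k ≤ I := by
    intro k hk
    refine Submodule.le_of_le_smul_of_le_jacobson_bot (IsNoetherian.noetherian _) hm ?_
    intro a ha
    have h1 : π a ∈ W k := Submodule.mem_map_of_mem ha
    rw [← hk] at h1
    obtain ⟨b, hb, hab⟩ := h1
    have h2 : a - b ∈ I := by
      rw [← hπ, map_sub, hab, sub_self]
    have h3 : a = (a - b) + b := by ring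
    rw [h3]
    exact Submodule.add_mem_sup h2 (JJ_succ_le x k hb)
  have key : ∀ k, JJ x k ≤ I ∨ Module.finrank ℂ (W k) + k ≤ μ := by
    intro k
    induction k with
    | zero => right; simpa using Submodule.finrank_le (W 0)
    | succ k ih =>
      rcases ih with ih | ih
      · exact Or.inl ((JJ_anti x k).trans ih)
      · rcases (hWm k).lt_or_eq with h | h
        · right
          have := Submodule.finrank_lt_finrank_of_lt h
          omega
        · exact Or.inl ((JJ_anti x k).trans (hstab k h))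
  rcases key μ with h | h
  · exact h
  · have h1 : Module.finrank ℂ (W μ) = 0 := by omega
    have h2 : W μ = ⊥ := Submodule.finrank_eq_zero.1 h1
    intro a ha
    rw [← hπ]
    have h3 : π a ∈ W μ := Submodule.mem_map_of_mem ha
    rw [h2] at h3
    simpa using h3

lemma xB_not_unit (i : Fin n) : ¬ IsUnit (xB i) := by
  rw [xB, isUnit_gm]; simp

end Crest.Agent.R257.UI939
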