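import Crest.Agent.R257.LCb_472
import Crest.Agent.R257.UI3_939

/-!
R257 / LCc_472: analytic implicit function theorem, analytic square root, Morse lemma with
parameters in one variable.
-/

set_option autoImplicit false
set_option linter.unusedVariables false
set_option linter.unusedSectionVars false

open Topology Filter Set

noncomputable section

namespace Crest.Agent.R257.LCc_472

open Crest.Agent.R257.LCa_472

section IFT

variable {E : Type} [NormedAddCommGroup E] [NormedSpace ℂ E] [FiniteDimensional ℂ E]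
variable {E' : Type} [NormedAddCommGroup E'] [NormedSpace ℂ E'] [FiniteDimensional ℂ E']

/-- **analytic implicit function theorem** -/
theorem ift {P : E × E' → E'} (hP : AnalyticAt ℂ P (0, 0)) (h0 : P (0, 0) = 0)
    (hi : Function.Injective (fun v : E' => fderiv ℂ P (0, 0) ((0 : E), v))) :
    ∃ Z : E → E', AnalyticAt ℂ Z 0 ∧ Z 0 = 0 ∧
      ∀ᶠ q in 𝓝 ((0 : E), (0 : E')), (P q = 0 ↔ q.2 = Z q.1) := by
  let Θ : E × E' → E × E' := fun q => (q.1, P q)
  have hΘ : AnalyticAt ℂ Θ (0, 0) := analyticAt_fst.prod hP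
  have hΘ0 : Θ (0, 0) = (0, 0) := by simp [Θ, h0]
  have h1 : HasFDerivAt Θ ((ContinuousLinearMap.fst ℂ E E').prod (fderiv ℂ P (0, 0)))
      ((0 : E), (0 : E')) := hasFDerivAt_fst.prodMk hP.differentiableAt.hasFDerivAt
  have hinj : Function.Injective (fderiv ℂ Θ ((0 : E), (0 : E'))) := by
    rw [h1.fderiv, injective_iff_map_eq_zero]
    rintro ⟨u, s⟩ hus
    have h2 : u = 0 := congrArg Prod.fst hus
    have h3 : fderiv ℂ P (0, 0) (u, s) = 0 := congrArg Prod.snd hus
    subst h2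
    have h4 : s = 0 := by
      apply hi
      change fderiv ℂ P (0, 0) ((0 : E), s) = fderiv ℂ P (0, 0) ((0 : E), 0)
      rw [h3]
      exact (map_zero (fderiv ℂ P (0, 0))).symm
    rw [h4]
    rfl
  obtain ⟨e, he, hs, ha⟩ := exists_oph hΘ hinj
  rw [hΘ0] at ha
  have he' : ∀ q, e q = (q.1, P q) := fun q => by rw [he]
  have het : ((0 : E), (0 : E')) ∈ e.target := by
    have := e.map_source hs
    rwa [he', h0] at this
  have hs0 : e.symm (0, 0) = (0, 0) := by
    have := e.left_inv hs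
    rwa [he', h0] at this
  have hl : AnalyticAt ℂ (fun w : E => ((w, 0) : E × E')) 0 := analyticAt_id.prod analyticAt_const
  refine ⟨fun w => (e.symm (w, 0)).2, ?_, congrArg Prod.snd hs0, ?_⟩
  · have h5 : AnalyticAt ℂ (fun w : E => e.symm ((w, 0) : E × E')) 0 :=
      AnalyticAt.fun_comp (g := e.symm) (f := fun w : E => ((w, 0) : E × E')) ha hl
    exact analyticAt_snd.fun_comp h5
  · have t1 : Tendsto (fun q : E × E' => ((q.1, 0) : E × E')) (𝓝 (0, 0)) (𝓝 (0, 0)) := by
      have : Continuous (fun q : E × E' => ((q.1, 0) : E × E')) := by fun_prop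
      exact this.tendsto' _ _ rfl
    filter_upwards [e.open_source.mem_nhds hs, t1.eventually (e.open_target.mem_nhds het)]
      with q h6 h7
    have h8 : e (e.symm (q.1, 0)) = (q.1, 0) := e.right_inv h7
    constructor
    · intro h
      have h9 : e q = (q.1, 0) := by rw [he', h]
      have h10 := e.left_inv h6
      rw [h9] at h10
      rw [h10]
    · intro h
      have h9 : (e.symm (q.1, 0)).1 = q.1 := by
        have := congrArg Prod.fst h8
        rwa [he'] at this
      have h10 : e.symm (q.1, 0) = q := Prod.ext h9 h.symm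
      rw [h10, he'] at h8
      exact congrArg Prod.snd h8

/-- an analytic square root of a nonvanishing function -/
theorem exists_sqrt {g : E → ℂ} {a : E} (hg : AnalyticAt ℂ g a) (h0 : g a ≠ 0) :
    ∃ r : E → ℂ, AnalyticAt ℂ r a ∧ r a ≠ 0 ∧ ∀ᶠ x in 𝓝 a, r x ^ 2 = g x := by
  obtain ⟨s, hs⟩ := IsAlgClosed.exists_pow_nat_eq (g a) (n := 2) (by norm_num)
  have hs0 : s ≠ 0 := by
    rintro rfl
    exact h0 (by rw [← hs]; ring)
  have h1 : AnalyticAt ℂ (fun x => g x / g a) a := hg.div analyticAt_const h0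
  have h2 : AnalyticAt ℂ (fun x => Complex.log (g x / g a)) a :=
    h1.clog (by rw [div_self h0]; exact Complex.one_mem_slitPlane)
  refine ⟨fun x => s * Complex.exp (Complex.log (g x / g a) / 2),
    analyticAt_const.mul ((h2.div analyticAt_const two_ne_zero).cexp),
    mul_ne_zero hs0 (Complex.exp_ne_zero _), ?_⟩
  filter_upwards [hg.continuousAt.eventually_ne h0] with x hx
  rw [mul_pow, hs, ← Complex.exp_nat_mul]
  rw [show ((2 : ℕ) : ℂ) * (Complex.log (g x / g a) / 2) = Complex.log (g x / g a) by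
    push_cast; ring]
  rw [Complex.exp_log (div_ne_zero hx h0)]
  field_simp

/-- second order Taylor formula at a critical point, with parameters: `G(w,s)` with
`∂_s G(w,0) = 0` is `G(w,0) + s² U(w,s)` -/
theorem taylor_two {G : E × ℂ → ℂ} (hG : AnalyticAt ℂ G (0, 0))
    (hc : ∀ᶠ w in 𝓝 (0 : E), fderiv ℂ G (w, 0) (0, 1) = 0) :
    ∃ U : E × ℂ → ℂ, AnalyticAt ℂ U (0, 0) ∧
      ∀ᶠ q in 𝓝 ((0 : E), (0 : ℂ)), G q = G (q.1, 0) + q.2 ^ 2 * U q := by
  obtain ⟨G1, hG1, h1⟩ := UI939.hadamard_fun (g := G) hG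
  obtain ⟨G2, hG2, h2⟩ := UI939.hadamard_fun (g := G1) hG1
  refine ⟨G2, hG2, ?_⟩
  have t1 : Tendsto (fun w : E => ((w, 0) : E × ℂ)) (𝓝 0) (𝓝 0) :=
    (Continuous.prodMk_left (0 : ℂ)).tendsto' _ _ rfl
  have h3 : ∀ᶠ w in 𝓝 (0 : E), G1 (w, 0) = 0 := by
    filter_upwards [hc, t1.eventually h1.eventually_nhds,
      t1.eventually (hG.eventually_analyticAt (E := E × ℂ)), t1.eventually hG1.eventually_analyticAt]
      with w e1 e2 e3 e4
    -- derivative of `s ↦ G(w,s)` at `0`
    have d1 : HasDerivAt (fun s : ℂ => G (w, s)) (fderiv ℂ G (w, 0) (0, 1)) 0 := by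
      have a1 : HasDerivAt (fun s : ℂ => ((w, s) : E × ℂ)) (0, 1) 0 :=
        (hasDerivAt_const (0 : ℂ) w).prodMk (hasDerivAt_id (0 : ℂ))
      exact (show HasFDerivAt G (fderiv ℂ G (w, 0)) ((fun s : ℂ => ((w, s) : E × ℂ)) 0) from
        e3.differentiableAt.hasFDerivAt).comp_hasDerivAt 0 a1
    have d2 : HasDerivAt (fun s : ℂ => G (w, 0) + s * G1 (w, s)) (G1 (w, 0)) 0 := by
      have a1 : HasDerivAt (fun s : ℂ => G1 (w, s)) (fderiv ℂ G1 (w, 0) (0, 1)) 0 := by
        have a2 : HasDerivAt (fun s : ℂ => ((w, s) : E × ℂ)) (0, 1) 0 :=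
          (hasDerivAt_const (0 : ℂ) w).prodMk (hasDerivAt_id (0 : ℂ))
        exact (show HasFDerivAt G1 (fderiv ℂ G1 (w, 0)) ((fun s : ℂ => ((w, s) : E × ℂ)) 0) from
          e4.differentiableAt.hasFDerivAt).comp_hasDerivAt 0 a2
      have := ((hasDerivAt_id (0 : ℂ)).mul a1).const_add (G (w, 0))
      simpa using this
    have d3 : (fun s : ℂ => G (w, s)) =ᶠ[𝓝 0] fun s : ℂ => G (w, 0) + s * G1 (w, s) := by
      have : Tendsto (fun s : ℂ => ((w, s) : E × ℂ)) (𝓝 0) (𝓝 (w, 0)) :=
        (Continuous.prodMk_right w).tendsto 0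
      filter_upwards [this.eventually e2] with s hs
      exact hs
    have := (d2.congr_of_eventuallyEq d3).unique d1
    rw [this, e1]
  have t2 : Tendsto (fun q : E × ℂ => q.1) (𝓝 ((0 : E), (0 : ℂ))) (𝓝 0) :=
    continuous_fst.tendsto' _ _ rfl
  filter_upwards [h1, h2, t2.eventually h3] with q e1 e2 e3
  rw [e1, e2, e3]
  ring

end IFT

end Crest.Agent.R257.LCc_472
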