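import Crest.Agent.R257.LCc_472

/-!
R257 / LCd_472: `x_0² + q(x_1, …, x_n, t)`: partial derivatives, Milnor number, `Fam`.
-/

set_option autoImplicit false
set_option linter.unusedVariables false
set_option linter.unusedSectionVars false

open Topology Filter Set
open Crest.AlgGeometry.Germ

noncomputable section

namespace Crest.Agent.R257.LCd_472

open Crest.Agent.R257.Defs_219 Crest.Agent.R257.Skel_219 Crest.Agent.R257.LCDefs_472
open Crest.Agent.R257.LCa_472 Crest.Agent.R257.LCb_472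

variable {n : ℕ}

/-- the tail as a continuous linear map -/
def tl (n : ℕ) : (Fin (n + 1) → ℂ) →L[ℂ] (Fin n → ℂ) :=
  ContinuousLinearMap.pi fun i => ContinuousLinearMap.proj i.succ

@[simp] theorem tl_apply (x : Fin (n + 1) → ℂ) : tl n x = Fin.tail x := rfl

/-- `(0, y)` as a continuous linear map -/
def ins (n : ℕ) : (Fin n → ℂ) →L[ℂ] (Fin (n + 1) → ℂ) :=
  ContinuousLinearMap.pi fun i => Fin.cases (0 : (Fin n → ℂ) →L[ℂ] ℂ)
    (fun j => ContinuousLinearMap.proj j) i

@[simp] theorem ins_zero (y : Fin n → ℂ) : ins n y 0 = 0 := rfl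

@[simp] theorem ins_succ (y : Fin n → ℂ) (j : Fin n) : ins n y j.succ = y j := rfl

@[simp] theorem tail_ins (y : Fin n → ℂ) : Fin.tail (ins n y) = y := by
  ext j
  rfl

theorem tl_single_zero : tl n (Pi.single 0 1) = 0 := by
  ext j
  simp [Fin.tail, Fin.succ_ne_zero]

theorem tl_single_succ (k : Fin n) : tl n (Pi.single k.succ 1) = Pi.single k 1 := by
  ext j
  by_cases h : j = k
  · subst h
    simp [Fin.tail]
  · simp [Fin.tail, h]

/-- `x_0² + q(tail x)` -/
def dsq (q : (Fin n → ℂ) → ℂ) (x : Fin (n + 1) → ℂ) : ℂ := x 0 ^ 2 + q (Fin.tail x)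

theorem hasFDerivAt_dsq {q : (Fin n → ℂ) → ℂ} {x : Fin (n + 1) → ℂ}
    (hq : DifferentiableAt ℂ q (Fin.tail x)) :
    HasFDerivAt (dsq q) ((2 * x 0) • (ContinuousLinearMap.proj (R := ℂ) (φ := fun _ => ℂ) 0) +
      (fderiv ℂ q (Fin.tail x)).comp (tl n)) x := by
  have h1 : HasFDerivAt (fun x : Fin (n + 1) → ℂ => x 0)
      (ContinuousLinearMap.proj (R := ℂ) (φ := fun _ => ℂ) 0) x :=
    (ContinuousLinearMap.proj (R := ℂ) (φ := fun _ : Fin (n + 1) => ℂ) 0).hasFDerivAt
  have h2 := h1.pow 2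
  have h3 : HasFDerivAt q (fderiv ℂ q (Fin.tail x)) (tl n x) := hq.hasFDerivAt
  have h4 := h3.comp x (tl n).hasFDerivAt
  have := h2.add h4
  refine (this.congr_fderiv ?_)
  ext v
  simp

theorem coordDeriv_dsq_zero {q : (Fin n → ℂ) → ℂ} {x : Fin (n + 1) → ℂ}
    (hq : DifferentiableAt ℂ q (Fin.tail x)) : coordDeriv (dsq q) 0 x = 2 * x 0 := by
  unfold coordDeriv
  rw [(hasFDerivAt_dsq hq).fderiv, _root_.add_apply,
    ContinuousLinearMap.comp_apply, tl_single_zero]
  simp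

theorem coordDeriv_dsq_succ {q : (Fin n → ℂ) → ℂ} {x : Fin (n + 1) → ℂ}
    (hq : DifferentiableAt ℂ q (Fin.tail x)) (k : Fin n) :
    coordDeriv (dsq q) k.succ x = coordDeriv q k (Fin.tail x) := by
  unfold coordDeriv
  rw [(hasFDerivAt_dsq hq).fderiv, _root_.add_apply,
    ContinuousLinearMap.comp_apply, tl_single_succ]
  simp

theorem tl_tendsto : Tendsto (fun x : Fin (n + 1) → ℂ => Fin.tail x) (𝓝 0) (𝓝 0) :=
  (tl n).continuous.tendsto' _ _ (by simp [map_zero])

theorem ins_tendsto : Tendsto (fun y : Fin n → ℂ => ins n y) (𝓝 0) (𝓝 0) :=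
  (ins n).continuous.tendsto' _ _ (by simp)

/-- **the Milnor number of `x_0² + q`** -/
theorem par_dsq {q : (Fin n → ℂ) → ℂ} (hq : AnalyticAt ℂ q 0) :
    (ColFin (par (dsq q)) ↔ ColFin (par q)) ∧ col (par (dsq q)) = col (par q) := by
  have tail0 : Fin.tail (0 : Fin (n + 1) → ℂ) = 0 := rfl
  refine col_of_equiv (quo_equiv (pull (ins n) ((ins n).analyticAt 0) (map_zero _)) (fun b => ?_)
    fun a => ⟨fun h => ?_, fun h => ?_⟩)
  · refine ⟨pull (tl n) ((tl n).analyticAt 0) (map_zero _) b, 0, fun _ => analyticAt_const, ?_⟩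
    refine Eventually.of_forall fun y => ?_
    change (b : (Fin n → ℂ) → ℂ) y - (b : (Fin n → ℂ) → ℂ) (tl n (ins n y)) = _
    rw [tl_apply, tail_ins]
    simp
  · obtain ⟨c, hc, hce⟩ := h
    obtain ⟨a', ha', hae⟩ := UI939.hadamard_coord a.2 0
    have hct : ∀ k, AnalyticAt ℂ (fun x : Fin (n + 1) → ℂ => c k (Fin.tail x)) 0 := fun k =>
      AnalyticAt.fun_comp (g := c k) (f := tl n) (by rw [map_zero]; exact hc k)
        ((tl n).analyticAt 0)
    refine ⟨Fin.cons (fun x => a' x / 2) (fun k x => c k (Fin.tail x)), fun i => ?_, ?_⟩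
    · refine Fin.cases ?_ (fun k => ?_) i
      · exact (show AnalyticAt ℂ (fun x => a' x / 2) 0 from
          ha'.div analyticAt_const two_ne_zero)
      · simpa using hct k
    · filter_upwards [hae, tl_tendsto.eventually hce, tl_tendsto.eventually hq.eventually_analyticAt]
        with x h1 h2 h3
      have h4 : Function.update x 0 0 = ins n (Fin.tail x) := by
        ext i
        refine Fin.cases ?_ (fun k => ?_) i
        · simp
        · simp [Fin.tail]
      rw [h1, h4, Fin.sum_univ_succ]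
      simp only [par, Fin.cons_zero, Fin.cons_succ]
      rw [coordDeriv_dsq_zero h3.differentiableAt]
      simp only [coordDeriv_dsq_succ h3.differentiableAt]
      have h5 : (a : (Fin (n + 1) → ℂ) → ℂ) (ins n (Fin.tail x)) =
          ∑ i, c i (Fin.tail x) * par q i (Fin.tail x) := h2
      rw [h5]
      simp only [par]
      ring
  · obtain ⟨c, hc, hce⟩ := h
    refine ⟨fun k y => c k.succ (ins n y), fun k => ?_, ?_⟩
    · exact AnalyticAt.fun_comp (g := c k.succ) (f := ins n) (by rw [map_zero]; exact hc _)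
        ((ins n).analyticAt 0)
    · filter_upwards [ins_tendsto.eventually hce, hq.eventually_analyticAt] with y h1 h2
      have h3 : AnalyticAt ℂ q (Fin.tail (ins n y)) := by rwa [tail_ins]
      change (a : (Fin (n + 1) → ℂ) → ℂ) (ins n y) = _
      rw [h1, Fin.sum_univ_succ]
      simp only [par]
      rw [coordDeriv_dsq_zero h3.differentiableAt]
      simp only [coordDeriv_dsq_succ h3.differentiableAt, ins_zero, mul_zero, zero_add, tail_ins]

/-- `x_0² + q(tail x, t)` -/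
def sqF (q : (Fin n → ℂ) × ℂ → ℂ) (p : (Fin (n + 1) → ℂ) × ℂ) : ℂ :=
  p.1 0 ^ 2 + q (Fin.tail p.1, p.2)

theorem sl_sqF (q : (Fin n → ℂ) × ℂ → ℂ) (t : ℂ) : sl (sqF q) t = dsq (sl q t) := rfl

theorem analyticAt_sqF {q : (Fin n → ℂ) × ℂ → ℂ} (hq : AnalyticAt ℂ q (0, 0)) :
    AnalyticAt ℂ (sqF q) (0, 0) := by
  have h1 : AnalyticAt ℂ (fun p : (Fin (n + 1) → ℂ) × ℂ => ((Fin.tail p.1, p.2) :
      (Fin n → ℂ) × ℂ)) (0, 0) := by
    have : AnalyticAt ℂ (fun p : (Fin (n + 1) → ℂ) × ℂ => tl n p.1) (0, 0) :=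
      ((tl n).analyticAt _).fun_comp analyticAt_fst
    exact this.prod analyticAt_snd
  have h2 : AnalyticAt ℂ (fun p : (Fin (n + 1) → ℂ) × ℂ => q (Fin.tail p.1, p.2)) (0, 0) :=
    AnalyticAt.fun_comp (g := q) (f := fun p : (Fin (n + 1) → ℂ) × ℂ => ((Fin.tail p.1, p.2) :
      (Fin n → ℂ) × ℂ)) (by exact hq) h1
  have h3 : AnalyticAt ℂ (fun p : (Fin (n + 1) → ℂ) × ℂ => p.1 0) (0, 0) :=
    ((ContinuousLinearMap.proj (R := ℂ) (φ := fun _ : Fin (n + 1) => ℂ) 0).analyticAt _).fun_comp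
      analyticAt_fst
  exact (h3.pow 2).add h2

theorem slice_analytic_sl {F : (Fin n → ℂ) × ℂ → ℂ} {p : (Fin n → ℂ) × ℂ}
    (h : AnalyticAt ℂ F p) : AnalyticAt ℂ (sl F p.2) p.1 := by
  have : AnalyticAt ℂ (fun x : Fin n → ℂ => ((x, p.2) : (Fin n → ℂ) × ℂ)) p.1 :=
    analyticAt_id.prod analyticAt_const
  exact AnalyticAt.fun_comp (f := fun x : Fin n → ℂ => ((x, p.2) : (Fin n → ℂ) × ℂ)) (g := F)
    (by simpa using h) this

/-- `Fam` of `x_0² + q` gives `Fam` of `q` -/
theorem fam_of_sqF {q : (Fin n → ℂ) × ℂ → ℂ} {μ : ℕ} (hq : AnalyticAt ℂ q (0, 0))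
    (h : Fam (sqF q) μ) : Fam q μ := by
  have hqs := eventually_sl hq
  have tail0 : Fin.tail (0 : Fin (n + 1) → ℂ) = 0 := rfl
  refine ⟨hq, ?_, ?_, ?_, ?_⟩
  · filter_upwards [h.zero] with t ht
    simpa [sqF, tail0] using ht
  · filter_upwards [h.crit, hqs] with t ht h1 k
    have h2 := ht k.succ
    rw [sl_sqF, coordDeriv_dsq_succ (by rw [tail0]; exact (analyticAt_sl h1).differentiableAt),
      tail0] at h2
    exact h2
  · filter_upwards [h.fin, hqs] with t ht h1
    rw [sl_sqF] at ht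
    have := par_dsq (analyticAt_sl h1)
    exact ⟨this.1.1 ht.1, this.2 ▸ ht.2⟩
  · have t1 : Tendsto (fun p : (Fin n → ℂ) × ℂ => ((ins n p.1, p.2) : (Fin (n + 1) → ℂ) × ℂ))
        (𝓝 (0, 0)) (𝓝 (0, 0)) := by
      have : Continuous (fun p : (Fin n → ℂ) × ℂ => ((ins n p.1, p.2) :
          (Fin (n + 1) → ℂ) × ℂ)) := by fun_prop
      exact this.tendsto' _ _ (by simp)
    filter_upwards [t1.eventually h.iso, hq.eventually_analyticAt] with p h1 h2 h3
    have h4 : AnalyticAt ℂ (sl q p.2) p.1 := slice_analytic_sl h2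
    have h5 : DifferentiableAt ℂ (sl q p.2) (Fin.tail (ins n p.1)) := by
      rw [tail_ins]
      exact h4.differentiableAt
    have h6 : ins n p.1 = 0 := by
      refine h1 fun i => ?_
      rw [sl_sqF]
      refine Fin.cases ?_ (fun k => ?_) i
      · rw [coordDeriv_dsq_zero h5]
        simp
      · rw [coordDeriv_dsq_succ h5, tail_ins]
        exact h3 k
    have h7 := congrArg Fin.tail h6
    rwa [tail_ins, tail0] at h7

end Crest.Agent.R257.LCd_472
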