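import Crest.Agent.R257.LCd_472
import Crest.Agent.R257.Fin_554

/-!
R257 / LCe_472: splitting lemma with parameter.
-/

set_option autoImplicit false
set_option linter.unusedVariables false
set_option linter.unusedSectionVars false

open Topology Filter Set
open Crest.AlgGeometry.Germ

noncomputable section

namespace Crest.Agent.R257.LCe_472

open Crest.Agent.R257.Defs_219 Crest.Agent.R257.Skel_219 Crest.Agent.R257.LCDefs_472
open Crest.Agent.R257.LCa_472 Crest.Agent.R257.LCb_472 Crest.Agent.R257.LCc_472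
open Crest.Agent.R257.LCd_472 Crest.Agent.R257.Fin554

variable {n : ℕ}

theorem single_zero_eq : (Pi.single 0 1 : Fin (n + 1) → ℂ) = Fin.cons 1 0 := by
  ext i
  refine Fin.cases ?_ (fun k => ?_) i
  · simp
  · simp [Fin.succ_ne_zero]

theorem cE_axis : cE ℂ n ((0 : (Fin n → ℂ) × ℂ), (1 : ℂ)) = (Pi.single 0 1, 0) := by
  rw [single_zero_eq]
  rfl

theorem cE_zero : cE ℂ n ((0 : (Fin n → ℂ) × ℂ), (0 : ℂ)) = (0, 0) := by
  exact map_zero (cE ℂ n)

/-- **splitting lemma with parameter**, analytic part -/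
theorem split {F : (Fin (n + 1) → ℂ) × ℂ → ℂ} (hF : AnalyticAt ℂ F (0, 0))
    (hc : ∀ᶠ t in 𝓝 (0 : ℂ), ∀ i, coordDeriv (sl F t) i 0 = 0)
    (h2 : H2 (sl F 0) 0 0 ≠ 0) :
    ∃ (q : (Fin n → ℂ) × ℂ → ℂ) (θ : (Fin (n + 1) → ℂ) × ℂ → (Fin (n + 1) → ℂ)),
      AnalyticAt ℂ q (0, 0) ∧ Chg θ ∧
      ∀ᶠ p in 𝓝 ((0 : Fin (n + 1) → ℂ), (0 : ℂ)), F p = sqF q (θ p, p.2) := by
  -- the partial derivative in the special direction
  set pd : (Fin (n + 1) → ℂ) × ℂ → ℂ := fun q => coordDeriv (sl F q.2) 0 q.1 with hpd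
  have hpda : AnalyticAt ℂ pd (0, 0) := analyticAt_pd hF 0
  have hcEa : ∀ p, AnalyticAt ℂ (cE ℂ n) p := fun p => (cE ℂ n).toContinuousLinearMap.analyticAt p
  set P : ((Fin n → ℂ) × ℂ) × ℂ → ℂ := fun q => pd (cE ℂ n q) with hP
  have hPa : AnalyticAt ℂ P (0, 0) :=
    AnalyticAt.fun_comp (g := pd) (f := cE ℂ n) (by rw [cE_zero]; exact hpda) (hcEa _)
  have hPd : fderiv ℂ P (0, 0) (0, 1) = H2 (sl F 0) 0 0 := by
    have e1 : HasFDerivAt pd (fderiv ℂ pd (0, 0)) (cE ℂ n (0, 0)) := by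
      rw [cE_zero]
      exact hpda.differentiableAt.hasFDerivAt
    have e2 : HasFDerivAt P _ ((0 : (Fin n → ℂ) × ℂ), (0 : ℂ)) :=
      e1.comp _ (cE ℂ n).toContinuousLinearMap.hasFDerivAt
    rw [e2.fderiv]
    change fderiv ℂ pd (0, 0) (cE ℂ n (0, 1)) = _
    rw [cE_axis, ← coordDeriv_sl (q := ((0 : Fin (n + 1) → ℂ), (0 : ℂ))) hpda.differentiableAt 0]
    rfl
  have hP0 : P (0, 0) = 0 := by
    change pd (cE ℂ n (0, 0)) = 0
    rw [cE_zero]
    exact hc.self_of_nhds 0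
  obtain ⟨Z, hZ, hZ0, hZe⟩ := ift hPa hP0 (by
    intro a b hab
    have h3 : ∀ v : ℂ, fderiv ℂ P (0, 0) ((0 : (Fin n → ℂ) × ℂ), v) = v * H2 (sl F 0) 0 0 := by
      intro v
      have : ((0 : (Fin n → ℂ) × ℂ), v) = v • ((0 : (Fin n → ℂ) × ℂ), (1 : ℂ)) := by
        simp [Prod.smul_mk]
      rw [this, map_smul, hPd, smul_eq_mul]
    have h4 : a * H2 (sl F 0) 0 0 = b * H2 (sl F 0) 0 0 := by
      rw [← h3, ← h3]
      exact hab
    exact mul_right_cancel₀ h2 h4)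
  -- the axis
  have hZax : ∀ᶠ t in 𝓝 (0 : ℂ), Z (0, t) = 0 := by
    have t1 : Tendsto (fun t : ℂ => (((0, t), 0) : ((Fin n → ℂ) × ℂ) × ℂ)) (𝓝 0)
        (𝓝 ((0 : (Fin n → ℂ) × ℂ), (0 : ℂ))) := by
      have : Continuous (fun t : ℂ => (((0, t), 0) : ((Fin n → ℂ) × ℂ) × ℂ)) := by fun_prop
      exact this.tendsto' _ _ rfl
    filter_upwards [hc, t1.eventually hZe] with t h3 h4
    have h5 : P (((0 : Fin n → ℂ), t), 0) = 0 := by
      change coordDeriv (sl F t) 0 (Fin.cons 0 0) = 0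
      rw [cons_zero_zero]
      exact h3 0
    exact (h4.1 h5).symm
  -- straighten the critical graph
  set K : ((Fin n → ℂ) × ℂ) × ℂ → (Fin (n + 1) → ℂ) × ℂ :=
    fun p => cE ℂ n (p.1, Z p.1 + p.2) with hK
  have hZ1 : ∀ {p : ((Fin n → ℂ) × ℂ) × ℂ}, AnalyticAt ℂ Z p.1 →
      AnalyticAt ℂ (fun p : ((Fin n → ℂ) × ℂ) × ℂ => (p.1, Z p.1 + p.2)) p := fun {p} h =>
    analyticAt_fst.prod ((AnalyticAt.fun_comp (g := Z) (f := Prod.fst) h analyticAt_fst).add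
      analyticAt_snd)
  have hKa : AnalyticAt ℂ K (0, 0) :=
    (hcEa _).fun_comp (hZ1 (p := (0, 0)) hZ)
  have hK0 : K (0, 0) = (0, 0) := by
    change cE ℂ n (0, Z 0 + 0) = _
    rw [hZ0, add_zero, cE_zero]
  set G : ((Fin n → ℂ) × ℂ) × ℂ → ℂ := fun p => F (K p) with hG
  have hGa : AnalyticAt ℂ G (0, 0) :=
    AnalyticAt.fun_comp (g := F) (f := K) (by rw [hK0]; exact hF) hKa
  have t2 : Tendsto (fun w : (Fin n → ℂ) × ℂ => ((w, Z w) : ((Fin n → ℂ) × ℂ) × ℂ)) (𝓝 0)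
      (𝓝 (0, 0)) := by
    have h3 : ContinuousAt (fun w : (Fin n → ℂ) × ℂ => ((w, Z w) : ((Fin n → ℂ) × ℂ) × ℂ)) 0 :=
      continuousAt_id.prodMk hZ.continuousAt
    have := h3.tendsto
    rwa [hZ0] at this
  have t3 : Tendsto (fun w : (Fin n → ℂ) × ℂ => cE ℂ n (w, Z w)) (𝓝 0) (𝓝 (0, 0)) := by
    have h3 := ((cE ℂ n).continuous.tendsto ((0 : (Fin n → ℂ) × ℂ), (0 : ℂ))).comp t2
    rwa [cE_zero] at h3
  have hGc : ∀ᶠ w in 𝓝 (0 : (Fin n → ℂ) × ℂ), fderiv ℂ G (w, 0) (0, 1) = 0 := by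
    filter_upwards [t2.eventually hZe, hZ.eventually_analyticAt,
      t3.eventually hF.eventually_analyticAt] with w h3 h4 h5
    have h6 : P (w, Z w) = 0 := h3.2 rfl
    have e0 : K (w, 0) = cE ℂ n (w, Z w) := by simp [hK]
    have e1 : HasFDerivAt F (fderiv ℂ F (cE ℂ n (w, Z w))) (K (w, 0)) := by
      rw [e0]
      exact h5.differentiableAt.hasFDerivAt
    have e2 : HasFDerivAt (fun p : ((Fin n → ℂ) × ℂ) × ℂ => (p.1, Z p.1 + p.2))
        ((ContinuousLinearMap.fst ℂ _ _).prod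
          ((fderiv ℂ Z w).comp (ContinuousLinearMap.fst ℂ _ _) + ContinuousLinearMap.snd ℂ _ _))
        (w, 0) := by
      have a1 : HasFDerivAt (fun p : ((Fin n → ℂ) × ℂ) × ℂ => Z p.1)
          ((fderiv ℂ Z w).comp (ContinuousLinearMap.fst ℂ _ _)) (w, 0) :=
        (show HasFDerivAt Z (fderiv ℂ Z w) (Prod.fst ((w, 0) : ((Fin n → ℂ) × ℂ) × ℂ)) from
          h4.differentiableAt.hasFDerivAt).comp (w, (0 : ℂ)) hasFDerivAt_fst
      exact hasFDerivAt_fst.prodMk (a1.add hasFDerivAt_snd)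
    have e3 : HasFDerivAt K _ (w, 0) :=
      ((cE ℂ n).toContinuousLinearMap.hasFDerivAt (x := (w, Z w + 0))).comp (w, (0 : ℂ)) e2
    have e4 : HasFDerivAt G _ (w, 0) := e1.comp (w, (0 : ℂ)) e3
    rw [e4.fderiv]
    change fderiv ℂ F (cE ℂ n (w, Z w)) (cE ℂ n (0, fderiv ℂ Z w 0 + 1)) = 0
    rw [map_zero, zero_add, cE_axis, ← coordDeriv_sl h5.differentiableAt 0]
    exact h6
  obtain ⟨U, hU, hUe⟩ := taylor_two hGa hGc
  -- `U(0,0) ≠ 0`
  have hU0 : U (0, 0) ≠ 0 := by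
    intro h0
    apply h2
    rw [← hPd]
    have t4 : Tendsto (fun z : ℂ => (((0 : (Fin n → ℂ) × ℂ), z) : ((Fin n → ℂ) × ℂ) × ℂ)) (𝓝 0)
        (𝓝 (0, 0)) := (Continuous.prodMk_right (0 : (Fin n → ℂ) × ℂ)).tendsto 0
    set u : ℂ → ℂ := fun z => U (0, z) with hu
    have hua : AnalyticAt ℂ u 0 :=
      AnalyticAt.fun_comp (g := U) (f := fun z : ℂ => (((0 : (Fin n → ℂ) × ℂ), z) :
        ((Fin n → ℂ) × ℂ) × ℂ)) (by exact hU) (analyticAt_const.prod analyticAt_id)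
    -- `φ(z) = F(z e₀, 0)`
    set φ : ℂ → ℂ := fun z => F (cE ℂ n (0, z)) with hφ
    have e1 : ∀ᶠ z in 𝓝 (0 : ℂ), φ z = φ 0 + z ^ 2 * u z := by
      filter_upwards [t4.eventually hUe] with z hz
      have a1 : K ((0 : (Fin n → ℂ) × ℂ), z) = cE ℂ n (0, z) := by
        simp only [hK, hZ0, zero_add]
      have a2 : K ((0 : (Fin n → ℂ) × ℂ), (0 : ℂ)) = cE ℂ n (0, 0) := by
        simp only [hK, hZ0, zero_add]
      simp only [hG, a1, a2] at hz
      exact hz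
    have e2 : ∀ᶠ z in 𝓝 (0 : ℂ), HasDerivAt φ (P (0, z)) z := by
      have t5 : Tendsto (fun z : ℂ => cE ℂ n ((0 : (Fin n → ℂ) × ℂ), z)) (𝓝 0) (𝓝 (0, 0)) := by
        have h3 := ((cE ℂ n).continuous.tendsto ((0 : (Fin n → ℂ) × ℂ), (0 : ℂ))).comp t4
        rwa [cE_zero] at h3
      filter_upwards [t5.eventually hF.eventually_analyticAt] with z hz
      have a1 : HasDerivAt (fun z : ℂ => (((0 : (Fin n → ℂ) × ℂ), z) : ((Fin n → ℂ) × ℂ) × ℂ))
          (0, 1) z := (hasDerivAt_const z (0 : (Fin n → ℂ) × ℂ)).prodMk (hasDerivAt_id z)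
      have a2 : HasDerivAt (fun z : ℂ => cE ℂ n ((0 : (Fin n → ℂ) × ℂ), z)) (cE ℂ n (0, 1)) z :=
        (cE ℂ n).toContinuousLinearMap.hasFDerivAt.comp_hasDerivAt z a1
      have a3 : HasDerivAt φ (fderiv ℂ F (cE ℂ n (0, z)) (cE ℂ n (0, 1))) z :=
        (show HasFDerivAt F (fderiv ℂ F (cE ℂ n (0, z))) ((fun z : ℂ =>
          cE ℂ n ((0 : (Fin n → ℂ) × ℂ), z)) z) from
            hz.differentiableAt.hasFDerivAt).comp_hasDerivAt z a2
      rw [cE_axis, ← coordDeriv_sl hz.differentiableAt 0] at a3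
      exact a3
    have e3 : ∀ᶠ z in 𝓝 (0 : ℂ), P (0, z) = 2 * z * u z + z ^ 2 * deriv u z := by
      filter_upwards [e1.eventually_nhds, e2, hua.eventually_analyticAt] with z h3 h4 h5
      have a1 : HasDerivAt (fun z => φ 0 + z ^ 2 * u z) (2 * z * u z + z ^ 2 * deriv u z) z := by
        have := ((hasDerivAt_pow 2 z).mul h5.differentiableAt.hasDerivAt).const_add (φ 0)
        simpa using this
      exact h4.unique (a1.congr_of_eventuallyEq h3)
    have e4 : HasDerivAt (fun z => 2 * z * u z + z ^ 2 * deriv u z) 0 0 := by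
      have a1 : HasDerivAt (fun z : ℂ => 2 * z * u z) (2 * 1 * u 0 + 2 * 0 * deriv u 0) 0 :=
        (((hasDerivAt_id (0 : ℂ)).const_mul 2).mul hua.differentiableAt.hasDerivAt)
      have a2 : HasDerivAt (fun z : ℂ => z ^ 2 * deriv u z)
          (((2 : ℕ) : ℂ) * 0 ^ (2 - 1) * deriv u 0 + 0 ^ 2 * deriv (deriv u) 0) 0 :=
        ((hasDerivAt_pow 2 (0 : ℂ)).mul hua.deriv.differentiableAt.hasDerivAt)
      have hu00 : u 0 = 0 := h0
      have a3 : HasDerivAt (fun z => 2 * z * u z + z ^ 2 * deriv u z) _ 0 := a1.add a2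
      refine a3.congr_deriv ?_
      rw [hu00]
      simp
    have e5 : HasDerivAt (fun z => P (0, z)) (fderiv ℂ P (0, 0) (0, 1)) 0 := by
      have a1 : HasDerivAt (fun z : ℂ => (((0 : (Fin n → ℂ) × ℂ), z) : ((Fin n → ℂ) × ℂ) × ℂ))
          (0, 1) 0 := (hasDerivAt_const (0 : ℂ) (0 : (Fin n → ℂ) × ℂ)).prodMk (hasDerivAt_id 0)
      exact (show HasFDerivAt P (fderiv ℂ P (0, 0)) ((fun z : ℂ =>
          (((0 : (Fin n → ℂ) × ℂ), z) : ((Fin n → ℂ) × ℂ) × ℂ)) 0) from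
            hPa.differentiableAt.hasFDerivAt).comp_hasDerivAt 0 a1
    exact e5.unique (e4.congr_of_eventuallyEq e3)
  obtain ⟨r, hr, hr0, hre⟩ := exists_sqrt hU hU0
  -- the change of coordinates
  set S : (Fin (n + 1) → ℂ) × ℂ → ((Fin n → ℂ) × ℂ) × ℂ :=
    fun p => ((Fin.tail p.1, p.2), p.1 0 - Z (Fin.tail p.1, p.2)) with hS
  have hTa : AnalyticAt ℂ (fun p : (Fin (n + 1) → ℂ) × ℂ => ((Fin.tail p.1, p.2) :
      (Fin n → ℂ) × ℂ)) (0, 0) := by
    have : AnalyticAt ℂ (fun p : (Fin (n + 1) → ℂ) × ℂ => tl n p.1) (0, 0) :=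
      ((tl n).analyticAt _).fun_comp analyticAt_fst
    exact this.prod analyticAt_snd
  have hx0a : AnalyticAt ℂ (fun p : (Fin (n + 1) → ℂ) × ℂ => p.1 0) (0, 0) :=
    ((ContinuousLinearMap.proj (R := ℂ) (φ := fun _ : Fin (n + 1) => ℂ) 0).analyticAt _).fun_comp
      analyticAt_fst
  have hZTa : AnalyticAt ℂ (fun p : (Fin (n + 1) → ℂ) × ℂ => Z (Fin.tail p.1, p.2)) (0, 0) :=
    AnalyticAt.fun_comp (g := Z) (f := fun p : (Fin (n + 1) → ℂ) × ℂ => ((Fin.tail p.1, p.2) :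
      (Fin n → ℂ) × ℂ)) (by exact hZ) hTa
  have hSa : AnalyticAt ℂ S (0, 0) := hTa.prod (hx0a.sub hZTa)
  have hS0 : S (0, 0) = (0, 0) := by
    have : Z (Fin.tail (0 : Fin (n + 1) → ℂ), (0 : ℂ)) = 0 := hZ0
    simp only [hS, this, sub_zero]
    rfl
  have hSt : Tendsto S (𝓝 (0, 0)) (𝓝 (0, 0)) := by
    have := hSa.continuousAt.tendsto
    rwa [hS0] at this
  have hrS : AnalyticAt ℂ (fun p => r (S p)) (0, 0) :=
    AnalyticAt.fun_comp (g := r) (f := S) (by rw [hS0]; exact hr) hSa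
  set θ : (Fin (n + 1) → ℂ) × ℂ → (Fin (n + 1) → ℂ) :=
    fun p => Fin.cons ((p.1 0 - Z (Fin.tail p.1, p.2)) * r (S p)) (Fin.tail p.1) with hθ
  have hθa : AnalyticAt ℂ θ (0, 0) := by
    refine AnalyticAt.pi fun i => ?_
    refine Fin.cases ?_ (fun k => ?_) i
    · exact (hx0a.sub hZTa).mul hrS
    · exact ((ContinuousLinearMap.proj (R := ℂ) (φ := fun _ : Fin (n + 1) => ℂ)
        k.succ).analyticAt _).fun_comp analyticAt_fst
  refine ⟨fun w => G (w, 0), θ, ?_, ⟨hθa, ?_, ?_⟩, ?_⟩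
  · exact AnalyticAt.fun_comp (g := G) (f := fun w : (Fin n → ℂ) × ℂ =>
      ((w, 0) : ((Fin n → ℂ) × ℂ) × ℂ)) (by exact hGa) (analyticAt_id.prod analyticAt_const)
  · filter_upwards [hZax] with t ht
    have h3 : Z (Fin.tail (0 : Fin (n + 1) → ℂ), t) = 0 := ht
    simp only [hθ, h3]
    ext i
    refine Fin.cases ?_ (fun k => ?_) i
    · simp
    · simp [Fin.tail]
  · -- injectivity of the derivative
    have hθs : AnalyticAt ℂ (fun x => θ (x, 0)) 0 := slice_analytic (q := (0, 0)) hθa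
    rw [injective_iff_map_eq_zero]
    intro v hv
    have hcomp : ∀ i, fderiv ℂ (fun x => θ (x, 0) i) 0 v = 0 := by
      intro i
      have h3 := hasFDerivAt_pi'.1 hθs.differentiableAt.hasFDerivAt i
      rw [h3.fderiv]
      change fderiv ℂ (fun x => θ (x, 0)) 0 v i = 0
      rw [hv]
      rfl
    have hsucc : ∀ k : Fin n, v k.succ = 0 := by
      intro k
      have h3 := hcomp k.succ
      have h4 : (fun x : Fin (n + 1) → ℂ => θ (x, 0) k.succ) =
          (ContinuousLinearMap.proj (R := ℂ) (φ := fun _ : Fin (n + 1) => ℂ) k.succ) := rfl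
      rw [h4, ContinuousLinearMap.fderiv] at h3
      exact h3
    have hv0 : v = v 0 • (Pi.single 0 1 : Fin (n + 1) → ℂ) := by
      ext i
      refine Fin.cases ?_ (fun k => ?_) i
      · simp
      · simp [hsucc k, Fin.succ_ne_zero]
    have h5 : HasDerivAt (fun z : ℂ => θ (z • (Pi.single 0 1 : Fin (n + 1) → ℂ), 0) 0)
        (fderiv ℂ (fun x => θ (x, 0) 0) 0 (Pi.single 0 1)) 0 := by
      have a1 : HasDerivAt (fun z : ℂ => z • (Pi.single 0 1 : Fin (n + 1) → ℂ))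
          (Pi.single 0 1) 0 := by
        simpa using (hasDerivAt_id (0 : ℂ)).smul_const (Pi.single 0 1 : Fin (n + 1) → ℂ)
      have a2 : HasFDerivAt (fun x => θ (x, 0) 0) (fderiv ℂ (fun x => θ (x, 0) 0) 0)
          ((fun z : ℂ => z • (Pi.single 0 1 : Fin (n + 1) → ℂ)) 0) := by
        simp only [zero_smul]
        exact ((hasFDerivAt_pi'.1 hθs.differentiableAt.hasFDerivAt 0).differentiableAt).hasFDerivAt
      exact a2.comp_hasDerivAt 0 a1
    have h6 : HasDerivAt (fun z : ℂ => θ (z • (Pi.single 0 1 : Fin (n + 1) → ℂ), 0) 0)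
        (r (0, 0)) 0 := by
      have a0 : ∀ z : ℂ, θ (z • (Pi.single 0 1 : Fin (n + 1) → ℂ), 0) 0 = z * r (0, z) := by
        intro z
        have b1 : Fin.tail (z • (Pi.single 0 1 : Fin (n + 1) → ℂ)) = 0 := by
          ext k
          simp [Fin.tail, Fin.succ_ne_zero]
        have b2 : Z ((0 : Fin n → ℂ), (0 : ℂ)) = 0 := hZ0
        simp only [hθ, hS, b1, b2, sub_zero, Fin.cons_zero]
        simp only [Pi.smul_apply, Pi.single_eq_same, smul_eq_mul, mul_one]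
        rfl
      have a1 : HasDerivAt (fun z : ℂ => (((0 : (Fin n → ℂ) × ℂ), z) : ((Fin n → ℂ) × ℂ) × ℂ))
          (0, 1) 0 := (hasDerivAt_const (0 : ℂ) (0 : (Fin n → ℂ) × ℂ)).prodMk (hasDerivAt_id 0)
      have a2 : HasDerivAt (fun z : ℂ => r (0, z)) (fderiv ℂ r (0, 0) (0, 1)) 0 :=
        (show HasFDerivAt r (fderiv ℂ r (0, 0)) ((fun z : ℂ =>
          (((0 : (Fin n → ℂ) × ℂ), z) : ((Fin n → ℂ) × ℂ) × ℂ)) 0) from
            hr.differentiableAt.hasFDerivAt).comp_hasDerivAt 0 a1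
      have a3 := (hasDerivAt_id (0 : ℂ)).mul a2
      simp only [a0]
      have a4 : HasDerivAt (fun z : ℂ => z * r (0, z)) (1 * r (0, 0) +
        id (0 : ℂ) * fderiv ℂ r (0, 0) (0, 1)) 0 := a3
      simpa using a4
    have h7 : fderiv ℂ (fun x => θ (x, 0) 0) 0 v = v 0 * r (0, 0) := by
      conv_lhs => rw [hv0]
      rw [map_smul, h5.unique h6, smul_eq_mul]
    have h8 : v 0 = 0 := by
      have := hcomp 0
      rw [h7] at this
      exact (mul_eq_zero.1 this).resolve_right hr0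
    rw [hv0, h8, zero_smul]
  · filter_upwards [hSt.eventually hUe, hSt.eventually hre] with p h3 h4
    have e1 : K (S p) = p := by
      simp only [hK, hS]
      rw [cE_apply]
      refine Prod.ext ?_ rfl
      ext i
      refine Fin.cases ?_ (fun k => ?_) i
      · simp
      · simp [Fin.tail]
    have e2 : G (S p) = F p := by
      simp only [hG, e1]
    rw [← e2, h3, ← h4]
    simp only [sqF, hθ, Fin.cons_zero, Fin.tail_cons]
    simp only [hS]
    ring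

end Crest.Agent.R257.LCe_472
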