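import Crest.Agent.R257.LCe_472

/-!
R257 / LCf_472: linear changes of coordinates and second derivatives; `SplitStmt`.
-/

set_option autoImplicit false
set_option linter.unusedVariables false
set_option linter.unusedSectionVars false

open Topology Filter Set
open Crest.AlgGeometry.Germ

noncomputable section

namespace Crest.Agent.R257.LCf_472

open Crest.Agent.R257.Defs_219 Crest.Agent.R257.Skel_219 Crest.Agent.R257.LCDefs_472
open Crest.Agent.R257.LCa_472 Crest.Agent.R257.LCb_472 Crest.Agent.R257.LCc_472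
open Crest.Agent.R257.LCd_472 Crest.Agent.R257.LCe_472

variable {n : ℕ}

theorem fderiv_dir {f : (Fin n → ℂ) → ℂ} (hf : AnalyticAt ℂ f 0) (u v : Fin n → ℂ) :
    fderiv ℂ (fun x => fderiv ℂ f x u) 0 v = fderiv ℂ (fderiv ℂ f) 0 v u := by
  have h1 : HasFDerivAt (fderiv ℂ f) (fderiv ℂ (fderiv ℂ f) 0) 0 :=
    hf.fderiv.differentiableAt.hasFDerivAt
  have h2 := ((ContinuousLinearMap.apply ℂ ℂ u).hasFDerivAt (x := fderiv ℂ f 0)).comp 0 h1
  have h3 : HasFDerivAt (fun x => fderiv ℂ f x u) _ 0 := h2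
  rw [h3.fderiv]
  rfl

theorem H2_eq {f : (Fin n → ℂ) → ℂ} (hf : AnalyticAt ℂ f 0) (i j : Fin n) :
    H2 f i j = fderiv ℂ (fderiv ℂ f) 0 (Pi.single j 1) (Pi.single i 1) :=
  fderiv_dir hf (Pi.single i 1) (Pi.single j 1)

theorem symm2 {f : (Fin n → ℂ) → ℂ} (hf : AnalyticAt ℂ f 0) (u v : Fin n → ℂ) :
    fderiv ℂ (fderiv ℂ f) 0 u v = fderiv ℂ (fderiv ℂ f) 0 v u :=
  (ContDiffAt.isSymmSndFDerivAt_of_omega hf.contDiffAt) u v

theorem exists_dir {f : (Fin n → ℂ) → ℂ} (hf : AnalyticAt ℂ f 0) (h : ∃ i j, H2 f i j ≠ 0) :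
    ∃ v : Fin n → ℂ, fderiv ℂ (fderiv ℂ f) 0 v v ≠ 0 := by
  by_contra hcon
  push Not at hcon
  obtain ⟨i, j, hij⟩ := h
  apply hij
  rw [H2_eq hf]
  have h1 := hcon (Pi.single i 1 + Pi.single j 1)
  rw [map_add, map_add, _root_.add_apply, _root_.add_apply, hcon, hcon,
    symm2 hf (Pi.single i 1) (Pi.single j 1), zero_add, add_zero] at h1
  have h2 : (2 : ℂ) * fderiv ℂ (fderiv ℂ f) 0 (Pi.single j 1) (Pi.single i 1) = 0 := by
    rw [two_mul]
    exact h1
  exact (mul_eq_zero.1 h2).resolve_left two_ne_zero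

theorem H2_linear {f : (Fin n → ℂ) → ℂ} (hf : AnalyticAt ℂ f 0)
    (L : (Fin n → ℂ) ≃L[ℂ] (Fin n → ℂ)) (i j : Fin n) :
    H2 (fun x => f (L x)) i j =
      fderiv ℂ (fderiv ℂ f) 0 (L (Pi.single j 1)) (L (Pi.single i 1)) := by
  have h1 : ∀ x, coordDeriv (fun x => f (L x)) i x = fderiv ℂ f (L x) (L (Pi.single i 1)) := by
    intro x
    unfold coordDeriv
    have : fderiv ℂ (f ∘ L) x = (fderiv ℂ f (L x)).comp (L : (Fin n → ℂ) →L[ℂ] (Fin n → ℂ)) :=
      L.comp_right_fderiv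
    change fderiv ℂ (f ∘ L) x _ = _
    rw [this]
    rfl
  have h2 : coordDeriv (fun x => f (L x)) i =
      (fun y => fderiv ℂ f y (L (Pi.single i 1))) ∘ L := funext h1
  unfold H2
  rw [h2]
  unfold coordDeriv
  have : fderiv ℂ ((fun y => fderiv ℂ f y (L (Pi.single i 1))) ∘ L) 0 =
      (fderiv ℂ (fun y => fderiv ℂ f y (L (Pi.single i 1))) (L 0)).comp
        (L : (Fin n → ℂ) →L[ℂ] (Fin n → ℂ)) := L.comp_right_fderiv
  rw [this, map_zero, ContinuousLinearMap.comp_apply, fderiv_dir hf]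
  rfl

/-- linear changes of coordinates -/
theorem chg_linear (L : (Fin n → ℂ) ≃L[ℂ] (Fin n → ℂ)) :
    Chg (fun p : (Fin n → ℂ) × ℂ => L p.1) := by
  refine ⟨?_, Eventually.of_forall fun t => map_zero L, ?_⟩
  · exact (L.toContinuousLinearMap.analyticAt _).fun_comp analyticAt_fst
  · have : fderiv ℂ (fun x => L x) 0 = (L : (Fin n → ℂ) →L[ℂ] (Fin n → ℂ)) :=
      L.toContinuousLinearMap.fderiv
    change Function.Injective (fderiv ℂ (fun x => L x) 0)
    rw [this]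
    exact L.injective

theorem analyticAt_linear {F : (Fin n → ℂ) × ℂ → ℂ} (hF : AnalyticAt ℂ F (0, 0))
    (L : (Fin n → ℂ) ≃L[ℂ] (Fin n → ℂ)) :
    AnalyticAt ℂ (fun p : (Fin n → ℂ) × ℂ => F (L p.1, p.2)) (0, 0) := by
  have h1 : AnalyticAt ℂ (fun p : (Fin n → ℂ) × ℂ => ((L p.1, p.2) : (Fin n → ℂ) × ℂ)) (0, 0) :=
    ((L.toContinuousLinearMap.analyticAt _).fun_comp analyticAt_fst).prod analyticAt_snd
  exact AnalyticAt.fun_comp (g := F) (f := fun p : (Fin n → ℂ) × ℂ =>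
    ((L p.1, p.2) : (Fin n → ℂ) × ℂ)) (by simpa using hF) h1

/-- `Fam` in linear coordinates -/
theorem Fam.linear {F : (Fin n → ℂ) × ℂ → ℂ} {μ : ℕ} (hF : Fam F μ)
    (L : (Fin n → ℂ) ≃L[ℂ] (Fin n → ℂ)) : Fam (fun p => F (L p.1, p.2)) μ :=
  Fam.comp (θ := fun p => L.symm p.1) hF (chg_linear L.symm) (analyticAt_linear hF.an L)
    (Eventually.of_forall fun q => by simp)

theorem concl_linear {F : E3 × ℂ → ℂ} (L : E3 ≃L[ℂ] E3) (h : Concl (fun p => F (L p.1, p.2))) :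
    Concl F :=
  concl_comp (θ := fun p => L.symm p.1) (chg_linear L.symm)
    (Eventually.of_forall fun q => by simp) h

/-- **splitting lemma with parameter** -/
theorem splitStmt : SplitStmt := by
  intro F μ hF h
  have hF0 : AnalyticAt ℂ (sl F 0) 0 := analyticAt_sl hF.an
  obtain ⟨v, hv⟩ := exists_dir hF0 h
  have hv0 : v ≠ 0 := by
    rintro rfl
    simp at hv
  have he0 : (Pi.single 0 1 : E3) ≠ 0 := by
    intro h0
    have := congrFun h0 0
    simp at this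
  obtain ⟨L, hL⟩ := SeparatingDual.exists_continuousLinearEquiv_apply_eq (R := ℂ) he0 hv0
  have hF' := Fam.linear hF L
  have h2 : H2 (sl (fun p : E3 × ℂ => F (L p.1, p.2)) 0) 0 0 ≠ 0 := by
    have := H2_linear hF0 L 0 0
    rw [hL] at this
    change H2 (fun x => sl F 0 (L x)) 0 0 ≠ 0
    rw [this]
    exact hv
  obtain ⟨q, θ, hq, hθ, hFq⟩ := split hF'.an hF'.crit h2
  refine ⟨q, fam_of_sqF hq (Fam.comp hF' hθ (analyticAt_sqF hq) hFq), fun hC => ?_⟩
  exact concl_linear L (concl_comp hθ hFq hC)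

end Crest.Agent.R257.LCf_472
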