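import Crest.Agent.R257.SkelA_219

/-!
Row 257 (S0395), leaf LC-POS (helper980): `col (f, g^k, h^l) ≤ k l col (f, g, h)` by filtration.
-/

set_option autoImplicit false

open Topology Filter Set
open Crest.AlgGeometry Crest.AlgGeometry.Germ Crest.Agent.R257.Defs_219

noncomputable section

namespace Crest.Agent.R257.LcA_980

variable {n : ℕ}

theorem mem_gens3 {f g h : (Fin n → ℂ) → ℂ} {u : analyticAtOrigin n} :
    u ∈ gens ![f, g, h] ↔ ∃ a b c : (Fin n → ℂ) → ℂ, AnalyticAt ℂ a 0 ∧ AnalyticAt ℂ b 0 ∧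
      AnalyticAt ℂ c 0 ∧ (u : (Fin n → ℂ) → ℂ) =ᶠ[𝓝 0] fun x => a x * f x + b x * g x + c x * h x := by
  constructor
  · rintro ⟨a, ha, hu⟩
    refine ⟨a 0, a 1, a 2, ha 0, ha 1, ha 2, ?_⟩
    filter_upwards [hu] with x hx
    rw [hx, Fin.sum_univ_three]
    simp
  · rintro ⟨a, b, c, ha, hb, hc, hu⟩
    refine ⟨![a, b, c], ?_, ?_⟩
    · intro i
      fin_cases i
      · exact ha
      · exact hb
      · exact hc
    · filter_upwards [hu] with x hx
      rw [hx, Fin.sum_univ_three]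
      simp

/-- multiplication by an analytic function -/
def mulL (u : (Fin n → ℂ) → ℂ) (hu : AnalyticAt ℂ u 0) :
    analyticAtOrigin n →ₗ[ℂ] analyticAtOrigin n where
  toFun v := ⟨fun x => u x * (v : (Fin n → ℂ) → ℂ) x, hu.mul v.2⟩
  map_add' v w := by ext x; simp [mul_add]
  map_smul' c v := by ext x; simp; ring

@[simp] theorem mulL_apply (u : (Fin n → ℂ) → ℂ) (hu : AnalyticAt ℂ u 0) (v : analyticAtOrigin n)
    (x : Fin n → ℂ) : ((mulL u hu v : analyticAtOrigin n) : (Fin n → ℂ) → ℂ) x =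
      u x * (v : (Fin n → ℂ) → ℂ) x := rfl

/-- one step of the filtration -/
theorem step {f g g' h : (Fin n → ℂ) → ℂ} (hg : AnalyticAt ℂ g 0)
    (hg' : AnalyticAt ℂ g' 0) (h1 : ColFin ![f, g, h]) (h2 : ColFin ![f, g', h]) :
    ColFin ![f, g' * g, h] ∧ col ![f, g' * g, h] ≤ col ![f, g', h] + col ![f, g, h] := by
  set N1 := gens ![f, g, h] with hN1
  set N2 := gens ![f, g', h] with hN2
  set N := gens ![f, g' * g, h] with hN
  -- the map `u ↦ [g' u]`
  set φ : analyticAtOrigin n →ₗ[ℂ] (analyticAtOrigin n ⧸ N) := N.mkQ.comp (mulL g' hg') with hφ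
  have hφN1 : N1 ≤ LinearMap.ker φ := by
    intro u hu
    obtain ⟨a, b, c, ha, hb, hc, hu⟩ := mem_gens3.1 hu
    rw [LinearMap.mem_ker, hφ, LinearMap.comp_apply, Submodule.mkQ_apply,
      Submodule.Quotient.mk_eq_zero]
    refine mem_gens3.2 ⟨fun x => g' x * a x, b, fun x => g' x * c x, hg'.mul ha, hb, hg'.mul hc, ?_⟩
    filter_upwards [hu] with x hx
    rw [mulL_apply, hx, Pi.mul_apply]; ring
  have hle : N ≤ N2 := by
    intro u hu
    obtain ⟨a, b, c, ha, hb, hc, hu⟩ := mem_gens3.1 hu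
    refine mem_gens3.2 ⟨a, fun x => b x * g x, c, ha, hb.mul hg, hc, ?_⟩
    filter_upwards [hu] with x hx
    rw [hx, Pi.mul_apply]; ring
  set ψ : (analyticAtOrigin n ⧸ N) →ₗ[ℂ] (analyticAtOrigin n ⧸ N2) := Submodule.factor hle with hψ
  have hker : LinearMap.ker ψ = LinearMap.range φ := by
    apply le_antisymm
    · intro q hq
      obtain ⟨u, rfl⟩ := Submodule.mkQ_surjective N q
      rw [LinearMap.mem_ker, hψ, Submodule.factor_mk, Submodule.mkQ_apply,
        Submodule.Quotient.mk_eq_zero] at hq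
      obtain ⟨a, b, c, ha, hb, hc, hu⟩ := mem_gens3.1 hq
      refine ⟨⟨b, hb⟩, ?_⟩
      rw [hφ, LinearMap.comp_apply, Submodule.mkQ_apply, Submodule.mkQ_apply,
        Submodule.Quotient.eq]
      refine mem_gens3.2 ⟨fun x => - a x, fun _ => 0, fun x => - c x, ha.neg, analyticAt_const,
        hc.neg, ?_⟩
      filter_upwards [hu] with x hx
      simp only [Submodule.coe_sub, Pi.sub_apply, mulL_apply, hx]
      ring
    · rintro _ ⟨u, rfl⟩
      rw [LinearMap.mem_ker, hφ, hψ, LinearMap.comp_apply,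
        Submodule.factor_mk, Submodule.mkQ_apply, Submodule.Quotient.mk_eq_zero]
      refine mem_gens3.2 ⟨fun _ => 0, (u : (Fin n → ℂ) → ℂ), fun _ => 0, analyticAt_const, u.2,
        analyticAt_const, Eventually.of_forall fun x => ?_⟩
      simp [mulL_apply, mul_comm]
  have hrange : LinearMap.range φ = LinearMap.range (N1.liftQ φ hφN1) := by
    rw [Submodule.range_liftQ]
  have hf1 : Module.Finite ℂ (analyticAtOrigin n ⧸ N1) := h1
  have hf2 : Module.Finite ℂ (analyticAtOrigin n ⧸ N2) := h2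
  have hfr : Module.Finite ℂ (LinearMap.range φ) := by
    rw [hrange]; infer_instance
  have hψs : Function.Surjective ψ := Submodule.factor_surjective hle
  have hfk : Module.Finite ℂ (LinearMap.ker ψ) := by rw [hker]; exact hfr
  have hfq : Module.Finite ℂ ((analyticAtOrigin n ⧸ N) ⧸ LinearMap.ker ψ) :=
    Module.Finite.equiv (ψ.quotKerEquivOfSurjective hψs).symm
  have hfin : Module.Finite ℂ (analyticAtOrigin n ⧸ N) :=
    Module.Finite.of_submodule_quotient (LinearMap.ker ψ)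
  refine ⟨hfin, ?_⟩
  have e1 := Submodule.finrank_quotient_add_finrank (LinearMap.ker ψ)
  have e2 : Module.finrank ℂ ((analyticAtOrigin n ⧸ N) ⧸ LinearMap.ker ψ) =
      Module.finrank ℂ (analyticAtOrigin n ⧸ N2) :=
    (ψ.quotKerEquivOfSurjective hψs).finrank_eq
  have e3 : Module.finrank ℂ (LinearMap.ker ψ) ≤ Module.finrank ℂ (analyticAtOrigin n ⧸ N1) := by
    rw [hker, hrange]
    exact LinearMap.finrank_range_le _
  show Module.finrank ℂ (analyticAtOrigin n ⧸ N) ≤ Module.finrank ℂ (analyticAtOrigin n ⧸ N2) +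
    Module.finrank ℂ (analyticAtOrigin n ⧸ N1)
  omega

theorem gens_swap (f g h : (Fin n → ℂ) → ℂ) : gens ![f, g, h] = gens ![f, h, g] := by
  ext u
  rw [mem_gens3, mem_gens3]
  constructor
  · rintro ⟨a, b, c, ha, hb, hc, hu⟩
    refine ⟨a, c, b, ha, hc, hb, ?_⟩
    filter_upwards [hu] with x hx
    rw [hx]; ring
  · rintro ⟨a, b, c, ha, hb, hc, hu⟩
    refine ⟨a, c, b, ha, hc, hb, ?_⟩
    filter_upwards [hu] with x hx
    rw [hx]; ring

theorem colFin_swap {f g h : (Fin n → ℂ) → ℂ} : ColFin ![f, g, h] ↔ ColFin ![f, h, g] := by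
  unfold ColFin Quo; rw [gens_swap]

theorem col_swap (f g h : (Fin n → ℂ) → ℂ) : col ![f, g, h] = col ![f, h, g] := by
  unfold col Quo; rw [gens_swap]

theorem pow_left {f g h : (Fin n → ℂ) → ℂ} (hg : AnalyticAt ℂ g 0) (h1 : ColFin ![f, g, h]) :
    ∀ k : ℕ, 1 ≤ k → ColFin ![f, g ^ k, h] ∧ col ![f, g ^ k, h] ≤ k * col ![f, g, h] := by
  intro k hk
  induction k, hk using Nat.le_induction with
  | base => simpa using h1
  | succ k hk ih =>
    obtain ⟨h2, h3⟩ := ih
    obtain ⟨h4, h5⟩ := step (g' := g ^ k) hg (hg.pow k) h1 h2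
    rw [← pow_succ] at h4 h5
    refine ⟨h4, h5.trans ?_⟩
    calc col ![f, g ^ k, h] + col ![f, g, h] ≤ k * col ![f, g, h] + col ![f, g, h] := by gcongr
      _ = (k + 1) * col ![f, g, h] := by ring

/-- `col (f, g^k, h^l) ≤ k l col (f, g, h)` -/
theorem pow_both {f g h : (Fin n → ℂ) → ℂ} (hg : AnalyticAt ℂ g 0) (hh : AnalyticAt ℂ h 0)
    (h1 : ColFin ![f, g, h]) {k l : ℕ} (hk : 1 ≤ k) (hl : 1 ≤ l) :
    ColFin ![f, g ^ k, h ^ l] ∧ col ![f, g ^ k, h ^ l] ≤ k * l * col ![f, g, h] := by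
  obtain ⟨h2, h3⟩ := pow_left hg h1 k hk
  obtain ⟨h4, h5⟩ := pow_left hh (colFin_swap.1 h2) l hl
  refine ⟨colFin_swap.1 h4, ?_⟩
  rw [col_swap]
  calc col ![f, h ^ l, g ^ k] ≤ l * col ![f, h, g ^ k] := h5
    _ = l * col ![f, g ^ k, h] := by rw [col_swap]
    _ ≤ l * (k * col ![f, g, h]) := by gcongr
    _ = k * l * col ![f, g, h] := by ring

end Crest.Agent.R257.LcA_980
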