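import Crest.Agent.R257.UI7_939

/-!
Row 257 (S0395), leaf CNF (helper939), part 3: rank of analytic families of vectors; the
multiplicity is constant for ALL small `t`; conservation of number, lower bound; dictionary.
-/

set_option autoImplicit false
set_option linter.unusedSectionVars false

open Set Filter Topology Metric Complex
open Crest.Agent.R275.Loc2879
open Crest.AlgGeometry

noncomputable section

namespace Crest.Agent.R257.UI939

universe u v w

variable {n : ℕ}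

/-- the rank of an analytic family of vectors: a frequent upper bound is an upper bound -/
theorem rank_freq {V : Type v} [AddCommGroup V] [Module ℂ V] [FiniteDimensional ℂ V]
    {ι : Type w} [Fintype ι] {D : ℕ} (τ : Fin D → V) (c : ι → Fin D → ℂ → ℂ)
    (hc : ∀ k i, AnalyticAt ℂ (c k i) 0) (ρ : ℕ)
    (h : ∃ᶠ t in 𝓝[≠] (0 : ℂ),
      Module.finrank ℂ (Submodule.span ℂ (Set.range fun k => ∑ i, c k i t • τ i)) ≤ ρ) :
    ∀ᶠ t in 𝓝 (0 : ℂ),
      Module.finrank ℂ (Submodule.span ℂ (Set.range fun k => ∑ i, c k i t • τ i)) ≤ ρ := by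
  classical
  have h1 : ∀ᶠ t in 𝓝 (0 : ℂ), ∀ k i, AnalyticAt ℂ (c k i) t :=
    Filter.eventually_all.2 fun k => Filter.eventually_all.2 fun i => (hc k i).eventually_analyticAt
  obtain ⟨r, hr, h2⟩ := Metric.eventually_nhds_iff_ball.1 h1
  filter_upwards [Metric.ball_mem_nhds (0 : ℂ) hr] with t1 ht1
  by_contra hcon
  push Not at hcon
  obtain ⟨f, hf1, hf2, hf3⟩ := Submodule.exists_fun_fin_finrank_span_eq ℂ
    (Set.range fun k => ∑ i, c k i t1 • τ i)
  -- a linearly independent subfamily of length ρ + 1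
  have hcast : ρ + 1 ≤ Module.finrank ℂ (Submodule.span ℂ
    (Set.range fun k => ∑ i, c k i t1 • τ i)) := hcon
  have hw : LinearIndependent ℂ (fun a : Fin (ρ + 1) => f (Fin.castLE hcast a)) :=
    hf3.comp _ (Fin.castLE_injective hcast)
  choose k hk using fun a : Fin (ρ + 1) => hf1 (Fin.castLE hcast a)
  have hinj : Function.Injective (Fintype.linearCombination ℂ
      (fun a : Fin (ρ + 1) => f (Fin.castLE hcast a))) :=
    linearIndependent_iff_injective_fintypeLinearCombination.1 hw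
  obtain ⟨P, hP⟩ := LinearMap.exists_leftInverse_of_injective _ (LinearMap.ker_eq_bot.2 hinj)
  let M : ℂ → Matrix (Fin (ρ + 1)) (Fin (ρ + 1)) ℂ :=
    fun t => Matrix.of fun a b => P (∑ i, c (k b) i t • τ i) a
  have hM1 : M t1 = 1 := by
    ext a b
    have e1 : P (∑ i, c (k b) i t1 • τ i) = Pi.single b 1 := by
      have e2 : (∑ i, c (k b) i t1 • τ i) = Fintype.linearCombination ℂ
          (fun a : Fin (ρ + 1) => f (Fin.castLE hcast a)) (Pi.single b 1) := by
        rw [Fintype.linearCombination_apply_single, one_smul]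
        exact hk b
      rw [e2]
      exact LinearMap.congr_fun hP _
    simp only [M, Matrix.of_apply, e1, Matrix.one_apply, Pi.single_apply]
  have hMan : ∀ t ∈ ball (0 : ℂ) r, ∀ a b, AnalyticAt ℂ (fun t => M t a b) t := by
    intro t ht a b
    have e1 : (fun t => M t a b) = fun t => ∑ i, c (k b) i t * P (τ i) a := by
      funext t
      simp only [M, Matrix.of_apply, map_sum, map_smul, Finset.sum_apply, Pi.smul_apply,
        smul_eq_mul]
    rw [e1]
    exact Finset.analyticAt_fun_sum _ fun i _ => (h2 t ht (k b) i).mul analyticAt_const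
  have hdan : AnalyticOnNhd ℂ (fun t => (M t).det) (ball (0 : ℂ) r) := by
    intro t ht
    simp only [Matrix.det_apply]
    refine Finset.analyticAt_fun_sum _ fun σ _ => ?_
    refine AnalyticAt.const_smul ?_
    exact Finset.analyticAt_fun_prod _ fun i _ => hMan t ht _ _
  have hne : ¬ ∀ᶠ t in 𝓝 (0 : ℂ), (M t).det = 0 := by
    intro h0
    have h3 := hdan.eqOn_zero_of_preconnected_of_eventuallyEq_zero
      (convex_ball (0 : ℂ) r).isPreconnected (mem_ball_self hr) h0 ht1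
    simp only [Pi.zero_apply] at h3
    rw [hM1, Matrix.det_one] at h3
    exact one_ne_zero h3
  rcases (hdan 0 (mem_ball_self hr)).eventually_eq_zero_or_eventually_ne_zero with h3 | h3
  · exact hne h3
  · obtain ⟨t, ht1, ht2⟩ := (h.and_eventually h3).exists
    have hli : LinearIndependent ℂ (fun b : Fin (ρ + 1) => ∑ i, c (k b) i t • τ i) := by
      rw [Fintype.linearIndependent_iff]
      intro g hg b
      have h4 : (M t).mulVec g = 0 := by
        ext a
        have h5 := congrFun (congrArg P hg) a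
        rw [map_sum] at h5
        simp only [map_smul, Finset.sum_apply, Pi.smul_apply, smul_eq_mul, map_zero,
          Pi.zero_apply] at h5
        simp only [Matrix.mulVec, dotProduct, M, Matrix.of_apply, Pi.zero_apply]
        rw [← h5]
        exact Finset.sum_congr rfl fun b _ => mul_comm _ _
      have h5 := Matrix.eq_zero_of_mulVec_eq_zero ht2 h4
      exact congrFun h5 b
    have h6 : ρ + 1 ≤ Module.finrank ℂ (Submodule.span ℂ
        (Set.range fun k => ∑ i, c k i t • τ i)) := by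
      have h7 := finrank_span_eq_card hli
      rw [Fintype.card_fin] at h7
      rw [← h7]
      refine Submodule.finrank_mono (Submodule.span_mono ?_)
      rintro _ ⟨b, rfl⟩
      exact ⟨k b, rfl⟩
    omega

section Dim

variable {κ : Type*} [Fintype κ]

lemma JJ_le_freq (G : κ → (Fin n → ℂ) × ℂ → ℂ) (hG : ∀ j, AnalyticAt ℂ (G j) 0) (μ : ℕ)
    (h : ∀ α : Fin n → ℕ, ∑ i, α i = μ →
      ∃ b : κ → (Fin n → ℂ) × ℂ → ℂ, (∀ j, AnalyticAt ℂ (b j) 0) ∧
      ∀ᶠ p in 𝓝 (0 : (Fin n → ℂ) × ℂ), ∏ i, p.1 i ^ α i = ∑ j, b j p * G j p) :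
    ∀ᶠ t in 𝓝 (0 : ℂ), JJ (xB (n := n)) μ ≤ Idl (0 : Fin n → ℂ) (fun j x => G j (x, t)) := by
  classical
  have hfinset : {β : Fin n → ℕ | ∑ i, β i = μ}.Finite := by
    refine (Set.Finite.subset (Set.finite_Iic (fun _ : Fin n => μ)) ?_)
    intro β hβ
    rw [Set.mem_Iic]
    intro i
    exact (Finset.single_le_sum (fun j _ => Nat.zero_le (β j)) (Finset.mem_univ i)).trans
      (le_of_eq hβ)
  have hall : ∀ᶠ t in 𝓝 (0 : ℂ), ∀ β ∈ {β : Fin n → ℕ | ∑ i, β i = μ},
      mon xB β ∈ Idl (0 : Fin n → ℂ) (fun j x => G j (x, t)) := by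
    rw [Filter.eventually_all_finite hfinset]
    intro β hβ
    obtain ⟨b, hb, hid⟩ := h β hβ
    have := slice_rel G hG (μ := 0) (Ef := fun i => i.elim0) (fun i => i.elim0) (an_mon β 0)
      (c := fun i => i.elim0) hb (by simpa using hid)
    filter_upwards [this] with t ht
    rw [gz_mon] at ht
    simpa using ht
  filter_upwards [hall] with t ht
  refine Ideal.span_le.2 ?_
  rintro a ⟨β, h1, rfl⟩
  exact ht β h1

lemma finite_quot_JJ (μ : ℕ) : Module.Finite ℂ (BB n ⧸ JJ (xB (n := n)) μ) := by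
  classical
  have hfinset : {β : Fin n → ℕ | ∑ i, β i < μ}.Finite := by
    refine (Set.Finite.subset (Set.finite_Iic (fun _ : Fin n => μ)) ?_)
    intro β hβ
    rw [Set.mem_Iic]
    intro i
    exact (Finset.single_le_sum (fun j _ => Nat.zero_le (β j)) (Finset.mem_univ i)).trans
      (le_of_lt hβ)
  have hf2 : {a : BB n | ∃ β : Fin n → ℕ, ∑ i, β i < μ ∧ mon xB β = a}.Finite := by
    refine (hfinset.image (fun β => mon xB β)).subset ?_
    rintro a ⟨β, h1, rfl⟩
    exact ⟨β, h1, rfl⟩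
  let π : BB n →ₗ[ℂ] (BB n ⧸ JJ (xB (n := n)) μ) :=
    (Ideal.Quotient.mkₐ ℂ (JJ (xB (n := n)) μ)).toLinearMap
  have h1 : (VV (xB (n := n)) μ).map π = ⊤ := by
    rw [eq_top_iff]
    intro q _
    obtain ⟨a, rfl⟩ := Ideal.Quotient.mk_surjective q
    obtain ⟨v, hv, w, hw, rfl⟩ := Submodule.mem_sup.1 (mem_VV_sup (xB (n := n)) hadamard μ a)
    refine ⟨v, hv, ?_⟩
    have hw0 : π w = 0 := (Ideal.Quotient.eq_zero_iff_mem (I := JJ (xB (n := n)) μ)).2 hw
    change π v = π (v + w)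
    rw [map_add, hw0, add_zero]
  refine ⟨?_⟩
  rw [← h1]
  exact (Submodule.fg_span hf2).map π

set_option maxHeartbeats 4000000 in
set_option synthInstance.maxHeartbeats 200000 in
/-- **THE MULTIPLICITY IS CONSTANT FOR ALL SMALL `t`** -/
theorem dim_eq (G : κ → (Fin n → ℂ) × ℂ → ℂ) (hG : ∀ j, AnalyticAt ℂ (G j) 0) (μ : ℕ)
    (hf0 : Module.Finite ℂ (QQ G 0)) (hd0 : Module.finrank ℂ (QQ G 0) = μ)
    (hfr : ∃ᶠ t in 𝓝[≠] (0 : ℂ), Module.Finite ℂ (QQ G t) → μ ≤ Module.finrank ℂ (QQ G t)) :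
    ∀ᶠ t in 𝓝 (0 : ℂ), Module.Finite ℂ (QQ G t) ∧ Module.finrank ℂ (QQ G t) = μ := by
  classical
  set J : Ideal (BB n) := JJ (xB (n := n)) μ with hJ
  have husc := usc G hG μ hf0 hd0
  have hJt := JJ_le_freq G hG μ (fun α hα => ui_freq G hG μ hf0 hd0 hfr α hα)
  rw [← hJ] at hJt
  have hTfin : Module.Finite ℂ (BB n ⧸ J) := finite_quot_JJ μ
  -- the family of monomials of degree μ
  have hfinset : {β : Fin n → ℕ | ∑ i, β i = μ}.Finite := by
    refine (Set.Finite.subset (Set.finite_Iic (fun _ : Fin n => μ)) ?_)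
    intro β hβ
    rw [Set.mem_Iic]
    intro i
    exact (Finset.single_le_sum (fun j _ => Nat.zero_le (β j)) (Finset.mem_univ i)).trans
      (le_of_eq hβ)
  have hfinset2 : {β : Fin n → ℕ | ∑ i, β i < μ}.Finite := by
    refine (Set.Finite.subset (Set.finite_Iic (fun _ : Fin n => μ)) ?_)
    intro β hβ
    rw [Set.mem_Iic]
    intro i
    exact (Finset.single_le_sum (fun j _ => Nat.zero_le (β j)) (Finset.mem_univ i)).trans
      (le_of_lt hβ)
  let _ : Fintype {β : Fin n → ℕ // ∑ i, β i = μ} := hfinset.fintype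
  let _ : Fintype {β : Fin n → ℕ // ∑ i, β i < μ} := hfinset2.fintype
  let G' : {β : Fin n → ℕ // ∑ i, β i = μ} → (Fin n → ℂ) × ℂ → ℂ :=
    fun β p => ∏ i, p.1 i ^ β.1 i
  have hG' : ∀ β, AnalyticAt ℂ (G' β) 0 := fun β => an_mon β.1 0
  have hIdl : ∀ t : ℂ, Idl (0 : Fin n → ℂ) (fun β x => G' β (x, t)) = J := by
    intro t
    rw [hJ, Idl, JJ]
    congr 1
    ext a
    constructor
    · rintro ⟨β, rfl⟩
      exact ⟨β.1, β.2, (gz_mon β.1).symm⟩
    · rintro ⟨β, h1, rfl⟩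
      exact ⟨⟨β, h1⟩, gz_mon β⟩
  have hf' : Module.Finite ℂ (QQ G' 0) := by
    unfold QQ; rw [hIdl]; exact hTfin
  obtain ⟨D, hD⟩ : ∃ D, Module.finrank ℂ (QQ G' 0) = D := ⟨_, rfl⟩
  obtain ⟨E', hE', hrel'⟩ := exists_data G' hG' D hf' hD
  -- the vectors
  have hfan : ∀ k : {β : Fin n → ℕ // ∑ i, β i < μ} × κ,
      AnalyticAt ℂ (fun p : (Fin n → ℂ) × ℂ => (∏ i, p.1 i ^ k.1.1 i) * G k.2 p) 0 :=
    fun k => (an_mon k.1.1 0).mul (hG k.2)
  choose c b hc hb hid using fun k => hrel' _ (hfan k)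
  let π : BB n →ₗ[ℂ] (BB n ⧸ J) := (Ideal.Quotient.mkₐ ℂ J).toLinearMap
  have hπ : ∀ a, π a = 0 ↔ a ∈ J := fun a => Ideal.Quotient.eq_zero_iff_mem
  let τ : Fin D → BB n ⧸ J := fun i => π (gm (E' i) (hE' i))
  have hGt : ∀ᶠ t in 𝓝 (0 : ℂ), ∀ j, AnalyticAt ℂ (G j) (0, t) :=
    tendsto_0t.eventually (Filter.eventually_all.2 fun j => (hG j).eventually_analyticAt)
  have hvec : ∀ᶠ t in 𝓝 (0 : ℂ), ∀ k : {β : Fin n → ℕ // ∑ i, β i < μ} × κ,
      π (mon xB k.1.1 * gz (fun x => G k.2 (x, t))) = ∑ i, c k i t • τ i := by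
    refine Filter.eventually_all.2 fun k => ?_
    filter_upwards [slice_rel G' hG' hE' (hfan k) (hb k) (hid k), hGt] with t ht hGtt
    rw [hIdl, ← hπ, map_sub, sub_eq_zero] at ht
    have e1 : (gz (fun x => (∏ i, (x, t).1 i ^ k.1.1 i) * G k.2 (x, t)) : BB n) =
        mon xB k.1.1 * gz (fun x => G k.2 (x, t)) := by
      rw [← gz_mon, gz_eq (an_slice (hGtt k.2)), gz_eq (an_slice (an_mon k.1.1 (0, t))), gm_mul]
      exact gz_eq _
    rw [← e1, ht, map_sum]
    refine Finset.sum_congr rfl fun i _ => ?_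
    rw [← Algebra.smul_def, map_smul]
  -- dimension formula
  have hform : ∀ᶠ t in 𝓝 (0 : ℂ), Module.finrank ℂ (QQ G t) +
      Module.finrank ℂ (Submodule.span ℂ (Set.range fun k => ∑ i, c k i t • τ i)) =
        Module.finrank ℂ (BB n ⧸ J) := by
    filter_upwards [hJt, hvec, hGt] with t k1 k2 k3
    set It : Ideal (BB n) := Idl (0 : Fin n → ℂ) (fun j x => G j (x, t)) with hIt
    let q : (BB n ⧸ J) →ₗ[ℂ] (BB n ⧸ It) := (Ideal.Quotient.factorₐ ℂ k1).toLinearMap
    have hq : ∀ a, q (π a) = Ideal.Quotient.mk It a := fun a => rfl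
    have hsurj : Function.Surjective q := by
      intro y
      obtain ⟨a, rfl⟩ := Ideal.Quotient.mk_surjective y
      exact ⟨π a, hq a⟩
    have hker : LinearMap.ker q =
        Submodule.span ℂ (Set.range fun k => ∑ i, c k i t • τ i) := by
      apply le_antisymm
      · intro y hy
        obtain ⟨a, rfl⟩ := Ideal.Quotient.mk_surjective y
        have ha : a ∈ It := by
          rw [LinearMap.mem_ker] at hy
          exact (Ideal.Quotient.eq_zero_iff_mem (I := It)).1 hy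
        change π a ∈ _
        rw [hIt, mem_Idl (fun j => an_slice (k3 j))] at ha
        obtain ⟨d, rfl⟩ := ha
        rw [map_sum]
        refine Submodule.sum_mem _ fun j _ => ?_
        obtain ⟨v, hv, w', hw', hvw⟩ := Submodule.mem_sup.1
          (mem_VV_sup (xB (n := n)) hadamard μ (d j))
        rw [← hvw, add_mul, map_add]
        have h0 : π (w' * gm (fun x => G j (x, t)) (an_slice (k3 j))) = 0 :=
          (hπ _).2 (J.mul_mem_right _ hw')
        rw [h0, add_zero]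
        clear h0 hw' hvw
        unfold VV at hv
        induction hv using Submodule.span_induction with
        | mem z hz =>
          obtain ⟨β, h1, rfl⟩ := hz
          rw [← gz_eq (an_slice (k3 j))]
          rw [k2 (⟨β, h1⟩, j)]
          exact Submodule.subset_span ⟨(⟨β, h1⟩, j), rfl⟩
        | zero => rw [zero_mul, map_zero]; exact Submodule.zero_mem _
        | add y z _ _ h1 h2 => rw [add_mul, map_add]; exact Submodule.add_mem _ h1 h2
        | smul s z _ hz => rw [smul_mul_assoc, map_smul]; exact Submodule.smul_mem _ _ hz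
      · rw [Submodule.span_le]
        rintro _ ⟨k, rfl⟩
        rw [SetLike.mem_coe, LinearMap.mem_ker]
        change q (∑ i, c k i t • τ i) = 0
        rw [← k2 k, hq]
        refine (Ideal.Quotient.eq_zero_iff_mem (I := It)).2 ?_
        refine It.mul_mem_left _ ?_
        exact Ideal.subset_span ⟨k.2, rfl⟩
    have h1 := LinearMap.finrank_range_add_finrank_ker q
    rw [LinearMap.range_eq_top.2 hsurj, finrank_top, hker] at h1
    exact h1
  have hrank := rank_freq τ c hc (Module.finrank ℂ (BB n ⧸ J) - μ) (by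
    refine (hfr.and_eventually ((husc.filter_mono (nhdsWithin_le_nhds (s := {(0 : ℂ)}ᶜ))).and
      (hform.filter_mono (nhdsWithin_le_nhds (s := {(0 : ℂ)}ᶜ))))).mono ?_
    rintro t ⟨k1, k2, k3⟩
    have := k1 k2.1
    omega)
  have hD0 : μ ≤ Module.finrank ℂ (BB n ⧸ J) := by
    have := hform.self_of_nhds
    omega
  filter_upwards [husc, hform, hrank] with t k1 k2 k3
  refine ⟨k1.1, ?_⟩
  have := k1.2
  omega

/-- hypothesis of `ui`, `cn`, `lb` from the frequent lower bound -/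
theorem hdim_freq (G : κ → (Fin n → ℂ) × ℂ → ℂ) (hG : ∀ j, AnalyticAt ℂ (G j) 0) (μ : ℕ)
    (hf0 : Module.Finite ℂ (QQ G 0)) (hd0 : Module.finrank ℂ (QQ G 0) = μ)
    (hfr : ∃ᶠ t in 𝓝[≠] (0 : ℂ), Module.Finite ℂ (QQ G t) → μ ≤ Module.finrank ℂ (QQ G t)) :
    ∀ᶠ t in 𝓝 (0 : ℂ),
      Module.Finite ℂ (BB n ⧸ Idl (0 : Fin n → ℂ) (fun j x => G j (x, t))) ∧
      dimQ (0 : Fin n → ℂ) (fun j x => G j (x, t)) = μ :=
  dim_eq G hG μ hf0 hd0 hfr

theorem cn_freq (G : κ → (Fin n → ℂ) × ℂ → ℂ) (hG : ∀ j, AnalyticAt ℂ (G j) 0) (μ : ℕ)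
    (hf0 : Module.Finite ℂ (QQ G 0)) (hd0 : Module.finrank ℂ (QQ G 0) = μ)
    (hfr : ∃ᶠ t in 𝓝[≠] (0 : ℂ), Module.Finite ℂ (QQ G t) → μ ≤ Module.finrank ℂ (QQ G t)) :
    ∀ᶠ p in 𝓝 (0 : (Fin n → ℂ) × ℂ), (∀ j, G j p = 0) → p.1 = 0 :=
  cn G hG μ (hdim_freq G hG μ hf0 hd0 hfr)

theorem lb_freq [NeZero n] (G : κ → (Fin n → ℂ) × ℂ → ℂ) (hG : ∀ j, AnalyticAt ℂ (G j) 0) (μ : ℕ)
    (hf0 : Module.Finite ℂ (QQ G 0)) (hd0 : Module.finrank ℂ (QQ G 0) = μ)
    (hfr : ∃ᶠ t in 𝓝[≠] (0 : ℂ), Module.Finite ℂ (QQ G t) → μ ≤ Module.finrank ℂ (QQ G t)) :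
    ∃ C : ℝ, 0 < C ∧ ∀ᶠ p in 𝓝 (0 : (Fin n → ℂ) × ℂ), ‖p.1‖ ^ μ ≤ C * ‖fun j => G j p‖ :=
  lb G hG μ (hdim_freq G hG μ hf0 hd0 hfr)

end Dim

/-! ### dictionary for an arbitrary finite family -/

/-- germs in the ideal of a finite family, as a subspace of `analyticAtOrigin n` (same shape as
`Germ.jacobianGerms`) -/
def colGerms (n : ℕ) {κ : Type*} [Fintype κ] (g : κ → (Fin n → ℂ) → ℂ) :
    Submodule ℂ (Germ.analyticAtOrigin n) where
  carrier := {f | ∃ a : κ → (Fin n → ℂ) → ℂ, (∀ i, AnalyticAt ℂ (a i) 0) ∧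
    (f : (Fin n → ℂ) → ℂ) =ᶠ[𝓝 0] fun x => ∑ i, a i x * g i x}
  add_mem' := by
    rintro g k ⟨a, ha, hg⟩ ⟨b, hb, hk⟩
    refine ⟨fun i => a i + b i, fun i => (ha i).add (hb i), ?_⟩
    filter_upwards [hg, hk] with x hx hy
    simp only [Submodule.coe_add, Pi.add_apply, hx, hy, ← Finset.sum_add_distrib, add_mul]
  zero_mem' := ⟨fun _ => 0, fun _ => analyticAt_const, Eventually.of_forall fun x => by simp⟩
  smul_mem' := by
    rintro c g ⟨a, ha, hg⟩
    refine ⟨fun i => c • a i, fun i => (ha i).const_smul, ?_⟩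
    filter_upwards [hg] with x hx
    simp only [Submodule.coe_smul, Pi.smul_apply, smul_eq_mul, hx, Finset.mul_sum, mul_assoc]

theorem dictG {κ : Type*} [Fintype κ] {g : κ → (Fin n → ℂ) → ℂ}
    (hf : ∀ i, AnalyticAt ℂ (g i) 0) :
    Nonempty ((Germ.analyticAtOrigin n ⧸ colGerms n g) ≃ₗ[ℂ]
      (BB n ⧸ Idl (0 : Fin n → ℂ) g)) := by
  set I := Idl (0 : Fin n → ℂ) g with hI
  let φ : Germ.analyticAtOrigin n →ₗ[ℂ] (BB n ⧸ I) :=
    (Ideal.Quotient.mkₐ ℂ I).toLinearMap ∘ₗ toOO n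
  have hφ : ∀ g, φ g = Ideal.Quotient.mk I (toOO n g) := fun _ => rfl
  have hsurj : Function.Surjective φ := by
    intro q
    obtain ⟨a, rfl⟩ := Ideal.Quotient.mk_surjective q
    obtain ⟨g, hg, rfl⟩ := exists_gm a
    exact ⟨⟨g, hg⟩, rfl⟩
  have hker : colGerms n g = LinearMap.ker φ := by
    ext f
    rw [LinearMap.mem_ker, hφ, Ideal.Quotient.eq_zero_iff_mem, hI, mem_Idl hf]
    constructor
    · rintro ⟨a, ha, hg⟩
      refine ⟨fun i => gm (a i) (ha i), ?_⟩
      obtain ⟨h, e⟩ := exists_sum_gm' Finset.univ a g ha hf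
      rw [e, toOO_apply, gm_eq_gm]
      exact hg
    · rintro ⟨c, hc⟩
      choose a ha hac using fun i => exists_gm (c i)
      obtain rfl : (fun i => gm (a i) (ha i)) = c := funext hac
      obtain ⟨h, e⟩ := exists_sum_gm' Finset.univ a g ha hf
      rw [e, toOO_apply, gm_eq_gm] at hc
      exact ⟨a, ha, hc⟩
  exact ⟨(Submodule.quotEquivOfEq _ _ hker).trans (φ.quotKerEquivOfSurjective hsurj)⟩

end Crest.Agent.R257.UI939
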