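import Crest.Agent.R257.SkelA_219
import Crest.Agent.R257.UI8_939

/-!
Row 257 (S0395), leaf LC-POS (helper980): elementary geometry of `V = {f = 0}`, `f` an isolated
critical germ in `ℂ³`, regular in `x₀`:
* `slice_const`: if `F(a,b) = 0 ⇒ ∂_a F = 0` near `0` and `∂_b F(0,0) ≠ 0` then `F(a,0) = 0`;
* `isolated`: `grad f ≠ 0` off `0`;
* `sheet_dense`: over a dense set of `x'` near `0` there is a simple zero `z` of `f(·,x')` with
  `‖(z,x')‖ ≤ C ‖x'‖^θ`.
-/

set_option autoImplicit false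

open Topology Filter Set Metric
open Crest.AlgGeometry Crest.AlgGeometry.Germ Crest.Agent.R257.Defs_219

noncomputable section

namespace Crest.Agent.R257.LcV_980

/-- if the zeros of `F` near `0` are critical in the first variable, and `∂_b F ≠ 0`, then
`F (a, 0) = 0` near `0` -/
theorem slice_const {F : ℂ × ℂ → ℂ} (hF : AnalyticAt ℂ F 0) (h0 : F 0 = 0)
    (hb : fderiv ℂ F 0 (0, 1) ≠ 0)
    (hz : ∀ᶠ p in 𝓝 (0 : ℂ × ℂ), F p = 0 → fderiv ℂ F p (1, 0) = 0) :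
    ∀ᶠ a in 𝓝 (0 : ℂ), F (a, 0) = 0 := by
  -- invertibility of the partial derivative
  have hinv : ∀ p : ℂ × ℂ, fderiv ℂ F p (0, 1) ≠ 0 →
      (fderiv ℂ F p ∘L .inr ℂ ℂ ℂ).IsInvertible := by
    intro p hp
    set c := fderiv ℂ F p (0, 1) with hc
    refine ⟨ContinuousLinearEquiv.smulLeft (Units.mk0 c hp), ?_⟩
    ext
    simp [Units.smul_def, hc]
  have hst : ∀ p : ℂ × ℂ, AnalyticAt ℂ F p → HasStrictFDerivAt F (fderiv ℂ F p) p := fun p hp =>
    hp.hasStrictFDerivAt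
  have hs0 := hst 0 hF
  set ψ := hs0.implicitFunctionOfProdDomain (hinv 0 hb) with hψ
  have huniq := hs0.eventually_apply_eq_iff_implicitFunctionOfProdDomain (hinv 0 hb)
  have hzero := hs0.eventually_apply_implicitFunctionOfProdDomain (hinv 0 hb)
  have htend := hs0.tendsto_implicitFunctionOfProdDomain (hinv 0 hb)
  rw [← hψ] at huniq hzero htend
  rw [h0] at huniq hzero
  have hcont : ContinuousAt (fun p : ℂ × ℂ => fderiv ℂ F p (0, 1)) 0 := by
    have := hF.fderiv.continuousAt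
    exact this.clm_apply continuousAt_const
  have hall : ∀ᶠ p in 𝓝 (0 : ℂ × ℂ), AnalyticAt ℂ F p ∧ fderiv ℂ F p (0, 1) ≠ 0 ∧
      (F p = 0 → fderiv ℂ F p (1, 0) = 0) ∧ (F p = 0 ↔ ψ p.1 = p.2) := by
    filter_upwards [hF.eventually_analyticAt, hcont.eventually_ne hb, hz, huniq] with p h1 h2 h3 h4
    exact ⟨h1, h2, h3, h4⟩
  obtain ⟨U, hU, hUo, hU0⟩ := _root_.eventually_nhds_iff.1 hall
  have hψ0 : ψ 0 = 0 := ((hU 0 hU0).2.2.2.1 h0)
  have htend' : Tendsto (fun a => (a, ψ a)) (𝓝 (0 : ℂ)) (𝓝 (0 : ℂ × ℂ)) := by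
    have : Tendsto (fun a => (a, ψ a)) (𝓝 (0 : ℂ)) (𝓝 ((0 : ℂ), (0 : ℂ × ℂ).2)) := by
      rw [nhds_prod_eq]
      exact tendsto_id.prodMk htend
    exact this
  have h1 : ∀ᶠ a in 𝓝 (0 : ℂ), (a, ψ a) ∈ U ∧ F (a, ψ a) = 0 :=
    (htend'.eventually (hUo.mem_nhds hU0)).and hzero
  obtain ⟨ε, hε, hball⟩ := Metric.eventually_nhds_iff_ball.1 h1
  -- the derivative of `ψ` vanishes on the ball
  have hder : ∀ a ∈ ball (0 : ℂ) ε, HasFDerivAt ψ (0 : ℂ →L[ℂ] ℂ) a := by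
    intro a ha
    obtain ⟨hpU, hp0⟩ := hball a ha
    obtain ⟨han, hne, hcr, -⟩ := hU _ hpU
    have hsp := hst _ han
    set χ := hsp.implicitFunctionOfProdDomain (hinv _ hne) with hχ
    have hχz := hsp.eventually_apply_implicitFunctionOfProdDomain (hinv _ hne)
    have hχt := hsp.tendsto_implicitFunctionOfProdDomain (hinv _ hne)
    have hχd := hsp.hasStrictFDerivAt_implicitFunctionOfProdDomain (hinv _ hne)
    rw [← hχ] at hχz hχt hχd
    rw [hp0] at hχz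
    have hd0 : (-(fderiv ℂ F (a, ψ a) ∘L .inr ℂ ℂ ℂ).inverse ∘L
        (fderiv ℂ F (a, ψ a) ∘L .inl ℂ ℂ ℂ)) = 0 := by
      have : (fderiv ℂ F (a, ψ a) ∘L .inl ℂ ℂ ℂ) = 0 := by
        ext
        simpa using hcr hp0
      rw [this, ContinuousLinearMap.comp_zero, neg_zero]
    rw [hd0] at hχd
    have hev : χ =ᶠ[𝓝 a] ψ := by
      have ht : Tendsto (fun a' => (a', χ a')) (𝓝 a) (𝓝 (a, ψ a)) := by
        rw [nhds_prod_eq]
        exact tendsto_id.prodMk hχt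
      filter_upwards [ht.eventually (hUo.mem_nhds hpU), hχz] with a' h2 h3
      exact ((hU _ h2).2.2.2.1 h3).symm
    exact (hχd.hasFDerivAt).congr_of_eventuallyEq hev.symm
  have hconst : ∀ a ∈ ball (0 : ℂ) ε, ψ a = 0 := by
    intro a ha
    have := (convex_ball (0 : ℂ) ε).is_const_of_fderivWithin_eq_zero (𝕜 := ℂ) (f := ψ)
      (fun x hx => (hder x hx).hasFDerivWithinAt.differentiableWithinAt)
      (fun x hx => by
        rw [fderivWithin_of_isOpen isOpen_ball hx]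
        exact (hder x hx).fderiv) ha (mem_ball_self hε)
    rw [this, hψ0]
  filter_upwards [ball_mem_nhds (0 : ℂ) hε] with a ha
  have := (hball a ha).2
  rwa [hconst a ha] at this

/-- finite colength of the gradient: the critical point is isolated -/
theorem isolated {f : E3 → ℂ} (hf : AnalyticAt ℂ f 0) (hfin : ColFin (par f)) :
    ∀ᶠ x in 𝓝 (0 : E3), (∀ i, coordDeriv f i x = 0) → x = 0 := by
  have han : ∀ j, AnalyticAt ℂ (fun p : E3 × ℂ => par f j p.1) 0 := by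
    intro j
    exact (Skel_219.analyticAt_coordDeriv hf j).comp_of_eq analyticAt_fst rfl
  obtain ⟨e⟩ := UI939.dictG (n := 3) (g := par f)
    (fun i => Skel_219.analyticAt_coordDeriv hf i)
  have h1 := UI939.cn (n := 3) (fun j p => par f j p.1) han
    (UI939.dimQ (0 : Fin 3 → ℂ) (par f)) (Eventually.of_forall fun t => ⟨by
      have : Module.Finite ℂ (analyticAtOrigin 3 ⧸ UI939.colGerms 3 (par f)) := hfin
      exact Module.Finite.equiv e, rfl⟩)
  have h2 : ∀ᶠ x in 𝓝 (0 : E3), ((∀ j, par f j x = 0) → x = 0) := by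
    have ht : Tendsto (fun x : E3 => ((x, 0) : E3 × ℂ)) (𝓝 0) (𝓝 0) := by
      have : Continuous (fun x : E3 => ((x, 0) : E3 × ℂ)) := by fun_prop
      exact this.tendsto 0
    exact ht.eventually h1
  exact h2

theorem cons_zero : (Fin.cons (0 : ℂ) (0 : Fin 2 → ℂ) : E3) = 0 := by
  ext i
  refine Fin.cases ?_ (fun j => ?_) i <;> simp

theorem norm_cons (z : ℂ) (x' : Fin 2 → ℂ) : ‖(Fin.cons z x' : E3)‖ = max ‖z‖ ‖x'‖ := by
  apply le_antisymm
  · rw [pi_norm_le_iff_of_nonneg (by positivity)]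
    intro i
    refine Fin.cases ?_ (fun j => ?_) i
    · simp
    · simp only [Fin.cons_succ]
      exact (norm_le_pi_norm x' j).trans (le_max_right _ _)
  · refine max_le ?_ ?_
    · simpa using norm_le_pi_norm (Fin.cons z x' : E3) 0
    · rw [pi_norm_le_iff_of_nonneg (norm_nonneg _)]
      intro j
      simpa using norm_le_pi_norm (Fin.cons z x' : E3) j.succ

theorem continuous_cons : Continuous (fun p : ℂ × (Fin 2 → ℂ) => (Fin.cons p.1 p.2 : E3)) := by
  refine continuous_pi fun i => ?_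
  refine Fin.cases ?_ (fun j => ?_) i
  · simpa using continuous_fst
  · simp only [Fin.cons_succ]; fun_prop

/-- an analytic function of one variable which is frequently nonzero is bounded below by a power -/
theorem one_var {φ : ℂ → ℂ} (hφ : AnalyticAt ℂ φ 0) (h0 : φ 0 = 0)
    (hne : ∃ᶠ z in 𝓝[≠] (0 : ℂ), φ z ≠ 0) :
    ∃ (ν : ℕ) (c : ℝ), 1 ≤ ν ∧ 0 < c ∧ ∀ᶠ z in 𝓝 (0 : ℂ), c * ‖z‖ ^ ν ≤ ‖φ z‖ := by
  have hnt : analyticOrderAt φ 0 ≠ ⊤ := by
    intro h
    rw [analyticOrderAt_eq_top] at h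
    exact hne ((h.filter_mono nhdsWithin_le_nhds).mono fun z hz => by simpa using hz)
  obtain ⟨ν, hν⟩ := ENat.ne_top_iff_exists.1 hnt
  obtain ⟨g, hg, hg0, hev⟩ := (hφ.analyticOrderAt_eq_natCast).1 hν.symm
  have hν1 : 1 ≤ ν := by
    rcases Nat.eq_zero_or_pos ν with h | h
    · exfalso
      have := hev.self_of_nhds
      rw [h0, h] at this
      simp at this
      exact hg0 this.symm
    · exact h
  refine ⟨ν, ‖g 0‖ / 2, hν1, by positivity, ?_⟩
  have h1 : ∀ᶠ z in 𝓝 (0 : ℂ), ‖g 0‖ / 2 < ‖g z‖ := by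
    have : 0 < ‖g 0‖ := norm_pos_iff.2 hg0
    exact hg.continuousAt.norm.eventually_const_lt (by linarith)
  filter_upwards [hev, h1] with z hz hz1
  rw [hz, sub_zero, norm_smul, norm_pow, mul_comm]
  gcongr

/-- the zeros of `f` near `0` over `x'` are small: `‖(z,x')‖ ≤ C ‖x'‖^θ`, and they exist -/
theorem sheet_exists {f : E3 → ℂ} (hf : AnalyticAt ℂ f 0) (h0 : f 0 = 0)
    (hreg : ∃ᶠ z : ℂ in 𝓝[≠] 0, f (Fin.cons z 0) ≠ 0) :
    ∃ (ν : ℕ) (C ρ : ℝ), 1 ≤ ν ∧ 0 ≤ C ∧ 0 < ρ ∧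
      (∀ᶠ x' in 𝓝 (0 : Fin 2 → ℂ), ∀ z : ℂ, ‖z‖ ≤ ρ → f (Fin.cons z x') = 0 →
        ‖(Fin.cons z x' : E3)‖ ≤ C * ‖x'‖ ^ ((ν : ℝ)⁻¹)) ∧
      (∀ᶠ x' in 𝓝 (0 : Fin 2 → ℂ), (∃ z : ℂ, ‖z‖ < ρ ∧ f (Fin.cons z x') = 0) ∧
        (∀ z : ℂ, ‖z‖ = ρ → f (Fin.cons z x') ≠ 0) ∧
        ∀ z : ℂ, ‖z‖ ≤ ρ → AnalyticAt ℂ f (Fin.cons z x')) := by
  have hcons : AnalyticAt ℂ (fun z : ℂ => (Fin.cons z (0 : Fin 2 → ℂ) : E3)) 0 := by
    rw [analyticAt_pi_iff]
    intro i
    refine Fin.cases ?_ (fun j => ?_) i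
    · simp only [Fin.cons_zero]; exact analyticAt_id
    · simp only [Fin.cons_succ]; exact analyticAt_const
  have hφ : AnalyticAt ℂ (fun z : ℂ => f (Fin.cons z 0)) 0 :=
    hf.comp_of_eq hcons cons_zero
  obtain ⟨ν, c, hν, hc, hlow⟩ := one_var hφ (by simp only [cons_zero, h0]) hreg
  -- a ball on which `f` is analytic and Lipschitz
  obtain ⟨K, S, hS, hLip⟩ := (hf.hasStrictFDerivAt).exists_lipschitzOnWith
  obtain ⟨ε, hε, hball⟩ := Metric.mem_nhds_iff.1 (inter_mem hS hf.eventually_analyticAt)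
  obtain ⟨ε', hε', hball'⟩ := Metric.eventually_nhds_iff_ball.1 hlow
  set ρ : ℝ := min (ε / 2) (min (ε' / 2) 1) with hρ
  have hρ0 : 0 < ρ := by positivity
  have hρε : ρ < ε := (min_le_left _ _).trans_lt (by linarith)
  have hρε' : ρ < ε' := ((min_le_right _ _).trans (min_le_left _ _)).trans_lt (by linarith)
  have hρ1 : ρ ≤ 1 := (min_le_right _ _).trans (min_le_right _ _)
  have hmem : ∀ (z : ℂ) (x' : Fin 2 → ℂ), ‖z‖ ≤ ρ → ‖x'‖ < ρ → (Fin.cons z x' : E3) ∈ ball (0 : E3) ε := by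
    intro z x' hz hx'
    rw [mem_ball_zero_iff, norm_cons]
    exact max_lt (hz.trans_lt hρε) (hx'.trans hρε)
  have hLz : ∀ (z : ℂ) (x' : Fin 2 → ℂ), ‖z‖ ≤ ρ → ‖x'‖ < ρ →
      ‖f (Fin.cons z x') - f (Fin.cons z 0)‖ ≤ K * ‖x'‖ := by
    intro z x' hz hx'
    have h1 := hLip.dist_le_mul _ (hball (hmem z x' hz hx')).1 _
      (hball (hmem z 0 hz (by simpa using hρ0))).1
    rw [dist_eq_norm, dist_eq_norm] at h1
    have h2 : (Fin.cons z x' : E3) - Fin.cons z 0 = Fin.cons 0 x' := by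
      ext i
      refine Fin.cases ?_ (fun j => ?_) i <;> simp
    rwa [h2, norm_cons, norm_zero, max_eq_right (norm_nonneg _)] at h1
  have hA : ∀ (z : ℂ) (x' : Fin 2 → ℂ), ‖z‖ ≤ ρ → ‖x'‖ < ρ → AnalyticAt ℂ f (Fin.cons z x') := by
    intro z x' hz hx'
    exact (hball (hmem z x' hz hx')).2
  have hsm : ∀ᶠ x' in 𝓝 (0 : Fin 2 → ℂ), ‖x'‖ < ρ ∧ K * ‖x'‖ < c * ρ ^ ν / 2 := by
    have h1 : Tendsto (fun x' : Fin 2 → ℂ => ‖x'‖) (𝓝 0) (𝓝 0) := by
      simpa using (continuous_norm (E := Fin 2 → ℂ)).tendsto 0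
    have h2 : Tendsto (fun x' : Fin 2 → ℂ => (K : ℝ) * ‖x'‖) (𝓝 0) (𝓝 (K * 0)) := h1.const_mul _
    rw [mul_zero] at h2
    exact (h1.eventually (gt_mem_nhds hρ0)).and (h2.eventually (gt_mem_nhds (by positivity)))
  refine ⟨ν, max 1 ((K / c) ^ ((ν : ℝ)⁻¹)), ρ, hν, by positivity, hρ0, ?_, ?_⟩
  · filter_upwards [hsm] with x' hx' z hz hzero
    have hν0 : (0 : ℝ) < ν := by exact_mod_cast hν
    have hx1 : ‖x'‖ ≤ 1 := hx'.1.le.trans hρ1
    rw [norm_cons]
    refine max_le ?_ ?_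
    · have h1 := hLz z x' hz hx'.1
      rw [hzero, zero_sub, norm_neg] at h1
      have h2 := (hball' z (by simpa using hz.trans_lt hρε')).trans h1
      have h3 : ‖z‖ ^ ν ≤ K / c * ‖x'‖ := by
        rw [div_mul_eq_mul_div, le_div_iff₀ hc]; linarith
      have h4 : ‖z‖ = (‖z‖ ^ ν) ^ ((ν : ℝ)⁻¹) := by
        rw [← Real.rpow_natCast, ← Real.rpow_mul (norm_nonneg _), mul_inv_cancel₀ hν0.ne',
          Real.rpow_one]
      rw [h4]
      calc (‖z‖ ^ ν) ^ ((ν : ℝ)⁻¹) ≤ (K / c * ‖x'‖) ^ ((ν : ℝ)⁻¹) := by gcongr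
        _ = (K / c) ^ ((ν : ℝ)⁻¹) * ‖x'‖ ^ ((ν : ℝ)⁻¹) := by
            rw [Real.mul_rpow (by positivity) (norm_nonneg _)]
        _ ≤ _ := by gcongr; exact le_max_right _ _
    · have h5 : ‖x'‖ ≤ ‖x'‖ ^ ((ν : ℝ)⁻¹) := by
        rcases (norm_nonneg x').eq_or_lt with h | h
        · rw [← h, Real.zero_rpow (by positivity)]
        · conv_lhs => rw [← Real.rpow_one ‖x'‖]
          apply Real.rpow_le_rpow_of_exponent_ge h hx1
          exact inv_le_one_of_one_le₀ (by exact_mod_cast hν)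
      calc ‖x'‖ ≤ 1 * ‖x'‖ ^ ((ν : ℝ)⁻¹) := by rw [one_mul]; exact h5
        _ ≤ _ := by gcongr; exact le_max_left _ _
  · filter_upwards [hsm] with x' hx'
    have hsph : ∀ z : ℂ, ‖z‖ = ρ → c * ρ ^ ν / 2 < ‖f (Fin.cons z x')‖ := by
      intro z hz
      have h1 := hLz z x' hz.le hx'.1
      have h2 := hball' z (by simpa [hz] using hρε')
      rw [hz] at h2
      have h3 : ‖f (Fin.cons z 0)‖ ≤ ‖f (Fin.cons z x') - f (Fin.cons z 0)‖ + ‖f (Fin.cons z x')‖ := by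
        have := norm_sub_norm_le (f (Fin.cons z 0)) (f (Fin.cons z x'))
        rw [norm_sub_rev] at this
        linarith
      have h4 := hx'.2
      have h5 : 0 < c * ρ ^ ν := by positivity
      linarith
    have hpos : 0 < c * ρ ^ ν / 2 := by positivity
    refine ⟨?_, ?_, fun z hz => hA z x' hz hx'.1⟩
    · by_contra hcon
      push Not at hcon
      have hnz : ∀ z ∈ closedBall (0 : ℂ) ρ, f (Fin.cons z x') ≠ 0 := by
        intro z hz
        rw [mem_closedBall_zero_iff] at hz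
        rcases hz.eq_or_lt with h | h
        · exact fun h0 => absurd (hsph z h) (by rw [h0, norm_zero]; exact not_lt.2 hpos.le)
        · exact hcon z h
      have hci : ∀ z : ℂ, AnalyticAt ℂ (fun z : ℂ => (Fin.cons z x' : E3)) z := by
        intro z
        rw [analyticAt_pi_iff]
        intro i
        refine Fin.cases ?_ (fun j => ?_) i
        · simp only [Fin.cons_zero]; exact analyticAt_id
        · simp only [Fin.cons_succ]; exact analyticAt_const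
      have hg : DiffContOnCl ℂ (fun z : ℂ => (f (Fin.cons z x'))⁻¹) (ball (0 : ℂ) ρ) := by
        apply DifferentiableOn.diffContOnCl
        rw [closure_ball _ hρ0.ne']
        intro z hz
        have h1 : AnalyticAt ℂ (fun z : ℂ => f (Fin.cons z x')) z :=
          AnalyticAt.fun_comp (hA z x' (by simpa using hz) hx'.1) (hci z)
        exact (h1.inv (hnz z hz)).differentiableAt.differentiableWithinAt
      have hbd := Complex.norm_le_of_forall_mem_frontier_norm_le isBounded_ball hg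
        (C := (c * ρ ^ ν / 2)⁻¹) (by
          intro z hz
          rw [frontier_ball _ hρ0.ne', mem_sphere_zero_iff_norm] at hz
          rw [norm_inv]
          exact inv_anti₀ hpos (hsph z hz).le) (subset_closure (mem_ball_self hρ0))
      rw [norm_inv] at hbd
      have h0' := hnz 0 (mem_closedBall_self hρ0.le)
      have h6 : c * ρ ^ ν / 2 ≤ ‖f (Fin.cons 0 x')‖ := by
        have h7 : 0 < ‖f (Fin.cons 0 x')‖ := norm_pos_iff.2 h0'
        exact (inv_le_inv₀ h7 hpos).1 hbd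
      have h8 := hLz 0 x' (by simpa using hρ0.le) hx'.1
      rw [cons_zero, h0, sub_zero] at h8
      linarith [hx'.2]
    · intro z hz h
      have := hsph z hz
      rw [h, norm_zero] at this
      linarith

/-- the affine map `(a, b) ↦ (z + a, x' + b e_j)` -/
def aff (z : ℂ) (x' : Fin 2 → ℂ) (j : Fin 2) (p : ℂ × ℂ) : E3 :=
  (Fin.cons z x' : E3) + p.1 • (Pi.single 0 1 : E3) + p.2 • (Pi.single j.succ 1 : E3)

theorem aff_eq (z : ℂ) (x' : Fin 2 → ℂ) (j : Fin 2) (p : ℂ × ℂ) :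
    aff z x' j p = Fin.cons (z + p.1) (x' + p.2 • (Pi.single j 1 : Fin 2 → ℂ)) := by
  ext i
  refine Fin.cases ?_ (fun k => ?_) i
  · simp [aff]
  · have h1 : (Pi.single j.succ (1 : ℂ) : E3) k.succ = (Pi.single j (1 : ℂ) : Fin 2 → ℂ) k := by
      simp [Pi.single_apply, Fin.succ_inj]
    simp [aff, h1]

theorem hasFDerivAt_aff (z : ℂ) (x' : Fin 2 → ℂ) (j : Fin 2) (p : ℂ × ℂ) :
    HasFDerivAt (aff z x' j)
      ((ContinuousLinearMap.fst ℂ ℂ ℂ).smulRight (Pi.single 0 1 : E3) +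
        (ContinuousLinearMap.snd ℂ ℂ ℂ).smulRight (Pi.single j.succ 1 : E3)) p := by
  have h1 : HasFDerivAt (fun p : ℂ × ℂ => p.1 • (Pi.single 0 1 : E3))
      ((ContinuousLinearMap.fst ℂ ℂ ℂ).smulRight (Pi.single 0 1 : E3)) p :=
    hasFDerivAt_fst.smul_const _
  have h2 : HasFDerivAt (fun p : ℂ × ℂ => p.2 • (Pi.single j.succ 1 : E3))
      ((ContinuousLinearMap.snd ℂ ℂ ℂ).smulRight (Pi.single j.succ 1 : E3)) p :=
    hasFDerivAt_snd.smul_const _
  have := (h1.const_add (Fin.cons z x' : E3)).add h2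
  exact this

theorem sheet_dense {f : E3 → ℂ} (hf : Iso f) :
    ∃ (ν : ℕ) (C : ℝ), 1 ≤ ν ∧ 0 ≤ C ∧
      ∀ δ > 0, ∀ᶠ x' in 𝓝 (0 : Fin 2 → ℂ), ∃ᶠ x'' in 𝓝 x', ∃ z : ℂ,
        ‖(Fin.cons z x'' : E3)‖ < δ ∧ f (Fin.cons z x'') = 0 ∧
        coordDeriv f 0 (Fin.cons z x'') ≠ 0 ∧
        ‖(Fin.cons z x'' : E3)‖ ≤ C * ‖x''‖ ^ ((ν : ℝ)⁻¹) := by
  obtain ⟨ν, C, ρ, hν, hC, hρ, h1, h2⟩ := sheet_exists hf.an hf.zero hf.reg
  refine ⟨ν, C, hν, hC, fun δ hδ => ?_⟩
  obtain ⟨ε₁, hε₁, hiso⟩ := Metric.eventually_nhds_iff_ball.1 (isolated hf.an hf.fin)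
  have hν0 : (0 : ℝ) < (ν : ℝ)⁻¹ := by
    have : (0 : ℝ) < ν := by exact_mod_cast hν
    positivity
  have h3 : ∀ᶠ x' in 𝓝 (0 : Fin 2 → ℂ), C * ‖x'‖ ^ ((ν : ℝ)⁻¹) < min ε₁ δ := by
    have hc : Continuous (fun x' : Fin 2 → ℂ => C * ‖x'‖ ^ ((ν : ℝ)⁻¹)) :=
      continuous_const.mul (continuous_norm.rpow_const fun _ => Or.inr hν0.le)
    have := hc.tendsto 0
    rw [norm_zero, Real.zero_rpow hν0.ne', mul_zero] at this
    exact this.eventually (gt_mem_nhds (lt_min hε₁ hδ))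
  obtain ⟨W, hW, hWo, hW0⟩ := _root_.eventually_nhds_iff.1 (h1.and (h2.and h3))
  filter_upwards [hWo.mem_nhds hW0] with x' hx'
  by_contra hcon
  rw [not_frequently] at hcon
  obtain ⟨N, hN, hNo, hN0⟩ := _root_.eventually_nhds_iff.1 (hcon.and (hWo.mem_nhds hx'))
  obtain ⟨y, hyN, hy0⟩ : (N ∩ {(0 : Fin 2 → ℂ)}ᶜ).Nonempty := by
    have := (dense_compl_singleton (0 : Fin 2 → ℂ)).inter_open_nonempty N hNo ⟨x', hN0⟩
    exact this
  have hy0' : y ≠ 0 := hy0
  have hNW : ∀ y ∈ N, y ∈ W := fun y hy => (hN y hy).2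
  obtain ⟨hW1, ⟨⟨z, hz, hfz⟩, hsph, hAn⟩, hW3⟩ := hW y (hNW y hyN)
  -- a non simple zero
  have key : ∀ w ∈ N, ∀ z : ℂ, ‖z‖ < ρ → f (Fin.cons z w) = 0 →
      coordDeriv f 0 (Fin.cons z w) = 0 ∧ (Fin.cons z w : E3) ∈ ball (0 : E3) ε₁ := by
    intro w hw z hz hfz
    obtain ⟨hW1, -, hW3⟩ := hW w (hNW w hw)
    have hle := hW1 z hz.le hfz
    have hlt := hle.trans_lt hW3
    refine ⟨?_, by rw [mem_ball_zero_iff]; exact hlt.trans_le (min_le_left _ _)⟩
    by_contra hne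
    exact (hN w hw).1 ⟨z, hlt.trans_le (min_le_right _ _), hfz, hne, hle⟩
  obtain ⟨hd0, hball⟩ := key y hyN z hz hfz
  have hxne : (Fin.cons z y : E3) ≠ 0 := by
    intro h
    apply hy0'
    ext j
    have := congrFun h j.succ
    simpa using this
  have hgr : ∃ i, coordDeriv f i (Fin.cons z y) ≠ 0 := by
    by_contra h
    push Not at h
    exact hxne (hiso _ hball h)
  obtain ⟨i, hi⟩ := hgr
  obtain ⟨j, rfl⟩ : ∃ j : Fin 2, i = j.succ := by
    refine Fin.cases (fun h => absurd hd0 h) (fun j _ => ⟨j, rfl⟩) i hi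
  have hAz : AnalyticAt ℂ f (Fin.cons z y) := hAn z hz.le
  have haff0 : aff z y j 0 = Fin.cons z y := by rw [aff_eq]; simp
  have hcaff : Continuous (aff z y j) := by
    unfold aff; fun_prop
  set F : ℂ × ℂ → ℂ := fun p => f (aff z y j p) with hF
  have hFan : AnalyticAt ℂ F 0 := by
    have h4 : AnalyticAt ℂ (aff z y j) 0 :=
      (analyticAt_const.add (analyticAt_fst.smul analyticAt_const)).add
        (analyticAt_snd.smul analyticAt_const)
    exact AnalyticAt.fun_comp (by rw [haff0]; exact hAz) h4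
  have hFd : ∀ᶠ p in 𝓝 (0 : ℂ × ℂ), fderiv ℂ F p (1, 0) = coordDeriv f 0 (aff z y j p) ∧
      fderiv ℂ F p (0, 1) = coordDeriv f j.succ (aff z y j p) := by
    have h5 : ∀ᶠ p in 𝓝 (0 : ℂ × ℂ), AnalyticAt ℂ f (aff z y j p) := by
      have := hcaff.tendsto 0
      rw [haff0] at this
      exact this.eventually hAz.eventually_analyticAt
    filter_upwards [h5] with p hp
    have h6 : HasFDerivAt F _ p := (hp.differentiableAt.hasFDerivAt).comp p (hasFDerivAt_aff z y j p)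
    rw [h6.fderiv]
    constructor
    · simp [coordDeriv]
    · simp [coordDeriv]
  have hslice := slice_const hFan (by rw [hF]; simp only [haff0]; exact hfz)
    (by rw [hFd.self_of_nhds.2, haff0]; exact hi) (by
      have h7 : ∀ᶠ p in 𝓝 (0 : ℂ × ℂ), y + p.2 • (Pi.single j 1 : Fin 2 → ℂ) ∈ N ∧ ‖z + p.1‖ < ρ := by
        have hc1 : Continuous (fun p : ℂ × ℂ => y + p.2 • (Pi.single j 1 : Fin 2 → ℂ)) := by
          fun_prop
        have hc2 : Continuous (fun p : ℂ × ℂ => ‖z + p.1‖) := by fun_prop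
        have t1 := hc1.tendsto 0
        have t2 := hc2.tendsto 0
        simp only [Prod.snd_zero, zero_smul, add_zero, Prod.fst_zero] at t1 t2
        exact (t1.eventually (hNo.mem_nhds hyN)).and (t2.eventually (gt_mem_nhds hz))
      filter_upwards [h7, hFd] with p hp hd h0
      rw [hd.1]
      have h8 : f (aff z y j p) = 0 := h0
      rw [aff_eq] at h8 ⊢
      exact (key _ hp.1 _ hp.2 h8).1)
  -- identity theorem on the line
  have hci : ∀ z : ℂ, AnalyticAt ℂ (fun z : ℂ => (Fin.cons z y : E3)) z := by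
    intro z
    rw [analyticAt_pi_iff]
    intro i
    refine Fin.cases ?_ (fun j => ?_) i
    · simp only [Fin.cons_zero]; exact analyticAt_id
    · simp only [Fin.cons_succ]; exact analyticAt_const
  have hgan : AnalyticOnNhd ℂ (fun z : ℂ => f (Fin.cons z y)) (closedBall (0 : ℂ) ρ) := by
    intro w hw
    exact AnalyticAt.fun_comp (hAn w (by simpa using hw)) (hci w)
  have hev : (fun z : ℂ => f (Fin.cons z y)) =ᶠ[𝓝 z] 0 := by
    have ht : Tendsto (fun w : ℂ => w - z) (𝓝 z) (𝓝 0) := by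
      have : Continuous (fun w : ℂ => w - z) := by fun_prop
      simpa using this.tendsto z
    filter_upwards [ht.eventually hslice] with w hw
    have h9 : f (aff z y j (w - z, 0)) = 0 := hw
    rw [aff_eq] at h9
    simpa using h9
  have hall := hgan.eqOn_zero_of_preconnected_of_eventuallyEq_zero
    (convex_closedBall (0 : ℂ) ρ).isPreconnected (by simpa using hz.le) hev
  have hρmem : (ρ : ℂ) ∈ closedBall (0 : ℂ) ρ := by
    simp [abs_of_pos hρ]
  exact hsph (ρ : ℂ) (by simp [abs_of_pos hρ]) (hall hρmem)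

end Crest.Agent.R257.LcV_980
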