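import Crest.Agent.R257.LcA_980
import Crest.Agent.R257.LcV_980

/-!
Row 257 (S0395), leaf LC-POS (helper980): lower bound for `col (f, g, h)` from the growth of `g`, `h`
on `V = {f = 0}`.
-/

set_option autoImplicit false

open Topology Filter Set Metric
open Crest.AlgGeometry Crest.AlgGeometry.Germ Crest.Agent.R257.Defs_219

noncomputable section

namespace Crest.Agent.R257.LcL_980

open Crest.Agent.R257.LcV_980 Crest.Agent.R257.LcA_980

theorem poly1 {p : Polynomial ℂ} {N : ℕ} {K : ℝ} (hdeg : p.natDegree < N)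
    (h : ∀ᶠ τ in 𝓝 (0 : ℂ), ‖p.eval τ‖ ≤ K * ‖τ‖ ^ N) : p = 0 := by
  by_contra hp
  set k := p.rootMultiplicity 0 with hk
  obtain ⟨q, hq, hq0⟩ := Polynomial.exists_eq_pow_rootMultiplicity_mul_and_not_dvd p hp 0
  rw [← hk, Polynomial.C_0, sub_zero] at hq
  have hq0' : q.eval 0 ≠ 0 := by
    intro h0
    exact hq0 (Polynomial.dvd_iff_isRoot.2 h0)
  have hkN : k < N := by
    have hq1 : q ≠ 0 := by rintro rfl; simp at hq0'
    have : p.natDegree = k + q.natDegree := by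
      conv_lhs => rw [hq]
      rw [Polynomial.natDegree_mul (pow_ne_zero _ Polynomial.X_ne_zero) hq1,
        Polynomial.natDegree_X_pow]
    omega
  have h1 : ∀ᶠ τ in 𝓝[≠] (0 : ℂ), ‖q.eval τ‖ ≤ K * ‖τ‖ ^ (N - k) := by
    filter_upwards [h.filter_mono nhdsWithin_le_nhds, self_mem_nhdsWithin] with τ hτ hτ0
    have hτ1 : 0 < ‖τ‖ := norm_pos_iff.2 hτ0
    rw [hq, Polynomial.eval_mul, Polynomial.eval_pow, Polynomial.eval_X, norm_mul, norm_pow] at hτ
    have h2 : ‖τ‖ ^ N = ‖τ‖ ^ k * ‖τ‖ ^ (N - k) := by rw [← pow_add, Nat.add_sub_cancel' hkN.le]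
    rw [h2] at hτ
    have h3 : 0 < ‖τ‖ ^ k := by positivity
    nlinarith
  have h2 : Tendsto (fun τ : ℂ => ‖q.eval τ‖) (𝓝[≠] 0) (𝓝 ‖q.eval 0‖) :=
    ((q.continuous.norm).tendsto 0).mono_left nhdsWithin_le_nhds
  have h3 : Tendsto (fun τ : ℂ => K * ‖τ‖ ^ (N - k)) (𝓝[≠] 0) (𝓝 0) := by
    have hc : Continuous (fun τ : ℂ => K * ‖τ‖ ^ (N - k)) := by fun_prop
    have := (hc.tendsto 0).mono_left (nhdsWithin_le_nhds (s := {0}ᶜ))
    rwa [norm_zero, zero_pow (by omega), mul_zero] at this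
  have h4 := le_of_tendsto_of_tendsto h2 h3 h1
  exact hq0' (norm_le_zero_iff.1 h4)

theorem coef_zero {D : ℕ} {a : Fin D → ℂ} (h : ∀ z : ℂ, ∑ i, a i * z ^ (i : ℕ) = 0) : a = 0 := by
  have hp : (∑ i : Fin D, Polynomial.C (a i) * Polynomial.X ^ (i : ℕ)) = 0 := by
    apply Polynomial.funext
    intro z
    rw [Polynomial.eval_finsetSum]
    simpa using h z
  ext j
  have := congrArg (fun p : Polynomial ℂ => p.coeff (j : ℕ)) hp
  simp only [Polynomial.finsetSum_coeff, Polynomial.coeff_C_mul, Polynomial.coeff_X_pow,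
    Polynomial.coeff_zero] at this
  rw [Finset.sum_eq_single j] at this
  · simpa using this
  · intro i _ hij
    have : (j : ℕ) ≠ i := fun h => hij (Fin.ext h.symm)
    simp [this]
  · intro h; exact absurd (Finset.mem_univ _) h

/-- a small polynomial in two variables vanishes -/
theorem poly2 {D : ℕ} {c : Fin D × Fin D → ℂ} {K : ℝ}
    (h : ∀ᶠ y in 𝓝 (0 : Fin 2 → ℂ), ‖∑ p, c p * (y 0 ^ (p.1 : ℕ) * y 1 ^ (p.2 : ℕ))‖ ≤
      K * ‖y‖ ^ (2 * D)) : c = 0 := by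
  rcases Nat.eq_zero_or_pos D with hD | hD
  · subst hD
    ext p
    exact p.1.elim0
  -- vanishing of the function
  have hz : ∀ y : Fin 2 → ℂ, ∑ p, c p * (y 0 ^ (p.1 : ℕ) * y 1 ^ (p.2 : ℕ)) = 0 := by
    intro y
    set P : Polynomial ℂ := ∑ p : Fin D × Fin D,
      Polynomial.C (c p * (y 0 ^ (p.1 : ℕ) * y 1 ^ (p.2 : ℕ))) *
        Polynomial.X ^ ((p.1 : ℕ) + (p.2 : ℕ)) with hP
    have hPe : ∀ τ, P.eval τ = ∑ p, c p * ((τ • y) 0 ^ (p.1 : ℕ) * (τ • y) 1 ^ (p.2 : ℕ)) := by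
      intro τ
      rw [hP, Polynomial.eval_finsetSum]
      refine Finset.sum_congr rfl fun p _ => ?_
      simp only [Polynomial.eval_mul, Polynomial.eval_C, Polynomial.eval_pow, Polynomial.eval_X,
        Pi.smul_apply, smul_eq_mul, mul_pow, pow_add]
      ring
    have hdeg : P.natDegree < 2 * D := by
      rw [hP]
      refine lt_of_le_of_lt (Polynomial.natDegree_sum_le_of_forall_le (n := 2 * D - 1) _ _ ?_)
        (by omega)
      intro p _
      refine (Polynomial.natDegree_C_mul_X_pow_le _ _).trans ?_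
      have h1 := p.1.2
      have h2 := p.2.2
      omega
    have hev : ∀ᶠ τ in 𝓝 (0 : ℂ), ‖P.eval τ‖ ≤ (K * ‖y‖ ^ (2 * D)) * ‖τ‖ ^ (2 * D) := by
      have ht : Tendsto (fun τ : ℂ => τ • y) (𝓝 0) (𝓝 0) := by
        have : Continuous (fun τ : ℂ => τ • y) := by fun_prop
        simpa using this.tendsto 0
      filter_upwards [ht.eventually h] with τ hτ
      rw [hPe]
      refine hτ.trans (le_of_eq ?_)
      rw [norm_smul, mul_pow]; ring
    have hP0 := poly1 hdeg hev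
    have := hPe 1
    rw [hP0, Polynomial.eval_zero, one_smul] at this
    exact this.symm
  have h1 : ∀ w : ℂ, (fun i : Fin D => ∑ j : Fin D, c (i, j) * w ^ (j : ℕ)) = 0 := by
    intro w
    apply coef_zero
    intro z
    have := hz ![z, w]
    rw [Fintype.sum_prod_type] at this
    simp only [Matrix.cons_val_zero, Matrix.cons_val_one] at this
    rw [← this]
    refine Finset.sum_congr rfl fun i _ => ?_
    rw [Finset.sum_mul]
    refine Finset.sum_congr rfl fun j _ => ?_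
    ring
  ext ⟨i, j⟩
  have h2 : (fun j : Fin D => c (i, j)) = 0 := by
    apply coef_zero
    intro w
    exact congrFun (h1 w) i
  exact congrFun h2 j

/-- growth of `g` on the (simple part of the) surface -/
def Grow (f g : E3 → ℂ) (M : ℝ) : Prop :=
  ∃ K : ℝ, 0 ≤ K ∧ ∀ᶠ x in 𝓝 (0 : E3), x ≠ 0 → f x = 0 → coordDeriv f 0 x ≠ 0 →
    ‖g x‖ ≤ K * ‖x‖ ^ M

theorem Grow.pow {f g : E3 → ℂ} {M : ℝ} (h : Grow f g M) (k : ℕ) : Grow f (g ^ k) (k * M) := by
  obtain ⟨K, hK, h⟩ := h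
  refine ⟨K ^ k, by positivity, ?_⟩
  filter_upwards [h] with x hx h0 h1 h2
  rw [Pi.pow_apply, norm_pow]
  calc ‖g x‖ ^ k ≤ (K * ‖x‖ ^ M) ^ k := by gcongr; exact hx h0 h1 h2
    _ = K ^ k * ‖x‖ ^ (k * M) := by
      rw [mul_pow, ← Real.rpow_natCast (‖x‖ ^ M), ← Real.rpow_mul (norm_nonneg _), mul_comm M]

theorem Grow.mono {f g : E3 → ℂ} {M M' : ℝ} (h : Grow f g M) (hM : M' ≤ M) : Grow f g M' := by
  obtain ⟨K, hK, h⟩ := h
  refine ⟨K, hK, ?_⟩
  filter_upwards [h, ball_mem_nhds (0 : E3) one_pos] with x hx hx1 h0 h1 h2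
  exact (hx h0 h1 h2).trans (mul_le_mul_of_nonneg_left
    (Real.rpow_le_rpow_of_exponent_ge (norm_pos_iff.2 h0) (mem_ball_zero_iff.1 hx1).le hM) hK)

theorem indep {f g h : E3 → ℂ} (hf : Iso f) {ν : ℕ} {C : ℝ} (hν : 1 ≤ ν) (hC : 0 ≤ C)
    (hsh : ∀ δ > 0, ∀ᶠ x' in 𝓝 (0 : Fin 2 → ℂ), ∃ᶠ x'' in 𝓝 x', ∃ z : ℂ,
        ‖(Fin.cons z x'' : E3)‖ < δ ∧ f (Fin.cons z x'') = 0 ∧
        coordDeriv f 0 (Fin.cons z x'') ≠ 0 ∧
        ‖(Fin.cons z x'' : E3)‖ ≤ C * ‖x''‖ ^ ((ν : ℝ)⁻¹))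
    {M : ℝ} (hM : 0 ≤ M) (hg : Grow f g M) (hh : Grow f h M) (hfin : ColFin ![f, g, h]) {D : ℕ}
    (hD : (2 * D : ℝ) ≤ M / ν) : D ^ 2 ≤ col ![f, g, h] := by
  have hν0 : (0 : ℝ) < ν := by exact_mod_cast hν
  -- the monomials
  set mon : Fin D × Fin D → analyticAtOrigin 3 := fun p =>
    ⟨fun x => x 1 ^ (p.1 : ℕ) * x 2 ^ (p.2 : ℕ), by
      have h1 : AnalyticAt ℂ (fun x : Fin 3 → ℂ => x 1) 0 :=
        (ContinuousLinearMap.proj (R := ℂ) (φ := fun _ : Fin 3 => ℂ) 1).analyticAt 0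
      have h2 : AnalyticAt ℂ (fun x : Fin 3 → ℂ => x 2) 0 :=
        (ContinuousLinearMap.proj (R := ℂ) (φ := fun _ : Fin 3 => ℂ) 2).analyticAt 0
      exact (h1.pow _).mul (h2.pow _)⟩ with hmon
  have hli : LinearIndependent ℂ (fun p => (gens ![f, g, h]).mkQ (mon p)) := by
    rw [Fintype.linearIndependent_iff]
    intro c hc
    have hc' : (gens ![f, g, h]).mkQ (∑ p, c p • mon p) = 0 := by
      rw [map_sum]
      simpa only [map_smul] using hc
    rw [Submodule.mkQ_apply, Submodule.Quotient.mk_eq_zero] at hc'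
    obtain ⟨a, b, b', ha, hb, hb', hu⟩ := mem_gens3.1 hc'
    have hu' : ∀ᶠ x in 𝓝 (0 : E3), ∑ p, c p * (x 1 ^ (p.1 : ℕ) * x 2 ^ (p.2 : ℕ)) =
        a x * f x + b x * g x + b' x * h x := by
      filter_upwards [hu] with x hx
      rw [← hx, Submodule.coe_sum, Finset.sum_apply]
      rfl
    obtain ⟨Kg, hKg, hg⟩ := hg
    obtain ⟨Kh, hKh, hh⟩ := hh
    set K : ℝ := (‖b 0‖ + 1) * Kg + (‖b' 0‖ + 1) * Kh with hK
    have hK0 : 0 ≤ K := by positivity
    have hall : ∀ᶠ x in 𝓝 (0 : E3), f x = 0 → coordDeriv f 0 x ≠ 0 →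
        ‖∑ p, c p * (x 1 ^ (p.1 : ℕ) * x 2 ^ (p.2 : ℕ))‖ ≤ K * ‖x‖ ^ M := by
      have hb1 : ∀ᶠ x in 𝓝 (0 : E3), ‖b x‖ < ‖b 0‖ + 1 :=
        hb.continuousAt.norm.eventually_lt_const (by linarith)
      have hb2 : ∀ᶠ x in 𝓝 (0 : E3), ‖b' x‖ < ‖b' 0‖ + 1 :=
        hb'.continuousAt.norm.eventually_lt_const (by linarith)
      filter_upwards [hu', hg, hh, hb1, hb2] with x hx hgx hhx hbx hbx' h1 h2
      have hx0 : x ≠ 0 := by
        rintro rfl
        exact h2 (hf.crit 0)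
      rw [hx, h1, mul_zero, zero_add]
      have e1 := hgx hx0 h1 h2
      have e2 := hhx hx0 h1 h2
      calc ‖b x * g x + b' x * h x‖ ≤ ‖b x‖ * ‖g x‖ + ‖b' x‖ * ‖h x‖ := by
            rw [← norm_mul, ← norm_mul]; exact norm_add_le _ _
        _ ≤ (‖b 0‖ + 1) * (Kg * ‖x‖ ^ M) + (‖b' 0‖ + 1) * (Kh * ‖x‖ ^ M) := by gcongr
        _ = K * ‖x‖ ^ M := by rw [hK]; ring
    obtain ⟨δ, hδ, hball⟩ := Metric.eventually_nhds_iff_ball.1 hall
    -- on the base
    have hbase : ∀ᶠ y in 𝓝 (0 : Fin 2 → ℂ),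
        ‖∑ p, c p * (y 0 ^ (p.1 : ℕ) * y 1 ^ (p.2 : ℕ))‖ ≤ (K * C ^ M) * ‖y‖ ^ (2 * D) := by
      filter_upwards [hsh δ hδ, ball_mem_nhds (0 : Fin 2 → ℂ) one_pos] with y hy hy1
      have hcl : IsClosed {y : Fin 2 → ℂ | ‖∑ p, c p * (y 0 ^ (p.1 : ℕ) * y 1 ^ (p.2 : ℕ))‖ ≤
          (K * C ^ M) * ‖y‖ ^ (2 * D)} := by
        apply isClosed_le
        · refine Continuous.norm ?_
          refine continuous_finsetSum _ fun p _ => ?_
          fun_prop
        · fun_prop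
      refine hcl.mem_of_frequently_of_tendsto ?_ tendsto_id
      have hy1' : ∀ᶠ y'' in 𝓝 y, ‖y''‖ ≤ 1 := by
        filter_upwards [isOpen_ball.mem_nhds hy1] with y'' h3
        exact (mem_ball_zero_iff.1 h3).le
      refine (hy.and_eventually hy1').mono ?_
      rintro y'' ⟨⟨z, hz1, hz2, hz3, hz4⟩, hy''⟩
      have h3 := hball _ (by simpa using hz1) hz2 hz3
      have e1 : (Fin.cons z y'' : E3) 1 = y'' 0 := rfl
      have e2 : (Fin.cons z y'' : E3) 2 = y'' 1 := rfl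
      rw [e1, e2] at h3
      show ‖∑ p, c p * (y'' 0 ^ (p.1 : ℕ) * y'' 1 ^ (p.2 : ℕ))‖ ≤ _
      refine h3.trans ?_
      calc K * ‖(Fin.cons z y'' : E3)‖ ^ M ≤ K * (C * ‖y''‖ ^ ((ν : ℝ)⁻¹)) ^ M := by gcongr
        _ = (K * C ^ M) * ‖y''‖ ^ (M / ν) := by
            rw [Real.mul_rpow hC (by positivity), ← Real.rpow_mul (norm_nonneg _), mul_assoc,
              div_eq_inv_mul]
        _ ≤ (K * C ^ M) * ‖y''‖ ^ (2 * D) := by
            gcongr
            rcases (norm_nonneg y'').eq_or_lt with h0 | h0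
            · rw [← h0]
              rcases Nat.eq_zero_or_pos D with hD0 | hD0
              · rw [hD0]; simp only [mul_zero, pow_zero]
                exact Real.zero_rpow_le_one _
              · have : (0 : ℝ) < M / ν := by
                  have : (0 : ℝ) < 2 * D := by positivity
                  linarith
                rw [Real.zero_rpow this.ne']
                positivity
            · rw [← Real.rpow_natCast]
              apply Real.rpow_le_rpow_of_exponent_ge h0 hy''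
              push_cast
              exact hD
    have := poly2 hbase
    intro p
    exact congrFun this p
  have hmf : Module.Finite ℂ (analyticAtOrigin 3 ⧸ gens ![f, g, h]) := hfin
  have := hli.fintype_card_le_finrank
  rw [Fintype.card_prod, Fintype.card_fin, ← sq] at this
  exact this

/-- **lower bound for the colength from the growth on the surface** -/
theorem col_lower {f : E3 → ℂ} (hf : Iso f) : ∃ κ : ℝ, 0 < κ ∧
    ∀ (g h : E3 → ℂ) (α β : ℝ), AnalyticAt ℂ g 0 → AnalyticAt ℂ h 0 → 0 < α → 0 < β →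
      Grow f g α → Grow f h β → ColFin ![f, g, h] → κ * (α * β) ≤ (col ![f, g, h] : ℝ) := by
  obtain ⟨ν, C, hν, hC, hsh⟩ := sheet_dense hf
  have hν0 : (0 : ℝ) < ν := by exact_mod_cast hν
  refine ⟨(1 / (2 * ν)) ^ 2, by positivity, ?_⟩
  intro g h α β hg hh hα hβ hgα hhβ hfin
  -- the inequality at height `T`
  have key : ∀ T : ℝ, 2 * ν ≤ T →
      (1 / (2 * ν) - 1 / T) ^ 2 ≤ (1 / α + 1 / T) * (1 / β + 1 / T) * (col ![f, g, h] : ℝ) := by
    intro T hT
    have hT0 : 0 < T := by linarith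
    set k : ℕ := ⌈T / α⌉₊ with hk
    set l : ℕ := ⌈T / β⌉₊ with hl
    set D : ℕ := ⌊T / (2 * ν)⌋₊ with hD
    have hk1 : 1 ≤ k := Nat.one_le_iff_ne_zero.2 (by rw [hk]; exact (Nat.ceil_pos.2 (by positivity)).ne')
    have hl1 : 1 ≤ l := Nat.one_le_iff_ne_zero.2 (by rw [hl]; exact (Nat.ceil_pos.2 (by positivity)).ne')
    obtain ⟨h1, h2⟩ := pow_both hg hh hfin hk1 hl1
    have hkα : T ≤ k * α := by
      have := Nat.le_ceil (T / α)
      rw [div_le_iff₀ hα] at this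
      exact this
    have hlβ : T ≤ l * β := by
      have := Nat.le_ceil (T / β)
      rw [div_le_iff₀ hβ] at this
      exact this
    have hDT : (2 * D : ℝ) ≤ T / ν := by
      have := Nat.floor_le (a := T / (2 * ν)) (by positivity)
      rw [← hD] at this
      calc (2 * D : ℝ) ≤ 2 * (T / (2 * ν)) := by linarith
        _ = T / ν := by field_simp
    have h3 := indep hf hν hC hsh hT0.le ((hgα.pow k).mono hkα) ((hhβ.pow l).mono hlβ) h1 hDT
    have h4 : (D : ℝ) ^ 2 ≤ (k : ℝ) * l * (col ![f, g, h] : ℝ) := by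
      exact_mod_cast h3.trans h2
    have h5 : (k : ℝ) ≤ T / α + 1 := (Nat.ceil_lt_add_one (by positivity)).le
    have h6 : (l : ℝ) ≤ T / β + 1 := (Nat.ceil_lt_add_one (by positivity)).le
    have h7 : T / (2 * ν) - 1 ≤ (D : ℝ) := (Nat.sub_one_lt_floor _).le
    have h8 : 0 ≤ T / (2 * ν) - 1 := by
      rw [sub_nonneg, le_div_iff₀ (by positivity), one_mul]; exact hT
    have h9 : (T / (2 * ν) - 1) ^ 2 ≤ (T / α + 1) * (T / β + 1) * (col ![f, g, h] : ℝ) := by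
      calc (T / (2 * ν) - 1) ^ 2 ≤ (D : ℝ) ^ 2 := by gcongr
        _ ≤ (k : ℝ) * l * (col ![f, g, h] : ℝ) := h4
        _ ≤ _ := by gcongr
    have e1 : (1 / (2 * ν) - 1 / T) ^ 2 = (T / (2 * ν) - 1) ^ 2 / T ^ 2 := by
      field_simp
    have e2 : (1 / α + 1 / T) * (1 / β + 1 / T) * (col ![f, g, h] : ℝ) =
        (T / α + 1) * (T / β + 1) * (col ![f, g, h] : ℝ) / T ^ 2 := by
      field_simp
    rw [e1, e2]
    gcongr
  -- the limit
  have hinv : Tendsto (fun T : ℝ => 1 / T) atTop (𝓝 0) := by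
    simpa using tendsto_inv_atTop_zero (𝕜 := ℝ)
  have hl1 : Tendsto (fun T : ℝ => (1 / (2 * ν : ℝ) - 1 / T) ^ 2) atTop
      (𝓝 ((1 / (2 * ν : ℝ) - 0) ^ 2)) := (tendsto_const_nhds.sub hinv).pow 2
  have hl2 : Tendsto (fun T : ℝ => (1 / α + 1 / T) * (1 / β + 1 / T) * (col ![f, g, h] : ℝ)) atTop
      (𝓝 ((1 / α + 0) * (1 / β + 0) * (col ![f, g, h] : ℝ))) :=
    ((tendsto_const_nhds.add hinv).mul (tendsto_const_nhds.add hinv)).mul_const _
  have hle := le_of_tendsto_of_tendsto hl1 hl2 ((eventually_ge_atTop (2 * (ν : ℝ))).mono key)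
  rw [sub_zero, add_zero, add_zero] at hle
  calc (1 / (2 * ν : ℝ)) ^ 2 * (α * β) ≤ (1 / α * (1 / β) * (col ![f, g, h] : ℝ)) * (α * β) := by
        gcongr
    _ = (col ![f, g, h] : ℝ) := by field_simp

end Crest.Agent.R257.LcL_980
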