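import Crest.Agent.R257.LcxDefs_759
import Crest.Agent.R257.LCa_472

/-!
R257 / LcxA_759 (helper759): calculus of the Taylor coefficients `cf`.
-/

set_option autoImplicit false

open Topology Filter Set Asymptotics
open Crest.AlgGeometry.Germ

noncomputable section

namespace Crest.Agent.R257.LcxA_759

open Crest.Agent.R257.Defs_219 Crest.Agent.R257.LCDefs_472 Crest.Agent.R257.LcxDefs_759

variable {n : ℕ}

theorem an_cd {f : (Fin n → ℂ) → ℂ} {p : Fin n → ℂ} (hf : AnalyticAt ℂ f p) (i : Fin n) :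
    AnalyticAt ℂ (coordDeriv f i) p :=
  (ContinuousLinearMap.analyticAt
    (ContinuousLinearMap.apply ℂ ℂ (Pi.single i 1 : Fin n → ℂ)) _).comp hf.fderiv

theorem an_nd {f : (Fin n → ℂ) → ℂ} {p : Fin n → ℂ} (hf : AnalyticAt ℂ f p) (i : Fin n) (k : ℕ) :
    AnalyticAt ℂ (nd i k f) p := by
  induction k with
  | zero => exact hf
  | succ k ih =>
    have h0 : ((k : ℂ) + 1) ≠ 0 := by exact_mod_cast Nat.succ_ne_zero k
    have h1 : AnalyticAt ℂ (fun x => coordDeriv (nd i k f) i x / ((k : ℂ) + 1)) p :=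
      (an_cd ih i).fun_div analyticAt_const h0
    exact h1

theorem cd_congr {f g : (Fin n → ℂ) → ℂ} {p : Fin n → ℂ} (h : f =ᶠ[𝓝 p] g) (i : Fin n) :
    coordDeriv f i =ᶠ[𝓝 p] coordDeriv g i := by
  filter_upwards [Filter.EventuallyEq.fderiv (𝕜 := ℂ) h] with x hx
  unfold coordDeriv
  rw [hx]

theorem nd_congr {f g : (Fin n → ℂ) → ℂ} {p : Fin n → ℂ} (h : f =ᶠ[𝓝 p] g) (i : Fin n) (k : ℕ) :
    nd i k f =ᶠ[𝓝 p] nd i k g := by
  induction k with
  | zero => exact h
  | succ k ih =>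
    filter_upwards [cd_congr ih i] with x hx
    simp only [nd, hx]

theorem cd_mul {f g : (Fin n → ℂ) → ℂ} {p : Fin n → ℂ} (hf : AnalyticAt ℂ f p)
    (hg : AnalyticAt ℂ g p) (i : Fin n) :
    coordDeriv (fun x => f x * g x) i p = coordDeriv f i p * g p + f p * coordDeriv g i p := by
  unfold coordDeriv
  rw [fderiv_fun_mul hf.differentiableAt hg.differentiableAt]
  simp only [add_apply, smul_apply, smul_eq_mul]
  ring

theorem cd_add {f g : (Fin n → ℂ) → ℂ} {p : Fin n → ℂ} (hf : AnalyticAt ℂ f p)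
    (hg : AnalyticAt ℂ g p) (i : Fin n) :
    coordDeriv (fun x => f x + g x) i p = coordDeriv f i p + coordDeriv g i p := by
  unfold coordDeriv
  rw [fderiv_fun_add hf.differentiableAt hg.differentiableAt]
  rfl

theorem cd_const_mul {f : (Fin n → ℂ) → ℂ} {p : Fin n → ℂ} (hf : AnalyticAt ℂ f p) (c : ℂ)
    (i : Fin n) : coordDeriv (fun x => c * f x) i p = c * coordDeriv f i p := by
  unfold coordDeriv
  rw [fderiv_const_mul hf.differentiableAt]
  rfl

theorem cd_sum {ι : Type*} (s : Finset ι) {f : ι → (Fin n → ℂ) → ℂ} {p : Fin n → ℂ}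
    (hf : ∀ a ∈ s, AnalyticAt ℂ (f a) p) (i : Fin n) :
    coordDeriv (fun x => ∑ a ∈ s, f a x) i p = ∑ a ∈ s, coordDeriv (f a) i p := by
  unfold coordDeriv
  rw [fderiv_fun_sum fun a ha => (hf a ha).differentiableAt]
  simp only [sum_apply]

/-- evaluation form of `nd` at the next step -/
theorem nd_succ (f : (Fin n → ℂ) → ℂ) (i : Fin n) (k : ℕ) (x : Fin n → ℂ) :
    coordDeriv (nd i k f) i x = (k + 1) * nd i (k + 1) f x := by
  have h : ((k : ℂ) + 1) ≠ 0 := by exact_mod_cast Nat.succ_ne_zero k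
  simp only [nd]
  field_simp

/-- Leibniz rule -/
theorem nd_mul {f g : (Fin n → ℂ) → ℂ} {p : Fin n → ℂ} (hf : AnalyticAt ℂ f p)
    (hg : AnalyticAt ℂ g p) (i : Fin n) (k : ℕ) :
    nd i k (fun x => f x * g x) =ᶠ[𝓝 p]
      fun x => ∑ a ∈ Finset.HasAntidiagonal.antidiagonal k, nd i a.1 f x * nd i a.2 g x := by
  induction k with
  | zero =>
    refine Eventually.of_forall fun x => ?_
    simp [nd]
  | succ k ih =>
    have h := cd_congr ih i
    filter_upwards [h, hf.eventually_analyticAt, hg.eventually_analyticAt] with x hx h1 h2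
    have h3 : ((k : ℂ) + 1) ≠ 0 := by exact_mod_cast Nat.succ_ne_zero k
    have e1 : nd i (k + 1) (fun x => f x * g x) x =
        coordDeriv (nd i k fun x => f x * g x) i x / (k + 1) := rfl
    rw [e1, hx, div_eq_iff h3, cd_sum _ (fun a _ => (an_nd h1 i a.1).mul (an_nd h2 i a.2))]
    simp only [fun a : ℕ × ℕ => cd_mul (an_nd h1 i a.1) (an_nd h2 i a.2) i, nd_succ]
    rw [Finset.sum_add_distrib]
    have key : ∀ u v : ℕ → ℂ, (∑ a ∈ Finset.HasAntidiagonal.antidiagonal k, (a.1 + 1 : ℂ) * u (a.1 + 1) * v a.2) +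
        (∑ a ∈ Finset.HasAntidiagonal.antidiagonal k, u a.1 * ((a.2 + 1 : ℂ) * v (a.2 + 1))) =
        (∑ a ∈ Finset.HasAntidiagonal.antidiagonal (k + 1), u a.1 * v a.2) * (k + 1) := by
      intro u v
      have k1 : (∑ a ∈ Finset.HasAntidiagonal.antidiagonal (k + 1), u a.1 * v a.2) * (k + 1) =
          (∑ a ∈ Finset.HasAntidiagonal.antidiagonal (k + 1), (a.1 : ℂ) * u a.1 * v a.2) +
          ∑ a ∈ Finset.HasAntidiagonal.antidiagonal (k + 1), u a.1 * ((a.2 : ℂ) * v a.2) := by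
        rw [Finset.sum_mul, ← Finset.sum_add_distrib]
        refine Finset.sum_congr rfl fun a ha => ?_
        have : (a.1 : ℂ) + a.2 = k + 1 := by
          have := Finset.HasAntidiagonal.mem_antidiagonal.1 ha
          exact_mod_cast this
        rw [← this]; ring
      rw [k1]
      congr 1
      · rw [Finset.Nat.sum_antidiagonal_succ]
        simp
      · rw [Finset.Nat.sum_antidiagonal_succ']
        simp
    exact key (fun m => nd i m f x) (fun m => nd i m g x)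

theorem nd_add {f g : (Fin n → ℂ) → ℂ} {p : Fin n → ℂ} (hf : AnalyticAt ℂ f p)
    (hg : AnalyticAt ℂ g p) (i : Fin n) (k : ℕ) :
    nd i k (fun x => f x + g x) =ᶠ[𝓝 p] fun x => nd i k f x + nd i k g x := by
  induction k with
  | zero => exact Eventually.of_forall fun x => rfl
  | succ k ih =>
    filter_upwards [cd_congr ih i, hf.eventually_analyticAt, hg.eventually_analyticAt]
      with x hx h1 h2
    simp only [nd]
    rw [hx, cd_add (an_nd h1 i k) (an_nd h2 i k)]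
    ring

theorem nd_const_mul {f : (Fin n → ℂ) → ℂ} {p : Fin n → ℂ} (hf : AnalyticAt ℂ f p) (c : ℂ)
    (i : Fin n) (k : ℕ) : nd i k (fun x => c * f x) =ᶠ[𝓝 p] fun x => c * nd i k f x := by
  induction k with
  | zero => exact Eventually.of_forall fun x => rfl
  | succ k ih =>
    filter_upwards [cd_congr ih i, hf.eventually_analyticAt] with x hx h1
    simp only [nd]
    rw [hx, cd_const_mul (an_nd h1 i k)]
    ring

theorem nd_sum {ι : Type*} (s : Finset ι) {f : ι → (Fin n → ℂ) → ℂ} {p : Fin n → ℂ}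
    (hf : ∀ a ∈ s, AnalyticAt ℂ (f a) p) (i : Fin n) (k : ℕ) :
    nd i k (fun x => ∑ a ∈ s, f a x) =ᶠ[𝓝 p] fun x => ∑ a ∈ s, nd i k (f a) x := by
  induction k with
  | zero => exact Eventually.of_forall fun x => rfl
  | succ k ih =>
    have h1 : ∀ᶠ x in 𝓝 p, ∀ a ∈ s, AnalyticAt ℂ (f a) x :=
      (Finset.eventually_all s).2 fun a ha => (hf a ha).eventually_analyticAt
    filter_upwards [cd_congr ih i, h1] with x hx h1
    simp only [nd]
    rw [hx, cd_sum _ fun a ha => an_nd (h1 a ha) i k, Finset.sum_div]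

/-- mixed derivatives commute -/
theorem cd_comm {f : (Fin n → ℂ) → ℂ} {p : Fin n → ℂ} (hf : AnalyticAt ℂ f p) (i j : Fin n) :
    coordDeriv (coordDeriv f i) j p = coordDeriv (coordDeriv f j) i p := by
  have h1 : ∀ k : Fin n, HasFDerivAt (coordDeriv f k)
      ((ContinuousLinearMap.apply ℂ ℂ (Pi.single k 1 : Fin n → ℂ)).comp
        (fderiv ℂ (fderiv ℂ f) p)) p := fun k =>
    (ContinuousLinearMap.apply ℂ ℂ (Pi.single k 1 : Fin n → ℂ)).hasFDerivAt.comp p
      hf.fderiv.differentiableAt.hasFDerivAt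
  have h2 : IsSymmSndFDerivAt ℂ f p := by
    apply ContDiffAt.isSymmSndFDerivAt (n := ⊤) (hf.contDiffAt)
    simp
  have e1 : coordDeriv (coordDeriv f i) j p =
      fderiv ℂ (fderiv ℂ f) p (Pi.single j 1) (Pi.single i 1) := by
    show fderiv ℂ (coordDeriv f i) p (Pi.single j 1) = _
    rw [(h1 i).fderiv]; rfl
  have e2 : coordDeriv (coordDeriv f j) i p =
      fderiv ℂ (fderiv ℂ f) p (Pi.single i 1) (Pi.single j 1) := by
    show fderiv ℂ (coordDeriv f j) p (Pi.single i 1) = _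
    rw [(h1 j).fderiv]; rfl
  rw [e1, e2]
  exact h2 _ _

/-- `nd` of a partial derivative, other index -/
theorem nd_cd_comm {f : (Fin n → ℂ) → ℂ} {p : Fin n → ℂ} (hf : AnalyticAt ℂ f p) (i j : Fin n)
    (k : ℕ) : nd i k (coordDeriv f j) =ᶠ[𝓝 p] coordDeriv (nd i k f) j := by
  induction k with
  | zero => exact Eventually.of_forall fun x => rfl
  | succ k ih =>
    filter_upwards [cd_congr ih i, hf.eventually_analyticAt] with x hx h1
    have e1 : nd i (k + 1) (coordDeriv f j) x =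
        coordDeriv (nd i k (coordDeriv f j)) i x / (k + 1) := rfl
    have e2 : coordDeriv (nd i (k + 1) f) j x = coordDeriv (coordDeriv (nd i k f) i) j x / (k + 1) := by
      have e3 : nd i (k + 1) f = fun x => (1 / ((k : ℂ) + 1)) * coordDeriv (nd i k f) i x := by
        funext y
        simp only [nd]
        ring
      rw [e3, cd_const_mul (an_cd (an_nd h1 i k) i)]
      ring
    rw [e1, hx, e2, cd_comm (an_nd h1 i k) j i]

/-- `nd` of the partial derivative, same index -/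
theorem nd_cd {f : (Fin n → ℂ) → ℂ} {p : Fin n → ℂ} (hf : AnalyticAt ℂ f p) (i : Fin n)
    (k : ℕ) : nd i k (coordDeriv f i) =ᶠ[𝓝 p] fun x => (k + 1) * nd i (k + 1) f x := by
  filter_upwards [nd_cd_comm hf i i k] with x hx
  rw [hx, nd_succ]

/-! ### plane germs -/

theorem cf_congr {f g : (Fin 2 → ℂ) → ℂ} (h : f =ᶠ[𝓝 0] g) (i j : ℕ) : cf f i j = cf g i j :=
  (nd_congr (nd_congr h 0 i) 1 j).self_of_nhds

theorem cf_add {f g : (Fin 2 → ℂ) → ℂ} (hf : AnalyticAt ℂ f 0) (hg : AnalyticAt ℂ g 0) (i j : ℕ) :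
    cf (fun x => f x + g x) i j = cf f i j + cf g i j := by
  unfold cf
  rw [(nd_congr (nd_add hf hg 0 i) 1 j).self_of_nhds,
    (nd_add (an_nd hf 0 i) (an_nd hg 0 i) 1 j).self_of_nhds]

theorem cf_const_mul {f : (Fin 2 → ℂ) → ℂ} (hf : AnalyticAt ℂ f 0) (c : ℂ) (i j : ℕ) :
    cf (fun x => c * f x) i j = c * cf f i j := by
  unfold cf
  rw [(nd_congr (nd_const_mul hf c 0 i) 1 j).self_of_nhds,
    (nd_const_mul (an_nd hf 0 i) c 1 j).self_of_nhds]

theorem cf_sub {f g : (Fin 2 → ℂ) → ℂ} (hf : AnalyticAt ℂ f 0) (hg : AnalyticAt ℂ g 0) (i j : ℕ) :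
    cf (fun x => f x - g x) i j = cf f i j - cf g i j := by
  have h1 : (fun x => f x - g x) = fun x => f x + (-1 : ℂ) * g x := by funext x; ring
  rw [h1, cf_add hf (g := fun x => (-1 : ℂ) * g x) (analyticAt_const.mul hg), cf_const_mul hg]
  ring

theorem cf_sum {ι : Type*} (s : Finset ι) {f : ι → (Fin 2 → ℂ) → ℂ}
    (hf : ∀ a ∈ s, AnalyticAt ℂ (f a) 0) (i j : ℕ) :
    cf (fun x => ∑ a ∈ s, f a x) i j = ∑ a ∈ s, cf (f a) i j := by
  unfold cf
  rw [(nd_congr (nd_sum s hf 0 i) 1 j).self_of_nhds,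
    (nd_sum s (fun a ha => an_nd (hf a ha) 0 i) 1 j).self_of_nhds]

/-- **product formula** -/
theorem cf_mul {f g : (Fin 2 → ℂ) → ℂ} (hf : AnalyticAt ℂ f 0) (hg : AnalyticAt ℂ g 0) (i j : ℕ) :
    cf (fun x => f x * g x) i j = ∑ a ∈ Finset.HasAntidiagonal.antidiagonal i, ∑ b ∈ Finset.HasAntidiagonal.antidiagonal j,
      cf f a.1 b.1 * cf g a.2 b.2 := by
  unfold cf
  rw [(nd_congr (nd_mul hf hg 0 i) 1 j).self_of_nhds,
    (nd_sum _ (fun a _ => (an_nd hf 0 a.1).mul (an_nd hg 0 a.2)) 1 j).self_of_nhds]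
  refine Finset.sum_congr rfl fun a _ => ?_
  exact (nd_mul (an_nd hf 0 a.1) (an_nd hg 0 a.2) 1 j).self_of_nhds

theorem cf_zero_zero (f : (Fin 2 → ℂ) → ℂ) : cf f 0 0 = f 0 := rfl

theorem cf_cd0 {f : (Fin 2 → ℂ) → ℂ} (hf : AnalyticAt ℂ f 0) (i j : ℕ) :
    cf (coordDeriv f 0) i j = (i + 1) * cf f (i + 1) j := by
  unfold cf
  rw [(nd_congr (nd_cd hf 0 i) 1 j).self_of_nhds,
    (nd_const_mul (an_nd hf 0 (i + 1)) _ 1 j).self_of_nhds]

theorem cf_cd1 {f : (Fin 2 → ℂ) → ℂ} (hf : AnalyticAt ℂ f 0) (i j : ℕ) :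
    cf (coordDeriv f 1) i j = (j + 1) * cf f i (j + 1) := by
  unfold cf
  rw [(nd_congr (nd_cd_comm hf 0 1 i) 1 j).self_of_nhds,
    (nd_cd (an_nd hf 0 i) 1 j).self_of_nhds]

/-- dependence on a parameter -/
theorem an_nd_sl {F : (Fin n → ℂ) × ℂ → ℂ} (hF : AnalyticAt ℂ F (0, 0)) (i : Fin n) (k : ℕ) :
    AnalyticAt ℂ (fun q : (Fin n → ℂ) × ℂ => nd i k (sl F q.2) q.1) (0, 0) := by
  induction k with
  | zero => exact hF
  | succ k ih =>
    have h1 := Skel_219.analyticAt_pd ih i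
    exact h1.div analyticAt_const (by exact_mod_cast Nat.succ_ne_zero k)

theorem an_cf {F : (Fin 2 → ℂ) × ℂ → ℂ} (hF : AnalyticAt ℂ F (0, 0)) (i j : ℕ) :
    AnalyticAt ℂ (fun t : ℂ => cf (sl F t) i j) 0 := by
  have h1 := an_nd_sl (an_nd_sl hF 0 i) 1 j
  have h3 : AnalyticAt ℂ (fun t : ℂ => ((0, t) : (Fin 2 → ℂ) × ℂ)) 0 :=
    analyticAt_const.prod analyticAt_id
  exact AnalyticAt.fun_comp (f := fun t : ℂ => ((0, t) : (Fin 2 → ℂ) × ℂ)) h1 h3

end Crest.Agent.R257.LcxA_759
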