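import Crest.Agent.R257.LcxD_759

/-!
R257 / LcxD2_759 (helper759): 2-jet and 3-jet of `x_0² u + x_0 v + w` in terms of `cf v`, `cf w`;
the decomposition of an analytic family; the Taylor coefficients of the discriminant.
-/

set_option autoImplicit false
set_option linter.unusedSimpArgs false

open Topology Filter Set Asymptotics Matrix
open Crest.AlgGeometry.Germ

noncomputable section

namespace Crest.Agent.R257.LcxD_759

open Crest.Agent.R257.Defs_219 Crest.Agent.R257.LCDefs_472 Crest.Agent.R257.LcxDefs_759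
open Crest.Agent.R257.LcxA_759 Crest.Agent.R257.LcxS_759

theorem tail_d_succ {v : (Fin 2 → ℂ) → ℂ} (hv : AnalyticAt ℂ v 0) (j : Fin 2) :
    coordDeriv (fun x : E3 => v (Fin.tail x)) j.succ =ᶠ[𝓝 0]
      fun x : E3 => coordDeriv v j (Fin.tail x) := by
  filter_upwards [tendsto_tail.eventually hv.eventually_analyticAt] with x hx
  exact cd_tail_succ hx.differentiableAt j

theorem tail_d_zero {v : (Fin 2 → ℂ) → ℂ} (hv : AnalyticAt ℂ v 0) :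
    coordDeriv (fun x : E3 => v (Fin.tail x)) 0 =ᶠ[𝓝 0] fun _ : E3 => (0 : ℂ) := by
  filter_upwards [tendsto_tail.eventually hv.eventually_analyticAt] with x hx
  exact cd_tail_zero hx.differentiableAt

theorem cd_zero_fun (i : Fin 3) (x : E3) : coordDeriv (fun _ : E3 => (0 : ℂ)) i x = 0 := by
  unfold coordDeriv
  simp

theorem cd_of_zero {f : E3 → ℂ} (h : f =ᶠ[𝓝 0] fun _ => (0 : ℂ)) (i : Fin 3) :
    coordDeriv f i =ᶠ[𝓝 0] fun _ => (0 : ℂ) := by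
  filter_upwards [cd_congr h i] with x hx
  rw [hx, cd_zero_fun]

section tails

variable {v : (Fin 2 → ℂ) → ℂ}

theorem t1s (hv : AnalyticAt ℂ v 0) (j : Fin 2) :
    coordDeriv (fun x : E3 => v (Fin.tail x)) j.succ 0 = coordDeriv v j 0 :=
  (tail_d_succ hv j).self_of_nhds

theorem t1z (hv : AnalyticAt ℂ v 0) : coordDeriv (fun x : E3 => v (Fin.tail x)) 0 0 = 0 :=
  (tail_d_zero hv).self_of_nhds

theorem t2ss (hv : AnalyticAt ℂ v 0) (i j : Fin 2) :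
    coordDeriv (coordDeriv (fun x : E3 => v (Fin.tail x)) i.succ) j.succ 0 =
      coordDeriv (coordDeriv v i) j 0 := by
  rw [(cd_congr (tail_d_succ hv i) j.succ).self_of_nhds]
  exact t1s (an_cd hv i) j

theorem t2sz (hv : AnalyticAt ℂ v 0) (i : Fin 2) :
    coordDeriv (coordDeriv (fun x : E3 => v (Fin.tail x)) i.succ) 0 0 = 0 := by
  rw [(cd_congr (tail_d_succ hv i) 0).self_of_nhds]
  exact t1z (an_cd hv i)

theorem t2z (hv : AnalyticAt ℂ v 0) (j : Fin 3) :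
    coordDeriv (coordDeriv (fun x : E3 => v (Fin.tail x)) 0) j 0 = 0 :=
  (cd_of_zero (tail_d_zero hv) j).self_of_nhds

theorem t3sss (hv : AnalyticAt ℂ v 0) (i j k : Fin 2) :
    coordDeriv (coordDeriv (coordDeriv (fun x : E3 => v (Fin.tail x)) i.succ) j.succ) k.succ 0 =
      coordDeriv (coordDeriv (coordDeriv v i) j) k 0 := by
  rw [(cd_congr (cd_congr (tail_d_succ hv i) j.succ) k.succ).self_of_nhds]
  exact t2ss (an_cd hv i) j k

theorem t3z (hv : AnalyticAt ℂ v 0) (j k : Fin 3) :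
    coordDeriv (coordDeriv (coordDeriv (fun x : E3 => v (Fin.tail x)) 0) j) k 0 = 0 :=
  (cd_of_zero (cd_of_zero (tail_d_zero hv) j) k).self_of_nhds

end tails

/-! ### plane derivatives and `cf` -/

section plane

variable {v : (Fin 2 → ℂ) → ℂ}

theorem p1_0 (v : (Fin 2 → ℂ) → ℂ) (hv : AnalyticAt ℂ v 0) : coordDeriv v 0 0 = cf v 1 0 := by
  have := cf_cd0 hv 0 0
  rw [cf_zero_zero] at this
  rw [this]; norm_num

theorem p1_1 (v : (Fin 2 → ℂ) → ℂ) (hv : AnalyticAt ℂ v 0) : coordDeriv v 1 0 = cf v 0 1 := by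
  have := cf_cd1 hv 0 0
  rw [cf_zero_zero] at this
  rw [this]; norm_num

theorem p2_00 (hv : AnalyticAt ℂ v 0) : coordDeriv (coordDeriv v 0) 0 0 = 2 * cf v 2 0 := by
  rw [p1_0 _ (an_cd hv 0), cf_cd0 hv]; norm_num

theorem p2_01 (hv : AnalyticAt ℂ v 0) : coordDeriv (coordDeriv v 0) 1 0 = cf v 1 1 := by
  rw [p1_1 _ (an_cd hv 0), cf_cd0 hv]; norm_num

theorem p2_11 (hv : AnalyticAt ℂ v 0) : coordDeriv (coordDeriv v 1) 1 0 = 2 * cf v 0 2 := by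
  rw [p1_1 _ (an_cd hv 1), cf_cd1 hv]; norm_num

theorem p3_000 (hv : AnalyticAt ℂ v 0) :
    coordDeriv (coordDeriv (coordDeriv v 0) 0) 0 0 = 6 * cf v 3 0 := by
  rw [p2_00 (an_cd hv 0), cf_cd0 hv]; push_cast; ring

theorem p3_001 (hv : AnalyticAt ℂ v 0) :
    coordDeriv (coordDeriv (coordDeriv v 0) 0) 1 0 = 2 * cf v 2 1 := by
  rw [p2_01 (an_cd hv 0), cf_cd0 hv]; push_cast; ring

theorem p3_011 (hv : AnalyticAt ℂ v 0) :
    coordDeriv (coordDeriv (coordDeriv v 0) 1) 1 0 = 2 * cf v 1 2 := by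
  rw [p2_11 (an_cd hv 0), cf_cd0 hv]; push_cast; ring

theorem p3_111 (hv : AnalyticAt ℂ v 0) :
    coordDeriv (coordDeriv (coordDeriv v 1) 1) 1 0 = 6 * cf v 0 3 := by
  rw [p2_11 (an_cd hv 1), cf_cd1 hv]; push_cast; ring

end plane

variable {g : E3 → ℂ} {u : E3 → ℂ} {v w : (Fin 2 → ℂ) → ℂ}

theorem Dq.z (h : Dq g u v w) : g 0 = cf w 0 0 := by
  rw [h.eq.self_of_nhds, cf_zero_zero]
  simp [tail_zero]

theorem Dq.c0 (h : Dq g u v w) : coordDeriv g 0 0 = cf v 0 0 := by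
  rw [h.h1, t1z h.aw, cf_zero_zero]; simp [dl]

theorem Dq.c1 (h : Dq g u v w) : coordDeriv g 1 0 = cf w 1 0 := by
  rw [h.h1, show (1 : Fin 3) = (0 : Fin 2).succ from rfl, t1s h.aw, p1_0 _ h.aw]
  simp [dl]

theorem Dq.c2 (h : Dq g u v w) : coordDeriv g 2 0 = cf w 0 1 := by
  rw [h.h1, show (2 : Fin 3) = (1 : Fin 2).succ from rfl, t1s h.aw, p1_1 _ h.aw]
  have : ((1 : Fin 2).succ) ≠ 0 := Fin.succ_ne_zero _
  simp [dl, this]

theorem dl0 : dl 0 = 1 := by simp [dl]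
theorem dl1 : dl 1 = 0 := by simp [dl]
theorem dl2 : dl 2 = 0 := by simp [dl]

theorem Dq.h00 (h : Dq g u v w) : H2 g 0 0 = 2 * u 0 := by
  rw [h.h2, t1z h.av, t2z h.aw, dl0]; ring

theorem Dq.h01 (h : Dq g u v w) : H2 g 0 1 = cf v 1 0 := by
  rw [h.h2, t1z h.av, t2z h.aw, dl0, dl1, show (1 : Fin 3) = (0 : Fin 2).succ from rfl, t1s h.av,
    p1_0 _ h.av]; ring

theorem Dq.h02 (h : Dq g u v w) : H2 g 0 2 = cf v 0 1 := by
  rw [h.h2, t1z h.av, t2z h.aw, dl0, dl2, show (2 : Fin 3) = (1 : Fin 2).succ from rfl, t1s h.av,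
    p1_1 _ h.av]; ring

theorem Dq.h11 (h : Dq g u v w) : H2 g 1 1 = 2 * cf w 2 0 := by
  rw [h.h2, dl1, show (1 : Fin 3) = (0 : Fin 2).succ from rfl, t2ss h.aw, p2_00 h.aw]; ring

theorem Dq.h12 (h : Dq g u v w) : H2 g 1 2 = cf w 1 1 := by
  rw [h.h2, dl1, dl2, show (1 : Fin 3) = (0 : Fin 2).succ from rfl,
    show (2 : Fin 3) = (1 : Fin 2).succ from rfl, t2ss h.aw, p2_01 h.aw]; ring

theorem Dq.h22 (h : Dq g u v w) : H2 g 2 2 = 2 * cf w 0 2 := by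
  rw [h.h2, dl2, show (2 : Fin 3) = (1 : Fin 2).succ from rfl, t2ss h.aw, p2_11 h.aw]; ring

theorem Dq.h000 (h : Dq g u v w) : H3 g 0 0 0 = 6 * coordDeriv u 0 0 := by
  rw [h.h3, t2z h.av, t3z h.aw, dl0]; ring

theorem Dq.h001 (h : Dq g u v w) : H3 g 0 0 1 = 2 * coordDeriv u 1 0 := by
  rw [h.h3, t2z h.av, t2z h.av, t3z h.aw, dl0, dl1]; ring

theorem Dq.h002 (h : Dq g u v w) : H3 g 0 0 2 = 2 * coordDeriv u 2 0 := by
  rw [h.h3, t2z h.av, t2z h.av, t3z h.aw, dl0, dl2]; ring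

theorem Dq.h011 (h : Dq g u v w) : H3 g 0 1 1 = 2 * cf v 2 0 := by
  rw [h.h3, t2z h.av, t3z h.aw, dl0, dl1, show (1 : Fin 3) = (0 : Fin 2).succ from rfl, t2ss h.av,
    p2_00 h.av]; ring

theorem Dq.h012 (h : Dq g u v w) : H3 g 0 1 2 = cf v 1 1 := by
  rw [h.h3, t2z h.av, t3z h.aw, dl0, dl1, dl2, show (1 : Fin 3) = (0 : Fin 2).succ from rfl,
    show (2 : Fin 3) = (1 : Fin 2).succ from rfl, t2ss h.av, p2_01 h.av]; ring

theorem Dq.h022 (h : Dq g u v w) : H3 g 0 2 2 = 2 * cf v 0 2 := by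
  rw [h.h3, t2z h.av, t3z h.aw, dl0, dl2, show (2 : Fin 3) = (1 : Fin 2).succ from rfl, t2ss h.av,
    p2_11 h.av]; ring

theorem Dq.h111 (h : Dq g u v w) : H3 g 1 1 1 = 6 * cf w 3 0 := by
  rw [h.h3, dl1, show (1 : Fin 3) = (0 : Fin 2).succ from rfl, t3sss h.aw, p3_000 h.aw]; ring

theorem Dq.h112 (h : Dq g u v w) : H3 g 1 1 2 = 2 * cf w 2 1 := by
  rw [h.h3, dl1, dl2, show (1 : Fin 3) = (0 : Fin 2).succ from rfl,
    show (2 : Fin 3) = (1 : Fin 2).succ from rfl, t3sss h.aw, p3_001 h.aw]; ring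

theorem Dq.h122 (h : Dq g u v w) : H3 g 1 2 2 = 2 * cf w 1 2 := by
  rw [h.h3, dl1, dl2, show (1 : Fin 3) = (0 : Fin 2).succ from rfl,
    show (2 : Fin 3) = (1 : Fin 2).succ from rfl, t3sss h.aw, p3_011 h.aw]; ring

theorem Dq.h222 (h : Dq g u v w) : H3 g 2 2 2 = 6 * cf w 0 3 := by
  rw [h.h3, dl2, show (2 : Fin 3) = (1 : Fin 2).succ from rfl, t3sss h.aw, p3_111 h.aw]; ring

/-! ### families -/

theorem ev_slice {X : Type*} [TopologicalSpace X] {a : X} {P : X × ℂ → Prop}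
    (h : ∀ᶠ q in 𝓝 (a, (0 : ℂ)), P q) : ∀ᶠ t in 𝓝 (0 : ℂ), ∀ᶠ x in 𝓝 a, P (x, t) := by
  have h1 : Tendsto (Prod.swap : ℂ × X → X × ℂ) (𝓝 ((0 : ℂ), a)) (𝓝 (a, 0)) :=
    continuous_swap.tendsto' _ _ rfl
  exact (h1.eventually h).curry_nhds

/-- decomposition of a family -/
structure DF (F : E3 × ℂ → ℂ) (U : E3 × ℂ → ℂ) (V W : (Fin 2 → ℂ) × ℂ → ℂ) : Prop where
  aU : AnalyticAt ℂ U (0, 0)
  aV : AnalyticAt ℂ V (0, 0)
  aW : AnalyticAt ℂ W (0, 0)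
  eq : ∀ᶠ q in 𝓝 ((0 : E3), (0 : ℂ)),
    F q = q.1 0 ^ 2 * U q + q.1 0 * V (Fin.tail q.1, q.2) + W (Fin.tail q.1, q.2)

theorem exists_DF {F : E3 × ℂ → ℂ} (hF : AnalyticAt ℂ F (0, 0)) : ∃ U V W, DF F U V W := by
  set G : ((Fin 2 → ℂ) × ℂ) × ℂ → ℂ := fun p => F (Fin.cons p.2 p.1.1, p.1.2) with hG
  have hcons : AnalyticAt ℂ (fun p : ((Fin 2 → ℂ) × ℂ) × ℂ =>
      ((Fin.cons p.2 p.1.1 : E3), p.1.2)) 0 := by
    refine AnalyticAt.prod ?_ ?_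
    · refine AnalyticAt.pi fun i => ?_
      refine Fin.cases ?_ (fun j => ?_) i
      · exact analyticAt_snd
      · exact AnalyticAt.fun_comp (g := fun x : Fin 2 → ℂ => x j)
          (f := fun p : ((Fin 2 → ℂ) × ℂ) × ℂ => p.1.1)
          ((ContinuousLinearMap.proj (R := ℂ) (φ := fun _ : Fin 2 => ℂ) j).analyticAt _)
          (AnalyticAt.fun_comp (g := Prod.fst) (f := Prod.fst) analyticAt_fst analyticAt_fst)
    · exact AnalyticAt.fun_comp (g := Prod.snd) (f := Prod.fst) analyticAt_snd analyticAt_fst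
  have hz : ((Fin.cons (0 : ((Fin 2 → ℂ) × ℂ) × ℂ).2 (0 : ((Fin 2 → ℂ) × ℂ) × ℂ).1.1 : E3),
      (0 : ((Fin 2 → ℂ) × ℂ) × ℂ).1.2) = (0, 0) := by
    refine Prod.ext ?_ rfl
    funext i
    refine Fin.cases rfl (fun j => rfl) i
  have hGa : AnalyticAt ℂ G 0 := AnalyticAt.fun_comp (g := F)
    (f := fun p : ((Fin 2 → ℂ) × ℂ) × ℂ => ((Fin.cons p.2 p.1.1 : E3), p.1.2)) (by rw [hz]; exact hF)
    hcons
  obtain ⟨G1, hG1, h1⟩ := UI939.hadamard_fun hGa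
  obtain ⟨G2, hG2, h2⟩ := UI939.hadamard_fun hG1
  have hin : AnalyticAt ℂ (fun p : (Fin 2 → ℂ) × ℂ => ((p, (0 : ℂ)) : ((Fin 2 → ℂ) × ℂ) × ℂ)) (0, 0) :=
    analyticAt_id.prod analyticAt_const
  have hout : AnalyticAt ℂ (fun q : E3 × ℂ =>
      (((Fin.tail q.1, q.2), q.1 0) : ((Fin 2 → ℂ) × ℂ) × ℂ)) (0, 0) := by
    refine AnalyticAt.prod (AnalyticAt.prod ?_ analyticAt_snd) ?_
    · exact AnalyticAt.fun_comp (g := fun x : E3 => tl x) (f := Prod.fst) (tl.analyticAt _)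
        analyticAt_fst
    · exact AnalyticAt.fun_comp (g := fun x : E3 => x 0) (f := Prod.fst) (an_x0 _) analyticAt_fst
  refine ⟨fun q => G2 ((Fin.tail q.1, q.2), q.1 0), fun p => G1 (p, 0), fun p => G (p, 0), ?_, ?_, ?_,
    ?_⟩
  · exact AnalyticAt.fun_comp (g := G2) (by exact hG2) hout
  · exact AnalyticAt.fun_comp (g := G1) (by exact hG1) hin
  · exact AnalyticAt.fun_comp (g := G) (by exact hGa) hin
  · have ht : Tendsto (fun q : E3 × ℂ => (((Fin.tail q.1, q.2), q.1 0) : ((Fin 2 → ℂ) × ℂ) × ℂ))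
        (𝓝 (0, 0)) (𝓝 0) := by
      have := hout.continuousAt.tendsto
      exact this
    filter_upwards [ht.eventually h1, ht.eventually h2] with q e1 e2
    have e3 : F q = G ((Fin.tail q.1, q.2), q.1 0) := by
      simp only [hG, Fin.cons_self_tail]
    rw [e3, e1, e2]
    ring

theorem DF.dq {F : E3 × ℂ → ℂ} {U : E3 × ℂ → ℂ} {V W : (Fin 2 → ℂ) × ℂ → ℂ} (h : DF F U V W) :
    ∀ᶠ t in 𝓝 (0 : ℂ), Dq (sl F t) (sl U t) (sl V t) (sl W t) := by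
  filter_upwards [LcxL_759.ev_an_sl h.aU, LcxL_759.ev_an_sl h.aV, LcxL_759.ev_an_sl h.aW,
    ev_slice h.eq] with t h1 h2 h3 h4
  exact ⟨h1, h2, h3, h4⟩

/-- the discriminant of a family -/
def DscF (U : E3 × ℂ → ℂ) (V W : (Fin 2 → ℂ) × ℂ → ℂ) : (Fin 2 → ℂ) × ℂ → ℂ :=
  fun q => 4 * U (Fin.cons 0 q.1, q.2) * W q - V q ^ 2

theorem sl_DscF (U : E3 × ℂ → ℂ) (V W : (Fin 2 → ℂ) × ℂ → ℂ) (t : ℂ) :
    sl (DscF U V W) t = Dsc (sl U t) (sl V t) (sl W t) := rfl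

theorem an_DscF {F : E3 × ℂ → ℂ} {U : E3 × ℂ → ℂ} {V W : (Fin 2 → ℂ) × ℂ → ℂ} (h : DF F U V W) :
    AnalyticAt ℂ (DscF U V W) (0, 0) := by
  have h1 : AnalyticAt ℂ (fun q : (Fin 2 → ℂ) × ℂ => (((Fin.cons 0 q.1 : E3), q.2) : E3 × ℂ))
      (0, 0) := by
    have h2 : (fun q : (Fin 2 → ℂ) × ℂ => (((Fin.cons 0 q.1 : E3), q.2) : E3 × ℂ)) =
        fun q => (LcxD_759.c0 q.1, q.2) := by
      funext q; rw [c0_apply]
    rw [h2]
    exact (AnalyticAt.fun_comp (g := fun x => LcxD_759.c0 x) (f := Prod.fst)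
      (LcxD_759.c0.analyticAt _) analyticAt_fst).prod analyticAt_snd
  have hz : (((Fin.cons 0 (0 : Fin 2 → ℂ) : E3), (0 : ℂ)) : E3 × ℂ) = (0, 0) := by
    rw [← c0_apply, map_zero]
  have h3 : AnalyticAt ℂ (fun q : (Fin 2 → ℂ) × ℂ => U (Fin.cons 0 q.1, q.2)) (0, 0) :=
    AnalyticAt.fun_comp (g := U) (f := fun q : (Fin 2 → ℂ) × ℂ =>
      (((Fin.cons 0 q.1 : E3), q.2) : E3 × ℂ)) (by rw [hz]; exact h.aU) h1
  exact ((analyticAt_const.mul h3).mul h.aW).sub (h.aV.pow 2)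

theorem cf_u10 {u : E3 → ℂ} (hu : AnalyticAt ℂ u 0) :
    cf (fun p : Fin 2 → ℂ => u (Fin.cons 0 p)) 1 0 = coordDeriv u 1 0 := by
  rw [← p1_0 _ (an_c0 hu), cd_c0 (by rw [← c0_apply, map_zero]; exact hu.differentiableAt),
    ← c0_apply, map_zero]
  rfl

theorem cf_u01 {u : E3 → ℂ} (hu : AnalyticAt ℂ u 0) :
    cf (fun p : Fin 2 → ℂ => u (Fin.cons 0 p)) 0 1 = coordDeriv u 2 0 := by
  rw [← p1_1 _ (an_c0 hu), cd_c0 (by rw [← c0_apply, map_zero]; exact hu.differentiableAt),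
    ← c0_apply, map_zero]
  rfl

theorem cf_u00 (u : E3 → ℂ) : cf (fun p : Fin 2 → ℂ => u (Fin.cons 0 p)) 0 0 = u 0 := by
  rw [cf_zero_zero, ← c0_apply, map_zero]

/-- coefficients of the discriminant -/
theorem cf_dsc {u : E3 → ℂ} {v w : (Fin 2 → ℂ) → ℂ} (hu : AnalyticAt ℂ u 0)
    (hv : AnalyticAt ℂ v 0) (hw : AnalyticAt ℂ w 0) (i j : ℕ) : cf (Dsc u v w) i j =
      4 * (∑ a ∈ Finset.HasAntidiagonal.antidiagonal i, ∑ b ∈ Finset.HasAntidiagonal.antidiagonal j,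
        cf (fun p : Fin 2 → ℂ => u (Fin.cons 0 p)) a.1 b.1 * cf w a.2 b.2) -
      ∑ a ∈ Finset.HasAntidiagonal.antidiagonal i, ∑ b ∈ Finset.HasAntidiagonal.antidiagonal j,
        cf v a.1 b.1 * cf v a.2 b.2 := by
  have h1 : Dsc u v w = fun p => (fun p => 4 * ((fun p => u (Fin.cons 0 p)) p * w p)) p -
      (fun p => v p * v p) p := by
    funext p
    simp only [Dsc]
    ring
  have hu' := an_c0 hu
  rw [h1, cf_sub (f := fun p => 4 * ((fun p => u (Fin.cons 0 p)) p * w p))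
    (g := fun p => v p * v p) (analyticAt_const.mul (hu'.mul hw)) (hv.mul hv),
    cf_const_mul (f := fun p => (fun p => u (Fin.cons 0 p)) p * w p) (hu'.mul hw),
    cf_mul hu' hw, cf_mul hv hv]

end Crest.Agent.R257.LcxD_759
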