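import Crest.Agent.R257.LcxL_759
import Crest.Agent.R257.UI3_939

/-!
R257 / LcxD_759 (helper759): the decomposition `g = x_0² u + x_0 v + w` of a germ, its derivatives in
terms of the Taylor coefficients of `v` and `w`, and the decomposition of analytic families.
-/

set_option autoImplicit false
set_option linter.unusedSimpArgs false

open Topology Filter Set Asymptotics Matrix
open Crest.AlgGeometry.Germ

noncomputable section

namespace Crest.Agent.R257.LcxD_759

open Crest.Agent.R257.Defs_219 Crest.Agent.R257.LCDefs_472 Crest.Agent.R257.LcxDefs_759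
open Crest.Agent.R257.LcxA_759 Crest.Agent.R257.LcxS_759

/-- the decomposition -/
structure Dq (g : E3 → ℂ) (u : E3 → ℂ) (v w : (Fin 2 → ℂ) → ℂ) : Prop where
  au : AnalyticAt ℂ u 0
  av : AnalyticAt ℂ v 0
  aw : AnalyticAt ℂ w 0
  eq : ∀ᶠ x : E3 in 𝓝 0, g x = x 0 ^ 2 * u x + x 0 * v (Fin.tail x) + w (Fin.tail x)

/-- `tail` as a continuous linear map -/
def tl : E3 →L[ℂ] (Fin 2 → ℂ) :=
  ContinuousLinearMap.pi fun i => ContinuousLinearMap.proj (R := ℂ) (φ := fun _ : Fin 3 => ℂ) i.succ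

theorem tl_apply (x : E3) : tl x = Fin.tail x := rfl

/-- `p ↦ (0, p)` as a continuous linear map -/
def c0 : (Fin 2 → ℂ) →L[ℂ] E3 :=
  ContinuousLinearMap.pi fun i => Fin.cases (0 : (Fin 2 → ℂ) →L[ℂ] ℂ)
    (fun j => ContinuousLinearMap.proj (R := ℂ) (φ := fun _ : Fin 2 => ℂ) j) i

theorem c0_apply (p : Fin 2 → ℂ) : c0 p = Fin.cons 0 p := by
  funext i
  refine Fin.cases ?_ (fun j => ?_) i
  · rfl
  · rfl

theorem tail_zero : (Fin.tail (0 : E3) : Fin 2 → ℂ) = 0 := rfl

theorem an_tail {v : (Fin 2 → ℂ) → ℂ} {x : E3} (hv : AnalyticAt ℂ v (Fin.tail x)) :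
    AnalyticAt ℂ (fun x : E3 => v (Fin.tail x)) x :=
  AnalyticAt.comp (g := v) (f := fun x : E3 => tl x) hv (tl.analyticAt x)

theorem an_c0 {u : E3 → ℂ} (hu : AnalyticAt ℂ u 0) :
    AnalyticAt ℂ (fun p : Fin 2 → ℂ => u (Fin.cons 0 p)) 0 := by
  have h : (fun p : Fin 2 → ℂ => u (Fin.cons 0 p)) = fun p => u (c0 p) := by
    funext p; rw [c0_apply]
  rw [h]
  exact AnalyticAt.comp (g := u) (f := fun p => c0 p) (by rw [map_zero]; exact hu) (c0.analyticAt 0)

theorem tendsto_tail : Tendsto (fun x : E3 => (Fin.tail x : Fin 2 → ℂ)) (𝓝 0) (𝓝 0) := by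
  have := tl.continuous.tendsto 0
  rw [map_zero] at this
  exact this

theorem cd_tail_succ {v : (Fin 2 → ℂ) → ℂ} {x : E3} (hv : DifferentiableAt ℂ v (Fin.tail x))
    (j : Fin 2) : coordDeriv (fun x : E3 => v (Fin.tail x)) j.succ x = coordDeriv v j (Fin.tail x) := by
  unfold coordDeriv
  have h := (hv.hasFDerivAt).comp x tl.hasFDerivAt
  have h2 : fderiv ℂ (fun x : E3 => v (Fin.tail x)) x = (fderiv ℂ v (Fin.tail x)).comp tl := h.fderiv
  rw [h2, ContinuousLinearMap.comp_apply]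
  congr 1
  funext i
  show (Pi.single j.succ 1 : E3) i.succ = (Pi.single j 1 : Fin 2 → ℂ) i
  by_cases hij : i = j
  · subst hij; simp
  · rw [Pi.single_eq_of_ne hij, Pi.single_eq_of_ne (fun h => hij (Fin.succ_injective _ h))]

theorem cd_tail_zero {v : (Fin 2 → ℂ) → ℂ} {x : E3} (hv : DifferentiableAt ℂ v (Fin.tail x)) :
    coordDeriv (fun x : E3 => v (Fin.tail x)) 0 x = 0 := by
  unfold coordDeriv
  have h := (hv.hasFDerivAt).comp x tl.hasFDerivAt
  have h2 : fderiv ℂ (fun x : E3 => v (Fin.tail x)) x = (fderiv ℂ v (Fin.tail x)).comp tl := h.fderiv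
  rw [h2, ContinuousLinearMap.comp_apply]
  have : tl (Pi.single 0 1 : E3) = 0 := by
    funext i
    show (Pi.single 0 1 : E3) i.succ = 0
    rw [Pi.single_eq_of_ne (Fin.succ_ne_zero i)]
  rw [this, map_zero]

theorem cd_c0 {u : E3 → ℂ} {p : Fin 2 → ℂ} (hu : DifferentiableAt ℂ u (Fin.cons 0 p)) (j : Fin 2) :
    coordDeriv (fun p : Fin 2 → ℂ => u (Fin.cons 0 p)) j p = coordDeriv u j.succ (Fin.cons 0 p) := by
  unfold coordDeriv
  have h1 : (fun p : Fin 2 → ℂ => u (Fin.cons 0 p)) = fun p => u (c0 p) := by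
    funext p; rw [c0_apply]
  have hu' : DifferentiableAt ℂ u (c0 p) := by rw [c0_apply]; exact hu
  have h := (hu'.hasFDerivAt).comp p c0.hasFDerivAt
  have h2 : fderiv ℂ (fun p => u (c0 p)) p = (fderiv ℂ u (c0 p)).comp c0 := h.fderiv
  rw [h1, h2, ContinuousLinearMap.comp_apply, c0_apply, c0_apply]
  congr 1
  funext i
  refine Fin.cases ?_ (fun k => ?_) i
  · simp [Fin.cons_zero, Pi.single_eq_of_ne (Fin.succ_ne_zero j).symm]
  · rw [Fin.cons_succ]
    by_cases hij : k = j
    · subst hij; simp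
    · rw [Pi.single_eq_of_ne hij, Pi.single_eq_of_ne (fun h => hij (Fin.succ_injective _ h))]

/-- derivative of `x_0` -/
def dl (i : Fin 3) : ℂ := if i = 0 then 1 else 0

theorem an_x0 (x : E3) : AnalyticAt ℂ (fun x : E3 => x 0) x :=
  (ContinuousLinearMap.proj (R := ℂ) (φ := fun _ : Fin 3 => ℂ) 0).analyticAt x

theorem cd_x0 (i : Fin 3) (x : E3) : coordDeriv (fun x : E3 => x 0) i x = dl i := by
  unfold coordDeriv
  have h : HasFDerivAt (fun x : E3 => x 0)
      (ContinuousLinearMap.proj (R := ℂ) (φ := fun _ : Fin 3 => ℂ) 0) x :=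
    (ContinuousLinearMap.proj (R := ℂ) (φ := fun _ : Fin 3 => ℂ) 0).hasFDerivAt
  rw [h.fderiv]
  show (Pi.single i 1 : E3) 0 = dl i
  unfold dl
  by_cases hi : i = 0
  · subst hi; simp
  · rw [if_neg hi, Pi.single_eq_of_ne (Ne.symm hi)]

/-- first derivatives of `x_0² u + x_0 v + w` -/
theorem cd_quad {u v w : E3 → ℂ} {x : E3} (hu : AnalyticAt ℂ u x) (hv : AnalyticAt ℂ v x)
    (hw : AnalyticAt ℂ w x) (i : Fin 3) :
    coordDeriv (fun x => x 0 * (x 0 * u x) + x 0 * v x + w x) i x =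
      x 0 * (x 0 * coordDeriv u i x) + x 0 * (2 * dl i * u x + coordDeriv v i x) +
        (dl i * v x + coordDeriv w i x) := by
  rw [cd_add (f := fun x => x 0 * (x 0 * u x) + x 0 * v x) (((an_x0 x).mul ((an_x0 x).mul hu)).add
    ((an_x0 x).mul hv)) hw, cd_add (f := fun x => x 0 * (x 0 * u x)) (g := fun x => x 0 * v x)
    ((an_x0 x).mul ((an_x0 x).mul hu)) ((an_x0 x).mul hv), cd_mul (an_x0 x)
    (g := fun x => x 0 * u x) ((an_x0 x).mul hu), cd_mul (an_x0 x) hu, cd_mul (an_x0 x) hv, cd_x0]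
  ring

variable {g : E3 → ℂ} {u : E3 → ℂ} {v w : (Fin 2 → ℂ) → ℂ}

theorem Dq.eq' (h : Dq g u v w) : g =ᶠ[𝓝 0]
    fun x => x 0 * (x 0 * u x) + x 0 * (fun x => v (Fin.tail x)) x + (fun x => w (Fin.tail x)) x := by
  filter_upwards [h.eq] with x hx
  rw [hx]; ring

theorem Dq.d1 (h : Dq g u v w) (i : Fin 3) : coordDeriv g i =ᶠ[𝓝 0]
    fun x => x 0 * (x 0 * coordDeriv u i x) + x 0 * (2 * dl i * u x +
      coordDeriv (fun x => v (Fin.tail x)) i x) +
      (dl i * v (Fin.tail x) + coordDeriv (fun x => w (Fin.tail x)) i x) := by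
  filter_upwards [cd_congr h.eq' i, h.au.eventually_analyticAt,
    tendsto_tail.eventually h.av.eventually_analyticAt,
    tendsto_tail.eventually h.aw.eventually_analyticAt] with x hx h1 h2 h3
  rw [hx, cd_quad h1 (an_tail h2) (an_tail h3)]

theorem Dq.an (h : Dq g u v w) : AnalyticAt ℂ g 0 := by
  have h1 : AnalyticAt ℂ (fun x => x 0 * (x 0 * u x) + x 0 * (fun x => v (Fin.tail x)) x +
      (fun x => w (Fin.tail x)) x) (0 : E3) :=
    (((an_x0 0).mul ((an_x0 0).mul h.au)).add ((an_x0 0).mul (an_tail (x := 0) h.av))).add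
      (an_tail (x := 0) h.aw)
  exact h1.congr h.eq'.symm

theorem Dq.d2 (h : Dq g u v w) (i j : Fin 3) : coordDeriv (coordDeriv g i) j =ᶠ[𝓝 0]
    fun x => x 0 * (x 0 * coordDeriv (coordDeriv u i) j x) + x 0 * (2 * dl j * coordDeriv u i x +
      (2 * dl i * coordDeriv u j x +
      coordDeriv (coordDeriv (fun x => v (Fin.tail x)) i) j x)) +
      (dl j * (2 * dl i * u x + coordDeriv (fun x => v (Fin.tail x)) i x) +
      (dl i * coordDeriv (fun x => v (Fin.tail x)) j x +
        coordDeriv (coordDeriv (fun x => w (Fin.tail x)) i) j x)) := by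
  filter_upwards [cd_congr (h.d1 i) j, h.au.eventually_analyticAt,
    tendsto_tail.eventually h.av.eventually_analyticAt,
    tendsto_tail.eventually h.aw.eventually_analyticAt] with x hx h1 h2 h3
  have h2' := an_tail h2
  have h3' := an_tail h3
  rw [hx, cd_quad (an_cd h1 i) (v := fun x => 2 * dl i * u x +
    coordDeriv (fun x => v (Fin.tail x)) i x) ((analyticAt_const.mul h1).add (an_cd h2' i))
    (w := fun x => dl i * v (Fin.tail x) + coordDeriv (fun x => w (Fin.tail x)) i x)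
    ((analyticAt_const.mul h2').add (an_cd h3' i)),
    cd_add (f := fun x => 2 * dl i * u x) (analyticAt_const.mul h1) (an_cd h2' i),
    cd_const_mul h1, cd_add (f := fun x => dl i * v (Fin.tail x)) (analyticAt_const.mul h2')
      (an_cd h3' i), cd_const_mul h2']

theorem Dq.h1 (h : Dq g u v w) (i : Fin 3) : coordDeriv g i 0 =
    dl i * v 0 + coordDeriv (fun x => w (Fin.tail x)) i 0 := by
  rw [(h.d1 i).self_of_nhds]
  simp [tail_zero]

theorem Dq.h2 (h : Dq g u v w) (i j : Fin 3) : H2 g i j =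
    dl j * (2 * dl i * u 0 + coordDeriv (fun x => v (Fin.tail x)) i 0) +
      (dl i * coordDeriv (fun x => v (Fin.tail x)) j 0 +
        coordDeriv (coordDeriv (fun x => w (Fin.tail x)) i) j 0) := by
  unfold H2
  rw [(h.d2 i j).self_of_nhds]
  simp

theorem Dq.h3 (h : Dq g u v w) (i j k : Fin 3) : H3 g i j k =
    dl k * (2 * dl j * coordDeriv u i 0 + (2 * dl i * coordDeriv u j 0 +
      coordDeriv (coordDeriv (fun x => v (Fin.tail x)) i) j 0)) +
    (dl j * (2 * dl i * coordDeriv u k 0 + coordDeriv (coordDeriv (fun x => v (Fin.tail x)) i) k 0) +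
      (dl i * coordDeriv (coordDeriv (fun x => v (Fin.tail x)) j) k 0 +
        coordDeriv (coordDeriv (coordDeriv (fun x => w (Fin.tail x)) i) j) k 0)) := by
  unfold H3
  have hv' : AnalyticAt ℂ (fun x : E3 => v (Fin.tail x)) 0 := an_tail (x := 0) h.av
  have hw' : AnalyticAt ℂ (fun x : E3 => w (Fin.tail x)) 0 := an_tail (x := 0) h.aw
  rw [(cd_congr (h.d2 i j) k).self_of_nhds]
  rw [cd_quad (u := coordDeriv (coordDeriv u i) j) (an_cd (an_cd h.au i) j)
    (v := fun x => 2 * dl j * coordDeriv u i x + (2 * dl i * coordDeriv u j x +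
      coordDeriv (coordDeriv (fun x => v (Fin.tail x)) i) j x))
    ((analyticAt_const.mul (an_cd h.au i)).add ((analyticAt_const.mul (an_cd h.au j)).add
      (an_cd (an_cd hv' i) j)))
    (w := fun x => dl j * (2 * dl i * u x + coordDeriv (fun x => v (Fin.tail x)) i x) +
      (dl i * coordDeriv (fun x => v (Fin.tail x)) j x +
        coordDeriv (coordDeriv (fun x => w (Fin.tail x)) i) j x))
    ((analyticAt_const.mul ((analyticAt_const.mul h.au).add (an_cd hv' i))).add
      ((analyticAt_const.mul (an_cd hv' j)).add (an_cd (an_cd hw' i) j)))]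
  rw [cd_add (f := fun x => dl j * (2 * dl i * u x + coordDeriv (fun x => v (Fin.tail x)) i x))
    (g := fun x => dl i * coordDeriv (fun x => v (Fin.tail x)) j x +
        coordDeriv (coordDeriv (fun x => w (Fin.tail x)) i) j x)
    (analyticAt_const.mul ((analyticAt_const.mul h.au).add (an_cd hv' i)))
    ((analyticAt_const.mul (an_cd hv' j)).add (an_cd (an_cd hw' i) j)),
    cd_const_mul (f := fun x => 2 * dl i * u x + coordDeriv (fun x => v (Fin.tail x)) i x)
    ((analyticAt_const.mul h.au).add (an_cd hv' i)),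
    cd_add (f := fun x => 2 * dl i * u x) (analyticAt_const.mul h.au) (an_cd hv' i),
    cd_const_mul h.au,
    cd_add (f := fun x => dl i * coordDeriv (fun x => v (Fin.tail x)) j x)
      (analyticAt_const.mul (an_cd hv' j)) (an_cd (an_cd hw' i) j),
    cd_const_mul (an_cd hv' j)]
  simp

end Crest.Agent.R257.LcxD_759
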