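import Crest.Agent.R257.LcxS_759

/-!
R257 / LcxS2_759 (helper759): Aronhold invariant of nodal and of non nodal cubics, node criterion.
-/

set_option autoImplicit false
set_option linter.unusedSimpArgs false

open Matrix

noncomputable section

namespace Crest.Agent.R257.LcxS_759

/-- **covariance of the Aronhold invariant** -/
theorem S_act {T : T3} (hT : Sym T) (L : Matrix (Fin 3) (Fin 3) ℂ) :
    S (act T L) = L.det ^ 4 * S T := by
  have key : ∀ T : T3, Sym T → S (act T L) = L.det ^ 4 * S T := by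
    refine diagonal_transvection_induction (fun L => ∀ T : T3, Sym T → S (act T L) = L.det ^ 4 * S T)
      L (fun D _ T _ => S_diag T D) (fun t T hT => ?_) (fun A B hA hB T hT => ?_)
    · rw [TransvectionStruct.det, one_pow, one_mul]
      exact S_transv hT t.hij t.c
    · rw [act_mul, hB _ (act_sym hT A), hA T hT, det_mul]
      ring
  exact key T hT

theorem ev_act (T : T3) (L : Matrix (Fin 3) (Fin 3) ℂ) (x y z : Fin 3 → ℂ) :
    ev (act T L) x y z = ev T (L.mulVec x) (L.mulVec y) (L.mulVec z) := by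
  simp only [ev, act, Matrix.mulVec, dotProduct, Fin.sum_univ_three]
  ring

theorem ev_add1 (T : T3) (x x' y z : Fin 3 → ℂ) : ev T (x + x') y z = ev T x y z + ev T x' y z := by
  simp only [ev, Pi.add_apply, Fin.sum_univ_three]; ring

theorem ev_smul1 (T : T3) (c : ℂ) (x y z : Fin 3 → ℂ) : ev T (c • x) y z = c * ev T x y z := by
  simp only [ev, Pi.smul_apply, smul_eq_mul, Fin.sum_univ_three]; ring

theorem ev_add2 (T : T3) (x y y' z : Fin 3 → ℂ) : ev T x (y + y') z = ev T x y z + ev T x y' z := by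
  simp only [ev, Pi.add_apply, Fin.sum_univ_three]; ring

theorem ev_smul2 (T : T3) (c : ℂ) (x y z : Fin 3 → ℂ) : ev T x (c • y) z = c * ev T x y z := by
  simp only [ev, Pi.smul_apply, smul_eq_mul, Fin.sum_univ_three]; ring

theorem ev_add3 (T : T3) (x y z z' : Fin 3 → ℂ) : ev T x y (z + z') = ev T x y z + ev T x y z' := by
  simp only [ev, Pi.add_apply, Fin.sum_univ_three]; ring

theorem ev_smul3 (T : T3) (c : ℂ) (x y z : Fin 3 → ℂ) : ev T x y (c • z) = c * ev T x y z := by
  simp only [ev, Pi.smul_apply, smul_eq_mul, Fin.sum_univ_three]; ring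

theorem ev_swap12 {T : T3} (hT : Sym T) (x y z : Fin 3 → ℂ) : ev T x y z = ev T y x z := by
  unfold ev
  rw [Finset.sum_comm]
  refine Finset.sum_congr rfl fun a _ => Finset.sum_congr rfl fun b _ =>
    Finset.sum_congr rfl fun c _ => ?_
  rw [hT.s12 b a c]; ring

theorem ev_swap23 {T : T3} (hT : Sym T) (x y z : Fin 3 → ℂ) : ev T x y z = ev T x z y := by
  unfold ev
  refine Finset.sum_congr rfl fun a _ => ?_
  rw [Finset.sum_comm]
  refine Finset.sum_congr rfl fun b _ => Finset.sum_congr rfl fun c _ => ?_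
  rw [hT.s23 a c b]; ring

theorem ev_single (T : T3) (i j k : Fin 3) :
    ev T (Pi.single i 1) (Pi.single j 1) (Pi.single k 1) = T i j k := by
  fin_cases i <;> fin_cases j <;> fin_cases k <;> simp [ev, Fin.sum_univ_three]

/-- polarisation -/
theorem ev_cube {T : T3} (hT : Sym T) (x y : Fin 3 → ℂ) :
    ev T (x + y) (x + y) (x + y) =
      ev T x x x + 3 * ev T x x y + 3 * ev T x y y + ev T y y y := by
  simp only [ev_add1, ev_add2, ev_add3]
  have e1 : ev T x y x = ev T x x y := ev_swap23 hT _ _ _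
  have e2 : ev T y x x = ev T x x y := by rw [ev_swap12 hT, e1]
  have e3 : ev T y x y = ev T x y y := ev_swap12 hT _ _ _
  have e4 : ev T y y x = ev T x y y := by rw [ev_swap23 hT, e3]
  rw [e1, e2, e3, e4]; ring

theorem ev_polar {T N : T3} (hT : Sym T) (hN : Sym N) (h : ∀ x, ev T x x x = ev N x x x) :
    T = N := by
  have h1 : ∀ x y, ev T x x y = ev N x x y := by
    intro x y
    have a1 := h (x + y)
    have a2 := h (x + (-1 : ℂ) • y)
    rw [ev_cube hT, ev_cube hN] at a1 a2
    simp only [ev_smul1, ev_smul2, ev_smul3] at a2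
    rw [h x, h y] at a1
    rw [h x, h y] at a2
    have h3 : (6 : ℂ) ≠ 0 := by norm_num
    have : 6 * ev T x x y = 6 * ev N x x y := by linear_combination a1 - a2
    exact mul_left_cancel₀ h3 this
  have h2 : ∀ x y z, ev T x y z = ev N x y z := by
    intro x y z
    have a1 := h1 (x + y) z
    simp only [ev_add1, ev_add2] at a1
    rw [h1 x z, h1 y z, ev_swap12 hT y x z, ev_swap12 hN y x z] at a1
    have h3 : (2 : ℂ) ≠ 0 := by norm_num
    have : 2 * ev T x y z = 2 * ev N x y z := by linear_combination a1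
    exact mul_left_cancel₀ h3 this
  funext i j k
  rw [← ev_single T, ← ev_single N]
  exact h2 _ _ _

/-- the tensor of the normal cubic -/
def nT (a b : ℂ) : T3 := fun i j k =>
  (if i ≠ j ∧ j ≠ k ∧ i ≠ k then 1 else 0) + (if i = 1 ∧ j = 1 ∧ k = 1 then 6 * a else 0) +
    (if i = 2 ∧ j = 2 ∧ k = 2 then 6 * b else 0)

theorem nT_sym (a b : ℂ) : Sym (nT a b) where
  s12 i j k := by fin_cases i <;> fin_cases j <;> fin_cases k <;> simp [nT]
  s23 i j k := by fin_cases i <;> fin_cases j <;> fin_cases k <;> simp [nT]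

theorem ev_nT (a b : ℂ) (x : Fin 3 → ℂ) : ev (nT a b) x x x =
    6 * (x 0 * x 1 * x 2 + a * x 1 ^ 3 + b * x 2 ^ 3) := by
  simp [ev, nT, Fin.sum_univ_three]
  ring

theorem S_nT (a b : ℂ) : S (nT a b) = -1 := by
  simp [S, nT]

/-- Aronhold invariant of a cubic equivalent to a normal one -/
theorem S_of_nrm {T : T3} (hT : Sym T) {L : Matrix (Fin 3) (Fin 3) ℂ} {a b : ℂ}
    (h : ∀ x, ev T x x x = 6 * ((L.mulVec x) 0 * (L.mulVec x) 1 * (L.mulVec x) 2 +
      a * (L.mulVec x) 1 ^ 3 + b * (L.mulVec x) 2 ^ 3)) : S T = - L.det ^ 4 := by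
  have h1 : T = act (nT a b) L := ev_polar hT (act_sym (nT_sym a b) L) fun x => by
    rw [h, ev_act, ev_nT]
  rw [h1, S_act (nT_sym a b), S_nT]
  ring

theorem exists_e {v u : Fin 3 → ℂ} (hv : v ≠ 0) (huv : ∀ c : ℂ, u ≠ c • v) :
    ∃ e : Fin 3 → ℂ, LinearIndependent ℂ ![e, v, u] := by
  have hli : LinearIndependent ℂ ![v, u] := by
    rw [LinearIndependent.pair_iff' hv]
    exact fun c h => huv c h.symm
  obtain ⟨e, he⟩ := exists_linearIndependent_cons_of_lt_finrank hli
    (by rw [Module.finrank_fintype_fun_eq_card]; decide)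
  exact ⟨e, he⟩

/-- the Aronhold invariant of a non nodal cubic vanishes -/
theorem S_null {T : T3} (hT : Sym T) {v u : Fin 3 → ℂ} (hv : v ≠ 0) (huv : ∀ c : ℂ, u ≠ c • v)
    (h1 : ∀ w, ev T v v w = 0) (h2 : ∀ w, ev T v u w = 0) : S T = 0 := by
  obtain ⟨e, he⟩ := exists_e hv huv
  set M : Matrix (Fin 3) (Fin 3) ℂ := (Matrix.of ![e, v, u])ᵀ with hM
  have hdet : M.det ≠ 0 := by
    rw [hM, det_transpose]
    have : IsUnit (Matrix.of ![e, v, u] : Matrix (Fin 3) (Fin 3) ℂ) :=
      Matrix.linearIndependent_rows_iff_isUnit.1 he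
    exact (Matrix.isUnit_iff_isUnit_det _).1 this |>.ne_zero
  have hcol : ∀ i j k, act T M i j k = ev T (![e, v, u] i) (![e, v, u] j) (![e, v, u] k) := by
    intro i j k
    rfl
  have z1 : ∀ w, act T M 1 1 w = 0 := fun w => by rw [hcol]; exact h1 _
  have z2 : ∀ w, act T M 1 2 w = 0 := fun w => by rw [hcol]; exact h2 _
  have hA := act_sym hT M
  have y1 : act T M 0 1 1 = 0 := by rw [hA.s12, hA.s23]; exact z1 0
  have y2 : act T M 0 1 2 = 0 := by rw [hA.s12, hA.s23]; exact z2 0
  have h0 : S (act T M) = 0 := by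
    unfold S
    rw [y1, y2, z1 1, z1 2, z2 2]
    ring
  rw [S_act hT] at h0
  exact (mul_eq_zero.1 h0).resolve_left (pow_ne_zero 4 hdet)

/-- **node criterion**: a cubic with one ordinary node is nodal -/
theorem nodal_of_node {T : T3} (hT : Sym T) {p : Fin 3 → ℂ} (hp : p ≠ 0)
    (h1 : ∀ w, ev T p p w = 0) (h2 : ∀ u, (∀ w, ev T p u w = 0) → ∃ c : ℂ, u = c • p) :
    ∀ v u, v ≠ 0 → (∀ w, ev T v v w = 0) → (∀ w, ev T v u w = 0) → ∃ c : ℂ, u = c • v := by
  intro v u hv hvv hvu
  by_cases hvp : ∃ c : ℂ, v = c • p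
  · obtain ⟨c, hc⟩ := hvp
    have hc0 : c ≠ 0 := by
      rintro rfl
      exact hv (by rw [hc, zero_smul])
    obtain ⟨d, hd⟩ := h2 u fun w => by
      have := hvu w
      rw [hc, ev_smul1] at this
      exact (mul_eq_zero.1 this).resolve_left hc0
    refine ⟨d / c, ?_⟩
    rw [hd, hc, smul_smul, div_mul_cancel₀ _ hc0]
  · -- `T(p, v, ·) ≠ 0`
    have hpv : ¬ ∀ w, ev T p v w = 0 := fun h => hvp (h2 v h)
    have hspan : ∃ a b : ℂ, u = a • v + b • p := by
      by_contra hcon
      push Not at hcon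
      apply hpv
      have hli : LinearIndependent ℂ ![u, v, p] := by
        have h3 : LinearIndependent ℂ ![v, p] := by
          rw [LinearIndependent.pair_iff' hv]
          intro c hc
          by_cases hc0 : c = 0
          · rw [hc0, zero_smul] at hc
            exact hp hc.symm
          · exact hvp ⟨c⁻¹, by rw [← hc, smul_smul, inv_mul_cancel₀ hc0, one_smul]⟩
        refine linearIndependent_finCons.2 ⟨h3, ?_⟩
        rw [Submodule.mem_span_range_iff_exists_fun]
        rintro ⟨c, hc⟩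
        rw [Fin.sum_univ_two] at hc
        exact hcon (c 0) (c 1) hc.symm
      have htop := hli.span_eq_top_of_card_eq_finrank' (by simp)
      intro w
      have hw : w ∈ Submodule.span ℂ (Set.range ![u, v, p]) := by rw [htop]; trivial
      rw [Submodule.mem_span_range_iff_exists_fun] at hw
      obtain ⟨c, hc⟩ := hw
      rw [← hc, Fin.sum_univ_three]
      show ev T p v (c 0 • u + c 1 • v + c 2 • p) = 0
      simp only [ev_add3, ev_smul3]
      have e1 : ev T p v u = 0 := by
        rw [ev_swap12 hT, ev_swap23 hT]; exact hvu p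
      have e2 : ev T p v v = 0 := by
        rw [ev_swap12 hT, ev_swap23 hT]; exact hvv p
      have e3 : ev T p v p = 0 := by
        rw [ev_swap23 hT]; exact h1 v
      rw [e1, e2, e3]; ring
    obtain ⟨a, b, hab⟩ := hspan
    have hb : b = 0 := by
      by_contra hb0
      apply hpv
      intro w
      have h3 := hvu w
      rw [hab, ev_add2, ev_smul2, ev_smul2, hvv w, mul_zero, zero_add] at h3
      rw [ev_swap12 hT]
      exact (mul_eq_zero.1 h3).resolve_left hb0
    exact ⟨a, by rw [hab, hb, zero_smul, add_zero]⟩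

end Crest.Agent.R257.LcxS_759
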