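import Crest.Agent.R257.LcxA_759
import Crest.Agent.R257.LcxS2_759

/-!
R257 / LcxL_759 (helper759): linear changes of coordinates (depending analytically on `t`) in
`μ`-constant families.
-/

set_option autoImplicit false
set_option linter.unusedSimpArgs false

open Topology Filter Set Asymptotics Matrix
open Crest.AlgGeometry.Germ

noncomputable section

namespace Crest.Agent.R257.LcxL_759

open Crest.Agent.R257.Defs_219 Crest.Agent.R257.LCDefs_472 Crest.Agent.R257.LcxDefs_759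
open Crest.Agent.R257.LcxA_759 Crest.Agent.R257.LcxS_759

/-- the linear map of a matrix -/
def ml (L : Matrix (Fin 3) (Fin 3) ℂ) : E3 →L[ℂ] E3 := LinearMap.toContinuousLinearMap (Matrix.toLin' L)

theorem ml_apply (L : Matrix (Fin 3) (Fin 3) ℂ) (x : E3) : ml L x = L.mulVec x := rfl

/-- the linear automorphism of an invertible matrix -/
def me (L : Matrix (Fin 3) (Fin 3) ℂ) (h : L.det ≠ 0) : E3 ≃L[ℂ] E3 :=
  (LinearMap.GeneralLinearGroup.generalLinearEquiv ℂ E3
    (Matrix.GeneralLinearGroup.toLin (Matrix.GeneralLinearGroup.mkOfDetNeZero L h))).toContinuousLinearEquiv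

theorem me_apply (L : Matrix (Fin 3) (Fin 3) ℂ) (h : L.det ≠ 0) (x : E3) :
    me L h x = L.mulVec x := rfl

theorem cd_lin {g : E3 → ℂ} (L : Matrix (Fin 3) (Fin 3) ℂ) {x : E3}
    (hg : DifferentiableAt ℂ g (L.mulVec x)) (i : Fin 3) :
    coordDeriv (fun x => g (L.mulVec x)) i x = ∑ a, L a i * coordDeriv g a (L.mulVec x) := by
  have h1 := LCa_472.coordDeriv_comp (g := g) (θ := ml L) (x := x) hg (ml L).differentiableAt i
  have h2 : (g ∘ ml L) = fun x => g (L.mulVec x) := rfl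
  rw [h2] at h1
  rw [h1]
  refine Finset.sum_congr rfl fun a _ => ?_
  have h3 : coordDeriv (fun y => ml L y a) i x = L a i := by
    unfold coordDeriv
    have h4 : HasFDerivAt (fun y => ml L y a)
        ((ContinuousLinearMap.proj (R := ℂ) (φ := fun _ : Fin 3 => ℂ) a).comp (ml L)) x :=
      ((ContinuousLinearMap.proj (R := ℂ) (φ := fun _ : Fin 3 => ℂ) a).comp (ml L)).hasFDerivAt
    rw [h4.fderiv]
    show (L.mulVec (Pi.single i 1)) a = L a i
    simp
  rw [h3, ml_apply]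
  ring

theorem tendsto_ml (L : Matrix (Fin 3) (Fin 3) ℂ) :
    Tendsto (fun x : E3 => L.mulVec x) (𝓝 0) (𝓝 0) := by
  have := (ml L).continuous.tendsto 0
  rw [map_zero] at this
  exact this

theorem an_lin {g : E3 → ℂ} (L : Matrix (Fin 3) (Fin 3) ℂ) {x : E3}
    (hg : AnalyticAt ℂ g (L.mulVec x)) : AnalyticAt ℂ (fun x => g (L.mulVec x)) x :=
  AnalyticAt.comp (g := g) (f := fun x => L.mulVec x) hg ((ml L).analyticAt x)

theorem an_lin0 {g : E3 → ℂ} (L : Matrix (Fin 3) (Fin 3) ℂ) (hg : AnalyticAt ℂ g 0) :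
    AnalyticAt ℂ (fun x => g (L.mulVec x)) 0 := an_lin L (by simpa using hg)

/-- first derivatives near `0` -/
theorem cd_lin_ev {g : E3 → ℂ} (hg : AnalyticAt ℂ g 0) (L : Matrix (Fin 3) (Fin 3) ℂ)
    (i : Fin 3) : coordDeriv (fun x => g (L.mulVec x)) i =ᶠ[𝓝 0]
      fun x => ∑ a, L a i * coordDeriv g a (L.mulVec x) := by
  filter_upwards [(tendsto_ml L).eventually hg.eventually_analyticAt] with x hx
  exact cd_lin L hx.differentiableAt i

theorem cd2_lin_ev {g : E3 → ℂ} (hg : AnalyticAt ℂ g 0) (L : Matrix (Fin 3) (Fin 3) ℂ)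
    (i j : Fin 3) : coordDeriv (coordDeriv (fun x => g (L.mulVec x)) i) j =ᶠ[𝓝 0]
      fun x => ∑ a, ∑ b, L a i * L b j * coordDeriv (coordDeriv g a) b (L.mulVec x) := by
  filter_upwards [cd_congr (cd_lin_ev hg L i) j,
    (tendsto_ml L).eventually hg.eventually_analyticAt] with x hx h1
  rw [hx, cd_sum Finset.univ (f := fun a x => L a i * coordDeriv g a (L.mulVec x))
    (fun a _ => analyticAt_const.mul (an_lin L (an_cd h1 a)))]
  refine Finset.sum_congr rfl fun a _ => ?_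
  rw [cd_const_mul (an_lin L (an_cd h1 a)), cd_lin L (an_cd h1 a).differentiableAt, Finset.mul_sum]
  refine Finset.sum_congr rfl fun b _ => ?_
  ring

theorem H2_lin {g : E3 → ℂ} (hg : AnalyticAt ℂ g 0) (L : Matrix (Fin 3) (Fin 3) ℂ)
    (i j : Fin 3) : H2 (fun x => g (L.mulVec x)) i j = ∑ a, ∑ b, L a i * L b j * H2 g a b := by
  have := (cd2_lin_ev hg L i j).self_of_nhds
  unfold H2
  rw [this]
  simp

theorem H3_lin {g : E3 → ℂ} (hg : AnalyticAt ℂ g 0) (L : Matrix (Fin 3) (Fin 3) ℂ) :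
    H3 (fun x => g (L.mulVec x)) = act (H3 g) L := by
  funext i j k
  unfold H3 act
  rw [(cd_congr (cd2_lin_ev hg L i j) k).self_of_nhds]
  have han : ∀ a b, AnalyticAt ℂ (fun x : E3 => coordDeriv (coordDeriv g a) b (L.mulVec x)) 0 :=
    fun a b => an_lin0 L (an_cd (an_cd hg a) b)
  rw [cd_sum Finset.univ (f := fun a x => ∑ b, L a i * L b j *
    coordDeriv (coordDeriv g a) b (L.mulVec x)) (fun a _ =>
      Finset.analyticAt_fun_sum _ fun b _ => analyticAt_const.mul (han a b))]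
  refine Finset.sum_congr rfl fun a _ => ?_
  rw [cd_sum Finset.univ (f := fun b x => L a i * L b j *
    coordDeriv (coordDeriv g a) b (L.mulVec x)) (fun b _ => analyticAt_const.mul (han a b))]
  refine Finset.sum_congr rfl fun b _ => ?_
  rw [cd_const_mul (han a b), cd_lin L (by
    have := (an_cd (an_cd hg a) b).differentiableAt
    simpa using this), Finset.mul_sum]
  refine Finset.sum_congr rfl fun c _ => ?_
  rw [mulVec_zero]
  ring

theorem H3_sym {n : ℕ} {g : (Fin n → ℂ) → ℂ} (hg : AnalyticAt ℂ g 0) (i j k : Fin n) :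
    H3 g i j k = H3 g j i k ∧ H3 g i j k = H3 g i k j := by
  constructor
  · have h : coordDeriv (coordDeriv g i) j =ᶠ[𝓝 0] coordDeriv (coordDeriv g j) i := by
      filter_upwards [hg.eventually_analyticAt] with x hx
      exact cd_comm hx i j
    exact (cd_congr h k).self_of_nhds
  · exact cd_comm (an_cd hg i) j k

theorem sym_H3 {g : E3 → ℂ} (hg : AnalyticAt ℂ g 0) : Sym (H3 g) :=
  ⟨fun i j k => (H3_sym hg i j k).1, fun i j k => (H3_sym hg i j k).2⟩

theorem D3_eq (g : E3 → ℂ) (u v w : E3) : D3 g u v w = ev (H3 g) u v w := rfl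

theorem D3_lin {g : E3 → ℂ} (hg : AnalyticAt ℂ g 0) (L : Matrix (Fin 3) (Fin 3) ℂ) (u v w : E3) :
    D3 (fun x => g (L.mulVec x)) u v w = D3 g (L.mulVec u) (L.mulVec v) (L.mulVec w) := by
  rw [D3_eq, H3_lin hg, ev_act, D3_eq]

theorem mulVec_surj {L : Matrix (Fin 3) (Fin 3) ℂ} (hL : L.det ≠ 0) (w : E3) :
    L.mulVec (L⁻¹.mulVec w) = w := by
  rw [mulVec_mulVec, Matrix.mul_nonsing_inv _ (isUnit_iff_ne_zero.2 hL), one_mulVec]

theorem mulVec_inj {L : Matrix (Fin 3) (Fin 3) ℂ} (hL : L.det ≠ 0) {v : E3}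
    (h : L.mulVec v = 0) : v = 0 := by
  have : L⁻¹.mulVec (L.mulVec v) = v := by
    rw [mulVec_mulVec, Matrix.nonsing_inv_mul _ (isUnit_iff_ne_zero.2 hL), one_mulVec]
  rw [← this, h, mulVec_zero]

/-- `Nodal` is invariant -/
theorem nodal_lin {g : E3 → ℂ} (hg : AnalyticAt ℂ g 0) {L : Matrix (Fin 3) (Fin 3) ℂ}
    (hL : L.det ≠ 0) (h : Nodal fun x => g (L.mulVec x)) : Nodal g := by
  intro v u hv h1 h2
  have e : ∀ a b w, D3 (fun x => g (L.mulVec x)) (L⁻¹.mulVec a) (L⁻¹.mulVec b) w =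
      D3 g a b (L.mulVec w) := fun a b w => by
    rw [D3_lin hg, mulVec_surj hL, mulVec_surj hL]
  obtain ⟨c, hc⟩ := h (L⁻¹.mulVec v) (L⁻¹.mulVec u) (fun h0 => hv (by
    rw [← mulVec_surj hL v, h0, mulVec_zero])) (fun w => by rw [e]; exact h1 _)
    (fun w => by rw [e]; exact h2 _)
  refine ⟨c, ?_⟩
  rw [← mulVec_surj hL u, hc, mulVec_smul, mulVec_surj hL]

/-- change of coordinates in a family -/
def ch (M : ℂ → Matrix (Fin 3) (Fin 3) ℂ) (F : E3 × ℂ → ℂ) : E3 × ℂ → ℂ :=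
  fun q => F ((M q.2).mulVec q.1, q.2)

theorem sl_ch (M : ℂ → Matrix (Fin 3) (Fin 3) ℂ) (F : E3 × ℂ → ℂ) (t : ℂ) :
    sl (ch M F) t = fun x => sl F t ((M t).mulVec x) := rfl

theorem an_mul {M : ℂ → Matrix (Fin 3) (Fin 3) ℂ} (hM : ∀ i j, AnalyticAt ℂ (fun t => M t i j) 0) :
    AnalyticAt ℂ (fun q : E3 × ℂ => (((M q.2).mulVec q.1, q.2) : E3 × ℂ)) (0, 0) := by
  refine AnalyticAt.prod ?_ analyticAt_snd
  refine AnalyticAt.pi fun i => ?_
  simp only [Matrix.mulVec, dotProduct]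
  refine Finset.analyticAt_fun_sum _ fun j _ => ?_
  refine AnalyticAt.mul ?_ ?_
  · exact AnalyticAt.fun_comp (g := fun t => M t i j) (f := fun q : E3 × ℂ => q.2) (hM i j)
      analyticAt_snd
  · exact AnalyticAt.fun_comp (g := fun x : E3 => x j) (f := fun q : E3 × ℂ => q.1)
      ((ContinuousLinearMap.proj (R := ℂ) (φ := fun _ : Fin 3 => ℂ) j).analyticAt _) analyticAt_fst

theorem mul_zero' {M : ℂ → Matrix (Fin 3) (Fin 3) ℂ} (t : ℂ) :
    (((M t).mulVec (0 : E3), t) : E3 × ℂ) = (0, t) := by rw [mulVec_zero]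

theorem an_ch {M : ℂ → Matrix (Fin 3) (Fin 3) ℂ} (hM : ∀ i j, AnalyticAt ℂ (fun t => M t i j) 0)
    {F : E3 × ℂ → ℂ} (hF : AnalyticAt ℂ F (0, 0)) : AnalyticAt ℂ (ch M F) (0, 0) :=
  AnalyticAt.fun_comp (g := F) (f := fun q : E3 × ℂ => (((M q.2).mulVec q.1, q.2) : E3 × ℂ))
    (by simpa using hF) (an_mul hM)

theorem ev_an_sl {n : ℕ} {F : (Fin n → ℂ) × ℂ → ℂ} (hF : AnalyticAt ℂ F (0, 0)) :
    ∀ᶠ t in 𝓝 (0 : ℂ), AnalyticAt ℂ (sl F t) 0 := by
  have h1 : Tendsto (fun t : ℂ => ((0, t) : (Fin n → ℂ) × ℂ)) (𝓝 0) (𝓝 (0, 0)) :=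
    (Continuous.prodMk_right (0 : Fin n → ℂ)).tendsto' _ _ rfl
  filter_upwards [h1.eventually hF.eventually_analyticAt] with t ht
  exact Skel_219.analyticAt_sl ht

theorem det_ne {M : ℂ → Matrix (Fin 3) (Fin 3) ℂ} (hM : ∀ i j, AnalyticAt ℂ (fun t => M t i j) 0)
    (h0 : (M 0).det ≠ 0) : ∀ᶠ t in 𝓝 (0 : ℂ), (M t).det ≠ 0 := by
  have hc : ContinuousAt M 0 := continuousAt_pi.2 fun i => continuousAt_pi.2 fun j =>
    (hM i j).continuousAt
  have : ContinuousAt (fun t => (M t).det) 0 :=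
    (Continuous.matrix_det continuous_id).continuousAt.comp hc
  exact this.eventually_ne h0

theorem fam_ch {M : ℂ → Matrix (Fin 3) (Fin 3) ℂ} (hM : ∀ i j, AnalyticAt ℂ (fun t => M t i j) 0)
    (h0 : (M 0).det ≠ 0) {F : E3 × ℂ → ℂ} {μ : ℕ} (hF : Fam F μ) : Fam (ch M F) μ where
  an := an_ch hM hF.an
  zero := by
    filter_upwards [hF.zero] with t ht
    show F ((M t).mulVec 0, t) = 0
    rw [mulVec_zero]; exact ht
  crit := by
    filter_upwards [hF.crit, ev_an_sl hF.an] with t ht h1 i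
    rw [sl_ch, cd_lin (M t) (by rw [mulVec_zero]; exact h1.differentiableAt)]
    refine Finset.sum_eq_zero fun a _ => ?_
    rw [mulVec_zero, ht a, mul_zero]
  fin := by
    filter_upwards [hF.fin, ev_an_sl hF.an, det_ne hM h0] with t ht h1 h2
    have h3 := LCa_472.par_comp (f := sl (ch M F) t) (g := sl F t) (θ := ml (M t)) h1
      ((ml (M t)).analyticAt 0) (map_zero _) (by
        rw [(ml (M t)).fderiv]
        intro x y hxy
        have : (M t).mulVec (x - y) = 0 := by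
          have h4 : ml (M t) (x - y) = 0 := by rw [map_sub, hxy, sub_self]
          exact h4
        exact sub_eq_zero.1 (mulVec_inj h2 this))
      (by rw [sl_ch]; exact an_lin0 (M t) h1) (Eventually.of_forall fun x => rfl)
    exact ⟨h3.1.1 ht.1, by rw [← h3.2]; exact ht.2⟩
  iso := by
    have ht : Tendsto (fun q : E3 × ℂ => (((M q.2).mulVec q.1, q.2) : E3 × ℂ)) (𝓝 (0, 0))
        (𝓝 (0, 0)) := by
      have := (an_mul hM).continuousAt.tendsto
      simpa using this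
    have h5 : Tendsto (fun q : E3 × ℂ => q.2) (𝓝 (0, 0)) (𝓝 0) := continuous_snd.tendsto' _ _ rfl
    filter_upwards [ht.eventually hF.iso, ht.eventually hF.an.eventually_analyticAt,
      h5.eventually (det_ne hM h0)] with q h1 h2 h3 h4
    refine mulVec_inj h3 (h1 fun a => ?_)
    have e1 : (M q.2)ᵀ.mulVec (fun a => coordDeriv (sl F q.2) a ((M q.2).mulVec q.1)) = 0 := by
      funext i
      have := h4 i
      rw [sl_ch, cd_lin (M q.2) (by
        have h6 : AnalyticAt ℂ (sl F q.2) ((M q.2).mulVec q.1) :=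
          AnalyticAt.comp (g := F) (f := fun x : E3 => (x, q.2)) h2
            (analyticAt_id.prod analyticAt_const)
        exact h6.differentiableAt)] at this
      simpa [Matrix.mulVec, dotProduct] using this
    have e2 := mulVec_inj (L := (M q.2)ᵀ) (by rw [det_transpose]; exact h3) e1
    exact congrFun e2 a

end Crest.Agent.R257.LcxL_759
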