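import Mathlib

/-!
R257 / LcxS_759 (helper759): the Aronhold invariant `S` of ternary cubics, `S(T ∘ L) = det(L)^4 S(T)`,
and the node criterion (linear algebra of LCX).
-/

set_option autoImplicit false
set_option linter.unusedSimpArgs false
set_option linter.unusedTactic false

open Matrix

noncomputable section

namespace Crest.Agent.R257.LcxS_759

/-- tensors of ternary cubics -/
abbrev T3 : Type := Fin 3 → Fin 3 → Fin 3 → ℂ

/-- symmetric tensors -/
structure Sym (T : T3) : Prop where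
  s12 : ∀ i j k, T i j k = T j i k
  s23 : ∀ i j k, T i j k = T i k j

/-- the trilinear form -/
def ev (T : T3) (x y z : Fin 3 → ℂ) : ℂ := ∑ i, ∑ j, ∑ k, T i j k * x i * y j * z k

/-- the action -/
def act (T : T3) (L : Matrix (Fin 3) (Fin 3) ℂ) : T3 := fun i j k =>
  ∑ a, ∑ b, ∑ c, T a b c * L a i * L b j * L c k

/-- the Aronhold invariant -/
def S (T : T3) : ℂ :=
  T 0 0 0 * T 1 1 1 * T 2 2 2 * T 0 1 2
  - (T 1 1 1 * T 2 2 2 * T 0 0 1 * T 0 0 2 + T 2 2 2 * T 0 0 0 * T 0 1 1 * T 1 1 2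
      + T 0 0 0 * T 1 1 1 * T 0 2 2 * T 1 2 2)
  - T 0 1 2 * (T 0 0 0 * T 1 1 2 * T 1 2 2 + T 1 1 1 * T 0 2 2 * T 0 0 2
      + T 2 2 2 * T 0 0 1 * T 0 1 1)
  + (T 0 0 0 * T 0 1 1 * T 1 2 2 ^ 2 + T 0 0 0 * T 0 2 2 * T 1 1 2 ^ 2
      + T 1 1 1 * T 0 0 1 * T 0 2 2 ^ 2 + T 1 1 1 * T 1 2 2 * T 0 0 2 ^ 2
      + T 2 2 2 * T 1 1 2 * T 0 0 1 ^ 2 + T 2 2 2 * T 0 0 2 * T 0 1 1 ^ 2)
  - T 0 1 2 ^ 4
  + 2 * T 0 1 2 ^ 2 * (T 0 1 1 * T 0 2 2 + T 1 2 2 * T 0 0 1 + T 0 0 2 * T 1 1 2)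
  - 3 * T 0 1 2 * (T 0 0 1 * T 1 1 2 * T 0 2 2 + T 0 0 2 * T 0 1 1 * T 1 2 2)
  - (T 0 1 1 ^ 2 * T 0 2 2 ^ 2 + T 1 2 2 ^ 2 * T 0 0 1 ^ 2 + T 0 0 2 ^ 2 * T 1 1 2 ^ 2)
  + (T 1 2 2 * T 0 0 1 * T 0 0 2 * T 1 1 2 + T 0 0 2 * T 1 1 2 * T 0 1 1 * T 0 2 2
      + T 0 1 1 * T 0 2 2 * T 1 2 2 * T 0 0 1)

theorem act_sym {T : T3} (hT : Sym T) (L : Matrix (Fin 3) (Fin 3) ℂ) : Sym (act T L) where
  s12 i j k := by
    unfold act
    rw [Finset.sum_comm]
    refine Finset.sum_congr rfl fun a _ => Finset.sum_congr rfl fun b _ =>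
      Finset.sum_congr rfl fun c _ => ?_
    rw [hT.s12 b a c]; ring
  s23 i j k := by
    unfold act
    refine Finset.sum_congr rfl fun a _ => ?_
    rw [Finset.sum_comm]
    refine Finset.sum_congr rfl fun b _ => Finset.sum_congr rfl fun c _ => ?_
    rw [hT.s23 a c b]; ring

theorem act_mul (T : T3) (A B : Matrix (Fin 3) (Fin 3) ℂ) : act T (A * B) = act (act T A) B := by
  funext i j k
  unfold act
  simp only [Matrix.mul_apply, Fin.sum_univ_three]
  ring

theorem S_diag (T : T3) (D : Fin 3 → ℂ) :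
    S (act T (diagonal D)) = (diagonal D).det ^ 4 * S T := by
  have h : ∀ i j k, act T (diagonal D) i j k = T i j k * D i * D j * D k := by
    intro i j k
    unfold act
    simp [diagonal_apply]
  rw [det_diagonal, Fin.prod_univ_three]
  simp only [S, h]
  ring

theorem act_nest (T : T3) (L : Matrix (Fin 3) (Fin 3) ℂ) (a b d : Fin 3) :
    act T L a b d = ∑ x, (∑ y, (∑ z, T x y z * L z d) * L y b) * L x a := by
  unfold act
  simp only [Finset.sum_mul]
  refine Finset.sum_congr rfl fun x _ => Finset.sum_congr rfl fun y _ =>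
    Finset.sum_congr rfl fun z _ => ?_
  ring

theorem sum_transv {i j : Fin 3} (c : ℂ) (φ : Fin 3 → ℂ) (y : Fin 3) :
    ∑ x, φ x * transvection i j c x y = φ y + if y = j then c * φ i else 0 := by
  have h : ∀ x : Fin 3, φ x * transvection i j c x y =
      (if x = y then φ x else 0) + if x = i then (if y = j then c * φ x else 0) else 0 := by
    intro x
    simp only [transvection, Matrix.add_apply, Matrix.one_apply, Matrix.single_apply]
    have e1 : (i = x ∧ j = y) ↔ (x = i ∧ y = j) := ⟨fun h => ⟨h.1.symm, h.2.symm⟩,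
      fun h => ⟨h.1.symm, h.2.symm⟩⟩
    simp only [e1, ite_and]
    split_ifs <;> ring
  simp only [h, Finset.sum_add_distrib, Finset.sum_ite_eq', Finset.mem_univ, if_true]

theorem act_transv (T : T3) {i j : Fin 3} (c : ℂ) (a b d : Fin 3) :
    act T (transvection i j c) a b d =
      T a b d + (if d = j then c * T a b i else 0) + (if b = j then c * T a i d else 0) +
      (if b = j then if d = j then c ^ 2 * T a i i else 0 else 0) +
      (if a = j then c * T i b d else 0) +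
      (if a = j then if d = j then c ^ 2 * T i b i else 0 else 0) +
      (if a = j then if b = j then c ^ 2 * T i i d else 0 else 0) +
      (if a = j then if b = j then if d = j then c ^ 3 * T i i i else 0 else 0 else 0) := by
  rw [act_nest]
  simp only [sum_transv]
  split_ifs <;> ring

theorem S_transv {T : T3} (hT : Sym T) {i j : Fin 3} (hij : i ≠ j) (c : ℂ) :
    S (act T (transvection i j c)) = S T := by
  have s12 := hT.s12
  have s23 := hT.s23
  -- all entries in terms of the ten sorted ones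
  have a1 : T 0 1 0 = T 0 0 1 := s23 0 1 0
  have a2 : T 1 0 0 = T 0 0 1 := by rw [s12 1 0 0, a1]
  have a3 : T 0 2 0 = T 0 0 2 := s23 0 2 0
  have a4 : T 2 0 0 = T 0 0 2 := by rw [s12 2 0 0, a3]
  have a5 : T 1 0 1 = T 0 1 1 := s12 1 0 1
  have a6 : T 1 1 0 = T 0 1 1 := by rw [s23 1 1 0, a5]
  have a7 : T 0 2 1 = T 0 1 2 := s23 0 2 1
  have a8 : T 1 0 2 = T 0 1 2 := s12 1 0 2
  have a9 : T 1 2 0 = T 0 1 2 := by rw [s23 1 2 0, a8]
  have b1 : T 2 0 1 = T 0 1 2 := by rw [s12 2 0 1, a7]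
  have b2 : T 2 1 0 = T 0 1 2 := by rw [s12 2 1 0, a9]
  have b3 : T 2 0 2 = T 0 2 2 := s12 2 0 2
  have b4 : T 2 2 0 = T 0 2 2 := by rw [s23 2 2 0, b3]
  have b5 : T 1 2 1 = T 1 1 2 := s23 1 2 1
  have b6 : T 2 1 1 = T 1 1 2 := by rw [s12 2 1 1, b5]
  have b7 : T 2 1 2 = T 1 2 2 := s12 2 1 2
  have b8 : T 2 2 1 = T 1 2 2 := by rw [s23 2 2 1, b7]
  simp only [S, act_transv]
  fin_cases i <;> fin_cases j <;>
    first
    | exact absurd rfl hij
    | (simp
       simp only [a1, a2, a3, a4, a5, a6, a7, a8, a9, b1, b2, b3, b4, b5, b6, b7, b8]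
       ring)

end Crest.Agent.R257.LcxS_759
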