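import Crest.Agent.R257.NumH_488
import Crest.Agent.R257.Cnm1_889
import Crest.Agent.R257.UI8_939

/-!
Row 257 (S0395), leaf B-NUM (helper827), part A: lengths and colon ideals, linkage of the
`2 × 2` minors, rings of germs in three variables: two relatively prime germs define a curve.
-/

set_option autoImplicit false

open Set Filter Topology
open Crest.Agent.R275.Loc2879
open Crest.Agent.R257.UI939 (BB xB)
open Crest.Agent.R257.Num488

noncomputable section

namespace Crest.Agent.R257.LgA_827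

universe u

section Abstract

variable {R : Type u} [CommRing R]

/-- `length(R/J) = length(R/(J : c)) + length(R/(J + c))` -/
theorem dl_colon [Algebra ℂ R] (J K : Ideal R) (c : R) (hK : ∀ a, a ∈ K ↔ a * c ∈ J) :
    dl (R ⧸ J) = dl (R ⧸ K) + dl (R ⧸ (J ⊔ Ideal.span {c})) := by
  have h1 : K ≤ Submodule.comap (LinearMap.lsmul R R c) J := by
    intro a ha
    rw [Submodule.mem_comap, LinearMap.lsmul_apply, smul_eq_mul, mul_comm]
    exact (hK a).1 ha
  let f : (R ⧸ K) →ₗ[R] (R ⧸ J) := Submodule.mapQ K J (LinearMap.lsmul R R c) h1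
  let g : (R ⧸ J) →ₗ[R] (R ⧸ (J ⊔ Ideal.span {c})) :=
    Submodule.mapQ J (J ⊔ Ideal.span {c}) LinearMap.id (by simp)
  refine Module.length_eq_add_of_exact (f.restrictScalars ℂ) (g.restrictScalars ℂ) ?_ ?_ ?_
  · rw [LinearMap.coe_restrictScalars, injective_iff_map_eq_zero]
    intro x hx
    obtain ⟨a, rfl⟩ := Submodule.Quotient.mk_surjective _ x
    have h2 : (Submodule.Quotient.mk (c * a) : R ⧸ J) = 0 := hx
    rw [Submodule.Quotient.mk_eq_zero] at h2 ⊢
    exact (hK a).2 (by rwa [mul_comm])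
  · rw [LinearMap.coe_restrictScalars]
    intro x
    obtain ⟨a, rfl⟩ := Submodule.Quotient.mk_surjective _ x
    exact ⟨Submodule.Quotient.mk a, rfl⟩
  · intro x
    obtain ⟨a, rfl⟩ := Submodule.Quotient.mk_surjective _ x
    rw [LinearMap.coe_restrictScalars, LinearMap.coe_restrictScalars]
    constructor
    · intro hx
      have h2 : (Submodule.Quotient.mk a : R ⧸ (J ⊔ Ideal.span {c})) = 0 := hx
      rw [Submodule.Quotient.mk_eq_zero, Submodule.mem_sup] at h2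
      obtain ⟨j, hj, y, hy, rfl⟩ := h2
      obtain ⟨z, rfl⟩ := Ideal.mem_span_singleton'.1 hy
      refine ⟨Submodule.Quotient.mk z, ?_⟩
      change (Submodule.Quotient.mk (c * z) : R ⧸ J) = Submodule.Quotient.mk (j + z * c)
      rw [Submodule.Quotient.eq]
      have : c * z - (j + z * c) = -j := by ring
      rw [this]
      exact J.neg_mem hj
    · rintro ⟨y, hy⟩
      obtain ⟨z, rfl⟩ := Submodule.Quotient.mk_surjective _ y
      have h2 : (Submodule.Quotient.mk (c * z) : R ⧸ J) = Submodule.Quotient.mk a := hy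
      rw [Submodule.Quotient.eq] at h2
      change (Submodule.Quotient.mk a : R ⧸ (J ⊔ Ideal.span {c})) = 0
      rw [Submodule.Quotient.mk_eq_zero]
      have h3 : a = -(c * z - a) + z * c := by ring
      rw [h3]
      exact Submodule.add_mem_sup (J.neg_mem h2) (Ideal.mem_span_singleton'.2 ⟨z, rfl⟩)

lemma mem3 {a b c x : R} : x ∈ Ideal.span {a, b, c} ↔ ∃ r s t, x = r * a + s * b + t * c := by
  rw [Ideal.mem_span_insert]
  constructor
  · rintro ⟨r, z, hz, rfl⟩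
    obtain ⟨s, t, rfl⟩ := Ideal.mem_span_pair.1 hz
    exact ⟨r, s, t, by ring⟩
  · rintro ⟨r, s, t, rfl⟩
    exact ⟨r, s * b + t * c, Ideal.mem_span_pair.2 ⟨s, t, rfl⟩, by ring⟩

lemma mem2 {a b x : R} : x ∈ Ideal.span {a, b} ↔ ∃ r s, x = r * a + s * b := by
  rw [Ideal.mem_span_pair]
  exact ⟨fun ⟨r, s, h⟩ => ⟨r, s, h.symm⟩, fun ⟨r, s, h⟩ => ⟨r, s, h.symm⟩⟩

/-- **linkage** : the colon of `(f, M₁, M₃)` by `M₂` is `(f, f₂, g₂)` -/
theorem linkage (f f₁ f₂ f₃ g₁ g₂ g₃ : R)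
    (n1 : ∀ m, (f₁ * g₂ - f₂ * g₁) * m ∈ Ideal.span {f, f₂ * g₃ - f₃ * g₂} →
      m ∈ Ideal.span {f, f₂ * g₃ - f₃ * g₂})
    (n2 : ∀ m, f ∣ (f₂ * g₃ - f₃ * g₂) * m → f ∣ m) (a : R) :
    a ∈ Ideal.span {f, f₂, g₂} ↔
      a * (f₃ * g₁ - f₁ * g₃) ∈ Ideal.span {f, f₁ * g₂ - f₂ * g₁, f₂ * g₃ - f₃ * g₂} := by
  rw [mem3, mem3]
  constructor
  · rintro ⟨r, s, t, rfl⟩
    exact ⟨r * (f₃ * g₁ - f₁ * g₃), - s * f₃ - t * g₃, - s * f₁ - t * g₁, by ring⟩
  · rintro ⟨p, c, b, h⟩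
    have hα : a * g₃ + c * g₂ ∈ Ideal.span {f, f₂ * g₃ - f₃ * g₂} := by
      apply n1
      rw [mem2]
      exact ⟨- p * g₂, - b * g₂ - a * g₁, by linear_combination (-g₂) * h⟩
    have hβ : - f₂ * c - f₃ * a ∈ Ideal.span {f, f₂ * g₃ - f₃ * g₂} := by
      apply n1
      rw [mem2]
      exact ⟨p * f₂, f₁ * a + f₂ * b, by linear_combination f₂ * h⟩
    rw [mem2] at hα hβ
    obtain ⟨s, α, hα⟩ := hα
    obtain ⟨s', β, hβ⟩ := hβ
    have h1 : f ∣ (f₂ * g₃ - f₃ * g₂) * (a - α * f₂ - β * g₂) :=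
      ⟨s * f₂ + s' * g₂, by linear_combination f₂ * hα + g₂ * hβ⟩
    obtain ⟨q, hq⟩ := n2 _ h1
    exact ⟨q, α, β, by linear_combination hq⟩

end Abstract

/-- intersection number -/
abbrev T (a b c : BB 3) : ℕ∞ := dl (BB 3 ⧸ Ideal.span {a, b, c})

end Crest.Agent.R257.LgA_827
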