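import Crest.Agent.R257.LgA_827

/-!
Row 257 (S0395), leaf B-NUM (helper827), part B: ideals of finite colength in the ring of germs in
three variables; two relatively prime germs define a curve.
-/

set_option autoImplicit false

open Set Filter Topology
open Crest.Agent.R275.Loc2879
open Crest.Agent.R257.UI939 (BB xB)
open Crest.Agent.R257.Num488

noncomputable section

namespace Crest.Agent.R257.LgA_827

local notation "𝔪" => IsLocalRing.maximalIdeal (BB 3)

lemma mem_m {y : BB 3} : y ∈ 𝔪 ↔ ¬ IsUnit y := IsLocalRing.mem_maximalIdeal y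

lemma xB_mem (i : Fin 3) : xB i ∈ 𝔪 := mem_m.2 (UI939.xB_not_unit i)

lemma maxId_eq : 𝔪 = Ideal.span {xB 0, xB 1, xB 2} := by
  apply le_antisymm
  · intro a ha
    obtain ⟨c, y, hc⟩ := UI939.hadamard a
    have h1 : algebraMap ℂ (BB 3) c ∈ 𝔪 := by
      have : algebraMap ℂ (BB 3) c = a - ∑ i, y i * xB i := by rw [hc]; ring
      rw [this]
      exact Ideal.sub_mem _ ha (Ideal.sum_mem _ fun i _ => Ideal.mul_mem_left _ _ (xB_mem i))
    have h2 : c = 0 := by
      by_contra h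
      exact mem_m.1 h1 ((isUnit_iff_ne_zero.2 h).map _)
    rw [hc, h2, map_zero, zero_add, mem3, Fin.sum_univ_three]
    exact ⟨_, _, _, rfl⟩
  · rw [Ideal.span_le]
    rintro _ (rfl | rfl | rfl) <;> exact xB_mem _

lemma height_m : (𝔪).height ≤ 3 := by
  classical
  have h1 : 𝔪 ∈ (Ideal.span ((({xB 0, xB 1, xB 2} : Finset (BB 3)) : Set (BB 3)))).minimalPrimes := by
    have : ((({xB 0, xB 1, xB 2} : Finset (BB 3)) : Set (BB 3))) = {xB 0, xB 1, xB 2} := by simp
    rw [this, ← maxId_eq, Ideal.minimalPrimes_eq_subsingleton_self]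
    exact Set.mem_singleton _
  refine (Ideal.height_le_card_of_mem_minimalPrimes_span_finset h1).trans ?_
  exact_mod_cast Finset.card_le_three

/-- finite colength: a power of every non-unit -/
lemma pow_mem {I : Ideal (BB 3)} (h : dl (BB 3 ⧸ I) ≠ ⊤) :
    ∃ k : ℕ, ∀ y : BB 3, ¬ IsUnit y → y ^ k ∈ I := by
  have hf := finite_of_dl h
  exact ⟨_, fun y hy => Uni554.pow_le I hf rfl (Ideal.pow_mem_pow (mem_m.2 hy) _)⟩

lemma dl_quot_mono {I J : Ideal (BB 3)} (h : I ≤ J) (hI : dl (BB 3 ⧸ I) ≠ ⊤) :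
    dl (BB 3 ⧸ J) ≠ ⊤ := by
  have := finite_of_dl hI
  have h2 : Module.Finite ℂ (BB 3 ⧸ J) :=
    Module.Finite.of_surjective ((Ideal.Quotient.factorₐ ℂ h).toLinearMap)
      (Ideal.Quotient.factor_surjective h)
  exact dl_ne_top

lemma fin_of_pow {I : Ideal (BB 3)} {k : ℕ} (h : 𝔪 ^ k ≤ I) : dl (BB 3 ⧸ I) ≠ ⊤ := by
  have h1 : ∀ k : ℕ, UI939.JJ (xB (n := 3)) k ≤ 𝔪 ^ k := by
    intro k
    induction k with
    | zero => simp
    | succ k ih =>
      refine (UI939.JJ_succ_le _ _).trans ?_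
      rw [smul_eq_mul, pow_succ']
      refine Ideal.mul_mono ?_ ih
      rw [Ideal.span_le]
      rintro _ ⟨i, rfl⟩
      exact xB_mem i
  have h2 := UI939.finite_quot_JJ (n := 3) k
  exact dl_quot_mono ((h1 k).trans h) dl_ne_top

/-- a ring map which kills an ideal of finite colength kills all non-units -/
lemma kill {I : Ideal (BB 3)} (h : dl (BB 3 ⧸ I) ≠ ⊤) (φ : BB 3 →+* A1) (hφ : ∀ a ∈ I, φ a = 0)
    {y : BB 3} (hy : ¬ IsUnit y) : φ y = 0 := by
  obtain ⟨k, hk⟩ := pow_mem h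
  have h1 := hφ _ (hk y hy)
  rw [map_pow] at h1
  exact eq_zero_of_pow_eq_zero h1

lemma kill3 {a b c : BB 3} (h : T a b c ≠ ⊤) (φ : BB 3 →+* A1) (ha : φ a = 0) (hb : φ b = 0)
    (hc : φ c = 0) {y : BB 3} (hy : ¬ IsUnit y) : φ y = 0 := by
  refine kill h φ (fun x hx => ?_) hy
  obtain ⟨r, s, t, rfl⟩ := mem3.1 hx
  simp [ha, hb, hc]

/-- **two relatively prime germs in three variables define a curve** -/
theorem exists_third {a b : BB 3} (hab : IsRelPrime a b) : ∃ d, ¬ IsUnit d ∧ T a b d ≠ ⊤ := by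
  classical
  have h00 : ¬ IsUnit (0 : BB 3) := not_isUnit_zero
  by_cases ha : IsUnit a
  · refine ⟨0, h00, ?_⟩
    have : Ideal.span {a, b, 0} = ⊤ :=
      Ideal.eq_top_of_isUnit_mem _ (Ideal.subset_span (by simp)) ha
    rw [T, this]
    exact fin_of_pow (k := 0) (by simp)
  by_cases hb : IsUnit b
  · refine ⟨0, h00, ?_⟩
    have : Ideal.span {a, b, 0} = ⊤ :=
      Ideal.eq_top_of_isUnit_mem _ (Ideal.subset_span (by simp)) hb
    rw [T, this]
    exact fin_of_pow (k := 0) (by simp)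
  have ha0 : a ≠ 0 := by
    rintro rfl
    exact hb (hab (dvd_zero b) dvd_rfl)
  set I : Ideal (BB 3) := Ideal.span {a, b} with hI
  have hIm : I ≤ 𝔪 := by
    rw [hI, Ideal.span_le]
    rintro _ (rfl | rfl)
    · exact mem_m.2 ha
    · exact mem_m.2 hb
  have hfin := Ideal.finite_minimalPrimes_of_isNoetherianRing (BB 3) I
  -- finite colength of an ideal over which `𝔪` is minimal
  have key : ∀ d, 𝔪 ∈ (Ideal.span {a, b, d}).minimalPrimes → T a b d ≠ ⊤ := by
    intro d hd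
    have h1 : (Ideal.span {a, b, d}).radical = 𝔪 := by
      refine le_antisymm ?_ ?_
      · rw [Ideal.IsPrime.radical_le_iff hd.isPrime]
        exact hd.le
      · rw [Ideal.radical_eq_sInf]
        refine le_sInf ?_
        rintro J ⟨hJ, hJp⟩
        have h2 : J ≤ 𝔪 := IsLocalRing.le_maximalIdeal hJp.ne_top
        exact hd.2 ⟨hJp, hJ⟩ h2
    obtain ⟨k, hk⟩ := Ideal.exists_radical_pow_le_of_fg (Ideal.span {a, b, d})
      (by rw [h1]; exact IsNoetherian.noetherian _)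
    rw [h1] at hk
    exact fin_of_pow hk
  by_cases hmin : 𝔪 ∈ I.minimalPrimes
  · refine ⟨0, h00, key 0 ?_⟩
    have : Ideal.span {a, b, 0} = I := by
      rw [hI]
      apply le_antisymm
      · rw [Ideal.span_le]
        rintro _ (rfl | rfl | rfl)
        · exact Ideal.subset_span (by simp)
        · exact Ideal.subset_span (by simp)
        · exact Ideal.zero_mem _
      · exact Ideal.span_mono (by intro x hx; rcases hx with rfl | rfl <;> simp)
    rwa [this]
  -- prime avoidance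
  obtain ⟨d, hdm, hd⟩ : ∃ d ∈ 𝔪, ∀ P ∈ I.minimalPrimes, d ∉ P := by
    by_contra hcon
    push Not at hcon
    have h1 : ((𝔪 : Ideal (BB 3)) : Set (BB 3)) ⊆ ⋃ P ∈ I.minimalPrimes, (P : Set (BB 3)) := by
      intro d hd
      obtain ⟨P, hP, hdP⟩ := hcon d hd
      exact Set.mem_biUnion hP hdP
    obtain ⟨P, hP, hle⟩ := (Ideal.subset_union_prime_finite hfin (f := id) 0 0
      fun P hP _ _ => hP.isPrime).1 h1
    have h2 : 𝔪 = P := (IsLocalRing.maximalIdeal.isMaximal (BB 3)).eq_of_le hP.isPrime.ne_top hle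
    exact hmin (h2 ▸ hP)
  refine ⟨d, mem_m.1 hdm, key d ?_⟩
  have hle : Ideal.span {a, b, d} ≤ 𝔪 := by
    rw [Ideal.span_le]
    rintro _ (rfl | rfl | rfl)
    · exact mem_m.2 ha
    · exact mem_m.2 hb
    · exact hdm
  obtain ⟨Q, hQ, hQm⟩ := Ideal.exists_minimalPrimes_le hle
  have hQp := hQ.isPrime
  have hIQ : I ≤ Q := (Ideal.span_mono (by intro x hx; rcases hx with rfl | rfl <;> simp)).trans hQ.le
  obtain ⟨P, hP, hPQ⟩ := Ideal.exists_minimalPrimes_le hIQ
  have hPp := hP.isPrime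
  have hdQ : d ∈ Q := hQ.le (Ideal.subset_span (by simp))
  have hPQ' : P < Q := lt_of_le_of_ne hPQ fun h => hd P hP (h ▸ hdQ)
  -- an irreducible factor of `a` in `P`
  have haP : a ∈ P := hP.le (Ideal.subset_span (by simp))
  have hbP : b ∈ P := hP.le (Ideal.subset_span (by simp))
  obtain ⟨π, hπ, hπP⟩ : ∃ π, Prime π ∧ π ∈ P ∧ π ∣ a := by
    obtain ⟨f, hf, hfa⟩ := UniqueFactorizationMonoid.exists_prime_factors a ha0
    have h1 : f.prod ∈ P := by
      obtain ⟨u, hu⟩ := hfa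
      have : f.prod * u ∈ P := by rw [hu]; exact haP
      rcases hPp.mem_or_mem this with h | h
      · exact h
      · exact absurd (Ideal.eq_top_of_isUnit_mem _ h u.isUnit) hPp.ne_top
    obtain ⟨π, hπf, hπP⟩ := (Ideal.IsPrime.multiset_prod_mem_iff_exists_mem hPp f).1 h1
    exact ⟨π, hf π hπf, hπP, (Multiset.dvd_prod hπf).trans hfa.dvd⟩
  have hπp : (Ideal.span {π}).IsPrime := (Ideal.span_singleton_prime hπ.ne_zero).2 hπ
  have h0 : (⊥ : Ideal (BB 3)) < Ideal.span {π} := by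
    rw [bot_lt_iff_ne_bot, Ne, Ideal.span_singleton_eq_bot]
    exact hπ.ne_zero
  have h1 : Ideal.span {π} < P := by
    refine lt_of_le_of_ne ((Ideal.span_singleton_le_iff_mem _).2 hπP.1) ?_
    intro h
    rw [← h, Ideal.mem_span_singleton] at hbP
    exact hπ.not_isUnit (hab hπP.2 hbP)
  by_contra hcon
  have h2 : Q < 𝔪 := lt_of_le_of_ne hQm fun h => hcon (h ▸ hQ)
  have e0 := Ideal.height_add_one_le_of_lt_of_isPrime h0
  have e1 := Ideal.height_add_one_le_of_lt_of_isPrime h1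
  have e2 := Ideal.height_add_one_le_of_lt_of_isPrime hPQ'
  have e3 := Ideal.height_add_one_le_of_lt_of_isPrime h2
  have e4 : (4 : ℕ∞) ≤ 3 := by
    calc (4 : ℕ∞) = 0 + 1 + 1 + 1 + 1 := by norm_num
      _ ≤ (⊥ : Ideal (BB 3)).height + 1 + 1 + 1 + 1 := by gcongr; exact bot_le
      _ ≤ (Ideal.span {π}).height + 1 + 1 + 1 := by gcongr
      _ ≤ P.height + 1 + 1 := by gcongr
      _ ≤ Q.height + 1 := by gcongr
      _ ≤ (𝔪).height := e3
      _ ≤ 3 := height_m
  exact absurd e4 (by norm_num)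

end Crest.Agent.R257.LgA_827
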