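import Crest.Agent.R257.NumJ_488

/-!
Row 257 (S0395), leaf B-NUM, part K (helper488): intersection numbers `dl (O_3/(a,b,c))` by
branches: the interface (`Br`, `br_list`, `nzd`, `I_mul`, `chain`, `CL`).
-/

set_option autoImplicit false
set_option linter.unusedSectionVars false

open Set Filter Topology Metric
open Crest.Agent.R275
open Crest.Agent.R275.Loc2879 hiding AA
open Crest.Agent.R257.UI939

noncomputable section

namespace Crest.Agent.R257.Num488

universe u v w

/-- a (parametrised) branch of `{a = b = 0}` -/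
structure Br (a b : BB 3) (φ : BB 3 →+* A1) : Prop where
  cst : ∀ c : ℂ, φ (algebraMap ℂ (BB 3) c) = algebraMap ℂ A1 c
  fa : φ a = 0
  fb : φ b = 0

lemma span3 {R : Type u} [CommRing R] (a b c : R) :
    Ideal.span {a, b, c} = Ideal.span {a, b} ⊔ Ideal.span {c} := by
  rw [← Ideal.span_union]
  congr 1
  ext x; simp; tauto

lemma nonunit_map {n : ℕ} {φ : BB n →+* A1}
    (hφ : ∀ c : ℂ, φ (algebraMap ℂ (BB n) c) = algebraMap ℂ A1 c) {x : BB n} (hx : ¬ IsUnit x) :
    ¬ IsUnit (φ x) := by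
  intro hu
  have h1 : evp (0 : ℂ) (φ x) ≠ 0 := Loc2879.isUnit_iff.1 hu
  set c := evp (0 : ℂ) (φ x) with hc
  have h2 : IsUnit (x - algebraMap ℂ (BB n) c) := by
    rw [Loc2879.isUnit_iff, map_sub, evp_algebraMap]
    have h3 : evp (0 : Fin n → ℂ) x = 0 := by
      by_contra h; exact hx (Loc2879.isUnit_iff.2 h)
    rw [h3, zero_sub, neg_ne_zero]
    exact h1
  have h3 := h2.map φ
  rw [map_sub, hφ, Loc2879.isUnit_iff, map_sub, evp_algebraMap, ← hc, sub_self] at h3
  exact h3 rfl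

/-- finite list of branches which decides finiteness -/
theorem br_list {a b d : BB 3} (h : dl (BB 3 ⧸ Ideal.span {a, b, d}) ≠ ⊤) (hd : ¬ IsUnit d) :
    ∃ l : List (BB 3 →+* A1), (∀ φ ∈ l, Br a b φ) ∧
      ∀ c, dl (BB 3 ⧸ Ideal.span {a, b, c}) ≠ ⊤ ↔ ∀ φ ∈ l, φ c ≠ 0 := by
  obtain ⟨C⟩ := curve3 h hd
  refine ⟨C.l, fun φ hφ => ⟨C.cst φ hφ, C.ker φ hφ _ (Ideal.subset_span (by simp)),
    C.ker φ hφ _ (Ideal.subset_span (by simp))⟩, fun c => ?_⟩
  rw [span3, ← C.reg]

theorem nzd {a b c : BB 3} (h : dl (BB 3 ⧸ Ideal.span {a, b, c}) ≠ ⊤) {m : BB 3}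
    (hm : c * m ∈ Ideal.span {a, b}) : m ∈ Ideal.span {a, b} := by
  by_cases hc : IsUnit c
  · obtain ⟨u, rfl⟩ := hc
    have h1 : m = ((u⁻¹ : (BB 3)ˣ) : BB 3) * (u * m) := by
      rw [← mul_assoc, Units.inv_mul, one_mul]
    rw [h1]
    exact Ideal.mul_mem_left _ _ hm
  · obtain ⟨C⟩ := curve3 h hc
    rw [span3, ← C.reg] at h
    exact C.nzd c h m hm

/-- additivity -/
theorem I_mul (a b u v : BB 3) : dl (BB 3 ⧸ Ideal.span {a, b, u * v}) =
    dl (BB 3 ⧸ Ideal.span {a, b, u}) + dl (BB 3 ⧸ Ideal.span {a, b, v}) := by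
  by_cases h : dl (BB 3 ⧸ Ideal.span {a, b, u}) = ⊤
  · rw [h, top_add, eq_top_iff, ← h]
    refine dl_anti ?_
    rw [span3, span3]
    refine sup_le_sup_left ?_ _
    rw [Ideal.span_singleton_le_span_singleton]
    exact Dvd.intro _ rfl
  · have h1 := dl_mul (R := BB 3 ⧸ Ideal.span {a, b}) (Ideal.Quotient.mk _ u) (Ideal.Quotient.mk _ v)
      (by
        intro x y hxy
        obtain ⟨x, rfl⟩ := Ideal.Quotient.mk_surjective x
        obtain ⟨y, rfl⟩ := Ideal.Quotient.mk_surjective y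
        rw [Ideal.Quotient.eq]
        refine nzd h ?_
        rw [mul_sub, ← Ideal.Quotient.eq, map_mul, map_mul]
        exact hxy)
    rw [← map_mul, dl_quot_quot, dl_quot_quot, dl_quot_quot] at h1
    rw [span3, span3, span3]
    exact h1

lemma eq_zero_of_dvd {x : A1} (h : ∀ n : ℕ, TT (0 : ℂ) ^ n ∣ x) : x = 0 := by
  by_contra hx
  have h1 := vv_eq_top (x := x)
  have h2 : vv x ≠ ⊤ := fun e => hx (h1.1 e)
  obtain ⟨n, hn⟩ := ENat.ne_top_iff_exists.1 h2
  obtain ⟨y, hy⟩ := h (n + 1)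
  rw [hy, vv_mul, vv_TT_pow] at hn
  have h3 : ((n + 1 : ℕ) : ℕ∞) ≤ (n : ℕ∞) := by
    rw [hn]; exact le_self_add
  have h4 : n + 1 ≤ n := by exact_mod_cast h3
  omega

/-- a linear form as a combination of the coordinates of a basis -/
lemma lin_basis {n : ℕ} (b : Module.Basis (Fin n) ℂ (Fin n → ℂ)) (l : (Fin n → ℂ) →L[ℂ] ℂ) :
    lin l = ∑ i, algebraMap ℂ (BB n) (l (b i)) * lin (LinearMap.toContinuousLinearMap (b.coord i)) := by
  have h1 : l = ∑ i, l (b i) • LinearMap.toContinuousLinearMap (b.coord i) := by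
    ext x
    have h2 := b.sum_repr x
    conv_lhs => rw [← h2]
    rw [map_sum, sum_apply]
    refine Finset.sum_congr rfl fun i _ => ?_
    rw [map_smul]
    simp [mul_comm]
  have h3 : ∀ (s : Finset (Fin n)) (c : Fin n → ℂ) (m : Fin n → ((Fin n → ℂ) →L[ℂ] ℂ)),
      lin (∑ i ∈ s, c i • m i) = ∑ i ∈ s, algebraMap ℂ (BB n) (c i) * lin (m i) := by
    classical
    intro s c m
    induction s using Finset.induction_on with
    | empty => rw [Finset.sum_empty, Finset.sum_empty, lin_zero]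
    | insert i s hi ih =>
      rw [Finset.sum_insert hi, Finset.sum_insert hi, lin_add, ih, lin_smul, Algebra.smul_def]
  conv_lhs => rw [h1]
  exact h3 _ _ _

/-- **chain rule** -/
theorem chain {n : ℕ} {φ : BB n →+* A1}
    (hφ : ∀ c : ℂ, φ (algebraMap ℂ (BB n) c) = algebraMap ℂ A1 c) (f : BB n)
    (b : Module.Basis (Fin n) ℂ (Fin n → ℂ)) :
    DD (φ f) = ∑ i, φ (dd (b i) f) * DD (φ (lin (LinearMap.toContinuousLinearMap (b.coord i)))) := by
  set T : BB n → A1 := fun f => DD (φ f) -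
    ∑ i, φ (dd (b i) f) * DD (φ (lin (LinearMap.toContinuousLinearMap (b.coord i)))) with hT
  have hadd : ∀ x y, T (x + y) = T x + T y := by
    intro x y
    simp only [hT, map_add, add_mul, Finset.sum_add_distrib]
    ring
  have hsum : ∀ (s : Finset (Fin n)) (x : Fin n → BB n), T (∑ i ∈ s, x i) = ∑ i ∈ s, T (x i) := by
    classical
    intro s x
    induction s using Finset.induction_on with
    | empty => simp [hT]
    | insert i s hi ih => rw [Finset.sum_insert hi, Finset.sum_insert hi, hadd, ih]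
  have hmul : ∀ x y, T (x * y) = φ x * T y + φ y * T x := by
    intro x y
    simp only [hT, map_mul, Derivation.leibniz, smul_eq_mul, map_add, add_mul, mul_sub,
      Finset.sum_add_distrib, Finset.mul_sum]
    have e1 : ∀ (p q : Fin n → A1), (∑ i, p i = ∑ i, q i) → ∑ i, p i = ∑ i, q i := fun _ _ h => h
    have e2 : ∀ i, φ x * φ (dd (b i) y) * DD (φ (lin (LinearMap.toContinuousLinearMap (b.coord i)))) =
      φ x * (φ (dd (b i) y) * DD (φ (lin (LinearMap.toContinuousLinearMap (b.coord i))))) :=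
      fun i => mul_assoc _ _ _
    have e3 : ∀ i, φ y * φ (dd (b i) x) * DD (φ (lin (LinearMap.toContinuousLinearMap (b.coord i)))) =
      φ y * (φ (dd (b i) x) * DD (φ (lin (LinearMap.toContinuousLinearMap (b.coord i))))) :=
      fun i => mul_assoc _ _ _
    simp only [e2, e3]
    ring
  have hcst : ∀ c : ℂ, T (algebraMap ℂ (BB n) c) = 0 := by
    intro c
    simp only [hT, hφ, Derivation.map_algebraMap, map_zero, zero_mul, Finset.sum_const_zero,
      sub_zero]
  have hlin : ∀ l : (Fin n → ℂ) →L[ℂ] ℂ, T (lin l) = 0 := by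
    intro l
    have e1 := congrArg T (lin_basis b l)
    rw [hsum] at e1
    rw [e1]
    refine Finset.sum_eq_zero fun i _ => ?_
    rw [hmul, hcst, mul_zero, add_zero]
    have e2 : T (lin (LinearMap.toContinuousLinearMap (b.coord i))) = 0 := by
      simp only [hT, dd_lin, hφ]
      rw [Finset.sum_eq_single i]
      · simp
      · intro j _ hj
        have : (LinearMap.toContinuousLinearMap (b.coord i)) (b j) = 0 := by
          simp [Module.Basis.coord_apply, hj]
        rw [this, map_zero, zero_mul]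
      · intro h; exact absurd (Finset.mem_univ _) h
    rw [e2, mul_zero]
  have hdiv : ∀ (k : ℕ) (f : BB n), TT (0 : ℂ) ^ k ∣ T f := by
    intro k
    induction k with
    | zero => intro f; rw [pow_zero]; exact one_dvd _
    | succ k ih =>
      intro f
      obtain ⟨c, y, e⟩ := hadamard f
      rw [e, hadd, hcst, zero_add, hsum]
      refine Finset.dvd_sum fun i _ => ?_
      have e1 : T (xB i) = 0 := hlin (ContinuousLinearMap.proj (R := ℂ) (φ := fun _ : Fin n => ℂ) i)
      rw [hmul, e1, mul_zero, zero_add, pow_succ']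
      exact mul_dvd_mul (TT_dvd (nonunit_map hφ (xB_not_unit i))) (ih (y i))
  have := eq_zero_of_dvd fun k => hdiv k f
  exact sub_eq_zero.1 this

lemma enat_cancel {N : ℕ} (hN : N ≠ 0) {a b : ℕ∞} (ha : a ≠ ⊤) (hb : b ≠ ⊤)
    (h : (N : ℕ∞) * a = N * b) : a = b := by
  obtain ⟨x, rfl⟩ := ENat.ne_top_iff_exists.1 ha
  obtain ⟨y, rfl⟩ := ENat.ne_top_iff_exists.1 hb
  have h1 : N * x = N * y := by exact_mod_cast h
  rw [Nat.eq_of_mul_eq_mul_left (Nat.pos_of_ne_zero hN) h1]

/-- **comparison of intersection numbers** -/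
theorem CL {a b u v w x : BB 3} (hv : ¬ IsUnit v) (hx : ¬ IsUnit x)
    (fu : dl (BB 3 ⧸ Ideal.span {a, b, u}) ≠ ⊤) (fv : dl (BB 3 ⧸ Ideal.span {a, b, v}) ≠ ⊤)
    (fw : dl (BB 3 ⧸ Ideal.span {a, b, w}) ≠ ⊤) (fx : dl (BB 3 ⧸ Ideal.span {a, b, x}) ≠ ⊤)
    (H : ∀ φ, Br a b φ → φ u * DD (φ v) = φ w * DD (φ x)) :
    dl (BB 3 ⧸ Ideal.span {a, b, u}) + dl (BB 3 ⧸ Ideal.span {a, b, v}) =
      dl (BB 3 ⧸ Ideal.span {a, b, w}) + dl (BB 3 ⧸ Ideal.span {a, b, x}) := by
  obtain ⟨C⟩ := curve3 fv hv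
  have fu' := fu; have fv' := fv; have fw' := fw; have fx' := fx
  rw [span3, ← C.reg] at fu' fv' fw' fx'
  refine enat_cancel C.hN (by simp [fu, fv]) (by simp [fw, fx]) ?_
  rw [mul_add, mul_add, span3 a b u, span3 a b v, span3 a b w, span3 a b x]
  rw [C.sum u fu', C.sum v fv', C.sum w fw', C.sum x fx']
  have key : ∀ φ ∈ C.l, vv (φ u) + vv (φ v) = vv (φ w) + vv (φ x) := by
    intro φ hφ
    have hb : Br a b φ := ⟨C.cst φ hφ, C.ker φ hφ _ (Ideal.subset_span (by simp)),
      C.ker φ hφ _ (Ideal.subset_span (by simp))⟩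
    have h1 := congrArg vv (H φ hb)
    rw [vv_mul, vv_mul] at h1
    rw [← vv_DD (nonunit_map hb.cst hv), ← vv_DD (nonunit_map hb.cst hx), ← add_assoc, ← add_assoc,
      h1]
  generalize C.l = l at key
  induction l with
  | nil => simp
  | cons φ l ih =>
    simp only [List.map_cons, List.sum_cons]
    have h1 := key φ (by simp)
    have h2 := ih (fun ψ hψ => key ψ (by simp [hψ]))
    calc _ = (vv (φ u) + vv (φ v)) + ((l.map fun φ => vv (φ u)).sum + (l.map fun φ => vv (φ v)).sum) := by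
            ring
      _ = _ := by rw [h1, h2]; ring

end Crest.Agent.R257.Num488
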