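import Crest.Agent.R257.LgB_827
import Crest.Agent.R257.NumK_488

/-!
Row 257 (S0395), leaf B-NUM (helper827), part C: elementary operations on a basis, scalars outside a
finite set, derivatives and minors in a basis.
-/

set_option autoImplicit false

open Set Filter Topology
open Crest.Agent.R275.Loc2879
open Crest.Agent.R257.UI939 (BB xB)
open Crest.Agent.R257.Num488

noncomputable section

namespace Crest.Agent.R257.LgA_827

local notation "𝔪" => IsLocalRing.maximalIdeal (BB 3)

/-- bases of `ℂ³` -/
abbrev Bs : Type := Module.Basis (Fin 3) ℂ (Fin 3 → ℂ)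

/-- a transvection of the coordinates -/
def tv (i j : Fin 3) (hij : i ≠ j) (c : ℂ) : (Fin 3 → ℂ) ≃ₗ[ℂ] (Fin 3 → ℂ) where
  toFun y := Function.update y j (y j - c * y i)
  invFun y := Function.update y j (y j + c * y i)
  map_add' x y := by
    funext k
    by_cases h : k = j
    · subst h; simp; ring
    · simp [Function.update_of_ne h]
  map_smul' a x := by
    funext k
    by_cases h : k = j
    · subst h; simp; ring
    · simp [Function.update_of_ne h]
  left_inv x := by
    funext k
    by_cases h : k = j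
    · subst h; simp [Function.update_of_ne hij]
    · simp [Function.update_of_ne h]
  right_inv x := by
    funext k
    by_cases h : k = j
    · subst h; simp [Function.update_of_ne hij]
    · simp [Function.update_of_ne h]

/-- elementary operation on a basis -/
theorem exists_op (b : Bs) {i j : Fin 3} (hij : i ≠ j) (c : ℂ) : ∃ b' : Bs,
    b' i = b i + c • b j ∧ (∀ k, k ≠ i → b' k = b k) ∧ b'.coord j = b.coord j - c • b.coord i ∧
      ∀ k, k ≠ j → b'.coord k = b.coord k := by
  let b' : Bs := Module.Basis.ofEquivFun (b.equivFun.trans (tv i j hij c))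
  have hv : ∀ k, b' k = b.equivFun.symm ((tv i j hij c).symm (Pi.single k 1)) := by
    intro k
    simp only [b', Module.Basis.coe_ofEquivFun]
    rfl
  have hc : ∀ k v, b'.coord k v = (tv i j hij c (b.equivFun v)) k := by
    intro k v
    simp only [b', Module.Basis.coord_apply]
    rfl
  have hb : ∀ k, b.equivFun.symm (Pi.single k 1) = b k := by
    intro k
    rw [Module.Basis.equivFun_symm_apply, Finset.sum_eq_single k]
    · simp
    · intro l _ hl; simp [hl]
    · intro h; exact absurd (Finset.mem_univ _) h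
  have h1 : ∀ k, (tv i j hij c).symm (Pi.single k 1) =
      Pi.single k 1 + (c * (Pi.single k 1 : Fin 3 → ℂ) i) • Pi.single j 1 := by
    intro k
    funext l
    change Function.update _ j _ l = _
    by_cases h : l = j
    · subst h; simp
    · rw [Function.update_of_ne h, Pi.add_apply, Pi.smul_apply, Pi.single_eq_of_ne h, smul_zero,
        add_zero]
  refine ⟨b', ?_, ?_, ?_, ?_⟩
  · rw [hv, h1, map_add, map_smul, hb, hb]; simp
  · intro k hk
    rw [hv, h1, map_add, map_smul, hb, hb]; simp [Pi.single_apply, Ne.symm hk]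
  · refine LinearMap.ext fun v => ?_
    rw [hc]
    change Function.update _ j _ j = _
    simp [Module.Basis.coord_apply]
  · intro k hk
    refine LinearMap.ext fun v => ?_
    rw [hc]
    change Function.update _ j _ k = _
    rw [Function.update_of_ne hk]
    simp [Module.Basis.coord_apply]

/-- derivative in a basis -/
def D (b : Bs) (i : Fin 3) (f : BB 3) : BB 3 := dd (b i) f

/-- coordinates of a basis -/
def X (b : Bs) (i : Fin 3) : BB 3 := lin (LinearMap.toContinuousLinearMap (b.coord i))

lemma X_mem (b : Bs) (i : Fin 3) : ¬ IsUnit (X b i) := lin_mem _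

/-- the operation on derivatives and coordinates -/
theorem exists_op' (b : Bs) {i j : Fin 3} (hij : i ≠ j) (c : ℂ) : ∃ b' : Bs,
    (∀ f, D b' i f = D b i f + c • D b j f) ∧ (∀ k, k ≠ i → ∀ f, D b' k f = D b k f) ∧
      X b' j = X b j + (-c) • X b i ∧ ∀ k, k ≠ j → X b' k = X b k := by
  obtain ⟨b', h1, h2, h3, h4⟩ := exists_op b hij c
  refine ⟨b', fun f => ?_, fun k hk f => ?_, ?_, fun k hk => ?_⟩
  · rw [D, h1, dd_add, dd_smul]; rfl
  · rw [D, h2 k hk]; rfl
  · rw [X, h3]
    have : LinearMap.toContinuousLinearMap (b.coord j - c • b.coord i) =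
        LinearMap.toContinuousLinearMap (b.coord j) +
          (-c) • LinearMap.toContinuousLinearMap (b.coord i) := by
      ext v; simp; ring
    rw [this, lin_add, lin_smul]; rfl
  · rw [X, h4 k hk]; rfl

/-! ### scalars -/

lemma smul_mem_iff {U : Ideal (BB 3)} {c : ℂ} (hc : c ≠ 0) {z : BB 3} (h : c • z ∈ U) : z ∈ U := by
  have h1 : c⁻¹ • (c • z) ∈ U := by
    rw [Algebra.smul_def]; exact U.mul_mem_left _ h
  rwa [smul_smul, inv_mul_cancel₀ hc, one_smul] at h1

lemma smul_mem' {U : Ideal (BB 3)} (c : ℂ) {z : BB 3} (h : z ∈ U) : c • z ∈ U := by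
  rw [Algebra.smul_def]; exact U.mul_mem_left _ h

lemma sub1 {U : Ideal (BB 3)} {y z : BB 3} (h : y ∉ U ∨ z ∉ U) :
    {c : ℂ | y + c • z ∈ U}.Subsingleton := by
  intro c hc c' hc'
  by_contra hne
  have h1 : (c - c') • z ∈ U := by
    have := U.sub_mem hc hc'
    rw [add_sub_add_left_eq_sub, ← sub_smul] at this
    exact this
  have h2 := smul_mem_iff (sub_ne_zero.2 hne) h1
  have h3 : y ∈ U := by
    have := U.sub_mem hc (smul_mem' c h2)
    rwa [add_sub_cancel_right] at this
  rcases h with h | h
  · exact h h3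
  · exact h h2

lemma sub2 {U : Ideal (BB 3)} {y z w : BB 3} (h : y ∉ U ∨ z ∉ U ∨ w ∉ U) :
    {c : ℂ | y + c • z ∈ U ∧ w ∈ U}.Subsingleton := by
  by_cases hw : w ∈ U
  · have h1 : y ∉ U ∨ z ∉ U := by tauto
    exact (sub1 h1).anti fun c hc => hc.1
  · intro c hc; exact absurd hc.2 hw

/-- finitely many bad scalars -/
lemma bad_fin {α : Type*} (l : List α) (P : α → ℂ → Prop)
    (h : ∀ a ∈ l, {c : ℂ | P a c}.Subsingleton) : {c : ℂ | ∃ a ∈ l, P a c}.Finite := by
  have : {c : ℂ | ∃ a ∈ l, P a c} = ⋃ a ∈ {a | a ∈ l}, {c : ℂ | P a c} := by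
    ext c; simp
  rw [this]
  exact (List.finite_toSet l).biUnion fun a ha => (h a ha).finite

lemma exists_c {s : Set ℂ} (hs : s.Finite) : ∃ c, c ∉ s := hs.exists_notMem

end Crest.Agent.R257.LgA_827
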