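import Crest.Agent.R257.LgC_827

/-!
Row 257 (S0395), leaf B-NUM (helper827), part D: invariance of the ideals under elementary
operations; prime factors; a good basis.
-/

set_option autoImplicit false

open Set Filter Topology
open Crest.Agent.R275.Loc2879
open Crest.Agent.R257.UI939 (BB xB)
open Crest.Agent.R257.Num488

noncomputable section

namespace Crest.Agent.R257.LgA_827

local notation "𝔪" => IsLocalRing.maximalIdeal (BB 3)

/-! ### primes -/

lemma not_all_dvd {π a b c : BB 3} (hπ : Prime π) (h : T a b c ≠ ⊤) :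
    ¬ (π ∣ a ∧ π ∣ b ∧ π ∣ c) := by
  rintro ⟨⟨a', rfl⟩, ⟨b', rfl⟩, ⟨c', rfl⟩⟩
  obtain ⟨k, hk⟩ := pow_mem h
  refine Cnm1_889.two_not_enough3 hπ.not_isUnit hπ.not_isUnit (k := k) fun y hy => ?_
  obtain ⟨r, s, t, e⟩ := mem3.1 (hk y hy)
  exact ⟨r * a' + s * b' + t * c', 0, by rw [e]; ring⟩

lemma prime_list {f : BB 3} (hf : f ≠ 0) : ∃ l : List (BB 3), (∀ π ∈ l, Prime π ∧ π ∣ f) ∧
    ∀ y, (∀ π ∈ l, ¬ π ∣ y) → IsRelPrime f y := by
  obtain ⟨s, hs, hsf⟩ := UniqueFactorizationMonoid.exists_prime_factors f hf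
  refine ⟨s.toList, fun π hπ => ?_, fun y hy => ?_⟩
  · rw [Multiset.mem_toList] at hπ
    exact ⟨hs π hπ, (Multiset.dvd_prod hπ).trans hsf.dvd⟩
  · rw [UniqueFactorizationMonoid.isRelPrime_iff_no_prime_factors hf]
    intro d hdf hdy hd
    have h1 : d ∣ s.prod := hdf.trans hsf.symm.dvd
    obtain ⟨π, hπ, hdπ⟩ := hd.exists_mem_multiset_dvd h1
    have h2 : Associated d π := (hd.dvd_prime_iff_associated (hs π hπ)).1 hdπ
    exact hy π (Multiset.mem_toList.2 hπ) (h2.symm.dvd.trans hdy)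

/-! ### the minors in a basis -/

/-- the minors of `(df, dg)` in a basis -/
def W (b : Bs) (f g : BB 3) (p q : Fin 3) : BB 3 := D b p f * D b q g - D b q f * D b p g

/-- the ideal of `f` and of the minors -/
def IW (b : Bs) (f g : BB 3) : Ideal (BB 3) :=
  Ideal.span (insert f (Set.range fun r : Fin 3 × Fin 3 => W b f g r.1 r.2))

lemma f_mem_IW (b : Bs) (f g : BB 3) : f ∈ IW b f g := Ideal.subset_span (by simp)

lemma W_mem_IW (b : Bs) (f g : BB 3) (p q : Fin 3) : W b f g p q ∈ IW b f g :=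
  Ideal.subset_span (Set.mem_insert_of_mem _ ⟨(p, q), rfl⟩)

/-- the ideal of the partial derivatives -/
def IP (b : Bs) (f : BB 3) : Ideal (BB 3) := Ideal.span (Set.range fun r : Fin 3 => D b r f)

lemma D_mem_IP (b : Bs) (f : BB 3) (p : Fin 3) : D b p f ∈ IP b f :=
  Ideal.subset_span ⟨p, rfl⟩

/-- the determinant -/
def Jd (b : Bs) (f g h : BB 3) : BB 3 :=
  W b f g 1 2 * D b 0 h - W b f g 0 2 * D b 1 h + W b f g 0 1 * D b 2 h

/-- `b'` is obtained from `b` by an elementary operation -/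
structure Op (i j : Fin 3) (c : ℂ) (b b' : Bs) : Prop where
  hi : ∀ f, D b' i f = D b i f + c • D b j f
  hk : ∀ k, k ≠ i → ∀ f, D b' k f = D b k f

lemma Op.symm {i j : Fin 3} (hij : i ≠ j) {c : ℂ} {b b' : Bs} (h : Op i j c b b') :
    Op i j (-c) b' b where
  hi f := by rw [h.hi, h.hk j hij.symm, neg_smul]; ring
  hk k hk f := (h.hk k hk f).symm

lemma Op.IP_le {i j : Fin 3} {c : ℂ} {b b' : Bs} (h : Op i j c b b') (f : BB 3) :
    IP b' f ≤ IP b f := by
  rw [IP, Ideal.span_le]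
  rintro _ ⟨p, rfl⟩
  change D b' p f ∈ _
  by_cases hp : p = i
  · subst hp
    rw [h.hi]
    exact Ideal.add_mem _ (D_mem_IP _ _ _) (smul_mem' _ (D_mem_IP _ _ _))
  · rw [h.hk p hp]; exact D_mem_IP _ _ _

lemma Op.IP_eq {i j : Fin 3} (hij : i ≠ j) {c : ℂ} {b b' : Bs} (h : Op i j c b b') (f : BB 3) :
    IP b' f = IP b f := le_antisymm (h.IP_le f) ((h.symm hij).IP_le f)

lemma Op.W {i j : Fin 3} {c : ℂ} {b b' : Bs} (h : Op i j c b b') (f g : BB 3) (q : Fin 3)
    (hq : q ≠ i) : W b' f g i q = W b f g i q + c • W b f g j q := by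
  simp only [LgA_827.W, h.hi, h.hk q hq, Algebra.smul_def]; ring

lemma Op.W' {i j : Fin 3} {c : ℂ} {b b' : Bs} (h : Op i j c b b') (f g : BB 3) (q : Fin 3)
    (hq : q ≠ i) : LgA_827.W b' f g q i = LgA_827.W b f g q i + c • LgA_827.W b f g q j := by
  simp only [LgA_827.W, h.hi, h.hk q hq, Algebra.smul_def]; ring

lemma Op.W'' {i j : Fin 3} {c : ℂ} {b b' : Bs} (h : Op i j c b b') (f g : BB 3) (p q : Fin 3)
    (hp : p ≠ i) (hq : q ≠ i) : LgA_827.W b' f g p q = LgA_827.W b f g p q := by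
  simp only [LgA_827.W, h.hk q hq, h.hk p hp]

lemma W_self (b : Bs) (f g : BB 3) (p : Fin 3) : W b f g p p = 0 := by
  rw [W]; ring

lemma W_swap (b : Bs) (f g : BB 3) (p q : Fin 3) : W b f g p q = - W b f g q p := by
  rw [W, W]; ring

lemma Op.IW_le {i j : Fin 3} {c : ℂ} {b b' : Bs} (h : Op i j c b b') (f g : BB 3) :
    IW b' f g ≤ IW b f g := by
  rw [IW, Ideal.span_le]
  rintro _ (rfl | ⟨⟨p, q⟩, rfl⟩)
  · exact f_mem_IW _ _ _
  change LgA_827.W b' f g p q ∈ _
  by_cases hp : p = i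
  · subst hp
    by_cases hq : q = p
    · subst hq
      rw [W_self]; exact Ideal.zero_mem _
    · rw [h.W f g q hq]
      exact Ideal.add_mem _ (W_mem_IW _ _ _ _ _) (smul_mem' _ (W_mem_IW _ _ _ _ _))
  · by_cases hq : q = i
    · subst hq
      rw [h.W' f g p hp]
      exact Ideal.add_mem _ (W_mem_IW _ _ _ _ _) (smul_mem' _ (W_mem_IW _ _ _ _ _))
    · rw [h.W'' f g p q hp hq]; exact W_mem_IW _ _ _ _ _

lemma Op.IW_eq {i j : Fin 3} (hij : i ≠ j) {c : ℂ} {b b' : Bs} (h : Op i j c b b') (f g : BB 3) :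
    IW b' f g = IW b f g := le_antisymm (h.IW_le f g) ((h.symm hij).IW_le f g)

lemma Op.Jd_eq {i j : Fin 3} (hij : i ≠ j) {c : ℂ} {b b' : Bs} (h : Op i j c b b')
    (f g k : BB 3) : Jd b' f g k = Jd b f g k := by
  have h1 := h.hi
  have h2 := h.hk
  fin_cases i
  · have e1 := h2 1 (by decide)
    have e2 := h2 2 (by decide)
    simp only [Fin.zero_eta] at h1
    simp only [Jd, LgA_827.W, e1, e2, h1, Algebra.smul_def]
    fin_cases j
    · exact absurd rfl hij
    · simp only [Fin.mk_one]; ring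
    · simp only [Fin.reduceFinMk]; ring
  · have e1 := h2 0 (by decide)
    have e2 := h2 2 (by decide)
    simp only [Fin.mk_one] at h1
    simp only [Jd, LgA_827.W, e1, e2, h1, Algebra.smul_def]
    fin_cases j
    · simp only [Fin.zero_eta]; ring
    · exact absurd rfl hij
    · simp only [Fin.reduceFinMk]; ring
  · have e1 := h2 0 (by decide)
    have e2 := h2 1 (by decide)
    simp only [Fin.reduceFinMk] at h1
    simp only [Jd, LgA_827.W, e1, e2, h1, Algebra.smul_def]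
    fin_cases j
    · simp only [Fin.zero_eta]; ring
    · simp only [Fin.mk_one]; ring
    · exact absurd rfl hij

/-- the invariants of a basis -/
structure Inv (f g h : BB 3) (b b' : Bs) : Prop where
  IP : IP b' f = IP b f
  IW : IW b' f g = IW b f g
  Jd : Jd b' f g h = Jd b f g h

lemma Inv.refl (f g h : BB 3) (b : Bs) : Inv f g h b b := ⟨rfl, rfl, rfl⟩

lemma Inv.op {f g h : BB 3} {b b' b'' : Bs} (H : Inv f g h b b') {i j : Fin 3} (hij : i ≠ j)
    {c : ℂ} (o : Op i j c b' b'') : Inv f g h b b'' :=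
  ⟨(o.IP_eq hij f).trans H.IP, (o.IW_eq hij f g).trans H.IW, (o.Jd_eq hij f g h).trans H.Jd⟩

end Crest.Agent.R257.LgA_827
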