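import Crest.Agent.R257.LgD_827

/-!
Row 257 (S0395), leaf B-NUM (helper827), part E: a basis in general position.
-/

set_option autoImplicit false

open Set Filter Topology
open Crest.Agent.R275.Loc2879
open Crest.Agent.R257.UI939 (BB xB)
open Crest.Agent.R257.Num488

noncomputable section

namespace Crest.Agent.R257.LgA_827

local notation "𝔪" => IsLocalRing.maximalIdeal (BB 3)

lemma T_congr {a b c a' b' c' : BB 3} (h : Ideal.span {a, b, c} = Ideal.span {a', b', c'}) :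
    T a b c = T a' b' c' := by
  unfold T; rw [h]

lemma T_swap (a b c : BB 3) : T a b c = T b a c := T_congr (by rw [Set.insert_comm])

lemma T_swap' (a b c : BB 3) : T a b c = T a c b := by
  refine T_congr (congrArg _ ?_)
  ext x; simp only [Set.mem_insert_iff, Set.mem_singleton_iff]; tauto

lemma T_add (a b c : BB 3) (r : ℂ) : T a b (c + r • b) = T a b c := by
  refine T_congr (le_antisymm ?_ ?_)
  · rw [Ideal.span_le]
    rintro _ (rfl | rfl | rfl)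
    · exact Ideal.subset_span (by simp)
    · exact Ideal.subset_span (by simp)
    · exact Ideal.add_mem _ (Ideal.subset_span (by simp)) (smul_mem' _ (Ideal.subset_span (by simp)))
  · rw [Ideal.span_le]
    rintro _ (rfl | rfl | rfl)
    · exact Ideal.subset_span (by simp)
    · exact Ideal.subset_span (by simp)
    · rename_i y
      have h1 : y = (y + r • b) - r • b := by ring
      rw [SetLike.mem_coe, h1]
      exact Ideal.sub_mem _ (Ideal.subset_span (by simp)) (smul_mem' _ (Ideal.subset_span (by simp)))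

lemma sub2' {U : Ideal (BB 3)} {y z w : BB 3} (h : y ∉ U ∨ z ∉ U ∨ w ∉ U) :
    {c : ℂ | y + (-c) • z ∈ U ∧ w ∈ U}.Subsingleton :=
  (sub2 h).preimage neg_injective

lemma sub1' {U : Ideal (BB 3)} {y z : BB 3} (h : y ∉ U ∨ z ∉ U) :
    {c : ℂ | y + (-c) • z ∈ U}.Subsingleton :=
  (sub1 h).preimage neg_injective

/-- a branch does not kill all the coordinates -/
lemma xs_ne (b : Bs) {φ : BB 3 →+* A1} {d : BB 3} (hd : ¬ IsUnit d) (hφ : φ d ≠ 0) :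
    ¬ (φ (X b 0) = 0 ∧ φ (X b 1) = 0 ∧ φ (X b 2) = 0) := by
  rintro ⟨h0, h1, h2⟩
  have hl : ∀ l : (Fin 3 → ℂ) →L[ℂ] ℂ, φ (lin l) = 0 := by
    intro l
    rw [lin_basis b l, map_sum, Fin.sum_univ_three]
    simp only [map_mul]
    change _ * φ (X b 0) + _ * φ (X b 1) + _ * φ (X b 2) = 0
    rw [h0, h1, h2]; ring
  have h3 := mem_m.2 hd
  rw [maxId_eq] at h3
  obtain ⟨r, s, t, e⟩ := mem3.1 h3
  have hx : ∀ i : Fin 3, φ (xB i) = 0 := fun i =>
    hl (ContinuousLinearMap.proj (R := ℂ) (φ := fun _ : Fin 3 => ℂ) i)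
  apply hφ
  rw [e]
  simp [hx]

/-- a branch does not kill all the partial derivatives -/
lemma ds_ne (b : Bs) {f : BB 3} (mu : dl (BB 3 ⧸ IP b f) ≠ ⊤) {φ : BB 3 →+* A1} {d : BB 3}
    (hd : ¬ IsUnit d) (hφ : φ d ≠ 0) :
    ¬ (φ (D b 0 f) = 0 ∧ φ (D b 1 f) = 0 ∧ φ (D b 2 f) = 0) := by
  rintro ⟨h0, h1, h2⟩
  apply hφ
  refine kill mu φ (fun a ha => ?_) hd
  have h3 : IP b f ≤ RingHom.ker φ := by
    rw [IP, Ideal.span_le]
    rintro _ ⟨i, rfl⟩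
    rw [SetLike.mem_coe, RingHom.mem_ker]
    fin_cases i
    · exact h0
    · exact h1
    · exact h2
  exact h3 ha

lemma IP_eq (b : Bs) (f : BB 3) : IP b f = Ideal.span {D b 0 f, D b 1 f, D b 2 f} := by
  rw [IP]
  congr 1
  ext y
  constructor
  · rintro ⟨i, rfl⟩
    fin_cases i <;> simp
  · rintro (rfl | rfl | rfl)
    · exact ⟨0, rfl⟩
    · exact ⟨1, rfl⟩
    · exact ⟨2, rfl⟩

/-- **a basis in general position** -/
theorem generic {f g h : BB 3} (b0 : Bs) (gn : ¬ IsUnit g) (hn : ¬ IsUnit h)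
    (mu : dl (BB 3 ⧸ IP b0 f) ≠ ⊤) (fgh : T f g h ≠ ⊤) (fgJ : T f g (Jd b0 f g h) ≠ ⊤) :
    ∃ b, Inv f g h b0 b ∧ T f g (X b 2) ≠ ⊤ ∧ T f g (W b f g 0 1) ≠ ⊤ ∧
      T f (D b 0 f) (D b 1 f) ≠ ⊤ ∧ T f (W b f g 0 1) (D b 1 f) ≠ ⊤ ∧
      T f (X b 2) (X b 1) ≠ ⊤ := by
  have hf0 : f ≠ 0 := by
    rintro rfl
    obtain ⟨k, hk⟩ := pow_mem fgh
    refine Cnm1_889.two_not_enough3 gn hn (k := k) fun y hy => ?_
    obtain ⟨r, s, t, e⟩ := mem3.1 (hk y hy)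
    exact ⟨s, t, by rw [e]; ring⟩
  obtain ⟨l1, hl1, key1⟩ := br_list fgh hn
  obtain ⟨l2, hl2, key2⟩ := prime_list hf0
  have I0 := Inv.refl f g h b0
  have hφh : ∀ φ ∈ l1, φ h ≠ 0 := (key1 h).1 fgh
  -- the branches of `(f, g)` do not kill all the minors
  have hW0 : ∀ φ ∈ l1, ¬ (φ (W b0 f g 0 2) = 0 ∧ φ (W b0 f g 1 2) = 0 ∧ φ (W b0 f g 0 1) = 0) := by
    rintro φ hφ ⟨h0, h1, h2⟩
    refine hφh φ hφ (kill3 fgJ φ (hl1 φ hφ).fa (hl1 φ hφ).fb ?_ hn)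
    rw [Jd]; simp [h0, h1, h2]
  have mem_ker : ∀ (φ : BB 3 →+* A1) (y : BB 3), y ∈ RingHom.ker φ ↔ φ y = 0 := fun φ y =>
    RingHom.mem_ker
  -- step 1
  obtain ⟨b1, I1, F1, F2, F3⟩ : ∃ b1, Inv f g h b0 b1 ∧
      (∀ φ ∈ l1, ¬ (φ (X b1 1) = 0 ∧ φ (X b1 2) = 0)) ∧
      (∀ φ ∈ l1, ¬ (φ (W b1 f g 0 2) = 0 ∧ φ (W b1 f g 0 1) = 0)) ∧
      (∀ π ∈ l2, ¬ (π ∣ D b1 0 f ∧ π ∣ D b1 2 f)) := by
    have B1 := bad_fin l1 (fun φ c => X b0 1 + (-c) • X b0 0 ∈ RingHom.ker φ ∧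
      X b0 2 ∈ RingHom.ker φ) (fun φ hφ => sub2' (by
        have := xs_ne b0 hn (hφh φ hφ)
        simp only [mem_ker]; tauto))
    have B2 := bad_fin l1 (fun φ c => W b0 f g 0 2 + c • W b0 f g 1 2 ∈ RingHom.ker φ ∧
      W b0 f g 0 1 ∈ RingHom.ker φ) (fun φ hφ => sub2 (by
        have := hW0 φ hφ
        simp only [mem_ker]; tauto))
    have B3 := bad_fin l2 (fun π c => D b0 0 f + c • D b0 1 f ∈ Ideal.span {π} ∧
      D b0 2 f ∈ Ideal.span {π}) (fun π hπ => sub2 (by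
        have := not_all_dvd (hl2 π hπ).1 (by rw [T, ← IP_eq]; exact mu)
        simp only [Ideal.mem_span_singleton]; tauto))
    obtain ⟨c, hc⟩ := exists_c (B1.union (B2.union B3))
    simp only [Set.mem_union, Set.mem_ofPred_eq, not_or, not_exists, not_and] at hc
    obtain ⟨h1, h2, h3⟩ := hc
    obtain ⟨b1, e1, e2, e3, e4⟩ := exists_op' b0 (i := 0) (j := 1) (by decide) c
    have o : Op 0 1 c b0 b1 := ⟨e1, e2⟩
    refine ⟨b1, I0.op (by decide) o, ?_, ?_, ?_⟩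
    · rintro φ hφ ⟨h4, h5⟩
      rw [e3] at h4
      rw [e4 2 (by decide)] at h5
      exact h1 φ hφ ((mem_ker _ _).2 h4) ((mem_ker _ _).2 h5)
    · rintro φ hφ ⟨h4, h5⟩
      rw [o.W f g 2 (by decide)] at h4
      rw [o.W f g 1 (by decide), W_self, smul_zero, add_zero] at h5
      exact h2 φ hφ ((mem_ker _ _).2 h4) ((mem_ker _ _).2 h5)
    · rintro π hπ ⟨h4, h5⟩
      rw [e1] at h4
      rw [e2 2 (by decide)] at h5
      exact h3 π hπ (Ideal.mem_span_singleton.2 h4) (Ideal.mem_span_singleton.2 h5)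
  -- step 2
  obtain ⟨b2, I2, G1, G2, G3⟩ : ∃ b2, Inv f g h b0 b2 ∧
      (∀ φ ∈ l1, ¬ (φ (X b2 2) = 0 ∧ φ (X b2 1) = 0)) ∧
      (∀ φ ∈ l1, ¬ (φ (W b2 f g 0 1) = 0 ∧ φ (W b2 f g 0 2) = 0)) ∧
      (∀ π ∈ l2, ¬ π ∣ D b2 0 f) := by
    have B1 := bad_fin l1 (fun φ c => X b1 2 + (-c) • X b1 0 ∈ RingHom.ker φ ∧
      X b1 1 ∈ RingHom.ker φ) (fun φ hφ => sub2' (by
        have := F1 φ hφ
        simp only [mem_ker]; tauto))
    have B2 := bad_fin l1 (fun φ c => W b1 f g 0 1 + c • W b1 f g 2 1 ∈ RingHom.ker φ ∧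
      W b1 f g 0 2 ∈ RingHom.ker φ) (fun φ hφ => sub2 (by
        have := F2 φ hφ
        simp only [mem_ker]; tauto))
    have B3 := bad_fin l2 (fun π c => D b1 0 f + c • D b1 2 f ∈ Ideal.span {π})
      (fun π hπ => sub1 (by
        have := F3 π hπ
        simp only [Ideal.mem_span_singleton]; tauto))
    obtain ⟨c, hc⟩ := exists_c (B1.union (B2.union B3))
    simp only [Set.mem_union, Set.mem_ofPred_eq, not_or, not_exists, not_and] at hc
    obtain ⟨h1, h2, h3⟩ := hc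
    obtain ⟨b2, e1, e2, e3, e4⟩ := exists_op' b1 (i := 0) (j := 2) (by decide) c
    have o : Op 0 2 c b1 b2 := ⟨e1, e2⟩
    refine ⟨b2, I1.op (by decide) o, ?_, ?_, ?_⟩
    · rintro φ hφ ⟨h4, h5⟩
      rw [e3] at h4
      rw [e4 1 (by decide)] at h5
      exact h1 φ hφ ((mem_ker _ _).2 h4) ((mem_ker _ _).2 h5)
    · rintro φ hφ ⟨h4, h5⟩
      rw [o.W f g 1 (by decide)] at h4
      rw [o.W f g 2 (by decide), W_self, smul_zero, add_zero] at h5
      exact h2 φ hφ ((mem_ker _ _).2 h4) ((mem_ker _ _).2 h5)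
    · rintro π hπ h4
      rw [e1] at h4
      exact h3 π hπ (Ideal.mem_span_singleton.2 h4)
  obtain ⟨d, hdn, hd⟩ := exists_third (key2 _ G3)
  obtain ⟨l3, hl3, key3⟩ := br_list hd hdn
  have hφd : ∀ φ ∈ l3, φ d ≠ 0 := (key3 d).1 hd
  have mu2 : dl (BB 3 ⧸ IP b2 f) ≠ ⊤ := by rw [I2.IP]; exact mu
  -- step 3
  obtain ⟨b3, I3, A3, B3, H3⟩ : ∃ b3, Inv f g h b0 b3 ∧ T f g (X b3 2) ≠ ⊤ ∧
      T f g (W b3 f g 0 1) ≠ ⊤ ∧ T f (D b3 0 f) (D b3 1 f) ≠ ⊤ := by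
    have B1 := bad_fin l1 (fun φ c => X b2 2 + (-c) • X b2 1 ∈ RingHom.ker φ)
      (fun φ hφ => sub1' (by
        have := G1 φ hφ
        simp only [mem_ker]; tauto))
    have B2 := bad_fin l1 (fun φ c => W b2 f g 0 1 + c • W b2 f g 0 2 ∈ RingHom.ker φ)
      (fun φ hφ => sub1 (by
        have := G2 φ hφ
        simp only [mem_ker]; tauto))
    have B3 := bad_fin l3 (fun φ c => D b2 1 f + c • D b2 2 f ∈ RingHom.ker φ)
      (fun φ hφ => sub1 (by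
        have h1 := ds_ne b2 mu2 hdn (hφd φ hφ)
        have h2 := (hl3 φ hφ).fb
        simp only [mem_ker]; tauto))
    obtain ⟨c, hc⟩ := exists_c (B1.union (B2.union B3))
    simp only [Set.mem_union, Set.mem_ofPred_eq, not_or, not_exists, not_and] at hc
    obtain ⟨h1, h2, h3⟩ := hc
    obtain ⟨b3, e1, e2, e3, e4⟩ := exists_op' b2 (i := 1) (j := 2) (by decide) c
    have o : Op 1 2 c b2 b3 := ⟨e1, e2⟩
    refine ⟨b3, I2.op (by decide) o, ?_, ?_, ?_⟩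
    · rw [e3]
      exact (key1 _).2 fun φ hφ h4 => h1 φ hφ ((mem_ker _ _).2 h4)
    · rw [o.W' f g 0 (by decide)]
      exact (key1 _).2 fun φ hφ h4 => h2 φ hφ ((mem_ker _ _).2 h4)
    · rw [e1, e2 0 (by decide)]
      exact (key3 _).2 fun φ hφ h4 => h3 φ hφ ((mem_ker _ _).2 h4)
  obtain ⟨l4, hl4, key4⟩ := br_list (a := f) (b := W b3 f g 0 1) (d := g)
    (by have := B3; rw [T_swap'] at this; exact this) gn
  obtain ⟨l5, hl5, key5⟩ := br_list (a := f) (b := X b3 2) (d := g)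
    (by have := A3; rw [T_swap'] at this; exact this) gn
  have hg4 : ∀ φ ∈ l4, φ g ≠ 0 := (key4 g).1 (by have := B3; rw [T_swap'] at this; exact this)
  have hg5 : ∀ φ ∈ l5, φ g ≠ 0 := (key5 g).1 (by have := A3; rw [T_swap'] at this; exact this)
  -- step 4
  obtain ⟨b4, I4, X4, W4, H4, C4⟩ : ∃ b4, Inv f g h b0 b4 ∧ X b4 2 = X b3 2 ∧
      W b4 f g 0 1 = W b3 f g 0 1 ∧ T f (D b4 0 f) (D b4 1 f) ≠ ⊤ ∧
      T f (W b3 f g 0 1) (D b4 1 f) ≠ ⊤ := by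
    have B1 := bad_fin l4 (fun φ c => D b3 1 f + c • D b3 0 f ∈ RingHom.ker φ)
      (fun φ hφ => sub1 (by
        have h1 : ¬ (φ (D b3 0 f) = 0 ∧ φ (D b3 1 f) = 0) := fun h =>
          hg4 φ hφ (kill3 H3 φ (hl4 φ hφ).fa h.1 h.2 gn)
        simp only [mem_ker]; tauto))
    obtain ⟨c, hc⟩ := exists_c B1
    simp only [Set.mem_ofPred_eq, not_exists, not_and] at hc
    obtain ⟨b4, e1, e2, e3, e4⟩ := exists_op' b3 (i := 1) (j := 0) (by decide) c
    have o : Op 1 0 c b3 b4 := ⟨e1, e2⟩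
    refine ⟨b4, I3.op (by decide) o, e4 2 (by decide), ?_, ?_, ?_⟩
    · rw [o.W' f g 0 (by decide), W_self, smul_zero, add_zero]
    · rw [e1, e2 0 (by decide), T_add]
      exact H3
    · rw [e1]
      exact (key4 _).2 fun φ hφ h4 => hc φ hφ ((mem_ker _ _).2 h4)
  -- step 5
  have B1 := bad_fin l5 (fun φ c => X b4 1 + (-c) • X b4 0 ∈ RingHom.ker φ)
    (fun φ hφ => sub1' (by
      have h1 := xs_ne b4 gn (hg5 φ hφ)
      have h2 := (hl5 φ hφ).fb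
      rw [← X4] at h2
      simp only [mem_ker]; tauto))
  obtain ⟨c, hc⟩ := exists_c B1
  simp only [Set.mem_ofPred_eq, not_exists, not_and] at hc
  obtain ⟨b5, e1, e2, e3, e4⟩ := exists_op' b4 (i := 0) (j := 1) (by decide) c
  have o : Op 0 1 c b4 b5 := ⟨e1, e2⟩
  have hX : X b5 2 = X b3 2 := (e4 2 (by decide)).trans X4
  have hW : W b5 f g 0 1 = W b3 f g 0 1 := by
    rw [o.W f g 1 (by decide), W_self, smul_zero, add_zero, W4]
  have hD : D b5 1 f = D b4 1 f := e2 1 (by decide) f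
  refine ⟨b5, I4.op (by decide) o, ?_, ?_, ?_, ?_, ?_⟩
  · rw [hX]; exact A3
  · rw [hW]; exact B3
  · rw [hD, e1, T_swap', T_add, T_swap']; exact H4
  · rw [hW, hD]; exact C4
  · rw [hX, e3]
    exact (key5 _).2 fun φ hφ h4 => hc φ hφ ((mem_ker _ _).2 h4)

end Crest.Agent.R257.LgA_827
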