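import Crest.Agent.R257.NumK_488

/-!
Row 257 (S0395), leaf B-NUM, part L (helper488): the six relations between the intersection
numbers of the polar curves, and the derived finiteness facts.
-/

set_option autoImplicit false
set_option linter.unusedSectionVars false

open Set Filter Topology Metric
open Crest.Agent.R275
open Crest.Agent.R275.Loc2879 hiding AA
open Crest.Agent.R257.UI939

noncomputable section

namespace Crest.Agent.R257.Num488

universe u v w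

/-- intersection number -/
def I3 (a b c : BB 3) : ℕ∞ := dl (BB 3 ⧸ Ideal.span {a, b, c})

lemma I3_def (a b c : BB 3) : I3 a b c = dl (BB 3 ⧸ Ideal.span {a, b, c}) := rfl

lemma I3_12 (a b c : BB 3) : I3 a b c = I3 b a c := by
  unfold I3; rw [Set.insert_comm]

lemma I3_23 (a b c : BB 3) : I3 a b c = I3 a c b := by
  unfold I3; rw [Set.pair_comm]

lemma I3_13 (a b c : BB 3) : I3 a b c = I3 c b a := by
  rw [I3_12, I3_23, I3_12]

lemma I3_one (a b : BB 3) : I3 a b 1 = 0 := by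
  unfold I3
  have h1 : Ideal.span {a, b, (1 : BB 3)} = ⊤ := by
    rw [Ideal.eq_top_iff_one]; exact Ideal.subset_span (by simp)
  rw [h1]
  exact Module.length_eq_zero

lemma I3_congr {a b c c' : BB 3} (h : c - c' ∈ Ideal.span {a, b}) : I3 a b c = I3 a b c' := by
  unfold I3
  have h1 : Ideal.span {a, b} ⊔ Ideal.span {c} = Ideal.span {a, b} ⊔ Ideal.span {c'} := by
    refine le_antisymm (sup_le le_sup_left ?_) (sup_le le_sup_left ?_)
    · rw [Ideal.span_singleton_le_iff_mem]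
      have : c = (c - c') + c' := by ring
      rw [this]
      exact Submodule.add_mem_sup h (Ideal.mem_span_singleton_self _)
    · rw [Ideal.span_singleton_le_iff_mem]
      have : c' = -(c - c') + c := by ring
      rw [this]
      exact Submodule.add_mem_sup ((Ideal.neg_mem_iff _).2 h) (Ideal.mem_span_singleton_self _)
  rw [span3, span3, h1]

/-- the only constant branch is the origin -/
lemma br_zero {a b c : BB 3} (h : I3 a b c ≠ ⊤) {φ : BB 3 →+* A1} (ha : φ a = 0) (hb : φ b = 0)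
    (hc : φ c = 0) {y : BB 3} (hy : ¬ IsUnit y) : φ y = 0 := by
  have h1 : Ideal.span {a, b, c} ≤ RingHom.ker φ := by
    rw [Ideal.span_le]
    intro x hx
    simp only [mem_insert_iff, mem_singleton_iff] at hx
    rcases hx with rfl | rfl | rfl
    · exact ha
    · exact hb
    · exact hc
  have h2 : IsLocalRing.maximalIdeal (BB 3) ≤ RingHom.ker φ := by
    have := primes_of_fin h (RingHom.ker_isPrime φ) h1
    rw [this]
  exact h2 ((IsLocalRing.mem_maximalIdeal _).2 hy)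

lemma eq_zero_of_DD {x : A1} (hx : ¬ IsUnit x) (h : DD x = 0) : x = 0 := by
  rw [← vv_eq_top, ← vv_DD hx, h, vv_eq_top.2 rfl]
  rfl

section Six

variable (b : Module.Basis (Fin 3) ℂ (Fin 3 → ℂ))

/-- the coordinates -/
def xx (i : Fin 3) : BB 3 := lin (LinearMap.toContinuousLinearMap (b.coord i))

lemma xx_nonunit (i : Fin 3) : ¬ IsUnit (xx b i) := lin_mem _

/-- the partial derivatives -/
def pd (f : BB 3) (i : Fin 3) : BB 3 := dd (b i) f

/-- minors -/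
def mn (f g : BB 3) (i j : Fin 3) : BB 3 := pd b f i * pd b g j - pd b f j * pd b g i

/-- Jacobian determinant -/
def dt (f g h : BB 3) : BB 3 :=
  pd b h 0 * mn b f g 1 2 + pd b h 1 * mn b f g 2 0 + pd b h 2 * mn b f g 0 1

lemma chain3 {φ : BB 3 →+* A1} (hφ : ∀ c : ℂ, φ (algebraMap ℂ (BB 3) c) = algebraMap ℂ A1 c)
    (f : BB 3) : DD (φ f) = φ (pd b f 0) * DD (φ (xx b 0)) + φ (pd b f 1) * DD (φ (xx b 1)) +
      φ (pd b f 2) * DD (φ (xx b 2)) := by
  rw [chain hφ f b, Fin.sum_univ_three]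
  rfl

variable {f g h : BB 3}

lemma rel_fg (hh : ¬ IsUnit h)
    (A : I3 f g (xx b 2) ≠ ⊤) (B : I3 f g (mn b f g 0 1) ≠ ⊤) (I0 : I3 f g h ≠ ⊤)
    (J0 : I3 f g (dt b f g h) ≠ ⊤) :
    I3 f g (mn b f g 0 1) + I3 f g h = I3 f g (dt b f g h) + I3 f g (xx b 2) := by
  refine CL hh (xx_nonunit b 2) B I0 J0 A fun φ hφ => ?_
  have e1 := chain3 b hφ.cst f
  have e2 := chain3 b hφ.cst g
  have e3 := chain3 b hφ.cst h
  rw [hφ.fa, map_zero] at e1
  rw [hφ.fb, map_zero] at e2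
  rw [e3]
  simp only [dt, mn, map_add, map_mul, map_sub]
  linear_combination
    (φ (pd b h 1) * φ (pd b g 0) - φ (pd b h 0) * φ (pd b g 1)) * e1 +
    (φ (pd b h 0) * φ (pd b f 1) - φ (pd b h 1) * φ (pd b f 0)) * e2

lemma eq_fM {φ : BB 3 →+* A1} (hφ : Br f (mn b f g 0 1) φ) :
    φ (pd b f 1) * DD (φ g) = φ (mn b f g 1 2) * DD (φ (xx b 2)) := by
  have e1 := chain3 b hφ.cst f
  have e2 := chain3 b hφ.cst g
  have e3 := hφ.fb
  rw [hφ.fa, map_zero] at e1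
  rw [e2]
  simp only [mn, map_mul, map_sub] at e3 ⊢
  linear_combination (-φ (pd b g 1)) * e1 - DD (φ (xx b 0)) * e3

lemma eq_fx {φ : BB 3 →+* A1} (hφ : Br f (xx b 2) φ) :
    φ (pd b f 0) * DD (φ g) = φ (mn b f g 0 1) * DD (φ (xx b 1)) := by
  have e1 := chain3 b hφ.cst f
  have e2 := chain3 b hφ.cst g
  rw [hφ.fa, hφ.fb, map_zero] at e1
  rw [e2, hφ.fb, map_zero]
  simp only [mn, map_mul, map_sub]
  linear_combination (-φ (pd b g 0)) * e1

/-- the finiteness facts needed in general position -/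
structure Gen (b : Module.Basis (Fin 3) ℂ (Fin 3 → ℂ)) (f g : BB 3) : Prop where
  A : I3 f g (xx b 2) ≠ ⊤
  B : I3 f g (mn b f g 0 1) ≠ ⊤
  H : I3 f (pd b f 0) (pd b f 1) ≠ ⊤
  C : I3 f (mn b f g 0 1) (pd b f 1) ≠ ⊤
  G : I3 f (xx b 2) (xx b 1) ≠ ⊤

variable {b}

lemma mul_eq_zero' {x y : A1} (h : x * y = 0) : x = 0 ∨ y = 0 := mul_eq_zero.1 h

lemma Gen.F1 (gen : Gen b f g) : I3 f (xx b 2) (pd b f 0) ≠ ⊤ := by
  obtain ⟨l, hl, hl2⟩ := br_list gen.G (xx_nonunit b 1)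
  refine (hl2 _).2 fun φ hφ h0 => ?_
  have br := hl φ hφ
  have hx1 := (hl2 (xx b 1)).1 gen.G φ hφ
  have e1 := chain3 b br.cst f
  rw [br.fa, br.fb, h0, map_zero, zero_mul, mul_zero, add_zero, zero_add] at e1
  rcases mul_eq_zero' e1.symm with h1 | h1
  · exact hx1 (br_zero gen.H br.fa h0 h1 (xx_nonunit b 1))
  · exact hx1 (eq_zero_of_DD (nonunit_map br.cst (xx_nonunit b 1)) h1)

lemma Gen.F2 (gen : Gen b f g) (hf : ¬ IsUnit f) : I3 (xx b 2) (pd b f 0) (xx b 1) ≠ ⊤ := by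
  have h1 : I3 (xx b 2) (xx b 1) f ≠ ⊤ := by
    rw [I3_23, I3_12]; exact gen.G
  obtain ⟨l, hl, hl2⟩ := br_list h1 hf
  rw [I3_23]
  refine (hl2 _).2 fun φ hφ h0 => ?_
  have br := hl φ hφ
  have hx1 := (hl2 f).1 h1 φ hφ
  have e1 := chain3 b br.cst f
  rw [br.fa, br.fb, h0, map_zero, zero_mul, mul_zero, mul_zero, add_zero, zero_add] at e1
  exact hx1 (eq_zero_of_DD (nonunit_map br.cst hf) e1)

lemma Gen.F3 (gen : Gen b f g) (hf : ¬ IsUnit f) : I3 (pd b f 0) (pd b f 1) (xx b 2) ≠ ⊤ := by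
  have h2 := gen.F2 hf
  obtain ⟨l, hl, hl2⟩ := br_list h2 (xx_nonunit b 1)
  have h3 : I3 (xx b 2) (pd b f 0) (pd b f 1) ≠ ⊤ := by
    refine (hl2 _).2 fun φ hφ h0 => ?_
    have br := hl φ hφ
    have hx1 := (hl2 (xx b 1)).1 h2 φ hφ
    have e1 := chain3 b br.cst f
    rw [br.fa, br.fb, h0, map_zero, zero_mul, zero_mul, mul_zero, add_zero, zero_add] at e1
    have h4 := eq_zero_of_DD (nonunit_map br.cst hf) e1
    exact hx1 (br_zero gen.H h4 br.fb h0 (xx_nonunit b 1))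
  rw [I3_23, I3_12]; exact h3

lemma Gen.F5 (gen : Gen b f g) (hg : ¬ IsUnit g) : I3 f (mn b f g 0 1) (xx b 2) ≠ ⊤ := by
  obtain ⟨l, hl, hl2⟩ := br_list gen.G (xx_nonunit b 1)
  rw [I3_23]
  refine (hl2 _).2 fun φ hφ h0 => ?_
  have br := hl φ hφ
  have e1 := eq_fx (g := g) b br
  rw [h0, zero_mul] at e1
  rcases mul_eq_zero' e1 with h1 | h1
  · exact (hl2 (pd b f 0)).1 gen.F1 φ hφ h1
  · have h2 : I3 f (xx b 2) g ≠ ⊤ := by rw [I3_23]; exact gen.A
    exact (hl2 g).1 h2 φ hφ (eq_zero_of_DD (nonunit_map br.cst hg) h1)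

lemma Gen.F6 (gen : Gen b f g) (hg : ¬ IsUnit g) : I3 f (mn b f g 0 1) (mn b f g 1 2) ≠ ⊤ := by
  have h2 : I3 f (mn b f g 0 1) g ≠ ⊤ := by rw [I3_23]; exact gen.B
  obtain ⟨l, hl, hl2⟩ := br_list h2 hg
  refine (hl2 _).2 fun φ hφ h0 => ?_
  have br := hl φ hφ
  have e1 := eq_fM (g := g) b br
  rw [h0, zero_mul] at e1
  rcases mul_eq_zero' e1 with h1 | h1
  · exact (hl2 (pd b f 1)).1 gen.C φ hφ h1
  · exact (hl2 g).1 h2 φ hφ (eq_zero_of_DD (nonunit_map br.cst hg) h1)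

lemma rel_add (f g : BB 3) : I3 f (mn b f g 0 1) (pd b f 1) =
    I3 f (pd b f 0) (pd b f 1) + I3 f (pd b f 1) (pd b g 1) := by
  rw [I3_23 f (mn b f g 0 1), I3_23 f (pd b f 0)]
  have h1 : I3 f (pd b f 1) (mn b f g 0 1) = I3 f (pd b f 1) (pd b f 0 * pd b g 1) := by
    apply I3_congr
    have : mn b f g 0 1 - pd b f 0 * pd b g 1 = (-pd b g 0) * pd b f 1 := by
      unfold mn; ring
    rw [this]
    exact Ideal.mul_mem_left _ _ (Ideal.subset_span (by simp))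
  rw [h1]
  exact I_mul _ _ _ _

lemma Gen.F7 (gen : Gen b f g) : I3 f (pd b f 1) (pd b g 1) ≠ ⊤ := by
  have h := gen.C
  rw [rel_add] at h
  exact fun e => h (by rw [e, add_top])

lemma dl_max {n : ℕ} : dl (BB n ⧸ IsLocalRing.maximalIdeal (BB n)) = 1 := by
  let ev : BB n →ₐ[ℂ] ℂ := { evp (0 : Fin n → ℂ) with commutes' := fun c => rfl }
  have hs : Function.Surjective ev := fun c => ⟨algebraMap ℂ (BB n) c, rfl⟩
  have hk : RingHom.ker ev = IsLocalRing.maximalIdeal (BB n) := by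
    ext x
    rw [RingHom.mem_ker, IsLocalRing.mem_maximalIdeal, mem_nonunits_iff, Loc2879.isUnit_iff, not_not]
    rfl
  have e1 : (BB n ⧸ RingHom.ker ev) ≃ₐ[ℂ] ℂ := Ideal.quotientKerAlgEquivOfSurjective hs
  have e2 := e1.toLinearEquiv.length_eq
  rw [hk] at e2
  rw [dl, e2, Module.length_eq_one_iff]
  infer_instance

lemma I3_coord (b : Module.Basis (Fin 3) ℂ (Fin 3 → ℂ)) : I3 (xx b 2) (xx b 1) (xx b 0) = 1 := by
  rw [← dl_max (n := 3)]
  unfold I3
  have h1 : Ideal.span {xx b 2, xx b 1, xx b 0} = IsLocalRing.maximalIdeal (BB 3) := by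
    refine le_antisymm ?_ ?_
    · rw [Ideal.span_le]
      intro x hx
      simp only [mem_insert_iff, mem_singleton_iff] at hx
      rcases hx with rfl | rfl | rfl <;>
        exact (IsLocalRing.mem_maximalIdeal _).2 (xx_nonunit b _)
    · rw [max_eq, Ideal.span_le]
      rintro _ ⟨i, rfl⟩
      have e := lin_basis b (ContinuousLinearMap.proj (R := ℂ) (φ := fun _ : Fin 3 => ℂ) i)
      have e' : xB i = lin (ContinuousLinearMap.proj (R := ℂ) (φ := fun _ : Fin 3 => ℂ) i) := rfl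
      rw [e', e]
      refine Ideal.sum_mem _ fun j _ => Ideal.mul_mem_left _ _ (Ideal.subset_span ?_)
      fin_cases j
      · right; right; rfl
      · right; left; rfl
      · left; rfl
  rw [h1]

theorem Gen.six (gen : Gen b f g) (hf : ¬ IsUnit f) (hg : ¬ IsUnit g) (hh : ¬ IsUnit h)
    (mu : I3 (pd b f 0) (pd b f 1) (pd b f 2) ≠ ⊤) (I0 : I3 f g h ≠ ⊤)
    (J0 : I3 f g (dt b f g h) ≠ ⊤) :
    I3 f (mn b f g 0 1) (mn b f g 1 2) ≠ ⊤ ∧ I3 f (pd b f 1) (pd b g 1) ≠ ⊤ ∧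
    I3 f (mn b f g 0 1) (mn b f g 1 2) + I3 f g h =
      I3 (pd b f 0) (pd b f 1) (pd b f 2) + I3 f g (dt b f g h) + 1 +
        I3 f (pd b f 1) (pd b g 1) := by
  have F1 := gen.F1
  have F2 := gen.F2 hf
  have F3 := gen.F3 hf
  have F5 := gen.F5 hg
  have F6 := gen.F6 hg
  have F7 := gen.F7
  have A := gen.A
  have B := gen.B
  have H := gen.H
  have C := gen.C
  have G := gen.G
  refine ⟨F6, F7, ?_⟩
  have R1 := rel_fg b hh A B I0 J0
  have Bg : I3 f (mn b f g 0 1) g ≠ ⊤ := by rw [I3_23]; exact B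
  have R2 : I3 f (mn b f g 0 1) (pd b f 1) + I3 f (mn b f g 0 1) g =
      I3 f (mn b f g 0 1) (mn b f g 1 2) + I3 f (mn b f g 0 1) (xx b 2) :=
    CL hg (xx_nonunit b 2) C Bg F6 F5 fun φ hφ => eq_fM b hφ
  have Ag : I3 f (xx b 2) g ≠ ⊤ := by rw [I3_23]; exact A
  have F5' : I3 f (xx b 2) (mn b f g 0 1) ≠ ⊤ := by rw [I3_23]; exact F5
  have R3 : I3 f (xx b 2) (pd b f 0) + I3 f (xx b 2) g =
      I3 f (xx b 2) (mn b f g 0 1) + I3 f (xx b 2) (xx b 1) :=
    CL hg (xx_nonunit b 1) F1 Ag F5' G fun φ hφ => eq_fx b hφ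
  have Hf : I3 (pd b f 0) (pd b f 1) f ≠ ⊤ := by rw [I3_23, I3_12]; exact H
  have R4 : I3 (pd b f 0) (pd b f 1) 1 + I3 (pd b f 0) (pd b f 1) f =
      I3 (pd b f 0) (pd b f 1) (pd b f 2) + I3 (pd b f 0) (pd b f 1) (xx b 2) := by
    refine CL hf (xx_nonunit b 2) ?_ Hf mu F3 fun φ hφ => ?_
    · rw [← I3_def, I3_one]; exact ENat.zero_ne_top
    · rw [map_one, one_mul, chain3 b hφ.cst f, hφ.fa, hφ.fb, zero_mul, zero_mul, zero_add, zero_add]
  have F1' : I3 (xx b 2) (pd b f 0) f ≠ ⊤ := by rw [I3_23, I3_12]; exact F1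
  have F3' : I3 (xx b 2) (pd b f 0) (pd b f 1) ≠ ⊤ := by rw [I3_12, I3_23]; exact F3
  have R5 : I3 (xx b 2) (pd b f 0) 1 + I3 (xx b 2) (pd b f 0) f =
      I3 (xx b 2) (pd b f 0) (pd b f 1) + I3 (xx b 2) (pd b f 0) (xx b 1) := by
    refine CL hf (xx_nonunit b 1) ?_ F1' F3' F2 fun φ hφ => ?_
    · rw [← I3_def, I3_one]; exact ENat.zero_ne_top
    · rw [map_one, one_mul, chain3 b hφ.cst f, hφ.fa, hφ.fb, map_zero, zero_mul, mul_zero, zero_add,
        add_zero]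
  have G' : I3 (xx b 2) (xx b 1) f ≠ ⊤ := by rw [I3_23, I3_12]; exact G
  have F2' : I3 (xx b 2) (xx b 1) (pd b f 0) ≠ ⊤ := by rw [I3_23]; exact F2
  have R6 : I3 (xx b 2) (xx b 1) 1 + I3 (xx b 2) (xx b 1) f =
      I3 (xx b 2) (xx b 1) (pd b f 0) + I3 (xx b 2) (xx b 1) (xx b 0) := by
    refine CL hf (xx_nonunit b 0) ?_ G' F2' ?_ fun φ hφ => ?_
    · rw [← I3_def, I3_one]; exact ENat.zero_ne_top
    · rw [← I3_def, I3_coord]; exact ENat.one_ne_top
    · rw [map_one, one_mul, chain3 b hφ.cst f, hφ.fa, hφ.fb, map_zero, mul_zero, mul_zero, add_zero,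
        add_zero]
  have R7 := rel_add (b := b) f g
  rw [I3_one, zero_add] at R4 R5 R6
  rw [I3_coord] at R6
  rw [I3_23 f (mn b f g 0 1) g, I3_23 f (mn b f g 0 1) (xx b 2)] at R2
  rw [I3_23 f (xx b 2) g] at R3
  have s1 : I3 (pd b f 0) (pd b f 1) f = I3 f (pd b f 0) (pd b f 1) := by rw [I3_23, I3_12]
  have s2 : I3 (xx b 2) (pd b f 0) f = I3 f (xx b 2) (pd b f 0) := by rw [I3_23, I3_12]
  have s3 : I3 (xx b 2) (pd b f 0) (pd b f 1) = I3 (pd b f 0) (pd b f 1) (xx b 2) := by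
    rw [I3_12, I3_23]
  have s4 : I3 (xx b 2) (xx b 1) f = I3 f (xx b 2) (xx b 1) := by rw [I3_23, I3_12]
  have s5 : I3 (xx b 2) (xx b 1) (pd b f 0) = I3 (xx b 2) (pd b f 0) (xx b 1) := by rw [I3_23]
  rw [s1] at R4
  rw [s2, s3] at R5
  rw [s4, s5] at R6
  generalize I3 f (mn b f g 0 1) (mn b f g 1 2) = a1 at *
  generalize I3 f g h = a2 at *
  generalize I3 (pd b f 0) (pd b f 1) (pd b f 2) = a3 at *
  generalize I3 f g (dt b f g h) = a4 at *
  generalize I3 f (pd b f 1) (pd b g 1) = a5 at *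
  generalize I3 f g (mn b f g 0 1) = a6 at *
  generalize I3 f g (xx b 2) = a7 at *
  generalize I3 f (mn b f g 0 1) (pd b f 1) = a8 at *
  generalize I3 f (xx b 2) (mn b f g 0 1) = a9 at *
  generalize I3 f (xx b 2) (pd b f 0) = a10 at *
  generalize I3 f (xx b 2) (xx b 1) = a11 at *
  generalize I3 f (pd b f 0) (pd b f 1) = a12 at *
  generalize I3 (pd b f 0) (pd b f 1) (xx b 2) = a13 at *
  generalize I3 (xx b 2) (pd b f 0) (xx b 1) = a14 at *
  lift a1 to ℕ using F6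
  lift a2 to ℕ using I0
  lift a3 to ℕ using mu
  lift a4 to ℕ using J0
  lift a5 to ℕ using F7
  lift a6 to ℕ using B
  lift a7 to ℕ using A
  lift a8 to ℕ using C
  lift a9 to ℕ using F5'
  lift a10 to ℕ using F1
  lift a11 to ℕ using G
  lift a12 to ℕ using H
  lift a13 to ℕ using F3
  lift a14 to ℕ using F2
  norm_cast at *
  omega

end Six

end Crest.Agent.R257.Num488
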