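import Crest.Agent.R257.LgE_827
import Crest.Agent.R257.NumL_488

/-!
Row 257 (S0395), leaf B-NUM (helper827), part F: linkage in a good basis and the Le–Greuel identity
for ideals of the ring of germs.
-/

set_option autoImplicit false

open Set Filter Topology
open Crest.Agent.R275.Loc2879
open Crest.Agent.R257.UI939 (BB xB)
open Crest.Agent.R257.Num488

noncomputable section

namespace Crest.Agent.R257.LgA_827

local notation "𝔪" => IsLocalRing.maximalIdeal (BB 3)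

lemma relPrime_of {a b c : BB 3} (h : T a b c ≠ ⊤) (hc : ¬ IsUnit c) : IsRelPrime a b := by
  intro d hda hdb
  by_contra hd
  obtain ⟨a', rfl⟩ := hda
  obtain ⟨b', rfl⟩ := hdb
  obtain ⟨k, hk⟩ := pow_mem h
  refine Cnm1_889.two_not_enough3 hd hc (k := k) fun y hy => ?_
  obtain ⟨r, s, t, e⟩ := mem3.1 (hk y hy)
  exact ⟨r * a' + s * b', t, by rw [e]; ring⟩

lemma T_zero {a b c : BB 3} (h : IsUnit a ∨ IsUnit b ∨ IsUnit c) : T a b c = 0 := by
  have h1 : Ideal.span {a, b, c} = ⊤ := by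
    rcases h with h | h | h
    · exact Ideal.eq_top_of_isUnit_mem _ (Ideal.subset_span (by simp)) h
    · exact Ideal.eq_top_of_isUnit_mem _ (Ideal.subset_span (by simp)) h
    · exact Ideal.eq_top_of_isUnit_mem _ (Ideal.subset_span (by simp)) h
  unfold T
  rw [h1]
  exact Module.length_eq_zero

lemma IW_eq_sup (b : Bs) (f g : BB 3) :
    IW b f g = Ideal.span {f, W b f g 0 1, W b f g 1 2} ⊔ Ideal.span {W b f g 2 0} := by
  apply le_antisymm
  · rw [IW, Ideal.span_le]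
    have h01 : W b f g 0 1 ∈ Ideal.span {f, W b f g 0 1, W b f g 1 2} ⊔ Ideal.span {W b f g 2 0} :=
      Ideal.mem_sup_left (Ideal.subset_span (by simp))
    have h12 : W b f g 1 2 ∈ Ideal.span {f, W b f g 0 1, W b f g 1 2} ⊔ Ideal.span {W b f g 2 0} :=
      Ideal.mem_sup_left (Ideal.subset_span (by simp))
    have h20 : W b f g 2 0 ∈ Ideal.span {f, W b f g 0 1, W b f g 1 2} ⊔ Ideal.span {W b f g 2 0} :=
      Ideal.mem_sup_right (Ideal.subset_span (by simp))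
    rintro _ (rfl | ⟨⟨p, q⟩, rfl⟩)
    · exact Ideal.mem_sup_left (Ideal.subset_span (by simp))
    · rw [SetLike.mem_coe]
      fin_cases p <;> fin_cases q
      · change W b f g 0 0 ∈ _; rw [W_self]; exact Ideal.zero_mem _
      · exact h01
      · change W b f g 0 2 ∈ _; rw [W_swap b f g 0 2]; exact Ideal.neg_mem_iff _ |>.2 h20
      · change W b f g 1 0 ∈ _; rw [W_swap b f g 1 0]; exact Ideal.neg_mem_iff _ |>.2 h01
      · change W b f g 1 1 ∈ _; rw [W_self]; exact Ideal.zero_mem _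
      · exact h12
      · exact h20
      · change W b f g 2 1 ∈ _; rw [W_swap b f g 2 1]; exact Ideal.neg_mem_iff _ |>.2 h12
      · change W b f g 2 2 ∈ _; rw [W_self]; exact Ideal.zero_mem _
  · refine sup_le ?_ ?_
    · rw [Ideal.span_le]
      rintro _ (rfl | rfl | rfl)
      · exact f_mem_IW _ _ _
      · exact W_mem_IW _ _ _ _ _
      · exact W_mem_IW _ _ _ _ _
    · rw [Ideal.span_le]
      rintro _ rfl
      exact W_mem_IW _ _ _ _ _

/-- **linkage** -/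
theorem link (b : Bs) {f g : BB 3} (h : T f (W b f g 1 2) (W b f g 0 1) ≠ ⊤) :
    T f (W b f g 0 1) (W b f g 1 2) = T f (D b 1 f) (D b 1 g) + dl (BB 3 ⧸ IW b f g) := by
  by_cases hu : IsUnit (W b f g 0 1)
  · have h1 : IsUnit (D b 1 f) ∨ IsUnit (D b 1 g) := by
      by_contra hcon
      push Not at hcon
      have h2 : W b f g 0 1 ∈ 𝔪 := by
        rw [W]
        exact Ideal.sub_mem _ (Ideal.mul_mem_left _ _ (mem_m.2 hcon.2))
          (Ideal.mul_mem_right _ _ (mem_m.2 hcon.1))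
      exact mem_m.1 h2 hu
    have h3 : IW b f g = ⊤ := Ideal.eq_top_of_isUnit_mem _ (W_mem_IW _ _ _ _ _) hu
    rw [T_zero (Or.inr (Or.inl hu)), T_zero (Or.inr h1), h3]
    have : dl (BB 3 ⧸ (⊤ : Ideal (BB 3))) = 0 := Module.length_eq_zero
    rw [this, add_zero]
  · have hrel := relPrime_of h hu
    have key := linkage f (D b 0 f) (D b 1 f) (D b 2 f) (D b 0 g) (D b 1 g) (D b 2 g)
      (fun m hm => nzd h hm) (fun m hm => hrel.dvd_of_dvd_mul_left hm)
    rw [IW_eq_sup]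
    exact dl_colon _ _ _ key

/-- **the Le–Greuel identity**, for ideals -/
theorem lg_alg (b0 : Bs) {f g h : BB 3} (fn : ¬ IsUnit f) (gn : ¬ IsUnit g) (hn : ¬ IsUnit h)
    (mu : dl (BB 3 ⧸ IP b0 f) ≠ ⊤) (fgh : T f g h ≠ ⊤) (fgJ : T f g (Jd b0 f g h) ≠ ⊤) :
    dl (BB 3 ⧸ IW b0 f g) ≠ ⊤ ∧
      dl (BB 3 ⧸ IW b0 f g) + T f g h = dl (BB 3 ⧸ IP b0 f) + T f g (Jd b0 f g h) + 1 := by
  obtain ⟨b, I, A, B, H, C, G⟩ := generic b0 gn hn mu fgh fgJ
  have gen : Gen b f g := ⟨A, B, H, C, G⟩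
  have e1 : dt b f g h = Jd b f g h := by
    change D b 0 h * W b f g 1 2 + D b 1 h * W b f g 2 0 + D b 2 h * W b f g 0 1 = _
    rw [W_swap b f g 2 0, Jd]; ring
  obtain ⟨s1, s2, s3⟩ := gen.six fn gn hn
    (by
      have : dl (BB 3 ⧸ IP b f) ≠ ⊤ := by rw [I.IP]; exact mu
      rw [IP_eq] at this; exact this) fgh (by rw [e1, I.Jd]; exact fgJ)
  have s1' : T f (W b f g 0 1) (W b f g 1 2) ≠ ⊤ := s1
  have h1 := link b (f := f) (g := g) (by rw [T_swap']; exact s1')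
  have hL : dl (BB 3 ⧸ IW b f g) ≠ ⊤ := by
    intro h2
    rw [h2, add_top] at h1
    exact s1' h1
  rw [I.IW] at h1 hL
  refine ⟨hL, ?_⟩
  have s3' : T f (W b f g 0 1) (W b f g 1 2) + T f g h =
      dl (BB 3 ⧸ IP b f) + T f g (Jd b f g h) + 1 + T f (D b 1 f) (D b 1 g) := by
    rw [IP_eq, ← e1]; exact s3
  rw [h1, I.IP, I.Jd] at s3'
  have s2' : T f (D b 1 f) (D b 1 g) ≠ ⊤ := s2
  have h4 : T f (D b 1 f) (D b 1 g) + (dl (BB 3 ⧸ IW b0 f g) + T f g h) =
      T f (D b 1 f) (D b 1 g) + (dl (BB 3 ⧸ IP b0 f) + T f g (Jd b0 f g h) + 1) := by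
    rw [← add_assoc, s3', add_comm]
  exact ENat.add_right_injective_of_ne_top s2' h4

end Crest.Agent.R257.LgA_827
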