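import Crest.Agent.R257.Cnm6_889

/-!
Row 257 (S0395), leaf CntStmt (helper812): helper889's counting machine (`Cnm4`, `Cnm6`) with Koszul
exactness replaced by the lifting of the syzygies of the fibre along all lines of parameters.
-/

set_option autoImplicit false
set_option linter.unusedSectionVars false

open Set Filter Topology Matrix
open Crest.Agent.R275.Loc2879

noncomputable section

namespace Crest.Agent.R257.Lift_812

open Crest.Agent.R257.Fin554 Crest.Agent.R257.Uni554 Crest.Agent.R257.Cnm3_889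
open Crest.Agent.R257.Cnm4_889 Crest.Agent.R257.Cnm5_889 Crest.Agent.R257.Cnm6_889

variable {n k N : ℕ} {ι : Type} [Fintype ι]

/-- the syzygies of the fibre lift, along all lines of parameters -/
def Lft (g : ι → Bk n k) : Prop := ∀ (v : Fin k → ℂ) (b : ι → On n),
  ∑ j, b j * rk n k (g j) = 0 →
    ∃ b' : ι → Bn n, (∀ j, rr n (b' j) = b j) ∧ ∑ j, b' j * lnB n v (g j) = 0

/-- independence, one parameter -/
theorem ind1' (g : ι → Bn n)
    (hK : ∀ b : ι → On n, ∑ j, b j * rr n (g j) = 0 →
      ∃ b' : ι → Bn n, (∀ j, rr n (b' j) = b j) ∧ ∑ j, b' j * g j = 0) {N : ℕ} (w : Fin N → List (Fin n))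
    (hw : LinearIndependent ℂ
      (fun l => wq (Ideal.span (range fun j => rr n (g j))) (w l))) {c : Fin N → OO (0 : ℂ)}
    {b : ι → Bn n} (h : ∑ l, sndR n 0 (c l) * wd (w l) (Xc n (0 : ℂ)) = ∑ j, b j * g j) :
    ∀ l, c l = 0 := by
  have key : ∀ (K : ℕ) (c : Fin N → OO (0 : ℂ)) (b : ι → Bn n),
      ∑ l, sndR n 0 (c l) * wd (w l) (Xc n (0 : ℂ)) = ∑ j, b j * g j → ∀ l, TT (0 : ℂ) ^ K ∣ c l := by
    intro K
    induction K with
    | zero => intro c b _ l; simp
    | succ K ih =>
      intro c b h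
      have h1 := congrArg (rr n) h
      rw [map_sum, map_sum] at h1
      have hwd : ∀ l, rr n (wd (w l) (Xc n (0 : ℂ))) = wd (w l) Xo :=
        fun l => wd_map (rr n : Bn n →* On n) _ _
      simp only [map_mul, rr_sndR, hwd] at h1
      have h2 : ∑ l, evp 0 (c l) • wq (Ideal.span (range fun j => rr n (g j))) (w l) = 0 := by
        have h3 := congrArg (Ideal.Quotient.mk (Ideal.span (range fun j => rr n (g j)))) h1
        rw [map_sum, map_sum] at h3
        have h4 : ∑ j, Ideal.Quotient.mk (Ideal.span (range fun j => rr n (g j)))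
            (rr n (b j) * rr n (g j)) = 0 := by
          refine Finset.sum_eq_zero (fun j _ => ?_)
          rw [Ideal.Quotient.eq_zero_iff_mem]
          exact Ideal.mul_mem_left _ _ (Ideal.subset_span ⟨j, rfl⟩)
        rw [h4] at h3
        rw [← h3]
        refine Finset.sum_congr rfl (fun l _ => ?_)
        rw [map_mul, Algebra.smul_def]
        rfl
      have h5 := Fintype.linearIndependent_iff.1 hw _ h2
      have h6 : ∀ l, TT (0 : ℂ) ∣ c l := by
        intro l
        apply TT_dvd
        rw [Crest.Agent.R275.Loc2879.isUnit_iff, not_not]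
        exact h5 l
      choose c' hc' using h6
      have h7 : ∑ j, rr n (b j) * rr n (g j) = 0 := by
        rw [← h1]
        refine Finset.sum_eq_zero (fun l _ => ?_)
        rw [h5 l, map_zero, zero_mul]
      obtain ⟨s, hs1, hs2⟩ := hK _ h7
      let b' : ι → Bn n := fun j => b j - s j
      have h8 : ∀ j, rr n (b' j) = 0 := by
        intro j
        simp only [b', map_sub]
        rw [hs1 j, sub_self]
      choose q hq using fun j => ker_rr (h8 j)
      have h9 : ∑ j, b' j * g j = ∑ j, b j * g j := by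
        simp only [b', sub_mul]
        rw [Finset.sum_sub_distrib, hs2, sub_zero]
      have h10 : Tv n * ∑ l, sndR n 0 (c' l) * wd (w l) (Xc n (0 : ℂ)) =
          Tv n * ∑ j, q j * g j := by
        have h11 : Tv n * ∑ l, sndR n 0 (c' l) * wd (w l) (Xc n (0 : ℂ)) =
            ∑ l, sndR n 0 (c l) * wd (w l) (Xc n (0 : ℂ)) := by
          rw [Finset.mul_sum]
          refine Finset.sum_congr rfl (fun l _ => ?_)
          rw [hc' l, map_mul, Tv]; ring
        have h12 : Tv n * ∑ j, q j * g j = ∑ j, b' j * g j := by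
          rw [Finset.mul_sum]
          refine Finset.sum_congr rfl (fun l _ => ?_)
          rw [hq l]; ring
        rw [h11, h12, h9, h]
      have hT0 : Tv n ≠ 0 := by
        intro h0
        rw [Tv, TT, sndR_gm, gm_eq_zero] at h0
        have hc : Tendsto (fun t : ℂ => ((0 : Fin n → ℂ), t)) (𝓝 0) (𝓝 (0, 0)) := by
          have : Continuous (fun t : ℂ => ((0 : Fin n → ℂ), t)) := by fun_prop
          exact this.tendsto 0
        have h2 : ∀ᶠ t in 𝓝[≠] (0 : ℂ), t - 0 = 0 :=
          (hc.eventually h0).filter_mono nhdsWithin_le_nhds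
        obtain ⟨t, ht, ht'⟩ := (h2.and self_mem_nhdsWithin).exists
        exact ht' (by simpa using ht)
      have h13 := ih c' q (mul_left_cancel₀ hT0 h10)
      intro l
      rw [hc' l, pow_succ']
      exact mul_dvd_mul_left _ (h13 l)
  intro l
  by_contra hne
  obtain ⟨m, u, hu⟩ := exists_pow_mul (c l) hne
  have h1 := key (m + 1) c b h l
  rw [hu, pow_succ] at h1
  have h2 := (mul_dvd_mul_iff_left (pow_ne_zero m (TT_ne_zero (a := (0 : ℂ))))).1 h1
  exact TT_not_unit (isUnit_of_dvd_unit h2 u.isUnit)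

/-- **independence** of the words over the parameters -/
theorem ind' [NeZero k] (g : ι → Bk n k) (hK : Lft g) {N : ℕ}
    (w : Fin N → List (Fin n)) (hw : LinearIndependent ℂ (fun l => wq (J0 g) (w l)))
    {c : Fin N → Rk k}
    (h : ∑ l, sR n k (c l) * wd (w l) (Xk n k) ∈ Ideal.span (range g)) : ∀ l, c l = 0 := by
  obtain ⟨b, hb⟩ := (Ideal.mem_span_range_iff_exists_fun).1 h
  intro l
  refine eq_zero_of_ln (fun v => ?_)
  have h1 := congrArg (lnB n v) hb
  rw [map_sum, map_sum] at h1
  have hwd : ∀ l, lnB n v (wd (w l) (Xk n k)) = wd (w l) (Xc n (0 : ℂ)) :=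
    fun l => wd_map (lnB n v : Bk n k →* Bn n) _ _
  simp only [map_mul, lnB_sR, hwd] at h1
  refine ind1' (fun j => lnB n v (g j)) ?_ w ?_ (c := fun l => ln v (c l))
    (b := fun j => lnB n v (b j)) h1.symm l
  · intro b hb
    simp only [rr_lnB] at hb
    exact hK v b hb
  · have e : (fun j => rr n (lnB n v (g j))) = fun j => rk n k (g j) :=
      funext (fun j => rr_lnB v (g j))
    rw [e]; exact hw

set_option maxHeartbeats 2000000 in
theorem exists_gdat' [NeZero k] (g : ι → Bk n k) (hfin : Module.Finite ℂ (On n ⧸ J0 g))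
    (hN : Module.finrank ℂ (On n ⧸ J0 g) = N) (hK : Lft g) :
    Nonempty (GDat g N) := by
  obtain ⟨w, hw1, hw2⟩ := exists_words (J0 g) hfin hN
  set I : Ideal (Bk n k) := Ideal.span (range g) with hI
  have hexp : ∀ b : Bk n k, ∃ (c : Fin N → Rk k) (a : ι → Bk n k),
      b = ∑ l, sR n k (c l) * wd (w l) (Xk n k) + ∑ j, a j * g j := by
    intro b
    obtain ⟨c, hc⟩ := gen g hfin w hw2 b
    obtain ⟨a, ha⟩ := Ideal.mem_span_range_iff_exists_fun.1 hc
    exact ⟨c, a, by rw [ha]; ring⟩
  obtain ⟨u, α, e1⟩ := hexp 1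
  choose M' β e2 using fun i l => hexp (Xk n k i * wd (w l) (Xk n k))
  choose γ R e3 using fun j => hadG (0 : Fin k → ℂ) n (g j)
  choose ρ a e4 using fun j i => hexp (R j i)
  let M : Fin n → Matrix (Fin N) (Fin N) (Rk k) := fun i => Matrix.of (fun j l => M' i l j)
  let q : Bk n k →+* Bk n k ⧸ I := Ideal.Quotient.mk I
  let σ : Rk k →+* Bk n k ⧸ I := q.comp (sR n k)
  let ω : Fin N → Bk n k ⧸ I := fun l => q (wd (w l) (Xk n k))
  let x : Fin n → Bk n k ⧸ I := fun i => q (Xk n k i)
  have hq0 : ∀ a : ι → Bk n k, q (∑ j, a j * g j) = 0 := by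
    intro a
    rw [Ideal.Quotient.eq_zero_iff_mem]
    exact Ideal.sum_mem _ (fun j _ => Ideal.mul_mem_left _ _ (Ideal.subset_span ⟨j, rfl⟩))
  have hqs : ∀ c : Fin N → Rk k, q (∑ l, sR n k (c l) * wd (w l) (Xk n k)) =
      ∑ l, σ (c l) * ω l := by
    intro c
    rw [map_sum]
    exact Finset.sum_congr rfl (fun l _ => by rw [map_mul]; rfl)
  have hind : ∀ c : Fin N → Rk k, ∑ l, σ (c l) * ω l = 0 → ∀ l, c l = 0 := by
    intro c hc
    rw [← hqs] at hc
    exact ind' g hK w hw1 (Ideal.Quotient.eq_zero_iff_mem.1 hc)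
  have hx : ∀ i, Rel σ ω (x i) (M i) := by
    intro i l
    have h1 := congrArg q (e2 i l)
    rw [map_add, hq0, add_zero, hqs, map_mul] at h1
    exact h1
  have hu : 1 = ∑ l, σ (u l) * ω l := by
    have h1 := congrArg q e1
    rwa [map_add, hq0, add_zero, hqs, map_one] at h1
  have hω : ∀ l, ω l = wd (w l) x := fun l => wd_mapR q _ _
  refine ⟨⟨w, u, α, e1, M, β, e2, γ, R, e3, ρ, a, e4, fun i j => (hx i).comm hind (hx j),
    fun l => rel_words hind hx hω hu l, fun j => ?_, N, fun i => ?_⟩⟩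
  · refine vec_unique hind (σ := σ) (ω := ω) ?_
    have h1 : q (g j) = 0 := Ideal.Quotient.eq_zero_iff_mem.2 (Ideal.subset_span ⟨j, rfl⟩)
    have h2 : ∀ i, q (R j i) = ∑ l, σ (ρ j i l) * ω l := by
      intro i
      rw [e4 j i, map_add, hq0, add_zero, hqs]
    have h3 : q (g j) = σ (γ j) * ∑ l, σ (u l) * ω l + ∑ i, ∑ l, σ ((M i *ᵥ ρ j i) l) * ω l := by
      conv_lhs => rw [e3 j]
      rw [map_add, map_sum, ← hu, mul_one]
      congr 1
      refine Finset.sum_congr rfl (fun i _ => ?_)
      rw [map_mul, h2, ← (hx i).mulVec]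
    rw [h1] at h3
    simp only [Pi.add_apply, Pi.smul_apply, smul_eq_mul, map_add, map_mul, Finset.sum_apply,
      map_sum, Pi.zero_apply, map_zero, zero_mul, Finset.sum_const_zero]
    rw [h3, Finset.mul_sum, Finset.sum_comm, ← Finset.sum_add_distrib]
    refine Finset.sum_congr rfl (fun l _ => ?_)
    rw [add_mul, Finset.sum_mul]; ring
  · -- nilpotency at the origin
    have h1 := (hx i).pow N
    ext l l'
    have h2 := h1 l'
    have h3 : Xk n k i ^ N * wd (w l') (Xk n k) -
        ∑ j, sR n k ((M i ^ N) j l') * wd (w j) (Xk n k) ∈ I := by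
      rw [← Ideal.Quotient.eq, map_mul, map_pow]
      exact h2.trans (hqs (fun j => (M i ^ N) j l')).symm
    have hmap : I.map (rk n k) = J0 g := by
      rw [hI, Ideal.map_span, J0]
      congr 1
      rw [← range_comp]
      rfl
    have h4 : rk n k (Xk n k i ^ N * wd (w l') (Xk n k) -
        ∑ j, sR n k ((M i ^ N) j l') * wd (w j) (Xk n k)) ∈ J0 g := by
      rw [← hmap]; exact Ideal.mem_map_of_mem _ h3
    have hwd : ∀ l, rk n k (wd (w l) (Xk n k)) = wd (w l) Xo :=
      fun l => wd_map (rk n k : Bk n k →* On n) _ _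
    rw [map_sub, map_mul, map_pow, rk_Xk, map_sum, hwd] at h4
    have h5 : (Xo i : On n) ^ N * wd (w l') Xo ∈ J0 g :=
      Ideal.mul_mem_right _ _ (pow_le _ hfin hN (Ideal.pow_mem_pow (Xo_mem i) N))
    have h6 : ∑ j, rk n k (sR n k ((M i ^ N) j l') * wd (w j) (Xk n k)) ∈ J0 g := by
      have := (Submodule.sub_mem_iff_right _ h5).1 h4
      exact this
    have h7 : ∑ j, evp 0 ((M i ^ N) j l') • wq (J0 g) (w j) = 0 := by
      rw [← Ideal.Quotient.eq_zero_iff_mem, map_sum] at h6
      rw [← h6]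
      refine Finset.sum_congr rfl (fun j _ => ?_)
      rw [map_mul, rk_sR, hwd, map_mul, Algebra.smul_def]
      rfl
    have h8 := Fintype.linearIndependent_iff.1 hw1 _ h7 l
    simpa using h8

end Crest.Agent.R257.Lift_812
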