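import Crest.Agent.R257.Aff_835

/-!
Row 257 (S0395), leaf E-LIM, helper37: holomorphic families of levels `{g τ = σ τ}` in `ℂ^(n+1)`,
`τ` in a complex Banach space `P`, and their local charts (implicit function theorem).

* `jn g σ (x, τ) = g τ x - σ τ`
* `Cht g σ D τ₀ x₀` : one family `Θ (·, τ)` of parametrisations of the levels, `τ` near `τ₀`
* `exists_cht`
-/

set_option autoImplicit false
set_option linter.unusedSectionVars false

open Set Filter Topology Complex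
open scoped ContDiff ComplexConjugate

namespace Crest.Agent.R257.LimA_37

open Crest.Agent.R275.Geo Crest.Agent.R275.Core144
open Crest.Agent.R273.Defs_333 Crest.Agent.R273.YauDefs_635
open Crest.Agent.R257.PN_835 Crest.Agent.R257.Aff_835

noncomputable section

variable {n : ℕ} {P : Type*} [NormedAddCommGroup P] [NormedSpace ℂ P] [CompleteSpace P]

/-- the family of functions -/
def jn (g : P → AC n → ℂ) (σ : P → ℂ) (p : AC n × P) : ℂ := g p.2 p.1 - σ p.2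

/-- a family of parametrisations of the levels near `x₀`, `τ₀` -/
structure Cht (g : P → AC n → ℂ) (σ : P → ℂ) (D : Set (AC n)) (τ₀ : P) (x₀ : AC n) where
  ρ : ℝ
  ρ_pos : 0 < ρ
  T : Set P
  T_open : IsOpen T
  mem_T : τ₀ ∈ T
  N : Set (AC n)
  N_open : IsOpen N
  mem_N : x₀ ∈ N
  Θ : Cn n × P → AC n
  an : ∀ z ∈ Metric.ball (0 : Cn n) ρ, ∀ τ ∈ T, AnalyticAt ℂ Θ (z, τ)
  par : ∀ τ ∈ T, Par (g τ) (σ τ) (fun z => Θ (z, τ)) (Metric.ball 0 ρ)
  maps : ∀ z ∈ Metric.ball (0 : Cn n) ρ, ∀ τ ∈ T, Θ (z, τ) ∈ D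
  π : AC n →L[ℂ] Cn n
  left : ∀ z ∈ Metric.ball (0 : Cn n) ρ, ∀ τ ∈ T, π (Θ (z, τ) - x₀) = z
  right : ∀ x ∈ N, ∀ τ ∈ T, g τ x = σ τ →
    π (x - x₀) ∈ Metric.ball (0 : Cn n) ρ ∧ Θ (π (x - x₀), τ) = x
  zero : Θ (0, τ₀) = x₀

/-- splitting of `ℂ^(n+1)` by a non-zero covector -/
theorem exists_split (L : AC n →L[ℂ] ℂ) (hL : L ≠ 0) :
    ∃ A : (Cn n × ℂ) ≃L[ℂ] AC n, ∀ z w, L (A (z, w)) = w := by
  have hL' : ∃ e, L e ≠ 0 := by
    by_contra h
    push Not at h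
    exact hL (ContinuousLinearMap.ext h)
  obtain ⟨e₀, he₀⟩ := hL'
  set e : AC n := (L e₀)⁻¹ • e₀ with he
  have hLe : L e = 1 := by
    rw [he, map_smul, smul_eq_mul, inv_mul_cancel₀ he₀]
  have hs : Function.Surjective (L : AC n →ₗ[ℂ] ℂ) := fun w => ⟨w • e, by
    show L (w • e) = w
    rw [map_smul, hLe, smul_eq_mul, mul_one]⟩
  have hfr : Module.finrank ℂ (LinearMap.ker (L : AC n →ₗ[ℂ] ℂ)) = n := by
    have h1 := LinearMap.finrank_range_add_finrank_ker (L : AC n →ₗ[ℂ] ℂ)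
    rw [LinearMap.range_eq_top.2 hs, finrank_top, Module.finrank_self] at h1
    have h2 : Module.finrank ℂ (AC n) = n + 1 := by
      show Module.finrank ℂ (Fin (n + 1) → ℂ) = n + 1
      simp
    omega
  have hfr' : Module.finrank ℂ (Cn n) = Module.finrank ℂ (LinearMap.ker (L : AC n →ₗ[ℂ] ℂ)) := by
    rw [hfr]
    simp
  let B : Cn n ≃ₗ[ℂ] LinearMap.ker (L : AC n →ₗ[ℂ] ℂ) := LinearEquiv.ofFinrankEq _ _ hfr'
  let A' : (Cn n × ℂ) →ₗ[ℂ] AC n :=
    LinearMap.coprod ((LinearMap.ker (L : AC n →ₗ[ℂ] ℂ)).subtype.comp B.toLinearMap)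
      (LinearMap.toSpanSingleton ℂ (AC n) e)
  have hA' : ∀ z w, A' (z, w) = (B z : AC n) + w • e := fun z w => by
    simp [A']
  have hLB : ∀ z, L (B z : AC n) = 0 := fun z => (B z).2
  have hLA : ∀ z w, L (A' (z, w)) = w := fun z w => by
    rw [hA', map_add, hLB, zero_add, map_smul, hLe, smul_eq_mul, mul_one]
  have hinj : Function.Injective A' := by
    rw [injective_iff_map_eq_zero]
    rintro ⟨z, w⟩ h
    have h1 := hLA z w
    rw [h, map_zero] at h1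
    subst h1
    rw [hA', zero_smul, add_zero] at h
    have h2 : B z = 0 := Subtype.ext h
    have h3 : z = 0 := by simpa using h2
    rw [h3]
    rfl
  have hfr2 : Module.finrank ℂ (Cn n × ℂ) = Module.finrank ℂ (AC n) := by
    rw [Module.finrank_prod, Module.finrank_self]
    show _ = Module.finrank ℂ (Fin (n + 1) → ℂ)
    simp
  refine ⟨(LinearEquiv.ofInjectiveOfFinrankEq A' hinj hfr2).toContinuousLinearEquiv, fun z w => ?_⟩
  exact hLA z w

/-- **local charts of a family of levels** -/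
theorem exists_cht {g : P → AC n → ℂ} {σ : P → ℂ} {D : Set (AC n)} (hD : IsOpen D) {τ₀ : P}
    {x₀ : AC n} (hx₀ : x₀ ∈ D) (h0 : g τ₀ x₀ = σ τ₀) (hJ : AnalyticAt ℂ (jn g σ) (x₀, τ₀))
    (hreg : fderiv ℂ (g τ₀) x₀ ≠ 0) : Nonempty (Cht g σ D τ₀ x₀) := by
  obtain ⟨J', hJ'⟩ : ∃ J', J' = fderiv ℂ (jn g σ) (x₀, τ₀) := ⟨_, rfl⟩
  have hJd : HasFDerivAt (jn g σ) J' (x₀, τ₀) := by
    rw [hJ']; exact hJ.differentiableAt.hasFDerivAt
  -- the partial derivative
  have hJx : ∀ v, J' (v, 0) = fderiv ℂ (g τ₀) x₀ v := by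
    have h1 : HasFDerivAt (fun x : AC n => jn g σ (x, τ₀))
        (J'.comp (ContinuousLinearMap.inl ℂ (AC n) P)) x₀ :=
      HasFDerivAt.comp x₀ (g := jn g σ) hJd (hasFDerivAt_prodMk_left x₀ τ₀)
    have h2 : HasFDerivAt (g τ₀) (J'.comp (ContinuousLinearMap.inl ℂ (AC n) P)) x₀ := by
      have h3 := h1.add_const (σ τ₀)
      refine h3.congr_of_eventuallyEq (Eventually.of_forall fun x => ?_)
      simp [jn]
    intro v
    rw [h2.fderiv]
    rfl
  obtain ⟨A, hA⟩ := exists_split _ hreg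
  let c : P →L[ℂ] ℂ := J'.comp (ContinuousLinearMap.inr ℂ (AC n) P)
  -- the map
  let Ψ : (Cn n × ℂ) × P → (Cn n × ℂ) × P := fun q =>
    ((q.1.1, jn g σ (x₀ + A q.1, q.2)), q.2)
  let a₀ : (Cn n × ℂ) × P := (0, τ₀)
  have hA0 : A 0 = 0 := map_zero A
  have hΨ0 : Ψ a₀ = a₀ := by
    show (((0 : Cn n × ℂ).1, jn g σ (x₀ + A 0, τ₀)), τ₀) = ((0 : Cn n × ℂ), τ₀)
    rw [hA0, add_zero, jn, h0, sub_self]
    rfl
  let E : ((Cn n × ℂ) × P) ≃L[ℂ] ((Cn n × ℂ) × P) :=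
    ContinuousLinearEquiv.equivOfInverse
      (((((ContinuousLinearMap.fst ℂ (Cn n) ℂ).comp (ContinuousLinearMap.fst ℂ (Cn n × ℂ) P)).prod
        ((ContinuousLinearMap.snd ℂ (Cn n) ℂ).comp (ContinuousLinearMap.fst ℂ (Cn n × ℂ) P)
          + c.comp (ContinuousLinearMap.snd ℂ (Cn n × ℂ) P)))).prod
        (ContinuousLinearMap.snd ℂ (Cn n × ℂ) P))
      (((((ContinuousLinearMap.fst ℂ (Cn n) ℂ).comp (ContinuousLinearMap.fst ℂ (Cn n × ℂ) P)).prod
        ((ContinuousLinearMap.snd ℂ (Cn n) ℂ).comp (ContinuousLinearMap.fst ℂ (Cn n × ℂ) P)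
          - c.comp (ContinuousLinearMap.snd ℂ (Cn n × ℂ) P)))).prod
        (ContinuousLinearMap.snd ℂ (Cn n × ℂ) P))
      (fun q => by simp) (fun q => by simp)
  have hE : ∀ q, E q = ((q.1.1, q.1.2 + c q.2), q.2) := fun q => rfl
  have hin : HasFDerivAt (fun q : (Cn n × ℂ) × P => ((x₀ + A q.1, q.2) : AC n × P))
      (((A : (Cn n × ℂ) →L[ℂ] AC n).comp (ContinuousLinearMap.fst ℂ (Cn n × ℂ) P)).prod
        (ContinuousLinearMap.snd ℂ (Cn n × ℂ) P)) a₀ := by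
    refine HasFDerivAt.prodMk ?_ hasFDerivAt_snd
    exact ((A : (Cn n × ℂ) →L[ℂ] AC n).hasFDerivAt.comp a₀ hasFDerivAt_fst).const_add x₀
  have hina : AnalyticAt ℂ (fun q : (Cn n × ℂ) × P => ((x₀ + A q.1, q.2) : AC n × P)) a₀ := by
    refine AnalyticAt.prod ?_ analyticAt_snd
    refine AnalyticAt.add analyticAt_const ?_
    exact ((A : (Cn n × ℂ) →L[ℂ] AC n).analyticAt _).comp analyticAt_fst
  have hbase : ((x₀ + A a₀.1, a₀.2) : AC n × P) = (x₀, τ₀) := by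
    show (x₀ + A 0, τ₀) = (x₀, τ₀)
    rw [hA0, add_zero]
  have hΨa : AnalyticAt ℂ Ψ a₀ := by
    refine AnalyticAt.prod (AnalyticAt.prod ?_ ?_) analyticAt_snd
    · exact analyticAt_fst.comp analyticAt_fst
    · exact AnalyticAt.comp (g := jn g σ)
        (show AnalyticAt ℂ (jn g σ) (x₀ + A a₀.1, a₀.2) by rw [hbase]; exact hJ) hina
  have hΨd : HasFDerivAt Ψ (E : ((Cn n × ℂ) × P) →L[ℂ] ((Cn n × ℂ) × P)) a₀ := by
    have h1 : HasFDerivAt (fun q : (Cn n × ℂ) × P => jn g σ (x₀ + A q.1, q.2))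
        (J'.comp (((A : (Cn n × ℂ) →L[ℂ] AC n).comp
          (ContinuousLinearMap.fst ℂ (Cn n × ℂ) P)).prod
          (ContinuousLinearMap.snd ℂ (Cn n × ℂ) P))) a₀ :=
      HasFDerivAt.comp a₀ (g := jn g σ)
        (show HasFDerivAt (jn g σ) J' (x₀ + A a₀.1, a₀.2) by rw [hbase]; exact hJd) hin
    have h2 : HasFDerivAt (fun q : (Cn n × ℂ) × P => q.1.1)
        ((ContinuousLinearMap.fst ℂ (Cn n) ℂ).comp (ContinuousLinearMap.fst ℂ (Cn n × ℂ) P)) a₀ :=
      ((ContinuousLinearMap.fst ℂ (Cn n) ℂ).comp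
        (ContinuousLinearMap.fst ℂ (Cn n × ℂ) P)).hasFDerivAt
    have h3 := (h2.prodMk h1).prodMk (hasFDerivAt_snd (𝕜 := ℂ) (p := a₀))
    refine h3.congr_fderiv ?_
    refine ContinuousLinearMap.ext fun q => ?_
    show ((q.1.1, J' (A q.1, q.2)), q.2) = E q
    rw [hE]
    congr 2
    have h4 : ((A q.1, q.2) : AC n × P) = (A q.1, 0) + (0, q.2) := by simp
    rw [h4, map_add, hJx]
    have h5 : fderiv ℂ (g τ₀) x₀ (A q.1) = q.1.2 := hA q.1.1 q.1.2
    rw [h5]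
    rfl
  have hstr : HasStrictFDerivAt Ψ (E : ((Cn n × ℂ) × P) →L[ℂ] ((Cn n × ℂ) × P)) a₀ := by
    have := hΨa.hasStrictFDerivAt
    rwa [hΨd.fderiv] at this
  set R := hstr.toOpenPartialHomeomorph Ψ with hR
  have hRc : ∀ q, R q = Ψ q := fun q => rfl
  have ha₀ : a₀ ∈ R.source := hstr.mem_toOpenPartialHomeomorph_source
  have hRa₀ : R a₀ = a₀ := by rw [hRc, hΨ0]
  have ha₀t : a₀ ∈ R.target := by
    have := R.map_source ha₀
    rwa [hRa₀] at this
  have hsym : R.symm a₀ = a₀ := by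
    conv_lhs => rw [← hRa₀]
    exact R.left_inv ha₀
  have hsyma : AnalyticAt ℂ R.symm a₀ := by
    have h1 := R.analyticAt_symm' ha₀ hΨa hΨd.fderiv
    rwa [hRa₀] at h1
  -- the chart
  let Θ : Cn n × P → AC n := fun p => x₀ + A (R.symm ((p.1, 0), p.2)).1
  have hem : Continuous (fun p : Cn n × P => (((p.1, 0), p.2) : (Cn n × ℂ) × P)) := by fun_prop
  have hem0 : (fun p : Cn n × P => (((p.1, 0), p.2) : (Cn n × ℂ) × P)) (0, τ₀) = a₀ := rfl
  have hΘ0 : Θ (0, τ₀) = x₀ := by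
    show x₀ + A (R.symm a₀).1 = x₀
    rw [hsym]
    show x₀ + A 0 = x₀
    rw [hA0, add_zero]
  have hemt : Tendsto (fun p : Cn n × P => (((p.1, 0), p.2) : (Cn n × ℂ) × P)) (𝓝 (0, τ₀))
      (𝓝 a₀) := hem.tendsto (0, τ₀)
  have hev1 : ∀ᶠ p : Cn n × P in 𝓝 (0, τ₀), (((p.1, 0), p.2) : (Cn n × ℂ) × P) ∈ R.target ∧
      AnalyticAt ℂ R.symm (((p.1, 0), p.2) : (Cn n × ℂ) × P) :=
    hemt.eventually (Filter.Eventually.and (R.open_target.mem_nhds ha₀t)
      hsyma.eventually_analyticAt)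
  have hΘan : ∀ p : Cn n × P, AnalyticAt ℂ R.symm (((p.1, 0), p.2) : (Cn n × ℂ) × P) →
      AnalyticAt ℂ Θ p := by
    intro p hp
    have h1 : AnalyticAt ℂ (fun p : Cn n × P => (((p.1, 0), p.2) : (Cn n × ℂ) × P)) p := by
      refine AnalyticAt.prod (AnalyticAt.prod analyticAt_fst analyticAt_const) analyticAt_snd
    have h2 : AnalyticAt ℂ (fun p : Cn n × P => R.symm (((p.1, 0), p.2) : (Cn n × ℂ) × P)) p :=
      AnalyticAt.comp (g := R.symm) hp h1
    have h3 : AnalyticAt ℂ (fun p : Cn n × P =>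
        (R.symm (((p.1, 0), p.2) : (Cn n × ℂ) × P)).1) p := analyticAt_fst.comp h2
    exact analyticAt_const.add (((A : (Cn n × ℂ) →L[ℂ] AC n).analyticAt _).comp h3)
  have hΘc : ContinuousAt Θ (0, τ₀) := (hΘan (0, τ₀) (by
    show AnalyticAt ℂ R.symm a₀
    exact hsyma)).continuousAt
  have hev2 : ∀ᶠ p : Cn n × P in 𝓝 (0, τ₀), Θ p ∈ D :=
    hΘc.eventually (by rw [hΘ0]; exact hD.mem_nhds hx₀)
  obtain ⟨U₁, hU₁, T₁, hT₁, hUT⟩ := mem_nhds_prod_iff.1 (hev1.and hev2)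
  obtain ⟨ρ, hρ, hρU⟩ := Metric.mem_nhds_iff.1 hU₁
  -- the other direction
  let Q : AC n × P → (Cn n × ℂ) × P := fun p => (A.symm (p.1 - x₀), p.2)
  have hQc : Continuous Q := by
    refine Continuous.prodMk ?_ continuous_snd
    exact A.symm.continuous.comp (continuous_fst.sub continuous_const)
  have hQ0 : Q (x₀, τ₀) = a₀ := by
    show (A.symm (x₀ - x₀), τ₀) = (0, τ₀)
    rw [sub_self, map_zero]
  have hev3 : ∀ᶠ p : AC n × P in 𝓝 (x₀, τ₀), Q p ∈ R.source ∧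
      (Q p).1.1 ∈ Metric.ball (0 : Cn n) ρ := by
    refine hQc.continuousAt.eventually (p := fun q => q ∈ R.source ∧
      q.1.1 ∈ Metric.ball (0 : Cn n) ρ) ?_
    rw [hQ0]
    refine Filter.Eventually.and (R.open_source.mem_nhds ha₀) ?_
    have : Tendsto (fun q : (Cn n × ℂ) × P => q.1.1) (𝓝 a₀) (𝓝 0) :=
      (continuous_fst.comp continuous_fst).tendsto' _ _ rfl
    exact this.eventually (Metric.ball_mem_nhds _ hρ)
  obtain ⟨N₁, hN₁, T₂, hT₂, hNT⟩ := mem_nhds_prod_iff.1 hev3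
  have hT12 : T₁ ∩ T₂ ∈ 𝓝 τ₀ := inter_mem hT₁ hT₂
  let π : AC n →L[ℂ] Cn n := (ContinuousLinearMap.fst ℂ (Cn n) ℂ).comp
    (A.symm : AC n →L[ℂ] (Cn n × ℂ))
  have hπ : ∀ x, π x = (A.symm x).1 := fun _ => rfl
  have key : ∀ z ∈ Metric.ball (0 : Cn n) ρ, ∀ τ ∈ T₁,
      R.symm ((z, 0), τ) ∈ R.source ∧ Ψ (R.symm ((z, 0), τ)) = ((z, 0), τ) ∧
        AnalyticAt ℂ R.symm (((z, 0), τ) : (Cn n × ℂ) × P) ∧ Θ (z, τ) ∈ D := by
    intro z hz τ hτ
    obtain ⟨⟨h1, h2⟩, h3⟩ := hUT (mk_mem_prod (hρU hz) hτ)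
    exact ⟨R.map_target h1, R.right_inv h1, h2, h3⟩
  have hleft : ∀ z ∈ Metric.ball (0 : Cn n) ρ, ∀ τ ∈ T₁, π (Θ (z, τ) - x₀) = z := by
    intro z hz τ hτ
    obtain ⟨-, h2, -, -⟩ := key z hz τ hτ
    have h3 : (R.symm (((z, 0), τ) : (Cn n × ℂ) × P)).1.1 = z := congrArg (fun q => q.1.1) h2
    rw [hπ]
    show (A.symm (x₀ + A (R.symm ((z, 0), τ)).1 - x₀)).1 = z
    rw [add_sub_cancel_left, A.symm_apply_apply]
    exact h3
  refine ⟨{ ρ := ρ
            ρ_pos := hρ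
            T := interior (T₁ ∩ T₂)
            T_open := isOpen_interior
            mem_T := mem_interior_iff_mem_nhds.2 hT12
            N := interior N₁
            N_open := isOpen_interior
            mem_N := mem_interior_iff_mem_nhds.2 hN₁
            Θ := Θ
            an := fun z hz τ hτ => hΘan (z, τ) (key z hz τ (interior_subset hτ).1).2.2.1
            par := fun τ hτ => ?_
            maps := fun z hz τ hτ => (key z hz τ (interior_subset hτ).1).2.2.2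
            π := π
            left := fun z hz τ hτ => hleft z hz τ (interior_subset hτ).1
            right := fun x hx τ hτ hxτ => ?_
            zero := hΘ0 }⟩
  · have hτ1 : τ ∈ T₁ := (interior_subset hτ).1
    have hdiff : ∀ z ∈ Metric.ball (0 : Cn n) ρ, DifferentiableAt ℂ (fun z => Θ (z, τ)) z := by
      intro z hz
      have h1 := hΘan (z, τ) (key z hz τ hτ1).2.2.1
      have h2 : AnalyticAt ℂ (fun z : Cn n => ((z, τ) : Cn n × P)) z :=
        AnalyticAt.prod analyticAt_id analyticAt_const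
      exact (AnalyticAt.comp (g := Θ) (f := fun z : Cn n => ((z, τ) : Cn n × P)) h1
        h2).differentiableAt
    refine ⟨Metric.isOpen_ball, fun z hz => (hdiff z hz).differentiableWithinAt, fun z hz => ?_,
      fun z hz v hv => ?_⟩
    · obtain ⟨-, h2, -, -⟩ := key z hz τ hτ1
      have h3 : (R.symm (((z, 0), τ) : (Cn n × ℂ) × P)).2 = τ := congrArg (fun q => q.2) h2
      have h4 : jn g σ (x₀ + A (R.symm ((z, 0), τ)).1, (R.symm ((z, 0), τ)).2) = 0 :=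
        congrArg (fun q => q.1.2) h2
      rw [h3] at h4
      have h5 : g τ (Θ (z, τ)) - σ τ = 0 := h4
      exact sub_eq_zero.1 h5
    · have h1 : HasFDerivAt (fun z => π (Θ (z, τ) - x₀))
          (π.comp (fderiv ℂ (fun z => Θ (z, τ)) z)) z :=
        π.hasFDerivAt.comp z ((hdiff z hz).hasFDerivAt.sub_const x₀)
      have h2 : HasFDerivAt (fun z => π (Θ (z, τ) - x₀)) (ContinuousLinearMap.id ℂ (Cn n)) z := by
        refine (hasFDerivAt_id z).congr_of_eventuallyEq ?_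
        filter_upwards [Metric.isOpen_ball.mem_nhds hz] with w hw
        exact hleft w hw τ hτ1
      have h3 := congrArg (fun T : Cn n →L[ℂ] Cn n => T v) (h1.unique h2)
      simp only [ContinuousLinearMap.comp_apply, hv, map_zero, ContinuousLinearMap.id_apply] at h3
      exact h3.symm
  · have hτ2 : τ ∈ T₂ := (interior_subset hτ).2
    obtain ⟨h1, h2⟩ := hNT (mk_mem_prod (interior_subset hx) hτ2)
    refine ⟨h2, ?_⟩
    have h3 : R (Q (x, τ)) = ((π (x - x₀), 0), τ) := by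
      rw [hRc]
      show (((A.symm (x - x₀)).1, jn g σ (x₀ + A (A.symm (x - x₀)), τ)), τ) = _
      rw [A.apply_symm_apply, add_sub_cancel, jn, hxτ, sub_self]
      rfl
    have h4 : R.symm ((π (x - x₀), 0), τ) = Q (x, τ) := by
      rw [← h3]
      exact R.left_inv h1
    show x₀ + A (R.symm ((π (x - x₀), 0), τ)).1 = x
    rw [h4]
    show x₀ + A (A.symm (x - x₀)) = x
    rw [A.apply_symm_apply, add_sub_cancel]

end

end Crest.Agent.R257.LimA_37
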