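import Crest.Agent.R257.LimB_37
import Crest.Agent.R257.Loc_835
import Crest.Agent.R257.ELocI_611
import Crest.Agent.R257.CLH_39
import Crest.Agent.R273.YauC3_812

/-!
Row 257 (S0395), leaf E-LIM, helper37: bounds of all derivatives of Kaehler-Einstein potentials on
a holomorphic family of levels, uniform in the parameter.

* `iter_slice`, `slice_bound` : derivatives of `E (·, τ)`
* `PF g σ D O T Θ` : an analytic family of parametrisations of the levels `{g τ = σ τ}`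
* `PF.bound` : `|D^m (u ∘ Θ (·, τ))| ≤ B` on compact sets, for all Kaehler-Einstein potentials `u`
  of `{g τ = σ τ}` with the a priori bounds `BdOn … C u`, `B` independent of `u` and `τ`.
-/

set_option autoImplicit false
set_option linter.unusedSectionVars false

open Set Filter Topology Complex
open scoped ContDiff ComplexConjugate Matrix

namespace Crest.Agent.R257.LimC_37

open Crest.Agent.R275.Geo Crest.Agent.R275.Core144
open Crest.Agent.R273.Defs_333 Crest.Agent.R273.YauDefs_635 Crest.Agent.R273.YauCh_635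
open Crest.Agent.R257.PN_835 Crest.Agent.R257.Gram_835 Crest.Agent.R257.Aff_835
open Crest.Agent.R257.LimA_37 Crest.Agent.R257.LimB_37 Crest.Agent.R257.Loc_835
open Crest.Agent.R257.ELoc_611
open Crest.Agent.R273

noncomputable section

/-! ### slices -/

section slice

variable {X P V : Type*} [NormedAddCommGroup X] [NormedSpace ℝ X] [NormedAddCommGroup P]
  [NormedSpace ℝ P] [NormedAddCommGroup V] [NormedSpace ℝ V]

theorem iter_slice {E : X × P → V} {W : Set (X × P)} (hW : IsOpen W) (hE : ContDiffOn ℝ ∞ E W)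
    {z : X} {τ : P} (h : (z, τ) ∈ W) (m : ℕ) :
    iteratedFDeriv ℝ m (fun z => E (z, τ)) z = (iteratedFDeriv ℝ m E (z, τ)).compContinuousLinearMap
      (fun _ => ContinuousLinearMap.inl ℝ X P) := by
  let E' : X × P → V := fun p => E (p + (0, τ))
  let W' : Set (X × P) := (fun p => p + (0, τ)) ⁻¹' W
  have hc : Continuous fun p : X × P => p + (0, τ) := by fun_prop
  have hW' : IsOpen W' := hW.preimage hc
  have hE' : ContDiffOn ℝ ∞ E' W' :=
    hE.comp (contDiff_id.add contDiff_const).contDiffOn fun p hp => hp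
  have e1 : (fun z => E (z, τ)) = E' ∘ (ContinuousLinearMap.inl ℝ X P) := by
    funext z
    show E (z, τ) = E ((z, 0) + (0, τ))
    simp
  have hz : (ContinuousLinearMap.inl ℝ X P) z ∈ W' := by
    show (z, (0 : P)) + (0, τ) ∈ W
    simpa using h
  have hpre : IsOpen ((ContinuousLinearMap.inl ℝ X P) ⁻¹' W') :=
    hW'.preimage (ContinuousLinearMap.inl ℝ X P).continuous
  have h1 := (ContinuousLinearMap.inl ℝ X P).iteratedFDerivWithin_comp_right hE'
    hW'.uniqueDiffOn hpre.uniqueDiffOn hz (i := m) (by exact_mod_cast le_top)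
  rw [iteratedFDerivWithin_of_isOpen m hpre hz, iteratedFDerivWithin_of_isOpen m hW' hz] at h1
  rw [e1, h1]
  congr 1
  have h2 := iteratedFDeriv_comp_add_right (𝕜 := ℝ) (f := E) m ((0 : X), τ)
    ((ContinuousLinearMap.inl ℝ X P) z)
  rw [show E' = fun p => E (p + (0, τ)) from rfl, h2]
  congr 1
  show (z, (0 : P)) + (0, τ) = (z, τ)
  simp

theorem norm_iter_slice {E : X × P → V} {W : Set (X × P)} (hW : IsOpen W)
    (hE : ContDiffOn ℝ ∞ E W) {z : X} {τ : P} (h : (z, τ) ∈ W) (m : ℕ) :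
    ‖iteratedFDeriv ℝ m (fun z => E (z, τ)) z‖ ≤ ‖iteratedFDeriv ℝ m E (z, τ)‖ := by
  rw [iter_slice hW hE h m]
  refine (ContinuousMultilinearMap.norm_compContinuousLinearMap_le _ _).trans ?_
  have h1 : ∏ i : Fin m, ‖ContinuousLinearMap.inl ℝ X P‖ ≤ 1 :=
    Finset.prod_le_one (fun _ _ => norm_nonneg _)
      fun _ _ => ContinuousLinearMap.norm_inl_le_one ℝ X P
  exact mul_le_of_le_one_right (norm_nonneg _) h1

/-- uniform bounds of the derivatives of slices -/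
theorem slice_bound {E : X × P → V} {W : Set (X × P)} (hW : IsOpen W) (hE : ContDiffOn ℝ ∞ E W)
    {K : Set X} {L : Set P} (hK : IsCompact K) (hL : IsCompact L) (hKL : K ×ˢ L ⊆ W) (k : ℕ) :
    ∃ C : ℝ, ∀ z ∈ K, ∀ τ ∈ L, ∀ m ≤ k, ‖iteratedFDeriv ℝ m (fun z => E (z, τ)) z‖ ≤ C := by
  have h1 : ∀ m : ℕ, ∃ C : ℝ, ∀ p ∈ K ×ˢ L, ‖iteratedFDeriv ℝ m E p‖ ≤ C := fun m => by
    have h2 : ContinuousOn (fun p => iteratedFDeriv ℝ m E p) W := by
      intro p hp
      have h3 : ContDiffAt ℝ 0 (iteratedFDeriv ℝ m E) p :=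
        ((hE.contDiffAt (hW.mem_nhds hp)).iteratedFDeriv_right (m := 0) (i := m)
          (by simp only [zero_add]; exact_mod_cast le_top))
      exact h3.continuousAt.continuousWithinAt
    exact (hK.prod hL).exists_bound_of_continuousOn (h2.mono hKL)
  choose C hC using h1
  refine ⟨∑ m ∈ Finset.range (k + 1), |C m|, fun z hz τ hτ m hm => ?_⟩
  refine (norm_iter_slice hW hE (hKL (mk_mem_prod hz hτ)) m).trans
    ((hC m _ (mk_mem_prod hz hτ)).trans ((le_abs_self _).trans ?_))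
  exact Finset.single_le_sum (f := fun m => |C m|) (fun _ _ => abs_nonneg _)
    (Finset.mem_range.2 (by omega))

end slice

/-! ### smoothness of determinants -/

theorem contDiffAt_det {X : Type*} [NormedAddCommGroup X] [NormedSpace ℝ X] {m : ℕ}
    {M : X → Matrix (Fin m) (Fin m) ℂ} {x : X} (h : ∀ a b, ContDiffAt ℝ ∞ (fun y => M y a b) x) :
    ContDiffAt ℝ ∞ (fun y => (M y).det) x := by
  simp only [Matrix.det_apply]
  refine ContDiffAt.sum fun s _ => ?_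
  refine ContDiffAt.const_smul _ ?_
  exact contDiffAt_prod fun i _ => h _ _

theorem contDiffAt_gdet {X : Type*} [NormedAddCommGroup X] [NormedSpace ℝ X] {m N : ℕ}
    {M : X → Matrix (Fin m) (Fin N) ℂ} {x : X} (h : ∀ a b, ContDiffAt ℝ ∞ (fun y => M y a b) x) :
    ContDiffAt ℝ ∞ (fun y => gdet (M y)) x := by
  refine contDiffAt_det fun a b => ?_
  simp only [Matrix.mul_apply, Matrix.conjTranspose_apply]
  refine ContDiffAt.sum fun k _ => (h a k).mul ?_
  exact (Complex.conjCLE.contDiff.contDiffAt).comp x (h b k)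

theorem lev_zero {n : ℕ} (u : Cn n → ℝ) (z : Cn n) : lev u z 0 = 0 := by
  rw [lev333_eq, smul_zero, D2, map_zero, add_zero]

theorem _root_.Crest.Agent.R257.LimB_37.BdOn.le {n : ℕ} {g : AC n → ℂ} {s : ℂ} {D : Set (AC n)}
    {u : AC n → ℝ} {C C' : ℝ} (h : BdOn g s D C u) (hk : KEon g s D u) (hC : C ≤ C') :
    BdOn g s D C' u := by
  refine ⟨fun x hx hs => ?_, fun x hx hs => (h.hi x hx hs).trans hC, fun θ U hθ hm z hz v => ?_⟩
  · have := h.lo x hx hs
    linarith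
  · refine (h.lev_le θ U hθ hm z hz v).trans (mul_le_mul_of_nonneg_right hC ?_)
    rcases eq_or_ne v 0 with hv | hv
    · rw [hv, lev_zero]
    · exact (hk.pos θ U hθ hm z hz v hv).le

/-! ### families of parametrisations -/

section fam

variable {n : ℕ} {P : Type*} [NormedAddCommGroup P] [NormedSpace ℂ P]

/-- an analytic family of parametrisations of the levels -/
structure PF (g : P → AC n → ℂ) (σ : P → ℂ) (D : Set (AC n)) (O : Set (Cn n)) (T : Set P)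
    (Θ : Cn n × P → AC n) : Prop where
  O_open : IsOpen O
  T_open : IsOpen T
  an : ∀ z ∈ O, ∀ τ ∈ T, AnalyticAt ℂ Θ (z, τ)
  par : ∀ τ ∈ T, Par (g τ) (σ τ) (fun z => Θ (z, τ)) O
  maps : ∀ z ∈ O, ∀ τ ∈ T, Θ (z, τ) ∈ D
  jan : ∀ z ∈ O, ∀ τ ∈ T, AnalyticAt ℂ (jn g σ) (Θ (z, τ), τ)
  reg : ∀ z ∈ O, ∀ τ ∈ T, fderiv ℂ (g τ) (Θ (z, τ)) ≠ 0

variable {g : P → AC n → ℂ} {σ : P → ℂ} {D : Set (AC n)} {O : Set (Cn n)} {T : Set P}
  {Θ : Cn n × P → AC n}

theorem fderiv_slice {V W Q : Type*} [NormedAddCommGroup V] [NormedSpace ℂ V]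
    [NormedAddCommGroup W] [NormedSpace ℂ W] [NormedAddCommGroup Q] [NormedSpace ℂ Q]
    {F : V × Q → W} {x : V} {τ : Q} (h : DifferentiableAt ℂ F (x, τ)) (v : V) :
    fderiv ℂ (fun x => F (x, τ)) x v = fderiv ℂ F (x, τ) (v, 0) := by
  have h1 : HasFDerivAt (fun x : V => F (x, τ))
      ((fderiv ℂ F (x, τ)).comp (ContinuousLinearMap.inl ℂ V Q)) x :=
    HasFDerivAt.comp x (g := F) h.hasFDerivAt (hasFDerivAt_prodMk_left x τ)
  rw [h1.fderiv]
  rfl

theorem fderiv_g {x : AC n} {τ : P} (h : DifferentiableAt ℂ (jn g σ) (x, τ)) (v : AC n) :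
    fderiv ℂ (g τ) x v = fderiv ℂ (jn g σ) (x, τ) (v, 0) := by
  rw [← fderiv_slice h v]
  have : (fun x => jn g σ (x, τ)) = fun x => g τ x - σ τ := rfl
  rw [this, fderiv_sub_const]

theorem nga_eq {x : AC n} {τ : P} (h : DifferentiableAt ℂ (jn g σ) (x, τ)) :
    nga (g τ) x = ∑ k, ‖fderiv ℂ (jn g σ) (x, τ) ((Pi.single k 1 : AC n), 0)‖ ^ 2 := by
  unfold nga nsq gra
  exact Finset.sum_congr rfl fun k _ => by rw [fderiv_g h]

/-- real smoothness of analytic maps -/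
theorem smooth_of_an {V W : Type*} [NormedAddCommGroup V] [NormedSpace ℂ V]
    [NormedAddCommGroup W] [NormedSpace ℂ W] [CompleteSpace W] {F : V → W} {x : V}
    (h : AnalyticAt ℂ F x) : ContDiffAt ℝ ∞ F x := by
  have h1 : ContDiffAt ℂ ∞ F x := h.contDiffAt
  exact h1.restrict_scalars ℝ

theorem smooth_nga_comp {X : Type*} [NormedAddCommGroup X] [NormedSpace ℂ X] {φ : X → AC n × P}
    {p : X} (hφ : AnalyticAt ℂ φ p) (h : AnalyticAt ℂ (jn g σ) (φ p)) :
    ContDiffAt ℝ ∞ (fun q => nga (g (φ q).2) (φ q).1) p := by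
  have h1 : ∀ᶠ q in 𝓝 p, AnalyticAt ℂ (jn g σ) (φ q) :=
    hφ.continuousAt.eventually h.eventually_analyticAt
  have h2 : (fun q => nga (g (φ q).2) (φ q).1) =ᶠ[𝓝 p] fun q =>
      ∑ k, ‖fderiv ℂ (jn g σ) (φ q) ((Pi.single k 1 : AC n), 0)‖ ^ 2 := by
    filter_upwards [h1] with q hq
    exact nga_eq hq.differentiableAt
  refine ContDiffAt.congr_of_eventuallyEq (ContDiffAt.sum fun k _ => ?_) h2
  have h3 : AnalyticAt ℂ (fun q => fderiv ℂ (jn g σ) (φ q)) p :=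
    AnalyticAt.comp (g := fderiv ℂ (jn g σ)) h.fderiv hφ
  have h4 : AnalyticAt ℂ (fun q => fderiv ℂ (jn g σ) (φ q) ((Pi.single k 1 : AC n), (0 : P))) p :=
    ((ContinuousLinearMap.apply ℂ ℂ ((Pi.single k 1 : AC n), (0 : P))).analyticAt _).comp h3
  exact (smooth_of_an h4).norm_sq ℝ

namespace PF

variable (H : PF g σ D O T Θ)
include H

theorem mono {O' : Set (Cn n)} {T' : Set P} (hO : IsOpen O') (hT : IsOpen T') (h1 : O' ⊆ O)
    (h2 : T' ⊆ T) : PF g σ D O' T' Θ :=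
  ⟨hO, hT, fun z hz τ hτ => H.an z (h1 hz) τ (h2 hτ), fun τ hτ => (H.par τ (h2 hτ)).mono hO h1,
    fun z hz τ hτ => H.maps z (h1 hz) τ (h2 hτ), fun z hz τ hτ => H.jan z (h1 hz) τ (h2 hτ),
    fun z hz τ hτ => H.reg z (h1 hz) τ (h2 hτ)⟩

theorem isOpen_prod : IsOpen (O ×ˢ T) := H.O_open.prod H.T_open

theorem dΘ {z : Cn n} {τ : P} (hz : z ∈ O) (hτ : τ ∈ T) (v : Cn n) :
    fderiv ℂ (fun z => Θ (z, τ)) z v = fderiv ℂ Θ (z, τ) (v, 0) :=
  fderiv_slice (H.an z hz τ hτ).differentiableAt v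

theorem smooth_Θ : ContDiffOn ℝ ∞ Θ (O ×ˢ T) := fun p hp =>
  (smooth_of_an (H.an p.1 hp.1 p.2 hp.2)).contDiffWithinAt

theorem smooth_nga : ContDiffOn ℝ ∞ (fun p : Cn n × P => nga (g p.2) (Θ p)) (O ×ˢ T) := by
  rintro ⟨z, τ⟩ ⟨hz, hτ⟩
  have h1 : AnalyticAt ℂ (fun p : Cn n × P => (Θ p, p.2)) (z, τ) :=
    (H.an z hz τ hτ).prod analyticAt_snd
  exact (smooth_nga_comp (φ := fun p : Cn n × P => (Θ p, p.2)) h1
    (H.jan z hz τ hτ)).contDiffWithinAt

theorem nga_pos {z : Cn n} {τ : P} (hz : z ∈ O) (hτ : τ ∈ T) : 0 < nga (g τ) (Θ (z, τ)) :=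
  Aff_835.nga_pos (H.reg z hz τ hτ)

theorem eta_pos {z : Cn n} {τ : P} (hz : z ∈ O) (hτ : τ ∈ T) :
    0 < eta2a (g τ) (fun z => Θ (z, τ)) z :=
  eta2a_pos (H.par τ hτ) hz (H.reg z hz τ hτ)

theorem smooth_eta :
    ContDiffOn ℝ ∞ (fun p : Cn n × P => eta2a (g p.2) (fun z => Θ (z, p.2)) p.1) (O ×ˢ T) := by
  have h1 : ContDiffOn ℝ ∞ (fun p : Cn n × P => (gdet (DF (fun z => Θ (z, p.2)) p.1)).re)
      (O ×ˢ T) := by
    have h2 : ContDiffOn ℝ ∞ (fun p : Cn n × P => (gdet (Matrix.of fun (a : Fin n)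
        (k : Fin (n + 1)) => (fderiv ℂ Θ p (EuclideanSpace.single a 1, 0)) k)).re) (O ×ˢ T) := by
      rintro ⟨z, τ⟩ ⟨hz, hτ⟩
      refine ContDiffAt.contDiffWithinAt ?_
      have h3 : ∀ (a : Fin n) (k : Fin (n + 1)), ContDiffAt ℝ ∞
          (fun p : Cn n × P => (fderiv ℂ Θ p (EuclideanSpace.single a 1, 0)) k) (z, τ) := by
        intro a k
        have h4 : AnalyticAt ℂ (fun p : Cn n × P => fderiv ℂ Θ p
            ((EuclideanSpace.single a 1 : Cn n), (0 : P))) (z, τ) :=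
          ((ContinuousLinearMap.apply ℂ (AC n)
            ((EuclideanSpace.single a 1 : Cn n), (0 : P))).analyticAt _).comp
            (H.an z hz τ hτ).fderiv
        exact smooth_of_an (((ContinuousLinearMap.proj (R := ℂ) (φ := fun _ : Fin (n + 1) => ℂ)
          k).analyticAt _).comp h4)
      exact (Complex.reCLM.contDiff.contDiffAt).comp _ (contDiffAt_gdet h3)
    refine h2.congr ?_
    rintro ⟨z, τ⟩ ⟨hz, hτ⟩
    show (gdet (DF (fun z => Θ (z, τ)) z)).re = _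
    congr 2
    ext a k
    show pd (fun z => Θ (z, τ)) z a k = (fderiv ℂ Θ (z, τ) (EuclideanSpace.single a 1, 0)) k
    rw [(H.par τ hτ).pd_eq hz, H.dΘ hz hτ]
  exact h1.div H.smooth_nga fun _ hp => (H.nga_pos hp.1 hp.2).ne'

theorem smooth_leta : ContDiffOn ℝ ∞
    (fun p : Cn n × P => Real.log (eta2a (g p.2) (fun z => Θ (z, p.2)) p.1)) (O ×ˢ T) :=
  H.smooth_eta.log fun _ hp => (H.eta_pos hp.1 hp.2).ne'

/-- the flat metrics are uniformly equivalent to the metric of the parameter domain -/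
theorem ell {K : Set (Cn n)} {L : Set P} (hK : IsCompact K) (hKO : K ⊆ O) (hL : IsCompact L)
    (hLT : L ⊆ T) : ∃ lo > 0, ∃ hi : ℝ, 0 ≤ hi ∧ ∀ z ∈ K, ∀ τ ∈ L, ∀ v : Cn n,
      lo * ‖v‖ ^ 2 ≤ lev (FS_333.sq fun z => Θ (z, τ)) z v ∧
      lev (FS_333.sq fun z => Θ (z, τ)) z v ≤ hi * ‖v‖ ^ 2 := by
  have hlev : ∀ z ∈ O, ∀ τ ∈ T, ∀ v : Cn n, lev (FS_333.sq fun z => Θ (z, τ)) z v =
      4 * nsq (fderiv ℂ Θ (z, τ) (v, 0)) := fun z hz τ hτ v => by
    rw [← H.dΘ hz hτ]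
    exact par_lev_nsq (H.par τ hτ) hz v
  set S : Set ((Cn n × P) × Cn n) := (K ×ˢ L) ×ˢ Metric.sphere 0 1 with hS
  have hSc : IsCompact S := (hK.prod hL).prod (isCompact_sphere _ _)
  have hnsq : Continuous (nsq (m := n + 1)) := by
    unfold nsq
    fun_prop
  have hcont : ContinuousOn (fun q : (Cn n × P) × Cn n => 4 * nsq (fderiv ℂ Θ q.1 (q.2, 0))) S := by
    rintro ⟨⟨z, τ⟩, v⟩ ⟨⟨hz, hτ⟩, -⟩
    have h1 : ContinuousAt (fderiv ℂ Θ) (z, τ) :=
      (H.an z (hKO hz) τ (hLT hτ)).fderiv.continuousAt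
    have h2 : ContinuousAt (fun q : (Cn n × P) × Cn n => fderiv ℂ Θ q.1) ((z, τ), v) :=
      ContinuousAt.comp (g := fderiv ℂ Θ) (f := fun q : (Cn n × P) × Cn n => q.1) h1
        continuousAt_fst
    have h3 : ContinuousAt (fun q : (Cn n × P) × Cn n => fderiv ℂ Θ q.1 (q.2, 0)) ((z, τ), v) :=
      h2.clm_apply (by fun_prop)
    exact ((hnsq.continuousAt.comp h3).const_mul 4).continuousWithinAt
  obtain ⟨hi, hhi⟩ := hSc.exists_bound_of_continuousOn hcont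
  have hlo : ∃ lo > 0, ∀ q ∈ S, lo ≤ 4 * nsq (fderiv ℂ Θ q.1 (q.2, 0)) := by
    rcases S.eq_empty_or_nonempty with he | hne
    · exact ⟨1, one_pos, fun q hq => by rw [he] at hq; exact hq.elim⟩
    · obtain ⟨q, hq, hmin⟩ := hSc.exists_isMinOn hne hcont
      refine ⟨_, ?_, fun q' hq' => hmin hq'⟩
      have h1 : q.2 ≠ 0 := by
        intro h0
        have h2 : q.2 ∈ Metric.sphere (0 : Cn n) 1 := hq.2
        rw [h0] at h2
        simp at h2
      have h3 : fderiv ℂ Θ q.1 (q.2, 0) ≠ 0 := by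
        intro h0
        apply h1
        refine (H.par q.1.2 (hLT hq.1.2)).imm q.1.1 (hKO hq.1.1) q.2 ?_
        rw [H.dΘ (hKO hq.1.1) (hLT hq.1.2)]
        exact h0
      have := nsq_pos h3
      positivity
  obtain ⟨lo, hlo0, hlo⟩ := hlo
  refine ⟨lo, hlo0, max hi 0, le_max_right _ _, fun z hz τ hτ v => ?_⟩
  rw [hlev z (hKO hz) τ (hLT hτ)]
  rcases eq_or_ne v 0 with hv | hv
  · subst hv
    have h1 : fderiv ℂ Θ (z, τ) ((0 : Cn n), (0 : P)) = 0 := map_zero _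
    rw [h1]
    simp [nsq]
  · have hv' : 0 < ‖v‖ := norm_pos_iff.2 hv
    set w : Cn n := ((‖v‖ : ℂ)⁻¹) • v with hw
    have hw1 : w ∈ Metric.sphere (0 : Cn n) 1 := by
      rw [mem_sphere_zero_iff_norm, hw, norm_smul, norm_inv, Complex.norm_real, norm_norm,
        inv_mul_cancel₀ hv'.ne']
    have hvw : v = (‖v‖ : ℂ) • w := by
      rw [hw, smul_smul, mul_inv_cancel₀ (by exact_mod_cast hv'.ne'), one_smul]
    have h1 : fderiv ℂ Θ (z, τ) (v, 0) = (‖v‖ : ℂ) • fderiv ℂ Θ (z, τ) (w, 0) := by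
      rw [← map_smul]
      congr 1
      rw [Prod.smul_mk, smul_zero, ← hvw]
    have h2 : nsq (fderiv ℂ Θ (z, τ) (v, 0)) = ‖v‖ ^ 2 * nsq (fderiv ℂ Θ (z, τ) (w, 0)) := by
      rw [h1, nsq_smul, Complex.norm_real, norm_norm]
    have h3 := hlo ((z, τ), w) ⟨⟨hz, hτ⟩, hw1⟩
    have h4 := (le_abs_self _).trans (hhi ((z, τ), w) ⟨⟨hz, hτ⟩, hw1⟩)
    have h5 := h4.trans (le_max_left hi 0)
    simp only at h3 h5
    rw [h2]
    have h6 : (0 : ℝ) ≤ ‖v‖ ^ 2 := by positivity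
    constructor
    · nlinarith
    · nlinarith

/-- the squared gradient is bounded below -/
theorem nga_lower {K : Set (Cn n)} {L : Set P} (hK : IsCompact K) (hKO : K ⊆ O)
    (hL : IsCompact L) (hLT : L ⊆ T) : ∃ ν > 0, ∀ z ∈ K, ∀ τ ∈ L, ν ≤ nga (g τ) (Θ (z, τ)) := by
  rcases (K ×ˢ L).eq_empty_or_nonempty with he | hne
  · refine ⟨1, one_pos, fun z hz τ hτ => ?_⟩
    have : (z, τ) ∈ K ×ˢ L := ⟨hz, hτ⟩
    rw [he] at this
    exact this.elim
  · obtain ⟨q, hq, hmin⟩ := (hK.prod hL).exists_isMinOn hne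
      (H.smooth_nga.continuousOn.mono (prod_mono hKO hLT))
    refine ⟨nga (g q.2) (Θ q), H.nga_pos (z := q.1) (τ := q.2) (hKO hq.1) (hLT hq.2),
      fun z hz τ hτ => ?_⟩
    have h1 : (z, τ) ∈ K ×ˢ L := mk_mem_prod hz hτ
    exact isMinOn_iff.1 hmin (z, τ) h1

/-- **uniform bounds of all derivatives** -/
theorem bound {K : Set (Cn n)} {L : Set P} (hK : IsCompact K) (hKO : K ⊆ O) (hL : IsCompact L)
    (hLT : L ⊆ T) (C : ℝ) (k : ℕ) : ∃ B : ℝ, ∀ τ ∈ L, ∀ u : AC n → ℝ,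
      KEon (g τ) (σ τ) D u → BdOn (g τ) (σ τ) D C u → ∀ z ∈ K, ∀ m ≤ k,
        ‖iteratedFDeriv ℝ m (fun z => u (Θ (z, τ))) z‖ ≤ B := by
  obtain ⟨K', hK', hKK', hK'O⟩ := exists_compact_between hK H.O_open hKO
  set C' : ℝ := max C 1 with hC'
  have hC1 : 1 ≤ C' := le_max_right _ _
  have hC0 : 0 < C' := by linarith
  obtain ⟨lo, hlo, hi, hhi, hell⟩ := H.ell hK' hK'O hL hLT
  obtain ⟨ν, hν, hnga⟩ := H.nga_lower hK' hK'O hL hLT
  let J : Type _ := {p : P × (AC n → ℝ) // p.1 ∈ L ∧ KEon (g p.1) (σ p.1) D p.2 ∧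
    BdOn (g p.1) (σ p.1) D C p.2}
  let w : J → Cn n → ℝ := fun j z => j.1.2 (Θ (z, j.1.1))
  let h : J → Cn n → ℝ := fun j z => Real.log (eta2a (g j.1.1) (fun z => Θ (z, j.1.1)) z)
  set U : Set (Cn n) := interior K' with hU
  have hUo : IsOpen U := isOpen_interior
  have hUK : U ⊆ K' := interior_subset
  have hUO : U ⊆ O := hUK.trans hK'O
  have hpar : ∀ j : J, Par (g j.1.1) (σ j.1.1) (fun z => Θ (z, j.1.1)) U := fun j =>
    (H.par _ (hLT j.2.1)).mono hUo hUO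
  have hmaps : ∀ j : J, ∀ z ∈ U, Θ (z, j.1.1) ∈ D := fun j z hz => H.maps z (hUO hz) _ (hLT j.2.1)
  have hw : ∀ j, ContDiffOn ℝ ∞ (w j) U := fun j => j.2.2.1.sm _ _ (hpar j) (hmaps j)
  have hBd : ∀ j : J, BdOn (g j.1.1) (σ j.1.1) D C' j.1.2 := fun j =>
    j.2.2.2.le j.2.2.1 (le_max_left _ _)
  have hh : ∀ j, ContDiffOn ℝ ∞ (h j) U := fun j => by
    refine H.smooth_leta.comp (s := U) (f := fun z : Cn n => ((z, j.1.1) : Cn n × P)) ?_
      fun z hz => ⟨hUO hz, hLT j.2.1⟩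
    exact (contDiff_id.prodMk contDiff_const).contDiffOn
  have hloc : ∀ x ∈ U, ∃ r > 0, Metric.ball x r ⊆ U := fun x hx => Metric.isOpen_iff.1 hUo x hx
  have hUh : ∀ l, UB l U h := by
    intro l x hx
    obtain ⟨r, hr, hrU⟩ := hloc x hx
    obtain ⟨B, hB⟩ := slice_bound H.isOpen_prod H.smooth_leta hK' hL (prod_mono hK'O hLT) l
    exact ⟨r, hr, B, fun j y hy m hm => hB y (hUK (hrU hy)) j.1.1 j.2.1 m hm⟩
  have hval : ∀ (j : J), ∀ z ∈ U, |w j z| ≤ C' + |Real.log ν| := by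
    intro j z hz
    have hlv := (hpar j).lvl z hz
    have h1 := (hBd j).lo _ (hmaps j z hz) hlv
    have h2 := (hBd j).hi _ (hmaps j z hz) hlv
    have h3 := Real.log_le_log hν (hnga z (hUK hz) j.1.1 j.2.1)
    have h4 := neg_abs_le (Real.log ν)
    have h5 := abs_nonneg (Real.log ν)
    rw [abs_le]
    constructor
    · show _ ≤ j.1.2 (Θ (z, j.1.1))
      linarith
    · show j.1.2 (Θ (z, j.1.1)) ≤ _
      linarith
  have h0 : UB 0 U w := by
    intro x hx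
    obtain ⟨r, hr, hrU⟩ := hloc x hx
    refine ⟨r, hr, C' + |Real.log ν|, fun j y hy m hm => ?_⟩
    obtain rfl : m = 0 := Nat.le_zero.1 hm
    rw [norm_iteratedFDeriv_zero]
    exact hval j y (hrU hy)
  have heta : ∀ (j : J), ∀ z ∈ U, 0 < eta2a (g j.1.1) (fun z => Θ (z, j.1.1)) z := fun j z hz =>
    H.eta_pos (hUO hz) (hLT j.2.1)
  have heq : ∀ j, ∀ z ∈ U, (cH (w j) z).det = (Real.exp (w j z + h j z) : ℂ) := by
    intro j z hz
    have h1 := j.2.2.1.ke _ _ (hpar j) (hmaps j) z hz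
    rw [show (w j) = fun z => j.1.2 (Θ (z, j.1.1)) from rfl, h1, Real.exp_add,
      Real.exp_log (heta j z hz)]
  have hell' : ∀ x ∈ U, ∃ r > 0, ∃ lo > 0, ∃ hi : ℝ, ∀ j, ∀ z ∈ Metric.ball x r, ∀ v,
      lo * ‖v‖ ^ 2 ≤ lev (w j) z v ∧ lev (w j) z v ≤ hi * ‖v‖ ^ 2 := by
    intro x hx
    obtain ⟨r, hr, hrU⟩ := hloc x hx
    refine ⟨r, hr, lo / C', by positivity, Real.exp C' / ν * C' ^ (n - 1) * hi,
      fun j z hz v => ?_⟩
    have hzU := hrU hz
    have hzK := hUK hzU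
    have hzO := hUO hzU
    have hτ := j.2.1
    have h1 := (hBd j).lev_le _ _ (hpar j) (hmaps j) z hzU
    have h2 := hell z hzK j.1.1 hτ
    have hsq : ContDiffAt ℝ ∞ (FS_333.sq fun z => Θ (z, j.1.1)) z :=
      contDiffAt_sq hUo (hpar j).holk hzU
    constructor
    · have h3 := h1 v
      have h4 := (h2 v).1
      rw [div_mul_eq_mul_div, div_le_iff₀ hC0]
      have h5 : w j = fun z => j.1.2 (Θ (z, j.1.1)) := rfl
      rw [h5]
      linarith
    · have h5 := (hpar j).flat hzU (H.reg z hzO _ (hLT hτ))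
      have hng : 0 < nga (g j.1.1) (Θ (z, j.1.1)) := H.nga_pos hzO (hLT hτ)
      set κ : ℝ := Real.exp (w j z) / nga (g j.1.1) (Θ (z, j.1.1)) with hκ
      have hdet : (cH (w j) z).det = (κ : ℂ) * (cH (FS_333.sq fun z => Θ (z, j.1.1)) z).det := by
        have h6 := j.2.2.1.ke _ _ (hpar j) (hmaps j) z hzU
        rw [show (w j) = fun z => j.1.2 (Θ (z, j.1.1)) from rfl, h6, h5, ← ofReal_mul]
        congr 1
        rw [hκ]
        show Real.exp (j.1.2 (Θ (z, j.1.1))) * _ = Real.exp (j.1.2 (Θ (z, j.1.1))) / _ * _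
        field_simp
      have h7 := CLH_39.ell_of_det ((hw j).contDiffAt (hUo.mem_nhds hzU)) hsq
        (fun v hv => by
          have h8 := (h2 v).1
          have h9 : 0 < ‖v‖ := norm_pos_iff.2 hv
          have : 0 < lo * ‖v‖ ^ 2 := by positivity
          linarith) hC0 h1 hdet v
      refine h7.trans ?_
      have hκ0 : 0 < κ := div_pos (Real.exp_pos _) hng
      have hκle : κ ≤ Real.exp C' / ν := by
        refine div_le_div₀ (Real.exp_pos _).le (Real.exp_le_exp.2 ?_) hν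
          (hnga z hzK _ hτ)
        exact (hBd j).hi _ (hmaps j z hzU) ((hpar j).lvl z hzU)
      have h10 : 0 ≤ lev (FS_333.sq fun z => Θ (z, j.1.1)) z v := by
        have := (h2 v).1
        have h9 : 0 ≤ lo * ‖v‖ ^ 2 := by positivity
        linarith
      calc κ * C' ^ (n - 1) * lev (FS_333.sq fun z => Θ (z, j.1.1)) z v
          ≤ Real.exp C' / ν * C' ^ (n - 1) * lev (FS_333.sq fun z => Θ (z, j.1.1)) z v := by
            gcongr
        _ ≤ Real.exp C' / ν * C' ^ (n - 1) * (hi * ‖v‖ ^ 2) := by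
            have := (h2 v).2
            gcongr
        _ = _ := by ring
  have hfin := eloc YauC3_812.c3Stmt hUo hw hh hUh h0 hell' heq k
  obtain ⟨B, hB⟩ := hfin.compact hK hKK'
  exact ⟨B, fun τ hτ u hu hb z hz m hm => hB ⟨(τ, u), hτ, hu, hb⟩ z hz m hm⟩

end PF

end fam

end

end Crest.Agent.R257.LimC_37
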