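import Crest.Agent.R257.LimC_37

/-!
Row 257 (S0395), leaf E-LIM, helper37: limits of Kaehler-Einstein potentials on a holomorphic
family of levels `{g τ = σ τ}`, `τ → τ₀` along a filter.

* `CCv l S φ x a`  : continuous convergence of functions on moving sets `S i`, at one point;
  `ccv_iff` : the same as `Tendsto (fun q => φ q.1 q.2) ((l ×ˢ 𝓝 x) ⊓ 𝓟 {q | q.2 ∈ S q.1}) (𝓝 a)`
* `Sit g σ D τ₀ C l τ u` : the situation;
* `CC g σ D τ₀ l τ u u₀` : continuous convergence at all points of `{g τ₀ = σ τ₀} ∩ D`;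
* `exists_lim` : along an ultrafilter there is a limit;
* `Sit.conv`, `Sit.conv_at` : all derivatives converge in every analytic family of
  parametrisations, `Sit.keon`, `Sit.bdon` : the limit is again such a potential.
-/

set_option autoImplicit false
set_option linter.unusedSectionVars false

open Set Filter Topology Complex
open scoped ContDiff ComplexConjugate Matrix

namespace Crest.Agent.R257.LimD_37

open Crest.Agent.R275.Geo Crest.Agent.R275.Core144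
open Crest.Agent.R273.Defs_333 Crest.Agent.R273.YauDefs_635 Crest.Agent.R273.YauCh_635
open Crest.Agent.R257.PN_835 Crest.Agent.R257.Gram_835 Crest.Agent.R257.Aff_835
open Crest.Agent.R257.LimA_37 Crest.Agent.R257.LimB_37 Crest.Agent.R257.LimC_37
open Crest.Agent.R257.Loc_835 Crest.Agent.R257.ELoc_611
open Crest.Agent.R273

noncomputable section

/-! ### continuous convergence -/

section cc

variable {ι E : Type*} [TopologicalSpace E]

/-- continuous convergence of functions on moving sets, at one point -/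
def CCv (l : Filter ι) (S : ι → Set E) (φ : ι → E → ℝ) (x : E) (a : ℝ) : Prop :=
  ∀ ε > 0, ∃ M ∈ 𝓝 x, ∀ᶠ i in l, ∀ y ∈ M, y ∈ S i → |φ i y - a| < ε

theorem ccv_iff {l : Filter ι} {S : ι → Set E} {φ : ι → E → ℝ} {x : E} {a : ℝ} :
    CCv l S φ x a ↔
      Tendsto (fun q : ι × E => φ q.1 q.2) ((l ×ˢ 𝓝 x) ⊓ 𝓟 {q | q.2 ∈ S q.1}) (𝓝 a) := by
  rw [Metric.tendsto_nhds]
  constructor
  · intro h ε hε
    obtain ⟨M, hM, h1⟩ := h ε hε
    rw [eventually_inf_principal]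
    have h2 : ∀ᶠ q : ι × E in l ×ˢ 𝓝 x, (∀ y ∈ M, y ∈ S q.1 → |φ q.1 y - a| < ε) ∧ q.2 ∈ M :=
      h1.prod_mk (show ∀ᶠ y in 𝓝 x, y ∈ M from hM)
    filter_upwards [h2] with q hq hqS
    rw [Real.dist_eq]
    exact hq.1 q.2 hq.2 hqS
  · intro h ε hε
    have h1 := h ε hε
    rw [eventually_inf_principal, eventually_prod_iff] at h1
    obtain ⟨pa, hpa, pb, hpb, H⟩ := h1
    refine ⟨{y | pb y}, hpb, ?_⟩
    filter_upwards [hpa] with i hi y hy hyS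
    have := H hi hy hyS
    rwa [Real.dist_eq] at this

/-- convergence along points which converge -/
theorem CCv.tendsto {l : Filter ι} {S : ι → Set E} {φ : ι → E → ℝ} {x : E} {a : ℝ}
    (h : CCv l S φ x a) {y : ι → E} (hy : Tendsto y l (𝓝 x)) (hS : ∀ᶠ i in l, y i ∈ S i) :
    Tendsto (fun i => φ i (y i)) l (𝓝 a) := by
  rw [Metric.tendsto_nhds]
  intro ε hε
  obtain ⟨M, hM, h1⟩ := h ε hε
  filter_upwards [h1, hy.eventually hM, hS] with i h2 h3 h4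
  rw [Real.dist_eq]
  exact h2 _ h3 h4

theorem CCv.mono {l l' : Filter ι} {S : ι → Set E} {φ : ι → E → ℝ} {x : E} {a : ℝ}
    (h : CCv l S φ x a) (hl : l' ≤ l) : CCv l' S φ x a := by
  intro ε hε
  obtain ⟨M, hM, h1⟩ := h ε hε
  exact ⟨M, hM, hl h1⟩

theorem CCv.comp {κ : Type*} {l : Filter ι} {l' : Filter κ} {S : ι → Set E} {φ : ι → E → ℝ}
    {x : E} {a : ℝ} (h : CCv l S φ x a) {f : κ → ι} (hf : Tendsto f l' l) :
    CCv l' (fun i => S (f i)) (fun i => φ (f i)) x a := by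
  intro ε hε
  obtain ⟨M, hM, h1⟩ := h ε hε
  exact ⟨M, hM, hf.eventually h1⟩

end cc

variable {n : ℕ} {P : Type*} [NormedAddCommGroup P] [NormedSpace ℂ P]
variable {g : P → AC n → ℂ} {σ : P → ℂ} {D : Set (AC n)} {τ₀ : P} {x₀ : AC n} {C : ℝ}

/-- the level of the parameter `τ` -/
def lvl (g : P → AC n → ℂ) (σ : P → ℂ) (τ : P) : Set (AC n) := {x | g τ x = σ τ}

/-- a smaller chart -/
def _root_.Crest.Agent.R257.LimA_37.Cht.restrict (c : Cht g σ D τ₀ x₀) {ρ' : ℝ} (h0 : 0 < ρ')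
    (hρ : ρ' ≤ c.ρ) {T' : Set P} (hT : IsOpen T') (hT' : T' ⊆ c.T) (hm : τ₀ ∈ T') :
    Cht g σ D τ₀ x₀ where
  ρ := ρ'
  ρ_pos := h0
  T := T'
  T_open := hT
  mem_T := hm
  N := c.N ∩ (fun x => c.π (x - x₀)) ⁻¹' Metric.ball 0 ρ'
  N_open := c.N_open.inter (Metric.isOpen_ball.preimage
    (c.π.continuous.comp (continuous_id.sub continuous_const)))
  mem_N := ⟨c.mem_N, by
    show c.π (x₀ - x₀) ∈ Metric.ball (0 : Cn n) ρ'
    rw [sub_self, map_zero]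
    exact Metric.mem_ball_self h0⟩
  Θ := c.Θ
  an z hz τ hτ := c.an z (Metric.ball_subset_ball hρ hz) τ (hT' hτ)
  par τ hτ := (c.par τ (hT' hτ)).mono Metric.isOpen_ball (Metric.ball_subset_ball hρ)
  maps z hz τ hτ := c.maps z (Metric.ball_subset_ball hρ hz) τ (hT' hτ)
  π := c.π
  left z hz τ hτ := c.left z (Metric.ball_subset_ball hρ hz) τ (hT' hτ)
  right x hx τ hτ hxτ := ⟨hx.2, (c.right x hx.1 τ (hT' hτ) hxτ).2⟩
  zero := c.zero

/-- charts with all good properties -/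
theorem exists_good [CompleteSpace P] (hD : IsOpen D) (hx₀ : x₀ ∈ D) (h0 : g τ₀ x₀ = σ τ₀)
    (hJ : AnalyticAt ℂ (jn g σ) (x₀, τ₀)) (hreg : fderiv ℂ (g τ₀) x₀ ≠ 0) :
    ∃ c : Cht g σ D τ₀ x₀, PF g σ D (Metric.ball 0 c.ρ) c.T c.Θ := by
  obtain ⟨c⟩ := exists_cht hD hx₀ h0 hJ hreg
  have hz0 : (0 : Cn n) ∈ Metric.ball (0 : Cn n) c.ρ := Metric.mem_ball_self c.ρ_pos
  have hΘ : AnalyticAt ℂ c.Θ (0, τ₀) := c.an 0 hz0 τ₀ c.mem_T
  have hφ : AnalyticAt ℂ (fun p : Cn n × P => (c.Θ p, p.2)) (0, τ₀) := hΘ.prod analyticAt_snd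
  have hJ' : AnalyticAt ℂ (jn g σ) (c.Θ (0, τ₀), τ₀) := by rw [c.zero]; exact hJ
  have h1 : ∀ᶠ p : Cn n × P in 𝓝 (0, τ₀), AnalyticAt ℂ (jn g σ) (c.Θ p, p.2) :=
    hφ.continuousAt.eventually hJ'.eventually_analyticAt
  have h2 : ContinuousAt (fun p : Cn n × P => nga (g p.2) (c.Θ p)) (0, τ₀) :=
    (smooth_nga_comp (φ := fun p : Cn n × P => (c.Θ p, p.2)) hφ hJ').continuousAt
  have h3 : 0 < nga (g τ₀) (c.Θ (0, τ₀)) := by
    rw [c.zero]
    exact nga_pos hreg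
  have h4 : ∀ᶠ p : Cn n × P in 𝓝 (0, τ₀), 0 < nga (g p.2) (c.Θ p) := h2.eventually_const_lt h3
  obtain ⟨U₁, hU₁, T₁, hT₁, hUT⟩ := mem_nhds_prod_iff.1 (h1.and h4)
  obtain ⟨ρ₁, hρ₁, hρU⟩ := Metric.mem_nhds_iff.1 hU₁
  refine ⟨c.restrict (lt_min c.ρ_pos hρ₁) (min_le_left _ _) (isOpen_interior.inter c.T_open)
    (T' := interior T₁ ∩ c.T) inter_subset_right
    ⟨mem_interior_iff_mem_nhds.2 hT₁, c.mem_T⟩, ?_⟩
  set c' := c.restrict (lt_min c.ρ_pos hρ₁) (min_le_left _ _) (isOpen_interior.inter c.T_open)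
    (T' := interior T₁ ∩ c.T) inter_subset_right
    ⟨mem_interior_iff_mem_nhds.2 hT₁, c.mem_T⟩ with hc'
  have key : ∀ z ∈ Metric.ball (0 : Cn n) c'.ρ, ∀ τ ∈ c'.T, AnalyticAt ℂ (jn g σ) (c.Θ (z, τ), τ) ∧
      0 < nga (g τ) (c.Θ (z, τ)) := fun z hz τ hτ =>
    hUT (mk_mem_prod (hρU (Metric.ball_subset_ball (min_le_right _ _) hz)) (interior_subset hτ.1))
  refine ⟨Metric.isOpen_ball, c'.T_open, c'.an, c'.par, c'.maps, fun z hz τ hτ => (key z hz τ hτ).1,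
    fun z hz τ hτ hcon => ?_⟩
  have h5 := (key z hz τ hτ).2
  have h6 : gra (g τ) (c.Θ (z, τ)) = 0 := by
    funext k
    show fderiv ℂ (g τ) (c.Θ (z, τ)) _ = 0
    have h7 : fderiv ℂ (g τ) (c.Θ (z, τ)) = 0 := hcon
    rw [h7]
    rfl
  rw [nga, h6] at h5
  simp [nsq] at h5

variable {ι : Type*} {l : Filter ι} {τ : ι → P} {u : ι → AC n → ℝ} {u₀ : AC n → ℝ}

/-- the situation of the limit lemma -/
structure Sit (g : P → AC n → ℂ) (σ : P → ℂ) (D : Set (AC n)) (τ₀ : P) (C : ℝ)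
    {ι : Type*} (l : Filter ι) (τ : ι → P) (u : ι → AC n → ℝ) : Prop where
  D_open : IsOpen D
  jan : ∀ x ∈ D, g τ₀ x = σ τ₀ → AnalyticAt ℂ (jn g σ) (x, τ₀)
  reg : ∀ x ∈ D, g τ₀ x = σ τ₀ → fderiv ℂ (g τ₀) x ≠ 0
  tend : Tendsto τ l (𝓝 τ₀)
  ke : ∀ᶠ i in l, KEon (g (τ i)) (σ (τ i)) D (u i)
  bd : ∀ᶠ i in l, BdOn (g (τ i)) (σ (τ i)) D C (u i)

/-- continuous convergence on the level `τ₀` -/
def CC (g : P → AC n → ℂ) (σ : P → ℂ) (D : Set (AC n)) (τ₀ : P) {ι : Type*} (l : Filter ι)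
    (τ : ι → P) (u : ι → AC n → ℝ) (u₀ : AC n → ℝ) : Prop :=
  ∀ x ∈ D, g τ₀ x = σ τ₀ → CCv l (fun i => lvl g σ (τ i)) u x (u₀ x)

namespace Sit

theorem mono {l' : Filter ι} (S : Sit g σ D τ₀ C l τ u) (h : l' ≤ l) :
    Sit g σ D τ₀ C l' τ u :=
  ⟨S.D_open, S.jan, S.reg, S.tend.mono_left h, h S.ke, h S.bd⟩

theorem restrict (S : Sit g σ D τ₀ C l τ u) {D' : Set (AC n)} (hD : IsOpen D') (h : D' ⊆ D) :
    Sit g σ D' τ₀ C l τ u :=
  ⟨hD, fun x hx => S.jan x (h hx), fun x hx => S.reg x (h hx), S.tend,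
    S.ke.mono fun _ hi => hi.mono h, S.bd.mono fun _ hi => hi.mono h⟩

theorem good [CompleteSpace P] (S : Sit g σ D τ₀ C l τ u) {x : AC n} (hx : x ∈ D)
    (h0 : g τ₀ x = σ τ₀) : ∃ c : Cht g σ D τ₀ x, PF g σ D (Metric.ball 0 c.ρ) c.T c.Θ :=
  exists_good S.D_open hx h0 (S.jan x hx h0) (S.reg x hx h0)

variable [ProperSpace P]

/-- a compact neighbourhood of the parameter -/
theorem exists_L {T : Set P} (hT : IsOpen T) (hm : τ₀ ∈ T) :
    ∃ L : Set P, IsCompact L ∧ L ⊆ T ∧ L ∈ 𝓝 τ₀ := by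
  obtain ⟨r, hr, h⟩ := Metric.isOpen_iff.1 hT τ₀ hm
  exact ⟨Metric.closedBall τ₀ (r / 2), isCompact_closedBall _ _,
    (Metric.closedBall_subset_ball (by linarith)).trans h,
    Metric.closedBall_mem_nhds _ (by positivity)⟩

/-- uniform continuity near a point -/
theorem near (S : Sit g σ D τ₀ C l τ u) {x : AC n} (c : Cht g σ D τ₀ x)
    (hc : PF g σ D (Metric.ball 0 c.ρ) c.T c.Θ) {ε : ℝ} (hε : 0 < ε) :
    ∃ M ∈ 𝓝 x, ∀ᶠ i in l, ∀ y ∈ M, y ∈ lvl g σ (τ i) → |u i y - u i (c.Θ (0, τ i))| < ε := by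
  obtain ⟨L, hL, hLT, hLn⟩ := exists_L c.T_open c.mem_T
  have hρ := c.ρ_pos
  have hK : IsCompact (Metric.closedBall (0 : Cn n) (c.ρ / 2)) := isCompact_closedBall _ _
  have hKO : Metric.closedBall (0 : Cn n) (c.ρ / 2) ⊆ Metric.ball 0 c.ρ :=
    Metric.closedBall_subset_ball (by linarith)
  obtain ⟨B, hB⟩ := hc.bound hK hKO hL hLT C 1
  set δ : ℝ := min (c.ρ / 2) (ε / (2 * (|B| + 1))) with hδ
  have hδ0 : 0 < δ := lt_min (by positivity) (by positivity)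
  have hMo : IsOpen (c.N ∩ (fun y => c.π (y - x)) ⁻¹' Metric.ball 0 δ) :=
    c.N_open.inter (Metric.isOpen_ball.preimage
      (c.π.continuous.comp (continuous_id.sub continuous_const)))
  refine ⟨c.N ∩ (fun y => c.π (y - x)) ⁻¹' Metric.ball 0 δ, hMo.mem_nhds ⟨c.mem_N, by
    show c.π (x - x) ∈ Metric.ball (0 : Cn n) δ
    rw [sub_self, map_zero]
    exact Metric.mem_ball_self hδ0⟩, ?_⟩
  filter_upwards [S.ke, S.bd, S.tend.eventually (show ∀ᶠ t in 𝓝 τ₀, t ∈ L from hLn)]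
    with i h1 h2 h3 y hy hyl
  have hτ : τ i ∈ c.T := hLT h3
  obtain ⟨h4, h5⟩ := c.right y hy.1 (τ i) hτ hyl
  set z := c.π (y - x) with hz
  have hzδ : ‖z‖ < δ := by
    have := hy.2
    rwa [mem_preimage, mem_ball_zero_iff] at this
  have hz0 : z ∈ Metric.ball (0 : Cn n) (c.ρ / 2) := by
    rw [mem_ball_zero_iff]
    exact hzδ.trans_le (min_le_left _ _)
  have h00 : (0 : Cn n) ∈ Metric.ball (0 : Cn n) (c.ρ / 2) := Metric.mem_ball_self (by positivity)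
  have hw := h1.sm _ _ (c.par (τ i) hτ) fun w hw => c.maps w hw (τ i) hτ
  have h6 : ‖u i (c.Θ (z, τ i)) - u i (c.Θ (0, τ i))‖ ≤ |B| * ‖z - 0‖ := by
    refine (convex_ball (0 : Cn n) (c.ρ / 2)).norm_image_sub_le_of_norm_fderiv_le (𝕜 := ℝ)
      (f := fun z => u i (c.Θ (z, τ i))) (fun w hw' => ?_) (fun w hw' => ?_) h00 hz0
    · exact (hw.contDiffAt (Metric.isOpen_ball.mem_nhds
        (Metric.ball_subset_ball (by linarith) hw'))).differentiableAt (by simp)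
    · have h7 := hB (τ i) h3 (u i) h1 h2 w (Metric.ball_subset_closedBall hw') 1 le_rfl
      rw [norm_iteratedFDeriv_one] at h7
      exact h7.trans (le_abs_self _)
  rw [sub_zero, Real.norm_eq_abs, h5] at h6
  refine h6.trans_lt ?_
  have h8 : ‖z‖ < ε / (2 * (|B| + 1)) := hzδ.trans_le (min_le_right _ _)
  have h9 : (|B| + 1) * (ε / (2 * (|B| + 1))) = ε / 2 := by
    have : |B| + 1 ≠ 0 := by positivity
    field_simp
  have h10 : |B| * ‖z‖ ≤ (|B| + 1) * (ε / (2 * (|B| + 1))) := by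
    have h11 := abs_nonneg B
    have h12 := norm_nonneg z
    nlinarith
  linarith

theorem ccv_of_tendsto (S : Sit g σ D τ₀ C l τ u) {x : AC n} (c : Cht g σ D τ₀ x)
    (hc : PF g σ D (Metric.ball 0 c.ρ) c.T c.Θ) {a : ℝ}
    (h : Tendsto (fun i => u i (c.Θ (0, τ i))) l (𝓝 a)) :
    CCv l (fun i => lvl g σ (τ i)) u x a := by
  intro ε hε
  obtain ⟨M, hM, h1⟩ := S.near c hc (half_pos hε)
  refine ⟨M, hM, ?_⟩
  filter_upwards [h1, (Metric.tendsto_nhds.1 h) (ε / 2) (half_pos hε)] with i h2 h3 y hy hyl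
  have h4 := h2 y hy hyl
  rw [Real.dist_eq] at h3
  calc |u i y - a| = |(u i y - u i (c.Θ (0, τ i))) + (u i (c.Θ (0, τ i)) - a)| := by ring_nf
    _ ≤ |u i y - u i (c.Θ (0, τ i))| + |u i (c.Θ (0, τ i)) - a| := abs_add_le _ _
    _ < ε := by linarith

/-- **limits along ultrafilters exist** -/
theorem exists_lim {𝒰 : Ultrafilter ι} (S : Sit g σ D τ₀ C (𝒰 : Filter ι) τ u) :
    ∃ u₀ : AC n → ℝ, CC g σ D τ₀ (𝒰 : Filter ι) τ u u₀ := by
  have key : ∀ x, ∃ a : ℝ, x ∈ D → g τ₀ x = σ τ₀ →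
      CCv (𝒰 : Filter ι) (fun i => lvl g σ (τ i)) u x a := by
    intro x
    by_cases hx : x ∈ D ∧ g τ₀ x = σ τ₀
    · obtain ⟨c, hc⟩ := S.good hx.1 hx.2
      obtain ⟨L, hL, hLT, hLn⟩ := exists_L c.T_open c.mem_T
      have hz : (0 : Cn n) ∈ ({0} : Set (Cn n)) := rfl
      obtain ⟨B, hB⟩ := hc.bound (K := {0}) isCompact_singleton
        (singleton_subset_iff.2 (Metric.mem_ball_self c.ρ_pos)) hL hLT C 0
      have h1 : ∀ᶠ i in (𝒰 : Filter ι), u i (c.Θ (0, τ i)) ∈ Metric.closedBall (0 : ℝ) B := by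
        filter_upwards [S.ke, S.bd, S.tend.eventually (show ∀ᶠ t in 𝓝 τ₀, t ∈ L from hLn)]
          with i h1 h2 h3
        have h4 := hB (τ i) h3 (u i) h1 h2 0 hz 0 le_rfl
        rw [norm_iteratedFDeriv_zero] at h4
        rwa [mem_closedBall_zero_iff]
      obtain ⟨a, -, ha⟩ := (isCompact_closedBall (0 : ℝ) B).ultrafilter_le_nhds
        (𝒰.map fun i => u i (c.Θ (0, τ i))) (by
          rw [le_principal_iff]
          exact h1)
      exact ⟨a, fun _ _ => S.ccv_of_tendsto c hc ha⟩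
    · exact ⟨0, fun h1 h2 => (hx ⟨h1, h2⟩).elim⟩
  choose a ha using key
  exact ⟨a, fun x hx h0 => ha x hx h0⟩

variable {O : Set (Cn n)} {T : Set P} {Θ : Cn n × P → AC n}

/-- a family which is good for all indices -/
theorem data (S : Sit g σ D τ₀ C l τ u) (hcc : CC g σ D τ₀ l τ u u₀)
    (H : PF g σ D O T Θ) (hT : τ₀ ∈ T) : ∃ F : ι → Cn n → ℝ,
      (∀ᶠ i in l, τ i ∈ T ∧ KEon (g (τ i)) (σ (τ i)) D (u i) ∧
        BdOn (g (τ i)) (σ (τ i)) D C (u i) ∧ F i = fun z => u i (Θ (z, τ i))) ∧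
      (∀ i, ContDiffOn ℝ ∞ (F i) O) ∧ (∀ m, UB m O F) ∧
      ∀ z ∈ O, Tendsto (fun i => F i z) l (𝓝 (u₀ (Θ (z, τ₀)))) := by
  classical
  obtain ⟨L, hL, hLT, hLn⟩ := exists_L H.T_open hT
  set I : Set ι := {i | τ i ∈ L ∧ KEon (g (τ i)) (σ (τ i)) D (u i) ∧
    BdOn (g (τ i)) (σ (τ i)) D C (u i)} with hI
  have hIl : ∀ᶠ i in l, i ∈ I := by
    filter_upwards [S.ke, S.bd, S.tend.eventually (show ∀ᶠ t in 𝓝 τ₀, t ∈ L from hLn)]
      with i h1 h2 h3 using ⟨h3, h1, h2⟩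
  set F : ι → Cn n → ℝ := fun i => if i ∈ I then fun z => u i (Θ (z, τ i)) else fun _ => 0 with hF
  have hFI : ∀ i ∈ I, F i = fun z => u i (Θ (z, τ i)) := fun i hi => if_pos hi
  have hFI' : ∀ i, i ∉ I → F i = fun _ => 0 := fun i hi => if_neg hi
  refine ⟨F, ?_, fun i => ?_, fun m x hx => ?_, fun z hz => ?_⟩
  · filter_upwards [hIl] with i hi using ⟨hLT hi.1, hi.2.1, hi.2.2, hFI i hi⟩
  · by_cases hi : i ∈ I
    · rw [hFI i hi]
      exact hi.2.1.sm _ _ (H.par _ (hLT hi.1)) fun z hz => H.maps z hz _ (hLT hi.1)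
    · rw [hFI' i hi]
      exact contDiffOn_const
  · obtain ⟨r, hr, hrO⟩ := Metric.isOpen_iff.1 H.O_open x hx
    have hK : IsCompact (Metric.closedBall x (r / 2)) := isCompact_closedBall _ _
    obtain ⟨B, hB⟩ := H.bound hK ((Metric.closedBall_subset_ball (by linarith)).trans hrO)
      hL hLT C m
    refine ⟨r / 2, by positivity, |B|, fun i y hy k hk => ?_⟩
    by_cases hi : i ∈ I
    · rw [hFI i hi]
      exact (hB _ hi.1 _ hi.2.1 hi.2.2 y (Metric.ball_subset_closedBall hy) k hk).trans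
        (le_abs_self _)
    · rw [hFI' i hi]
      have h0 : iteratedFDeriv ℝ k (fun _ : Cn n => (0 : ℝ)) = 0 := iteratedFDeriv_fun_zero
      rw [h0]
      simp
  · have h1 := hcc _ (H.maps z hz τ₀ hT) ((H.par τ₀ hT).lvl z hz)
    have h2 : ContinuousAt (fun t => Θ (z, t)) τ₀ :=
      ContinuousAt.comp (g := Θ) (f := fun t => (z, t)) (H.an z hz τ₀ hT).continuousAt
        (by fun_prop)
    have h3 : Tendsto (fun i => Θ (z, τ i)) l (𝓝 (Θ (z, τ₀))) := h2.tendsto.comp S.tend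
    have h4 : ∀ᶠ i in l, Θ (z, τ i) ∈ lvl g σ (τ i) := by
      filter_upwards [S.tend.eventually (H.T_open.mem_nhds hT)] with i hi
      exact (H.par _ hi).lvl z hz
    refine (h1.tendsto h3 h4).congr' ?_
    filter_upwards [hIl] with i hi
    rw [hFI i hi]

end Sit

end

end Crest.Agent.R257.LimD_37
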