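import Crest.Agent.R257.LimD_37

/-!
Row 257 (S0395), leaf E-LIM, helper37: the limit lemma.

* `Sit.conv`    : all derivatives of `u i ∘ Θ (·, τ i)` converge locally uniformly;
* `Sit.conv_at` : the same as continuous convergence at a point;
* `Sit.keon`, `Sit.bdon` : the limit is a Kaehler-Einstein potential with the same bounds;
* `Sit.iter`    : iterated limits.
-/

set_option autoImplicit false
set_option linter.unusedSectionVars false

open Set Filter Topology Complex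
open scoped ContDiff ComplexConjugate Matrix

namespace Crest.Agent.R257.LimD_37

open Crest.Agent.R275.Geo Crest.Agent.R275.Core144
open Crest.Agent.R273.Defs_333 Crest.Agent.R273.YauDefs_635 Crest.Agent.R273.YauCh_635
open Crest.Agent.R257.PN_835 Crest.Agent.R257.Gram_835 Crest.Agent.R257.Aff_835
open Crest.Agent.R257.LimA_37 Crest.Agent.R257.LimB_37 Crest.Agent.R257.LimC_37
open Crest.Agent.R257.Loc_835 Crest.Agent.R257.ELoc_611
open Crest.Agent.R273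

noncomputable section

variable {n : ℕ} {P : Type*} [NormedAddCommGroup P] [NormedSpace ℂ P]
variable {g : P → AC n → ℂ} {σ : P → ℂ} {D : Set (AC n)} {τ₀ : P} {C : ℝ}
variable {O : Set (Cn n)} {T : Set P} {Θ : Cn n × P → AC n}
variable {ι : Type*} {l : Filter ι} {τ : ι → P} {u : ι → AC n → ℝ} {u₀ : AC n → ℝ}

section pf

variable (H : PF g σ D O T Θ)
include H

theorem _root_.Crest.Agent.R257.LimC_37.PF.tendsto_Θ (hT : τ₀ ∈ T) (ht : Tendsto τ l (𝓝 τ₀))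
    {z : Cn n} (hz : z ∈ O) : Tendsto (fun i => Θ (z, τ i)) l (𝓝 (Θ (z, τ₀))) := by
  have h2 : ContinuousAt (fun t => Θ (z, t)) τ₀ :=
    ContinuousAt.comp (g := Θ) (f := fun t => (z, t)) (H.an z hz τ₀ hT).continuousAt
      (by fun_prop)
  exact h2.tendsto.comp ht

theorem _root_.Crest.Agent.R257.LimC_37.PF.lev_sq {τ : P} (hτ : τ ∈ T) {z : Cn n} (hz : z ∈ O)
    (v : Cn n) : lev (FS_333.sq fun z => Θ (z, τ)) z v = 4 * nsq (fderiv ℂ Θ (z, τ) (v, 0)) := by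
  rw [← H.dΘ hz hτ]
  exact par_lev_nsq (H.par τ hτ) hz v

theorem _root_.Crest.Agent.R257.LimC_37.PF.tendsto_lev_sq (hT : τ₀ ∈ T)
    (ht : Tendsto τ l (𝓝 τ₀)) {z : Cn n} (hz : z ∈ O) (v : Cn n) :
    Tendsto (fun i => lev (FS_333.sq fun z => Θ (z, τ i)) z v) l
      (𝓝 (lev (FS_333.sq fun z => Θ (z, τ₀)) z v)) := by
  rw [H.lev_sq hT hz]
  have h1 : ContinuousAt (fun t => fderiv ℂ Θ (z, t)) τ₀ :=
    ContinuousAt.comp (g := fderiv ℂ Θ) (f := fun t => (z, t)) (H.an z hz τ₀ hT).fderiv.continuousAt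
      (by fun_prop)
  have h2 : ContinuousAt (fun t => fderiv ℂ Θ (z, t) (v, 0)) τ₀ := h1.clm_apply (by fun_prop)
  have hnsq : Continuous (nsq (m := n + 1)) := by
    unfold nsq
    fun_prop
  have h3 : Tendsto (fun i => 4 * nsq (fderiv ℂ Θ (z, τ i) (v, 0))) l
      (𝓝 (4 * nsq (fderiv ℂ Θ (z, τ₀) (v, 0)))) :=
    (((hnsq.continuousAt.comp h2).const_mul 4).tendsto).comp ht
  refine h3.congr' ?_
  filter_upwards [ht.eventually (H.T_open.mem_nhds hT)] with i hi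
  rw [H.lev_sq hi hz]

theorem _root_.Crest.Agent.R257.LimC_37.PF.tendsto_nga (hT : τ₀ ∈ T) (ht : Tendsto τ l (𝓝 τ₀))
    {z : Cn n} (hz : z ∈ O) : Tendsto (fun i => nga (g (τ i)) (Θ (z, τ i))) l
      (𝓝 (nga (g τ₀) (Θ (z, τ₀)))) := by
  have h1 : ContinuousAt (fun p : Cn n × P => nga (g p.2) (Θ p)) (z, τ₀) :=
    (H.smooth_nga.contDiffAt (H.isOpen_prod.mem_nhds ⟨hz, hT⟩)).continuousAt
  have h2 : ContinuousAt (fun t => nga (g t) (Θ (z, t))) τ₀ :=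
    ContinuousAt.comp (g := fun p : Cn n × P => nga (g p.2) (Θ p)) (f := fun t => (z, t)) h1
      (by fun_prop)
  exact h2.tendsto.comp ht

theorem _root_.Crest.Agent.R257.LimC_37.PF.tendsto_eta (hT : τ₀ ∈ T) (ht : Tendsto τ l (𝓝 τ₀))
    {z : Cn n} (hz : z ∈ O) : Tendsto (fun i => eta2a (g (τ i)) (fun z => Θ (z, τ i)) z) l
      (𝓝 (eta2a (g τ₀) (fun z => Θ (z, τ₀)) z)) := by
  have h1 : ContinuousAt (fun p : Cn n × P => eta2a (g p.2) (fun z => Θ (z, p.2)) p.1) (z, τ₀) :=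
    (H.smooth_eta.contDiffAt (H.isOpen_prod.mem_nhds ⟨hz, hT⟩)).continuousAt
  have h2 : ContinuousAt (fun t => eta2a (g t) (fun z => Θ (z, t)) z) τ₀ :=
    ContinuousAt.comp (g := fun p : Cn n × P => eta2a (g p.2) (fun z => Θ (z, p.2)) p.1)
      (f := fun t => (z, t)) h1 (by fun_prop)
  exact h2.tendsto.comp ht

end pf

namespace Sit

variable [ProperSpace P] [l.NeBot]

/-- **convergence of all derivatives** -/
theorem conv (S : Sit g σ D τ₀ C l τ u) (hcc : CC g σ D τ₀ l τ u u₀)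
    (H : PF g σ D O T Θ) (hT : τ₀ ∈ T) :
    ContDiffOn ℝ ∞ (fun z => u₀ (Θ (z, τ₀))) O ∧
    ∀ k, TendstoLocallyUniformlyOn (fun i => iteratedFDeriv ℝ k (fun z => u i (Θ (z, τ i))))
      (iteratedFDeriv ℝ k (fun z => u₀ (Θ (z, τ₀)))) l O := by
  obtain ⟨F, hF, hs, hB, hp⟩ := S.data hcc H hT
  obtain ⟨h1, h2⟩ := lim_smooth H.O_open hs hB hp
  refine ⟨h1, fun k V hV x hx => ?_⟩
  obtain ⟨t, ht, h3⟩ := h2 k V hV x hx
  refine ⟨t, ht, ?_⟩
  filter_upwards [h3, hF] with i h4 h5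
  rw [← h5.2.2.2]
  exact h4

/-- continuous convergence of all derivatives -/
theorem conv_at (S : Sit g σ D τ₀ C l τ u) (hcc : CC g σ D τ₀ l τ u u₀)
    (H : PF g σ D O T Θ) (hT : τ₀ ∈ T) {z : Cn n} (hz : z ∈ O) (k : ℕ) :
    Tendsto (fun q : ι × Cn n => iteratedFDeriv ℝ k (fun z => u q.1 (Θ (z, τ q.1))) q.2)
      (l ×ˢ 𝓝 z) (𝓝 (iteratedFDeriv ℝ k (fun z => u₀ (Θ (z, τ₀))) z)) := by
  obtain ⟨h1, h2⟩ := S.conv hcc H hT
  have hc : ContinuousAt (iteratedFDeriv ℝ k (fun z => u₀ (Θ (z, τ₀)))) z := by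
    have h3 : ContDiffAt ℝ 0 (iteratedFDeriv ℝ k (fun z => u₀ (Θ (z, τ₀)))) z :=
      ((h1.contDiffAt (H.O_open.mem_nhds hz)).iteratedFDeriv_right (m := 0) (i := k)
        (by simp only [zero_add]; exact_mod_cast le_top))
    exact h3.continuousAt
  rw [Metric.tendsto_nhds]
  intro ε hε
  obtain ⟨t, ht, h4⟩ := Metric.tendstoLocallyUniformlyOn_iff.1 (h2 k) (ε / 2) (half_pos hε) z hz
  have ht' : t ∈ 𝓝 z := by rwa [H.O_open.nhdsWithin_eq hz] at ht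
  have h5 : ∀ᶠ y in 𝓝 z, dist (iteratedFDeriv ℝ k (fun z => u₀ (Θ (z, τ₀))) y)
      (iteratedFDeriv ℝ k (fun z => u₀ (Θ (z, τ₀))) z) < ε / 2 :=
    (Metric.tendsto_nhds.1 hc.tendsto) (ε / 2) (half_pos hε)
  filter_upwards [h4.prod_mk ((show ∀ᶠ y in 𝓝 z, y ∈ t from ht').and h5)] with q hq
  obtain ⟨h6, h7, h8⟩ := hq
  have h9 := h6 q.2 h7
  rw [dist_comm] at h9
  calc dist _ _ ≤ _ := dist_triangle _ (iteratedFDeriv ℝ k (fun z => u₀ (Θ (z, τ₀))) q.2) _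
    _ < ε := by linarith

/-- Kaehler-Einstein property and metric bound at the centre of a chart -/
theorem centre (S : Sit g σ D τ₀ C l τ u) (hcc : CC g σ D τ₀ l τ u u₀) {x : AC n} (hx : x ∈ D)
    (h0 : g τ₀ x = σ τ₀) : ∃ c : Cht g σ D τ₀ x,
      ContDiffAt ℝ ∞ (fun z => u₀ (c.Θ (z, τ₀))) 0 ∧
      (∀ v : Cn n, v ≠ 0 → 0 < lev (fun z => u₀ (c.Θ (z, τ₀))) 0 v) ∧
      (cH (fun z => u₀ (c.Θ (z, τ₀))) 0).det =
        ((Real.exp (u₀ x) * eta2a (g τ₀) (fun z => c.Θ (z, τ₀)) 0 : ℝ) : ℂ) ∧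
      (∀ v : Cn n, lev (FS_333.sq fun z => c.Θ (z, τ₀)) 0 v ≤
        C * lev (fun z => u₀ (c.Θ (z, τ₀))) 0 v) ∧
      Real.log (nga (g τ₀) x) - C ≤ u₀ x ∧ u₀ x ≤ C := by
  obtain ⟨c, H⟩ := S.good hx h0
  have hz : (0 : Cn n) ∈ Metric.ball (0 : Cn n) c.ρ := Metric.mem_ball_self c.ρ_pos
  have hT := c.mem_T
  obtain ⟨F, hF, hs, hB, hp⟩ := S.data hcc H hT
  have hlev := fun v => tendsto_lev H.O_open hs hB hp hz v
  have hsm := (S.conv hcc H hT).1.contDiffAt (H.O_open.mem_nhds hz)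
  have hle : ∀ v : Cn n, lev (FS_333.sq fun z => c.Θ (z, τ₀)) 0 v ≤
      C * lev (fun z => u₀ (c.Θ (z, τ₀))) 0 v := by
    intro v
    refine le_of_tendsto_of_tendsto (H.tendsto_lev_sq hT S.tend hz v) ((hlev v).const_mul C) ?_
    filter_upwards [hF] with i hi
    obtain ⟨h1, h2, h3, h4⟩ := hi
    rw [h4]
    exact h3.lev_le _ _ (H.par _ h1) (fun z hz => H.maps z hz _ h1) 0 hz v
  have hval : Tendsto (fun i => u i (c.Θ (0, τ i))) l (𝓝 (u₀ x)) := by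
    have h1 := hp 0 hz
    rw [c.zero] at h1
    refine h1.congr' ?_
    filter_upwards [hF] with i hi
    rw [hi.2.2.2]
  refine ⟨c, hsm, fun v hv => ?_, ?_, hle, ?_, ?_⟩
  · have h1 : 0 ≤ lev (fun z => u₀ (c.Θ (z, τ₀))) 0 v := by
      refine ge_of_tendsto (hlev v) ?_
      filter_upwards [hF] with i hi
      obtain ⟨h1, h2, h3, h4⟩ := hi
      rw [h4]
      exact (h2.pos _ _ (H.par _ h1) (fun z hz => H.maps z hz _ h1) 0 hz v hv).le
    have h2 : 0 < lev (FS_333.sq fun z => c.Θ (z, τ₀)) 0 v :=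
      par_lev_nsq_pos (H.par τ₀ hT) hz hv
    have h3 := h2.trans_le (hle v)
    rcases h1.lt_or_eq with h4 | h4
    · exact h4
    · rw [← h4, mul_zero] at h3
      exact (lt_irrefl _ h3).elim
  · have h1 := tendsto_det_cH H.O_open hs hB hp hz
    have h2 : Tendsto (fun i => ((Real.exp (u i (c.Θ (0, τ i))) *
        eta2a (g (τ i)) (fun z => c.Θ (z, τ i)) 0 : ℝ) : ℂ)) l
        (𝓝 ((Real.exp (u₀ x) * eta2a (g τ₀) (fun z => c.Θ (z, τ₀)) 0 : ℝ) : ℂ)) :=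
      (Complex.continuous_ofReal.tendsto _).comp
        (((Real.continuous_exp.tendsto _).comp hval).mul (H.tendsto_eta hT S.tend hz))
    refine tendsto_nhds_unique h1 (h2.congr' ?_)
    filter_upwards [hF] with i hi
    obtain ⟨h3, h4, h5, h6⟩ := hi
    rw [h6]
    exact (h4.ke _ _ (H.par _ h3) (fun z hz => H.maps z hz _ h3) 0 hz).symm
  · have h1 := H.tendsto_nga hT S.tend hz
    rw [c.zero] at h1
    have h2 : Tendsto (fun i => Real.log (nga (g (τ i)) (c.Θ (0, τ i))) - C) l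
        (𝓝 (Real.log (nga (g τ₀) x) - C)) :=
      (h1.log (nga_pos (S.reg x hx h0)).ne').sub_const C
    refine le_of_tendsto_of_tendsto h2 hval ?_
    filter_upwards [hF] with i hi
    obtain ⟨h3, h4, h5, h6⟩ := hi
    exact h5.lo _ (H.maps 0 hz _ h3) ((H.par _ h3).lvl 0 hz)
  · refine le_of_tendsto hval ?_
    filter_upwards [hF] with i hi
    obtain ⟨h3, h4, h5, h6⟩ := hi
    exact h5.hi _ (H.maps 0 hz _ h3) ((H.par _ h3).lvl 0 hz)

/-- **the limit is Kaehler-Einstein** -/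
theorem keon (S : Sit g σ D τ₀ C l τ u) (hcc : CC g σ D τ₀ l τ u u₀) :
    KEon (g τ₀) (σ τ₀) D u₀ := by
  refine KEon.of_cht S.reg fun x hx h0 => ?_
  obtain ⟨c, h1, h2, h3, -⟩ := S.centre hcc hx h0
  exact ⟨c, h1, h2, h3⟩

/-- **the limit has the same bounds** -/
theorem bdon (S : Sit g σ D τ₀ C l τ u) (hcc : CC g σ D τ₀ l τ u u₀) :
    BdOn (g τ₀) (σ τ₀) D C u₀ := by
  refine ⟨fun x hx h0 => ?_, fun x hx h0 => ?_, ?_⟩
  · obtain ⟨c, -, -, -, -, h, -⟩ := S.centre hcc hx h0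
    exact h
  · obtain ⟨c, -, -, -, -, -, h⟩ := S.centre hcc hx h0
    exact h
  · refine lev_le_of_cht fun x hx h0 => ?_
    obtain ⟨c, h1, -, -, h4, -⟩ := S.centre hcc hx h0
    exact ⟨c, h1, h4⟩

end Sit

end

end Crest.Agent.R257.LimD_37
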