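import Crest.Agent.R257.LimE_37
import Crest.Agent.R257.Out1_835

/-!
Row 257 (S0395), leaf E-LIM, helper37: iterated limits, and the limit lemma in the language of
`KED_952`.

* `exists_pf`   : germs of families of parametrisations are good;
* `Sit.conv_cpt`: uniform convergence of all derivatives on compact sets, for any analytic family of
                  parametrisations;
* `Sit.iter`    : iterated limits;
* `kec_of`      : `KED_952.KEc` from continuous convergence.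
-/

set_option autoImplicit false
set_option linter.unusedSectionVars false

open Set Filter Topology Complex
open scoped ContDiff ComplexConjugate Matrix

namespace Crest.Agent.R257.LimD_37

open Crest.Agent.R275.Geo Crest.Agent.R275.Core144
open Crest.Agent.R273.Defs_333 Crest.Agent.R273.YauDefs_635 Crest.Agent.R273.YauCh_635
open Crest.Agent.R257.PN_835 Crest.Agent.R257.Gram_835 Crest.Agent.R257.Aff_835
open Crest.Agent.R257.LimA_37 Crest.Agent.R257.LimB_37 Crest.Agent.R257.LimC_37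
open Crest.Agent.R257.Loc_835 Crest.Agent.R257.ELoc_611
open Crest.Agent.R273

noncomputable section

section general

variable {n : ℕ} {P : Type*} [NormedAddCommGroup P] [NormedSpace ℂ P]
variable {g : P → AC n → ℂ} {σ : P → ℂ} {D : Set (AC n)} {τ₀ : P} {C : ℝ}
variable {O : Set (Cn n)} {N : Set P} {Θ : Cn n × P → AC n}
variable {ι : Type*} {l : Filter ι} {τ : ι → P} {u : ι → AC n → ℝ} {u₀ : AC n → ℝ}

/-- germs of families of parametrisations are good -/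
theorem exists_pf {z₀ : Cn n} (hz₀ : z₀ ∈ O) (hN : N ∈ 𝓝 τ₀) (hO : IsOpen O)
    (han : ∀ z ∈ O, ∀ τ ∈ N, AnalyticAt ℂ Θ (z, τ))
    (hpar : ∀ τ ∈ N, Par (g τ) (σ τ) (fun z => Θ (z, τ)) O)
    (hmaps : ∀ z ∈ O, ∀ τ ∈ N, Θ (z, τ) ∈ D)
    (hJ : AnalyticAt ℂ (jn g σ) (Θ (z₀, τ₀), τ₀)) (hreg : fderiv ℂ (g τ₀) (Θ (z₀, τ₀)) ≠ 0) :
    ∃ ε > 0, Metric.ball z₀ ε ⊆ O ∧ ∃ T : Set P, τ₀ ∈ T ∧ T ⊆ N ∧
      PF g σ D (Metric.ball z₀ ε) T Θ := by
  have hΘ : AnalyticAt ℂ Θ (z₀, τ₀) := han z₀ hz₀ τ₀ (mem_of_mem_nhds hN)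
  have hφ : AnalyticAt ℂ (fun p : Cn n × P => (Θ p, p.2)) (z₀, τ₀) := hΘ.prod analyticAt_snd
  have h1 : ∀ᶠ p : Cn n × P in 𝓝 (z₀, τ₀), AnalyticAt ℂ (jn g σ) (Θ p, p.2) :=
    hφ.continuousAt.eventually hJ.eventually_analyticAt
  have h2 : ContinuousAt (fun p : Cn n × P => nga (g p.2) (Θ p)) (z₀, τ₀) :=
    (smooth_nga_comp (φ := fun p : Cn n × P => (Θ p, p.2)) hφ hJ).continuousAt
  have h4 : ∀ᶠ p : Cn n × P in 𝓝 (z₀, τ₀), 0 < nga (g p.2) (Θ p) :=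
    h2.eventually_const_lt (nga_pos hreg)
  obtain ⟨U₁, hU₁, T₁, hT₁, hUT⟩ := mem_nhds_prod_iff.1 (h1.and h4)
  obtain ⟨ε, hε, hεU⟩ := Metric.mem_nhds_iff.1 (inter_mem hU₁ (hO.mem_nhds hz₀))
  have hεO : Metric.ball z₀ ε ⊆ O := fun z hz => (hεU hz).2
  have hTN : interior (T₁ ∩ N) ⊆ N := fun t ht => (interior_subset ht).2
  have key : ∀ z ∈ Metric.ball z₀ ε, ∀ τ ∈ interior (T₁ ∩ N),
      AnalyticAt ℂ (jn g σ) (Θ (z, τ), τ) ∧ 0 < nga (g τ) (Θ (z, τ)) := fun z hz τ hτ =>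
    hUT (mk_mem_prod (hεU hz).1 (interior_subset hτ).1)
  refine ⟨ε, hε, hεO, interior (T₁ ∩ N), mem_interior_iff_mem_nhds.2 (inter_mem hT₁ hN), hTN,
    ⟨Metric.isOpen_ball, isOpen_interior, fun z hz τ hτ => han z (hεO hz) τ (hTN hτ),
      fun τ hτ => (hpar τ (hTN hτ)).mono Metric.isOpen_ball hεO,
      fun z hz τ hτ => hmaps z (hεO hz) τ (hTN hτ), fun z hz τ hτ => (key z hz τ hτ).1,
      fun z hz τ hτ hcon => ?_⟩⟩
  have h5 := (key z hz τ hτ).2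
  have h6 : gra (g τ) (Θ (z, τ)) = 0 := by
    funext k
    show fderiv ℂ (g τ) (Θ (z, τ)) _ = 0
    rw [hcon]
    rfl
  rw [nga, h6] at h5
  simp [nsq] at h5

variable [ProperSpace P] [l.NeBot]

/-- **uniform convergence of all derivatives on compact sets** -/
theorem Sit.conv_cpt (S : Sit g σ D τ₀ C l τ u) (hcc : CC g σ D τ₀ l τ u u₀) (hN : N ∈ 𝓝 τ₀)
    (hO : IsOpen O) (han : ∀ z ∈ O, ∀ τ ∈ N, AnalyticAt ℂ Θ (z, τ))
    (hpar : ∀ τ ∈ N, Par (g τ) (σ τ) (fun z => Θ (z, τ)) O)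
    (hmaps : ∀ z ∈ O, ∀ τ ∈ N, Θ (z, τ) ∈ D) (k : ℕ) {K : Set (Cn n)} (hK : IsCompact K)
    (hKO : K ⊆ O) :
    TendstoUniformlyOn (fun i => iteratedFDeriv ℝ k (fun z => u i (Θ (z, τ i))))
      (iteratedFDeriv ℝ k (fun z => u₀ (Θ (z, τ₀)))) l K := by
  have h1 : TendstoLocallyUniformlyOn (fun i => iteratedFDeriv ℝ k (fun z => u i (Θ (z, τ i))))
      (iteratedFDeriv ℝ k (fun z => u₀ (Θ (z, τ₀)))) l O := by
    intro V hV x hx
    have hT := mem_of_mem_nhds hN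
    obtain ⟨ε, hε, hεO, T, hT0, hTN, H⟩ := exists_pf hx hN hO han hpar hmaps
      (S.jan _ (hmaps x hx τ₀ hT) ((hpar τ₀ hT).lvl x hx))
      (S.reg _ (hmaps x hx τ₀ hT) ((hpar τ₀ hT).lvl x hx))
    obtain ⟨t, ht, h3⟩ := (S.conv hcc H hT0).2 k V hV x (Metric.mem_ball_self hε)
    rw [Metric.isOpen_ball.nhdsWithin_eq (Metric.mem_ball_self hε)] at ht
    exact ⟨t, mem_nhdsWithin_of_mem_nhds ht, h3⟩
  exact (tendstoLocallyUniformlyOn_iff_forall_isCompact hO).1 h1 K hKO hK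

/-- **iterated limits** -/
theorem Sit.iter {A : Type*} {L : Filter A} {f : A → P} {m : A → Filter P}
    {w : P → AC n → ℝ} {v : A → AC n → ℝ} {u₀ : AC n → ℝ}
    (S : Sit g σ D τ₀ C (L.bind m) id w) (hf : Tendsto f L (𝓝 τ₀))
    (hv : CC g σ D τ₀ L f v u₀) (hm : ∀ᶠ a in L, m a ≤ 𝓝 (f a))
    (hw : ∀ᶠ a in L, CC g σ D (f a) (m a) id w (v a)) :
    CC g σ D τ₀ (L.bind m) id w u₀ := by
  intro x hx h0
  obtain ⟨c, hc⟩ := S.good hx h0
  refine S.ccv_of_tendsto c hc ?_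
  have hz : (0 : Cn n) ∈ Metric.ball (0 : Cn n) c.ρ := Metric.mem_ball_self c.ρ_pos
  have hcT := c.T_open
  have hlv : ∀ t ∈ c.T, c.Θ (0, t) ∈ lvl g σ t := fun t ht => (c.par t ht).lvl 0 hz
  -- the outer limit
  have h1 : Tendsto (fun a => v a (c.Θ (0, f a))) L (𝓝 (u₀ x)) := by
    have h2 := hc.tendsto_Θ c.mem_T hf hz
    rw [c.zero] at h2
    refine (hv x hx h0).tendsto h2 ?_
    filter_upwards [hf.eventually (hcT.mem_nhds c.mem_T)] with a ha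
    exact hlv _ ha
  rw [Metric.tendsto_nhds]
  intro ε hε
  rw [Filter.eventually_bind]
  filter_upwards [hf.eventually (hcT.mem_nhds c.mem_T), hm, hw,
    (Metric.tendsto_nhds.1 h1) (ε / 2) (half_pos hε)] with a h2 h3 h4 h5
  have h6 : Tendsto (fun p : P => c.Θ (0, id p)) (m a) (𝓝 (c.Θ (0, f a))) :=
    hc.tendsto_Θ h2 (show Tendsto id (m a) (𝓝 (f a)) from h3) hz
  have h7 : Tendsto (fun p : P => w p (c.Θ (0, id p))) (m a) (𝓝 (v a (c.Θ (0, f a)))) := by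
    refine (h4 _ (c.maps 0 hz _ h2) (hlv _ h2)).tendsto h6 ?_
    filter_upwards [h3 (hcT.mem_nhds h2)] with p hp
    exact hlv p hp
  filter_upwards [(Metric.tendsto_nhds.1 h7) (ε / 2) (half_pos hε)] with p h8
  calc dist (w p (c.Θ (0, id p))) (u₀ x) ≤ dist (w p (c.Θ (0, id p))) (v a (c.Θ (0, f a))) +
        dist (v a (c.Θ (0, f a))) (u₀ x) := dist_triangle _ _ _
    _ < ε := by linarith

end general

/-! ### the language of KED_952 -/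

section ked

open Crest.Agent.R257.Defs_219

/-- the punctured ball -/
def PB (r : ℝ) : Set (AC 2) := {x | x ≠ 0 ∧ nsq x < r ^ 2}

theorem isOpen_PB (r : ℝ) : IsOpen (PB r) := by
  have hnsq : Continuous (nsq (m := 3)) := by
    unfold nsq
    fun_prop
  exact isOpen_ne.inter (isOpen_lt hnsq continuous_const)

theorem keon_iff {f : E3 → ℂ} {s : ℂ} {r : ℝ} {u : E3 → ℝ} :
    KED_952.KEon f s r u ↔ KEon (n := 2) f s (PB r) u := by
  constructor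
  · intro h
    have hP : ∀ (θ : Cn 2 → AC 2) (U : Set (Cn 2)), Par f s θ U → (∀ z ∈ U, θ z ∈ PB r) →
        KED_952.PE f s r θ U := fun θ U hθ hm =>
      ⟨hθ, fun z hz => (hm z hz).1, fun z hz => (hm z hz).2⟩
    exact ⟨fun θ U hθ hm => h.sm θ U (hP θ U hθ hm), fun θ U hθ hm => h.pos θ U (hP θ U hθ hm),
      fun θ U hθ hm => h.ma θ U (hP θ U hθ hm)⟩
  · intro h
    exact ⟨fun θ O hθ => h.sm θ O hθ.par fun z hz => ⟨hθ.ne z hz, hθ.lt z hz⟩,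
      fun θ O hθ => h.pos θ O hθ.par fun z hz => ⟨hθ.ne z hz, hθ.lt z hz⟩,
      fun θ O hθ => h.ke θ O hθ.par fun z hz => ⟨hθ.ne z hz, hθ.lt z hz⟩⟩

theorem bd_iff {f : E3 → ℂ} {s : ℂ} {r C : ℝ} {u : E3 → ℝ} :
    KED_952.Bd f s r C u ↔ BdOn (n := 2) f s (PB r) C u := by
  constructor
  · intro h
    exact ⟨fun x hx hs => h.lo x hs hx.1 hx.2, fun x hx hs => h.hi x hs hx.1 hx.2,
      fun θ U hθ hm z hz v => h.eu θ U
        ⟨hθ, fun z hz => (hm z hz).1, fun z hz => (hm z hz).2⟩ z hz v⟩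
  · intro h
    exact ⟨fun x hs h0 hr => h.lo x ⟨h0, hr⟩ hs, fun x hs h0 hr => h.hi x ⟨h0, hr⟩ hs,
      fun θ O hθ z hz v => h.lev_le θ O hθ.par (fun z hz => ⟨hθ.ne z hz, hθ.lt z hz⟩) z hz v⟩

open Crest.Agent.R257.KED_952 (PP)

/-- the family of functions -/
def gP (Φ : E3 × PP → ℂ) (τ : PP) : AC 2 → ℂ := fun x => Φ (x, τ)

theorem jn_gP (Φ : E3 × PP → ℂ) : jn (gP Φ) (fun _ => 0) = Φ := by
  funext p
  show Φ (p.1, p.2) - 0 = Φ p
  rw [sub_zero]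

/-- convergence in the sense of `KED_952` -/
theorem conv_of {Φ : E3 × PP → ℂ} {τ₀ : PP} {l : Filter PP} [l.NeBot] {r C : ℝ}
    {w : PP → E3 → ℝ} {u : E3 → ℝ} (S : Sit (gP Φ) (fun _ => 0) (PB r) τ₀ C l id w)
    (hcc : CC (gP Φ) (fun _ => 0) (PB r) τ₀ l id w u) : KED_952.Conv Φ r l τ₀ w u := by
  intro O N Θ hΘ k K hKO hK
  have hτ₀ := mem_of_mem_nhds hΘ.nhd
  exact S.conv_cpt hcc hΘ.nhd (hΘ.par τ₀ hτ₀).par.isOpen
    (fun z hz τ hτ => hΘ.an (z, τ) ⟨hz, hτ⟩) (fun τ hτ => (hΘ.par τ hτ).par)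
    (fun z hz τ hτ => ⟨(hΘ.par τ hτ).ne z hz, (hΘ.par τ hτ).lt z hz⟩) k hK hKO

/-- **`KEc` from continuous convergence** -/
theorem kec_of {Φ : E3 × PP → ℂ} {τ₀ : PP} {l : Filter PP} [l.NeBot] {r C : ℝ}
    {w : PP → E3 → ℝ} {u : E3 → ℝ} (S : Sit (gP Φ) (fun _ => 0) (PB r) τ₀ C l id w)
    (hcc : CC (gP Φ) (fun _ => 0) (PB r) τ₀ l id w u) : KED_952.KEc Φ τ₀ l r C w u := by
  refine ⟨?_, ⟨keon_iff.2 (S.keon hcc), bd_iff.2 (S.bdon hcc)⟩, conv_of S hcc⟩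
  filter_upwards [S.ke, S.bd] with τ h1 h2
  exact ⟨keon_iff.2 h1, bd_iff.2 h2⟩

end ked

end

end Crest.Agent.R257.LimD_37
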