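import Crest.Agent.R257.LimF_37
import Crest.Agent.R257.AYDisc_209

/-!
Row 257 (S0395), leaf E-LIM / OUT, helper37: the Kaehler-Einstein weights `u_(t,s)`, `u_t`, `u_0`.

* `out_of` : `KED_952.OutStmt` from the Chern-Lu inequality `EuclStmt`.
-/

set_option autoImplicit false
set_option linter.unusedSectionVars false

open Set Filter Topology Complex
open scoped ContDiff ComplexConjugate Matrix

namespace Crest.Agent.R257.LimG_37

open Crest.Agent.R275.Geo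
open Crest.Agent.R257.PN_835 Crest.Agent.R257.Aff_835 Crest.Agent.R257.Hom_835
open Crest.Agent.R257.Unif_835 Crest.Agent.R257.GDof_835 Crest.Agent.R257.Out1_835
open Crest.Agent.R257.LimA_37 Crest.Agent.R257.LimB_37 Crest.Agent.R257.LimC_37
open Crest.Agent.R257.LimD_37 Crest.Agent.R257.Defs_219
open Crest.Agent.R257.KED_952 (PP fam KEc OutStmt)

noncomputable section

variable {G : E3 × ℂ → ℂ} {μ d : ℕ} {R r c₀ e : ℝ} {P : ℂ → MvPolynomial (Fin 3) ℂ}
  {c : Fin 3 → ℂ}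

/-- the family is analytic -/
theorem analytic_fam (h : GFam G μ d R r c₀ e P c) {t s : ℂ} (ht : ‖t‖ < (gd h).R) (x : E3) :
    AnalyticAt ℂ (fam G) (x, (t, s)) := by
  have ho : IsOpen {q : E3 × PP | ‖q.2.1‖ < (gd h).R} :=
    isOpen_lt (continuous_norm.comp (continuous_fst.comp continuous_snd)) continuous_const
  have hd : DifferentiableOn ℂ (fam G) {q : E3 × PP | ‖q.2.1‖ < (gd h).R} := by
    have h1 : DifferentiableOn ℂ (fun q : E3 × PP => (gd h).H q.2 (hc (n := 2) q.1))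
        {q : E3 × PP | ‖q.2.1‖ < (gd h).R} := by
      refine (gd h).diffOn_H.comp (f := fun q : E3 × PP => (q.2, hc (n := 2) q.1)) ?_
        fun q hq => hq
      refine DifferentiableOn.prodMk differentiableOn_snd ?_
      intro q hq
      exact (DifferentiableAt.comp q (g := hc (n := 2)) (hasFDerivAt_hc (n := 2) q.1).differentiableAt
        differentiableAt_fst).differentiableWithinAt
    refine h1.congr fun q hq => ?_
    show G (q.1, q.2.1) - q.2.2 = HH d (P q.2.1) c q.2.2 (hc (n := 2) q.1)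
    rw [HH_hc (h.deg q.2.1)]
    have h2 := congrFun (sl_eq h q.2.1) q.1
    have h3 : G (q.1, q.2.1) = Gf (n := 2) d (P q.2.1) c q.1 := h2
    rw [h3]
  exact Crest.Agent.R266.SCV.analyticOnNhd_of_differentiableOn ho hd (x, (t, s)) ht

/-- the levels are smooth off the origin -/
theorem reg_fam (h : GFam G μ d R r c₀ e P c) {t : ℂ} (ht : ‖t‖ < (gd h).R) {r₁ : ℝ}
    (hr0 : 0 < r₁) (hr : r₁ ≤ (gd h).R) {x : E3} (hx : x ∈ PB r₁) (s : ℂ) :
    fderiv ℂ (gP (fam G) (t, s)) x ≠ 0 := by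
  obtain ⟨c1, hc1, hlow⟩ := (gd h).low
  have h1 : ‖x‖ < (gd h).R := by
    have h2 := norm_sq_le_nsq (m := 3) x
    have h3 : ‖x‖ ^ 2 < r₁ ^ 2 := h2.trans_lt hx.2
    have h4 : ‖x‖ < r₁ := lt_of_pow_lt_pow_left₀ 2 hr0.le h3
    linarith
  have h5 := hlow t ht x h1
  have h6 : 0 < ‖x‖ := norm_pos_iff.2 hx.1
  have h7 : 0 < ‖fderiv ℂ (Gf (n := 2) d ((gd h).P t) (gd h).c) x‖ :=
    lt_of_lt_of_le (by positivity) h5
  have e1 : gP (fam G) (t, s) = fun x => Gf (n := 2) d (P t) c x - s := by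
    funext y
    have h3 : G (y, t) = Gf (n := 2) d (P t) c y := congrFun (sl_eq h t) y
    show G (y, t) - s = _
    rw [h3]
  rw [e1, fderiv_sub_const]
  exact norm_pos_iff.1 h7

theorem cc_congr {g : PP → AC 2 → ℂ} {σ : PP → ℂ} {D : Set (AC 2)} {τ₀ : PP} {ι : Type*}
    {l : Filter ι} {τ : ι → PP} {u u' : ι → AC 2 → ℝ} {u₀ : AC 2 → ℝ}
    (h : CC g σ D τ₀ l τ u u₀) (he : ∀ᶠ i in l, u i = u' i) : CC g σ D τ₀ l τ u' u₀ := by
  intro x hx h0 ε hε
  obtain ⟨M, hM, h1⟩ := h x hx h0 ε hε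
  refine ⟨M, hM, ?_⟩
  filter_upwards [h1, he] with i h2 h3
  rw [← h3]
  exact h2

/-- **OUT** from the Chern-Lu inequality -/
theorem out_of (hE : ∀ (d μ κ : ℕ) (D : GD 2 d μ), d = 2 + 2 + κ → μ < κ → EuclStmt D κ) :
    OutStmt := by
  intro G μ d R r c₀ e P c h
  classical
  have hR := (gd h).R_pos
  set r₁ : ℝ := (gd h).R / 2 with hr₁
  have hr₁0 : 0 < r₁ := by positivity
  have hr₁R : r₁ ≤ (gd h).R := by linarith
  have hRr : (gd h).R ≤ r := (min_le_right _ _).trans (min_le_left _ _)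
  obtain ⟨e₁, he₁, C, w₁, hw₁⟩ := out1 AYDisc_209.ay_all h
    (fun κ hd hκ => hE d μ κ (gd h) hd hκ) hr₁0
  -- the inner ultrafilter
  set S : Ultrafilter ℂ := Ultrafilter.of (𝓝[≠] (0 : ℂ)) with hS
  have hSle : (S : Filter ℂ) ≤ 𝓝[≠] 0 := Ultrafilter.of_le _
  have hS0 : (S : Filter ℂ) ≤ 𝓝 0 := hSle.trans nhdsWithin_le_nhds
  have hSne : ∀ᶠ s in (S : Filter ℂ), s ≠ 0 := hSle self_mem_nhdsWithin
  set e₂ : ℝ := min e₁ (gd h).R with he₂
  have he₂0 : 0 < e₂ := lt_min he₁ hR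
  have hSe : ∀ᶠ s in (S : Filter ℂ), ‖s‖ < e₁ := by
    have h1 : Metric.ball (0 : ℂ) e₁ ∈ 𝓝 (0 : ℂ) := Metric.ball_mem_nhds _ he₁
    filter_upwards [hS0 h1] with s hs
    rwa [mem_ball_zero_iff] at hs
  set m : ℂ → Filter PP := fun t => map (fun s => (t, s)) (S : Filter ℂ) with hm
  have hm0 : ∀ t, m t ≤ 𝓝 (t, 0) := by
    intro t
    have h1 : Tendsto (fun s : ℂ => ((t, s) : PP)) (𝓝 0) (𝓝 (t, 0)) :=
      (Continuous.prodMk continuous_const continuous_id).tendsto' _ _ rfl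
    exact (map_mono hS0).trans h1
  have hmne : ∀ t, (m t).NeBot := fun t => inferInstance
  -- the good set of parameters
  have hgood : ∀ t, ‖t‖ < e₂ → ∀ᶠ τ in m t, τ.2 ≠ 0 ∧
      KEon (gP (fam G) τ) 0 (PB r₁) (w₁ τ) ∧ BdOn (gP (fam G) τ) 0 (PB r₁) C (w₁ τ) := by
    intro t ht
    show ∀ᶠ s in (S : Filter ℂ), _
    filter_upwards [hSne, hSe] with s h1 h2
    obtain ⟨h3, h4⟩ := hw₁ t s (ht.trans_le (min_le_left _ _)) (norm_pos_iff.2 h1) h2
    exact ⟨h1, keon_iff.1 h3, bd_iff.1 h4⟩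
  have hjan : ∀ t, ‖t‖ < e₂ → ∀ x ∈ PB r₁, gP (fam G) (t, 0) x = 0 →
      AnalyticAt ℂ (jn (gP (fam G)) (fun _ => 0)) (x, (t, 0)) := by
    intro t ht x _ _
    rw [jn_gP]
    exact analytic_fam h (ht.trans_le (min_le_right _ _)) x
  have hreg : ∀ t, ‖t‖ < e₂ → ∀ x ∈ PB r₁, gP (fam G) (t, 0) x = 0 →
      fderiv ℂ (gP (fam G) (t, 0)) x ≠ 0 := fun t ht x hx _ =>
    reg_fam h (ht.trans_le (min_le_right _ _)) hr₁0 hr₁R hx 0
  have hSit : ∀ t, ‖t‖ < e₂ → Sit (gP (fam G)) (fun _ => 0) (PB r₁) (t, 0) C (m t) id w₁ :=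
    fun t ht => ⟨isOpen_PB _, hjan t ht, hreg t ht, hm0 t, (hgood t ht).mono fun _ h => h.2.1,
      (hgood t ht).mono fun _ h => h.2.2⟩
  -- the limits `u_t`
  have hex : ∀ t : ℂ, ∃ v : E3 → ℝ, ‖t‖ < e₂ →
      CC (gP (fam G)) (fun _ => 0) (PB r₁) (t, 0) (m t) id w₁ v := by
    intro t
    by_cases ht : ‖t‖ < e₂
    · obtain ⟨v, hv⟩ := Sit.exists_lim (𝒰 := S.map fun s => (t, s)) (hSit t ht)
      exact ⟨v, fun _ => hv⟩
    · exact ⟨fun _ => 0, fun h => (ht h).elim⟩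
  choose V hV using hex
  set w : PP → E3 → ℝ := fun τ => if τ.2 = 0 then V τ.1 else w₁ τ with hw
  have hw0 : ∀ t, w (t, 0) = V t := fun t => if_pos rfl
  have hwm : ∀ t, ‖t‖ < e₂ → ∀ᶠ τ in m t, w₁ τ = w τ := fun t ht =>
    (hgood t ht).mono fun τ hτ => (if_neg hτ.1).symm
  have hcc : ∀ t, ‖t‖ < e₂ →
      CC (gP (fam G)) (fun _ => 0) (PB r₁) (t, 0) (m t) id w (V t) := fun t ht =>
    cc_congr (hV t ht) (hwm t ht)
  have hSit' : ∀ t, ‖t‖ < e₂ → Sit (gP (fam G)) (fun _ => 0) (PB r₁) (t, 0) C (m t) id w := by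
    intro t ht
    have h1 := hSit t ht
    refine ⟨h1.D_open, h1.jan, h1.reg, h1.tend, ?_, ?_⟩
    · filter_upwards [h1.ke, hwm t ht] with τ h2 h3
      rw [← h3]
      exact h2
    · filter_upwards [h1.bd, hwm t ht] with τ h2 h3
      rw [← h3]
      exact h2
  refine ⟨r₁, C, w, S, hr₁0, by linarith, hSle, ?_, fun T hT => ?_⟩
  · have h1 : ∀ᶠ t : ℂ in 𝓝[≠] 0, ‖t‖ < e₂ := by
      have h2 : Metric.ball (0 : ℂ) e₂ ∈ 𝓝 (0 : ℂ) := Metric.ball_mem_nhds _ he₂0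
      filter_upwards [nhdsWithin_le_nhds h2] with t ht
      rwa [mem_ball_zero_iff] at ht
    filter_upwards [h1] with t ht
    have := hmne t
    rw [hw0]
    exact kec_of (hSit' t ht) (hcc t ht)
  · have hT0 : (T : Filter ℂ) ≤ 𝓝 0 := hT.trans nhdsWithin_le_nhds
    have hTe : ∀ᶠ t in (T : Filter ℂ), ‖t‖ < e₂ := by
      have h1 : Metric.ball (0 : ℂ) e₂ ∈ 𝓝 (0 : ℂ) := Metric.ball_mem_nhds _ he₂0
      filter_upwards [hT0 h1] with t ht
      rwa [mem_ball_zero_iff] at ht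
    have hf : Tendsto (fun t : ℂ => ((t, 0) : PP)) (T : Filter ℂ) (𝓝 (0, 0)) := by
      have h1 : Tendsto (fun t : ℂ => ((t, 0) : PP)) (𝓝 0) (𝓝 (0, 0)) :=
        (Continuous.prodMk continuous_id continuous_const).tendsto' _ _ rfl
      exact h1.mono_left hT0
    have h00 : ‖(0 : ℂ)‖ < e₂ := by rw [norm_zero]; exact he₂0
    -- the outer situation
    have hkeT : ∀ᶠ t in (T : Filter ℂ), KEon (gP (fam G) (t, 0)) 0 (PB r₁) (V t) ∧
        BdOn (gP (fam G) (t, 0)) 0 (PB r₁) C (V t) := by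
      filter_upwards [hTe] with t ht
      have := hmne t
      exact ⟨(hSit' t ht).keon (hcc t ht), (hSit' t ht).bdon (hcc t ht)⟩
    have hSitT : Sit (gP (fam G)) (fun _ => 0) (PB r₁) (0, 0) C (T : Filter ℂ)
        (fun t => ((t, 0) : PP)) V :=
      ⟨isOpen_PB _, hjan 0 h00, hreg 0 h00, hf, hkeT.mono fun _ h => h.1,
        hkeT.mono fun _ h => h.2⟩
    obtain ⟨u₀, hu₀⟩ := Sit.exists_lim hSitT
    -- the same with index set `PP`
    have hSitT' : Sit (gP (fam G)) (fun _ => 0) (PB r₁) (0, 0) C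
        (map (fun t => ((t, 0) : PP)) (T : Filter ℂ)) id w := by
      refine ⟨isOpen_PB _, hjan 0 h00, hreg 0 h00, hf, ?_, ?_⟩
      · show ∀ᶠ t in (T : Filter ℂ), KEon (gP (fam G) (t, 0)) 0 (PB r₁) (w (t, 0))
        filter_upwards [hkeT] with t ht
        rw [hw0]
        exact ht.1
      · show ∀ᶠ t in (T : Filter ℂ), BdOn (gP (fam G) (t, 0)) 0 (PB r₁) C (w (t, 0))
        filter_upwards [hkeT] with t ht
        rw [hw0]
        exact ht.2
    have hccT' : CC (gP (fam G)) (fun _ => 0) (PB r₁) (0, 0)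
        (map (fun t => ((t, 0) : PP)) (T : Filter ℂ)) id w u₀ := by
      intro x hx h0 ε hε
      obtain ⟨M, hM, h1⟩ := hu₀ x hx h0 ε hε
      refine ⟨M, hM, ?_⟩
      show ∀ᶠ t in (T : Filter ℂ), _
      filter_upwards [h1] with t h2
      rw [hw0]
      exact h2
    -- the iterated situation
    have hbt : Tendsto id ((T : Filter ℂ).bind m) (𝓝 ((0, 0) : PP)) := by
      intro U hU
      show ∀ᶠ p in (T : Filter ℂ).bind m, p ∈ U
      rw [Filter.eventually_bind]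
      filter_upwards [hf.eventually (eventually_mem_nhds_iff.2 hU)] with t ht
      exact hm0 t ht
    have hSitB : Sit (gP (fam G)) (fun _ => 0) (PB r₁) (0, 0) C ((T : Filter ℂ).bind m) id w := by
      refine ⟨isOpen_PB _, hjan 0 h00, hreg 0 h00, hbt, ?_, ?_⟩
      · rw [Filter.eventually_bind]
        filter_upwards [hTe] with t ht
        exact (hSit' t ht).ke
      · rw [Filter.eventually_bind]
        filter_upwards [hTe] with t ht
        exact (hSit' t ht).bd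
    have hBne : ((T : Filter ℂ).bind m).NeBot :=
      (T.bind fun t => S.map fun s => ((t, s) : PP)).neBot
    have hccB : CC (gP (fam G)) (fun _ => 0) (PB r₁) (0, 0) ((T : Filter ℂ).bind m) id w u₀ :=
      hSitB.iter hf hu₀ (Eventually.of_forall hm0) (by
        filter_upwards [hTe] with t ht
        exact hcc t ht)
    exact ⟨u₀, kec_of hSitT' hccT', kec_of hSitB hccB⟩

end

end Crest.Agent.R257.LimG_37
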