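import Crest.Agent.R257.Line1_648

/-!
R257 / Line2_648: persistence of a nondegenerate critical point `p ≠ 0` of the lowest part
`½ T(0)(x,x) + c₀(x)` of `F(t^a x, t) / t^{3a}`: contradiction with (H1).
-/

set_option autoImplicit false

open Topology Filter Set
open Crest.AlgGeometry.Germ

noncomputable section

namespace Crest.Agent.R257.Line_648

open Crest.Agent.R257.Defs_219 Crest.Agent.R257.LCDefs_472 Crest.Agent.R257.Skel_219

variable {n : ℕ}

/-- zeros of a family near a nondegenerate zero -/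
theorem zeros_near {N : (Fin n → ℂ) × ℂ → (Fin n → ℂ)} {p : Fin n → ℂ}
    (hN : AnalyticAt ℂ N (p, 0)) (h0 : N (p, 0) = 0)
    (hinj : ∀ u : Fin n → ℂ, fderiv ℂ N (p, 0) (u, 0) = 0 → u = 0)
    {P : (Fin n → ℂ) × ℂ → Prop} (hP : ∀ᶠ q in 𝓝 (p, (0 : ℂ)), P q) :
    ∀ᶠ t in 𝓝 (0 : ℂ), ∃ x, P (x, t) ∧ N (x, t) = 0 := by
  set D := fderiv ℂ N (p, 0) with hD
  have h1 : HasStrictFDerivAt (fun q : (Fin n → ℂ) × ℂ => (N q, q.2))
      (D.prod (ContinuousLinearMap.snd ℂ (Fin n → ℂ) ℂ)) (p, 0) :=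
    hN.hasStrictFDerivAt.prodMk hasStrictFDerivAt_snd
  have hsurj : Function.Surjective
      ((D : ((Fin n → ℂ) × ℂ) →ₗ[ℂ] (Fin n → ℂ)) ∘ₗ LinearMap.inl ℂ (Fin n → ℂ) ℂ) := by
    rw [← LinearMap.injective_iff_surjective]
    rw [injective_iff_map_eq_zero]
    intro u hu
    exact hinj u hu
  have h2 : (D.prod (ContinuousLinearMap.snd ℂ (Fin n → ℂ) ℂ)).range = ⊤ := by
    rw [eq_top_iff]
    rintro ⟨y, s⟩ -
    obtain ⟨u, hu⟩ := hsurj (y - D (0, s))
    refine ⟨(u, s), ?_⟩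
    have h3 : D (u, s) = D (u, 0) + D (0, s) := by
      rw [← map_add]; simp
    have h4 : D (u, 0) = y - D (0, s) := hu
    change (D (u, s), s) = (y, s)
    rw [h3, h4]
    simp
  have h3 := h1.map_nhds_eq_of_surj h2
  simp only [h0] at h3
  have h4 : ∀ᶠ z in 𝓝 ((0 : Fin n → ℂ), (0 : ℂ)), ∃ q : (Fin n → ℂ) × ℂ, P q ∧ (N q, q.2) = z := by
    rw [← h3, eventually_map]
    filter_upwards [hP] with q hq
    exact ⟨q, hq, rfl⟩
  have h5 : Tendsto (fun t : ℂ => ((0 : Fin n → ℂ), t)) (𝓝 0) (𝓝 (0, 0)) :=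
    (Continuous.prodMk_right (0 : Fin n → ℂ)).tendsto 0
  filter_upwards [h5.eventually h4] with t ht
  obtain ⟨⟨x, s⟩, hq, he⟩ := ht
  simp only [Prod.mk.injEq] at he
  obtain ⟨he1, rfl⟩ := he
  exact ⟨x, hq, he1⟩

theorem crit_scale {F : (Fin n → ℂ) × ℂ → ℂ} {μ : ℕ} (hF : Fam F μ)
    {a : ℕ} (ha : 1 ≤ a) {T : Fin n → Fin n → ℂ → ℂ} (hT : ∀ i j, AnalyticAt ℂ (T i j) 0)
    (hTa : ∀ᶠ t in 𝓝 (0 : ℂ), ∀ i j, H2 (sl F t) i j = t ^ a * T i j t)
    {p : Fin n → ℂ} (hp : p ≠ 0)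
    (hp1 : ∀ i, ∑ j, T i j 0 * p j + (1 / 2) * ∑ j, ∑ k, H3 (sl F 0) i j k * p j * p k = 0)
    (hp2 : ∀ u : Fin n → ℂ, (∀ i, ∑ j, T i j 0 * u j +
      ∑ j, ∑ k, H3 (sl F 0) i j k * p j * u k = 0) → u = 0) : False := by
  -- the gradient
  set g : Fin n → (Fin n → ℂ) × ℂ → ℂ := fun i q => coordDeriv (sl F q.2) i q.1 with hg
  have hgan : ∀ i, AnalyticAt ℂ (g i) (0, 0) := fun i => analyticAt_pd hF.an i
  have hg0 : ∀ i, ∀ᶠ t in 𝓝 (0 : ℂ), g i (0, t) = 0 := by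
    intro i
    filter_upwards [hF.crit] with t ht
    exact ht i
  choose R hR hexp hsym using fun i => expand (hgan i) (hg0 i)
  have hsym' : ∀ i j k, R i j k (0, 0) + R i k j (0, 0) = H3 (sl F 0) i j k := hsym
  -- the rescaled gradient
  set N : (Fin n → ℂ) × ℂ → (Fin n → ℂ) := fun q i =>
    ∑ j, T i j q.2 * q.1 j + ∑ j, ∑ k, q.1 j * q.1 k * R i j k (q.2 ^ a • q.1, q.2) with hN
  have hsc : AnalyticAt ℂ (fun q : (Fin n → ℂ) × ℂ => ((q.2 ^ a • q.1, q.2) : (Fin n → ℂ) × ℂ))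
      (p, 0) := ((analyticAt_snd.pow a).smul analyticAt_fst).prod analyticAt_snd
  have hsc0 : ((0 : ℂ) ^ a • p, (0 : ℂ)) = ((0 : Fin n → ℂ), (0 : ℂ)) := by
    simp [zero_pow (by omega : a ≠ 0)]
  have hcoord : ∀ j, AnalyticAt ℂ (fun q : (Fin n → ℂ) × ℂ => q.1 j) (p, 0) := by
    intro j
    exact ((ContinuousLinearMap.proj (R := ℂ) (φ := fun _ : Fin n => ℂ) j).comp
      (ContinuousLinearMap.fst ℂ (Fin n → ℂ) ℂ)).analyticAt _
  have hNan : AnalyticAt ℂ N (p, 0) := by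
    refine AnalyticAt.pi fun i => ?_
    refine (Finset.analyticAt_fun_sum _ fun j _ => ?_).add
      (Finset.analyticAt_fun_sum _ fun j _ => Finset.analyticAt_fun_sum _ fun k _ => ?_)
    · refine AnalyticAt.mul ?_ (hcoord j)
      exact AnalyticAt.comp (g := T i j) (f := Prod.snd) (hT i j) analyticAt_snd
    · refine ((hcoord j).mul (hcoord k)).mul ?_
      refine AnalyticAt.comp (g := R i j k) ?_ hsc
      change AnalyticAt ℂ (R i j k) ((0 : ℂ) ^ a • p, (0 : ℂ))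
      rw [hsc0]
      exact hR i j k
  have hNx0 : ∀ x : Fin n → ℂ, N (x, 0) = fun i => ∑ j, T i j 0 * x j +
      ∑ j, ∑ k, x j * x k * R i j k (0, 0) := by
    intro x
    funext i
    simp only [hN]
    rw [zero_pow (by omega : a ≠ 0), zero_smul]
  have hquad : ∀ i (x y : Fin n → ℂ), ∑ j, ∑ k, (y j * x k + x j * y k) * R i j k (0, 0) =
      ∑ j, ∑ k, H3 (sl F 0) i j k * x j * y k := by
    intro i x y
    simp only [← hsym', add_mul, Finset.sum_add_distrib]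
    rw [add_comm]
    congr 1
    · exact Finset.sum_congr rfl fun j _ => Finset.sum_congr rfl fun k _ => by ring
    · rw [Finset.sum_comm]
      exact Finset.sum_congr rfl fun j _ => Finset.sum_congr rfl fun k _ => by ring
  have hN0 : N (p, 0) = 0 := by
    rw [hNx0]
    funext i
    have h1 := hp1 i
    rw [← hquad i p p] at h1
    have h2 : ∑ j, ∑ k, (p j * p k + p j * p k) * R i j k (0, 0) =
        2 * ∑ j, ∑ k, p j * p k * R i j k (0, 0) := by
      simp only [Finset.mul_sum]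
      exact Finset.sum_congr rfl fun j _ => Finset.sum_congr rfl fun k _ => by ring
    rw [h2] at h1
    simp only [Pi.zero_apply]
    linear_combination h1
  have hinj : ∀ u : Fin n → ℂ, fderiv ℂ N (p, 0) (u, 0) = 0 → u = 0 := by
    intro u hu
    apply hp2 u
    intro i
    rw [← hquad i p u]
    -- line derivative
    have h1 : HasDerivAt (fun s : ℂ => N (p + s • u, 0)) (fderiv ℂ N (p, 0) (u, 0)) 0 := by
      have h2 : HasDerivAt (fun s : ℂ => ((p + s • u, 0) : (Fin n → ℂ) × ℂ)) (u, 0) 0 := by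
        refine HasDerivAt.prodMk ?_ (hasDerivAt_const _ _)
        simpa using ((hasDerivAt_id (0 : ℂ)).smul_const u).const_add p
      have h3 : HasFDerivAt N (fderiv ℂ N (p, 0)) ((fun s : ℂ => ((p + s • u, 0) :
          (Fin n → ℂ) × ℂ)) 0) := by
        simpa using hNan.differentiableAt.hasFDerivAt
      exact h3.comp_hasDerivAt (f := fun s : ℂ => ((p + s • u, 0) : (Fin n → ℂ) × ℂ)) (0 : ℂ) h2
    rw [hu] at h1
    have h2 := (hasDerivAt_pi.1 h1) i
    have h3 : HasDerivAt (fun s : ℂ => ∑ j, T i j 0 * (p j + s * u j) +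
        ∑ j, ∑ k, (p j + s * u j) * (p k + s * u k) * R i j k (0, 0))
        (∑ j, T i j 0 * u j + ∑ j, ∑ k, (u j * p k + p j * u k) * R i j k (0, 0)) 0 := by
      have hl : ∀ j, HasDerivAt (fun s : ℂ => p j + s * u j) (u j) 0 := by
        intro j
        simpa using ((hasDerivAt_id (0 : ℂ)).mul_const (u j)).const_add (p j)
      refine HasDerivAt.add (HasDerivAt.fun_sum fun j _ => (hl j).const_mul _)
        (HasDerivAt.fun_sum fun j _ => HasDerivAt.fun_sum fun k _ => ?_)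
      have := ((hl j).mul (hl k)).mul_const (R i j k (0, 0))
      simpa using this
    have h4 : (fun s : ℂ => N (p + s • u, 0) i) = fun s : ℂ => ∑ j, T i j 0 * (p j + s * u j) +
        ∑ j, ∑ k, (p j + s * u j) * (p k + s * u k) * R i j k (0, 0) := by
      funext s
      rw [hNx0]
      simp
    rw [h4] at h2
    exact h3.unique h2
  -- zeros of `N` give critical points off the axis
  have hcont : Tendsto (fun q : (Fin n → ℂ) × ℂ => ((q.2 ^ a • q.1, q.2) : (Fin n → ℂ) × ℂ))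
      (𝓝 (p, 0)) (𝓝 (0, 0)) := by
    have := hsc.continuousAt.tendsto
    change Tendsto _ _ (𝓝 ((0 : ℂ) ^ a • p, (0 : ℂ))) at this
    rwa [hsc0] at this
  have hP : ∀ᶠ q in 𝓝 (p, (0 : ℂ)), q.1 ≠ 0 ∧
      ((∀ i, g i (q.2 ^ a • q.1, q.2) = 0) → q.2 ^ a • q.1 = 0) ∧
      (∀ i, g i (q.2 ^ a • q.1, q.2) = ∑ j, (q.2 ^ a • q.1) j * H2 (sl F q.2) i j +
        ∑ j, ∑ k, (q.2 ^ a • q.1) j * (q.2 ^ a • q.1) k * R i j k (q.2 ^ a • q.1, q.2)) ∧
      ∀ i j, H2 (sl F q.2) i j = q.2 ^ a * T i j q.2 := by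
    have e1 : ∀ᶠ q in 𝓝 (p, (0 : ℂ)), q.1 ≠ 0 := by
      have : Tendsto (fun q : (Fin n → ℂ) × ℂ => q.1) (𝓝 (p, (0 : ℂ))) (𝓝 p) :=
        continuous_fst.tendsto _
      exact this.eventually_ne hp
    have e2 := hcont.eventually hF.iso
    have e3 := hcont.eventually (eventually_all.2 hexp)
    have e4 : ∀ᶠ q in 𝓝 (p, (0 : ℂ)), ∀ i j, H2 (sl F q.2) i j = q.2 ^ a * T i j q.2 := by
      have : Tendsto (fun q : (Fin n → ℂ) × ℂ => q.2) (𝓝 (p, (0 : ℂ))) (𝓝 0) :=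
        continuous_snd.tendsto _
      exact this.eventually hTa
    filter_upwards [e1, e2, e3, e4] with q h1 h2 h3 h4
    exact ⟨h1, h2, h3, h4⟩
  have hz := zeros_near hNan hN0 hinj hP
  obtain ⟨t, ⟨x, ⟨hx0, hiso, hgx, hH⟩, hNz⟩, ht⟩ :=
    ((hz.filter_mono nhdsWithin_le_nhds).and self_mem_nhdsWithin).exists (f := 𝓝[≠] (0 : ℂ))
  have ht0 : t ≠ 0 := ht
  have hcrit : ∀ i, g i (t ^ a • x, t) = 0 := by
    intro i
    rw [hgx i]
    have e1 : ∑ j, T i j t * x j + ∑ j, ∑ k, x j * x k * R i j k (t ^ a • x, t) = 0 :=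
      congrFun hNz i
    have e2 : ∑ j, (t ^ a • x) j * H2 (sl F t) i j +
        ∑ j, ∑ k, (t ^ a • x) j * (t ^ a • x) k * R i j k (t ^ a • x, t) =
        t ^ a * t ^ a * (∑ j, T i j t * x j +
          ∑ j, ∑ k, x j * x k * R i j k (t ^ a • x, t)) := by
      rw [mul_add, Finset.mul_sum, Finset.mul_sum]
      congr 1
      · refine Finset.sum_congr rfl fun j _ => ?_
        have := hH i j
        simp only at this
        rw [this, Pi.smul_apply, smul_eq_mul]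
        ring
      · refine Finset.sum_congr rfl fun j _ => ?_
        rw [Finset.mul_sum]
        refine Finset.sum_congr rfl fun k _ => ?_
        rw [Pi.smul_apply, Pi.smul_apply, smul_eq_mul, smul_eq_mul]
        ring
    rw [e2, e1, mul_zero]
  have h0 := hiso hcrit
  rcases smul_eq_zero.1 h0 with h | h
  · exact ht0 (pow_eq_zero_iff (by omega : a ≠ 0) |>.1 h)
  · exact hx0 h

end Crest.Agent.R257.Line_648
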