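import Crest.Agent.R257.Line2_648

/-!
R257 / Line3_648: `LineStmt` of `LCDefs_472`: the nodal cubic with all nodes on the line `l = 0`.
-/

set_option autoImplicit false

open Topology Filter Set
open Crest.AlgGeometry.Germ

noncomputable section

namespace Crest.Agent.R257.Line_648

open Crest.Agent.R257.Defs_219 Crest.Agent.R257.LCDefs_472 Crest.Agent.R257.Skel_219

/-- symmetric trilinear forms (as functions) -/
structure Tri (T : E3 → E3 → E3 → ℂ) : Prop where
  add : ∀ u u' v w, T (u + u') v w = T u v w + T u' v w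
  smul : ∀ (c : ℂ) u v w, T (c • u) v w = c * T u v w
  s12 : ∀ u v w, T u v w = T v u w
  s23 : ∀ u v w, T u v w = T u w v

namespace Tri

variable {T : E3 → E3 → E3 → ℂ} (h : Tri T)
include h

lemma add2 (u v v' w : E3) : T u (v + v') w = T u v w + T u v' w := by
  rw [h.s12, h.add, h.s12 v, h.s12 v']

lemma smul2 (c : ℂ) (u v w : E3) : T u (c • v) w = c * T u v w := by
  rw [h.s12, h.smul, h.s12 v]

lemma add3 (u v w w' : E3) : T u v (w + w') = T u v w + T u v w' := by
  rw [h.s23, h.add2, h.s23 u w, h.s23 u w']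

lemma smul3 (c : ℂ) (u v w : E3) : T u v (c • w) = c * T u v w := by
  rw [h.s23, h.smul2, h.s23 u w]

end Tri

/-- a nonzero linear form on `ℂ³` and a nonzero vector of its kernel: adapted basis -/
lemma exists_am (L : E3 →ₗ[ℂ] ℂ) (hL : L ≠ 0) (e : E3) :
    (∃ a, L a = 1) ∧ ∃ m, L m = 0 ∧ ∀ c : ℂ, m ≠ c • e := by
  constructor
  · obtain ⟨x, hx⟩ : ∃ x, L x ≠ 0 := by
      by_contra hc
      push Not at hc
      exact hL (LinearMap.ext hc)
    exact ⟨(L x)⁻¹ • x, by rw [map_smul, smul_eq_mul, inv_mul_cancel₀ hx]⟩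
  · by_contra hc
    push Not at hc
    have h1 : LinearMap.ker L ≤ Submodule.span ℂ {e} := by
      intro m hm
      obtain ⟨c, rfl⟩ := hc m hm
      exact Submodule.smul_mem _ _ (Submodule.mem_span_singleton_self e)
    have h2 := Submodule.finrank_mono h1
    have h3 := LinearMap.finrank_range_add_finrank_ker L
    have h4 : Module.finrank ℂ (LinearMap.range L) ≤ 1 := by
      have := Submodule.finrank_le (LinearMap.range L)
      simpa using this
    have h5 : Module.finrank ℂ (Submodule.span ℂ {e}) ≤ 1 := by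
      have := finrank_span_le_card (R := ℂ) ({e} : Set E3)
      simpa using this
    have h6 : Module.finrank ℂ E3 = 3 := by simp [E3]
    omega

lemma span3 (L : E3 →ₗ[ℂ] ℂ) {e f m : E3} (he : e ≠ 0) (hLe : L e = 0) (hLf : L f = 1)
    (hLm : L m = 0) (hm : ∀ c : ℂ, m ≠ c • e) (x : E3) :
    ∃ α β γ : ℂ, x = α • e + β • f + γ • m := by
  have hli : LinearIndependent ℂ ![e, f, m] := by
    rw [Fintype.linearIndependent_iff]
    intro g hg
    rw [Fin.sum_univ_three] at hg
    simp only [Matrix.cons_val_zero, Matrix.cons_val_one, Matrix.cons_val] at hg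
    have h1 : g 1 = 0 := by
      have := congrArg L hg
      simpa [hLe, hLf, hLm] using this
    rw [h1, zero_smul, add_zero] at hg
    have h2 : g 2 = 0 := by
      by_contra hc
      apply hm (-(g 2)⁻¹ * g 0)
      have h3 : g 2 • m = -(g 0 • e) := by
        rw [eq_neg_iff_add_eq_zero, add_comm]; exact hg
      rw [neg_mul, neg_smul, mul_smul, ← smul_neg, ← h3, smul_smul, inv_mul_cancel₀ hc, one_smul]
    rw [h2, zero_smul, add_zero] at hg
    have h0 : g 0 = 0 := (smul_eq_zero.1 hg).resolve_right he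
    intro i
    fin_cases i
    · exact h0
    · exact h1
    · exact h2
  have hcard : Fintype.card (Fin 3) = Module.finrank ℂ E3 := by simp [E3]
  set b := basisOfLinearIndependentOfCardEqFinrank hli hcard with hb
  refine ⟨b.repr x 0, b.repr x 1, b.repr x 2, ?_⟩
  have h := b.sum_repr x
  rw [Fin.sum_univ_three] at h
  have hbc : ⇑b = ![e, f, m] := coe_basisOfLinearIndependentOfCardEqFinrank hli hcard
  rw [hbc] at h
  simpa using h.symm

/-- the explicit nondegenerate critical point of `½ L² + T/6` -/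
theorem alg {T : E3 → E3 → E3 → ℂ} (h : Tri T) (L : E3 →ₗ[ℂ] ℂ) (hL : L ≠ 0)
    (nodal : ∀ v u : E3, v ≠ 0 → (∀ w, T v v w = 0) → (∀ w, T v u w = 0) → ∃ c : ℂ, u = c • v)
    (hl : ∀ v : E3, v ≠ 0 → (∀ w, T v v w = 0) → L v = 0)
    {e : E3} (he : e ≠ 0) (hee : ∀ w, T e e w = 0) :
    ∃ p : E3, p ≠ 0 ∧ (∀ w, L p * L w + (1 / 2) * T p p w = 0) ∧
      ∀ u, (∀ w, L u * L w + T p u w = 0) → u = 0 := by
  have hLe : L e = 0 := hl e he hee
  obtain ⟨⟨a, ha⟩, m₀, hm₀, hm₀e⟩ := exists_am L hL e
  -- an isotropic vector `f` with `L f = 1`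
  obtain ⟨s, hs⟩ : ∃ s : ℂ, T e (a + s • m₀) (a + s • m₀) = 0 := by
    have hexp : ∀ s : ℂ, T e (a + s • m₀) (a + s • m₀) =
        T e m₀ m₀ * (s * s) + (2 * T e a m₀) * s + T e a a := by
      intro s
      rw [h.add2, h.add3, h.add3, h.smul2, h.smul2, h.smul3, h.smul3, h.s23 e m₀ a]
      ring
    by_cases hmm : T e m₀ m₀ = 0
    · have ham : T e a m₀ ≠ 0 := by
        intro h0
        obtain ⟨c, hc⟩ := nodal e m₀ he hee (fun w => by
          obtain ⟨α, β, γ, rfl⟩ := span3 L he hLe ha hm₀ hm₀e w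
          rw [h.add3, h.add3, h.smul3, h.smul3, h.smul3, hmm, h.s23 e m₀ e, hee,
            h.s23 e m₀ a, h0]
          ring)
        exact hm₀e c hc
      refine ⟨-(T e a a) / (2 * T e a m₀), ?_⟩
      rw [hexp, hmm]
      field_simp
      ring
    · obtain ⟨s, hs⟩ := exists_quadratic_eq_zero (a := T e m₀ m₀) (b := 2 * T e a m₀)
        (c := T e a a) hmm (IsAlgClosed.exists_eq_mul_self _)
      exact ⟨s, by rw [hexp]; exact hs⟩
  obtain ⟨f₁, hf₁⟩ : ∃ f₁, f₁ = a + s • m₀ := ⟨_, rfl⟩
  rw [← hf₁] at hs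
  have hLf₁ : L f₁ = 1 := by rw [hf₁, map_add, map_smul, hm₀, ha]; simp
  have hem₀ : T e f₁ m₀ ≠ 0 := by
    intro h0
    obtain ⟨c, hc⟩ := nodal e f₁ he hee (fun w => by
      obtain ⟨α, β, γ, rfl⟩ := span3 L he hLe hLf₁ hm₀ hm₀e w
      rw [h.add3, h.add3, h.smul3, h.smul3, h.smul3, hs, h0, h.s23 e f₁ e, hee]
      ring)
    rw [hc, map_smul, hLe, smul_zero] at hLf₁
    exact zero_ne_one hLf₁
  obtain ⟨m, hm⟩ : ∃ m, m = (T e f₁ m₀)⁻¹ • m₀ := ⟨_, rfl⟩
  have hefm₁ : T e f₁ m = 1 := by rw [hm, h.smul3, inv_mul_cancel₀ hem₀]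
  have hLm : L m = 0 := by rw [hm, map_smul, hm₀, smul_zero]
  obtain ⟨f, hf⟩ : ∃ f, f = f₁ + (-(T f₁ f₁ m) / 2) • e := ⟨_, rfl⟩
  have hLf : L f = 1 := by rw [hf, map_add, map_smul, hLe, hLf₁]; simp
  have hf0 : f ≠ 0 := by
    rintro h0
    rw [h0, map_zero] at hLf
    exact zero_ne_one hLf
  have hefm : T e f m = 1 := by
    rw [hf, h.add2, h.smul2, hee, hefm₁]; ring
  have heff : T e f f = 0 := by
    rw [hf, h.add2, h.add3, h.smul2, h.smul3, hee, hs, h.s23 e f₁ e, hee]; ring
  have hffm : T f f m = 0 := by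
    rw [hf, h.add, h.add2, h.add2, h.smul, h.smul, h.smul2, h.smul2, hee, h.s12 f₁ e m, hefm₁]
    ring
  have hm_e : ∀ c : ℂ, m ≠ c • e := by
    intro c hc
    rw [hc, h.smul3, h.s23 e f e, hee, mul_zero] at hefm
    exact zero_ne_one hefm
  have hγ : T f f f ≠ 0 := by
    intro h0
    have h1 := hl f hf0 (fun w => by
      obtain ⟨α, β, γ, rfl⟩ := span3 L he hLe hLf hLm hm_e w
      rw [h.add3, h.add3, h.smul3, h.smul3, h.smul3, hffm, h0, h.s23 f f e, h.s12 f e f, heff]
      ring)
    rw [h1] at hLf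
    exact zero_ne_one hLf
  have hffe : T f f e = 0 := by rw [h.s23 f f e, h.s12 f e f, heff]
  obtain ⟨y, hy⟩ : ∃ y : ℂ, y = -2 / T f f f := ⟨_, rfl⟩
  have hy0 : y ≠ 0 := by rw [hy]; exact div_ne_zero (by norm_num) hγ
  have hyγ : y * T f f f = -2 := by rw [hy]; field_simp
  refine ⟨y • f, smul_ne_zero hy0 hf0, ?_, ?_⟩
  · intro w
    obtain ⟨α, β, γ, rfl⟩ := span3 L he hLe hLf hLm hm_e w
    rw [h.add3, h.add3, h.smul3, h.smul3, h.smul3, h.smul, h.smul, h.smul, h.smul2, h.smul2,
      h.smul2, hffm, hffe, map_add, map_add, map_smul, map_smul, map_smul, map_smul, hLe, hLf,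
      hLm]
    simp only [smul_eq_mul]
    linear_combination (β * y / 2) * hyγ
  · intro u hu
    obtain ⟨α, β, δ, rfl⟩ := span3 L he hLe hLf hLm hm_e u
    have hLu : L (α • e + β • f + δ • m) = β := by
      rw [map_add, map_add, map_smul, map_smul, map_smul, hLe, hLf, hLm]; simp
    have key : ∀ w, T (y • f) (α • e + β • f + δ • m) w =
        y * (α * T f e w + β * T f f w + δ * T f m w) := by
      intro w
      rw [h.smul, h.add2, h.add2, h.smul2, h.smul2, h.smul2]
    have e1 := hu e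
    have e2 := hu f
    have e3 := hu m
    rw [hLu, key] at e1 e2 e3
    have k1 : T f e e = 0 := by rw [h.s12, h.s23, hee]
    have k2 : T f m e = 1 := by rw [h.s23, h.s12, hefm]
    have k3 : T f e f = 0 := by rw [h.s12, heff]
    have k4 : T f m f = 0 := by rw [h.s23, hffm]
    have k5 : T f e m = 1 := by rw [h.s12, hefm]
    rw [hLe, k1, hffe, k2] at e1
    rw [hLf, k3, k4] at e2
    rw [hLm, k5, hffm] at e3
    have hδ : δ = 0 := by
      have : y * δ = 0 := by linear_combination e1
      exact (mul_eq_zero.1 this).resolve_left hy0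
    have hβ : β = 0 := by linear_combination β * hyγ - e2
    have hα : α = 0 := by
      rw [hδ] at e3
      have : y * α = 0 := by linear_combination e3
      exact (mul_eq_zero.1 this).resolve_left hy0
    rw [hα, hβ, hδ]
    simp

/-- `D3 f` is a symmetric trilinear form -/
theorem tri_D3 {f : E3 → ℂ} (hf : AnalyticAt ℂ f 0) : Tri (D3 f) where
  add u u' v w := by
    simp only [D3, Pi.add_apply, ← Finset.sum_add_distrib]
    refine Finset.sum_congr rfl fun i _ => Finset.sum_congr rfl fun j _ =>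
      Finset.sum_congr rfl fun k _ => by ring
  smul c u v w := by
    simp only [D3, Pi.smul_apply, smul_eq_mul, Finset.mul_sum]
    refine Finset.sum_congr rfl fun i _ => Finset.sum_congr rfl fun j _ =>
      Finset.sum_congr rfl fun k _ => by ring
  s12 u v w := by
    simp only [D3]
    rw [Finset.sum_comm]
    refine Finset.sum_congr rfl fun i _ => Finset.sum_congr rfl fun j _ =>
      Finset.sum_congr rfl fun k _ => ?_
    rw [H3_symm12 hf j i k]
    ring
  s23 u v w := by
    simp only [D3]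
    refine Finset.sum_congr rfl fun i _ => ?_
    rw [Finset.sum_comm]
    refine Finset.sum_congr rfl fun j _ => Finset.sum_congr rfl fun k _ => ?_
    rw [H3_symm23 hf i k j]
    ring

theorem lineStmt : LineStmt := by
  intro F μ hF hH2 hnod a T hT hTa l hl0 hTl hline hex
  obtain ⟨e, he, hee⟩ := hex
  have hf : AnalyticAt ℂ (sl F 0) 0 := analyticAt_sl hF.an
  have htri := tri_D3 hf
  obtain ⟨i₀, hi₀⟩ := hl0
  -- `a ≥ 1`
  have ha : 1 ≤ a := by
    by_contra hc
    have ha0 : a = 0 := by omega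
    have h1 := hTa.self_of_nhds i₀ i₀
    rw [hH2, ha0, pow_zero, one_mul, hTl] at h1
    exact hi₀ (by simpa using h1.symm)
  -- the linear form
  set L : E3 →ₗ[ℂ] ℂ :=
    { toFun := fun v => ∑ i, l i * v i
      map_add' := fun v w => by
        simp only [Pi.add_apply, mul_add, Finset.sum_add_distrib]
      map_smul' := fun c v => by
        simp only [Pi.smul_apply, smul_eq_mul, RingHom.id_apply, Finset.mul_sum]
        exact Finset.sum_congr rfl fun i _ => by ring } with hLdef
  have hLapp : ∀ v, L v = ∑ i, l i * v i := fun v => rfl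
  have hLs : ∀ i, L (Pi.single i 1) = l i := by
    intro i
    rw [hLapp, Finset.sum_eq_single i]
    · simp
    · intro b _ hb
      simp [Pi.single_eq_of_ne hb]
    · intro h; exact absurd (Finset.mem_univ i) h
  have hL : L ≠ 0 := by
    intro h0
    have := hLs i₀
    rw [h0] at this
    exact hi₀ (by simpa using this.symm)
  obtain ⟨p, hp, hp1, hp2⟩ := alg htri L hL hnod hline he hee
  have hDs : ∀ i u v, ∑ j, ∑ k, H3 (sl F 0) i j k * u j * v k = D3 (sl F 0) u v (Pi.single i 1) := by
    intro i u v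
    rw [htri.s23, htri.s12]
    have : D3 (sl F 0) (Pi.single i 1) u v = ∑ j, ∑ k, H3 (sl F 0) i j k * u j * v k := by
      unfold D3
      rw [Finset.sum_eq_single i]
      · simp
      · intro b _ hb
        simp [Pi.single_eq_of_ne hb]
      · intro h; exact absurd (Finset.mem_univ i) h
    rw [this]
  have hTs : ∀ i u, ∑ j, T i j 0 * u j = L u * l i := by
    intro i u
    rw [hLapp, Finset.sum_mul]
    exact Finset.sum_congr rfl fun j _ => by rw [hTl]; ring
  refine crit_scale hF ha hT hTa hp (fun i => ?_) (fun u hu => ?_)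
  · rw [hTs, hDs]
    have := hp1 (Pi.single i 1)
    rwa [hLs] at this
  · apply hp2
    intro w
    have hw : w = ∑ i, w i • (Pi.single i 1 : E3) := by
      funext j
      simp [Finset.sum_apply, Pi.single_apply]
    have h1 : D3 (sl F 0) p u w = ∑ i, w i * D3 (sl F 0) p u (Pi.single i 1) := by
      simp only [← hDs]
      rw [htri.s23, htri.s12]
      simp only [D3, Finset.mul_sum]
      refine Finset.sum_congr rfl fun i _ => Finset.sum_congr rfl fun j _ =>
        Finset.sum_congr rfl fun k _ => by ring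
    rw [h1, hLapp w, Finset.mul_sum, ← Finset.sum_add_distrib]
    refine Finset.sum_eq_zero fun i _ => ?_
    have h2 := hu i
    rw [hTs, hDs] at h2
    linear_combination w i * h2

end Crest.Agent.R257.Line_648
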