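import Crest.Agent.R257.LossA_625
import Crest.Agent.R257.Bridge_822
import Crest.Agent.R257.Cmp1_101

/-!
# R257 (S0395), task GB-LOSS (helper625): test functions on a level

* `Cs f r a`    : `a` vanishes near `0` and near the sphere, on the level
* `stk3`        : Stokes `∫ a ∂∂̄b∧∂∂̄c = ∫ c ∂∂̄a∧∂∂̄b`, `c` with compact support on the level
* `Tst f r ν a` : test functions (`Cs` functions, cut-offs); `tst_cs`, `tst_cut`
* `Tst.jay`     : `∫ -L(∂∂̄u + ∂∂̄L)∧∂∂̄θ` in terms of `D = L - φ`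
-/

set_option autoImplicit false
set_option linter.unusedSectionVars false

open Topology Filter MeasureTheory Set
open scoped ENNReal ContDiff Matrix ComplexOrder

noncomputable section

namespace Crest.Agent.R257.LossB_625

open Crest.Agent.R275.Geo
open Crest.Agent.R273.StokesV_332
open Crest.Agent.R273.Kah_333 (hsf)
open Crest.Agent.R257.Defs_219
open Crest.Agent.R257.KED_952
open Crest.Agent.R257.V1Defs_822
open Crest.Agent.R257.V1Pe_822
open Crest.Agent.R257.V1Top_822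
open Crest.Agent.R257.V1W_822 Crest.Agent.R257.UpK_938
open Crest.Agent.R257.Bridge_822
open Crest.Agent.R257.LossA_625
open Crest.Agent.R273.Defs_333 (lev)
open Crest.Agent.R273.YauDefs_635 (cH)
open Crest.Agent.R257.PN_835 (nsq)
open Crest.Agent.R257.Aff_835 (eta2a nga)
open Crest.Agent.R257.C2F1_625 (pd)

variable {f : E3 → ℂ} {r : ℝ} {ν : Measure E3}

/-- forms -/
abbrev F2 : Type := LossA_625.Frm

/-- `a` vanishes near `0` and near the sphere, on the level -/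
def Cs (f : E3 → ℂ) (r : ℝ) (a : E3 → ℝ) : Prop :=
  ∃ r₁ r₂ : ℝ, 0 < r₁ ∧ 0 ≤ r₂ ∧ r₂ < r ∧
    ∀ x ∈ Lv f r, nsq x < r₁ ^ 2 ∨ r₂ ^ 2 < nsq x → a x = 0

/-- points of the surface -/
theorem val_lv (hf : LvlOK f 0 r) (x : (LX hf).M 0) : x.1 ∈ Lv f r := mem_M hf x

/-- off the support -/
theorem off_ev {a : E3 → ℝ} {r₁ r₂ : ℝ}
    (h0 : ∀ x ∈ Lv f r, nsq x < r₁ ^ 2 ∨ r₂ ^ 2 < nsq x → a x = 0) {x : E3}
    (hx : nsq x < r₁ ^ 2 ∨ r₂ ^ 2 < nsq x) :
    ∀ θ O, PE f 0 r θ O → ∀ z ∈ O, θ z = x → ∀ᶠ y in 𝓝 z, a (θ y) = 0 := by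
  intro θ O hP z hz hzx
  have h1 : ∀ᶠ y in 𝓝 x, nsq y < r₁ ^ 2 ∨ r₂ ^ 2 < nsq y := by
    rcases hx with h | h
    · filter_upwards [continuous_nsq3.continuousAt.eventually_lt continuousAt_const h] with y hy
      exact Or.inl hy
    · filter_upwards [continuousAt_const.eventually_lt continuous_nsq3.continuousAt h] with y hy
      exact Or.inr hy
  filter_upwards [ev_pe h1 hP hz hzx, hP.par.isOpen.mem_nhds hz] with y hy hyO
  exact h0 _ (pe_lv hP hyO) hy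

theorem smL_one : SmL f 0 r fun _ => (1 : ℝ) := fun _ _ _ => contDiffOn_const

theorem smL_const (c : ℝ) : SmL f 0 r fun _ => c := fun _ _ _ => contDiffOn_const

theorem smL_add {a b : E3 → ℝ} (ha : SmL f 0 r a) (hb : SmL f 0 r b) :
    SmL f 0 r fun x => a x + b x := fun θ O h => (ha θ O h).add (hb θ O h)

theorem smL_mul {a b : E3 → ℝ} (ha : SmL f 0 r a) (hb : SmL f 0 r b) :
    SmL f 0 r fun x => a x * b x := fun θ O h => (ha θ O h).mul (hb θ O h)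

theorem smL_smul {a : E3 → ℝ} (c : ℝ) (ha : SmL f 0 r a) : SmL f 0 r fun x => c * a x :=
  smL_mul (smL_const c) ha

theorem smL_comp {g : ℝ → ℝ} (hg : ContDiff ℝ ∞ g) {a : E3 → ℝ} (ha : SmL f 0 r a) :
    SmL f 0 r fun x => g (a x) := fun θ O h => hg.comp_contDiffOn (ha θ O h)

theorem smL_amb {ξ : E3 → ℝ} (hξ : ContDiff ℝ ∞ ξ) : SmL f 0 r ξ := by
  intro θ O hθ
  have h2 : ContDiffOn ℝ ∞ θ O :=
    ((Crest.Agent.R266.SCV.contDiffOn_omega_of_differentiableOn hθ.par.isOpen hθ.par.hol).of_le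
      (show (∞ : WithTop ℕ∞) ≤ ω from le_top)).restrict_scalars ℝ
  exact hξ.comp_contDiffOn h2

/-- **Stokes** -/
theorem stk3 (hf : LvlOK f 0 r) (hν : IsNu f 0 r ν) {a b c : E3 → ℝ} (ha : SmL f 0 r a)
    (hb : SmL f 0 r b) (hc : SmL f 0 r c) (h : Cs f r c) :
    Integrable (fun x => a x * mxd f b c x) ν ∧ Integrable (fun x => c x * mxd f a b x) ν ∧
    ∫ x, a x * mxd f b c x ∂ν = ∫ x, c x * mxd f a b x ∂ν := by
  obtain ⟨r₁, r₂, h1, h2, h3, h0⟩ := h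
  set K : Set ((LX hf).M 0) := {x | r₁ ^ 2 ≤ nsq x.1 ∧ nsq x.1 ≤ r₂ ^ 2} with hKd
  have hK : IsCompact K := ann_compact hf h1 h2 h3
  have hoff : ∀ x : (LX hf).M 0, x ∉ K → nsq x.1 < r₁ ^ 2 ∨ r₂ ^ 2 < nsq x.1 := by
    intro x hx
    by_contra hcon
    push Not at hcon
    exact hx hcon
  have z1 : ∀ x : (LX hf).M 0, x ∉ K → mxd f b c x.1 = 0 := fun x hx => by
    rw [mxd_comm hf (val_lv hf x).2.1 (val_lv hf x).2.2 (val_lv hf x).1]
    exact fx_const hf (val_lv hf x) (off_ev h0 (hoff x hx))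
  have P := (LX hf).part 0
  have c1 : Continuous fun x : (LX hf).M 0 => a x.1 * mxd f b c x.1 :=
    (cont_val hf fun θ O hθ => (ha θ O hθ).continuousOn).mul (cont_mxd hf hb hc)
  have c2 : Continuous fun x : (LX hf).M 0 => c x.1 * mxd f a b x.1 :=
    (cont_val hf fun θ O hθ => (hc θ O hθ).continuousOn).mul (cont_mxd hf ha hb)
  obtain ⟨i1, e1⟩ := bridge hf hν (φ := a) hb hc P hK c1 fun x hx => by rw [z1 x hx, mul_zero]
  have hc0 : ∀ x : (LX hf).M 0, x ∉ K → c x.1 = 0 := fun x hx => h0 _ (val_lv hf x) (hoff x hx)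
  obtain ⟨i2, e2⟩ := bridge hf hν (φ := c) ha hb P hK c2 fun x hx => by rw [hc0 x hx, zero_mul]
  refine ⟨i1, i2, ?_⟩
  have e3 := Cmp1_101.stokes_pd P (sm_val hf hc) (sm_val hf ha) (sm_val hf hb) hK hc0
  have e4 : intD P (fun i x => (a x.1 : ℂ) * pd (hsf ((LX hf).A 0) (fun x => c x.1) i x)
        (hsf ((LX hf).A 0) (fun x => b x.1) i x)) =
      intD P (fun i x => (a x.1 : ℂ) * pd (hsf ((LX hf).A 0) (fun x => b x.1) i x)
        (hsf ((LX hf).A 0) (fun x => c x.1) i x)) :=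
    intD_congr P fun i x _ => by rw [C2F1_625.pd_comm]
  rw [e4] at e3
  have e5 : ((∫ x, a x * mxd f b c x ∂ν : ℝ) : ℂ) = ((∫ x, c x * mxd f a b x ∂ν : ℝ) : ℂ) := by
    rw [e1, e2, e3]
  exact_mod_cast e5


/-! ### cut-offs -/

/-- radii of a cut-off -/
structure Sh (r : ℝ) (χ : E3 → ℝ) (r₁ r₂ : ℝ) : Prop where
  p1 : 0 < r₁
  p2 : 0 ≤ r₂
  lt : r₂ < r
  one : ∀ x, nsq x < r₁ ^ 2 → ∀ᶠ y in 𝓝 x, χ y = 1
  zero : ∀ x, r₂ ^ 2 < nsq x → ∀ᶠ y in 𝓝 x, χ y = 0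

theorem exists_sh {χ : E3 → ℝ} (h : Cut r χ) : ∃ r₁ r₂, Sh r χ r₁ r₂ := by
  obtain ⟨ρ, h1, h2, h3⟩ := h.supp
  obtain ⟨ε, hε, h4⟩ := Metric.eventually_nhds_iff_ball.1 h.one
  have h5 : ∀ x : E3, nsq x < ε ^ 2 → x ∈ Metric.ball (0 : E3) ε := by
    intro x hx
    rw [mem_ball_zero_iff, pi_norm_lt_iff hε]
    intro k
    have h6 := (Crest.Agent.R257.PN_835.sq_le_nsq x k).trans_lt hx
    exact lt_of_pow_lt_pow_left₀ 2 hε.le h6
  refine ⟨ε, ρ, hε, h1.le, h2, fun x hx => ?_, fun x hx => ?_⟩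
  · filter_upwards [continuous_nsq3.continuousAt.eventually_lt continuousAt_const hx] with y hy
    exact h4 y (h5 y hy)
  · filter_upwards [continuousAt_const.eventually_lt continuous_nsq3.continuousAt hx] with y hy
    exact h3 y hy.le

/-- cut-off of an annulus -/
theorem exists_xi {r₁ r₂ : ℝ} (h1 : 0 < r₁) (h2 : 0 ≤ r₂) (h3 : r₂ < r) :
    ∃ ξ : E3 → ℝ, ContDiff ℝ ∞ ξ ∧ (∀ x, 0 ≤ ξ x) ∧ (∀ x, ξ x ≤ 1) ∧
      (∀ x, r₁ ^ 2 ≤ nsq x → nsq x ≤ r₂ ^ 2 → ∀ᶠ y in 𝓝 x, ξ y = 1) ∧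
      ∃ a b : ℝ, 0 < a ∧ 0 ≤ b ∧ b < r ∧ ∀ x, nsq x < a ^ 2 ∨ b ^ 2 < nsq x → ξ x = 0 := by
  set b := (r₂ + 2 * r) / 3 with hb
  set b' := (2 * r₂ + r) / 3 with hb'
  have hb0 : 0 < b' := by rw [hb']; linarith
  have hbb : b' < b := by rw [hb, hb']; linarith
  have hrb : r₂ < b' := by rw [hb']; linarith
  have hbr : b < r := by rw [hb]; linarith
  have hsq : b' ^ 2 < b ^ 2 := pow_lt_pow_left₀ hbb hb0.le two_ne_zero
  have hsq2 : r₂ ^ 2 < b' ^ 2 := pow_lt_pow_left₀ hrb h2 two_ne_zero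
  refine ⟨fun x => Real.smoothTransition ((nsq x - r₁ ^ 2 / 4) * (4 / r₁ ^ 2)) *
    Real.smoothTransition ((b ^ 2 - nsq x) / (b ^ 2 - b' ^ 2)), ?_, fun x => ?_, fun x => ?_,
    fun x hx hx2 => ?_, r₁ / 2, b, by positivity, hb0.le.trans hbb.le, hbr, fun x hx => ?_⟩
  · exact (Real.smoothTransition.contDiff.comp
      ((contDiff_nsq.sub contDiff_const).mul contDiff_const)).mul
      (Real.smoothTransition.contDiff.comp ((contDiff_const.sub contDiff_nsq).div_const _))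
  · exact mul_nonneg (Real.smoothTransition.nonneg _) (Real.smoothTransition.nonneg _)
  · exact mul_le_one₀ (Real.smoothTransition.le_one _) (Real.smoothTransition.nonneg _)
      (Real.smoothTransition.le_one _)
  · have e1 : ∀ᶠ y in 𝓝 x, r₁ ^ 2 / 2 < nsq y :=
      continuousAt_const.eventually_lt continuous_nsq3.continuousAt (by nlinarith)
    have e2 : ∀ᶠ y in 𝓝 x, nsq y < b' ^ 2 :=
      continuous_nsq3.continuousAt.eventually_lt continuousAt_const (by linarith)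
    filter_upwards [e1, e2] with y hy1 hy2
    rw [Real.smoothTransition.one_of_one_le, Real.smoothTransition.one_of_one_le, one_mul]
    · rw [one_le_div (by linarith)]
      linarith
    · have h4 : (r₁ ^ 2 / 4) * (4 / r₁ ^ 2) = 1 := by field_simp
      have h5 : 0 < 4 / r₁ ^ 2 := by positivity
      nlinarith
  · rcases hx with hx | hx
    · have h6 : (nsq x - r₁ ^ 2 / 4) * (4 / r₁ ^ 2) ≤ 0 :=
        mul_nonpos_of_nonpos_of_nonneg (by nlinarith) (by positivity)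
      show _ * _ = 0
      rw [Real.smoothTransition.zero_of_nonpos h6, zero_mul]
    · have h6 : (b ^ 2 - nsq x) / (b ^ 2 - b' ^ 2) ≤ 0 :=
        div_nonpos_of_nonpos_of_nonneg (by linarith) (by linarith)
      show _ * _ = 0
      rw [Real.smoothTransition.zero_of_nonpos h6, mul_zero]

/-! ### test functions -/

/-- test functions -/
structure Tst (f : E3 → ℂ) (r : ℝ) (ν : Measure E3) (t : E3 → ℝ) : Prop where
  sm : SmL f 0 r t
  int : ∀ b c, SmL f 0 r b → SmL f 0 r c → Integrable (fun x => b x * mxd f c t x) ν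
  sym : ∀ b c, SmL f 0 r b → SmL f 0 r c →
    ∫ x, b x * mxd f c t x ∂ν = ∫ x, c x * mxd f b t x ∂ν

theorem ae_lv (hν : IsNu f 0 r ν) {p : E3 → Prop} (hp : ∀ x ∈ Lv f r, p x) : ∀ᵐ x ∂ν, p x :=
  isNu_ae hν fun x h1 h2 h3 => hp x ⟨h3, h1, h2⟩

theorem comm_lv (hf : LvlOK f 0 r) {a b : E3 → ℝ} {x : E3} (hx : x ∈ Lv f r) :
    mxd f a b x = mxd f b a x := mxd_comm hf hx.2.1 hx.2.2 hx.1

theorem tst_cs (hf : LvlOK f 0 r) (hν : IsNu f 0 r ν) {t : E3 → ℝ} (ht : SmL f 0 r t)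
    (h : Cs f r t) : Tst f r ν t := by
  refine ⟨ht, fun b c hb hc => (stk3 hf hν hb hc ht h).1, fun b c hb hc => ?_⟩
  rw [(stk3 hf hν hb hc ht h).2.2, (stk3 hf hν hc hb ht h).2.2]
  exact integral_congr_ae (ae_lv hν fun x hx => by
    show t x * _ = t x * _
    rw [comm_lv hf hx])

/-- `∂∂̄` of a cut-off -/
theorem Sh.fx_zero {χ : E3 → ℝ} {r₁ r₂ : ℝ} (hS : Sh r χ r₁ r₂) (hf : LvlOK f 0 r) {S : F2}
    {x : E3} (hx : x ∈ Lv f r) (h : nsq x < r₁ ^ 2 ∨ r₂ ^ 2 < nsq x) : fx f S χ x = 0 := by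
  rcases h with h | h
  · exact fx_const hf hx fun θ O hP z hz hzx => ev_pe (hS.one x h) hP hz hzx
  · exact fx_const hf hx fun θ O hP z hz hzx => ev_pe (hS.zero x h) hP hz hzx

theorem Sh.mx_zero {χ : E3 → ℝ} {r₁ r₂ : ℝ} (hs : Sh r χ r₁ r₂) (hf : LvlOK f 0 r) {b : E3 → ℝ}
    {x : E3} (hx : x ∈ Lv f r) (h : nsq x < r₁ ^ 2 ∨ r₂ ^ 2 < nsq x) : mxd f χ b x = 0 := by
  rw [mxd_eq_fx]
  exact hs.fx_zero hf hx h

theorem tst_cut (hf : LvlOK f 0 r) (hν : IsNu f 0 r ν) {χ : E3 → ℝ} (hχ : Cut r χ) :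
    Tst f r ν χ := by
  obtain ⟨r₁, r₂, hs⟩ := exists_sh hχ
  obtain ⟨ξ, hξ, -, -, hξ1, a, b, ha, hb, hbr, hξ0⟩ := exists_xi hs.p1 hs.p2 hs.lt
  have hχs : SmL f 0 r χ := cut_smL hχ
  have hξs : SmL f 0 r ξ := smL_amb hξ
  -- multiplication by `ξ` does not matter
  have key : ∀ b c, SmL f 0 r b → SmL f 0 r c →
      Integrable (fun x => b x * mxd f c χ x) ν ∧
      ∫ x, b x * mxd f c χ x ∂ν = ∫ x, c x * mxd f b χ x ∂ν := by
    intro b' c hb' hc
    have hcs : SmL f 0 r fun x => ξ x * c x := smL_mul hξs hc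
    have hC : Cs f r fun x => ξ x * c x :=
      ⟨a, b, ha, hb, hbr, fun x _ hx => by
        show ξ x * c x = 0
        rw [hξ0 x hx, zero_mul]⟩
    obtain ⟨i1, i2, e⟩ := stk3 hf hν hb' hχs hcs hC
    have e1 : ∀ x ∈ Lv f r, b' x * mxd f χ (fun x => ξ x * c x) x = b' x * mxd f c χ x := by
      intro x hx
      congr 1
      by_cases h : nsq x < r₁ ^ 2 ∨ r₂ ^ 2 < nsq x
      · rw [hs.mx_zero hf hx h, comm_lv hf hx, hs.mx_zero hf hx h]
      · rw [not_or, not_lt, not_lt] at h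
        rw [comm_lv hf hx, mxd_eq_fx, mxd_eq_fx]
        exact fx_congr hf hx fun θ O hP z hz hzx => by
          filter_upwards [ev_pe (hξ1 x h.1 h.2) hP hz hzx] with y hy
          rw [hy, one_mul]
    have e2 : ∀ x ∈ Lv f r, (ξ x * c x) * mxd f b' χ x = c x * mxd f b' χ x := by
      intro x hx
      by_cases h : nsq x < r₁ ^ 2 ∨ r₂ ^ 2 < nsq x
      · rw [comm_lv hf hx, hs.mx_zero hf hx h, mul_zero, mul_zero]
      · rw [not_or, not_lt, not_lt] at h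
        rw [(hξ1 x h.1 h.2).self_of_nhds, one_mul]
    refine ⟨i1.congr (ae_lv hν e1), ?_⟩
    rw [← integral_congr_ae (ae_lv hν e1), e]
    exact integral_congr_ae (ae_lv hν e2)
  exact ⟨hχs, fun b c hb hc => (key b c hb hc).1, fun b c hb hc => (key b c hb hc).2⟩

section tst

variable {t : E3 → ℝ} (ht : Tst f r ν t) (hf : LvlOK f 0 r) (hν : IsNu f 0 r ν)
include ht hf hν

theorem Tst.int1 {c : E3 → ℝ} (hc : SmL f 0 r c) : Integrable (fun x => mxd f c t x) ν := by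
  have := ht.int _ c smL_one hc
  simpa using this

theorem Tst.one {c : E3 → ℝ} (hc : SmL f 0 r c) : ∫ x, mxd f c t x ∂ν = 0 := by
  have h1 := ht.sym _ c smL_one hc
  simp only [one_mul] at h1
  rw [h1, ← integral_zero E3 ℝ (μ := ν)]
  refine integral_congr_ae (ae_lv hν fun x hx => ?_)
  show c x * _ = 0
  have h2 : mxd f (fun _ => (1 : ℝ)) t x = 0 := by
    rw [mxd_eq_fx]
    exact fx_const (c := 1) hf hx fun θ O hP z hz hzx => Eventually.of_forall fun _ => rfl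
  rw [h2, mul_zero]

end tst

/-! ### the form `∂D ∧ ∂̄D` -/

/-- `∂D ∧ ∂̄D = ∂∂̄(D²/2) - D ∂∂̄D` -/
def Gf (D : E3 → ℝ) : F2 := fun θ z =>
  cH (fun z => D (θ z) ^ 2 / 2) z - (D (θ z) : ℂ) • cH (fun z => D (θ z)) z

theorem psd_Gf {D : E3 → ℝ} (hD : SmL f 0 r D) : Psd f r (Gf D) := by
  intro θ O hP z hz
  have h1 := smAt hD hP hz
  set c := D (θ z) with hc
  have h2 : ContDiffAt ℝ ∞ (fun y => D (θ y) ^ 2 / 2) z := (h1.pow 2).div_const 2
  have h3 : ContDiffAt ℝ ∞ (fun y => c * D (θ y)) z := contDiffAt_const.mul h1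
  have e : Gf D θ z = cH (fun y => D (θ y) ^ 2 / 2 - c * D (θ y)) z := by
    rw [cH_sub h2 h3, KEl_835.cH_mul (h1.of_le two_le_inf)]
    rfl
  rw [e]
  refine psd_cH (h2.sub h3) fun v => ?_
  rw [Crest.Agent.R273.YauDefs_635.lev333_eq_lev145]
  have h4 := Crest.Agent.R273.Levi_145.lev_comp_real (u := fun y => D (θ y)) (z := z)
    (χ := fun s => s ^ 2 / 2 - c * s) (χ' := fun s => s - c) (χ'' := 1)
    (h1.of_le two_le_inf)
    (Eventually.of_forall fun s => by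
      have a1 : HasDerivAt (fun s : ℝ => s ^ 2 / 2) s s := by
        have := (hasDerivAt_pow 2 s).div_const 2
        refine this.congr_deriv ?_
        simp
      have a2 : HasDerivAt (fun s : ℝ => c * s) c s := by
        simpa using (hasDerivAt_id s).const_mul c
      exact a1.sub a2)
    (by simpa using (hasDerivAt_id (D (θ z))).sub_const c) v
  rw [h4, sub_self, zero_mul, add_zero, one_mul]
  positivity

theorem fx_Gf (hf : LvlOK f 0 r) {D : E3 → ℝ} {a : E3 → ℝ} {x : E3}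
    (hx : x ∈ Lv f r) :
    fx f (Gf D) a x = mxd f (fun y => D y ^ 2 / 2) a x - D x * mxd f D a x := by
  obtain ⟨θ, O, z, h1, h2, h3, -, h4⟩ := dns_cases hf hx
  unfold fx mxd Gf
  rw [h4, h4, h4, C2F1_625.pd_sub, C2F1_625.pd_smul, h3,
    C2F1_625.pd_comm _ (cH (fun z => D (θ z) ^ 2 / 2) z),
    C2F1_625.pd_comm _ (cH (fun z => D (θ z)) z), Complex.sub_re, Complex.re_ofReal_mul]
  ring

end Crest.Agent.R257.LossB_625
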