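import Crest.Agent.R257.LossB_625
import Crest.Agent.R257.GBLabs_844

/-!
# R257 (S0395), task GB-LOSS (helper625): the first half of the loss lemma, abstract form

* `Tst.jay`  : `∫ -L(∂∂̄u + ∂∂̄L)∧∂∂̄θ` in terms of `D = L - φ`
* `Sit`      : a punctured level with its weight and a cut-off; `cj A u j = cv ((A - u)/j)`
* `Sit.dec`  : `∂∂̄(χ c_j) = ∂∂̄χ - (sc/j) Y + χ ∂∂̄c_j`
* `Sit.lim_w`, `Sit.low_S`, `Sit.avg_of_le`
-/

set_option autoImplicit false
set_option linter.unusedSectionVars false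

open Topology Filter MeasureTheory Set
open scoped ENNReal ContDiff Matrix ComplexOrder

noncomputable section

namespace Crest.Agent.R257.LossC_625

open Crest.Agent.R275.Geo
open Crest.Agent.R257.Defs_219
open Crest.Agent.R257.KED_952
open Crest.Agent.R257.V1Defs_822
open Crest.Agent.R257.V1Pe_822
open Crest.Agent.R257.V1Top_822
open Crest.Agent.R257.LossA_625 Crest.Agent.R257.LossB_625
open Crest.Agent.R273.Defs_333 (lev)
open Crest.Agent.R273.YauDefs_635 (cH)
open Crest.Agent.R257.PN_835 (nsq)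
open Crest.Agent.R257.Aff_835 (eta2a nga)
open Crest.Agent.R257.C2F1_625 (pd)

variable {f : E3 → ℂ} {r : ℝ} {ν : Measure E3}

theorem mx_add (hf : LvlOK f 0 r) {a b t : E3 → ℝ} (ha : SmL f 0 r a) (hb : SmL f 0 r b) {x : E3}
    (hx : x ∈ Lv f r) : mxd f (fun y => a y + b y) t x = mxd f a t x + mxd f b t x := by
  simp only [mxd_eq_fx]
  exact fx_add hf ha hb hx

theorem mx_mul (hf : LvlOK f 0 r) {a t : E3 → ℝ} (ha : SmL f 0 r a) (c : ℝ) {x : E3}
    (hx : x ∈ Lv f r) : mxd f (fun y => c * a y) t x = c * mxd f a t x := by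
  simp only [mxd_eq_fx]
  exact fx_mul hf ha c hx

theorem int6 {a b c d e g : E3 → ℝ} (ia : Integrable a ν) (ib : Integrable b ν)
    (ic : Integrable c ν) (id : Integrable d ν) (ie : Integrable e ν) (ig : Integrable g ν) :
    ∫ x, (a x - b x - c x + d x - e x - g x) ∂ν =
      ∫ x, a x ∂ν - ∫ x, b x ∂ν - ∫ x, c x ∂ν + ∫ x, d x ∂ν - ∫ x, e x ∂ν - ∫ x, g x ∂ν := by
  have h1 : Integrable (fun x => a x - b x) ν := ia.sub ib
  have h2 : Integrable (fun x => a x - b x - c x) ν := h1.sub ic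
  have h3 : Integrable (fun x => a x - b x - c x + d x) ν := h2.add id
  have h4 : Integrable (fun x => a x - b x - c x + d x - e x) ν := h3.sub ie
  rw [integral_sub h4 ig, integral_sub h3 ie, integral_add h2 id, integral_sub h1 ic,
    integral_sub ia ib]

section jay

variable {t L u φ : E3 → ℝ}

/-- the algebra of the integrand -/
theorem jay (ht : Tst f r ν t) (hf : LvlOK f 0 r) (hν : IsNu f 0 r ν) (hL : SmL f 0 r L)
    (hu : SmL f 0 r u) (hφ : SmL f 0 r φ) {D : E3 → ℝ} (hD : ∀ x, D x = L x - φ x) :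
    Integrable (fun x => - L x * (mxd f u t x + mxd f L t x)) ν ∧
    Integrable (fun x => fx f (Gf D) t x) ν ∧
    ∫ x, - L x * (mxd f u t x + mxd f L t x) ∂ν =
      ∫ x, fx f (Gf D) t x ∂ν - ∫ x, D x * mxd f (fun y => 2 * φ y + u y) t x ∂ν
        - ∫ x, φ x * mxd f (fun y => φ y + u y) t x ∂ν := by
  have hDs : SmL f 0 r D := fun θ O h => by
    have := (hL θ O h).sub (hφ θ O h)
    exact this.congr fun z _ => hD _
  have hD2 : SmL f 0 r fun x => D x ^ 2 / 2 := fun θ O h => ((hDs θ O h).pow 2).div_const 2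
  have hLD : ∀ x ∈ Lv f r, mxd f L t x = mxd f D t x + mxd f φ t x := fun x hx => by
    rw [← mx_add hf hDs hφ hx]
    congr 2
    funext y
    rw [hD]
    ring
  have iu := ht.int L u hL hu
  have iL := ht.int L L hL hL
  have iDD := ht.int D D hDs hDs
  have iD2 := ht.int1 hf hν hD2
  have iDφ := ht.int D φ hDs hφ
  have iφD := ht.int φ D hφ hDs
  have h2φ : SmL f 0 r fun y => 2 * φ y := smL_smul 2 hφ
  have iw := ht.int D _ hDs (smL_add h2φ hu)
  have iv := ht.int φ _ hφ (smL_add hφ hu)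
  have i1 : Integrable (fun x => - L x * (mxd f u t x + mxd f L t x)) ν := by
    refine (iu.add iL).neg.congr (Eventually.of_forall fun x => ?_)
    simp only [Pi.neg_apply, Pi.add_apply]
    ring
  have i2 : Integrable (fun x => fx f (Gf D) t x) ν := by
    refine (iD2.sub iDD).congr (ae_lv hν fun x hx => ?_)
    simp only [Pi.sub_apply]
    rw [fx_Gf hf hx]
  refine ⟨i1, i2, ?_⟩
  have e1 : ∫ x, D x * mxd f φ t x ∂ν = ∫ x, φ x * mxd f D t x ∂ν := ht.sym D φ hDs hφ
  have e2 : ∫ x, mxd f (fun y => D y ^ 2 / 2) t x ∂ν = 0 := ht.one hf hν hD2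
  have e3 : ∫ x, - L x * (mxd f u t x + mxd f L t x) ∂ν =
      ∫ x, (fx f (Gf D) t x - D x * mxd f (fun y => 2 * φ y + u y) t x
        - φ x * mxd f (fun y => φ y + u y) t x + D x * mxd f φ t x - φ x * mxd f D t x
        - mxd f (fun y => D y ^ 2 / 2) t x) ∂ν := by
    refine integral_congr_ae (ae_lv hν fun x hx => ?_)
    beta_reduce
    rw [fx_Gf hf hx, mx_add hf h2φ hu hx, mx_add hf hφ hu hx, mx_mul hf hφ 2 hx, hLD x hx]
    have := hD x
    have hL' : L x = D x + φ x := by rw [this]; ring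
    rw [hL']
    ring
  rw [e3, int6 i2 iw iv iDφ iφD iD2, e1, e2]
  ring

end jay

/-! ### the situation -/

/-- a punctured level with its weight and a cut-off -/
structure Sit (f : E3 → ℂ) (r : ℝ) (ν : Measure E3) (A : ℝ) (u χ : E3 → ℝ) : Prop where
  lvl : LvlOK f 0 r
  nu : IsNu f 0 r ν
  ke : KEon f 0 r u
  cut : Cut r χ
  one : ∀ x ∈ Lv f r, 1 ≤ A - u x
  inf : ∀ c : ℝ, ∃ δ : ℝ, 0 < δ ∧ ∀ x ∈ Lv f r, nsq x < δ ^ 2 → u x < c

/-- the convex cut-off functions -/
def cj (A : ℝ) (u : E3 → ℝ) (j : ℝ) (x : E3) : ℝ := cv ((A - u x) / j)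

/-- the fixed error term -/
def Yf (f : E3 → ℂ) (A : ℝ) (u χ : E3 → ℝ) (S : F2) (x : E3) : ℝ :=
  fx f S (fun y => χ y * (A - u y)) x + χ x * fx f S u x

/-- pairings with compactly supported functions are integrable -/
def IntF (f : E3 → ℂ) (r : ℝ) (ν : Measure E3) (S : F2) (D : E3 → ℝ) : Prop :=
  ∀ a, SmL f 0 r a → Cs f r a → Integrable (fun x => D x * fx f S a x) ν

theorem intF_hS (hf : LvlOK f 0 r) (hν : IsNu f 0 r ν) {w D : E3 → ℝ} (hw : SmL f 0 r w)
    (hD : SmL f 0 r D) : IntF f r ν (hS w) D := fun a ha hc =>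
  (stk3 hf hν hD hw ha hc).1.congr (ae_lv hν fun x hx => by
    show D x * _ = D x * _
    rw [comm_lv hf hx, mxd_eq_fx])

section sit

variable {A : ℝ} {u χ : E3 → ℝ} (h : Sit f r ν A u χ)
include h

theorem Sit.cj_sm (j : ℝ) : SmL f 0 r (cj A u j) :=
  smL_comp (g := fun t => cv ((A - t) / j)) (cv_sm.comp ((contDiff_const.sub contDiff_id).div_const j))
    h.ke.sm

theorem Sit.χ_sm : SmL f 0 r χ := cut_smL h.cut

/-- `χ c_j` has compact support -/
theorem Sit.cs {j : ℝ} (hj : 0 < j) : Cs f r fun x => χ x * cj A u j x := by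
  obtain ⟨r₁, r₂, hs⟩ := exists_sh h.cut
  obtain ⟨δ, hδ, h1⟩ := h.inf (A - j)
  refine ⟨δ, r₂, hδ, hs.p2, hs.lt, fun x hx hx2 => ?_⟩
  show χ x * cj A u j x = 0
  rcases hx2 with hx2 | hx2
  · have h2 := h1 x hx hx2
    rw [cj, cv_zero, mul_zero]
    rw [one_le_div hj]
    linarith
  · rw [(hs.zero x hx2).self_of_nhds, zero_mul]

theorem Sit.θ_sm (j : ℝ) : SmL f 0 r fun x => χ x * cj A u j x := smL_mul h.χ_sm (h.cj_sm j)

/-- `W` is bounded on annuli -/
theorem Sit.exists_B {r₁ r₂ : ℝ} (hs : Sh r χ r₁ r₂) :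
    ∃ B : ℝ, 1 ≤ B ∧ ∀ x ∈ Lv f r, r₁ ^ 2 ≤ nsq x → nsq x ≤ r₂ ^ 2 → A - u x ≤ B := by
  have hK := Bridge_822.ann_compact h.lvl hs.p1 hs.p2 hs.lt
  have hc : Continuous fun x : (UpK_938.LX h.lvl).M 0 => A - u x.1 :=
    continuous_const.sub (Bridge_822.cont_val h.lvl fun θ O hθ => (h.ke.sm θ O hθ).continuousOn)
  obtain ⟨B, hB⟩ := hK.exists_bound_of_continuousOn hc.continuousOn
  refine ⟨max B 1, le_max_right _ _, fun x hx h1 h2 => ?_⟩
  have h3 := hB (UpK_938.mkM h.lvl hx.1 hx.2.1 hx.2.2) ⟨h1, h2⟩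
  rw [Real.norm_eq_abs] at h3
  exact ((le_abs_self _).trans h3).trans (le_max_left _ _)

/-- **the decomposition** -/
theorem Sit.dec {r₁ r₂ B : ℝ} (hs : Sh r χ r₁ r₂)
    (hB : ∀ x ∈ Lv f r, r₁ ^ 2 ≤ nsq x → nsq x ≤ r₂ ^ 2 → A - u x ≤ B) {j : ℝ} (hj : 0 < j)
    (hjB : 2 * B < j) (S : F2) {x : E3} (hx : x ∈ Lv f r) :
    fx f S (fun y => χ y * cj A u j y) x =
      fx f S χ x - sc / j * Yf f A u χ S x + χ x * fx f S (cj A u j) x := by
  have hf := h.lvl
  have hWs : SmL f 0 r fun y => A - u y := fun θ O hθ => contDiffOn_const.sub (h.ke.sm θ O hθ)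
  have hχW : SmL f 0 r fun y => χ y * (A - u y) := smL_mul h.χ_sm hWs
  by_cases h1 : nsq x < r₁ ^ 2
  · have e1 : fx f S (fun y => χ y * cj A u j y) x = fx f S (cj A u j) x :=
      fx_congr hf hx fun θ O hP z hz hzx => by
        filter_upwards [ev_pe (hs.one x h1) hP hz hzx] with y hy
        rw [hy, one_mul]
    have e2 : fx f S (fun y => χ y * (A - u y)) x = - fx f S u x := by
      have e3 : fx f S (fun y => χ y * (A - u y)) x = fx f S (fun y => A - u y) x :=
        fx_congr hf hx fun θ O hP z hz hzx => by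
          filter_upwards [ev_pe (hs.one x h1) hP hz hzx] with y hy
          rw [hy, one_mul]
      rw [e3, fx_sub hf (smL_const A) h.ke.sm hx,
        fx_const (c := A) hf hx fun θ O hP z hz hzx => Eventually.of_forall fun _ => rfl]
      ring
    unfold Yf
    rw [e1, e2, hs.fx_zero hf hx (Or.inl h1), (hs.one x h1).self_of_nhds]
    ring
  by_cases h2 : r₂ ^ 2 < nsq x
  · have e1 : fx f S (fun y => χ y * cj A u j y) x = 0 :=
      fx_const (c := 0) hf hx fun θ O hP z hz hzx => by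
        filter_upwards [ev_pe (hs.zero x h2) hP hz hzx] with y hy
        rw [hy, zero_mul]
    have e2 : fx f S (fun y => χ y * (A - u y)) x = 0 :=
      fx_const (c := 0) hf hx fun θ O hP z hz hzx => by
        filter_upwards [ev_pe (hs.zero x h2) hP hz hzx] with y hy
        rw [hy, zero_mul]
    unfold Yf
    rw [e1, e2, hs.fx_zero hf hx (Or.inr h2), (hs.zero x h2).self_of_nhds]
    ring
  have hWx : A - u x < j / 2 := by
    have := hB x hx (not_lt.1 h1) (not_lt.1 h2)
    linarith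
  have hev : ∀ θ O, PE f 0 r θ O → ∀ z ∈ O, θ z = x → ∀ᶠ y in 𝓝 z,
      cj A u j (θ y) = 1 - sc / j * (A - u (θ y)) := by
    intro θ O hP z hz hzx
    have hc : ContinuousAt (fun y => A - u (θ y)) z := (smAt hWs hP hz).continuousAt
    have h3 : ∀ᶠ y in 𝓝 z, A - u (θ y) < j / 2 :=
      hc.eventually_lt continuousAt_const (by rw [hzx]; exact hWx)
    filter_upwards [h3] with y hy
    rw [cj, cv_aff]
    · ring
    · rw [div_le_iff₀ hj]
      linarith
  have e1 : fx f S (fun y => χ y * cj A u j y) x =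
      fx f S χ x - sc / j * fx f S (fun y => χ y * (A - u y)) x := by
    rw [← fx_mul hf hχW (sc / j) hx, ← fx_sub hf h.χ_sm (smL_smul _ hχW) hx]
    refine fx_congr hf hx fun θ O hP z hz hzx => ?_
    filter_upwards [hev θ O hP z hz hzx] with y hy
    rw [hy]
    ring
  have e2 : fx f S (cj A u j) x = sc / j * fx f S u x := by
    rw [← fx_mul hf h.ke.sm (sc / j) hx]
    have e3 : fx f S (cj A u j) x =
        fx f S (fun y => (1 - sc / j * A) + sc / j * u y) x := by
      refine fx_congr hf hx fun θ O hP z hz hzx => ?_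
      filter_upwards [hev θ O hP z hz hzx] with y hy
      rw [hy]
      ring
    rw [e3, fx_add hf (smL_const _) (smL_smul _ h.ke.sm) hx,
      fx_const (c := 1 - sc / j * A) hf hx fun θ O hP z hz hzx => Eventually.of_forall fun _ => rfl,
      zero_add]
  unfold Yf
  rw [e1, e2]
  ring

theorem Sit.pos_cj {S : F2} (hS : Psd f r S) {j : ℝ} (hj : 0 < j) {x : E3} (hx : x ∈ Lv f r) :
    0 ≤ fx f S (cj A u j) x := by
  refine fx_nonneg h.lvl hS (h.cj_sm j) hx fun θ O hP z hz _ v => ?_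
  refine lev_cv_nonneg hj (smAt h.ke.sm hP hz) (fun v => ?_) v
  by_cases hv : v = 0
  · rw [hv]
    have : lev (fun y => u (θ y)) z 0 = 0 := by
      rw [Crest.Agent.R273.YauDefs_635.lev333_eq_lev145, Crest.Agent.R273.Levi_145.lev_zero,
        mul_zero]
    rw [this]
  · exact (h.ke.pos θ O hP z hz v hv).le

theorem Sit.cj_off {S : F2} {j : ℝ} (hj : 0 < j) {x : E3} (hx : x ∈ Lv f r) (hW : j < A - u x) :
    fx f S (cj A u j) x = 0 := by
  refine fx_const (c := 0) h.lvl hx fun θ O hP z hz hzx => ?_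
  have hWs : SmL f 0 r fun y => A - u y := fun θ O hθ => contDiffOn_const.sub (h.ke.sm θ O hθ)
  have hc : ContinuousAt (fun y => A - u (θ y)) z := (smAt hWs hP hz).continuousAt
  have h3 : ∀ᶠ y in 𝓝 z, j < A - u (θ y) :=
    continuousAt_const.eventually_lt hc (by rw [hzx]; exact hW)
  filter_upwards [h3] with y hy
  rw [cj, cv_zero]
  rw [one_le_div hj]
  exact hy.le

/-- integrability with a cut-off -/
theorem Sit.int_cut {S : F2} {D : E3 → ℝ} (hI : IntF f r ν S D) :
    Integrable (fun x => D x * fx f S χ x) ν ∧ Integrable (fun x => D x * Yf f A u χ S x) ν := by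
  have hf := h.lvl
  obtain ⟨r₁, r₂, hs⟩ := exists_sh h.cut
  obtain ⟨ξ, hξ, -, -, hξ1, a, b, ha, hb, hbr, hξ0⟩ := exists_xi hs.p1 hs.p2 hs.lt
  have hξs : SmL f 0 r ξ := smL_amb hξ
  have hWs : SmL f 0 r fun y => A - u y := fun θ O hθ => contDiffOn_const.sub (h.ke.sm θ O hθ)
  have hχW : SmL f 0 r fun y => χ y * (A - u y) := smL_mul h.χ_sm hWs
  have cs : ∀ t, SmL f 0 r t → Integrable (fun x => D x * fx f S (fun y => ξ y * t y) x) ν :=
    fun t ht => hI _ (smL_mul hξs ht) ⟨a, b, ha, hb, hbr, fun x _ hx => by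
      show ξ x * t x = 0
      rw [hξ0 x hx, zero_mul]⟩
  set N : Set E3 := {x | r₁ ^ 2 ≤ nsq x ∧ nsq x ≤ r₂ ^ 2} with hN
  have hNm : MeasurableSet N :=
    ((isClosed_le continuous_const continuous_nsq3).inter
      (isClosed_le continuous_nsq3 continuous_const)).measurableSet
  have inN : ∀ t, ∀ x ∈ Lv f r, x ∈ N → fx f S (fun y => ξ y * t y) x = fx f S t x :=
    fun t x hx hxN => fx_congr hf hx fun θ O hP z hz hzx => by
      filter_upwards [ev_pe (hξ1 x hxN.1 hxN.2) hP hz hzx] with y hy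
      rw [hy, one_mul]
  have offN : ∀ x, x ∉ N → nsq x < r₁ ^ 2 ∨ r₂ ^ 2 < nsq x := by
    intro x hx
    by_contra hcon
    rw [not_or, not_lt, not_lt] at hcon
    exact hx hcon
  constructor
  · refine ((cs χ h.χ_sm).indicator hNm).congr (ae_lv h.nu fun x hx => ?_)
    by_cases hxN : x ∈ N
    · rw [indicator_of_mem hxN, inN χ x hx hxN]
    · beta_reduce
      rw [indicator_of_notMem hxN, hs.fx_zero hf hx (offN x hxN), mul_zero]
  · have i1 := cs _ hχW
    have i2 : Integrable (fun x => χ x * (D x * fx f S (fun y => ξ y * u y) x)) ν :=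
      (cs u h.ke.sm).bdd_mul h.cut.sm.continuous.aestronglyMeasurable
        (Eventually.of_forall fun x => by
          show ‖χ x‖ ≤ 1
          rw [Real.norm_eq_abs, abs_of_nonneg (h.cut.nn x)]
          exact h.cut.le x)
    refine ((i1.add i2).indicator hNm).congr (ae_lv h.nu fun x hx => ?_)
    by_cases hxN : x ∈ N
    · rw [indicator_of_mem hxN]
      simp only [Pi.add_apply]
      rw [inN _ x hx hxN, inN _ x hx hxN]
      unfold Yf
      ring
    · rw [indicator_of_notMem hxN]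
      have e : Yf f A u χ S x = 0 := by
        unfold Yf
        rcases offN x hxN with h1 | h2
        · have e3 : fx f S (fun y => χ y * (A - u y)) x = fx f S (fun y => A - u y) x :=
            fx_congr hf hx fun θ O hP z hz hzx => by
              filter_upwards [ev_pe (hs.one x h1) hP hz hzx] with y hy
              rw [hy, one_mul]
          rw [e3, fx_sub hf (smL_const A) h.ke.sm hx,
            fx_const (c := A) hf hx fun θ O hP z hz hzx => Eventually.of_forall fun _ => rfl,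
            (hs.one x h1).self_of_nhds]
          ring
        · have e2 : fx f S (fun y => χ y * (A - u y)) x = 0 :=
            fx_const (c := 0) hf hx fun θ O hP z hz hzx => by
              filter_upwards [ev_pe (hs.zero x h2) hP hz hzx] with y hy
              rw [hy, zero_mul]
          rw [e2, (hs.zero x h2).self_of_nhds]
          ring
      beta_reduce
      rw [e, mul_zero]

end sit

end Crest.Agent.R257.LossC_625
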