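import Crest.Agent.R257.LossC_625

/-!
# R257 (S0395), task GB-LOSS (helper625): limits with the convex cut-off functions

* `Sit.lim_w`     : `limsup ∫ D ∂∂̄w∧∂∂̄(χ c_j) ≤ ∫ D ∂∂̄w∧∂∂̄χ` under the averaged hypothesis `Avg`
* `Sit.avg_of_le` : `D ≤ C (1 + log W)`, `w` psh ⟹ `Avg`
* `Sit.low_S`     : `liminf ∫ ∂∂̄(χ c_j)∧S ≥ ∫ ∂∂̄χ∧S` for positive `S`
* `Sit.int_mono`  : monotone convergence
* `Sit.half1`     : **the first half of the loss lemma**
-/

set_option autoImplicit false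
set_option linter.unusedSectionVars false

open Topology Filter MeasureTheory Set
open scoped ENNReal ContDiff Matrix ComplexOrder

noncomputable section

namespace Crest.Agent.R257.LossC_625

open Crest.Agent.R275.Geo
open Crest.Agent.R257.Defs_219
open Crest.Agent.R257.KED_952
open Crest.Agent.R257.V1Defs_822
open Crest.Agent.R257.V1Pe_822
open Crest.Agent.R257.V1Top_822
open Crest.Agent.R257.LossA_625 Crest.Agent.R257.LossB_625
open Crest.Agent.R273.Defs_333 (lev)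
open Crest.Agent.R273.YauDefs_635 (cH)
open Crest.Agent.R257.PN_835 (nsq)
open Crest.Agent.R257.Aff_835 (eta2a nga)
open Crest.Agent.R257.C2F1_625 (pd)

variable {f : E3 → ℂ} {r : ℝ} {ν : Measure E3} {A : ℝ} {u χ : E3 → ℝ}

/-- plurisubharmonic on the level -/
def PshL (f : E3 → ℂ) (r : ℝ) (w : E3 → ℝ) : Prop :=
  ∀ θ O, PE f 0 r θ O → ∀ z ∈ O, ∀ v : Cn 2, 0 ≤ lev (fun z => w (θ z)) z v

theorem psd_hS {w : E3 → ℝ} (hw : SmL f 0 r w) (hp : PshL f r w) : Psd f r (hS w) :=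
  fun θ O hP z hz => psd_cH (smAt hw hP hz) (hp θ O hP z hz)

/-- the averaged hypothesis -/
def Avg (f : E3 → ℂ) (ν : Measure E3) (A : ℝ) (u χ D w : E3 → ℝ) : Prop :=
  ∀ ε : ℝ, 0 < ε → ∀ᶠ j : ℕ in atTop, ∫ x, χ x * (D x * mxd f (cj A u j) w x) ∂ν ≤ ε

theorem tend_div (c : ℝ) : Tendsto (fun j : ℕ => sc / (j : ℝ) * c) atTop (𝓝 0) := by
  have h := (tendsto_const_div_atTop_nhds_zero_nat sc).mul_const c
  rwa [zero_mul] at h

section sit

variable (h : Sit f r ν A u χ)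
include h

/-- the integrated decomposition -/
theorem Sit.idec {S : F2} {D : E3 → ℝ} (hI : IntF f r ν S D) :
    ∀ᶠ j : ℕ in atTop, Integrable (fun x => χ x * (D x * fx f S (cj A u j) x)) ν ∧
      ∫ x, D x * fx f S (fun y => χ y * cj A u j y) x ∂ν =
        ∫ x, D x * fx f S χ x ∂ν - sc / j * ∫ x, D x * Yf f A u χ S x ∂ν +
          ∫ x, χ x * (D x * fx f S (cj A u j) x) ∂ν := by
  obtain ⟨r₁, r₂, hs⟩ := exists_sh h.cut
  obtain ⟨B, hB1, hB⟩ := h.exists_B hs
  obtain ⟨i1, i2⟩ := h.int_cut hI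
  filter_upwards [eventually_gt_atTop 0, eventually_gt_atTop ⌈2 * B⌉₊] with j hj hj2
  have hj0 : (0 : ℝ) < j := by exact_mod_cast hj
  have hjB : 2 * B < j := (Nat.le_ceil _).trans_lt (by exact_mod_cast hj2)
  have i3 : Integrable (fun x => D x * fx f S (fun y => χ y * cj A u j y) x) ν :=
    hI _ (h.θ_sm j) (h.cs hj0)
  have e : ∀ x ∈ Lv f r, D x * fx f S (fun y => χ y * cj A u j y) x =
      D x * fx f S χ x - sc / j * (D x * Yf f A u χ S x) + χ x * (D x * fx f S (cj A u j) x) := by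
    intro x hx
    rw [h.dec hs hB hj0 hjB S hx]
    ring
  have i4 : Integrable (fun x => χ x * (D x * fx f S (cj A u j) x)) ν := by
    refine ((i3.sub i1).add (i2.const_mul (sc / j))).congr (ae_lv h.nu fun x hx => ?_)
    simp only [Pi.add_apply, Pi.sub_apply]
    rw [e x hx]
    ring
  refine ⟨i4, ?_⟩
  have i5 : Integrable (fun x => D x * fx f S χ x - sc / j * (D x * Yf f A u χ S x)) ν :=
    i1.sub (i2.const_mul (sc / j))
  rw [integral_congr_ae (ae_lv h.nu e), integral_add i5 i4, integral_sub i1 (i2.const_mul _),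
    integral_const_mul]

theorem Sit.lim_w {w D : E3 → ℝ} (hw : SmL f 0 r w) (hD : SmL f 0 r D)
    (ha : Avg f ν A u χ D w) {ε : ℝ} (hε : 0 < ε) :
    ∀ᶠ j : ℕ in atTop, ∫ x, D x * mxd f w (fun y => χ y * cj A u j y) x ∂ν ≤
      ∫ x, D x * mxd f w χ x ∂ν + ε := by
  have hI := intF_hS h.lvl h.nu hw hD
  have h1 := (tend_div (∫ x, D x * Yf f A u χ (hS w) x ∂ν)).eventually
    (Metric.ball_mem_nhds (0 : ℝ) (half_pos hε))
  filter_upwards [h.idec hI, ha (ε / 2) (half_pos hε), h1] with j h2 h3 h4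
  have e1 : ∫ x, D x * mxd f w (fun y => χ y * cj A u j y) x ∂ν =
      ∫ x, D x * fx f (hS w) (fun y => χ y * cj A u j y) x ∂ν :=
    integral_congr_ae (ae_lv h.nu fun x hx => by
      beta_reduce
      rw [comm_lv h.lvl hx, mxd_eq_fx])
  have e2 : ∫ x, D x * mxd f w χ x ∂ν = ∫ x, D x * fx f (hS w) χ x ∂ν :=
    integral_congr_ae (ae_lv h.nu fun x hx => by
      beta_reduce
      rw [comm_lv h.lvl hx, mxd_eq_fx])
  rw [e1, e2, h2.2]
  simp only [mxd_eq_fx] at h3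
  rw [dist_zero_right, Real.norm_eq_abs] at h4
  have := (abs_lt.1 h4).1
  linarith

theorem Sit.low_S {S : F2} (hS : Psd f r S) (hI : IntF f r ν S fun _ => 1) {ε : ℝ} (hε : 0 < ε) :
    ∀ᶠ j : ℕ in atTop, ∫ x, fx f S χ x ∂ν ≤
      ∫ x, fx f S (fun y => χ y * cj A u j y) x ∂ν + ε := by
  have h1 := (tend_div (∫ x, 1 * Yf f A u χ S x ∂ν)).eventually
    (Metric.ball_mem_nhds (0 : ℝ) hε)
  filter_upwards [h.idec hI, h1, eventually_gt_atTop 0] with j h2 h4 hj
  have hj0 : (0 : ℝ) < j := by exact_mod_cast hj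
  have h5 : 0 ≤ ∫ x, χ x * (1 * fx f S (cj A u j) x) ∂ν :=
    integral_nonneg_of_ae (ae_lv h.nu fun x hx =>
      mul_nonneg (h.cut.nn x) (by rw [one_mul]; exact h.pos_cj hS hj0 hx))
  have e := h2.2
  simp only [one_mul] at e h4 h5
  rw [e]
  rw [dist_zero_right, Real.norm_eq_abs] at h4
  have := (abs_lt.1 h4).2
  linarith

/-- the mass of `χ ∂∂̄c_j ∧ ∂∂̄w` -/
theorem Sit.mass {w : E3 → ℝ} (hw : SmL f 0 r w) :
    ∀ᶠ j : ℕ in atTop, Integrable (fun x => χ x * mxd f (cj A u j) w x) ν ∧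
      ∫ x, χ x * mxd f (cj A u j) w x ∂ν = sc / j * ∫ x, Yf f A u χ (hS w) x ∂ν := by
  have hI := intF_hS h.lvl h.nu hw (smL_one (f := f) (r := r))
  filter_upwards [h.idec hI, eventually_gt_atTop 0] with j h2 hj
  have hj0 : (0 : ℝ) < j := by exact_mod_cast hj
  obtain ⟨i, e⟩ := h2
  simp only [one_mul] at i e
  have e1 : ∫ x, fx f (hS w) (fun y => χ y * cj A u j y) x ∂ν = 0 := by
    rw [← (tst_cs h.lvl h.nu (h.θ_sm j) (h.cs hj0)).one h.lvl h.nu hw]
    exact integral_congr_ae (ae_lv h.nu fun x hx => by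
      rw [comm_lv h.lvl hx, mxd_eq_fx])
  have e2 : ∫ x, fx f (hS w) χ x ∂ν = 0 := by
    rw [← (tst_cut h.lvl h.nu h.cut).one h.lvl h.nu hw]
    exact integral_congr_ae (ae_lv h.nu fun x hx => by
      rw [comm_lv h.lvl hx, mxd_eq_fx])
  rw [e1, e2] at e
  simp only [mxd_eq_fx]
  exact ⟨i, by linarith⟩

theorem Sit.avg_of_le {w D : E3 → ℝ} (hw : SmL f 0 r w) (hp : PshL f r w) (hD : SmL f 0 r D)
    {C : ℝ} (hC : 0 ≤ C) (hb : ∀ x ∈ Lv f r, D x ≤ C * (1 + Real.log (A - u x))) :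
    Avg f ν A u χ D w := by
  intro ε hε
  set m := ∫ x, Yf f A u χ (hS w) x ∂ν with hm
  have hI := intF_hS h.lvl h.nu hw hD
  have t1 : Tendsto (fun j : ℕ => C * (1 + Real.log j) * (sc / j * m)) atTop (𝓝 0) := by
    have a1 : Tendsto (fun x : ℝ => Real.log x / x) atTop (𝓝 0) := by
      have := Real.isLittleO_log_id_atTop
      exact this.tendsto_div_nhds_zero
    have a2 : Tendsto (fun x : ℝ => x⁻¹) atTop (𝓝 0) := tendsto_inv_atTop_zero
    have a3 : Tendsto (fun x : ℝ => C * sc * m * (x⁻¹ + Real.log x / x)) atTop (𝓝 0) := by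
      have := (a2.add a1).const_mul (C * sc * m)
      simpa using this
    refine (a3.comp tendsto_natCast_atTop_atTop).congr fun j => ?_
    simp only [Function.comp_apply]
    ring
  filter_upwards [h.idec hI, h.mass hw, eventually_ge_atTop 1,
    t1.eventually (Metric.ball_mem_nhds (0 : ℝ) hε)] with j h2 h3 hj h4
  have hj1 : (1 : ℝ) ≤ j := by exact_mod_cast hj
  have hj0 : (0 : ℝ) < j := by linarith
  have hlog : 0 ≤ Real.log j := Real.log_nonneg hj1
  obtain ⟨i, -⟩ := h2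
  simp only [← mxd_eq_fx] at i
  obtain ⟨i', e'⟩ := h3
  calc ∫ x, χ x * (D x * mxd f (cj A u j) w x) ∂ν
      ≤ ∫ x, C * (1 + Real.log j) * (χ x * mxd f (cj A u j) w x) ∂ν := by
        refine integral_mono_ae i (i'.const_mul _) (ae_lv h.nu fun x hx => ?_)
        beta_reduce
        have hP := psd_hS hw hp
        by_cases hW : (j : ℝ) < A - u x
        · rw [mxd_eq_fx, h.cj_off hj0 hx hW]
          simp
        · have h5 : 0 ≤ mxd f (cj A u j) w x := by
            rw [mxd_eq_fx]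
            exact h.pos_cj hP hj0 hx
          have h6 : D x ≤ C * (1 + Real.log j) := by
            refine (hb x hx).trans (mul_le_mul_of_nonneg_left ?_ hC)
            have := Real.log_le_log (by linarith [h.one x hx]) (not_lt.1 hW)
            linarith
          have h7 := mul_le_mul_of_nonneg_right h6 (mul_nonneg (h.cut.nn x) h5)
          calc _ = D x * (χ x * mxd f (cj A u j) w x) := by ring
            _ ≤ _ := h7
    _ = C * (1 + Real.log j) * (sc / j * m) := by rw [integral_const_mul, e']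
    _ ≤ ε := by
        rw [dist_zero_right, Real.norm_eq_abs] at h4
        exact ((le_abs_self _).trans h4.le)

theorem Sit.cj_tend {x : E3} : Tendsto (fun j : ℕ => χ x * cj A u j x) atTop (𝓝 (χ x)) := by
  have h1 : Tendsto (fun j : ℕ => (A - u x) / (j : ℝ)) atTop (𝓝 0) :=
    tendsto_const_div_atTop_nhds_zero_nat _
  have h2 : Tendsto (fun j : ℕ => cv ((A - u x) / (j : ℝ))) atTop (𝓝 (cv 0)) :=
    (cv_sm.continuous.tendsto 0).comp h1
  have h3 : cv 0 = 1 := by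
    rw [cv_aff (by norm_num)]
    ring
  rw [h3] at h2
  have := h2.const_mul (χ x)
  rwa [mul_one] at this

theorem Sit.cj_01 {x : E3} (hx : x ∈ Lv f r) {j : ℝ} (hj : 0 < j) :
    0 ≤ cj A u j x ∧ cj A u j x ≤ 1 :=
  ⟨cv_nonneg _, cv_le_one (div_nonneg (by linarith [h.one x hx]) hj.le)⟩

/-- monotone convergence -/
theorem Sit.int_mono {X : E3 → ℝ} (hX : ∀ x ∈ Lv f r, 0 ≤ X x)
    (hi : ∀ j : ℕ, 0 < j → Integrable (fun x => (χ x * cj A u j x) * X x) ν) {K : ℝ}
    (hK : ∀ᶠ j : ℕ in atTop, ∫ x, (χ x * cj A u j x) * X x ∂ν ≤ K) :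
    Integrable (fun x => χ x * X x) ν ∧
      Tendsto (fun j : ℕ => ∫ x, (χ x * cj A u j x) * X x ∂ν) atTop (𝓝 (∫ x, χ x * X x ∂ν)) := by
  have h0 : ∀ j : ℕ, 0 < j → ∀ x ∈ Lv f r, 0 ≤ (χ x * cj A u j x) * X x := fun j hj x hx =>
    mul_nonneg (mul_nonneg (h.cut.nn x) (h.cj_01 hx (by exact_mod_cast hj)).1) (hX x hx)
  have ht : ∀ x, Tendsto (fun j : ℕ => (χ x * cj A u j x) * X x) atTop (𝓝 (χ x * X x)) :=
    fun x => h.cj_tend.mul_const _
  have h1 := GBLabs_844.fatou (μ := ν) (f := fun (j : ℕ) x => (χ x * cj A u j x) * X x)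
    (g := fun x => χ x * X x) (K := K)
    (by
      filter_upwards [hK, eventually_gt_atTop 0] with j hj hj0
      exact ⟨hi j hj0, ae_lv h.nu fun x hx => h0 j hj0 x hx, hj⟩)
    (Eventually.of_forall fun x => ht x)
  refine ⟨h1.1, ?_⟩
  refine tendsto_integral_filter_of_dominated_convergence (fun x => χ x * X x) ?_ ?_ h1.1
    (Eventually.of_forall fun x => ht x)
  · filter_upwards [eventually_gt_atTop 0] with j hj
    exact (hi j hj).aestronglyMeasurable
  · filter_upwards [eventually_gt_atTop 0] with j hj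
    refine ae_lv h.nu fun x hx => ?_
    rw [Real.norm_eq_abs, abs_of_nonneg (h0 j hj x hx)]
    have := (h.cj_01 hx (show (0 : ℝ) < j by exact_mod_cast hj)).2
    exact mul_le_mul_of_nonneg_right (mul_le_of_le_one_right (h.cut.nn x) this) (hX x hx)

end sit

/-! ### the first half -/

/-- the data of a section without zeros: `L = log |dh|²`, `Sb` = second fundamental form,
`ox a` = density of `∂∂̄a ∧ Γ`, `c` = density of the second Chern form -/
structure Sec (f : E3 → ℂ) (r : ℝ) (ν : Measure E3) (u L : E3 → ℝ) (Sb : F2)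
    (ox : (E3 → ℝ) → E3 → ℝ) (c : E3 → ℝ) : Prop where
  sm : SmL f 0 r L
  psd : Psd f r Sb
  c0 : ∀ x ∈ Lv f r, 0 ≤ c x
  p2 : ∀ a, SmL f 0 r a → ∀ x ∈ Lv f r,
    ox a x = - L x * (mxd f u a x + mxd f L a x) + fx f Sb a x
  p1 : ∀ a, SmL f 0 r a → Cs f r a → Integrable (fun x => a x * c x) ν ∧ Integrable (ox a) ν ∧
    ∫ x, a x * c x ∂ν = ∫ x, ox a x ∂ν

section half

variable {L φ D c : E3 → ℝ} {Sb : F2} {ox : (E3 → ℝ) → E3 → ℝ}

theorem smL_D (hL : SmL f 0 r L) (hφ : SmL f 0 r φ) (hD : ∀ x, D x = L x - φ x) :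
    SmL f 0 r D := fun θ O h => by
  have := (hL θ O h).sub (hφ θ O h)
  exact this.congr fun z _ => hD _

theorem Sec.intF (s : Sec f r ν u L Sb ox c) (h : Sit f r ν A u χ) :
    IntF f r ν Sb fun _ => 1 := fun a ha hc => by
  have h1 := (jay (φ := fun _ => 0) (D := L) (tst_cs h.lvl h.nu ha hc) h.lvl h.nu s.sm h.ke.sm
    (smL_const 0) fun x => by ring).1
  refine ((s.p1 a ha hc).2.1.sub h1).congr (ae_lv h.nu fun x hx => ?_)
  simp only [Pi.sub_apply]
  rw [s.p2 a ha x hx]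
  ring

/-- the integral of `ox` -/
theorem Sec.ox_eq (s : Sec f r ν u L Sb ox c) (h : Sit f r ν A u χ) (hφ : SmL f 0 r φ)
    (hD : ∀ x, D x = L x - φ x) {t : E3 → ℝ} (ht : Tst f r ν t)
    (hi : Integrable (fun x => fx f Sb t x) ν) :
    Integrable (ox t) ν ∧ ∫ x, ox t x ∂ν = ∫ x, fx f (Gf D) t x ∂ν
      - ∫ x, D x * mxd f (fun y => 2 * φ y + u y) t x ∂ν
      - ∫ x, φ x * mxd f (fun y => φ y + u y) t x ∂ν + ∫ x, fx f Sb t x ∂ν := by
  obtain ⟨i1, i2, e⟩ := jay ht h.lvl h.nu s.sm h.ke.sm hφ hD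
  have e1 : ∀ x ∈ Lv f r, ox t x = - L x * (mxd f u t x + mxd f L t x) + fx f Sb t x :=
    fun x hx => s.p2 t ht.sm x hx
  refine ⟨(i1.add hi).congr (ae_lv h.nu fun x hx => ?_), ?_⟩
  · simp only [Pi.add_apply]
    rw [e1 x hx]
  · rw [integral_congr_ae (ae_lv h.nu e1), integral_add i1 hi, e]

/-- **the first half of the loss lemma** -/
theorem Sit.half1 (h : Sit f r ν A u χ) (s : Sec f r ν u L Sb ox c) (hA : 0 < A)
    (hφ : SmL f 0 r φ) (hp : PshL f r φ) (hφA : ∀ x ∈ Lv f r, φ x ≤ A)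
    (hD : ∀ x, D x = L x - φ x) (ha : Avg f ν A u χ D fun y => 2 * φ y + u y)
    (hc : Integrable (fun x => χ x * c x) ν) (hφφ : Integrable (fun x => χ x * mxd f φ φ x) ν) :
    Integrable (fun x => χ x * mxd f u φ x) ν ∧ Integrable (ox χ) ν ∧
    ∫ x, ox χ x ∂ν + (∫ x, u x * mxd f φ χ x ∂ν - ∫ x, χ x * mxd f u φ x ∂ν) +
      (∫ x, φ x * mxd f φ χ x ∂ν - ∫ x, χ x * mxd f φ φ x ∂ν) ≤ ∫ x, χ x * c x ∂ν := by
  have hf := h.lvl
  have hν := h.nu
  have hu := h.ke.sm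
  have hpu : PshL f r u := fun θ O hP z hz v => by
    by_cases hv : v = 0
    · rw [hv, Crest.Agent.R273.YauDefs_635.lev333_eq_lev145,
        Crest.Agent.R273.Levi_145.lev_zero, mul_zero]
    · exact (h.ke.pos θ O hP z hz v hv).le
  have hDs := smL_D s.sm hφ hD
  have h2φ : SmL f 0 r fun y => 2 * φ y := smL_smul 2 hφ
  have hw : SmL f 0 r fun y => 2 * φ y + u y := smL_add h2φ hu
  have hψ : SmL f 0 r fun y => φ y + u y := smL_add hφ hu
  have hχ := tst_cut hf hν h.cut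
  -- positivity of the densities
  have posφφ : ∀ x ∈ Lv f r, 0 ≤ mxd f φ φ x := fun x hx => by
    rw [mxd_eq_fx]
    exact fx_nonneg hf (psd_hS hφ hp) hφ hx fun θ O hP z hz _ v => hp θ O hP z hz v
  have posuφ : ∀ x ∈ Lv f r, 0 ≤ mxd f u φ x := fun x hx => by
    rw [mxd_eq_fx]
    exact fx_nonneg hf (psd_hS hφ hp) hu hx fun θ O hP z hz _ v => hpu θ O hP z hz v
  -- the mixed term is integrable
  have hmix : Integrable (fun x => χ x * mxd f u φ x) ν := by
    have ha' : Avg f ν A u χ φ u := h.avg_of_le hu hpu hφ hA.le fun x hx => by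
      have h1 := Real.log_nonneg (h.one x hx)
      have h2 := hφA x hx
      nlinarith
    refine (h.int_mono posuφ (K := ∫ x, φ x * mxd f u χ x ∂ν + 1) (fun j hj => ?_) ?_).1
    · exact (stk3 hf hν hu hφ (h.θ_sm j) (h.cs (by exact_mod_cast hj))).2.1
    · filter_upwards [h.lim_w hu hφ ha' one_pos, eventually_gt_atTop 0] with j h1 hj
      refine le_trans (le_of_eq ?_) h1
      rw [(stk3 hf hν hφ hu (h.θ_sm j) (h.cs (by exact_mod_cast hj))).2.2]
      exact integral_congr_ae (ae_lv hν fun x hx => by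
        beta_reduce
        rw [comm_lv hf hx])
  -- the outer term
  have iSb := s.intF h
  have iG : IntF f r ν (Gf D) fun _ => 1 := fun a ha hcs => by
    have := (jay (tst_cs hf hν ha hcs) hf hν s.sm hu hφ hD).2.1
    simpa only [one_mul] using this
  have iSbχ : Integrable (fun x => fx f Sb χ x) ν := by
    simpa only [one_mul] using (h.int_cut iSb).1
  obtain ⟨iox, eox⟩ := s.ox_eq h hφ hD hχ iSbχ
  refine ⟨hmix, iox, ?_⟩
  have e1 : ∫ x, φ x * mxd f (fun y => φ y + u y) χ x ∂ν =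
      ∫ x, φ x * mxd f φ χ x ∂ν + ∫ x, u x * mxd f φ χ x ∂ν := by
    rw [hχ.sym u φ hu hφ, ← integral_add (hχ.int φ φ hφ hφ) (hχ.int φ u hφ hu)]
    refine integral_congr_ae (ae_lv hν fun x hx => ?_)
    beta_reduce
    rw [mx_add hf hφ hu hx]
    ring
  -- the inequality for `θ_j`
  refine le_of_forall_pos_le_add fun ε hε => ?_
  obtain ⟨j, hj, h1, h2, h3⟩ := ((eventually_gt_atTop 0).and
    ((h.lim_w hw hDs ha (show 0 < ε / 3 by positivity)).and
    ((h.low_S (psd_Gf hDs) iG (show 0 < ε / 3 by positivity)).and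
    (h.low_S s.psd iSb (show 0 < ε / 3 by positivity))))).exists
  have hj0 : (0 : ℝ) < j := by exact_mod_cast hj
  have hts := h.θ_sm j
  have hcs := h.cs hj0
  have ht := tst_cs hf hν hts hcs
  obtain ⟨p1, p2, p3⟩ := s.p1 _ hts hcs
  have iSbt : Integrable (fun x => fx f Sb (fun y => χ y * cj A u j y) x) ν := by
    simpa only [one_mul] using iSb _ hts hcs
  obtain ⟨-, eoxt⟩ := s.ox_eq h hφ hD ht iSbt
  have i1 : Integrable (fun x => (χ x * cj A u j x) * mxd f φ φ x) ν :=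
    (stk3 hf hν hφ hφ hts hcs).2.1
  have i2 : Integrable (fun x => (χ x * cj A u j x) * mxd f u φ x) ν :=
    (stk3 hf hν hu hφ hts hcs).2.1
  have e2 : ∫ x, φ x * mxd f (fun y => φ y + u y) (fun y => χ y * cj A u j y) x ∂ν =
      ∫ x, (χ x * cj A u j x) * mxd f φ φ x ∂ν + ∫ x, (χ x * cj A u j x) * mxd f u φ x ∂ν := by
    rw [(stk3 hf hν hφ hψ hts hcs).2.2, ← integral_add i1 i2]
    refine integral_congr_ae (ae_lv hν fun x hx => ?_)
    beta_reduce
    rw [comm_lv hf hx, mx_add hf hφ hu hx]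
    ring
  have le1 : ∀ X : E3 → ℝ, (∀ x ∈ Lv f r, 0 ≤ X x) →
      Integrable (fun x => (χ x * cj A u j x) * X x) ν → Integrable (fun x => χ x * X x) ν →
      ∫ x, (χ x * cj A u j x) * X x ∂ν ≤ ∫ x, χ x * X x ∂ν := fun X hX a1 a2 =>
    integral_mono_ae a1 a2 (ae_lv hν fun x hx => by
      beta_reduce
      exact mul_le_mul_of_nonneg_right
        (mul_le_of_le_one_right (h.cut.nn x) (h.cj_01 hx hj0).2) (hX x hx))
  have l1 := le1 _ posφφ i1 hφφ
  have l2 := le1 _ posuφ i2 hmix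
  have l3 := le1 _ s.c0 p1 hc
  have l4 : ∫ x, (χ x * cj A u j x) * c x ∂ν = ∫ x, ox (fun y => χ y * cj A u j y) x ∂ν := p3
  rw [eoxt, e2] at l4
  rw [eox, e1]
  linarith

end half

end Crest.Agent.R257.LossC_625
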