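import Crest.Agent.R257.SkelG1_952
import Crest.Agent.R257.SkelG3_952
import Crest.Agent.R257.V1W_822
import Crest.Agent.R257.Ked4_397

/-!
R257 / SkelG4_952: zeros of `dh` on the punctured level and the minors of `(∇f, ∇h)`; monotonicity in
the constants; product rule.
-/

set_option autoImplicit false

open Topology Filter MeasureTheory Set
open scoped ENNReal ContDiff Matrix
open Crest.AlgGeometry.Germ

noncomputable section

namespace Crest.Agent.R257.SkelG_952

open Crest.Agent.R275.Geo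
open Crest.Agent.R257.Defs_219 Crest.Agent.R257.KED_952 Crest.Agent.R257.KEG_952
open Crest.Agent.R257.SkelV_952
open Crest.Agent.R257.PN_835 (nsq)
open Crest.Agent.R257.Aff_835 (eta2a nga)
open Crest.Agent.R257.V1Defs_822 (SmL LvlOK lgh)
open Crest.Agent.R273.Defs_333 (lev)
open Crest.Agent.R257.Skel_219 (li2)
open Crest.Agent.R257.V1Pe_822 (exists_pe)
open Crest.Agent.R257.V1W_822 (iso_zero nsq_lt_of)

/-- `NS0`: isolated zeros and finite colength [554] -/
def NS0Stmt : Prop := ∀ (m : ℕ) (G : Fin m → E3 → ℂ), (∀ j, AnalyticAt ℂ (G j) 0) →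
  (∀ᶠ x in 𝓝 (0 : E3), (∀ j, G j x = 0) → x = 0) → ColFin G

section

variable {f : E3 → ℂ} {s : ℂ} {r : ℝ} {θ : Cn 2 → E3} {O : Set (Cn 2)} {z : Cn 2} {h : E3 → ℂ}

/-- the kernel of `df` is the image of `dθ` -/
theorem dker (hθ : PE f s r θ O) (hz : z ∈ O) (hf : AnalyticAt ℂ f (θ z)) (v : Cn 2) :
    fderiv ℂ f (θ z) (fderiv ℂ θ z v) = 0 := hθ.par.ker hz hf.differentiableAt v

theorem comp_fderiv (hθ : PE f s r θ O) (hz : z ∈ O) (hh : AnalyticAt ℂ h (θ z)) :
    fderiv ℂ (fun z => h (θ z)) z = (fderiv ℂ h (θ z)).comp (fderiv ℂ θ z) :=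
  fderiv_comp z hh.differentiableAt (hθ.par.diffAt hz)

/-- if the minors do not vanish then `d(h∘θ) ≠ 0` -/
theorem fderiv_ne_of_minors (hθ : PE f s r θ O) (hz : z ∈ O) (hf : AnalyticAt ℂ f (θ z))
    (hh : AnalyticAt ℂ h (θ z)) (hm : ¬ ∀ j, mnr f h j (θ z) = 0) (hfz : f (θ z) = 0) :
    fderiv ℂ (fun z => h (θ z)) z ≠ 0 := by
  intro h0
  rw [comp_fderiv hθ hz hh] at h0
  have hli : LinearIndependent ℂ ![fderiv ℂ f (θ z), fderiv ℂ h (θ z)] := by
    refine li2 ?_
    by_contra hcon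
    push Not at hcon
    refine hm fun j => ?_
    fin_cases j
    · exact hfz
    · exact hcon.1
    · exact hcon.2.1
    · exact hcon.2.2
  -- the joint kernel has dimension one, the image of `dθ` has dimension two
  set T : E3 →ₗ[ℂ] (Fin 2 → ℂ) := LinearMap.pi
    ![(fderiv ℂ f (θ z)).toLinearMap, (fderiv ℂ h (θ z)).toLinearMap] with hT
  have hsurj : Function.Surjective T := by
    rw [← LinearMap.range_eq_top]
    by_contra hne
    obtain ⟨φ, hφ0, hφ⟩ := Submodule.exists_le_ker_of_lt_top (LinearMap.range T)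
      (lt_top_iff_ne_top.2 hne)
    rw [LinearIndependent.pair_iff] at hli
    have h1 : φ (Pi.single 0 1) • fderiv ℂ f (θ z) + φ (Pi.single 1 1) • fderiv ℂ h (θ z) = 0 := by
      ext i
      have h2 : φ (T i) = 0 := hφ ⟨i, rfl⟩
      have h3 : T i = fderiv ℂ f (θ z) i • Pi.single 0 1 + fderiv ℂ h (θ z) i • Pi.single 1 1 := by
        funext j
        fin_cases j <;> simp [hT]
      rw [h3, map_add, map_smul, map_smul] at h2
      simp only [smul_eq_mul] at h2
      show φ (Pi.single 0 1) * fderiv ℂ f (θ z) i + φ (Pi.single 1 1) * fderiv ℂ h (θ z) i = 0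
      rw [← h2]
      ring
    obtain ⟨h4, h5⟩ := hli _ _ h1
    apply hφ0
    refine LinearMap.pi_ext' fun j => LinearMap.ext_ring ?_
    fin_cases j
    · exact h4
    · exact h5
  have hk : Module.finrank ℂ (LinearMap.ker T) = 1 := by
    have := LinearMap.finrank_range_add_finrank_ker T
    rw [LinearMap.range_eq_top.2 hsurj, finrank_top] at this
    simp at this
    omega
  have hle : LinearMap.range (fderiv ℂ θ z).toLinearMap ≤ LinearMap.ker T := by
    rintro _ ⟨v, rfl⟩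
    rw [LinearMap.mem_ker]
    funext j
    fin_cases j
    · exact dker hθ hz hf v
    · exact congrArg (fun L : Cn 2 →L[ℂ] ℂ => L v) h0
  have hinj : Function.Injective (fderiv ℂ θ z).toLinearMap := by
    rw [← LinearMap.ker_eq_bot, LinearMap.ker_eq_bot']
    exact fun v hv => hθ.par.imm z hz v hv
  have h2 : Module.finrank ℂ (LinearMap.range (fderiv ℂ θ z).toLinearMap) = 2 := by
    rw [LinearMap.finrank_range_of_inj hinj]
    simp
  have h3 := Submodule.finrank_mono hle
  omega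

/-- if `df ≠ 0` and the minors vanish then `d(h∘θ) = 0` -/
theorem fderiv_eq_of_minors (hθ : PE f s r θ O) (hz : z ∈ O) (hf : AnalyticAt ℂ f (θ z))
    (hh : AnalyticAt ℂ h (θ z)) (hm : ∀ j, mnr f h j (θ z) = 0) (h0 : fderiv ℂ f (θ z) ≠ 0) :
    fderiv ℂ (fun z => h (θ z)) z = 0 := by
  obtain ⟨i, hi⟩ : ∃ i, gr f (θ z) i ≠ 0 := by
    by_contra hcon
    push Not at hcon
    apply h0
    ext v
    have h1 : v = ∑ k, v k • (Pi.single k (1 : ℂ) : E3) := by
      funext j
      simp [Finset.sum_apply, Pi.single_apply]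
    rw [h1, map_sum]
    refine Finset.sum_eq_zero fun k _ => ?_
    rw [map_smul]
    have : fderiv ℂ f (θ z) (Pi.single k 1) = 0 := hcon k
    rw [this, smul_zero]
  have key : ∀ j, gr h (θ z) j = gr h (θ z) i / gr f (θ z) i * gr f (θ z) j := by
    have m1 := hm 1
    have m2 := hm 2
    have m3 := hm 3
    simp only [mnr] at m1 m2 m3
    change gr f (θ z) 1 * gr h (θ z) 2 - gr f (θ z) 2 * gr h (θ z) 1 = 0 at m1
    change gr f (θ z) 2 * gr h (θ z) 0 - gr f (θ z) 0 * gr h (θ z) 2 = 0 at m2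
    change gr f (θ z) 0 * gr h (θ z) 1 - gr f (θ z) 1 * gr h (θ z) 0 = 0 at m3
    intro j
    rw [div_mul_eq_mul_div, eq_div_iff hi]
    fin_cases i <;> fin_cases j <;> simp only [Fin.zero_eta, Fin.mk_one, Fin.reduceFinMk] <;>
      first
        | ring1
        | linear_combination m1
        | linear_combination m2
        | linear_combination m3
        | linear_combination -m1
        | linear_combination -m2
        | linear_combination -m3
  have h2 : fderiv ℂ h (θ z) = (gr h (θ z) i / gr f (θ z) i) • fderiv ℂ f (θ z) := by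
    ext v
    have h1 : v = ∑ k, v k • (Pi.single k (1 : ℂ) : E3) := by
      funext j
      simp [Finset.sum_apply, Pi.single_apply]
    rw [h1]
    simp only [map_sum, map_smul]
    refine Finset.sum_congr rfl fun k _ => ?_
    have e1 : fderiv ℂ h (θ z) (Pi.single k 1) = gr h (θ z) k := rfl
    have e2 : fderiv ℂ f (θ z) (Pi.single k 1) = gr f (θ z) k := rfl
    have e3 : ((gr h (θ z) i / gr f (θ z) i) • fderiv ℂ f (θ z)) (Pi.single k 1) =
        gr h (θ z) i / gr f (θ z) i * fderiv ℂ f (θ z) (Pi.single k 1) := rfl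
    rw [e1, e3, e2, ← key k]
  rw [comp_fderiv hθ hz hh, h2]
  ext v
  show (gr h (θ z) i / gr f (θ z) i) * fderiv ℂ f (θ z) (fderiv ℂ θ z _) = 0
  rw [dker hθ hz hf _, mul_zero]

end

/-- finite `L(h)` gives no zeros near the puncture -/
theorem noz_of_colFin {f h : E3 → ℂ} {r : ℝ} (hf : LvlOK f 0 r) (hfa : AnalyticAt ℂ f 0)
    (hh : AnalyticAt ℂ h 0) (hc : ColFin (mnr f h)) :
    ∃ ρ : ℝ, 0 < ρ ∧ ∀ r' ≤ ρ, 0 < r' → r' ≤ r → NoZ f r' h := by
  have han : ∀ j, AnalyticAt ℂ (mnr f h j) 0 := by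
    have F := Crest.Agent.R257.Skel_219.analyticAt_coordDeriv hfa
    have H := Crest.Agent.R257.Skel_219.analyticAt_coordDeriv hh
    intro j
    fin_cases j
    · exact hfa
    · exact ((F 1).mul (H 2)).sub ((F 2).mul (H 1))
    · exact ((F 2).mul (H 0)).sub ((F 0).mul (H 2))
    · exact ((F 0).mul (H 1)).sub ((F 1).mul (H 0))
  obtain ⟨ρ, h1, h2⟩ := nsq_lt_of ((iso_zero han hc).and hh.eventually_analyticAt)
  refine ⟨ρ, h1, fun r' h3 h4 h5 θ O hθ z hz => ?_⟩
  have h6 : nsq (θ z) < ρ ^ 2 := (hθ.lt z hz).trans_le (sq_mono h4.le h3)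
  have h7 : nsq (θ z) < r ^ 2 := (hθ.lt z hz).trans_le (sq_mono h4.le h5)
  exact fderiv_ne_of_minors hθ hz (hf.an _ h7) (h2 _ h6).2
    (fun hcon => hθ.ne z hz ((h2 _ h6).1 hcon)) (hθ.par.lvl z hz)

/-- a lower bound of `|dh|` gives finite `L(h)` -/
theorem colFin_of_lob (ns : NS0Stmt) {f h : E3 → ℂ} {r : ℝ} (hf : LvlOK f 0 r)
    (hfa : AnalyticAt ℂ f 0) (hh : AnalyticAt ℂ h 0) {u : E3 → ℝ} (hu : KEon f 0 r u) {A : ℝ}
    {N : ℕ} {φ : E3 → ℝ} (hl : LoB f r u A N φ h) : ColFin (mnr f h) := by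
  have F := Crest.Agent.R257.Skel_219.analyticAt_coordDeriv hfa
  have H := Crest.Agent.R257.Skel_219.analyticAt_coordDeriv hh
  refine ns 4 _ ?_ ?_
  · intro j
    fin_cases j
    · exact hfa
    · exact ((F 1).mul (H 2)).sub ((F 2).mul (H 1))
    · exact ((F 2).mul (H 0)).sub ((F 0).mul (H 2))
    · exact ((F 0).mul (H 1)).sub ((F 1).mul (H 0))
  · have h1 : ∀ᶠ x in 𝓝 (0 : E3), nsq x < r ^ 2 := by
      refine (continuous_nsq.tendsto 0).eventually (gt_mem_nhds ?_)
      have : nsq (0 : E3) = 0 := V1Pe_822.nsq_zero3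
      rw [this]
      exact pow_pos hf.pos 2
    filter_upwards [h1, hh.eventually_analyticAt] with x hx hhx hm
    by_contra hx0
    have hfx : f x = 0 := hm 0
    obtain ⟨θ, O, z, hθ, hz, hθz, -⟩ := exists_pe hf hx0 hx hfx
    obtain ⟨v, hv0, hv⟩ := hl θ O hθ z hz
    have h2 := fderiv_eq_of_minors (h := h) hθ hz (by rw [hθz]; exact hf.an x hx)
      (by rw [hθz]; exact hhx) (by rw [hθz]; exact hm) (by rw [hθz]; exact hf.sm x hx0 hx hfx)
    rw [h2] at hv
    have h3 := hu.pos θ O hθ z hz v hv0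
    have h4 : 0 < Real.exp (φ (θ z)) * lev (fun z => u (θ z)) z v := mul_pos (Real.exp_pos _) h3
    simp at hv
    linarith

end Crest.Agent.R257.SkelG_952
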