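import Crest.Agent.R257.LossT_309
import Crest.Agent.R257.SkelG4_952
import Crest.Agent.R257.KedM3_941
import Crest.Agent.R257.GenLin_812
import Crest.Agent.R257.Vol_397

/-!
R257 / LossU_309 (helper309): `BdStmt` and `LossStmt` from `TendStmt` and `V0Stmt`.
-/

set_option autoImplicit false

open Topology Filter MeasureTheory Set
open scoped ENNReal ContDiff Matrix

noncomputable section

namespace Crest.Agent.R257.LossU_309

open Crest.Agent.R275.Geo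
open Crest.Agent.R257.Defs_219
open Crest.Agent.R257.KED_952 Crest.Agent.R257.KEG_952
open Crest.Agent.R257.SkelV_952 Crest.Agent.R257.SkelG_952
open Crest.Agent.R257.PN_835 (nsq)
open Crest.Agent.R257.V1Defs_822 (SmL LvlOK lgh)
open Crest.Agent.R257.LossD_309 Crest.Agent.R257.LossT_309
open Crest.Agent.R257.V1W_822 (iso_zero nsq_lt_of)
open Crest.Agent.R257.Ked2_397 (denStmt bmyStmt)
open Crest.Agent.R257.Ked4_397 (ctDStmt cvDStmt)
open Crest.Agent.R257.KedM_941 (nuStmt measStmt fatStmt cvIStmt)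

/-- **`BdStmt`** -/
theorem bdStmt_of (tend : TendStmt) : BdStmt := by
  intro Φ τ₀ l r C w u hD χ hχ ν hν
  have _hne := hD.ne
  have h0 := smd_0 hD
  obtain ⟨h, hh, -, hcf⟩ := Crest.Agent.R257.Det_812.genLinStmt (fun x => Φ (x, τ₀)) hD.iso
  obtain ⟨ρ₁, hρ₁, hnz⟩ := noz_of_colFin h0 hD.iso.an hh hcf
  obtain ⟨ρ₂, hρ₂, han⟩ := nsq_lt_of hh.eventually_analyticAt
  set r' : ℝ := min r (min ρ₁ (ρ₂ / 2)) with hr'
  have hr'0 : 0 < r' := lt_min hD.r_pos (lt_min hρ₁ (by positivity))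
  have hr'r : r' ≤ r := min_le_left _ _
  have hr'1 : r' ≤ ρ₁ := (min_le_right _ _).trans (min_le_left _ _)
  have hr'2 : r' < ρ₂ := ((min_le_right _ _).trans (min_le_right _ _)).trans_lt (by linarith)
  have hD' := smd_mono hr'0 hr'r hD
  have h0' := smd_0 hD'
  obtain ⟨χ', hχ'⟩ := exists_cut hr'0
  obtain ⟨ν₀, hν₀⟩ := nuStmt _ 0 r h0.pos h0.an h0.sm
  have hν' : ∀ᶠ τ in l, IsNu (fun x => Φ (x, τ)) 0 r' (rs r' (ν τ)) := by
    filter_upwards [hν] with τ hτ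
    exact isnu_rs hr'0.le hr'r hτ
  have hh' : ∀ x, nsq x ≤ r' ^ 2 → AnalyticAt ℂ h x := by
    intro x hx
    refine han x (hx.trans_lt ?_)
    nlinarith
  obtain ⟨t1, t2⟩ := tend Φ τ₀ l r' C w u hD' _ rfl χ' hχ' (fun τ => rs r' (ν τ)) (rs r' ν₀) hν'
    (isnu_rs hr'0.le hr'r hν₀) h hh' hcf (hnz r' hr'1 hr'0 hr'r)
  set M : ℝ := ∫ x, oxd (fun x => Φ (x, τ₀)) u (fun _ => 0) h χ' x ∂(rs r' ν₀) +
    Real.pi ^ 2 * col (mnr (fun x => Φ (x, τ₀)) h) with hM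
  have hχ'0 : ∀ x, r' ^ 2 ≤ nsq x → χ' x = 0 := by
    obtain ⟨ρ, a1, a2, a3⟩ := hχ'.supp
    intro x hx
    refine a3 x (le_trans ?_ hx)
    nlinarith
  -- inner part
  have B1 : ∀ᶠ τ in l, C2I (ν τ) (fun x => Φ (x, τ)) (w τ) χ' ≤ ENNReal.ofReal (M + 1) := by
    filter_upwards [t1, t2.eventually (gt_mem_nhds (show M < M + 1 by linarith))] with τ h1 h2
    have e : C2I (rs r' (ν τ)) (fun x => Φ (x, τ)) (w τ) χ' =
        C2I (ν τ) (fun x => Φ (x, τ)) (w τ) χ' :=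
      lint_rs fun x hx => by rw [hχ'0 x hx, zero_mul, ENNReal.ofReal_zero]
    rw [e] at h1 h2
    rw [← ENNReal.ofReal_toReal h1.ne]
    exact ENNReal.ofReal_le_ofReal h2.le
  -- outer part
  have hψc : Continuous fun x => χ x * (1 - χ' x) :=
    hχ.sm.continuous.mul (continuous_const.sub hχ'.sm.continuous)
  have hcd := (ctDStmt _ 0 r h0.pos h0.an h0.sm u hD.ke0.1).1
  have hct : ∀ᶠ τ in l, CtL (fun x => Φ (x, τ)) 0 r
      (fun x => (χ x * (1 - χ' x)) * c2d (fun x => Φ (x, τ)) (w τ) x) := by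
    filter_upwards [smd_ev hD] with τ hτ
    exact CtL.mul (ctl_amb hψc) (ctDStmt _ 0 r hτ.1.pos hτ.1.an hτ.1.sm (w τ) hτ.2).1
  have hcv : Cv0 Φ r l τ₀ (fun τ x => (χ x * (1 - χ' x)) * c2d (fun x => Φ (x, τ)) (w τ) x)
      (fun x => (χ x * (1 - χ' x)) * c2d (fun x => Φ (x, τ₀)) u x) :=
    Cv0.mul (cv0_amb hD.lim hψc) (cvDStmt Φ τ₀ l r C w u hD.toFamD χ hχ).1 (ctl_amb hψc) hcd
  obtain ⟨r₂, a1, a2, a3⟩ := hχ.supp
  obtain ⟨ρ, hρ, h3⟩ := nsq_lt_of hχ'.one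
  have hs : ∀ x, nsq x ≤ (ρ / 2) ^ 2 ∨ r₂ ^ 2 ≤ nsq x → χ x * (1 - χ' x) = 0 := by
    rintro x (hx | hx)
    · rw [h3 x (hx.trans_lt (by nlinarith)), sub_self, mul_zero]
    · rw [a3 x hx, zero_mul]
  obtain ⟨-, c2, c3⟩ := Crest.Agent.R257.KedM_941.conv hD.toFam hν hν₀ hct
    (CtL.mul (ctl_amb hψc) hcd) hcv (by positivity : 0 < ρ / 2) a1 a2
    (Eventually.of_forall fun τ x _ hx => by rw [hs x hx, zero_mul])
    (fun x _ hx => by rw [hs x hx, zero_mul])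
  set M' : ℝ := ∫ x, (χ x * (1 - χ' x)) * c2d (fun x => Φ (x, τ₀)) u x ∂ν₀ with hM'
  refine ⟨(M + 1) ⊔ 0 + ((M' + 1) ⊔ 0), ?_⟩
  filter_upwards [B1, c2, c3.eventually (gt_mem_nhds (show M' < M' + 1 by linarith)), hν,
    smd_ev hD] with τ b1 b2 b3 hντ hτ
  have hnn : ∀ᵐ x ∂(ν τ), 0 ≤ c2d (fun x => Φ (x, τ)) (w τ) x := by
    filter_upwards [isnu_ae hντ] with x hx
    have h4 := bmyStmt _ 0 r (w τ) hτ.1.pos hτ.1.an hτ.1.sm hτ.2 x hx.1 hx.2.1 hx.2.2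
    have h5 := Real.exp_pos (w τ x)
    linarith
  have hle : C2I (ν τ) (fun x => Φ (x, τ)) (w τ) χ ≤
      C2I (ν τ) (fun x => Φ (x, τ)) (w τ) χ' +
        ENNReal.ofReal (∫ x, (χ x * (1 - χ' x)) * c2d (fun x => Φ (x, τ)) (w τ) x ∂(ν τ)) := by
    have h5 : 0 ≤ᵐ[ν τ] fun x => (χ x * (1 - χ' x)) * c2d (fun x => Φ (x, τ)) (w τ) x := by
      filter_upwards [hnn] with x hx
      exact mul_nonneg (mul_nonneg (hχ.nn x) (sub_nonneg.2 (hχ'.le x))) hx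
    rw [ofReal_integral_eq_lintegral_ofReal b2 h5]
    unfold C2I
    rw [← lintegral_add_right' _ (b2.aestronglyMeasurable.aemeasurable.ennreal_ofReal)]
    refine lintegral_mono_ae ?_
    filter_upwards [hnn] with x hx
    rw [← ENNReal.ofReal_add (mul_nonneg (hχ'.nn x) hx)
      (mul_nonneg (mul_nonneg (hχ.nn x) (sub_nonneg.2 (hχ'.le x))) hx)]
    refine ENNReal.ofReal_le_ofReal ?_
    have h6 : χ x ≤ χ' x + χ x * (1 - χ' x) := by
      have := hχ.le x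
      have := hχ'.nn x
      nlinarith
    calc χ x * c2d (fun x => Φ (x, τ)) (w τ) x
        ≤ (χ' x + χ x * (1 - χ' x)) * c2d (fun x => Φ (x, τ)) (w τ) x :=
          mul_le_mul_of_nonneg_right h6 hx
      _ = _ := by ring
  refine hle.trans ?_
  rw [ENNReal.ofReal_add (le_max_right _ _) (le_max_right _ _)]
  exact add_le_add (b1.trans (ENNReal.ofReal_le_ofReal (le_max_left _ _)))
    (ENNReal.ofReal_le_ofReal (b3.le.trans (le_max_left _ _)))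

/-- **`LossStmt`** -/
theorem lossStmt_of (tend : TendStmt) (v0 : V0Stmt) : LossStmt := by
  intro Φ τ₀ l r C w u hD f hf A hE φ hφ hpsh hbd χ hχ ν ν₀ hν hν₀ hI N h hh _ hcf hnz hup
  subst hf
  have h0 := smd_0 hD
  have hfin : C2I ν₀ (fun x => Φ (x, τ₀)) u χ < ⊤ :=
    (fin_0 fatStmt ctDStmt cvDStmt (bdStmt_of tend) hD hχ hν hν₀).lt_top
  have hvol : VOL ν₀ u χ < ⊤ := Vol_397.volStmt Φ τ₀ l r C w u hD _ rfl χ hχ ν₀ hν₀
  obtain ⟨-, t2⟩ := tend Φ τ₀ l r C w u hD _ rfl χ hχ ν ν₀ hν hν₀ h hh hcf hnz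
  obtain ⟨v1, v2⟩ := v0 _ r C u hD.iso h0 hD.ke0.1 hD.ke0.2 ν₀ hν₀ χ hχ hfin hvol A hE φ hφ hpsh
    hbd hI N h hh hnz hup
  refine ⟨fun ε hε => ?_, fun hlo ε hε => ?_⟩
  · filter_upwards [t2.eventually (gt_mem_nhds (lt_add_of_pos_right _ hε))] with τ hτ
    refine hτ.le.trans ?_
    nlinarith
  · have v2' := v2 hlo
    filter_upwards [t2.eventually (lt_mem_nhds (sub_lt_self _ hε))] with τ hτ
    nlinarith

end Crest.Agent.R257.LossU_309
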