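import Crest.Agent.R257.KEG_952

/-!
# Row 257 (S0395), UP0 (helper101): the leaves of `KEG_952.Up0Stmt`

* `PotStmt`  : bounded potentials with `L^q` Monge-Ampere density (Kolodziej), uniform bounds
* `MajStmt`  : smooth majorant on `ℂ²` of a function on the level `{f = s}` (coordinate projection
               `prj j`), with `L^q` norm controlled by the area formula
* `LowKStmt` : maximum principle with cut-offs at the puncture, uniform in the subsolution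
-/

set_option autoImplicit false

open Topology Filter MeasureTheory Set
open scoped ENNReal ContDiff Matrix

noncomputable section

namespace Crest.Agent.R257.Up0Defs_101

open Crest.Agent.R275.Geo
open Crest.Agent.R257.Defs_219
open Crest.Agent.R257.KED_952
open Crest.Agent.R257.KEG_952 (Esc)
open Crest.Agent.R257.V1Defs_822 (SmL LvlOK lgh)
open Crest.Agent.R273.Defs_333 (lev)
open Crest.Agent.R273.YauDefs_635 (cH)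
open Crest.Agent.R257.PN_835 (nsq)
open Crest.Agent.R257.Aff_835 (eta2a nga gra)

/-- bounded potentials on a ball of `ℂ²`, uniform in the `L^q` norm of the density -/
def PotStmt : Prop := ∀ q : ℝ, 1 < q → ∀ ρ K : ℝ, 0 < ρ → ∃ C c : ℝ, 0 < c ∧
  ∀ F : Cn 2 → ℝ, ContDiff ℝ ∞ F → (∀ z, 0 ≤ F z) → (∀ z, ρ ≤ ‖z‖ → F z = 0) →
  ∫ z, F z ^ q ≤ K →
  ∃ Φ : Cn 2 → ℝ, ContDiff ℝ ∞ Φ ∧ (∀ z v, 0 ≤ lev Φ z v) ∧ (∀ z, ‖z‖ ≤ ρ → |Φ z| ≤ C) ∧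
    ∀ z, ‖z‖ ≤ ρ → c * F z ≤ (cH Φ z).det.re

/-- the two coordinates different from `j` -/
def prj (j : Fin 3) (x : E3) : Cn 2 := WithLp.toLp 2 fun k => x (j.succAbove k)

/-- smooth majorant of the maximum over the fibres of `prj j`, where `∂_j f` is not small -/
def MajStmt : Prop := ∀ (f : E3 → ℂ) (s : ℂ) (r : ℝ), LvlOK f s r → ∀ ν, IsNu f s r ν →
  ∀ (j : Fin 3) (H : E3 → ℝ), CtL f s r H → (∀ x, 0 ≤ H x) → ∀ q : ℝ, 1 ≤ q →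
  ∀ ρ₁ ρ₂ ε : ℝ, 0 < ρ₁ → ρ₁ < ρ₂ → ρ₂ < r → 0 < ε →
  ∃ F : Cn 2 → ℝ, ContDiff ℝ ∞ F ∧ (∀ z, 0 ≤ F z) ∧ (∀ z, r ≤ ‖z‖ → F z = 0) ∧
    (∀ x, f x = s → ρ₁ ^ 2 ≤ nsq x → nsq x ≤ ρ₂ ^ 2 → nga f x ≤ 3 * ‖gra f x j‖ ^ 2 →
      H x ≤ F (prj j x)) ∧
    ENNReal.ofReal (∫ z, F z ^ q) ≤
      ∫⁻ x in {x | ρ₁ ^ 2 ≤ nsq x ∧ nsq x ≤ ρ₂ ^ 2}, ENNReal.ofReal (H x ^ q * nga f x) ∂ν +
        ENNReal.ofReal ε

/-- the cut-off maximum principle at the puncture; `δ` and `C'` do not depend on `w` -/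
def LowKStmt : Prop := ∀ (f : E3 → ℂ) (r : ℝ) (u : E3 → ℝ) (A : ℝ), LvlOK f 0 r → KEon f 0 r u →
  Esc f r u A → ∀ r₁ B c : ℝ, 0 < r₁ → r₁ < r → 0 < c → ∃ C' : ℝ,
  ∀ x, f x = 0 → x ≠ 0 → nsq x < r₁ ^ 2 → ∃ δ : ℝ, 0 < δ ∧
  ∀ w : E3 → ℝ, SmL f 0 r w →
    (∀ θ O, PE f 0 r θ O → ∀ z ∈ O, ∀ v : Cn 2, 0 ≤ lev (fun z => w (θ z)) z v) →
    (∀ θ O, PE f 0 r θ O → ∀ z ∈ O, δ ^ 2 ≤ nsq (θ z) → nsq (θ z) < r₁ ^ 2 →
      c * Real.exp (w (θ z)) * eta2a (n := 2) f θ z ≤ (cH (fun z => w (θ z)) z).det.re) →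
    (∀ y, f y = 0 → nsq y = r₁ ^ 2 → w y ≤ u y + B) →
    w x ≤ u x + C'

end Crest.Agent.R257.Up0Defs_101
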