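import Crest.Agent.R257.PairK1_39
import Crest.Agent.R257.Up0Defs_101

/-!
# Row 257 (S0395), LowKStmt (helper39): the maximum principle at the puncture, uniform version

* `cut_mp_u` : the constant does not depend on the function, the inequality is used on a compact set
* `low_u`    : the same for subsolutions
* `lowKStmt` : `Up0Defs_101.LowKStmt`
-/

set_option autoImplicit false
set_option linter.unusedSectionVars false

open Set Filter Topology Complex
open scoped ContDiff ComplexConjugate Matrix ComplexOrder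

namespace Crest.Agent.R257.Low2_39

open Crest.Agent.R275.Geo Crest.Agent.R275.Core144 Crest.Agent.R275.GC293
open Crest.Agent.R273 Crest.Agent.R273.Levi_145
open Crest.Agent.R273.YauDefs_635 Crest.Agent.R273.YauMax_635
open Crest.Agent.R273.HessB_333
open Crest.Agent.R273.GreenM_5 (ci mem_ci)
open Crest.Agent.R257.CLC_39 (trH)
open Crest.Agent.R257.CLD_39 (two_le' trH_congr trH_add trH_sub trH_const_mul trH_self
  trH_nonpos_of_localMax)
open Crest.Agent.R257.GMa_101 Crest.Agent.R257.GMb_101 Crest.Agent.R257.GMc_101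
open Crest.Agent.R257.Low_39

noncomputable section

variable {n : ℕ} {M : Type} [TopologicalSpace M] {A : Atl n M}

/-- **the maximum principle at the puncture, uniform** -/
theorem cut_mp_u {u : M → ℝ} {A₀ Cg : ℝ} (hu : A.Sm u) (hpos : Psh A u)
    (hA : ∀ x, u x + 1 ≤ A₀) (hCg : 0 ≤ Cg) {S U : Set M} (hUo : IsOpen U) (hUS : U ⊆ S)
    (hgr : GradB A u A₀ Cg S)
    (hprop : ∀ R : ℝ, IsCompact {x ∈ S | -R ≤ u x}) {α γ B : ℝ} (hα : 0 < α) (hγ : 0 ≤ γ) :
    ∃ C : ℝ, ∀ x ∈ S, ∃ K ⊆ S, IsCompact K ∧ x ∈ K ∧ ∀ f : M → ℝ, A.Sm f →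
      (∀ y ∈ K, y ∉ U → f y ≤ B) →
      (∀ y ∈ K, y ∈ U → α * Real.exp (f y) - γ ≤ Lp A u f y) → f x ≤ C := by
  obtain ⟨k, hk, hcut⟩ := exists_cut hu hpos hA hCg hgr hprop
  set K₀ : ℝ := max (max (Real.exp B) 1) ((γ + 4 * k * n) / α) with hK₀
  have hK1 : 1 ≤ K₀ := (le_max_right _ _).trans (le_max_left _ _)
  have hK0 : 0 < K₀ := by linarith
  refine ⟨Real.log K₀, fun x hx => ?_⟩
  obtain ⟨ζ, hζ, h01, h1, ⟨K, hKS, hK, hKz⟩, hcb⟩ := hcut x hx
  have hxK : x ∈ K := by
    by_contra h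
    have := hKz x hx h
    rw [h1] at this
    exact one_ne_zero this
  refine ⟨K, hKS, hK, hxK, fun f hf hbd hle => ?_⟩
  have hfc := continuous_of_sm hf
  set Φ : M → ℝ := fun y => Real.exp (f y) * ζ y ^ 2 with hΦ
  have hcont : ContinuousOn Φ K :=
    ((Real.continuous_exp.comp hfc).mul ((continuous_of_sm hζ).pow 2)).continuousOn
  obtain ⟨y, hyK, hy⟩ := hK.exists_isMaxOn ⟨x, hxK⟩ hcont
  have hyS := hKS hyK
  have hmS : ∀ w ∈ S, Φ w ≤ Φ y := by
    intro w hw
    by_cases hwK : w ∈ K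
    · exact hy hwK
    · have : Φ w = 0 := by simp only [hΦ, hKz w hw hwK]; simp
      rw [this]
      exact mul_nonneg (Real.exp_pos _).le (sq_nonneg _)
  have hmain : Φ y ≤ K₀ := by
    by_cases hin : y ∈ U
    swap
    · have h2 := Real.exp_le_exp.2 (hbd y hyK hin)
      have h3 : ζ y ^ 2 ≤ 1 := pow_le_one₀ (h01 y hyS).1 (h01 y hyS).2
      calc Φ y ≤ Real.exp (f y) * 1 :=
            mul_le_mul_of_nonneg_left h3 (Real.exp_pos _).le
        _ ≤ Real.exp B := by rw [mul_one]; exact h2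
        _ ≤ K₀ := (le_max_left _ _).trans (le_max_left _ _)
    rcases (h01 y hyS).1.eq_or_lt with h0 | h0
    · have : Φ y = 0 := by simp only [hΦ, ← h0]; simp
      rw [this]; exact hK0.le
    set i := ci A y with hi
    have hyi : y ∈ (A.e i).source := mem_ci y
    have hz : A.e i y ∈ (A.e i).target := (A.e i).map_source hyi
    have hinv : ∀ φ : M → ℝ, inC A i φ (A.e i y) = φ y := fun φ => by
      simp only [inC, (A.e i).left_inv hyi]
    have hux := inC_contDiffAt hu i hz
    have hfx := inC_contDiffAt hf i hz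
    have hζx := inC_contDiffAt hζ i hz
    have hζp : 0 < inC A i ζ (A.e i y) := by rw [hinv]; exact h0
    have hlζ : ContDiffAt ℝ ∞ (fun z => Real.log (inC A i ζ z)) (A.e i y) := hζx.log hζp.ne'
    have hlm : IsLocalMax Φ y := by
      filter_upwards [hUo.mem_nhds hin] with w hw
      exact hmS w (hUS hw)
    have hlm' : IsLocalMax (fun z => inC A i f z + 2 * Real.log (inC A i ζ z)) (A.e i y) := by
      have h2 := inC_localMax hlm hyi
      filter_upwards [h2, hζx.continuousAt.eventually (lt_mem_nhds hζp)] with z h3 h4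
      have h5 : Real.log (inC A i Φ z) ≤ Real.log (inC A i Φ (A.e i y)) :=
        Real.log_le_log (mul_pos (Real.exp_pos _) (pow_pos h4 2)) h3
      have e : ∀ z, 0 < inC A i ζ z → Real.log (inC A i Φ z) =
          inC A i f z + 2 * Real.log (inC A i ζ z) := fun z hz0 => by
        show Real.log (Real.exp (inC A i f z) * inC A i ζ z ^ 2) = _
        rw [Real.log_mul (Real.exp_pos _).ne' (pow_pos hz0 2).ne', Real.log_exp, Real.log_pow]
        push_cast
        ring
      rw [e z h4, e _ hζp] at h5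
      exact h5
    have h2 := trH_nonpos_of_localMax hux (pos333 (hpos i _ hz))
      (hfx.add (contDiffAt_const.mul hlζ)) hlm'
    rw [trH_add hux hfx (contDiffAt_const.mul hlζ), trH_const_mul hux hlζ] at h2
    have h3 := hle y hyK hin
    rw [Lp_eq hu hf hyi] at h3
    have h4 := log_cut hux (hpos i _ hz) hζx hζp (by rw [hinv]; exact (h01 y hyS).2) hk
      (fun v => (hcb y hyS i hyi v).1) (fun v => (hcb y hyS i hyi v).2)
    rw [hinv] at h4
    have hz1 : ζ y ^ 2 ≤ 1 := pow_le_one₀ (h01 y hyS).1 (h01 y hyS).2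
    have h5 : α * Real.exp (f y) ≤ γ + 4 * k * n / ζ y ^ 2 := by
      have e : 2 * (2 * k / ζ y ^ 2 * n) = 4 * k * n / ζ y ^ 2 := by ring
      linarith
    have h6 : α * Φ y ≤ γ + 4 * k * n := by
      calc α * Φ y = α * Real.exp (f y) * ζ y ^ 2 := by simp only [hΦ]; ring
        _ ≤ (γ + 4 * k * n / ζ y ^ 2) * ζ y ^ 2 := by gcongr
        _ = γ * ζ y ^ 2 + 4 * k * n := by field_simp
        _ ≤ γ * 1 + 4 * k * n := by gcongr
        _ = _ := by ring
    have h7 : Φ y ≤ (γ + 4 * k * n) / α := by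
      rw [le_div_iff₀ hα]
      linarith
    exact h7.trans (le_max_right _ _)
  have h2 : Real.exp (f x) ≤ K₀ := by
    have h3 := (hmS x hx).trans hmain
    simp only [hΦ, h1, one_pow, mul_one] at h3
    exact h3
  rw [← Real.log_exp (f x)]
  exact Real.log_le_log (Real.exp_pos _) h2

/-- lower bound of `u` by a subsolution, uniform in the subsolution -/
theorem low_u (hn : 0 < n) {u : M → ℝ} {A₀ Cg : ℝ} (hu : A.Sm u) (hpos : Psh A u)
    (hA : ∀ x, u x + 1 ≤ A₀) (hCg : 0 ≤ Cg) {S U : Set M} (hUo : IsOpen U) (hUS : U ⊆ S)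
    (hgr : GradB A u A₀ Cg S) (hprop : ∀ R : ℝ, IsCompact {x ∈ S | -R ≤ u x})
    {c B : ℝ} (hc : 0 < c) :
    ∃ C : ℝ, ∀ x ∈ S, ∃ K ⊆ S, IsCompact K ∧ x ∈ K ∧ ∀ w : M → ℝ, A.Sm w →
      (∀ y ∈ K, y ∉ U → w y ≤ u y + B) →
      (∀ y ∈ K, y ∈ U → ∀ i, y ∈ (A.e i).source → (∀ v, 0 ≤ lev (inC A i w) (A.e i y) v) ∧
        c * Real.exp (w y - u y) * (cH (inC A i u) (A.e i y)).det.re
          ≤ (cH (inC A i w) (A.e i y)).det.re) → w x ≤ u x + C := by
  have hn' : (0 : ℝ) < n := by exact_mod_cast hn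
  obtain ⟨C, hC⟩ := cut_mp_u (α := c ^ ((1 : ℝ) / n)) (γ := 1) (B := B / n) hu hpos hA hCg hUo hUS
    hgr hprop (Real.rpow_pos_of_pos hc _) zero_le_one
  refine ⟨n * C, fun x hx => ?_⟩
  obtain ⟨K, hKS, hK, hxK, h⟩ := hC x hx
  refine ⟨K, hKS, hK, hxK, fun w hw hbd hle => ?_⟩
  set f : M → ℝ := fun x => (1 / (n : ℝ)) * (w x - u x) with hfdef
  have hf : A.Sm f := fun i => contDiffOn_const.mul ((hw i).sub (hu i))
  have h1 := h f hf (fun y hyK hyU => by
      have := hbd y hyK hyU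
      simp only [hfdef]
      rw [one_div, inv_mul_le_iff₀ hn']
      field_simp
      linarith)
    (fun x hxK' hxU => by
      set i := ci A x with hi
      have hxi : x ∈ (A.e i).source := mem_ci x
      have hz : A.e i x ∈ (A.e i).target := (A.e i).map_source hxi
      have hux := inC_contDiffAt hu i hz
      have hwx := inC_contDiffAt hw i hz
      rw [Lp_eq hu hf hxi]
      have e1 : inC A i f = fun z => (1 / (n : ℝ)) * (inC A i w z - inC A i u z) := rfl
      rw [e1, trH_const_mul hux (hwx.sub hux), trH_sub hux hwx hux,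
        trH_self hux (pos333 (hpos i _ hz))]
      have h1 := tr_ge hn hux (hpos i _ hz) hwx (hle x hxK' hxU i hxi).1
        (b := c * Real.exp (w x - u x)) (by positivity) (hle x hxK' hxU i hxi).2
      have e2 : (c * Real.exp (w x - u x)) ^ ((1 : ℝ) / n) =
          c ^ ((1 : ℝ) / n) * Real.exp (f x) := by
        rw [Real.mul_rpow hc.le (Real.exp_pos _).le, ← Real.exp_mul]
        congr 2
        simp only [hfdef]
        ring
      rw [e2] at h1
      have h2 : (1 / (n : ℝ)) * (n * (c ^ ((1 : ℝ) / n) * Real.exp (f x)) - n) ≤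
          (1 / (n : ℝ)) * (trH (inC A i u) (inC A i w) (A.e i x) - n) :=
        mul_le_mul_of_nonneg_left (by linarith) (by positivity)
      refine le_trans (le_of_eq ?_) h2
      field_simp)
  simp only [hfdef] at h1
  rw [one_div, inv_mul_le_iff₀ hn'] at h1
  linarith

open Crest.Agent.R257.PN_835 (nsq)
open Crest.Agent.R257.Aff_835 (eta2a)
open Crest.Agent.R257.Defs_219 Crest.Agent.R257.KED_952 Crest.Agent.R257.KEG_952
open Crest.Agent.R257.V1Defs_822 (SmL LvlOK lgh)
open Crest.Agent.R257.UpK_938 (LX mem_M mkM thc pe_chart thc_eq)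
open Crest.Agent.R257.GradK_39 (continuous_nsq)
open Crest.Agent.R257.PairK_39

/-- **`LowKStmt`** -/
theorem lowKStmt : Crest.Agent.R257.Up0Defs_101.LowKStmt := by
  intro f r u A₁ hf hK hE r₁ B c h0 hr hc
  have h1 : r₁ ^ 2 < r ^ 2 := pow_lt_pow_left₀ hr h0.le two_ne_zero
  set U : Set ((LX hf).M 0) := {x | nsq x.1 < r₁ ^ 2} with hU
  have hUo : IsOpen U := isOpen_lt (continuous_nsq.comp continuous_subtype_val) continuous_const
  have hUS : U ⊆ Sb hf r₁ := fun x hx => le_of_lt (show nsq x.1 < r₁ ^ 2 from hx)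
  obtain ⟨C, hC⟩ := low_u (A := (LX hf).A 0) (u := vl hf u) (A₀ := A₁) (Cg := 2 * A₁)
    (S := Sb hf r₁) (U := U) (c := c) (B := B) two_pos (sm_vl hf hK.sm) (psh_vl hf hK)
    (fun x => by
      obtain ⟨m1, m2, m3⟩ := mem_M hf x
      have := hE.one x.1 m1 m2 m3
      show u x.1 + 1 ≤ A₁
      linarith) (by linarith [hE.pos]) hUo hUS (gradB_vl hf hK hE _) (prop_vl hf hK hE h0.le hr) hc
  refine ⟨C, fun x m1 m2 m3 => ?_⟩
  obtain ⟨K, hKS, hKc, hxK, h⟩ := hC (mkM hf m1 m2 (m3.trans h1)) (le_of_lt m3)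
  -- the compact set stays away from the origin
  obtain ⟨y₀, hy₀, hmin⟩ := hKc.exists_isMinOn ⟨_, hxK⟩
    ((continuous_nsq.comp continuous_subtype_val).continuousOn (s := K))
  have hpos : 0 < nsq y₀.1 := by
    have h2 := (mem_M hf y₀).2.1
    obtain ⟨i, hi⟩ : ∃ i, y₀.1 i ≠ 0 := by
      by_contra hcon
      push Not at hcon
      exact h2 (funext hcon)
    exact Finset.sum_pos' (fun _ _ => by positivity) ⟨i, Finset.mem_univ i, by positivity⟩
  refine ⟨Real.sqrt (nsq y₀.1), Real.sqrt_pos.2 hpos, fun w hw hw0 hdet hbd => ?_⟩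
  rw [Real.sq_sqrt hpos.le] at hdet
  refine h (vl hf w) (sm_vl hf hw) (fun y hyK hyU => ?_) (fun y hyK hyU i hi => ?_)
  · have hle : nsq y.1 ≤ r₁ ^ 2 := hKS hyK
    have hge : r₁ ^ 2 ≤ nsq y.1 := not_lt.1 hyU
    exact hbd y.1 (mem_M hf y).1 (le_antisymm hle hge)
  · have hz := (((LX hf).A 0).e i).map_source hi
    have hP := pe_chart hf i
    have hx : thc hf i (((LX hf).A 0).e i y) = y.1 := thc_eq hf hi
    constructor
    · intro v
      have h2 := hw0 _ _ hP _ hz v
      rw [lev333_eq_lev145] at h2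
      show 0 ≤ Levi_145.lev (fun z => w (thc hf i z)) _ v
      linarith
    · have h2 := hdet _ _ hP _ hz (by rw [hx]; exact hmin hyK) (by rw [hx]; exact hyU)
      have h3 := hK.ma _ _ hP _ hz
      rw [hx] at h2 h3
      show c * Real.exp (w y.1 - u y.1) *
        (cH (fun z => u (thc hf i z)) (((LX hf).A 0).e i y)).det.re ≤
        (cH (fun z => w (thc hf i z)) (((LX hf).A 0).e i y)).det.re
      rw [h3, Complex.ofReal_re]
      refine le_trans (le_of_eq ?_) h2
      rw [Real.exp_sub]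
      field_simp

end

end Crest.Agent.R257.Low2_39
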