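import Crest.Agent.R257.GMd_101
import Crest.Agent.R273.FIlin_332

/-!
# Row 257 (S0395), GB-LOW (helper39): maximum principle with cut-off functions at the puncture

Setting of helper101's GRAD-MOV: `u` strictly psh on `M`, `|∂u|² ≤ Cg (A₀ - u)²` on `S`,
`{x ∈ S | -R ≤ u x}` compact, `S \ interior S` compact.
* `tr_ge`      : `n (c e^f)^(1/n) ≤ tr_u w` if `c e^f det ∂∂̄u ≤ det ∂∂̄w`
* `exists_cut` : the cut-off functions
* `cut_mp`     : `α e^f - γ ≤ Δ f` on `interior S` implies `f ≤ C` on `S`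
* `low`        : psh `w` with `c e^(w-u) det ∂∂̄u ≤ det ∂∂̄w` on `S` implies `w ≤ u + C` on `S`
-/

set_option autoImplicit false
set_option linter.unusedSectionVars false

open Set Filter Topology Complex
open scoped ContDiff ComplexConjugate Matrix ComplexOrder

namespace Crest.Agent.R257.Low_39

open Crest.Agent.R275.Geo Crest.Agent.R275.Core144 Crest.Agent.R275.GC293
open Crest.Agent.R273 Crest.Agent.R273.Levi_145
open Crest.Agent.R273.YauDefs_635 Crest.Agent.R273.YauMax_635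
open Crest.Agent.R273.HessB_333
open Crest.Agent.R273.GreenM_5 (ci mem_ci)
open Crest.Agent.R257.CLC_39 (trH)
open Crest.Agent.R257.CLD_39 (two_le' trH_congr trH_add trH_sub trH_const_mul trH_self
  trH_nonpos_of_localMax)
open Crest.Agent.R257.GMa_101 Crest.Agent.R257.GMb_101 Crest.Agent.R257.GMc_101
open Crest.Agent.R257.GradB_537 (rho sm_rho cut_off)

noncomputable section

variable {n : ℕ}

section pt

variable {u w : Cn n → ℝ} {z : Cn n}

/-- arithmetic-geometric mean inequality -/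
theorem tr_ge (hn : 0 < n) (hu : ContDiffAt ℝ ∞ u z) (hpos : ∀ v, v ≠ 0 → 0 < lev u z v)
    (hw : ContDiffAt ℝ ∞ w z) (hw0 : ∀ v, 0 ≤ lev w z v) {b : ℝ} (hb : 0 ≤ b)
    (h : b * (cH u z).det.re ≤ (cH w z).det.re) : n * b ^ ((1 : ℝ) / n) ≤ trH u w z := by
  have h1 : (cH u z).PosDef := by
    rw [cH_eq_hess hu]
    exact posDef_hess hu (pos333 hpos)
  have h2 : (cH w z).PosSemidef := by
    rw [cH_eq_hess hw]
    exact posSemidef_hess hw fun v => by
      rw [lev333_eq_lev145]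
      linarith [hw0 v]
  have h3 := FIlin_332.amgm hn h1 h2
  have h4 : 0 < (cH u z).det.re := by
    have := h1.det_pos
    exact (Complex.lt_def.1 this).1
  have h5 : b ≤ (cH w z).det.re / (cH u z).det.re := by
    rw [le_div_iff₀ h4]
    exact h
  have h6 : b ^ ((1 : ℝ) / n) ≤ ((cH w z).det.re / (cH u z).det.re) ^ ((1 : ℝ) / n) :=
    Real.rpow_le_rpow hb h5 (by positivity)
  exact (mul_le_mul_of_nonneg_left h6 (Nat.cast_nonneg n)).trans h3

/-- the Laplacian of the logarithm of a cut-off function -/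
theorem log_cut {ζ : Cn n → ℝ} (hu : ContDiffAt ℝ ∞ u z) (hpos : ∀ v, v ≠ 0 → 0 < lev u z v)
    (hζ : ContDiffAt ℝ ∞ ζ z) (hζ0 : 0 < ζ z) (hζ1 : ζ z ≤ 1) {k : ℝ} (hk : 0 ≤ k)
    (hζl : ∀ v, -(k * lev u z v) ≤ lev ζ z v) (hζg : ∀ v, ‖gr ζ z v‖ ^ 2 ≤ k * lev u z v) :
    -(2 * k / ζ z ^ 2 * n) ≤ trH u (fun z => Real.log (ζ z)) z := by
  have lζ : ContDiffAt ℝ ∞ (fun z => Real.log (ζ z)) z := hζ.log hζ0.ne'
  have b1 : ContDiffAt ℝ ∞ (fun z => (-1 : ℝ) * Real.log (ζ z)) z := contDiffAt_const.mul lζ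
  have b2 : trH u (fun z => (-1 : ℝ) * Real.log (ζ z)) z ≤ 2 * k / ζ z ^ 2 * n := by
    refine trH_le_n hu hpos b1 fun v => ?_
    rw [lev_const_mul (-1) (two_le' lζ), lev_log (two_le' hζ) hζ0]
    have hl : 0 ≤ lev u z v := by
      rcases eq_or_ne v 0 with h0 | h0
      · rw [h0, lev_zero]
      · exact (hpos v h0).le
    have b3 : -(lev ζ z v / ζ z) ≤ k * lev u z v / ζ z ^ 2 := by
      rw [← neg_div, div_le_div_iff₀ hζ0 (by positivity)]
      have c1 : - lev ζ z v ≤ k * lev u z v := by linarith [hζl v]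
      have c2 : 0 ≤ k * lev u z v := by positivity
      calc - lev ζ z v * ζ z ^ 2 ≤ k * lev u z v * ζ z ^ 2 := by gcongr
        _ ≤ k * lev u z v * ζ z := by
          have : ζ z ^ 2 ≤ ζ z := by nlinarith
          gcongr
    have b4 : ‖gr ζ z v‖ ^ 2 / ζ z ^ 2 ≤ k * lev u z v / ζ z ^ 2 := by
      gcongr
      exact hζg v
    calc -1 * (lev ζ z v / ζ z - ‖gr ζ z v‖ ^ 2 / ζ z ^ 2)
        = -(lev ζ z v / ζ z) + ‖gr ζ z v‖ ^ 2 / ζ z ^ 2 := by ring
      _ ≤ k * lev u z v / ζ z ^ 2 + k * lev u z v / ζ z ^ 2 := add_le_add b3 b4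
      _ = 2 * k / ζ z ^ 2 * lev u z v := by ring
  rw [trH_const_mul hu lζ] at b2
  linarith

end pt

variable {M : Type} [TopologicalSpace M] {A : Atl n M}

/-- **cut-off functions** (helper101's construction in `grad_mov_ke`) -/
theorem exists_cut {u : M → ℝ} {A₀ Cg : ℝ} (hu : A.Sm u) (hpos : Psh A u)
    (hA : ∀ x, u x + 1 ≤ A₀) (hCg : 0 ≤ Cg) {S : Set M} (hgr : GradB A u A₀ Cg S)
    (hprop : ∀ R : ℝ, IsCompact {x ∈ S | -R ≤ u x}) :
    ∃ k : ℝ, 0 ≤ k ∧ ∀ x ∈ S, ∃ ζ : M → ℝ, A.Sm ζ ∧ (∀ y ∈ S, 0 ≤ ζ y ∧ ζ y ≤ 1) ∧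
      ζ x = 1 ∧ (∃ K ⊆ S, IsCompact K ∧ ∀ y ∈ S, y ∉ K → ζ y = 0) ∧
      ∀ y ∈ S, CutB A u ζ k y := by
  obtain ⟨χ, χ', χ'', K, hχ, hχ', hχ'', hK1, hK2, h01, hone, hzero⟩ := exists_chi
  have hK0 : 0 ≤ K := (abs_nonneg _).trans (hK1 0)
  have hw1 : ∀ x, 1 ≤ A₀ - u x := fun x => by linarith [hA x]
  set k : ℝ := max (K * (2 * Cg + 1)) (K ^ 2 * Cg) with hk
  have hk0 : 0 ≤ k := le_trans (by positivity) (le_max_right _ _)
  refine ⟨k, hk0, fun x hx => ?_⟩
  set j : ℝ := max 1 (Real.log (A₀ - u x)) with hj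
  have hj1 : 1 ≤ j := le_max_left _ _
  have hj0 : 0 < j := by linarith
  refine ⟨fun y => χ (Real.log (A₀ - u y) / j), ?_, fun y _ => h01 _, ?_, ?_, ?_⟩
  · intro i
    refine hχ.comp_contDiffOn (((contDiffOn_const.sub (hu i)).log fun z hz => ?_).div_const j)
    have := hw1 ((A.e i).symm z)
    exact (by linarith : (0 : ℝ) < A₀ - u ((A.e i).symm z)).ne'
  · have : Real.log (A₀ - u x) / j ≤ 1 := by
      rw [div_le_one hj0]; exact le_max_right _ _
    exact hone _ this
  · refine ⟨{y ∈ S | -(Real.exp (2 * j) - A₀) ≤ u y}, sep_subset _ _, hprop _, ?_⟩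
    intro y hy hyK
    apply hzero
    rw [le_div_iff₀ hj0]
    have h1 : u y < -(Real.exp (2 * j) - A₀) := by
      by_contra h
      exact hyK ⟨hy, not_lt.1 h⟩
    have h2 : Real.exp (2 * j) ≤ A₀ - u y := by linarith
    calc 2 * j = Real.log (Real.exp (2 * j)) := (Real.log_exp _).symm
      _ ≤ _ := Real.log_le_log (Real.exp_pos _) h2
  · intro y hy i hyi v
    have hz : A.e i y ∈ (A.e i).target := (A.e i).map_source hyi
    have hinv : inC A i u (A.e i y) = u y := by simp only [inC, (A.e i).left_inv hyi]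
    have h1 := cut_off (A := A₀) (C := Cg) (u := inC A i u) (x := A.e i y) hχ' hχ'' hK1 hK2 hj1
      (inC_contDiffAt hu i hz) (by rw [hinv]; exact hA y) v (lev_nn hpos hz v)
      (by rw [hinv]; exact hgr y hy i hyi v)
    have e : inC A i (fun y => χ (Real.log (A₀ - u y) / j)) =
      fun z => χ (rho A₀ (inC A i u) z / j) := rfl
    rw [e]
    have hl := lev_nn hpos hz v
    refine ⟨?_, h1.2.trans ?_⟩
    · have h2 := (abs_le.1 h1.1).1
      have h3 : K * (2 * Cg + 1) / j ≤ k :=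
        (div_le_self (by positivity) hj1).trans (le_max_left _ _)
      have h4 := mul_le_mul_of_nonneg_right h3 hl
      linarith
    · have h3 : K ^ 2 * Cg / j ^ 2 ≤ k :=
        (div_le_self (by positivity) (one_le_pow₀ hj1)).trans (le_max_right _ _)
      exact mul_le_mul_of_nonneg_right h3 hl

/-- **the maximum principle at the puncture** -/
theorem cut_mp {u : M → ℝ} {A₀ Cg : ℝ} (hu : A.Sm u) (hpos : Psh A u)
    (hA : ∀ x, u x + 1 ≤ A₀) (hCg : 0 ≤ Cg) {S : Set M} (hgr : GradB A u A₀ Cg S)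
    (hprop : ∀ R : ℝ, IsCompact {x ∈ S | -R ≤ u x}) (hfr : IsCompact (S \ interior S))
    {f : M → ℝ} (hf : A.Sm f) {α γ : ℝ} (hα : 0 < α) (hγ : 0 ≤ γ)
    (hle : ∀ x ∈ interior S, α * Real.exp (f x) - γ ≤ Lp A u f x) :
    ∃ C : ℝ, ∀ x ∈ S, f x ≤ C := by
  obtain ⟨k, hk, hcut⟩ := exists_cut hu hpos hA hCg hgr hprop
  have hfc := continuous_of_sm hf
  obtain ⟨B, hB⟩ := hfr.exists_bound_of_continuousOn (f := fun x => Real.exp (f x))
    (Real.continuous_exp.comp hfc).continuousOn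
  set K₀ : ℝ := max (max B 1) ((γ + 4 * k * n) / α) with hK₀
  have hK1 : 1 ≤ K₀ := (le_max_right _ _).trans (le_max_left _ _)
  have hK0 : 0 < K₀ := by linarith
  refine ⟨Real.log K₀, fun x hx => ?_⟩
  obtain ⟨ζ, hζ, h01, h1, ⟨K, hKS, hK, hKz⟩, hcb⟩ := hcut x hx
  set Φ : M → ℝ := fun y => Real.exp (f y) * ζ y ^ 2 with hΦ
  have hxK : x ∈ K := by
    by_contra h
    have := hKz x hx h
    rw [h1] at this
    exact one_ne_zero this
  have hcont : ContinuousOn Φ K :=
    ((Real.continuous_exp.comp hfc).mul ((continuous_of_sm hζ).pow 2)).continuousOn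
  obtain ⟨y, hyK, hy⟩ := hK.exists_isMaxOn ⟨x, hxK⟩ hcont
  have hyS := hKS hyK
  have hmS : ∀ w ∈ S, Φ w ≤ Φ y := by
    intro w hw
    by_cases hwK : w ∈ K
    · exact hy hwK
    · have : Φ w = 0 := by simp only [hΦ, hKz w hw hwK]; simp
      rw [this]
      exact mul_nonneg (Real.exp_pos _).le (sq_nonneg _)
  have hmain : Φ y ≤ K₀ := by
    by_cases hin : y ∈ interior S
    swap
    · have h2 := (le_abs_self _).trans (hB y ⟨hyS, hin⟩)
      have h3 : ζ y ^ 2 ≤ 1 := pow_le_one₀ (h01 y hyS).1 (h01 y hyS).2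
      calc Φ y ≤ Real.exp (f y) * 1 :=
            mul_le_mul_of_nonneg_left h3 (Real.exp_pos _).le
        _ ≤ B := by rw [mul_one]; exact h2
        _ ≤ K₀ := (le_max_left _ _).trans (le_max_left _ _)
    rcases (h01 y hyS).1.eq_or_lt with h0 | h0
    · have : Φ y = 0 := by simp only [hΦ, ← h0]; simp
      rw [this]; exact hK0.le
    set i := ci A y with hi
    have hyi : y ∈ (A.e i).source := mem_ci y
    have hz : A.e i y ∈ (A.e i).target := (A.e i).map_source hyi
    have hinv : ∀ φ : M → ℝ, inC A i φ (A.e i y) = φ y := fun φ => by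
      simp only [inC, (A.e i).left_inv hyi]
    have hux := inC_contDiffAt hu i hz
    have hfx := inC_contDiffAt hf i hz
    have hζx := inC_contDiffAt hζ i hz
    have hζp : 0 < inC A i ζ (A.e i y) := by rw [hinv]; exact h0
    have hlζ : ContDiffAt ℝ ∞ (fun z => Real.log (inC A i ζ z)) (A.e i y) := hζx.log hζp.ne'
    have hlm : IsLocalMax Φ y := by
      filter_upwards [mem_interior_iff_mem_nhds.1 hin] with w hw
      exact hmS w hw
    have hlm' : IsLocalMax (fun z => inC A i f z + 2 * Real.log (inC A i ζ z)) (A.e i y) := by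
      have h2 := inC_localMax hlm hyi
      filter_upwards [h2, hζx.continuousAt.eventually (lt_mem_nhds hζp)] with z h3 h4
      have h5 : Real.log (inC A i Φ z) ≤ Real.log (inC A i Φ (A.e i y)) :=
        Real.log_le_log (mul_pos (Real.exp_pos _) (pow_pos h4 2)) h3
      have e : ∀ z, 0 < inC A i ζ z → Real.log (inC A i Φ z) =
          inC A i f z + 2 * Real.log (inC A i ζ z) := fun z hz0 => by
        show Real.log (Real.exp (inC A i f z) * inC A i ζ z ^ 2) = _
        rw [Real.log_mul (Real.exp_pos _).ne' (pow_pos hz0 2).ne', Real.log_exp, Real.log_pow]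
        push_cast
        ring
      rw [e z h4, e _ hζp] at h5
      exact h5
    have h2 := trH_nonpos_of_localMax hux (pos333 (hpos i _ hz))
      (hfx.add (contDiffAt_const.mul hlζ)) hlm'
    rw [trH_add hux hfx (contDiffAt_const.mul hlζ), trH_const_mul hux hlζ] at h2
    have h3 := hle y hin
    rw [Lp_eq hu hf hyi] at h3
    have h4 := log_cut hux (hpos i _ hz) hζx hζp (by rw [hinv]; exact (h01 y hyS).2) hk
      (fun v => (hcb y hyS i hyi v).1) (fun v => (hcb y hyS i hyi v).2)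
    rw [hinv] at h4
    have hz1 : ζ y ^ 2 ≤ 1 := pow_le_one₀ (h01 y hyS).1 (h01 y hyS).2
    have h5 : α * Real.exp (f y) ≤ γ + 4 * k * n / ζ y ^ 2 := by
      have e : 2 * (2 * k / ζ y ^ 2 * n) = 4 * k * n / ζ y ^ 2 := by ring
      linarith
    have h6 : α * Φ y ≤ γ + 4 * k * n := by
      calc α * Φ y = α * Real.exp (f y) * ζ y ^ 2 := by simp only [hΦ]; ring
        _ ≤ (γ + 4 * k * n / ζ y ^ 2) * ζ y ^ 2 := by gcongr
        _ = γ * ζ y ^ 2 + 4 * k * n := by field_simp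
        _ ≤ γ * 1 + 4 * k * n := by gcongr
        _ = _ := by ring
    have h7 : Φ y ≤ (γ + 4 * k * n) / α := by
      rw [le_div_iff₀ hα]
      linarith
    exact h7.trans (le_max_right _ _)
  have h2 : Real.exp (f x) ≤ K₀ := by
    have h3 := (hmS x hx).trans hmain
    simp only [hΦ, h1, one_pow, mul_one] at h3
    exact h3
  rw [← Real.log_exp (f x)]
  exact Real.log_le_log (Real.exp_pos _) h2

/-- **LOW**: lower bound of `u` by a subsolution, no condition at the puncture -/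
theorem low (hn : 0 < n) {u w : M → ℝ} {A₀ Cg : ℝ} (hu : A.Sm u) (hpos : Psh A u)
    (hA : ∀ x, u x + 1 ≤ A₀) (hCg : 0 ≤ Cg) {S : Set M} (hgr : GradB A u A₀ Cg S)
    (hprop : ∀ R : ℝ, IsCompact {x ∈ S | -R ≤ u x}) (hfr : IsCompact (S \ interior S))
    (hw : A.Sm w)
    (hw0 : ∀ x ∈ interior S, ∀ i, x ∈ (A.e i).source → ∀ v, 0 ≤ lev (inC A i w) (A.e i x) v)
    {c : ℝ} (hc : 0 < c)
    (hdet : ∀ x ∈ interior S, ∀ i, x ∈ (A.e i).source →
      c * Real.exp (w x - u x) * (cH (inC A i u) (A.e i x)).det.re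
        ≤ (cH (inC A i w) (A.e i x)).det.re) :
    ∃ C : ℝ, ∀ x ∈ S, w x ≤ u x + C := by
  have hn' : (0 : ℝ) < n := by exact_mod_cast hn
  set f : M → ℝ := fun x => (1 / (n : ℝ)) * (w x - u x) with hfdef
  have hf : A.Sm f := fun i => contDiffOn_const.mul ((hw i).sub (hu i))
  obtain ⟨C, hC⟩ := cut_mp (f := f) (α := c ^ ((1 : ℝ) / n)) (γ := 1) hu hpos hA hCg hgr hprop hfr hf
    (Real.rpow_pos_of_pos hc _) zero_le_one (fun x hx => by
      set i := ci A x with hi
      have hxi : x ∈ (A.e i).source := mem_ci x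
      have hz : A.e i x ∈ (A.e i).target := (A.e i).map_source hxi
      have hux := inC_contDiffAt hu i hz
      have hwx := inC_contDiffAt hw i hz
      rw [Lp_eq hu hf hxi]
      have e1 : inC A i f = fun z => (1 / (n : ℝ)) * (inC A i w z - inC A i u z) := rfl
      rw [e1, trH_const_mul hux (hwx.sub hux), trH_sub hux hwx hux,
        trH_self hux (pos333 (hpos i _ hz))]
      have h1 := tr_ge hn hux (hpos i _ hz) hwx (hw0 x hx i hxi)
        (b := c * Real.exp (w x - u x)) (by positivity) (hdet x hx i hxi)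
      have e2 : (c * Real.exp (w x - u x)) ^ ((1 : ℝ) / n) =
          c ^ ((1 : ℝ) / n) * Real.exp (f x) := by
        rw [Real.mul_rpow hc.le (Real.exp_pos _).le, ← Real.exp_mul]
        congr 2
        simp only [hfdef]
        ring
      rw [e2] at h1
      have h2 : (1 / (n : ℝ)) * (n * (c ^ ((1 : ℝ) / n) * Real.exp (f x)) - n) ≤
          (1 / (n : ℝ)) * (trH (inC A i u) (inC A i w) (A.e i x) - n) :=
        mul_le_mul_of_nonneg_left (by linarith) (by positivity)
      refine le_trans (le_of_eq ?_) h2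
      field_simp)
  refine ⟨n * C, fun x hx => ?_⟩
  have h1 := hC x hx
  simp only [hfdef] at h1
  rw [one_div, inv_mul_le_iff₀ hn'] at h1
  linarith

end

end Crest.Agent.R257.Low_39
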