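import Crest.Agent.R257.RtD_838
import Crest.Agent.R257.DegTR_578
import Crest.Agent.R257.Cnm7_889

/-!
R257 (S0395), LCX-R (helper648), part 1: the Jacobian determinant is not in the ideal
(`jac_not_mem`), in particular `hess f ∉ J(f)` for every isolated critical germ.
-/

set_option autoImplicit false
set_option linter.unusedSectionVars false

open Set Filter Topology Complex
open scoped Matrix

namespace Crest.Agent.R257.Lr_648

open RtD_838 Defs_219
open Crest.AlgGeometry.Germ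

noncomputable section

variable {n : ℕ}

theorem col_pos {F : Fin n → (Fin n → ℂ) → ℂ}
    (hF0 : ∀ j, F j 0 = 0) (hfin : ColFin F) : 0 < col F := by
  have : Module.Finite ℂ (Quo F) := hfin
  have hne : Nontrivial (Quo F) := by
    rw [Submodule.Quotient.nontrivial_iff]
    intro htop
    have h1 : (⟨fun _ => 1, analyticAt_const⟩ : analyticAtOrigin n) ∈ gens F := by
      rw [htop]; trivial
    obtain ⟨a, ha, h⟩ := h1
    have := h.self_of_nhds
    simp only [hF0, mul_zero, Finset.sum_const_zero] at this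
    exact one_ne_zero this
  exact Module.finrank_pos

/-- THE JACOBIAN DETERMINANT IS NOT IN THE IDEAL -/
theorem jac_not_mem (F : Fin n → (Fin n → ℂ) → ℂ) (hF : ∀ j, AnalyticAt ℂ (F j) 0)
    (hF0 : ∀ j, F j 0 = 0) (hfin : ColFin F)
    (hiso : ∀ᶠ x in 𝓝 (0 : Fin n → ℂ), (∀ j, F j x = 0) → x = 0)
    (a : Fin n → (Fin n → ℂ) → ℂ) (ha : ∀ j, AnalyticAt ℂ (a j) 0)
    (h : ∀ᶠ x in 𝓝 (0 : Fin n → ℂ), jac F x = ∑ j, a j x * F j x) : False := by
  classical
  obtain ⟨r₀, hr₀, -, hcnt⟩ := Cnm7_889.fto_gen F hF hF0 hfin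
  -- trace bounds
  have hG : ∀ j, AnalyticAt ℂ (fun p : (Fin n → ℂ) × ℂ => F j p.1) (0, 0) := fun j =>
    AnalyticAt.fun_comp (g := F j) (f := Prod.fst) (hF j) analyticAt_fst
  have hg : ∀ j, AnalyticAt ℂ (fun p : (Fin n → ℂ) × ℂ => a j p.1) (0, 0) := fun j =>
    AnalyticAt.fun_comp (g := a j) (f := Prod.fst) (ha j) analyticAt_fst
  have htr : ∀ j, ∃ r₁ > (0 : ℝ), ∀ r, 0 < r → r < r₁ → ∃ δ > (0 : ℝ), ∃ C : ℝ,
      ∀ (t : ℂ) (y : Fin n → ℂ), ‖t‖ < δ → ‖y‖ < δ →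
      ∀ Z : Finset (Fin n → ℂ),
      (∀ x, x ∈ Z ↔ x ∈ Metric.ball (0 : Fin n → ℂ) r ∧ ∀ j, F j x = y j) →
      (∀ x ∈ Z, jac F x ≠ 0) →
      ‖∑ x ∈ Z, a j x / jac F x‖ ≤ C := fun j => rtG (fun j p => F j p.1) (fun p => a j p.1)
        hG (hg j) hiso
  choose r₁ hr₁ htr using htr
  have h2 : ∀ᶠ x in 𝓝 (0 : Fin n → ℂ), (jac F x = ∑ j, a j x * F j x) ∧
      ∀ j, AnalyticAt ℂ (F j) x := h.and (eventually_all.2 fun j => (hF j).eventually_analyticAt)
  obtain ⟨r₂, hr₂, hb⟩ := Metric.eventually_nhds_iff_ball.1 h2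
  obtain ⟨r, hr, hrr₀, hrr₂, hrr₁⟩ : ∃ r, 0 < r ∧ r ≤ r₀ ∧ r ≤ r₂ ∧ ∀ j, r < r₁ j := by
    have e1 : ∀ᶠ r in 𝓝[>] (0 : ℝ), r ≤ r₀ :=
      mem_nhdsWithin_of_mem_nhds (eventually_le_nhds hr₀)
    have e2 : ∀ᶠ r in 𝓝[>] (0 : ℝ), r ≤ r₂ :=
      mem_nhdsWithin_of_mem_nhds (eventually_le_nhds hr₂)
    have e3 : ∀ᶠ r in 𝓝[>] (0 : ℝ), ∀ j, r < r₁ j :=
      eventually_all.2 fun j => mem_nhdsWithin_of_mem_nhds (eventually_lt_nhds (hr₁ j))
    have e4 : ∀ᶠ r in 𝓝[>] (0 : ℝ), 0 < r := self_mem_nhdsWithin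
    obtain ⟨r, h1, h2, h3, h4⟩ := (e4.and (e1.and (e2.and e3))).exists
    exact ⟨r, h1, h2, h3, h4⟩
  choose δ hδ C hC using fun j => htr j r hr (hrr₁ j)
  have hball : ∀ x : Fin n → ℂ, ‖x‖ < r → x ∈ Metric.ball (0 : Fin n → ℂ) r := by
    intro x hx
    simpa using hx
  -- the function of y
  have hcont : ContinuousAt (fun y : Fin n → ℂ => ∑ j, ‖y j‖ * |C j|) 0 :=
    tendsto_finsetSum _ fun j _ =>
      ((continuous_norm.comp (continuous_apply j)).mul continuous_const).continuousAt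
  have hev1 : ∀ᶠ y : Fin n → ℂ in 𝓝 0, ∑ j, ‖y j‖ * |C j| < 1 := by
    have : (∑ j, ‖(0 : Fin n → ℂ) j‖ * |C j|) < 1 := by simp
    exact hcont.eventually (gt_mem_nhds this)
  have hev2 : ∀ᶠ y : Fin n → ℂ in 𝓝 0, ∀ j, ‖y‖ < δ j := eventually_all.2 fun j => by
    have : ContinuousAt (fun y : Fin n → ℂ => ‖y‖) 0 := continuous_norm.continuousAt
    exact this.eventually (gt_mem_nhds (by simpa using hδ j))
  have hev := hev1.and (hev2.and (hcnt r hr hrr₀))
  obtain ⟨ε, hε, hbε⟩ := Metric.eventually_nhds_iff_ball.1 hev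
  -- regular values
  have hdiff : DifferentiableOn ℂ (fun x : Fin n → ℂ => (fun j => F j x : Fin n → ℂ))
      (Metric.ball (0 : Fin n → ℂ) r) := by
    intro x hx
    refine DifferentiableAt.differentiableWithinAt (differentiableAt_pi.2 fun j => ?_)
    exact ((hb x (Metric.ball_subset_ball hrr₂ hx)).2 j).differentiableAt
  have hdense := Tr_578.dense_reg_pi (m := n) Metric.isOpen_ball hdiff
  obtain ⟨y, hyreg, hyε⟩ := hdense.exists_mem_open Metric.isOpen_ball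
    (Metric.nonempty_ball.2 hε : (Metric.ball (0 : Fin n → ℂ) ε).Nonempty)
  obtain ⟨hy1, hy2, hy3⟩ := hbε y hyε
  have hdet : ∀ x ∈ Metric.ball (0 : Fin n → ℂ) r, (∀ j, F j x = y j) → jac F x ≠ 0 := by
    intro x hx hxy
    have h1 := hyreg x hx (funext hxy)
    have h3 : HasFDerivAt (fun x : Fin n → ℂ => (fun j => F j x : Fin n → ℂ))
        (ContinuousLinearMap.pi fun j => fderiv ℂ (F j) x) x :=
      hasFDerivAt_pi.2 fun j => ((hb x (Metric.ball_subset_ball hrr₂ hx)).2 j).differentiableAt.hasFDerivAt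
    rw [h3.fderiv] at h1
    have h4 : jac F x = ((ContinuousLinearMap.pi fun j => fderiv ℂ (F j) x :
        (Fin n → ℂ) →L[ℂ] (Fin n → ℂ))).det := by
      unfold jac
      rw [ContinuousLinearMap.det, ← LinearMap.det_toMatrix', ← Matrix.det_transpose]
      congr 1
    rwa [h4]
  have hreg' : ∀ x, ‖x‖ < r → (∀ j, F j x = y j) → ∀ v : Fin n → ℂ,
      (∀ j, fderiv ℂ (F j) x v = 0) → v = 0 := by
    intro x hx hxy v hv
    have h1 := hdet x (hball x hx) hxy
    unfold jac at h1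
    have h3 : (Matrix.of fun i j => coordDeriv (F j) i x).vecMul v = 0 := by
      funext j
      have h4 : v = ∑ i, v i • (Pi.single i (1 : ℂ) : Fin n → ℂ) := by
        funext k
        simp [Finset.sum_apply, Pi.single_apply]
      have h5 := hv j
      rw [h4, map_sum] at h5
      simp only [map_smul, smul_eq_mul] at h5
      simpa [Matrix.vecMul, dotProduct, coordDeriv] using h5
    exact Matrix.eq_zero_of_vecMul_eq_zero h1 h3
  have hnc := hy3 hreg'
  have hcol := col_pos hF0 hfin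
  have hfinZ : ({x | ‖x‖ < r ∧ ∀ j, F j x = y j} : Set (Fin n → ℂ)).Finite := by
    by_contra hinf
    rw [Set.Infinite.ncard hinf] at hnc
    omega
  set Z := hfinZ.toFinset with hZ
  have hZm : ∀ x, x ∈ Z ↔ x ∈ Metric.ball (0 : Fin n → ℂ) r ∧ ∀ j, F j x = y j := by
    intro x
    rw [hZ, Set.Finite.mem_toFinset, mem_ball_zero_iff]
    rfl
  have hZd : ∀ x ∈ Z, jac F x ≠ 0 := fun x hx => hdet x ((hZm x).1 hx).1 ((hZm x).1 hx).2
  have hcard : Z.card = col F := by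
    rw [← hnc, Set.ncard_eq_toFinset_card _ hfinZ]
  have h5 : ((Z.card : ℕ) : ℂ) = ∑ j, y j * ∑ x ∈ Z, a j x / jac F x := by
    have e1 : ((Z.card : ℕ) : ℂ) = ∑ x ∈ Z, (1 : ℂ) := by simp
    have e2 : ∀ x ∈ Z, (1 : ℂ) = ∑ j, y j * (a j x / jac F x) := by
      intro x hx
      have h6 := (hZm x).1 hx
      have h7 := (hb x (Metric.ball_subset_ball hrr₂ h6.1)).1
      have h8 := hZd x hx
      calc (1 : ℂ) = jac F x / jac F x := (div_self h8).symm
        _ = (∑ j, a j x * F j x) / jac F x := by rw [← h7]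
        _ = ∑ j, y j * (a j x / jac F x) := by
            rw [Finset.sum_div]
            refine Finset.sum_congr rfl fun j _ => ?_
            rw [h6.2 j]; ring
    rw [e1, Finset.sum_congr rfl e2, Finset.sum_comm]
    exact Finset.sum_congr rfl fun j _ => by rw [Finset.mul_sum]
  have h6 : ‖((Z.card : ℕ) : ℂ)‖ ≤ ∑ j, ‖y j‖ * |C j| := by
    rw [h5]
    refine (norm_sum_le _ _).trans (Finset.sum_le_sum fun j _ => ?_)
    rw [norm_mul]
    refine mul_le_mul_of_nonneg_left ?_ (norm_nonneg _)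
    exact (hC j 0 y (by simpa using hδ j) (hy2 j) Z hZm hZd).trans (le_abs_self _)
  rw [Complex.norm_natCast, hcard] at h6
  have h7 : (1 : ℝ) ≤ (col F : ℝ) := by exact_mod_cast hcol
  linarith

end

end Crest.Agent.R257.Lr_648
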