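import Crest.Agent.R257.NumI_488

/-!
Row 257 (S0395), leaf B-NUM, part J (helper488): ideals of finite colength in `O_n`, existence of a
good projection, branches of `{a = b = 0}` in `O_3`.
-/

set_option autoImplicit false
set_option linter.unusedSectionVars false

open Set Filter Topology Metric
open Crest.Agent.R275
open Crest.Agent.R275.Loc2879 hiding AA
open Crest.Agent.R257.UI939

noncomputable section

namespace Crest.Agent.R257.Num488

universe u v w

/-! ### finite colength -/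

section Fin

variable {n : ℕ}

lemma mon_mem {A : Type v} [CommRing A] (x : Fin n → A) (I : Ideal A) (hI : ∀ i, x i ∈ I)
    (β : Fin n → ℕ) : mon x β ∈ I ^ (∑ i, β i) := by
  classical
  unfold mon
  rw [← Finset.prod_pow_eq_pow_sum]
  exact Ideal.prod_mem_prod fun i _ => Ideal.pow_mem_pow (hI i) _

lemma fin_of_JJ {I : Ideal (BB n)} {k : ℕ} (h : JJ xB k ≤ I) : Module.Finite ℂ (BB n ⧸ I) := by
  classical
  let π : BB n →ₗ[ℂ] (BB n ⧸ I) := (Ideal.Quotient.mkₐ ℂ I).toLinearMap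
  have hfin : {a : BB n | ∃ β : Fin n → ℕ, ∑ i, β i < k ∧ mon xB β = a}.Finite := by
    have h1 : {β : Fin n → ℕ | ∑ i, β i < k}.Finite := by
      refine (Set.finite_Iic (fun _ : Fin n => k)).subset ?_
      intro β hβ i
      have : β i ≤ ∑ i, β i := Finset.single_le_sum (fun _ _ => Nat.zero_le _) (Finset.mem_univ i)
      exact this.trans (le_of_lt hβ)
    refine (h1.image (fun β => mon (A := BB n) xB β)).subset ?_
    rintro a ⟨β, hβ, rfl⟩
    exact ⟨β, hβ, rfl⟩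
  have htop : (VV (A := BB n) xB k).map π = ⊤ := by
    rw [eq_top_iff]
    intro y _
    obtain ⟨x, rfl⟩ := Ideal.Quotient.mk_surjective y
    obtain ⟨v, hv, w, hw, e⟩ := Submodule.mem_sup.1 (mem_VV_sup (A := BB n) xB hadamard k x)
    refine ⟨v, hv, ?_⟩
    have h2 : w ∈ I := h hw
    change Ideal.Quotient.mk I v = Ideal.Quotient.mk I x
    rw [← e, map_add, Ideal.Quotient.eq_zero_iff_mem.2 h2, add_zero]
  refine ⟨?_⟩
  rw [← htop]
  exact (Submodule.fg_span hfin).map π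

lemma max_eq : IsLocalRing.maximalIdeal (BB n) = Ideal.span (Set.range xB) := by
  refine le_antisymm ?_ ?_
  · intro a ha
    obtain ⟨c, y, e⟩ := hadamard a
    have h1 : ∑ i, y i * xB i ∈ Ideal.span (Set.range (xB (n := n))) :=
      Ideal.sum_mem _ fun i _ => Ideal.mul_mem_left _ _ (Ideal.subset_span ⟨i, rfl⟩)
    have h2 : ∑ i, y i * xB i ∈ IsLocalRing.maximalIdeal (BB n) :=
      Ideal.sum_mem _ fun i _ => Ideal.mul_mem_left _ _
        ((IsLocalRing.mem_maximalIdeal _).2 (xB_not_unit i))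
    have h3 : algebraMap ℂ (BB n) c ∈ IsLocalRing.maximalIdeal (BB n) := by
      have : algebraMap ℂ (BB n) c = a - ∑ i, y i * xB i := by rw [e]; ring
      rw [this]; exact Ideal.sub_mem _ ha h2
    have h4 : c = 0 := by
      by_contra hc
      refine (IsLocalRing.mem_maximalIdeal _).1 h3 ?_
      exact (IsUnit.mk0 c hc).map (algebraMap ℂ (BB n))
    rw [e, h4, map_zero, zero_add]
    exact h1
  · rw [Ideal.span_le]
    rintro _ ⟨i, rfl⟩
    exact (IsLocalRing.mem_maximalIdeal _).2 (xB_not_unit i)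

lemma JJ_le_pow {A : Type v} [CommRing A] (x : Fin n → A) (k : ℕ) :
    JJ x k ≤ (Ideal.span (Set.range x)) ^ k := by
  unfold JJ
  rw [Ideal.span_le]
  rintro _ ⟨β, rfl, rfl⟩
  exact mon_mem x (Ideal.span (Set.range x)) (fun i => Ideal.subset_span (Set.mem_range_self i)) β

/-- an ideal of germs contained in no prime ideal except the maximal ideal has finite colength -/
theorem fin_of_primes {I : Ideal (BB n)}
    (h : ∀ P : Ideal (BB n), P.IsPrime → I ≤ P → P = IsLocalRing.maximalIdeal (BB n)) :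
    dl (BB n ⧸ I) ≠ ⊤ := by
  have h1 : IsLocalRing.maximalIdeal (BB n) ≤ I.radical := by
    rw [Ideal.radical_eq_sInf]
    refine le_sInf fun P hP => ?_
    rw [h P hP.2 hP.1]
  obtain ⟨k, hk⟩ := Ideal.exists_pow_le_of_le_radical_of_fg h1
    (IsNoetherian.noetherian (IsLocalRing.maximalIdeal (BB n)))
  have h2 : JJ xB k ≤ I := (JJ_le_pow xB k).trans (by rw [← max_eq]; exact hk)
  have := fin_of_JJ h2
  exact dl_ne_top

theorem max_pow_le {I : Ideal (BB n)} (h : dl (BB n ⧸ I) ≠ ⊤) (i : Fin n) :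
    ∃ k, (xB i : BB n) ^ k ∈ I := by
  classical
  have := finite_of_dl h
  set k := Module.finrank ℂ (BB n ⧸ I) with hk
  refine ⟨k, ?_⟩
  have hJ := JJ_le_of_finrank (A := BB n) xB (fun i => xB_not_unit i) I
  refine hJ (Ideal.subset_span ⟨Pi.single i k, by simp [hk], ?_⟩)
  unfold mon
  rw [Finset.prod_eq_single i]
  · rw [Pi.single_eq_same]
  · intro j _ hj; rw [Pi.single_eq_of_ne hj, pow_zero]
  · intro hi; exact absurd (Finset.mem_univ _) hi

theorem primes_of_fin {I : Ideal (BB n)} (h : dl (BB n ⧸ I) ≠ ⊤)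
    {P : Ideal (BB n)} (hP : P.IsPrime) (hIP : I ≤ P) : P = IsLocalRing.maximalIdeal (BB n) := by
  refine le_antisymm (IsLocalRing.le_maximalIdeal hP.ne_top) ?_
  rw [max_eq, Ideal.span_le]
  rintro _ ⟨i, rfl⟩
  obtain ⟨k, hk⟩ := max_pow_le h i
  exact hP.mem_of_pow_mem k (hIP hk)

theorem fin_iff {I : Ideal (BB n)} : dl (BB n ⧸ I) ≠ ⊤ ↔
    ∀ P : Ideal (BB n), P.IsPrime → I ≤ P → P = IsLocalRing.maximalIdeal (BB n) :=
  ⟨fun h _ hP hIP => primes_of_fin h hP hIP, fin_of_primes⟩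

end Fin

/-! ### a good projection -/

section Proj

variable {n : ℕ}

/-- linear forms whose germ lies in an ideal -/
def sub (P : Ideal (BB n)) : Submodule ℂ ((Fin n → ℂ) →L[ℂ] ℂ) where
  carrier := {l | lin l ∈ P}
  add_mem' := by
    intro l m hl hm
    change lin (l + m) ∈ P
    rw [lin_add]; exact Ideal.add_mem _ hl hm
  zero_mem' := by
    change lin 0 ∈ P
    rw [lin_zero]; exact Ideal.zero_mem _
  smul_mem' := by
    intro c l hl
    change lin (c • l) ∈ P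
    rw [lin_smul, Algebra.smul_def]; exact Ideal.mul_mem_left _ _ hl

lemma sub_ne_top {P : Ideal (BB n)} (hP : P.IsPrime) (h : P ≠ IsLocalRing.maximalIdeal (BB n)) :
    sub P ≠ ⊤ := by
  intro hs
  apply h
  refine le_antisymm (IsLocalRing.le_maximalIdeal hP.ne_top) ?_
  rw [max_eq, Ideal.span_le]
  rintro _ ⟨i, rfl⟩
  have : ContinuousLinearMap.proj (R := ℂ) (φ := fun _ : Fin n => ℂ) i ∈ sub P := by
    rw [hs]; trivial
  exact this

/-- avoiding finitely many primes by a linear form -/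
theorem exists_lin_avoid (S : Set (Ideal (BB n))) (hS : S.Finite)
    (hp : ∀ P ∈ S, P.IsPrime ∧ P ≠ IsLocalRing.maximalIdeal (BB n)) :
    ∃ l : (Fin n → ℂ) →L[ℂ] ℂ, ∀ P ∈ S, lin l ∉ P := by
  classical
  set T : Finset (Submodule ℂ ((Fin n → ℂ) →L[ℂ] ℂ)) := hS.toFinset.image sub
  have h1 : ⊤ ∉ T := by
    intro h
    obtain ⟨P, hP, e⟩ := Finset.mem_image.1 h
    rw [Set.Finite.mem_toFinset] at hP
    exact sub_ne_top (hp P hP).1 (hp P hP).2 e
  have h2 := Subspace.biUnion_ne_univ_of_top_notMem h1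
  obtain ⟨l, hl⟩ := (Set.ne_univ_iff_exists_notMem _).1 h2
  refine ⟨l, fun P hP hlP => hl ?_⟩
  simp only [Set.mem_iUnion]
  exact ⟨sub P, Finset.mem_image.2 ⟨P, hS.mem_toFinset.2 hP, rfl⟩, hlP⟩

theorem exists_lin_fin (I : Ideal (BB n)) (c : BB n) (hc : ¬ IsUnit c)
    (h : dl (BB n ⧸ (I ⊔ Ideal.span {c})) ≠ ⊤) :
    ∃ l : (Fin n → ℂ) →L[ℂ] ℂ, dl (BB n ⧸ (I ⊔ Ideal.span {lin l})) ≠ ⊤ := by
  obtain ⟨l, hl⟩ := exists_lin_avoid {P ∈ I.minimalPrimes | P ≠ IsLocalRing.maximalIdeal (BB n)}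
    ((Ideal.finite_minimalPrimes_of_isNoetherianRing _ I).subset (Set.sep_subset _ _))
    (fun P hP => ⟨hP.1.1.1, hP.2⟩)
  refine ⟨l, fin_of_primes fun Q hQ hIQ => ?_⟩
  by_contra hne
  have hIQ1 : I ≤ Q := le_sup_left.trans hIQ
  have hlQ : lin l ∈ Q := (le_sup_right.trans hIQ) (Ideal.mem_span_singleton_self _)
  obtain ⟨P, hPmin, hPQ⟩ := Ideal.exists_minimalPrimes_le hIQ1
  have hP := hPmin.1.1
  have hPm : P ≠ IsLocalRing.maximalIdeal (BB n) := by
    intro e
    rw [e] at hPQ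
    exact hne (le_antisymm (IsLocalRing.le_maximalIdeal hQ.ne_top) hPQ)
  have hlP := hl P ⟨hPmin, hPm⟩
  have hPQ' : P < Q := lt_of_le_of_ne hPQ (fun e => hlP (e ▸ hlQ))
  have hQm : Q < IsLocalRing.maximalIdeal (BB n) :=
    lt_of_le_of_ne (IsLocalRing.le_maximalIdeal hQ.ne_top) hne
  -- `c` is not in `P`, and the maximal ideal is minimal over `P + (c)`
  have hcm : c ∈ IsLocalRing.maximalIdeal (BB n) := (IsLocalRing.mem_maximalIdeal _).2 hc
  have hmin : IsLocalRing.maximalIdeal (BB n) ∈ (P ⊔ Ideal.span {c}).minimalPrimes := by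
    refine ⟨⟨inferInstance, sup_le (hPQ.trans hQm.le) ?_⟩, fun Q' hQ' _ => ?_⟩
    · rw [Ideal.span_singleton_le_iff_mem]; exact hcm
    · rw [primes_of_fin h hQ'.1 ((sup_le_sup_right hPmin.1.2 _).trans hQ'.2)]
  have hht := Ideal.map_height_le_one_of_mem_minimalPrimes hmin
  set mm := IsLocalRing.maximalIdeal (BB n) with hmm
  have hmm' : mm.IsPrime := by rw [hmm]; infer_instance
  have hsurj : Function.Surjective (Ideal.Quotient.mk P) := Ideal.Quotient.mk_surjective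
  have hkerQ : RingHom.ker (Ideal.Quotient.mk P) ≤ Q := by rw [Ideal.mk_ker]; exact hPQ
  have hkerm : RingHom.ker (Ideal.Quotient.mk P) ≤ mm := by
    rw [Ideal.mk_ker]; exact hPQ.trans hQm.le
  have i1 : (Q.map (Ideal.Quotient.mk P)).IsPrime := Ideal.map_isPrime_of_surjective hsurj hkerQ
  have i2 : (mm.map (Ideal.Quotient.mk P)).IsPrime := Ideal.map_isPrime_of_surjective hsurj hkerm
  have hcomap : ∀ J : Ideal (BB n), RingHom.ker (Ideal.Quotient.mk P) ≤ J →
      (J.map (Ideal.Quotient.mk P)).comap (Ideal.Quotient.mk P) = J := fun J hJ =>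
    (Ideal.comap_map_of_surjective _ hsurj J).trans (sup_eq_left.mpr hJ)
  have l2 : Q.map (Ideal.Quotient.mk P) < mm.map (Ideal.Quotient.mk P) := by
    refine lt_of_le_of_ne (Ideal.map_mono hQm.le) fun e => ?_
    have := congrArg (Ideal.comap (Ideal.Quotient.mk P)) e
    rw [hcomap Q hkerQ, hcomap mm hkerm] at this
    exact hQm.ne this
  have i0 : (⊥ : Ideal (BB n ⧸ P)).IsPrime := Ideal.isPrime_bot
  have l1 : ⊥ < Q.map (Ideal.Quotient.mk P) := by
    rw [bot_lt_iff_ne_bot, Ne, Ideal.map_eq_bot_iff_le_ker, Ideal.mk_ker]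
    exact hPQ'.not_ge
  have e1 := Ideal.height_add_one_le_of_lt_of_isPrime l1
  have e2 := Ideal.height_add_one_le_of_lt_of_isPrime l2
  have e3 := e2.trans hht
  have e4 : (1 : ℕ∞) + 1 ≤ 1 := by
    refine le_trans ?_ e3
    gcongr
    exact le_trans (by simp) e1
  exact absurd e4 (by norm_num)

lemma dl_anti {R : Type u} [CommRing R] [Algebra ℂ R] {I J : Ideal R} (h : I ≤ J) :
    dl (R ⧸ J) ≤ dl (R ⧸ I) :=
  Module.length_le_of_surjective (Ideal.Quotient.factorₐ ℂ h).toLinearMap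
    (Ideal.Quotient.factor_surjective h)

theorem exists_lin_fin' [NeZero n] (I : Ideal (BB n)) (c : BB n) (hc : ¬ IsUnit c)
    (h : dl (BB n ⧸ (I ⊔ Ideal.span {c})) ≠ ⊤) :
    ∃ l : (Fin n → ℂ) →L[ℂ] ℂ, l ≠ 0 ∧ dl (BB n ⧸ (I ⊔ Ideal.span {lin l})) ≠ ⊤ := by
  obtain ⟨l, hl⟩ := exists_lin_fin I c hc h
  by_cases h0 : l = 0
  · refine ⟨ContinuousLinearMap.proj (R := ℂ) (φ := fun _ : Fin n => ℂ) 0, ?_, ?_⟩
    · intro h
      have := congrArg (fun m : (Fin n → ℂ) →L[ℂ] ℂ => m (fun _ => 1)) h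
      simp at this
    · refine ne_top_of_le_ne_top hl (dl_anti ?_)
      rw [h0, lin_zero, Ideal.span_singleton_zero, sup_bot_eq]
      exact le_sup_left
  · exact ⟨l, h0, hl⟩

end Proj

/-! ### linear coordinates -/

section Lin

variable {E E' : Type} [NormedAddCommGroup E] [NormedSpace ℂ E]
  [NormedAddCommGroup E'] [NormedSpace ℂ E']

/-- linear change of coordinates on germs -/
def linE (e : E ≃L[ℂ] E') : OO (0 : E') ≃ₐ[ℂ] OO (0 : E) :=
  AlgEquiv.ofRingEquiv (f := pullEquiv (p := (0 : E)) (p' := (0 : E')) e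
    (e.toContinuousLinearMap.analyticAt 0) (map_zero e) e.symm
    (e.symm.toContinuousLinearMap.analyticAt _) (map_zero e.symm) (by simp) (by simp))
    (fun _ => rfl)

lemma linE_gm (e : E ≃L[ℂ] E') {f : E' → ℂ} (hf : AnalyticAt ℂ f 0) :
    ∃ h, linE e (gm f hf) = gm (f ∘ e) h :=
  ⟨AnalyticAt.comp (g := f) (f := e) (by rwa [map_zero]) (e.toContinuousLinearMap.analyticAt 0), rfl⟩

/-- coordinates in which a given linear form is the last one -/
theorem exists_coord (l : (Fin 3 → ℂ) →L[ℂ] ℂ) (hl : l ≠ 0) :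
    ∃ e : (Fin 3 → ℂ) ≃L[ℂ] (Fin 2 → ℂ) × ℂ, ∀ x, (e x).2 = l x := by
  have hl' : (l : (Fin 3 → ℂ) →ₗ[ℂ] ℂ) ≠ 0 := by
    intro h; apply hl; ext x; exact congrArg (fun m : (Fin 3 → ℂ) →ₗ[ℂ] ℂ => m _) h
  have h2 : Module.finrank ℂ (LinearMap.ker (l : (Fin 3 → ℂ) →ₗ[ℂ] ℂ)) = 2 := by
    have := Module.Dual.finrank_ker_add_one_of_ne_zero (K := ℂ) (V₁ := Fin 3 → ℂ)
      (f := (l : (Fin 3 → ℂ) →ₗ[ℂ] ℂ)) hl'
    simp only [Module.finrank_fin_fun] at this
    omega
  obtain ⟨g, hg⟩ := (LinearMap.ker (l : (Fin 3 → ℂ) →ₗ[ℂ] ℂ)).subtype.exists_leftInverse_of_injective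
    (by simp)
  let b := Module.finBasisOfFinrankEq ℂ _ h2
  let T : (Fin 3 → ℂ) →ₗ[ℂ] (Fin 2 → ℂ) × ℂ :=
    (b.equivFun.toLinearMap ∘ₗ g).prod (l : (Fin 3 → ℂ) →ₗ[ℂ] ℂ)
  have hinj : Function.Injective T := by
    rw [← LinearMap.ker_eq_bot, LinearMap.ker_eq_bot']
    intro x hx
    have h3 : l x = 0 := congrArg Prod.snd hx
    have h4 : b.equivFun (g x) = 0 := congrArg Prod.fst hx
    have h5 : g x = 0 := by simpa using h4
    have h6 := LinearMap.congr_fun hg ⟨x, h3⟩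
    have h7 : g x = ⟨x, h3⟩ := h6
    rw [h5] at h7
    exact (congrArg Subtype.val h7).symm
  have hdim : Module.finrank ℂ (Fin 3 → ℂ) = Module.finrank ℂ ((Fin 2 → ℂ) × ℂ) := by
    simp
  refine ⟨(LinearMap.linearEquivOfInjective T hinj hdim).toContinuousLinearEquiv, fun x => ?_⟩
  rfl

theorem curve_lin {a b : BB 3} {l : (Fin 3 → ℂ) →L[ℂ] ℂ} (hl : l ≠ 0)
    (h : dl (BB 3 ⧸ Ideal.span {a, b, lin l}) ≠ ⊤) :
    Nonempty (Curve (BB 3) (Ideal.span {a, b})) := by
  obtain ⟨e, he⟩ := exists_coord l hl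
  let φ : AA 2 ≃ₐ[ℂ] BB 3 := linE e
  have hT : φ (Tv 2) = lin l := by
    obtain ⟨h1, h2⟩ := linE_gm e (f := Prod.snd) analyticAt_snd
    change linE e (Tv 2) = _
    rw [Tv, h2, lin, gm_eq_gm]
    exact Eventually.of_forall fun x => he x
  have hT' : φ.symm (lin l) = Tv 2 := by rw [← hT, AlgEquiv.symm_apply_apply]
  have hmap : Ideal.span {φ.symm a, φ.symm b, Tv 2} =
      Ideal.map (φ.symm : BB 3 →+* AA 2) (Ideal.span {a, b, lin l}) := by
    rw [Ideal.map_span]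
    congr 1
    ext x
    simp only [mem_insert_iff, mem_singleton_iff, mem_image, ← hT']
    constructor
    · rintro (rfl | rfl | rfl)
      · exact ⟨a, by simp, rfl⟩
      · exact ⟨b, by simp, rfl⟩
      · exact ⟨lin l, by simp, rfl⟩
    · rintro ⟨y, (rfl | rfl | rfl), rfl⟩
      · exact Or.inl rfl
      · exact Or.inr (Or.inl rfl)
      · exact Or.inr (Or.inr rfl)
  have h3 := (Ideal.quotientEquivAlg _ _ φ.symm hmap).toLinearEquiv.length_eq
  have h4 : Module.Finite ℂ (AA 2 ⧸ Ideal.span {φ.symm a, φ.symm b, Tv 2}) := by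
    apply finite_of_dl
    unfold dl
    rw [← h3]
    exact h
  obtain ⟨C⟩ := curve_AA h4
  have C' := C.trans φ.symm
  have h5 : (Ideal.span {φ.symm a, φ.symm b}).comap φ.symm.toRingHom = Ideal.span {a, b} := by
    ext x
    rw [Ideal.mem_comap]
    constructor
    · intro hx
      obtain ⟨p, q, hpq⟩ := Ideal.mem_span_pair.1 hx
      rw [Ideal.mem_span_pair]
      refine ⟨φ p, φ q, ?_⟩
      have := congrArg φ hpq
      rw [map_add, map_mul, map_mul, AlgEquiv.apply_symm_apply, AlgEquiv.apply_symm_apply] at this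
      rw [this]
      exact φ.apply_symm_apply x
    · intro hx
      obtain ⟨p, q, hpq⟩ := Ideal.mem_span_pair.1 hx
      rw [Ideal.mem_span_pair]
      refine ⟨φ.symm p, φ.symm q, ?_⟩
      rw [← hpq, ← map_mul, ← map_mul, ← map_add]
      rfl
  rw [h5] at C'
  exact ⟨C'⟩

/-- **the branches of the curve `{a = b = 0}`** -/
theorem curve3 {a b c : BB 3} (h : dl (BB 3 ⧸ Ideal.span {a, b, c}) ≠ ⊤) (hc : ¬ IsUnit c) :
    Nonempty (Curve (BB 3) (Ideal.span {a, b})) := by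
  have e : ∀ c : BB 3, Ideal.span {a, b, c} = Ideal.span {a, b} ⊔ Ideal.span {c} := by
    intro c
    rw [← Ideal.span_union]
    congr 1
    ext x; simp; tauto
  rw [e] at h
  obtain ⟨l, hl, h1⟩ := exists_lin_fin' _ c hc h
  rw [← e] at h1
  exact curve_lin hl h1

end Lin

end Crest.Agent.R257.Num488
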