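import Crest.Agent.R257.Rig5_20
import Crest.Agent.R257.LCDefs_472

/-!
Row 257 (S0395), KLT-RA (helper20), part 6: `RAStmt` of `LCDefs_472`: in a `μ`-constant family
with `f_0 ∈ m^3` the Hessian of `f_t` has rank at most one for all small `t`.
-/

set_option autoImplicit false
set_option linter.unusedSectionVars false

open Set Filter Topology Metric Complex
open Crest.AlgGeometry
open Crest.Agent.R275.Loc2879 hiding AA
open Crest.Agent.R257.UI939

noncomputable section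

namespace Crest.Agent.R257.Rig20

variable {n : ℕ}

/-- RIGIDITY OF THE HESSIAN -/
theorem rigid_hess {F : (Fin n → ℂ) × ℂ → ℂ} (hF : AnalyticAt ℂ F 0) (μ : ℕ)
    (hdim : ∀ᶠ t in 𝓝 (0 : ℂ),
      Module.Finite ℂ (BB n ⧸ Idl (0 : Fin n → ℂ) (fun j x => grad F j (x, t))) ∧
      dimQ (0 : Fin n → ℂ) (fun j x => grad F j (x, t)) = μ)
    (hcrit : ∀ᶠ t in 𝓝 (0 : ℂ), ∀ j, grad F j (0, t) = 0)
    (h0 : ∀ i j, hs F i j 0 = 0)
    (hfr : ∃ᶠ t in 𝓝[≠] (0 : ℂ), ∃ u : Fin n → (Fin n → ℂ) → ℂ, (∀ j, AnalyticAt ℂ (u j) 0) ∧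
      ∀ᶠ x in 𝓝 (0 : Fin n → ℂ), dt F (x, t) = ∑ j, u j x * grad F j (x, t)) :
    ∀ᶠ t in 𝓝 (0 : ℂ), ∀ i j, hs F i j t = 0 := by
  classical
  have hga : ∀ j, AnalyticAt ℂ (grad F j) 0 := fun j => an_grad hF j
  obtain ⟨b, hb, hbe⟩ := cor_U (grad F) hga μ hdim (dt F) (an_dt hF) hfr
  have hpow : ∀ k : Fin n, InJ F (fun p => p.1 k ^ μ) := by
    intro k
    obtain ⟨u, hu, hue⟩ := ui (grad F) hga μ hdim (Pi.single k μ) (by simp)
    refine ⟨u, hu, ?_⟩
    filter_upwards [hue] with p hp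
    rw [← hp, Finset.prod_eq_single k]
    · simp
    · intro j _ hj
      simp [Pi.single_eq_of_ne hj]
    · intro h; exact absurd (Finset.mem_univ _) h
  have hb0 := b_zero hF hpow hcrit hb hbe
  have hode := deriv_hs hF hcrit hb hbe hb0
  have key := ode_zero (ι := Fin n × Fin n) (fun q => hs F q.1 q.2)
    (fun q => an_hs (t := 0) hF q.1 q.2) (fun q => h0 q.1 q.2)
    (fun q r t => (if r.2 = q.2 then grad (b r.1) q.1 (0, t) else 0) +
      (if r.2 = q.1 then grad (b r.1) q.2 (0, t) else 0)) ?_ ?_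
  · filter_upwards [key] with t ht i j
    exact ht (i, j)
  · intro q r
    have h1 : ∀ i, ContinuousAt (fun t : ℂ => grad (b r.1) i ((0 : Fin n → ℂ), t)) 0 :=
      fun i => (an_axis (t := 0) (an_grad (hb r.1) i)).continuousAt
    refine ContinuousAt.add ?_ ?_
    · by_cases h : r.2 = q.2
      · simpa only [h, if_true] using h1 q.1
      · simpa only [h, if_false] using continuousAt_const
    · by_cases h : r.2 = q.1
      · simpa only [h, if_true] using h1 q.2
      · simpa only [h, if_false] using continuousAt_const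
  · filter_upwards [hode] with t ht q
    rw [ht q.1 q.2, Fintype.sum_prod_type]
    refine Finset.sum_congr rfl fun k _ => ?_
    simp only [add_mul, ite_mul, zero_mul, Finset.sum_add_distrib, Finset.sum_ite_eq',
      Finset.mem_univ, if_true]

/-- symmetric matrices all of whose `2x2` minors vanish -/
lemma rank_one (M : Fin 3 → Fin 3 → ℂ) (hsymm : ∀ i j, M i j = M j i)
    (h : ∀ i k j l, M i j * M k l = M i l * M k j) : ∃ l : Fin 3 → ℂ, ∀ i j, M i j = l i * l j := by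
  by_cases hd : ∀ i, M i i = 0
  · refine ⟨0, fun i j => ?_⟩
    have h1 := h i j j i
    rw [hd, hd, zero_mul, hsymm j i] at h1
    have : M i j = 0 := by
      have h2 : M i j ^ 2 = 0 := by rw [sq]; exact h1
      exact pow_eq_zero_iff (two_ne_zero) |>.1 h2
    simp [this]
  · push Not at hd
    obtain ⟨i0, hi0⟩ := hd
    obtain ⟨s, hs⟩ := IsAlgClosed.exists_pow_nat_eq (M i0 i0) (two_pos)
    have hs0 : s ≠ 0 := by
      rintro rfl
      exact hi0 (by rw [← hs]; simp)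
    refine ⟨fun j => M i0 j / s, fun i j => ?_⟩
    have h1 := h i i0 j i0
    rw [hsymm i i0] at h1
    field_simp
    rw [hs]
    linear_combination h1

lemma exists_perm (i k : Fin 3) (h : i ≠ k) : ∃ σ : Equiv.Perm (Fin 3), σ 0 = i ∧ σ 1 = k := by
  revert i k
  decide

/-- derivatives of a translated family -/
lemma dt_shift {F : (Fin n → ℂ) × ℂ → ℂ} (t : ℂ) (p : (Fin n → ℂ) × ℂ) :
    dt (fun q : (Fin n → ℂ) × ℂ => F (q.1, t + q.2)) p = dt F (p.1, t + p.2) := by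
  have h1 : (fun q : (Fin n → ℂ) × ℂ => F (q.1, t + q.2)) = fun q => F ((0, t) + q) := by
    funext q
    congr 1
    refine Prod.ext ?_ rfl
    simp
  have h2 : ((0, t) + p : (Fin n → ℂ) × ℂ) = (p.1, t + p.2) := by
    refine Prod.ext ?_ rfl
    simp
  rw [dt, dt, h1, fderiv_comp_add_left, h2]

theorem ra_stmt : LCDefs_472.RAStmt := by
  intro F μ hFam hH
  have hF : AnalyticAt ℂ F 0 := hFam.an
  have hcrit : ∀ᶠ t in 𝓝 (0 : ℂ), ∀ j, grad F j (0, t) = 0 := hFam.crit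
  have hiso : ∀ᶠ p in 𝓝 (0 : (Fin 3 → ℂ) × ℂ), (∀ j, grad F j p = 0) → p.1 = 0 := hFam.iso
  have h0t : Tendsto (fun t : ℂ => ((0, t) : (Fin 3 → ℂ) × ℂ)) (𝓝 0) (𝓝 0) := by
    have : Continuous (fun t : ℂ => ((0, t) : (Fin 3 → ℂ) × ℂ)) := by fun_prop
    exact this.tendsto' _ _ rfl
  have hdim : ∀ᶠ t in 𝓝 (0 : ℂ),
      Module.Finite ℂ (BB 3 ⧸ Idl (0 : Fin 3 → ℂ) (fun j x => grad F j (x, t))) ∧
      dimQ (0 : Fin 3 → ℂ) (fun j x => grad F j (x, t)) = μ := by
    filter_upwards [hFam.fin, h0t.eventually hF.eventually_analyticAt] with t ht hFt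
    obtain ⟨h1, h2⟩ := ht
    have han : ∀ i, AnalyticAt ℂ (Germ.coordDeriv (fun x => F (x, t)) i) (0 : Fin 3 → ℂ) := by
      intro i
      rw [coordDeriv_eq]
      exact AnalyticAt.comp (g := grad F i) (f := fun x : Fin 3 → ℂ => (x, t))
        (an_grad hFt i) (analyticAt_id.prod analyticAt_const)
    obtain ⟨e⟩ := dict han
    have h1' : Module.Finite ℂ (Germ.JacobianQuotient 3 (fun x => F (x, t))) := h1
    refine ⟨Module.Finite.equiv e, ?_⟩
    have h2' : Module.finrank ℂ (Germ.JacobianQuotient 3 (fun x => F (x, t))) = μ := h2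
    rw [← h2']
    exact e.finrank_eq.symm
  have h0 : ∀ i j, hs F i j 0 = 0 := hH
  by_contra hcon
  have hfr0 : ∃ᶠ t in 𝓝 (0 : ℂ), ¬ ∃ l : Fin 3 → ℂ, ∀ i j, hs F i j t = l i * l j := by
    exact Filter.not_eventually.1 hcon
  have hfr : ∃ᶠ t in 𝓝[≠] (0 : ℂ), ¬ ∃ l : Fin 3 → ℂ, ∀ i j, hs F i j t = l i * l j := by
    rw [frequently_nhdsWithin_iff]
    refine hfr0.mono fun t ht => ⟨ht, ?_⟩
    intro ht0
    have : t = 0 := by simpa using ht0
    subst this
    exact ht ⟨0, fun i j => by simp [h0]⟩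
  have hev : ∀ᶠ t in 𝓝 (0 : ℂ), AnalyticAt ℂ F (0, t) ∧ (∀ᶠ s in 𝓝 t, F (0, s) = 0) ∧
      (∀ᶠ s in 𝓝 t, ∀ j, grad F j (0, s) = 0) ∧
      (∀ᶠ p in 𝓝 ((0, t) : (Fin 3 → ℂ) × ℂ), (∀ j, grad F j p = 0) → p.1 = 0) := by
    filter_upwards [h0t.eventually hF.eventually_analyticAt,
      eventually_eventually_nhds.2 hFam.zero, eventually_eventually_nhds.2 hcrit,
      h0t.eventually (eventually_eventually_nhds.2 hiso)] with t a1 a2 a3 a4
    exact ⟨a1, a2, a3, a4⟩
  have hfr' : ∃ᶠ t in 𝓝[≠] (0 : ℂ), ∃ u : Fin 3 → (Fin 3 → ℂ) → ℂ, (∀ j, AnalyticAt ℂ (u j) 0) ∧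
      ∀ᶠ x in 𝓝 (0 : Fin 3 → ℂ), dt F (x, t) = ∑ j, u j x * grad F j (x, t) := by
    refine (hfr.and_eventually (hev.filter_mono nhdsWithin_le_nhds)).mono ?_
    rintro t ⟨h1, hFt, hzt, hct, hit⟩
    -- a nonzero minor
    have h2 : ∃ i k j l, hs F i j t * hs F k l t ≠ hs F i l t * hs F k j t := by
      by_contra hc
      push Not at hc
      exact h1 (rank_one _ (fun i j => grad_grad hFt i j) hc)
    obtain ⟨i, k, j, l, hm⟩ := h2
    have hik : i ≠ k := by
      rintro rfl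
      exact hm (mul_comm _ _)
    have hjl : j ≠ l := by
      rintro rfl
      exact hm rfl
    obtain ⟨σ, s0, s1⟩ := exists_perm i k hik
    obtain ⟨τ, t0, t1⟩ := exists_perm j l hjl
    have hadd : Tendsto (fun q : (Fin 3 → ℂ) × ℂ => ((q.1, t + q.2) : (Fin 3 → ℂ) × ℂ)) (𝓝 0)
        (𝓝 (0, t)) := by
      have : Continuous (fun q : (Fin 3 → ℂ) × ℂ => ((q.1, t + q.2) : (Fin 3 → ℂ) × ℂ)) := by
        fun_prop
      exact this.tendsto' _ _ (by simp)
    have hadd' : Tendsto (fun s : ℂ => t + s) (𝓝 0) (𝓝 t) := by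
      have : Continuous (fun s : ℂ => t + s) := by fun_prop
      exact this.tendsto' _ _ (by simp)
    have hF1 : AnalyticAt ℂ (fun q : (Fin 3 → ℂ) × ℂ => F (q.1, t + q.2)) 0 :=
      AnalyticAt.comp (g := F) (f := fun q : (Fin 3 → ℂ) × ℂ => ((q.1, t + q.2) : (Fin 3 → ℂ) × ℂ))
        (by simpa using hFt) (analyticAt_fst.prod (analyticAt_const.add analyticAt_snd))
    obtain ⟨u, hu, hue⟩ := lemma_A hF1 (hadd'.eventually hzt) (hadd'.eventually hct)
      (hadd.eventually hit) σ τ (by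
        rw [s0, s1, t0, t1]
        have e : ∀ a b, hs (fun q : (Fin 3 → ℂ) × ℂ => F (q.1, t + q.2)) a b 0 = hs F a b t := by
          intro a b
          change grad (grad F a) b (0, t + 0) = _
          rw [add_zero]
          rfl
        rw [e, e, e, e]
        exact sub_ne_zero.2 hm)
    refine ⟨u, hu, ?_⟩
    filter_upwards [hue] with x hx
    rw [dt_shift] at hx
    simp only [add_zero] at hx
    rw [hx]
    refine Finset.sum_congr rfl fun j _ => ?_
    congr 1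
    change grad F j (x, t + 0) = _
    rw [add_zero]
  have hz := rigid_hess hF μ hdim hcrit h0 hfr'
  have hbad := hfr0.and_eventually hz
  obtain ⟨t, h1, h2⟩ := hbad.exists
  exact h1 ⟨0, fun i j => by simp [h2 i j]⟩

end Crest.Agent.R257.Rig20
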