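import Crest.Agent.R257.Lr1_648
import Crest.Agent.R257.Rig6_20
import Crest.Agent.R257.NumJ_488

/-!
R257 (S0395), LCX-R (helper648), part 2: colength of `m J` and of `(h) + m J`; the membership
`F_t ∈ (h) + m J` at infinitely many `t` gives it analytically at `(0,0)`.
-/

set_option autoImplicit false
set_option linter.unusedSectionVars false

open Set Filter Topology Complex
open scoped Matrix

namespace Crest.Agent.R257.Lr_648

open Crest.Agent.R275.Loc2879 hiding AA
open UI939 RtD_838 Defs_219 LCDefs_472 Rig20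
open Crest.AlgGeometry

noncomputable section

section LA

variable {K V : Type*} [Field K] [AddCommGroup V] [Module K V] {ι : Type*} [Fintype ι]

theorem la (N N' : Submodule K V) (v : ι → V) (hN' : N' = N ⊔ Submodule.span K (Set.range v))
    (hli : ∀ c : ι → K, ∑ i, c i • v i ∈ N → c = 0) (hfin : Module.Finite K (V ⧸ N')) :
    Module.Finite K (V ⧸ N) ∧
      Module.finrank K (V ⧸ N) = Module.finrank K (V ⧸ N') + Fintype.card ι := by
  have hle : N ≤ N' := by rw [hN']; exact le_sup_left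
  set P : Submodule K (V ⧸ N) := N'.map N.mkQ with hP
  have hPs : P = Submodule.span K (Set.range fun i => N.mkQ (v i)) := by
    rw [hP, hN', Submodule.map_sup, Submodule.map_span, ← Set.range_comp]
    have : N.map N.mkQ = ⊥ := Submodule.mkQ_map_self N
    rw [this, bot_sup_eq]
    rfl
  have hfP : Module.Finite K P := by
    rw [hPs]
    exact Module.Finite.span_of_finite K (Set.finite_range _)
  let e : ((V ⧸ N) ⧸ P) ≃ₗ[K] V ⧸ N' := Submodule.quotientQuotientEquivQuotient N N' hle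
  have hfQ : Module.Finite K ((V ⧸ N) ⧸ P) := Module.Finite.equiv e.symm
  have hfV : Module.Finite K (V ⧸ N) := Module.Finite.of_submodule_quotient P
  refine ⟨hfV, ?_⟩
  have hind : LinearIndependent K fun i => N.mkQ (v i) := by
    rw [Fintype.linearIndependent_iff]
    intro c hc
    have h1 : ∑ i, c i • v i ∈ N := by
      rw [← Submodule.ker_mkQ N, LinearMap.mem_ker, map_sum]
      simpa using hc
    exact fun i => congrFun (hli c h1) i
  have h1 : Module.finrank K P = Fintype.card ι := by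
    rw [hPs]
    exact finrank_span_eq_card hind
  have h2 := Submodule.finrank_quotient_add_finrank P
  rw [h1, e.finrank_eq] at h2
  exact h2.symm

end LA

variable {n : ℕ}

/-- elements killed by the maximal ideal modulo `N` -/
theorem layer {ι : Type*} [Fintype ι] (N : Ideal (BB n)) (v : ι → BB n)
    (hx : ∀ i j, xB i * v j ∈ N)
    (hli : ∀ c : ι → ℂ, ∑ j, algebraMap ℂ (BB n) (c j) * v j ∈ N → c = 0)
    (hfin : Module.Finite ℂ (BB n ⧸ (N ⊔ Ideal.span (Set.range v)))) :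
    Module.Finite ℂ (BB n ⧸ N) ∧ Module.finrank ℂ (BB n ⧸ N) =
      Module.finrank ℂ (BB n ⧸ (N ⊔ Ideal.span (Set.range v))) + Fintype.card ι := by
  have h1 : (N ⊔ Ideal.span (Set.range v)).restrictScalars ℂ =
      N.restrictScalars ℂ ⊔ Submodule.span ℂ (Set.range v) := by
    refine le_antisymm ?_ ?_
    · intro a ha
      obtain ⟨b, hb, c, hc, rfl⟩ := Submodule.mem_sup.1 (show a ∈ N ⊔ Ideal.span (Set.range v) from ha)
      obtain ⟨u, rfl⟩ := Ideal.mem_span_range_iff_exists_fun.1 hc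
      choose w y hy using fun j => hadamard (u j)
      have h3 : b + ∑ j, u j * v j = (b + ∑ j, (∑ i, y j i * xB i) * v j) +
          ∑ j, w j • v j := by
        rw [add_assoc, ← Finset.sum_add_distrib]
        congr 1
        refine Finset.sum_congr rfl fun j _ => ?_
        rw [Algebra.smul_def]
        conv_lhs => rw [hy j]
        ring
      rw [h3]
      refine Submodule.add_mem_sup ?_ (Submodule.sum_mem _ fun j _ =>
        Submodule.smul_mem _ _ (Submodule.subset_span ⟨j, rfl⟩))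
      refine N.add_mem hb (Ideal.sum_mem _ fun j _ => ?_)
      rw [Finset.sum_mul]
      refine Ideal.sum_mem _ fun i _ => ?_
      rw [mul_assoc]
      exact N.mul_mem_left _ (hx i j)
    · refine sup_le (fun a ha => ?_) (Submodule.span_le.2 ?_)
      · exact (le_sup_left : N ≤ N ⊔ Ideal.span (Set.range v)) ha
      · rintro _ ⟨j, rfl⟩
        exact (le_sup_right : Ideal.span (Set.range v) ≤ N ⊔ Ideal.span (Set.range v))
          (Ideal.subset_span ⟨j, rfl⟩)
  have h4 := la (K := ℂ) (N.restrictScalars ℂ)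
    ((N ⊔ Ideal.span (Set.range v)).restrictScalars ℂ) v h1
    (fun c hc => hli c (by
      have : ∑ j, algebraMap ℂ (BB n) (c j) * v j = ∑ j, c j • v j :=
        Finset.sum_congr rfl fun j _ => by rw [Algebra.smul_def]
      rw [this]; exact hc)) hfin
  exact h4

/-- the generators `x_i g_j` of `m (g)` -/
def mg (g : Fin n → (Fin n → ℂ) → ℂ) (a : Fin n × Fin n) (x : Fin n → ℂ) : ℂ := x a.1 * g a.2 x

theorem an_mg {g : Fin n → (Fin n → ℂ) → ℂ} (hg : ∀ j, AnalyticAt ℂ (g j) 0) (a : Fin n × Fin n) :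
    AnalyticAt ℂ (mg g a) 0 := (an_coord a.1 0).mul (hg a.2)

theorem gm_mg {g : Fin n → (Fin n → ℂ) → ℂ} (hg : ∀ j, AnalyticAt ℂ (g j) 0) (a : Fin n × Fin n) :
    gm (mg g a) (an_mg hg a) = xB a.1 * gm (g a.2) (hg a.2) := rfl

theorem evp_xB (i : Fin n) : evp (0 : Fin n → ℂ) (xB i) = 0 := rfl

theorem xB_mem (i : Fin n) : xB i ∈ IsLocalRing.maximalIdeal (BB n) :=
  (IsLocalRing.mem_maximalIdeal _).2 (xB_not_unit i)

theorem mem_max_iff {a : BB n} : a ∈ IsLocalRing.maximalIdeal (BB n) ↔ evp (0 : Fin n → ℂ) a = 0 := by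
  rw [IsLocalRing.mem_maximalIdeal, mem_nonunits_iff, Crest.Agent.R275.Loc2879.isUnit_iff, not_not]

theorem dim_mg {g : Fin n → (Fin n → ℂ) → ℂ} (hg : ∀ j, AnalyticAt ℂ (g j) 0)
    (hg0 : ∀ j, g j 0 = 0) (hfin : Module.Finite ℂ (BB n ⧸ Idl (0 : Fin n → ℂ) g)) :
    Module.Finite ℂ (BB n ⧸ Idl (0 : Fin n → ℂ) (mg g)) ∧
      dimQ (0 : Fin n → ℂ) (mg g) = dimQ (0 : Fin n → ℂ) g + n := by
  set N : Ideal (BB n) := Idl (0 : Fin n → ℂ) (mg g) with hN
  set v : Fin n → BB n := fun j => gm (g j) (hg j) with hv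
  have hI : Idl (0 : Fin n → ℂ) g = Ideal.span (Set.range v) := by
    unfold Idl
    congr 2
    funext j
    exact gz_eq (hg j)
  have hx : ∀ i j, xB i * v j ∈ N := by
    intro i j
    refine Ideal.subset_span ⟨(i, j), ?_⟩
    show gz (mg g (i, j)) = _
    rw [gz_eq (an_mg hg (i, j))]
    exact gm_mg hg (i, j)
  have hle : N ≤ Ideal.span (Set.range v) := by
    refine Ideal.span_le.2 ?_
    rintro _ ⟨a, rfl⟩
    show gz (mg g a) ∈ _
    rw [gz_eq (an_mg hg a), gm_mg hg a]
    exact Ideal.mul_mem_left _ _ (Ideal.subset_span ⟨a.2, rfl⟩)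
  have hsup : N ⊔ Ideal.span (Set.range v) = Ideal.span (Set.range v) := sup_eq_right.2 hle
  have hm : ∀ j, v j ∈ IsLocalRing.maximalIdeal (BB n) := fun j => mem_max_iff.2 (hg0 j)
  have hspan : Ideal.span (Set.range v) ≤ IsLocalRing.maximalIdeal (BB n) := by
    refine Ideal.span_le.2 ?_
    rintro _ ⟨j, rfl⟩
    exact hm j
  have hKS := CM_812.koszul_BB v hm (by rw [← hI]; exact hfin)
  have hli : ∀ c : Fin n → ℂ, ∑ j, algebraMap ℂ (BB n) (c j) * v j ∈ N → c = 0 := by
    intro c hc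
    obtain ⟨b, hb⟩ := (mem_Idl (an_mg hg)).1 hc
    have h1 : ∑ j, (algebraMap ℂ (BB n) (c j) - ∑ i, b (i, j) * xB i) * v j = 0 := by
      have h2 : ∑ a : Fin n × Fin n, b a * gm (mg g a) (an_mg hg a) =
          ∑ j, (∑ i, b (i, j) * xB i) * v j := by
        rw [Fintype.sum_prod_type_right]
        refine Finset.sum_congr rfl fun j _ => ?_
        rw [Finset.sum_mul]
        refine Finset.sum_congr rfl fun i _ => ?_
        rw [gm_mg hg (i, j)]
        ring
      simp only [sub_mul, Finset.sum_sub_distrib]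
      rw [hb, h2, sub_self]
    obtain ⟨S, -, -, hS⟩ := hKS _ h1
    funext j
    have h3 : algebraMap ℂ (BB n) (c j) ∈ IsLocalRing.maximalIdeal (BB n) := by
      have h4 : algebraMap ℂ (BB n) (c j) = (∑ k, S j k * v k) + ∑ i, b (i, j) * xB i := by
        rw [← hS j]; ring
      rw [h4]
      refine Ideal.add_mem _ (Ideal.sum_mem _ fun k _ => Ideal.mul_mem_left _ _ (hm k))
        (Ideal.sum_mem _ fun i _ => Ideal.mul_mem_left _ _ (xB_mem i))
    exact mem_max_iff.1 h3
  have h5 := layer N v hx hli (by rw [hsup, ← hI]; exact hfin)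
  refine ⟨h5.1, ?_⟩
  have h6 := h5.2
  rw [hsup, ← hI, Fintype.card_fin] at h6
  exact h6

/-- adding one element of the socle -/
theorem dim_opt {g : Fin n → (Fin n → ℂ) → ℂ} (hg : ∀ j, AnalyticAt ℂ (g j) 0)
    {h : (Fin n → ℂ) → ℂ} (hh : AnalyticAt ℂ h 0)
    (hfin : Module.Finite ℂ (BB n ⧸ Idl (0 : Fin n → ℂ) (mg g)))
    (hx : ∀ k, ∃ b : Fin n × Fin n → (Fin n → ℂ) → ℂ, (∀ a, AnalyticAt ℂ (b a) 0) ∧
      ∀ᶠ x in 𝓝 (0 : Fin n → ℂ), x k * h x = ∑ a, b a x * mg g a x)
    (hn : ¬ ∃ b : Fin n × Fin n → (Fin n → ℂ) → ℂ, (∀ a, AnalyticAt ℂ (b a) 0) ∧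
      ∀ᶠ x in 𝓝 (0 : Fin n → ℂ), h x = ∑ a, b a x * mg g a x) :
    Module.Finite ℂ (BB n ⧸ Idl (0 : Fin n → ℂ) (fun o : Option (Fin n × Fin n) =>
      o.elim h (mg g))) ∧
      dimQ (0 : Fin n → ℂ) (fun o : Option (Fin n × Fin n) => o.elim h (mg g)) + 1 =
        dimQ (0 : Fin n → ℂ) (mg g) := by
  set N : Ideal (BB n) := Idl (0 : Fin n → ℂ) (mg g) with hN
  have hmem : ∀ {u : (Fin n → ℂ) → ℂ} (hu : AnalyticAt ℂ u 0), gm u hu ∈ N ↔
      ∃ b : Fin n × Fin n → (Fin n → ℂ) → ℂ, (∀ a, AnalyticAt ℂ (b a) 0) ∧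
        ∀ᶠ x in 𝓝 (0 : Fin n → ℂ), u x = ∑ a, b a x * mg g a x := by
    intro u hu
    rw [hN, mem_Idl (an_mg hg)]
    constructor
    · rintro ⟨c, hc⟩
      choose b hb hbe using fun a => exists_gm (c a)
      refine ⟨b, hb, ?_⟩
      obtain ⟨h6, e6⟩ := exists_sum_gm' (p := (0 : Fin n → ℂ)) Finset.univ b (mg g) hb (an_mg hg)
      refine (gm_eq_gm (hf := hu) (hg := h6)).1 ?_
      rw [hc]
      refine Eq.trans ?_ e6
      exact Finset.sum_congr rfl fun a _ => by rw [hbe a]
    · rintro ⟨b, hb, hbe⟩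
      refine ⟨fun a => gm (b a) (hb a), ?_⟩
      obtain ⟨h6, e6⟩ := exists_sum_gm' (p := (0 : Fin n → ℂ)) Finset.univ b (mg g) hb (an_mg hg)
      refine Eq.trans ?_ e6.symm
      exact gm_eq_gm.2 hbe
  set v : Unit → BB n := fun _ => gm h hh with hv
  have hopt : Idl (0 : Fin n → ℂ) (fun o : Option (Fin n × Fin n) => o.elim h (mg g)) =
      N ⊔ Ideal.span (Set.range v) := by
    rw [hN]
    unfold Idl
    rw [← Ideal.span_union]
    congr 1
    ext z
    simp only [Set.mem_range, Set.mem_union, Option.exists, Option.elim]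
    rw [or_comm]
    constructor
    · rintro (⟨a, ha⟩ | hz)
      · exact Or.inl ⟨a, ha⟩
      · refine Or.inr ⟨(), ?_⟩
        rw [← hz, hv]
        exact (gz_eq hh).symm
    · rintro (⟨a, ha⟩ | ⟨_, hz⟩)
      · exact Or.inl ⟨a, ha⟩
      · refine Or.inr ?_
        rw [← hz, hv]
        exact gz_eq hh
  have hle : N ≤ N ⊔ Ideal.span (Set.range v) := le_sup_left
  have hfin' : Module.Finite ℂ (BB n ⧸ (N ⊔ Ideal.span (Set.range v))) := by
    exact Module.Finite.of_surjective ((Ideal.Quotient.factorₐ ℂ hle).toLinearMap)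
      (Ideal.Quotient.factor_surjective hle)
  have h5 := layer N v (fun k _ => (hmem ((an_coord k 0).mul hh)).2 (hx k)) (fun c hc => by
    funext u
    by_contra hc0
    refine hn ((hmem hh).1 ?_)
    have h6 : gm h hh = algebraMap ℂ (BB n) (c ())⁻¹ * ∑ j, algebraMap ℂ (BB n) (c j) * v j := by
      have h7 : c () ≠ 0 := hc0
      rw [Fintype.sum_unique]
      show _ = algebraMap ℂ (BB n) (c ())⁻¹ * (algebraMap ℂ (BB n) (c ()) * gm h hh)
      rw [← mul_assoc, ← map_mul, inv_mul_cancel₀ h7, map_one, one_mul]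
    rw [h6]
    exact N.mul_mem_left _ hc) hfin'
  rw [hopt]
  refine ⟨hfin', ?_⟩
  unfold dimQ
  rw [hopt]
  simpa using h5.2.symm

end

end Crest.Agent.R257.Lr_648
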