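import Crest.Agent.R257.Lr2_648

/-!
R257 (S0395), LCX-R (helper648), part 3: `F_t ∈ (h) + m J` and `m h ⊆ m J` at infinitely many `t`
give `F_t = ν h + ∑ b_ij x_i ∂_jF` analytically at `(0,0)`.
-/

set_option autoImplicit false
set_option linter.unusedSectionVars false

open Set Filter Topology Complex
open scoped Matrix

namespace Crest.Agent.R257.Lr_648

open Crest.Agent.R275.Loc2879 hiding AA
open UI939 RtD_838 Defs_219 LCDefs_472 Rig20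
open Crest.AlgGeometry

noncomputable section

variable {n : ℕ}

/-- the Hessian determinant of the slices -/
def HD (F : (Fin n → ℂ) × ℂ → ℂ) (p : (Fin n → ℂ) × ℂ) : ℂ :=
  (Matrix.of fun i j => grad (grad F j) i p).det

theorem HD_eq (F : (Fin n → ℂ) × ℂ → ℂ) (x : Fin n → ℂ) (t : ℂ) :
    HD F (x, t) = RtD_838.hs (sl F t) x := rfl

theorem an_HD {F : (Fin n → ℂ) × ℂ → ℂ} {p : (Fin n → ℂ) × ℂ} (hF : AnalyticAt ℂ F p) :
    AnalyticAt ℂ (HD F) p := by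
  unfold HD
  simp only [Matrix.det_apply']
  refine Finset.analyticAt_fun_sum _ fun σ _ => ?_
  refine AnalyticAt.mul analyticAt_const ?_
  refine Finset.analyticAt_fun_prod _ fun i _ => ?_
  exact an_grad (an_grad hF i) (σ i)

/-- membership at one slice -/
def MM (F : (Fin n → ℂ) × ℂ → ℂ) (t : ℂ) : Prop :=
  (∃ (c : (Fin n → ℂ) → ℂ) (b : Fin n × Fin n → (Fin n → ℂ) → ℂ), AnalyticAt ℂ c 0 ∧
    (∀ a, AnalyticAt ℂ (b a) 0) ∧ ∀ᶠ x in 𝓝 (0 : Fin n → ℂ),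
      dt F (x, t) = c x * HD F (x, t) + ∑ a, b a x * (x a.1 * grad F a.2 (x, t))) ∧
  ∀ k, ∃ b : Fin n × Fin n → (Fin n → ℂ) → ℂ, (∀ a, AnalyticAt ℂ (b a) 0) ∧
    ∀ᶠ x in 𝓝 (0 : Fin n → ℂ),
      x k * HD F (x, t) = ∑ a, b a x * (x a.1 * grad F a.2 (x, t))

theorem tendsto_ax : Tendsto (fun t : ℂ => ((0, t) : (Fin n → ℂ) × ℂ)) (𝓝 0) (𝓝 0) := by
  have : Continuous (fun t : ℂ => ((0, t) : (Fin n → ℂ) × ℂ)) := by fun_prop
  exact this.tendsto' _ _ rfl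

theorem tendsto_sl (t : ℂ) :
    Tendsto (fun x : Fin n → ℂ => ((x, t) : (Fin n → ℂ) × ℂ)) (𝓝 0) (𝓝 (0, t)) := by
  have : Continuous (fun x : Fin n → ℂ => ((x, t) : (Fin n → ℂ) × ℂ)) := by fun_prop
  exact this.tendsto' _ _ rfl

theorem an_slc {f : (Fin n → ℂ) × ℂ → ℂ} {t : ℂ} (hf : AnalyticAt ℂ f (0, t)) :
    AnalyticAt ℂ (fun x => f (x, t)) (0 : Fin n → ℂ) :=
  AnalyticAt.comp (g := f) (f := fun x : Fin n → ℂ => (x, t)) hf
      (analyticAt_id.prod analyticAt_const)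

/-- the dimension of `O/J` in a `μ`-constant family -/
theorem fam_dim {F : (Fin n → ℂ) × ℂ → ℂ} {μ : ℕ} (hF : Fam F μ) : ∀ᶠ t in 𝓝 (0 : ℂ),
    Module.Finite ℂ (BB n ⧸ Idl (0 : Fin n → ℂ) (fun j x => grad F j (x, t))) ∧
    dimQ (0 : Fin n → ℂ) (fun j x => grad F j (x, t)) = μ := by
  filter_upwards [hF.fin, tendsto_ax.eventually (AnalyticAt.eventually_analyticAt hF.an)] with t ht hFt
  obtain ⟨h1, h2⟩ := ht
  have han : ∀ i, AnalyticAt ℂ (par (sl F t) i) (0 : Fin n → ℂ) := fun i =>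
    an_slc (f := grad F i) (an_grad hFt i)
  exact ⟨(colFin_iff han).1 h1, (col_eq han).symm.trans h2⟩

/-- everything at nearby slices -/
theorem fam_ev {F : (Fin n → ℂ) × ℂ → ℂ} {μ : ℕ} (hF : Fam F μ) : ∀ᶠ t in 𝓝 (0 : ℂ),
    AnalyticAt ℂ F (0, t) ∧ (∀ j, AnalyticAt ℂ (fun x => grad F j (x, t)) (0 : Fin n → ℂ)) ∧
    (∀ j, grad F j (0, t) = 0) ∧
    (∀ᶠ x in 𝓝 (0 : Fin n → ℂ), (∀ j, grad F j (x, t) = 0) → x = 0) ∧
    ColFin (fun j x => grad F j (x, t)) := by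
  have hiso : ∀ᶠ p in 𝓝 (0 : (Fin n → ℂ) × ℂ), (∀ j, grad F j p = 0) → p.1 = 0 := hF.iso
  filter_upwards [hF.fin, hF.crit, tendsto_ax.eventually (AnalyticAt.eventually_analyticAt hF.an),
    tendsto_ax.eventually (eventually_eventually_nhds.2 hiso)] with t ht hc hFt hi
  exact ⟨hFt, fun j => an_slc (an_grad hFt j), hc, (tendsto_sl t).eventually hi, ht.1⟩

theorem dim_GJ {F : (Fin n → ℂ) × ℂ → ℂ} {μ : ℕ} (hF : Fam F μ) : ∀ᶠ t in 𝓝 (0 : ℂ),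
    Module.Finite ℂ (BB n ⧸ Idl (0 : Fin n → ℂ)
      (fun (a : Fin n × Fin n) x => x a.1 * grad F a.2 (x, t))) ∧
    dimQ (0 : Fin n → ℂ) (fun (a : Fin n × Fin n) x => x a.1 * grad F a.2 (x, t)) = μ + n := by
  filter_upwards [fam_dim hF, fam_ev hF] with t h1 h2
  obtain ⟨-, hg, hg0, -, -⟩ := h2
  have h3 := dim_mg hg hg0 h1.1
  rw [h1.2] at h3
  exact h3

/-- `h_t ∉ J_t` -/
theorem HD_not_mem {F : (Fin n → ℂ) × ℂ → ℂ} {μ : ℕ} (hF : Fam F μ) : ∀ᶠ t in 𝓝 (0 : ℂ),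
    ∀ b : Fin n → (Fin n → ℂ) → ℂ, (∀ j, AnalyticAt ℂ (b j) 0) →
      ¬ ∀ᶠ x in 𝓝 (0 : Fin n → ℂ), HD F (x, t) = ∑ j, b j x * grad F j (x, t) := by
  filter_upwards [fam_ev hF] with t h2 b hb h
  obtain ⟨-, hg, hg0, hi, hf⟩ := h2
  exact jac_not_mem (fun j x => grad F j (x, t)) hg hg0 hf hi b hb h

theorem HD_not_memG {F : (Fin n → ℂ) × ℂ → ℂ} {μ : ℕ} (hF : Fam F μ) : ∀ᶠ t in 𝓝 (0 : ℂ),
    ¬ ∃ b : Fin n × Fin n → (Fin n → ℂ) → ℂ, (∀ a, AnalyticAt ℂ (b a) 0) ∧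
      ∀ᶠ x in 𝓝 (0 : Fin n → ℂ), HD F (x, t) = ∑ a, b a x * (x a.1 * grad F a.2 (x, t)) := by
  filter_upwards [HD_not_mem hF] with t h
  rintro ⟨b, hb, hbe⟩
  refine h (fun j x => ∑ i, b (i, j) x * x i) (fun j => ?_) ?_
  · exact Finset.analyticAt_fun_sum _ fun i _ => (hb (i, j)).mul (an_coord i 0)
  · filter_upwards [hbe] with x hx
    rw [hx, Fintype.sum_prod_type_right]
    refine Finset.sum_congr rfl fun j _ => ?_
    rw [Finset.sum_mul]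
    exact Finset.sum_congr rfl fun i _ => by ring

/-- **(R2)** -/
theorem r2 {F : (Fin n → ℂ) × ℂ → ℂ} {μ : ℕ} (hF : Fam F μ)
    (h : ∃ᶠ t in 𝓝[≠] (0 : ℂ), MM F t) :
    ∃ (ν : (Fin n → ℂ) × ℂ → ℂ) (b : Fin n × Fin n → (Fin n → ℂ) × ℂ → ℂ),
      AnalyticAt ℂ ν 0 ∧ (∀ a, AnalyticAt ℂ (b a) 0) ∧
      ∀ᶠ p in 𝓝 (0 : (Fin n → ℂ) × ℂ),
        dt F p = ν p * HD F p + ∑ a, b a p * (p.1 a.1 * grad F a.2 p) := by
  have hFa : AnalyticAt ℂ F 0 := hF.an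
  set G : Fin n × Fin n → (Fin n → ℂ) × ℂ → ℂ := fun a p => p.1 a.1 * grad F a.2 p with hG
  have hGa : ∀ a, AnalyticAt ℂ (G a) 0 := fun a => (an_x a.1 0).mul (an_grad hFa a.2)
  -- `x_k h ∈ m J` for all small t
  have h1 : ∀ k, ∃ b : Fin n × Fin n → (Fin n → ℂ) × ℂ → ℂ, (∀ a, AnalyticAt ℂ (b a) 0) ∧
      ∀ᶠ p in 𝓝 (0 : (Fin n → ℂ) × ℂ), p.1 k * HD F p = ∑ a, b a p * G a p := fun k =>
    cor_U G hGa (μ + n) (dim_GJ hF) (fun p => p.1 k * HD F p) ((an_x k 0).mul (an_HD hFa))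
      (h.mono fun t ht => ht.2 k)
  choose b hb hbe using h1
  have h2 : ∀ᶠ t in 𝓝 (0 : ℂ), ∀ k, ∃ b : Fin n × Fin n → (Fin n → ℂ) → ℂ,
      (∀ a, AnalyticAt ℂ (b a) 0) ∧ ∀ᶠ x in 𝓝 (0 : Fin n → ℂ),
        x k * HD F (x, t) = ∑ a, b a x * (x a.1 * grad F a.2 (x, t)) := by
    refine eventually_all.2 fun k => ?_
    have e1 : ∀ᶠ t in 𝓝 (0 : ℂ), ∀ a, AnalyticAt ℂ (b k a) (0, t) :=
      tendsto_ax.eventually (eventually_all.2 fun a => (hb k a).eventually_analyticAt)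
    filter_upwards [e1, tendsto_ax.eventually (eventually_eventually_nhds.2 (hbe k))] with t h3 h4
    exact ⟨fun a x => b k a (x, t), fun a => an_slc (h3 a), (tendsto_sl t).eventually h4⟩
  -- the colength of `(h) + m J`
  set G' : Option (Fin n × Fin n) → (Fin n → ℂ) × ℂ → ℂ := fun o => o.elim (HD F) G with hG'
  have hG'a : ∀ o, AnalyticAt ℂ (G' o) 0 := by
    rintro (_ | a)
    · exact an_HD hFa
    · exact hGa a
  have hdim : ∀ᶠ t in 𝓝 (0 : ℂ),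
      Module.Finite ℂ (BB n ⧸ Idl (0 : Fin n → ℂ) (fun o x => G' o (x, t))) ∧
      dimQ (0 : Fin n → ℂ) (fun o x => G' o (x, t)) = μ + n - 1 := by
    filter_upwards [h2, dim_GJ hF, HD_not_memG hF, fam_ev hF] with t a1 a2 a3 a4
    obtain ⟨hFt, hg, -, -, -⟩ := a4
    have h5 := dim_opt (g := fun j x => grad F j (x, t)) hg (h := fun x => HD F (x, t))
      (an_slc (an_HD hFt)) a2.1 a1 a3
    have h6 : (fun o : Option (Fin n × Fin n) => o.elim (fun x => HD F (x, t))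
        (mg fun j x => grad F j (x, t))) = fun o x => G' o (x, t) := by
      funext o
      cases o <;> rfl
    rw [h6] at h5
    refine ⟨h5.1, ?_⟩
    have h7 : dimQ (0 : Fin n → ℂ) (mg fun j x => grad F j (x, t)) = μ + n := a2.2
    have := h5.2
    omega
  obtain ⟨u, hu, hue⟩ := cor_U G' hG'a (μ + n - 1) hdim (dt F) (an_dt hFa) (by
    refine h.mono fun t ht => ?_
    obtain ⟨⟨c, d, hc, hd, hcd⟩, -⟩ := ht
    refine ⟨fun o => o.elim c d, ?_, ?_⟩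
    · rintro (_ | a)
      · exact hc
      · exact hd a
    · filter_upwards [hcd] with x hx
      rw [hx, Fintype.sum_option]
      rfl)
  refine ⟨u none, fun a => u (some a), hu none, fun a => hu (some a), ?_⟩
  filter_upwards [hue] with p hp
  rw [hp, Fintype.sum_option]
  rfl

end

end Crest.Agent.R257.Lr_648
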