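import Crest.Agent.R257.Lr3_648

/-!
R257 (S0395), LCX-R (helper648), part 4: jets along the axis (`PP`), the 2-jet (R3).
-/

set_option autoImplicit false
set_option linter.unusedSectionVars false
set_option linter.unusedVariables false

open Set Filter Topology Complex
open scoped Matrix

namespace Crest.Agent.R257.Lr_648

open Crest.Agent.R275.Loc2879 hiding AA
open UI939 RtD_838 Defs_219 LCDefs_472 Rig20
open Crest.AlgGeometry

noncomputable section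

variable {n : ℕ} {κ ι : Type} [Fintype κ]

/-- linear combinations with analytic coefficients -/
def Lin (Y : κ → ℂ → ℂ) (φ : ℂ → ℂ) : Prop :=
  ∃ c : κ → ℂ → ℂ, (∀ k, AnalyticAt ℂ (c k) 0) ∧ ∀ᶠ t in 𝓝 (0 : ℂ), φ t = ∑ k, c k t * Y k t

section Lin

variable {Y : κ → ℂ → ℂ} {φ ψ : ℂ → ℂ}

theorem Lin.congr (h : Lin Y φ) (e : φ =ᶠ[𝓝 0] ψ) : Lin Y ψ := by
  obtain ⟨c, hc, h1⟩ := h
  refine ⟨c, hc, ?_⟩
  filter_upwards [h1, e] with t h2 h3
  rw [← h3, h2]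

theorem Lin.zero (e : ∀ᶠ t in 𝓝 (0 : ℂ), φ t = 0) : Lin Y φ :=
  ⟨fun _ _ => 0, fun _ => analyticAt_const, by
    filter_upwards [e] with t ht
    simp [ht]⟩

theorem Lin.add (h : Lin Y φ) (h' : Lin Y ψ) : Lin Y fun t => φ t + ψ t := by
  obtain ⟨c, hc, h1⟩ := h
  obtain ⟨d, hd, h2⟩ := h'
  refine ⟨fun k t => c k t + d k t, fun k => (hc k).add (hd k), ?_⟩
  filter_upwards [h1, h2] with t h3 h4
  rw [h3, h4, ← Finset.sum_add_distrib]
  exact Finset.sum_congr rfl fun k _ => by ring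

theorem Lin.mul (h : Lin Y φ) (ha : AnalyticAt ℂ ψ 0) : Lin Y fun t => ψ t * φ t := by
  obtain ⟨c, hc, h1⟩ := h
  refine ⟨fun k t => ψ t * c k t, fun k => ha.mul (hc k), ?_⟩
  filter_upwards [h1] with t h3
  rw [h3, Finset.mul_sum]
  exact Finset.sum_congr rfl fun k _ => by ring

theorem Lin.self [DecidableEq κ] (Y : κ → ℂ → ℂ) (k : κ) : Lin Y (Y k) :=
  ⟨fun j _ => if j = k then 1 else 0, fun _ => analyticAt_const, Eventually.of_forall fun t => by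
    simp⟩

theorem ode_lin (hY : ∀ i, AnalyticAt ℂ (Y i) 0) (hY0 : ∀ i, Y i 0 = 0)
    (h : ∀ i, Lin Y (deriv (Y i))) : ∀ᶠ t in 𝓝 (0 : ℂ), ∀ i, Y i t = 0 := by
  choose c hc h1 using h
  exact ode_zero Y hY hY0 c (fun i k => (hc i k).continuousAt) (eventually_all.2 h1)

end Lin

/-- derivative along a vector field `∑ G_k(t) ∂_k` -/
def DD (G : ι → Fin n → ℂ → ℂ) (α : ι) (h : (Fin n → ℂ) × ℂ → ℂ) (p : (Fin n → ℂ) × ℂ) : ℂ :=
  ∑ k, G α k p.2 * grad h k p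

section DD

variable {G : ι → Fin n → ℂ → ℂ} {f g : (Fin n → ℂ) × ℂ → ℂ} {p : (Fin n → ℂ) × ℂ}

theorem DD_mul (hf : AnalyticAt ℂ f p) (hg : AnalyticAt ℂ g p) (α : ι) :
    DD G α (fun q => f q * g q) p = f p * DD G α g p + DD G α f p * g p := by
  unfold DD
  rw [Finset.mul_sum, Finset.sum_mul, ← Finset.sum_add_distrib]
  refine Finset.sum_congr rfl fun k _ => ?_
  rw [grad_mul hf hg]
  ring

theorem DD_add (hf : AnalyticAt ℂ f p) (hg : AnalyticAt ℂ g p) (α : ι) :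
    DD G α (fun q => f q + g q) p = DD G α f p + DD G α g p := by
  unfold DD
  rw [← Finset.sum_add_distrib]
  refine Finset.sum_congr rfl fun k _ => ?_
  rw [grad_add hf hg]
  ring

theorem DD_congr (h : f =ᶠ[𝓝 p] g) (α : ι) : DD G α f p = DD G α g p := by
  unfold DD
  exact Finset.sum_congr rfl fun k _ => by rw [grad_congr h]

theorem DD_ev (h : f =ᶠ[𝓝 p] g) (α : ι) : DD G α f =ᶠ[𝓝 p] DD G α g := by
  filter_upwards [h.eventuallyEq_nhds] with q hq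
  exact DD_congr hq α

theorem an_snd {c : ℂ → ℂ} (hc : AnalyticAt ℂ c p.2) :
    AnalyticAt ℂ (fun q : (Fin n → ℂ) × ℂ => c q.2) p :=
  AnalyticAt.fun_comp (g := c) (f := Prod.snd) hc analyticAt_snd

theorem an_DD {α : ι} (hG : ∀ k, AnalyticAt ℂ (G α k) p.2) (hf : AnalyticAt ℂ f p) :
    AnalyticAt ℂ (DD G α f) p :=
  Finset.analyticAt_fun_sum _ fun k _ => (an_snd (hG k)).mul (an_grad hf k)

end DD

/-- the value on the axis and all derivatives along the fields of order `≤ m` on the axis are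
linear combinations of the `Y k` -/
def PP (Y : κ → ℂ → ℂ) (G : ι → Fin n → ℂ → ℂ) : ℕ → ((Fin n → ℂ) × ℂ → ℂ) → Prop
  | 0, g => AnalyticAt ℂ g 0 ∧ Lin Y (fun t => g (0, t))
  | (m + 1), g => (AnalyticAt ℂ g 0 ∧ Lin Y (fun t => g (0, t))) ∧ ∀ α, PP Y G m (DD G α g)

section PP

variable {Y : κ → ℂ → ℂ} {G : ι → Fin n → ℂ → ℂ}

theorem PP.base {m : ℕ} {g : (Fin n → ℂ) × ℂ → ℂ} (h : PP Y G m g) :
    AnalyticAt ℂ g 0 ∧ Lin Y (fun t => g (0, t)) := by
  cases m with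
  | zero => exact h
  | succ m => exact h.1

theorem PP.an {m : ℕ} {g : (Fin n → ℂ) × ℂ → ℂ} (h : PP Y G m g) : AnalyticAt ℂ g 0 := h.base.1

theorem PP.lin {m : ℕ} {g : (Fin n → ℂ) × ℂ → ℂ} (h : PP Y G m g) : Lin Y (fun t => g (0, t)) :=
  h.base.2

theorem PP.dd {m : ℕ} {g : (Fin n → ℂ) × ℂ → ℂ} (h : PP Y G (m + 1) g) (α : ι) :
    PP Y G m (DD G α g) := h.2 α

theorem PP.zro {m : ℕ} {g : (Fin n → ℂ) × ℂ → ℂ} (h : PP Y G m g) : PP Y G 0 g := h.base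

theorem PP.congr : ∀ {m : ℕ} {g g' : (Fin n → ℂ) × ℂ → ℂ}, PP Y G m g → g =ᶠ[𝓝 0] g' →
    PP Y G m g'
  | 0, g, g', h, e => ⟨h.1.congr e, h.2.congr (tendsto_ax.eventually e)⟩
  | (m + 1), g, g', h, e => ⟨⟨h.1.1.congr e, h.1.2.congr (tendsto_ax.eventually e)⟩,
      fun α => (h.2 α).congr (DD_ev e α)⟩

theorem PP.mono : ∀ {m : ℕ} {g : (Fin n → ℂ) × ℂ → ℂ}, PP Y G (m + 1) g → PP Y G m g
  | 0, _, h => h.1
  | (_ + 1), _, h => ⟨h.1, fun α => (h.2 α).mono⟩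

variable (hG : ∀ α k, AnalyticAt ℂ (G α k) 0)
include hG

theorem PP.add : ∀ {m : ℕ} {f g : (Fin n → ℂ) × ℂ → ℂ}, PP Y G m f → PP Y G m g →
    PP Y G m (fun p => f p + g p)
  | 0, f, g, hf, hg => ⟨hf.1.add hg.1, hf.2.add hg.2⟩
  | (m + 1), f, g, hf, hg => ⟨⟨hf.1.1.add hg.1.1, hf.1.2.add hg.1.2⟩, fun α =>
      (PP.add (hf.2 α) (hg.2 α)).congr (by
        filter_upwards [hf.an.eventually_analyticAt, hg.an.eventually_analyticAt] with p h1 h2
        exact (DD_add h1 h2 α).symm)⟩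

theorem PP.mulL : ∀ {m : ℕ} {c g : (Fin n → ℂ) × ℂ → ℂ}, AnalyticAt ℂ c 0 → PP Y G m g →
    PP Y G m (fun p => c p * g p)
  | 0, c, g, hc, hg => ⟨hc.mul hg.1, hg.2.mul (ψ := fun t => c (0, t)) (an_axis (t := 0) hc)⟩
  | (m + 1), c, g, hc, hg => ⟨⟨hc.mul hg.1.1, hg.1.2.mul (ψ := fun t => c (0, t))
        (an_axis (t := 0) hc)⟩, fun α =>
      (PP.add hG (PP.mulL hc (hg.2 α)) (PP.mulL (an_DD (p := 0) (hG α) hc) hg.mono)).congr (by
        filter_upwards [hc.eventually_analyticAt, hg.an.eventually_analyticAt] with p h1 h2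
        exact (DD_mul h1 h2 α).symm)⟩

theorem PP.mulR {m : ℕ} {c g : (Fin n → ℂ) × ℂ → ℂ} (hg : PP Y G m g) (hc : AnalyticAt ℂ c 0) :
    PP Y G m (fun p => g p * c p) :=
  (PP.mulL hG hc hg).congr (Eventually.of_forall fun p => mul_comm _ _)

theorem PP.mul : ∀ {m : ℕ} {f g : (Fin n → ℂ) × ℂ → ℂ}, PP Y G m f → PP Y G 0 g →
    PP Y G (m + 1) (fun p => f p * g p)
  | 0, f, g, hf, hg => ⟨⟨hf.1.mul hg.1, hg.2.mul (ψ := fun t => f (0, t)) (an_axis (t := 0) hf.1)⟩,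
      fun α => (PP.add hG (PP.mulR hG hf (an_DD (p := 0) (hG α) hg.1))
        (PP.mulL hG (an_DD (p := 0) (hG α) hf.1) hg)).congr (by
        filter_upwards [hf.an.eventually_analyticAt, hg.an.eventually_analyticAt] with p h1 h2
        exact (DD_mul h1 h2 α).symm)⟩
  | (m + 1), f, g, hf, hg => ⟨⟨hf.1.1.mul hg.1, hg.2.mul (ψ := fun t => f (0, t))
        (an_axis (t := 0) hf.1.1)⟩,
      fun α => (PP.add hG (PP.mulR hG hf (an_DD (p := 0) (hG α) hg.1))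
        (PP.mul (hf.2 α) hg)).congr (by
        filter_upwards [hf.an.eventually_analyticAt, hg.an.eventually_analyticAt] with p h1 h2
        exact (DD_mul h1 h2 α).symm)⟩

theorem PP.zero {m : ℕ} : PP Y G m (fun _ => 0) := by
  induction m with
  | zero => exact ⟨analyticAt_const, Lin.zero (Eventually.of_forall fun _ => rfl)⟩
  | succ m ih =>
    refine ⟨⟨analyticAt_const, Lin.zero (Eventually.of_forall fun _ => rfl)⟩, fun α => ?_⟩
    refine ih.congr (Eventually.of_forall fun p => ?_)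
    simp [DD, grad]

theorem PP.sum {σ : Type} [Fintype σ] {m : ℕ} {f : σ → (Fin n → ℂ) × ℂ → ℂ}
    (h : ∀ s, PP Y G m (f s)) : PP Y G m (fun p => ∑ s, f s p) := by
  classical
  have key : ∀ T : Finset σ, PP Y G m (fun p => ∑ s ∈ T, f s p) := by
    intro T
    induction T using Finset.induction_on with
    | empty => simpa using PP.zero hG
    | insert a T ha ih =>
      refine (PP.add hG (h a) ih).congr (Eventually.of_forall fun p => ?_)
      beta_reduce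
      rw [Finset.sum_insert ha]
  exact key Finset.univ

theorem PP.neg {m : ℕ} {f : (Fin n → ℂ) × ℂ → ℂ} (h : PP Y G m f) :
    PP Y G m (fun p => - f p) :=
  (PP.mulL hG (c := fun _ => -1) analyticAt_const h).congr (Eventually.of_forall fun p => by
    show -1 * f p = _
    ring)

end PP

/-- the coordinate fields -/
def idG (n : ℕ) : Fin n → Fin n → ℂ → ℂ := fun α k _ => if k = α then 1 else 0

theorem an_idG (α k : Fin n) : AnalyticAt ℂ (idG n α k) 0 := analyticAt_const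

theorem DD_idG (α : Fin n) (h : (Fin n → ℂ) × ℂ → ℂ) : DD (idG n) α h = grad h α := by
  funext p
  simp [DD, idG]

/-- triple products -/
theorem PP.tri {Y : κ → ℂ → ℂ} {G : ι → Fin n → ℂ → ℂ} (hG : ∀ α k, AnalyticAt ℂ (G α k) 0)
    {m : ℕ} {a b c : (Fin n → ℂ) × ℂ → ℂ} (ha : PP Y G m a) (hb : PP Y G 0 b) (hc : PP Y G 0 c) :
    PP Y G (m + 2) (fun p => a p * b p * c p) := PP.mul hG (PP.mul hG ha hb) hc

/-- the determinant of a `3 × 3` matrix of functions -/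
theorem PP.det {Y : κ → ℂ → ℂ} {G : ι → Fin n → ℂ → ℂ} (hG : ∀ α k, AnalyticAt ℂ (G α k) 0)
    {M : Fin 3 → Fin 3 → (Fin n → ℂ) × ℂ → ℂ} (hM : ∀ i j, PP Y G 0 (M i j)) :
    PP Y G 2 (fun p => (Matrix.of fun i j => M i j p).det) := by
  have h := fun i j k l m o => PP.tri hG (hM i j) (hM k l) (hM m o)
  refine PP.congr (PP.add hG (PP.add hG (PP.add hG (PP.add hG (PP.add hG
    (h 0 0 1 1 2 2) (PP.neg hG (h 0 0 1 2 2 1))) (PP.neg hG (h 0 1 1 0 2 2))) (h 0 1 1 2 2 0))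
    (h 0 2 1 0 2 1)) (PP.neg hG (h 0 2 1 1 2 0))) (Eventually.of_forall fun p => ?_)
  beta_reduce
  rw [Matrix.det_fin_three]
  simp only [Matrix.of_apply]
  ring

/-- **(R3)** the Hessians vanish -/
theorem r3 {F : (Fin 3 → ℂ) × ℂ → ℂ} {μ : ℕ} (hF : Fam F μ) (h0 : ∀ i j, H2 (sl F 0) i j = 0)
    {ν : (Fin 3 → ℂ) × ℂ → ℂ} {b : Fin 3 × Fin 3 → (Fin 3 → ℂ) × ℂ → ℂ}
    (hν : AnalyticAt ℂ ν 0) (hb : ∀ a, AnalyticAt ℂ (b a) 0)
    (h : ∀ᶠ p in 𝓝 (0 : (Fin 3 → ℂ) × ℂ),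
        dt F p = ν p * HD F p + ∑ a, b a p * (p.1 a.1 * grad F a.2 p)) :
    ∀ᶠ t in 𝓝 (0 : ℂ), ∀ i j, grad (grad F i) j (0, t) = 0 := by
  have hFa : AnalyticAt ℂ F 0 := hF.an
  set Y : Fin 3 × Fin 3 → ℂ → ℂ := fun q t => grad (grad F q.1) q.2 (0, t) with hY
  have hG := an_idG (n := 3)
  have hFF : ∀ i j, PP Y (idG 3) 0 (grad (grad F i) j) := fun i j =>
    ⟨an_grad (an_grad hFa i) j, Lin.self Y (i, j)⟩
  have hF1 : ∀ j, PP Y (idG 3) 1 (grad F j) := fun j =>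
    ⟨⟨an_grad hFa j, Lin.zero (by
      filter_upwards [hF.crit] with t ht
      exact ht j)⟩, fun α => by
      rw [DD_idG]
      exact hFF j α⟩
  have hx : ∀ i, PP Y (idG 3) 0 (fun p : (Fin 3 → ℂ) × ℂ => p.1 i) := fun i =>
    ⟨an_x i 0, Lin.zero (Eventually.of_forall fun t => rfl)⟩
  have hHD : PP Y (idG 3) 2 (HD F) := PP.det hG fun i j => hFF j i
  have hdt : PP Y (idG 3) 2 (dt F) := by
    refine PP.congr (PP.add hG (PP.mulL hG hν hHD) (PP.sum hG fun a : Fin 3 × Fin 3 =>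
      PP.mulL hG (hb a) ((PP.mul hG (hF1 a.2) (hx a.1))))) ?_
    filter_upwards [h] with p hp
    rw [hp]
    congr 1
    exact Finset.sum_congr rfl fun a _ => by ring
  have h1 : ∀ i j, PP Y (idG 3) 0 (grad (grad (dt F) i) j) := by
    intro i j
    have h2 := PP.dd (PP.dd hdt i) j
    rwa [DD_idG, DD_idG] at h2
  have hYan : ∀ q, AnalyticAt ℂ (Y q) 0 := fun q => an_hs hFa q.1 q.2
  have h2 := ode_lin (Y := Y) hYan (fun q => h0 q.1 q.2) (fun q => by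
    refine (h1 q.1 q.2).lin.congr ?_
    filter_upwards [tendsto_ax.eventually hFa.eventually_analyticAt] with t hFt
    have e0 : deriv (Y q) t = dt (grad (grad F q.1) q.2) (0, t) :=
      deriv_axis (an_grad (an_grad hFt q.1) q.2)
    rw [e0, dt_grad (an_grad hFt q.1)]
    refine (grad_congr ?_ q.2).symm
    filter_upwards [hFt.eventually_analyticAt] with p hp
    exact dt_grad hp q.1)
  filter_upwards [h2] with t ht i j
  exact ht (i, j)

end

end Crest.Agent.R257.Lr_648
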