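import Crest.Agent.R257.V1Defs_822
import Crest.Agent.R257.Atl2_941

/-!
R257 / V1Pe_822 (helper822): parametrisations exist; rules for `mxd`; cut-offs exist; restriction of
`IsNu` to a smaller ball.
-/

set_option autoImplicit false

open Topology Filter MeasureTheory Set
open scoped ENNReal ContDiff Matrix ComplexOrder

noncomputable section

namespace Crest.Agent.R257.V1Pe_822

open Crest.Agent.R275.Geo
open Crest.Agent.R257.Defs_219
open Crest.Agent.R257.KED_952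
open Crest.Agent.R257.V1Defs_822
open Crest.Agent.R273.Defs_333 (lev)
open Crest.Agent.R273.YauDefs_635 (cH)
open Crest.Agent.R257.PN_835 (nsq)
open Crest.Agent.R257.Aff_835 (eta2a nga)
open Crest.Agent.R257.C2F1_625 (pd)

variable {f : E3 → ℂ} {s : ℂ} {r : ℝ}

theorem continuous_nsq3 : Continuous (nsq : E3 → ℝ) := Crest.Agent.R257.PN_835.continuous_nsq

/-- the family of levels of `f` -/
def lf (hf : ∀ x, nsq x < r ^ 2 → AnalyticAt ℂ f x) : Atl_941.SFam 2 E3 ℂ where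
  b := ContinuousLinearEquiv.refl ℂ _
  F := fun q => f q.1 - q.2
  W := {q | q.1 ≠ 0 ∧ nsq q.1 < r ^ 2 ∧ fderiv ℂ f q.1 ≠ 0}
  isOpen := by
    have h1 : IsOpen {x : E3 | nsq x < r ^ 2} := isOpen_lt continuous_nsq3 continuous_const
    have h2 : ContinuousOn (fderiv ℂ f) {x : E3 | nsq x < r ^ 2} := by
      have h3 : AnalyticOnNhd ℂ f {x : E3 | nsq x < r ^ 2} := fun x hx => hf x hx
      exact h3.fderiv.continuousOn
    have h3 : IsOpen ({x : E3 | nsq x < r ^ 2} ∩ fderiv ℂ f ⁻¹' {0}ᶜ) :=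
      h2.isOpen_inter_preimage h1 isOpen_compl_singleton
    have h4 : IsOpen {x : E3 | x ≠ 0} := isOpen_compl_singleton
    have h5 : {q : E3 × ℂ | q.1 ≠ 0 ∧ nsq q.1 < r ^ 2 ∧ fderiv ℂ f q.1 ≠ 0} =
        Prod.fst ⁻¹' ({x : E3 | x ≠ 0} ∩ ({x : E3 | nsq x < r ^ 2} ∩ fderiv ℂ f ⁻¹' {0}ᶜ)) := by
      ext q; rfl
    rw [h5]
    exact (h4.inter h3).preimage continuous_fst
  hol := by
    intro q hq
    have h1 : DifferentiableAt ℂ (fun q : E3 × ℂ => f q.1) q :=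
      (hf q.1 hq.2.1).differentiableAt.comp q differentiableAt_fst
    exact (h1.sub differentiableAt_snd).differentiableWithinAt
  reg := by
    intro q hq _
    obtain ⟨v, hv⟩ : ∃ v, fderiv ℂ f q.1 v ≠ 0 := by
      by_contra hcon
      push Not at hcon
      exact hq.2.2 (ContinuousLinearMap.ext fun v => by rw [hcon]; rfl)
    refine ⟨v, ?_⟩
    have h1 : HasFDerivAt (fun q : E3 × ℂ => f q.1 - q.2)
        ((fderiv ℂ f q.1).comp (ContinuousLinearMap.fst ℂ E3 ℂ) - ContinuousLinearMap.snd ℂ E3 ℂ)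
        q :=
      ((hf q.1 hq.2.1).differentiableAt.hasFDerivAt.comp q hasFDerivAt_fst).sub hasFDerivAt_snd
    rw [h1.fderiv]
    simpa using hv

/-- parametrisations exist around every point -/
theorem exists_pe (hL : LvlOK f s r) {x : E3} (hx : x ≠ 0) (hr : nsq x < r ^ 2) (hfx : f x = s) :
    ∃ (θ : Cn 2 → E3) (O : Set (Cn 2)) (z : Cn 2), PE f s r θ O ∧ z ∈ O ∧ θ z = x ∧
      InjOn θ O := by
  obtain ⟨Ψ, hΨ⟩ := Atl_941.exists_adCh (lf hL.an) (q := (x, s))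
    ⟨hx, hr, hL.sm x hx hr hfx⟩ (by simp [lf, hfx])
  have hx0 : (lf hL.an).F (x, s) = 0 := by simp [lf, hfx]
  refine ⟨fun z => Ψ.th z s, Ψ.O s, Ψ.pr x, ⟨⟨Ψ.isOpen_O, Ψ.diffOn_th, ?_, ?_⟩, ?_, ?_⟩,
    (Ψ.pr_mem hΨ hx0).1, (Ψ.pr_mem hΨ hx0).2, ?_⟩
  · intro z hz
    have h1 := (Ψ.th_mem hz).2
    exact sub_eq_zero.1 h1
  · intro z hz v hv
    have h1 : HasFDerivAt (fun z => Ψ.th z s) (fderiv ℂ (fun z => Ψ.th z s) z) z :=
      (Ψ.diffOn_th.differentiableAt (Ψ.isOpen_O.mem_nhds hz)).hasFDerivAt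
    have h2 := Ψ.pr.hasFDerivAt.comp z h1
    have h3 : (fun z => Ψ.pr (Ψ.th z s)) =ᶠ[𝓝 z] id := by
      filter_upwards [Ψ.isOpen_O.mem_nhds hz] with w hw
      exact Ψ.pr_th hw
    have h4 := h2.unique ((hasFDerivAt_id (𝕜 := ℂ) z).congr_of_eventuallyEq h3)
    have h5 := congrArg (fun S : Cn 2 →L[ℂ] Cn 2 => S v) h4
    simp only [ContinuousLinearMap.coe_comp, Function.comp_apply,
      ContinuousLinearMap.coe_id', id_eq] at h5
    rw [← h5, hv, map_zero]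
  · exact fun z hz => (Ψ.th_mem hz).1.1
  · exact fun z hz => (Ψ.th_mem hz).1.2.1
  · intro z hz w hw hzw
    rw [← Ψ.pr_th hz, ← Ψ.pr_th hw]
    exact congrArg Ψ.pr hzw

theorem pe_mono {θ : Cn 2 → E3} {O : Set (Cn 2)} {r' : ℝ} (h : PE f s r' θ O) (hr : 0 ≤ r')
    (hrr : r' ≤ r) : PE f s r θ O :=
  ⟨h.par, h.ne, fun z hz => (h.lt z hz).trans_le (pow_le_pow_left₀ hr hrr 2)⟩

theorem lvl_mono {r' : ℝ} (h : LvlOK f s r) (hr : 0 < r') (hrr : r' ≤ r) : LvlOK f s r' :=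
  ⟨hr, fun x hx => h.an x (hx.trans_le (pow_le_pow_left₀ hr.le hrr 2)),
    fun x h0 hx => h.sm x h0 (hx.trans_le (pow_le_pow_left₀ hr.le hrr 2))⟩

theorem smL_mono {a : E3 → ℝ} {r' : ℝ} (h : SmL f s r a) (hr : 0 ≤ r') (hrr : r' ≤ r) :
    SmL f s r' a := fun θ O hθ => h θ O (pe_mono hθ hr hrr)

theorem keon_mono {u : E3 → ℝ} {r' : ℝ} (h : KEon f s r u) (hr : 0 ≤ r') (hrr : r' ≤ r) :
    KEon f s r' u :=
  ⟨fun θ O hθ => h.sm θ O (pe_mono hθ hr hrr), fun θ O hθ => h.pos θ O (pe_mono hθ hr hrr),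
    fun θ O hθ => h.ma θ O (pe_mono hθ hr hrr)⟩

theorem pe_contOn {θ : Cn 2 → E3} {O : Set (Cn 2)} (h : PE f s r θ O) : ContinuousOn θ O :=
  h.par.hol.continuousOn

/-- the parametrisation chosen in `dns` -/
theorem mxd_cases {x : E3} (hx : x ≠ 0) (hr : nsq x < r ^ 2) (hfx : f x = s) (hL : LvlOK f s r) :
    ∃ (θ : Cn 2 → E3) (O : Set (Cn 2)) (z : Cn 2), PE f s r θ O ∧ z ∈ O ∧ θ z = x ∧
      ∀ a b : E3 → ℝ, mxd f a b x =
        (pd (cH (fun z => a (θ z)) z) (cH (fun z => b (θ z)) z)).re / eta2a (n := 2) f θ z := by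
  have h : ∃ p : (Cn 2 → E3) × Set (Cn 2) × Cn 2,
      Aff_835.Par (n := 2) f (f x) p.1 p.2.1 ∧ p.2.2 ∈ p.2.1 ∧ p.1 p.2.2 = x := by
    obtain ⟨θ, O, z, h1, h2, h3, -⟩ := exists_pe hL hx hr hfx
    exact ⟨(θ, O, z), by rw [hfx]; exact h1.par, h2, h3⟩
  obtain ⟨h1, h2, h3⟩ := h.choose_spec
  set θ := h.choose.1 with hθ
  set O := h.choose.2.1 with hO
  set z := h.choose.2.2 with hz
  have hc : ContinuousOn θ O := h1.hol.continuousOn
  have hU : IsOpen (O ∩ θ ⁻¹' {y | y ≠ 0 ∧ nsq y < r ^ 2}) := by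
    refine hc.isOpen_inter_preimage h1.isOpen ?_
    exact IsOpen.inter isOpen_compl_singleton (isOpen_lt continuous_nsq3 continuous_const)
  refine ⟨θ, O ∩ θ ⁻¹' {y | y ≠ 0 ∧ nsq y < r ^ 2}, z, ⟨⟨hU, h1.hol.mono inter_subset_left,
    fun w hw => ?_, fun w hw => h1.imm w hw.1⟩, fun w hw => hw.2.1, fun w hw => hw.2.2⟩,
    ⟨h2, ?_, ?_⟩, h3, fun a b => ?_⟩
  · rw [h1.lvl w hw.1, hfx]
  · rw [h3]; exact hx
  · rw [h3]; exact hr
  · unfold mxd dns
    rw [dif_pos h]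

theorem smAt {a : E3 → ℝ} (h : SmL f s r a) {θ : Cn 2 → E3} {O : Set (Cn 2)}
    (hθ : PE f s r θ O) {z : Cn 2} (hz : z ∈ O) : ContDiffAt ℝ ∞ (fun z => a (θ z)) z :=
  (h θ O hθ).contDiffAt (hθ.par.isOpen.mem_nhds hz)

theorem cH_sub {u v : Cn 2 → ℝ} {z : Cn 2} (hu : ContDiffAt ℝ ∞ u z) (hv : ContDiffAt ℝ ∞ v z) :
    cH (fun w => u w - v w) z = cH u z - cH v z := by
  rw [Crest.Agent.R273.YauMax_635.cH_eq_hess hu, Crest.Agent.R273.YauMax_635.cH_eq_hess hv,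
    Crest.Agent.R273.YauMax_635.cH_eq_hess (hu.sub hv),
    Crest.Agent.R273.HessB_333.hess_sub hu hv]

theorem two_le_inf : (2 : WithTop ℕ∞) ≤ (∞ : WithTop ℕ∞) := WithTop.coe_le_coe.2 le_top

theorem mxd_sub (hL : LvlOK f s r) {a b b' : E3 → ℝ} (hb : SmL f s r b) (hb' : SmL f s r b')
    {x : E3} (hx : x ≠ 0) (hr : nsq x < r ^ 2) (hfx : f x = s) :
    mxd f a (fun y => b y - b' y) x = mxd f a b x - mxd f a b' x := by
  obtain ⟨θ, O, z, h1, h2, -, h4⟩ := mxd_cases hx hr hfx hL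
  rw [h4, h4, h4, cH_sub (smAt hb h1 h2) (smAt hb' h1 h2), C2F1_625.pd_sub, Complex.sub_re, sub_div]

theorem mxd_mul (hL : LvlOK f s r) {a b : E3 → ℝ} (ha : SmL f s r a) (c : ℝ)
    {x : E3} (hx : x ≠ 0) (hr : nsq x < r ^ 2) (hfx : f x = s) :
    mxd f (fun y => c * a y) b x = c * mxd f a b x := by
  obtain ⟨θ, O, z, h1, h2, -, h4⟩ := mxd_cases hx hr hfx hL
  rw [h4, h4, KEl_835.cH_mul ((smAt ha h1 h2).of_le two_le_inf), C2F1_625.smul_pd,
    Complex.re_ofReal_mul, mul_div_assoc]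

theorem mxd_comm (hL : LvlOK f s r) {a b : E3 → ℝ}
    {x : E3} (hx : x ≠ 0) (hr : nsq x < r ^ 2) (hfx : f x = s) :
    mxd f a b x = mxd f b a x := by
  obtain ⟨θ, O, z, h1, h2, -, h4⟩ := mxd_cases hx hr hfx hL
  rw [h4, h4, C2F1_625.pd_comm]

/-- `∂∂̄u ∧ ∂∂̄u = 2 e^u |η|²` -/
theorem mxd_ke (hL : LvlOK f s r) {u : E3 → ℝ} (hu : KEon f s r u)
    {x : E3} (hx : x ≠ 0) (hr : nsq x < r ^ 2) (hfx : f x = s) :
    mxd f u u x = 2 * Real.exp (u x) := by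
  obtain ⟨θ, O, z, h1, h2, h3, h4⟩ := mxd_cases hx hr hfx hL
  have h5 := hu.ma θ O h1 z h2
  have h6 : fderiv ℂ f (θ z) ≠ 0 := by rw [h3]; exact hL.sm x hx hr hfx
  have h7 : AnalyticAt ℂ f (θ z) := by rw [h3]; exact hL.an x hr
  have h8 : eta2a (n := 2) f θ z ≠ 0 := by
    have h9 : (cH (fun z => u (θ z)) z).det ≠ 0 := by
      rw [Crest.Agent.R273.YauMax_635.cH_eq_hess (smAt (a := u) hu.sm h1 h2)]
      have h10 := Crest.Agent.R273.HessB_333.posDef_hess (smAt (a := u) hu.sm h1 h2)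
        (hu.pos θ O h1 z h2)
      exact h10.det_pos.ne'
    intro h10
    rw [h5, h10] at h9
    simp at h9
  rw [h4, C2F1_625.pd_self, h5]
  have h9 : ((2 : ℂ) * ((Real.exp (u (θ z)) * eta2a (n := 2) f θ z : ℝ) : ℂ)).re =
      2 * (Real.exp (u (θ z)) * eta2a (n := 2) f θ z) := by
    rw [show (2 : ℂ) = ((2 : ℝ) : ℂ) by norm_num, Complex.re_ofReal_mul, Complex.ofReal_re]
  rw [h9, h3]
  field_simp

open Classical in
/-- locality in the second argument -/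
theorem mxd_zero {a b : E3 → ℝ} {x : E3} (hb : ∀ᶠ y in 𝓝 x, b y = 0) : mxd f a b x = 0 := by
  unfold mxd dns
  split_ifs with h
  · obtain ⟨h1, h2, h3⟩ := h.choose_spec
    have hc : ContinuousAt h.choose.1 h.choose.2.2 :=
      h1.hol.continuousOn.continuousAt (h1.isOpen.mem_nhds h2)
    have h4 : (fun z => b (h.choose.1 z)) =ᶠ[𝓝 h.choose.2.2] fun _ => 0 := by
      have h5 : Tendsto h.choose.1 (𝓝 h.choose.2.2) (𝓝 x) := by
        have := hc.tendsto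
        rwa [h3] at this
      exact h5.eventually hb
    have h5 : cH (fun z => b (h.choose.1 z)) h.choose.2.2 = 0 := by
      rw [KEl_835.cH_congr h4]
      ext i j
      simp [cH, Crest.Agent.R273.YauDefs_635.D2]
    change (pd _ _).re / _ = 0
    rw [h5]
    simp [pd]
  · rfl

/-! ### cut-offs -/

theorem contDiff_nsq : ContDiff ℝ ∞ (nsq : E3 → ℝ) := by
  unfold nsq
  refine ContDiff.sum fun k _ => ?_
  have h1 : ContDiff ℝ ∞ (fun x : E3 => x k) := contDiff_apply ℝ ℂ k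
  exact h1.norm_sq ℝ

theorem nsq_zero3 : nsq (0 : E3) = 0 := by simp [nsq]

theorem exists_cut (hr : 0 < r) : ∃ χ : E3 → ℝ, Cut r χ := by
  refine ⟨fun x => Real.smoothTransition (2 - 4 * nsq x / r ^ 2), ?_, fun x => ?_, fun x => ?_, ?_,
    3 / 4 * r, by positivity, by linarith, fun x hx => ?_⟩
  · refine Real.smoothTransition.contDiff.comp ?_
    exact contDiff_const.sub ((contDiff_const.mul contDiff_nsq).div_const _)
  · exact Real.smoothTransition.nonneg _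
  · exact Real.smoothTransition.le_one _
  · have h1 : ∀ᶠ x : E3 in 𝓝 0, nsq x < r ^ 2 / 4 := by
      refine continuous_nsq3.continuousAt.eventually_lt continuousAt_const ?_
      rw [nsq_zero3]; positivity
    filter_upwards [h1] with x hx
    refine Real.smoothTransition.one_of_one_le ?_
    have h2 : 4 * nsq x / r ^ 2 ≤ 1 := by
      rw [div_le_one (by positivity)]
      linarith
    linarith
  · refine Real.smoothTransition.zero_of_nonpos ?_
    have h2 : 2 ≤ 4 * nsq x / r ^ 2 := by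
      rw [le_div_iff₀ (by positivity)]
      nlinarith [sq_nonneg r]
    linarith

theorem cut_mono {χ : E3 → ℝ} {r' : ℝ} (h : Cut r' χ) (hrr : r' ≤ r) : Cut r χ :=
  ⟨h.sm, h.nn, h.le, h.one, by
    obtain ⟨ρ, h1, h2, h3⟩ := h.supp
    exact ⟨ρ, h1, h2.trans_le hrr, h3⟩⟩

theorem cut_smL {χ : E3 → ℝ} (h : Cut r χ) : SmL f s r χ := by
  intro θ O hθ
  have h2 : ContDiffOn ℝ ∞ θ O :=
    ((Crest.Agent.R266.SCV.contDiffOn_omega_of_differentiableOn hθ.par.isOpen hθ.par.hol).of_le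
      (show (∞ : WithTop ℕ∞) ≤ ω from le_top)).restrict_scalars ℝ
  exact h.sm.comp_contDiffOn h2

/-! ### smaller balls -/

theorem isNu_restr {ν : Measure E3} (h : IsNu f s r ν) {r' : ℝ} (hr : 0 < r') (hrr : r' ≤ r) :
    IsNu f s r' (ν.restrict {x | nsq x < r' ^ 2}) := by
  have hS : MeasurableSet {x : E3 | nsq x < r' ^ 2} :=
    (isOpen_lt continuous_nsq3 continuous_const).measurableSet
  refine ⟨?_, fun θ O hθ hi Φ hΦ => ?_⟩
  · rw [Measure.restrict_apply' hS]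
    refine measure_mono_null ?_ h.null
    rintro x ⟨hx1, hx2⟩ ⟨h1, h2, h3⟩
    exact hx1 ⟨h1, h2, hx2⟩
  · rw [Measure.restrict_restrict_of_subset, h.par θ O (pe_mono hθ hr.le hrr) hi Φ hΦ]
    rintro x ⟨z, hz, rfl⟩
    exact hθ.lt z hz

/-- a property of the points of the level holds almost everywhere -/
theorem isNu_ae {ν : Measure E3} (h : IsNu f s r ν) {p : E3 → Prop}
    (hp : ∀ x, x ≠ 0 → nsq x < r ^ 2 → f x = s → p x) : ∀ᵐ x ∂ν, p x := by
  have h1 : ∀ᵐ x ∂ν, f x = s ∧ x ≠ 0 ∧ nsq x < r ^ 2 := by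
    rw [ae_iff]
    exact h.null
  filter_upwards [h1] with x hx
  exact hp x hx.2.1 hx.2.2 hx.1

end Crest.Agent.R257.V1Pe_822
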