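import Crest.Agent.R257.DegV3_5
import Crest.Agent.R257.DegBr_5
import Crest.Agent.R257.V1Pe_822

/-!
# R257 (S0395) (helper5): `M3Stmt` of V1Defs_822, from the count of zeros

* `CntStmt` : the count of the zeros of `(f, g - y_0, h - y_1)` is `col ![f,g,h]` at regular values
* `m3_pow`  : `TOT ν f (c⁻¹ log (|g|^{2p} + |h|^{2q})) χ = π² p q col ![f,g,h] / c²`
* `m3Stmt_of`
-/

set_option autoImplicit false
set_option linter.unusedSectionVars false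

open Set Filter Topology Complex MeasureTheory
open scoped ContDiff Matrix ComplexConjugate ENNReal

namespace Crest.Agent.R257.M3_5

open Crest.Agent.R275 Crest.Agent.R275.Geo
open Crest.Agent.R273.Kah_333 (hsf)
open Crest.Agent.R273.StokesV_332
open Crest.Agent.R273.YauDefs_635 (cH)
open Crest.Agent.R273.YauMax_635 (cH_eq_hess)
open Crest.Agent.R257.DegM_5 Crest.Agent.R257.DegT_5 Crest.Agent.R257.DegC_5
open Crest.Agent.R257.DegP_5 Crest.Agent.R257.DegV_5 Crest.Agent.R257.DegBr_5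
open Crest.Agent.R257.Defs_219
open Crest.Agent.R257.KED_952 Crest.Agent.R257.V1Defs_822 Crest.Agent.R257.UpK_938
open Crest.Agent.R257.PN_835 (nsq nsq_nonneg nsq_pos continuous_nsq sq_le_nsq)
open Crest.Agent.R257.C2F1_625 (pd)

noncomputable section

/-- the count of the zeros [889] -/
def CntStmt : Prop := ∀ f g h : E3 → ℂ, AnalyticAt ℂ f 0 → AnalyticAt ℂ g 0 →
  AnalyticAt ℂ h 0 → f 0 = 0 → g 0 = 0 → h 0 = 0 → ColFin ![f, g, h] →
  CntAt f g h (col ![f, g, h])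

variable {f g h : E3 → ℂ} {r : ℝ} {m : ℕ}

/-- the level of 938 is a level in the sense of `Lv` -/
theorem lv (hf : LvlOK f 0 r) : Lv (LX hf) 0 f r where
  W x := Iff.rfl
  F x _ _ := by show f x - 0 = f x; rw [sub_zero]

/-- the weight -/
def wpq (g h : E3 → ℂ) (p q : ℕ) (c : ℝ) (x : E3) : ℝ :=
  c⁻¹ * Real.log (‖g x‖ ^ (2 * p) + ‖h x‖ ^ (2 * q))

theorem wpq_eq (p q : ℕ) (c : ℝ) (x : E3) : wpq g h p q c x = c⁻¹ * W0 (pw p q (g2 g h x)) := by
  rw [wpq, W0, U0_pw]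
  rfl

theorem wpq_smL (D : PairD f g h r m) (p q : ℕ) (c : ℝ) : SmL f 0 r (wpq g h p q c) := by
  intro θ O hθ
  have h1 : DifferentiableOn ℂ (fun z => g2 g h (θ z)) O :=
    (diffOn_two D.hg D.hh).comp hθ.par.hol fun z hz => hθ.lt z hz
  have h2 : DifferentiableOn ℂ (fun z => pw p q (g2 g h (θ z))) O :=
    (pw_diff p q).comp_differentiableOn h1
  have h3 : ContDiffOn ℝ ∞ (fun z => pw p q (g2 g h (θ z))) O :=
    ((Crest.Agent.R266.SCV.contDiffOn_omega_of_differentiableOn hθ.par.isOpen h2).of_le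
      (show (∞ : WithTop ℕ∞) ≤ ω from le_top)).restrict_scalars ℝ
  intro z hz
  have h4 : pw p q (g2 g h (θ z)) ≠ 0 := by
    refine pw_ne fun h0 => ?_
    obtain ⟨e1, e2⟩ := g2_eq_zero.1 h0
    exact D.nz _ (hθ.ne z hz) (hθ.lt z hz) (hθ.par.lvl z hz) e1 e2
  have h5 : ContDiffAt ℝ ∞ (fun z => W0 (pw p q (g2 g h (θ z)))) z :=
    ContDiffAt.comp (f := fun z => pw p q (g2 g h (θ z))) z (W0_smooth h4)
      (h3.contDiffAt (hθ.par.isOpen.mem_nhds hz))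
  have h6 : ContDiffAt ℝ ∞ (fun z => c⁻¹ * W0 (pw p q (g2 g h (θ z)))) z :=
    contDiffAt_const.mul h5
  refine (h6.congr_of_eventuallyEq (Eventually.of_forall fun w => ?_)).contDiffWithinAt
  exact wpq_eq p q c (θ w)

/-- mixed densities with a locally constant function vanish -/
theorem mxd_const (hL : LvlOK f 0 r) {a b : E3 → ℝ} {x : E3} (hx : x ≠ 0) (hr : nsq x < r ^ 2)
    (hfx : f x = 0) {c : ℝ} (hb : ∀ᶠ y in 𝓝 x, b y = c) : mxd f a b x = 0 := by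
  obtain ⟨θ, O, z, h1, h2, h3, h4⟩ := V1Pe_822.mxd_cases hx hr hfx hL
  rw [h4]
  have hc : ContinuousAt θ z := h1.par.hol.continuousOn.continuousAt (h1.par.isOpen.mem_nhds h2)
  have h5 : (fun z => b (θ z)) =ᶠ[𝓝 z] fun _ => c := by
    rw [← h3] at hb
    exact hc.eventually hb
  have h6 : cH (fun z => b (θ z)) z = 0 := by
    have h7 : ContDiffAt ℝ ∞ (fun z => b (θ z)) z :=
      (contDiffAt_const (c := c)).congr_of_eventuallyEq h5
    rw [cH_eq_hess h7, Crest.Agent.R273.HessB_333.hess_congr h5,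
      ← cH_eq_hess (contDiffAt_const (c := c))]
    ext i j
    simp [cH, Crest.Agent.R273.YauDefs_635.D2]
  rw [h6]
  simp [pd]

/-- **the mass of `c⁻¹ log (|g|^{2p} + |h|^{2q})`** -/
theorem m3_pow (D : PairD f g h r m) (hL : LvlOK f 0 r) {ν : Measure E3} (hν : IsNu f 0 r ν)
    {χ : E3 → ℝ} (hχ : Cut r χ) {p q : ℕ} (hp : 0 < p) (hq : 0 < q) {c : ℝ} (hc : c ≠ 0) :
    TOT ν f (wpq g h p q c) χ = Real.pi ^ 2 * (p * q * m) / c ^ 2 := by
  have h1 := tot_lv (lv hL) D hp hq hc (w := wpq g h p q c) (fun x _ _ _ => rfl)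
    ((LX hL).part 0) hχ
  obtain ⟨r', hr'0, hr'r, hr'⟩ := hχ.supp
  obtain ⟨ρ, hρ1, hρ2⟩ := exists_between hr'r
  have hρ0 : 0 < ρ := hr'0.trans hρ1
  obtain ⟨a, ha0, ha⟩ : ∃ a > 0, ∀ x : E3, nsq x < a → χ x = 1 := by
    obtain ⟨e, he0, he⟩ := Metric.eventually_nhds_iff.1 hχ.one
    refine ⟨e ^ 2, by positivity, fun x hx => he ?_⟩
    rw [dist_zero_right]
    exact norm_lt_of_nsq he0 hx
  obtain ⟨ε, hε0, hε⟩ := D.lower hρ2 hρ0 ha0
  set K : Set ((LX hL).M 0) := {x | nsq x.1 ≤ ρ ^ 2 ∧ ε ≤ ‖gh (LX hL) 0 g h x‖ ∧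
    x.1 ∈ {y : E3 | a ≤ nsq y}} with hK
  have hKc : IsCompact K := isCompact_part (lv hL) D hρ0 hρ2 hε0
    (isClosed_le continuous_const continuous_nsq)
  have hoff : ∀ x ∉ K, wpq g h p q c x.1 * mxd f (wpq g h p q c) χ x.1 = 0 := by
    intro x hx
    have hxm := mem_M hL x
    have h2 : mxd f (wpq g h p q c) χ x.1 = 0 := by
      by_cases h3 : nsq x.1 < a
      · refine mxd_const hL hxm.2.1 hxm.2.2 hxm.1 (c := 1) ?_
        filter_upwards [(isOpen_nsq_lt a).mem_nhds h3] with y hy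
        exact ha y hy
      · by_cases h4 : nsq x.1 ≤ ρ ^ 2
        · exact absurd ⟨h4, hε x.1 (not_lt.1 h3) h4 hxm.1, not_lt.1 h3⟩ hx
        · refine mxd_const hL hxm.2.1 hxm.2.2 hxm.1 (c := 0) ?_
          have h5 : r' ^ 2 < nsq x.1 :=
            (pow_lt_pow_left₀ hρ1 hr'0.le two_ne_zero).trans (not_le.1 h4)
          filter_upwards [(isOpen_lt continuous_const continuous_nsq).mem_nhds h5] with y hy
          exact hr' y (le_of_lt hy)
    rw [h2, mul_zero]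
  have h2 := intD_mxd hL hν (wpq_smL D p q c) (wpq_smL D p q c) (V1Pe_822.cut_smL hχ) hKc hoff
    ((LX hL).part 0)
  rw [h2] at h1
  exact_mod_cast h1

theorem exists_pow (cnt : CntStmt) (hf : AnalyticAt ℂ f 0) (hg : AnalyticAt ℂ g 0)
    (hh : AnalyticAt ℂ h 0) (f0 : f 0 = 0) (g0 : g 0 = 0) (h0 : h 0 = 0)
    (hfin : ColFin ![f, g, h]) :
    ∃ r₁ : ℝ, 0 < r₁ ∧ ∀ r, r ≤ r₁ → LvlOK f 0 r → ∀ ν, IsNu f 0 r ν → ∀ χ, Cut r χ →
      ∀ (p q : ℕ) (c : ℝ), 0 < p → 0 < q → c ≠ 0 →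
      TOT ν f (wpq g h p q c) χ = Real.pi ^ 2 * (p * q * col ![f, g, h]) / c ^ 2 := by
  obtain ⟨r₁, hr₁, h1⟩ := exists_pairD hf hg hh f0 g0 h0 hfin (cnt f g h hf hg hh f0 g0 h0 hfin)
  exact ⟨r₁, hr₁, fun r hr hL ν hν χ hχ p q c hp hq hc =>
    m3_pow (h1 r hL.pos hr) hL hν hχ hp hq hc⟩

/-- **`M3Stmt`** -/
theorem m3Stmt_of (cnt : CntStmt) : M3Stmt := by
  intro f g h hf hg hh g0 h0 hfin
  obtain ⟨r₁, hr₁, h1⟩ := exists_pow cnt hf.an hg hh hf.zero g0 h0 hfin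
  refine ⟨r₁, hr₁, fun r hr hL ν hν χ hχ => ?_⟩
  have h2 := h1 r hr hL ν hν χ hχ 1 1 1 one_pos one_pos one_ne_zero
  have h3 : wpq g h 1 1 1 = lgh g h := by
    funext x
    simp [wpq, lgh]
  rw [h3] at h2
  rw [h2]
  push_cast
  ring

end

end Crest.Agent.R257.M3_5
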