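import Crest.Agent.R273.LogCut_5
import Crest.Agent.R273.StokesV_332
import Crest.Agent.R273.FIa0_597

/-!
# R257 (S0395), task MASS-LE, part A (helper218): mixed densities, Green's formula (non-compact `M`)

* `greenD`  : `∫ φ tr(adj G ∂∂̄u) = - ∫ adj G (∂φ, ∂̄u)` when, off a compact set, `φ = 0` or `u` is
  locally constant (`M` need not be compact)
* `intD_re_nonneg`, `intD_re_mono` : positivity of the integral of densities
* `hsf_comp` : `∂∂̄ (κ ∘ u) = κ'(u) ∂∂̄u + κ''(u) ∂u ∂̄u`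
* `mx A a b` (`n = 2`) : the density of `∂∂̄a ∧ ∂∂̄b`; `mx_symm`, `mx_self`, `mx_comp`
* `tot_trunc` : `∫ χ mx (κ ∘ u) (κ ∘ u) = ∫ u mx u χ`
-/

set_option autoImplicit false
set_option linter.unusedSectionVars false

open Set Filter Topology Complex MeasureTheory
open scoped ContDiff Matrix ComplexConjugate ComplexOrder

namespace Crest.Agent.R257.MassLe218

open Crest.Agent.R275 Crest.Agent.R275.Geo Crest.Agent.R275.Core144 Crest.Agent.R275.EDR890
open Crest.Agent.R275.Pai323 Crest.Agent.R275.C1d194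
open Crest.Agent.R275.SerG398 (lint dens)
open Crest.Agent.R275.OmT75 (dj dl)
open Crest.Agent.R273.Defs_333 Crest.Agent.R273.Hess_333 Crest.Agent.R273.HessB_333
open Crest.Agent.R273.HM_333 Crest.Agent.R273.Kah_333 Crest.Agent.R273.Vol_333
open Crest.Agent.R273.StokesV_332 (Den OffK intD intD_eq_sum intD_congr intD_add intD_sub intD_smul
  intD_neg intD_conj intD_nonneg NonnegD)
open Crest.Agent.R273.Green_5 Crest.Agent.R273.GreenM_5
open Crest.Agent.R273.GreenG_5

noncomputable section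

/-! ### functions locally constant near a point -/

section gen

variable {n : ℕ} {M : Type} [TopologicalSpace M] {A : Atl n M}

theorem read_ev {i : A.ι} {x : M} (hx : x ∈ (A.e i).source) {p : M → Prop}
    (h : ∀ᶠ y in 𝓝 x, p y) : ∀ᶠ z in 𝓝 (A.e i x), p ((A.e i).symm z) := by
  have hc : Tendsto (A.e i).symm (𝓝 (A.e i x)) (𝓝 x) := by
    have := (A.e i).continuousAt_symm ((A.e i).map_source hx)
    rw [ContinuousAt, (A.e i).left_inv hx] at this
    exact this
  exact hc.eventually h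

theorem dl_evconst {f : M → ℂ} {c : ℂ} {i : A.ι} {x : M} (hx : x ∈ (A.e i).source)
    (h : f =ᶠ[𝓝 x] fun _ => c) (a : Fin n) : dl A i a f x = 0 := by
  have h3 : (fun z => f ((A.e i).symm z)) =ᶠ[𝓝 (A.e i x)] fun _ => c := read_ev hx h
  unfold OmT75.dl
  rw [OmT75.dj_congr h3, dj_eq_wd]
  exact wd_const _ _ _

theorem db_evconst {f : M → ℂ} {c : ℂ} {i : A.ι} {x : M} (hx : x ∈ (A.e i).source)
    (h : f =ᶠ[𝓝 x] fun _ => c) (a : Fin n) : A.db i a f x = 0 := by
  have h3 : (fun z => f ((A.e i).symm z)) =ᶠ[𝓝 (A.e i x)] fun _ => c := read_ev hx h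
  unfold Atl.db
  rw [OmT75.dbj_congr h3]
  exact dbj_const c _ a

theorem hsf_evconst {f : M → ℝ} {c : ℝ} {i : A.ι} {x : M} (hx : x ∈ (A.e i).source)
    (h : f =ᶠ[𝓝 x] fun _ => c) : hsf A f i x = 0 := by
  rw [← hm_ofReal f i hx]
  ext a b
  rw [hm_apply, Matrix.zero_apply]
  have h1 : A.db i b (fun y => (f y : ℂ)) =ᶠ[𝓝 x] fun _ => (0 : ℂ) := by
    have h2 : ∀ᶠ y in 𝓝 x, f =ᶠ[𝓝 y] fun _ => c := h.eventually_nhds
    filter_upwards [h2, (A.e i).open_source.mem_nhds hx] with y hy hy'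
    refine db_evconst (c := (c : ℂ)) hy' ?_ b
    filter_upwards [hy] with z hz
    rw [hz]
  exact dl_evconst hx h1 a

theorem hsf_congr {f g : M → ℝ} {i : A.ι} {x : M} (hx : x ∈ (A.e i).source)
    (h : f =ᶠ[𝓝 x] g) : hsf A f i x = hsf A g i x := by
  rw [← hm_ofReal f i hx, ← hm_ofReal g i hx]
  ext a b
  rw [hm_apply, hm_apply]
  have h1 : A.db i b (fun y => (f y : ℂ)) =ᶠ[𝓝 x] A.db i b (fun y => (g y : ℂ)) := by
    have h2 : ∀ᶠ y in 𝓝 x, f =ᶠ[𝓝 y] g := h.eventually_nhds
    filter_upwards [h2, (A.e i).open_source.mem_nhds hx] with y hy hy'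
    have h3 : (fun y => (f y : ℂ)) =ᶠ[𝓝 y] fun y => (g y : ℂ) := by
      filter_upwards [hy] with z hz
      rw [hz]
    exact Atl.db_congr hy' h3 b
  unfold OmT75.dl
  exact OmT75.dj_congr (read_ev hx h1)

theorem sm_cof {f : M → ℝ} (hf : A.Sm f) : A.Sm (fun x => (f x : ℂ)) := fun i => smAt_ofReal (hf i)

/-! ### positivity -/

section t2

variable [T2Space M]

theorem intD_re_nonneg (P : Part A) {f : A.ι → M → ℂ} (hf : Den A f)
    (hp : ∀ i, ∀ x ∈ (A.e i).source, 0 ≤ (f i x).re) {K : Set M} (hK : IsCompact K)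
    (h0 : OffK A f K) : 0 ≤ (intD P f).re := by
  have hc := hf.conjD
  have hs := hf.add hc
  have h0c : OffK A (fun i x => conj (f i x)) K := fun i x hx hxK => by
    show conj (f i x) = 0
    rw [h0 i x hx hxK, map_zero]
  have h1 := (intD_nonneg P hs (fun i x hx => by
    have e : f i x + conj (f i x) = ((2 * (f i x).re : ℝ) : ℂ) := Complex.add_conj _
    rw [e]
    exact ⟨by rw [Complex.ofReal_re]; linarith [hp i x hx], Complex.ofReal_im _⟩) hK
    (h0.add h0c)).1
  rw [intD_add P hf.sm hc.sm hK h0 h0c, intD_conj P hK h0, Complex.add_re, Complex.conj_re] at h1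
  linarith

theorem intD_re_mono (P : Part A) {f g : A.ι → M → ℂ} (hf : Den A f) (hg : Den A g)
    (hp : ∀ i, ∀ x ∈ (A.e i).source, (f i x).re ≤ (g i x).re) {K : Set M} (hK : IsCompact K)
    (h0 : OffK A f K) (h0' : OffK A g K) : (intD P f).re ≤ (intD P g).re := by
  have hn : Den A (fun i x => (-1 : ℂ) * f i x) := hf.smul (-1)
  have h0n : OffK A (fun i x => (-1 : ℂ) * f i x) K := h0.mul_left fun _ _ => -1
  have h1 := intD_re_nonneg P (hg.add hn) (fun i x hx => by
    have := hp i x hx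
    simp only [Complex.add_re, neg_mul, one_mul, Complex.neg_re]
    linarith) hK (h0'.add h0n)
  rw [intD_add P hg.sm hn.sm hK h0' h0n, intD_smul P (-1) hK h0, Complex.add_re, neg_mul, one_mul,
    Complex.neg_re] at h1
  linarith

/-! ### Green's formula -/

/-- **Green's formula** on a manifold which need not be compact -/
theorem greenD (P : Part A) {G : A.ι → M → Matrix (Fin n) (Fin n) ℂ} (hG : CF A G) {φ u : M → ℝ}
    (hφ : A.Sm φ) (hu : A.Sm u) {K : Set M} (hK : IsCompact K)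
    (h0 : ∀ x ∉ K, (φ =ᶠ[𝓝 x] fun _ => 0) ∨ ∃ c : ℝ, u =ᶠ[𝓝 x] fun _ => c) :
    intD P (fun i x => (φ x : ℂ) * ((G i x).adjugate * hsf A u i x).trace) =
      - intD P (grd G (fun y => (φ y : ℂ)) (fun y => (u y : ℂ))) := by
  classical
  have hφc := sm_cof hφ
  have huc := sm_cof hu
  set Y : A.ι → M → Fin n → ℂ := fun i x a =>
    if x ∈ (A.e i).source then adjY A G (fun y => (φ y : ℂ)) (fun y => (u y : ℂ)) i x a else 0
    with hY
  have hv := v10_adj hG (φ := fun y => (φ y : ℂ)) (u := fun y => (u y : ℂ)) hφc huc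
  have hYe : ∀ i, ∀ x ∈ (A.e i).source, ∀ a, Y i x a =
      adjY A G (fun y => (φ y : ℂ)) (fun y => (u y : ℂ)) i x a :=
    fun i x hx a => by simp only [hY, if_pos hx]
  have hvY : R273.StV_37.V10 A Y := by
    refine ⟨fun i a => (hv.sm i a).congr fun z hz => hYe i _ ((A.e i).map_target hz) a,
      fun i j x hx b => ?_⟩
    rw [Finset.sum_congr rfl fun a _ => by rw [hYe i x hx.1 a], hYe j x hx.2 b]
    exact hv.tr i j x hx b
  have hF : Fn P hK ⊆ Fn P hK := Finset.Subset.refl _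
  have h1 := R273.StV_37.stokes10 P hvY hK hF fun i x hx => by
    funext a
    by_cases hxi : x ∈ (A.e i).source
    · rw [hYe i x hxi]
      show (φ x : ℂ) * (∑ b, (G i x).adjugate b a * A.db i b (fun y => (u y : ℂ)) x) = (0 : ℂ)
      rcases h0 x hx with h2 | ⟨c, h2⟩
      · have : φ x = 0 := h2.self_of_nhds
        rw [this, Complex.ofReal_zero, zero_mul]
      · have h3 : (fun y => (u y : ℂ)) =ᶠ[𝓝 x] fun _ => (c : ℂ) := by
          filter_upwards [h2] with y hy
          rw [hy]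
        rw [Finset.sum_eq_zero fun b _ => by rw [db_evconst hxi h3, mul_zero], mul_zero]
    · simp only [hY, if_neg hxi]
      rfl
  -- the two densities vanish off `K`
  have o1 : OffK A (fun i x => (φ x : ℂ) * ((G i x).adjugate * hsf A u i x).trace) K := by
    intro i x hxi hxK
    show (φ x : ℂ) * ((G i x).adjugate * hsf A u i x).trace = 0
    rcases h0 x hxK with h2 | ⟨c, h2⟩
    · have : φ x = 0 := h2.self_of_nhds
      rw [this]
      simp
    · rw [hsf_evconst hxi h2]
      simp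
  have o2 : OffK A (grd G (fun y => (φ y : ℂ)) (fun y => (u y : ℂ))) K := by
    intro i x hxi hxK
    show grd G (fun y => (φ y : ℂ)) (fun y => (u y : ℂ)) i x = 0
    unfold grd
    refine Finset.sum_eq_zero fun a _ => Finset.sum_eq_zero fun b _ => ?_
    rcases h0 x hxK with h2 | ⟨c, h2⟩
    · have h3 : (fun y => (φ y : ℂ)) =ᶠ[𝓝 x] fun _ => (0 : ℂ) := by
        filter_upwards [h2] with y hy
        rw [hy]
        simp
      rw [dl_evconst hxi h3]
      ring
    · have h3 : (fun y => (u y : ℂ)) =ᶠ[𝓝 x] fun _ => (c : ℂ) := by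
        filter_upwards [h2] with y hy
        rw [hy]
      rw [db_evconst hxi h3]
      ring
  have hs1 : ∀ i, A.SmAt i (fun x => (φ x : ℂ) * ((G i x).adjugate * hsf A u i x).trace) :=
    fun i => (hφc i).mul (smAt_trA hG (hsf_cf hu) i)
  have hs2 : ∀ i, A.SmAt i (grd G (fun y => (φ y : ℂ)) (fun y => (u y : ℂ)) i) :=
    smAt_grd hG hφc huc
  have h2 : R273.StV_37.tot P (Fn P hK) (fun i x => ∑ a, dl A i a (fun y => Y i y a) x) =
      R273.StV_37.tot P (Fn P hK) (fun i x => (φ x : ℂ) * ((G i x).adjugate * hsf A u i x).trace +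
        grd G (fun y => (φ y : ℂ)) (fun y => (u y : ℂ)) i x) := by
    refine R273.StV_37.tot_congr P _ fun i _ x hx => ?_
    have h3 := div_adjY hG (φ := fun y => (φ y : ℂ)) (u := fun y => (u y : ℂ)) (hφc i) (huc i) hx
    rw [hm_ofReal u i hx] at h3
    show _ = (φ x : ℂ) * ((G i x).adjugate * hsf A u i x).trace + ∑ a, ∑ b,
      (G i x).adjugate b a * dl A i a (fun y => (φ y : ℂ)) x * A.db i b (fun y => (u y : ℂ)) x
    rw [← h3]
    refine Finset.sum_congr rfl fun a _ => ?_
    unfold OmT75.dl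
    refine OmT75.dj_congr ?_
    filter_upwards [(A.e i).open_target.mem_nhds ((A.e i).map_source hx)] with z hz
    rw [hYe i _ ((A.e i).map_target hz)]
  rw [h2, R273.StV_37.tot_add P _ hs1 hs2] at h1
  rw [intD_eq_sum P hK hF o1, intD_eq_sum P hK hF o2]
  exact eq_neg_of_add_eq_zero_left h1

end t2

/-! ### the Hessian of a composition -/

/-- `∂u` in the chart `i` -/
def gv (A : Atl n M) (u : M → ℝ) (i : A.ι) (x : M) : Fin n → ℂ :=
  fun a => dl A i a (fun y => (u y : ℂ)) x

theorem gv_wd {u : M → ℝ} {i : A.ι} {x : M} (hx : x ∈ (A.e i).source) (a : Fin n) :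
    gv A u i x a = wd (false, a) (cu fun z => u ((A.e i).symm z)) (A.e i x) := by
  unfold gv
  have h := dl_read (A := A) (fun y => (u y : ℂ)) i a ((A.e i).map_source hx)
  rw [(A.e i).left_inv hx] at h
  rw [h]
  rfl

theorem star_gv_wd {u : M → ℝ} (hu : A.Sm u) {i : A.ι} {x : M} (hx : x ∈ (A.e i).source)
    (b : Fin n) :
    star (gv A u i x) b = wd (true, b) (cu fun z => u ((A.e i).symm z)) (A.e i x) := by
  have hz := (A.e i).map_source hx
  show conj (gv A u i x b) = _
  rw [gv_wd hx, conj_wd_real _ ((sm_contDiffAt hu i hz).differentiableAt (by simp))]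
  rfl

theorem grd_gv (G : A.ι → M → Matrix (Fin n) (Fin n) ℂ) (u : M → ℝ) (i : A.ι) (x : M) :
    grd G (fun y => (u y : ℂ)) (fun y => (u y : ℂ)) i x =
      qa (G i x).adjugate (gv A u i x) (fun b => conj (gv A u i x b)) := by
  rw [grd_qa]
  congr 1
  funext b
  exact db_ofReal u i b x

/-- `∂∂̄ (κ ∘ u)` -/
theorem hsf_comp {κ : ℝ → ℝ} (hκ : ContDiff ℝ ∞ κ) {u : M → ℝ} (hu : A.Sm u) {i : A.ι} {x : M}
    (hx : x ∈ (A.e i).source) :
    hsf A (fun y => κ (u y)) i x = ((deriv κ (u x) : ℝ) : ℂ) • hsf A u i x +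
      ((deriv (deriv κ) (u x) : ℝ) : ℂ) •
        Matrix.vecMulVec (gv A u i x) (star (gv A u i x)) := by
  have hz := (A.e i).map_source hx
  have h1 := hsf_read (A := A) (fun y => κ (u y)) i hz
  have h2 := hsf_read (A := A) u i hz
  rw [(A.e i).left_inv hx] at h1 h2
  rw [h1, h2]
  ext a b
  have hd : Differentiable ℝ κ := hκ.differentiable (by simp)
  have hd' : Differentiable ℝ (deriv κ) := by
    have h3 : ContDiff ℝ ∞ (deriv κ) := (contDiff_infty_iff_deriv.1 hκ).2
    exact h3.differentiable (by simp)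
  have h3 := R273.FIa0_597.hess_comp_real (φ := κ) (φ' := deriv κ) (d2 := deriv (deriv κ) (u x))
    (u := fun z => u ((A.e i).symm z)) (z := A.e i x) (sm_contDiffAt hu i hz)
    (Eventually.of_forall fun s => (hd s).hasDerivAt)
    (by
      have := (hd' (u ((A.e i).symm (A.e i x)))).hasDerivAt
      rwa [(A.e i).left_inv hx] at this ⊢) a b
  rw [h3, Matrix.add_apply, Matrix.smul_apply, Matrix.smul_apply, Matrix.vecMulVec_apply,
    star_gv_wd hu hx, gv_wd hx, (A.e i).left_inv hx]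
  simp only [smul_eq_mul]

end gen

end

end Crest.Agent.R257.MassLe218
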