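import Crest.Agent.R257.MassLeA_218

/-!
# R257 (S0395), task MASS-LE, part B (helper218): surfaces

* `mx A a b` (`n = 2`) : the density of `∂∂̄a ∧ ∂∂̄b`; `mx_symm`, `mx_self`, `mx_comp`
* `tot_parts`, `tot_trunc` : `∫ χ mx v v = ∫ v mx v χ = ∫ u mx u χ`
* `comparison` : `∫ H(b - a) mx a a ≤ ∫ H(b - a) mx b b`, `H` decreasing
-/

set_option autoImplicit false
set_option linter.unusedSectionVars false

open Set Filter Topology Complex MeasureTheory
open scoped ContDiff Matrix ComplexConjugate ComplexOrder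

namespace Crest.Agent.R257.MassLe218

open Crest.Agent.R275 Crest.Agent.R275.Geo Crest.Agent.R275.Core144 Crest.Agent.R275.EDR890
open Crest.Agent.R275.Pai323 Crest.Agent.R275.C1d194
open Crest.Agent.R275.SerG398 (lint dens)
open Crest.Agent.R275.OmT75 (dj dl)
open Crest.Agent.R273.Defs_333 Crest.Agent.R273.Hess_333 Crest.Agent.R273.HessB_333
open Crest.Agent.R273.HM_333 Crest.Agent.R273.Kah_333 Crest.Agent.R273.Vol_333
open Crest.Agent.R273.StokesV_332 (Den OffK intD intD_eq_sum intD_congr intD_add intD_sub intD_smul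
  intD_neg intD_conj intD_nonneg NonnegD)
open Crest.Agent.R273.Green_5 Crest.Agent.R273.GreenM_5
open Crest.Agent.R273.GreenG_5

noncomputable section

/-! ### linear algebra in dimension two -/

section LA

variable {X Y : Matrix (Fin 2) (Fin 2) ℂ}

theorem tr2_symm (X Y : Matrix (Fin 2) (Fin 2) ℂ) :
    (X.adjugate * Y).trace = (Y.adjugate * X).trace := by
  rw [Matrix.adjugate_fin_two, Matrix.adjugate_fin_two]
  simp only [Matrix.trace_fin_two, Matrix.mul_apply, Fin.sum_univ_two, Matrix.of_apply,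
    Matrix.cons_val', Matrix.cons_val_zero, Matrix.cons_val_one, Matrix.cons_val_fin_one]
  ring

theorem tr2_self (X : Matrix (Fin 2) (Fin 2) ℂ) : (X.adjugate * X).trace = 2 * X.det := by
  rw [Matrix.adjugate_mul, Matrix.trace_smul, Matrix.trace_one, Fintype.card_fin, smul_eq_mul,
    mul_comm]
  norm_num

theorem adj2_add (X Y : Matrix (Fin 2) (Fin 2) ℂ) :
    (X + Y).adjugate = X.adjugate + Y.adjugate := by
  rw [Matrix.adjugate_fin_two, Matrix.adjugate_fin_two, Matrix.adjugate_fin_two]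
  ext i j
  fin_cases i <;> fin_cases j <;> simp [add_comm]

theorem adj2_smul (c : ℂ) (X : Matrix (Fin 2) (Fin 2) ℂ) :
    (c • X).adjugate = c • X.adjugate := by
  rw [Matrix.adjugate_fin_two, Matrix.adjugate_fin_two]
  ext i j
  fin_cases i <;> fin_cases j <;> simp

theorem tr2_diff (X Y : Matrix (Fin 2) (Fin 2) ℂ) :
    ((X + Y).adjugate * (Y - X)).trace = (Y.adjugate * Y).trace - (X.adjugate * X).trace := by
  rw [adj2_add, Matrix.add_mul, Matrix.mul_sub, Matrix.mul_sub, Matrix.trace_add, Matrix.trace_sub,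
    Matrix.trace_sub, tr2_symm X Y]
  ring

theorem tr2_vec (X : Matrix (Fin 2) (Fin 2) ℂ) (p q : Fin 2 → ℂ) :
    (X * Matrix.vecMulVec p q).trace = qa X p q := by
  unfold qa
  simp only [Matrix.trace_fin_two, Matrix.mul_apply, Fin.sum_univ_two, Matrix.vecMulVec_apply]
  ring

theorem det2_vec (p q : Fin 2 → ℂ) : (Matrix.vecMulVec p q).det = 0 := by
  rw [Matrix.det_fin_two]
  simp only [Matrix.vecMulVec_apply]
  ring

/-- `mx` of a composition -/
theorem tr2_comp (X : Matrix (Fin 2) (Fin 2) ℂ) (p q : Fin 2 → ℂ) (s t : ℂ) :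
    ((s • X + t • Matrix.vecMulVec p q).adjugate * (s • X + t • Matrix.vecMulVec p q)).trace =
      s ^ 2 * (X.adjugate * X).trace + 2 * s * t * qa X.adjugate p q := by
  have h1 : ((Matrix.vecMulVec p q).adjugate * X).trace = qa X.adjugate p q := by
    rw [tr2_symm, tr2_vec]
  have h2 : ((Matrix.vecMulVec p q).adjugate * Matrix.vecMulVec p q).trace = 0 := by
    rw [tr2_self, det2_vec, mul_zero]
  have h3 : (X.adjugate * Matrix.vecMulVec p q).trace = qa X.adjugate p q := tr2_vec _ _ _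
  rw [adj2_add, adj2_smul, adj2_smul]
  simp only [Matrix.add_mul, Matrix.mul_add, Matrix.trace_add, Matrix.smul_mul, Matrix.mul_smul,
    Matrix.trace_smul, smul_eq_mul, h1, h2, h3]
  ring

theorem qa2_nonneg {G : Matrix (Fin 2) (Fin 2) ℂ} (hG : G.PosSemidef) (p : Fin 2 → ℂ) :
    0 ≤ qa G.adjugate p (fun b => conj (p b)) := by
  have h := hG.dotProduct_mulVec_nonneg ![conj (p 1), -conj (p 0)]
  have e : qa G.adjugate p (fun b => conj (p b)) =
      star ![conj (p 1), -conj (p 0)] ⬝ᵥ (G *ᵥ ![conj (p 1), -conj (p 0)]) := by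
    unfold qa
    rw [Matrix.adjugate_fin_two]
    simp only [Fin.sum_univ_two, Matrix.of_apply, Matrix.cons_val', Matrix.cons_val_zero,
      Matrix.cons_val_one, Matrix.cons_val_fin_one, dotProduct, Matrix.mulVec, Pi.star_apply,
      RCLike.star_def, map_neg, Complex.conj_conj]
    ring
  rw [e]
  exact h

end LA

variable {M : Type} [TopologicalSpace M] {A : Atl 2 M}

/-- the density of `∂∂̄a ∧ ∂∂̄b` -/
def mx (A : Atl 2 M) (a b : M → ℝ) (i : A.ι) (x : M) : ℂ :=
  ((hsf A a i x).adjugate * hsf A b i x).trace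

theorem mx_symm (a b : M → ℝ) (i : A.ι) (x : M) : mx A a b i x = mx A b a i x := tr2_symm _ _

theorem mx_self (a : M → ℝ) (i : A.ι) (x : M) : mx A a a i x = 2 * (hsf A a i x).det := tr2_self _

theorem den_mx {a b : M → ℝ} (ha : A.Sm a) (hb : A.Sm b) : Den A (mx A a b) where
  sm i := smAt_trA (hsf_cf ha) (hsf_cf hb) i
  tr := trA_dn (CF.tn (hsf_cf ha)) (CF.tn (hsf_cf hb))

theorem den_mul {φ : M → ℝ} (hφ : A.Sm φ) {f : A.ι → M → ℂ} (hf : Den A f) :
    Den A (fun i x => (φ x : ℂ) * f i x) := hf.mulF (sm_cof hφ)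

theorem mx_evconst {a b : M → ℝ} {c : ℝ} {i : A.ι} {x : M} (hx : x ∈ (A.e i).source)
    (h : b =ᶠ[𝓝 x] fun _ => c) : mx A a b i x = 0 := by
  unfold mx
  rw [hsf_evconst hx h, Matrix.mul_zero, Matrix.trace_zero]

theorem mx_evconst' {a b : M → ℝ} {c : ℝ} {i : A.ι} {x : M} (hx : x ∈ (A.e i).source)
    (h : a =ᶠ[𝓝 x] fun _ => c) : mx A a b i x = 0 := by
  rw [mx_symm]; exact mx_evconst hx h

theorem mx_congr_left {a a' b : M → ℝ} {i : A.ι} {x : M} (hx : x ∈ (A.e i).source)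
    (h : a =ᶠ[𝓝 x] a') : mx A a b i x = mx A a' b i x := by
  unfold mx
  rw [hsf_congr hx h]

/-- the density `mx` of a composition -/
theorem mx_comp {κ : ℝ → ℝ} (hκ : ContDiff ℝ ∞ κ) {u : M → ℝ} (hu : A.Sm u) {i : A.ι} {x : M}
    (hx : x ∈ (A.e i).source) :
    mx A (fun y => κ (u y)) (fun y => κ (u y)) i x =
      ((deriv κ (u x) : ℝ) : ℂ) ^ 2 * mx A u u i x +
        2 * ((deriv κ (u x) : ℝ) : ℂ) * ((deriv (deriv κ) (u x) : ℝ) : ℂ) *
          grd (hsf A u) (fun y => (u y : ℂ)) (fun y => (u y : ℂ)) i x := by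
  unfold mx
  rw [hsf_comp hκ hu hx, tr2_comp, grd_gv]
  rfl

theorem grd_conj {G : A.ι → M → Matrix (Fin 2) (Fin 2) ℂ} (φ u : M → ℝ) {i : A.ι} {x : M}
    (hG : (G i x).IsHermitian) :
    conj (grd G (fun y => (φ y : ℂ)) (fun y => (u y : ℂ)) i x) =
      grd G (fun y => (u y : ℂ)) (fun y => (φ y : ℂ)) i x := by
  unfold grd
  have hH : (G i x).adjugate.IsHermitian := by
    rw [Matrix.IsHermitian, Matrix.adjugate_conjTranspose, hG.eq]
  simp only [map_sum, map_mul]
  rw [Finset.sum_comm]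
  refine Finset.sum_congr rfl fun a _ => Finset.sum_congr rfl fun b _ => ?_
  have h1 : conj ((G i x).adjugate a b) = (G i x).adjugate b a := hH.apply b a
  have h2 : conj (dl A i b (fun y => (φ y : ℂ)) x) = A.db i b (fun y => (φ y : ℂ)) x :=
    (db_ofReal φ i b x).symm
  have h3 : conj (A.db i a (fun y => (u y : ℂ)) x) = dl A i a (fun y => (u y : ℂ)) x := by
    rw [db_ofReal u i a x, Complex.conj_conj]
  rw [h1, h2, h3]
  ring

section t2

variable [T2Space M]

/-- `∫ χ mx v v = ∫ v mx v χ` (real parts) -/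
theorem tot_parts (P : Part A) {v χ : M → ℝ} (hv : A.Sm v) (hχ : A.Sm χ) {K : Set M}
    (hK : IsCompact K) (h1 : ∀ x ∉ K, (χ =ᶠ[𝓝 x] fun _ => 0) ∨ ∃ c : ℝ, v =ᶠ[𝓝 x] fun _ => c)
    (h2 : ∀ x ∉ K, ∃ c : ℝ, χ =ᶠ[𝓝 x] fun _ => c) :
    (intD P (fun i x => (χ x : ℂ) * mx A v v i x)).re =
      (intD P (fun i x => (v x : ℂ) * mx A v χ i x)).re := by
  have e1 := greenD P (hsf_cf hv) hχ hv hK h1
  have e2 := greenD P (hsf_cf hv) hv hχ hK fun x hx => Or.inr (h2 x hx)
  have o : OffK A (grd (hsf A v) (fun y => (v y : ℂ)) (fun y => (χ y : ℂ))) K := by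
    intro i x hxi hxK
    show grd (hsf A v) (fun y => (v y : ℂ)) (fun y => (χ y : ℂ)) i x = 0
    unfold grd
    refine Finset.sum_eq_zero fun a _ => Finset.sum_eq_zero fun b _ => ?_
    obtain ⟨c, h⟩ := h2 x hxK
    have h3 : (fun y => (χ y : ℂ)) =ᶠ[𝓝 x] fun _ => (c : ℂ) := by
      filter_upwards [h] with y hy
      rw [hy]
    rw [db_evconst hxi h3]
    ring
  have e3 : intD P (grd (hsf A v) (fun y => (χ y : ℂ)) (fun y => (v y : ℂ))) =
      conj (intD P (grd (hsf A v) (fun y => (v y : ℂ)) (fun y => (χ y : ℂ)))) := by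
    rw [← intD_conj P hK o]
    exact intD_congr P fun i x hx => (grd_conj v χ (hsf_herm hv hx)).symm
  change (intD P (fun i x => (χ x : ℂ) * ((hsf A v i x).adjugate * hsf A v i x).trace)).re =
    (intD P (fun i x => (v x : ℂ) * ((hsf A v i x).adjugate * hsf A χ i x).trace)).re
  rw [e1, e2, e3, Complex.neg_re, Complex.neg_re, Complex.conj_re]

theorem tot_trunc (P : Part A) {u v χ : M → ℝ} (hv : A.Sm v) (hχ : A.Sm χ) {K : Set M}
    (hK : IsCompact K) (h1 : ∀ x ∉ K, (χ =ᶠ[𝓝 x] fun _ => 0) ∨ ∃ c : ℝ, v =ᶠ[𝓝 x] fun _ => c)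
    (h2 : ∀ x ∉ K, ∃ c : ℝ, χ =ᶠ[𝓝 x] fun _ => c)
    (h3 : ∀ x, (∃ c : ℝ, χ =ᶠ[𝓝 x] fun _ => c) ∨ v =ᶠ[𝓝 x] u) :
    (intD P (fun i x => (χ x : ℂ) * mx A v v i x)).re =
      (intD P (fun i x => (u x : ℂ) * mx A u χ i x)).re := by
  rw [tot_parts P hv hχ hK h1 h2]
  congr 1
  refine intD_congr P fun i x hx => ?_
  rcases h3 x with ⟨c, h⟩ | h
  · rw [mx_evconst hx h, mx_evconst hx h, mul_zero, mul_zero]
  · rw [mx_congr_left hx h, h.self_of_nhds]

/-- **comparison** -/
theorem comparison (P : Part A) {a b : M → ℝ} (ha : A.Sm a) (hb : A.Sm b)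
    (pa : ∀ i, ∀ x ∈ (A.e i).source, (hsf A a i x).PosSemidef)
    (pb : ∀ i, ∀ x ∈ (A.e i).source, (hsf A b i x).PosSemidef) {H : ℝ → ℝ}
    (hH : ContDiff ℝ ∞ H) (hH' : ∀ s, deriv H s ≤ 0) {K : Set M} (hK : IsCompact K)
    (h1 : ∀ x ∉ K, ((fun y => H (b y - a y)) =ᶠ[𝓝 x] fun _ => 0) ∨
      ∃ c : ℝ, (fun y => b y - a y) =ᶠ[𝓝 x] fun _ => c)
    (h2 : ∀ x ∉ K, H (b x - a x) = 0 ∨
      ((∃ c : ℝ, a =ᶠ[𝓝 x] fun _ => c) ∧ ∃ c : ℝ, b =ᶠ[𝓝 x] fun _ => c)) :
    (intD P (fun i x => (H (b x - a x) : ℂ) * mx A a a i x)).re ≤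
      (intD P (fun i x => (H (b x - a x) : ℂ) * mx A b b i x)).re := by
  have hφ : A.Sm (fun y => b y - a y) := fun i => (hb i).sub (ha i)
  have hHφ : A.Sm (fun y => H (b y - a y)) := fun i => hH.comp_contDiffOn (hφ i)
  have hG : CF A (fun i x => hsf A a i x + hsf A b i x) := (hsf_cf ha).add (hsf_cf hb)
  have e1 := greenD P hG hHφ hφ hK h1
  have hsub : ∀ i, ∀ x ∈ (A.e i).source,
      hsf A (fun y => b y - a y) i x = hsf A b i x - hsf A a i x := by
    intro i x hx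
    have hz := (A.e i).map_source hx
    have r1 := hsf_read (A := A) (fun y => b y - a y) i hz
    have r2 := hsf_read (A := A) a i hz
    have r3 := hsf_read (A := A) b i hz
    rw [(A.e i).left_inv hx] at r1 r2 r3
    rw [r1, r2, r3]
    exact hess_sub (sm_contDiffAt hb i hz) (sm_contDiffAt ha i hz)
  -- off `K`
  have oa : OffK A (fun i x => (H (b x - a x) : ℂ) * mx A a a i x) K := by
    intro i x hxi hxK
    show (H (b x - a x) : ℂ) * mx A a a i x = 0
    rcases h2 x hxK with h | ⟨⟨c, h⟩, _⟩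
    · rw [h]; simp
    · rw [mx_evconst hxi h, mul_zero]
  have ob : OffK A (fun i x => (H (b x - a x) : ℂ) * mx A b b i x) K := by
    intro i x hxi hxK
    show (H (b x - a x) : ℂ) * mx A b b i x = 0
    rcases h2 x hxK with h | ⟨_, ⟨c, h⟩⟩
    · rw [h]; simp
    · rw [mx_evconst hxi h, mul_zero]
  have da := den_mul hHφ (den_mx ha ha)
  have db := den_mul hHφ (den_mx hb hb)
  have e2 : intD P (fun i x => (H (b x - a x) : ℂ) *
      ((hsf A a i x + hsf A b i x).adjugate * hsf A (fun y => b y - a y) i x).trace) =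
      intD P (fun i x => (H (b x - a x) : ℂ) * mx A b b i x) -
        intD P (fun i x => (H (b x - a x) : ℂ) * mx A a a i x) := by
    rw [← intD_sub P db.sm da.sm hK ob oa]
    refine intD_congr P fun i x hx => ?_
    rw [hsub i x hx, tr2_diff]
    show _ = (H (b x - a x) : ℂ) * mx A b b i x - (H (b x - a x) : ℂ) * mx A a a i x
    unfold mx
    ring
  -- the gradient term
  have hGt : Tn A (fun i x => hsf A a i x + hsf A b i x) := CF.tn hG
  have dg : Den A (grd (fun i x => hsf A a i x + hsf A b i x) (fun y => ((H (b y - a y) : ℝ) : ℂ))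
      (fun y => ((b y - a y : ℝ) : ℂ))) :=
    ⟨smAt_grd hG (sm_cof hHφ) (sm_cof hφ), grd_dn hGt (sm_cof hHφ) (sm_cof hφ)⟩
  have og : OffK A (grd (fun i x => hsf A a i x + hsf A b i x)
      (fun y => ((H (b y - a y) : ℝ) : ℂ)) (fun y => ((b y - a y : ℝ) : ℂ))) K := by
    intro i x hxi hxK
    show grd _ _ _ i x = 0
    unfold grd
    refine Finset.sum_eq_zero fun p _ => Finset.sum_eq_zero fun q _ => ?_
    rcases h1 x hxK with h2 | ⟨c, h2⟩
    · have h3 : (fun y => ((H (b y - a y) : ℝ) : ℂ)) =ᶠ[𝓝 x] fun _ => (0 : ℂ) := by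
        filter_upwards [h2] with y hy
        rw [hy]
        simp
      rw [dl_evconst hxi h3]
      ring
    · have h3 : (fun y => ((b y - a y : ℝ) : ℂ)) =ᶠ[𝓝 x] fun _ => (c : ℂ) := by
        filter_upwards [h2] with y hy
        rw [hy]
      rw [db_evconst hxi h3]
      ring
  have hneg : 0 ≤ (intD P (fun i x => (-1 : ℂ) * grd (fun i x => hsf A a i x + hsf A b i x)
      (fun y => ((H (b y - a y) : ℝ) : ℂ)) (fun y => ((b y - a y : ℝ) : ℂ)) i x)).re := by
    refine intD_re_nonneg P (dg.smul (-1)) (fun i x hx => ?_) hK (og.mul_left fun _ _ => -1)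
    have h3 : grd (fun i x => hsf A a i x + hsf A b i x)
        (fun y => ((H (b y - a y) : ℝ) : ℂ)) (fun y => ((b y - a y : ℝ) : ℂ)) i x =
        ((deriv H (b x - a x) : ℝ) : ℂ) * grd (fun i x => hsf A a i x + hsf A b i x)
          (fun y => ((b y - a y : ℝ) : ℂ)) (fun y => ((b y - a y : ℝ) : ℂ)) i x := by
      unfold grd
      rw [Finset.mul_sum]
      refine Finset.sum_congr rfl fun p _ => ?_
      rw [Finset.mul_sum]
      refine Finset.sum_congr rfl fun q _ => ?_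
      have h4 := R273.LogCut_5.dl_comp_real (θ := H) (hH.differentiable (by simp)) hφ hx p
      rw [h4]
      ring
    have h5 : 0 ≤ grd (fun i x => hsf A a i x + hsf A b i x)
        (fun y => ((b y - a y : ℝ) : ℂ)) (fun y => ((b y - a y : ℝ) : ℂ)) i x := by
      have h6 := grd_gv (A := A) (fun i x => hsf A a i x + hsf A b i x) (fun y => b y - a y) i x
      rw [h6]
      exact qa2_nonneg ((pa i x hx).add (pb i x hx)) _
    rw [h3, ← mul_assoc]
    have h7 := (Complex.le_def.1 h5).1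
    rw [neg_one_mul, neg_mul, Complex.neg_re, Complex.re_ofReal_mul]
    have h8 := hH' (b x - a x)
    rw [Complex.zero_re] at h7
    nlinarith
  rw [intD_smul P (-1) hK og, neg_one_mul, ← e1, e2, Complex.sub_re] at hneg
  linarith

end t2

end

end Crest.Agent.R257.MassLe218
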