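import Crest.Agent.R257.MassLeB_218

/-!
# R257 (S0395), task MASS-LE, part C (helper218): truncations of the real line

* `exists_kap` : convex truncations `κ`, `κ = id` on `[-K, ∞)`, constant on `(-∞, -2K]`
* `HH` : decreasing smooth function, `1` on `(-∞,-1]`, `0` on `[0,∞)`
-/

set_option autoImplicit false

open Set Filter Topology MeasureTheory
open scoped ContDiff

namespace Crest.Agent.R257.MassLe218

noncomputable section

/-! ### the smooth transition -/

abbrev St : ℝ → ℝ := Real.smoothTransition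

theorem St_contDiff : ContDiff ℝ ∞ St := Real.smoothTransition.contDiff

theorem St_mono : Monotone St := Real.smoothTransition.monotone

theorem deriv_St_nonneg (s : ℝ) : 0 ≤ deriv St s := St_mono.deriv_nonneg

theorem deriv_St_left {s : ℝ} (hs : s < 0) : deriv St s = 0 := by
  have h : St =ᶠ[𝓝 s] fun _ => 0 := by
    filter_upwards [gt_mem_nhds hs] with y hy
    exact Real.smoothTransition.zero_of_nonpos hy.le
  rw [h.deriv_eq, deriv_const]

theorem deriv_St_right {s : ℝ} (hs : 1 < s) : deriv St s = 0 := by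
  have h : St =ᶠ[𝓝 s] fun _ => 1 := by
    filter_upwards [lt_mem_nhds hs] with y hy
    exact Real.smoothTransition.one_of_one_le hy.le
  rw [h.deriv_eq, deriv_const]

theorem deriv_St_bdd : ∃ C, 0 ≤ C ∧ ∀ s, deriv St s ≤ C := by
  have hc : Continuous (deriv St) := by
    have h3 : ContDiff ℝ ∞ (deriv St) := (contDiff_infty_iff_deriv.1 St_contDiff).2
    exact h3.continuous
  obtain ⟨C, hC⟩ := (isCompact_Icc (a := (0 : ℝ)) (b := 1)).bddAbove_image hc.continuousOn
  refine ⟨max C 0, le_max_right _ _, fun s => ?_⟩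
  by_cases h0 : s < 0
  · rw [deriv_St_left h0]; exact le_max_right _ _
  by_cases h1 : 1 < s
  · rw [deriv_St_right h1]; exact le_max_right _ _
  · exact (hC ⟨s, ⟨not_lt.1 h0, not_lt.1 h1⟩, rfl⟩).trans (le_max_left _ _)

/-! ### the function `H` -/

def HH (s : ℝ) : ℝ := St (-s)

theorem HH_contDiff : ContDiff ℝ ∞ HH := St_contDiff.comp contDiff_neg

theorem HH_nonneg (s : ℝ) : 0 ≤ HH s := Real.smoothTransition.nonneg _

theorem HH_le_one (s : ℝ) : HH s ≤ 1 := Real.smoothTransition.le_one _

theorem HH_one {s : ℝ} (hs : s ≤ -1) : HH s = 1 :=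
  Real.smoothTransition.one_of_one_le (by linarith)

theorem HH_zero {s : ℝ} (hs : 0 ≤ s) : HH s = 0 :=
  Real.smoothTransition.zero_of_nonpos (by linarith)

theorem HH_anti : Antitone HH := fun _ _ h => St_mono (neg_le_neg h)

theorem deriv_HH (s : ℝ) : deriv HH s ≤ 0 := HH_anti.deriv_nonpos

/-! ### the truncations -/

def kap0 (s : ℝ) : ℝ := -1 + ∫ t in (-1 : ℝ)..s, St (t + 2)

theorem St2_cont : Continuous fun t : ℝ => St (t + 2) :=
  St_contDiff.continuous.comp (continuous_id.add continuous_const)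

theorem hasDerivAt_kap0 (s : ℝ) : HasDerivAt kap0 (St (s + 2)) s := by
  have h := intervalIntegral.integral_hasDerivAt_right (a := (-1 : ℝ)) (b := s)
    (f := fun t => St (t + 2)) (St2_cont.intervalIntegrable _ _)
    (St2_cont.stronglyMeasurableAtFilter _ _) St2_cont.continuousAt
  exact h.const_add (-1)

theorem deriv_kap0 : deriv kap0 = fun s => St (s + 2) :=
  funext fun s => (hasDerivAt_kap0 s).deriv

theorem kap0_contDiff : ContDiff ℝ ∞ kap0 := by
  refine contDiff_infty_iff_deriv.2 ⟨fun s => (hasDerivAt_kap0 s).differentiableAt, ?_⟩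
  rw [deriv_kap0]
  exact St_contDiff.comp (contDiff_id.add contDiff_const)

theorem kap0_id {s : ℝ} (hs : -1 ≤ s) : kap0 s = s := by
  unfold kap0
  have h : ∫ t in (-1 : ℝ)..s, St (t + 2) = ∫ t in (-1 : ℝ)..s, (1 : ℝ) := by
    refine intervalIntegral.integral_congr fun t ht => ?_
    rw [uIcc_of_le hs] at ht
    exact Real.smoothTransition.one_of_one_le (by linarith [ht.1])
  rw [h, intervalIntegral.integral_const]
  simp

theorem kap0_const {s : ℝ} (hs : s ≤ -2) : kap0 s = kap0 (-2) := by
  unfold kap0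
  have h : ∫ t in (-2 : ℝ)..s, St (t + 2) = 0 := by
    have h1 : ∫ t in (-2 : ℝ)..s, St (t + 2) = ∫ t in (-2 : ℝ)..s, (0 : ℝ) := by
      refine intervalIntegral.integral_congr fun t ht => ?_
      rw [uIcc_of_ge hs] at ht
      exact Real.smoothTransition.zero_of_nonpos (by linarith [ht.2])
    rw [h1]
    simp
  have h2 := intervalIntegral.integral_add_adjacent_intervals (μ := volume) (a := (-1 : ℝ))
    (b := -2) (c := s) (f := fun t => St (t + 2)) (St2_cont.intervalIntegrable _ _)
    (St2_cont.intervalIntegrable _ _)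
  rw [← h2, h, add_zero]

theorem kap0_mono : Monotone kap0 := by
  refine monotone_of_deriv_nonneg (kap0_contDiff.differentiable (by simp)) fun s => ?_
  rw [deriv_kap0]
  exact Real.smoothTransition.nonneg _

theorem le_kap0 (s : ℝ) : s ≤ kap0 s := by
  by_cases hs : -1 ≤ s
  · rw [kap0_id hs]
  have h1 : Antitone fun s => kap0 s - s := by
    refine antitone_of_deriv_nonpos
      ((kap0_contDiff.differentiable (by simp)).sub differentiable_id) fun s => ?_
    have h2 : HasDerivAt (fun s => kap0 s - s) (St (s + 2) - 1) s :=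
      (hasDerivAt_kap0 s).sub (hasDerivAt_id s)
    rw [h2.deriv]
    linarith [Real.smoothTransition.le_one (s + 2)]
  have h2 := h1 (not_le.1 hs).le
  simp only [kap0_id (le_refl (-1 : ℝ))] at h2
  linarith

/-- convex truncations -/
theorem exists_kap : ∃ C0 : ℝ, 0 ≤ C0 ∧ ∀ K : ℝ, 0 < K → ∃ κ : ℝ → ℝ, ContDiff ℝ ∞ κ ∧
    (∀ s, 0 ≤ deriv κ s) ∧ (∀ s, deriv κ s ≤ 1) ∧
    (∀ s, 0 ≤ deriv (deriv κ) s) ∧ (∀ s, deriv (deriv κ) s ≤ C0 / K) ∧
    (∀ s, deriv (deriv κ) s ≠ 0 → -(2 * K) ≤ s ∧ s ≤ -K) ∧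
    (∀ s, s ≤ -(2 * K) → deriv κ s = 0) ∧
    (∀ s, -K ≤ s → κ s = s) ∧ (∀ s, s ≤ -(2 * K) → κ s = κ (-(2 * K))) ∧
    (∀ s, s ≤ κ s) ∧ Monotone κ := by
  obtain ⟨C0, hC0, hC⟩ := deriv_St_bdd
  refine ⟨C0, hC0, fun K hK => ?_⟩
  set κ : ℝ → ℝ := fun s => K * kap0 (s / K) with hκ
  have hcd : ContDiff ℝ ∞ κ := contDiff_const.mul (kap0_contDiff.comp (contDiff_id.div_const K))
  have hd1 : ∀ s, HasDerivAt κ (St (s / K + 2)) s := by
    intro s
    have h1 : HasDerivAt (fun s : ℝ => s / K) (1 / K) s := (hasDerivAt_id s).div_const K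
    have h2 := ((hasDerivAt_kap0 (s / K)).comp s h1).const_mul K
    have e : K * (St (s / K + 2) * (1 / K)) = St (s / K + 2) := by field_simp
    rw [e] at h2
    exact h2
  have hd : deriv κ = fun s => St (s / K + 2) := funext fun s => (hd1 s).deriv
  have hd2 : ∀ s, deriv (deriv κ) s = deriv St (s / K + 2) / K := by
    intro s
    rw [hd]
    have h1 : HasDerivAt (fun s : ℝ => s / K + 2) (1 / K) s :=
      ((hasDerivAt_id s).div_const K).add_const 2
    have h3 : HasDerivAt St (deriv St (s / K + 2)) (s / K + 2) :=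
      (St_contDiff.differentiable (by simp) _).hasDerivAt
    have h2 := h3.comp s h1
    have h4 : deriv (fun s => St (s / K + 2)) s = deriv St (s / K + 2) * (1 / K) := h2.deriv
    rw [h4]; ring
  refine ⟨κ, hcd, fun s => ?_, fun s => ?_, fun s => ?_, fun s => ?_, fun s hs => ?_,
    fun s hs => ?_, fun s hs => ?_, fun s hs => ?_, fun s => ?_, ?_⟩
  · rw [hd]; exact Real.smoothTransition.nonneg _
  · rw [hd]; exact Real.smoothTransition.le_one _
  · rw [hd2]; exact div_nonneg (deriv_St_nonneg _) hK.le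
  · rw [hd2]; exact div_le_div_of_nonneg_right (hC _) hK.le
  · rw [hd2] at hs
    have h1 : deriv St (s / K + 2) ≠ 0 := fun h => hs (by rw [h, zero_div])
    constructor
    · by_contra h
      have h2 : s / K < -2 := by
        rw [div_lt_iff₀ hK]; linarith [not_le.1 h]
      exact h1 (deriv_St_left (by linarith))
    · by_contra h
      have h2 : -1 < s / K := by
        rw [lt_div_iff₀ hK]; linarith [not_le.1 h]
      exact h1 (deriv_St_right (by linarith))
  · rw [hd]
    have h2 : s / K ≤ -2 := by rw [div_le_iff₀ hK]; linarith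
    exact Real.smoothTransition.zero_of_nonpos (by linarith)
  · have h2 : -1 ≤ s / K := by rw [le_div_iff₀ hK]; linarith
    simp only [hκ]
    rw [kap0_id h2]
    field_simp
  · have h2 : s / K ≤ -2 := by rw [div_le_iff₀ hK]; linarith
    have h3 : -(2 * K) / K = -2 := by field_simp
    simp only [hκ]
    rw [h3, kap0_const h2]
  · have h2 := mul_le_mul_of_nonneg_left (le_kap0 (s / K)) hK.le
    have h3 : K * (s / K) = s := by field_simp
    rw [h3] at h2
    exact h2
  · intro s t hst
    exact mul_le_mul_of_nonneg_left (kap0_mono (div_le_div_of_nonneg_right hst hK.le)) hK.le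

end

end Crest.Agent.R257.MassLe218
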