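import Crest.Agent.R257.CmpL_822
import Crest.Agent.R257.KEG_952
import Crest.Agent.R257.KedM1_941
import Crest.Agent.R257.Cmp2_101
import Crest.Agent.R257.GBLcut_844
import Crest.Agent.R273.FIa0_597

/-!
R257 / MsJ1_617 (helper617), leaf GB-MASSJ, part 1: calculus of `mxd` on a level, Stokes, the
plurisubharmonic cut-offs `χ Qp (R - (A - u))`.

* `mxd_loc`  : locality of `mxd` on the level
* `stk`      : `∫ c ∂∂̄b ∧ ∂∂̄a = ∫ a ∂∂̄b ∧ ∂∂̄c`, `c` smooth on the level, compact support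
* `stk_one`  : `∫ ∂∂̄b ∧ ∂∂̄c = 0`
* `mxd_nonneg`, `mxd_cv` : positivity, convex functions of psh functions
* `mxd_exp`  : `e^{-ψ} ∂∂̄b ∧ ∂∂̄e^ψ = (1 - ψ) ∂∂̄b ∧ ∂∂̄ψ + 1/2 ∂∂̄b ∧ ∂∂̄ψ²`
-/

set_option autoImplicit false
set_option linter.unusedSectionVars false

open Topology Filter MeasureTheory Set
open scoped ENNReal ContDiff Matrix ComplexOrder

noncomputable section

namespace Crest.Agent.R257.MsJ_617

open Crest.Agent.R275.Geo Crest.Agent.R275.Core144 Crest.Agent.R275.EDR890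
open Crest.Agent.R275.Pai323 Crest.Agent.R275.C1d194
open Crest.Agent.R273.StokesV_332
open Crest.Agent.R273.Defs_333 Crest.Agent.R273.Vm_333 Crest.Agent.R273.Kah_333
open Crest.Agent.R273.Hess_333 Crest.Agent.R273.HessB_333
open Crest.Agent.R273.YauDefs_635 (cH)
open Crest.Agent.R257.Defs_219 Crest.Agent.R257.KED_952 Crest.Agent.R257.V1Defs_822
open Crest.Agent.R257.V1Pe_822 Crest.Agent.R257.V1W_822 Crest.Agent.R257.UpK_938
open Crest.Agent.R257.Bridge_822 Crest.Agent.R257.CmpL_822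
open Crest.Agent.R257.PN_835 (nsq)
open Crest.Agent.R257.Aff_835 (eta2a)
open Crest.Agent.R257.C2F1_625 (pd pd_add pd_sub pd_smul pd_comm)
open Crest.Agent.R257.KedM_941 (L Gd ctL_contOn)

variable {f : E3 → ℂ} {s : ℂ} {r : ℝ}

theorem gd (hf : LvlOK f s r) : Gd f s r := ⟨hf.an, hf.sm⟩

/-! ### locality -/

open Classical in
/-- `mxd` only depends on the germ along the level -/
theorem mxd_loc {a b b' : E3 → ℝ} {x : E3} (hb : ∀ᶠ y in 𝓝 x, f y = f x → b y = b' y) :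
    mxd f a b x = mxd f a b' x := by
  unfold mxd dns
  split_ifs with h
  · obtain ⟨h1, h2, h3⟩ := h.choose_spec
    have hc : ContinuousAt h.choose.1 h.choose.2.2 :=
      h1.hol.continuousOn.continuousAt (h1.isOpen.mem_nhds h2)
    have h5 : Tendsto h.choose.1 (𝓝 h.choose.2.2) (𝓝 x) := by
      have := hc.tendsto
      rwa [h3] at this
    have h4 : (fun z => b (h.choose.1 z)) =ᶠ[𝓝 h.choose.2.2] fun z => b' (h.choose.1 z) := by
      filter_upwards [h5.eventually hb, h1.isOpen.mem_nhds h2] with z hz hz'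
      exact hz (h1.lvl z hz')
    change (pd _ (cH (fun z => b (h.choose.1 z)) h.choose.2.2)).re / _ =
      (pd _ (cH (fun z => b' (h.choose.1 z)) h.choose.2.2)).re / _
    rw [KEl_835.cH_congr h4]
  · rfl

theorem mxd_loc0 {a b : E3 → ℝ} {x : E3} (hb : ∀ᶠ y in 𝓝 x, f y = f x → b y = 0) :
    mxd f a b x = 0 := by
  rw [mxd_loc (b' := fun _ => 0) hb]
  exact mxd_zero (Eventually.of_forall fun _ => rfl)

theorem mem_L_ev {x : E3} (h1 : f x = s) (h2 : x ≠ 0) (h3 : nsq x < r ^ 2) :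
    ∀ᶠ y in 𝓝 x, f y = f x → y ∈ L f s r := by
  have e1 : ∀ᶠ y in 𝓝 x, y ≠ 0 := isOpen_ne.mem_nhds h2
  have e2 : ∀ᶠ y in 𝓝 x, nsq y < r ^ 2 := continuous_nsq3.continuousAt.eventually_lt continuousAt_const h3
  filter_upwards [e1, e2] with y a1 a2 a3
  exact ⟨a3.trans h1, a1, a2⟩

/-- continuity along the level -/
theorem ctL_ev (hf : LvlOK f s r) {φ : E3 → ℝ} (hφ : CtL f s r φ) {x : E3} (h1 : f x = s)
    (h2 : x ≠ 0) (h3 : nsq x < r ^ 2) {p : ℝ → Prop} (hp : ∀ᶠ t in 𝓝 (φ x), p t) :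
    ∀ᶠ y in 𝓝 x, f y = f x → p (φ y) := by
  have hc := ctL_contOn (gd hf) hφ x ⟨h1, h2, h3⟩
  have h4 : ∀ᶠ y in 𝓝[L f s r] x, p (φ y) := hc.eventually hp
  rw [eventually_nhdsWithin_iff] at h4
  filter_upwards [h4, mem_L_ev h1 h2 h3] with y a1 a2 a3
  exact a1 (a2 a3)

/-! ### algebra -/

theorem smL_const (c : ℝ) : SmL f s r fun _ => c := fun _ _ _ => contDiffOn_const

theorem smL_add {a b : E3 → ℝ} (ha : SmL f s r a) (hb : SmL f s r b) :
    SmL f s r fun x => a x + b x := fun θ O hθ => (ha θ O hθ).add (hb θ O hθ)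

theorem smL_sub {a b : E3 → ℝ} (ha : SmL f s r a) (hb : SmL f s r b) :
    SmL f s r fun x => a x - b x := fun θ O hθ => (ha θ O hθ).sub (hb θ O hθ)

theorem smL_comp {F : ℝ → ℝ} (hF : ContDiff ℝ ∞ F) {a : E3 → ℝ} (ha : SmL f s r a) :
    SmL f s r fun x => F (a x) := fun θ O hθ => hF.comp_contDiffOn (ha θ O hθ)

theorem eta_pos {u : E3 → ℝ} (hu : KEon f s r u) {θ : Cn 2 → E3}
    {O : Set (Cn 2)} (h : PE f s r θ O) {z : Cn 2} (hz : z ∈ O) : 0 < eta2a (n := 2) f θ z := by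
  refine lt_of_le_of_ne (Crest.Agent.R257.KedM_941.eta_nonneg f θ z) fun h10 => ?_
  have h5 := hu.ma θ O h z hz
  have h9 : (cH (fun z => u (θ z)) z).det ≠ 0 := by
    rw [Crest.Agent.R273.YauMax_635.cH_eq_hess (smAt (a := u) hu.sm h hz)]
    exact (posDef_hess (smAt (a := u) hu.sm h hz) (hu.pos θ O h z hz)).det_pos.ne'
  rw [h5, ← h10] at h9
  simp at h9

/-- the first argument is the Kaehler-Einstein weight: everything in one chart -/
theorem mxd_hess (hf : LvlOK f s r) {x : E3} (hx : x ≠ 0) (hr : nsq x < r ^ 2) (hfx : f x = s) :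
    ∃ (θ : Cn 2 → E3) (O : Set (Cn 2)) (z : Cn 2), PE f s r θ O ∧ z ∈ O ∧ θ z = x ∧
      ∀ a b : E3 → ℝ, SmL f s r a → SmL f s r b → mxd f a b x =
        (pd (hess (fun z => a (θ z)) z) (hess (fun z => b (θ z)) z)).re / eta2a (n := 2) f θ z := by
  obtain ⟨θ, O, z, h1, h2, h3, h4⟩ := mxd_cases hx hr hfx hf
  refine ⟨θ, O, z, h1, h2, h3, fun a b ha hb => ?_⟩
  rw [h4, Crest.Agent.R273.YauMax_635.cH_eq_hess (smAt ha h1 h2),
    Crest.Agent.R273.YauMax_635.cH_eq_hess (smAt hb h1 h2)]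

theorem mxd_add (hL : LvlOK f s r) {a b b' : E3 → ℝ} (ha : SmL f s r a) (hb : SmL f s r b)
    (hb' : SmL f s r b') {x : E3} (hx : x ≠ 0) (hr : nsq x < r ^ 2) (hfx : f x = s) :
    mxd f a (fun y => b y + b' y) x = mxd f a b x + mxd f a b' x := by
  obtain ⟨θ, O, z, h1, h2, -, h4⟩ := mxd_hess hL hx hr hfx
  rw [h4 _ _ ha (smL_add hb hb'), h4 _ _ ha hb, h4 _ _ ha hb',
    hess_add (u := fun z => b (θ z)) (v := fun z => b' (θ z)) (smAt hb h1 h2) (smAt hb' h1 h2),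
    pd_add, Complex.add_re, add_div]

theorem mxd_cmul (hL : LvlOK f s r) {a b : E3 → ℝ} (hb : SmL f s r b) (c : ℝ)
    {x : E3} (hx : x ≠ 0) (hr : nsq x < r ^ 2) (hfx : f x = s) :
    mxd f a (fun y => c * b y) x = c * mxd f a b x := by
  rw [mxd_comm hL hx hr hfx, mxd_mul hL hb c hx hr hfx, mxd_comm hL hx hr hfx]

theorem mxd_cst {a : E3 → ℝ} (c : ℝ) (x : E3) : mxd f a (fun _ => c) x = 0 :=
  V1Top_822.mxd_const (c := c) (Eventually.of_forall fun _ => rfl)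

/-! ### positivity -/

/-- the Kaehler-Einstein weight has a positive semidefinite Hessian -/
theorem ke_psd {u : E3 → ℝ} (hu : KEon f s r u) {θ : Cn 2 → E3} {O : Set (Cn 2)}
    (h : PE f s r θ O) {z : Cn 2} (hz : z ∈ O) : (hess (fun z => u (θ z)) z).PosSemidef :=
  (posDef_hess (smAt (a := u) hu.sm h hz) (hu.pos θ O h z hz)).posSemidef

theorem psh_psd {ψ : E3 → ℝ} (hψ : SmL f s r ψ)
    (hp : ∀ θ O, PE f s r θ O → ∀ z ∈ O, ∀ v, 0 ≤ lev (fun z => ψ (θ z)) z v)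
    {θ : Cn 2 → E3} {O : Set (Cn 2)} (h : PE f s r θ O) {z : Cn 2} (hz : z ∈ O) :
    (hess (fun z => ψ (θ z)) z).PosSemidef :=
  posSemidef_hess (smAt hψ h hz) (hp θ O h z hz)

theorem mxd_nonneg (hf : LvlOK f s r) {u : E3 → ℝ} (hu : KEon f s r u) {ψ : E3 → ℝ}
    (hψ : SmL f s r ψ)
    (hp : ∀ θ O, PE f s r θ O → ∀ z ∈ O, ∀ v, 0 ≤ lev (fun z => ψ (θ z)) z v)
    {x : E3} (hx : x ≠ 0) (hr : nsq x < r ^ 2) (hfx : f x = s) : 0 ≤ mxd f u ψ x := by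
  obtain ⟨θ, O, z, h1, h2, -, h4⟩ := mxd_hess hf hx hr hfx
  rw [h4 _ _ hu.sm hψ]
  exact div_nonneg (GBLcut_844.pd_nonneg (ke_psd hu h1 h2) (psh_psd hψ hp h1 h2))
    (eta_pos hu h1 h2).le

/-- `∂∂̄u ∧ ∂∂̄ Q(φ) ≥ Q'(φ) ∂∂̄u ∧ ∂∂̄φ` for `Q` convex -/
theorem mxd_cv (hf : LvlOK f s r) {u : E3 → ℝ} (hu : KEon f s r u) {φ : E3 → ℝ}
    (hφ : SmL f s r φ) {Q H H' : ℝ → ℝ} (hQs : ContDiff ℝ ∞ Q) (hQ : ∀ t, HasDerivAt Q (H t) t)
    (hH : ∀ t, HasDerivAt H (H' t) t) {x : E3} (h0 : 0 ≤ H' (φ x)) (hx : x ≠ 0)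
    (hr : nsq x < r ^ 2) (hfx : f x = s) :
    H (φ x) * mxd f u φ x ≤ mxd f u (fun y => Q (φ y)) x := by
  obtain ⟨θ, O, z, h1, h2, h3, h4⟩ := mxd_hess hf hx hr hfx
  have e := eta_pos hu h1 h2
  have hQφ : SmL f s r (fun y => Q (φ y)) := smL_comp hQs hφ
  rw [h4 _ _ hu.sm hφ, h4 _ _ hu.sm hQφ]
  have h5 := Cmp2_101.psd_cv (φ := fun z => φ (θ z)) (z := z) hQs hQ hH
    (by rw [h3]; exact h0) (smAt hφ h1 h2)
  have h6 := GBLcut_844.pd_nonneg (ke_psd hu h1 h2) h5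
  rw [pd_sub, pd_smul, Complex.sub_re, Complex.re_ofReal_mul] at h6
  rw [h3] at h6
  rw [← mul_div_assoc]
  exact div_le_div_of_nonneg_right (by linarith) e.le

/-- `e^{-ψ} ∂∂̄u ∧ ∂∂̄ e^ψ = (1 - ψ) ∂∂̄u ∧ ∂∂̄ψ + 1/2 ∂∂̄u ∧ ∂∂̄ψ²` -/
theorem mxd_exp (hf : LvlOK f s r) {u : E3 → ℝ} (hu : SmL f s r u) {ψ : E3 → ℝ}
    (hψ : SmL f s r ψ) {x : E3} (hx : x ≠ 0) (hr : nsq x < r ^ 2) (hfx : f x = s) :
    Real.exp (-ψ x) * mxd f u (fun y => Real.exp (ψ y)) x =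
      (1 - ψ x) * mxd f u ψ x + 1 / 2 * mxd f u (fun y => ψ y ^ 2) x := by
  obtain ⟨θ, O, z, h1, h2, h3, h4⟩ := mxd_hess hf hx hr hfx
  have s1 : SmL f s r (fun y => Real.exp (ψ y)) := smL_comp Real.contDiff_exp hψ
  have s2 : SmL f s r (fun y => ψ y ^ 2) :=
    smL_comp (F := fun t => t ^ 2) (contDiff_id.pow 2) hψ
  rw [h4 _ _ hu hψ, h4 _ _ hu s1, h4 _ _ hu s2]
  have hψz : ContDiffAt ℝ ∞ (fun z => ψ (θ z)) z := smAt hψ h1 h2
  set G : Matrix (Fin 2) (Fin 2) ℂ := fun a b =>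
    wd (false, a) (cu (fun z => ψ (θ z))) z * wd (true, b) (cu (fun z => ψ (θ z))) z with hG
  have e1 : hess (fun z => Real.exp (ψ (θ z))) z =
      (Real.exp (ψ x) : ℂ) • (hess (fun z => ψ (θ z)) z + G) := by
    ext a b
    rw [R273.FIa0_597.hess_comp_real (φ := Real.exp) (φ' := Real.exp) hψz
      (Eventually.of_forall fun t => Real.hasDerivAt_exp t) (Real.hasDerivAt_exp _), h3,
      Matrix.smul_apply, Matrix.add_apply, hG]
    simp only [smul_eq_mul]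
    ring
  have e2 : hess (fun z => ψ (θ z) ^ 2) z =
      (2 : ℂ) • ((ψ x : ℂ) • hess (fun z => ψ (θ z)) z + G) := by
    ext a b
    rw [R273.FIa0_597.hess_comp_real (φ := fun t => t ^ 2) (φ' := fun t => 2 * t) (d2 := 2) hψz
      (Eventually.of_forall fun t => by simpa using hasDerivAt_pow 2 t)
      (by simpa using (hasDerivAt_id (ψ (θ z))).const_mul 2), h3,
      Matrix.smul_apply, Matrix.add_apply, Matrix.smul_apply, hG]
    simp only [smul_eq_mul]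
    push_cast
    ring
  rw [e1, e2]
  have e3 : (pd (hess (fun z => u (θ z)) z) ((Real.exp (ψ x) : ℂ) •
      (hess (fun z => ψ (θ z)) z + G))).re = Real.exp (ψ x) *
      ((pd (hess (fun z => u (θ z)) z) (hess (fun z => ψ (θ z)) z)).re +
        (pd (hess (fun z => u (θ z)) z) G).re) := by
    rw [pd_smul, Complex.re_ofReal_mul, pd_add, Complex.add_re]
  have e4 : (pd (hess (fun z => u (θ z)) z) ((2 : ℂ) •
      ((ψ x : ℂ) • hess (fun z => ψ (θ z)) z + G))).re = 2 *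
      (ψ x * (pd (hess (fun z => u (θ z)) z) (hess (fun z => ψ (θ z)) z)).re +
        (pd (hess (fun z => u (θ z)) z) G).re) := by
    rw [pd_smul, show (2 : ℂ) = ((2 : ℝ) : ℂ) by norm_num, Complex.re_ofReal_mul, pd_add,
      Complex.add_re, pd_smul, Complex.re_ofReal_mul]
  rw [e3, e4]
  have e5 : Real.exp (-ψ x) * Real.exp (ψ x) = 1 := by
    rw [← Real.exp_add]
    simp
  set P := (pd (hess (fun z => u (θ z)) z) (hess (fun z => ψ (θ z)) z)).re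
  set Q := (pd (hess (fun z => u (θ z)) z) G).re
  rw [show Real.exp (-ψ x) * (Real.exp (ψ x) * (P + Q) / eta2a (n := 2) f θ z) =
    (Real.exp (-ψ x) * Real.exp (ψ x)) * ((P + Q) / eta2a (n := 2) f θ z) by ring, e5]
  ring

/-! ### Stokes -/

/-- **Stokes**: `∫ c ∂∂̄b ∧ ∂∂̄a = ∫ a ∂∂̄b ∧ ∂∂̄c`, `c` with compact support in the level -/
theorem stk (hf : LvlOK f s r) {ν : Measure E3} (hν : IsNu f s r ν) {a b c : E3 → ℝ}
    (ha : SmL f s r a) (hb : SmL f s r b) (hc : SmL f s r c) {r₁ r₂ : ℝ} (h1 : 0 < r₁)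
    (h2 : 0 ≤ r₂) (h3 : r₂ < r)
    (h0 : ∀ x, f x = s → x ≠ 0 → nsq x < r ^ 2 → nsq x < r₁ ^ 2 ∨ r₂ ^ 2 < nsq x → c x = 0) :
    Integrable (fun x => c x * mxd f b a x) ν ∧ Integrable (fun x => a x * mxd f b c x) ν ∧
    ∫ x, c x * mxd f b a x ∂ν = ∫ x, a x * mxd f b c x ∂ν := by
  set K : Set ((LX hf).M 0) := {x | r₁ ^ 2 ≤ nsq x.1 ∧ nsq x.1 ≤ r₂ ^ 2} with hKd
  have hK : IsCompact K := ann_compact hf h1 h2 h3
  have hoff : ∀ x : (LX hf).M 0, x ∉ K → ∀ᶠ y in 𝓝 x.1, f y = f x.1 → c y = 0 := by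
    intro x hx
    have h4 : nsq x.1 < r₁ ^ 2 ∨ r₂ ^ 2 < nsq x.1 := by
      by_contra hcon
      push Not at hcon
      exact hx hcon
    obtain ⟨m1, m2, m3⟩ := mem_M hf x
    rcases h4 with h4 | h4
    · filter_upwards [continuous_nsq3.continuousAt.eventually_lt continuousAt_const h4,
        mem_L_ev m1 m2 m3] with y hy hy' hy2
      exact h0 y (hy' hy2).1 (hy' hy2).2.1 (hy' hy2).2.2 (Or.inl hy)
    · filter_upwards [continuousAt_const.eventually_lt continuous_nsq3.continuousAt h4,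
        mem_L_ev m1 m2 m3] with y hy hy' hy2
      exact h0 y (hy' hy2).1 (hy' hy2).2.1 (hy' hy2).2.2 (Or.inr hy)
  have P := (LX hf).part 0
  have c1 : Continuous fun x : (LX hf).M 0 => c x.1 * mxd f b a x.1 :=
    (cont_val hf fun θ O hθ => (hc θ O hθ).continuousOn).mul (cont_mxd hf hb ha)
  have c2 : Continuous fun x : (LX hf).M 0 => a x.1 * mxd f b c x.1 :=
    (cont_val hf fun θ O hθ => (ha θ O hθ).continuousOn).mul (cont_mxd hf hb hc)
  obtain ⟨i1, e1⟩ := bridge hf hν (φ := c) hb ha P hK c1 fun x hx => by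
    rw [(hoff x hx).self_of_nhds rfl, zero_mul]
  obtain ⟨i2, e2⟩ := bridge hf hν (φ := a) hb hc P hK c2 fun x hx => by
    rw [mxd_loc0 (hoff x hx), mul_zero]
  refine ⟨i1, i2, ?_⟩
  have e3 := Cmp1_101.stokes_pd P (sm_val hf hc) (sm_val hf ha) (sm_val hf hb) hK
    (fun x hx => (hoff x hx).self_of_nhds rfl)
  have e4 : ((∫ x, c x * mxd f b a x ∂ν : ℝ) : ℂ) = ((∫ x, a x * mxd f b c x ∂ν : ℝ) : ℂ) := by
    rw [e1, e2]
    simp only [pd_comm (hsf ((LX hf).A 0) (fun x => b x.1) _ _)]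
    exact e3
  exact_mod_cast e4

/-- `∫ ∂∂̄b ∧ ∂∂̄c = 0`, `c` with compact support in the level -/
theorem stk_one (hf : LvlOK f s r) {ν : Measure E3} (hν : IsNu f s r ν) {b c : E3 → ℝ}
    (hb : SmL f s r b) (hc : SmL f s r c) {r₁ r₂ : ℝ} (h1 : 0 < r₁)
    (h2 : 0 ≤ r₂) (h3 : r₂ < r)
    (h0 : ∀ x, f x = s → x ≠ 0 → nsq x < r ^ 2 → nsq x < r₁ ^ 2 ∨ r₂ ^ 2 < nsq x → c x = 0) :
    Integrable (fun x => mxd f b c x) ν ∧ ∫ x, mxd f b c x ∂ν = 0 := by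
  obtain ⟨-, i2, e⟩ := stk hf hν (smL_const 1) hb hc h1 h2 h3 h0
  simp only [one_mul, mxd_cst, mul_zero, integral_zero] at i2 e
  exact ⟨i2, e.symm⟩

end Crest.Agent.R257.MsJ_617
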