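import Crest.Agent.R257.MsJ1_617

/-!
R257 / MsJ2_617 (helper617), leaf GB-MASSJ, part 2: masses.

`W = A - u`.  For a psh function `ψ` on the punctured level:
* `mass_one` : `|ψ| ≤ B W^N`  ⟹ `∫_{W ≤ R} χ ∂∂̄u ∧ ∂∂̄ψ ≤ C R^N`
* `mass_two` : `|ψ| ≤ B W^N`  ⟹ `∫_{W ≤ R} χ e^{-ψ} ∂∂̄u ∧ ∂∂̄e^ψ ≤ C R^(2N)`
* `mass_fin` : `ψ ≤ B`        ⟹ `χ ∂∂̄u ∧ ∂∂̄ψ` is integrable
-/

set_option autoImplicit false
set_option linter.unusedSectionVars false

open Topology Filter MeasureTheory Set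
open scoped ENNReal ContDiff Matrix ComplexOrder

noncomputable section

namespace Crest.Agent.R257.MsJ_617

open Crest.Agent.R275.Geo
open Crest.Agent.R273.Defs_333 (lev)
open Crest.Agent.R257.Defs_219 Crest.Agent.R257.KED_952 Crest.Agent.R257.KEG_952
open Crest.Agent.R257.V1Defs_822
open Crest.Agent.R257.V1Pe_822 Crest.Agent.R257.V1W_822 Crest.Agent.R257.UpK_938
open Crest.Agent.R257.Bridge_822 Crest.Agent.R257.CmpL_822
open Crest.Agent.R257.PN_835 (nsq)
open Crest.Agent.R257.Cmp2_101 (Qp Qp_deriv Qp_sm Qp_zero st_deriv_nonneg st_hasDeriv prim)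
open Crest.Agent.R257.KedM_941 (L Gd ctL_contOn aem_of_ctL)

/-! ### the function `Qp` -/

theorem Qp_nonneg (t : ℝ) : 0 ≤ Qp t := by
  rcases le_total t 0 with h | h
  · rw [Qp_zero h]
  · unfold Qp prim
    exact intervalIntegral.integral_nonneg h fun x _ => Real.smoothTransition.nonneg x

theorem Qp_le {t : ℝ} (h : 0 ≤ t) : Qp t ≤ t := by
  unfold Qp prim
  calc ∫ σ in (0 : ℝ)..t, Real.smoothTransition σ ≤ ∫ σ in (0 : ℝ)..t, (1 : ℝ) :=
        intervalIntegral.integral_mono_on h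
          (Real.smoothTransition.continuous.intervalIntegrable _ _)
          (continuous_const.intervalIntegrable _ _) fun x _ => Real.smoothTransition.le_one x
    _ = t := by simp

/-- the constant -/
def c0 : ℝ := 1 - Qp 1

theorem c0_nonneg : 0 ≤ c0 := by
  have := Qp_le (t := 1) zero_le_one
  unfold c0
  linarith

theorem c0_le : c0 ≤ 1 := by
  have := Qp_nonneg 1
  unfold c0
  linarith

theorem Qp_eq {t : ℝ} (h : 1 ≤ t) : Qp t = t - c0 := by
  have h1 : Qp t = Qp 1 + ∫ σ in (1 : ℝ)..t, Real.smoothTransition σ := by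
    unfold Qp prim
    rw [intervalIntegral.integral_add_adjacent_intervals
      (Real.smoothTransition.continuous.intervalIntegrable _ _)
      (Real.smoothTransition.continuous.intervalIntegrable _ _)]
  have h2 : ∫ σ in (1 : ℝ)..t, Real.smoothTransition σ = ∫ σ in (1 : ℝ)..t, (1 : ℝ) := by
    refine intervalIntegral.integral_congr fun x hx => ?_
    rw [uIcc_of_le h] at hx
    exact Real.smoothTransition.one_of_one_le hx.1
  rw [h1, h2, intervalIntegral.integral_const, smul_eq_mul]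
  unfold c0
  ring

theorem le_Qp (t : ℝ) : t - 1 ≤ Qp t := by
  rcases le_total 1 t with h | h
  · rw [Qp_eq h]
    linarith [c0_le]
  · linarith [Qp_nonneg t]

/-! ### the cut-offs -/

/-- `χ Qp (R - A + u)` -/
def Th (χ u : E3 → ℝ) (A R : ℝ) (x : E3) : ℝ := χ x * Qp (R - A + u x)

variable {f : E3 → ℂ} {r A : ℝ} {u χ : E3 → ℝ}

theorem Th_nonneg (hχ : Cut r χ) (R : ℝ) (x : E3) : 0 ≤ Th χ u A R x :=
  mul_nonneg (hχ.nn x) (Qp_nonneg _)

theorem sm_arg (hK : KEon f 0 r u) (R : ℝ) : SmL f 0 r fun x => R - A + u x :=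
  smL_add (smL_const _) hK.sm

theorem sm_Th (hK : KEon f 0 r u) (hχ : Cut r χ) (R : ℝ) : SmL f 0 r (Th χ u A R) :=
  smL_mul (cut_smL hχ) (smL_comp Qp_sm (sm_arg hK R))

theorem Th_ge (hχ : Cut r χ) {R : ℝ} (hR : 4 ≤ R) {x : E3} (hx : A - u x ≤ R / 2) :
    χ x * (R / 4) ≤ Th χ u A R x := by
  unfold Th
  refine mul_le_mul_of_nonneg_left ?_ (hχ.nn x)
  have := le_Qp (R - A + u x)
  linarith

theorem Th_zero {R : ℝ} {x : E3} (hx : R ≤ A - u x) : Th χ u A R x = 0 := by
  unfold Th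
  rw [Qp_zero (by linarith), mul_zero]

theorem Th_le (hχ : Cut r χ) {R : ℝ} {x : E3} (hA : 0 ≤ A - u x) (hR : 0 ≤ R) :
    Th χ u A R x ≤ R * χ x := by
  rcases le_total R (A - u x) with h | h
  · rw [Th_zero h]
    exact mul_nonneg hR (hχ.nn x)
  · unfold Th
    have := Qp_le (t := R - A + u x) (by linarith)
    have h2 := hχ.nn x
    nlinarith

/-- the cut-offs have compact support in the punctured level -/
theorem Th_supp (hE : Esc f r u A) (hχ : Cut r χ) : ∃ ρ : ℝ, 0 < ρ ∧ ρ < r ∧ ∀ R : ℝ, ∃ δ : ℝ,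
    0 < δ ∧ ∀ x, f x = 0 → x ≠ 0 → nsq x < r ^ 2 → nsq x < δ ^ 2 ∨ ρ ^ 2 < nsq x →
      Th χ u A R x = 0 := by
  obtain ⟨ρ, h1, h2, h3⟩ := hχ.supp
  refine ⟨ρ, h1, h2, fun R => ?_⟩
  obtain ⟨δ, h4, h5⟩ := hE.inf (A - R)
  refine ⟨δ, h4, fun x hx hx0 hxr hx2 => ?_⟩
  rcases hx2 with h | h
  · exact Th_zero (by linarith [h5 x hx hx0 h])
  · unfold Th
    rw [h3 x h.le, zero_mul]

/-- `∂∂̄u ∧ ∂∂̄Θ_R = 0` where `A - u > R` -/
theorem mxd_Th_zero (hf : LvlOK f 0 r) (hK : KEon f 0 r u) {R : ℝ} {x : E3} (h1 : f x = 0)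
    (h2 : x ≠ 0) (h3 : nsq x < r ^ 2) (hx : R < A - u x) : mxd f u (Th χ u A R) x = 0 := by
  refine mxd_loc0 ?_
  have h4 : ∀ᶠ t in 𝓝 (u x), R < A - t := by
    have : Tendsto (fun t : ℝ => A - t) (𝓝 (u x)) (𝓝 (A - u x)) :=
      (continuous_const.sub continuous_id).tendsto _
    exact this.eventually (lt_mem_nhds hx)
  filter_upwards [ctL_ev hf (smL_ctl hK.sm) h1 h2 h3 h4] with y hy hy2
  exact Th_zero (hy hy2).le

/-- the outer density -/
def gO (f : E3 → ℂ) (u χ κ : E3 → ℝ) (A : ℝ) (x : E3) : ℝ :=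
  (1 - κ x) * (|mxd f u χ x| + |mxd f u (fun y => χ y * (A - u y)) x|)

theorem sm_W (hK : KEon f 0 r u) : SmL f 0 r fun x => A - u x := smL_sub (smL_const A) hK.sm

theorem gO_nonneg {κ : E3 → ℝ} (hκ : Cut r κ) (x : E3) : 0 ≤ gO f u χ κ A x :=
  mul_nonneg (by linarith [hκ.le x]) (by positivity)

/-- integrability of continuous functions with compact support in the level -/
theorem integrable_cs (hf : LvlOK f 0 r) {ν : Measure E3} (hν : IsNu f 0 r ν) {g : E3 → ℝ}
    (hg : Continuous fun x : (LX hf).M 0 => g x.1) {r₁ r₂ : ℝ} (h1 : 0 < r₁) (h2 : 0 ≤ r₂)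
    (h3 : r₂ < r) (h0 : ∀ x, f x = 0 → x ≠ 0 → nsq x < r ^ 2 → nsq x < r₁ ^ 2 ∨ r₂ ^ 2 < nsq x →
      g x = 0) : Integrable g ν := by
  refine integrable_nu hf hν (integrable_vol hf hg (ann_compact hf h1 h2 h3) fun x hx => ?_)
  obtain ⟨m1, m2, m3⟩ := mem_M hf x
  refine h0 x.1 m1 m2 m3 ?_
  by_contra hcon
  push Not at hcon
  exact hx ⟨hcon.1, hcon.2⟩

/-- **the psh cut-offs**: `∂∂̄u ∧ ∂∂̄Θ_R ≥ - R g` with a fixed integrable `g` -/
theorem exists_g (hf : LvlOK f 0 r) (hK : KEon f 0 r u) (hχ : Cut r χ) :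
    ∃ (g : E3 → ℝ) (R₀ : ℝ), 4 ≤ R₀ ∧ (∀ x, 0 ≤ g x) ∧
      (∀ (ν : Measure E3), IsNu f 0 r ν → ∀ ψ : E3 → ℝ, CtL f 0 r ψ →
        Integrable (fun x => ψ x * g x) ν) ∧
      ∀ R, R₀ ≤ R → ∀ x, f x = 0 → x ≠ 0 → nsq x < r ^ 2 →
        - (R * g x) ≤ mxd f u (Th χ u A R) x := by
  obtain ⟨r₁, ρ, h1, h2, h3, h4, h5, h6⟩ := cut_rad hχ
  obtain ⟨κ, hκ⟩ := exists_cut (r := min r₁ r) (lt_min h1 hf.pos)
  have hκr : Cut r κ := cut_mono hκ (min_le_right _ _)
  obtain ⟨r₁', ρ', k1, k2, k3, k4, k5, k6⟩ := cut_rad hκ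
  -- bound of `A - u` on the outer part
  have hcomp := ann_compact hf h1 h2.le h3
  have cW : Continuous fun x : (LX hf).M 0 => A - u x.1 := cont_val hf (smL_ctl (sm_W hK))
  obtain ⟨B, hB⟩ := hcomp.exists_bound_of_continuousOn cW.continuousOn
  have smχ : SmL f 0 r χ := cut_smL hχ
  have smχW : SmL f 0 r fun y => χ y * (A - u y) := smL_mul smχ (sm_W hK)
  refine ⟨gO f u χ κ A, max 4 (B + 2), le_max_left _ _, gO_nonneg hκr, ?_, ?_⟩
  · intro ν hν ψ hψ
    have c1 : Continuous fun x : (LX hf).M 0 => ψ x.1 * gO f u χ κ A x.1 :=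
      (cont_val hf hψ).mul ((continuous_const.sub (cont_val hf (smL_ctl (cut_smL hκr)))).mul
        ((cont_mxd hf hK.sm smχ).abs.add (cont_mxd hf hK.sm smχW).abs))
    refine integrable_cs hf hν c1 k1 h2.le h3 fun x _ _ _ hx => ?_
    rcases hx with hx | hx
    · have : κ x = 1 := (k4 x hx).self_of_nhds
      unfold gO
      rw [this]
      ring
    · unfold gO
      rw [mxd_zero (h6 x hx), mxd_zero ((h6 x hx).mono fun y hy => by simp only [hy, zero_mul])]
      simp
  · intro R hR x hx hx0 hxr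
    have hR4 : 4 ≤ R := (le_max_left _ _).trans hR
    have hRB : B + 2 ≤ R := (le_max_right _ _).trans hR
    have hg0 := gO_nonneg (f := f) (u := u) (χ := χ) (A := A) hκr x
    by_cases hin : nsq x < r₁ ^ 2
    · -- inner part: `χ = 1`
      have e1 : mxd f u (Th χ u A R) x = mxd f u (fun y => Qp (R - A + u y)) x := by
        refine mxd_loc ?_
        filter_upwards [h4 x hin] with y hy _
        unfold Th
        rw [hy, one_mul]
      have e2 := mxd_cv hf hK (sm_arg (A := A) hK R) Qp_sm Qp_deriv st_hasDeriv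
        (st_deriv_nonneg (R - A + u x)) hx0 hxr hx
      have e3 : mxd f u (fun y => R - A + u y) x = mxd f u u x := by
        rw [mxd_add hf hK.sm (smL_const (R - A)) hK.sm hx0 hxr hx, mxd_cst, zero_add]
      have e4 : 0 ≤ mxd f u u x := by
        rw [mxd_ke hf hK hx0 hxr hx]
        positivity
      have e5 : 0 ≤ Real.smoothTransition (R - A + u x) * mxd f u (fun y => R - A + u y) x := by
        rw [e3]
        exact mul_nonneg (Real.smoothTransition.nonneg _) e4
      rw [e1]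
      have : 0 ≤ R * gO f u χ κ A x := mul_nonneg (by linarith) hg0
      linarith
    · by_cases hout : ρ ^ 2 < nsq x
      · rw [mxd_zero ((h6 x hout).mono fun y hy => by unfold Th; rw [hy, zero_mul])]
        have : 0 ≤ R * gO f u χ κ A x := mul_nonneg (by linarith) hg0
        linarith
      · -- the annulus
        have hWB := hB (mkM hf hx hx0 hxr) ⟨not_lt.1 hin, not_lt.1 hout⟩
        have hW : A - u x ≤ B := (le_abs_self _).trans hWB
        have h7 : ∀ᶠ t in 𝓝 (u x), 1 < R - A + t := by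
          have : Tendsto (fun t : ℝ => R - A + t) (𝓝 (u x)) (𝓝 (R - A + u x)) :=
            (continuous_const.add continuous_id).tendsto _
          exact this.eventually (lt_mem_nhds (by linarith))
        have e1 : mxd f u (Th χ u A R) x =
            mxd f u (fun y => (R - c0) * χ y - χ y * (A - u y)) x := by
          refine mxd_loc ?_
          filter_upwards [ctL_ev hf (smL_ctl hK.sm) hx hx0 hxr h7] with y hy hy2
          unfold Th
          rw [Qp_eq (hy hy2).le]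
          ring
        have smc : SmL f 0 r fun y => (R - c0) * χ y := smL_mul (smL_const _) smχ
        have hκ0 : κ x = 0 := by
          refine k5 x ?_
          have : ρ' ^ 2 ≤ r₁ ^ 2 := pow_le_pow_left₀ k2.le (k3.le.trans (min_le_left _ _)) 2
          exact this.trans (not_lt.1 hin)
        rw [e1, mxd_sub hf smc smχW hx0 hxr hx, mxd_cmul hf smχ _ hx0 hxr hx]
        unfold gO
        rw [hκ0, sub_zero, one_mul]
        have a1 := neg_abs_le (mxd f u χ x)
        have a2 := le_abs_self (mxd f u (fun y => χ y * (A - u y)) x)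
        have a3 := abs_nonneg (mxd f u χ x)
        have a4 := abs_nonneg (mxd f u (fun y => χ y * (A - u y)) x)
        have b1 := c0_nonneg
        have b2 := c0_le
        have a5 : -(R * |mxd f u χ x|) ≤ (R - c0) * mxd f u χ x := by nlinarith
        have a6 : |mxd f u (fun y => χ y * (A - u y)) x| ≤
            R * |mxd f u (fun y => χ y * (A - u y)) x| := by nlinarith
        linarith

end Crest.Agent.R257.MsJ_617
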