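import Crest.Agent.R257.MsJ2_617

/-!
R257 / MsJ3_617 (helper617), leaf GB-MASSJ, part 3: the mass theorems `mass_one`, `mass_two`,
`mass_fin` (see MsJ2_617).
-/

set_option autoImplicit false
set_option linter.unusedSectionVars false

open Topology Filter MeasureTheory Set
open scoped ENNReal ContDiff Matrix ComplexOrder

noncomputable section

namespace Crest.Agent.R257.MsJ_617

open Crest.Agent.R275.Geo
open Crest.Agent.R273.Defs_333 (lev)
open Crest.Agent.R257.Defs_219 Crest.Agent.R257.KED_952 Crest.Agent.R257.KEG_952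
open Crest.Agent.R257.V1Defs_822
open Crest.Agent.R257.V1Pe_822 Crest.Agent.R257.V1W_822 Crest.Agent.R257.UpK_938
open Crest.Agent.R257.Bridge_822 Crest.Agent.R257.CmpL_822
open Crest.Agent.R257.PN_835 (nsq)
open Crest.Agent.R257.KedM_941 (L Gd ctL_contOn aem_of_ctL contOn_ctL)

variable {f : E3 → ℂ} {r A : ℝ} {u χ : E3 → ℝ}

/-- Stokes with `Θ_R` -/
theorem stk_Th (hf : LvlOK f 0 r) (hK : KEon f 0 r u) (hE : Esc f r u A) (hχ : Cut r χ)
    {ν : Measure E3} (hν : IsNu f 0 r ν) (R : ℝ) {a : E3 → ℝ} (ha : SmL f 0 r a) :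
    Integrable (fun x => Th χ u A R x * mxd f u a x) ν ∧
    Integrable (fun x => a x * mxd f u (Th χ u A R) x) ν ∧
    ∫ x, Th χ u A R x * mxd f u a x ∂ν = ∫ x, a x * mxd f u (Th χ u A R) x ∂ν := by
  obtain ⟨ρ, h1, h2, h3⟩ := Th_supp hE hχ
  obtain ⟨δ, h4, h5⟩ := h3 R
  exact stk hf hν ha hK.sm (sm_Th hK hχ R) h4 h1.le h2 h5

theorem stk_Th_one (hf : LvlOK f 0 r) (hK : KEon f 0 r u) (hE : Esc f r u A) (hχ : Cut r χ)
    {ν : Measure E3} (hν : IsNu f 0 r ν) (R : ℝ) :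
    Integrable (fun x => mxd f u (Th χ u A R) x) ν ∧ ∫ x, mxd f u (Th χ u A R) x ∂ν = 0 := by
  obtain ⟨ρ, h1, h2, h3⟩ := Th_supp hE hχ
  obtain ⟨δ, h4, h5⟩ := h3 R
  exact stk_one hf hν hK.sm (sm_Th hK hχ R) h4 h1.le h2 h5

/-- `∫ |∂∂̄u ∧ ∂∂̄Θ_R| ≤ 2 R ∫ g` -/
theorem abs_mass (hf : LvlOK f 0 r) (hK : KEon f 0 r u) (hE : Esc f r u A) (hχ : Cut r χ)
    {ν : Measure E3} (hν : IsNu f 0 r ν) {g : E3 → ℝ} {R : ℝ} (hR : 0 ≤ R) (hg0 : ∀ x, 0 ≤ g x)
    (hg : Integrable g ν)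
    (hle : ∀ x, f x = 0 → x ≠ 0 → nsq x < r ^ 2 → - (R * g x) ≤ mxd f u (Th χ u A R) x) :
    ∫ x, |mxd f u (Th χ u A R) x| ∂ν ≤ 2 * R * ∫ x, g x ∂ν := by
  obtain ⟨i1, e1⟩ := stk_Th_one hf hK hE hχ hν R
  calc ∫ x, |mxd f u (Th χ u A R) x| ∂ν
      ≤ ∫ x, (mxd f u (Th χ u A R) x + 2 * R * g x) ∂ν := by
        refine integral_mono_ae i1.abs (i1.add (hg.const_mul _)) ?_
        refine isNu_ae hν fun x hx0 hxr hx => ?_
        have h1 := hle x hx hx0 hxr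
        have h2 : 0 ≤ R * g x := mul_nonneg hR (hg0 x)
        show |mxd f u (Th χ u A R) x| ≤ mxd f u (Th χ u A R) x + 2 * R * g x
        rcases abs_cases (mxd f u (Th χ u A R) x) with ⟨h3, -⟩ | ⟨h3, -⟩ <;> rw [h3] <;> nlinarith
    _ = 2 * R * ∫ x, g x ∂ν := by
        rw [integral_add i1 (hg.const_mul _), e1, zero_add, integral_const_mul]

/-- bound of `∫ a ∂∂̄u ∧ ∂∂̄Θ_R` -/
theorem bd_mass (hf : LvlOK f 0 r) (hK : KEon f 0 r u) (hE : Esc f r u A) (hχ : Cut r χ)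
    {ν : Measure E3} (hν : IsNu f 0 r ν) {g : E3 → ℝ} {R : ℝ} (hR : 0 ≤ R) (hg0 : ∀ x, 0 ≤ g x)
    (hg : Integrable g ν)
    (hle : ∀ x, f x = 0 → x ≠ 0 → nsq x < r ^ 2 → - (R * g x) ≤ mxd f u (Th χ u A R) x)
    {a : E3 → ℝ} (ha : SmL f 0 r a) {b : ℝ} (hb : 0 ≤ b)
    (hab : ∀ x, f x = 0 → x ≠ 0 → nsq x < r ^ 2 → A - u x ≤ R → |a x| ≤ b) :
    ∫ x, Th χ u A R x * mxd f u a x ∂ν ≤ b * (2 * R * ∫ x, g x ∂ν) := by
  obtain ⟨-, i2, e⟩ := stk_Th hf hK hE hχ hν R ha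
  obtain ⟨i1, e1⟩ := stk_Th_one hf hK hE hχ hν R
  rw [e]
  calc ∫ x, a x * mxd f u (Th χ u A R) x ∂ν ≤ ∫ x, b * |mxd f u (Th χ u A R) x| ∂ν := by
        refine integral_mono_ae i2 (i1.abs.const_mul b) ?_
        refine isNu_ae hν fun x hx0 hxr hx => ?_
        show a x * mxd f u (Th χ u A R) x ≤ b * |mxd f u (Th χ u A R) x|
        rcases le_or_gt (A - u x) R with h | h
        · calc a x * mxd f u (Th χ u A R) x ≤ |a x * mxd f u (Th χ u A R) x| := le_abs_self _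
            _ = |a x| * |mxd f u (Th χ u A R) x| := abs_mul _ _
            _ ≤ _ := mul_le_mul_of_nonneg_right (hab x hx hx0 hxr h) (abs_nonneg _)
        · rw [mxd_Th_zero hf hK hx hx0 hxr h]
          simp
    _ = b * ∫ x, |mxd f u (Th χ u A R) x| ∂ν := integral_const_mul _ _
    _ ≤ _ := mul_le_mul_of_nonneg_left (abs_mass hf hK hE hχ hν hR hg0 hg hle) hb

/-- from cut-offs to sublevel sets -/
theorem lint_sub (hχ : Cut r χ) {ν : Measure E3} (hν : IsNu f 0 r ν) {D : E3 → ℝ}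
    (hD : ∀ x, f x = 0 → x ≠ 0 → nsq x < r ^ 2 → 0 ≤ D x) {R b : ℝ} (hR : 4 ≤ R)
    (hi : Integrable (fun x => Th χ u A R x * D x) ν)
    (hb : ∫ x, Th χ u A R x * D x ∂ν ≤ R * b) :
    ∫⁻ x in {x | A - u x ≤ R / 2}, ENNReal.ofReal (χ x * D x) ∂ν ≤ ENNReal.ofReal (4 * b) := by
  have hR0 : 0 < R := by linarith
  have hi' : Integrable (fun x => 4 / R * (Th χ u A R x * D x)) ν := hi.const_mul _
  calc ∫⁻ x in {x | A - u x ≤ R / 2}, ENNReal.ofReal (χ x * D x) ∂ν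
      ≤ ∫⁻ x in {x | A - u x ≤ R / 2}, ENNReal.ofReal (4 / R * (Th χ u A R x * D x)) ∂ν := by
        refine setLIntegral_mono_ae hi'.aemeasurable.ennreal_ofReal.restrict ?_
        refine isNu_ae hν fun x hx0 hxr hx hxS => ?_
        refine ENNReal.ofReal_le_ofReal ?_
        have h1 := Th_ge (A := A) (u := u) hχ hR hxS
        have h2 := hD x hx hx0 hxr
        have h3 : χ x * (R / 4) * D x ≤ Th χ u A R x * D x := mul_le_mul_of_nonneg_right h1 h2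
        rw [div_mul_eq_mul_div, le_div_iff₀ hR0]
        linarith
    _ ≤ ∫⁻ x, ENNReal.ofReal (4 / R * (Th χ u A R x * D x)) ∂ν := setLIntegral_le_lintegral _ _
    _ = ENNReal.ofReal (∫ x, 4 / R * (Th χ u A R x * D x) ∂ν) := by
        rw [ofReal_integral_eq_lintegral_ofReal hi']
        refine isNu_ae hν fun x hx0 hxr hx => ?_
        exact mul_nonneg (by positivity) (mul_nonneg (Th_nonneg hχ R x) (hD x hx hx0 hxr))
    _ ≤ ENNReal.ofReal (4 * b) := by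
        refine ENNReal.ofReal_le_ofReal ?_
        rw [integral_const_mul, div_mul_eq_mul_div, div_le_iff₀ hR0]
        linarith

theorem arith_R {R R₀ : ℝ} (hR : 1 ≤ R) (hR₀ : 4 ≤ R₀) (n : ℕ) :
    (2 * R + R₀) ^ n ≤ (2 + R₀) ^ n * R ^ n := by
  rw [← mul_pow]
  refine pow_le_pow_left₀ (by linarith) ?_ n
  nlinarith

/-- **mass of `∂∂̄ψ`, polynomial growth** -/
theorem mass_one (hf : LvlOK f 0 r) (hK : KEon f 0 r u) (hE : Esc f r u A) (hχ : Cut r χ)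
    {ν : Measure E3} (hν : IsNu f 0 r ν) {ψ : E3 → ℝ} (hψ : SmL f 0 r ψ)
    (hp : ∀ θ O, PE f 0 r θ O → ∀ z ∈ O, ∀ v, 0 ≤ lev (fun z => ψ (θ z)) z v) {B : ℝ} {N : ℕ}
    (hB : 0 ≤ B)
    (hb : ∀ x, f x = 0 → x ≠ 0 → nsq x < r ^ 2 → |ψ x| ≤ B * (A - u x) ^ N) :
    ∃ C : ℝ, 0 ≤ C ∧ ∀ R : ℝ, 1 ≤ R →
      ∫⁻ x in {x | A - u x ≤ R}, ENNReal.ofReal (χ x * mxd f u ψ x) ∂ν ≤
        ENNReal.ofReal (C * R ^ N) := by
  obtain ⟨g, R₀, hR₀, g0, gi, gle⟩ := exists_g (A := A) hf hK hχ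
  have gi1 : Integrable g ν := by
    have := gi ν hν (fun _ => 1) (smL_ctl (smL_const 1))
    simpa using this
  have hG : 0 ≤ ∫ x, g x ∂ν := integral_nonneg g0
  set G := ∫ x, g x ∂ν with hGd
  refine ⟨4 * (B * (2 + R₀) ^ N * (2 * G)), by positivity, fun R hR => ?_⟩
  set S := 2 * R + R₀ with hS
  have hS0 : R₀ ≤ S := by rw [hS]; linarith
  have hS4 : 4 ≤ S := hR₀.trans hS0
  have key := bd_mass hf hK hE hχ hν (R := S) (by linarith) g0 gi1 (gle S hS0) hψ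
    (b := B * S ^ N) (by positivity) fun x hx hx0 hxr hW => (hb x hx hx0 hxr).trans
      (mul_le_mul_of_nonneg_left
        (pow_le_pow_left₀ (by linarith [hE.one x hx hx0 hxr]) hW N) hB)
  have h1 := lint_sub (f := f) (A := A) (u := u) hχ hν (D := mxd f u ψ)
    (fun x hx hx0 hxr => mxd_nonneg hf hK hψ hp hx0 hxr hx) hS4 (b := B * S ^ N * (2 * G))
    (stk_Th hf hK hE hχ hν S hψ).1 (key.trans (le_of_eq (by ring)))
  refine (lintegral_mono_set ?_).trans (h1.trans (ENNReal.ofReal_le_ofReal ?_))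
  · intro x hx
    have : A - u x ≤ R := hx
    show A - u x ≤ S / 2
    rw [hS]
    linarith
  · have h2 := arith_R hR hR₀ N
    calc 4 * (B * S ^ N * (2 * G)) ≤ 4 * (B * ((2 + R₀) ^ N * R ^ N) * (2 * G)) := by gcongr
      _ = _ := by ring

/-- **mass of `e^{-ψ} ∂∂̄e^ψ = ∂∂̄ψ + ∂ψ ∧ ∂̄ψ`, polynomial growth** -/
theorem mass_two (hf : LvlOK f 0 r) (hK : KEon f 0 r u) (hE : Esc f r u A) (hχ : Cut r χ)
    {ν : Measure E3} (hν : IsNu f 0 r ν) {ψ : E3 → ℝ} (hψ : SmL f 0 r ψ)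
    (hp : ∀ θ O, PE f 0 r θ O → ∀ z ∈ O, ∀ v, 0 ≤ lev (fun z => ψ (θ z)) z v) {B : ℝ} {N : ℕ}
    (hB : 0 ≤ B)
    (hb : ∀ x, f x = 0 → x ≠ 0 → nsq x < r ^ 2 → |ψ x| ≤ B * (A - u x) ^ N) :
    ∃ C : ℝ, 0 ≤ C ∧ ∀ R : ℝ, 1 ≤ R →
      ∫⁻ x in {x | A - u x ≤ R}, ENNReal.ofReal
        (χ x * (Real.exp (-ψ x) * mxd f u (fun y => Real.exp (ψ y)) x)) ∂ν ≤
        ENNReal.ofReal (C * R ^ (2 * N)) := by
  obtain ⟨g, R₀, hR₀, g0, gi, gle⟩ := exists_g (A := A) hf hK hχ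
  have gi1 : Integrable g ν := by
    have := gi ν hν (fun _ => 1) (smL_ctl (smL_const 1))
    simpa using this
  have hG : 0 ≤ ∫ x, g x ∂ν := integral_nonneg g0
  set G := ∫ x, g x ∂ν with hGd
  have hψ2 : SmL f 0 r (fun y => ψ y ^ 2) := smL_comp (F := fun t => t ^ 2) (contDiff_id.pow 2) hψ
  have hψe : SmL f 0 r (fun y => Real.exp (ψ y)) := smL_comp Real.contDiff_exp hψ
  set D : E3 → ℝ := fun x => Real.exp (-ψ x) * mxd f u (fun y => Real.exp (ψ y)) x with hD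
  have hmx : ∀ x, f x = 0 → x ≠ 0 → nsq x < r ^ 2 → 0 ≤ mxd f u ψ x := fun x hx hx0 hxr =>
    mxd_nonneg hf hK hψ hp hx0 hxr hx
  have hD0 : ∀ x, f x = 0 → x ≠ 0 → nsq x < r ^ 2 → 0 ≤ D x := by
    intro x hx hx0 hxr
    have h1 := mxd_cv hf hK hψ Real.contDiff_exp Real.hasDerivAt_exp Real.hasDerivAt_exp
      (Real.exp_pos (ψ x)).le hx0 hxr hx
    have h2 := mul_nonneg (Real.exp_pos (ψ x)).le (hmx x hx hx0 hxr)
    exact mul_nonneg (Real.exp_pos _).le (h2.trans h1)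
  refine ⟨4 * ((1 + B) * (B * (2 * G)) + B ^ 2 * G) * (2 + R₀) ^ (2 * N), by positivity,
    fun R hR => ?_⟩
  set S := 2 * R + R₀ with hS
  have hS0 : R₀ ≤ S := by rw [hS]; linarith
  have hS4 : 4 ≤ S := hR₀.trans hS0
  have hS1 : 1 ≤ S := by linarith
  have hSN : 1 ≤ S ^ N := one_le_pow₀ hS1
  have hψb : ∀ x, f x = 0 → x ≠ 0 → nsq x < r ^ 2 → A - u x ≤ S → |ψ x| ≤ B * S ^ N :=
    fun x hx hx0 hxr hW => (hb x hx hx0 hxr).trans (mul_le_mul_of_nonneg_left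
      (pow_le_pow_left₀ (by linarith [hE.one x hx hx0 hxr]) hW N) hB)
  have key1 := bd_mass hf hK hE hχ hν (R := S) (by linarith) g0 gi1 (gle S hS0) hψ
    (b := B * S ^ N) (by positivity) hψb
  have key2 := bd_mass hf hK hE hχ hν (R := S) (by linarith) g0 gi1 (gle S hS0) hψ2
    (b := (B * S ^ N) ^ 2) (by positivity) fun x hx hx0 hxr hW => by
      rw [abs_of_nonneg (sq_nonneg _), ← sq_abs (ψ x)]
      exact pow_le_pow_left₀ (abs_nonneg _) (hψb x hx hx0 hxr hW) 2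
  obtain ⟨j1, -, -⟩ := stk_Th hf hK hE hχ hν S hψ
  obtain ⟨j2, -, -⟩ := stk_Th hf hK hE hχ hν S hψ2
  obtain ⟨je, -, -⟩ := stk_Th hf hK hE hχ hν S hψe
  -- the integral with the cut-off
  have hcD : Continuous fun x : (LX hf).M 0 => Th χ u A S x.1 * D x.1 :=
    (cont_val hf (smL_ctl (sm_Th hK hχ S))).mul ((Real.continuous_exp.comp
      (cont_val hf (smL_ctl hψ)).neg).mul (cont_mxd hf hK.sm hψe))
  have jD : Integrable (fun x => Th χ u A S x * D x) ν := by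
    obtain ⟨ρ, h1, h2, h3⟩ := Th_supp hE hχ
    obtain ⟨δ, h4, h5⟩ := h3 S
    exact integrable_cs hf hν hcD h4 h1.le h2 fun x a1 a2 a3 a4 => by
      rw [h5 x a1 a2 a3 a4, zero_mul]
  have key : ∫ x, Th χ u A S x * D x ∂ν ≤
      S * (((1 + B * S ^ N) * (B * S ^ N * (2 * G))) + (B * S ^ N) ^ 2 * G) := by
    calc ∫ x, Th χ u A S x * D x ∂ν
        ≤ ∫ x, ((1 + B * S ^ N) * (Th χ u A S x * mxd f u ψ x) +
            1 / 2 * (Th χ u A S x * mxd f u (fun y => ψ y ^ 2) x)) ∂ν := by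
          refine integral_mono_ae jD ((j1.const_mul _).add (j2.const_mul _)) ?_
          refine isNu_ae hν fun x hx0 hxr hx => ?_
          show Th χ u A S x * D x ≤ (1 + B * S ^ N) * (Th χ u A S x * mxd f u ψ x) +
            1 / 2 * (Th χ u A S x * mxd f u (fun y => ψ y ^ 2) x)
          have e := mxd_exp hf hK.sm hψ hx0 hxr hx
          rw [hD]
          simp only
          rw [e]
          have t0 := Th_nonneg (A := A) (u := u) hχ S x
          have m0 := hmx x hx hx0 hxr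
          rcases le_or_gt (A - u x) S with h | h
          · have h2 := (abs_le.1 (hψb x hx hx0 hxr h)).1
            have h3 : Th χ u A S x * ((1 - ψ x) * mxd f u ψ x) ≤
                Th χ u A S x * ((1 + B * S ^ N) * mxd f u ψ x) :=
              mul_le_mul_of_nonneg_left (mul_le_mul_of_nonneg_right (by linarith) m0) t0
            nlinarith
          · rw [Th_zero h.le]
            simp
      _ = (1 + B * S ^ N) * ∫ x, Th χ u A S x * mxd f u ψ x ∂ν +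
            1 / 2 * ∫ x, Th χ u A S x * mxd f u (fun y => ψ y ^ 2) x ∂ν := by
          rw [integral_add (j1.const_mul _) (j2.const_mul _), integral_const_mul,
            integral_const_mul]
      _ ≤ (1 + B * S ^ N) * (B * S ^ N * (2 * S * G)) +
            1 / 2 * ((B * S ^ N) ^ 2 * (2 * S * G)) := by
          gcongr
      _ = _ := by ring
  have h1 := lint_sub (f := f) (A := A) (u := u) hχ hν hD0 hS4 jD key
  refine (lintegral_mono_set ?_).trans (h1.trans (ENNReal.ofReal_le_ofReal ?_))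
  · intro x hx
    have : A - u x ≤ R := hx
    show A - u x ≤ S / 2
    rw [hS]
    linarith
  · have h2 := arith_R hR hR₀ (2 * N)
    have h3 : 1 + B * S ^ N ≤ (1 + B) * S ^ N := by nlinarith
    calc 4 * (((1 + B * S ^ N) * (B * S ^ N * (2 * G))) + (B * S ^ N) ^ 2 * G)
        ≤ 4 * ((((1 + B) * S ^ N) * (B * S ^ N * (2 * G))) + (B * S ^ N) ^ 2 * G) := by gcongr
      _ = 4 * ((1 + B) * (B * (2 * G)) + B ^ 2 * G) * S ^ (2 * N) := by ring
      _ ≤ 4 * ((1 + B) * (B * (2 * G)) + B ^ 2 * G) * ((2 + R₀) ^ (2 * N) * R ^ (2 * N)) := by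
          gcongr
      _ = _ := by ring

end Crest.Agent.R257.MsJ_617
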