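import Crest.Agent.R257.MsJ3_617

/-!
R257 / MsJ4_617 (helper617), leaf GB-MASSJ, part 4: finite mass, Jensen.

* `mass_fin` : `ψ` psh, `ψ ≤ B` ⟹ `χ ∂∂̄u ∧ ∂∂̄ψ` is integrable
* `jensen`   : polynomial masses of `T ≥ 0`, finite volume ⟹
  `∫_{j ≤ log W ≤ 2j} χ log² (e + T) e^u ≤ ε j²` for large `j`, `W = A - u`
* `jensenV`  : the same for `V²`, `|V| ≤ C (1 + log W + log (e + T))`
-/

set_option autoImplicit false
set_option linter.unusedSectionVars false

open Topology Filter MeasureTheory Set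
open scoped ENNReal ContDiff Matrix ComplexOrder

noncomputable section

namespace Crest.Agent.R257.MsJ_617

open Crest.Agent.R275.Geo
open Crest.Agent.R273.Defs_333 (lev)
open Crest.Agent.R257.Defs_219 Crest.Agent.R257.KED_952 Crest.Agent.R257.KEG_952
open Crest.Agent.R257.V1Defs_822
open Crest.Agent.R257.V1Pe_822 Crest.Agent.R257.V1W_822 Crest.Agent.R257.UpK_938
open Crest.Agent.R257.Bridge_822 Crest.Agent.R257.CmpL_822
open Crest.Agent.R257.PN_835 (nsq)
open Crest.Agent.R257.KedM_941 (L Gd ctL_contOn aem_of_ctL contOn_ctL)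

variable {f : E3 → ℂ} {r A : ℝ} {u χ : E3 → ℝ}

/-- monotone limit over the sublevel sets of `A - u` -/
theorem lint_lim {ν : Measure E3} {F : E3 → ℝ≥0∞} {C : ℝ≥0∞}
    (h : ∀ n : ℕ, ∫⁻ x in {x | A - u x ≤ n}, F x ∂ν ≤ C) : ∫⁻ x, F x ∂ν ≤ C := by
  have h1 : (⋃ n : ℕ, {x | A - u x ≤ n}) = univ := by
    refine eq_univ_of_forall fun x => ?_
    obtain ⟨n, hn⟩ := exists_nat_ge (A - u x)
    exact mem_iUnion.2 ⟨n, hn⟩
  have hm : Monotone fun n : ℕ => {x | A - u x ≤ (n : ℝ)} := fun m n hmn x hx =>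
    (show A - u x ≤ m from hx).trans (by exact_mod_cast hmn)
  have h3 : ∫⁻ x in ⋃ n : ℕ, {x | A - u x ≤ (n : ℝ)}, F x ∂ν ≤ C := by
    rw [setLIntegral_iUnion_of_directed F (hm.directed_le)]
    exact iSup_le h
  rwa [h1, Measure.restrict_univ] at h3

/-- **finite mass** -/
theorem mass_fin (hf : LvlOK f 0 r) (hK : KEon f 0 r u) (hE : Esc f r u A) (hχ : Cut r χ)
    {ν : Measure E3} (hν : IsNu f 0 r ν) {ψ : E3 → ℝ} (hψ : SmL f 0 r ψ)
    (hp : ∀ θ O, PE f 0 r θ O → ∀ z ∈ O, ∀ v, 0 ≤ lev (fun z => ψ (θ z)) z v) {B : ℝ}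
    (hb : ∀ x, f x = 0 → x ≠ 0 → nsq x < r ^ 2 → ψ x ≤ B) :
    Integrable (fun x => χ x * mxd f u ψ x) ν := by
  obtain ⟨g, R₀, hR₀, g0, gi, gle⟩ := exists_g (A := A) hf hK hχ
  have hBψ : CtL f 0 r (fun x => B - ψ x) := smL_ctl (smL_sub (smL_const B) hψ)
  have gi2 := gi ν hν _ hBψ
  set G := ∫ x, (B - ψ x) * g x ∂ν with hGd
  have key : ∀ S, R₀ ≤ S → ∫ x, Th χ u A S x * mxd f u ψ x ∂ν ≤ S * G := by
    intro S hS
    obtain ⟨-, i2, e⟩ := stk_Th hf hK hE hχ hν S hψ
    obtain ⟨i1, e1⟩ := stk_Th_one hf hK hE hχ hν S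
    rw [e]
    calc ∫ x, ψ x * mxd f u (Th χ u A S) x ∂ν
        ≤ ∫ x, (B * mxd f u (Th χ u A S) x + S * ((B - ψ x) * g x)) ∂ν := by
          refine integral_mono_ae i2 ((i1.const_mul B).add (gi2.const_mul S)) ?_
          refine isNu_ae hν fun x hx0 hxr hx => ?_
          show ψ x * mxd f u (Th χ u A S) x ≤
            B * mxd f u (Th χ u A S) x + S * ((B - ψ x) * g x)
          have h1 := gle S hS x hx hx0 hxr
          have h2 : 0 ≤ B - ψ x := by linarith [hb x hx hx0 hxr]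
          nlinarith [mul_le_mul_of_nonneg_left h1 h2]
      _ = S * G := by
          rw [integral_add (i1.const_mul B) (gi2.const_mul S), integral_const_mul,
            integral_const_mul, e1]
          ring
  have hc : Continuous fun x : (LX hf).M 0 => χ x.1 * mxd f u ψ x.1 :=
    (cont_val hf (smL_ctl (cut_smL hχ))).mul (cont_mxd hf hK.sm hψ)
  refine ⟨(CmpL_822.aemeas_nu hf hν hc).aestronglyMeasurable, ?_⟩
  rw [hasFiniteIntegral_iff_ofReal (isNu_ae hν fun x hx0 hxr hx =>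
    mul_nonneg (hχ.nn x) (mxd_nonneg hf hK hψ hp hx0 hxr hx))]
  refine lt_of_le_of_lt (lint_lim (A := A) (u := u) (C := ENNReal.ofReal (4 * G)) fun n => ?_)
    ENNReal.ofReal_lt_top
  have hS : R₀ ≤ 2 * (n : ℝ) + R₀ := by
    have : (0 : ℝ) ≤ n := Nat.cast_nonneg n
    linarith
  refine (lintegral_mono_set ?_).trans (lint_sub (f := f) (A := A) (u := u) hχ hν
    (D := mxd f u ψ) (fun x hx hx0 hxr => mxd_nonneg hf hK hψ hp hx0 hxr hx) (hR₀.trans hS)
    (stk_Th hf hK hE hχ hν _ hψ).1 (key _ hS))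
  intro x hx
  have : A - u x ≤ n := hx
  show A - u x ≤ (2 * (n : ℝ) + R₀) / 2
  linarith

/-! ### Jensen -/

theorem one_le_log {t : ℝ} (ht : 0 ≤ t) : 1 ≤ Real.log (Real.exp 1 + t) := by
  rw [Real.le_log_iff_exp_le (by positivity)]
  linarith

/-- `log² (e + t) ≤ 2 log² (e + m) + 8 t / m` -/
theorem log_sq_le {t m : ℝ} (ht : 0 ≤ t) (hm : 0 < m) :
    Real.log (Real.exp 1 + t) ^ 2 ≤ 2 * Real.log (Real.exp 1 + m) ^ 2 + 8 * (t / m) := by
  have he := Real.exp_pos 1
  set q := Real.sqrt (t / m) with hq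
  have hq0 : 0 ≤ q := Real.sqrt_nonneg _
  have hq2 : q ^ 2 = t / m := Real.sq_sqrt (by positivity)
  have h1 : Real.exp 1 + t ≤ (Real.exp 1 + m) * (1 + q) ^ 2 := by
    have h2 : t = m * q ^ 2 := by
      rw [hq2]
      field_simp
    have h3 : t ≤ (Real.exp 1 + m) * q ^ 2 := by
      rw [h2]
      nlinarith [sq_nonneg q]
    nlinarith [mul_nonneg he.le hq0, mul_nonneg hm.le hq0]
  have h4 : Real.log (Real.exp 1 + t) ≤ Real.log (Real.exp 1 + m) + 2 * q := by
    calc Real.log (Real.exp 1 + t) ≤ Real.log ((Real.exp 1 + m) * (1 + q) ^ 2) :=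
          Real.log_le_log (by positivity) h1
      _ = Real.log (Real.exp 1 + m) + 2 * Real.log (1 + q) := by
          rw [Real.log_mul (by positivity) (by positivity), Real.log_pow]
          push_cast
          ring
      _ ≤ _ := by
          have := Real.log_le_sub_one_of_pos (show 0 < 1 + q by linarith)
          linarith
  have h5 := one_le_log ht
  have h6 := one_le_log hm.le
  calc Real.log (Real.exp 1 + t) ^ 2 ≤ (Real.log (Real.exp 1 + m) + 2 * q) ^ 2 :=
        pow_le_pow_left₀ (by linarith) h4 2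
    _ ≤ 2 * Real.log (Real.exp 1 + m) ^ 2 + 8 * q ^ 2 := by
        nlinarith [sq_nonneg (Real.log (Real.exp 1 + m) - 2 * q)]
    _ = _ := by rw [hq2]

theorem log_exp_add {y : ℝ} (hy : 0 ≤ y) : Real.log (Real.exp 1 + Real.exp y) ≤ y + 2 := by
  rw [Real.log_le_iff_le_exp (by positivity)]
  have h1 : Real.exp 1 ≤ Real.exp (y + 1) := Real.exp_le_exp.2 (by linarith)
  have h2 : Real.exp y ≤ Real.exp (y + 1) := Real.exp_le_exp.2 (by linarith)
  have h3 : Real.exp (y + 2) = Real.exp (y + 1) * Real.exp 1 := by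
    rw [← Real.exp_add]
    ring_nf
  have h4 : 2 ≤ Real.exp 1 := by
    have := Real.add_one_le_exp (1 : ℝ)
    linarith
  rw [h3]
  nlinarith [Real.exp_pos (y + 1)]

/-- the shells -/
def Sh (u : E3 → ℝ) (A j : ℝ) : Set E3 := {x | j ≤ Real.log (A - u x) ∧ Real.log (A - u x) ≤ 2 * j}

theorem meas_Sh {ν : Measure E3} (hu : AEMeasurable u ν) (j : ℝ) : NullMeasurableSet (Sh u A j) ν := by
  have h1 : AEMeasurable (fun x => Real.log (A - u x)) ν :=
    Real.measurable_log.comp_aemeasurable (aemeasurable_const.sub hu)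
  exact (h1.nullMeasurableSet_preimage measurableSet_Ici).inter
    (h1.nullMeasurableSet_preimage measurableSet_Iic)

theorem tend_vol {ν : Measure E3} (hu : AEMeasurable u ν) (hχu : AEMeasurable (fun x => χ x) ν)
    (hV : VOL ν u χ < ⊤) :
    Tendsto (fun j : ℝ => ∫⁻ x in Sh u A j, ENNReal.ofReal (χ x * Real.exp (u x)) ∂ν) atTop
      (𝓝 0) := by
  set u' := hu.mk u with hu'
  set χ' := hχu.mk (fun x => χ x) with hχ'
  have mu : Measurable u' := hu.measurable_mk
  have mχ : Measurable χ' := hχu.measurable_mk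
  have eu : u =ᵐ[ν] u' := hu.ae_eq_mk
  have eχ : χ =ᵐ[ν] χ' := hχu.ae_eq_mk
  have hF : Measurable (fun x => ENNReal.ofReal (χ' x * Real.exp (u' x))) :=
    (mχ.mul (Real.measurable_exp.comp mu)).ennreal_ofReal
  have mS : ∀ j, MeasurableSet (Sh u' A j) := fun j => by
    have h1 : Measurable (fun x => Real.log (A - u' x)) :=
      Real.measurable_log.comp (measurable_const.sub mu)
    exact (h1 measurableSet_Ici).inter (h1 measurableSet_Iic)
  have e : ∀ j : ℝ, ∫⁻ x in Sh u A j, ENNReal.ofReal (χ x * Real.exp (u x)) ∂ν =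
      ∫⁻ x, (Sh u' A j).indicator (fun x => ENNReal.ofReal (χ' x * Real.exp (u' x))) x ∂ν := by
    intro j
    rw [← lintegral_indicator₀ (meas_Sh hu j)]
    refine lintegral_congr_ae ?_
    filter_upwards [eu, eχ] with x h1 h2
    have h3 : x ∈ Sh u A j ↔ x ∈ Sh u' A j := by
      unfold Sh
      simp only [mem_ofPred_eq, h1]
    by_cases h4 : x ∈ Sh u A j
    · rw [indicator_of_mem h4, indicator_of_mem (h3.1 h4), h1, h2]
    · rw [indicator_of_notMem h4, indicator_of_notMem fun h => h4 (h3.2 h)]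
  have hV' : ∫⁻ x, ENNReal.ofReal (χ' x * Real.exp (u' x)) ∂ν < ⊤ := by
    refine lt_of_eq_of_lt (lintegral_congr_ae ?_) hV
    filter_upwards [eu, eχ] with x h1 h2
    rw [h1, h2]
  simp only [e]
  have h0 : (0 : ℝ≥0∞) = ∫⁻ _x : E3, 0 ∂ν := by simp
  rw [h0]
  refine tendsto_lintegral_filter_of_dominated_convergence
    (fun x => ENNReal.ofReal (χ' x * Real.exp (u' x)))
    (Eventually.of_forall fun j => (hF.indicator (mS j)))
    (Eventually.of_forall fun j => Eventually.of_forall fun x => indicator_le_self _ _ _)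
    hV'.ne (Eventually.of_forall fun x => ?_)
  refine tendsto_const_nhds.congr' ?_
  filter_upwards [eventually_gt_atTop (Real.log (A - u' x))] with j hj
  rw [indicator_of_notMem]
  intro hx
  exact absurd hx.1 (not_le.2 hj)

/-- **Jensen** -/
theorem jensen {ν : Measure E3} (hu : AEMeasurable u ν) (hχ0 : ∀ x, 0 ≤ χ x)
    (hχu : AEMeasurable (fun x => χ x) ν) (hV : VOL ν u χ < ⊤) {T : E3 → ℝ}
    (hT : AEMeasurable T ν) (hT0 : ∀ᵐ x ∂ν, 0 ≤ T x) (hone : ∀ᵐ x ∂ν, 1 ≤ A - u x) {C : ℝ} {N : ℕ}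
    (hC : 0 ≤ C)
    (hM : ∀ R : ℝ, 1 ≤ R → ∫⁻ x in {x | A - u x ≤ R},
      ENNReal.ofReal (χ x * (T x * Real.exp (u x))) ∂ν ≤ ENNReal.ofReal (C * R ^ N)) {ε : ℝ}
    (hε : 0 < ε) :
    ∀ᶠ j : ℝ in atTop, ∫⁻ x in Sh u A j,
      ENNReal.ofReal (χ x * (Real.log (Real.exp 1 + T x) ^ 2 * Real.exp (u x))) ∂ν ≤
        ENNReal.ofReal (ε * j ^ 2) := by
  set K : ℝ := 2 * (2 * (N + 1) + 2) ^ 2 with hK
  have hK0 : 0 < K := by positivity
  have h1 := (tend_vol (A := A) hu hχu hV).eventually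
    (gt_mem_nhds (show (0 : ℝ≥0∞) < ENNReal.ofReal (ε / (2 * K)) from
      ENNReal.ofReal_pos.2 (by positivity)))
  filter_upwards [h1, eventually_ge_atTop 1, eventually_ge_atTop (16 * C / ε)] with j hj1 hj2 hj3
  have hj0 : 0 < j := by linarith
  set m : ℝ := Real.exp (2 * (N + 1) * j) with hm
  have hm0 : 0 < m := Real.exp_pos _
  have hR1 : 1 ≤ Real.exp (2 * j) := Real.one_le_exp (by linarith)
  have hlm : Real.log (Real.exp 1 + m) ^ 2 ≤ (2 * (N + 1) + 2) ^ 2 * j ^ 2 := by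
    have h2 : Real.log (Real.exp 1 + m) ≤ (2 * (N + 1) + 2) * j := by
      have h3 := log_exp_add (y := 2 * (N + 1) * j) (by positivity)
      rw [← hm] at h3
      nlinarith
    have h4 := one_le_log hm0.le
    rw [← mul_pow]
    exact pow_le_pow_left₀ (by linarith) h2 2
  have hχe : AEMeasurable (fun x => ENNReal.ofReal (χ x * Real.exp (u x))) ν :=
    (hχu.mul (Real.measurable_exp.comp_aemeasurable hu)).ennreal_ofReal
  have hTe : AEMeasurable (fun x => ENNReal.ofReal (χ x * (T x * Real.exp (u x)))) ν :=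
    (hχu.mul (hT.mul (Real.measurable_exp.comp_aemeasurable hu))).ennreal_ofReal
  have hsub : Sh u A j ∩ {x | 1 ≤ A - u x} ⊆ {x | A - u x ≤ Real.exp (2 * j)} := by
    rintro x ⟨hx, hx1⟩
    have hx1' : 1 ≤ A - u x := hx1
    exact (Real.log_le_iff_le_exp (by linarith)).1 hx.2
  have hM' : ∫⁻ x in Sh u A j, ENNReal.ofReal (χ x * (T x * Real.exp (u x))) ∂ν ≤
      ENNReal.ofReal (C * Real.exp (2 * j) ^ N) := by
    refine le_trans ?_ (hM _ hR1)
    have e : ν.restrict (Sh u A j) = ν.restrict (Sh u A j ∩ {x | 1 ≤ A - u x}) := by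
      refine Measure.restrict_congr_set ?_
      filter_upwards [hone] with x hx
      exact propext ⟨fun h => ⟨h, hx⟩, fun h => h.1⟩
    rw [e]
    exact lintegral_mono_set hsub
  calc ∫⁻ x in Sh u A j,
        ENNReal.ofReal (χ x * (Real.log (Real.exp 1 + T x) ^ 2 * Real.exp (u x))) ∂ν
      ≤ ∫⁻ x in Sh u A j, (ENNReal.ofReal (K * j ^ 2) * ENNReal.ofReal (χ x * Real.exp (u x)) +
          ENNReal.ofReal (8 / m) * ENNReal.ofReal (χ x * (T x * Real.exp (u x)))) ∂ν := by
        refine lintegral_mono_ae ?_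
        filter_upwards [ae_restrict_of_ae hT0] with x hx
        rw [← ENNReal.ofReal_mul (by positivity), ← ENNReal.ofReal_mul (by positivity),
          ← ENNReal.ofReal_add (mul_nonneg (by positivity)
            (mul_nonneg (hχ0 x) (Real.exp_pos _).le)) (mul_nonneg (by positivity)
            (mul_nonneg (hχ0 x) (mul_nonneg hx (Real.exp_pos _).le)))]
        refine ENNReal.ofReal_le_ofReal ?_
        have h2 := log_sq_le hx hm0
        have h3 : 0 ≤ χ x * Real.exp (u x) := mul_nonneg (hχ0 x) (Real.exp_pos _).le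
        have h4 : Real.log (Real.exp 1 + T x) ^ 2 ≤ K * j ^ 2 + 8 / m * T x := by
          have e : 8 * (T x / m) = 8 / m * T x := by ring
          rw [e] at h2
          rw [hK]
          linarith
        calc χ x * (Real.log (Real.exp 1 + T x) ^ 2 * Real.exp (u x))
            = Real.log (Real.exp 1 + T x) ^ 2 * (χ x * Real.exp (u x)) := by ring
          _ ≤ (K * j ^ 2 + 8 / m * T x) * (χ x * Real.exp (u x)) :=
              mul_le_mul_of_nonneg_right h4 h3
          _ = _ := by ring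
    _ = ENNReal.ofReal (K * j ^ 2) * ∫⁻ x in Sh u A j, ENNReal.ofReal (χ x * Real.exp (u x)) ∂ν +
          ENNReal.ofReal (8 / m) * ∫⁻ x in Sh u A j,
            ENNReal.ofReal (χ x * (T x * Real.exp (u x))) ∂ν := by
        rw [lintegral_add_left' (hχe.const_mul _).restrict, lintegral_const_mul'' _ hχe.restrict,
          lintegral_const_mul'' _ hTe.restrict]
    _ ≤ ENNReal.ofReal (K * j ^ 2) * ENNReal.ofReal (ε / (2 * K)) +
          ENNReal.ofReal (8 / m) * ENNReal.ofReal (C * Real.exp (2 * j) ^ N) := by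
        gcongr
    _ = ENNReal.ofReal (K * j ^ 2 * (ε / (2 * K)) + 8 / m * (C * Real.exp (2 * j) ^ N)) := by
        rw [← ENNReal.ofReal_mul (by positivity), ← ENNReal.ofReal_mul (by positivity),
          ← ENNReal.ofReal_add (by positivity) (by positivity)]
    _ ≤ ENNReal.ofReal (ε * j ^ 2) := by
        refine ENNReal.ofReal_le_ofReal ?_
        have e1 : K * j ^ 2 * (ε / (2 * K)) = ε / 2 * j ^ 2 := by
          field_simp
        have e2 : m = Real.exp (2 * j) ^ N * Real.exp (2 * j) := by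
          rw [hm, ← pow_succ, ← Real.exp_nat_mul]
          congr 1
          push_cast
          ring
        have e3 : 8 / m * (C * Real.exp (2 * j) ^ N) = 8 * C / Real.exp (2 * j) := by
          rw [e2]
          have := Real.exp_pos (2 * j)
          field_simp
        have h5 : 8 * C / Real.exp (2 * j) ≤ ε / 2 * j ^ 2 := by
          have h6 : 2 * j + 1 ≤ Real.exp (2 * j) := Real.add_one_le_exp _
          rw [div_le_iff₀ (Real.exp_pos _)]
          have h7 : 16 * C ≤ ε * j := by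
            rw [div_le_iff₀ hε] at hj3
            linarith
          have h8 : j ≤ j ^ 2 := by nlinarith
          have h9 : ε * j ≤ ε * j ^ 2 := mul_le_mul_of_nonneg_left h8 hε.le
          have h10 : 0 ≤ ε / 2 * j ^ 2 := by positivity
          nlinarith
        rw [e1, e3]
        linarith

/-- Jensen, for a function `V` with `|V| ≤ C (1 + log W + log (e + T))` -/
theorem jensenV {ν : Measure E3} (hu : AEMeasurable u ν) (hχ0 : ∀ x, 0 ≤ χ x)
    (hχu : AEMeasurable (fun x => χ x) ν) (hV : VOL ν u χ < ⊤) {T : E3 → ℝ}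
    (hT : AEMeasurable T ν) (hT0 : ∀ᵐ x ∂ν, 0 ≤ T x) (hone : ∀ᵐ x ∂ν, 1 ≤ A - u x) {C : ℝ} {N : ℕ}
    (hC : 0 ≤ C)
    (hM : ∀ R : ℝ, 1 ≤ R → ∫⁻ x in {x | A - u x ≤ R},
      ENNReal.ofReal (χ x * (T x * Real.exp (u x))) ∂ν ≤ ENNReal.ofReal (C * R ^ N))
    {V : E3 → ℝ} {C' : ℝ} (hC' : 0 ≤ C')
    (hVb : ∀ᵐ x ∂ν, |V x| ≤ C' * (1 + Real.log (A - u x) + Real.log (Real.exp 1 + T x))) {ε : ℝ}
    (hε : 0 < ε) :
    ∀ᶠ j : ℝ in atTop, ∫⁻ x in Sh u A j,
      ENNReal.ofReal (χ x * (V x ^ 2 * Real.exp (u x))) ∂ν ≤ ENNReal.ofReal (ε * j ^ 2) := by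
  set K : ℝ := 27 * (C' + 1) ^ 2 with hK
  have hK0 : 0 < K := by positivity
  have h1 := (tend_vol (A := A) hu hχu hV).eventually
    (gt_mem_nhds (show (0 : ℝ≥0∞) < ENNReal.ofReal (ε / (2 * K)) from
      ENNReal.ofReal_pos.2 (by positivity)))
  have h2 := jensen hu hχ0 hχu hV hT hT0 hone hC hM (ε := ε / (2 * K)) (by positivity)
  have hχe : AEMeasurable (fun x => ENNReal.ofReal (χ x * Real.exp (u x))) ν :=
    (hχu.mul (Real.measurable_exp.comp_aemeasurable hu)).ennreal_ofReal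
  have hlT : AEMeasurable (fun x => ENNReal.ofReal
      (χ x * (Real.log (Real.exp 1 + T x) ^ 2 * Real.exp (u x)))) ν :=
    (hχu.mul (((Real.measurable_log.comp_aemeasurable (aemeasurable_const.add hT)).pow_const 2).mul
      (Real.measurable_exp.comp_aemeasurable hu))).ennreal_ofReal
  filter_upwards [h1, h2, eventually_ge_atTop 1] with j hj1 hj2 hj3
  have hj0 : 0 < j := by linarith
  calc ∫⁻ x in Sh u A j, ENNReal.ofReal (χ x * (V x ^ 2 * Real.exp (u x))) ∂ν
      ≤ ∫⁻ x in Sh u A j, (ENNReal.ofReal (K * j ^ 2) * ENNReal.ofReal (χ x * Real.exp (u x)) +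
          ENNReal.ofReal K * ENNReal.ofReal
            (χ x * (Real.log (Real.exp 1 + T x) ^ 2 * Real.exp (u x)))) ∂ν := by
        refine lintegral_mono_ae ?_
        have hSm : ∀ᵐ x ∂ν.restrict (Sh u A j), x ∈ Sh u A j :=
          (ae_restrict_mem₀ (meas_Sh hu j))
        filter_upwards [ae_restrict_of_ae hT0, ae_restrict_of_ae hVb, hSm] with x hx hVx hxS
        rw [← ENNReal.ofReal_mul (by positivity), ← ENNReal.ofReal_mul (by positivity),
          ← ENNReal.ofReal_add (mul_nonneg (by positivity)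
            (mul_nonneg (hχ0 x) (Real.exp_pos _).le)) (mul_nonneg (by positivity)
            (mul_nonneg (hχ0 x) (mul_nonneg (sq_nonneg _) (Real.exp_pos _).le)))]
        refine ENNReal.ofReal_le_ofReal ?_
        have h3 : 0 ≤ χ x * Real.exp (u x) := mul_nonneg (hχ0 x) (Real.exp_pos _).le
        have hl := one_le_log hx
        set l := Real.log (Real.exp 1 + T x) with hl'
        have h4 : |V x| ≤ (C' + 1) * (3 * j + l) := by
          have h5 : 1 + Real.log (A - u x) + l ≤ 3 * j + l := by linarith [hxS.2]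
          have h6 : 0 ≤ 3 * j + l := by linarith
          calc |V x| ≤ C' * (1 + Real.log (A - u x) + l) := hVx
            _ ≤ C' * (3 * j + l) := mul_le_mul_of_nonneg_left h5 hC'
            _ ≤ _ := by nlinarith
        have h7 : V x ^ 2 ≤ K * j ^ 2 + K * l ^ 2 := by
          rw [← sq_abs]
          calc |V x| ^ 2 ≤ ((C' + 1) * (3 * j + l)) ^ 2 := pow_le_pow_left₀ (abs_nonneg _) h4 2
            _ = (C' + 1) ^ 2 * (3 * j + l) ^ 2 := by ring
            _ ≤ (C' + 1) ^ 2 * (27 * j ^ 2 + 27 * l ^ 2) := by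
                refine mul_le_mul_of_nonneg_left ?_ (sq_nonneg _)
                nlinarith [sq_nonneg (3 * j - l), sq_nonneg j, sq_nonneg l]
            _ = _ := by rw [hK]; ring
        calc χ x * (V x ^ 2 * Real.exp (u x)) = V x ^ 2 * (χ x * Real.exp (u x)) := by ring
          _ ≤ (K * j ^ 2 + K * l ^ 2) * (χ x * Real.exp (u x)) :=
              mul_le_mul_of_nonneg_right h7 h3
          _ = _ := by ring
    _ = ENNReal.ofReal (K * j ^ 2) * ∫⁻ x in Sh u A j, ENNReal.ofReal (χ x * Real.exp (u x)) ∂ν +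
          ENNReal.ofReal K * ∫⁻ x in Sh u A j,
            ENNReal.ofReal (χ x * (Real.log (Real.exp 1 + T x) ^ 2 * Real.exp (u x))) ∂ν := by
        rw [lintegral_add_left' (hχe.const_mul _).restrict, lintegral_const_mul'' _ hχe.restrict,
          lintegral_const_mul'' _ hlT.restrict]
    _ ≤ ENNReal.ofReal (K * j ^ 2) * ENNReal.ofReal (ε / (2 * K)) +
          ENNReal.ofReal K * ENNReal.ofReal (ε / (2 * K) * j ^ 2) := by
        gcongr
    _ = ENNReal.ofReal (K * j ^ 2 * (ε / (2 * K)) + K * (ε / (2 * K) * j ^ 2)) := by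
        rw [← ENNReal.ofReal_mul (by positivity), ← ENNReal.ofReal_mul (by positivity),
          ← ENNReal.ofReal_add (by positivity) (by positivity)]
    _ = ENNReal.ofReal (ε * j ^ 2) := by
        congr 1
        field_simp
        ring

end Crest.Agent.R257.MsJ_617
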