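import Crest.Agent.R257.PairK2_39
import Crest.Agent.R257.CLogD_39

/-!
# Row 257 (S0395), PAIR-K (helper39), part 3: the subsolution of post 3449

`v = (1/k) log (|g|² + |h|²) - 4 ∑ log (-φ_l)`.
* `lev_v`  : `∑ 4 φ_l⁻² e^{-φ_l} |∂q_l|² ≤ ∂∂̄v`
* `det_v`  : `16 c e^v |η|² ≤ (∂∂̄v)²`
* `lowV`   : `v ≤ u + C`
-/

set_option autoImplicit false
set_option linter.unusedSectionVars false

open Set Filter Topology Complex
open scoped ContDiff ComplexConjugate Matrix ComplexOrder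

namespace Crest.Agent.R257.PairK_39

open Crest.Agent.R275.Geo Crest.Agent.R275.Core144 Crest.Agent.R275.GC293
open Crest.Agent.R273
open Crest.Agent.R273.YauDefs_635 (cH lev333_eq_lev145 inC)
open Crest.Agent.R273.YauMax_635 (continuous_of_sm cH_eq_hess)
open Crest.Agent.R257.PN_835 (nsq)
open Crest.Agent.R257.Aff_835 (eta2a)
open Crest.Agent.R257.Defs_219 Crest.Agent.R257.KED_952 Crest.Agent.R257.KEG_952
open Crest.Agent.R257.V1Defs_822 (SmL LvlOK lgh)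
open Crest.Agent.R257.CLD_39 (two_le')
open Crest.Agent.R257.Jac_39 (jc ee jac)
open Crest.Agent.R257.CLogD_39

noncomputable section

/-- the subsolution -/
def vq {L : ℕ} (k : ℝ) (g h : E3 → ℂ) (q : Fin L → E3 → ℂ) (s : Fin L → ℕ) (x : E3) : ℝ :=
  1 / k * lgh g h x + ∑ l, 4 * (- Real.log (- phq q s l x))

variable {f : E3 → ℂ} {r : ℝ} {L : ℕ} {q : Fin L → E3 → ℂ} {s : Fin L → ℕ} {g h : E3 → ℂ}

/-- hypotheses on the punctured level in the ball of radius `r` -/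
structure QOK (f : E3 → ℂ) (r : ℝ) (g h : E3 → ℂ) {L : ℕ} (q : Fin L → E3 → ℂ)
    (s : Fin L → ℕ) : Prop where
  ang : ∀ x, nsq x < r ^ 2 → AnalyticAt ℂ g x
  anh : ∀ x, nsq x < r ^ 2 → AnalyticAt ℂ h x
  anq : ∀ l x, nsq x < r ^ 2 → AnalyticAt ℂ (q l) x
  gh : ∀ x, f x = 0 → x ≠ 0 → nsq x < r ^ 2 → 0 < ‖g x‖ ^ 2 + ‖h x‖ ^ 2
  pos : ∀ x, f x = 0 → x ≠ 0 → nsq x < r ^ 2 → ∀ l, 0 < sqq q s l x
  le : ∀ x, f x = 0 → x ≠ 0 → nsq x < r ^ 2 → ∀ l, phq q s l x ≤ -1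

/-- the functions of the system of `l`, extended by zero -/
def Fq (q : Fin L → E3 → ℂ) (s : Fin L → ℕ) (θ : Cn 2 → E3) (l m : Fin L) (z : Cn 2) : ℂ :=
  if s m = s l then q m (θ z) else 0

theorem sqq_eq (θ : Cn 2 → E3) (l : Fin L) (z : Cn 2) :
    sqq q s l (θ z) = Levi_145.sumSq (Fq q s θ l) z := by
  unfold sqq Levi_145.sumSq Fq fib
  rw [Finset.sum_filter]
  refine Finset.sum_congr rfl fun m _ => ?_
  split_ifs <;> simp

/-- `log (|g|² + |h|²)` along a parametrisation -/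
theorem lgh_eq (θ : Cn 2 → E3) (z : Cn 2) :
    lgh g h (θ z) = Real.log (Levi_145.sumSq ![fun z => g (θ z), fun z => h (θ z)] z) := by
  unfold lgh Levi_145.sumSq
  rw [Fin.sum_univ_two]
  rfl

theorem anal_par {s : ℂ} {θ : Cn 2 → E3} {O : Set (Cn 2)} (hθ : Aff_835.Par (n := 2) f s θ O)
    {z : Cn 2} (hz : z ∈ O) : AnalyticAt ℂ θ z :=
  (Crest.Agent.R266.SCV.contDiffOn_omega_of_differentiableOn hθ.isOpen hθ.hol).contDiffAt
    (hθ.isOpen.mem_nhds hz) |>.analyticAt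

theorem eta_nn {s : ℂ} {θ : Cn 2 → E3} {O : Set (Cn 2)} (hθ : Aff_835.Par (n := 2) f s θ O)
    {z : Cn 2} (hz : z ∈ O) (hf : DifferentiableAt ℂ f (θ z)) (h0 : fderiv ℂ f (θ z) ≠ 0) :
    0 ≤ eta2a (n := 2) f θ z := by
  obtain ⟨w, hw⟩ : ∃ w, fderiv ℂ f (θ z) w ≠ 0 := by
    by_contra hcon
    push Not at hcon
    exact h0 (by ext w; rw [hcon w]; rfl)
  have h1 := Jac_39.det_TT hθ hz hf h0 w
  have h2 : 0 < ‖fderiv ℂ f (θ z) w‖ ^ 2 := by positivity
  exact nonneg_of_mul_nonneg_left (h1 ▸ sq_nonneg _) h2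

section pt

variable {θ : Cn 2 → E3} {O : Set (Cn 2)} (hP : PE f 0 r θ O) (hQ : QOK f r g h q s)
include hP hQ

theorem anF (l m : Fin L) {z : Cn 2} (hz : z ∈ O) : AnalyticAt ℂ (Fq q s θ l m) z := by
  unfold Fq
  by_cases hm : s m = s l
  · simp only [hm, if_true]
    exact (hQ.anq m _ (hP.lt z hz)).comp (anal_par hP.par hz)
  · simp only [hm, if_false]
    exact analyticAt_const

theorem anGH {z : Cn 2} (hz : z ∈ O) : ∀ j, AnalyticAt ℂ
    ((![fun z => g (θ z), fun z => h (θ z)] : Fin 2 → Cn 2 → ℂ) j) z := by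
  have hθ := anal_par hP.par hz
  have h0 : AnalyticAt ℂ (fun z => g (θ z)) z := (hQ.ang _ (hP.lt z hz)).comp hθ
  have h1 : AnalyticAt ℂ (fun z => h (θ z)) z := (hQ.anh _ (hP.lt z hz)).comp hθ
  intro j
  fin_cases j
  · exact h0
  · exact h1

theorem neF (l : Fin L) {z : Cn 2} (hz : z ∈ O) : ∃ m, Fq q s θ l m z ≠ 0 := by
  by_contra hcon
  push Not at hcon
  have h1 := hQ.pos _ (hP.par.lvl z hz) (hP.ne z hz) (hP.lt z hz) l
  rw [sqq_eq] at h1
  have h2 : Levi_145.sumSq (Fq q s θ l) z = 0 := by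
    unfold Levi_145.sumSq
    exact Finset.sum_eq_zero fun m _ => by rw [hcon m]; simp
  linarith

theorem neGH {z : Cn 2} (hz : z ∈ O) : ∃ j,
    (![fun z => g (θ z), fun z => h (θ z)] : Fin 2 → Cn 2 → ℂ) j z ≠ 0 := by
  by_contra hcon
  push Not at hcon
  have h1 := hQ.gh _ (hP.par.lvl z hz) (hP.ne z hz) (hP.lt z hz)
  have h2 : g (θ z) = 0 := hcon 0
  have h3 : h (θ z) = 0 := hcon 1
  rw [h2, h3] at h1
  simp at h1

theorem sm_lgh {z : Cn 2} (hz : z ∈ O) : ContDiffAt ℝ ∞ (fun z => lgh g h (θ z)) z := by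
  have e : (fun z => lgh g h (θ z)) = fun z =>
      Real.log (Levi_145.sumSq ![fun z => g (θ z), fun z => h (θ z)] z) := by
    funext z
    exact lgh_eq θ z
  rw [e]
  exact (Levi_145.c2_sumSq (anGH hP hQ hz) ∞).log (Levi_145.sumSq_pos (neGH hP hQ hz)).ne'

theorem sm_ph (l : Fin L) {z : Cn 2} (hz : z ∈ O) :
    ContDiffAt ℝ ∞ (fun z => phq q s l (θ z)) z := by
  have e : (fun z => phq q s l (θ z)) = fun z => Real.log (Levi_145.sumSq (Fq q s θ l) z) := by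
    funext z
    unfold phq
    rw [sqq_eq]
  rw [e]
  exact (Levi_145.c2_sumSq (fun m => anF hP hQ l m hz) ∞).log
    (Levi_145.sumSq_pos (neF hP hQ l hz)).ne'

theorem sm_ll (l : Fin L) {z : Cn 2} (hz : z ∈ O) :
    ContDiffAt ℝ ∞ (fun z => - Real.log (- phq q s l (θ z))) z := by
  have h1 := hQ.le _ (hP.par.lvl z hz) (hP.ne z hz) (hP.lt z hz) l
  have h2 : - phq q s l (θ z) ≠ 0 := by
    intro h2
    linarith
  exact ((sm_ph hP hQ l hz).neg.log h2).neg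

theorem sm_vq (k : ℝ) {z : Cn 2} (hz : z ∈ O) :
    ContDiffAt ℝ ∞ (fun z => vq k g h q s (θ z)) z := by
  have h1 : ContDiffAt ℝ ∞ (fun z => 1 / k * lgh g h (θ z)) z :=
    contDiffAt_const.mul (sm_lgh hP hQ hz)
  have h2 : ContDiffAt ℝ ∞ (fun z => ∑ l, 4 * (- Real.log (- phq q s l (θ z)))) z :=
    ContDiffAt.sum fun l _ => contDiffAt_const.mul (sm_ll hP hQ l hz)
  exact h1.add h2

theorem lev_v {k : ℝ} (hk : 0 < k) {z : Cn 2} (hz : z ∈ O) (v : Cn 2) :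
    ∑ l, (4 * ((phq q s l (θ z))⁻¹ ^ 2 * (sqq q s l (θ z))⁻¹)) *
      ‖fderiv ℂ (fun z => q l (θ z)) z v‖ ^ 2 ≤
      Levi_145.lev (fun z => vq k g h q s (θ z)) z v := by
  have h1 : ContDiffAt ℝ 2 (fun z => 1 / k * lgh g h (θ z)) z :=
    two_le' (contDiffAt_const.mul (sm_lgh hP hQ hz))
  have h2 : ∀ l ∈ Finset.univ, ContDiffAt ℝ 2
      ((fun l z => 4 * (- Real.log (- phq q s l (θ z)))) l) z := fun l _ =>
    two_le' (contDiffAt_const.mul (sm_ll hP hQ l hz))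
  have h3 : ContDiffAt ℝ 2 (fun z => ∑ l, 4 * (- Real.log (- phq q s l (θ z)))) z :=
    ContDiffAt.sum h2
  have e0 : (fun z => vq k g h q s (θ z)) = fun z => 1 / k * lgh g h (θ z) +
      ∑ l, 4 * (- Real.log (- phq q s l (θ z))) := rfl
  have e2 : Levi_145.lev (fun z => ∑ l, 4 * (- Real.log (- phq q s l (θ z)))) z v =
      ∑ l, Levi_145.lev (fun z => 4 * (- Real.log (- phq q s l (θ z)))) z v :=
    Levi_145.lev_sum Finset.univ h2 v
  rw [e0, Levi_145.lev_add h1 h3, e2, Levi_145.lev_const_mul _ (two_le' (sm_lgh hP hQ hz))]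
  have h4 : 0 ≤ Levi_145.lev (fun z => lgh g h (θ z)) z v := by
    have e : (fun z => lgh g h (θ z)) = fun z =>
        Real.log (Levi_145.sumSq ![fun z => g (θ z), fun z => h (θ z)] z) := by
      funext z
      exact lgh_eq θ z
    rw [e]
    exact Levi_145.lev_log_sumSq_nonneg (anGH hP hQ hz) (neGH hP hQ hz) v
  have h5 : 0 ≤ 1 / k * Levi_145.lev (fun z => lgh g h (θ z)) z v := by positivity
  have h6 : ∀ l, (4 * ((phq q s l (θ z))⁻¹ ^ 2 * (sqq q s l (θ z))⁻¹)) *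
      ‖fderiv ℂ (fun z => q l (θ z)) z v‖ ^ 2 ≤
      Levi_145.lev (fun z => 4 * (- Real.log (- phq q s l (θ z)))) z v := by
    intro l
    rw [Levi_145.lev_const_mul _ (two_le' (sm_ll hP hQ l hz))]
    have e : (fun z => - Real.log (- phq q s l (θ z))) = fun z =>
        - Real.log (- Real.log (Levi_145.sumSq (Fq q s θ l) z)) := by
      funext z
      unfold phq
      rw [sqq_eq]
    have hle : Real.log (Levi_145.sumSq (Fq q s θ l) z) ≤ -1 := by
      rw [← sqq_eq]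
      exact hQ.le _ (hP.par.lvl z hz) (hP.ne z hz) (hP.lt z hz) l
    have h7 := lev_ll (fun m => anF hP hQ l m hz) (neF hP hQ l hz) hle v
    rw [e]
    have h8 : ‖fderiv ℂ (fun z => q l (θ z)) z v‖ ^ 2 ≤
        ∑ m, ‖fderiv ℂ (Fq q s θ l m) z v‖ ^ 2 := by
      have e1 : Fq q s θ l l = fun z => q l (θ z) := by
        funext z
        unfold Fq
        rw [if_pos rfl]
      have h9 := Finset.single_le_sum (f := fun m => ‖fderiv ℂ (Fq q s θ l m) z v‖ ^ 2)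
        (fun _ _ => sq_nonneg _) (Finset.mem_univ l)
      simp only [e1] at h9
      exact h9
    have h10 : 0 < sqq q s l (θ z) := hQ.pos _ (hP.par.lvl z hz) (hP.ne z hz) (hP.lt z hz) l
    have e3 : phq q s l (θ z) = Real.log (Levi_145.sumSq (Fq q s θ l) z) := by
      unfold phq
      rw [sqq_eq]
    have e4 : sqq q s l (θ z) = Levi_145.sumSq (Fq q s θ l) z := sqq_eq θ l z
    rw [← e3, ← e4] at h7
    calc (4 * ((phq q s l (θ z))⁻¹ ^ 2 * (sqq q s l (θ z))⁻¹)) *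
          ‖fderiv ℂ (fun z => q l (θ z)) z v‖ ^ 2
        = 4 * ((phq q s l (θ z))⁻¹ ^ 2 * ((sqq q s l (θ z))⁻¹ *
          ‖fderiv ℂ (fun z => q l (θ z)) z v‖ ^ 2)) := by ring
      _ ≤ 4 * ((phq q s l (θ z))⁻¹ ^ 2 * ((sqq q s l (θ z))⁻¹ *
          ∑ m, ‖fderiv ℂ (Fq q s θ l m) z v‖ ^ 2)) := by gcongr
      _ ≤ _ := by linarith
  have h7 := Finset.sum_le_sum fun l (_ : l ∈ Finset.univ) => h6 l
  linarith

theorem det_v (hf : LvlOK f 0 r) {k : ℝ} (hk : 0 < k) {z : Cn 2} (hz : z ∈ O) {c : ℝ}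
    (hc : c * (‖g (θ z)‖ ^ 2 + ‖h (θ z)‖ ^ 2) ^ (1 / k) ≤ J2 f q s (θ z)) :
    16 * c * Real.exp (vq k g h q s (θ z)) * eta2a (n := 2) f θ z ≤
      (cH (fun z => vq k g h q s (θ z)) z).det.re := by
  have hθ := anal_par hP.par hz
  have hlv := hP.par.lvl z hz
  have hne := hP.ne z hz
  have hlt := hP.lt z hz
  have hpos := hQ.pos _ hlv hne hlt
  have hle := hQ.le _ hlv hne hlt
  have hgh := hQ.gh _ hlv hne hlt
  have hF : ∀ l, AnalyticAt ℂ (fun z => q l (θ z)) z := fun l => (hQ.anq l _ hlt).comp hθ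
  set x := θ z with hx
  set a : Fin L → ℝ := fun l => 4 * ((phq q s l x)⁻¹ ^ 2 * (sqq q s l x)⁻¹) with ha
  have ha0 : ∀ l, 0 ≤ a l := fun l => by
    have := hpos l
    simp only [ha]
    positivity
  have h1 := det_ge (sm_vq hP hQ k hz) hF ha0 (lev_v hP hQ hk hz)
  refine le_trans ?_ h1
  -- the Jacobians
  have hj : ∀ l m, ‖jc (fun z => q l (θ z)) (fun z => q m (θ z)) z‖ ^ 2 =
      ‖Dt f (q l) (q m) x‖ ^ 2 * eta2a (n := 2) f θ z := fun l m =>
    jac hP.par hz (hf.an _ hlt).differentiableAt (hf.sm _ hne hlt hlv)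
      (hQ.anq l _ hlt).differentiableAt (hQ.anq m _ hlt).differentiableAt
  have heta : 0 ≤ eta2a (n := 2) f θ z := eta_nn hP.par hz (hf.an _ hlt).differentiableAt
    (hf.sm _ hne hlt hlv)
  set E : ℝ := ∑ j, 4 * Real.log (- phq q s j x) with hE
  have hlog : ∀ j, 0 ≤ 4 * Real.log (- phq q s j x) := fun j =>
    mul_nonneg (by norm_num) (Real.log_nonneg (by linarith [hle j]))
  have hEj : ∀ j, 4 * Real.log (- phq q s j x) ≤ E := fun j =>
    Finset.single_le_sum (fun j _ => hlog j) (Finset.mem_univ j)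
  have haa : ∀ l m, 16 * Real.exp (-E) * (sqq q s l x * sqq q s m x)⁻¹ ≤ a l * a m := by
    intro l m
    have hl := hpos l
    have hm := hpos m
    have tl : 0 < - phq q s l x := by linarith [hle l]
    have tm : 0 < - phq q s m x := by linarith [hle m]
    have e1 : (phq q s l x)⁻¹ ^ 2 = Real.exp (-(2 * Real.log (- phq q s l x))) := by
      rw [Real.exp_neg, two_mul, Real.exp_add, Real.exp_log tl, inv_pow]
      congr 1
      ring
    have e2 : (phq q s m x)⁻¹ ^ 2 = Real.exp (-(2 * Real.log (- phq q s m x))) := by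
      rw [Real.exp_neg, two_mul, Real.exp_add, Real.exp_log tm, inv_pow]
      congr 1
      ring
    have e3 : Real.exp (-E) ≤ (phq q s l x)⁻¹ ^ 2 * (phq q s m x)⁻¹ ^ 2 := by
      rw [e1, e2, ← Real.exp_add]
      apply Real.exp_le_exp.2
      linarith [hEj l, hEj m]
    have e4 : a l * a m = 16 * ((phq q s l x)⁻¹ ^ 2 * (phq q s m x)⁻¹ ^ 2) *
        (sqq q s l x * sqq q s m x)⁻¹ := by
      simp only [ha]
      rw [mul_inv]
      ring
    rw [e4]
    have : 0 ≤ (sqq q s l x * sqq q s m x)⁻¹ := by positivity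
    gcongr
  have hexp : Real.exp (vq k g h q s x) = (‖g x‖ ^ 2 + ‖h x‖ ^ 2) ^ (1 / k) * Real.exp (-E) := by
    have e1 : vq k g h q s x = Real.log (‖g x‖ ^ 2 + ‖h x‖ ^ 2) * (1 / k) + -E := by
      unfold vq lgh
      rw [hE, ← Finset.sum_neg_distrib]
      have e2 : ∀ l, 4 * (- Real.log (- phq q s l x)) = -(4 * Real.log (- phq q s l x)) :=
        fun l => by ring
      simp only [e2]
      ring
    rw [e1, Real.exp_add, Real.rpow_def_of_pos hgh]
  have hsum : 16 * Real.exp (-E) * J2 f q s x * eta2a (n := 2) f θ z ≤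
      (∑ l, ∑ m, a l * a m * ‖jc (fun z => q l (θ z)) (fun z => q m (θ z)) z‖ ^ 2) / 2 := by
    unfold J2
    have e1 : 16 * Real.exp (-E) * ((∑ l, ∑ m, ‖Dt f (q l) (q m) x‖ ^ 2 /
        (sqq q s l x * sqq q s m x)) / 2) * eta2a (n := 2) f θ z =
        (∑ l, ∑ m, 16 * Real.exp (-E) * (sqq q s l x * sqq q s m x)⁻¹ *
          (‖Dt f (q l) (q m) x‖ ^ 2 * eta2a (n := 2) f θ z)) / 2 := by
      rw [mul_div_assoc', div_mul_eq_mul_div, Finset.mul_sum, Finset.sum_mul]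
      congr 1
      refine Finset.sum_congr rfl fun l _ => ?_
      rw [Finset.mul_sum, Finset.sum_mul]
      refine Finset.sum_congr rfl fun m _ => ?_
      rw [div_eq_mul_inv]
      ring
    rw [e1]
    refine div_le_div_of_nonneg_right ?_ two_pos.le
    refine Finset.sum_le_sum fun l _ => Finset.sum_le_sum fun m _ => ?_
    rw [hj l m]
    exact mul_le_mul_of_nonneg_right (haa l m) (mul_nonneg (sq_nonneg _) heta)
  refine le_trans ?_ hsum
  rw [hexp]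
  have h2 : 0 ≤ 16 * Real.exp (-E) * eta2a (n := 2) f θ z := by positivity
  calc 16 * c * ((‖g x‖ ^ 2 + ‖h x‖ ^ 2) ^ (1 / k) * Real.exp (-E)) * eta2a (n := 2) f θ z
      = (16 * Real.exp (-E) * eta2a (n := 2) f θ z) * (c * (‖g x‖ ^ 2 + ‖h x‖ ^ 2) ^ (1 / k)) := by
        ring
    _ ≤ (16 * Real.exp (-E) * eta2a (n := 2) f θ z) * J2 f q s x :=
        mul_le_mul_of_nonneg_left hc h2
    _ = _ := by ring

end pt

/-- **lower bound**: `v ≤ u + C` -/
theorem lowV {u : E3 → ℝ} {A : ℝ} (hf : LvlOK f 0 r) (hK : KEon f 0 r u) (hE : Esc f r u A)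
    {ρ : ℝ} (h0 : 0 < ρ) (hρ : ρ < r) (hQ : QOK f r g h q s) {k : ℝ} (hk : 0 < k) {c : ℝ}
    (hc : 0 < c) (hii : ∀ x, f x = 0 → x ≠ 0 → nsq x < r ^ 2 →
      c * (‖g x‖ ^ 2 + ‖h x‖ ^ 2) ^ (1 / k) ≤ J2 f q s x) :
    ∃ C : ℝ, ∀ x, f x = 0 → x ≠ 0 → nsq x ≤ ρ ^ 2 → vq k g h q s x ≤ u x + C := by
  refine lowK hf hK hE h0 hρ (w := vq k g h q s) (c := 16 * c)
    (fun θ O hP z hz => (sm_vq hP hQ k hz).contDiffWithinAt) (fun θ O hP z hz v => ?_)
    (by positivity)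
    (fun θ O hP z hz => det_v hP hQ hf hk hz (hii _ (hP.par.lvl z hz) (hP.ne z hz) (hP.lt z hz)))
  rw [lev333_eq_lev145]
  have h1 := lev_v hP hQ hk hz v
  have h2 : 0 ≤ ∑ l, (4 * ((phq q s l (θ z))⁻¹ ^ 2 * (sqq q s l (θ z))⁻¹)) *
      ‖fderiv ℂ (fun z => q l (θ z)) z v‖ ^ 2 := by
    refine Finset.sum_nonneg fun l _ => ?_
    have := hQ.pos _ (hP.par.lvl z hz) (hP.ne z hz) (hP.lt z hz) l
    positivity
  linarith

end

end Crest.Agent.R257.PairK_39
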