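import Crest.Agent.R257.MsJ4_617
import Crest.Agent.R257.PairK3_39

/-!
R257 / MsJ5_617 (helper617), leaf GB-MASSJ, part 5: systems of germs (structure `QOK` of helper39).

* `tr_bd`    : `det G X(v,v) ≤ pd(G,X) G(v,v)` for 2×2 psd matrices
* `sq_bd`    : `|dF(v)|² ≤ tr_ω(∂F ⊗ ∂̄F) ω(v,v)`,  `tr_ω(∂F ⊗ ∂̄F) = tr2 f u F = e^{-u} mxd f u ‖F‖²`
* `TT`       : `T = ∑_l e^{-φ_l} tr_ω(∂q_l ⊗ ∂̄q_l)`
* `phq_psh`, `phq_bd` : the weights are psh, `|φ_l| ≤ B (A - u)`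
* `TT_mass`  : `∫_{A - u ≤ R} χ T e^u ≤ C R²`
* `TT_jensen`: `∫_{j ≤ log (A-u) ≤ 2j} χ V² e^u ≤ ε j²` if `|V| ≤ C' (1 + log (A-u) + log (e + T))`
* `log_of_up`: `u ≤ ψ/k + C` near `0` ⟹ `- log ‖x‖ ≤ B (A - u)`
-/

set_option autoImplicit false
set_option linter.unusedSectionVars false

open Topology Filter MeasureTheory Set
open scoped ENNReal ContDiff Matrix ComplexOrder ComplexConjugate

noncomputable section

namespace Crest.Agent.R257.MsJ_617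

open Crest.Agent.R275.Geo
open Crest.Agent.R273.Defs_333 (lev)
open Crest.Agent.R273.HessB_333
open Crest.Agent.R273.Hess_333
open Crest.Agent.R273.YauDefs_635 (cH lev333_eq_lev145)
open Crest.Agent.R273.YauMax_635 (cH_eq_hess)
open Crest.Agent.R273 (Levi_145.sumSq Levi_145.lev)
open Crest.Agent.R257.Defs_219 Crest.Agent.R257.KED_952 Crest.Agent.R257.KEG_952
open Crest.Agent.R257.V1Defs_822
open Crest.Agent.R257.V1Pe_822 Crest.Agent.R257.V1W_822 Crest.Agent.R257.UpK_938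
open Crest.Agent.R257.Bridge_822 Crest.Agent.R257.CmpL_822
open Crest.Agent.R257.PN_835 (nsq)
open Crest.Agent.R257.Aff_835 (eta2a)
open Crest.Agent.R257.C2F1_625 (pd)
open Crest.Agent.R257.CLogD_39 (fib sqq phq)
open Crest.Agent.R257.PairK_39 (QOK Fq sqq_eq anF neF sm_ph anal_par)

/-! ### 2 × 2 matrices -/

/-- the Hermitian form `∑ X_ab v_a conj v_b` -/
def qf (X : Matrix (Fin 2) (Fin 2) ℂ) (v : Fin 2 → ℂ) : ℂ := ∑ a, ∑ b, X a b * v a * conj (v b)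

theorem qf_nonneg {X : Matrix (Fin 2) (Fin 2) ℂ} (hX : X.PosSemidef) (v : Fin 2 → ℂ) :
    0 ≤ qf X v := by
  have h := hX.dotProduct_mulVec_nonneg (fun a => conj (v a))
  have e : star (fun a => conj (v a)) ⬝ᵥ (X *ᵥ fun a => conj (v a)) = qf X v := by
    unfold qf
    simp only [dotProduct, Matrix.mulVec, Pi.star_apply, RCLike.star_def, Finset.mul_sum,
      Complex.conj_conj]
    refine Finset.sum_congr rfl fun a _ => Finset.sum_congr rfl fun b _ => ?_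
    ring
  rwa [e] at h

/-- `det G X(v,v) ≤ pd(G,X) G(v,v)` -/
theorem tr_bd {G X : Matrix (Fin 2) (Fin 2) ℂ} (hG : G.PosSemidef) (hX : X.PosSemidef)
    (v : Fin 2 → ℂ) : G.det.re * (qf X v).re ≤ (pd G X).re * (qf G v).re := by
  have c01 : conj (G 0 1) = G 1 0 := hG.1.apply 1 0
  have c10 : conj (G 1 0) = G 0 1 := hG.1.apply 0 1
  have c00 : conj (G 0 0) = G 0 0 := hG.1.apply 0 0
  have c11 : conj (G 1 1) = G 1 1 := hG.1.apply 1 1
  set w : Fin 2 → ℂ := ![-(G 1 0 * conj (v 0) + G 1 1 * conj (v 1)),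
    G 0 0 * conj (v 0) + G 0 1 * conj (v 1)] with hw
  have key : pd G X * qf G v = G.det * qf X v + qf X w := by
    unfold qf pd
    simp only [Fin.sum_univ_two, hw, Matrix.det_fin_two, Matrix.cons_val_zero,
      Matrix.cons_val_one, map_neg, map_add, map_mul, Complex.conj_conj, c01, c10, c00, c11]
    ring
  have h1 := (Complex.le_def.1 (qf_nonneg hX w)).1
  have h2 := (Complex.le_def.1 (qf_nonneg hX v)).2
  have h3 := (Complex.le_def.1 (qf_nonneg hG v)).2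
  have h4 := (Complex.le_def.1 hG.det_nonneg).2
  simp only [Complex.zero_re, Complex.zero_im] at h1 h2 h3 h4
  have h5 := congrArg Complex.re key
  rw [Complex.mul_re, Complex.add_re, Complex.mul_re, ← h2, ← h3, ← h4] at h5
  simp only [mul_zero, sub_zero] at h5
  linarith

variable {f : E3 → ℂ} {r A : ℝ} {u χ : E3 → ℝ}

/-- `tr_ω(∂F ⊗ ∂̄F)` -/
def tr2 (f : E3 → ℂ) (u : E3 → ℝ) (F : E3 → ℂ) (x : E3) : ℝ :=
  Real.exp (-u x) * mxd f u (fun y => ‖F y‖ ^ 2) x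

theorem qf_lev {a : Cn 2 → ℝ} {z : Cn 2} (ha : ContDiffAt ℝ ∞ a z) (v : Cn 2) :
    (qf (hess a z) (fun i => v i)).re = R273.Levi_145.lev a z v := by
  have h1 := hq_real ha v
  rw [lev333_eq_lev145] at h1
  have e : qf (hess a z) (fun i => v i) = hq a z v := by
    unfold qf hq
    refine Finset.sum_congr rfl fun a _ => Finset.sum_congr rfl fun b _ => ?_
    ring
  rw [e, h1, Complex.ofReal_re]
  ring

/-- a sum of squares of holomorphic functions along a parametrisation -/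
theorem an_comp {F : E3 → ℂ} {θ : Cn 2 → E3} {O : Set (Cn 2)} (h : PE f 0 r θ O) {z : Cn 2}
    (hz : z ∈ O) (hF : AnalyticAt ℂ F (θ z)) : AnalyticAt ℂ (fun z => F (θ z)) z :=
  hF.comp (anal_par h.par hz)

theorem smL_nsq {F : E3 → ℂ} (hF : ∀ x, nsq x < r ^ 2 → AnalyticAt ℂ F x) :
    SmL f 0 r fun y => ‖F y‖ ^ 2 := by
  intro θ O h z hz
  have h1 := an_comp h hz (hF _ (h.lt z hz))
  exact ((h1.contDiffAt (n := ∞)).restrict_scalars ℝ).norm_sq ℝ |>.contDiffWithinAt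

theorem lev_sum {ι : Type*} {S : Finset ι} {F : ι → E3 → ℂ} {θ : Cn 2 → E3}
    {O : Set (Cn 2)} (h : PE f 0 r θ O) {z : Cn 2} (hz : z ∈ O)
    (hF : ∀ m ∈ S, AnalyticAt ℂ (F m) (θ z)) (v : Cn 2) :
    R273.Levi_145.lev (fun z => ∑ m ∈ S, ‖F m (θ z)‖ ^ 2) z v =
      ∑ m ∈ S, ‖fderiv ℂ (fun z => F m (θ z)) z v‖ ^ 2 := by
  have h1 := R273.Levi_145.lev_sumSq (F := fun (m : S) z => F m.1 (θ z))
    (fun m => an_comp h hz (hF m.1 m.2)) v
  have e1 : R273.Levi_145.sumSq (fun (m : S) z => F m.1 (θ z)) = fun z =>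
      ∑ m ∈ S, ‖F m (θ z)‖ ^ 2 := by
    funext z
    unfold R273.Levi_145.sumSq
    exact Finset.sum_coe_sort S fun m => ‖F m (θ z)‖ ^ 2
  rw [e1] at h1
  rw [h1]
  exact Finset.sum_coe_sort S fun m => ‖fderiv ℂ (fun z => F m (θ z)) z v‖ ^ 2

/-- **`|dF(v)|² ≤ tr_ω(∂F ⊗ ∂̄F) ω(v,v)`** -/
theorem sq_bd (hf : LvlOK f 0 r) (hK : KEon f 0 r u) {F : E3 → ℂ}
    (hF : ∀ x, nsq x < r ^ 2 → AnalyticAt ℂ F x) {θ : Cn 2 → E3} {O : Set (Cn 2)}
    (h : PE f 0 r θ O) {z : Cn 2} (hz : z ∈ O) (v : Cn 2) :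
    ‖fderiv ℂ (fun z => F (θ z)) z v‖ ^ 2 ≤
      tr2 f u F (θ z) * R273.Levi_145.lev (fun z => u (θ z)) z v := by
  have sF : SmL f 0 r fun y => ‖F y‖ ^ 2 := smL_nsq hF
  have h1 := (Crest.Agent.R257.Ked2_397.denStmt f 0 r hf.pos hf.an hf.sm _ _ h).1 u
    (fun y => ‖F y‖ ^ 2) (hK.sm _ _ h) (sF _ _ h) z hz
  have h2 := hK.ma _ _ h z hz
  have e := eta_pos hK h hz
  have su := smAt (a := u) hK.sm h hz
  have sFz := smAt sF h hz
  rw [cH_eq_hess su, cH_eq_hess sFz] at h1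
  rw [cH_eq_hess su] at h2
  have hl : ∀ v, R273.Levi_145.lev (fun z => ‖F (θ z)‖ ^ 2) z v =
      ‖fderiv ℂ (fun z => F (θ z)) z v‖ ^ 2 := by
    intro v
    have := lev_sum (S := ({()} : Finset Unit)) (F := fun _ => F) h hz
      (fun _ _ => hF _ (h.lt z hz)) v
    simpa using this
  have pX : (hess (fun z => ‖F (θ z)‖ ^ 2) z).PosSemidef := by
    refine posSemidef_hess sFz fun v => ?_
    rw [lev333_eq_lev145, hl]
    positivity
  have h3 := tr_bd (ke_psd hK h hz) pX (fun i => v i)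
  rw [qf_lev su, qf_lev sFz, hl, h2, Complex.ofReal_re, ← h1] at h3
  have h4 : Real.exp (u (θ z)) * ‖fderiv ℂ (fun z => F (θ z)) z v‖ ^ 2 ≤
      mxd f u (fun y => ‖F y‖ ^ 2) (θ z) * R273.Levi_145.lev (fun z => u (θ z)) z v := by
    have : eta2a (n := 2) f θ z * (Real.exp (u (θ z)) *
        ‖fderiv ℂ (fun z => F (θ z)) z v‖ ^ 2) ≤ eta2a (n := 2) f θ z *
        (mxd f u (fun y => ‖F y‖ ^ 2) (θ z) * R273.Levi_145.lev (fun z => u (θ z)) z v) := by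
      linarith
    exact le_of_mul_le_mul_left this e
  have h5 : Real.exp (-u (θ z)) * Real.exp (u (θ z)) = 1 := by
    rw [← Real.exp_add]
    simp
  calc ‖fderiv ℂ (fun z => F (θ z)) z v‖ ^ 2
      = Real.exp (-u (θ z)) * (Real.exp (u (θ z)) * ‖fderiv ℂ (fun z => F (θ z)) z v‖ ^ 2) := by
        rw [← mul_assoc, h5, one_mul]
    _ ≤ Real.exp (-u (θ z)) * (mxd f u (fun y => ‖F y‖ ^ 2) (θ z) *
          R273.Levi_145.lev (fun z => u (θ z)) z v) :=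
        mul_le_mul_of_nonneg_left h4 (Real.exp_pos _).le
    _ = _ := by
        unfold tr2
        ring

/-! ### systems -/

variable {L : ℕ} {q : Fin L → E3 → ℂ} {s : Fin L → ℕ} {g h : E3 → ℂ}

/-- a finite sum of squares is smooth and psh on the level -/
theorem smL_sumsq (S : Finset (Fin L)) (hq : ∀ l x, nsq x < r ^ 2 → AnalyticAt ℂ (q l) x) :
    SmL f 0 r fun y => ∑ m ∈ S, ‖q m y‖ ^ 2 := fun θ O h =>
  ContDiffOn.sum fun m _ => smL_nsq (f := f) (hq m) θ O h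

theorem psh_sumsq (S : Finset (Fin L)) (hq : ∀ l x, nsq x < r ^ 2 → AnalyticAt ℂ (q l) x)
    (θ : Cn 2 → E3) (O : Set (Cn 2)) (h : PE f 0 r θ O) (z : Cn 2) (hz : z ∈ O) (v : Cn 2) :
    0 ≤ lev (fun z => ∑ m ∈ S, ‖q m (θ z)‖ ^ 2) z v := by
  rw [lev333_eq_lev145, lev_sum h hz (fun m _ => hq m _ (h.lt z hz))]
  have : 0 ≤ ∑ m ∈ S, ‖fderiv ℂ (fun z => q m (θ z)) z v‖ ^ 2 :=
    Finset.sum_nonneg fun _ _ => sq_nonneg _
  linarith

theorem phq_smL (hQ : QOK f r g h q s) (l : Fin L) : SmL f 0 r (phq q s l) := fun _ _ hP _ hz =>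
  (sm_ph hP hQ l hz).contDiffWithinAt

theorem phq_psh (hQ : QOK f r g h q s) (l : Fin L) (θ : Cn 2 → E3) (O : Set (Cn 2))
    (hP : PE f 0 r θ O) (z : Cn 2) (hz : z ∈ O) (v : Cn 2) :
    0 ≤ lev (fun z => phq q s l (θ z)) z v := by
  have e : (fun z => phq q s l (θ z)) = fun z =>
      Real.log (R273.Levi_145.sumSq (Fq q s θ l) z) := by
    funext z
    unfold phq
    rw [sqq_eq]
  rw [e, lev333_eq_lev145]
  have := R273.Levi_145.lev_log_sumSq_nonneg (fun m => anF hP hQ l m hz) (neF hP hQ l hz) v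
  linarith

/-- `|φ_l| ≤ B (A - u)` -/
theorem phq_bd (hE : Esc f r u A) (hQ : QOK f r g h q s) {N : ℕ} {c B₀ : ℝ} (hc : 0 < c)
    (hlo : ∀ x, f x = 0 → x ≠ 0 → nsq x < r ^ 2 → ∀ l, c * ‖x‖ ^ N ≤ sqq q s l x)
    (hlog : ∀ x, f x = 0 → x ≠ 0 → nsq x < r ^ 2 → - Real.log ‖x‖ ≤ B₀ * (A - u x)) (l : Fin L)
    (x : E3) (hx : f x = 0) (hx0 : x ≠ 0) (hxr : nsq x < r ^ 2) :
    |phq q s l x| ≤ (|Real.log c| + N * B₀) * (A - u x) ^ 1 := by
  have h1 := hQ.le x hx hx0 hxr l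
  have h2 : 0 < ‖x‖ := norm_pos_iff.2 hx0
  have h3 : Real.log c + N * Real.log ‖x‖ ≤ phq q s l x := by
    unfold phq
    rw [← Real.log_pow, ← Real.log_mul hc.ne' (by positivity)]
    exact Real.log_le_log (by positivity) (hlo x hx hx0 hxr l)
  have h4 := hlog x hx hx0 hxr
  have h5 := hE.one x hx hx0 hxr
  rw [abs_of_neg (by linarith), pow_one]
  have h6 := neg_abs_le (Real.log c)
  have h7 : |Real.log c| ≤ |Real.log c| * (A - u x) :=
    le_mul_of_one_le_right (abs_nonneg _) h5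
  have h8 : (N : ℝ) * (- Real.log ‖x‖) ≤ N * (B₀ * (A - u x)) :=
    mul_le_mul_of_nonneg_left h4 (Nat.cast_nonneg N)
  nlinarith

/-- `T = ∑_l e^{-φ_l} tr_ω(∂q_l ⊗ ∂̄q_l)` -/
def TT (f : E3 → ℂ) (u : E3 → ℝ) (q : Fin L → E3 → ℂ) (s : Fin L → ℕ) (x : E3) : ℝ :=
  ∑ l, (sqq q s l x)⁻¹ * tr2 f u (q l) x

theorem tr2_nonneg (hf : LvlOK f 0 r) (hK : KEon f 0 r u) {F : E3 → ℂ}
    (hF : ∀ x, nsq x < r ^ 2 → AnalyticAt ℂ F x) {x : E3} (hx : f x = 0) (hx0 : x ≠ 0)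
    (hxr : nsq x < r ^ 2) : 0 ≤ tr2 f u F x := by
  refine mul_nonneg (Real.exp_pos _).le (mxd_nonneg hf hK (smL_nsq hF) ?_ hx0 hxr hx)
  intro θ O h z hz v
  have := lev_sum (S := ({()} : Finset Unit)) (F := fun _ => F) h hz
    (fun _ _ => hF _ (h.lt z hz)) v
  simp only [Finset.sum_singleton] at this
  rw [lev333_eq_lev145, this]
  positivity

/-- `∑_l e^{-φ_l} |dq_l(v)|² ≤ T ω(v,v)` -/
theorem K_bd (hf : LvlOK f 0 r) (hK : KEon f 0 r u) (hQ : QOK f r g h q s) {θ : Cn 2 → E3}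
    {O : Set (Cn 2)} (hP : PE f 0 r θ O) {z : Cn 2} (hz : z ∈ O) (v : Cn 2) :
    ∑ l, (sqq q s l (θ z))⁻¹ * ‖fderiv ℂ (fun z => q l (θ z)) z v‖ ^ 2 ≤
      TT f u q s (θ z) * R273.Levi_145.lev (fun z => u (θ z)) z v := by
  unfold TT
  rw [Finset.sum_mul]
  refine Finset.sum_le_sum fun l _ => ?_
  have h1 := hQ.pos _ (hP.par.lvl z hz) (hP.ne z hz) (hP.lt z hz) l
  rw [mul_assoc]
  exact mul_le_mul_of_nonneg_left (sq_bd hf hK (hQ.anq l) hP hz v) (by positivity)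

theorem TT_nonneg (hf : LvlOK f 0 r) (hK : KEon f 0 r u) (hQ : QOK f r g h q s) {x : E3}
    (hx : f x = 0) (hx0 : x ≠ 0) (hxr : nsq x < r ^ 2) : 0 ≤ TT f u q s x :=
  Finset.sum_nonneg fun l _ => mul_nonneg (inv_nonneg.2 (hQ.pos x hx hx0 hxr l).le)
    (tr2_nonneg hf hK (hQ.anq l) hx hx0 hxr)

theorem TT_cont (hf : LvlOK f 0 r) (hK : KEon f 0 r u) (hQ : QOK f r g h q s) :
    Continuous fun x : (LX hf).M 0 => TT f u q s x.1 := by
  unfold TT tr2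
  refine continuous_finsetSum _ fun l _ => ?_
  refine Continuous.mul (Continuous.inv₀ ?_ fun x => ?_) (Continuous.mul
    (Real.continuous_exp.comp (cont_val hf (smL_ctl hK.sm)).neg)
    (cont_mxd hf hK.sm (smL_nsq (hQ.anq l))))
  · exact cont_val hf (smL_ctl (smL_sumsq (fib s l) hQ.anq))
  · obtain ⟨m1, m2, m3⟩ := mem_M hf x
    exact (hQ.pos x.1 m1 m2 m3 l).ne'

/-- one term of `T e^u` is bounded by the density of `mass_two` -/
theorem term_le (hf : LvlOK f 0 r) (hK : KEon f 0 r u) (hQ : QOK f r g h q s) (l : Fin L) {x : E3}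
    (hx : f x = 0) (hx0 : x ≠ 0) (hxr : nsq x < r ^ 2) :
    (sqq q s l x)⁻¹ * tr2 f u (q l) x * Real.exp (u x) ≤
      Real.exp (-phq q s l x) * mxd f u (fun y => Real.exp (phq q s l y)) x := by
  have hp := hQ.pos x hx hx0 hxr l
  have e1 : Real.exp (-phq q s l x) = (sqq q s l x)⁻¹ := by
    unfold phq
    rw [Real.exp_neg, Real.exp_log hp]
  have e2 : tr2 f u (q l) x * Real.exp (u x) = mxd f u (fun y => ‖q l y‖ ^ 2) x := by
    unfold tr2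
    rw [mul_comm (Real.exp (-u x)), mul_assoc, ← Real.exp_add]
    simp
  have hmem : l ∈ fib s l := Finset.mem_filter.2 ⟨Finset.mem_univ l, rfl⟩
  have e3 : mxd f u (fun y => Real.exp (phq q s l y)) x =
      mxd f u (fun y => ‖q l y‖ ^ 2 + ∑ m ∈ (fib s l).erase l, ‖q m y‖ ^ 2) x := by
    refine mxd_loc ?_
    filter_upwards [mem_L_ev (r := r) hx hx0 hxr] with y hy hy2
    obtain ⟨a1, a2, a3⟩ := hy hy2
    show Real.exp (Real.log (sqq q s l y)) = _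
    rw [Real.exp_log (hQ.pos y a1 a2 a3 l)]
    exact (Finset.add_sum_erase _ (fun m => ‖q m y‖ ^ 2) hmem).symm
  rw [e1, mul_assoc, e2, e3, mxd_add hf hK.sm (smL_nsq (hQ.anq l))
    (smL_sumsq ((fib s l).erase l) hQ.anq) hx0 hxr hx]
  refine mul_le_mul_of_nonneg_left ?_ (inv_nonneg.2 hp.le)
  have := mxd_nonneg hf hK (smL_sumsq ((fib s l).erase l) hQ.anq)
    (psh_sumsq ((fib s l).erase l) hQ.anq) hx0 hxr hx
  linarith

/-- **masses of `T`** -/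
theorem TT_mass (hf : LvlOK f 0 r) (hK : KEon f 0 r u) (hE : Esc f r u A) (hχ : Cut r χ)
    {ν : Measure E3} (hν : IsNu f 0 r ν) (hQ : QOK f r g h q s) {N : ℕ} {c B₀ : ℝ} (hc : 0 < c)
    (hB₀ : 0 ≤ B₀)
    (hlo : ∀ x, f x = 0 → x ≠ 0 → nsq x < r ^ 2 → ∀ l, c * ‖x‖ ^ N ≤ sqq q s l x)
    (hlog : ∀ x, f x = 0 → x ≠ 0 → nsq x < r ^ 2 → - Real.log ‖x‖ ≤ B₀ * (A - u x)) :
    ∃ C : ℝ, 0 ≤ C ∧ ∀ R : ℝ, 1 ≤ R → ∫⁻ x in {x | A - u x ≤ R},
      ENNReal.ofReal (χ x * (TT f u q s x * Real.exp (u x))) ∂ν ≤ ENNReal.ofReal (C * R ^ 2) := by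
  have key := fun l : Fin L => mass_two hf hK hE hχ hν (phq_smL hQ l) (phq_psh hQ l)
    (B := |Real.log c| + N * B₀) (N := 1) (by positivity)
    (phq_bd hE hQ hc hlo hlog l)
  choose C hC0 hC using key
  refine ⟨∑ l, C l, Finset.sum_nonneg fun l _ => hC0 l, fun R hR => ?_⟩
  have hm : ∀ l, AEMeasurable (fun x => ENNReal.ofReal (χ x * (Real.exp (-phq q s l x) *
      mxd f u (fun y => Real.exp (phq q s l y)) x))) ν := by
    intro l
    have hse : SmL f 0 r (fun y => Real.exp (phq q s l y)) :=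
      smL_comp Real.contDiff_exp (phq_smL hQ l)
    have : Continuous fun x : (LX hf).M 0 => χ x.1 * (Real.exp (-phq q s l x.1) *
        mxd f u (fun y => Real.exp (phq q s l y)) x.1) :=
      (cont_val hf (smL_ctl (cut_smL hχ))).mul ((Real.continuous_exp.comp
        (cont_val hf (smL_ctl (phq_smL hQ l))).neg).mul (cont_mxd hf hK.sm hse))
    exact (CmpL_822.aemeas_nu hf hν this).ennreal_ofReal
  calc ∫⁻ x in {x | A - u x ≤ R}, ENNReal.ofReal (χ x * (TT f u q s x * Real.exp (u x))) ∂ν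
      ≤ ∫⁻ x in {x | A - u x ≤ R}, ∑ l, ENNReal.ofReal (χ x * (Real.exp (-phq q s l x) *
          mxd f u (fun y => Real.exp (phq q s l y)) x)) ∂ν := by
        refine lintegral_mono_ae (ae_restrict_of_ae (isNu_ae hν fun x hx0 hxr hx => ?_))
        rw [← ENNReal.ofReal_sum_of_nonneg]
        · refine ENNReal.ofReal_le_ofReal ?_
          rw [← Finset.mul_sum]
          refine mul_le_mul_of_nonneg_left ?_ (hχ.nn x)
          unfold TT
          rw [Finset.sum_mul]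
          exact Finset.sum_le_sum fun l _ => term_le hf hK hQ l hx hx0 hxr
        · intro l _
          refine mul_nonneg (hχ.nn x) ?_
          refine le_trans ?_ (term_le hf hK hQ l hx hx0 hxr)
          exact mul_nonneg (mul_nonneg (inv_nonneg.2 (hQ.pos x hx hx0 hxr l).le)
            (tr2_nonneg hf hK (hQ.anq l) hx hx0 hxr)) (Real.exp_pos _).le
    _ = ∑ l, ∫⁻ x in {x | A - u x ≤ R}, ENNReal.ofReal (χ x * (Real.exp (-phq q s l x) *
          mxd f u (fun y => Real.exp (phq q s l y)) x)) ∂ν :=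
        lintegral_finsetSum' _ fun l _ => (hm l).restrict
    _ ≤ ∑ l, ENNReal.ofReal (C l * R ^ (2 * 1)) := Finset.sum_le_sum fun l _ => hC l R hR
    _ = ENNReal.ofReal ((∑ l, C l) * R ^ 2) := by
        rw [← ENNReal.ofReal_sum_of_nonneg fun l _ => mul_nonneg (hC0 l) (by positivity),
          ← Finset.sum_mul]

/-- **Jensen for `T`** -/
theorem TT_jensen (hf : LvlOK f 0 r) (hK : KEon f 0 r u) (hE : Esc f r u A) (hχ : Cut r χ)
    {ν : Measure E3} (hν : IsNu f 0 r ν) (hV : VOL ν u χ < ⊤) (hQ : QOK f r g h q s) {N : ℕ}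
    {c B₀ : ℝ} (hc : 0 < c) (hB₀ : 0 ≤ B₀)
    (hlo : ∀ x, f x = 0 → x ≠ 0 → nsq x < r ^ 2 → ∀ l, c * ‖x‖ ^ N ≤ sqq q s l x)
    (hlog : ∀ x, f x = 0 → x ≠ 0 → nsq x < r ^ 2 → - Real.log ‖x‖ ≤ B₀ * (A - u x))
    {V : E3 → ℝ} {C' : ℝ} (hC' : 0 ≤ C')
    (hVb : ∀ x, f x = 0 → x ≠ 0 → nsq x < r ^ 2 →
      |V x| ≤ C' * (1 + Real.log (A - u x) + Real.log (Real.exp 1 + TT f u q s x))) {ε : ℝ}
    (hε : 0 < ε) :
    ∀ᶠ j : ℝ in atTop, ∫⁻ x in Sh u A j,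
      ENNReal.ofReal (χ x * (V x ^ 2 * Real.exp (u x))) ∂ν ≤ ENNReal.ofReal (ε * j ^ 2) := by
  obtain ⟨C, hC, hM⟩ := TT_mass hf hK hE hχ hν hQ hc hB₀ hlo hlog
  exact jensenV (CmpL_822.aemeas_nu hf hν (cont_val hf (smL_ctl hK.sm))) hχ.nn
    (CmpL_822.aemeas_nu hf hν (cont_val hf (smL_ctl (cut_smL hχ)))) hV
    (CmpL_822.aemeas_nu hf hν (TT_cont hf hK hQ))
    (isNu_ae hν fun x hx0 hxr hx => TT_nonneg hf hK hQ hx hx0 hxr)
    (isNu_ae hν fun x hx0 hxr hx => hE.one x hx hx0 hxr) hC hM hC'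
    (isNu_ae hν fun x hx0 hxr hx => hVb x hx hx0 hxr) hε

/-- `u ≤ ψ/k + C` near `0` implies `- log ‖x‖ ≤ B (A - u)` near `0` -/
theorem log_of_up {k : ℝ} (hk : 0 < k) (hg : AnalyticAt ℂ g 0) (hh : AnalyticAt ℂ h 0)
    (g0 : g 0 = 0) (h0 : h 0 = 0)
    (hgh : ∀ x, f x = 0 → x ≠ 0 → nsq x < r ^ 2 → 0 < ‖g x‖ ^ 2 + ‖h x‖ ^ 2)
    (hone : ∀ x, f x = 0 → x ≠ 0 → nsq x < r ^ 2 → 1 ≤ A - u x) {C : ℝ}
    (hup : ∀ x, f x = 0 → x ≠ 0 → nsq x < r ^ 2 → u x ≤ 1 / k * lgh g h x + C) :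
    ∃ ρ B₀ : ℝ, 0 < ρ ∧ 0 ≤ B₀ ∧ ∀ x, f x = 0 → x ≠ 0 → nsq x < ρ ^ 2 → nsq x < r ^ 2 →
      - Real.log ‖x‖ ≤ B₀ * (A - u x) := by
  have b : ∀ {F : E3 → ℂ}, AnalyticAt ℂ F 0 → F 0 = 0 → ∃ K : ℝ, 0 < K ∧
      ∀ᶠ x in 𝓝 (0 : E3), ‖F x‖ ≤ K * ‖x‖ := by
    intro F hF hF0
    obtain ⟨K, hK, h1⟩ := hF.differentiableAt.isBigO_sub.exists_pos
    refine ⟨K, hK, ?_⟩
    filter_upwards [h1.bound] with x hx
    simpa [hF0] using hx
  obtain ⟨K1, k1, e1⟩ := b hg g0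
  obtain ⟨K2, k2, e2⟩ := b hh h0
  obtain ⟨ρ, hρ, e⟩ := V1W_822.nsq_lt_of (e1.and e2)
  set K := K1 ^ 2 + K2 ^ 2 with hK
  have hK0 : 0 < K := by positivity
  refine ⟨ρ, k / 2 * (1 + |1 / k * Real.log K + C - A|), hρ, by positivity,
    fun x hx hx0 hxρ hxr => ?_⟩
  obtain ⟨a1, a2⟩ := e x hxρ
  have n0 : 0 < ‖x‖ := norm_pos_iff.2 hx0
  have h1 : ‖g x‖ ^ 2 + ‖h x‖ ^ 2 ≤ K * ‖x‖ ^ 2 := by
    have b1 : ‖g x‖ ^ 2 ≤ (K1 * ‖x‖) ^ 2 := pow_le_pow_left₀ (norm_nonneg _) a1 2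
    have b2 : ‖h x‖ ^ 2 ≤ (K2 * ‖x‖) ^ 2 := pow_le_pow_left₀ (norm_nonneg _) a2 2
    rw [hK]
    nlinarith
  have h2 : lgh g h x ≤ Real.log K + 2 * Real.log ‖x‖ := by
    unfold lgh
    calc Real.log (‖g x‖ ^ 2 + ‖h x‖ ^ 2) ≤ Real.log (K * ‖x‖ ^ 2) :=
          Real.log_le_log (hgh x hx hx0 hxr) h1
      _ = _ := by
          rw [Real.log_mul hK0.ne' (by positivity), Real.log_pow]
          push_cast
          ring
  have h3 := hup x hx hx0 hxr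
  have h4 := hone x hx hx0 hxr
  have h5 : 1 / k * lgh g h x ≤ 1 / k * (Real.log K + 2 * Real.log ‖x‖) :=
    mul_le_mul_of_nonneg_left h2 (by positivity)
  set D := 1 / k * Real.log K + C - A with hD
  have h6 : 2 / k * (- Real.log ‖x‖) ≤ (1 + |D|) * (A - u x) := by
    have h7 : 2 / k * (- Real.log ‖x‖) ≤ (A - u x) + D := by
      have e3 : 1 / k * (Real.log K + 2 * Real.log ‖x‖) =
          1 / k * Real.log K - 2 / k * (- Real.log ‖x‖) := by ring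
      rw [e3] at h5
      linarith
    have h8 : D ≤ |D| * (A - u x) := (le_abs_self D).trans
      (le_mul_of_one_le_right (abs_nonneg _) h4)
    linarith
  have h9 : - Real.log ‖x‖ = k / 2 * (2 / k * (- Real.log ‖x‖)) := by
    field_simp
  rw [h9, mul_assoc]
  exact mul_le_mul_of_nonneg_left h6 (by positivity)

end Crest.Agent.R257.MsJ_617
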