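import Crest.Agent.R257.MsJ5_617

/-!
R257 / MsJ6_617 (helper617), leaf GB-MASSJ, part 6: the cumulative form of the Jensen estimate
(as in `KUP_952.Trl`).

* `jensen_cum` : `∫_{log (A-u) ≤ R} χ V² e^u ≤ C R²` for `R ≥ 1`
* `TT_cum`     : the same for systems of germs (helper39's `QOK`)
-/

set_option autoImplicit false
set_option linter.unusedSectionVars false

open Topology Filter MeasureTheory Set
open scoped ENNReal ContDiff Matrix ComplexOrder ComplexConjugate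

noncomputable section

namespace Crest.Agent.R257.MsJ_617

open Crest.Agent.R275.Geo
open Crest.Agent.R257.Defs_219 Crest.Agent.R257.KED_952 Crest.Agent.R257.KEG_952
open Crest.Agent.R257.V1Defs_822
open Crest.Agent.R257.V1Pe_822 Crest.Agent.R257.UpK_938
open Crest.Agent.R257.Bridge_822 Crest.Agent.R257.CmpL_822
open Crest.Agent.R257.PN_835 (nsq)
open Crest.Agent.R257.CLogD_39 (fib sqq phq)
open Crest.Agent.R257.PairK_39 (QOK)

variable {f : E3 → ℂ} {r A : ℝ} {u χ : E3 → ℝ}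

/-- **cumulative Jensen estimate** -/
theorem jensen_cum {ν : Measure E3} (hu : AEMeasurable u ν) (hχ0 : ∀ x, 0 ≤ χ x)
    (hχu : AEMeasurable (fun x => χ x) ν) (hV : VOL ν u χ < ⊤) {T : E3 → ℝ}
    (hT : AEMeasurable T ν) (hT0 : ∀ᵐ x ∂ν, 0 ≤ T x) (hone : ∀ᵐ x ∂ν, 1 ≤ A - u x) {C : ℝ} {N : ℕ}
    (hC : 0 ≤ C)
    (hM : ∀ R : ℝ, 1 ≤ R → ∫⁻ x in {x | A - u x ≤ R},
      ENNReal.ofReal (χ x * (T x * Real.exp (u x))) ∂ν ≤ ENNReal.ofReal (C * R ^ N))
    {V : E3 → ℝ} {C' : ℝ} (hC' : 0 ≤ C')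
    (hVb : ∀ᵐ x ∂ν, |V x| ≤ C' * (1 + Real.log (A - u x) + Real.log (Real.exp 1 + T x))) :
    ∃ D : ℝ, 0 ≤ D ∧ ∀ R : ℝ, 1 ≤ R → ∫⁻ x in {x | Real.log (A - u x) ≤ R},
      ENNReal.ofReal (χ x * (V x ^ 2 * Real.exp (u x))) ∂ν ≤ ENNReal.ofReal (D * R ^ 2) := by
  set W : ℝ := (VOL ν u χ).toReal with hW
  have hW0 : 0 ≤ W := ENNReal.toReal_nonneg
  set K : ℝ := (C' + 1) ^ 2 * (2 * 4 + 2 * (2 * (N + 2) ^ 2)) with hK
  have hK0 : 0 ≤ K := by positivity
  refine ⟨K * W + 16 * (C' + 1) ^ 2 * C, by positivity, fun R hR => ?_⟩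
  set m : ℝ := Real.exp (N * R) with hm
  have hm0 : 0 < m := Real.exp_pos _
  have hmN : Real.exp R ^ N = m := by
    rw [hm, ← Real.exp_nat_mul]
  have hR1 : 1 ≤ Real.exp R := Real.one_le_exp (by linarith)
  have hlm : Real.log (Real.exp 1 + m) ^ 2 ≤ (N + 2) ^ 2 * R ^ 2 := by
    have h2 : Real.log (Real.exp 1 + m) ≤ (N + 2) * R := by
      have h3 := log_exp_add (y := N * R) (by positivity)
      rw [← hm] at h3
      nlinarith
    have h4 := one_le_log hm0.le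
    rw [← mul_pow]
    exact pow_le_pow_left₀ (by linarith) h2 2
  have hχe : AEMeasurable (fun x => ENNReal.ofReal (χ x * Real.exp (u x))) ν :=
    (hχu.mul (Real.measurable_exp.comp_aemeasurable hu)).ennreal_ofReal
  have hTe : AEMeasurable (fun x => ENNReal.ofReal (χ x * (T x * Real.exp (u x)))) ν :=
    (hχu.mul (hT.mul (Real.measurable_exp.comp_aemeasurable hu))).ennreal_ofReal
  set S : Set E3 := {x | Real.log (A - u x) ≤ R} with hS
  have mS : NullMeasurableSet S ν := by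
    have h1 : AEMeasurable (fun x => Real.log (A - u x)) ν :=
      Real.measurable_log.comp_aemeasurable (aemeasurable_const.sub hu)
    exact h1.nullMeasurableSet_preimage measurableSet_Iic
  have hM' : ∫⁻ x in S, ENNReal.ofReal (χ x * (T x * Real.exp (u x))) ∂ν ≤
      ENNReal.ofReal (C * m) := by
    have h1 := hM _ hR1
    rw [hmN] at h1
    refine le_trans ?_ h1
    have e : ν.restrict S = ν.restrict (S ∩ {x | 1 ≤ A - u x}) := by
      refine Measure.restrict_congr_set ?_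
      filter_upwards [hone] with x hx
      exact propext ⟨fun h => ⟨h, hx⟩, fun h => h.1⟩
    rw [e]
    refine lintegral_mono_set ?_
    rintro x ⟨hx, hx1⟩
    have hx1' : 1 ≤ A - u x := hx1
    exact (Real.log_le_iff_le_exp (by linarith)).1 hx
  calc ∫⁻ x in S, ENNReal.ofReal (χ x * (V x ^ 2 * Real.exp (u x))) ∂ν
      ≤ ∫⁻ x in S, (ENNReal.ofReal (K * R ^ 2) * ENNReal.ofReal (χ x * Real.exp (u x)) +
          ENNReal.ofReal (16 * (C' + 1) ^ 2 / m) *
            ENNReal.ofReal (χ x * (T x * Real.exp (u x)))) ∂ν := by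
        refine lintegral_mono_ae ?_
        have hSm : ∀ᵐ x ∂ν.restrict S, x ∈ S := ae_restrict_mem₀ mS
        filter_upwards [ae_restrict_of_ae hT0, ae_restrict_of_ae hVb, ae_restrict_of_ae hone, hSm]
          with x hx hVx hx1 hxS
        rw [← ENNReal.ofReal_mul (by positivity), ← ENNReal.ofReal_mul (by positivity),
          ← ENNReal.ofReal_add (mul_nonneg (by positivity)
            (mul_nonneg (hχ0 x) (Real.exp_pos _).le)) (mul_nonneg (by positivity)
            (mul_nonneg (hχ0 x) (mul_nonneg hx (Real.exp_pos _).le)))]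
        refine ENNReal.ofReal_le_ofReal ?_
        have hxS' : Real.log (A - u x) ≤ R := hxS
        have hl0 : 0 ≤ Real.log (A - u x) := Real.log_nonneg hx1
        have h2 := log_sq_le hx hm0
        have h3 : 0 ≤ χ x * Real.exp (u x) := mul_nonneg (hχ0 x) (Real.exp_pos _).le
        set l := Real.log (Real.exp 1 + T x) with hl
        have hl1 : 1 ≤ l := one_le_log hx
        have h4 : |V x| ≤ (C' + 1) * (2 * R + l) := by
          calc |V x| ≤ C' * (1 + Real.log (A - u x) + l) := hVx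
            _ ≤ C' * (2 * R + l) := mul_le_mul_of_nonneg_left (by linarith) hC'
            _ ≤ _ := by nlinarith
        have h5 : V x ^ 2 ≤ (C' + 1) ^ 2 * (2 * (4 * R ^ 2) + 2 * l ^ 2) := by
          rw [← sq_abs]
          calc |V x| ^ 2 ≤ ((C' + 1) * (2 * R + l)) ^ 2 := pow_le_pow_left₀ (abs_nonneg _) h4 2
            _ = (C' + 1) ^ 2 * (2 * R + l) ^ 2 := by ring
            _ ≤ _ := by
                refine mul_le_mul_of_nonneg_left ?_ (sq_nonneg _)
                nlinarith [sq_nonneg (2 * R - l)]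
        have h6 : V x ^ 2 ≤ K * R ^ 2 + 16 * (C' + 1) ^ 2 / m * T x := by
          have h7 : 2 * l ^ 2 ≤ 2 * (2 * ((N + 2) ^ 2 * R ^ 2) + 8 * (T x / m)) := by linarith
          have h8 : (C' + 1) ^ 2 * (2 * (4 * R ^ 2) + 2 * l ^ 2) ≤ (C' + 1) ^ 2 *
              (2 * (4 * R ^ 2) + 2 * (2 * ((N + 2) ^ 2 * R ^ 2) + 8 * (T x / m))) :=
            mul_le_mul_of_nonneg_left (by linarith) (sq_nonneg _)
          have h9 : (C' + 1) ^ 2 *
              (2 * (4 * R ^ 2) + 2 * (2 * ((N + 2) ^ 2 * R ^ 2) + 8 * (T x / m))) =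
              K * R ^ 2 + 16 * (C' + 1) ^ 2 / m * T x := by
            rw [hK]
            ring
          linarith
        calc χ x * (V x ^ 2 * Real.exp (u x)) = V x ^ 2 * (χ x * Real.exp (u x)) := by ring
          _ ≤ (K * R ^ 2 + 16 * (C' + 1) ^ 2 / m * T x) * (χ x * Real.exp (u x)) :=
              mul_le_mul_of_nonneg_right h6 h3
          _ = _ := by ring
    _ = ENNReal.ofReal (K * R ^ 2) * ∫⁻ x in S, ENNReal.ofReal (χ x * Real.exp (u x)) ∂ν +
          ENNReal.ofReal (16 * (C' + 1) ^ 2 / m) *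
            ∫⁻ x in S, ENNReal.ofReal (χ x * (T x * Real.exp (u x))) ∂ν := by
        rw [lintegral_add_left' (hχe.const_mul _).restrict, lintegral_const_mul'' _ hχe.restrict,
          lintegral_const_mul'' _ hTe.restrict]
    _ ≤ ENNReal.ofReal (K * R ^ 2) * ENNReal.ofReal W +
          ENNReal.ofReal (16 * (C' + 1) ^ 2 / m) * ENNReal.ofReal (C * m) := by
        gcongr
        rw [hW, ENNReal.ofReal_toReal hV.ne]
        exact setLIntegral_le_lintegral _ _
    _ = ENNReal.ofReal (K * R ^ 2 * W + 16 * (C' + 1) ^ 2 / m * (C * m)) := by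
        rw [← ENNReal.ofReal_mul (by positivity), ← ENNReal.ofReal_mul (by positivity),
          ← ENNReal.ofReal_add (by positivity) (by positivity)]
    _ ≤ ENNReal.ofReal ((K * W + 16 * (C' + 1) ^ 2 * C) * R ^ 2) := by
        refine ENNReal.ofReal_le_ofReal ?_
        have e1 : 16 * (C' + 1) ^ 2 / m * (C * m) = 16 * (C' + 1) ^ 2 * C := by
          field_simp
        rw [e1]
        have h1 : 1 ≤ R ^ 2 := one_le_pow₀ hR
        have h2 : 0 ≤ 16 * (C' + 1) ^ 2 * C := by positivity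
        nlinarith

variable {L : ℕ} {q : Fin L → E3 → ℂ} {s : Fin L → ℕ} {g h : E3 → ℂ}

/-- cumulative form for systems of germs -/
theorem TT_cum (hf : LvlOK f 0 r) (hK : KEon f 0 r u) (hE : Esc f r u A) (hχ : Cut r χ)
    {ν : Measure E3} (hν : IsNu f 0 r ν) (hV : VOL ν u χ < ⊤) (hQ : QOK f r g h q s) {N : ℕ}
    {c B₀ : ℝ} (hc : 0 < c) (hB₀ : 0 ≤ B₀)
    (hlo : ∀ x, f x = 0 → x ≠ 0 → nsq x < r ^ 2 → ∀ l, c * ‖x‖ ^ N ≤ sqq q s l x)
    (hlog : ∀ x, f x = 0 → x ≠ 0 → nsq x < r ^ 2 → - Real.log ‖x‖ ≤ B₀ * (A - u x))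
    {V : E3 → ℝ} {C' : ℝ} (hC' : 0 ≤ C')
    (hVb : ∀ x, f x = 0 → x ≠ 0 → nsq x < r ^ 2 →
      |V x| ≤ C' * (1 + Real.log (A - u x) + Real.log (Real.exp 1 + TT f u q s x))) :
    ∃ D : ℝ, 0 ≤ D ∧ ∀ R : ℝ, 1 ≤ R → ∫⁻ x in {x | Real.log (A - u x) ≤ R},
      ENNReal.ofReal (χ x * (V x ^ 2 * Real.exp (u x))) ∂ν ≤ ENNReal.ofReal (D * R ^ 2) := by
  obtain ⟨C, hC, hM⟩ := TT_mass hf hK hE hχ hν hQ hc hB₀ hlo hlog
  exact jensen_cum (CmpL_822.aemeas_nu hf hν (cont_val hf (smL_ctl hK.sm))) hχ.nn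
    (CmpL_822.aemeas_nu hf hν (cont_val hf (smL_ctl (cut_smL hχ)))) hV
    (CmpL_822.aemeas_nu hf hν (TT_cont hf hK hQ))
    (isNu_ae hν fun x hx0 hxr hx => TT_nonneg hf hK hQ hx hx0 hxr)
    (isNu_ae hν fun x hx0 hxr hx => hE.one x hx hx0 hxr) hC hM hC'
    (isNu_ae hν fun x hx0 hxr hx => hVb x hx hx0 hxr)

end Crest.Agent.R257.MsJ_617
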