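import Crest.Agent.R257.DetF_219
import Crest.Agent.R257.LcV_980
import Crest.Agent.R257.LcA_980
import Crest.Agent.R257.GA_554

/-!
Row 257 (S0395), leaf MSET-NE (helper980), part 1:
* `card_zeros`: the number of the zeros of `F(y,·)` near `0` is bounded;
* `colFin_axes`: `ColFin ![f, x₁, x₂]` if `f` is regular in `x₀`;
* `inJ1_add`, `inJ1_mul`: `J_1(f)` is an ideal.
-/

set_option autoImplicit false

open Topology Filter Set Metric MeasureTheory
open scoped ENNReal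
open Crest.AlgGeometry Crest.AlgGeometry.Germ Crest.Agent.R257.Defs_219

noncomputable section

namespace Crest.Agent.R257.MsNe_980

universe u

/-- the zeros of `F(y,·)` near `0`: at most `n` -/
theorem card_zeros {E : Type u} [NormedAddCommGroup E] [NormedSpace ℂ E] [FiniteDimensional ℂ E]
    {F : E × ℂ → ℂ} (hF : AnalyticAt ℂ F (0, 0)) (hne : ∃ᶠ w in 𝓝 (0 : ℂ), F (0, w) ≠ 0) :
    ∃ (n : ℕ) (r : ℝ), 0 < r ∧ ∀ y : E, ‖y‖ < r → {w : ℂ | ‖w‖ < r ∧ F (y, w) = 0}.encard ≤ n := by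
  have hnt : analyticOrderAt (fun w => F ((0 : E), w)) 0 ≠ ⊤ := by
    intro h
    rw [analyticOrderAt_eq_top] at h
    exact hne (h.mono fun z hz => by simpa using hz)
  obtain ⟨n, hn⟩ := ENat.ne_top_iff_exists.1 hnt
  obtain ⟨q, c, -, -, h⟩ := Crest.Agent.R275.Loc2879.wdiv hF hn.symm
    (g := fun p : E × ℂ => p.2 ^ n) (analyticAt_snd.pow n)
  obtain ⟨ε, hε, hb⟩ := Metric.eventually_nhds_iff_ball.1 h
  refine ⟨n, ε, hε, fun y hy => ?_⟩
  classical
  set Q : Polynomial ℂ := ∑ j : Fin n, Polynomial.C (c j y) * Polynomial.X ^ (j : ℕ) with hQ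
  have hdeg : Q.degree < (n : WithBot ℕ) := Polynomial.degree_sum_fin_lt _
  set P : Polynomial ℂ := Polynomial.X ^ n - Q with hP
  have hmon : P.Monic := Polynomial.monic_X_pow_sub hdeg
  have hnat : P.natDegree ≤ n := by
    rw [hP]
    refine (Polynomial.natDegree_sub_le _ _).trans (max_le (Polynomial.natDegree_X_pow n).le ?_)
    exact Polynomial.natDegree_le_of_degree_le hdeg.le
  have hsub : {w : ℂ | ‖w‖ < ε ∧ F (y, w) = 0} ⊆ (P.roots.toFinset : Set ℂ) := by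
    rintro w ⟨hw, h0⟩
    have h1 := hb (y, w) (by
      rw [mem_ball, Prod.dist_eq, dist_zero_right, dist_zero_right]
      exact max_lt hy hw)
    simp only [h0, mul_zero, zero_add] at h1
    rw [Finset.mem_coe, Multiset.mem_toFinset, Polynomial.mem_roots hmon.ne_zero,
      Polynomial.IsRoot.def, hP, Polynomial.eval_sub, Polynomial.eval_pow, Polynomial.eval_X, h1,
      hQ, Polynomial.eval_finsetSum]
    simp
  refine (Set.encard_le_encard hsub).trans ?_
  rw [Set.encard_coe_eq_coe_finsetCard]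
  have h2 : P.roots.toFinset.card ≤ n :=
    (Multiset.toFinset_card_le _).trans ((Polynomial.card_roots' P).trans hnat)
  exact_mod_cast h2

theorem analyticAt_cons2 (p : (Fin 2 → ℂ) × ℂ) :
    AnalyticAt ℂ (fun p : (Fin 2 → ℂ) × ℂ => (Fin.cons p.2 p.1 : E3)) p := by
  rw [analyticAt_pi_iff]
  intro i
  refine Fin.cases ?_ (fun j => ?_) i
  · simp only [Fin.cons_zero]; exact analyticAt_snd
  · simp only [Fin.cons_succ]
    exact ((ContinuousLinearMap.proj (R := ℂ) (φ := fun _ : Fin 2 => ℂ) j).analyticAt _).comp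
      analyticAt_fst

theorem analyticAt_tail (x : E3) : AnalyticAt ℂ (fun x : E3 => (Fin.tail x : Fin 2 → ℂ)) x := by
  rw [analyticAt_pi_iff]
  intro i
  exact (ContinuousLinearMap.proj (R := ℂ) (φ := fun _ : Fin 3 => ℂ) i.succ).analyticAt _

theorem analyticAt_coord3 (i : Fin 3) (x : E3) : AnalyticAt ℂ (fun x : E3 => x i) x :=
  (ContinuousLinearMap.proj (R := ℂ) (φ := fun _ : Fin 3 => ℂ) i).analyticAt _

/-- Hadamard's lemma in two variables -/
theorem had2 {c : (Fin 2 → ℂ) → ℂ} (hc : AnalyticAt ℂ c 0) :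
    ∃ d e : (Fin 2 → ℂ) → ℂ, AnalyticAt ℂ d 0 ∧ AnalyticAt ℂ e 0 ∧
      ∀ᶠ y in 𝓝 (0 : Fin 2 → ℂ), c y = c 0 + y 0 * d y + y 1 * e y := by
  obtain ⟨k, q, hk, hq, h⟩ := Crest.Agent.R257.Glob554.had_fun (n := 2) (fun p => c p.1)
    (hc.comp_of_eq analyticAt_fst rfl)
  have hmap : AnalyticAt ℂ (fun y : Fin 2 → ℂ => ((y, (0 : ℂ)) : (Fin 2 → ℂ) × ℂ)) 0 :=
    analyticAt_id.prod analyticAt_const
  have ht : Tendsto (fun y : Fin 2 → ℂ => ((y, (0 : ℂ)) : (Fin 2 → ℂ) × ℂ)) (𝓝 0)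
      (𝓝 ((0 : Fin 2 → ℂ), (0 : ℂ))) := hmap.continuousAt
  have h0 := h.self_of_nhds
  simp only [Pi.zero_apply, zero_mul, Finset.sum_const_zero, add_zero] at h0
  refine ⟨fun y => q 0 (y, 0), fun y => q 1 (y, 0), (hq 0).comp_of_eq hmap rfl,
    (hq 1).comp_of_eq hmap rfl, ?_⟩
  filter_upwards [ht.eventually h] with y hy
  rw [hy, Fin.sum_univ_two, ← h0]
  ring

/-- finite colength of `(f, x₁, x₂)` -/
theorem colFin_axes {f : E3 → ℂ} (hf : AnalyticAt ℂ f 0)
    (hreg : ∃ᶠ z : ℂ in 𝓝[≠] 0, f (Fin.cons z 0) ≠ 0) :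
    ColFin ![f, fun x => x 1, fun x => x 2] := by
  set F : (Fin 2 → ℂ) × ℂ → ℂ := fun p => f (Fin.cons p.2 p.1) with hFd
  have hF : AnalyticAt ℂ F (0, 0) := hf.comp_of_eq (analyticAt_cons2 _) LcV_980.cons_zero
  have hnt : analyticOrderAt (fun w => F ((0 : Fin 2 → ℂ), w)) 0 ≠ ⊤ := by
    intro h
    rw [analyticOrderAt_eq_top] at h
    exact hreg ((h.filter_mono nhdsWithin_le_nhds).mono fun z hz => by simpa using hz)
  obtain ⟨n, hn⟩ := ENat.ne_top_iff_exists.1 hnt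
  set b : Fin n → analyticAtOrigin 3 := fun j => ⟨fun x => x 0 ^ (j : ℕ),
    (analyticAt_coord3 0 0).pow _⟩ with hb
  set G : Fin 3 → E3 → ℂ := ![f, fun x => x 1, fun x => x 2] with hG
  set φ : (Fin n → ℂ) →ₗ[ℂ] Quo G := (gens G).mkQ.comp (Fintype.linearCombination ℂ b) with hφ
  have hφs : Function.Surjective φ := by
    intro u
    obtain ⟨g, rfl⟩ := Submodule.mkQ_surjective _ u
    have hg : AnalyticAt ℂ (fun p : (Fin 2 → ℂ) × ℂ => (g : E3 → ℂ) (Fin.cons p.2 p.1)) (0, 0) :=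
      AnalyticAt.comp_of_eq g.2 (analyticAt_cons2 _) LcV_980.cons_zero
    obtain ⟨q, c, hq, hc, h⟩ := Crest.Agent.R275.Loc2879.wdiv hF hn.symm hg
    choose d e hd he hde using fun j => had2 (hc j)
    refine ⟨fun j => c j 0, ?_⟩
    have htl : AnalyticAt ℂ (fun x : E3 => ((Fin.tail x, x 0) : (Fin 2 → ℂ) × ℂ)) 0 :=
      (analyticAt_tail 0).prod (analyticAt_coord3 0 0)
    have ht : Tendsto (fun x : E3 => ((Fin.tail x, x 0) : (Fin 2 → ℂ) × ℂ)) (𝓝 0)
      (𝓝 ((0 : Fin 2 → ℂ), (0 : ℂ))) := htl.continuousAt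
    have ht1 : Tendsto (fun x : E3 => (Fin.tail x : Fin 2 → ℂ)) (𝓝 0) (𝓝 (0 : Fin 2 → ℂ)) :=
      (analyticAt_tail 0).continuousAt
    have hda : ∀ j, AnalyticAt ℂ (fun x : E3 => d j (Fin.tail x)) 0 := fun j =>
      (hd j).comp_of_eq (analyticAt_tail 0) rfl
    have hea : ∀ j, AnalyticAt ℂ (fun x : E3 => e j (Fin.tail x)) 0 := fun j =>
      (he j).comp_of_eq (analyticAt_tail 0) rfl
    rw [hφ, LinearMap.comp_apply, Fintype.linearCombination_apply, Submodule.mkQ_apply,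
      Submodule.mkQ_apply, eq_comm, Submodule.Quotient.eq, LcA_980.mem_gens3]
    refine ⟨fun x => q (Fin.tail x, x 0), fun x => ∑ j : Fin n, d j (Fin.tail x) * x 0 ^ (j : ℕ),
      fun x => ∑ j : Fin n, e j (Fin.tail x) * x 0 ^ (j : ℕ), hq.comp_of_eq htl rfl, ?_, ?_, ?_⟩
    · exact Finset.analyticAt_fun_sum _ fun j _ => (hda j).mul ((analyticAt_coord3 0 0).pow _)
    · exact Finset.analyticAt_fun_sum _ fun j _ => (hea j).mul ((analyticAt_coord3 0 0).pow _)
    · filter_upwards [ht.eventually h, ht1.eventually (eventually_all.2 hde)] with x hx hx1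
      have e1 : (Fin.cons (x 0) (Fin.tail x) : E3) = x := Fin.cons_self_tail x
      simp only [hFd] at hx
      rw [e1] at hx
      have e2 : ((∑ j, c j 0 • b j : analyticAtOrigin 3) : E3 → ℂ) x =
          ∑ j : Fin n, c j 0 * x 0 ^ (j : ℕ) := by
        rw [Submodule.coe_sum, Finset.sum_apply]
        rfl
      rw [Submodule.coe_sub, Pi.sub_apply, hx, e2]
      have e3 : ∀ j, c j (Fin.tail x) = c j 0 + x 1 * d j (Fin.tail x) + x 2 * e j (Fin.tail x) :=
        fun j => hx1 j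
      simp only [e3, add_mul, Finset.sum_add_distrib, Finset.sum_mul]
      have e4 : ∀ j : Fin n, x 1 * d j (Fin.tail x) * x 0 ^ (j : ℕ) =
        d j (Fin.tail x) * x 0 ^ (j : ℕ) * x 1 := fun j => by ring
      have e5 : ∀ j : Fin n, x 2 * e j (Fin.tail x) * x 0 ^ (j : ℕ) =
        e j (Fin.tail x) * x 0 ^ (j : ℕ) * x 2 := fun j => by ring
      simp only [e4, e5]
      ring
  exact Module.Finite.of_surjective φ hφs

open Crest.Agent.R257.Det_219

/-- comparison on `{f = 0}` -/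
theorem inJ_mono {f g h : E3 → ℂ} {p C : ℝ} (hp : 0 < p)
    (hle : ∀ᶠ x in 𝓝 (0 : E3), f x = 0 → ‖h x‖ ≤ C * ‖g x‖) (hg : InJ p f g) : InJ p f h := by
  obtain ⟨r, hr, hfin⟩ := hg
  obtain ⟨r', hr', hb⟩ := exists_box (hle : {x | f x = 0 → ‖h x‖ ≤ C * ‖g x‖} ∈ 𝓝 0)
  set ρ := min r r' with hρ
  have hρ0 : 0 < ρ := lt_min hr hr'
  refine ⟨ρ, hρ0, ?_⟩
  have h1 : Jint p (fun _ => ρ) f h ≤
      ENNReal.ofReal (|C| ^ (2 / p)) * Jint p (fun _ => ρ) f g := by
    rw [jint_eq, jint_eq, ← lintegral_const_mul' _ _ ENNReal.ofReal_ne_top]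
    refine setLIntegral_mono' (isOpen_Bp ρ).measurableSet fun y hy => ?_
    rw [← ENNReal.tsum_mul_left]
    refine ENNReal.tsum_le_tsum fun z => ?_
    unfold Jf
    rw [← ENNReal.ofReal_mul (by positivity)]
    apply ENNReal.ofReal_le_ofReal
    rw [mul_div_assoc']
    have hz : (Fin.cons z.1 y : E3) ∈ Bx r' := by
      intro i
      refine Fin.cases ?_ (fun j => ?_) i
      · rw [Fin.cons_zero]; exact z.2.1.trans_le (min_le_right _ _)
      · rw [Fin.cons_succ]; exact (hy j).trans_le (min_le_right _ _)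
    have h2 : ‖h (Fin.cons z.1 y)‖ ≤ |C| * ‖g (Fin.cons z.1 y)‖ :=
      (hb hz z.2.2.1).trans (by gcongr; exact le_abs_self C)
    have h3 : ‖h (Fin.cons z.1 y)‖ ^ (2 / p) ≤ |C| ^ (2 / p) * ‖g (Fin.cons z.1 y)‖ ^ (2 / p) := by
      rw [← Real.mul_rpow (abs_nonneg _) (norm_nonneg _)]
      exact Real.rpow_le_rpow (norm_nonneg _) h2 (by positivity)
    gcongr
  refine lt_of_le_of_lt h1 (ENNReal.mul_lt_top ENNReal.ofReal_lt_top ?_)
  exact lt_of_le_of_lt (jint_mono p f g (min_le_left _ _)) hfin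

theorem inJ_congr {f g h : E3 → ℂ} {p : ℝ} (hp : 0 < p) (hgh : g =ᶠ[𝓝 0] h) (hg : InJ p f g) :
    InJ p f h :=
  inJ_mono (C := 1) hp (hgh.mono fun x hx _ => by rw [one_mul, hx]) hg

theorem inJ_mul {f g a : E3 → ℂ} {p : ℝ} (hp : 0 < p) (ha : AnalyticAt ℂ a 0) (hg : InJ p f g) :
    InJ p f (fun x => a x * g x) := by
  have h1 : ∀ᶠ x in 𝓝 (0 : E3), ‖a x‖ < ‖a 0‖ + 1 :=
    ha.continuousAt.norm.eventually_lt_const (by linarith)
  refine inJ_mono (C := ‖a 0‖ + 1) hp (h1.mono fun x hx _ => ?_) hg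
  rw [norm_mul]
  gcongr

theorem rpow_add_bound {x y q : ℝ} (hx : 0 ≤ x) (hy : 0 ≤ y) (hq : 0 ≤ q) :
    (x + y) ^ q ≤ 2 ^ q * (x ^ q + y ^ q) := by
  have h1 : x + y ≤ 2 * max x y := by
    have := le_max_left x y
    have := le_max_right x y
    linarith
  calc (x + y) ^ q ≤ (2 * max x y) ^ q := Real.rpow_le_rpow (by positivity) h1 hq
    _ = 2 ^ q * (max x y) ^ q := Real.mul_rpow (by norm_num) (le_max_of_le_left hx)
    _ ≤ 2 ^ q * (x ^ q + y ^ q) := by
      gcongr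
      rcases le_total x y with h | h
      · rw [max_eq_right h]
        have := Real.rpow_nonneg hx q
        linarith
      · rw [max_eq_left h]
        have := Real.rpow_nonneg hy q
        linarith

theorem inJ_add {f g h : E3 → ℂ} {p : ℝ} (hp : 1 ≤ p) (hf : AnalyticAt ℂ f 0)
    (hg : AnalyticAt ℂ g 0) (hh : AnalyticAt ℂ h 0) (hgJ : InJ p f g) (hhJ : InJ p f h) :
    InJ p f (fun x => g x + h x) := by
  obtain ⟨r₁, hr₁, h1⟩ := hgJ
  obtain ⟨r₂, hr₂, h2⟩ := hhJ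
  obtain ⟨r₃, hr₃, h3⟩ := exists_box ((hf.eventually_analyticAt.and hg.eventually_analyticAt).and
    hh.eventually_analyticAt)
  set r := min r₁ (min r₂ r₃) with hr
  have hr0 : 0 < r := lt_min hr₁ (lt_min hr₂ hr₃)
  have hr3 : r ≤ r₃ := (min_le_right _ _).trans (min_le_right _ _)
  have hfU : AnalyticOnNhd ℂ f (Bx r) := fun x hx => (h3 (Bx_mono hr3 hx)).1.1
  have hgU : AnalyticOnNhd ℂ g (Bx r) := fun x hx => (h3 (Bx_mono hr3 hx)).1.2
  have hhU : AnalyticOnNhd ℂ h (Bx r) := fun x hx => (h3 (Bx_mono hr3 hx)).2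
  obtain ⟨K⟩ := exists_cov (isOpen_Bx r) hfU (le_refl (Bx r))
  have hq : 0 ≤ 2 / p := by positivity
  refine ⟨r, hr0, ?_⟩
  have h1' : Jint p (fun _ => r) f g < ∞ := lt_of_le_of_lt (jint_mono p f g (min_le_left _ _)) h1
  have h2' : Jint p (fun _ => r) f h < ∞ :=
    lt_of_le_of_lt (jint_mono p f h ((min_le_right _ _).trans (min_le_left _ _))) h2
  set c : ℝ≥0∞ := ENNReal.ofReal (2 ^ (2 / p)) with hc
  have key : Jint p (fun _ => r) f (fun x => g x + h x) ≤
      c * (Jint p (fun _ => r) f g + Jint p (fun _ => r) f h) := by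
    have hgh : AnalyticOnNhd ℂ (fun x => g x + h x) (Bx r) := hgU.add hhU
    rw [jint_cov hp hfU hgh K, jint_cov hp hfU hgU K, jint_cov hp hfU hhU K,
      ← ENNReal.tsum_add, ← ENNReal.tsum_mul_left]
    refine ENNReal.tsum_le_tsum fun i => ?_
    rw [← lintegral_add_left' (jf_meas hp hfU hgU K i), ← lintegral_const_mul' _ _
      ENNReal.ofReal_ne_top]
    refine lintegral_mono fun y => ?_
    unfold Jf
    rw [← ENNReal.ofReal_add (by positivity) (by positivity),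
      ← ENNReal.ofReal_mul (by positivity)]
    apply ENNReal.ofReal_le_ofReal
    rw [← add_div, mul_div_assoc']
    gcongr
    exact (Real.rpow_le_rpow (norm_nonneg _) (norm_add_le _ _) hq).trans
      (rpow_add_bound (norm_nonneg _) (norm_nonneg _) hq)
  refine lt_of_le_of_lt key (ENNReal.mul_lt_top ENNReal.ofReal_lt_top ?_)
  exact ENNReal.add_lt_top.2 ⟨h1', h2'⟩

end Crest.Agent.R257.MsNe_980
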