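import Crest.Agent.R257.MsNe1_980
import Crest.Agent.R257.Jac_554

/-!
Row 257 (S0395), leaf MSET-NE (helper980), part 2: `Iso f → (mset f).Nonempty`.
-/

set_option autoImplicit false

open Topology Filter Set Metric MeasureTheory
open scoped ENNReal
open Crest.AlgGeometry Crest.AlgGeometry.Germ Crest.Agent.R257.Defs_219

noncomputable section

namespace Crest.Agent.R257.MsNe_980

open Crest.Agent.R257.Det_219

/-- the direction `(1,a,b)` -/
def dir (a b : ℂ) : E3 := ![1, a, b]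

/-- regular in the direction `(1,a,b)` -/
def RegD (f : E3 → ℂ) (a b : ℂ) : Prop := ∃ᶠ s in 𝓝 (0 : ℂ), f (s • dir a b) ≠ 0

theorem dir_zero (s : ℂ) : s • dir 0 0 = Fin.cons s 0 := by
  ext i
  refine Fin.cases ?_ (fun j => ?_) i
  · simp [dir]
  · rw [Fin.cons_succ]
    fin_cases j <;> simp [dir]

/-- regularity is open in the direction -/
theorem regD_open {f : E3 → ℂ} (hf : AnalyticAt ℂ f 0)
    (hreg : ∃ᶠ z : ℂ in 𝓝[≠] 0, f (Fin.cons z 0) ≠ 0) :
    ∀ᶠ p in 𝓝 ((0 : ℂ), (0 : ℂ)), RegD f p.1 p.2 := by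
  obtain ⟨ρ, hρ, hb⟩ := Metric.eventually_nhds_iff_ball.1 hf.eventually_analyticAt
  -- a good point
  have h1 : ∃ z : ℂ, ‖z‖ < ρ / 2 ∧ f (Fin.cons z 0) ≠ 0 := by
    have h2 : ∀ᶠ z in 𝓝[≠] (0 : ℂ), ‖z‖ < ρ / 2 := by
      refine nhdsWithin_le_nhds ?_
      filter_upwards [ball_mem_nhds (0 : ℂ) (half_pos hρ)] with z hz
      simpa using hz
    obtain ⟨z, hz1, hz2⟩ := (hreg.and_eventually h2).exists
    exact ⟨z, hz2, hz1⟩
  obtain ⟨z, hz, hfz⟩ := h1
  have hdir : Continuous (fun p : ℂ × ℂ => dir p.1 p.2) := by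
    unfold dir
    refine continuous_pi fun i => ?_
    fin_cases i
    · exact continuous_const
    · exact continuous_fst
    · exact continuous_snd
  have hn0 : ‖dir 0 0‖ = 1 := by
    rw [← one_smul ℂ (dir 0 0), dir_zero, LcV_980.norm_cons]
    simp
  have h3 : ∀ᶠ p in 𝓝 ((0 : ℂ), (0 : ℂ)), ‖dir p.1 p.2‖ < 2 := by
    refine (hdir.norm.continuousAt).eventually_lt_const ?_
    simp only [hn0]; norm_num
  have hin : ∀ s : ℂ, ‖s‖ < ρ / 2 → ∀ v : E3, ‖v‖ < 2 → s • v ∈ ball (0 : E3) ρ := by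
    intro s hs v hv
    rw [mem_ball_zero_iff, norm_smul]
    calc ‖s‖ * ‖v‖ ≤ ‖s‖ * 2 := by gcongr
      _ < ρ / 2 * 2 := by gcongr
      _ = ρ := by ring
  have h4 : ∀ᶠ p in 𝓝 ((0 : ℂ), (0 : ℂ)), f (z • dir p.1 p.2) ≠ 0 := by
    have hc : ContinuousAt (fun p : ℂ × ℂ => f (z • dir p.1 p.2)) (0, 0) := by
      have h5 : ContinuousAt f (z • dir (0 : ℂ) 0) :=
        (hb _ (hin z hz _ (by rw [hn0]; norm_num))).continuousAt
      exact ContinuousAt.comp (g := f) (f := fun p : ℂ × ℂ => z • dir p.1 p.2) h5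
        (hdir.const_smul z).continuousAt
    refine hc.eventually_ne ?_
    simp only
    rw [dir_zero]
    exact hfz
  filter_upwards [h3, h4] with p hp3 hp4
  intro hcon
  -- identity theorem
  have hz0 : ∀ᶠ s in 𝓝 (0 : ℂ), f (s • dir p.1 p.2) = 0 := by
    simpa using hcon
  have han : AnalyticOnNhd ℂ (fun s : ℂ => f (s • dir p.1 p.2)) (ball 0 (ρ / 2)) := by
    intro s hs
    rw [mem_ball_zero_iff] at hs
    have h6 : AnalyticAt ℂ (fun s : ℂ => s • dir p.1 p.2) s :=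
      analyticAt_id.smul analyticAt_const
    exact (hb _ (hin s hs _ hp3)).comp_of_eq h6 rfl
  have h7 := han.eqOn_zero_of_preconnected_of_eventuallyEq_zero
    (convex_ball (0 : ℂ) (ρ / 2)).isPreconnected (mem_ball_self (half_pos hρ)) hz0
  exact hp4 (h7 (by rw [mem_ball_zero_iff]; exact hz))

/-- the linear forms vanishing on `(1,a,b)` -/
def lf1 (a : ℂ) : E3 → ℂ := fun x => x 1 - a * x 0
def lf2 (b : ℂ) : E3 → ℂ := fun x => x 2 - b * x 0

theorem fto_lin {f : E3 → ℂ} (hf : AnalyticAt ℂ f 0) {a b : ℂ} (h : RegD f a b) :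
    Fto f (lf1 a) (lf2 b) := by
  set F : (Fin 2 → ℂ) × ℂ → ℂ := fun p => f ((Fin.cons 0 p.1 : E3) + p.2 • dir a b) with hF
  have hin : AnalyticAt ℂ (fun p : (Fin 2 → ℂ) × ℂ => (Fin.cons 0 p.1 : E3) + p.2 • dir a b)
      (0, 0) := by
    have h1 : AnalyticAt ℂ (fun p : (Fin 2 → ℂ) × ℂ => (Fin.cons (0 : ℂ) p.1 : E3)) (0, 0) :=
      (analyticAt_cons2 ((0 : Fin 2 → ℂ), (0 : ℂ))).comp_of_eq
        (analyticAt_fst.prod analyticAt_const) rfl
    exact h1.add (analyticAt_snd.smul analyticAt_const)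
  have hFa : AnalyticAt ℂ F (0, 0) := hf.comp_of_eq hin (by simp [LcV_980.cons_zero])
  have hne : ∃ᶠ w in 𝓝 (0 : ℂ), F (0, w) ≠ 0 := by
    refine h.mono fun s hs => ?_
    simp only [hF, LcV_980.cons_zero, zero_add]
    exact hs
  obtain ⟨n, r, hr, hcard⟩ := card_zeros hFa hne
  have hkey : ∀ (x : E3) (y : E2), lf1 a x = y 0 → lf2 b x = y 1 →
      x = (Fin.cons 0 y : E3) + x 0 • dir a b := by
    intro x y h1 h2
    unfold lf1 at h1
    unfold lf2 at h2
    ext i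
    fin_cases i
    · simp [dir]
    · simp only [dir, Pi.add_apply, Pi.smul_apply, smul_eq_mul]
      show x 1 = y 0 + x 0 * a
      rw [← h1]; ring
    · simp only [dir, Pi.add_apply, Pi.smul_apply, smul_eq_mul]
      show x 2 = y 1 + x 0 * b
      rw [← h2]; ring
  set c : ℝ := 1 + ‖a‖ + ‖b‖ with hc
  have hc1 : 1 ≤ c := by rw [hc]; have := norm_nonneg a; have := norm_nonneg b; linarith
  refine ⟨n, r / c, by positivity, fun y => ?_⟩
  by_cases hy : ‖y‖ < r
  · refine le_trans ?_ (hcard y hy)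
    have hinj : InjOn (fun x : E3 => x 0)
        {x | x ∈ Bx (r / c) ∧ f x = 0 ∧ lf1 a x = y 0 ∧ lf2 b x = y 1} := by
      intro x hx x' hx' hxx
      simp only at hxx
      rw [hkey x y hx.2.2.1 hx.2.2.2, hkey x' y hx'.2.2.1 hx'.2.2.2, hxx]
    rw [← hinj.encard_image]
    refine Set.encard_le_encard ?_
    rintro _ ⟨x, hx, rfl⟩
    refine ⟨(hx.1 0).trans_le (div_le_self hr.le hc1), ?_⟩
    simp only [hF]
    rw [← hkey x y hx.2.2.1 hx.2.2.2]
    exact hx.2.1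
  · have hemp : {x | x ∈ Bx (r / c) ∧ f x = 0 ∧ lf1 a x = y 0 ∧ lf2 b x = y 1} = ∅ := by
      rw [Set.eq_empty_iff_forall_notMem]
      rintro x ⟨hx, -, h1, h2⟩
      apply hy
      have hr0 : 0 < r / c := by positivity
      have hx0 : ‖x 0‖ < r / c := hx 0
      rw [pi_norm_lt_iff hr]
      intro i
      have hrc : r = r / c * c := by field_simp
      fin_cases i
      · show ‖y 0‖ < r
        rw [← h1]
        calc ‖lf1 a x‖ ≤ ‖x 1‖ + ‖a‖ * ‖x 0‖ := by
              unfold lf1; rw [← norm_mul]; exact norm_sub_le _ _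
          _ < r / c + ‖a‖ * (r / c) + ‖b‖ * (r / c) := by
              have := hx 1
              have := norm_nonneg a
              have := norm_nonneg b
              nlinarith [mul_le_mul_of_nonneg_left hx0.le (norm_nonneg a),
                mul_nonneg (norm_nonneg b) hr0.le]
          _ = r := by rw [hrc]; field_simp; ring
      · show ‖y 1‖ < r
        rw [← h2]
        calc ‖lf2 b x‖ ≤ ‖x 2‖ + ‖b‖ * ‖x 0‖ := by
              unfold lf2; rw [← norm_mul]; exact norm_sub_le _ _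
          _ < r / c + ‖a‖ * (r / c) + ‖b‖ * (r / c) := by
              have := hx 2
              nlinarith [mul_le_mul_of_nonneg_left hx0.le (norm_nonneg b),
                mul_nonneg (norm_nonneg a) hr0.le]
          _ = r := by rw [hrc]; field_simp; ring
    rw [hemp]
    simp

theorem lf1_an (a : ℂ) (x : E3) : AnalyticAt ℂ (lf1 a) x :=
  (analyticAt_coord3 1 x).sub (analyticAt_const.mul (analyticAt_coord3 0 x))

theorem lf2_an (b : ℂ) (x : E3) : AnalyticAt ℂ (lf2 b) x :=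
  (analyticAt_coord3 2 x).sub (analyticAt_const.mul (analyticAt_coord3 0 x))

theorem cd_lf1 (a : ℂ) (i : Fin 3) (x : E3) :
    coordDeriv (lf1 a) i x = (Pi.single i 1 : E3) 1 - a * (Pi.single i 1 : E3) 0 := by
  have h : HasFDerivAt (lf1 a) (ContinuousLinearMap.proj (R := ℂ) (φ := fun _ : Fin 3 => ℂ) 1 -
      a • ContinuousLinearMap.proj (R := ℂ) (φ := fun _ : Fin 3 => ℂ) 0) x :=
    ((ContinuousLinearMap.proj (R := ℂ) (φ := fun _ : Fin 3 => ℂ) 1).hasFDerivAt).sub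
      (((ContinuousLinearMap.proj (R := ℂ) (φ := fun _ : Fin 3 => ℂ) 0).hasFDerivAt).const_smul a)
  rw [coordDeriv, h.fderiv]
  simp

theorem cd_lf2 (b : ℂ) (i : Fin 3) (x : E3) :
    coordDeriv (lf2 b) i x = (Pi.single i 1 : E3) 2 - b * (Pi.single i 1 : E3) 0 := by
  have h : HasFDerivAt (lf2 b) (ContinuousLinearMap.proj (R := ℂ) (φ := fun _ : Fin 3 => ℂ) 2 -
      b • ContinuousLinearMap.proj (R := ℂ) (φ := fun _ : Fin 3 => ℂ) 0) x :=
    ((ContinuousLinearMap.proj (R := ℂ) (φ := fun _ : Fin 3 => ℂ) 2).hasFDerivAt).sub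
      (((ContinuousLinearMap.proj (R := ℂ) (φ := fun _ : Fin 3 => ℂ) 0).hasFDerivAt).const_smul b)
  rw [coordDeriv, h.fderiv]
  simp

theorem dt_lin (f : E3 → ℂ) (a b : ℂ) (x : E3) : Dt f (lf1 a) (lf2 b) x =
    coordDeriv f 0 x + a * coordDeriv f 1 x + b * coordDeriv f 2 x := by
  rw [Skel_219.Dt_eq]
  simp only [cd_lf1, cd_lf2]
  simp
  ring

/-- the partial derivatives belong to `J_1(f)` -/
theorem grad_inJ {f : E3 → ℂ} (hf : Iso f) (i : Fin 3) : InJ 1 f (coordDeriv f i) := by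
  have hD : ∀ i, AnalyticAt ℂ (coordDeriv f i) 0 := fun i => Skel_219.analyticAt_coordDeriv hf.an i
  have hev := regD_open hf.an hf.reg
  have hJ : ∀ a b, RegD f a b → InJ 1 f (fun x => coordDeriv f 0 x + a * coordDeriv f 1 x +
      b * coordDeriv f 2 x) := by
    intro a b h
    have h1 := area_J1 hf.an (lf1_an a 0) (lf2_an b 0) (fto_lin hf.an h)
    exact inJ_congr one_pos (Eventually.of_forall fun x => dt_lin f a b x) h1
  have ht1 : Tendsto (fun ε : ℂ => (ε, (0 : ℂ))) (𝓝[≠] 0) (𝓝 ((0 : ℂ), (0 : ℂ))) :=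
    ((continuous_id.prodMk continuous_const).tendsto' (0 : ℂ) _ rfl).mono_left nhdsWithin_le_nhds
  have ht2 : Tendsto (fun ε : ℂ => ((0 : ℂ), ε)) (𝓝[≠] 0) (𝓝 ((0 : ℂ), (0 : ℂ))) :=
    ((continuous_const.prodMk continuous_id).tendsto' (0 : ℂ) _ rfl).mono_left nhdsWithin_le_nhds
  obtain ⟨ε, ⟨h1, h2⟩, h3⟩ := (((ht1.eventually hev).and (ht2.eventually hev)).and
    (eventually_mem_nhdsWithin : ∀ᶠ ε in 𝓝[≠] (0 : ℂ), ε ∈ ({0}ᶜ : Set ℂ))).exists
  have hε : ε ≠ 0 := h3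
  have J0 := hJ 0 0 hev.self_of_nhds
  have J1 := hJ ε 0 h1
  have J2 := hJ 0 ε h2
  have hs0 : InJ 1 f (coordDeriv f 0) :=
    inJ_congr one_pos (Eventually.of_forall fun x => by simp) J0
  have a0 : AnalyticAt ℂ (fun x => (-1 : ℂ) * coordDeriv f 0 x) 0 := analyticAt_const.mul (hD 0)
  have hneg : InJ 1 f (fun x => (-1 : ℂ) * coordDeriv f 0 x) :=
    inJ_mul one_pos analyticAt_const hs0
  have aD : ∀ a b : ℂ, AnalyticAt ℂ (fun x => coordDeriv f 0 x + a * coordDeriv f 1 x +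
      b * coordDeriv f 2 x) 0 := fun a b =>
    ((hD 0).add (analyticAt_const.mul (hD 1))).add (analyticAt_const.mul (hD 2))
  have K1 : InJ 1 f (coordDeriv f 1) := by
    have h4 := inJ_mul (a := fun _ => ε⁻¹) one_pos analyticAt_const
      (inJ_add le_rfl hf.an (aD ε 0) a0 J1 hneg)
    refine inJ_congr one_pos (Eventually.of_forall fun x => ?_) h4
    field_simp
    ring
  have K2 : InJ 1 f (coordDeriv f 2) := by
    have h4 := inJ_mul (a := fun _ => ε⁻¹) one_pos analyticAt_const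
      (inJ_add le_rfl hf.an (aD 0 ε) a0 J2 hneg)
    refine inJ_congr one_pos (Eventually.of_forall fun x => ?_) h4
    field_simp
    ring
  fin_cases i
  · exact hs0
  · exact K1
  · exact K2

/-- the Jacobian ideal is contained in `J_1(f)` -/
theorem inJ_of_mem {f g : E3 → ℂ} (hf : Iso f) {a : Fin 3 → E3 → ℂ}
    (ha : ∀ i, AnalyticAt ℂ (a i) 0) (h : g =ᶠ[𝓝 0] fun x => ∑ i, a i x * coordDeriv f i x) :
    InJ 1 f g := by
  have hD : ∀ i, AnalyticAt ℂ (coordDeriv f i) 0 := fun i => Skel_219.analyticAt_coordDeriv hf.an i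
  have h1 : ∀ i, InJ 1 f (fun x => a i x * coordDeriv f i x) := fun i =>
    inJ_mul one_pos (ha i) (grad_inJ hf i)
  have h2 := inJ_add le_rfl hf.an ((ha 0).mul (hD 0)) ((ha 1).mul (hD 1)) (h1 0) (h1 1)
  have h3 := inJ_add le_rfl hf.an (((ha 0).mul (hD 0)).add ((ha 1).mul (hD 1)))
    ((ha 2).mul (hD 2)) h2 (h1 2)
  refine inJ_congr one_pos ?_ h3
  filter_upwards [h] with x hx
  rw [hx, Fin.sum_univ_three]
  rfl

/-- powers of the coordinates -/
theorem pow_inJ {f : E3 → ℂ} (hf : Iso f) (i : Fin 3) :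
    InJ 1 f (fun x => x i ^ (milnorNumber 3 f)) := by
  have hF : AnalyticAt ℂ (fun p : E3 × ℂ => f p.1) (0, 0) :=
    hf.an.comp_of_eq analyticAt_fst rfl
  obtain ⟨a, ha, h⟩ := Jac554.grad_uniform (F := fun p : E3 × ℂ => f p.1)
    (μ := milnorNumber 3 f) hF (Eventually.of_forall fun t => ⟨hf.fin, rfl⟩) (fun _ => i)
  have hmap : AnalyticAt ℂ (fun x : E3 => ((x, (0 : ℂ)) : E3 × ℂ)) 0 :=
    analyticAt_id.prod analyticAt_const
  have ht : Tendsto (fun x : E3 => ((x, (0 : ℂ)) : E3 × ℂ)) (𝓝 0) (𝓝 ((0 : E3), (0 : ℂ))) :=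
    hmap.continuousAt
  refine inJ_of_mem hf (a := fun j x => a j (x, 0)) (fun j => (ha j).comp_of_eq hmap rfl) ?_
  filter_upwards [ht.eventually h] with x hx
  rw [Finset.prod_const, Finset.card_univ, Fintype.card_fin] at hx
  exact hx

/-- **MSET-NE** -/
theorem mset_nonempty {f : E3 → ℂ} (hf : Iso f) : (mset f).Nonempty := by
  have h1 := colFin_axes hf.an hf.reg
  obtain ⟨h2, -⟩ := LcA_980.pow_both (analyticAt_coord3 1 0) (analyticAt_coord3 2 0) h1
    (k := milnorNumber 3 f + 1) (l := milnorNumber 3 f + 1) (by omega) (by omega)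
  have hp : ∀ i : Fin 3, InJ 1 f ((fun x : E3 => x i) ^ (milnorNumber 3 f + 1)) := by
    intro i
    refine inJ_congr one_pos (Eventually.of_forall fun x => ?_)
      (inJ_mul one_pos (analyticAt_coord3 i 0) (pow_inJ hf i))
    simp only [Pi.pow_apply]
    rw [pow_succ]; ring
  exact ⟨_, 1, 1, le_rfl, le_rfl, _, _, (analyticAt_coord3 1 0).pow _,
    (analyticAt_coord3 2 0).pow _, hp 1, hp 2, h2, rfl⟩

end Crest.Agent.R257.MsNe_980
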