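import Crest.Agent.R257.Tay_812
import Crest.Agent.R257.CNS_939
import Crest.Agent.R257.LCDefs_472

/-!
R257 / Mu8_799: `f ∈ m³` with finite Milnor number has Milnor number at least `8`
(leaf of `P8Stmt`, post 3486 of helper472).
-/

set_option autoImplicit false
set_option linter.unusedSectionVars false
set_option linter.deprecated false
set_option linter.style.haveILetI false

open Set Filter Topology
open Crest.AlgGeometry.Germ
open Crest.Agent.R275.Loc2879
open Crest.Agent.R257.Uni554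
open Crest.Agent.R257.Defs_219 Crest.Agent.R257.LCDefs_472

noncomputable section

namespace Crest.Agent.R257.Mu8_799

variable {n : ℕ}

theorem an_cd {f : (Fin n → ℂ) → ℂ} {x : Fin n → ℂ} (hf : AnalyticAt ℂ f x) (i : Fin n) :
    AnalyticAt ℂ (coordDeriv f i) x := by
  have h1 : AnalyticAt ℂ (fderiv ℂ f) x := hf.fderiv
  exact ((ContinuousLinearMap.apply ℂ ℂ (Pi.single i 1 : Fin n → ℂ)).analyticAt _).comp h1

lemma mem_max {a : On n} (h : evp 0 a = 0) : a ∈ IsLocalRing.maximalIdeal (On n) := by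
  rw [IsLocalRing.mem_maximalIdeal, mem_nonunits_iff,
    Crest.Agent.R275.Loc2879.isUnit_iff]
  simpa using h

/-- a germ with vanishing `1`-jet is in the square of the maximal ideal -/
theorem mem_sq {g : (Fin n → ℂ) → ℂ} (hg : AnalyticAt ℂ g 0) (h0 : g 0 = 0)
    (h1 : ∀ j, coordDeriv g j 0 = 0) : (gm g hg : On n) ∈ IsLocalRing.maximalIdeal (On n) ^ 2 := by
  classical
  obtain ⟨q, hq⟩ := had (gm g hg)
  choose Q hQ hQq using fun i => exists_gm (q i)
  have e0 : evp 0 (gm g hg : On n) = 0 := by rw [evp_gm]; exact h0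
  rw [e0, map_zero, zero_add] at hq
  have hs : ∀ i, Xo i * q i = gm (fun x => x i * Q i x) ((analyticAt_coord' i 0).mul (hQ i)) := by
    intro i
    rw [← hQq i, Xo, gm_mul]; rfl
  have hsum : ∀ s : Finset (Fin n), ∃ h : AnalyticAt ℂ (fun x => ∑ i ∈ s, x i * Q i x) 0,
      (∑ i ∈ s, Xo i * q i : On n) = gm _ h := by
    intro s
    induction s using Finset.induction_on with
    | empty =>
      refine ⟨by simpa using analyticAt_const, ?_⟩
      rw [Finset.sum_empty, ← map_zero (algebraMap ℂ (On n)),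
        Crest.Agent.R275.Loc2879.algebraMap_apply, gm_eq_gm]
      exact Eventually.of_forall fun x => by simp
    | insert k s hk ih =>
      obtain ⟨h, e⟩ := ih
      refine ⟨by
        simp only [Finset.sum_insert hk]
        exact ((analyticAt_coord' k 0).mul (hQ k)).add h, ?_⟩
      rw [Finset.sum_insert hk, e, hs, gm_add, gm_eq_gm]
      refine Eventually.of_forall fun x => ?_
      simp only [Finset.sum_insert hk, Pi.add_apply]
  obtain ⟨h, e⟩ := hsum Finset.univ
  rw [e, gm_eq_gm] at hq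
  have hQ0 : ∀ j, Q j 0 = 0 := by
    intro j
    have d1 : HasFDerivAt (fun x : Fin n → ℂ => ∑ i, x i * Q i x)
        (∑ i, ((0 : Fin n → ℂ) i • fderiv ℂ (Q i) 0 +
          Q i 0 • (ContinuousLinearMap.proj (R := ℂ) (φ := fun _ : Fin n => ℂ) i))) 0 := by
      refine HasFDerivAt.fun_sum fun i _ => ?_
      exact (hasFDerivAt_apply i (0 : Fin n → ℂ)).mul (hQ i).differentiableAt.hasFDerivAt
    have d2 := hq.fderiv_eq (𝕜 := ℂ)
    have d3 := h1 j
    change fderiv ℂ g 0 (Pi.single j 1) = 0 at d3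
    rw [d2, d1.fderiv] at d3
    simp only [Pi.zero_apply, ContinuousLinearMap.sum_apply] at d3
    rw [Finset.sum_eq_single j] at d3
    · simpa using d3
    · intro i _ hi; simp [hi]
    · intro h; exact absurd (Finset.mem_univ _) h
  have hg' : (gm g hg : On n) = ∑ i, Xo i * q i := by
    rw [e, gm_eq_gm]; exact hq
  rw [hg', pow_two]
  refine Ideal.sum_mem _ fun i _ => Ideal.mul_mem_mul (Xo_mem i) (mem_max ?_)
  rw [← hQq i, evp_gm]
  exact hQ0 i

/-! ### the monomials of degree at most `3` -/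

/-- exponents -/
abbrev Ex : Type := {α : Fin 3 → Fin 4 // ∑ i, (α i : ℕ) ≤ 3}

theorem card_ex : Fintype.card Ex = 20 := by decide +kernel

/-- the exponent as a finitely supported function -/
def ex (α : Ex) : Fin 3 →₀ ℕ := Finsupp.equivFunOnFinite.symm fun i => (α.1 i : ℕ)

theorem ex_inj : Function.Injective ex := by
  intro α β h
  apply Subtype.ext
  funext i
  have := congrArg (fun s : Fin 3 →₀ ℕ => s i) h
  exact Fin.ext this

theorem ex_deg (α : Ex) : (ex α).degree ≤ 3 := by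
  rw [Finsupp.degree_eq_sum]
  exact α.2

/-- the polynomial with given coefficients -/
def P : (Ex → ℂ) →ₗ[ℂ] MvPolynomial (Fin 3) ℂ :=
  ∑ α : Ex, (MvPolynomial.monomial (R := ℂ) (ex α)).comp (LinearMap.proj α)

theorem coeff_P (c : Ex → ℂ) (α : Ex) : (P c).coeff (ex α) = c α := by
  classical
  simp only [P, LinearMap.sum_apply, LinearMap.comp_apply, LinearMap.proj_apply,
    MvPolynomial.coeff_sum, MvPolynomial.coeff_monomial]
  rw [Finset.sum_eq_single α]
  · simp
  · intro β _ hβ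
    rw [if_neg (fun h => hβ (ex_inj h))]
  · intro h; exact absurd (Finset.mem_univ _) h

theorem P_inj {c : Ex → ℂ}
    (h : MvPolynomial.aeval Xo (P c) ∈ IsLocalRing.maximalIdeal (On 3) ^ 4) : c = 0 := by
  funext α
  have h1 := Tay_812.hc_eq_zero h (j := (ex α).degree) (by have := ex_deg α; omega)
  have h2 := congrArg (MvPolynomial.coeff (ex α)) h1
  rw [MvPolynomial.coeff_homogeneousComponent, if_pos rfl, coeff_P] at h2
  simpa using h2

/-! ### the bound -/

theorem key (F : Fin 3 → On 3) (hF : ∀ j, F j ∈ IsLocalRing.maximalIdeal (On 3) ^ 2)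
    (J : Ideal (On 3)) (hJ : ∀ a ∈ J, ∃ c : Fin 3 → On 3, a = ∑ j, c j * F j)
    [Module.Finite ℂ (On 3 ⧸ J)] : 8 ≤ Module.finrank ℂ (On 3 ⧸ J) := by
  classical
  set m := IsLocalRing.maximalIdeal (On 3) with hm
  let A : (Ex → ℂ) →ₗ[ℂ] On 3 := (MvPolynomial.aeval Xo).toLinearMap ∘ₗ P
  let q : On 3 →ₗ[ℂ] (On 3 ⧸ J) := (Ideal.Quotient.mkₐ ℂ J).toLinearMap
  let π : On 3 →ₗ[ℂ] (On 3 ⧸ (m ^ 4)) := (Ideal.Quotient.mkₐ ℂ (m ^ 4)).toLinearMap
  have hq : ∀ a, q a = 0 ↔ a ∈ J := fun a => Ideal.Quotient.eq_zero_iff_mem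
  have hπ : ∀ a, π a = 0 ↔ a ∈ m ^ 4 := fun a => Ideal.Quotient.eq_zero_iff_mem
  set K := LinearMap.ker (q ∘ₗ A) with hK
  -- the twelve vectors
  let w : (Fin 3 ⊕ (Fin 3 × Fin 3)) → (On 3 ⧸ (m ^ 4)) :=
    Sum.elim (fun j => π (F j)) (fun p => π (Xo p.1 * F p.2))
  set W := Submodule.span ℂ (Set.range w) with hW
  have hKW : ∀ c ∈ K, π (A c) ∈ W := by
    intro c hc
    have h1 : A c ∈ J := (hq _).1 hc
    obtain ⟨a, ha⟩ := hJ _ h1
    rw [ha, map_sum]
    refine Submodule.sum_mem _ fun j _ => ?_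
    obtain ⟨y, hy⟩ := had (a j)
    choose z hz using fun k => had (y k)
    have e1 : a j * F j = algebraMap ℂ (On 3) (evp 0 (a j)) * F j +
        (∑ k, algebraMap ℂ (On 3) (evp 0 (y k)) * (Xo k * F j) +
          ∑ k, ∑ l, (Xo k * Xo l) * F j * z k l) := by
      conv_lhs => rw [hy]
      rw [add_mul, Finset.sum_mul, ← Finset.sum_add_distrib]
      congr 1
      refine Finset.sum_congr rfl fun k _ => ?_
      conv_lhs => rw [hz k]
      rw [mul_add, add_mul, Finset.mul_sum, Finset.sum_mul]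
      congr 1
      · ring
      · exact Finset.sum_congr rfl fun l _ => by ring
    have e2 : ∑ k, ∑ l, (Xo k * Xo l) * F j * z k l ∈ m ^ 4 := by
      refine Ideal.sum_mem _ fun k _ => Ideal.sum_mem _ fun l _ => ?_
      refine Ideal.mul_mem_right _ _ ?_
      have : (4 : ℕ) = 2 + 2 := rfl
      rw [this, pow_add]
      refine Ideal.mul_mem_mul ?_ (hF j)
      rw [pow_two]
      exact Ideal.mul_mem_mul (Xo_mem k) (Xo_mem l)
    rw [e1, map_add, map_add, (hπ _).2 e2, add_zero, map_sum]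
    refine Submodule.add_mem _ ?_ (Submodule.sum_mem _ fun k _ => ?_)
    · rw [← Algebra.smul_def, map_smul]
      exact Submodule.smul_mem _ _ (Submodule.subset_span ⟨Sum.inl j, rfl⟩)
    · rw [← Algebra.smul_def, map_smul]
      exact Submodule.smul_mem _ _ (Submodule.subset_span ⟨Sum.inr (k, j), rfl⟩)
  have hWf : Module.Finite ℂ W := Module.Finite.span_of_finite ℂ (Set.finite_range w)
  have hW12 : Module.finrank ℂ W ≤ 12 := by
    have h1 := finrank_range_le_card (R := ℂ) w
    simpa [Set.finrank, hW] using h1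
  let B : K →ₗ[ℂ] W := LinearMap.codRestrict W ((π ∘ₗ A) ∘ₗ K.subtype) fun c => hKW c c.2
  have hB : Function.Injective B := by
    rw [← LinearMap.ker_eq_bot, LinearMap.ker_eq_bot']
    intro c hc
    have h1 : π (A c) = 0 := congrArg Subtype.val hc
    have h2 := (hπ _).1 h1
    exact Subtype.ext (P_inj h2)
  have h3 : Module.finrank ℂ K ≤ 12 := (LinearMap.finrank_le_finrank_of_injective hB).trans hW12
  have h4 := LinearMap.finrank_range_add_finrank_ker (q ∘ₗ A)
  have h5 : Module.finrank ℂ (LinearMap.range (q ∘ₗ A)) ≤ Module.finrank ℂ (On 3 ⧸ J) :=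
    Submodule.finrank_le _
  have h6 : Module.finrank ℂ (Ex → ℂ) = 20 := by
    rw [Module.finrank_fintype_fun_eq_card, card_ex]
  rw [h6] at h4
  have h7 : Module.finrank ℂ (LinearMap.range (q ∘ₗ A)) + Module.finrank ℂ K = 20 := h4
  omega

/-- **a germ in `m³` with finite Milnor number has Milnor number at least `8`** -/
theorem mu_ge_eight {f : E3 → ℂ} (hf : AnalyticAt ℂ f 0) (h1 : ∀ i, coordDeriv f i 0 = 0)
    (h2 : ∀ i j, H2 f i j = 0) (hfin : ColFin (par f)) : 8 ≤ col (par f) := by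
  have ha : ∀ i, AnalyticAt ℂ (par f i) 0 := fun i => an_cd hf i
  rw [UI939.col_eq ha]
  haveI := (UI939.colFin_iff ha).1 hfin
  refine key (fun j => gm (par f j) (ha j)) (fun j => mem_sq (ha j) (h1 j) (fun i => h2 j i)) _ ?_
  intro a h
  exact (UI939.mem_Idl ha).1 h

end Crest.Agent.R257.Mu8_799
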