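import Crest.Agent.R275.Loc2F_879

/-!
Row 257 (S0395), leaf LC-N2 (plane curves), file A (helper328): Kummer base change for germs in two
variables.  `cov N : O(x,y) → O(s,y)`, `x = s^N`; `O(s,y)` is free over `O(x,y)` with basis
`1, s, …, s^(N-1)`; hence `inum (cov f) (cov g) = N * inum f g`.
-/

set_option autoImplicit false

open Set Filter Topology Metric Complex
open Crest.Agent.R275.Loc2879

noncomputable section

namespace Crest.Agent.R257.N2_328

/-- the origin of `ℂ × ℂ` -/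
abbrev o2 : ℂ × ℂ := ((0 : ℂ), (0 : ℂ))

lemma an_cov (N : ℕ) (p : ℂ × ℂ) : AnalyticAt ℂ (fun q : ℂ × ℂ => (q.1 ^ N, q.2)) p :=
  (analyticAt_fst.pow N).prod analyticAt_snd

/-- the Kummer substitution `x = s ^ N` -/
def cov {N : ℕ} (hN : N ≠ 0) : OO o2 →+* OO o2 :=
  pull (fun q : ℂ × ℂ => (q.1 ^ N, q.2)) (an_cov N _) (by simp [hN])

lemma cov_gm {N : ℕ} (hN : N ≠ 0) {f : ℂ × ℂ → ℂ} (hf : AnalyticAt ℂ f o2) :
    cov hN (gm f hf) = gm (f ∘ fun q : ℂ × ℂ => (q.1 ^ N, q.2))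
      (AnalyticAt.comp (by simpa [hN] using hf) (an_cov N _)) := rfl

lemma cov_algebraMap {N : ℕ} (hN : N ≠ 0) (c : ℂ) :
    cov hN (algebraMap ℂ (OO o2) c) = algebraMap ℂ (OO o2) c := rfl

/-- `ℂ`-linear form of the substitution -/
def covₗ {N : ℕ} (hN : N ≠ 0) : OO o2 →ₐ[ℂ] OO o2 :=
  { cov hN with commutes' := cov_algebraMap hN }

@[simp] lemma covₗ_apply {N : ℕ} (hN : N ≠ 0) (x : OO o2) : covₗ hN x = cov hN x := rfl

/-- every germ in `(s,y)` is a combination of `1, s, …, s^(N-1)` over germs in `(s^N, y)` -/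
theorem cov_decomp {N : ℕ} (hN : N ≠ 0) (f : OO o2) :
    ∃ a : Fin N → OO o2, f = ∑ k : Fin N, Zv 0 ^ (k : ℕ) * cov hN (a k) := by
  obtain ⟨F, hF, rfl⟩ := exists_gm f
  -- the functions `s ^ N - x` and `F (s, y)` of `((x, y), s)`
  let z₀ : ℂ × ℂ := o2
  have hG : AnalyticAt ℂ (fun p : (ℂ × ℂ) × ℂ => p.2 ^ N - p.1.1) (z₀, 0) :=
    (analyticAt_snd.fun_pow N).fun_sub ((analyticAt_fst).fun_comp analyticAt_fst)
  have hF' : AnalyticAt ℂ (fun p : (ℂ × ℂ) × ℂ => F (p.2, p.1.2)) (z₀, 0) := by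
    refine AnalyticAt.comp (g := F) (f := fun p : (ℂ × ℂ) × ℂ => (p.2, p.1.2)) hF ?_
    exact analyticAt_snd.prod ((analyticAt_snd).fun_comp analyticAt_fst)
  have hreg : Reg (gm _ hG) N := by
    rw [reg_iff_order]
    have : (fun w : ℂ => w ^ N - ((z₀ : ℂ × ℂ)).1) = fun w : ℂ => (w - 0) ^ N := by
      ext w; simp [z₀]
    simp only
    rw [this]
    exact analyticOrderAt_centeredMonomial
  obtain ⟨q, c, h⟩ := div_exists hreg (gm _ hF')
  -- pull back along `(s, y) ↦ ((s ^ N, y), s)`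
  have hφ : AnalyticAt ℂ (fun q : ℂ × ℂ => ((q.1 ^ N, q.2), q.1)) o2 :=
    ((analyticAt_fst.pow N).prod analyticAt_snd).prod analyticAt_fst
  have hφ0 : (fun q : ℂ × ℂ => ((q.1 ^ N, q.2), q.1)) o2 = (z₀, (0 : ℂ)) := by simp [hN, z₀]
  let φ : OO ((z₀, (0 : ℂ)) : (ℂ × ℂ) × ℂ) →+* OO o2 := pull _ hφ hφ0
  have h1 := congrArg φ h
  have e1 : φ (gm _ hF') = gm F hF := rfl
  have e2 : φ (gm _ hG) = 0 := by
    change pull _ hφ hφ0 (gm _ hG) = 0
    rw [pull_gm, gm_eq_zero]
    exact Eventually.of_forall fun x => by simp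
  have e3 : ∀ x : OO z₀, φ (iot z₀ x) = cov hN x := by
    intro x
    obtain ⟨f, hf, rfl⟩ := exists_gm x
    rfl
  have e4 : φ (Wv z₀) = Zv 0 := by
    change pull _ hφ hφ0 (gm _ _) = _
    rw [pull_gm, Zv_eq, gm_eq_gm]
    exact Eventually.of_forall fun x => by simp
  rw [map_add, map_mul, e1, e2, mul_zero, zero_add, map_sum] at h1
  refine ⟨c, ?_⟩
  rw [h1]
  refine Finset.sum_congr rfl fun k _ => ?_
  rw [map_mul, map_pow, e3, e4, mul_comm]

/-- `N` distinct `N`-th roots -/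
lemma exists_roots {N : ℕ} (hN : N ≠ 0) {x : ℂ} (hx : x ≠ 0) :
    ∃ r : Fin N → ℂ, Function.Injective r ∧ ∀ k, r k ^ N = x := by
  obtain ⟨s, hs⟩ := IsAlgClosed.exists_pow_nat_eq x (Nat.pos_of_ne_zero hN)
  have hs0 : s ≠ 0 := by
    rintro rfl
    rw [zero_pow hN] at hs
    exact hx hs.symm
  have hζ := Complex.isPrimitiveRoot_exp N hN
  refine ⟨fun k => s * Complex.exp (2 * Real.pi * I / N) ^ (k : ℕ), ?_, fun k => ?_⟩
  · intro j k hjk
    have h1 := mul_left_cancel₀ hs0 hjk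
    exact Fin.ext (hζ.pow_inj j.2 k.2 h1)
  · rw [mul_pow, hs, ← pow_mul, mul_comm (k : ℕ) N, pow_mul, hζ.pow_eq_one, one_pow, mul_one]

/-- freeness -/
theorem cov_free {N : ℕ} (hN : N ≠ 0) {a : Fin N → OO o2}
    (h : ∑ k : Fin N, Zv 0 ^ (k : ℕ) * cov hN (a k) = 0) : a = 0 := by
  classical
  choose A hA hAa using fun k => exists_gm (a k)
  obtain rfl : (fun k => gm (A k) (hA k)) = a := funext hAa
  have h1 : ∀ᶠ p in 𝓝 o2, ∑ k : Fin N, p.1 ^ (k : ℕ) * A k (p.1 ^ N, p.2) = 0 := by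
    have key : ∀ s : Finset (Fin N), ∃ hh, ∑ k ∈ s, Zv 0 ^ (k : ℕ) * cov hN (gm (A k) (hA k)) =
        gm (p := o2) (fun p : ℂ × ℂ => ∑ k ∈ s, p.1 ^ (k : ℕ) * A k (p.1 ^ N, p.2)) hh := by
      intro s
      induction s using Finset.induction_on with
      | empty =>
        refine ⟨by simpa using analyticAt_const, ?_⟩
        rw [Finset.sum_empty, gm_zero, gm_eq_gm]
        exact Eventually.of_forall fun w => by simp
      | insert i s hi ih =>
        obtain ⟨hh, e1⟩ := ih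
        have h1 : AnalyticAt ℂ (fun p : ℂ × ℂ => p.1 ^ (i : ℕ) * A i (p.1 ^ N, p.2)) o2 := by
          refine (analyticAt_fst.fun_pow _).fun_mul ?_
          exact AnalyticAt.comp (g := A i) (f := fun q : ℂ × ℂ => (q.1 ^ N, q.2))
            (by simpa [hN] using hA i) (an_cov N _)
        refine ⟨by simp only [Finset.sum_insert hi]; exact h1.fun_add hh, ?_⟩
        rw [Finset.sum_insert hi, e1, cov_gm, Zv_eq, gm_pow, gm_mul, gm_add, gm_eq_gm]
        exact Eventually.of_forall fun w => by simp [Finset.sum_insert hi]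
    obtain ⟨hh, e⟩ := key Finset.univ
    rw [e, gm_eq_zero] at h
    exact h
  obtain ⟨r, hr, hball⟩ := Metric.eventually_nhds_iff_ball.1 h1
  -- all coefficients vanish for `x ≠ 0`
  have h2 : ∀ᶠ p in 𝓝 o2, ∀ k, p.1 * A k p = 0 := by
    have h3 : ∀ᶠ p in 𝓝 o2, ‖(p : ℂ × ℂ).1‖ < r ^ N ∧ ‖p.2‖ < r := by
      refine Filter.Eventually.and ?_ ?_
      · have : ContinuousAt (fun p : ℂ × ℂ => ‖p.1‖) o2 := by fun_prop
        exact this.eventually (Iio_mem_nhds (by simpa using pow_pos hr N))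
      · have : ContinuousAt (fun p : ℂ × ℂ => ‖p.2‖) o2 := by fun_prop
        exact this.eventually (Iio_mem_nhds (by simpa using hr))
    filter_upwards [h3] with p hp k
    rcases eq_or_ne p.1 0 with h0 | h0
    · rw [h0, zero_mul]
    obtain ⟨ro, hinj, hro⟩ := exists_roots hN h0
    set P : Polynomial ℂ := ∑ k : Fin N, Polynomial.C (A k p) * Polynomial.X ^ (k : ℕ) with hP
    have hN0 : 0 < N := Nat.pos_of_ne_zero hN
    have hdeg : P.natDegree < N := by
      refine lt_of_le_of_lt (Polynomial.natDegree_sum_le_of_forall_le (n := N - 1) _ _ ?_) (by omega)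
      intro i _
      refine (Polynomial.natDegree_C_mul_X_pow_le _ _).trans ?_
      have := i.2
      omega
    have hz : P = 0 := by
      refine Polynomial.eq_zero_of_natDegree_lt_card_of_eval_eq_zero P hinj (fun i => ?_)
        (by simpa using hdeg)
      have hmem : ((ro i, p.2) : ℂ × ℂ) ∈ ball o2 r := by
        rw [← ball_prod_same]
        refine ⟨?_, by simpa using hp.2⟩
        rw [mem_ball_zero_iff]
        refine lt_of_pow_lt_pow_left₀ N hr.le ?_
        rw [← norm_pow, hro i]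
        exact hp.1
      have h4 := hball _ hmem
      simp only [hro i] at h4
      rw [hP, Polynomial.eval_finsetSum]
      simp only [Polynomial.eval_mul, Polynomial.eval_C, Polynomial.eval_pow, Polynomial.eval_X]
      rw [← h4]
      exact Finset.sum_congr rfl fun k _ => mul_comm _ _
    have h5 : P.coeff k = A k p := by
      rw [hP, Polynomial.finsetSum_coeff]
      simp only [Polynomial.coeff_C_mul, Polynomial.coeff_X_pow]
      rw [Finset.sum_eq_single k]
      · simp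
      · intro b _ hb
        rw [if_neg (fun h => hb (Fin.ext h.symm)), mul_zero]
      · intro h; exact absurd (Finset.mem_univ k) h
    rw [← h5, hz]; simp
  ext k : 1
  have h6 : Zv 0 * gm (A k) (hA k) = 0 := by
    rw [Zv_eq, gm_mul, gm_eq_zero]
    filter_upwards [h2] with p hp
    simpa using hp k
  rcases mul_eq_zero.1 h6 with h7 | h7
  · exfalso
    rw [Zv_eq, gm_eq_zero] at h7
    have h8 : Tendsto (fun t : ℂ => ((t, (0 : ℂ)) : ℂ × ℂ)) (𝓝[≠] 0) (𝓝 o2) := by
      have : Continuous (fun t : ℂ => ((t, (0 : ℂ)) : ℂ × ℂ)) := by fun_prop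
      exact (this.tendsto' 0 o2 rfl).mono_left nhdsWithin_le_nhds
    obtain ⟨t, ht, ht'⟩ := ((h8.eventually h7).and self_mem_nhdsWithin).exists
    exact ht' (by simpa using ht)
  · exact h7

/-- the comparison map `(a_k) ↦ ∑ s^k a_k(s^N, y)` -/
def sumL {N : ℕ} (hN : N ≠ 0) : (Fin N → OO o2) →ₗ[ℂ] OO o2 :=
  ∑ k : Fin N, (LinearMap.mulLeft ℂ (Zv 0 ^ (k : ℕ))).comp
    ((covₗ hN).toLinearMap.comp (LinearMap.proj k))

lemma sumL_apply {N : ℕ} (hN : N ≠ 0) (a : Fin N → OO o2) :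
    sumL hN a = ∑ k : Fin N, Zv 0 ^ (k : ℕ) * cov hN (a k) := by
  simp [sumL, LinearMap.sum_apply]

/-- **Kummer base change multiplies intersection numbers by `N`** -/
theorem inum_cov {N : ℕ} (hN : N ≠ 0) {f g : OO o2} (hfg : IsRelPrime f g) :
    inum (cov hN f) (cov hN g) = N * inum f g := by
  classical
  have hfin := finite_quot (F := ℂ × ℂ) (by simp) hfg
  set I := Ideal.span ({f, g} : Set (OO o2)) with hI
  set J := Ideal.span ({cov hN f, cov hN g} : Set (OO o2)) with hJ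
  let Φ : (Fin N → OO o2) →ₗ[ℂ] (OO o2 ⧸ J) :=
    (Ideal.Quotient.mkₐ ℂ J).toLinearMap.comp (sumL hN)
  have hsurj : Function.Surjective Φ := by
    intro y
    obtain ⟨y, rfl⟩ := Ideal.Quotient.mk_surjective y
    obtain ⟨a, ha⟩ := cov_decomp hN y
    refine ⟨a, ?_⟩
    change Ideal.Quotient.mk J (sumL hN a) = _
    rw [sumL_apply, ← ha]
  have hker : LinearMap.ker Φ =
      Submodule.pi Set.univ (fun _ : Fin N => (I.restrictScalars ℂ : Submodule ℂ (OO o2))) := by
    ext a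
    rw [LinearMap.mem_ker, Submodule.mem_pi]
    change Ideal.Quotient.mk J (sumL hN a) = 0 ↔ _
    rw [Ideal.Quotient.eq_zero_iff_mem, sumL_apply]
    constructor
    · intro h
      obtain ⟨b, c, hbc⟩ := Ideal.mem_span_pair.1 h
      obtain ⟨B, hB⟩ := cov_decomp hN b
      obtain ⟨C, hC⟩ := cov_decomp hN c
      have h1 : ∑ k : Fin N, Zv 0 ^ (k : ℕ) * cov hN ((fun k => a k - (B k * f + C k * g)) k) = 0 := by
        simp only [map_sub, map_add, map_mul, mul_sub, mul_add, Finset.sum_sub_distrib,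
          Finset.sum_add_distrib]
        rw [← hbc, hB, hC, Finset.sum_mul, Finset.sum_mul]
        simp only [mul_assoc, sub_self]
      have h2 := cov_free hN h1
      intro k _
      have h3 := congrFun h2 k
      simp only [Pi.zero_apply] at h3
      rw [sub_eq_zero] at h3
      change a k ∈ I
      rw [h3]
      exact Ideal.mem_span_pair.2 ⟨_, _, rfl⟩
    · intro h
      refine Ideal.sum_mem _ fun k _ => Ideal.mul_mem_left _ _ ?_
      have h1 : a k ∈ I := h k (Set.mem_univ k)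
      obtain ⟨b, c, hbc⟩ := Ideal.mem_span_pair.1 h1
      rw [← hbc, map_add, map_mul, map_mul]
      exact Ideal.mem_span_pair.2 ⟨_, _, rfl⟩
  have e1 : ((Fin N → OO o2) ⧸ LinearMap.ker Φ) ≃ₗ[ℂ] (OO o2 ⧸ J) :=
    Φ.quotKerEquivOfSurjective hsurj
  have e2 := Submodule.quotEquivOfEq _ _ hker
  have e3 := Submodule.quotientPi (fun _ : Fin N => (I.restrictScalars ℂ : Submodule ℂ (OO o2)))
  have h4 : Module.finrank ℂ (OO o2 ⧸ J) =
      Module.finrank ℂ (Fin N → (OO o2 ⧸ (I.restrictScalars ℂ : Submodule ℂ (OO o2)))) :=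
    ((e1.symm.trans e2).trans e3).finrank_eq
  have hfin' : Module.Finite ℂ (OO o2 ⧸ (I.restrictScalars ℂ : Submodule ℂ (OO o2))) := hfin
  have h5 : Module.finrank ℂ (OO o2 ⧸ (I.restrictScalars ℂ : Submodule ℂ (OO o2))) = inum f g := rfl
  change Module.finrank ℂ (OO o2 ⧸ J) = _
  rw [h4, Module.finrank_pi_fintype, h5]
  simp

end Crest.Agent.R257.N2_328
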