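import Crest.Agent.R257.N2A_328

/-!
Row 257 (S0395), leaf LC-N2, file B (helper328): intersection numbers with graphs, and the sheet
formula `N * inum h g = ∑ j, ord_s g(s^N, ζ_j s)` when `h(s^N, y) = u ∏ (y - ζ_j s)`.
-/

set_option autoImplicit false

open Set Filter Topology Metric Complex
open Crest.Agent.R275.Loc2879

noncomputable section

namespace Crest.Agent.R257.N2_328

/-! ### one variable -/

/-- dimension of `O_1 / (x)` -/
def ordO (x : OO (0 : ℂ)) : ℕ := Module.finrank ℂ (OO (0 : ℂ) ⧸ Ideal.span {x})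

lemma ordO_unit_mul {x : OO (0 : ℂ)} (u : (OO (0 : ℂ))ˣ) : ordO (x * u) = ordO x := by
  unfold ordO
  rw [Ideal.span_singleton_mul_right_unit u.isUnit]

/-- the quotient by `s ^ n` -/
lemma ordO_pow (n : ℕ) : ordO (TT 0 ^ n) = n ∧
    Module.Finite ℂ (OO (0 : ℂ) ⧸ Ideal.span {TT (0 : ℂ) ^ n}) := by
  -- the Taylor map
  let T : (Fin n → ℂ) →ₗ[ℂ] (OO (0 : ℂ) ⧸ Ideal.span {TT (0 : ℂ) ^ n}) :=
    ∑ k : Fin n, ((Ideal.Quotient.mkₐ ℂ (Ideal.span {TT (0 : ℂ) ^ n})).toLinearMap.comp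
      ((LinearMap.mulRight ℂ (TT (0 : ℂ) ^ (k : ℕ))).comp (Algebra.linearMap ℂ (OO (0 : ℂ))))).comp
      (LinearMap.proj k)
  have hT : ∀ c, T c = Ideal.Quotient.mk _ (∑ k : Fin n, algebraMap ℂ (OO (0 : ℂ)) (c k) * TT 0 ^ (k : ℕ)) := by
    intro c
    simp only [T, LinearMap.sum_apply, LinearMap.comp_apply, LinearMap.proj_apply, map_sum]
    rfl
  have hsurj : Function.Surjective T := by
    intro y
    obtain ⟨y, rfl⟩ := Ideal.Quotient.mk_surjective y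
    obtain ⟨c, z, hz⟩ := exists_taylor n y
    refine ⟨c, ?_⟩
    rw [hT, Ideal.Quotient.eq, hz]
    refine Ideal.mem_span_singleton.2 ⟨-z, ?_⟩
    ring
  have hinj : Function.Injective T := by
    rw [← LinearMap.ker_eq_bot, LinearMap.ker_eq_bot']
    intro c hc
    rw [hT, Ideal.Quotient.eq_zero_iff_mem, Ideal.mem_span_singleton] at hc
    set p : Polynomial ℂ := ∑ k : Fin n, Polynomial.C (c k) * Polynomial.X ^ (k : ℕ) with hp
    have h1 : pg p = ∑ k : Fin n, algebraMap ℂ (OO (0 : ℂ)) (c k) * TT 0 ^ (k : ℕ) := by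
      rw [hp, map_sum]
      refine Finset.sum_congr rfl fun k _ => ?_
      simp [pg]
    have hdeg : p.degree < n := by
      refine (Polynomial.degree_sum_le _ _).trans_lt ?_
      rw [Finset.sup_lt_iff (by exact WithBot.bot_lt_coe n)]
      intro j _
      refine (Polynomial.degree_C_mul_X_pow_le _ _).trans_lt ?_
      exact_mod_cast j.2
    have h2 : p = 0 := pg_eq_zero_of_dvd hdeg (by rw [h1]; exact hc)
    ext k
    have h3 : p.coeff k = c k := by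
      rw [hp, Polynomial.finsetSum_coeff]
      simp only [Polynomial.coeff_C_mul, Polynomial.coeff_X_pow]
      rw [Finset.sum_eq_single k]
      · simp
      · intro b _ hb
        rw [if_neg (fun h => hb (Fin.ext h.symm)), mul_zero]
      · intro h; exact absurd (Finset.mem_univ k) h
    rw [← h3, h2]; simp
  have e := LinearEquiv.ofBijective T ⟨hinj, hsurj⟩
  refine ⟨?_, Module.Finite.equiv e⟩
  unfold ordO
  rw [← e.finrank_eq]
  simp

/-- `ordO` is the order of vanishing -/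
lemma ordO_eq {f : ℂ → ℂ} (hf : AnalyticAt ℂ f 0) (h : analyticOrderAt f 0 ≠ ⊤) :
    ordO (gm f hf) = analyticOrderNatAt f 0 ∧
      Module.Finite ℂ (OO (0 : ℂ) ⧸ Ideal.span {gm f hf}) := by
  obtain ⟨n, hn⟩ := ENat.ne_top_iff_exists.1 h
  obtain ⟨g, hg, hg0, hfg⟩ := hf.analyticOrderAt_eq_natCast.1 hn.symm
  have hu : IsUnit (gm g hg) := isUnit_gm.2 hg0
  have h1 : gm f hf = TT 0 ^ n * (hu.unit : (OO (0 : ℂ))ˣ) := by
    rw [IsUnit.unit_spec, TT, gm_pow, gm_mul, gm_eq_gm]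
    filter_upwards [hfg] with w hw
    rw [hw]; simp
  have h2 : analyticOrderNatAt f 0 = n := by
    rw [analyticOrderNatAt, ← hn]; rfl
  have h3 : Ideal.span {gm f hf} = Ideal.span {TT (0 : ℂ) ^ n} := by
    rw [h1, Ideal.span_singleton_mul_right_unit hu.unit.isUnit]
  refine ⟨?_, ?_⟩
  · rw [h1, ordO_unit_mul, (ordO_pow n).1, h2]
  · rw [h3]; exact (ordO_pow n).2

/-! ### graphs -/

/-- restriction to the graph `y = ζ s` -/
def gr (ζ : ℂ → ℂ) (hζ : AnalyticAt ℂ ζ 0) (h0 : ζ 0 = 0) : OO o2 →+* OO (0 : ℂ) :=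
  pull (fun s => (s, ζ s)) (analyticAt_id.prod hζ) (by simp [h0])

lemma gr_gm {ζ : ℂ → ℂ} (hζ : AnalyticAt ℂ ζ 0) (h0 : ζ 0 = 0) {f : ℂ × ℂ → ℂ}
    (hf : AnalyticAt ℂ f o2) : ∃ h, gr ζ hζ h0 (gm f hf) = gm (fun s => f (s, ζ s)) h :=
  ⟨AnalyticAt.fun_comp (g := f) (f := fun s => (s, ζ s)) (by simpa [h0] using hf)
    (analyticAt_id.prod hζ), rfl⟩

lemma an_graph {ζ : ℂ → ℂ} (hζ : AnalyticAt ℂ ζ 0) :
    AnalyticAt ℂ (fun p : ℂ × ℂ => p.2 - ζ p.1) o2 :=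
  analyticAt_snd.fun_sub (AnalyticAt.fun_comp (g := ζ) (f := Prod.fst) hζ analyticAt_fst)

/-- the germ `y - ζ s` -/
def Yz (ζ : ℂ → ℂ) (hζ : AnalyticAt ℂ ζ 0) : OO o2 := gm _ (an_graph hζ)

lemma gr_iot {ζ : ℂ → ℂ} (hζ : AnalyticAt ℂ ζ 0) (h0 : ζ 0 = 0) (x : OO (0 : ℂ)) :
    gr ζ hζ h0 (iot 0 x) = x := by
  obtain ⟨f, hf, rfl⟩ := exists_gm x
  rfl

lemma gr_Yz {ζ : ℂ → ℂ} (hζ : AnalyticAt ℂ ζ 0) (h0 : ζ 0 = 0) : gr ζ hζ h0 (Yz ζ hζ) = 0 := by
  obtain ⟨h, e⟩ := gr_gm hζ h0 (an_graph hζ)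
  rw [Yz, e, gm_eq_zero]
  exact Eventually.of_forall fun s => by simp

lemma reg_Yz {ζ : ℂ → ℂ} (hζ : AnalyticAt ℂ ζ 0) (h0 : ζ 0 = 0) : Reg (Yz ζ hζ) 1 := by
  rw [Yz, reg_iff_order]
  have : (fun w : ℂ => w - ζ 0) = fun w : ℂ => (w - 0) ^ 1 := by
    ext w; simp [h0]
  simp only
  rw [this]
  exact analyticOrderAt_centeredMonomial

/-- the kernel of the restriction to a graph -/
lemma ker_gr {ζ : ℂ → ℂ} (hζ : AnalyticAt ℂ ζ 0) (h0 : ζ 0 = 0) (x : OO o2) :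
    gr ζ hζ h0 x = 0 ↔ Yz ζ hζ ∣ x := by
  constructor
  · intro h
    obtain ⟨q, c, hq⟩ := div_exists (reg_Yz hζ h0) x
    have h1 := congrArg (gr ζ hζ h0) hq
    rw [map_add, map_mul, gr_Yz, mul_zero, zero_add, h] at h1
    simp only [Finset.univ_unique, Fin.default_eq_zero, Fin.isValue, Fin.val_eq_zero, pow_zero,
      mul_one, Finset.sum_singleton] at h1
    rw [gr_iot] at h1
    refine ⟨q, ?_⟩
    rw [hq]
    simp [← h1, mul_comm]
  · rintro ⟨y, rfl⟩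
    rw [map_mul, gr_Yz, zero_mul]

/-- intersection number with a graph -/
theorem inum_graph {ζ : ℂ → ℂ} (hζ : AnalyticAt ℂ ζ 0) (h0 : ζ 0 = 0) {g : ℂ × ℂ → ℂ}
    (hg : AnalyticAt ℂ g o2) (h : analyticOrderAt (fun s => g (s, ζ s)) 0 ≠ ⊤) :
    inum (Yz ζ hζ) (gm g hg) = analyticOrderNatAt (fun s => g (s, ζ s)) 0 := by
  obtain ⟨hh, e⟩ := gr_gm hζ h0 hg
  have h1 := (ordO_eq hh h).1
  rw [← h1]
  unfold inum ordO
  -- the two quotients are isomorphic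
  set J := Ideal.span ({Yz ζ hζ, gm g hg} : Set (OO o2)) with hJ
  set K := Ideal.span {gm (fun s => g (s, ζ s)) hh} with hK
  let grA : OO o2 →ₐ[ℂ] OO (0 : ℂ) := { gr ζ hζ h0 with commutes' := fun c => rfl }
  let Φ : OO o2 →ₗ[ℂ] (OO (0 : ℂ) ⧸ K) := (Ideal.Quotient.mkₐ ℂ K).toLinearMap.comp grA.toLinearMap
  have hsurj : Function.Surjective Φ := by
    intro y
    obtain ⟨y, rfl⟩ := Ideal.Quotient.mk_surjective y
    refine ⟨iot 0 y, ?_⟩
    change Ideal.Quotient.mk K (gr ζ hζ h0 (iot 0 y)) = _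
    rw [gr_iot]
  have hker : LinearMap.ker Φ = (J.restrictScalars ℂ : Submodule ℂ (OO o2)) := by
    ext x
    rw [LinearMap.mem_ker]
    change Ideal.Quotient.mk K (gr ζ hζ h0 x) = 0 ↔ x ∈ J
    rw [Ideal.Quotient.eq_zero_iff_mem, Ideal.mem_span_singleton]
    constructor
    · rintro ⟨c, hc⟩
      have h2 : gr ζ hζ h0 (x - iot 0 c * gm g hg) = 0 := by
        rw [map_sub, map_mul, gr_iot, e, hc]; ring
      obtain ⟨d, hd⟩ := (ker_gr hζ h0 _).1 h2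
      refine Ideal.mem_span_pair.2 ⟨d, iot 0 c, ?_⟩
      linear_combination -hd
    · intro hx
      obtain ⟨a, b, rfl⟩ := Ideal.mem_span_pair.1 hx
      rw [map_add, map_mul, map_mul, gr_Yz, mul_zero, zero_add, e]
      exact Dvd.intro_left _ rfl
  have e1 := Φ.quotKerEquivOfSurjective hsurj
  have e2 := Submodule.quotEquivOfEq _ _ hker
  exact (e2.symm.trans e1).finrank_eq

lemma prime_Yz {ζ : ℂ → ℂ} (hζ : AnalyticAt ℂ ζ 0) (h0 : ζ 0 = 0) : Prime (Yz ζ hζ) := by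
  refine ⟨(reg_Yz hζ h0).ne_zero, ?_, ?_⟩
  · rw [Yz, isUnit_gm]; simp [h0]
  · intro a b hab
    rw [← ker_gr hζ h0] at hab ⊢
    rw [← ker_gr hζ h0, ← mul_eq_zero, ← map_mul]
    exact hab

lemma isRelPrime_Yz {ζ : ℂ → ℂ} (hζ : AnalyticAt ℂ ζ 0) (h0 : ζ 0 = 0) {g : ℂ × ℂ → ℂ}
    (hg : AnalyticAt ℂ g o2) (h : analyticOrderAt (fun s => g (s, ζ s)) 0 ≠ ⊤) :
    IsRelPrime (Yz ζ hζ) (gm g hg) := by
  rw [(prime_Yz hζ h0).irreducible.isRelPrime_iff_not_dvd]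
  intro hd
  rw [← ker_gr hζ h0] at hd
  obtain ⟨hh, e⟩ := gr_gm hζ h0 hg
  rw [e, gm_eq_zero] at hd
  exact h (analyticOrderAt_eq_top.2 hd)

/-! ### the sheet formula -/

/-- `h` splits into `d` sheets after the base change `x = s^N` -/
structure Sheets (h : ℂ × ℂ → ℂ) (N d : ℕ) (ζ : Fin d → ℂ → ℂ) : Prop where
  hN : N ≠ 0
  an : ∀ j, AnalyticAt ℂ (ζ j) 0
  zero : ∀ j, ζ j 0 = 0
  fac : ∃ u : ℂ × ℂ → ℂ, AnalyticAt ℂ u o2 ∧ u o2 ≠ 0 ∧
    ∀ᶠ p in 𝓝 o2, h (p.1 ^ N, p.2) = u p * ∏ j, (p.2 - ζ j p.1)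

variable {h : ℂ × ℂ → ℂ} {N d : ℕ} {ζ : Fin d → ℂ → ℂ}

lemma Sheets.tendsto (S : Sheets h N d ζ) (j : Fin d) :
    Tendsto (fun s : ℂ => (s, ζ j s)) (𝓝 0) (𝓝 o2) := by
  have : ContinuousAt (fun s : ℂ => (s, ζ j s)) 0 := continuousAt_id.prodMk (S.an j).continuousAt
  have h1 := this.tendsto
  simp only [S.zero j] at h1
  exact h1

lemma Sheets.vanish (S : Sheets h N d ζ) (j : Fin d) : ∀ᶠ s in 𝓝 (0 : ℂ), h (s ^ N, ζ j s) = 0 := by
  obtain ⟨u, hu, hu0, hfac⟩ := S.fac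
  filter_upwards [(S.tendsto j).eventually hfac] with s hs
  rw [hs]
  refine mul_eq_zero_of_right _ (Finset.prod_eq_zero (Finset.mem_univ j) (by simp))

lemma Sheets.tendsto' (S : Sheets h N d ζ) (j : Fin d) :
    Tendsto (fun s : ℂ => (s ^ N, ζ j s)) (𝓝 0) (𝓝 o2) := by
  have : ContinuousAt (fun s : ℂ => (s ^ N, ζ j s)) 0 :=
    (continuousAt_id.pow N).prodMk (S.an j).continuousAt
  have h1 := this.tendsto
  simp only [S.zero j, zero_pow S.hN] at h1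
  exact h1

/-- a germ relatively prime to `h` has finite order on every sheet -/
lemma Sheets.order_ne_top (S : Sheets h N d ζ) {hh : AnalyticAt ℂ h o2} {g : ℂ × ℂ → ℂ}
    {hg : AnalyticAt ℂ g o2} (hrel : IsRelPrime (gm h hh) (gm g hg)) (j : Fin d) :
    analyticOrderAt (fun s => g (s ^ N, ζ j s)) 0 ≠ ⊤ := by
  intro htop
  rw [analyticOrderAt_eq_top] at htop
  have h1 := isolated_of_isRelPrime (F := ℂ × ℂ) (by simp) hrel
  have h2 := ((S.tendsto' j).eventually h1)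
  have h3 : ∀ᶠ s in 𝓝[≠] (0 : ℂ), ((s ^ N, ζ j s) : ℂ × ℂ) = o2 :=
    ((h2.and ((S.vanish j).and htop)).mono fun s hs => hs.1 hs.2.1 hs.2.2).filter_mono
      nhdsWithin_le_nhds
  obtain ⟨s, hs, hs'⟩ := (h3.and self_mem_nhdsWithin).exists
  have h4 : s ^ N = 0 := congrArg Prod.fst hs
  exact hs' (eq_zero_of_pow_eq_zero h4)

lemma prod_gm {ι : Type*} (s : Finset ι) (c : ι → ℂ × ℂ → ℂ) (hc : ∀ i, AnalyticAt ℂ (c i) o2) :
    ∃ h, ∏ i ∈ s, gm (c i) (hc i) = gm (p := o2) (fun p => ∏ i ∈ s, c i p) h := by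
  classical
  induction s using Finset.induction_on with
  | empty => exact ⟨by simpa using analyticAt_const, by rw [Finset.prod_empty, gm_one, gm_eq_gm]; exact Eventually.of_forall fun w => by simp⟩
  | insert i s hi ih =>
    obtain ⟨h, e1⟩ := ih
    refine ⟨by simp only [Finset.prod_insert hi]; exact (hc i).fun_mul h, ?_⟩
    rw [Finset.prod_insert hi, e1, gm_mul, gm_eq_gm]
    exact Eventually.of_forall fun w => by simp [Finset.prod_insert hi]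

/-- **the sheet formula** -/
theorem Sheets.inum_eq (S : Sheets h N d ζ) {hh : AnalyticAt ℂ h o2} {g : ℂ × ℂ → ℂ}
    {hg : AnalyticAt ℂ g o2} (hrel : IsRelPrime (gm h hh) (gm g hg)) :
    N * inum (gm h hh) (gm g hg) = ∑ j, analyticOrderNatAt (fun s => g (s ^ N, ζ j s)) 0 := by
  classical
  rw [← inum_cov S.hN hrel]
  obtain ⟨u, hu, hu0, hfac⟩ := S.fac
  -- `cov h` is a unit times the product of the graphs
  have h1 : cov S.hN (gm h hh) = gm u hu * ∏ j, Yz (ζ j) (S.an j) := by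
    obtain ⟨hp, e⟩ := prod_gm Finset.univ (fun j => fun p : ℂ × ℂ => p.2 - ζ j p.1)
      (fun j => an_graph (S.an j))
    change _ = gm u hu * ∏ j, gm _ (an_graph (S.an j))
    rw [e, cov_gm, gm_mul, gm_eq_gm]
    exact hfac
  have hG : AnalyticAt ℂ (g ∘ fun q : ℂ × ℂ => (q.1 ^ N, q.2)) o2 :=
    AnalyticAt.comp (by simpa [S.hN] using hg) (an_cov N _)
  have hord : ∀ j, analyticOrderAt (fun s => (g ∘ fun q : ℂ × ℂ => (q.1 ^ N, q.2)) (s, ζ j s)) 0 ≠ ⊤ :=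
    fun j => S.order_ne_top hrel j
  have h2 : ∀ j, IsRelPrime (Yz (ζ j) (S.an j)) (gm _ hG) := fun j =>
    isRelPrime_Yz (S.an j) (S.zero j) hG (hord j)
  rw [h1, cov_gm, inum_comm, mul_comm, inum_mul_unit_right (isUnit_gm.2 hu0), inum_comm]
  -- induction over the product
  have key : ∀ s : Finset (Fin d), inum (∏ j ∈ s, Yz (ζ j) (S.an j)) (gm _ hG) =
      ∑ j ∈ s, analyticOrderNatAt (fun s => g (s ^ N, ζ j s)) 0 ∧
      IsRelPrime (∏ j ∈ s, Yz (ζ j) (S.an j)) (gm _ hG) := by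
    intro s
    induction s using Finset.induction_on with
    | empty =>
      refine ⟨?_, ?_⟩
      · rw [Finset.prod_empty, Finset.sum_empty, inum_of_isUnit_left isUnit_one]
      · rw [Finset.prod_empty]; exact isRelPrime_one_left
    | insert i s hi ih =>
      refine ⟨?_, ?_⟩
      · rw [Finset.prod_insert hi, Finset.sum_insert hi, inum_comm,
          inum_mul (F := ℂ × ℂ) (by simp) (h2 i).symm ih.2.symm, inum_comm, inum_comm (gm _ hG),
          ih.1, inum_graph (S.an i) (S.zero i) hG (hord i)]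
        rfl
      · rw [Finset.prod_insert hi]
        exact IsRelPrime.mul_left (h2 i) ih.2
  exact (key Finset.univ).1

end Crest.Agent.R257.N2_328
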