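import Crest.Agent.R257.N2B_328
import Crest.Agent.R257.AJ4_387

/-!
Row 257 (S0395), leaf LC-N2, file C (helper328): Puiseux sheets exist for a germ `h` regular in `y`
with `h, h_y` relatively prime (`AJ387.Data.abhyankar_jung` with a dummy second variable).
-/

set_option autoImplicit false

open Set Filter Topology Metric Complex
open Crest.Agent.R275.Loc2879

noncomputable section

namespace Crest.Agent.R257.N2_328

/-! ### partial derivatives -/

/-- derivative in `x` (first coordinate, the base) -/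
def dX (h : ℂ × ℂ → ℂ) (p : ℂ × ℂ) : ℂ := fderiv ℂ h p (1, 0)

/-- derivative in `y` (second coordinate, the fibre) -/
def dY (h : ℂ × ℂ → ℂ) (p : ℂ × ℂ) : ℂ := fderiv ℂ h p (0, 1)

lemma an_dX {h : ℂ × ℂ → ℂ} {p : ℂ × ℂ} (hh : AnalyticAt ℂ h p) : AnalyticAt ℂ (dX h) p :=
  ((ContinuousLinearMap.apply ℂ ℂ ((1, 0) : ℂ × ℂ)).analyticAt _).comp hh.fderiv

lemma an_dY {h : ℂ × ℂ → ℂ} {p : ℂ × ℂ} (hh : AnalyticAt ℂ h p) : AnalyticAt ℂ (dY h) p :=
  ((ContinuousLinearMap.apply ℂ ℂ ((0, 1) : ℂ × ℂ)).analyticAt _).comp hh.fderiv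

/-- chain rule along a curve -/
lemma hasDerivAt_curve {h : ℂ × ℂ → ℂ} {a b : ℂ → ℂ} {s a' b' : ℂ} (hh : AnalyticAt ℂ h (a s, b s))
    (ha : HasDerivAt a a' s) (hb : HasDerivAt b b' s) :
    HasDerivAt (fun s => h (a s, b s)) (a' * dX h (a s, b s) + b' * dY h (a s, b s)) s := by
  have h1 := hh.differentiableAt.hasFDerivAt.comp_hasDerivAt s (ha.prodMk hb)
  have h2 : fderiv ℂ h (a s, b s) (a', b') = a' * dX h (a s, b s) + b' * dY h (a s, b s) := by
    have : ((a', b') : ℂ × ℂ) = a' • ((1, 0) : ℂ × ℂ) + b' • ((0, 1) : ℂ × ℂ) := by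
      simp
    rw [this, map_add, map_smul, map_smul]; rfl
  rw [← h2]; exact h1

lemma hasDerivAt_fibre {h : ℂ × ℂ → ℂ} {x y : ℂ} (hh : AnalyticAt ℂ h (x, y)) :
    HasDerivAt (fun y => h (x, y)) (dY h (x, y)) y := by
  have := hasDerivAt_curve (h := h) (a := fun _ => x) (b := id) (s := y) (a' := 0) (b' := 1)
    (by simpa using hh) (hasDerivAt_const _ _) (hasDerivAt_id _)
  simpa using this

lemma hasDerivAt_base {h : ℂ × ℂ → ℂ} {x y : ℂ} (hh : AnalyticAt ℂ h (x, y)) :
    HasDerivAt (fun x => h (x, y)) (dX h (x, y)) x := by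
  have := hasDerivAt_curve (h := h) (a := id) (b := fun _ => y) (s := x) (a' := 1) (b' := 0)
    (by simpa using hh) (hasDerivAt_id _) (hasDerivAt_const _ _)
  simpa using this

lemma reg_dY {h : ℂ × ℂ → ℂ} {hh : AnalyticAt ℂ h o2} {d : ℕ} (hd : Reg (gm h hh) (d + 1)) :
    Reg (gm (dY h) (an_dY hh)) d := by
  rw [reg_iff_order] at hd ⊢
  have h0 : h (0, 0) = 0 := by
    have h1 : analyticOrderAt (fun w => h (0, w)) 0 ≠ 0 := by rw [hd]; simp
    exact apply_eq_zero_of_analyticOrderAt_ne_zero (f := fun w => h (0, w)) h1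
  have han : AnalyticAt ℂ (fun w => h (0, w)) 0 :=
    AnalyticAt.comp (g := h) (f := fun w : ℂ => ((0 : ℂ), w)) hh
      (analyticAt_const.prod analyticAt_id)
  have h1 := han.analyticOrderAt_deriv_add_one
  have h2 : (fun w => h (0, w) - h (0, 0)) = fun w => h (0, w) := by
    ext w; rw [h0, sub_zero]
  rw [h2, hd] at h1
  have h3 : deriv (fun w => h (0, w)) =ᶠ[𝓝 0] fun w => dY h (0, w) := by
    have h4 : ∀ᶠ p in 𝓝 o2, AnalyticAt ℂ h p := hh.eventually_analyticAt
    have h5 : Tendsto (fun w : ℂ => ((0 : ℂ), w)) (𝓝 0) (𝓝 o2) :=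
      (continuous_const.prodMk continuous_id).tendsto' _ _ rfl
    filter_upwards [h5.eventually h4] with w hw
    exact (hasDerivAt_fibre hw).deriv
  rw [analyticOrderAt_congr h3] at h1
  have h6 : analyticOrderAt (fun w => dY h (0, w)) 0 + 1 = (d : ℕ∞) + 1 := by
    rw [h1]; push_cast; rfl
  exact (ENat.add_left_injective_of_ne_top (ENat.natCast_ne_top 1)) (by simpa using h6)

lemma isRelPrime_dY {h : ℂ × ℂ → ℂ} {hh : AnalyticAt ℂ h o2} {d : ℕ} (hd : Reg (gm h hh) d)
    (hirr : Irreducible (gm h hh)) : IsRelPrime (gm h hh) (gm (dY h) (an_dY hh)) := by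
  rw [hirr.isRelPrime_iff_not_dvd]
  rintro ⟨c, hc⟩
  rcases d with _ | d
  · exact hirr.not_isUnit (reg_zero_iff.1 hd)
  · have h1 := reg_dY hd
    rw [hc] at h1
    obtain ⟨a, b, ha, hb, hab⟩ := h1.of_mul
    have := ha.unique hd
    omega

/-! ### existence of sheets -/

/-- representatives of a Weierstrass polynomial -/
lemma exists_wpoly {h : ℂ × ℂ → ℂ} {hh : AnalyticAt ℂ h o2} {d : ℕ} (hd : Reg (gm h hh) d) :
    ∃ (a : ℕ → ℂ → ℂ) (U : ℂ × ℂ → ℂ), (∀ i, AnalyticAt ℂ (a i) 0) ∧ (∀ i, a i 0 = 0) ∧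
      AnalyticAt ℂ U o2 ∧ U o2 ≠ 0 ∧
      ∀ᶠ p in 𝓝 o2, h p = U p * (p.2 ^ d + ∑ i ∈ Finset.range d, a i p.1 * p.2 ^ i) := by
  classical
  obtain ⟨P, u, hm, hn, hfu, hlow⟩ := wprep hd
  choose b hb hbe using fun i => exists_gm (P.coeff i)
  obtain ⟨U, hU, hUe⟩ := exists_gm (u : OO o2)
  have hU0 : U o2 ≠ 0 := by
    have := u.isUnit
    rw [← hUe, isUnit_gm] at this
    exact this
  refine ⟨fun i => if i < d then b i else 0, U, ?_, ?_, hU, hU0, ?_⟩
  · intro i
    by_cases hi : i < d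
    · simp only [hi, if_true]; exact hb i
    · simp only [hi, if_false]; exact analyticAt_const
  · intro i
    by_cases hi : i < d
    · simp only [hi, if_true]
      have := hlow i hi
      rw [← hbe i] at this
      exact this
    · simp only [hi, if_false]; rfl
  · have hsum : P = Polynomial.X ^ d + ∑ i ∈ Finset.range d,
        Polynomial.C (P.coeff i) * Polynomial.X ^ i := by
      conv_lhs => rw [hm.as_sum, hn]
    have h2 : ev 0 P = Wv 0 ^ d + ∑ i ∈ Finset.range d, iot 0 (P.coeff i) * Wv 0 ^ i := by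
      conv_lhs => rw [hsum]
      simp
    have h3 : ∃ hA, ev (0 : ℂ) P = gm (p := o2)
        (fun p => p.2 ^ d + ∑ i ∈ Finset.range d, b i p.1 * p.2 ^ i) hA := by
      have key : ∀ s : Finset ℕ, ∃ hA, Wv (0 : ℂ) ^ d + ∑ i ∈ s, iot 0 (P.coeff i) * Wv 0 ^ i =
          gm (p := o2) (fun p => p.2 ^ d + ∑ i ∈ s, b i p.1 * p.2 ^ i) hA := by
        intro s
        induction s using Finset.induction_on with
        | empty =>
          refine ⟨by simpa using analyticAt_snd.fun_pow d, ?_⟩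
          rw [Finset.sum_empty, add_zero, Wv, gm_pow, gm_eq_gm]
          exact Eventually.of_forall fun w => by simp
        | insert i s hi ih =>
          obtain ⟨hA, e⟩ := ih
          have hAi : AnalyticAt ℂ (fun p : ℂ × ℂ => b i p.1 * p.2 ^ i) o2 :=
            (AnalyticAt.fun_comp (g := b i) (f := Prod.fst) (hb i) analyticAt_fst).fun_mul
              (analyticAt_snd.fun_pow i)
          have e2 : iot 0 (P.coeff i) * Wv 0 ^ i = gm (p := o2) _ hAi := by
            rw [← hbe i, iot, pull_gm, Wv, gm_pow, gm_mul, gm_eq_gm]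
            exact Eventually.of_forall fun w => by simp
          refine ⟨?_, ?_⟩
          · have := hAi.fun_add hA
            refine this.congr (Eventually.of_forall fun w => ?_)
            simp only [Finset.sum_insert hi]; ring
          · rw [Finset.sum_insert hi, ← add_assoc, add_comm (Wv (0 : ℂ) ^ d), add_assoc, e, e2,
              gm_add, gm_eq_gm]
            exact Eventually.of_forall fun w => by
              simp only [Pi.add_apply, Finset.sum_insert hi]; ring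
      rw [h2]; exact key _
    obtain ⟨hA, h3⟩ := h3
    rw [← hUe, h3, gm_mul, gm_eq_gm] at hfu
    filter_upwards [hfu] with p hp
    rw [hp]
    simp only [Pi.mul_apply]
    congr 2
    refine Finset.sum_congr rfl fun i hi => ?_
    rw [if_pos (Finset.mem_range.1 hi)]

/-- roots of the Weierstrass polynomial tend to `0` -/
lemma roots_small {a : ℕ → ℂ → ℂ} (ha : ∀ i, AnalyticAt ℂ (a i) 0) (h0 : ∀ i, a i 0 = 0) (d : ℕ)
    {ε : ℝ} (hε : 0 < ε) : ∀ᶠ x in 𝓝 (0 : ℂ), ∀ y : ℂ,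
      y ^ d + ∑ i ∈ Finset.range d, a i x * y ^ i = 0 → ‖y‖ < ε := by
  have h1 : Tendsto (fun x => ∑ i ∈ Finset.range d, ‖a i x‖) (𝓝 0) (𝓝 0) := by
    have : Tendsto (fun x => ∑ i ∈ Finset.range d, ‖a i x‖) (𝓝 0)
        (𝓝 (∑ i ∈ Finset.range d, ‖a i 0‖)) :=
      tendsto_finsetSum _ fun i _ => (ha i).continuousAt.norm
    simpa [h0] using this
  set η : ℝ := min ε 1 with hη
  have hη0 : 0 < η := lt_min hε one_pos
  have h2 : ∀ᶠ x in 𝓝 (0 : ℂ), ∑ i ∈ Finset.range d, ‖a i x‖ < η ^ d :=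
    h1.eventually_lt_const (by positivity)
  filter_upwards [h2] with x hx y hy
  by_contra hcon
  push Not at hcon
  have h3 : y ^ d = - ∑ i ∈ Finset.range d, a i x * y ^ i := by linear_combination hy
  have h4 : ‖y‖ ^ d ≤ ∑ i ∈ Finset.range d, ‖a i x‖ * ‖y‖ ^ i := by
    calc ‖y‖ ^ d = ‖y ^ d‖ := (norm_pow _ _).symm
      _ = ‖∑ i ∈ Finset.range d, a i x * y ^ i‖ := by rw [h3, norm_neg]
      _ ≤ ∑ i ∈ Finset.range d, ‖a i x * y ^ i‖ := norm_sum_le _ _
      _ = _ := by simp_rw [norm_mul, norm_pow]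
  have hy0 : 0 < ‖y‖ := hε.trans_le hcon
  have h5 : ∀ i ∈ Finset.range d, ‖a i x‖ * ‖y‖ ^ i ≤ ‖a i x‖ * (‖y‖ ^ d / η ^ d) := by
    intro i hi
    refine mul_le_mul_of_nonneg_left ?_ (norm_nonneg _)
    rw [le_div_iff₀ (by positivity)]
    have hid : i ≤ d := (Finset.mem_range.1 hi).le
    have h6 : ‖y‖ ^ d = ‖y‖ ^ i * ‖y‖ ^ (d - i) := by rw [← pow_add]; congr 1; omega
    have h7 : η ^ d ≤ η ^ (d - i) := pow_le_pow_of_le_one hη0.le (min_le_right _ _) (by omega)
    have h8 : η ^ (d - i) ≤ ‖y‖ ^ (d - i) :=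
      pow_le_pow_left₀ hη0.le ((min_le_left _ _).trans hcon) _
    rw [h6]
    exact mul_le_mul_of_nonneg_left (h7.trans h8) (by positivity)
  have h6 := h4.trans (Finset.sum_le_sum h5)
  rw [← Finset.sum_mul] at h6
  have h7 : (∑ i ∈ Finset.range d, ‖a i x‖) * (‖y‖ ^ d / η ^ d) < η ^ d * (‖y‖ ^ d / η ^ d) :=
    mul_lt_mul_of_pos_right hx (by positivity)
  rw [mul_div_cancel₀ _ (by positivity)] at h7
  exact absurd (h6.trans_lt h7) (lt_irrefl _)

/-- the polynomial with coefficients `a i x` -/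
def wp (a : ℕ → ℂ → ℂ) (d : ℕ) (x : ℂ) : Polynomial ℂ :=
  Polynomial.X ^ d + ∑ i ∈ Finset.range d, Polynomial.C (a i x) * Polynomial.X ^ i

lemma wp_deg_lt (a : ℕ → ℂ → ℂ) (d : ℕ) (x : ℂ) :
    (∑ i ∈ Finset.range d, Polynomial.C (a i x) * Polynomial.X ^ i).degree < (d : WithBot ℕ) := by
  refine (Polynomial.degree_sum_le _ _).trans_lt ?_
  rw [Finset.sup_lt_iff (by exact WithBot.bot_lt_coe d)]
  intro j hj
  refine (Polynomial.degree_C_mul_X_pow_le _ _).trans_lt ?_
  exact_mod_cast Finset.mem_range.1 hj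

lemma wp_monic (a : ℕ → ℂ → ℂ) (d : ℕ) (x : ℂ) : (wp a d x).Monic :=
  Polynomial.monic_X_pow_add (wp_deg_lt a d x)

lemma wp_natDegree (a : ℕ → ℂ → ℂ) (d : ℕ) (x : ℂ) : (wp a d x).natDegree = d := by
  refine Polynomial.natDegree_eq_of_degree_eq_some ?_
  rw [wp, Polynomial.degree_add_eq_left_of_degree_lt]
  · exact Polynomial.degree_X_pow d
  · rw [Polynomial.degree_X_pow]; exact wp_deg_lt a d x

lemma wp_eval (a : ℕ → ℂ → ℂ) (d : ℕ) (x y : ℂ) :
    (wp a d x).eval y = y ^ d + ∑ i ∈ Finset.range d, a i x * y ^ i := by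
  rw [wp, Polynomial.eval_add, Polynomial.eval_pow, Polynomial.eval_X, Polynomial.eval_finsetSum]
  simp

lemma wp_coeff (a : ℕ → ℂ → ℂ) (d : ℕ) (x : ℂ) (k : ℕ) :
    (wp a d x).coeff k = (if k = d then 1 else 0) + if k < d then a k x else 0 := by
  rw [wp, Polynomial.coeff_add, Polynomial.coeff_X_pow, Polynomial.finsetSum_coeff]
  congr 1
  simp only [Polynomial.coeff_C_mul, Polynomial.coeff_X_pow, mul_ite, mul_one, mul_zero]
  rw [Finset.sum_ite_eq]
  simp

/-- data for Abhyankar-Jung with a dummy second variable -/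
lemma exists_data {h : ℂ × ℂ → ℂ} {hh : AnalyticAt ℂ h o2} {d : ℕ} (hd : Reg (gm h hh) d)
    (hrel : IsRelPrime (gm h hh) (gm (dY h) (an_dY hh))) {a : ℕ → ℂ → ℂ} {U : ℂ × ℂ → ℂ}
    (ha : ∀ i, AnalyticAt ℂ (a i) 0) (ha0 : ∀ i, a i 0 = 0) (hU : AnalyticAt ℂ U o2)
    (hfac : ∀ᶠ p in 𝓝 o2, h p = U p * (p.2 ^ d + ∑ i ∈ Finset.range d, a i p.1 * p.2 ^ i)) :
    ∃ (r : ℝ) (D : AJ387.Data d r 1), D.P = fun p => wp a d p.1 := by
  classical
  obtain ⟨M, hM⟩ := pow_Zv_mem hd hrel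
  obtain ⟨A, B, hAB⟩ := Ideal.mem_span_pair.1 hM
  obtain ⟨A, hA, rfl⟩ := exists_gm A
  obtain ⟨B, hB, rfl⟩ := exists_gm B
  rw [gm_mul, gm_mul, gm_add, Zv_eq, gm_pow, gm_eq_gm] at hAB
  simp only [sub_zero] at hAB
  -- near the origin, double roots lie over `x = 0`
  have hdbl : ∀ᶠ p in 𝓝 o2, (wp a d p.1).eval p.2 = 0 → (wp a d p.1).derivative.eval p.2 = 0 →
      p.1 ^ M = 0 := by
    have hUan := hU.eventually_analyticAt
    have hhan := hh.eventually_analyticAt
    filter_upwards [hAB, hfac.eventually_nhds, hUan, hhan] with p h1 h2 h3 h4 h5 h6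
    have h7 : h p = 0 := by
      rw [h2.self_of_nhds, ← wp_eval, h5, mul_zero]
    have h8 : dY h p = 0 := by
      have e1 : (fun y => h (p.1, y)) =ᶠ[𝓝 p.2] fun y => U (p.1, y) * (wp a d p.1).eval y := by
        have ht : Tendsto (fun y : ℂ => (p.1, y)) (𝓝 p.2) (𝓝 p) :=
          (continuous_const.prodMk continuous_id).tendsto' _ _ rfl
        filter_upwards [ht.eventually h2] with y hy
        rw [hy, wp_eval]
      have e2 : HasDerivAt (fun y => U (p.1, y) * (wp a d p.1).eval y)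
          (dY U p * (wp a d p.1).eval p.2 + U p * (wp a d p.1).derivative.eval p.2) p.2 :=
        (hasDerivAt_fibre (h := U) (x := p.1) (y := p.2) h3).mul ((wp a d p.1).hasDerivAt p.2)
      have e3 := (hasDerivAt_fibre (h := h) (x := p.1) (y := p.2) h4).unique
        (e2.congr_of_eventuallyEq e1)
      change dY h p = _ at e3
      rw [e3, h5, h6]; ring
    have h9 : A p * h p + B p * dY h p = p.1 ^ M := h1
    rw [← h9, h7, h8]; ring
  -- radii
  obtain ⟨ε, hε, hball⟩ := Metric.eventually_nhds_iff_ball.1 hdbl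
  obtain ⟨r, hr, hball2⟩ := Metric.eventually_nhds_iff_ball.1
    ((roots_small ha ha0 d hε).and ((Filter.eventually_all_finset (Finset.range d)).2
      fun i _ => (ha i).eventually_analyticAt))
  set r₁ := min r ε with hr₁
  have hr₁0 : 0 < r₁ := lt_min hr hε
  let D : AJ387.Data d r₁ 1 :=
    { P := fun p => wp a d p.1
      h₁ := hr₁0
      h₂ := one_pos
      monic := fun p _ => wp_monic a d p.1
      deg := fun p _ => wp_natDegree a d p.1
      an := by
        intro i p hp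
        simp only [wp_coeff]
        refine analyticAt_const.fun_add ?_
        by_cases hi : i < d
        · simp only [hi, if_true]
          refine AnalyticAt.fun_comp (g := a i) (f := Prod.fst) ?_ analyticAt_fst
          refine (hball2 p.1 ?_).2 i (Finset.mem_range.2 hi)
          rw [mem_ball_zero_iff]
          exact hp.1.trans_le (min_le_left _ _)
        · simp only [hi, if_false]; exact analyticAt_const
      nodup := by
        intro p hp hp0
        have hx0 : p.1 ≠ 0 := left_ne_zero_of_mul hp0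
        rw [Multiset.nodup_iff_count_le_one]
        intro y
        rw [Polynomial.count_roots]
        by_contra hns
        push Not at hns
        rw [Polynomial.one_lt_rootMultiplicity_iff_isRoot (wp_monic a d p.1).ne_zero] at hns
        have hx1 : ‖p.1‖ < r := hp.1.trans_le (min_le_left _ _)
        have hx2 : ‖p.1‖ < ε := hp.1.trans_le (min_le_right _ _)
        have hy : ‖y‖ < ε := by
          refine (hball2 p.1 (by rwa [mem_ball_zero_iff])).1 y ?_
          have := hns.1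
          rw [Polynomial.IsRoot.def, wp_eval] at this
          exact this
        have hmem : ((p.1, y) : ℂ × ℂ) ∈ Metric.ball o2 ε := by
          rw [Metric.mem_ball, dist_eq_norm]
          simp only [Prod.norm_def, Prod.fst_sub, Prod.snd_sub, sub_zero]
          exact max_lt hx2 hy
        exact hx0 (eq_zero_of_pow_eq_zero (hball (p.1, y) hmem hns.1 hns.2)) }
  exact ⟨r₁, D, rfl⟩

/-- **existence of sheets** -/
theorem exists_sheets {h : ℂ × ℂ → ℂ} {hh : AnalyticAt ℂ h o2} {d : ℕ} (hd : Reg (gm h hh) d)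
    (hrel : IsRelPrime (gm h hh) (gm (dY h) (an_dY hh))) :
    ∃ ζ : Fin d → ℂ → ℂ, Sheets h d.factorial d ζ ∧
      ∀ᶠ s in 𝓝[≠] (0 : ℂ), Function.Injective fun j => ζ j s := by
  classical
  obtain ⟨a, U, ha, ha0, hU, hU0, hfac⟩ := exists_wpoly hd
  obtain ⟨r₁, D, hDP⟩ := exists_data hd hrel ha ha0 hU hfac
  obtain ⟨ζ, hζan, hζ⟩ := D.abhyankar_jung
  have hr₁0 : 0 < r₁ := D.h₁
  set N := d.factorial with hNdef
  have hN : N ≠ 0 := Nat.factorial_ne_zero d
  -- the slice `b = 1/2`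
  have hhalf : ‖((1 / 2 : ℂ))‖ ^ N < 1 := by
    have : ‖((1 / 2 : ℂ))‖ = 1 / 2 := by norm_num
    rw [this]
    exact pow_lt_one₀ (by norm_num) (by norm_num) hN
  have hKD : ∀ s : ℂ, ‖s‖ ^ N < r₁ → ((s, 1 / 2) : ℂ × ℂ) ∈ AJ387.Data.KD N r₁ 1 :=
    fun s hs => ⟨hs, hhalf⟩
  have hroots : ∀ s : ℂ, ‖s‖ ^ N < r₁ → wp a d (s ^ N) =
      ∏ j, (Polynomial.X - Polynomial.C (ζ j (s, 1 / 2))) := by
    intro s hs
    have h1 := hζ _ (hKD s hs)
    rw [hDP] at h1
    exact h1
  have h00 : ‖(0 : ℂ)‖ ^ N < r₁ := by rw [norm_zero, zero_pow hN]; exact hr₁0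
  have hev : ∀ᶠ s in 𝓝 (0 : ℂ), ‖s‖ ^ N < r₁ := by
    have : ContinuousAt (fun s : ℂ => ‖s‖ ^ N) 0 := by fun_prop
    exact this.eventually_lt_const h00
  have hz0 : ∀ j, ζ j (0, 1 / 2) = 0 := by
    intro j
    have h1 := congrArg (Polynomial.eval (ζ j (0, 1 / 2))) (hroots 0 h00)
    rw [Polynomial.eval_prod, Finset.prod_eq_zero (Finset.mem_univ j) (by simp), wp_eval,
      zero_pow hN] at h1
    simp only [ha0, zero_mul, Finset.sum_const_zero, add_zero] at h1
    exact eq_zero_of_pow_eq_zero h1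
  refine ⟨fun j s => ζ j (s, 1 / 2), ⟨hN, ?_, hz0, ?_⟩, ?_⟩
  · intro j
    exact AnalyticAt.comp (g := ζ j) (f := fun s : ℂ => (s, (1 / 2 : ℂ))) (hζan j _ (hKD 0 h00))
      (analyticAt_id.prod analyticAt_const)
  · refine ⟨fun p => U (p.1 ^ N, p.2), ?_, ?_, ?_⟩
    · exact AnalyticAt.comp (g := U) (f := fun q : ℂ × ℂ => (q.1 ^ N, q.2))
        (by simpa only [zero_pow hN] using hU) (an_cov N _)
    · simpa only [zero_pow hN] using hU0
    · have ht : Tendsto (fun q : ℂ × ℂ => (q.1 ^ N, q.2)) (𝓝 o2) (𝓝 o2) := by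
        have := (an_cov N o2).continuousAt.tendsto
        simpa only [zero_pow hN] using this
      have hs : ∀ᶠ p in 𝓝 o2, ‖(p : ℂ × ℂ).1‖ ^ N < r₁ :=
        (continuous_fst.tendsto o2).eventually hev
      filter_upwards [ht.eventually hfac, hs] with p h1 h2
      rw [h1, ← wp_eval, hroots _ h2, Polynomial.eval_prod]
      simp
  · filter_upwards [hev.filter_mono nhdsWithin_le_nhds, self_mem_nhdsWithin] with s hs hs0
    have h1 := D.nodup (s ^ N, 1 / 2) ⟨by simpa using hs, by norm_num⟩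
      (mul_ne_zero (pow_ne_zero _ hs0) (by norm_num))
    rw [hDP] at h1
    change (wp a d (s ^ N)).roots.Nodup at h1
    have h2 : (∏ j, (Polynomial.X - Polynomial.C (ζ j (s, 1 / 2)))) =
        (((Finset.univ : Finset (Fin d)).val.map fun j => ζ j (s, 1 / 2)).map
          fun a => Polynomial.X - Polynomial.C a).prod := by
      rw [Multiset.map_map]; rfl
    rw [hroots s hs, h2, Polynomial.roots_multiset_prod_X_sub_C] at h1
    intro i j hij
    exact Multiset.inj_on_of_nodup_map h1 i (Finset.mem_univ i) j (Finset.mem_univ j) hij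

end Crest.Agent.R257.N2_328
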