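import Crest.Agent.R257.N2C_328
import Crest.Agent.R275.Loc2G_879

/-!
Row 257 (S0395), leaf LC-N2, file D (helper328): Teissier's formula
`inum q_y q = inum q_y q_x + inum q_y x` and the Le-Greuel formula
`inum q J(q,g) + inum q x = inum q q_y + inum q g` for plane curves.
-/

set_option autoImplicit false

open Set Filter Topology Metric Complex
open Crest.Agent.R275.Loc2879

noncomputable section

namespace Crest.Agent.R257.N2_328

/-! ### the base coordinate -/

lemma Zv_not_isUnit : ¬ IsUnit (Zv (0 : ℂ)) := by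
  rw [Zv_eq, isUnit_gm]; simp

lemma Zv_irreducible : Irreducible (Zv (0 : ℂ)) :=
  irreducible_of_inum_eq_one (F := ℂ × ℂ) (by simp) inum_coord

lemma isRelPrime_Zv {f : OO o2} {n : ℕ} (hf : Reg f n) : IsRelPrime f (Zv (0 : ℂ)) := by
  rw [isRelPrime_comm, Zv_irreducible.isRelPrime_iff_not_dvd]
  rintro ⟨c, hc⟩
  have h1 := congrArg (rho (0 : ℂ)) hc
  have h2 : rho (0 : ℂ) (Zv 0) = 0 := by
    rw [Zv, rho_iot]
    have : evp (0 : ℂ) (TT 0) = 0 := by
      have := TT_not_unit (a := (0 : ℂ))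
      rwa [R275.Loc2879.isUnit_iff, not_not] at this
    rw [this, map_zero]
  rw [map_mul, h2, zero_mul] at h1
  exact hf.rho_ne_zero h1

theorem inum_Zv {f : OO o2} {n : ℕ} (hf : Reg f n) : inum f (Zv (0 : ℂ)) = n := by
  obtain ⟨P, u, hm, hn, hfu, hlow⟩ := wprep hf
  have hsum : P = Polynomial.X ^ n + ∑ i ∈ Finset.range n,
      Polynomial.C (P.coeff i) * Polynomial.X ^ i := by
    conv_lhs => rw [hm.as_sum, hn]
  have h2 : ev 0 P = Wv 0 ^ n + ∑ i ∈ Finset.range n, iot 0 (P.coeff i) * Wv 0 ^ i := by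
    conv_lhs => rw [hsum]
    simp
  have h3 : Zv (0 : ℂ) ∣ ∑ i ∈ Finset.range n, iot 0 (P.coeff i) * Wv 0 ^ i := by
    refine Finset.dvd_sum fun i hi => Dvd.dvd.mul_right ?_ _
    have h4 := hlow i (Finset.mem_range.1 hi)
    have h5 : TT (0 : ℂ) ∣ P.coeff i := TT_dvd (by rw [R275.Loc2879.isUnit_iff, not_not]; exact h4)
    exact map_dvd _ h5
  obtain ⟨c, hc⟩ := h3
  have hWZ : IsRelPrime (Zv (0 : ℂ)) (Wv (0 : ℂ)) :=
    isRelPrime_of_inum_eq_one (F := ℂ × ℂ) (by simp) inum_coord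
  have hpow : ∀ k : ℕ, inum (Zv (0 : ℂ)) (Wv 0 ^ k) = k := by
    intro k
    induction k with
    | zero => rw [pow_zero, inum_of_isUnit_right isUnit_one]
    | succ k ih =>
      rw [pow_succ, inum_mul (F := ℂ × ℂ) (by simp) hWZ.pow_right hWZ, ih, inum_coord]
  rw [inum_comm, hfu, mul_comm, inum_mul_unit_right u.isUnit, h2, hc, mul_comm (Zv (0 : ℂ)) c,
    inum_add_mul, hpow]

/-! ### finite orders on all sheets -/

lemma exists_prime_dvd {R : Type*} [CommRing R] [IsDomain R] [UniqueFactorizationMonoid R]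
    {ι : Type*} {s : Finset ι} {p : ι → R} (hp : ∀ i, Prime (p i)) {u x : R} (hu : IsUnit u)
    (hx : ¬ IsUnit x) (hx0 : x ≠ 0) (h : x ∣ u * ∏ i ∈ s, p i) : ∃ i ∈ s, p i ∣ x := by
  obtain ⟨q, hq, hqx⟩ := WfDvdMonoid.exists_irreducible_factor hx hx0
  have hq' : Prime q := hq.prime
  have h1 := hqx.trans h
  rcases hq'.dvd_or_dvd h1 with h2 | h2
  · exact absurd (isUnit_of_dvd_unit h2 hu) hq.not_isUnit
  · obtain ⟨i, hi, h3⟩ := (Prime.dvd_finsetProd_iff hq' _).1 h2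
    exact ⟨i, hi, ((hq.associated_of_dvd (hp i).irreducible h3).symm.dvd).trans hqx⟩

variable {h : ℂ × ℂ → ℂ} {N d : ℕ} {ζ : Fin d → ℂ → ℂ}

lemma Sheets.cov_fac (S : Sheets h N d ζ) (hh : AnalyticAt ℂ h o2) :
    ∃ u : OO o2, IsUnit u ∧ cov S.hN (gm h hh) = u * ∏ j, Yz (ζ j) (S.an j) := by
  obtain ⟨u, hu, hu0, hfac⟩ := S.fac
  refine ⟨gm u hu, isUnit_gm.2 hu0, ?_⟩
  obtain ⟨hp, e⟩ := prod_gm Finset.univ (fun j => fun p : ℂ × ℂ => p.2 - ζ j p.1)
    (fun j => an_graph (S.an j))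
  change _ = gm u hu * ∏ j, gm _ (an_graph (S.an j))
  rw [e, cov_gm, gm_mul, gm_eq_gm]
  exact hfac

/-- a germ with finite order on all the sheets of `h` is relatively prime to `h` -/
lemma Sheets.isRelPrime (S : Sheets h N d ζ) {hh : AnalyticAt ℂ h o2} {g : ℂ × ℂ → ℂ}
    {hg : AnalyticAt ℂ g o2} (hord : ∀ j, analyticOrderAt (fun s => g (s ^ N, ζ j s)) 0 ≠ ⊤) :
    IsRelPrime (gm h hh) (gm g hg) := by
  intro k hk1 hk2
  by_contra hku
  obtain ⟨u, hu, hfac⟩ := S.cov_fac hh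
  have hcov := map_dvd (cov S.hN) hk1
  rw [hfac] at hcov
  obtain ⟨K, hK, rfl⟩ := exists_gm k
  have hnu : ¬ IsUnit (cov S.hN (gm K hK)) := by
    rw [cov_gm, isUnit_gm, not_not]
    rw [isUnit_gm, not_not] at hku
    simpa [zero_pow S.hN] using hku
  have hprod : u * ∏ j, Yz (ζ j) (S.an j) ≠ 0 :=
    mul_ne_zero hu.ne_zero (Finset.prod_ne_zero_iff.2 fun j _ => (prime_Yz (S.an j) (S.zero j)).ne_zero)
  have hne : cov S.hN (gm K hK) ≠ 0 := ne_zero_of_dvd_ne_zero hprod hcov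
  obtain ⟨j, -, hj⟩ := exists_prime_dvd (fun j => prime_Yz (S.an j) (S.zero j)) hu hnu hne hcov
  have h1 : Yz (ζ j) (S.an j) ∣ cov S.hN (gm g hg) := hj.trans (map_dvd _ hk2)
  rw [← ker_gr (S.an j) (S.zero j), cov_gm] at h1
  obtain ⟨h2, e⟩ := gr_gm (S.an j) (S.zero j)
    (f := g ∘ fun q : ℂ × ℂ => (q.1 ^ N, q.2))
    (AnalyticAt.comp (by simpa only [zero_pow S.hN] using hg) (an_cov N _))
  rw [e, gm_eq_zero] at h1
  exact hord j (analyticOrderAt_eq_top.2 h1)

/-- a multiple of `h` vanishes on the sheets -/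
lemma Sheets.vanish_of_dvd (S : Sheets h N d ζ) {hh : AnalyticAt ℂ h o2} {g : ℂ × ℂ → ℂ}
    {hg : AnalyticAt ℂ g o2} (hdvd : gm h hh ∣ gm g hg) (j : Fin d) :
    ∀ᶠ s in 𝓝 (0 : ℂ), g (s ^ N, ζ j s) = 0 := by
  obtain ⟨c, hc⟩ := hdvd
  obtain ⟨C, hC, rfl⟩ := exists_gm c
  rw [gm_mul, gm_eq_gm] at hc
  filter_upwards [(S.tendsto' j).eventually hc, S.vanish j] with s h1 h2
  rw [h1, Pi.mul_apply, h2, zero_mul]

/-- analyticity along a sheet -/
lemma Sheets.an_comp (S : Sheets h N d ζ) {g : ℂ × ℂ → ℂ} (hg : AnalyticAt ℂ g o2) (j : Fin d) :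
    AnalyticAt ℂ (fun s => g (s ^ N, ζ j s)) 0 := by
  refine AnalyticAt.fun_comp (g := g) (f := fun s => (s ^ N, ζ j s)) ?_
    ((analyticAt_id.fun_pow N).prod (S.an j))
  simpa only [id, zero_pow S.hN, S.zero j] using hg

/-- chain rule along a sheet -/
lemma Sheets.deriv_comp (S : Sheets h N d ζ) {g : ℂ × ℂ → ℂ} (hg : AnalyticAt ℂ g o2) (j : Fin d) :
    ∀ᶠ s in 𝓝 (0 : ℂ), deriv (fun s => g (s ^ N, ζ j s)) s =
      (N * s ^ (N - 1)) * dX g (s ^ N, ζ j s) + deriv (ζ j) s * dY g (s ^ N, ζ j s) := by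
  filter_upwards [(S.tendsto' j).eventually hg.eventually_analyticAt,
    (S.an j).eventually_analyticAt] with s h1 h2
  exact (hasDerivAt_curve (a := fun s => s ^ N) (b := ζ j) h1 (hasDerivAt_pow N s)
    h2.differentiableAt.hasDerivAt).deriv

lemma order_monomial {N : ℕ} : analyticOrderAt (fun s : ℂ => (N + 1 : ℂ) * s ^ N) 0 = N := by
  have h1 : (fun s : ℂ => (N + 1 : ℂ) * s ^ N) = (fun _ => (N + 1 : ℂ)) * fun s => (s - 0) ^ N := by
    ext s; simp
  have h2 : analyticOrderAt (fun s : ℂ => (s - 0) ^ N) 0 = N := analyticOrderAt_centeredMonomial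
  rw [h1, analyticOrderAt_mul analyticAt_const ((analyticAt_id.fun_sub analyticAt_const).fun_pow N),
    h2]
  have : analyticOrderAt (fun _ : ℂ => (N + 1 : ℂ)) 0 = 0 := by
    rw [analyticAt_const.analyticOrderAt_eq_zero]
    exact_mod_cast N.succ_ne_zero
  rw [this, zero_add]

/-- order of the derivative -/
lemma order_deriv {f : ℂ → ℂ} (hf : AnalyticAt ℂ f 0) (h0 : f 0 = 0) :
    analyticOrderAt (deriv f) 0 + 1 = analyticOrderAt f 0 := by
  rw [hf.analyticOrderAt_deriv_add_one, h0]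
  simp


/-- the factor `N s^(N-1)` -/
lemma order_kummer (hN : N ≠ 0) :
    analyticOrderAt (fun s : ℂ => (N * s ^ (N - 1) : ℂ)) 0 + 1 = N := by
  obtain ⟨M, rfl⟩ := Nat.exists_eq_succ_of_ne_zero hN
  simp only [Nat.succ_eq_add_one, Nat.add_sub_cancel, Nat.cast_add, Nat.cast_one]
  rw [order_monomial]

lemma an_kummer : AnalyticAt ℂ (fun s : ℂ => (N * s ^ (N - 1) : ℂ)) 0 :=
  analyticAt_const.fun_mul (analyticAt_id.fun_pow _)

/-- **Teissier's lemma on one factor of `q_y`** -/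
lemma teissier_factor {q : ℂ × ℂ → ℂ} {hq : AnalyticAt ℂ q o2} (hq0 : q o2 = 0)
    {H : ℂ × ℂ → ℂ} {hH : AnalyticAt ℂ H o2} {e : ℕ} (he : Reg (gm H hH) e)
    (hirr : Irreducible (gm H hH)) (hdvd : gm H hH ∣ gm (dY q) (an_dY hq))
    (hrel : IsRelPrime (gm H hH) (gm (dX q) (an_dX hq))) :
    IsRelPrime (gm H hH) (gm q hq) ∧
      inum (gm H hH) (gm q hq) = inum (gm H hH) (gm (dX q) (an_dX hq)) + inum (gm H hH) (Zv 0) := by
  obtain ⟨ζ, S, -⟩ := exists_sheets he (isRelPrime_dY he hirr)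
  have hord : ∀ j, analyticOrderAt (fun s => q (s ^ e.factorial, ζ j s)) 0 =
      analyticOrderAt (fun s => dX q (s ^ e.factorial, ζ j s)) 0 + e.factorial := by
    intro j
    have h1 := S.vanish_of_dvd hdvd j
    have h2 := S.deriv_comp hq j
    have h3 : deriv (fun s => q (s ^ e.factorial, ζ j s)) =ᶠ[𝓝 0]
        (fun s : ℂ => (e.factorial * s ^ (e.factorial - 1) : ℂ)) *
          fun s => dX q (s ^ e.factorial, ζ j s) := by
      filter_upwards [h1, h2] with s h4 h5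
      rw [h5, h4, mul_zero, add_zero]; rfl
    have h6 := order_deriv (S.an_comp hq j) (by simp [zero_pow S.hN, S.zero j, hq0])
    rw [← h6, analyticOrderAt_congr h3, analyticOrderAt_mul an_kummer (S.an_comp (an_dX hq) j),
      add_right_comm, order_kummer S.hN, add_comm]
  have hne : ∀ j, analyticOrderAt (fun s => dX q (s ^ e.factorial, ζ j s)) 0 ≠ ⊤ :=
    fun j => S.order_ne_top hrel j
  have hne' : ∀ j, analyticOrderAt (fun s => q (s ^ e.factorial, ζ j s)) 0 ≠ ⊤ := by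
    intro j
    rw [hord j]
    exact WithTop.add_ne_top.2 ⟨hne j, ENat.natCast_ne_top _⟩
  have hrq : IsRelPrime (gm H hH) (gm q hq) := S.isRelPrime hne'
  refine ⟨hrq, ?_⟩
  have h1 := S.inum_eq hrq
  have h2 := S.inum_eq hrel
  have h3 : ∀ j, analyticOrderNatAt (fun s => q (s ^ e.factorial, ζ j s)) 0 =
      analyticOrderNatAt (fun s => dX q (s ^ e.factorial, ζ j s)) 0 + e.factorial := by
    intro j
    have h4 := hord j
    rw [← Nat.cast_analyticOrderNatAt (hne j), ← Nat.cast_analyticOrderNatAt (hne' j)] at h4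
    exact_mod_cast h4
  rw [Finset.sum_congr rfl fun j _ => h3 j, Finset.sum_add_distrib, ← h2, Finset.sum_const,
    Finset.card_univ, Fintype.card_fin, smul_eq_mul] at h1
  rw [inum_Zv he]
  have h5 : e.factorial * inum (gm H hH) (gm q hq) =
      e.factorial * (inum (gm H hH) (gm (dX q) (an_dX hq)) + e) := by
    rw [h1]; ring
  exact Nat.eq_of_mul_eq_mul_left (Nat.factorial_pos e) h5

/-- **Teissier's lemma** -/
theorem teissier {q : ℂ × ℂ → ℂ} {hq : AnalyticAt ℂ q o2} (hq0 : q o2 = 0) {e : ℕ}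
    (he : Reg (gm (dY q) (an_dY hq)) e)
    (hrel : IsRelPrime (gm (dY q) (an_dY hq)) (gm (dX q) (an_dX hq))) :
    IsRelPrime (gm (dY q) (an_dY hq)) (gm q hq) ∧
      inum (gm (dY q) (an_dY hq)) (gm q hq) =
        inum (gm (dY q) (an_dY hq)) (gm (dX q) (an_dX hq)) + e := by
  have key : ∀ f : OO o2, f ∣ gm (dY q) (an_dY hq) →
      IsRelPrime f (gm q hq) ∧
        inum f (gm q hq) = inum f (gm (dX q) (an_dX hq)) + inum f (Zv 0) := by
    intro f
    induction f using WfDvdMonoid.induction_on_irreducible with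
    | zero => intro h; exact absurd (zero_dvd_iff.1 h) he.ne_zero
    | unit u hu =>
      intro _
      refine ⟨hu.isRelPrime_left, ?_⟩
      rw [inum_of_isUnit_left hu, inum_of_isUnit_left hu, inum_of_isUnit_left hu]
    | mul a i ha hi ih =>
      intro hdvd
      have hid : i ∣ gm (dY q) (an_dY hq) := (Dvd.intro _ rfl).trans hdvd
      have had : a ∣ gm (dY q) (an_dY hq) := (Dvd.intro_left _ rfl).trans hdvd
      obtain ⟨H, hH, rfl⟩ := exists_gm i
      obtain ⟨c, hc⟩ := hid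
      have hreg : ∃ n, Reg (gm H hH) n := by
        have h1 := he
        rw [hc] at h1
        obtain ⟨a, b, ha, hb, hab⟩ := h1.of_mul
        exact ⟨a, ha⟩
      obtain ⟨n, hn⟩ := hreg
      have hregA : ∃ n, Reg a n := by
        obtain ⟨c, hc⟩ := had
        have h1 := he
        rw [hc] at h1
        obtain ⟨a, b, ha, hb, hab⟩ := h1.of_mul
        exact ⟨a, ha⟩
      obtain ⟨m, hm⟩ := hregA
      have hrX : IsRelPrime (gm H hH) (gm (dX q) (an_dX hq)) :=
        hrel.of_dvd_left ⟨c, hc⟩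
      obtain ⟨h1, h2⟩ := teissier_factor hq0 hn hi ⟨c, hc⟩ hrX
      obtain ⟨h3, h4⟩ := ih had
      have haX : IsRelPrime a (gm (dX q) (an_dX hq)) := hrel.of_dvd_left had
      refine ⟨IsRelPrime.mul_left h1 h3, ?_⟩
      rw [inum_comm, inum_mul (F := ℂ × ℂ) (by simp) h1.symm h3.symm,
        inum_comm (gm H hH * a), inum_mul (F := ℂ × ℂ) (by simp) hrX.symm haX.symm,
        inum_comm (gm H hH * a), inum_mul (F := ℂ × ℂ) (by simp) (isRelPrime_Zv hn).symm
          (isRelPrime_Zv hm).symm, inum_comm _ (gm H hH), inum_comm _ a, h2, h4,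
        inum_comm _ (gm H hH), inum_comm _ a, inum_comm _ (gm H hH), inum_comm _ a]
      ring
  obtain ⟨h1, h2⟩ := key _ dvd_rfl
  exact ⟨h1, by rw [h2, inum_Zv he]⟩

/-- the Jacobian determinant `q_x g_y - q_y g_x` -/
def JJ (q g : ℂ × ℂ → ℂ) (p : ℂ × ℂ) : ℂ := dX q p * dY g p - dY q p * dX g p

lemma an_JJ {q g : ℂ × ℂ → ℂ} {p : ℂ × ℂ} (hq : AnalyticAt ℂ q p) (hg : AnalyticAt ℂ g p) :
    AnalyticAt ℂ (JJ q g) p :=
  ((an_dX hq).mul (an_dY hg)).sub ((an_dY hq).mul (an_dX hg))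

/-- **Le-Greuel formula for plane curves** -/
theorem le_greuel {q g : ℂ × ℂ → ℂ} {hq : AnalyticAt ℂ q o2} {hg : AnalyticAt ℂ g o2}
    (hg0 : g o2 = 0) {d : ℕ} (hd : Reg (gm q hq) d)
    (hrel : IsRelPrime (gm q hq) (gm (dY q) (an_dY hq))) (hqg : IsRelPrime (gm q hq) (gm g hg)) :
    IsRelPrime (gm q hq) (gm (JJ q g) (an_JJ hq hg)) ∧
      inum (gm q hq) (gm (JJ q g) (an_JJ hq hg)) + d =
        inum (gm q hq) (gm (dY q) (an_dY hq)) + inum (gm q hq) (gm g hg) := by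
  obtain ⟨ζ, S, -⟩ := exists_sheets hd hrel
  have hord : ∀ j, analyticOrderAt (fun s => JJ q g (s ^ d.factorial, ζ j s)) 0 + d.factorial =
      analyticOrderAt (fun s => dY q (s ^ d.factorial, ζ j s)) 0 +
        analyticOrderAt (fun s => g (s ^ d.factorial, ζ j s)) 0 := by
    intro j
    have h1 : ∀ᶠ s in 𝓝 (0 : ℂ), deriv (fun s => q (s ^ d.factorial, ζ j s)) s = 0 := by
      have h2 := (S.vanish j).eventually_nhds
      filter_upwards [h2] with s hs
      have : (fun s => q (s ^ d.factorial, ζ j s)) =ᶠ[𝓝 s] fun _ => 0 := hs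
      rw [this.deriv_eq, deriv_const]
    have h2 := S.deriv_comp hq j
    have h3 := S.deriv_comp hg j
    have h4 : (fun s => dY q (s ^ d.factorial, ζ j s)) *
        deriv (fun s => g (s ^ d.factorial, ζ j s)) =ᶠ[𝓝 0]
        -((fun s : ℂ => (d.factorial * s ^ (d.factorial - 1) : ℂ)) *
          fun s => JJ q g (s ^ d.factorial, ζ j s)) := by
      filter_upwards [h1, h2, h3] with s h5 h6 h7
      rw [h5] at h6
      simp only [Pi.mul_apply, Pi.neg_apply, h7, JJ]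
      linear_combination (-(dY g (s ^ d.factorial, ζ j s))) * h6
    have h5 := order_deriv (S.an_comp hg j) (by simp [zero_pow S.hN, S.zero j, hg0])
    have h6 := analyticOrderAt_congr h4
    rw [analyticOrderAt_mul (S.an_comp (an_dY hq) j) (S.an_comp hg j).deriv, analyticOrderAt_neg,
      analyticOrderAt_mul an_kummer (S.an_comp (an_JJ hq hg) j)] at h6
    rw [← h5, ← add_assoc, h6, add_right_comm, order_kummer S.hN, add_comm]
  have hneY := fun j => S.order_ne_top hrel j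
  have hneg := fun j => S.order_ne_top hqg j
  have hneJ : ∀ j, analyticOrderAt (fun s => JJ q g (s ^ d.factorial, ζ j s)) 0 ≠ ⊤ := by
    intro j hj
    have h1 := hord j
    rw [hj, top_add] at h1
    exact WithTop.add_ne_top.2 ⟨hneY j, hneg j⟩ h1.symm
  have hrJ : IsRelPrime (gm q hq) (gm (JJ q g) (an_JJ hq hg)) := S.isRelPrime hneJ
  refine ⟨hrJ, ?_⟩
  have e1 := S.inum_eq hrJ
  have e2 := S.inum_eq hrel
  have e3 := S.inum_eq hqg
  have h3 : ∀ j, analyticOrderNatAt (fun s => JJ q g (s ^ d.factorial, ζ j s)) 0 + d.factorial =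
      analyticOrderNatAt (fun s => dY q (s ^ d.factorial, ζ j s)) 0 +
        analyticOrderNatAt (fun s => g (s ^ d.factorial, ζ j s)) 0 := by
    intro j
    have h4 := hord j
    rw [← Nat.cast_analyticOrderNatAt (hneY j), ← Nat.cast_analyticOrderNatAt (hneg j),
      ← Nat.cast_analyticOrderNatAt (hneJ j)] at h4
    exact_mod_cast h4
  have h4 := Finset.sum_congr (s₁ := (Finset.univ : Finset (Fin d))) rfl fun j _ => h3 j
  rw [Finset.sum_add_distrib, Finset.sum_add_distrib, ← e1, ← e2, ← e3, Finset.sum_const,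
    Finset.card_univ, Fintype.card_fin, smul_eq_mul] at h4
  refine Nat.eq_of_mul_eq_mul_left (Nat.factorial_pos d) ?_
  rw [mul_add, mul_add, ← h4]
  ring

end Crest.Agent.R257.N2_328
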