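import Crest.Agent.R257.N2D_328
import Crest.Agent.R257.CNS_939
import Crest.Agent.R257.LCDefs_472

/-!
Row 257 (S0395), leaf LC-N2, file E (helper328): dictionary between `col ![f, g]` on `Fin 2 → ℂ`
(index `0` = fibre coordinate `y`, index `1` = base coordinate `x`) and `inum` on `ℂ × ℂ`.
-/

set_option autoImplicit false

open Set Filter Topology Metric Complex
open Crest.Agent.R275.Loc2879
open Crest.Agent.R257.Defs_219
open Crest.AlgGeometry.Germ

noncomputable section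

namespace Crest.Agent.R257.N2_328

/-- `(x, y) ↦ ![y, x]` -/
def psi (p : ℂ × ℂ) : Fin 2 → ℂ := ![p.2, p.1]

/-- `![y, x] ↦ (x, y)` -/
def phi (v : Fin 2 → ℂ) : ℂ × ℂ := (v 1, v 0)

@[simp] lemma phi_psi (p : ℂ × ℂ) : phi (psi p) = p := rfl
@[simp] lemma psi_phi (v : Fin 2 → ℂ) : psi (phi v) = v := by
  ext i; fin_cases i <;> rfl
@[simp] lemma psi_zero : psi o2 = 0 := by ext i; fin_cases i <;> rfl
@[simp] lemma phi_zero : phi 0 = o2 := rfl

/-- `psi` as a continuous linear equivalence -/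
def psiL : (ℂ × ℂ) ≃L[ℂ] (Fin 2 → ℂ) :=
  { toFun := psi
    invFun := phi
    left_inv := phi_psi
    right_inv := psi_phi
    map_add' := fun p q => by ext i; fin_cases i <;> rfl
    map_smul' := fun c p => by ext i; fin_cases i <;> rfl
    continuous_toFun := by
      refine continuous_pi fun i => ?_
      fin_cases i
      · exact continuous_snd
      · exact continuous_fst
    continuous_invFun := (continuous_apply 1).prodMk (continuous_apply 0) }

lemma an_psi (p : ℂ × ℂ) : AnalyticAt ℂ psi p := psiL.toContinuousLinearMap.analyticAt p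
lemma an_phi (v : Fin 2 → ℂ) : AnalyticAt ℂ phi v := psiL.symm.toContinuousLinearMap.analyticAt v

lemma continuous_psi : Continuous psi := psiL.continuous
lemma continuous_phi : Continuous phi := psiL.symm.continuous

lemma tendsto_psi : Tendsto psi (𝓝 o2) (𝓝 0) := continuous_psi.tendsto' _ _ psi_zero
lemma tendsto_phi : Tendsto phi (𝓝 0) (𝓝 o2) := continuous_phi.tendsto' _ _ phi_zero

/-- a function of two variables on `ℂ × ℂ` -/
def two (f : (Fin 2 → ℂ) → ℂ) (p : ℂ × ℂ) : ℂ := f (psi p)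

lemma an_two' {f : (Fin 2 → ℂ) → ℂ} {p : ℂ × ℂ} (hf : AnalyticAt ℂ f (psi p)) :
    AnalyticAt ℂ (two f) p := hf.comp (an_psi p)

lemma an_two {f : (Fin 2 → ℂ) → ℂ} (hf : AnalyticAt ℂ f 0) : AnalyticAt ℂ (two f) o2 :=
  an_two' (by rwa [psi_zero])

lemma dX_two {f : (Fin 2 → ℂ) → ℂ} {p : ℂ × ℂ} (hf : AnalyticAt ℂ f (psi p)) :
    dX (two f) p = coordDeriv f 1 (psi p) := by
  have h1 := hf.differentiableAt.hasFDerivAt.comp p psiL.toContinuousLinearMap.hasFDerivAt
  change fderiv ℂ (two f) p (1, 0) = _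
  have h2 : fderiv ℂ (two f) p = (fderiv ℂ f (psi p)).comp psiL.toContinuousLinearMap := h1.fderiv
  rw [h2, coordDeriv]
  change fderiv ℂ f (psi p) (psi (1, 0)) = _
  congr 1
  ext i; fin_cases i <;> simp [psi]

lemma dY_two {f : (Fin 2 → ℂ) → ℂ} {p : ℂ × ℂ} (hf : AnalyticAt ℂ f (psi p)) :
    dY (two f) p = coordDeriv f 0 (psi p) := by
  have h1 := hf.differentiableAt.hasFDerivAt.comp p psiL.toContinuousLinearMap.hasFDerivAt
  change fderiv ℂ (two f) p (0, 1) = _
  have h2 : fderiv ℂ (two f) p = (fderiv ℂ f (psi p)).comp psiL.toContinuousLinearMap := h1.fderiv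
  rw [h2, coordDeriv]
  change fderiv ℂ f (psi p) (psi (0, 1)) = _
  congr 1
  ext i; fin_cases i <;> simp [psi]

lemma an_coordDeriv {n : ℕ} {f : (Fin n → ℂ) → ℂ} {x : Fin n → ℂ} (hf : AnalyticAt ℂ f x)
    (i : Fin n) : AnalyticAt ℂ (coordDeriv f i) x :=
  ((ContinuousLinearMap.apply ℂ ℂ (Pi.single i (1 : ℂ) : Fin n → ℂ)).analyticAt _).comp hf.fderiv

/-- congruence of germs of partial derivatives -/
lemma gm_two_coordDeriv {f : (Fin 2 → ℂ) → ℂ} (hf : AnalyticAt ℂ f 0) :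
    gm (two (coordDeriv f 1)) (an_two (an_coordDeriv hf 1)) = gm (dX (two f)) (an_dX (an_two hf)) ∧
    gm (two (coordDeriv f 0)) (an_two (an_coordDeriv hf 0)) = gm (dY (two f)) (an_dY (an_two hf)) := by
  have h1 : ∀ᶠ p in 𝓝 o2, AnalyticAt ℂ f (psi p) := tendsto_psi.eventually hf.eventually_analyticAt
  constructor
  · rw [gm_eq_gm]; filter_upwards [h1] with p hp; rw [dX_two hp]; rfl
  · rw [gm_eq_gm]; filter_upwards [h1] with p hp; rw [dY_two hp]; rfl

/-! ### colengths -/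

lemma an_pair {f g : (Fin 2 → ℂ) → ℂ} (hf : AnalyticAt ℂ f 0) (hg : AnalyticAt ℂ g 0) :
    ∀ i, AnalyticAt ℂ ((![f, g] : Fin 2 → (Fin 2 → ℂ) → ℂ) i) 0 := by
  intro i; fin_cases i
  · exact hf
  · exact hg

lemma Idl_pair {f g : (Fin 2 → ℂ) → ℂ} (hf : AnalyticAt ℂ f 0) (hg : AnalyticAt ℂ g 0) :
    UI939.Idl (0 : Fin 2 → ℂ) ![f, g] = Ideal.span {gm f hf, gm g hg} := by
  unfold UI939.Idl
  congr 1
  ext x
  simp only [mem_range, Fin.exists_fin_two, Matrix.cons_val_zero, Matrix.cons_val_one,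
    mem_insert_iff, mem_singleton_iff]
  rw [UI939.gz_eq hf, UI939.gz_eq hg]
  exact ⟨fun h => h.imp Eq.symm Eq.symm, fun h => h.imp Eq.symm Eq.symm⟩

lemma pull_psi {f : (Fin 2 → ℂ) → ℂ} (hf : AnalyticAt ℂ f 0) :
    pull psi (an_psi o2) psi_zero (gm f hf) = gm (two f) (an_two hf) := rfl

theorem col_two {f g : (Fin 2 → ℂ) → ℂ} (hf : AnalyticAt ℂ f 0) (hg : AnalyticAt ℂ g 0) :
    col ![f, g] = inum (gm (two f) (an_two hf)) (gm (two g) (an_two hg)) := by
  rw [UI939.col_eq (an_pair hf hg), Idl_pair hf hg, ← pull_psi hf, ← pull_psi hg,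
    inum_pullEquiv psi (an_psi o2) psi_zero phi (an_phi 0) phi_zero
      (Eventually.of_forall phi_psi) (Eventually.of_forall psi_phi)]
  rfl

lemma isRelPrime_of_isolated {F H : ℂ × ℂ → ℂ} {hF : AnalyticAt ℂ F o2} {hH : AnalyticAt ℂ H o2}
    (hiso : ∀ᶠ p in 𝓝 o2, F p = 0 → H p = 0 → p = o2) : IsRelPrime (gm F hF) (gm H hH) := by
  intro k hk1 hk2
  by_contra hku
  obtain ⟨K, hK, rfl⟩ := exists_gm k
  rw [isUnit_gm, not_not] at hku
  have h1 := frequently_zero (F := ℂ × ℂ) (by simp) hK hku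
  obtain ⟨c, hc⟩ := hk1
  obtain ⟨d, hd⟩ := hk2
  obtain ⟨C, hC, rfl⟩ := exists_gm c
  obtain ⟨D, hD, rfl⟩ := exists_gm d
  rw [gm_mul, gm_eq_gm] at hc hd
  have h2 : ∀ᶠ p in 𝓝[≠] o2, K p ≠ 0 := by
    filter_upwards [hiso.filter_mono nhdsWithin_le_nhds, hc.filter_mono nhdsWithin_le_nhds,
      hd.filter_mono nhdsWithin_le_nhds, self_mem_nhdsWithin] with p h3 h4 h5 h6 h7
    exact h6 (h3 (by rw [h4, Pi.mul_apply, h7, zero_mul]) (by rw [h5, Pi.mul_apply, h7, zero_mul]))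
  exact h1 h2

/-- isolated common zeros of two functions with finite colength -/
lemma isolated_of_colFin {n m : ℕ} {G : Fin m → (Fin n → ℂ) → ℂ} (hG : ∀ j, AnalyticAt ℂ (G j) 0)
    (h : ColFin G) : ∀ᶠ x in 𝓝 (0 : Fin n → ℂ), (∀ j, G j x = 0) → x = 0 := by
  have hGG : ∀ j, AnalyticAt ℂ (fun p : (Fin n → ℂ) × ℂ => G j p.1) 0 := fun j =>
    AnalyticAt.fun_comp (g := G j) (f := Prod.fst) (hG j) analyticAt_fst
  have h1 := UI939.cn (fun j (p : (Fin n → ℂ) × ℂ) => G j p.1) hGG (col G)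
    (Eventually.of_forall fun t => ⟨(UI939.colFin_iff hG).1 h, (UI939.col_eq hG).symm⟩)
  have h2 : Tendsto (fun x : Fin n → ℂ => ((x, 0) : (Fin n → ℂ) × ℂ)) (𝓝 0) (𝓝 0) :=
    (continuous_id.prodMk continuous_const).tendsto' _ _ rfl
  exact h2.eventually h1

theorem colFin_two {f g : (Fin 2 → ℂ) → ℂ} (hf : AnalyticAt ℂ f 0) (hg : AnalyticAt ℂ g 0) :
    ColFin ![f, g] ↔ IsRelPrime (gm (two f) (an_two hf)) (gm (two g) (an_two hg)) := by
  constructor
  · intro h
    have h1 := isolated_of_colFin (an_pair hf hg) h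
    refine isRelPrime_of_isolated ?_
    filter_upwards [tendsto_psi.eventually h1] with p hp h2 h3
    have h4 := hp (fun j => by fin_cases j <;> assumption)
    have h5 := congrArg phi h4
    simpa using h5
  · intro h
    rw [UI939.colFin_iff (an_pair hf hg), Idl_pair hf hg]
    have e := map_span_pair (pullEquiv psi (an_psi o2) psi_zero phi (an_phi 0) phi_zero
      (Eventually.of_forall phi_psi) (Eventually.of_forall psi_phi)) (gm f hf) (gm g hg)
    refine finite_quot (F := Fin 2 → ℂ) (by simp) ?_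
    exact (isRelPrime_map (pullEquiv psi (an_psi o2) psi_zero phi (an_phi 0) phi_zero
      (Eventually.of_forall phi_psi) (Eventually.of_forall psi_phi)).toMulEquiv).1 h

/-- the partial derivatives -/
lemma par_eq (f : (Fin 2 → ℂ) → ℂ) : par f = ![coordDeriv f 0, coordDeriv f 1] := by
  funext i; fin_cases i <;> rfl

theorem par_two {f : (Fin 2 → ℂ) → ℂ} (hf : AnalyticAt ℂ f 0) :
    (ColFin (par f) ↔ IsRelPrime (gm (dY (two f)) (an_dY (an_two hf)))
      (gm (dX (two f)) (an_dX (an_two hf)))) ∧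
    col (par f) = inum (gm (dY (two f)) (an_dY (an_two hf)))
      (gm (dX (two f)) (an_dX (an_two hf))) := by
  have h1 := gm_two_coordDeriv hf
  rw [par_eq, colFin_two (an_coordDeriv hf 0) (an_coordDeriv hf 1),
    col_two (an_coordDeriv hf 0) (an_coordDeriv hf 1), h1.1, h1.2]
  exact ⟨Iff.rfl, rfl⟩

end Crest.Agent.R257.N2_328
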