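import Crest.Agent.R257.N2E_328

/-!
Row 257 (S0395), leaf LC-N2, file F (helper328): `J_p` for plane curves; the lower bound
`ord_j g > p (ord_j f_y - N)` on every sheet of `f`, hence
`inum f g > p (inum f f_y - inum f x)` for `g ∈ J_p(f)`.
-/

set_option autoImplicit false

open Set Filter Topology Metric Complex MeasureTheory
open Crest.Agent.R275.Loc2879
open Crest.Agent.R257.Defs_219
open Crest.AlgGeometry.Germ
open scoped ENNReal

noncomputable section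

namespace Crest.Agent.R257.N2_328

/-! ### integrals over a disc -/

lemma integrableOn_norm_rpow {β ρ : ℝ} (hρ : 0 < ρ) :
    IntegrableOn (fun x : ℂ => ‖x‖ ^ β) (ball 0 ρ) ↔ -2 < β := by
  rw [integrableOn_fun_norm_addHaar (E := ℂ) volume (f := fun y : ℝ => y ^ β) (r := ρ)]
  have h1 : IntegrableOn (fun y : ℝ => y ^ (Module.finrank ℝ ℂ - 1) • y ^ β) (Ioo 0 ρ) ↔
      IntegrableOn (fun y : ℝ => y ^ (β + 1)) (Ioo 0 ρ) := by
    refine integrableOn_congr_fun ?_ measurableSet_Ioo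
    intro y hy
    simp only [Complex.finrank_real_complex, smul_eq_mul]
    rw [Real.rpow_add_one hy.1.ne']; ring
  rw [h1, intervalIntegral.integrableOn_Ioo_rpow_iff hρ]
  constructor <;> intro h <;> linarith

lemma lintegral_norm_rpow_lt_top {β ρ : ℝ} (hρ : 0 < ρ) (hβ : -2 < β) :
    ∫⁻ x : ℂ in ball 0 ρ, ENNReal.ofReal (‖x‖ ^ β) < ⊤ :=
  ((integrableOn_norm_rpow hρ).2 hβ).lintegral_lt_top

lemma lt_of_lintegral_norm_rpow {β ρ : ℝ} (hρ : 0 < ρ)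
    (h : ∫⁻ x : ℂ in ball 0 ρ, ENNReal.ofReal (‖x‖ ^ β) < ⊤) : -2 < β := by
  rw [← integrableOn_norm_rpow hρ]
  refine ⟨Measurable.aestronglyMeasurable (by fun_prop), ?_⟩
  rw [hasFiniteIntegral_iff_ofReal (Filter.Eventually.of_forall fun x => by positivity)]
  exact h

lemma lintegral_fin_one (r : ℝ) (F : ℂ → ENNReal) :
    ∫⁻ x' : Fin 1 → ℂ in {x' | ∀ i, ‖x' i‖ < r}, F (x' 0) = ∫⁻ x in ball (0 : ℂ) r, F x := by
  have h1 := (volume_preserving_funUnique (Fin 1) ℂ)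
  have h2 := h1.setLIntegral_comp_preimage_emb (MeasurableEquiv.measurableEmbedding _) F (ball (0 : ℂ) r)
  rw [← h2]
  congr 1
  congr 1
  ext x'
  simp [Fin.forall_fin_one]

/-! ### `J_p` -/

/-- `∫ |g|^(2/p) |eta|²` over `{f = 0}`, in sheets over the box `{|x'_i| < r}` -/
def JintN {n : ℕ} (p r : ℝ) (f g : (Fin (n + 1) → ℂ) → ℂ) : ℝ≥0∞ :=
  ∫⁻ x' : Fin n → ℂ in {x' | ∀ i, ‖x' i‖ < r},
    ∑' z : {z : ℂ // ‖z‖ < r ∧ f (Fin.cons z x') = 0 ∧ coordDeriv f 0 (Fin.cons z x') ≠ 0},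
      ENNReal.ofReal (‖g (Fin.cons z.1 x')‖ ^ (2 / p) / ‖coordDeriv f 0 (Fin.cons z.1 x')‖ ^ 2)

/-- `g ∈ J_p(f)` -/
def InJN {n : ℕ} (p : ℝ) (f g : (Fin (n + 1) → ℂ) → ℂ) : Prop := ∃ r : ℝ, 0 < r ∧ JintN p r f g < ∞

/-- the integrand for `n = 1` as a function of `x ∈ ℂ` -/
def sh (p r : ℝ) (f g : (Fin 2 → ℂ) → ℂ) (x : ℂ) : ℝ≥0∞ :=
  ∑' z : {z : ℂ // ‖z‖ < r ∧ f (psi (x, z)) = 0 ∧ coordDeriv f 0 (psi (x, z)) ≠ 0},
      ENNReal.ofReal (‖g (psi (x, z.1))‖ ^ (2 / p) / ‖coordDeriv f 0 (psi (x, z.1))‖ ^ 2)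

lemma cons_eq_psi (z : ℂ) (x' : Fin 1 → ℂ) : (Fin.cons z x' : Fin 2 → ℂ) = psi (x' 0, z) := by
  ext i; fin_cases i <;> rfl

lemma JintN_eq (p r : ℝ) (f g : (Fin 2 → ℂ) → ℂ) :
    JintN p r f g = ∫⁻ x in ball (0 : ℂ) r, sh p r f g x := by
  rw [← lintegral_fin_one]
  unfold JintN sh
  refine lintegral_congr fun x' => ?_
  have h : (fun z : ℂ => (Fin.cons z x' : Fin 2 → ℂ)) = fun z => psi (x' 0, z) :=
    funext fun z => cons_eq_psi z x'
  change (fun k : ℂ → (Fin 2 → ℂ) =>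
    ∑' z : {z : ℂ // ‖z‖ < r ∧ f (k z) = 0 ∧ coordDeriv f 0 (k z) ≠ 0},
      ENNReal.ofReal (‖g (k z.1)‖ ^ (2 / p) / ‖coordDeriv f 0 (k z.1)‖ ^ 2))
    (fun z : ℂ => (Fin.cons z x' : Fin 2 → ℂ)) = _
  rw [h]

/-! ### growth along a sheet -/

lemma order_bounds {F : ℂ → ℂ} (hF : AnalyticAt ℂ F 0) (h : analyticOrderAt F 0 ≠ ⊤) :
    ∃ c C : ℝ, 0 < c ∧ 0 < C ∧ ∀ᶠ s in 𝓝 (0 : ℂ),
      c * ‖s‖ ^ analyticOrderNatAt F 0 ≤ ‖F s‖ ∧ ‖F s‖ ≤ C * ‖s‖ ^ analyticOrderNatAt F 0 := by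
  obtain ⟨n, hn⟩ := ENat.ne_top_iff_exists.1 h
  obtain ⟨g, hg, hg0, hfg⟩ := hF.analyticOrderAt_eq_natCast.1 hn.symm
  have h2 : analyticOrderNatAt F 0 = n := by
    rw [analyticOrderNatAt, ← hn]; rfl
  rw [h2]
  have hg0' : 0 < ‖g 0‖ := norm_pos_iff.2 hg0
  refine ⟨‖g 0‖ / 2, ‖g 0‖ + 1, by positivity, by positivity, ?_⟩
  have hc := hg.continuousAt.norm
  filter_upwards [hfg, hc.eventually_const_lt (half_lt_self hg0'),
    hc.eventually_lt_const (lt_add_one _)] with s h3 h4 h5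
  rw [h3]
  simp only [sub_zero, smul_eq_mul, norm_mul, norm_pow]
  rw [mul_comm (‖s‖ ^ n)]
  exact ⟨mul_le_mul_of_nonneg_right h4.le (by positivity),
    mul_le_mul_of_nonneg_right h5.le (by positivity)⟩

/-- the lower bound on one sheet -/
theorem sheet_ineq {f g : (Fin 2 → ℂ) → ℂ} (hf : AnalyticAt ℂ f 0) (hg : AnalyticAt ℂ g 0) {p : ℝ}
    (hp : 0 < p) (hJ : InJN p f g) {N d : ℕ} {ζ : Fin d → ℂ → ℂ} (S : Sheets (two f) N d ζ)
    (j : Fin d) (hc : analyticOrderAt (fun s => dY (two f) (s ^ N, ζ j s)) 0 ≠ ⊤)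
    (ha : analyticOrderAt (fun s => two g (s ^ N, ζ j s)) 0 ≠ ⊤) :
    p * (analyticOrderNatAt (fun s => dY (two f) (s ^ N, ζ j s)) 0 : ℝ) <
      analyticOrderNatAt (fun s => two g (s ^ N, ζ j s)) 0 + p * N := by
  by_contra hcon
  push Not at hcon
  set A := analyticOrderNatAt (fun s => two g (s ^ N, ζ j s)) 0 with hA
  set c := analyticOrderNatAt (fun s => dY (two f) (s ^ N, ζ j s)) 0 with hcdef
  obtain ⟨r, hr, hint⟩ := hJ
  rw [JintN_eq] at hint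
  obtain ⟨c1, C1, hc1, -, hb1⟩ := order_bounds (S.an_comp (an_two hg) j) ha
  obtain ⟨c2, C2, hc2, hC2, hb2⟩ := order_bounds (S.an_comp (an_dY (an_two hf)) j) hc
  rw [← hA] at hb1
  rw [← hcdef] at hb2
  have hz : ∀ᶠ s in 𝓝 (0 : ℂ), ‖ζ j s‖ < r := by
    have := (S.an j).continuousAt.norm
    refine this.eventually_lt_const ?_
    simp only [S.zero j, norm_zero]; exact hr
  have han : ∀ᶠ s in 𝓝 (0 : ℂ), AnalyticAt ℂ f (psi (s ^ N, ζ j s)) :=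
    (S.tendsto' j).eventually (tendsto_psi.eventually hf.eventually_analyticAt)
  obtain ⟨δ, hδ, hball⟩ := Metric.eventually_nhds_iff_ball.1
    (((hb1.and hb2).and (hz.and han)).and (S.vanish j))
  set δ' := min δ 1 with hδ'
  have hδ'0 : 0 < δ' := lt_min hδ one_pos
  set ρ := min (δ' ^ N) r with hρ
  have hρ0 : 0 < ρ := lt_min (pow_pos hδ'0 _) hr
  set K := c1 ^ (2 / p) / C2 ^ 2 with hK
  have hK0 : 0 < K := div_pos (Real.rpow_pos_of_pos hc1 _) (by positivity)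
  -- pointwise bound
  have hpt : ∀ x : ℂ, x ∈ ball (0 : ℂ) ρ → x ≠ 0 →
      ENNReal.ofReal (K * ‖x‖ ^ (-2 : ℝ)) ≤ sh p r f g x := by
    intro x hx hx0
    rw [mem_ball_zero_iff] at hx
    obtain ⟨s, hs⟩ := IsAlgClosed.exists_pow_nat_eq x (Nat.pos_of_ne_zero S.hN)
    have hsN : ‖s‖ ^ N = ‖x‖ := by rw [← norm_pow, hs]
    have hslt : ‖s‖ < δ' := by
      refine lt_of_pow_lt_pow_left₀ N hδ'0.le ?_
      rw [hsN]; exact hx.trans_le (min_le_left _ _)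
    have hs0 : s ≠ 0 := by
      rintro rfl
      rw [zero_pow S.hN] at hs
      exact hx0 hs.symm
    have hs0' : 0 < ‖s‖ := norm_pos_iff.2 hs0
    have hb := hball s (by rw [mem_ball_zero_iff]; exact hslt.trans_le (min_le_left _ _))
    obtain ⟨⟨⟨⟨h1, -⟩, h2, h3⟩, h4, h5⟩, h6⟩ := hb
    rw [hs] at h1 h2 h3 h5 h6
    have h7 : dY (two f) (x, ζ j s) = coordDeriv f 0 (psi (x, ζ j s)) := dY_two h5
    rw [h7] at h2 h3
    have hne : coordDeriv f 0 (psi (x, ζ j s)) ≠ 0 := by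
      rw [← norm_pos_iff]
      exact lt_of_lt_of_le (by positivity) h2
    refine le_trans ?_ (ENNReal.le_tsum ⟨ζ j s, h4, h6, hne⟩)
    refine ENNReal.ofReal_le_ofReal ?_
    have hne' : 0 < ‖coordDeriv f 0 (psi (x, ζ j s))‖ := norm_pos_iff.2 hne
    change K * ‖x‖ ^ (-2 : ℝ) ≤ ‖two g (x, ζ j s)‖ ^ (2 / p) / ‖coordDeriv f 0 (psi (x, ζ j s))‖ ^ 2
    have e1 : (c1 * ‖s‖ ^ A) ^ (2 / p) ≤ ‖two g (x, ζ j s)‖ ^ (2 / p) :=
      Real.rpow_le_rpow (by positivity) h1 (by positivity)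
    have e2 : ‖coordDeriv f 0 (psi (x, ζ j s))‖ ^ 2 ≤ (C2 * ‖s‖ ^ c) ^ 2 :=
      pow_le_pow_left₀ (norm_nonneg _) h3 2
    refine le_trans ?_ (div_le_div₀ (by positivity) e1 (by positivity) e2)
    have e3 : (c1 * ‖s‖ ^ A) ^ (2 / p) / (C2 * ‖s‖ ^ c) ^ 2 =
        K * ‖s‖ ^ ((2 / p) * A - 2 * c) := by
      rw [Real.mul_rpow hc1.le (by positivity), ← Real.rpow_natCast ‖s‖ A,
        ← Real.rpow_mul hs0'.le, mul_pow, ← pow_mul, ← Real.rpow_natCast ‖s‖ (c * 2),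
        Real.rpow_sub hs0', hK]
      have : ((c * 2 : ℕ) : ℝ) = 2 * c := by push_cast; ring
      rw [this, mul_comm (A : ℝ) (2 / p)]
      have hp1 : ‖s‖ ^ (2 * (c : ℝ)) ≠ 0 := (Real.rpow_pos_of_pos hs0' _).ne'
      field_simp
    rw [e3]
    refine mul_le_mul_of_nonneg_left ?_ hK0.le
    rw [← hsN, ← Real.rpow_natCast ‖s‖ N, ← Real.rpow_mul hs0'.le]
    refine Real.rpow_le_rpow_of_exponent_ge hs0' (hslt.le.trans (min_le_right _ _)) ?_
    have e4 : (2 / p) * (A : ℝ) - 2 * c = (2 / p) * (A - p * c) := by field_simp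
    rw [e4]
    have e5 : (A : ℝ) - p * c ≤ - (p * N) := by linarith
    calc (2 / p) * ((A : ℝ) - p * c) ≤ (2 / p) * (-(p * N)) :=
          mul_le_mul_of_nonneg_left e5 (by positivity)
      _ = N * -2 := by field_simp
  -- integrate
  have hfin : ∫⁻ x in ball (0 : ℂ) ρ, ENNReal.ofReal (K * ‖x‖ ^ (-2 : ℝ)) < ⊤ := by
    refine lt_of_le_of_lt ?_ hint
    calc ∫⁻ x in ball (0 : ℂ) ρ, ENNReal.ofReal (K * ‖x‖ ^ (-2 : ℝ))
        ≤ ∫⁻ x in ball (0 : ℂ) ρ, sh p r f g x := by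
          refine lintegral_mono_ae ?_
          have h0 : ∀ᵐ x : ℂ ∂(volume.restrict (ball (0 : ℂ) ρ)), x ≠ 0 :=
            ae_restrict_of_ae (by simp [ae_iff])
          filter_upwards [ae_restrict_mem measurableSet_ball, h0] with x hx hx0
          exact hpt x hx hx0
      _ ≤ ∫⁻ x in ball (0 : ℂ) r, sh p r f g x :=
          lintegral_mono_set (ball_subset_ball (min_le_right _ _))
  have hfin2 : ∫⁻ x in ball (0 : ℂ) ρ, ENNReal.ofReal (‖x‖ ^ (-2 : ℝ)) < ⊤ := by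
    have h1 : ∀ x : ℂ, ENNReal.ofReal (K * ‖x‖ ^ (-2 : ℝ)) =
        ENNReal.ofReal K * ENNReal.ofReal (‖x‖ ^ (-2 : ℝ)) := fun x => ENNReal.ofReal_mul hK0.le
    simp only [h1] at hfin
    rw [lintegral_const_mul' _ _ ENNReal.ofReal_ne_top] at hfin
    by_contra h2
    rw [not_lt, top_le_iff] at h2
    rw [h2, ENNReal.mul_top (by simpa using hK0)] at hfin
    exact lt_irrefl _ hfin
  exact lt_irrefl _ (lt_of_lintegral_norm_rpow hρ0 hfin2)

/-- **the lower bound** -/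
theorem inum_lower {f g : (Fin 2 → ℂ) → ℂ} (hf : AnalyticAt ℂ f 0) (hg : AnalyticAt ℂ g 0) {p : ℝ}
    (hp : 0 < p) (hJ : InJN p f g) {d : ℕ} (hd0 : d ≠ 0) (hd : Reg (gm (two f) (an_two hf)) d)
    (hrel : IsRelPrime (gm (two f) (an_two hf)) (gm (dY (two f)) (an_dY (an_two hf))))
    (hfg : IsRelPrime (gm (two f) (an_two hf)) (gm (two g) (an_two hg))) :
    p * (inum (gm (two f) (an_two hf)) (gm (dY (two f)) (an_dY (an_two hf))) : ℝ) <
      inum (gm (two f) (an_two hf)) (gm (two g) (an_two hg)) + p * d := by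
  obtain ⟨ζ, S, -⟩ := exists_sheets hd hrel
  have h1 := fun j => sheet_ineq hf hg hp hJ S j (S.order_ne_top hrel j) (S.order_ne_top hfg j)
  have e1 := S.inum_eq hrel
  have e2 := S.inum_eq hfg
  have hne : (Finset.univ : Finset (Fin d)).Nonempty :=
    ⟨⟨0, Nat.pos_of_ne_zero hd0⟩, Finset.mem_univ _⟩
  have h2 := Finset.sum_lt_sum_of_nonempty hne fun j _ => h1 j
  rw [← Finset.mul_sum, Finset.sum_add_distrib, Finset.sum_const, Finset.card_univ,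
    Fintype.card_fin, nsmul_eq_mul] at h2
  have e1' : (∑ j, (analyticOrderNatAt (fun s => dY (two f) (s ^ d.factorial, ζ j s)) 0 : ℝ)) =
      d.factorial * inum (gm (two f) (an_two hf)) (gm (dY (two f)) (an_dY (an_two hf))) := by
    exact_mod_cast e1.symm
  have e2' : (∑ j, (analyticOrderNatAt (fun s => two g (s ^ d.factorial, ζ j s)) 0 : ℝ)) =
      d.factorial * inum (gm (two f) (an_two hf)) (gm (two g) (an_two hg)) := by
    exact_mod_cast e2.symm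
  rw [e1', e2'] at h2
  have hN : (0 : ℝ) < d.factorial := by exact_mod_cast Nat.factorial_pos d
  refine lt_of_mul_lt_mul_left ?_ hN.le
  linarith [h2]

end Crest.Agent.R257.N2_328
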