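import Crest.Agent.R257.N2F_328

/-!
Row 257 (S0395), leaf LC-N2, file G (helper328): the exact function `g_0 = h_y²/x²` at `t = 0`
for a plane curve germ `h` of multiplicity `m ≥ 3` in generic linear coordinates.
-/

set_option autoImplicit false

open Set Filter Topology Metric Complex MeasureTheory
open Crest.Agent.R275.Loc2879
open Crest.Agent.R257.Defs_219
open Crest.AlgGeometry.Germ
open scoped ENNReal

noncomputable section

namespace Crest.Agent.R257.N2_328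

/-- the maximal ideal of the ring of germs -/
abbrev mm : Ideal (OO o2) := Ideal.span {Zv 0, Wv 0}

lemma mem_mm_of_not_isUnit {F : OO o2} (hF : ¬ IsUnit F) : F ∈ mm := by
  have hreg : Reg (Wv (0 : ℂ)) 1 := ⟨1, by rw [rho_Wv]; simp⟩
  obtain ⟨q, c, h⟩ := div_exists hreg F
  simp only [Finset.univ_unique, Fin.default_eq_zero, Fin.isValue, Fin.val_eq_zero, pow_zero,
      mul_one, Finset.sum_singleton] at h
  have h0 : evp o2 F = 0 := by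
    rwa [R275.Loc2879.isUnit_iff, not_not] at hF
  have h1 : evp (0 : ℂ) (c 0) = 0 := by
    have h2 := congrArg (evp o2) h
    rw [h0, map_add, map_mul] at h2
    have h3 : evp o2 (Wv (0 : ℂ)) = 0 := rfl
    have h4 : evp o2 (iot (0 : ℂ) (c 0)) = evp (0 : ℂ) (c 0) := by
      obtain ⟨f, hf, he⟩ := exists_gm (c 0)
      rw [← he]; rfl
    rw [h3, mul_zero, zero_add, h4] at h2
    exact h2.symm
  obtain ⟨d, hd⟩ := TT_dvd (a := (0 : ℂ)) (x := c 0) (by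
    rw [R275.Loc2879.isUnit_iff, not_not]; exact h1)
  rw [h, hd, map_mul]
  refine Ideal.add_mem _ (Ideal.mul_mem_left _ _ (Ideal.subset_span (by simp)))
    (Ideal.mul_mem_right _ _ (Ideal.subset_span (by simp [Zv])))

lemma Wv_mem : Wv (0 : ℂ) ∈ mm := Ideal.subset_span (by simp)
lemma Zv_mem : Zv (0 : ℂ) ∈ mm := Ideal.subset_span (by simp)

/-- elements of `mm^(k+1)` -/
lemma mem_pow_succ {k : ℕ} {F : OO o2} (hF : F ∈ mm ^ (k + 1)) :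
    ∃ A ∈ mm ^ k, ∃ B ∈ mm ^ k, F = Zv 0 * A + Wv 0 * B := by
  rw [pow_succ', mm, Ideal.span_insert, Ideal.sup_mul] at hF
  obtain ⟨a, ha, b, hb, rfl⟩ := Submodule.mem_sup.1 hF
  obtain ⟨A, hA, rfl⟩ := Ideal.mem_span_singleton_mul.1 ha
  obtain ⟨B, hB, rfl⟩ := Ideal.mem_span_singleton_mul.1 hb
  exact ⟨A, by rwa [mm, Ideal.span_insert], B, by rwa [mm, Ideal.span_insert], rfl⟩

lemma mul_mem_pow_succ {k : ℕ} {x A : OO o2} (hx : x ∈ mm) (hA : A ∈ mm ^ k) :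
    x * A ∈ mm ^ (k + 1) := by
  rw [pow_succ']; exact Ideal.mul_mem_mul hx hA

lemma split_pow : ∀ (k : ℕ) {F : OO o2}, F ∈ mm ^ (k + 1) →
    ∃ A ∈ mm ^ k, ∃ e, F = Zv 0 * A + e * Wv 0 ^ (k + 1) := by
  intro k
  induction k with
  | zero =>
    intro F hF
    obtain ⟨A, hA, B, hB, rfl⟩ := mem_pow_succ hF
    exact ⟨A, hA, B, by ring⟩
  | succ k ih =>
    intro F hF
    obtain ⟨A, hA, B, hB, rfl⟩ := mem_pow_succ hF
    obtain ⟨A', hA', e, rfl⟩ := ih hB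
    exact ⟨A + Wv 0 * A', Ideal.add_mem _ hA (mul_mem_pow_succ Wv_mem hA'), e, by ring⟩

variable {h : OO o2} {m : ℕ}

lemma claim1 (hm : h ∈ mm ^ (m + 1)) (hr : Reg h (m + 1)) {F : OO o2} (hF : F ∈ mm ^ (m + 1)) :
    ∃ A ∈ mm ^ m, ∃ b, F = Zv 0 * A + b * h := by
  obtain ⟨A, hA, e, he⟩ := split_pow m hm
  obtain ⟨A', hA', e', he'⟩ := split_pow m hF
  have hu : IsUnit e := by
    obtain ⟨u, hu⟩ := hr
    have h1 := congrArg (rho (0 : ℂ)) he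
    have h2 : rho (0 : ℂ) (Zv 0) = 0 := by
      rw [Zv, rho_iot]
      have : evp (0 : ℂ) (TT 0) = 0 := by
        have := TT_not_unit (a := (0 : ℂ))
        rwa [R275.Loc2879.isUnit_iff, not_not] at this
      rw [this, map_zero]
    rw [map_add, map_mul, map_mul, map_pow, h2, zero_mul, zero_add, rho_Wv, hu, mul_comm] at h1
    have h3 : (u : OO (0 : ℂ)) = rho 0 e := by
      have h4 : (u : OO (0 : ℂ)) * TT 0 ^ (m + 1) = rho 0 e * TT 0 ^ (m + 1) := h1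
      exact mul_right_cancel₀ (pow_ne_zero _ TT_ne_zero) h4
    rw [R275.Loc2879.isUnit_iff, ← evp_rho, ← R275.Loc2879.isUnit_iff, ← h3]
    exact u.isUnit
  obtain ⟨v, rfl⟩ := hu
  refine ⟨A' - e' * (v⁻¹ : (OO o2)ˣ) * A, Ideal.sub_mem _ hA' (Ideal.mul_mem_left _ _ hA),
    e' * (v⁻¹ : (OO o2)ˣ), ?_⟩
  rw [he', he]
  have h5 : ((v⁻¹ : (OO o2)ˣ) : OO o2) * v = 1 := v.inv_mul
  linear_combination (-(e' * Wv 0 ^ (m + 1))) * h5

lemma claim2 (hm : h ∈ mm ^ (m + 1)) (hr : Reg h (m + 1)) : ∀ (j : ℕ) {F : OO o2},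
    F ∈ mm ^ (m + j + 1) → ∃ A ∈ mm ^ (m + j), ∃ b, F = Zv 0 * A + b * h := by
  intro j
  induction j with
  | zero => intro F hF; exact claim1 hm hr hF
  | succ j ih =>
    intro F hF
    obtain ⟨A, hA, B, hB, rfl⟩ := mem_pow_succ hF
    obtain ⟨A1, hA1, a, rfl⟩ := ih hA
    obtain ⟨B1, hB1, b, rfl⟩ := ih hB
    exact ⟨Zv 0 * A1 + Wv 0 * B1, Ideal.add_mem _ (mul_mem_pow_succ Zv_mem hA1)
      (mul_mem_pow_succ Wv_mem hB1), Zv 0 * a + Wv 0 * b, by ring⟩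

lemma claim3 (hm : h ∈ mm ^ (m + 1)) (hr : Reg h (m + 1)) : ∀ (k : ℕ) {F : OO o2},
    F ∈ mm ^ (m + k) → ∃ A ∈ mm ^ m, ∃ b, F = Zv 0 ^ k * A + b * h := by
  intro k
  induction k with
  | zero => intro F hF; exact ⟨F, hF, 0, by ring⟩
  | succ k ih =>
    intro F hF
    obtain ⟨A, hA, b, rfl⟩ := claim2 hm hr k hF
    obtain ⟨A', hA', b', rfl⟩ := ih hA
    exact ⟨A', hA', Zv 0 * b' + b, by ring⟩

/-! ### derivatives and growth -/

lemma dY_mem : ∀ (k : ℕ) {F : ℂ × ℂ → ℂ} (hF : AnalyticAt ℂ F o2), gm F hF ∈ mm ^ (k + 1) →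
    gm (dY F) (an_dY hF) ∈ mm ^ k := by
  intro k
  induction k with
  | zero => intro F hF _; simp
  | succ k ih =>
    intro F hF hmem
    obtain ⟨A, hA, B, hB, e⟩ := mem_pow_succ hmem
    obtain ⟨a, ha, rfl⟩ := exists_gm A
    obtain ⟨b, hb, rfl⟩ := exists_gm B
    have e1 : ∀ᶠ p in 𝓝 o2, F p = p.1 * a p + p.2 * b p := by
      rw [Zv_eq, Wv, gm_mul, gm_mul, gm_add, gm_eq_gm] at e
      filter_upwards [e] with p hp
      rw [hp]; simp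
    have e2 : gm (dY F) (an_dY hF) = Zv 0 * gm (dY a) (an_dY ha) +
        (gm b hb + Wv 0 * gm (dY b) (an_dY hb)) := by
      rw [Zv_eq, Wv, gm_mul, gm_mul, gm_add, gm_add, gm_eq_gm]
      filter_upwards [e1.eventually_nhds, ha.eventually_analyticAt, hb.eventually_analyticAt,
        hF.eventually_analyticAt] with p h1 h2 h3 h4
      have d1 : (fun y => F (p.1, y)) =ᶠ[𝓝 p.2] fun y => p.1 * a (p.1, y) + y * b (p.1, y) := by
        have ht : Tendsto (fun y : ℂ => (p.1, y)) (𝓝 p.2) (𝓝 p) :=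
          (continuous_const.prodMk continuous_id).tendsto' _ _ rfl
        exact ht.eventually h1
      have d2 := ((hasDerivAt_fibre (h := a) (x := p.1) (y := p.2) h2).const_mul p.1).add
        ((hasDerivAt_id p.2).mul (hasDerivAt_fibre (h := b) (x := p.1) (y := p.2) h3))
      have d3 := (hasDerivAt_fibre (h := F) (x := p.1) (y := p.2) h4).unique
        (d2.congr_of_eventuallyEq d1)
      change dY F p = _ at d3
      rw [d3]
      simp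
    rw [e2]
    exact Ideal.add_mem _ (mul_mem_pow_succ Zv_mem (ih ha hA))
      (Ideal.add_mem _ hB (mul_mem_pow_succ Wv_mem (ih hb hB)))

lemma growth : ∀ (k : ℕ) {F : ℂ × ℂ → ℂ} (hF : AnalyticAt ℂ F o2), gm F hF ∈ mm ^ k →
    ∃ C : ℝ, 0 < C ∧ ∀ᶠ p in 𝓝 o2, ‖F p‖ ≤ C * ‖p‖ ^ k := by
  intro k
  induction k with
  | zero =>
    intro F hF _
    refine ⟨‖F o2‖ + 1, by positivity, ?_⟩
    filter_upwards [hF.continuousAt.norm.eventually_lt_const (lt_add_one _)] with p hp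
    rw [pow_zero, mul_one]; exact hp.le
  | succ k ih =>
    intro F hF hmem
    obtain ⟨A, hA, B, hB, e⟩ := mem_pow_succ hmem
    obtain ⟨a, ha, rfl⟩ := exists_gm A
    obtain ⟨b, hb, rfl⟩ := exists_gm B
    have e1 : ∀ᶠ p in 𝓝 o2, F p = p.1 * a p + p.2 * b p := by
      rw [Zv_eq, Wv, gm_mul, gm_mul, gm_add, gm_eq_gm] at e
      filter_upwards [e] with p hp
      rw [hp]; simp
    obtain ⟨C1, hC1, h1⟩ := ih ha hA
    obtain ⟨C2, hC2, h2⟩ := ih hb hB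
    refine ⟨C1 + C2, by positivity, ?_⟩
    filter_upwards [e1, h1, h2] with p h3 h4 h5
    rw [h3]
    have h6 : ‖p.1‖ ≤ ‖p‖ := norm_fst_le p
    have h7 : ‖p.2‖ ≤ ‖p‖ := norm_snd_le p
    calc ‖p.1 * a p + p.2 * b p‖ ≤ ‖p.1‖ * ‖a p‖ + ‖p.2‖ * ‖b p‖ := by
          refine (norm_add_le _ _).trans ?_
          rw [norm_mul, norm_mul]
      _ ≤ ‖p‖ * (C1 * ‖p‖ ^ k) + ‖p‖ * (C2 * ‖p‖ ^ k) := by gcongr
      _ = (C1 + C2) * ‖p‖ ^ (k + 1) := by ring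

/-- on the curve `|y| ≤ C |x|` -/
lemma curve_cone {H : ℂ × ℂ → ℂ} {hH : AnalyticAt ℂ H o2} (hm : gm H hH ∈ mm ^ (m + 1))
    (hr : Reg (gm H hH) (m + 1)) : ∃ C : ℝ, 1 ≤ C ∧ ∀ᶠ p in 𝓝 o2, H p = 0 → ‖p.2‖ ≤ C * ‖p.1‖ := by
  have hW : Wv (0 : ℂ) ^ (m + 1) ∈ mm ^ (m + 1) := Ideal.pow_mem_pow Wv_mem _
  obtain ⟨A, hA, b, e⟩ := claim1 hm hr hW
  obtain ⟨a, ha, rfl⟩ := exists_gm A
  obtain ⟨b, hb, rfl⟩ := exists_gm b
  rw [Zv_eq, Wv, gm_mul, gm_mul, gm_add, gm_pow, gm_eq_gm] at e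
  obtain ⟨C, hC, h1⟩ := growth m ha hA
  refine ⟨max C 1, le_max_right _ _, ?_⟩
  filter_upwards [e, h1] with p h2 h3 h4
  by_cases hle : ‖p.2‖ ≤ ‖p.1‖
  · calc ‖p.2‖ ≤ 1 * ‖p.1‖ := by rw [one_mul]; exact hle
      _ ≤ max C 1 * ‖p.1‖ := by gcongr; exact le_max_right _ _
  · push Not at hle
    have hn : ‖p‖ = ‖p.2‖ := by rw [Prod.norm_def]; exact max_eq_right hle.le
    have hpos : 0 < ‖p.2‖ := (norm_nonneg _).trans_lt hle
    have h5 : p.2 ^ (m + 1) = p.1 * a p := by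
      simpa [h4] using h2
    have h6 : ‖p.2‖ ^ m * ‖p.2‖ ≤ ‖p.2‖ ^ m * (C * ‖p.1‖) := by
      calc ‖p.2‖ ^ m * ‖p.2‖ = ‖p.1 * a p‖ := by rw [← h5, norm_pow, pow_succ]
        _ = ‖p.1‖ * ‖a p‖ := norm_mul _ _
        _ ≤ ‖p.1‖ * (C * ‖p.2‖ ^ m) := by rw [hn] at h3; gcongr
        _ = ‖p.2‖ ^ m * (C * ‖p.1‖) := by ring
    have h7 := le_of_mul_le_mul_left h6 (pow_pos hpos m)
    exact h7.trans (by gcongr; exact le_max_left _ _)

/-- on the curve `|h_y| ≤ C |x|^(m-1)` -/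
lemma curve_dY {H : ℂ × ℂ → ℂ} {hH : AnalyticAt ℂ H o2} (hm : gm H hH ∈ mm ^ (m + 1))
    (hr : Reg (gm H hH) (m + 1)) :
    ∃ C : ℝ, 0 < C ∧ ∀ᶠ p in 𝓝 o2, H p = 0 → ‖dY H p‖ ≤ C * ‖p.1‖ ^ m := by
  obtain ⟨C, hC, h1⟩ := curve_cone hm hr
  obtain ⟨C', hC', h2⟩ := growth m (an_dY hH) (dY_mem m hH hm)
  refine ⟨C' * C ^ m, by positivity, ?_⟩
  filter_upwards [h1, h2] with p h3 h4 h5
  have h6 := h3 h5
  have h7 : ‖p‖ ≤ C * ‖p.1‖ := by
    rw [Prod.norm_def]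
    refine max_le ?_ h6
    calc ‖p.1‖ = 1 * ‖p.1‖ := (one_mul _).symm
      _ ≤ C * ‖p.1‖ := by gcongr
  calc ‖dY H p‖ ≤ C' * ‖p‖ ^ m := h4
    _ ≤ C' * (C * ‖p.1‖) ^ m := by gcongr
    _ = C' * C ^ m * ‖p.1‖ ^ m := by ring

/-! ### the exact function -/

theorem exists_exact {H : ℂ × ℂ → ℂ} {hH : AnalyticAt ℂ H o2} (hm2 : 2 ≤ m)
    (hm : gm H hH ∈ mm ^ (m + 1)) (hr : Reg (gm H hH) (m + 1))
    (hrel : IsRelPrime (gm H hH) (gm (dY H) (an_dY hH))) :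
    ∃ (g : ℂ × ℂ → ℂ) (hg : AnalyticAt ℂ g o2), (∀ᶠ p in 𝓝 o2, H p = 0 → dY H p ^ 2 = p.1 ^ 2 * g p) ∧
      IsRelPrime (gm H hH) (gm g hg) ∧
      inum (gm H hH) (gm g hg) + 2 * (m + 1) = 2 * inum (gm H hH) (gm (dY H) (an_dY hH)) := by
  have h1 : gm (dY H) (an_dY hH) ^ 2 ∈ mm ^ (m + m) := by
    rw [sq, pow_add]
    exact Ideal.mul_mem_mul (dY_mem m hH hm) (dY_mem m hH hm)
  obtain ⟨A, hA, b, e⟩ := claim3 hm hr m h1
  obtain ⟨k, rfl⟩ := Nat.exists_eq_add_of_le hm2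
  obtain ⟨g, hg, hge⟩ := exists_gm (Zv 0 ^ k * A)
  have e2 : gm (dY H) (an_dY hH) ^ 2 = Zv 0 ^ 2 * gm g hg + b * gm H hH := by
    rw [hge, e]; ring
  have hr2 : IsRelPrime (gm H hH) (gm (dY H) (an_dY hH) ^ 2) := hrel.pow_right
  have hr3 : IsRelPrime (gm H hH) (Zv 0 ^ 2 * gm g hg) := by
    intro d hd1 hd2
    refine hr2 hd1 ?_
    rw [e2]
    exact dvd_add hd2 (Dvd.dvd.mul_left hd1 _)
  have hr4 : IsRelPrime (gm H hH) (gm g hg) := hr3.of_dvd_right (Dvd.intro_left _ rfl)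
  have hrZ := isRelPrime_Zv hr
  refine ⟨g, hg, ?_, hr4, ?_⟩
  · obtain ⟨B, hB, rfl⟩ := exists_gm b
    rw [Zv_eq, gm_pow, gm_pow, gm_mul, gm_mul, gm_add, gm_eq_gm] at e2
    filter_upwards [e2] with p hp h0
    simpa [h0] using hp
  · have h2 : inum (gm H hH) (gm (dY H) (an_dY hH) ^ 2) =
        inum (gm H hH) (gm (dY H) (an_dY hH)) + inum (gm H hH) (gm (dY H) (an_dY hH)) := by
      rw [sq, inum_mul (F := ℂ × ℂ) (by simp) hrel hrel]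
    have h3 : inum (gm H hH) (gm (dY H) (an_dY hH) ^ 2) =
        inum (gm H hH) (Zv 0) + inum (gm H hH) (Zv 0) + inum (gm H hH) (gm g hg) := by
      rw [e2, inum_add_mul, inum_mul (F := ℂ × ℂ) (by simp) hrZ.pow_right hr4, sq,
        inum_mul (F := ℂ × ℂ) (by simp) hrZ hrZ]
    rw [inum_Zv hr] at h3
    omega

end Crest.Agent.R257.N2_328
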