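import Crest.Agent.R257.N2G_328

/-!
Row 257 (S0395), leaf LC-N2, file H (helper328): the exact function belongs to `J_p(f)` for `p < 2`.
-/

set_option autoImplicit false

open Set Filter Topology Metric Complex MeasureTheory
open Crest.Agent.R275.Loc2879
open Crest.Agent.R257.Defs_219
open Crest.AlgGeometry.Germ
open scoped ENNReal

noncomputable section

namespace Crest.Agent.R257.N2_328

variable {m : ℕ}

/-- a sum over at most `d` points -/
lemma tsum_le_of_roots {P : Polynomial ℂ} (hP : P ≠ 0) {Q : ℂ → Prop} (hQ : ∀ z, Q z → P.eval z = 0)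
    {F : {z : ℂ // Q z} → ℝ≥0∞} {K : ℝ≥0∞} (hF : ∀ z, F z ≤ K) :
    ∑' z : {z : ℂ // Q z}, F z ≤ P.natDegree * K := by
  classical
  let T := P.roots.toFinset
  let ι : {z : ℂ // Q z} → T := fun z => ⟨z.1, by
    rw [Multiset.mem_toFinset, Polynomial.mem_roots hP]; exact hQ z.1 z.2⟩
  have hι : Function.Injective ι := by
    intro z w hzw
    exact Subtype.ext (congrArg (fun t : T => t.1) hzw)
  calc ∑' z : {z : ℂ // Q z}, F z ≤ ∑' z : {z : ℂ // Q z}, (fun _ : T => K) (ι z) :=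
        ENNReal.tsum_le_tsum fun z => hF z
    _ ≤ ∑' _ : T, K := ENNReal.tsum_comp_le_tsum_of_injective hι _
    _ = (T.card : ℝ≥0∞) * K := by
        rw [tsum_fintype, Finset.sum_const, Finset.card_univ, Fintype.card_coe, nsmul_eq_mul]
    _ ≤ P.natDegree * K := by
        gcongr
        exact (Multiset.toFinset_card_le _).trans (Polynomial.card_roots' P)

theorem exact_InJ {f : (Fin 2 → ℂ) → ℂ} (hf : AnalyticAt ℂ f 0) (hm2 : 2 ≤ m)
    (hm : gm (two f) (an_two hf) ∈ mm ^ (m + 1)) (hr : Reg (gm (two f) (an_two hf)) (m + 1))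
    {g : ℂ × ℂ → ℂ} (hid : ∀ᶠ p in 𝓝 o2, two f p = 0 → dY (two f) p ^ 2 = p.1 ^ 2 * g p)
    {p : ℝ} (hp : 0 < p) (hp2 : p < 2) : InJN p f (g ∘ phi) := by
  obtain ⟨a, U, ha, ha0, hU, hU0, hfac⟩ := exists_wpoly hr
  obtain ⟨C, hC, hcv⟩ := curve_dY hm hr
  have hU1 : ∀ᶠ q in 𝓝 o2, U q ≠ 0 := hU.continuousAt.eventually_ne hU0
  have han : ∀ᶠ q in 𝓝 o2, AnalyticAt ℂ f (psi q) :=
    tendsto_psi.eventually hf.eventually_analyticAt
  obtain ⟨r, hr0, hball⟩ := Metric.eventually_nhds_iff_ball.1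
    ((hid.and hcv).and ((hfac.and hU1).and han))
  have e4 : 0 < 4 / p - 2 := by
    rw [sub_pos, lt_div_iff₀ hp]; linarith
  set β : ℝ := m * (4 / p - 2) - 4 / p with hβ
  have hβ2 : -2 < β := by
    have h1 : (2 : ℝ) ≤ m := by exact_mod_cast hm2
    have h2 : 2 * (4 / p - 2) ≤ m * (4 / p - 2) := mul_le_mul_of_nonneg_right h1 e4.le
    rw [hβ]; linarith
  set K : ℝ := C ^ (4 / p - 2) with hK
  have hK0 : 0 < K := Real.rpow_pos_of_pos hC _
  refine ⟨r, hr0, ?_⟩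
  rw [JintN_eq]
  have hpt : ∀ x : ℂ, x ∈ ball (0 : ℂ) r → x ≠ 0 →
      sh p r f (g ∘ phi) x ≤ ((m + 1 : ℕ) : ℝ≥0∞) * ENNReal.ofReal (K * ‖x‖ ^ β) := by
    intro x hx hx0
    rw [mem_ball_zero_iff] at hx
    have hxpos : 0 < ‖x‖ := norm_pos_iff.2 hx0
    have hmem : ∀ z : ℂ, ‖z‖ < r → ((x, z) : ℂ × ℂ) ∈ ball o2 r := by
      intro z hz
      rw [Metric.mem_ball, dist_eq_norm]
      simp only [Prod.norm_def, Prod.fst_sub, Prod.snd_sub, sub_zero]
      exact max_lt hx hz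
    have hdeg : (wp a (m + 1) x).natDegree = m + 1 := wp_natDegree a (m + 1) x
    rw [← hdeg]
    refine tsum_le_of_roots (wp_monic a (m + 1) x).ne_zero ?_ ?_
    · rintro z ⟨hz, hz0, -⟩
      obtain ⟨⟨-, -⟩, ⟨h3, h4⟩, -⟩ := hball _ (hmem z hz)
      have h5 : two f (x, z) = 0 := hz0
      rw [h5, ← wp_eval] at h3
      exact (mul_eq_zero.1 h3.symm).resolve_left h4
    · rintro ⟨z, hz, hz0, hne⟩
      obtain ⟨⟨h1, h2⟩, -, h5⟩ := hball _ (hmem z hz)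
      have h6 : two f (x, z) = 0 := hz0
      have h7 : dY (two f) (x, z) = coordDeriv f 0 (psi (x, z)) := dY_two h5
      have h8 := h1 h6
      have h9 := h2 h6
      rw [h7] at h8 h9
      refine ENNReal.ofReal_le_ofReal ?_
      change ‖g (phi (psi (x, z)))‖ ^ (2 / p) / ‖coordDeriv f 0 (psi (x, z))‖ ^ 2 ≤ K * ‖x‖ ^ β
      rw [phi_psi]
      set D := coordDeriv f 0 (psi (x, z)) with hD
      have hDpos : 0 < ‖D‖ := norm_pos_iff.2 hne
      have e1 : ‖g (x, z)‖ = ‖D‖ ^ 2 / ‖x‖ ^ 2 := by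
        rw [eq_div_iff (by positivity), ← norm_pow D, h8, norm_mul, norm_pow]; ring
      have e2 : (‖D‖ ^ 2 / ‖x‖ ^ 2) ^ (2 / p) / ‖D‖ ^ 2 = ‖D‖ ^ (4 / p - 2) * ‖x‖ ^ (-(4 / p)) := by
        rw [Real.div_rpow (by positivity) (by positivity), ← Real.rpow_natCast ‖D‖ 2,
          ← Real.rpow_natCast ‖x‖ 2, ← Real.rpow_mul hDpos.le, ← Real.rpow_mul hxpos.le,
          Real.rpow_sub hDpos, Real.rpow_neg hxpos.le]
        have : ((2 : ℕ) : ℝ) * (2 / p) = 4 / p := by push_cast; ring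
        rw [this]
        have h10 : ‖D‖ ^ (2 : ℝ) ≠ 0 := (Real.rpow_pos_of_pos hDpos _).ne'
        have h11 : ‖x‖ ^ (4 / p) ≠ 0 := (Real.rpow_pos_of_pos hxpos _).ne'
        push_cast
        field_simp
      rw [e1, e2]
      have e3 : ‖D‖ ^ (4 / p - 2) ≤ (C * ‖x‖ ^ m) ^ (4 / p - 2) :=
        Real.rpow_le_rpow hDpos.le h9 e4.le
      calc ‖D‖ ^ (4 / p - 2) * ‖x‖ ^ (-(4 / p))
          ≤ (C * ‖x‖ ^ m) ^ (4 / p - 2) * ‖x‖ ^ (-(4 / p)) := by gcongr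
        _ = K * ‖x‖ ^ β := by
          rw [Real.mul_rpow hC.le (by positivity), ← Real.rpow_natCast ‖x‖ m,
            ← Real.rpow_mul hxpos.le, mul_assoc, ← Real.rpow_add hxpos, hβ]
          rfl
  have hae : ∀ᵐ x : ℂ ∂(volume.restrict (ball (0 : ℂ) r)),
      sh p r f (g ∘ phi) x ≤ ((m + 1 : ℕ) : ℝ≥0∞) * ENNReal.ofReal (K * ‖x‖ ^ β) := by
    have h0 : ∀ᵐ x : ℂ ∂(volume.restrict (ball (0 : ℂ) r)), x ≠ 0 :=
      ae_restrict_of_ae (by simp [ae_iff])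
    filter_upwards [ae_restrict_mem measurableSet_ball, h0] with x hx hx0
    exact hpt x hx hx0
  refine (lintegral_mono_ae hae).trans_lt ?_
  rw [lintegral_const_mul' _ _ (ENNReal.natCast_ne_top _)]
  refine ENNReal.mul_lt_top (ENNReal.natCast_lt_top _) ?_
  have h1 : ∀ x : ℂ, ENNReal.ofReal (K * ‖x‖ ^ β) =
      ENNReal.ofReal K * ENNReal.ofReal (‖x‖ ^ β) := fun x => ENNReal.ofReal_mul hK0.le
  simp only [h1]
  rw [lintegral_const_mul' _ _ ENNReal.ofReal_ne_top]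
  exact ENNReal.mul_lt_top ENNReal.ofReal_lt_top (lintegral_norm_rpow_lt_top hr0 hβ2)

end Crest.Agent.R257.N2_328
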