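import Crest.Agent.R257.N2H_328

/-!
Row 257 (S0395), leaf LC-N2, file I (helper328): generic linear coordinates: after a shear
`(x, y) ↦ (x + s y, y)` a nonzero germ `h ∈ m^k` is regular of order `k` in `y`.
-/

set_option autoImplicit false

open Set Filter Topology Metric Complex MeasureTheory
open Crest.Agent.R275.Loc2879
open Crest.Agent.R257.Defs_219
open Crest.AlgGeometry.Germ
open scoped ENNReal

noncomputable section

namespace Crest.Agent.R257.N2_328

variable {m : ℕ}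

lemma mm_ne_top : (mm : Ideal (OO o2)) ≠ ⊤ := by
  intro h
  have h1 : (1 : OO o2) ∈ mm := by rw [h]; trivial
  obtain ⟨a, b, hab⟩ := Ideal.mem_span_pair.1 h1
  have h2 := congrArg (evp o2) hab
  have h3 : evp o2 (Wv (0 : ℂ)) = 0 := rfl
  have h4 : evp o2 (Zv (0 : ℂ)) = 0 := by
    rw [Zv_eq]; change (0 : ℂ) - 0 = 0; simp
  rw [map_add, map_mul, map_mul, h3, h4, map_one] at h2
  simp at h2

/-- the multiplicity -/
lemma exists_mult {h : OO o2} (h0 : h ≠ 0) : ∃ m, h ∈ mm ^ m ∧ h ∉ mm ^ (m + 1) := by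
  classical
  have h1 : ∃ k, h ∉ mm ^ k := by
    by_contra hcon
    push Not at hcon
    have h2 : h ∈ ⨅ i : ℕ, (mm : Ideal (OO o2)) ^ i := by
      rw [Submodule.mem_iInf]; exact hcon
    rw [Ideal.iInf_pow_eq_bot_of_isLocalRing _ mm_ne_top] at h2
    exact h0 h2
  have h2 := Nat.find_spec h1
  rcases hk : Nat.find h1 with _ | k
  · rw [hk, pow_zero] at h2; exact absurd (by simp) h2
  · rw [hk] at h2
    refine ⟨k, ?_, h2⟩
    have := Nat.find_min h1 (m := k) (by omega)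
    rwa [not_not] at this

/-- the leading form -/
lemma exists_lead : ∀ (m : ℕ) {h : OO o2}, h ∈ mm ^ m →
    ∃ c : ℕ → ℂ, h - ∑ i ∈ Finset.range (m + 1), algebraMap ℂ (OO o2) (c i) *
      (Zv 0 ^ i * Wv 0 ^ (m - i)) ∈ mm ^ (m + 1) := by
  intro m
  induction m with
  | zero =>
    intro h _
    refine ⟨fun _ => evp o2 h, ?_⟩
    simp only [zero_add, Finset.range_one, Finset.sum_singleton, pow_zero, mul_one, pow_one,
      Nat.sub_zero]
    refine mem_mm_of_not_isUnit ?_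
    rw [R275.Loc2879.isUnit_iff, not_not, map_sub]
    have : evp o2 (algebraMap ℂ (OO o2) (evp o2 h)) = evp o2 h := rfl
    rw [this, sub_self]
  | succ m ih =>
    intro h hh
    obtain ⟨A, hA, B, hB, rfl⟩ := mem_pow_succ hh
    obtain ⟨a, ha⟩ := ih hA
    obtain ⟨b, hb⟩ := ih hB
    refine ⟨fun i => (if i = 0 then 0 else a (i - 1)) + (if i = m + 1 then 0 else b i), ?_⟩
    have h1 := Ideal.add_mem _ (mul_mem_pow_succ Zv_mem ha) (mul_mem_pow_succ Wv_mem hb)
    convert h1 using 1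
    have e1 : ∑ i ∈ Finset.range (m + 1 + 1), algebraMap ℂ (OO o2)
        (if i = 0 then 0 else a (i - 1)) * (Zv 0 ^ i * Wv 0 ^ (m + 1 - i)) =
        Zv 0 * ∑ i ∈ Finset.range (m + 1), algebraMap ℂ (OO o2) (a i) *
          (Zv 0 ^ i * Wv 0 ^ (m - i)) := by
      rw [Finset.sum_range_succ', Finset.mul_sum]
      simp only [if_true, map_zero, zero_mul, add_zero, Nat.add_sub_cancel, Nat.succ_ne_zero,
        if_false, Nat.add_sub_add_right]
      refine Finset.sum_congr rfl fun i _ => ?_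
      ring
    have e2 : ∑ i ∈ Finset.range (m + 1 + 1), algebraMap ℂ (OO o2)
        (if i = m + 1 then 0 else b i) * (Zv 0 ^ i * Wv 0 ^ (m + 1 - i)) =
        Wv 0 * ∑ i ∈ Finset.range (m + 1), algebraMap ℂ (OO o2) (b i) *
          (Zv 0 ^ i * Wv 0 ^ (m - i)) := by
      rw [Finset.sum_range_succ, Finset.mul_sum]
      simp only [if_true, map_zero, zero_mul, add_zero]
      refine Finset.sum_congr rfl fun i hi => ?_
      have hi' := Finset.mem_range.1 hi
      rw [if_neg (by omega), show m + 1 - i = (m - i) + 1 by omega]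
      ring
    have e3 : ∑ i ∈ Finset.range (m + 1 + 1), algebraMap ℂ (OO o2)
        ((if i = 0 then 0 else a (i - 1)) + (if i = m + 1 then 0 else b i)) *
          (Zv 0 ^ i * Wv 0 ^ (m + 1 - i)) =
        ∑ i ∈ Finset.range (m + 1 + 1), algebraMap ℂ (OO o2)
          (if i = 0 then 0 else a (i - 1)) * (Zv 0 ^ i * Wv 0 ^ (m + 1 - i)) +
        ∑ i ∈ Finset.range (m + 1 + 1), algebraMap ℂ (OO o2)
          (if i = m + 1 then 0 else b i) * (Zv 0 ^ i * Wv 0 ^ (m + 1 - i)) := by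
      rw [← Finset.sum_add_distrib]
      refine Finset.sum_congr rfl fun i _ => ?_
      rw [map_add, add_mul]
    rw [e3, e1, e2]
    ring

/-- the shear -/
def shear (s : ℂ) (p : ℂ × ℂ) : ℂ × ℂ := (p.1 + s * p.2, p.2)

lemma an_shear (s : ℂ) (p : ℂ × ℂ) : AnalyticAt ℂ (shear s) p :=
  (analyticAt_fst.fun_add (analyticAt_const.fun_mul analyticAt_snd)).prod analyticAt_snd

@[simp] lemma shear_zero (s : ℂ) : shear s o2 = o2 := by simp [shear]

/-- the ring homomorphism -/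
def shR (s : ℂ) : OO o2 →+* OO o2 := pull (shear s) (an_shear s o2) (shear_zero s)

lemma shR_Wv (s : ℂ) : shR s (Wv 0) = Wv 0 := rfl

lemma shR_Zv (s : ℂ) : shR s (Zv 0) = Zv 0 + algebraMap ℂ (OO o2) s * Wv 0 := by
  rw [Zv_eq, shR, pull_gm, Wv, R275.Loc2879.algebraMap_apply, gm_mul, gm_add, gm_eq_gm]
  exact Eventually.of_forall fun p => by simp [shear]

lemma shR_algebraMap (s c : ℂ) : shR s (algebraMap ℂ (OO o2) c) = algebraMap ℂ (OO o2) c := rfl

lemma shR_mm (s : ℂ) : mm.map (shR s) ≤ mm := by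
  rw [mm, Ideal.map_span, Ideal.span_le]
  rintro _ ⟨x, hx, rfl⟩
  rcases hx with rfl | hx
  · rw [shR_Zv]
    exact Ideal.add_mem _ Zv_mem (Ideal.mul_mem_left _ _ Wv_mem)
  · rw [mem_singleton_iff] at hx
    rw [hx, shR_Wv]; exact Wv_mem

lemma shR_pow (s : ℂ) {k : ℕ} {x : OO o2} (hx : x ∈ mm ^ k) : shR s x ∈ mm ^ k := by
  have h1 : shR s x ∈ (mm ^ k).map (shR s) := Ideal.mem_map_of_mem _ hx
  rw [Ideal.map_pow] at h1
  exact Ideal.pow_right_mono (shR_mm s) k h1

lemma rho_Zv : rho (0 : ℂ) (Zv 0) = 0 := by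
  rw [Zv, rho_iot]
  have : evp (0 : ℂ) (TT 0) = 0 := by
    have := TT_not_unit (a := (0 : ℂ))
    rwa [R275.Loc2879.isUnit_iff, not_not] at this
  rw [this, map_zero]

lemma rho_pow {k : ℕ} {x : OO o2} (hx : x ∈ mm ^ k) : TT (0 : ℂ) ^ k ∣ rho (0 : ℂ) x := by
  have h1 : rho (0 : ℂ) x ∈ (mm ^ k).map (rho (0 : ℂ)) := Ideal.mem_map_of_mem _ hx
  rw [Ideal.map_pow] at h1
  have h2 : (mm : Ideal (OO o2)).map (rho (0 : ℂ)) ≤ Ideal.span {TT (0 : ℂ)} := by
    rw [mm, Ideal.map_span, Ideal.span_le]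
    rintro _ ⟨x, hx, rfl⟩
    rcases hx with rfl | hx
    · rw [rho_Zv]; exact Ideal.zero_mem _
    · rw [mem_singleton_iff] at hx
      rw [hx, rho_Wv]; exact Ideal.subset_span rfl
  have h3 := Ideal.pow_right_mono h2 k h1
  rwa [Ideal.span_singleton_pow, Ideal.mem_span_singleton] at h3

lemma rho_algebraMap (c : ℂ) :
    rho (0 : ℂ) (algebraMap ℂ (OO o2) c) = algebraMap ℂ (OO (0 : ℂ)) c := rfl

/-- **generic linear coordinates** -/
theorem exists_shear {h : OO o2} (h0 : h ≠ 0) :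
    ∃ (m : ℕ) (s : ℂ), shR s h ∈ mm ^ m ∧ Reg (shR s h) m := by
  obtain ⟨m, hm1, hm2⟩ := exists_mult h0
  obtain ⟨c, hc⟩ := exists_lead m hm1
  -- the polynomial
  set P : Polynomial ℂ := ∑ i ∈ Finset.range (m + 1), Polynomial.C (c i) * Polynomial.X ^ i with hP
  have hPne : P ≠ 0 := by
    intro hP0
    apply hm2
    have h1 : ∀ i ∈ Finset.range (m + 1), c i = 0 := by
      intro i hi
      have h2 := congrArg (fun Q : Polynomial ℂ => Q.coeff i) hP0
      simp only [hP, Polynomial.finsetSum_coeff, Polynomial.coeff_C_mul, Polynomial.coeff_X_pow,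
        mul_ite, mul_one, mul_zero, Polynomial.coeff_zero] at h2
      rw [Finset.sum_ite_eq, if_pos hi] at h2
      exact h2
    rw [Finset.sum_eq_zero fun i hi => by rw [h1 i hi, map_zero, zero_mul], sub_zero] at hc
    exact hc
  obtain ⟨s, hs⟩ : ∃ s : ℂ, P.eval s ≠ 0 := by
    by_contra hcon
    push Not at hcon
    exact hPne (Polynomial.funext fun x => by rw [hcon x, Polynomial.eval_zero])
  refine ⟨m, s, shR_pow s hm1, ?_⟩
  have h1 := rho_pow (shR_pow s hc)
  rw [map_sub, map_sum, map_sub, map_sum] at h1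
  have h2 : ∑ i ∈ Finset.range (m + 1), rho (0 : ℂ) (shR s (algebraMap ℂ (OO o2) (c i) *
      (Zv 0 ^ i * Wv 0 ^ (m - i)))) = algebraMap ℂ (OO (0 : ℂ)) (P.eval s) * TT 0 ^ m := by
    rw [hP, Polynomial.eval_finsetSum, map_sum, Finset.sum_mul]
    refine Finset.sum_congr rfl fun i hi => ?_
    have hi' : i ≤ m := Nat.lt_succ_iff.1 (Finset.mem_range.1 hi)
    have e1 : rho (0 : ℂ) (shR s (Zv 0)) = algebraMap ℂ (OO (0 : ℂ)) s * TT 0 := by
      rw [shR_Zv, map_add, map_mul, rho_Zv, rho_Wv, rho_algebraMap, zero_add]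
    have e2 : rho (0 : ℂ) (shR s (Wv 0)) = TT 0 := by rw [shR_Wv, rho_Wv]
    simp only [map_mul, map_pow, e1, e2, shR_algebraMap, rho_algebraMap, Polynomial.eval_mul,
      Polynomial.eval_C, Polynomial.eval_pow, Polynomial.eval_X]
    rw [mul_pow, mul_assoc, mul_assoc, ← pow_add, show i + (m - i) = m by omega]
  rw [h2] at h1
  obtain ⟨d, hd⟩ := h1
  have h3 : rho (0 : ℂ) (shR s h) = TT 0 ^ m * (algebraMap ℂ (OO (0 : ℂ)) (P.eval s) + TT 0 * d) := by
    rw [pow_succ] at hd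
    linear_combination hd
  have h4 : IsUnit (algebraMap ℂ (OO (0 : ℂ)) (P.eval s) + TT 0 * d) := by
    rw [R275.Loc2879.isUnit_iff, map_add, map_mul]
    have h5 : evp (0 : ℂ) (TT 0) = 0 := by
      have := TT_not_unit (a := (0 : ℂ))
      rwa [R275.Loc2879.isUnit_iff, not_not] at this
    have h6 : evp (0 : ℂ) (algebraMap ℂ (OO (0 : ℂ)) (P.eval s)) = P.eval s := rfl
    rw [h5, zero_mul, add_zero, h6]
    exact hs
  exact ⟨h4.unit, by rw [h3, IsUnit.unit_spec]⟩

end Crest.Agent.R257.N2_328
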