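import Crest.Agent.R257.SkelB_219

/-!
R257 / SkelC_219: S0395 from the Props of `Defs_219` (machine-checked composition).
-/

set_option autoImplicit false

open Topology Filter MeasureTheory Set
open scoped ENNReal
open Crest.AlgGeometry.Germ

noncomputable section

namespace Crest.Agent.R257.Skel_219

open Crest.Agent.R257.Defs_219

/-- The case `0 < mstar (F_0)`. -/
theorem main_pos (usc : UscStmt) (cn : CNStmt) (lg : LGStmt) (det : DetStmt) (ot : OTStmt)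
    (xs : XStmt) {F : E3 × ℂ → ℂ} (hF : AnalyticAt ℂ F (0, 0))
    (hF0 : ∀ᶠ t in 𝓝 (0 : ℂ), F (0, t) = 0) (hI : Iso (sl F 0))
    (hmu : ∀ᶠ t in 𝓝 (0 : ℂ), ColFin (par (sl F t)) ∧ col (par (sl F t)) = col (par (sl F 0)))
    (hV : ∀ m < mstar (sl F 0), ∀ᶠ t in 𝓝[≠] (0 : ℂ), m ≤ mstar (sl F t))
    (hm : 0 < mstar (sl F 0)) : Concl F := by
  obtain ⟨k, g, h, hk, hg, hh, hgh, fin0, I0, finD0, J0⟩ := xs (sl F 0) hI hm
  obtain ⟨p, q, c, hp1, hpk, hq1, hq2, hc0, hcm, hI1, hJ1⟩ := exists_exponents hk hm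
  obtain ⟨G, hG, ⟨a, ha, eG⟩, δ₁, hδ₁, aeG⟩ := ot F g p hp1 hF hF0 hI hg (hgh p hp1 hpk).1
  obtain ⟨H, hH, ⟨b, hb, eH⟩, δ₂, hδ₂, aeH⟩ := ot F h p hp1 hF hF0 hI hh (hgh p hp1 hpk).2
  have an0 : AnalyticAt ℂ (sl F 0) 0 := analyticAt_sl hF
  -- the ideals at `t = 0`
  have g0 : gens ![sl F 0, sl G 0, sl H 0] = gens ![sl F 0, g, h] := gens3_eq ha hb eG eH
  obtain ⟨w, hw, eD⟩ := Dt_congr an0 hg hh ha hb eG eH
  have gD0 : gens ![sl F 0, sl G 0, Dt (sl F 0) (sl G 0) (sl H 0)] =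
      gens ![sl F 0, g, Dt (sl F 0) g h] := gens3_eq ha hw eG eD
  have I0' : col ![sl F 0, sl G 0, sl H 0] = col ![sl F 0, g, h] := col_congr g0
  have J0' : col ![sl F 0, sl G 0, Dt (sl F 0) (sl G 0) (sl H 0)] =
      col ![sl F 0, g, Dt (sl F 0) g h] := col_congr gD0
  have finI : ColFin ![sl F 0, sl G 0, sl H 0] := (colFin_congr g0).2 fin0
  have finJ : ColFin ![sl F 0, sl G 0, Dt (sl F 0) (sl G 0) (sl H 0)] :=
    (colFin_congr gD0).2 finD0
  -- families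
  have anI : ∀ j, AnalyticAt ℂ ((![F, G, H] : Fin 3 → E3 × ℂ → ℂ) j) (0, 0) := by
    intro j; fin_cases j
    · exact hF
    · exact hG
    · exact hH
  have hD : AnalyticAt ℂ (DtF F G H) (0, 0) := analyticAt_DtF hF hG hH
  have anJ : ∀ j, AnalyticAt ℂ ((![F, G, DtF F G H] : Fin 3 → E3 × ℂ → ℂ) j) (0, 0) := by
    intro j; fin_cases j
    · exact hF
    · exact hG
    · exact hD
  have uI := usc 3 ![F, G, H] anI (by rw [sl3]; exact finI)
  have uJ := usc 3 ![F, G, DtF F G H] anJ (by rw [sl3]; exact finJ)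
  simp only [sl3, sl_DtF] at uI uJ
  -- the good set of parameters
  have hae : ∃ᶠ t in 𝓝[≠] (0 : ℂ), (‖t‖ < δ₁ → InJ p (sl F t) (sl G t)) ∧
      (‖t‖ < δ₂ → InJ p (sl F t) (sl H t)) :=
    frequently_of_ae (by filter_upwards [aeG, aeH] with t h1 h2 using ⟨h1, h2⟩)
  have s1 : ∀ᶠ t in 𝓝 (0 : ℂ), ‖t‖ < δ₁ := by
    have := Metric.ball_mem_nhds (0 : ℂ) hδ₁
    filter_upwards [this] with t ht using by simpa using ht
  have s2 : ∀ᶠ t in 𝓝 (0 : ℂ), ‖t‖ < δ₂ := by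
    have := Metric.ball_mem_nhds (0 : ℂ) hδ₂
    filter_upwards [this] with t ht using by simpa using ht
  have hgood : ∃ᶠ t in 𝓝[≠] (0 : ℂ),
      F (0, t) = 0 ∧ G (0, t) = 0 ∧ H (0, t) = 0 ∧
      ColFin (par (sl F t)) ∧ col (par (sl F t)) = col (par (sl F 0)) ∧
      AnalyticAt ℂ (sl F t) 0 ∧ AnalyticAt ℂ (sl G t) 0 ∧ AnalyticAt ℂ (sl H t) 0 ∧
      ColFin ![sl F t, sl G t, sl H t] ∧
      ColFin ![sl F t, sl G t, Dt (sl F t) (sl G t) (sl H t)] ∧
      col ![sl F t, sl G t, sl H t] = col ![sl F 0, sl G 0, sl H 0] ∧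
      col ![sl F t, sl G t, Dt (sl F t) (sl G t) (sl H t)] =
        col ![sl F 0, sl G 0, Dt (sl F 0) (sl G 0) (sl H 0)] := by
    have ev : ∀ᶠ t in 𝓝[≠] (0 : ℂ), ((((F (0, t) = 0 ∧ (ColFin (par (sl F t)) ∧
        col (par (sl F t)) = col (par (sl F 0)))) ∧
        (AnalyticAt ℂ F (0, t) ∧ AnalyticAt ℂ G (0, t) ∧ AnalyticAt ℂ H (0, t))) ∧
        (‖t‖ < δ₁ ∧ ‖t‖ < δ₂)) ∧
        ((ColFin ![sl F t, sl G t, sl H t] ∧
          col ![sl F t, sl G t, sl H t] ≤ col ![sl F 0, sl G 0, sl H 0]) ∧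
        (ColFin ![sl F t, sl G t, Dt (sl F t) (sl G t) (sl H t)] ∧
          col ![sl F t, sl G t, Dt (sl F t) (sl G t) (sl H t)] ≤
            col ![sl F 0, sl G 0, Dt (sl F 0) (sl G 0) (sl H 0)]))) ∧ c ≤ mstar (sl F t) := by
      refine Eventually.and ?_ (hV c hcm)
      exact ((((hF0.and hmu).and ((eventually_sl hF).and ((eventually_sl hG).and
        (eventually_sl hH)))).and (s1.and s2)).and (uI.and uJ)).filter_mono nhdsWithin_le_nhds
    refine (hae.and_eventually ev).mono ?_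
    rintro t ⟨⟨j1, j2⟩, ⟨⟨⟨⟨f0, mu1, mu2⟩, aF, aG, aH⟩, d1, d2⟩, ⟨cI1, cI2⟩, cJ1, cJ2⟩, hct⟩
    have aF' := analyticAt_sl aF
    have aG' := analyticAt_sl aG
    have aH' := analyticAt_sl aH
    have jG := j1 d1
    have jH := j2 d2
    have hm0 : 0 ≤ mstar (sl F t) := mstar_nonneg _
    have lbI : p * p * mstar (sl F t) ≤ (col ![sl F t, sl G t, sl H t] : ℝ) :=
      mul_mstar_le hp1 hp1 aG' aH' jG jH cI1
    have jD : InJ q (sl F t) (Dt (sl F t) (sl G t) (sl H t)) :=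
      det (sl F t) (sl G t) (sl H t) aF' aG' aH' cI1 p p q hp1 hp1 hq1 hq2 jG jH
    have lbJ : p * q * mstar (sl F t) ≤
        (col ![sl F t, sl G t, Dt (sl F t) (sl G t) (sl H t)] : ℝ) :=
      mul_mstar_le hp1 hq1 aG' (analyticAt_Dt aF' aG' aH') jG jD cJ1
    have hpp : 0 < p * p := by nlinarith
    have hpq : 0 < p * q := by nlinarith
    have eI : col ![sl F t, sl G t, sl H t] = col ![sl F 0, sl G 0, sl H 0] := by
      refine le_antisymm cI2 ?_
      have h1 : (col ![sl F 0, sl G 0, sl H 0] : ℝ) - 1 <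
          (col ![sl F t, sl G t, sl H t] : ℝ) := by
        rw [I0', I0]
        calc (k : ℝ) ^ 2 * mstar (sl F 0) - 1 < p * p * c := hI1
          _ ≤ p * p * mstar (sl F t) := mul_le_mul_of_nonneg_left hct hpp.le
          _ ≤ _ := lbI
      have h2 : (col ![sl F 0, sl G 0, sl H 0] : ℝ) <
          (col ![sl F t, sl G t, sl H t] : ℝ) + 1 := by linarith
      exact Nat.lt_succ_iff.1 (by exact_mod_cast h2)
    have eJ : col ![sl F t, sl G t, Dt (sl F t) (sl G t) (sl H t)] =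
        col ![sl F 0, sl G 0, Dt (sl F 0) (sl G 0) (sl H 0)] := by
      refine le_antisymm cJ2 ?_
      have h1 : (col ![sl F 0, sl G 0, Dt (sl F 0) (sl G 0) (sl H 0)] : ℝ) - 1 <
          (col ![sl F t, sl G t, Dt (sl F t) (sl G t) (sl H t)] : ℝ) := by
        rw [J0', J0]
        calc (2 * (k : ℝ) ^ 2 + k) * mstar (sl F 0) - 1 < p * q * c := hJ1
          _ ≤ p * q * mstar (sl F t) := mul_le_mul_of_nonneg_left hct hpq.le
          _ ≤ _ := lbJ
      have h2 : (col ![sl F 0, sl G 0, Dt (sl F 0) (sl G 0) (sl H 0)] : ℝ) <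
          (col ![sl F t, sl G t, Dt (sl F t) (sl G t) (sl H t)] : ℝ) + 1 := by linarith
      exact Nat.lt_succ_iff.1 (by exact_mod_cast h2)
    have posI : 0 < col ![sl F t, sl G t, sl H t] := by
      have : (0 : ℝ) < (col ![sl F t, sl G t, sl H t] : ℝ) :=
        lt_of_lt_of_le (mul_pos hpp (lt_of_lt_of_le hc0 hct)) lbI
      exact_mod_cast this
    have zG : G (0, t) = 0 := by
      by_contra hne
      exact posI.ne' (col_eq_zero (G := ![sl F t, sl G t, sl H t]) (j := 1) aG' hne)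
    have zH : H (0, t) = 0 := by
      by_contra hne
      exact posI.ne' (col_eq_zero (G := ![sl F t, sl G t, sl H t]) (j := 2) aH' hne)
    exact ⟨f0, zG, zH, mu1, mu2, aF', aG', aH', cI1, cJ1, eI, eJ⟩
  -- `G, H` vanish on the axis
  have axis : ∀ K : E3 × ℂ → ℂ, AnalyticAt ℂ K (0, 0) → (∃ᶠ t in 𝓝[≠] (0 : ℂ), K (0, t) = 0) →
      ∀ᶠ t in 𝓝 (0 : ℂ), K (0, t) = 0 := by
    intro K hK hfr
    have hK' : AnalyticAt ℂ (fun t : ℂ => K (0, t)) 0 := by
      have h1 : AnalyticAt ℂ (fun t : ℂ => ((0, t) : E3 × ℂ)) 0 :=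
        analyticAt_const.prod analyticAt_id
      exact AnalyticAt.fun_comp (f := fun t : ℂ => ((0, t) : E3 × ℂ)) (g := K) (by simpa using hK) h1
    exact hK'.frequently_zero_iff_eventually_zero.1 hfr
  have zG : ∀ᶠ t in 𝓝 (0 : ℂ), G (0, t) = 0 := axis G hG (hgood.mono fun t ht => ht.2.1)
  have zH : ∀ᶠ t in 𝓝 (0 : ℂ), H (0, t) = 0 := axis H hH (hgood.mono fun t ht => ht.2.2.1)
  -- Le–Greuel at `t = 0`
  obtain ⟨finM0, lg0⟩ := lg (sl F 0) (sl G 0) (sl H 0) an0 (analyticAt_sl hG) (analyticAt_sl hH)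
    hI.zero zG.self_of_nhds zH.self_of_nhds hI.fin finI finJ
  -- conservation of number
  have c1 := cn 3 (fun i => fun q => coordDeriv (sl F q.2) i q.1) (fun j => analyticAt_pd hF j)
    hI.fin (Frequently.mono (Eventually.frequently (hmu.filter_mono nhdsWithin_le_nhds))
      fun t ht => ht.2.ge)
  have c2 := cn 4 (mnrF F G) (analyticAt_mnrF hF hG) (by rw [sl_mnrF]; exact finM0)
    (hgood.mono fun t ht => by
      rw [sl_mnrF, sl_mnrF]
      obtain ⟨f0, gz, hz, mu1, mu2, aF, aG, aH, cI, cJ, eI, eJ⟩ := ht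
      obtain ⟨-, lgt⟩ := lg (sl F t) (sl G t) (sl H t) aF aG aH f0 gz hz mu1 cI cJ
      omega)
  have c3 := cn 3 ![F, G, H] anI (by rw [sl3]; exact finI)
    (hgood.mono fun t ht => by rw [sl3, sl3]; exact ht.2.2.2.2.2.2.2.2.2.2.1.ge)
  have c4 := cn 3 ![F, G, DtF F G H] anJ (by rw [sl3]; exact finJ)
    (hgood.mono fun t ht => by rw [sl3, sl3]; exact ht.2.2.2.2.2.2.2.2.2.2.2.ge)
  -- the flow
  refine Flow_941.flow_three hF hG hH ?_ ?_ ?_ ?_
  · filter_upwards [hF0, zG, zH] with t h1 h2 h3 using ⟨h1, h2, h3⟩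
  · filter_upwards [c1] with x hx hne
    exact fderiv_ne fun hall => hne (hx fun j => hall j)
  · filter_upwards [c2] with x hx hne hF
    apply li2
    by_contra hcon
    simp only [not_or, not_not] at hcon
    obtain ⟨m1, m2, m3⟩ := hcon
    refine hne (hx fun j => ?_)
    fin_cases j
    · exact hF
    · exact m1
    · exact m2
    · exact m3
  · filter_upwards [c3, c4] with x hx3 hx4 hne hF hG
    refine ⟨fun hH => hne (hx3 fun j => ?_), li3 fun hD => hne (hx4 fun j => ?_)⟩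
    · fin_cases j
      · exact hF
      · exact hG
      · exact hH
    · fin_cases j
      · exact hF
      · exact hG
      · exact hD

end Crest.Agent.R257.Skel_219
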