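import Crest.Agent.R257.N2I_328
import Crest.Agent.R257.SkelC_219
import Crest.Agent.R257.LCf_472

/-!
Row 257 (S0395), leaf LC-N2, file J (helper328): assembly of the flag for a `μ`-constant family of
plane curves, from the `L^{2/p}` extension theorem one dimension lower.
-/

set_option autoImplicit false

open Set Filter Topology Metric Complex MeasureTheory
open Crest.Agent.R275.Loc2879
open Crest.Agent.R257.Defs_219 Crest.Agent.R257.Skel_219 Crest.Agent.R257.LCDefs_472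
open Crest.AlgGeometry.Germ
open scoped ENNReal

noncomputable section

namespace Crest.Agent.R257.N2_328

abbrev E2 : Type := Fin 2 → ℂ

/-- the `L^{2/p}` extension theorem for plane curves -/
def OT2Stmt : Prop := ∀ (F : E2 × ℂ → ℂ) (g : E2 → ℂ) (p : ℝ), 1 ≤ p → AnalyticAt ℂ F (0, 0) →
  (∀ᶠ t in 𝓝 (0 : ℂ), F (0, t) = 0) → (∀ i, coordDeriv (sl F 0) i 0 = 0) → ColFin (par (sl F 0)) →
  (∃ᶠ z : ℂ in 𝓝[≠] 0, sl F 0 (Fin.cons z 0) ≠ 0) → AnalyticAt ℂ g 0 → InJN p (sl F 0) g →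
  ∃ G : E2 × ℂ → ℂ, AnalyticAt ℂ G (0, 0) ∧
    (∃ a : E2 → ℂ, AnalyticAt ℂ a 0 ∧ ∀ᶠ x in 𝓝 (0 : E2), G (x, 0) = g x + a x * F (x, 0)) ∧
    ∃ δ : ℝ, 0 < δ ∧ ∀ᵐ t : ℂ, ‖t‖ < δ → InJN p (sl F t) (sl G t)

/-- the flag of a family of plane curves -/
def Flag2 (q : E2 × ℂ → ℂ) : Prop := ∃ g : E2 × ℂ → ℂ, AnalyticAt ℂ g (0, 0) ∧
  (∀ᶠ t in 𝓝 (0 : ℂ), g (0, t) = 0) ∧
  ∀ᶠ p in 𝓝 ((0 : E2), (0 : ℂ)), p.1 ≠ 0 → q p = 0 → g p ≠ 0 ∧
    coordDeriv (sl q p.2) 1 p.1 * coordDeriv (sl g p.2) 0 p.1 -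
      coordDeriv (sl q p.2) 0 p.1 * coordDeriv (sl g p.2) 1 p.1 ≠ 0

/-- the Jacobian determinant in the family -/
def JF (q G : E2 × ℂ → ℂ) (p : E2 × ℂ) : ℂ :=
  coordDeriv (sl q p.2) 1 p.1 * coordDeriv (sl G p.2) 0 p.1 -
    coordDeriv (sl q p.2) 0 p.1 * coordDeriv (sl G p.2) 1 p.1

lemma an_JF {q G : E2 × ℂ → ℂ} (hq : AnalyticAt ℂ q (0, 0)) (hG : AnalyticAt ℂ G (0, 0)) :
    AnalyticAt ℂ (JF q G) (0, 0) :=
  ((analyticAt_pd hq 1).mul (analyticAt_pd hG 0)).sub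
    ((analyticAt_pd hq 0).mul (analyticAt_pd hG 1))

lemma sl2 (F G : E2 × ℂ → ℂ) (t : ℂ) :
    (fun j => sl ((![F, G] : Fin 2 → E2 × ℂ → ℂ) j) t) = ![sl F t, sl G t] := by
  funext j; fin_cases j <;> rfl

lemma an2 {F G : E2 × ℂ → ℂ} (hF : AnalyticAt ℂ F (0, 0)) (hG : AnalyticAt ℂ G (0, 0)) :
    ∀ j, AnalyticAt ℂ ((![F, G] : Fin 2 → E2 × ℂ → ℂ) j) 0 := by
  intro j; fin_cases j
  · exact hF
  · exact hG

variable {q : E2 × ℂ → ℂ} {μ m : ℕ}

/-- the order in `y` is finite for small `t` -/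
lemma exists_reg_slice (hq : AnalyticAt ℂ q (0, 0)) {han : AnalyticAt ℂ (sl q 0) 0}
    (hreg : Reg (gm (two (sl q 0)) (an_two han)) m) :
    ∀ᶠ t in 𝓝 (0 : ℂ), ∀ han : AnalyticAt ℂ (sl q t) 0,
      ∃ n, Reg (gm (two (sl q t)) (an_two han)) n := by
  -- the restriction to the `y`-axis
  have hΦ : AnalyticAt ℂ (fun p : ℂ × ℂ => q (psi (0, p.2), p.1)) o2 := by
    have h1 : AnalyticAt ℂ (fun p : ℂ × ℂ => ((psi (0, p.2), p.1) : E2 × ℂ)) o2 := by
      refine AnalyticAt.prod ?_ analyticAt_fst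
      exact AnalyticAt.comp (g := psi) (f := fun p : ℂ × ℂ => ((0 : ℂ), p.2)) (an_psi _)
        (analyticAt_const.prod analyticAt_snd)
    refine AnalyticAt.fun_comp (g := q) (f := fun p : ℂ × ℂ => ((psi (0, p.2), p.1) : E2 × ℂ)) ?_ h1
    change AnalyticAt ℂ q (psi o2, 0)
    rw [psi_zero]; exact hq
  have hregΦ : Reg (gm _ hΦ) m := by
    rw [reg_iff_order] at hreg ⊢
    exact hreg
  obtain ⟨a, U, ha, ha0, hU, hU0, hfac⟩ := exists_wpoly hregΦ
  have hU1 : ∀ᶠ p in 𝓝 o2, U p ≠ 0 := hU.continuousAt.eventually_ne hU0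
  have h1 := (hfac.and hU1).curry_nhds
  filter_upwards [h1] with t ht han
  have hne : analyticOrderAt (fun w => two (sl q t) (0, w)) 0 ≠ ⊤ := by
    intro htop
    rw [analyticOrderAt_eq_top] at htop
    have h2 : ∀ᶠ w in 𝓝 (0 : ℂ), (wp a m t).eval w = 0 := by
      filter_upwards [ht, htop] with w hw hw2
      have h3 : q (psi (0, w), t) = 0 := hw2
      have h4 : q (psi (0, w), t) = U (t, w) *
          (w ^ m + ∑ i ∈ Finset.range m, a i t * w ^ i) := hw.1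
      rw [h3, ← wp_eval] at h4
      exact (mul_eq_zero.1 h4.symm).resolve_left hw.2
    have h3 : {w | (wp a m t).IsRoot w}.Infinite := infinite_of_mem_nhds (0 : ℂ) h2
    exact (wp_monic a m t).ne_zero (Polynomial.eq_zero_of_infinite_isRoot _ h3)
  obtain ⟨n, hn⟩ := ENat.ne_top_iff_exists.1 hne
  exact ⟨n, by rw [reg_iff_order]; exact hn.symm⟩

/-- Teissier's formula for all small `t` -/
lemma slice_facts (hF : Fam q μ) {han : AnalyticAt ℂ (sl q 0) 0}
    (hreg : Reg (gm (two (sl q 0)) (an_two han)) m) :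
    ∀ᶠ t in 𝓝 (0 : ℂ), ∃ (han : AnalyticAt ℂ (sl q t) 0) (e : ℕ), 1 ≤ e ∧
      two (sl q t) o2 = 0 ∧
      Reg (gm (two (sl q t)) (an_two han)) (e + 1) ∧
      IsRelPrime (gm (two (sl q t)) (an_two han)) (gm (dY (two (sl q t))) (an_dY (an_two han))) ∧
      inum (gm (two (sl q t)) (an_two han)) (gm (dY (two (sl q t))) (an_dY (an_two han))) = μ + e := by
  filter_upwards [exists_reg_slice (han := han) hF.an hreg, eventually_sl hF.an, hF.zero, hF.crit, hF.fin]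
    with t h1 h2 h3 h4 h5
  have han := analyticAt_sl h2
  obtain ⟨n, hn⟩ := h1 han
  have h0 : two (sl q t) o2 = 0 := by
    change sl q t (psi o2) = 0
    rw [psi_zero]; exact h3
  have hdY : dY (two (sl q t)) o2 = 0 := by
    rw [dY_two (by rw [psi_zero]; exact han), psi_zero]; exact h4 0
  obtain ⟨hrel, hcol⟩ := par_two han
  have hrel' := hrel.1 h5.1
  rw [h5.2] at hcol
  -- `n ≥ 2`
  rcases n with _ | _ | e
  · exfalso
    have := reg_zero_iff.1 hn
    rw [isUnit_gm] at this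
    exact this h0
  · exfalso
    have := reg_zero_iff.1 (reg_dY hn)
    rw [isUnit_gm] at this
    exact this hdY
  · have hd := reg_dY hn
    obtain ⟨t1, t2⟩ := teissier h0 hd hrel'
    refine ⟨han, e + 1, by omega, h0, hn, t1.symm, ?_⟩
    rw [inum_comm, t2, ← hcol]

lemma two_JF {q G : E2 × ℂ → ℂ} {t : ℂ} (hq : AnalyticAt ℂ (sl q t) 0)
    (hG : AnalyticAt ℂ (sl G t) 0) :
    ∀ᶠ p in 𝓝 o2, two (sl (JF q G) t) p = JJ (two (sl q t)) (two (sl G t)) p := by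
  filter_upwards [tendsto_psi.eventually hq.eventually_analyticAt,
    tendsto_psi.eventually hG.eventually_analyticAt] with p h1 h2
  change coordDeriv (sl q t) 1 (psi p) * coordDeriv (sl G t) 0 (psi p) -
    coordDeriv (sl q t) 0 (psi p) * coordDeriv (sl G t) 1 (psi p) =
    dX (two (sl q t)) p * dY (two (sl G t)) p - dY (two (sl q t)) p * dX (two (sl G t)) p
  rw [dX_two h1, dY_two h1, dX_two h2, dY_two h2]

/-- a function with constant intersection number gives the flag -/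
theorem flag_of_const (hF : Fam q μ) {han : AnalyticAt ℂ (sl q 0) 0}
    (hreg : Reg (gm (two (sl q 0)) (an_two han)) m) {G : E2 × ℂ → ℂ} (hG : AnalyticAt ℂ G (0, 0))
    (hG0 : ∀ᶠ t in 𝓝 (0 : ℂ), G (0, t) = 0) (hfin : ColFin ![sl q 0, sl G 0])
    (hfr : ∃ᶠ t in 𝓝[≠] (0 : ℂ), col ![sl q 0, sl G 0] ≤ col ![sl q t, sl G t]) : Flag2 q := by
  have hfin' : ColFin (fun j => sl ((![q, G] : Fin 2 → E2 × ℂ → ℂ) j) 0) := by rw [sl2]; exact hfin
  have hfr' : ∃ᶠ t in 𝓝[≠] (0 : ℂ), col (fun j => sl ((![q, G] : Fin 2 → E2 × ℂ → ℂ) j) 0) ≤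
      col (fun j => sl ((![q, G] : Fin 2 → E2 × ℂ → ℂ) j) t) := by
    simp only [sl2]; exact hfr
  have hconst := UI939.const_col ![q, G] (an2 hF.an hG) hfin' hfr'
  have hcn := UI939.cn_col ![q, G] (an2 hF.an hG) hfin' hfr'
  set N := col ![sl q 0, sl G 0] with hN
  have hcolJ : ∀ᶠ t in 𝓝 (0 : ℂ), ColFin ![sl q t, sl (JF q G) t] ∧
      col ![sl q t, sl (JF q G) t] + 1 = μ + N := by
    filter_upwards [slice_facts (han := han) hF hreg, hconst, eventually_sl hG, hG0,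
      eventually_sl (an_JF hF.an hG)] with t h1 h2 h3 h4 h5
    obtain ⟨hq, e, he, h0, hr, hrel, hi⟩ := h1
    have hGa := analyticAt_sl h3
    have hJa := analyticAt_sl h5
    have ev : ∀ j, AnalyticAt ℂ (sl ((![q, G] : Fin 2 → E2 × ℂ → ℂ) j) t) 0 := by
      intro j; fin_cases j
      · exact hq
      · exact hGa
    have k1 : ColFin ![sl q t, sl G t] := by
      rw [← sl2]; exact (UI939.colFin_iff ev).2 h2.1
    have k2 : col ![sl q t, sl G t] = N := by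
      have e1 := UI939.col_eq ev
      rw [← sl2 q G t, e1, hN, ← sl2 q G 0]
      exact h2.2
    have k3 := (colFin_two hq hGa).1 k1
    rw [col_two hq hGa] at k2
    obtain ⟨l1, l2⟩ := le_greuel (hg := an_two hGa) (by
      change sl G t (psi o2) = 0
      rw [psi_zero]; exact h4) hr hrel k3
    have hJeq : gm (two (sl (JF q G) t)) (an_two hJa) =
        gm (JJ (two (sl q t)) (two (sl G t))) (an_JJ (an_two hq) (an_two hGa)) := by
      rw [gm_eq_gm]; exact two_JF hq hGa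
    rw [colFin_two hq hJa, col_two hq hJa, hJeq]
    refine ⟨l1, ?_⟩
    omega
  have hJ0 := hcolJ.self_of_nhds
  have hcnJ := UI939.cn_col ![q, JF q G] (an2 hF.an (an_JF hF.an hG)) (by rw [sl2]; exact hJ0.1)
    (by
      refine Eventually.frequently ?_
      filter_upwards [hcolJ.filter_mono nhdsWithin_le_nhds] with t ht
      rw [sl2, sl2]
      have := hJ0.2
      omega)
  refine ⟨G, hG, hG0, ?_⟩
  filter_upwards [hcn, hcnJ] with p h1 h2 hp0 hq0
  constructor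
  · intro hG0
    exact hp0 (h1 fun j => by fin_cases j <;> assumption)
  · intro hJ0
    exact hp0 (h2 fun j => by fin_cases j <;> assumption)

end Crest.Agent.R257.N2_328
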