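import Crest.Agent.R257.N2J_328

/-!
Row 257 (S0395), leaf LC-N2, file K (helper328): `N2Stmt` from the `L^{2/p}` extension theorem for
plane curves.
-/

set_option autoImplicit false

open Set Filter Topology Metric Complex MeasureTheory
open Crest.Agent.R275.Loc2879
open Crest.Agent.R257.Defs_219 Crest.Agent.R257.Skel_219 Crest.Agent.R257.LCDefs_472
open Crest.AlgGeometry.Germ
open scoped ENNReal

noncomputable section

namespace Crest.Agent.R257.N2_328

variable {q : E2 × ℂ → ℂ} {μ m : ℕ}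

lemma an_coord1 (v : E2) : AnalyticAt ℂ (fun v : E2 => v 1) v :=
  (ContinuousLinearMap.proj (R := ℂ) (φ := fun _ : Fin 2 => ℂ) 1).analyticAt v

/-- intersection with the base coordinate -/
lemma col_coord {f : E2 → ℂ} (hf : AnalyticAt ℂ f 0) {n : ℕ}
    (hr : Reg (gm (two f) (an_two hf)) n) :
    ColFin ![f, fun v : E2 => v 1] ∧ col ![f, fun v : E2 => v 1] = n := by
  have h1 : gm (two fun v : E2 => v 1) (an_two (an_coord1 0)) = Zv (0 : ℂ) := by
    rw [Zv_eq, gm_eq_gm]
    exact Eventually.of_forall fun p => by simp [two, psi]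
  rw [colFin_two hf (an_coord1 0), col_two hf (an_coord1 0), h1]
  exact ⟨isRelPrime_Zv hr, inum_Zv hr⟩

lemma frequently_of_reg {f : E2 → ℂ} (hf : AnalyticAt ℂ f 0) {n : ℕ}
    (hr : Reg (gm (two f) (an_two hf)) n) : ∃ᶠ z : ℂ in 𝓝[≠] 0, f (Fin.cons z 0) ≠ 0 := by
  rw [reg_iff_order] at hr
  have han : AnalyticAt ℂ (fun w => two f (0, w)) 0 :=
    AnalyticAt.comp (g := two f) (f := fun w : ℂ => ((0 : ℂ), w)) (an_two hf)
      (analyticAt_const.prod analyticAt_id)
  have h1 : ¬ ∀ᶠ z in 𝓝 (0 : ℂ), two f (0, z) = 0 := by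
    intro h
    rw [← analyticOrderAt_eq_top] at h
    rw [h] at hr
    exact ENat.top_ne_natCast _ hr
  have h2 := han.eventually_eq_zero_or_eventually_ne_zero.resolve_left h1
  refine Eventually.frequently ?_
  filter_upwards [h2] with z hz
  have : (Fin.cons z 0 : E2) = psi (0, z) := cons_eq_psi z 0
  rw [this]; exact hz

/-- the flag in generic coordinates -/
theorem flag_generic (ot : OT2Stmt) (hF : Fam q μ) (han : AnalyticAt ℂ (sl q 0) 0)
    (hm : gm (two (sl q 0)) (an_two han) ∈ mm ^ m)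
    (hreg : Reg (gm (two (sl q 0)) (an_two han)) m) : Flag2 q := by
  have hsl := slice_facts (han := han) hF hreg
  obtain ⟨hq0, e, he, h00, hr0, hrel0, hi0⟩ := hsl.self_of_nhds
  obtain rfl : m = e + 1 := hreg.unique hr0
  rcases Nat.lt_or_ge e 2 with he2 | he2
  · -- multiplicity two
    have he1 : e = 1 := by omega
    have hG : AnalyticAt ℂ (fun p : E2 × ℂ => p.1 1) (0, 0) :=
      AnalyticAt.fun_comp (g := fun v : E2 => v 1) (f := Prod.fst) (an_coord1 _) analyticAt_fst
    have hc0 := col_coord hq0 hr0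
    refine flag_of_const (han := han) hF hreg (G := fun p : E2 × ℂ => p.1 1) hG
      (Eventually.of_forall fun t => rfl) hc0.1 ?_
    refine Eventually.frequently ?_
    filter_upwards [hsl.filter_mono nhdsWithin_le_nhds] with t ht
    obtain ⟨hq, e', he', -, hr, -, -⟩ := ht
    have hc := col_coord hq hr
    change col ![sl q 0, fun v : E2 => v 1] ≤ col ![sl q t, fun v : E2 => v 1]
    rw [hc0.2, hc.2]
    omega
  · -- multiplicity at least three
    obtain ⟨g, hg, hid, hrg, hig⟩ := exists_exact he2 hm hr0 hrel0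
    rw [hi0] at hig
    have hμ1 : 1 ≤ μ := by omega
    have hμ1' : (1 : ℝ) ≤ μ := by exact_mod_cast hμ1
    set p : ℝ := 2 - 1 / (μ + 1) with hp
    have hpos : (0 : ℝ) < 1 / (μ + 1) := by positivity
    have hle1 : (1 : ℝ) / (μ + 1) ≤ 1 := by
      rw [div_le_one (by positivity)]; linarith
    have hp1 : 1 ≤ p := by rw [hp]; linarith
    have hp2 : p < 2 := by rw [hp]; linarith
    have hp0 : 0 < p := by linarith
    have hga : AnalyticAt ℂ (g ∘ phi) 0 :=
      AnalyticAt.comp (g := g) (f := phi) (by rw [phi_zero]; exact hg) (an_phi 0)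
    have hJ : InJN p (sl q 0) (g ∘ phi) := exact_InJ hq0 he2 hm hr0 hid hp0 hp2
    obtain ⟨G, hG, ⟨a, ha, hGa⟩, δ, hδ, hae⟩ := ot q (g ∘ phi) p hp1 hF.an hF.zero
      hF.crit.self_of_nhds hF.fin.self_of_nhds.1 (frequently_of_reg hq0 hr0) hga hJ
    have hG0a : AnalyticAt ℂ (sl G 0) 0 := analyticAt_sl hG
    -- the germ of `G` at `t = 0`
    have hgerm : gm (two (sl G 0)) (an_two hG0a) =
        gm g hg + gm (two a) (an_two ha) * gm (two (sl q 0)) (an_two hq0) := by
      rw [gm_mul, gm_add, gm_eq_gm]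
      filter_upwards [tendsto_psi.eventually hGa] with x hx
      have h1 : G (psi x, 0) = g (phi (psi x)) + a (psi x) * q (psi x, 0) := hx
      rw [phi_psi] at h1
      exact h1
    have hfin : ColFin ![sl q 0, sl G 0] := by
      rw [colFin_two hq0 hG0a, hgerm]
      intro d hd1 hd2
      refine hrg hd1 ?_
      have := dvd_sub hd2 (Dvd.dvd.mul_left hd1 (gm (two a) (an_two ha)))
      simpa using this
    have hcol : col ![sl q 0, sl G 0] + 2 = 2 * μ := by
      rw [col_two hq0 hG0a, hgerm, inum_add_mul]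
      omega
    have husc := UI939.usc_col ![q, G] (an2 hF.an hG) (by rw [sl2]; exact hfin)
    have hfr : ∃ᶠ t in 𝓝[≠] (0 : ℂ), col ![sl q 0, sl G 0] ≤ col ![sl q t, sl G t] ∧
        0 < col ![sl q t, sl G t] := by
      have s1 : ∀ᶠ t in 𝓝 (0 : ℂ), ‖t‖ < δ := by
        have := Metric.ball_mem_nhds (0 : ℂ) hδ
        filter_upwards [this] with t ht using by simpa using ht
      have ev := ((hsl.and husc).and ((eventually_sl hG).and s1)).filter_mono
        (nhdsWithin_le_nhds (s := {(0 : ℂ)}ᶜ))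
      refine ((frequently_of_ae hae).and_eventually ev).mono ?_
      rintro t ⟨hJt, ⟨⟨hq, e', he', h0, hr, hrel, hi⟩, hc1, -⟩, hGt, hδt⟩
      have hGta := analyticAt_sl hGt
      rw [sl2] at hc1
      have hrelG := (colFin_two hq hGta).1 hc1
      have hlow := inum_lower hq hGta hp0 (hJt hδt) (by omega) hr hrel hrelG
      rw [hi, ← col_two hq hGta] at hlow
      push_cast at hlow
      have h1 : p * (μ - 1) < (col ![sl q t, sl G t] : ℝ) := by linarith
      have h2 : p * (μ - 1) = 2 * (μ - 1) - (μ - 1) / (μ + 1) := by rw [hp]; ring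
      have h3 : ((μ : ℝ) - 1) / (μ + 1) < 1 := by
        rw [div_lt_one (by positivity)]; linarith
      have h4 : (2 : ℝ) * μ < (col ![sl q t, sl G t] : ℝ) + 3 := by
        rw [h2] at h1; linarith
      have h5 : 2 * μ < col ![sl q t, sl G t] + 3 := by exact_mod_cast h4
      have h6 : 0 < (col ![sl q t, sl G t] : ℝ) :=
        lt_of_le_of_lt (mul_nonneg hp0.le (by linarith)) h1
      refine ⟨by omega, by exact_mod_cast h6⟩
    have hfr1 := hfr.mono fun t ht => ht.1
    -- `G` vanishes on the axis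
    have hfin' : ColFin (fun j => sl ((![q, G] : Fin 2 → E2 × ℂ → ℂ) j) 0) := by
      rw [sl2]; exact hfin
    have hfr' : ∃ᶠ t in 𝓝[≠] (0 : ℂ), col (fun j => sl ((![q, G] : Fin 2 → E2 × ℂ → ℂ) j) 0) ≤
        col (fun j => sl ((![q, G] : Fin 2 → E2 × ℂ → ℂ) j) t) := by
      simp only [sl2]; exact hfr1
    have hconst := UI939.const_col ![q, G] (an2 hF.an hG) hfin' hfr'
    have hev : ∀ t, (AnalyticAt ℂ (sl q t) 0 ∧ AnalyticAt ℂ (sl G t) 0) →
        ∀ j, AnalyticAt ℂ (sl ((![q, G] : Fin 2 → E2 × ℂ → ℂ) j) t) 0 := by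
      rintro t ⟨h1, h2⟩ j
      fin_cases j
      · exact h1
      · exact h2
    have hconst' : ∀ᶠ t in 𝓝 (0 : ℂ), col ![sl q t, sl G t] = col ![sl q 0, sl G 0] ∧
        AnalyticAt ℂ (sl G t) 0 := by
      filter_upwards [hconst, eventually_sl hF.an, eventually_sl hG] with t h1 h2 h3
      refine ⟨?_, analyticAt_sl h3⟩
      rw [← sl2 q G t, UI939.col_eq (hev t ⟨analyticAt_sl h2, analyticAt_sl h3⟩), ← sl2 q G 0]
      exact h1.2
    have hNpos : 0 < col ![sl q 0, sl G 0] := by
      obtain ⟨t, ht, ht'⟩ := (hfr.and_eventually (hconst'.filter_mono nhdsWithin_le_nhds)).exists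
      rw [← ht'.1]; exact ht.2
    have hG0 : ∀ᶠ t in 𝓝 (0 : ℂ), G (0, t) = 0 := by
      filter_upwards [hconst'] with t ht
      by_contra hne
      have := col_eq_zero (G := ![sl q t, sl G t]) (j := 1) ht.2 hne
      rw [ht.1] at this
      omega
    exact flag_of_const (han := han) hF hreg hG hG0 hfin hfr1

/-! ### the flag gives the conclusion -/

open Crest.Agent.R257.LCd_472 in
/-- the conclusion of S0395 for `x_0² + q` from the flag of `q` -/
theorem concl_of_flag (hF : Fam q μ) (hfl : Flag2 q) :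
    Concl (fun p : E3 × ℂ => p.1 0 ^ 2 + q (Fin.tail p.1, p.2)) := by
  obtain ⟨G, hG, hG0, hflag⟩ := hfl
  -- tails
  have htl : AnalyticAt ℂ (fun p : E3 × ℂ => ((Fin.tail p.1, p.2) : E2 × ℂ)) (0, 0) :=
    (AnalyticAt.fun_comp (g := tl 2) (f := Prod.fst) ((tl 2).analyticAt _) analyticAt_fst).prod
      analyticAt_snd
  have htt : Tendsto (fun p : E3 × ℂ => ((Fin.tail p.1, p.2) : E2 × ℂ)) (𝓝 (0, 0)) (𝓝 (0, 0)) :=
    htl.continuousAt.tendsto
  have hFan : AnalyticAt ℂ (sqF q) ((0 : E3), (0 : ℂ)) := analyticAt_sqF hF.an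
  have hgan : AnalyticAt ℂ (fun p : E3 × ℂ => p.1 0) (0, 0) :=
    AnalyticAt.fun_comp (g := fun v : E3 => v 0) (f := Prod.fst)
      ((ContinuousLinearMap.proj (R := ℂ) (φ := fun _ : Fin 3 => ℂ) 0).analyticAt _) analyticAt_fst
  have hhan : AnalyticAt ℂ (fun p : E3 × ℂ => G (Fin.tail p.1, p.2)) (0, 0) :=
    AnalyticAt.fun_comp (g := G) (f := fun p : E3 × ℂ => ((Fin.tail p.1, p.2) : E2 × ℂ)) hG htl
  -- the derivatives
  have hqd : ∀ᶠ p : E3 × ℂ in 𝓝 (0, 0), DifferentiableAt ℂ (sl q p.2) (Fin.tail p.1) := by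
    filter_upwards [htt.eventually hF.an.eventually_analyticAt] with p hp
    exact (UI_slice hp).differentiableAt
  have hGd : ∀ᶠ p : E3 × ℂ in 𝓝 (0, 0), DifferentiableAt ℂ (sl G p.2) (Fin.tail p.1) := by
    filter_upwards [htt.eventually hG.eventually_analyticAt] with p hp
    exact (UI_slice hp).differentiableAt
  have hiso : ∀ᶠ p : E3 × ℂ in 𝓝 (0, 0), (∀ i, coordDeriv (sl q p.2) i (Fin.tail p.1) = 0) →
      Fin.tail p.1 = 0 := htt.eventually hF.iso
  have hq0 : ∀ᶠ p : E3 × ℂ in 𝓝 (0, 0), q (0, p.2) = 0 :=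
    (continuous_snd.tendsto ((0 : E3), (0 : ℂ))).eventually hF.zero
  have hfl' := htt.eventually hflag
  have hx0 : ∀ p : E3 × ℂ, p.1 0 = 0 → Fin.tail p.1 = 0 → p.1 = 0 := by
    intro p h1 h2
    ext i
    refine Fin.cases h1 (fun j => ?_) i
    exact congrFun h2 j
  -- coordinate derivatives
  have dF0 : ∀ {p : E3 × ℂ}, DifferentiableAt ℂ (sl q p.2) (Fin.tail p.1) →
      coordDeriv (sl (sqF q) p.2) 0 p.1 = 2 * p.1 0 := fun h => coordDeriv_dsq_zero h
  have dFs : ∀ {p : E3 × ℂ}, DifferentiableAt ℂ (sl q p.2) (Fin.tail p.1) → ∀ k : Fin 2,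
      coordDeriv (sl (sqF q) p.2) k.succ p.1 = coordDeriv (sl q p.2) k (Fin.tail p.1) :=
    fun h k => coordDeriv_dsq_succ h k
  have dg : ∀ (x : E3) (i : Fin 3), coordDeriv (fun x : E3 => x 0) i x = if i = 0 then 1 else 0 := by
    intro x i
    have h1 : HasFDerivAt (fun x : E3 => x 0)
        (ContinuousLinearMap.proj (R := ℂ) (φ := fun _ : Fin 3 => ℂ) 0) x :=
      (ContinuousLinearMap.proj (R := ℂ) (φ := fun _ : Fin 3 => ℂ) 0).hasFDerivAt
    rw [coordDeriv, h1.fderiv]
    change (Pi.single i (1 : ℂ) : E3) 0 = _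
    rw [Pi.single_apply]
    simp [eq_comm]
  have dh : ∀ {p : E3 × ℂ}, DifferentiableAt ℂ (sl G p.2) (Fin.tail p.1) →
      coordDeriv (fun x : E3 => sl G p.2 (Fin.tail x)) 0 p.1 = 0 ∧ ∀ k : Fin 2,
        coordDeriv (fun x : E3 => sl G p.2 (Fin.tail x)) k.succ p.1 =
          coordDeriv (sl G p.2) k (Fin.tail p.1) := by
    intro p h
    have h3 : HasFDerivAt (sl G p.2) (fderiv ℂ (sl G p.2) (Fin.tail p.1)) (tl 2 p.1) :=
      h.hasFDerivAt
    have h4 : fderiv ℂ (fun x : E3 => sl G p.2 (Fin.tail x)) p.1 =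
        (fderiv ℂ (sl G p.2) (Fin.tail p.1)).comp (tl 2) :=
      (h3.comp p.1 (tl 2).hasFDerivAt).fderiv
    constructor
    · rw [coordDeriv, h4, ContinuousLinearMap.comp_apply, tl_single_zero, map_zero]
    · intro k
      rw [coordDeriv, h4, ContinuousLinearMap.comp_apply, tl_single_succ]
      rfl
  refine Flow_941.flow_three (E := E3) (F := sqF q) (g := fun p => p.1 0)
    (h := fun p => G (Fin.tail p.1, p.2)) hFan hgan hhan ?_ ?_ ?_ ?_
  · filter_upwards [hF.zero, hG0] with t h1 h2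
    refine ⟨?_, rfl, ?_⟩
    · change (0 : ℂ) ^ 2 + q (Fin.tail (0 : E3), t) = 0
      have : Fin.tail (0 : E3) = 0 := rfl
      rw [this, h1]; simp
    · change G (Fin.tail (0 : E3), t) = 0
      have : Fin.tail (0 : E3) = 0 := rfl
      rw [this, h2]
  · filter_upwards [hqd, hiso] with p h1 h2 hp
    refine fderiv_ne (f := sl (sqF q) p.2) fun hall => hp ?_
    have e0 := hall 0
    rw [dF0 h1] at e0
    refine hx0 p (by simpa using e0) (h2 fun k => ?_)
    rw [← dFs h1]; exact hall k.succ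
  · filter_upwards [hqd, hiso, hq0] with p h1 h2 h3 hp hFp
    refine li2 (f := sl (sqF q) p.2) (g := fun x : E3 => x 0) ?_
    by_contra hcon
    push Not at hcon
    obtain ⟨-, c2, c3⟩ := hcon
    simp only [Defs_219.gr, dg] at c2 c3
    have e1 : coordDeriv (sl (sqF q) p.2) 1 p.1 = 0 := by simpa using c3
    have e2 : coordDeriv (sl (sqF q) p.2) 2 p.1 = 0 := by simpa using c2
    have ht : Fin.tail p.1 = 0 := by
      refine h2 fun k => ?_
      rw [← dFs h1]
      fin_cases k
      · exact e1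
      · exact e2
    have h5 : p.1 0 ^ 2 + q (Fin.tail p.1, p.2) = 0 := hFp
    rw [ht, h3, add_zero] at h5
    exact hp (hx0 p (by simpa using h5) ht)
  · filter_upwards [hqd, hGd, hfl'] with p h1 h2 h3 hp hFp hg
    have hg' : p.1 0 = 0 := hg
    have ht : Fin.tail p.1 ≠ 0 := fun ht => hp (hx0 p hg' ht)
    have h5 : p.1 0 ^ 2 + q (Fin.tail p.1, p.2) = 0 := hFp
    rw [hg'] at h5
    have h6 : q (Fin.tail p.1, p.2) = 0 := by simpa using h5
    obtain ⟨k1, k2⟩ := h3 ht h6
    refine ⟨k1, li3 (f := sl (sqF q) p.2) (g := fun x : E3 => x 0)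
      (h := fun x : E3 => sl G p.2 (Fin.tail x)) ?_⟩
    obtain ⟨dh0, dhs⟩ := dh h2
    have a1 : coordDeriv (sl (sqF q) p.2) 1 p.1 = coordDeriv (sl q p.2) 0 (Fin.tail p.1) := dFs h1 0
    have a2 : coordDeriv (sl (sqF q) p.2) 2 p.1 = coordDeriv (sl q p.2) 1 (Fin.tail p.1) := dFs h1 1
    have b1 : coordDeriv (fun x : E3 => sl G p.2 (Fin.tail x)) 1 p.1 =
      coordDeriv (sl G p.2) 0 (Fin.tail p.1) := dhs 0
    have b2 : coordDeriv (fun x : E3 => sl G p.2 (Fin.tail x)) 2 p.1 =
      coordDeriv (sl G p.2) 1 (Fin.tail p.1) := dhs 1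
    rw [Dt_eq]
    simp only [dg, a1, a2, b1, b2, dh0]
    intro hz
    apply k2
    have h10 : ¬ ((1 : Fin 3) = 0) := by decide
    have h20 : ¬ ((2 : Fin 3) = 0) := by decide
    rw [if_neg h10, if_neg h20] at hz
    simp only [if_true] at hz
    linear_combination hz
where
  UI_slice {G : E2 × ℂ → ℂ} {p : E2 × ℂ} (h : AnalyticAt ℂ G p) :
      AnalyticAt ℂ (sl G p.2) p.1 := by
    have : AnalyticAt ℂ (fun x : E2 => ((x, p.2) : E2 × ℂ)) p.1 :=
      analyticAt_id.prod analyticAt_const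
    exact AnalyticAt.fun_comp (f := fun x : E2 => ((x, p.2) : E2 × ℂ)) (g := G) (by simpa using h)
      this

/-! ### generic linear coordinates -/

/-- the shear as a continuous linear equivalence of `ℂ × ℂ` -/
def shearL (s : ℂ) : (ℂ × ℂ) ≃L[ℂ] (ℂ × ℂ) :=
  { toFun := shear s
    invFun := shear (-s)
    left_inv := fun p => by simp [shear]
    right_inv := fun p => by simp [shear]
    map_add' := fun p q => by simp only [shear, Prod.fst_add, Prod.snd_add, Prod.mk_add_mk]; ring_nf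
    map_smul' := fun c p => by
      simp only [shear, Prod.smul_fst, Prod.smul_snd, smul_eq_mul, RingHom.id_apply, Prod.smul_mk]
      ring_nf
    continuous_toFun := by unfold shear; fun_prop
    continuous_invFun := by unfold shear; fun_prop }

/-- the shear of `Fin 2 → ℂ` -/
def L2 (s : ℂ) : E2 ≃L[ℂ] E2 := psiL.symm.trans ((shearL s).trans psiL)

lemma L2_psi (s : ℂ) (p : ℂ × ℂ) : L2 s (psi p) = psi (shear s p) := rfl

/-- the shear of `Fin 3 → ℂ` fixing the first coordinate -/
def L3 (L : E2 ≃L[ℂ] E2) : E3 ≃L[ℂ] E3 :=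
  { toFun := fun v => Fin.cons (v 0) (L (Fin.tail v))
    invFun := fun v => Fin.cons (v 0) (L.symm (Fin.tail v))
    left_inv := fun v => by
      change (Fin.cons _ (L.symm (L (Fin.tail v))) : E3) = v
      rw [L.symm_apply_apply]; exact Fin.cons_self_tail v
    right_inv := fun v => by
      change (Fin.cons _ (L (L.symm (Fin.tail v))) : E3) = v
      rw [L.apply_symm_apply]; exact Fin.cons_self_tail v
    map_add' := fun v w => by
      have h : Fin.tail (v + w) = Fin.tail v + Fin.tail w := rfl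
      ext i
      refine Fin.cases ?_ (fun j => ?_) i
      · rfl
      · change L (Fin.tail (v + w)) j = (L (Fin.tail v) + L (Fin.tail w)) j
        rw [h, map_add]
    map_smul' := fun c v => by
      have h : Fin.tail (c • v) = c • Fin.tail v := rfl
      ext i
      refine Fin.cases ?_ (fun j => ?_) i
      · rfl
      · change L (Fin.tail (c • v)) j = (c • L (Fin.tail v)) j
        rw [h, map_smul]
    continuous_toFun := by
      refine continuous_pi fun i => ?_
      refine Fin.cases (continuous_apply 0) (fun j => ?_) i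
      exact (continuous_apply j).comp (L.continuous.comp (LCd_472.tl 2).continuous)
    continuous_invFun := by
      refine continuous_pi fun i => ?_
      refine Fin.cases (continuous_apply 0) (fun j => ?_) i
      exact (continuous_apply j).comp (L.symm.continuous.comp (LCd_472.tl 2).continuous) }

/-- **plane curves** -/
theorem n2Stmt_of (ot : OT2Stmt) : N2Stmt := by
  intro q μ hF
  have han : AnalyticAt ℂ (sl q 0) 0 := analyticAt_sl hF.an
  -- the germ is not zero
  have hne : gm (two (sl q 0)) (an_two han) ≠ 0 := by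
    intro h0
    have hrel := (par_two han).1.1 hF.fin.self_of_nhds.1
    rw [gm_eq_zero] at h0
    have h1 : ∀ᶠ p in 𝓝 o2, fderiv ℂ (two (sl q 0)) p = 0 := by
      filter_upwards [h0.eventually_nhds] with p hp
      have : two (sl q 0) =ᶠ[𝓝 p] fun _ => 0 := hp
      rw [this.fderiv_eq]; simp
    have h2 : gm (dY (two (sl q 0))) (an_dY (an_two han)) = 0 := by
      rw [gm_eq_zero]; filter_upwards [h1] with p hp; rw [dY, hp]; rfl
    have h3 : gm (dX (two (sl q 0))) (an_dX (an_two han)) = 0 := by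
      rw [gm_eq_zero]; filter_upwards [h1] with p hp; rw [dX, hp]; rfl
    rw [h2, h3, isRelPrime_zero_left] at hrel
    exact not_isUnit_zero hrel
  obtain ⟨m, s, hm, hr⟩ := exists_shear hne
  have hF' := LCf_472.Fam.linear hF (L2 s)
  have han' : AnalyticAt ℂ (sl (fun p : E2 × ℂ => q (L2 s p.1, p.2)) 0) 0 := analyticAt_sl hF'.an
  have hg : gm (two (sl (fun p : E2 × ℂ => q (L2 s p.1, p.2)) 0)) (an_two han') =
      shR s (gm (two (sl q 0)) (an_two han)) := rfl
  have hfl := flag_generic ot hF' han' (by rw [hg]; exact hm) (by rw [hg]; exact hr)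
  have hC := concl_of_flag hF' hfl
  exact LCf_472.concl_linear (L3 (L2 s)) hC

end Crest.Agent.R257.N2_328
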