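import Crest.Agent.R257.NS0c_554
import Crest.Agent.R257.XFDefs_157

/-!
Row 257 (S0395), leaf NS0 (helper554): literal form of `IsoFinStmt`.
-/

set_option autoImplicit false

open Filter Topology

namespace Crest.Agent.R257.NS0554

open Crest.Agent.R257.Defs_219

theorem isoFinStmt : XF_157.IsoFinStmt := fun _ hG hiso => (colFin_iff_isolated hG).2 hiso

end Crest.Agent.R257.NS0554
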