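import Mathlib

/-!
Row 257 (S0395), leaf NS0, part a (helper554): the norm of a generic combination of polynomials
modulo a monic polynomial.
-/

set_option autoImplicit false

open Polynomial

noncomputable section

namespace Crest.Agent.R257.NS0554

/-- matrix of multiplication by `g` modulo `p` in the basis `1, X, …, X^(d-1)` -/
def mulMat {S : Type*} [CommRing S] (p g : S[X]) (d : ℕ) : Matrix (Fin d) (Fin d) S :=
  Matrix.of fun a b => ((X ^ (b : ℕ) * g) %ₘ p).coeff a

lemma mulMat_map {S T : Type*} [CommRing S] [CommRing T] (f : S →+* T) {p g : S[X]}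
    (hp : p.Monic) (d : ℕ) :
    (mulMat p g d).map f = mulMat (p.map f) (g.map f) d := by
  ext a b
  rw [Matrix.map_apply, mulMat, mulMat, Matrix.of_apply, Matrix.of_apply, ← coeff_map,
    map_modByMonic f hp, Polynomial.map_mul, Polynomial.map_pow, map_X]

lemma natDegree_lt_iff_degree_lt_aux {S : Type*} [CommRing S] {q : S[X]} {d : ℕ} (h0 : d ≠ 0) :
    q.degree < d ↔ q.natDegree < d := by
  by_cases hq : q = 0
  · subst hq
    simp only [degree_zero, natDegree_zero]
    exact ⟨fun _ => Nat.pos_of_ne_zero h0, fun _ => WithBot.bot_lt_coe d⟩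
  · exact (natDegree_lt_iff_degree_lt hq).symm

lemma mulMat_sum {S : Type*} [CommRing S] {ι : Type*} (s : Finset ι) {p : S[X]}
    (c : ι → S) (r : ι → S[X]) (d : ℕ) :
    mulMat p (∑ j ∈ s, C (c j) * r j) d = ∑ j ∈ s, c j • mulMat p (r j) d := by
  ext a b
  rw [Matrix.sum_apply, mulMat, Matrix.of_apply, Finset.mul_sum]
  have h1 : (∑ j ∈ s, X ^ (b : ℕ) * (C (c j) * r j)) %ₘ p =
      ∑ j ∈ s, c j • ((X ^ (b : ℕ) * r j) %ₘ p) := by
    have h2 : ∀ q : S[X], q %ₘ p = modByMonicHom p q := fun q => rfl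
    rw [h2, map_sum]
    refine Finset.sum_congr rfl (fun j _ => ?_)
    have h3 : X ^ (b : ℕ) * (C (c j) * r j) = c j • (X ^ (b : ℕ) * r j) := by
      rw [smul_eq_C_mul]; ring
    rw [h3, map_smul]
    rfl
  rw [h1, finsetSum_coeff]
  refine Finset.sum_congr rfl (fun j _ => ?_)
  rw [coeff_smul]
  rfl

/-- the defining relation -/
lemma mulMat_spec {S : Type*} [CommRing S] [Nontrivial S] {p g : S[X]} (hp : p.Monic) {d : ℕ}
    (hd : p.natDegree = d) (b : Fin d) :
    ∃ q : S[X], X ^ (b : ℕ) * g = p * q + ∑ a : Fin d, C (mulMat p g d a b) * X ^ (a : ℕ) := by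
  refine ⟨(X ^ (b : ℕ) * g) /ₘ p, ?_⟩
  have h1 := modByMonic_add_div (X ^ (b : ℕ) * g) p
  have h2 : (X ^ (b : ℕ) * g) %ₘ p =
      ∑ a : Fin d, C (mulMat p g d a b) * X ^ (a : ℕ) := by
    have hdeg : ((X ^ (b : ℕ) * g) %ₘ p).degree < d := by
      have := degree_modByMonic_lt (X ^ (b : ℕ) * g) hp
      rwa [degree_eq_natDegree hp.ne_zero, hd] at this
    by_cases h0 : d = 0
    · subst h0
      have : (X ^ (b : ℕ) * g) %ₘ p = 0 := by
        rw [← degree_eq_bot]
        by_contra hne
        rw [degree_eq_natDegree (fun h => hne (by rw [h, degree_zero]))] at hdeg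
        norm_cast at hdeg
      rw [this]; simp
    · have hnd : ((X ^ (b : ℕ) * g) %ₘ p).natDegree < d := by
        rw [← natDegree_lt_iff_degree_lt_aux h0]
        exact hdeg
      conv_lhs => rw [as_sum_range' _ d hnd]
      rw [Finset.sum_range]
      refine Finset.sum_congr rfl (fun a _ => ?_)
      rw [← C_mul_X_pow_eq_monomial]
      rfl
  rw [← h2]
  conv_lhs => rw [← h1]
  ring

/-- the norm lies in the ideal -/
lemma det_mem {S B : Type*} [CommRing S] [Nontrivial S] [CommRing B] (φ : S[X] →+* B)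
    (I : Ideal B) {p g : S[X]} (hp : p.Monic) {d : ℕ} (hd : p.natDegree = d)
    (hpI : φ p ∈ I) (hgI : φ g ∈ I) : φ (C (mulMat p g d).det) ∈ I := by
  set π := (Ideal.Quotient.mk I).comp φ with hπ
  have hπp : π p = 0 := Ideal.Quotient.eq_zero_iff_mem.2 hpI
  have hπg : π g = 0 := Ideal.Quotient.eq_zero_iff_mem.2 hgI
  suffices h : π (C (mulMat p g d).det) = 0 from Ideal.Quotient.eq_zero_iff_mem.1 h
  rcases Nat.eq_zero_or_pos d with rfl | hd0
  · have : p = 1 := hp.natDegree_eq_zero.1 hd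
    rw [this, map_one] at hπp
    have h2 : ∀ x : B ⧸ I, x = 0 := fun x => by rw [← one_mul x, hπp, zero_mul]
    exact h2 _
  -- the vector of powers
  set ψ : S →+* B ⧸ I := π.comp C with hψ
  set w : Fin d → B ⧸ I := fun a => π X ^ (a : ℕ) with hw
  have h1 : Matrix.vecMul w ((mulMat p g d).map ψ) = 0 := by
    funext b
    obtain ⟨q, hq⟩ := mulMat_spec (g := g) hp hd b
    have h3 := congrArg π hq
    rw [map_mul, map_add, map_mul, hπp, hπg, mul_zero, zero_mul, zero_add, map_sum] at h3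
    rw [Pi.zero_apply, h3, Matrix.vecMul, dotProduct]
    refine Finset.sum_congr rfl (fun a _ => ?_)
    rw [map_mul, map_pow, Matrix.map_apply, mul_comm]
    rfl
  have h2 : Matrix.vecMul w (((mulMat p g d).map ψ) * ((mulMat p g d).map ψ).adjugate) = 0 := by
    rw [← Matrix.vecMul_vecMul, h1, Matrix.zero_vecMul]
  rw [Matrix.mul_adjugate, Matrix.vecMul_smul, Matrix.vecMul_one] at h2
  have h3 := congrFun h2 ⟨0, hd0⟩
  rw [Pi.smul_apply, Pi.zero_apply, smul_eq_mul] at h3
  have h4 : w ⟨0, hd0⟩ = 1 := by simp [hw]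
  rw [h4, mul_one] at h3
  have h5 : ((mulMat p g d).map ψ).det = ψ (mulMat p g d).det := (RingHom.map_det ψ _).symm
  rw [h5] at h3
  exact h3

section field

variable {p : ℂ[X]} {d : ℕ}

/-- the norm of a polynomial without zero on the roots is nonzero -/
lemma det_ne_zero (hp : p.Monic) (hd : p.natDegree = d) {g : ℂ[X]}
    (hg : ∀ w, p.IsRoot w → g.eval w ≠ 0) : (mulMat p g d).det ≠ 0 := by
  intro h0
  obtain ⟨c, hc, hc0⟩ := Matrix.exists_mulVec_eq_zero_iff.2 h0
  set h : ℂ[X] := ∑ b : Fin d, C (c b) * X ^ (b : ℕ) with hh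
  have h1 : p ∣ h * g := by
    rw [← modByMonic_eq_zero_iff_dvd hp]
    have h2 : (h * g) %ₘ p = ∑ b : Fin d, c b • ((X ^ (b : ℕ) * g) %ₘ p) := by
      have h2 : ∀ q : ℂ[X], q %ₘ p = modByMonicHom p q := fun q => rfl
      rw [h2, hh, Finset.sum_mul, map_sum]
      refine Finset.sum_congr rfl (fun b _ => ?_)
      have h3 : C (c b) * X ^ (b : ℕ) * g = c b • (X ^ (b : ℕ) * g) := by
        rw [smul_eq_C_mul]; ring
      rw [h3, map_smul]
      rfl
    rw [h2]
    ext a
    rw [finsetSum_coeff, coeff_zero]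
    by_cases ha : a < d
    · have h3 := congrFun hc0 ⟨a, ha⟩
      rw [Matrix.mulVec, dotProduct, Pi.zero_apply] at h3
      rw [← h3]
      refine Finset.sum_congr rfl (fun b _ => ?_)
      rw [coeff_smul, smul_eq_mul, mul_comm]
      rfl
    · refine Finset.sum_eq_zero (fun b _ => ?_)
      rw [coeff_smul, smul_eq_mul, coeff_eq_zero_of_degree_lt, mul_zero]
      have := degree_modByMonic_lt (X ^ (b : ℕ) * g) hp
      rw [degree_eq_natDegree hp.ne_zero, hd] at this
      refine this.trans_le ?_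
      exact_mod_cast not_lt.1 ha
  have hcop : IsCoprime p g := by
    rw [← EuclideanDomain.gcd_isUnit_iff]
    by_contra hu
    have hdeg : (EuclideanDomain.gcd p g).degree ≠ 0 := by
      intro hz
      refine hu (isUnit_iff_degree_eq_zero.2 hz)
    obtain ⟨w, hw⟩ := IsAlgClosed.exists_root _ hdeg
    have hw1 : p.IsRoot w := hw.dvd (EuclideanDomain.gcd_dvd_left p g)
    have hw2 : g.IsRoot w := hw.dvd (EuclideanDomain.gcd_dvd_right p g)
    exact hg w hw1 hw2
  have h4 : p ∣ h := hcop.dvd_of_dvd_mul_right h1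
  have h5 : h = 0 := by
    by_contra hne
    have h6 := degree_le_of_dvd h4 hne
    have h7 : h.degree < d := by
      refine (degree_sum_le _ _).trans_lt ?_
      rw [Finset.sup_lt_iff (by exact WithBot.bot_lt_coe d)]
      intro b _
      refine (degree_C_mul_X_pow_le _ _).trans_lt ?_
      exact_mod_cast b.2
    rw [degree_eq_natDegree hp.ne_zero, hd] at h6
    exact absurd h7 (not_lt.2 h6)
  refine hc ?_
  funext b
  have h8 := congrArg (fun q => q.coeff (b : ℕ)) h5
  simp only [hh, finsetSum_coeff, coeff_C_mul, coeff_X_pow, coeff_zero] at h8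
  rw [Finset.sum_eq_single b] at h8
  · simpa using h8
  · intro b' _ hb'
    rw [if_neg (fun h => hb' (Fin.ext h.symm)), mul_zero]
  · intro h; exact absurd (Finset.mem_univ b) h

/-- a combination with no common zero -/
lemma exists_comb (hp : p.Monic) (hd : p.natDegree = d) {m : ℕ} (r : Fin m → ℂ[X])
    (hr : ∀ w, p.IsRoot w → ∃ j, (r j).eval w ≠ 0) :
    ∃ s ∈ Finset.range (d * m + 1), ∀ w, p.IsRoot w →
      (∑ j : Fin m, C ((s : ℂ) ^ (j : ℕ)) * r j).eval w ≠ 0 := by
  classical
  set T : ℂ → ℂ[X] := fun w => ∑ j : Fin m, C ((r j).eval w) * X ^ (j : ℕ) with hT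
  have hT0 : ∀ w, p.IsRoot w → T w ≠ 0 := by
    intro w hw h0
    obtain ⟨j, hj⟩ := hr w hw
    refine hj ?_
    have h8 := congrArg (fun q => q.coeff (j : ℕ)) h0
    simp only [hT, finsetSum_coeff, coeff_C_mul, coeff_X_pow, coeff_zero] at h8
    rw [Finset.sum_eq_single j] at h8
    · simpa using h8
    · intro b' _ hb'
      rw [if_neg (fun h => hb' (Fin.ext h.symm)), mul_zero]
    · intro h; exact absurd (Finset.mem_univ j) h
  have hTd : ∀ w, (T w).natDegree ≤ m := by
    intro w
    refine natDegree_sum_le_of_forall_le _ _ (fun j _ => ?_)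
    exact (natDegree_C_mul_X_pow_le _ _).trans j.2.le
  set Q : ℂ[X] := ∏ w ∈ p.roots.toFinset, T w with hQ
  have hQ0 : Q ≠ 0 := by
    rw [hQ, Finset.prod_ne_zero_iff]
    intro w hw
    refine hT0 w ?_
    rw [Multiset.mem_toFinset, mem_roots hp.ne_zero] at hw
    exact hw
  have hQd : Q.natDegree ≤ d * m := by
    rw [hQ]
    refine (natDegree_prod_le _ _).trans ?_
    refine (Finset.sum_le_card_nsmul _ _ m (fun w _ => hTd w)).trans ?_
    rw [smul_eq_mul]
    refine Nat.mul_le_mul_right _ ?_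
    refine (Multiset.toFinset_card_le _).trans ?_
    rw [← hd]
    exact card_roots' p
  obtain ⟨s, hs, hsQ⟩ : ∃ s ∈ Finset.range (d * m + 1), Q.eval (s : ℂ) ≠ 0 := by
    by_contra hcon
    push Not at hcon
    refine hQ0 (eq_zero_of_natDegree_lt_card_of_eval_eq_zero' Q
      ((Finset.range (d * m + 1)).image (fun s : ℕ => (s : ℂ))) ?_ ?_)
    · intro z hz
      obtain ⟨s, hs, rfl⟩ := Finset.mem_image.1 hz
      exact hcon s hs
    · rw [Finset.card_image_of_injective _ Nat.cast_injective, Finset.card_range]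
      omega
  refine ⟨s, hs, fun w hw => ?_⟩
  rw [hQ, eval_prod, Finset.prod_ne_zero_iff] at hsQ
  have h9 := hsQ w (by rw [Multiset.mem_toFinset, mem_roots hp.ne_zero]; exact hw)
  simp only [hT, eval_finsetSum, eval_mul, eval_C, eval_pow, eval_X] at h9
  simp only [eval_finsetSum, eval_mul, eval_C]
  intro h10
  refine h9 ?_
  rw [← h10]
  exact Finset.sum_congr rfl (fun j _ => by ring)

/-- if all the norms vanish, there is a common root -/
theorem common_root (hp : p.Monic) (hd : p.natDegree = d) {m : ℕ} (r : Fin m → ℂ[X])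
    (h : ∀ s ∈ Finset.range (d * m + 1),
      (mulMat p (∑ j : Fin m, C ((s : ℂ) ^ (j : ℕ)) * r j) d).det = 0) :
    ∃ w, p.IsRoot w ∧ ∀ j, (r j).eval w = 0 := by
  by_contra hcon
  push Not at hcon
  obtain ⟨s, hs, hs'⟩ := exists_comb hp hd r hcon
  exact det_ne_zero hp hd hs' (h s hs)

end field

end Crest.Agent.R257.NS0554
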