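import Crest.Agent.R257.NS0a_554
import Crest.Agent.R257.Uni2_554

/-!
Row 257 (S0395), leaf NS0, part b (helper554): elimination of one variable. Germs with an isolated
common zero in `E × ℂ`, one of them regular in the last variable, have norms in the base ring with
an isolated common zero.
-/

set_option autoImplicit false

open Set Filter Topology
open Crest.Agent.R275.Loc2879
open scoped Polynomial

noncomputable section

namespace Crest.Agent.R257.NS0554

universe u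

variable {E : Type u} [NormedAddCommGroup E] [NormedSpace ℂ E]

/-- functions analytic at `z₀` -/
def SS (z₀ : E) : Subring (E → ℂ) where
  carrier := {f | AnalyticAt ℂ f z₀}
  mul_mem' := fun hf hg => AnalyticAt.mul hf hg
  one_mem' := analyticAt_const
  add_mem' := fun hf hg => AnalyticAt.add hf hg
  zero_mem' := analyticAt_const
  neg_mem' := fun hf => AnalyticAt.neg hf

/-- the germ -/
def toO (z₀ : E) : SS z₀ →+* OO z₀ where
  toFun f := gm f.1 f.2
  map_one' := rfl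
  map_mul' _ _ := rfl
  map_zero' := rfl
  map_add' _ _ := rfl

lemma toO_surj (z₀ : E) : Function.Surjective (toO z₀) := by
  intro x
  obtain ⟨f, hf, rfl⟩ := exists_gm x
  exact ⟨⟨f, hf⟩, rfl⟩

/-- the value -/
def evy (z₀ : E) (y : E) : SS z₀ →+* ℂ where
  toFun f := f.1 y
  map_one' := rfl
  map_mul' _ _ := rfl
  map_zero' := rfl
  map_add' _ _ := rfl

instance (z₀ : E) : Nontrivial (SS z₀) := (evy z₀ z₀).domain_nontrivial

variable {z₀ : E}

lemma ev_toO (Q : (SS z₀)[X]) :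
    ∃ h, ev z₀ (Q.map (toO z₀)) =
      gm (p := ((z₀, (0 : ℂ)) : E × ℂ)) (fun p => (Q.map (evy z₀ p.1)).eval p.2) h := by
  induction Q using Polynomial.induction_on' with
  | add p q hp hq =>
    obtain ⟨h1, e1⟩ := hp
    obtain ⟨h2, e2⟩ := hq
    refine ⟨by simpa using h1.fun_add h2, ?_⟩
    rw [Polynomial.map_add, map_add, e1, e2, gm_add, gm_eq_gm]
    exact Eventually.of_forall (fun p => by simp)
  | monomial n a =>
    have h1 : AnalyticAt ℂ (fun p : E × ℂ => a.1 p.1 * p.2 ^ n) (z₀, 0) := by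
      have h2 : AnalyticAt ℂ (fun p : E × ℂ => a.1 p.1) (z₀, 0) :=
        AnalyticAt.comp (g := a.1) (f := Prod.fst) a.2 analyticAt_fst
      exact h2.mul (analyticAt_snd.pow n)
    have e0 : (fun p : E × ℂ => ((Polynomial.monomial n a).map (evy z₀ p.1)).eval p.2) =
        fun p => a.1 p.1 * p.2 ^ n := by
      funext p
      rw [Polynomial.map_monomial, Polynomial.eval_monomial]
      rfl
    refine ⟨by rw [e0]; exact h1, ?_⟩
    rw [Polynomial.map_monomial, ← Polynomial.C_mul_X_pow_eq_monomial, map_mul, map_pow]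
    have e1 : ev z₀ (Polynomial.C (toO z₀ a)) = iot z₀ (toO z₀ a) := by
      simp [ev]
    have e2 : ev z₀ Polynomial.X = Wv z₀ := by simp [ev]
    rw [e1, e2]
    have e3 : iot z₀ (toO z₀ a) * Wv z₀ ^ n = gm (p := ((z₀, (0 : ℂ)) : E × ℂ))
      (fun p => a.1 p.1 * p.2 ^ n) h1 := by
      rw [Wv, gm_pow]
      rfl
    rw [e3, gm_eq_gm]
    exact Eventually.of_forall (fun p => (congrFun e0 p).symm)

/-- the roots tend to zero -/
lemma roots_small {P : (SS z₀)[X]} (hP : P.Monic) {d : ℕ} (hd : P.natDegree = d)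
    (h0 : ∀ i < d, (P.coeff i).1 z₀ = 0) {ρ : ℝ} (hρ : 0 < ρ) :
    ∀ᶠ y in 𝓝 z₀, ∀ w, (P.map (evy z₀ y)).IsRoot w → ‖w‖ < ρ := by
  have h1 : ∀ᶠ y in 𝓝 z₀, ∀ i ∈ Finset.range d, ‖(P.coeff i).1 y‖ < ρ ^ (d - i) / (d + 1) := by
    rw [Filter.eventually_all_finset]
    intro i hi
    have hc : ContinuousAt (fun y => ‖(P.coeff i).1 y‖) z₀ := (P.coeff i).2.continuousAt.norm
    refine hc.eventually_lt continuousAt_const ?_
    rw [h0 i (Finset.mem_range.1 hi), norm_zero]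
    positivity
  filter_upwards [h1] with y hy w hw
  by_contra hcon
  push Not at hcon
  have hw0 : 0 < ‖w‖ := hρ.trans_le hcon
  have hPy : (P.map (evy z₀ y)).Monic := hP.map _
  have hdy : (P.map (evy z₀ y)).natDegree = d := by rw [hP.natDegree_map, hd]
  have h2 : w ^ d = -∑ i ∈ Finset.range d, (P.coeff i).1 y * w ^ i := by
    have h3 : (P.map (evy z₀ y)).eval w = 0 := hw
    rw [Polynomial.eval_eq_sum_range, hdy, Finset.sum_range_succ] at h3
    have h4 : (P.map (evy z₀ y)).coeff d = 1 := by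
      rw [← hdy]; exact hPy.coeff_natDegree
    rw [h4, one_mul] at h3
    have h5 : ∀ i, (P.map (evy z₀ y)).coeff i = (P.coeff i).1 y := fun i => by
      rw [Polynomial.coeff_map]; rfl
    simp only [h5] at h3
    linear_combination h3
  have h6 : ‖w‖ ^ d ≤ ∑ i ∈ Finset.range d, ‖w‖ ^ d / (d + 1) := by
    have h60 : ‖w‖ ^ d ≤ ∑ i ∈ Finset.range d, ‖(P.coeff i).1 y * w ^ i‖ := by
      rw [← norm_pow, h2, norm_neg]
      exact norm_sum_le _ _
    refine h60.trans (Finset.sum_le_sum (fun i hi => ?_))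
    have hid : i < d := Finset.mem_range.1 hi
    rw [norm_mul, norm_pow]
    have h7 : ρ ^ (d - i) ≤ ‖w‖ ^ (d - i) := pow_le_pow_left₀ hρ.le hcon _
    have h8 : ‖w‖ ^ d = ‖w‖ ^ (d - i) * ‖w‖ ^ i := by
      rw [← pow_add, Nat.sub_add_cancel hid.le]
    calc ‖(P.coeff i).1 y‖ * ‖w‖ ^ i ≤ ρ ^ (d - i) / (d + 1) * ‖w‖ ^ i :=
          mul_le_mul_of_nonneg_right (hy i hi).le (by positivity)
      _ ≤ ‖w‖ ^ (d - i) / (d + 1) * ‖w‖ ^ i := by gcongr
      _ = ‖w‖ ^ d / (d + 1) := by rw [h8]; ring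
  rw [Finset.sum_const, Finset.card_range, nsmul_eq_mul] at h6
  have h9 : 0 < ‖w‖ ^ d := by positivity
  have h10 : (d : ℝ) * (‖w‖ ^ d / (d + 1)) < ‖w‖ ^ d := by
    rw [← mul_div_assoc, div_lt_iff₀ (by positivity)]
    nlinarith
  linarith

/-- **elimination** -/
theorem elim (I : Ideal (OO ((z₀, (0 : ℂ)) : E × ℂ))) {f : OO ((z₀, (0 : ℂ)) : E × ℂ)}
    [FiniteDimensional ℂ E] (hf : f ∈ I) {d : ℕ} (hreg : Reg f d) {m : ℕ}
    (G : Fin m → E × ℂ → ℂ) (hG : ∀ j, AnalyticAt ℂ (G j) (z₀, 0))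
    (hGI : ∀ j, gm (G j) (hG j) ∈ I)
    (hiso : ∀ᶠ p in 𝓝 ((z₀, 0) : E × ℂ), (∀ j, G j p = 0) → p = (z₀, 0)) :
    ∃ (M : ℕ) (D : Fin M → E → ℂ) (hD : ∀ s, AnalyticAt ℂ (D s) z₀),
      (∀ s, iot z₀ (gm (D s) (hD s)) ∈ I) ∧
      ∀ᶠ y in 𝓝 z₀, (∀ s, D s y = 0) → y = z₀ := by
  obtain ⟨P, u, hPm, hPd, hfP, hPc⟩ := wprep hreg
  have hPI : ev z₀ P ∈ I := by
    have : ev z₀ P = (u⁻¹ : (OO ((z₀, (0 : ℂ)) : E × ℂ))ˣ) * f := by
      rw [hfP, ← mul_assoc, Units.inv_mul, one_mul]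
    rw [this]
    exact I.mul_mem_left _ hf
  have hregP : Reg (ev z₀ P) d := by
    rw [hfP] at hreg
    exact Reg.of_unit_mul' u hreg
  -- lifts
  obtain ⟨P', hP', hPd', hPm'⟩ := Polynomial.lifts_and_natDegree_eq_and_monic
    (f := toO z₀) (p := P) ((Polynomial.mem_lifts P).2 (Polynomial.map_surjective _ (toO_surj z₀) P))
    hPm
  rw [hPd] at hPd'
  choose q r hr hGr using fun j => div_exists_poly hregP (gm (G j) (hG j))
  choose r' hr' using fun j => Polynomial.map_surjective _ (toO_surj z₀) (r j)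
  set g : ℕ → (SS z₀)[X] := fun s => ∑ j : Fin m, Polynomial.C ((s : SS z₀) ^ (j : ℕ)) * r' j
    with hg
  set φ : (SS z₀)[X] →+* OO ((z₀, (0 : ℂ)) : E × ℂ) :=
    (ev z₀).comp (Polynomial.mapRingHom (toO z₀)) with hφ
  have hφP : φ P' ∈ I := by
    change ev z₀ (P'.map (toO z₀)) ∈ I
    rw [hP']; exact hPI
  have hφr : ∀ j, φ (r' j) ∈ I := by
    intro j
    change ev z₀ ((r' j).map (toO z₀)) ∈ I
    rw [hr']
    have h1 : ev z₀ (r j) = gm (G j) (hG j) - q j * ev z₀ P := by rw [hGr j]; ring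
    rw [h1]
    exact I.sub_mem (hGI j) (I.mul_mem_left _ hPI)
  have hφg : ∀ s, φ (g s) ∈ I := by
    intro s
    rw [hg, map_sum]
    refine Ideal.sum_mem _ (fun j _ => ?_)
    rw [map_mul]
    exact I.mul_mem_left _ (hφr j)
  refine ⟨d * m + 1, fun s => ((mulMat P' (g s) d).det : SS z₀).1,
    fun s => ((mulMat P' (g s) d).det : SS z₀).2, fun s => ?_, ?_⟩
  · have h1 := det_mem φ I hPm' hPd' hφP (hφg s)
    have h2 : φ (Polynomial.C (mulMat P' (g s) d).det) =
        iot z₀ (toO z₀ (mulMat P' (g s) d).det) := by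
      change ev z₀ ((Polynomial.C (mulMat P' (g s) d).det).map (toO z₀)) = _
      rw [Polynomial.map_C]
      simp [ev]
    rw [h2] at h1
    exact h1
  -- the relations as functions
  have hrel : ∀ᶠ p in 𝓝 ((z₀, 0) : E × ℂ), ∀ j, (P'.map (evy z₀ p.1)).eval p.2 = 0 →
      ((r' j).map (evy z₀ p.1)).eval p.2 = 0 → G j p = 0 := by
    rw [Filter.eventually_all]
    intro j
    obtain ⟨Q, hQ, hQq⟩ := exists_gm (q j)
    obtain ⟨a1, e1⟩ := ev_toO P'
    obtain ⟨a2, e2⟩ := ev_toO (r' j)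
    have h1 := hGr j
    rw [← hr' j, e2, ← hP', e1, ← hQq, gm_mul, gm_add, gm_eq_gm] at h1
    filter_upwards [h1] with p hp h2 h3
    rw [hp]
    simp only [Pi.add_apply, Pi.mul_apply, h2, h3, mul_zero, add_zero]
  have hall := hiso.and hrel
  rw [nhds_prod_eq] at hall
  obtain ⟨pa, hpa, pb, hpb, hab⟩ := Filter.eventually_prod_iff.1 hall
  obtain ⟨ρ, hρ, hρb⟩ := Metric.eventually_nhds_iff.1 hpb
  have h0 : ∀ i < d, (P'.coeff i).1 z₀ = 0 := by
    intro i hi
    have h1 := hPc i hi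
    rw [← hP', Polynomial.coeff_map] at h1
    exact h1
  filter_upwards [hpa, roots_small hPm' hPd' h0 hρ] with y hy hroots hD
  obtain ⟨w, hw, hwr⟩ := common_root (p := P'.map (evy z₀ y)) (d := d) (hPm'.map _)
    (by rw [hPm'.natDegree_map, hPd']) (fun j => (r' j).map (evy z₀ y)) (by
      intro s hs
      have h1 : (evy z₀ y) (mulMat P' (g s) d).det = 0 := hD ⟨s, Finset.mem_range.1 hs⟩
      rw [RingHom.map_det] at h1
      have h2 : (evy z₀ y).mapMatrix (mulMat P' (g s) d) =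
          mulMat (P'.map (evy z₀ y)) ((g s).map (evy z₀ y)) d := mulMat_map _ hPm' d
      rw [h2] at h1
      have h3 : (g s).map (evy z₀ y) =
          ∑ j : Fin m, Polynomial.C ((s : ℂ) ^ (j : ℕ)) * (r' j).map (evy z₀ y) := by
        rw [hg, Polynomial.map_sum]
        refine Finset.sum_congr rfl (fun j _ => ?_)
        rw [Polynomial.map_mul, Polynomial.map_C, map_pow, map_natCast]
      rw [h3] at h1
      exact h1)
  have h4 := hroots w hw
  obtain ⟨h5, h6⟩ := hab hy (hρb (y := w) (by rw [dist_zero_right]; exact h4))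
  have h7 := h5 (fun j => h6 j hw (hwr j))
  exact congrArg Prod.fst h7

end Crest.Agent.R257.NS0554
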