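import Crest.Agent.R257.NodeA_547

/-!
R257 / NodeB_547: `node : NodeStmt` of LCDefs_472 (task M3-NODE).

If `v` is a singular point of the cubic `D3 f_0 v v v` of a family with isolated critical point `0`
and `T(v,v) ≠ 0`, the equations `∂_i F(z u, t) = z² (s L_i(u,t) + q_i(u,t,z))`, `s = t^a / z`,
`ℓ u = 1`, are solved by `(u,s) = (U, σ)(z,t)`, and `z σ(z,t) = t^a` would have the isolated solution
`(0,0)`.
-/

set_option autoImplicit false

open Topology Filter Set Metric
open scoped ContDiff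
open Crest.AlgGeometry.Germ

noncomputable section

namespace Crest.Agent.R257.Node_547

open Crest.Agent.R257.Defs_219 Crest.Agent.R257.LCDefs_472

/-- a sum over three indices, cyclic permutation -/
theorem D3_cyc {f : E3 → ℂ} (hf : AnalyticAt ℂ f 0) (u v w : E3) : D3 f u v w = D3 f v w u := by
  have hp : ∀ i j k, H3 f i j k = H3 f j k i := fun i j k => by
    rw [H3_symm12 hf i j k, H3_symm23 hf j i k]
  unfold D3
  calc ∑ i, ∑ j, ∑ k, H3 f i j k * u i * v j * w k
      = ∑ j, ∑ i, ∑ k, H3 f i j k * u i * v j * w k := Finset.sum_comm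
    _ = ∑ j, ∑ k, ∑ i, H3 f i j k * u i * v j * w k :=
        Finset.sum_congr rfl fun j _ => Finset.sum_comm
    _ = _ := by
        refine Finset.sum_congr rfl fun j _ => Finset.sum_congr rfl fun k _ =>
          Finset.sum_congr rfl fun i _ => ?_
        rw [hp i j k]; ring

theorem D3_single (f : E3 → ℂ) (i : Fin 3) (u v : E3) :
    D3 f (Pi.single i 1) u v = ∑ j, ∑ k, H3 f i j k * u j * v k := by
  unfold D3
  rw [Finset.sum_eq_single i]
  · simp
  · intro b _ hb
    simp [Pi.single_eq_of_ne hb]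
  · simp

theorem D3_lin (f : E3 → ℂ) (w u v : E3) :
    D3 f w u v = ∑ i, w i * D3 f (Pi.single i 1) u v := by
  simp only [D3_single, Finset.mul_sum]
  unfold D3
  refine Finset.sum_congr rfl fun i _ => Finset.sum_congr rfl fun j _ =>
    Finset.sum_congr rfl fun k _ => ?_
  ring

theorem D3_swap {f : E3 → ℂ} (hf : AnalyticAt ℂ f 0) (w u v : E3) : D3 f w u v = D3 f w v u := by
  unfold D3
  refine Finset.sum_congr rfl fun i _ => ?_
  rw [Finset.sum_comm]
  refine Finset.sum_congr rfl fun j _ => Finset.sum_congr rfl fun k _ => ?_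
  rw [H3_symm23 hf i k j]; ring

theorem node : NodeStmt := by
  intro F μ hF h2 hN a T hT hTe v hv hv3
  by_contra hne
  have hf0 : AnalyticAt ℂ (sl F 0) 0 := an_sl hF.an
  -- `a ≥ 1`
  have ha : a ≠ 0 := by
    rintro rfl
    refine hne (Finset.sum_eq_zero fun i _ => Finset.sum_eq_zero fun j _ => ?_)
    have h1 := hTe.self_of_nhds i j
    rw [h2 i j, pow_zero, one_mul] at h1
    rw [← h1]; ring
  -- a coordinate with `v k ≠ 0`
  obtain ⟨k, hk⟩ : ∃ k, v k ≠ 0 := by
    by_contra h
    exact hv (funext fun k => not_not.1 fun hk => h ⟨k, hk⟩)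
  choose q hq hqd hq0 using fun i => ray_div hF.an hF.crit h2 v i
  -- the equations
  set Ψ : (ℂ × ℂ) × (E3 × ℂ) → E3 × ℂ := fun x =>
    (fun i => x.2.2 * ∑ j, T i j x.1.2 * x.2.1 j + q i ((x.2.1, x.1.2), x.1.1),
      x.2.1 k / v k - 1) with hΨ
  have hva : AnalyticAt ℂ (fun x : (ℂ × ℂ) × (E3 × ℂ) => x.2.1) ((0, 0), (v, 0)) :=
    analyticAt_fst.comp analyticAt_snd
  have hvs : AnalyticAt ℂ (fun x : (ℂ × ℂ) × (E3 × ℂ) => x.2.2) ((0, 0), (v, 0)) :=
    analyticAt_snd.comp analyticAt_snd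
  have hvt : AnalyticAt ℂ (fun x : (ℂ × ℂ) × (E3 × ℂ) => x.1.2) ((0, 0), (v, 0)) :=
    analyticAt_snd.comp analyticAt_fst
  have hvz : AnalyticAt ℂ (fun x : (ℂ × ℂ) × (E3 × ℂ) => x.1.1) ((0, 0), (v, 0)) :=
    analyticAt_fst.comp analyticAt_fst
  have hvj : ∀ j, AnalyticAt ℂ (fun x : (ℂ × ℂ) × (E3 × ℂ) => x.2.1 j) ((0, 0), (v, 0)) := by
    intro j
    exact ((ContinuousLinearMap.proj (R := ℂ) (φ := fun _ : Fin 3 => ℂ) j).analyticAt _).comp hva
  have hΨa : AnalyticAt ℂ Ψ ((0, 0), (v, 0)) := by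
    refine AnalyticAt.prod (AnalyticAt.pi fun i => ?_) (((hvj k).div_const).sub analyticAt_const)
    refine (hvs.mul (Finset.analyticAt_fun_sum _ fun j _ => ?_)).add ?_
    · exact ((hT i j).comp_of_eq hvt rfl).mul (hvj j)
    · exact (hq i).comp_of_eq ((hva.prod hvt).prod hvz) rfl
  have hq0v : ∀ i, q i ((v, 0), 0) = 0 := by
    intro i
    rw [(hq0 i).self_of_nhds]
    have h3 : D3 (sl F 0) (Pi.single i 1) v v = 0 := by
      rw [D3_cyc hf0]; exact hv3 _
    rw [← D3_single, h3, mul_zero]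
  have hΨ0 : Ψ ((0, 0), (v, 0)) = 0 := by
    simp only [hΨ]
    ext i
    · simp [hq0v i]
    · simp [hk]
  -- the partial derivative
  have hinj : ∀ y, fderiv ℂ Ψ ((0, 0), (v, 0)) (0, y) = 0 → y = 0 := by
    rintro ⟨u, s⟩ hy
    -- the path
    have hpath : HasDerivAt (fun τ : ℂ => (((0 : ℂ), (0 : ℂ)), (v + τ • u, τ * s)))
        (0, (u, s)) 0 := by
      have h1 : HasDerivAt (fun τ : ℂ => v + τ • u) u 0 := by
        simpa using ((hasDerivAt_id' (0 : ℂ)).smul_const u).const_add v
      have h3 : HasDerivAt (fun τ : ℂ => τ * s) s 0 := by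
        simpa using (hasDerivAt_id' (0 : ℂ)).mul_const s
      exact (hasDerivAt_const (0 : ℂ) ((0 : ℂ), (0 : ℂ))).prodMk (h1.prodMk h3)
    have hΨd : HasFDerivAt Ψ (fderiv ℂ Ψ ((0, 0), (v, 0)))
        ((fun τ : ℂ => (((0 : ℂ), (0 : ℂ)), (v + τ • u, τ * s))) 0) := by
      simpa using hΨa.differentiableAt.hasFDerivAt
    have hcomp := hΨd.comp_hasDerivAt (0 : ℂ) hpath
    rw [hy] at hcomp
    -- the equations
    have hu0 : u k / v k = 0 := by
      have h1 : HasDerivAt (fun τ : ℂ => (v k + τ * u k) / v k - 1) (u k / v k) 0 := by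
        have := ((((hasDerivAt_id' (0 : ℂ)).mul_const (u k)).const_add (v k)).div_const
          (v k)).sub_const 1
        simpa using this
      have h3 : HasDerivAt (fun τ : ℂ => (v k + τ * u k) / v k - 1) 0 0 := by
        have := (ContinuousLinearMap.snd ℂ E3 ℂ).hasFDerivAt.comp_hasDerivAt (0 : ℂ) hcomp
        simpa [hΨ, Function.comp_def] using this
      exact h1.unique h3
    have huk : u k = 0 := by
      rcases div_eq_zero_iff.1 hu0 with h | h
      · exact h
      · exact absurd h hk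
    have hEq : ∀ i, s * ∑ j, T i j 0 * v j + D3 (sl F 0) (Pi.single i 1) v u = 0 := by
      intro i
      have hb : ∀ j, HasDerivAt (fun τ : ℂ => v j + τ * u j) (u j) 0 := by
        intro j
        simpa using ((hasDerivAt_id' (0 : ℂ)).mul_const (u j)).const_add (v j)
      have h1 : HasDerivAt (fun τ : ℂ => τ * s * ∑ j, T i j 0 * (v j + τ * u j) +
          (1 / 2) * ∑ j, ∑ k, H3 (sl F 0) i j k * (v j + τ * u j) * (v k + τ * u k))
          (s * ∑ j, T i j 0 * v j + D3 (sl F 0) (Pi.single i 1) v u) 0 := by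
        have h3 := (((hasDerivAt_id' (0 : ℂ)).mul_const s).fun_mul
          (HasDerivAt.fun_sum fun j (_ : j ∈ Finset.univ) => (hb j).const_mul (T i j 0))).fun_add
          ((HasDerivAt.fun_sum fun j (_ : j ∈ Finset.univ) =>
            HasDerivAt.fun_sum fun k (_ : k ∈ Finset.univ) =>
              ((hb j).const_mul (H3 (sl F 0) i j k)).fun_mul (hb k)).const_mul (1 / 2 : ℂ))
        refine h3.congr_deriv ?_
        simp only [one_mul, zero_mul, add_zero, Finset.sum_add_distrib, mul_add]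
        have e1 : ∑ j, ∑ k, H3 (sl F 0) i j k * u j * v k =
            D3 (sl F 0) (Pi.single i 1) v u := by
          rw [D3_swap hf0, D3_single]
        have e2 : ∑ j, ∑ k, H3 (sl F 0) i j k * v j * u k =
            D3 (sl F 0) (Pi.single i 1) v u := by
          rw [D3_single]
        rw [e1, e2]
        ring
      have h4 : HasDerivAt (fun τ : ℂ => (Ψ ((0, 0), (v + τ • u, τ * s))).1 i) 0 0 := by
        have := (hasDerivAt_pi.1 hcomp.fst) i
        simpa [Function.comp_def] using this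
      refine (h1.congr_of_eventuallyEq ?_).unique h4
      have h5 : Tendsto (fun τ : ℂ => v + τ • u) (𝓝 0) (𝓝 v) := by
        have : ContinuousAt (fun τ : ℂ => v + τ • u) 0 := by fun_prop
        simpa [ContinuousAt] using this
      filter_upwards [h5.eventually (hq0 i)] with τ hτ
      simp only [hΨ]
      rw [hτ]
      simp
    have hsum : s * ∑ i, ∑ j, T i j 0 * v i * v j = 0 := by
      have h1 : ∑ i, v i * (s * ∑ j, T i j 0 * v j + D3 (sl F 0) (Pi.single i 1) v u) = 0 :=
        Finset.sum_eq_zero fun i _ => by rw [hEq i, mul_zero]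
      simp only [mul_add, Finset.sum_add_distrib] at h1
      rw [← D3_lin, hv3 u, add_zero] at h1
      refine Eq.trans ?_ h1
      rw [Finset.mul_sum]
      refine Finset.sum_congr rfl fun i _ => ?_
      rw [Finset.mul_sum, Finset.mul_sum, Finset.mul_sum]
      refine Finset.sum_congr rfl fun j _ => ?_
      ring
    have hs : s = 0 := by
      rcases mul_eq_zero.1 hsum with h | h
      · exact h
      · exact absurd h hne
    have hD : ∀ w, D3 (sl F 0) v u w = 0 := by
      intro w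
      rw [← D3_cyc hf0, D3_lin]
      refine Finset.sum_eq_zero fun i _ => ?_
      have := hEq i
      rw [hs, zero_mul, zero_add] at this
      rw [this, mul_zero]
    obtain ⟨c, hc⟩ := hN v u hv hv3 hD
    have hc0 : c = 0 := by
      have h1 : c * v k = 0 := by
        have := congrFun hc k
        rw [huk] at this
        simpa using this.symm
      rcases mul_eq_zero.1 h1 with h | h
      · exact h
      · exact absurd h hk
    rw [hc, hc0, hs, zero_smul]
    rfl
  obtain ⟨ψ, hψ, hψ0, hψe⟩ := ift hΨa hinj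
  rw [hΨ0] at hψe
  -- `K(z,t) = z σ(z,t) - t^a`
  refine no_isolated (K := fun p => p.1 * (ψ p).2 - p.2 ^ a) ?_ ?_ ?_
  · exact (analyticAt_fst.mul (analyticAt_snd.comp hψ)).sub (analyticAt_snd.pow a)
  · simp [ha]
  · have hψc : Tendsto ψ (𝓝 (0, 0)) (𝓝 (v, 0)) := by
      have := hψ.continuousAt
      rw [ContinuousAt, hψ0] at this
      exact this
    have hU : Tendsto (fun p : ℂ × ℂ => (((ψ p).1, p.2), p.1)) (𝓝 (0, 0)) (𝓝 ((v, 0), 0)) := by
      have h1 : Tendsto (fun p : ℂ × ℂ => (ψ p).1) (𝓝 (0, 0)) (𝓝 v) :=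
        (continuous_fst.tendsto _).comp hψc
      exact (h1.prodMk_nhds (continuous_snd.tendsto _)).prodMk_nhds (continuous_fst.tendsto _)
    have hX : Tendsto (fun p : ℂ × ℂ => (p.1 • (ψ p).1, p.2)) (𝓝 (0, 0)) (𝓝 (0, 0)) := by
      have h1 : Tendsto (fun p : ℂ × ℂ => (ψ p).1) (𝓝 (0, 0)) (𝓝 v) :=
        (continuous_fst.tendsto _).comp hψc
      have h3 : Tendsto (fun p : ℂ × ℂ => p.1 • (ψ p).1) (𝓝 (0, 0)) (𝓝 ((0 : ℂ) • v)) :=
        (continuous_fst.tendsto _).smul h1
      rw [zero_smul] at h3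
      exact h3.prodMk_nhds (continuous_snd.tendsto _)
    have hdd : ∀ᶠ p in 𝓝 ((0 : ℂ), (0 : ℂ)), ∀ i, coordDeriv (sl F p.2) i (p.1 • (ψ p).1) =
        p.1 * ∑ j, H2 (sl F p.2) i j * (ψ p).1 j + p.1 ^ 2 * q i (((ψ p).1, p.2), p.1) :=
      Filter.eventually_all.2 fun i => hU.eventually (hqd i)
    filter_upwards [hψe, hdd, hX.eventually hF.iso,
      (continuous_snd.tendsto ((0 : ℂ), (0 : ℂ))).eventually hTe] with p hp hpd hpi hpT hK
    obtain ⟨z, t⟩ := p
    simp only at hp hpd hpi hpT hK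
    by_cases hz : z = 0
    · subst hz
      rw [zero_mul, zero_sub, neg_eq_zero] at hK
      rw [pow_eq_zero_iff ha |>.1 hK]
    · exfalso
      have hcr : ∀ i, coordDeriv (sl F t) i (z • (ψ (z, t)).1) = 0 := by
        intro i
        have h1 := congrFun (congrArg Prod.fst hp) i
        simp only [hΨ, Prod.fst_zero, Pi.zero_apply] at h1
        rw [hpd i]
        have h3 : ∑ j, H2 (sl F t) i j * (ψ (z, t)).1 j =
            z * ((ψ (z, t)).2 * ∑ j, T i j t * (ψ (z, t)).1 j) := by
          rw [← mul_assoc, sub_eq_zero.1 hK, Finset.mul_sum]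
          refine Finset.sum_congr rfl fun j _ => ?_
          rw [hpT i j]; ring
        rw [h3]
        calc z * (z * ((ψ (z, t)).2 * ∑ j, T i j t * (ψ (z, t)).1 j)) +
              z ^ 2 * q i (((ψ (z, t)).1, t), z)
            = z ^ 2 * ((ψ (z, t)).2 * ∑ j, T i j t * (ψ (z, t)).1 j +
              q i (((ψ (z, t)).1, t), z)) := by ring
          _ = 0 := by rw [h1, mul_zero]
      have hx := hpi hcr
      have hx2 : (ψ (z, t)).1 = 0 := (smul_eq_zero.1 hx).resolve_left hz
      have h1 := congrArg Prod.snd hp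
      simp only [hΨ, Prod.snd_zero] at h1
      rw [hx2] at h1
      simp at h1

end Crest.Agent.R257.Node_547
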