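import Crest.Agent.R257.UI5_939

/-!
Row 257 (S0395), leaf B-NUM, part A (helper488): derivations on the rings of germs; orders in one
variable.
-/

set_option autoImplicit false
set_option linter.unusedSectionVars false

open Set Filter Topology Metric
open Crest.Agent.R275
open Crest.Agent.R275.Loc2879

noncomputable section

namespace Crest.Agent.R257.Num488

universe u v

section Der

variable {E : Type u} [NormedAddCommGroup E] [NormedSpace ℂ E] {p : E}

lemma an_fd {f : E → ℂ} (hf : AnalyticAt ℂ f p) (v : E) :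
    AnalyticAt ℂ (fun x => fderiv ℂ f x v) p :=
  (ContinuousLinearMap.analyticAt (ContinuousLinearMap.apply ℂ ℂ v) _).comp hf.fderiv

/-- directional derivative of germs -/
def dfun (v : E) (x : OO p) : OO p :=
  gm (fun y => fderiv ℂ (exists_gm x).choose y v) (an_fd (exists_gm x).choose_spec.choose v)

lemma dfun_gm (v : E) {f : E → ℂ} (hf : AnalyticAt ℂ f p) :
    dfun v (gm f hf) = gm (fun y => fderiv ℂ f y v) (an_fd hf v) := by
  unfold dfun
  rw [gm_eq_gm]
  have h := (exists_gm (gm f hf)).choose_spec.choose_spec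
  rw [gm_eq_gm] at h
  have h2 : fderiv ℂ (exists_gm (gm f hf)).choose =ᶠ[𝓝 p] fderiv ℂ f :=
    Filter.EventuallyEq.fderiv h
  filter_upwards [h2] with x hx
  rw [hx]

/-- directional derivative as a derivation -/
def dd (v : E) : Derivation ℂ (OO p) (OO p) :=
  Derivation.mk'
    { toFun := dfun v
      map_add' := by
        intro x y
        obtain ⟨f, hf, rfl⟩ := exists_gm x
        obtain ⟨g, hg, rfl⟩ := exists_gm y
        rw [gm_add, dfun_gm, dfun_gm, dfun_gm, gm_add, gm_eq_gm]
        filter_upwards [hf.eventually_analyticAt, hg.eventually_analyticAt] with x hx hy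
        rw [fderiv_add hx.differentiableAt hy.differentiableAt]
        rfl
      map_smul' := by
        intro c x
        obtain ⟨f, hf, rfl⟩ := exists_gm x
        rw [RingHom.id_apply, Algebra.smul_def, Algebra.smul_def, Loc2879.algebraMap_apply, gm_mul,
          dfun_gm, dfun_gm, gm_mul, gm_eq_gm]
        filter_upwards [hf.eventually_analyticAt] with x hx
        have h1 : ((fun _ => c) * f : E → ℂ) = fun y => c * f y := rfl
        rw [h1, fderiv_const_mul hx.differentiableAt]
        rfl }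
    (by
      intro x y
      obtain ⟨f, hf, rfl⟩ := exists_gm x
      obtain ⟨g, hg, rfl⟩ := exists_gm y
      change dfun v (gm f hf * gm g hg) = gm f hf • dfun v (gm g hg) + gm g hg • dfun v (gm f hf)
      rw [gm_mul, dfun_gm, dfun_gm, dfun_gm, smul_eq_mul, smul_eq_mul, gm_mul, gm_mul, gm_add,
        gm_eq_gm]
      filter_upwards [hf.eventually_analyticAt, hg.eventually_analyticAt] with x hx hy
      rw [fderiv_mul hx.differentiableAt hy.differentiableAt]
      simp)

lemma dd_gm (v : E) {f : E → ℂ} (hf : AnalyticAt ℂ f p) :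
    dd v (gm f hf) = gm (fun y => fderiv ℂ f y v) (an_fd hf v) := dfun_gm v hf

lemma dd_add (v w : E) (x : OO p) : dd (v + w) x = dd v x + dd w x := by
  obtain ⟨f, hf, rfl⟩ := exists_gm x
  rw [dd_gm, dd_gm, dd_gm, gm_add, gm_eq_gm]
  exact Eventually.of_forall fun y => by simp

lemma dd_smul (c : ℂ) (v : E) (x : OO p) : dd (c • v) x = c • dd v x := by
  obtain ⟨f, hf, rfl⟩ := exists_gm x
  rw [dd_gm, dd_gm, Algebra.smul_def, Loc2879.algebraMap_apply, gm_mul, gm_eq_gm]
  exact Eventually.of_forall fun y => by simp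

/-- linear functions as germs -/
def lin (l : E →L[ℂ] ℂ) : OO (0 : E) := gm l (l.analyticAt 0)

lemma dd_lin (v : E) (l : E →L[ℂ] ℂ) : dd v (lin l) = algebraMap ℂ _ (l v) := by
  rw [lin, dd_gm, Loc2879.algebraMap_apply, gm_eq_gm]
  exact Eventually.of_forall fun y => by simp

lemma lin_add (l m : E →L[ℂ] ℂ) : lin (l + m) = lin l + lin m := by
  rw [lin, lin, lin, gm_add, gm_eq_gm]; exact Eventually.of_forall fun y => by simp

lemma lin_smul (c : ℂ) (l : E →L[ℂ] ℂ) : lin (c • l) = c • lin l := by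
  rw [lin, lin, Algebra.smul_def, Loc2879.algebraMap_apply, gm_mul, gm_eq_gm]
  exact Eventually.of_forall fun y => by simp

lemma lin_zero : lin (0 : E →L[ℂ] ℂ) = 0 := by
  rw [lin, gm_zero, gm_eq_gm]; exact Eventually.of_forall fun y => by simp

lemma lin_mem (l : E →L[ℂ] ℂ) : ¬ IsUnit (lin l) := by
  rw [lin, isUnit_gm]; simp

end Der

section One

/-- germs in one variable -/
abbrev A1 : Type := OO (0 : ℂ)

/-- the order of a germ in one variable -/
def vv (x : A1) : ℕ∞ := IsDiscreteValuationRing.addVal A1 x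

lemma vv_mul (x y : A1) : vv (x * y) = vv x + vv y := by
  unfold vv; exact (IsDiscreteValuationRing.addVal A1).map_mul x y

lemma vv_eq_top {x : A1} : vv x = ⊤ ↔ x = 0 := IsDiscreteValuationRing.addVal_eq_top_iff

lemma vv_unit {x : A1} (h : IsUnit x) : vv x = 0 := by
  obtain ⟨u, rfl⟩ := h
  exact IsDiscreteValuationRing.addVal_eq_zero_of_unit u

lemma vv_TT : vv (TT 0) = 1 := IsDiscreteValuationRing.addVal_uniformizer TT_irreducible

lemma vv_pow (x : A1) (n : ℕ) : vv (x ^ n) = n * vv x := by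
  unfold vv; rw [AddValuation.map_pow, nsmul_eq_mul]

lemma vv_TT_pow (n : ℕ) : vv (TT 0 ^ n) = n := by
  rw [vv_pow, vv_TT, mul_one]

lemma vv_TT_pow_mul (n : ℕ) {u : A1} (hu : IsUnit u) : vv (TT 0 ^ n * u) = n := by
  rw [vv_mul, vv_TT_pow, vv_unit hu, add_zero]

lemma vv_eq_zero {x : A1} : vv x = 0 ↔ IsUnit x := by
  constructor
  · intro h
    by_contra hx
    obtain ⟨y, rfl⟩ := TT_dvd hx
    rw [vv_mul, vv_TT] at h
    have : (1 : ℕ∞) ≤ 0 := h ▸ le_self_add
    simp at this
  · exact vv_unit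

/-- the derivative -/
abbrev DD : Derivation ℂ A1 A1 := dd (1 : ℂ)

lemma DD_TT : DD (TT 0) = 1 := by
  unfold DD TT
  rw [dd_gm, gm_one, gm_eq_gm]
  exact Eventually.of_forall fun y => by simp

theorem vv_DD {x : A1} (hx : ¬ IsUnit x) : vv (DD x) + 1 = vv x := by
  by_cases h0 : x = 0
  · subst h0
    rw [map_zero, vv_eq_top.2 rfl]; rfl
  obtain ⟨n, u, rfl⟩ := exists_pow_mul x h0
  rcases Nat.eq_zero_or_pos n with rfl | hn
  · exact absurd (by simp) hx
  obtain ⟨m, rfl⟩ : ∃ m, n = m + 1 := ⟨n - 1, by omega⟩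
  have h1 : DD (TT 0 ^ (m + 1) * (u : A1)) =
      TT 0 ^ m * (((m + 1 : ℕ) : A1) * u + TT 0 * DD (u : A1)) := by
    rw [Derivation.leibniz, Derivation.leibniz_pow, DD_TT]
    simp only [smul_eq_mul, nsmul_eq_mul, Nat.add_sub_cancel, Nat.cast_add, Nat.cast_one]
    ring
  have h2 : IsUnit (((m + 1 : ℕ) : A1) * u + TT 0 * DD (u : A1)) := by
    rw [Loc2879.isUnit_iff, map_add, map_mul, map_mul, map_natCast]
    have h3 : evp (0 : ℂ) (TT 0) = 0 := by
      by_contra h; exact TT_not_unit (Loc2879.isUnit_iff.2 h)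
    have h4 : evp (0 : ℂ) (u : A1) ≠ 0 := Loc2879.isUnit_iff.1 u.isUnit
    rw [h3, zero_mul, add_zero]
    exact mul_ne_zero (by exact_mod_cast Nat.succ_ne_zero m) h4
  rw [h1, vv_TT_pow_mul m h2, vv_TT_pow_mul (m + 1) u.isUnit]
  push_cast; rfl

lemma DD_ne_zero {x : A1} (hx : ¬ IsUnit x) (h0 : x ≠ 0) : DD x ≠ 0 := by
  intro h
  have := vv_DD hx
  rw [h, vv_eq_top.2 rfl] at this
  exact h0 (vv_eq_top.1 (by rw [← this]; rfl))

end One

end Crest.Agent.R257.Num488
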