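import Mathlib

/-!
Row 257 (S0395), leaf B-NUM, part B (helper488): characters of split commutative algebras and
determinants; cokernels of endomorphisms of free modules over a discrete valuation ring.
-/

set_option autoImplicit false
set_option linter.unusedSectionVars false

open Polynomial

noncomputable section

namespace Crest.Agent.R257.Num488

universe u v w

section Lin

variable {K : Type u} {𝒜 : Type v} [Field K] [CommRing 𝒜] [Algebra K 𝒜]

/-- multiplication by `c` -/
def ml (V : Type w) [AddCommGroup V] [Module K V] [Module 𝒜 V] [IsScalarTower K 𝒜 V] (c : 𝒜) :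
    V →ₗ[K] V := Algebra.lsmul K K V c

lemma ml_apply (V : Type w) [AddCommGroup V] [Module K V] [Module 𝒜 V] [IsScalarTower K 𝒜 V]
    (c : 𝒜) (x : V) : ml (K := K) V c x = c • x := rfl

/-- every element of a simple module acts by scalars -/
lemma scalar_of_simple (S : Set 𝒜) (hS : Submodule.span K S = ⊤)
    (hs : ∀ s ∈ S, ∃ q : Multiset K, aeval s (q.map fun a => X - C a).prod = 0)
    (U : Type w) [AddCommGroup U] [Module K U] [Module 𝒜 U] [IsScalarTower K 𝒜 U]
    [IsSimpleModule 𝒜 U] (c : 𝒜) : ∃ k : K, ∀ x : U, c • x = k • x := by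
  classical
  have hc : c ∈ Submodule.span K S := by rw [hS]; trivial
  induction hc using Submodule.span_induction with
  | zero => exact ⟨0, fun x => by simp⟩
  | add a b _ _ ha hb =>
    obtain ⟨k, hk⟩ := ha
    obtain ⟨l, hl⟩ := hb
    exact ⟨k + l, fun x => by rw [add_smul, hk, hl, add_smul]⟩
  | smul r a _ ha =>
    obtain ⟨k, hk⟩ := ha
    exact ⟨r * k, fun x => by rw [smul_assoc, hk, smul_smul]⟩
  | mem s hsS =>
    obtain ⟨q, hq⟩ := hs s hsS
    -- some factor is not injective
    by_contra hcon
    push Not at hcon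
    have hinj : ∀ k : K, Function.Injective (fun x : U => (s - algebraMap K 𝒜 k) • x) := by
      intro k
      let T : U →ₗ[𝒜] U := LinearMap.lsmul 𝒜 U (s - algebraMap K 𝒜 k)
      rcases LinearMap.injective_or_eq_zero T with h | h
      · exact h
      · exfalso
        obtain ⟨x, hx⟩ := hcon k
        apply hx
        have h1 : T x = 0 := by rw [h]; rfl
        have h2 : (s - algebraMap K 𝒜 k) • x = 0 := h1
        rw [sub_smul, sub_eq_zero, algebraMap_smul] at h2
        exact h2
    have hinj2 : ∀ q : Multiset K, Function.Injective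
        (fun x : U => (aeval s (q.map fun a => X - C a).prod) • x) := by
      intro q
      induction q using Multiset.induction_on with
      | empty => simp only [Multiset.map_zero, Multiset.prod_zero, map_one, one_smul]; exact fun _ _ h => h
      | cons a q ih =>
        simp only [Multiset.map_cons, Multiset.prod_cons, map_mul, mul_smul, map_sub, aeval_X,
          aeval_C]
        exact (hinj a).comp ih
    obtain ⟨x, hx⟩ : ∃ x : U, x ≠ 0 := by
      have : Nontrivial U := IsSimpleModule.nontrivial 𝒜 U
      exact exists_ne 0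
    apply hx
    apply hinj2 q
    simp only
    rw [hq, zero_smul, zero_smul]

/-- the character of a simple module -/
lemma exists_char (S : Set 𝒜) (hS : Submodule.span K S = ⊤)
    (hs : ∀ s ∈ S, ∃ q : Multiset K, aeval s (q.map fun a => X - C a).prod = 0)
    (U : Type w) [AddCommGroup U] [Module K U] [Module 𝒜 U] [IsScalarTower K 𝒜 U]
    [IsSimpleModule 𝒜 U] : ∃ χ : 𝒜 →ₐ[K] K, ∀ (c : 𝒜) (x : U), c • x = χ c • x := by
  classical
  choose χ hχ using scalar_of_simple S hS hs U
  have : Nontrivial U := IsSimpleModule.nontrivial 𝒜 U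
  obtain ⟨x, hx⟩ : ∃ x : U, x ≠ 0 := exists_ne 0
  have huniq : ∀ {k l : K}, k • x = l • x → k = l := fun {k l} h =>
    smul_left_injective K hx h
  refine ⟨{ toFun := χ, map_one' := ?_, map_mul' := ?_, map_zero' := ?_, map_add' := ?_,
            commutes' := ?_ }, hχ⟩
  · apply huniq; rw [← hχ, one_smul, one_smul]
  · intro a b
    apply huniq
    rw [← hχ, mul_smul, hχ b, hχ a, smul_smul]
  · apply huniq; rw [← hχ, zero_smul, zero_smul]
  · intro a b
    apply huniq
    rw [← hχ, add_smul, hχ a, hχ b, add_smul]
  · intro k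
    apply huniq
    rw [← hχ, algebraMap_smul]
    rfl

theorem lin_chars (S : Set 𝒜) (hS : Submodule.span K S = ⊤)
    (hs : ∀ s ∈ S, ∃ q : Multiset K, aeval s (q.map fun a => X - C a).prod = 0) :
    ∀ (n : ℕ) (V : Type w) [AddCommGroup V] [Module K V] [Module 𝒜 V] [IsScalarTower K 𝒜 V]
      [FiniteDimensional K V], Module.finrank K V = n →
      ∃ l : List (𝒜 →ₐ[K] K), ∀ c : 𝒜, LinearMap.det (ml (K := K) V c) = (l.map fun χ => χ c).prod := by
  intro n
  induction n using Nat.strong_induction_on with
  | _ n ih =>
  intro V _ _ _ _ _ hn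
  rcases Nat.eq_zero_or_pos n with h0 | h0
  · refine ⟨[], fun c => ?_⟩
    have : Subsingleton V := Module.finrank_zero_iff.1 (hn.trans h0)
    rw [List.map_nil, List.prod_nil]
    have h1 : ml (K := K) V c = LinearMap.id := Subsingleton.elim _ _
    rw [h1, LinearMap.det_id]
  · have hnt : Nontrivial V := Module.nontrivial_of_finrank_pos (R := K) (by omega)
    have hart : IsNoetherian 𝒜 V := isNoetherian_of_tower K inferInstance
    obtain ⟨W, hW⟩ : ∃ W : Submodule 𝒜 V, IsCoatom W := by
      rcases eq_top_or_exists_le_coatom (⊥ : Submodule 𝒜 V) with h | ⟨W, hW, _⟩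
      · exact absurd h bot_ne_top
      · exact ⟨W, hW⟩
    have hsimple : IsSimpleModule 𝒜 (V ⧸ W) := isSimpleModule_iff_isCoatom.2 hW
    obtain ⟨χ, hχ⟩ := exists_char (K := K) S hS hs (V ⧸ W)
    -- the submodule
    have hlt : Module.finrank K (W.restrictScalars K) < n := by
      rw [← hn]
      refine Submodule.finrank_lt (fun h => hW.1 ?_)
      exact (Submodule.restrictScalars_eq_top_iff K 𝒜 V).1 h
    have htow : IsScalarTower K 𝒜 W := ⟨fun a b x => Subtype.ext (smul_assoc a b (x : V))⟩
    have hfin : FiniteDimensional K W := inferInstanceAs (FiniteDimensional K (W.restrictScalars K))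
    have hlt' : Module.finrank K W < n := hlt
    obtain ⟨l, hl⟩ := ih (Module.finrank K W) hlt' W rfl
    refine ⟨l ++ List.replicate (Module.finrank K (V ⧸ W)) χ, fun c => ?_⟩
    have he : (W.restrictScalars K) ≤ (W.restrictScalars K).comap (ml (K := K) V c) := by
      intro x hx
      exact W.smul_mem c hx
    rw [LinearMap.det_eq_det_mul_det (W.restrictScalars K) _ he, List.map_append, List.prod_append,
      ← hl c]
    congr 1
    have h2 : (W.restrictScalars K).mapQ (W.restrictScalars K) (ml (K := K) V c) he =
        χ c • (LinearMap.id : (V ⧸ W.restrictScalars K) →ₗ[K] _) := by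
      ext x
      simp only [LinearMap.coe_comp, Function.comp_apply, Submodule.mkQ_apply,
        Submodule.mapQ_apply, LinearMap.smul_apply, LinearMap.id_coe, id_eq]
      exact hχ c (Submodule.Quotient.mk x)
    rw [h2, LinearMap.det_smul, LinearMap.det_id, mul_one, List.map_replicate, List.prod_replicate]
    rfl

end Lin

section Smith

variable {A : Type u} {M : Type v} [CommRing A] [IsDomain A] [IsPrincipalIdealRing A]
  [AddCommGroup M] [Module A M] [Module.Free A M] [Module.Finite A M]

/-- the cokernel of an endomorphism of a free module over a principal ideal domain -/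
theorem coker_det (T : M →ₗ[A] M) (hT : Function.Injective T) :
    ∃ (ι : Type v) (_ : Fintype ι) (a : ι → A), Associated (LinearMap.det T) (∏ i, a i) ∧
      (∀ i, a i ≠ 0) ∧
      Nonempty ((M ⧸ LinearMap.range T) ≃ₗ[A] ∀ i, A ⧸ Ideal.span {a i}) := by
  classical
  let ι := Module.Free.ChooseBasisIndex A M
  let b : Module.Basis ι A M := Module.Free.chooseBasis A M
  let e : M ≃ₗ[A] LinearMap.range T := LinearEquiv.ofInjective T hT
  have h : Module.finrank A (LinearMap.range T) = Module.finrank A M := e.finrank_eq.symm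
  refine ⟨ι, inferInstance, Submodule.smithNormalFormCoeffs b h, ?_,
    fun i => Submodule.smithNormalFormCoeffs_ne_zero b h i,
    ⟨Submodule.quotientEquivPiSpan _ b h⟩⟩
  let b' := Submodule.smithNormalFormTopBasis b h
  let bN := Submodule.smithNormalFormBotBasis b h
  rw [← Matrix.det_diagonal, ← LinearMap.det_toLin b']
  let e2 : M ≃ₗ[A] M := (b'.equiv bN (Equiv.refl _)).trans e.symm
  refine (LinearMap.associated_det_of_eq_comp e2 _ _ ?_).symm
  have key : (Matrix.toLin b' b' (Matrix.diagonal (Submodule.smithNormalFormCoeffs b h))) =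
      T ∘ₗ e2.toLinearMap := by
    refine b'.ext fun i => ?_
    rw [Matrix.toLin_self]
    have h1 : T (e2 (b' i)) = (bN i : M) := by
      have h2 : e2 (b' i) = e.symm (bN i) := by
        simp only [e2, LinearEquiv.trans_apply, Module.Basis.equiv_apply, Equiv.refl_apply]
      rw [h2]
      have h3 : (e (e.symm (bN i)) : M) = T (e.symm (bN i)) := rfl
      rw [← h3, LinearEquiv.apply_symm_apply]
    rw [LinearMap.comp_apply, LinearEquiv.coe_coe, h1, Submodule.smithNormalFormBotBasis_def]
    rw [Finset.sum_eq_single i]
    · rw [Matrix.diagonal_apply_eq]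
    · intro j _ hj
      rw [Matrix.diagonal_apply_ne _ hj, zero_smul]
    · intro hi; exact absurd (Finset.mem_univ _) hi
  intro x
  rw [key]; rfl

end Smith

end Crest.Agent.R257.Num488
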