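import Crest.Agent.R257.NumA_488
import Crest.Agent.R257.NumB_488

/-!
Row 257 (S0395), leaf B-NUM, part C (helper488): complex dimensions of cokernels.
-/

set_option autoImplicit false
set_option linter.unusedSectionVars false

open Set Filter Topology Metric
open Crest.Agent.R275
open Crest.Agent.R275.Loc2879

noncomputable section

namespace Crest.Agent.R257.Num488

universe u v w

/-- complex dimension -/
abbrev dl (V : Type v) [AddCommGroup V] [Module ℂ V] : ℕ∞ := Module.length ℂ V

section Gen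

variable {V : Type v} [AddCommGroup V] [Module ℂ V]

/-- dimension of the cokernel of a composition -/
theorem coker_comp (S T : V →ₗ[ℂ] V) (hT : Function.Injective T) :
    dl (V ⧸ LinearMap.range (T ∘ₗ S)) = dl (V ⧸ LinearMap.range S) + dl (V ⧸ LinearMap.range T) := by
  have h1 : LinearMap.range S ≤ (LinearMap.range (T ∘ₗ S)).comap T := by
    rintro _ ⟨x, rfl⟩
    exact ⟨x, rfl⟩
  have h2 : LinearMap.range (T ∘ₗ S) ≤ LinearMap.range T := by
    rintro _ ⟨x, rfl⟩
    exact ⟨S x, rfl⟩
  refine Module.length_eq_add_of_exact ((LinearMap.range S).mapQ _ T h1)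
    (Submodule.factor h2) ?_ (Submodule.factor_surjective h2) ?_
  · rw [← LinearMap.ker_eq_bot, LinearMap.ker_eq_bot']
    intro m hm
    obtain ⟨x, rfl⟩ := Submodule.Quotient.mk_surjective _ m
    rw [Submodule.mapQ_apply, Submodule.Quotient.mk_eq_zero] at hm
    obtain ⟨y, hy⟩ := hm
    rw [Submodule.Quotient.mk_eq_zero]
    exact ⟨y, hT hy⟩
  · intro m
    obtain ⟨x, rfl⟩ := Submodule.Quotient.mk_surjective _ m
    have hf : Submodule.factor h2 (Submodule.Quotient.mk x) = Submodule.Quotient.mk x := rfl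
    rw [hf, Submodule.Quotient.mk_eq_zero]
    constructor
    · rintro ⟨y, rfl⟩
      exact ⟨Submodule.Quotient.mk y, by rw [Submodule.mapQ_apply]⟩
    · rintro ⟨n, hn⟩
      obtain ⟨y, rfl⟩ := Submodule.Quotient.mk_surjective _ n
      rw [Submodule.mapQ_apply, Submodule.Quotient.eq] at hn
      obtain ⟨z, hz⟩ := hn
      refine ⟨y - S z, ?_⟩
      rw [map_sub]
      rw [LinearMap.comp_apply] at hz
      rw [hz]; abel

end Gen

section Ring

variable {R : Type u} [CommRing R] [Algebra ℂ R]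

/-- multiplication as a complex linear map -/
abbrev mu (x : R) : R →ₗ[ℂ] R := LinearMap.mulLeft ℂ x

lemma range_mu (x : R) : LinearMap.range (mu x) = (Ideal.span {x}).restrictScalars ℂ := by
  ext y
  rw [LinearMap.mem_range, Submodule.restrictScalars_mem, Ideal.mem_span_singleton']
  constructor
  · rintro ⟨z, rfl⟩; exact ⟨z, by rw [LinearMap.mulLeft_apply, mul_comm]⟩
  · rintro ⟨z, rfl⟩; exact ⟨z, by rw [LinearMap.mulLeft_apply, mul_comm]⟩

lemma dl_range_mu (x : R) : dl (R ⧸ LinearMap.range (mu x)) = dl (R ⧸ Ideal.span {x}) := by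
  have e1 : (R ⧸ LinearMap.range (mu x)) ≃ₗ[ℂ] (R ⧸ (Ideal.span {x}).restrictScalars ℂ) :=
    Submodule.quotEquivOfEq _ _ (range_mu x)
  exact (e1.trans (Submodule.Quotient.restrictScalarsEquiv ℂ (Ideal.span {x}))).length_eq

/-- multiplicativity for a non zero divisor -/
theorem dl_mul (x y : R) (hx : Function.Injective fun z => x * z) :
    dl (R ⧸ Ideal.span {x * y}) = dl (R ⧸ Ideal.span {x}) + dl (R ⧸ Ideal.span {y}) := by
  rw [← dl_range_mu, ← dl_range_mu, ← dl_range_mu]
  have h : mu (x * y) = mu x ∘ₗ mu y := by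
    ext z; simp
  rw [h, coker_comp (mu y) (mu x) hx, add_comm]

lemma dl_of_isUnit (x : R) (hx : IsUnit x) : dl (R ⧸ Ideal.span {x}) = 0 := by
  rw [Ideal.span_singleton_eq_top.2 hx]
  exact Module.length_eq_zero

end Ring

section One

/-- evaluation as an algebra homomorphism -/
def evA : A1 →ₐ[ℂ] ℂ := { evp (0 : ℂ) with commutes' := fun _ => rfl }

lemma ker_evA : RingHom.ker evA = Ideal.span {TT (0 : ℂ)} := by
  ext x
  rw [RingHom.mem_ker, Ideal.mem_span_singleton]
  have h1 : evA x = evp (0 : ℂ) x := rfl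
  rw [h1]
  constructor
  · intro h
    exact TT_dvd fun hu => Loc2879.isUnit_iff.1 hu h
  · rintro ⟨y, rfl⟩
    rw [map_mul]
    have h3 : evp (0 : ℂ) (TT 0) = 0 := by
      by_contra h; exact TT_not_unit (Loc2879.isUnit_iff.2 h)
    rw [h3, zero_mul]

lemma dl_TT : dl (A1 ⧸ Ideal.span {TT (0 : ℂ)}) = 1 := by
  have hs : Function.Surjective evA := fun c => ⟨algebraMap ℂ A1 c, rfl⟩
  have e1 : (A1 ⧸ RingHom.ker evA) ≃ₐ[ℂ] ℂ := Ideal.quotientKerAlgEquivOfSurjective hs
  have e2 := e1.toLinearEquiv.length_eq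
  rw [ker_evA] at e2
  rw [dl, e2, Module.length_eq_finrank, Module.finrank_self, Nat.cast_one]

theorem dl_A1 {a : A1} (ha : a ≠ 0) : dl (A1 ⧸ Ideal.span {a}) = vv a := by
  obtain ⟨n, u, rfl⟩ := exists_pow_mul a ha
  rw [vv_TT_pow_mul n u.isUnit, dl_mul _ _ (mul_right_injective₀ (pow_ne_zero _ TT_ne_zero)),
    dl_of_isUnit _ u.isUnit, add_zero]
  induction n with
  | zero => rw [pow_zero, dl_of_isUnit _ isUnit_one]; rfl
  | succ n ih =>
    rw [pow_succ, dl_mul _ _ (mul_right_injective₀ (pow_ne_zero _ TT_ne_zero)), dl_TT,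
      ih (mul_ne_zero (pow_ne_zero _ TT_ne_zero) u.isUnit.ne_zero)]
    push_cast; rfl

variable {M : Type v} [AddCommGroup M] [Module A1 M] [Module ℂ M] [IsScalarTower ℂ A1 M]
  [Module.Free A1 M] [Module.Finite A1 M]

lemma vv_assoc {x y : A1} (h : Associated x y) : vv x = vv y := by
  obtain ⟨u, rfl⟩ := h
  rw [vv_mul, vv_unit u.isUnit, add_zero]

lemma vv_prod {ι : Type*} (s : Finset ι) (a : ι → A1) : vv (∏ i ∈ s, a i) = ∑ i ∈ s, vv (a i) := by
  classical
  induction s using Finset.induction_on with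
  | empty => rw [Finset.prod_empty, Finset.sum_empty, vv_unit isUnit_one]
  | insert i s hi ih => rw [Finset.prod_insert hi, Finset.sum_insert hi, vv_mul, ih]

/-- **cokernel of an endomorphism of a free module over `A1`** -/
theorem dl_coker (T : M →ₗ[A1] M) (hT : Function.Injective T) :
    dl (M ⧸ LinearMap.range T) = vv (LinearMap.det T) := by
  obtain ⟨ι, _, a, h1, h2, ⟨e⟩⟩ := coker_det T hT
  rw [vv_assoc h1, vv_prod]
  have h3 := (e.restrictScalars ℂ).length_eq
  rw [dl, h3, Module.length_pi_of_fintype]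
  exact Finset.sum_congr rfl fun i _ => dl_A1 (h2 i)

/-- a finite dimensional cokernel forces a non-zero determinant -/
theorem det_ne_zero_of_injective (T : M →ₗ[A1] M) (hT : Function.Injective T) :
    LinearMap.det T ≠ 0 := by
  obtain ⟨ι, _, a, h1, h2, _⟩ := coker_det T hT
  obtain ⟨u, hu⟩ := h1
  intro h
  rw [h, zero_mul] at hu
  exact (Finset.prod_ne_zero_iff.2 fun i _ => h2 i) hu.symm

end One

end Crest.Agent.R257.Num488
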