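import Crest.Agent.R257.NumC_488
import Crest.Agent.R257.AJ4_387

/-!
Row 257 (S0395), leaf B-NUM, part D (helper488): Newton-Puiseux: a monic polynomial over the germs
in one variable splits after `z = τ ^ N`.
-/

set_option autoImplicit false
set_option linter.unusedSectionVars false

open Set Filter Topology Metric Polynomial
open Crest.Agent.R275
open Crest.Agent.R275.Loc2879

noncomputable section

namespace Crest.Agent.R257.Num488

universe u v w

/-- the substitution `z = τ ^ N` -/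
def kap (N : ℕ) (hN : N ≠ 0) : A1 →+* A1 :=
  pull (fun w : ℂ => w ^ N) (analyticAt_id.pow N) (by simp [hN])

lemma kap_gm {N : ℕ} (hN : N ≠ 0) {f : ℂ → ℂ} (hf : AnalyticAt ℂ f 0) :
    ∃ h, kap N hN (gm f hf) = gm (fun w => f (w ^ N)) h :=
  ⟨AnalyticAt.comp (g := f) (f := fun w : ℂ => w ^ N) (by simpa [hN] using hf)
    (analyticAt_id.pow N), rfl⟩

lemma kap_algebraMap {N : ℕ} (hN : N ≠ 0) (c : ℂ) :
    kap N hN (algebraMap ℂ A1 c) = algebraMap ℂ A1 c := rfl

lemma kap_TT {N : ℕ} (hN : N ≠ 0) : kap N hN (TT 0) = TT 0 ^ N := by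
  obtain ⟨h, e⟩ := kap_gm hN (f := fun w => w - 0) (analyticAt_id.sub analyticAt_const)
  rw [TT, e, gm_pow, gm_eq_gm]
  exact Eventually.of_forall fun w => by simp

lemma vv_kap {N : ℕ} (hN : N ≠ 0) (x : A1) : vv (kap N hN x) = N * vv x := by
  by_cases hx : x = 0
  · subst hx
    rw [map_zero, vv_eq_top.2 rfl, ENat.mul_top]
    exact_mod_cast hN
  · obtain ⟨n, u, rfl⟩ := exists_pow_mul x hx
    rw [map_mul, map_pow, kap_TT, ← pow_mul, vv_TT_pow_mul _ (u.isUnit.map (kap N hN)),
      vv_TT_pow_mul _ u.isUnit]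
    push_cast; rfl

lemma kap_injective {N : ℕ} (hN : N ≠ 0) : Function.Injective (kap N hN) := by
  rw [injective_iff_map_eq_zero]
  intro x hx
  have h := vv_kap hN x
  rw [hx, vv_eq_top.2 rfl] at h
  by_contra h0
  obtain ⟨n, u, rfl⟩ := exists_pow_mul x h0
  rw [vv_TT_pow_mul _ u.isUnit] at h
  have h2 : ((N * n : ℕ) : ℕ∞) = ⊤ := by rw [h]; push_cast; rfl
  exact ENat.natCast_ne_top _ h2

lemma kap_kap {N M : ℕ} (hN : N ≠ 0) (hM : M ≠ 0) (x : A1) :
    kap M hM (kap N hN x) = kap (N * M) (mul_ne_zero hN hM) x := by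
  obtain ⟨f, hf, rfl⟩ := exists_gm x
  obtain ⟨h1, e1⟩ := kap_gm hN hf
  obtain ⟨h2, e2⟩ := kap_gm hM h1
  obtain ⟨h3, e3⟩ := kap_gm (mul_ne_zero hN hM) hf
  rw [e1, e2, e3, gm_eq_gm]
  exact Eventually.of_forall fun w => by
    simp only
    rw [← pow_mul, mul_comm]

lemma kap_one (x : A1) : kap 1 one_ne_zero x = x := by
  obtain ⟨f, hf, rfl⟩ := exists_gm x
  obtain ⟨h1, e1⟩ := kap_gm one_ne_zero hf
  rw [e1, gm_eq_gm]
  exact Eventually.of_forall fun w => by simp

/-! ### polynomials over germs and families of polynomials -/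

lemma gm_sum' {ι : Type*} (s : Finset ι) (f : ι → ℂ → ℂ) (h : ∀ i, AnalyticAt ℂ (f i) 0) :
    ∃ h', ∑ i ∈ s, (gm (f i) (h i) : A1) = gm (fun x => ∑ i ∈ s, f i x) h' := by
  classical
  induction s using Finset.induction_on with
  | empty =>
    refine ⟨by simpa using analyticAt_const, ?_⟩
    rw [Finset.sum_empty, gm_zero, gm_eq_gm]
    exact Eventually.of_forall (fun x => by simp)
  | insert i s hi ih =>
    obtain ⟨h1, e1⟩ := ih
    refine ⟨by simpa only [Finset.sum_insert hi] using (h i).fun_add h1, ?_⟩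
    rw [Finset.sum_insert hi, e1, gm_add, gm_eq_gm]
    exact Eventually.of_forall (fun x => by simp [Finset.sum_insert hi])

/-- the family `F` represents the polynomial `P` -/
structure Rep (P : A1[X]) (F : ℂ → ℂ[X]) : Prop where
  deg : ∃ n, ∀ a, (F a).natDegree ≤ n
  an : ∀ i, AnalyticAt ℂ (fun a => (F a).coeff i) 0
  eq : ∀ i, gm (fun a => (F a).coeff i) (an i) = P.coeff i

namespace Rep

variable {P Q : A1[X]} {F G : ℂ → ℂ[X]}

lemma add (hP : Rep P F) (hQ : Rep Q G) : Rep (P + Q) (fun a => F a + G a) := by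
  have han : ∀ i, AnalyticAt ℂ (fun a => (F a + G a).coeff i) 0 := by
    intro i; simp only [coeff_add]; exact (hP.an i).add (hQ.an i)
  refine ⟨?_, han, fun i => ?_⟩
  · obtain ⟨n, hn⟩ := hP.deg
    obtain ⟨m, hm⟩ := hQ.deg
    exact ⟨max n m, fun a => (natDegree_add_le _ _).trans (max_le_max (hn a) (hm a))⟩
  · rw [coeff_add, ← hP.eq, ← hQ.eq, gm_add, gm_eq_gm]
    exact Eventually.of_forall fun a => by simp

lemma mul (hP : Rep P F) (hQ : Rep Q G) : Rep (P * Q) (fun a => F a * G a) := by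
  have han : ∀ i, AnalyticAt ℂ (fun a => (F a * G a).coeff i) 0 := by
    intro i
    simp only [coeff_mul]
    exact Finset.analyticAt_fun_sum _ fun x _ => (hP.an _).mul (hQ.an _)
  refine ⟨?_, han, fun i => ?_⟩
  · obtain ⟨n, hn⟩ := hP.deg
    obtain ⟨m, hm⟩ := hQ.deg
    exact ⟨n + m, fun a => natDegree_mul_le.trans (add_le_add (hn a) (hm a))⟩
  · rw [coeff_mul]
    have h1 : ∀ x : ℕ × ℕ, P.coeff x.1 * Q.coeff x.2 =
        gm (fun a => (F a).coeff x.1 * (G a).coeff x.2) ((hP.an _).mul (hQ.an _)) := by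
      intro x
      rw [← hP.eq, ← hQ.eq, gm_mul]; rfl
    rw [Finset.sum_congr rfl fun x _ => h1 x]
    obtain ⟨h', e⟩ := gm_sum' (Finset.HasAntidiagonal.antidiagonal i)
      (fun (x : ℕ × ℕ) a => (F a).coeff x.1 * (G a).coeff x.2)
      (fun x => (hP.an _).mul (hQ.an _))
    rw [e, gm_eq_gm]
    exact Eventually.of_forall fun a => by simp only [coeff_mul]

lemma deriv (hP : Rep P F) : Rep (derivative P) (fun a => derivative (F a)) := by
  have han : ∀ i, AnalyticAt ℂ (fun a => (derivative (F a)).coeff i) 0 := by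
    intro i
    simp only [coeff_derivative]
    exact (hP.an _).mul analyticAt_const
  refine ⟨?_, han, fun i => ?_⟩
  · obtain ⟨n, hn⟩ := hP.deg
    exact ⟨n, fun a => (natDegree_derivative_le _).trans ((Nat.sub_le _ _).trans (hn a))⟩
  · have h1 : ((i : A1) + 1) = gm (fun _ : ℂ => ((i : ℂ) + 1)) analyticAt_const := by
      have := algebraMap_apply (p := (0 : ℂ)) ((i : ℂ) + 1)
      rw [← this]; simp
    rw [coeff_derivative, ← hP.eq, h1, gm_mul, gm_eq_gm]
    exact Eventually.of_forall fun a => by simp [coeff_derivative]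

lemma unique (hP : Rep P F) (hQ : Rep P G) : ∀ᶠ a in 𝓝 (0 : ℂ), F a = G a := by
  obtain ⟨n, hn⟩ := hP.deg
  obtain ⟨m, hm⟩ := hQ.deg
  have h1 : ∀ i ∈ Finset.range (max n m + 1), ∀ᶠ a in 𝓝 (0 : ℂ), (F a).coeff i = (G a).coeff i := by
    intro i _
    exact gm_eq_gm.1 ((hP.eq i).trans (hQ.eq i).symm)
  filter_upwards [(Finset.eventually_all _).2 h1] with a ha
  ext i
  by_cases hi : i < max n m + 1
  · exact ha i (Finset.mem_range.2 hi)
  · rw [coeff_eq_zero_of_natDegree_lt (by have := hn a; omega),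
      coeff_eq_zero_of_natDegree_lt (by have := hm a; omega)]

lemma ext (hP : Rep P F) (hQ : Rep Q G) (h : ∀ᶠ a in 𝓝 (0 : ℂ), F a = G a) : P = Q := by
  refine Polynomial.ext fun i => ?_
  rw [← hP.eq, ← hQ.eq, gm_eq_gm]
  filter_upwards [h] with a ha
  rw [ha]

lemma const {f : ℂ → ℂ} (hf : AnalyticAt ℂ f 0) : Rep (C (gm f hf)) (fun a => C (f a)) := by
  have han : ∀ i, AnalyticAt ℂ (fun a => (C (f a)).coeff i) 0 := by
    intro i
    simp only [coeff_C]
    split_ifs
    · exact hf
    · exact analyticAt_const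
  refine ⟨⟨0, fun a => by simp⟩, han, fun i => ?_⟩
  rw [coeff_C]
  split_ifs with h
  · rw [gm_eq_gm]; exact Eventually.of_forall fun a => by simp [h]
  · rw [gm_zero, gm_eq_gm]; exact Eventually.of_forall fun a => by simp [coeff_C, h]

lemma var : Rep X (fun _ => X) := by
  refine ⟨⟨1, fun a => by simp⟩, fun i => analyticAt_const, fun i => ?_⟩
  rw [coeff_X (R := A1)]
  split_ifs with h
  · rw [gm_one, gm_eq_gm]; exact Eventually.of_forall fun a => by simp [coeff_X, h]
  · rw [gm_zero, gm_eq_gm]; exact Eventually.of_forall fun a => by simp [coeff_X, h]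

lemma one : Rep 1 (fun _ => 1) := by
  have h := const (f := fun _ => (1 : ℂ)) analyticAt_const
  simp only [map_one] at h
  exact h

lemma neg (hP : Rep P F) : Rep (-P) (fun a => -F a) := by
  have h := (const (f := fun _ => (-1 : ℂ)) analyticAt_const).mul hP
  have h1 : (gm (fun _ : ℂ => (-1 : ℂ)) analyticAt_const : A1) = -1 := by
    rw [gm_one, gm_neg, gm_eq_gm]; exact Eventually.of_forall fun a => rfl
  rw [h1] at h
  rw [map_neg, map_one] at h
  have h2 : (-1 : A1[X]) * P = -P := by ring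
  rw [h2] at h
  simp only [map_neg, map_one, neg_mul, one_mul] at h
  exact h

lemma sub (hP : Rep P F) (hQ : Rep Q G) : Rep (P - Q) (fun a => F a - G a) := by
  simp only [sub_eq_add_neg]; exact hP.add hQ.neg

lemma prod {ι : Type*} (s : Finset ι) (P : ι → A1[X]) (F : ι → ℂ → ℂ[X])
    (h : ∀ i, Rep (P i) (F i)) : Rep (∏ i ∈ s, P i) (fun a => ∏ i ∈ s, F i a) := by
  classical
  induction s using Finset.induction_on with
  | empty => simpa using one
  | insert i s hi ih => simpa only [Finset.prod_insert hi] using (h i).mul ih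

lemma sum {ι : Type*} (s : Finset ι) (P : ι → A1[X]) (F : ι → ℂ → ℂ[X])
    (h : ∀ i, Rep (P i) (F i)) : Rep (∑ i ∈ s, P i) (fun a => ∑ i ∈ s, F i a) := by
  classical
  induction s using Finset.induction_on with
  | empty =>
    have h := const (f := fun _ => (0 : ℂ)) analyticAt_const
    simp only [map_zero] at h
    have h1 : (gm (fun _ : ℂ => (0 : ℂ)) analyticAt_const : A1) = 0 := rfl
    rw [h1, map_zero] at h
    simpa using h
  | insert i s hi ih => simpa only [Finset.sum_insert hi] using (h i).add ih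

lemma pow (hP : Rep P F) (n : ℕ) : Rep (P ^ n) (fun a => F a ^ n) := by
  induction n with
  | zero => simpa using one
  | succ n ih => simp only [pow_succ]; exact ih.mul hP

end Rep

lemma exists_rep (P : A1[X]) : ∃ F, Rep P F := by
  choose f hf hfP using fun i => exists_gm (P.coeff i)
  have h := Rep.sum (Finset.range (P.natDegree + 1)) (fun i => C (P.coeff i) * X ^ i)
    (fun i a => C (f i a) * X ^ i) (fun i => by
      rw [← hfP i]; exact (Rep.const (hf i)).mul (Rep.var.pow i))
  rw [← P.as_sum_range_C_mul_X_pow] at h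
  exact ⟨_, h⟩

lemma exists_rep_monic {P : A1[X]} (hP : P.Monic) :
    ∃ F, Rep P F ∧ ∀ a, (F a).Monic ∧ (F a).natDegree = P.natDegree := by
  choose f hf hfP using fun i => exists_gm (P.coeff i)
  have h := Rep.sum (Finset.range P.natDegree) (fun i => C (P.coeff i) * X ^ i)
    (fun i a => C (f i a) * X ^ i) (fun i => by
      rw [← hfP i]; exact (Rep.const (hf i)).mul (Rep.var.pow i))
  have h2 := (Rep.var.pow P.natDegree).add h
  have h3 : X ^ P.natDegree + ∑ i ∈ Finset.range P.natDegree, C (P.coeff i) * X ^ i = P :=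
    hP.as_sum.symm
  rw [h3] at h2
  refine ⟨_, h2, fun a => ?_⟩
  have hdeg : (∑ i ∈ Finset.range P.natDegree, C (f i a) * X ^ i : ℂ[X]).degree < P.natDegree := by
    refine (degree_sum_le _ _).trans_lt ?_
    rw [Finset.sup_lt_iff (by exact WithBot.bot_lt_coe _)]
    intro i hi
    exact (degree_C_mul_X_pow_le _ _).trans_lt (by exact_mod_cast Finset.mem_range.1 hi)
  refine ⟨monic_X_pow_add hdeg, ?_⟩
  have h4 : (X ^ P.natDegree + ∑ i ∈ Finset.range P.natDegree, C (f i a) * X ^ i : ℂ[X]).degree =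
      P.natDegree := by
    rw [degree_add_eq_left_of_degree_lt (by rw [degree_X_pow]; exact hdeg), degree_X_pow]
  exact natDegree_eq_of_degree_eq_some h4

end Crest.Agent.R257.Num488
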