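import Crest.Agent.R257.NumD_488

/-!
Row 257 (S0395), leaf B-NUM, part E (helper488): Newton-Puiseux, main statement.
-/

set_option autoImplicit false
set_option linter.unusedSectionVars false

open Set Filter Topology Metric Polynomial
open Crest.Agent.R275
open Crest.Agent.R275.Loc2879
open Crest.Agent.R257.AJ387

noncomputable section

namespace Crest.Agent.R257.Num488

universe u v w

/-- `P` is a product of linear factors after `z = τ ^ N` -/
def SplitN (N : ℕ) (hN : N ≠ 0) (P : A1[X]) : Prop :=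
  ∃ q : Multiset A1, P.map (kap N hN) = (q.map fun a => X - C a).prod

lemma SplitN.mul {N : ℕ} {hN : N ≠ 0} {P Q : A1[X]} (hP : SplitN N hN P) (hQ : SplitN N hN Q) :
    SplitN N hN (P * Q) := by
  obtain ⟨q, hq⟩ := hP
  obtain ⟨r, hr⟩ := hQ
  exact ⟨q + r, by rw [Polynomial.map_mul, hq, hr, Multiset.map_add, Multiset.prod_add]⟩

lemma SplitN.trans {N M : ℕ} {hN : N ≠ 0} (hM : M ≠ 0) {P : A1[X]} (hP : SplitN N hN P) :
    SplitN (N * M) (mul_ne_zero hN hM) P := by
  obtain ⟨q, hq⟩ := hP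
  refine ⟨q.map (kap M hM), ?_⟩
  have h1 : P.map (kap (N * M) (mul_ne_zero hN hM)) = (P.map (kap N hN)).map (kap M hM) := by
    rw [Polynomial.map_map]
    congr 1
    ext1 x
    exact (kap_kap hN hM x).symm
  rw [h1, hq, Polynomial.map_multiset_prod, Multiset.map_map, Multiset.map_map]
  congr 1
  refine Multiset.map_congr rfl fun a _ => ?_
  simp

lemma SplitN.congr {N M : ℕ} {hN : N ≠ 0} {hM : M ≠ 0} (h : N = M) {P : A1[X]}
    (hP : SplitN N hN P) : SplitN M hM P := by subst h; exact hP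

lemma rep_kap {P : A1[X]} {F : ℂ → ℂ[X]} (h : Rep P F) {N : ℕ} (hN : N ≠ 0) :
    Rep (P.map (kap N hN)) (fun w => F (w ^ N)) := by
  have han : ∀ i, AnalyticAt ℂ (fun w => (F (w ^ N)).coeff i) 0 := fun i =>
    AnalyticAt.comp (g := fun a => (F a).coeff i) (f := fun w : ℂ => w ^ N)
      (by simpa [hN] using h.an i) (analyticAt_id.pow N)
  obtain ⟨n, hn⟩ := h.deg
  refine ⟨⟨n, fun a => hn _⟩, han, fun i => ?_⟩
  rw [coeff_map, ← h.eq]
  rfl

theorem split_sep {P U V : A1[X]} (hP : P.Monic) {r : A1} (hr : r ≠ 0)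
    (h : U * P + V * derivative P = C r) : ∃ (N : ℕ) (hN : N ≠ 0), SplitN N hN P := by
  classical
  obtain ⟨F, hF, hFm⟩ := exists_rep_monic hP
  obtain ⟨G, hG⟩ := exists_rep U
  obtain ⟨H, hH⟩ := exists_rep V
  obtain ⟨ρ, hρ, rfl⟩ := exists_gm r
  set d := P.natDegree with hd
  have e1 := ((hG.mul hF).add (hH.mul hF.deriv))
  rw [h] at e1
  have e2 := (Rep.const hρ).unique e1
  have e3 : ∀ᶠ a in 𝓝 (0 : ℂ), a ≠ 0 → ρ a ≠ 0 := by
    rcases hρ.eventually_eq_zero_or_eventually_ne_zero with h0 | h0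
    · exact absurd (gm_eq_zero.2 h0) hr
    · rw [eventually_nhdsWithin_iff] at h0
      exact h0
  have e4 : ∀ᶠ a in 𝓝 (0 : ℂ), ∀ i ∈ Finset.range (d + 1), AnalyticAt ℂ (fun a => (F a).coeff i) a := by
    rw [Finset.eventually_all]
    exact fun i _ => (hF.an i).eventually_analyticAt
  obtain ⟨r₁, hr₁, hball⟩ := Metric.eventually_nhds_iff.1 (e2.and (e3.and e4))
  have hmem : ∀ p ∈ BD r₁ 1, dist p.1 (0 : ℂ) < r₁ := by
    intro p hp
    rw [dist_zero_right]; exact hp.1
  let 𝒟 : Data d r₁ 1 :=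
    { P := fun p => F p.1
      h₁ := hr₁
      h₂ := one_pos
      monic := fun p _ => (hFm p.1).1
      deg := fun p _ => (hFm p.1).2
      an := by
        intro i p hp
        by_cases hi : i < d + 1
        · have h1 := (hball (hmem p hp)).2.2 i (Finset.mem_range.2 hi)
          exact AnalyticAt.comp (g := fun a => (F a).coeff i) (f := Prod.fst) h1 analyticAt_fst
        · have h1 : (fun p : ℂ × ℂ => (F p.1).coeff i) = fun _ => 0 := by
            funext p
            exact coeff_eq_zero_of_natDegree_lt (by rw [(hFm p.1).2]; omega)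
          rw [h1]; exact analyticAt_const
      nodup := by
        intro p hp hne
        obtain ⟨h1, h2, _⟩ := hball (hmem p hp)
        have h3 := h2 (left_ne_zero_of_mul hne)
        refine Polynomial.nodup_roots ?_
        refine ⟨C (ρ p.1)⁻¹ * G p.1, C (ρ p.1)⁻¹ * H p.1, ?_⟩
        have h4 : C (ρ p.1)⁻¹ * G p.1 * F p.1 + C (ρ p.1)⁻¹ * H p.1 * derivative (F p.1) =
            C (ρ p.1)⁻¹ * (G p.1 * F p.1 + H p.1 * derivative (F p.1)) := by ring
        rw [h4, ← h1, ← C_mul, inv_mul_cancel₀ h3, C_1] }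
  obtain ⟨ζ, hζ, hζP⟩ := 𝒟.abhyankar_jung
  have hN : d.factorial ≠ 0 := Nat.factorial_ne_zero d
  refine ⟨d.factorial, hN, ?_⟩
  have h0 : ((0 : ℂ), (0 : ℂ)) ∈ Data.KD d.factorial r₁ 1 := by
    refine ⟨?_, ?_⟩
    · simp only [norm_zero, zero_pow hN]; exact hr₁
    · simp only [norm_zero, zero_pow hN]; exact one_pos
  have hz : ∀ j, AnalyticAt ℂ (fun w : ℂ => ζ j (w, 0)) 0 := fun j =>
    AnalyticAt.comp (g := ζ j) (f := fun w : ℂ => (w, (0 : ℂ))) (hζ j _ h0)
      (analyticAt_id.prod analyticAt_const)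
  have hrep : Rep (∏ j : Fin d, (X - C (gm (fun w : ℂ => ζ j (w, 0)) (hz j))))
      (fun w => ∏ j : Fin d, (X - C (ζ j (w, 0)))) :=
    Rep.prod _ _ _ fun j => Rep.var.sub (Rep.const (hz j))
  have hnear : ∀ᶠ w in 𝓝 (0 : ℂ), ((w, 0) : ℂ × ℂ) ∈ Data.KD d.factorial r₁ 1 := by
    have hc : Tendsto (fun w : ℂ => ((w, 0) : ℂ × ℂ)) (𝓝 0) (𝓝 (0, 0)) := by
      have : Continuous fun w : ℂ => ((w, 0) : ℂ × ℂ) := by fun_prop
      exact this.tendsto 0
    exact hc ((Data.isOpen_KD _ _ _).mem_nhds h0)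
  have hfin : P.map (kap d.factorial hN) = ∏ j : Fin d, (X - C (gm (fun w : ℂ => ζ j (w, 0)) (hz j))) := by
    refine (rep_kap hF hN).ext hrep ?_
    filter_upwards [hnear] with w hw
    exact hζP _ hw
  refine ⟨Finset.univ.val.map fun j : Fin d => gm (fun w : ℂ => ζ j (w, 0)) (hz j), ?_⟩
  rw [hfin, Multiset.map_map]
  rfl

/-- **Newton-Puiseux** -/
theorem puiseux (P : A1[X]) (hP : P.Monic) : ∃ (N : ℕ) (hN : N ≠ 0), SplitN N hN P := by
  classical
  induction' hn : P.natDegree using Nat.strong_induction_on with n ih generalizing P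
  rcases Nat.eq_zero_or_pos n with h0 | h0
  · have h1 : P = 1 := eq_one_of_monic_natDegree_zero hP (hn.trans h0)
    exact ⟨1, one_ne_zero, 0, by rw [h1]; simp⟩
  let K := FractionRing A1
  have hne : (P.map (algebraMap A1 K)) ≠ 0 := (hP.map _).ne_zero
  have hnu : ¬ IsUnit (P.map (algebraMap A1 K)) := by
    intro hu
    have := natDegree_eq_zero_of_isUnit hu
    rw [hP.natDegree_map] at this
    omega
  obtain ⟨q, hqm, hqi, hqd⟩ := Polynomial.exists_monic_irreducible_factor _ hnu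
  obtain ⟨Q, hQ⟩ := IsIntegrallyClosed.eq_map_mul_C_of_dvd K hP hqd
  rw [hqm.leadingCoeff, C_1, mul_one] at hQ
  have hinj : Function.Injective (algebraMap A1 K) := IsFractionRing.injective A1 K
  have hQm : Q.Monic := by
    refine monic_of_injective hinj ?_
    rw [hQ]; exact hqm
  have hQd : Q ∣ P := by
    rw [← map_dvd_map _ hinj hQm, hQ]; exact hqd
  obtain ⟨P', rfl⟩ := hQd
  have hP' : P'.Monic := hQm.of_mul_monic_left hP
  have hQpos : 0 < Q.natDegree := by
    rw [← hQm.natDegree_map (algebraMap A1 K), hQ]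
    exact hqi.natDegree_pos
  have hdeg : P'.natDegree < n := by
    rw [← hn, hQm.natDegree_mul hP']; omega
  obtain ⟨N₁, hN₁, h₁⟩ := ih _ hdeg P' hP' rfl
  -- the irreducible factor
  have hc1 : CharZero A1 := charZero_of_injective_algebraMap (algebraMap ℂ A1).injective
  have hc2 : CharZero K := charZero_of_injective_algebraMap hinj
  have hsep : q.Separable := hqi.separable
  obtain ⟨u, w, huw⟩ := hsep
  obtain ⟨bu, hbu, hU⟩ := IsLocalization.integerNormalization_spec (nonZeroDivisors A1) u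
  obtain ⟨bw, hbw, hW⟩ := IsLocalization.integerNormalization_spec (nonZeroDivisors A1) w
  set U := IsLocalization.integerNormalization (nonZeroDivisors A1) u
  set W := IsLocalization.integerNormalization (nonZeroDivisors A1) w
  have hr : bu * bw ≠ 0 := mul_ne_zero (nonZeroDivisors.ne_zero hbu) (nonZeroDivisors.ne_zero hbw)
  have key : (C bw * U) * Q + (C bu * W) * derivative Q = C (bu * bw) := by
    apply Polynomial.map_injective (algebraMap A1 K) hinj
    simp only [Polynomial.map_add, Polynomial.map_mul, map_C, hU, hW, hQ, ← derivative_map,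
      Algebra.smul_def]
    have h1 : ∀ x : A1, (algebraMap A1 K[X] x : K[X]) = C (algebraMap A1 K x) := fun x => rfl
    rw [h1, h1, map_mul, C_mul]
    linear_combination (C (algebraMap A1 K bu) * C (algebraMap A1 K bw)) * huw
  obtain ⟨N₂, hN₂, h₂⟩ := split_sep hQm hr key
  refine ⟨N₂ * N₁, mul_ne_zero hN₂ hN₁, ?_⟩
  refine SplitN.mul (h₂.trans hN₁) ?_
  exact (h₁.trans hN₂).congr (mul_comm _ _)

/-- several polynomials at once -/
theorem puiseux_list {ι : Type*} (s : Finset ι) (P : ι → A1[X]) (hP : ∀ i, (P i).Monic) :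
    ∃ (N : ℕ) (hN : N ≠ 0), ∀ i ∈ s, SplitN N hN (P i) := by
  classical
  induction s using Finset.induction_on with
  | empty => exact ⟨1, one_ne_zero, by simp⟩
  | insert i s hi ih =>
    obtain ⟨N, hN, h⟩ := ih
    obtain ⟨M, hM, h'⟩ := puiseux (P i) (hP i)
    refine ⟨N * M, mul_ne_zero hN hM, fun j hj => ?_⟩
    rcases Finset.mem_insert.1 hj with rfl | hj
    · exact (h'.trans hN).congr (mul_comm _ _)
    · exact (h j hj).trans hM

end Crest.Agent.R257.Num488
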