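import Crest.Agent.R257.NumE_488

/-!
Row 257 (S0395), leaf B-NUM, part F (helper488): a finite free algebra over the germs in one
variable has finitely many "branches"; the determinant of a multiplication is the product of its
values on the branches.
-/

set_option autoImplicit false
set_option linter.unusedSectionVars false

open Set Filter Topology Metric Polynomial
open Crest.Agent.R275
open Crest.Agent.R275.Loc2879
open scoped TensorProduct

noncomputable section

namespace Crest.Agent.R257.Num488

universe u v w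

/-- the field of fractions -/
abbrev KK : Type := FractionRing A1

/-- the field of fractions as an algebra through `z = τ ^ N` -/
def Kt (N : ℕ) (_hN : N ≠ 0) : Type := KK

section

variable (N : ℕ) (hN : N ≠ 0)

instance : Field (Kt N hN) := inferInstanceAs (Field KK)

/-- the embedding of the germs in `τ` -/
def jj : A1 →+* Kt N hN := algebraMap A1 KK

lemma jj_injective : Function.Injective (jj N hN) := IsFractionRing.injective A1 KK

instance : Algebra A1 (Kt N hN) := ((jj N hN).comp (kap N hN)).toAlgebra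

lemma algebraMap_Kt (x : A1) : algebraMap A1 (Kt N hN) x = jj N hN (kap N hN x) := rfl

lemma exists_jj_of_root {P : A1[X]} (hP : P.Monic) {x : Kt N hN} (hx : P.eval₂ (jj N hN) x = 0) :
    ∃ y, jj N hN y = x := by
  have h1 : IsIntegral A1 (show KK from x) := ⟨P, hP, hx⟩
  obtain ⟨y, hy⟩ := IsIntegrallyClosed.isIntegral_iff.1 h1
  exact ⟨y, hy⟩

end

variable {M : Type} [CommRing M] [Algebra A1 M] [Module.Finite A1 M] [Module.Free A1 M]

theorem branches : ∃ (N : ℕ) (hN : N ≠ 0) (l : List (M →+* A1)),
    (∀ φ ∈ l, ∀ x : A1, φ (algebraMap A1 M x) = kap N hN x) ∧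
    ∀ c : M, kap N hN (LinearMap.det (LinearMap.mulLeft A1 c)) = (l.map fun φ => φ c).prod := by
  classical
  obtain ⟨ι, hι, b⟩ : ∃ (ι : Type) (_ : Fintype ι), Nonempty (Module.Basis ι A1 M) :=
    ⟨Module.Free.ChooseBasisIndex A1 M, inferInstance, ⟨Module.Free.chooseBasis A1 M⟩⟩
  obtain ⟨b⟩ := b
  -- integrality
  have hint : ∀ m : M, ∃ P : A1[X], P.Monic ∧ aeval m P = 0 := fun m =>
    Algebra.IsIntegral.isIntegral (R := A1) m
  choose P hPm hP0 using hint
  obtain ⟨N, hN, hsplit⟩ := puiseux_list (Finset.univ : Finset ι) (fun i => P (b i))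
    (fun i => hPm (b i))
  let K' := Kt N hN
  let 𝒜 := K' ⊗[A1] M
  let inc : M →+* 𝒜 := (Algebra.TensorProduct.includeRight : M →ₐ[A1] 𝒜).toRingHom
  have hev : ∀ (m : M) (Q : A1[X]), aeval m Q = 0 → aeval (inc m) (Q.map (algebraMap A1 K')) = 0 := by
    intro m Q hQ
    rw [aeval_map_algebraMap]
    have h1 : inc m = (Algebra.TensorProduct.includeRight : M →ₐ[A1] 𝒜) m := rfl
    rw [h1, aeval_algHom_apply, hQ, map_zero]
  let S : Set 𝒜 := Set.range fun i => inc (b i)
  have hS : Submodule.span K' S = ⊤ := by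
    have h1 := (b.baseChange K').span_eq
    rw [← h1]
    congr 1
    ext x
    constructor
    · rintro ⟨i, rfl⟩; exact ⟨i, by rw [Module.Basis.baseChange_apply]; rfl⟩
    · rintro ⟨i, rfl⟩; exact ⟨i, by rw [Module.Basis.baseChange_apply]; rfl⟩
  have hs : ∀ s ∈ S, ∃ q : Multiset K', aeval s (q.map fun a => X - C a).prod = 0 := by
    rintro _ ⟨i, rfl⟩
    obtain ⟨q, hq⟩ := hsplit i (Finset.mem_univ i)
    refine ⟨q.map (jj N hN), ?_⟩
    have h2 : (P (b i)).map (algebraMap A1 K') = ((q.map (jj N hN)).map fun a => X - C a).prod := by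
      have h3 : (P (b i)).map (algebraMap A1 K') = ((P (b i)).map (kap N hN)).map (jj N hN) := by
        rw [Polynomial.map_map]; rfl
      rw [h3, hq, Polynomial.map_multiset_prod, Multiset.map_map, Multiset.map_map]
      congr 1
      refine Multiset.map_congr rfl fun a _ => ?_
      simp
    rw [← h2]
    exact hev _ _ (hP0 _)
  obtain ⟨l, hl⟩ := lin_chars (K := K') S hS hs _ 𝒜 rfl
  -- the branches
  have hbr : ∀ χ : 𝒜 →ₐ[K'] K', ∃ φ : M →+* A1, ∀ m, jj N hN (φ m) = χ (inc m) := by
    intro χ
    have hex : ∀ m : M, ∃ y, jj N hN y = χ (inc m) := by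
      intro m
      refine exists_jj_of_root N hN ((hPm m).map (kap N hN)) ?_
      rw [eval₂_map]
      have h1 := hev m _ (hP0 m)
      have h2 : aeval (χ (inc m)) ((P m).map (algebraMap A1 K')) = 0 := by
        rw [aeval_algHom_apply, h1, map_zero]
      rw [aeval_map_algebraMap, aeval_def] at h2
      exact h2
    choose f hf using hex
    refine ⟨{ toFun := f, map_one' := ?_, map_mul' := ?_, map_zero' := ?_, map_add' := ?_ }, hf⟩
    · apply jj_injective N hN; rw [hf]; simp
    · intro x y; apply jj_injective N hN; rw [hf]; simp [hf]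
    · apply jj_injective N hN; rw [hf]; simp
    · intro x y; apply jj_injective N hN; rw [hf]; simp [hf]
  choose br hbr' using hbr
  refine ⟨N, hN, l.map br, ?_, ?_⟩
  · intro φ hφ x
    obtain ⟨χ, _, rfl⟩ := List.mem_map.1 hφ
    apply jj_injective N hN
    rw [hbr']
    have h1 : inc (algebraMap A1 M x) = algebraMap K' 𝒜 (algebraMap A1 K' x) := by
      have h2 : inc (algebraMap A1 M x) = algebraMap A1 𝒜 x :=
        (Algebra.TensorProduct.includeRight : M →ₐ[A1] 𝒜).commutes x
      rw [h2, IsScalarTower.algebraMap_apply A1 K' 𝒜]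
    rw [h1, AlgHom.commutes]
    rfl
  · intro c
    apply jj_injective N hN
    rw [map_list_prod, List.map_map, List.map_map]
    have h1 : (ml (K := K') 𝒜 (inc c)) = (LinearMap.mulLeft A1 c).baseChange K' := by
      ext x
      change (ml (K := K') 𝒜 (inc c)) ((1 : K') ⊗ₜ[A1] x) =
        (LinearMap.mulLeft A1 c).baseChange K' ((1 : K') ⊗ₜ[A1] x)
      rw [ml_apply, LinearMap.baseChange_tmul, LinearMap.mulLeft_apply, smul_eq_mul]
      change ((1 : K') ⊗ₜ[A1] c : 𝒜) * ((1 : K') ⊗ₜ[A1] x) = _
      rw [Algebra.TensorProduct.tmul_mul_tmul, one_mul]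
    have h2 := hl (inc c)
    rw [h1, LinearMap.det_baseChange, algebraMap_Kt] at h2
    rw [h2]
    congr 1
    refine List.map_congr_left fun χ _ => ?_
    simp [hbr']

end Crest.Agent.R257.Num488
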