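import Crest.Agent.R257.NumF_488

/-!
Row 257 (S0395), leaf B-NUM, part G (helper488): the coordinate `T` is a non zero divisor modulo
`(a,b)` as soon as `(a,b,T)` has finite colength; curves `{a = b = 0}` in three variables.
-/

set_option autoImplicit false
set_option linter.unusedSectionVars false

open Set Filter Topology Metric
open Crest.Agent.R275
open Crest.Agent.R275.Loc2879 hiding AA
open Crest.Agent.R257.UI939

noncomputable section

namespace Crest.Agent.R257.Num488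

universe u v w

lemma evp_xB {n : ℕ} (i : Fin n) : evp (0 : Fin n → ℂ) (xB i) = 0 := by
  by_contra h
  exact xB_not_unit i (Loc2879.isUnit_iff.2 h)

lemma dd_xB {n : ℕ} (i : Fin n) (v : Fin n → ℂ) : dd v (xB i) = algebraMap ℂ _ (v i) := by
  exact dd_lin v (ContinuousLinearMap.proj (R := ℂ) (φ := fun _ : Fin n => ℂ) i)

lemma xB_ne_zero {n : ℕ} (i : Fin n) : xB i ≠ 0 := by
  intro h
  have h1 := dd_xB i (Pi.single i 1)
  rw [h, map_zero, Pi.single_eq_same, map_one] at h1
  exact zero_ne_one h1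

theorem relprime_of_fin {a b : BB 2} (h : Module.Finite ℂ (BB 2 ⧸ Ideal.span {a, b})) :
    IsRelPrime a b := by
  intro d hda hdb
  by_contra hd
  set k := Module.finrank ℂ (BB 2 ⧸ Ideal.span {a, b}) with hk
  have hle : Ideal.span {a, b} ≤ Ideal.span {d} := by
    rw [Ideal.span_le]
    intro x hx
    simp only [mem_insert_iff, mem_singleton_iff] at hx
    rcases hx with rfl | rfl
    · exact Ideal.mem_span_singleton.2 hda
    · exact Ideal.mem_span_singleton.2 hdb
  have hJ := JJ_le_of_finrank (A := BB 2) xB (fun i => xB_not_unit i) (Ideal.span {a, b})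
  have hpow : ∀ i : Fin 2, d ∣ xB i ^ k := by
    intro i
    refine Ideal.mem_span_singleton.1 (hle (hJ (Ideal.subset_span ⟨Pi.single i k, by simp [hk], ?_⟩)))
    unfold mon
    rw [Finset.prod_eq_single i]
    · rw [Pi.single_eq_same]
    · intro j _ hj; rw [Pi.single_eq_of_ne hj, pow_zero]
    · intro hi; exact absurd (Finset.mem_univ _) hi
  have hd0 : d ≠ 0 := by
    rintro rfl
    exact pow_ne_zero k (xB_ne_zero 0) (zero_dvd_iff.1 (hpow 0))
  obtain ⟨q, hq, hqd⟩ := WfDvdMonoid.exists_irreducible_factor hd hd0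
  have hp : Prime q := hq.prime
  have h0 : q ∣ xB (0 : Fin 2) := hp.dvd_of_dvd_pow (hqd.trans (hpow 0))
  have h1 : q ∣ xB (1 : Fin 2) := hp.dvd_of_dvd_pow (hqd.trans (hpow 1))
  have hqe : evp (0 : Fin 2 → ℂ) q = 0 := by
    by_contra h; exact hq.not_isUnit (Loc2879.isUnit_iff.2 h)
  obtain ⟨s, hs⟩ := h0
  have hsu : IsUnit s := by
    rw [Loc2879.isUnit_iff]
    intro h
    have e1 := congrArg (fun x => evp (0 : Fin 2 → ℂ) (dd (Pi.single 0 1) x)) hs
    simp only [dd_xB, Pi.single_eq_same, Derivation.leibniz, smul_eq_mul, map_add, map_mul, hqe, h,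
      zero_mul, add_zero, map_one] at e1
    exact one_ne_zero e1
  obtain ⟨t, ht⟩ : xB (0 : Fin 2) ∣ xB (1 : Fin 2) := by
    obtain ⟨u, rfl⟩ := hsu
    have : q = xB (0 : Fin 2) * ((u⁻¹ : (BB 2)ˣ) : BB 2) := by rw [hs, Units.mul_inv_cancel_right]
    exact Dvd.dvd.trans ⟨_, this⟩ h1
  have e2 := congrArg (fun x => evp (0 : Fin 2 → ℂ) (dd (Pi.single 1 1) x)) ht
  simp only [dd_xB, Pi.single_eq_same, Derivation.leibniz, smul_eq_mul, map_add, map_mul, evp_xB,
    zero_mul, map_one, zero_add] at e2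
  simp at e2

theorem syz {a b : BB 2} (h : IsRelPrime a b) {u v : BB 2} (huv : u * a + v * b = 0) :
    ∃ s, u = b * s ∧ v = -(a * s) := by
  by_cases ha : a = 0
  · subst ha
    have hb : IsUnit b := h (dvd_zero b) dvd_rfl
    obtain ⟨b', rfl⟩ := hb
    refine ⟨(b'⁻¹ : (BB 2)ˣ) * u, by rw [Units.mul_inv_cancel_left], ?_⟩
    rw [mul_zero, zero_add] at huv
    rw [zero_mul, neg_zero]
    exact (mul_eq_zero.1 huv).resolve_right b'.ne_zero
  · have h1 : a ∣ v * b := ⟨-u, by linear_combination huv⟩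
    have h2 : a ∣ v := h.dvd_of_dvd_mul_right h1
    obtain ⟨s, rfl⟩ := h2
    refine ⟨-s, ?_, by ring⟩
    have h3 : a * (u + b * s) = 0 := by linear_combination huv
    have h4 := (mul_eq_zero.1 h3).resolve_left ha
    linear_combination h4

/-- `res0` as an algebra homomorphism -/
def res0A : AA 2 →ₐ[ℂ] BB 2 := { res0 2 with commutes' := fun _ => rfl }

lemma res0A_apply (x : AA 2) : res0A x = res0 2 x := rfl

lemma res0A_surj : Function.Surjective res0A := fun x => ⟨emb 2 x, res0_emb x⟩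

lemma fin_res {a b : AA 2} (h : Module.Finite ℂ (AA 2 ⧸ Ideal.span {a, b, Tv 2})) :
    Module.Finite ℂ (BB 2 ⧸ Ideal.span {res0 2 a, res0 2 b}) := by
  let f : AA 2 →ₐ[ℂ] (BB 2 ⧸ Ideal.span {res0 2 a, res0 2 b}) :=
    (Ideal.Quotient.mkₐ ℂ _).comp res0A
  have hf : ∀ x ∈ Ideal.span {a, b, Tv 2}, f x = 0 := by
    intro x hx
    refine Submodule.span_induction (p := fun x _ => f x = 0) ?_ (map_zero f) ?_ ?_ hx
    · intro y hy
      simp only [mem_insert_iff, mem_singleton_iff] at hy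
      change Ideal.Quotient.mk _ (res0 2 y) = 0
      rw [Ideal.Quotient.eq_zero_iff_mem]
      rcases hy with rfl | rfl | rfl
      · exact Ideal.subset_span (by simp)
      · exact Ideal.subset_span (by simp)
      · rw [res0_T]; exact Ideal.zero_mem _
    · intro y z _ _ hy hz; rw [map_add, hy, hz, add_zero]
    · intro c y _ hy; rw [smul_eq_mul, map_mul, hy, mul_zero]
  refine Module.Finite.of_surjective (Ideal.Quotient.liftₐ _ f hf).toLinearMap ?_
  intro y
  obtain ⟨y, rfl⟩ := Ideal.Quotient.mk_surjective y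
  obtain ⟨x, rfl⟩ := res0A_surj y
  exact ⟨Ideal.Quotient.mk _ x, rfl⟩

theorem reg_T {a b : AA 2} (h : Module.Finite ℂ (AA 2 ⧸ Ideal.span {a, b, Tv 2})) {m : AA 2}
    (hm : Tv 2 * m ∈ Ideal.span {a, b}) : m ∈ Ideal.span {a, b} := by
  have hrp := relprime_of_fin (fin_res h)
  obtain ⟨u, v, huv⟩ := Ideal.mem_span_pair.1 hm
  have h1 : res0 2 u * res0 2 a + res0 2 v * res0 2 b = 0 := by
    rw [← map_mul, ← map_mul, ← map_add, huv, map_mul, res0_T, zero_mul]
  obtain ⟨s, hs1, hs2⟩ := syz hrp h1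
  obtain ⟨a1, ha⟩ := split_T' a
  obtain ⟨b1, hb⟩ := split_T' b
  obtain ⟨u1, hu⟩ := split_T' u
  obtain ⟨v1, hv⟩ := split_T' v
  rw [hs1, map_mul] at hu
  rw [hs2, map_neg, map_mul] at hv
  -- `u = b s + T u'`, `v = - a s + T v'`
  have hu2 : u = b * emb 2 s + Tv 2 * (u1 - b1 * emb 2 s) := by
    linear_combination hu - (emb 2 s) * hb
  have hv2 : v = -(a * emb 2 s) + Tv 2 * (v1 + a1 * emb 2 s) := by
    linear_combination hv + (emb 2 s) * ha
  have hT : Tv 2 ≠ 0 := by
    intro h0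
    have h2 := dd_gm (p := (0 : (Fin 2 → ℂ) × ℂ)) ((0, 1) : (Fin 2 → ℂ) × ℂ)
      (f := Prod.snd) analyticAt_snd
    have h3 : (gm (p := (0 : (Fin 2 → ℂ) × ℂ)) Prod.snd analyticAt_snd) = 0 := h0
    rw [h3, map_zero] at h2
    have h4 := congrArg (evp (0 : (Fin 2 → ℂ) × ℂ)) h2
    rw [map_zero, evp_gm] at h4
    have h5 : fderiv ℂ (Prod.snd : (Fin 2 → ℂ) × ℂ → ℂ) 0 = ContinuousLinearMap.snd ℂ _ _ :=
      fderiv_snd
    rw [h5] at h4
    simp at h4
  have key : Tv 2 * m = Tv 2 * ((u1 - b1 * emb 2 s) * a + (v1 + a1 * emb 2 s) * b) := by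
    rw [← huv]
    linear_combination a * hu2 + b * hv2
  rw [mul_left_cancel₀ hT key]
  exact Ideal.mem_span_pair.2 ⟨_, _, rfl⟩

end Crest.Agent.R257.Num488
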