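import Crest.Agent.R257.NumG_488

/-!
Row 257 (S0395), leaf B-NUM, part H (helper488): branches of the curve `{a = b = 0}` and
intersection multiplicities with it.
-/

set_option autoImplicit false
set_option linter.unusedSectionVars false

open Set Filter Topology Metric
open Crest.Agent.R275
open Crest.Agent.R275.Loc2879 hiding AA
open Crest.Agent.R257.UI939

noncomputable section

namespace Crest.Agent.R257.Num488

universe u v w

/-- the branches of the curve with ideal `I` -/
structure Curve (R : Type) [CommRing R] [Algebra ℂ R] (I : Ideal R) where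
  N : ℕ
  hN : N ≠ 0
  l : List (R →+* A1)
  ker : ∀ φ ∈ l, ∀ x ∈ I, φ x = 0
  cst : ∀ φ ∈ l, ∀ c : ℂ, φ (algebraMap ℂ R c) = algebraMap ℂ A1 c
  reg : ∀ c, (∀ φ ∈ l, φ c ≠ 0) ↔ dl (R ⧸ (I ⊔ Ideal.span {c})) ≠ ⊤
  nzd : ∀ c, (∀ φ ∈ l, φ c ≠ 0) → ∀ m, c * m ∈ I → m ∈ I
  sum : ∀ c, (∀ φ ∈ l, φ c ≠ 0) →
    (N : ℕ∞) * dl (R ⧸ (I ⊔ Ideal.span {c})) = (l.map fun φ => vv (φ c)).sum

section QQ

variable {R : Type u} [CommRing R] [Algebra ℂ R]

lemma dl_quot_quot (I : Ideal R) (c : R) :
    dl ((R ⧸ I) ⧸ Ideal.span {Ideal.Quotient.mk I c}) = dl (R ⧸ (I ⊔ Ideal.span {c})) := by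
  have e := (DoubleQuot.quotQuotEquivQuotSupₐ ℂ I (Ideal.span {c})).toLinearEquiv.length_eq
  rw [Ideal.map_span, Set.image_singleton] at e
  exact e

end QQ

section Tors

variable {M : Type} [CommRing M] [Algebra A1 M] [Algebra ℂ M] [IsScalarTower ℂ A1 M]
  [Module.Finite A1 M] [Module.Free A1 M]

lemma range_mulLeft_A (c : M) :
    dl (M ⧸ LinearMap.range (LinearMap.mulLeft A1 c)) = dl (M ⧸ Ideal.span {c}) := by
  have h : (LinearMap.range (LinearMap.mulLeft A1 c)).restrictScalars ℂ =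
      (Ideal.span {c}).restrictScalars ℂ := by
    ext y
    simp only [Submodule.restrictScalars_mem, LinearMap.mem_range, Ideal.mem_span_singleton',
      LinearMap.mulLeft_apply]
    constructor
    · rintro ⟨z, rfl⟩; exact ⟨z, mul_comm _ _⟩
    · rintro ⟨z, rfl⟩; exact ⟨z, mul_comm _ _⟩
  have e1 : (M ⧸ (LinearMap.range (LinearMap.mulLeft A1 c)).restrictScalars ℂ) ≃ₗ[ℂ]
      (M ⧸ (Ideal.span {c}).restrictScalars ℂ) := Submodule.quotEquivOfEq _ _ h
  exact (((Submodule.Quotient.restrictScalarsEquiv ℂ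
    (LinearMap.range (LinearMap.mulLeft A1 c))).symm.trans e1).trans
    (Submodule.Quotient.restrictScalarsEquiv ℂ (Ideal.span {c}))).length_eq

/-- a finite dimensional module is killed by a non-zero germ -/
lemma exists_annihilator (V : Type v) [AddCommGroup V] [Module A1 V] [Module ℂ V]
    [IsScalarTower ℂ A1 V] [Module.Finite ℂ V] : ∃ a : A1, a ≠ 0 ∧ ∀ x : V, a • x = 0 := by
  have hsc : SMulCommClass A1 ℂ V := ⟨fun a c x => by
    rw [← algebraMap_smul A1 c x, ← algebraMap_smul A1 c (a • x), smul_smul, smul_smul, mul_comm]⟩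
  let ρ : A1 →ₗ[ℂ] (V →ₗ[ℂ] V) :=
    { toFun := fun a => { toFun := fun x => a • x
                          map_add' := fun x y => smul_add _ _ _
                          map_smul' := fun c x => smul_comm _ _ _ }
      map_add' := fun a b => by ext x; exact add_smul _ _ _
      map_smul' := fun c a => by ext x; exact smul_assoc _ _ _ }
  by_contra hcon
  push Not at hcon
  have hinj : Function.Injective ρ := by
    rw [← LinearMap.ker_eq_bot, LinearMap.ker_eq_bot']
    intro a ha
    by_contra h0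
    obtain ⟨x, hx⟩ := hcon a h0
    exact hx (LinearMap.congr_fun ha x)
  have hfin : Module.Finite ℂ A1 := Module.Finite.of_injective ρ hinj
  set n := Module.finrank ℂ A1
  have h1 : dl (A1 ⧸ Ideal.span {(TT (0 : ℂ)) ^ (n + 1)}) = ((n + 1 : ℕ) : ℕ∞) := by
    rw [dl_A1 (pow_ne_zero _ TT_ne_zero), vv_TT_pow]
  have h2 : dl (A1 ⧸ Ideal.span {(TT (0 : ℂ)) ^ (n + 1)}) ≤ dl A1 :=
    Module.length_le_of_surjective (Ideal.Quotient.mkₐ ℂ _).toLinearMap Ideal.Quotient.mk_surjective
  rw [h1, dl, Module.length_eq_finrank] at h2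
  have h3 : n + 1 ≤ n := by exact_mod_cast h2
  omega

lemma finite_of_dl {V : Type v} [AddCommGroup V] [Module ℂ V] (h : dl V ≠ ⊤) :
    Module.Finite ℂ V := by
  rw [Module.length_ne_top_iff] at h
  have := (isFiniteLength_iff_isNoetherian_isArtinian.1 h).1
  infer_instance

lemma dl_ne_top {V : Type v} [AddCommGroup V] [Module ℂ V] [Module.Finite ℂ V] : dl V ≠ ⊤ := by
  rw [dl, Module.length_eq_finrank]; exact ENat.natCast_ne_top _

theorem injective_of_coker (T : M →ₗ[A1] M) (h : dl (M ⧸ LinearMap.range T) ≠ ⊤) :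
    Function.Injective T := by
  have hf := finite_of_dl h
  obtain ⟨a, ha, hk⟩ := exists_annihilator (M ⧸ LinearMap.range T)
  have hsub : ∀ x : M, a • x ∈ LinearMap.range T := by
    intro x
    have := hk (Submodule.Quotient.mk x)
    rw [← Submodule.Quotient.mk_smul, Submodule.Quotient.mk_eq_zero] at this
    exact this
  let b := Module.Free.chooseBasis A1 M
  choose y hy using fun i => hsub (b i)
  let U : M →ₗ[A1] M := b.constr A1 y
  have hTU : T ∘ₗ U = a • LinearMap.id := by
    refine b.ext fun i => ?_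
    rw [LinearMap.comp_apply, Module.Basis.constr_basis, hy, LinearMap.smul_apply, LinearMap.id_apply]
  have hdet : LinearMap.det T * LinearMap.det U = a ^ Module.finrank A1 M := by
    rw [← LinearMap.det_comp, hTU, LinearMap.det_smul, LinearMap.det_id, mul_one]
  have hT : LinearMap.det T ≠ 0 := by
    intro h0
    rw [h0, zero_mul] at hdet
    exact pow_ne_zero _ ha hdet.symm
  rw [← LinearMap.ker_eq_bot]
  by_contra hne
  exact hT (LinearMap.det_eq_zero_iff_ker_ne_bot.2 hne)

lemma det_ne_zero_iff (T : M →ₗ[A1] M) : LinearMap.det T ≠ 0 ↔ Function.Injective T := by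
  rw [← LinearMap.ker_eq_bot, Ne, LinearMap.det_eq_zero_iff_ker_ne_bot, not_not]

end Tors

section Main

variable (a b : AA 2)

/-- the algebra of the curve -/
def MM : Type := AA 2 ⧸ Ideal.span {a, b}

instance : CommRing (MM a b) := inferInstanceAs (CommRing (AA 2 ⧸ Ideal.span {a, b}))
instance : Algebra ℂ (MM a b) := inferInstanceAs (Algebra ℂ (AA 2 ⧸ Ideal.span {a, b}))
instance : Module (AA 2) (MM a b) := inferInstanceAs (Module (AA 2) (AA 2 ⧸ Ideal.span {a, b}))
instance : Algebra A1 (MM a b) := ((Ideal.Quotient.mk (Ideal.span {a, b})).comp (par 2)).toAlgebra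
instance : IsScalarTower ℂ A1 (MM a b) := IsScalarTower.of_algebraMap_eq fun _ => rfl

/-- the quotient map -/
def qq : AA 2 →+* MM a b := Ideal.Quotient.mk (Ideal.span {a, b})

lemma qq_surj : Function.Surjective (qq a b) := Ideal.Quotient.mk_surjective

lemma qq_eq_zero {x : AA 2} : qq a b x = 0 ↔ x ∈ Ideal.span {a, b} :=
  Ideal.Quotient.eq_zero_iff_mem

lemma smul_MM (x : A1) (y : AA 2) : x • qq a b y = qq a b (par 2 x * y) := by
  rw [Algebra.smul_def]; rfl

lemma par_TT : par 2 (TT 0) = Tv 2 := by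
  rw [TT, par, pull_gm, Tv, gm_eq_gm]
  exact Eventually.of_forall fun p => by simp

lemma span_triple (c : AA 2) : Ideal.span {a, b} ⊔ Ideal.span {c} = Ideal.span {a, b, c} := by
  rw [← Ideal.span_union]
  congr 1
  ext x; simp; tauto

variable {a b}

theorem finite_MM (h : Module.Finite ℂ (AA 2 ⧸ Ideal.span {a, b, Tv 2})) :
    Module.Finite A1 (MM a b) := by
  classical
  have hFG : FG (RingHom.id (AA 2)) (MM a b) := by
    refine ⟨1, fun _ => (1 : MM a b), fun m => ?_⟩
    obtain ⟨x, rfl⟩ := qq_surj a b m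
    refine ⟨fun _ => x, ?_⟩
    simp only [Finset.univ_unique, Fin.default_eq_zero, RingHom.id_apply, Finset.sum_const,
      Finset.card_singleton, one_smul]
    have h5 : x • (1 : MM a b) = qq a b (x * 1) := rfl
    rw [h5, mul_one]
  have hX : ∀ i : Fin 2, ¬ IsUnit (Xv i) := by
    intro i; rw [Xv, isUnit_gm]; simp
  have hJ := JJ_le_of_finrank (A := AA 2) Xv hX (Ideal.span {a, b, Tv 2})
  set k := Module.finrank ℂ (AA 2 ⧸ Ideal.span {a, b, Tv 2}) with hk
  have hpow : ∀ i : Fin 2, Xv i ^ k ∈ Ideal.span {a, b, Tv 2} := by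
    intro i
    refine hJ (Ideal.subset_span ⟨Pi.single i k, by simp [hk], ?_⟩)
    unfold mon
    rw [Finset.prod_eq_single i]
    · rw [Pi.single_eq_same]
    · intro j _ hj; rw [Pi.single_eq_of_ne hj, pow_zero]
    · intro hi; exact absurd (Finset.mem_univ _) hi
  obtain ⟨n, g, hg⟩ := fin_all hFG (fun i => ⟨k, fun m => by
    obtain ⟨x, rfl⟩ := qq_surj a b m
    have h1 := hpow i
    rw [← span_triple, Submodule.mem_sup] at h1
    obtain ⟨y, hy, z, hz, hyz⟩ := h1
    obtain ⟨t, rfl⟩ := Ideal.mem_span_singleton'.1 hz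
    refine ⟨qq a b (t * x), ?_⟩
    have h2 : ∀ (p q : AA 2), p • qq a b q = qq a b (p * q) := fun p q => rfl
    rw [h2, h2, ← hyz, add_mul, map_add]
    have h3 : qq a b (y * x) = 0 := (qq_eq_zero a b).2 (Ideal.mul_mem_right _ _ hy)
    rw [h3, zero_add]
    congr 1; ring⟩)
  refine ⟨⟨Finset.univ.image g, ?_⟩⟩
  rw [eq_top_iff]
  intro m _
  obtain ⟨c, hc⟩ := hg m
  rw [hc]
  refine Submodule.sum_mem _ fun i _ => ?_
  have h4 : par 2 (c i) • g i = c i • g i := by
    obtain ⟨x, hx⟩ := qq_surj a b (g i)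
    rw [← hx, smul_MM]; rfl
  rw [h4]
  exact Submodule.smul_mem _ _ (Submodule.subset_span (by simp))

theorem free_MM (h : Module.Finite ℂ (AA 2 ⧸ Ideal.span {a, b, Tv 2})) :
    Module.Free A1 (MM a b) := by
  have h1 := finite_MM h
  have hT : ∀ n : ℕ, ∀ m : AA 2, Tv 2 ^ n * m ∈ Ideal.span {a, b} → m ∈ Ideal.span {a, b} := by
    intro n
    induction n with
    | zero => intro m hm; simpa using hm
    | succ n ih =>
      intro m hm
      refine ih _ (reg_T h ?_)
      rwa [← mul_assoc, ← pow_succ']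
  have h2 : Module.IsTorsionFree A1 (MM a b) := by
    rw [Module.isTorsionFree_iff_smul_eq_zero]
    intro x m hxm
    by_cases hx : x = 0
    · exact Or.inl hx
    · right
      obtain ⟨y, rfl⟩ := qq_surj a b m
      obtain ⟨n, u, rfl⟩ := exists_pow_mul x hx
      rw [smul_MM, qq_eq_zero, map_mul, map_pow, par_TT, mul_assoc] at hxm
      have h3 := hT n _ hxm
      rw [qq_eq_zero]
      have h4 : y = par 2 ((u⁻¹ : A1ˣ) : A1) * (par 2 (u : A1) * y) := by
        rw [← mul_assoc, ← map_mul, Units.inv_mul, map_one, one_mul]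
      rw [h4]
      exact Ideal.mul_mem_left _ _ h3
  exact Module.free_iff_isTorsionFree.2 h2

end Main

end Crest.Agent.R257.Num488
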