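import Crest.Agent.R257.NumH_488

/-!
Row 257 (S0395), leaf B-NUM, part I (helper488): the curve structure on `AA 2 / (a,b)` and its
transport to `O_3`.
-/

set_option autoImplicit false
set_option linter.unusedSectionVars false

open Set Filter Topology Metric
open Crest.Agent.R275
open Crest.Agent.R275.Loc2879 hiding AA
open Crest.Agent.R257.UI939

noncomputable section

namespace Crest.Agent.R257.Num488

universe u v w

lemma list_sum_vv {M : Type} [CommRing M] (l : List (M →+* A1)) (c : M) :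
    vv ((l.map fun φ => φ c).prod) = (l.map fun φ => vv (φ c)).sum := by
  induction l with
  | nil => simp [vv_unit]
  | cons φ l ih => simp only [List.map_cons, List.prod_cons, List.sum_cons, vv_mul, ih]

theorem curve_AA {a b : AA 2} (h : Module.Finite ℂ (AA 2 ⧸ Ideal.span {a, b, Tv 2})) :
    Nonempty (Curve (AA 2) (Ideal.span {a, b})) := by
  have h1 := finite_MM h
  have h2 := free_MM h
  obtain ⟨N, hN, l, hl1, hl2⟩ := branches (M := MM a b)
  have hdl : ∀ c : AA 2, dl (MM a b ⧸ LinearMap.range (LinearMap.mulLeft A1 (qq a b c))) =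
      dl (AA 2 ⧸ (Ideal.span {a, b} ⊔ Ideal.span {c})) := by
    intro c
    rw [range_mulLeft_A]
    exact dl_quot_quot (Ideal.span {a, b}) c
  have hker : ∀ (φ : MM a b →+* A1) (x : AA 2), x ∈ Ideal.span {a, b} → φ (qq a b x) = 0 := by
    intro φ x hx
    rw [(qq_eq_zero a b).2 hx, map_zero]
  have hall : ∀ c : AA 2, (∀ φ ∈ l.map (fun φ => φ.comp (qq a b)), φ c ≠ 0) ↔
      LinearMap.det (LinearMap.mulLeft A1 (qq a b c)) ≠ 0 := by
    intro c
    have e1 : LinearMap.det (LinearMap.mulLeft A1 (qq a b c)) ≠ 0 ↔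
        (l.map fun φ => φ (qq a b c)).prod ≠ 0 := by
      rw [← hl2, Ne, Ne, map_eq_zero_iff _ (kap_injective hN)]
    rw [e1, Ne, List.prod_eq_zero_iff]
    simp only [List.mem_map, forall_exists_index, and_imp, forall_apply_eq_imp_iff₂,
      RingHom.comp_apply, not_exists, not_and]
  refine ⟨⟨N, hN, l.map (fun φ => φ.comp (qq a b)), ?_, ?_, ?_, ?_, ?_⟩⟩
  · intro φ hφ x hx
    obtain ⟨ψ, _, rfl⟩ := List.mem_map.1 hφ
    exact hker ψ x hx
  · intro φ hφ c
    obtain ⟨ψ, hψ, rfl⟩ := List.mem_map.1 hφ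
    have e1 : qq a b (algebraMap ℂ (AA 2) c) = algebraMap A1 (MM a b) (algebraMap ℂ A1 c) := by
      change qq a b (algebraMap ℂ (AA 2) c) = qq a b (par 2 (algebraMap ℂ A1 c))
      congr 1
    rw [RingHom.comp_apply, e1, hl1 ψ hψ, kap_algebraMap]
  · intro c
    rw [hall, det_ne_zero_iff, ← hdl]
    constructor
    · intro hinj
      rw [dl_coker _ hinj, Ne, vv_eq_top]
      exact det_ne_zero_of_injective _ hinj
    · intro hfin
      exact injective_of_coker _ hfin
  · intro c hc m hm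
    have hinj := (det_ne_zero_iff _).1 ((hall c).1 hc)
    rw [← qq_eq_zero]
    apply hinj
    rw [map_zero, LinearMap.mulLeft_apply, ← map_mul, qq_eq_zero]
    exact hm
  · intro c hc
    have hinj := (det_ne_zero_iff _).1 ((hall c).1 hc)
    rw [← hdl, dl_coker _ hinj, ← vv_kap hN, hl2, list_sum_vv, List.map_map]
    rfl

lemma dl_trans {R S : Type} [CommRing R] [Algebra ℂ R] [CommRing S] [Algebra ℂ S]
    (e : R ≃ₐ[ℂ] S) (I : Ideal S) (c : R) :
    dl (R ⧸ (I.comap e.toRingHom ⊔ Ideal.span {c})) = dl (S ⧸ (I ⊔ Ideal.span {e c})) := by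
  have h1 : I ⊔ Ideal.span {e c} =
      Ideal.map (e : R →+* S) (I.comap e.toRingHom ⊔ Ideal.span {c}) := by
    rw [Ideal.map_sup, Ideal.map_span, Set.image_singleton]
    congr 1
    exact (Ideal.map_comap_of_surjective _ e.surjective I).symm
  exact (Ideal.quotientEquivAlg _ _ e h1).toLinearEquiv.length_eq

/-- transport of a curve -/
def Curve.trans {R S : Type} [CommRing R] [Algebra ℂ R] [CommRing S] [Algebra ℂ S]
    (e : R ≃ₐ[ℂ] S) {I : Ideal S} (C : Curve S I) : Curve R (I.comap e.toRingHom) where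
  N := C.N
  hN := C.hN
  l := C.l.map (fun φ => φ.comp e.toRingHom)
  ker := by
    intro φ hφ x hx
    obtain ⟨ψ, hψ, rfl⟩ := List.mem_map.1 hφ
    exact C.ker ψ hψ _ hx
  cst := by
    intro φ hφ c
    obtain ⟨ψ, hψ, rfl⟩ := List.mem_map.1 hφ
    have := C.cst ψ hψ c
    rw [← this]
    change ψ (e (algebraMap ℂ R c)) = _
    rw [AlgEquiv.commutes]
  reg := by
    intro c
    rw [dl_trans, ← C.reg]
    simp only [List.mem_map, forall_exists_index, and_imp, forall_apply_eq_imp_iff₂,
      RingHom.comp_apply]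
    rfl
  nzd := by
    intro c hc m hm
    refine C.nzd (e c) (fun φ hφ => ?_) (e m) ?_
    · exact hc (φ.comp e.toRingHom) (List.mem_map.2 ⟨φ, hφ, rfl⟩)
    · rw [← map_mul]; exact hm
  sum := by
    intro c hc
    rw [dl_trans, List.map_map]
    refine C.sum (e c) (fun φ hφ => ?_)
    exact hc (φ.comp e.toRingHom) (List.mem_map.2 ⟨φ, hφ, rfl⟩)

end Crest.Agent.R257.Num488
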