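import Mathlib

/-!
# Row 257 (S0395), task C-ORDK (helper82), file 1: divergence on boxes and the kill

* `Box a b ρ p₀`   : `(ρ/2)^a ≤ |p.1 - p₀.1| < ρ^a`, `(ρ/2)^b ≤ |p.2 - p₀.2| < ρ^b`;
* `box_div`        : `F ≥ c ρ^(-2a-2b)` on the boxes at `p₀`  ⇒  `∫_W F = ∞` for every `W ∈ 𝓝 p₀`;
* `kill`           : `v = μ H'`, `∫ |v|² w < ∞`, `|μ|² w ≥ c ρ^(-2a-2b)` on the boxes ⇒ `H' p₀ = 0`;
* `kill_max`       : the same with `w = e^(-Φ) den`, `Φ` at most a maximum of linear forms.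
-/

set_option autoImplicit false

noncomputable section

open Set Filter Topology MeasureTheory Metric
open scoped ENNReal

namespace Crest.Agent.R257.OrdK_82

/-- the box of scale `ρ` at `p₀` in the direction `(a, b)` -/
def Box (a b ρ : ℝ) (p₀ : ℂ × ℂ) : Set (ℂ × ℂ) :=
  {p | ((ρ / 2) ^ a ≤ ‖p.1 - p₀.1‖ ∧ ‖p.1 - p₀.1‖ < ρ ^ a) ∧
    ((ρ / 2) ^ b ≤ ‖p.2 - p₀.2‖ ∧ ‖p.2 - p₀.2‖ < ρ ^ b)}

/-- one factor -/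
def Ann (a ρ : ℝ) (z₀ : ℂ) : Set ℂ := {z | (ρ / 2) ^ a ≤ ‖z - z₀‖ ∧ ‖z - z₀‖ < ρ ^ a}

theorem Box_eq (a b ρ : ℝ) (p₀ : ℂ × ℂ) : Box a b ρ p₀ = Ann a ρ p₀.1 ×ˢ Ann b ρ p₀.2 := rfl

theorem Ann_eq (a ρ : ℝ) (z₀ : ℂ) : Ann a ρ z₀ = ball z₀ (ρ ^ a) \ ball z₀ ((ρ / 2) ^ a) := by
  ext z
  simp only [Ann, Set.mem_ofPred_eq, Set.mem_sdiff, mem_ball, dist_eq_norm, not_lt]
  exact and_comm

theorem meas_Ann (a ρ : ℝ) (z₀ : ℂ) : MeasurableSet (Ann a ρ z₀) := by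
  rw [Ann_eq]; exact measurableSet_ball.diff measurableSet_ball

theorem meas_Box (a b ρ : ℝ) (p₀ : ℂ × ℂ) : MeasurableSet (Box a b ρ p₀) :=
  (meas_Ann a ρ p₀.1).prod (meas_Ann b ρ p₀.2)

/-- the volume constant -/
def kA (a : ℝ) : ℝ := Real.pi * (1 - (1 / 2 : ℝ) ^ (2 * a))

theorem kA_pos {a : ℝ} (ha : 0 < a) : 0 < kA a := by
  have h : (1 / 2 : ℝ) ^ (2 * a) < 1 :=
    Real.rpow_lt_one (by norm_num) (by norm_num) (by linarith)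
  unfold kA
  have := Real.pi_pos
  apply mul_pos this
  linarith

theorem vol_Ann {a ρ : ℝ} (ha : 0 < a) (hρ : 0 < ρ) (z₀ : ℂ) :
    volume (Ann a ρ z₀) = ENNReal.ofReal (kA a * ρ ^ (2 * a)) := by
  have h1 : (ρ / 2) ^ a ≤ ρ ^ a := Real.rpow_le_rpow (by linarith) (by linarith) ha.le
  have h2 : ball z₀ ((ρ / 2) ^ a) ⊆ ball z₀ (ρ ^ a) := ball_subset_ball h1
  have e1 : ∀ r : ℝ, 0 ≤ r → volume (ball z₀ r) = ENNReal.ofReal (Real.pi * r ^ 2) := by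
    intro r hr
    rw [Complex.volume_ball, ENNReal.ofReal_mul Real.pi_pos.le, mul_comm,
      ENNReal.ofReal_pow hr]
    congr 1
    rw [← NNReal.coe_real_pi, ENNReal.ofReal_coe_nnreal]
  rw [Ann_eq, measure_sdiff h2 measurableSet_ball.nullMeasurableSet
    (by rw [e1 _ (by positivity)]; exact ENNReal.ofReal_ne_top), e1 _ (by positivity),
    e1 _ (by positivity), ← ENNReal.ofReal_sub _ (by positivity)]
  congr 1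
  unfold kA
  have e2 : (ρ ^ a) ^ 2 = ρ ^ (2 * a) := by
    rw [← Real.rpow_natCast (ρ ^ a) 2, ← Real.rpow_mul hρ.le]
    congr 1; push_cast; ring
  have e3 : ((ρ / 2) ^ a) ^ 2 = ρ ^ (2 * a) * (1 / 2 : ℝ) ^ (2 * a) := by
    rw [← Real.rpow_natCast ((ρ / 2) ^ a) 2, ← Real.rpow_mul (by positivity),
      ← Real.mul_rpow hρ.le (by norm_num)]
    congr 1
    · ring
    · push_cast; ring
  rw [e2, e3]; ring

theorem vol_Box {a b ρ : ℝ} (ha : 0 < a) (hb : 0 < b) (hρ : 0 < ρ) (p₀ : ℂ × ℂ) :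
    volume (Box a b ρ p₀) = ENNReal.ofReal (kA a * kA b * ρ ^ (2 * a + 2 * b)) := by
  rw [Box_eq, Measure.volume_eq_prod, Measure.prod_prod, vol_Ann ha hρ, vol_Ann hb hρ,
    ← ENNReal.ofReal_mul (by have := kA_pos ha; positivity)]
  congr 1
  rw [Real.rpow_add hρ]; ring

/-- boxes are in small neighbourhoods -/
theorem Box_subset {a b : ℝ} (ha : 0 < a) (hb : 0 < b) {p₀ : ℂ × ℂ} {W : Set (ℂ × ℂ)}
    (hW : W ∈ 𝓝 p₀) : ∃ ρ₀ > 0, ∀ ρ, 0 < ρ → ρ ≤ ρ₀ → Box a b ρ p₀ ⊆ W := by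
  obtain ⟨ε, hε, hεW⟩ := Metric.mem_nhds_iff.1 hW
  have hta : Tendsto (fun ρ : ℝ => ρ ^ a) (𝓝[>] 0) (𝓝 0) := by
    have := (Real.continuousAt_rpow_const 0 a (Or.inr ha.le)).tendsto
    rw [Real.zero_rpow ha.ne'] at this
    exact this.mono_left nhdsWithin_le_nhds
  have htb : Tendsto (fun ρ : ℝ => ρ ^ b) (𝓝[>] 0) (𝓝 0) := by
    have := (Real.continuousAt_rpow_const 0 b (Or.inr hb.le)).tendsto
    rw [Real.zero_rpow hb.ne'] at this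
    exact this.mono_left nhdsWithin_le_nhds
  have h1 : ∀ᶠ ρ : ℝ in 𝓝[>] 0, ρ ^ a < ε ∧ ρ ^ b < ε :=
    (hta.eventually (gt_mem_nhds hε)).and (htb.eventually (gt_mem_nhds hε))
  obtain ⟨ρ₀, hρ₀, h2⟩ := (mem_nhdsGT_iff_exists_Ioc_subset (a := (0 : ℝ))).1 h1
  refine ⟨ρ₀, hρ₀, fun ρ hρ hρρ p hp => hεW ?_⟩
  have h3 := h2 ⟨hρ, hρρ⟩
  rw [mem_ball, Prod.dist_eq, max_lt_iff, dist_eq_norm, dist_eq_norm]
  exact ⟨hp.1.2.trans h3.1, hp.2.2.trans h3.2⟩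

/-- boxes of dyadic scales are disjoint -/
theorem Box_disj {a b : ℝ} (ha : 0 < a) (p₀ : ℂ × ℂ) {ρ₀ : ℝ} (hρ₀ : 0 < ρ₀) :
    Pairwise (Function.onFun Disjoint fun k : ℕ => Box a b (ρ₀ * (1 / 2) ^ k) p₀) := by
  have key : ∀ k l : ℕ, k < l → Disjoint (Box a b (ρ₀ * (1 / 2) ^ k) p₀)
      (Box a b (ρ₀ * (1 / 2) ^ l) p₀) := by
    intro k l hkl
    rw [Set.disjoint_left]
    intro p hp hq
    have h1 := hp.1.1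
    have h2 := hq.1.2
    have h3 : (ρ₀ * (1 / 2) ^ l) ≤ (ρ₀ * (1 / 2) ^ k) / 2 := by
      have h4 : ((1 : ℝ) / 2) ^ l ≤ (1 / 2) ^ (k + 1) :=
        pow_le_pow_of_le_one (by norm_num) (by norm_num) hkl
      calc ρ₀ * (1 / 2) ^ l ≤ ρ₀ * (1 / 2) ^ (k + 1) := mul_le_mul_of_nonneg_left h4 hρ₀.le
        _ = _ := by ring
    have h5 : (ρ₀ * (1 / 2) ^ l) ^ a ≤ ((ρ₀ * (1 / 2) ^ k) / 2) ^ a :=
      Real.rpow_le_rpow (by positivity) h3 ha.le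
    linarith
  intro k l hkl
  rcases lt_or_gt_of_ne hkl with h | h
  · exact key k l h
  · exact (key l k h).symm

/-- **divergence on boxes** -/
theorem box_div {a b : ℝ} (ha : 0 < a) (hb : 0 < b) {p₀ : ℂ × ℂ} {W : Set (ℂ × ℂ)}
    (hW : ∃ ρ₁ > 0, ∀ ρ, 0 < ρ → ρ ≤ ρ₁ → Box a b ρ p₀ ⊆ W) {F : ℂ × ℂ → ℝ≥0∞} {c : ℝ} (hc : 0 < c)
    (hF : ∃ ρ₁ > 0, ∀ ρ, 0 < ρ → ρ ≤ ρ₁ → ∀ p ∈ Box a b ρ p₀,
      ENNReal.ofReal (c * ρ ^ (-(2 * a + 2 * b))) ≤ F p) :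
    ∫⁻ p in W, F p = ⊤ := by
  obtain ⟨ρ₁, hρ₁, h1⟩ := hW
  obtain ⟨ρ₂, hρ₂, h2⟩ := hF
  set ρ₀ := min ρ₁ ρ₂ with hρ₀
  have hρ₀p : 0 < ρ₀ := lt_min hρ₁ hρ₂
  set A : ℕ → Set (ℂ × ℂ) := fun k => Box a b (ρ₀ * (1 / 2) ^ k) p₀ with hA
  have hsc : ∀ k : ℕ, 0 < ρ₀ * (1 / 2) ^ k ∧ ρ₀ * (1 / 2) ^ k ≤ ρ₀ := by
    intro k
    refine ⟨by positivity, ?_⟩
    have : ((1 : ℝ) / 2) ^ k ≤ 1 := pow_le_one₀ (by norm_num) (by norm_num)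
    nlinarith
  have hsub : (⋃ k, A k) ⊆ W := by
    refine iUnion_subset fun k => h1 _ (hsc k).1 ((hsc k).2.trans (min_le_left _ _))
  set κ : ℝ := c * (kA a * kA b) with hκ
  have hκp : 0 < κ := mul_pos hc (mul_pos (kA_pos ha) (kA_pos hb))
  have hlow : ∀ k, ENNReal.ofReal κ ≤ ∫⁻ p in A k, F p := by
    intro k
    set ρ := ρ₀ * (1 / 2) ^ k with hρ
    have hρp : 0 < ρ := (hsc k).1
    calc ENNReal.ofReal κ = ENNReal.ofReal (c * ρ ^ (-(2 * a + 2 * b))) * volume (A k) := by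
          rw [hA]
          simp only
          rw [vol_Box ha hb hρp, ← ENNReal.ofReal_mul (by positivity)]
          congr 1
          rw [hκ]
          have : ρ ^ (-(2 * a + 2 * b)) * ρ ^ (2 * a + 2 * b) = 1 := by
            rw [← Real.rpow_add hρp]; simp
          calc c * (kA a * kA b) = c * (kA a * kA b) * 1 := by ring
            _ = c * (kA a * kA b) * (ρ ^ (-(2 * a + 2 * b)) * ρ ^ (2 * a + 2 * b)) := by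
                rw [this]
            _ = _ := by ring
      _ = ∫⁻ _ in A k, ENNReal.ofReal (c * ρ ^ (-(2 * a + 2 * b))) := by
          rw [setLIntegral_const]
      _ ≤ ∫⁻ p in A k, F p := by
          refine setLIntegral_mono' (meas_Box _ _ _ _) fun p hp => ?_
          exact h2 ρ hρp ((hsc k).2.trans (min_le_right _ _)) p hp
  have h3 : ∫⁻ p in ⋃ k, A k, F p = ∑' k, ∫⁻ p in A k, F p :=
    lintegral_iUnion (fun k => meas_Box _ _ _ _) (Box_disj ha p₀ hρ₀p) F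
  have h4 : ∑' _ : ℕ, ENNReal.ofReal κ = ⊤ :=
    ENNReal.tsum_const_eq_top_of_ne_zero (by simpa using hκp)
  have h5 : (⊤ : ℝ≥0∞) ≤ ∫⁻ p in W, F p := by
    calc (⊤ : ℝ≥0∞) = ∑' _ : ℕ, ENNReal.ofReal κ := h4.symm
      _ ≤ ∑' k, ∫⁻ p in A k, F p := ENNReal.tsum_le_tsum hlow
      _ = ∫⁻ p in ⋃ k, A k, F p := h3.symm
      _ ≤ ∫⁻ p in W, F p := lintegral_mono_set hsub
  exact top_le_iff.1 h5

/-- the boxes avoid the axes through `p₀` -/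
theorem Box_ne {a b ρ : ℝ} (hρ : 0 < ρ) {p₀ p : ℂ × ℂ} (hp : p ∈ Box a b ρ p₀) :
    0 < ‖p.1 - p₀.1‖ ∧ 0 < ‖p.2 - p₀.2‖ := by
  have h1 : 0 < (ρ / 2) ^ a := by positivity
  have h2 : 0 < (ρ / 2) ^ b := by positivity
  exact ⟨h1.trans_le hp.1.1, h2.trans_le hp.2.1⟩

/-- an eventual property off the axes holds on small boxes -/
theorem box_ev {a b : ℝ} (ha : 0 < a) (hb : 0 < b) {p₀ : ℂ × ℂ} {P : ℂ × ℂ → Prop}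
    (h : ∀ᶠ p in 𝓝 p₀, p.1 ≠ p₀.1 → p.2 ≠ p₀.2 → P p) :
    ∃ ρ₀ > 0, ∀ ρ, 0 < ρ → ρ ≤ ρ₀ → ∀ p ∈ Box a b ρ p₀, P p := by
  obtain ⟨ρ₀, h0, h1⟩ := Box_subset ha hb h
  refine ⟨ρ₀, h0, fun ρ hρ hρρ p hp => ?_⟩
  have h2 := Box_ne hρ hp
  exact h1 ρ hρ hρρ hp (sub_ne_zero.1 (norm_pos_iff.1 h2.1)) (sub_ne_zero.1 (norm_pos_iff.1 h2.2))

/-- powers on the boxes, lower bound -/
theorem ann_rpow {a : ℝ} (ha : 0 < a) (s : ℝ) : ∃ κ > 0, ∀ ρ, 0 < ρ → ∀ x : ℝ,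
    (ρ / 2) ^ a ≤ x → x < ρ ^ a → κ * ρ ^ (a * s) ≤ x ^ s := by
  refine ⟨min 1 ((1 / 2 : ℝ) ^ (a * s)), lt_min one_pos (by positivity), fun ρ hρ x h1 h2 => ?_⟩
  have hx : 0 < x := lt_of_lt_of_le (by positivity) h1
  rcases le_or_gt 0 s with hs | hs
  · calc min 1 ((1 / 2 : ℝ) ^ (a * s)) * ρ ^ (a * s) ≤ (1 / 2 : ℝ) ^ (a * s) * ρ ^ (a * s) := by
          gcongr; exact min_le_right _ _
      _ = ((ρ / 2) ^ a) ^ s := by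
          rw [← Real.rpow_mul (by positivity), ← Real.mul_rpow (by norm_num) hρ.le]
          congr 1; ring
      _ ≤ x ^ s := Real.rpow_le_rpow (by positivity) h1 hs
  · calc min 1 ((1 / 2 : ℝ) ^ (a * s)) * ρ ^ (a * s) ≤ 1 * ρ ^ (a * s) := by
          gcongr; exact min_le_left _ _
      _ = (ρ ^ a) ^ s := by rw [one_mul, ← Real.rpow_mul hρ.le]
      _ ≤ x ^ s := Real.rpow_le_rpow_of_nonpos hx h2.le hs.le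

/-- monomials on the boxes, lower bound -/
theorem box_rpow {a b : ℝ} (ha : 0 < a) (hb : 0 < b) (s t : ℝ) : ∃ κ > 0, ∀ ρ, 0 < ρ →
    ∀ p₀ : ℂ × ℂ, ∀ p ∈ Box a b ρ p₀,
      κ * ρ ^ (a * s + b * t) ≤ ‖p.1 - p₀.1‖ ^ s * ‖p.2 - p₀.2‖ ^ t := by
  obtain ⟨κ₁, h1, h2⟩ := ann_rpow ha s
  obtain ⟨κ₂, h3, h4⟩ := ann_rpow hb t
  refine ⟨κ₁ * κ₂, mul_pos h1 h3, fun ρ hρ p₀ p hp => ?_⟩
  have h5 := h2 ρ hρ _ hp.1.1 hp.1.2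
  have h6 := h4 ρ hρ _ hp.2.1 hp.2.2
  calc κ₁ * κ₂ * ρ ^ (a * s + b * t) = (κ₁ * ρ ^ (a * s)) * (κ₂ * ρ ^ (b * t)) := by
        rw [Real.rpow_add hρ]; ring
    _ ≤ _ := mul_le_mul h5 h6 (by positivity) (by positivity)

/-- **kill**, general form: a function `μ H` which is square integrable with a weight `w` such that
`|μ|² w` is not integrable on the boxes at `p₀` has `H p₀ = 0` -/
theorem kill {a b : ℝ} (ha : 0 < a) (hb : 0 < b) {p₀ : ℂ × ℂ} {U : Set (ℂ × ℂ)}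
    (hU : ∀ᶠ p in 𝓝 p₀, p.1 ≠ p₀.1 → p.2 ≠ p₀.2 → p ∈ U) {v μ H : ℂ × ℂ → ℂ} {w : ℂ × ℂ → ℝ}
    (hH : ContinuousAt H p₀)
    (hv : ∀ᶠ p in 𝓝 p₀, p.1 ≠ p₀.1 → p.2 ≠ p₀.2 → v p = μ p * H p) {c : ℝ} (hc : 0 < c)
    (hw : ∃ ρ₁ > 0, ∀ ρ, 0 < ρ → ρ ≤ ρ₁ → ∀ p ∈ Box a b ρ p₀,
      c * ρ ^ (-(2 * a + 2 * b)) ≤ ‖μ p‖ ^ 2 * w p)
    (hL : ∫⁻ p in U, ENNReal.ofReal (‖v p‖ ^ 2 * w p) ≠ ⊤) : H p₀ = 0 := by
  by_contra hne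
  apply hL
  have hpos : 0 < ‖H p₀‖ := norm_pos_iff.2 hne
  have hH1 : ∀ᶠ p in 𝓝 p₀, ‖H p₀‖ / 2 ≤ ‖H p‖ :=
    (hH.norm.eventually (lt_mem_nhds (by linarith : ‖H p₀‖ / 2 < ‖H p₀‖))).mono fun p hp => le_of_lt hp
  obtain ⟨r1, hr1, k1⟩ := box_ev ha hb hU
  obtain ⟨r2, hr2, k2⟩ := box_ev ha hb hv
  obtain ⟨r3, hr3, k3⟩ := box_ev ha hb (P := fun p => ‖H p₀‖ / 2 ≤ ‖H p‖)
    (hH1.mono fun p hp _ _ => hp)
  obtain ⟨r4, hr4, k4⟩ := hw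
  refine box_div ha hb (W := U) ⟨r1, hr1, fun ρ hρ h p hp => k1 ρ hρ h p hp⟩
    (c := (‖H p₀‖ / 2) ^ 2 * c) (by positivity)
    ⟨min r2 (min r3 r4), lt_min hr2 (lt_min hr3 hr4), fun ρ hρ h p hp => ?_⟩
  have e2 := k2 ρ hρ (h.trans (min_le_left _ _)) p hp
  have e3 := k3 ρ hρ (h.trans ((min_le_right _ _).trans (min_le_left _ _))) p hp
  have e4 := k4 ρ hρ (h.trans ((min_le_right _ _).trans (min_le_right _ _))) p hp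
  refine ENNReal.ofReal_le_ofReal ?_
  have e5 : 0 ≤ ‖μ p‖ ^ 2 * w p := le_trans (by positivity) e4
  have e6 : (‖H p₀‖ / 2) ^ 2 ≤ ‖H p‖ ^ 2 := pow_le_pow_left₀ (by positivity) e3 2
  calc (‖H p₀‖ / 2) ^ 2 * c * ρ ^ (-(2 * a + 2 * b))
      = (‖H p₀‖ / 2) ^ 2 * (c * ρ ^ (-(2 * a + 2 * b))) := by ring
    _ ≤ ‖H p‖ ^ 2 * (‖μ p‖ ^ 2 * w p) := mul_le_mul e6 e4 (by positivity) (by positivity)
    _ = ‖v p‖ ^ 2 * w p := by rw [e2, norm_mul]; ring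

/-- the linear form `x log |α|² + y log |β|²` -/
def lin (x y : ℝ) (p₀ p : ℂ × ℂ) : ℝ :=
  x * Real.log (‖p.1 - p₀.1‖ ^ 2) + y * Real.log (‖p.2 - p₀.2‖ ^ 2)

theorem exp_lin {x y : ℝ} {p₀ p : ℂ × ℂ} (h1 : 0 < ‖p.1 - p₀.1‖) (h2 : 0 < ‖p.2 - p₀.2‖) :
    Real.exp (-lin x y p₀ p) = ‖p.1 - p₀.1‖ ^ (-2 * x) * ‖p.2 - p₀.2‖ ^ (-2 * y) := by
  unfold lin
  rw [Real.rpow_def_of_pos h1, Real.rpow_def_of_pos h2, ← Real.exp_add, Real.log_pow, Real.log_pow]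
  congr 1
  push_cast
  ring

/-- **kill** for the weight `e^(-Φ) den`, `Φ` at most a maximum of two linear forms -/
theorem kill_max {a b : ℝ} (ha : 0 < a) (hb : 0 < b) {p₀ : ℂ × ℂ} {U : Set (ℂ × ℂ)}
    (hU : ∀ᶠ p in 𝓝 p₀, p.1 ≠ p₀.1 → p.2 ≠ p₀.2 → p ∈ U) {v μ H : ℂ × ℂ → ℂ}
    {Φ den : ℂ × ℂ → ℝ} (hH : ContinuousAt H p₀)
    (hv : ∀ᶠ p in 𝓝 p₀, p.1 ≠ p₀.1 → p.2 ≠ p₀.2 → v p = μ p * H p)
    {m n ν ν' x₁ y₁ x₂ y₂ C c₁ c₂ : ℝ} (hc₁ : 0 < c₁) (hc₂ : 0 < c₂)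
    (hμ : ∀ᶠ p in 𝓝 p₀, p.1 ≠ p₀.1 → p.2 ≠ p₀.2 →
      c₁ * (‖p.1 - p₀.1‖ ^ m * ‖p.2 - p₀.2‖ ^ n) ≤ ‖μ p‖)
    (hd : ∀ᶠ p in 𝓝 p₀, p.1 ≠ p₀.1 → p.2 ≠ p₀.2 →
      c₂ * (‖p.1 - p₀.1‖ ^ (-2 * ν - 2) * ‖p.2 - p₀.2‖ ^ (-2 * ν' - 2)) ≤ den p)
    (hΦ : ∀ᶠ p in 𝓝 p₀, p.1 ≠ p₀.1 → p.2 ≠ p₀.2 →
      Φ p ≤ max (lin x₁ y₁ p₀ p) (lin x₂ y₂ p₀ p) + C)
    (h1 : a * m + b * n ≤ a * x₁ + b * y₁ + a * ν + b * ν')
    (h2 : a * m + b * n ≤ a * x₂ + b * y₂ + a * ν + b * ν')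
    (hL : ∫⁻ p in U, ENNReal.ofReal (‖v p‖ ^ 2 * Real.exp (-Φ p) * den p) ≠ ⊤) : H p₀ = 0 := by
  obtain ⟨r1, hr1, k1⟩ := box_ev ha hb hμ
  obtain ⟨r2, hr2, k2⟩ := box_ev ha hb hd
  obtain ⟨r3, hr3, k3⟩ := box_ev ha hb hΦ
  obtain ⟨κ₁, hκ₁, l1⟩ := box_rpow ha hb m n
  obtain ⟨κ₂, hκ₂, l2⟩ := box_rpow ha hb (-2 * ν - 2) (-2 * ν' - 2)
  obtain ⟨κ₃, hκ₃, l3⟩ := box_rpow ha hb (-2 * x₁) (-2 * y₁)
  obtain ⟨κ₄, hκ₄, l4⟩ := box_rpow ha hb (-2 * x₂) (-2 * y₂)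
  refine kill ha hb hU hH hv (w := fun p => Real.exp (-Φ p) * den p)
    (c := (c₁ * κ₁) ^ 2 * ((min κ₃ κ₄ * Real.exp (-C)) * (c₂ * κ₂))) (by positivity)
    ⟨min 1 (min r1 (min r2 r3)), by positivity, fun ρ hρ h p hp => ?_⟩ (by simpa [mul_assoc] using hL)
  have hρ1 : ρ ≤ 1 := h.trans (min_le_left _ _)
  have e1 := k1 ρ hρ (h.trans ((min_le_right _ _).trans (min_le_left _ _))) p hp
  have e2 := k2 ρ hρ (h.trans ((min_le_right _ _).trans ((min_le_right _ _).trans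
    (min_le_left _ _)))) p hp
  have e3 := k3 ρ hρ (h.trans ((min_le_right _ _).trans ((min_le_right _ _).trans
    (min_le_right _ _)))) p hp
  obtain ⟨n1, n2⟩ := Box_ne hρ hp
  have f1 := l1 ρ hρ p₀ p hp
  have f2 := l2 ρ hρ p₀ p hp
  have f3 := l3 ρ hρ p₀ p hp
  have f4 := l4 ρ hρ p₀ p hp
  set P : ℝ := a * m + b * n with hP
  set y : ℝ := P - a * ν - b * ν' with hy
  -- the weight
  have g3 : min κ₃ κ₄ * Real.exp (-C) * ρ ^ (-2 * y) ≤ Real.exp (-Φ p) := by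
    have q1 : ρ ^ (-2 * y) ≤ ρ ^ (a * (-2 * x₁) + b * (-2 * y₁)) :=
      Real.rpow_le_rpow_of_exponent_ge hρ hρ1 (by rw [hy]; linarith)
    have q2 : ρ ^ (-2 * y) ≤ ρ ^ (a * (-2 * x₂) + b * (-2 * y₂)) :=
      Real.rpow_le_rpow_of_exponent_ge hρ hρ1 (by rw [hy]; linarith)
    have q3 : min κ₃ κ₄ * ρ ^ (-2 * y) ≤ Real.exp (-lin x₁ y₁ p₀ p) := by
      rw [exp_lin n1 n2]
      refine le_trans ?_ f3
      exact mul_le_mul (min_le_left _ _) q1 (by positivity) hκ₃.le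
    have q4 : min κ₃ κ₄ * ρ ^ (-2 * y) ≤ Real.exp (-lin x₂ y₂ p₀ p) := by
      rw [exp_lin n1 n2]
      refine le_trans ?_ f4
      exact mul_le_mul (min_le_right _ _) q2 (by positivity) hκ₄.le
    have q5 : min κ₃ κ₄ * ρ ^ (-2 * y) ≤
        Real.exp (-max (lin x₁ y₁ p₀ p) (lin x₂ y₂ p₀ p)) := by
      rcases max_cases (lin x₁ y₁ p₀ p) (lin x₂ y₂ p₀ p) with h | h
      · rw [h.1]; exact q3
      · rw [h.1]; exact q4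
    calc min κ₃ κ₄ * Real.exp (-C) * ρ ^ (-2 * y)
        = min κ₃ κ₄ * ρ ^ (-2 * y) * Real.exp (-C) := by ring
      _ ≤ Real.exp (-max (lin x₁ y₁ p₀ p) (lin x₂ y₂ p₀ p)) * Real.exp (-C) :=
          mul_le_mul_of_nonneg_right q5 (Real.exp_pos _).le
      _ = Real.exp (-max (lin x₁ y₁ p₀ p) (lin x₂ y₂ p₀ p) + -C) := (Real.exp_add _ _).symm
      _ ≤ _ := Real.exp_le_exp.2 (by linarith)
  have g1 : c₁ * κ₁ * ρ ^ P ≤ ‖μ p‖ := by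
    refine le_trans ?_ e1
    rw [mul_assoc]
    exact mul_le_mul_of_nonneg_left f1 hc₁.le
  have g2 : c₂ * κ₂ * ρ ^ (a * (-2 * ν - 2) + b * (-2 * ν' - 2)) ≤ den p := by
    refine le_trans ?_ e2
    rw [mul_assoc]
    exact mul_le_mul_of_nonneg_left f2 hc₂.le
  have g1' : (c₁ * κ₁ * ρ ^ P) ^ 2 ≤ ‖μ p‖ ^ 2 := pow_le_pow_left₀ (by positivity) g1 2
  calc (c₁ * κ₁) ^ 2 * ((min κ₃ κ₄ * Real.exp (-C)) * (c₂ * κ₂)) * ρ ^ (-(2 * a + 2 * b))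
      = (c₁ * κ₁ * ρ ^ P) ^ 2 * ((min κ₃ κ₄ * Real.exp (-C) * ρ ^ (-2 * y)) *
          (c₂ * κ₂ * ρ ^ (a * (-2 * ν - 2) + b * (-2 * ν' - 2)))) := by
        have t1 : (ρ ^ P) ^ 2 * (ρ ^ (-2 * y) * ρ ^ (a * (-2 * ν - 2) + b * (-2 * ν' - 2))) =
            ρ ^ (-(2 * a + 2 * b)) := by
          rw [← Real.rpow_natCast (ρ ^ P) 2, ← Real.rpow_mul hρ.le, ← Real.rpow_add hρ,
            ← Real.rpow_add hρ]
          congr 1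
          rw [hy]
          push_cast
          ring
        rw [← t1]
        ring
    _ ≤ ‖μ p‖ ^ 2 * (Real.exp (-Φ p) * den p) := by
        refine mul_le_mul g1' ?_ (by positivity) (by positivity)
        exact mul_le_mul g3 g2 (by positivity) (Real.exp_pos _).le

end Crest.Agent.R257.OrdK_82
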