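import Crest.Agent.R257.OrdL_578

/-!
# Row 257, leaf C-ORDLOC (helper578), part 2: congruence, translation, open mapping
-/

set_option autoImplicit false
set_option linter.unusedSectionVars false

open Set Filter Topology Complex

noncomputable section

namespace Crest.Agent.R257.OrdL_578

theorem Quo.congr {h h' : ℂ × ℂ → ℂ} {b : ℂ} {n : ℕ} {G : ℂ × ℂ → ℂ} (hG : Quo h b n G)
    (he : h =ᶠ[𝓝 ((0 : ℂ), b)] h') : Quo h' b n G := by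
  refine ⟨hG.1, ?_⟩
  filter_upwards [hG.2, he] with q h1 h2
  rw [← h2, h1]

theorem HasOrd.congr {h h' : ℂ × ℂ → ℂ} {b : ℂ} {n : ℕ} (hn : HasOrd h b n)
    (he : h =ᶠ[𝓝 ((0 : ℂ), b)] h') : HasOrd h' b n := by
  obtain ⟨G, hG, hne⟩ := hn
  exact ⟨G, hG.congr he, hne⟩

theorem hasOrd_congr {h h' : ℂ × ℂ → ℂ} {b : ℂ} {n : ℕ}
    (he : h =ᶠ[𝓝 ((0 : ℂ), b)] h') : HasOrd h b n ↔ HasOrd h' b n :=
  ⟨fun hn => hn.congr he, fun hn => hn.congr he.symm⟩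

theorem lc_congr {h h' : ℂ × ℂ → ℂ} {b : ℂ} {n : ℕ} (he : h =ᶠ[𝓝 ((0 : ℂ), b)] h') :
    lc h n b = lc h' n b := by
  have h1 : (fun s : ℂ => h (s, b) / s ^ n) =ᶠ[𝓝[≠] 0] fun s => h' (s, b) / s ^ n := by
    filter_upwards [((tendsto_fst b).eventually he).filter_mono nhdsWithin_le_nhds] with s hs
    rw [hs]
  unfold lc limUnder
  rw [Filter.map_congr h1]

/-- translations -/
theorem chg_trans (b c : ℂ) : Chg (fun q => (q.1, q.2 + c)) (fun _ => 1) b (b + c) where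
  an1 := analyticAt_fst
  an2 := analyticAt_snd.add analyticAt_const
  val := rfl
  uan := analyticAt_const
  une := one_ne_zero
  fst := Eventually.of_forall fun q => by simp
  snd := by
    have h1 : ∀ᶠ z in 𝓝[≠] b, z + c ≠ b + c := by
      filter_upwards [self_mem_nhdsWithin] with z hz
      exact fun h => hz (add_right_cancel h)
    exact (h1.frequently).filter_mono nhdsWithin_le_nhds

theorem hasOrd_trans {h : ℂ × ℂ → ℂ} {b c : ℂ} {n : ℕ} :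
    HasOrd (fun q => h (q.1, q.2 + c)) b n ↔ HasOrd h (b + c) n := by
  constructor
  · intro hn
    have h1 := (chg_trans (b + c) (-c)).hasOrd (h := fun q => h (q.1, q.2 + c)) (n := n)
      (by simpa using hn)
    simpa using h1
  · exact (chg_trans b c).hasOrd

theorem lc_trans {h : ℂ × ℂ → ℂ} {b c : ℂ} {n : ℕ} :
    lc (fun q => h (q.1, q.2 + c)) n b = lc h n (b + c) := rfl

/-- a change of charts, given pointwise -/
theorem HasOrd.of_att {h h' : ℂ × ℂ → ℂ} {φ : ℂ × ℂ → ℂ × ℂ} {u : ℂ × ℂ → ℂ} {b b' : ℂ}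
    (hφ : Chg φ u b b') (he : ∀ᶠ q in 𝓝 ((0 : ℂ), b), h' q = h (φ q)) {n : ℕ}
    (hn : HasOrd h b' n) : HasOrd h' b n :=
  (hφ.hasOrd hn).congr (he.mono fun _ hq => hq.symm)

/-- nonvanishing is transported by a change of charts -/
theorem Chg.not_zero {φ : ℂ × ℂ → ℂ × ℂ} {u : ℂ × ℂ → ℂ} {b b' : ℂ} (hφ : Chg φ u b b')
    {h : ℂ × ℂ → ℂ} (hh : AnalyticAt ℂ h (0, b'))
    (h0 : ¬ ∀ᶠ q in 𝓝 ((0 : ℂ), b'), h q = 0) : ¬ ∀ᶠ q in 𝓝 ((0 : ℂ), b), h (φ q) = 0 := by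
  obtain ⟨n, hn⟩ := exists_ord hh h0
  exact (hφ.hasOrd hn).not_zero

/-- the order of the pull-back determines the order -/
theorem HasOrd.of_att' {h h' : ℂ × ℂ → ℂ} {φ : ℂ × ℂ → ℂ × ℂ} {u : ℂ × ℂ → ℂ} {b b' : ℂ}
    (hφ : Chg φ u b b') (he : ∀ᶠ q in 𝓝 ((0 : ℂ), b), h' q = h (φ q)) {n : ℕ}
    (hh : AnalyticAt ℂ h (0, b')) (hn : HasOrd h' b n) : HasOrd h b' n := by
  have h1 : HasOrd (fun q => h (φ q)) b n := hn.congr he
  refine (hφ.hasOrd_iff hh ?_).1 h1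
  intro h0
  have ht : Tendsto φ (𝓝 ((0 : ℂ), b)) (𝓝 ((0 : ℂ), b')) := by
    have := hφ.an.continuousAt.tendsto
    rwa [hφ.val] at this
  exact h1.not_zero (ht.eventually h0)

/-- leading coefficients under a change of charts given pointwise -/
theorem lc_of_att {h h' : ℂ × ℂ → ℂ} {φ : ℂ × ℂ → ℂ × ℂ} {u : ℂ × ℂ → ℂ} {b b' : ℂ}
    (hφ : Chg φ u b b') (he : ∀ᶠ q in 𝓝 ((0 : ℂ), b), h' q = h (φ q)) {n : ℕ}
    (hn : HasOrd h b' n) : lc h' n b = u (0, b) ^ n * lc h n b' := by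
  obtain ⟨G, hG, -⟩ := hn
  have h1 := (hφ.lc_eq hG).self_of_nhds
  rw [hφ.val] at h1
  rw [lc_congr he]
  exact h1

/-! ### discs and crosses -/

/-- the order along a disc in the special fibre -/
theorem exists_ord_ball {h : ℂ × ℂ → ℂ} {r : ℝ} (han : ∀ z, ‖z‖ < r → AnalyticAt ℂ h (0, z))
    {z₀ : ℂ} (hz₀ : ‖z₀‖ < r) (h0 : ¬ ∀ᶠ q in 𝓝 ((0 : ℂ), z₀), h q = 0) :
    ∃ n, ∀ z, ‖z‖ < r → HasOrd h z n := by
  obtain ⟨n, hn⟩ := exists_ord (han z₀ hz₀) h0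
  have h1 := HasOrd.of_preconnected (K := Metric.ball (0 : ℂ) r) (convex_ball _ _).isPreconnected
    (fun z hz => han z (by simpa using hz)) (b := z₀) (by simpa using hz₀) hn
  exact ⟨n, fun z hz => h1 z (by simpa using hz)⟩

theorem sw_zero {h : ℂ × ℂ → ℂ} {a b : ℂ} :
    (∀ᶠ q in 𝓝 (a, b), sw h q = 0) ↔ ∀ᶠ q in 𝓝 (b, a), h q = 0 :=
  ⟨fun h0 => (sw_tendsto (b, a)).eventually h0, fun h0 => (sw_tendsto (a, b)).eventually h0⟩

theorem sw_sw (h : ℂ × ℂ → ℂ) : sw (sw h) = h := rfl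

theorem sw_an' {h : ℂ × ℂ → ℂ} {a b : ℂ} (hh : AnalyticAt ℂ h (a, b)) :
    AnalyticAt ℂ (sw h) (b, a) := sw_an (p := (b, a)) hh

/-- the orders on the two branches of a cross, from one point of the first branch -/
theorem exists_cross_ball {h : ℂ × ℂ → ℂ} {r : ℝ} (hr : 0 < r)
    (han : ∀ z, ‖z‖ < r → AnalyticAt ℂ h (0, z)) (han' : ∀ z, ‖z‖ < r → AnalyticAt ℂ h (z, 0))
    {z₀ : ℂ} (hz₀ : ‖z₀‖ < r) (h0 : ¬ ∀ᶠ q in 𝓝 ((0 : ℂ), z₀), h q = 0) :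
    ∃ n m, (∀ z, ‖z‖ < r → HasOrd h z n) ∧ (∀ z, ‖z‖ < r → HasOrd (sw h) z m) ∧
      ∃ G, Cross h n m G := by
  obtain ⟨n, hn⟩ := exists_ord_ball han hz₀ h0
  have hr0 : ‖(0 : ℂ)‖ < r := by simpa using hr
  have h1 : ¬ ∀ᶠ q in 𝓝 ((0 : ℂ), (0 : ℂ)), sw h q = 0 := by
    rw [sw_zero]
    exact (hn 0 hr0).not_zero
  obtain ⟨m, hm⟩ := exists_ord_ball (h := sw h) (fun z hz => sw_an' (han' z hz)) hr0 h1
  exact ⟨n, m, hn, hm, exists_cross_of (han 0 hr0) (hn 0 hr0) (hm 0 hr0)⟩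

end Crest.Agent.R257.OrdL_578
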