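import Crest.Agent.R257.UI3_939

/-!
# Row 257, leaf C-ORDLOC (helper578): local order calculus on `ℂ × ℂ`

`Quo h b n G` : `G` analytic at `(0,b)` and `h q = q.1 ^ n * G q` near `(0,b)`.
`HasOrd h b n` : moreover `G (0, ·)` is not identically zero near `b`.
-/

set_option autoImplicit false
set_option linter.unusedSectionVars false

open Set Filter Topology Complex

noncomputable section

namespace Crest.Agent.R257.OrdL_578

/-- factorisation along `{p.1 = 0}` at `(0,b)` -/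
def Quo (h : ℂ × ℂ → ℂ) (b : ℂ) (n : ℕ) (G : ℂ × ℂ → ℂ) : Prop :=
  AnalyticAt ℂ G (0, b) ∧ ∀ᶠ q in 𝓝 ((0 : ℂ), b), h q = q.1 ^ n * G q

/-- the order along `{p.1 = 0}` at `(0,b)` is `n` -/
def HasOrd (h : ℂ × ℂ → ℂ) (b : ℂ) (n : ℕ) : Prop :=
  ∃ G, Quo h b n G ∧ ∃ᶠ z in 𝓝 b, G (0, z) ≠ 0

theorem tendsto_ax (b : ℂ) : Tendsto (fun z : ℂ => ((0 : ℂ), z)) (𝓝 b) (𝓝 ((0 : ℂ), b)) :=
  (by fun_prop : Continuous fun z : ℂ => ((0 : ℂ), z)).tendsto b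

theorem tendsto_fst (z : ℂ) : Tendsto (fun s : ℂ => (s, z)) (𝓝 0) (𝓝 ((0 : ℂ), z)) :=
  (by fun_prop : Continuous fun s : ℂ => (s, z)).tendsto 0

theorem an_ax {G : ℂ × ℂ → ℂ} {b : ℂ} (hG : AnalyticAt ℂ G (0, b)) :
    AnalyticAt ℂ (fun z => G (0, z)) b :=
  AnalyticAt.comp (g := G) (f := fun z : ℂ => ((0 : ℂ), z)) hG (analyticAt_const.prod analyticAt_id)

theorem an_trans {h : ℂ × ℂ → ℂ} {b : ℂ} (hh : AnalyticAt ℂ h (0, b)) :
    AnalyticAt ℂ (fun p : ℂ × ℂ => h (p.2, b + p.1)) 0 := by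
  refine AnalyticAt.comp (g := h) (f := fun p : ℂ × ℂ => (p.2, b + p.1)) ?_
    (analyticAt_snd.prod (analyticAt_const.add analyticAt_fst))
  simpa using hh

/-- division by the first coordinate -/
theorem exists_div {h : ℂ × ℂ → ℂ} {b : ℂ} (hh : AnalyticAt ℂ h (0, b))
    (h0 : ∀ᶠ z in 𝓝 b, h (0, z) = 0) :
    ∃ G, AnalyticAt ℂ G (0, b) ∧ ∀ᶠ q in 𝓝 ((0 : ℂ), b), h q = q.1 * G q := by
  obtain ⟨y, hy, hq⟩ := Crest.Agent.R257.UI939.hadamard_fun (an_trans hh)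
  have hc : Continuous fun q : ℂ × ℂ => ((q.2 - b, q.1) : ℂ × ℂ) := by fun_prop
  have ht : Tendsto (fun q : ℂ × ℂ => ((q.2 - b, q.1) : ℂ × ℂ)) (𝓝 ((0 : ℂ), b))
      (𝓝 (0 : ℂ × ℂ)) := hc.tendsto' _ _ (by simp)
  refine ⟨fun q => y (q.2 - b, q.1), ?_, ?_⟩
  · refine AnalyticAt.comp (g := y) (f := fun q : ℂ × ℂ => ((q.2 - b, q.1) : ℂ × ℂ)) ?_
      ((analyticAt_snd.sub analyticAt_const).prod analyticAt_fst)
    show AnalyticAt ℂ y (b - b, 0)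
    rw [sub_self]
    exact hy
  · have hsnd : Tendsto (fun q : ℂ × ℂ => q.2) (𝓝 ((0 : ℂ), b)) (𝓝 b) :=
      continuous_snd.tendsto' _ _ rfl
    filter_upwards [ht.eventually hq, hsnd.eventually h0] with q h1 h2
    have h3 : h q = h (0, q.2) + q.1 * y (q.2 - b, q.1) := by
      simpa using h1
    rw [h3, h2, zero_add]

/-- a nonzero germ is nonzero on some line -/
theorem exists_line {h : ℂ × ℂ → ℂ} {p : ℂ × ℂ} (hh : AnalyticAt ℂ h p)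
    (hne : ¬ ∀ᶠ q in 𝓝 p, h q = 0) :
    ∃ v : ℂ × ℂ, ¬ ∀ᶠ t in 𝓝 (0 : ℂ), h (p + t • v) = 0 := by
  by_contra hcon
  push Not at hcon
  obtain ⟨r, hr, hball⟩ := Metric.eventually_nhds_iff_ball.1 hh.eventually_analyticAt
  apply hne
  filter_upwards [Metric.ball_mem_nhds p hr] with q hq
  set L : ℂ → ℂ × ℂ := fun t => p + t • (q - p) with hL
  have hLan : ∀ t, AnalyticAt ℂ L t := fun t =>
    analyticAt_const.add (analyticAt_id.smul analyticAt_const)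
  have h1 : AnalyticOnNhd ℂ (fun t : ℂ => h (L t)) (L ⁻¹' Metric.ball p r) := fun t ht =>
    AnalyticAt.comp (g := h) (f := L) (hball _ ht) (hLan t)
  have h2 : IsPreconnected (L ⁻¹' Metric.ball p r) := by
    have h3 : Convex ℝ (L ⁻¹' Metric.ball p r) := by
      have h4 : L ⁻¹' Metric.ball p r =
          ((LinearMap.toSpanSingleton ℂ (ℂ × ℂ) (q - p)).restrictScalars ℝ) ⁻¹'
            ((fun x => p + x) ⁻¹' Metric.ball p r) := by
        ext t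
        simp [hL]
      rw [h4]
      exact ((convex_ball p r).translate_preimage_right p).linear_preimage _
    exact h3.isPreconnected
  have h0m : (0 : ℂ) ∈ L ⁻¹' Metric.ball p r := by
    simp [hL, hr]
  have h1m : (1 : ℂ) ∈ L ⁻¹' Metric.ball p r := by
    simpa [hL] using hq
  have h3 := h1.eqOn_zero_of_preconnected_of_eventuallyEq_zero h2 h0m (hcon (q - p)) h1m
  simpa [hL] using h3

/-- finitely many divisions -/
theorem quo_le {h : ℂ × ℂ → ℂ} {b : ℂ} (hh : AnalyticAt ℂ h (0, b))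
    (hne : ¬ ∀ᶠ q in 𝓝 ((0 : ℂ), b), h q = 0) : ∃ N : ℕ, ∀ n G, Quo h b n G → n ≤ N := by
  obtain ⟨v, hv⟩ := exists_line hh hne
  set L : ℂ → ℂ × ℂ := fun t => ((0 : ℂ), b) + t • v with hL
  have hLan : ∀ t, AnalyticAt ℂ L t := fun t =>
    analyticAt_const.add (analyticAt_id.smul analyticAt_const)
  have hL0 : L 0 = (0, b) := by simp [hL]
  have hLt : Tendsto L (𝓝 0) (𝓝 ((0 : ℂ), b)) := by
    have := (hLan 0).continuousAt.tendsto
    rwa [hL0] at this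
  have hcomp : ∀ {G : ℂ × ℂ → ℂ}, AnalyticAt ℂ G (0, b) → AnalyticAt ℂ (fun t => G (L t)) 0 := by
    intro G hG
    refine AnalyticAt.comp (g := G) (f := L) ?_ (hLan 0)
    rwa [hL0]
  have htop : analyticOrderAt (fun t => h (L t)) 0 ≠ ⊤ := by
    rw [Ne, analyticOrderAt_eq_top]
    exact hv
  refine ⟨(analyticOrderAt (fun t => h (L t)) 0).toNat, fun n G hG => ?_⟩
  have h1 : (n : ℕ∞) ≤ analyticOrderAt (fun t => h (L t)) 0 := by
    rw [natCast_le_analyticOrderAt (hcomp hh)]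
    refine ⟨fun t => v.1 ^ n * G (L t), analyticAt_const.mul (hcomp hG.1), ?_⟩
    filter_upwards [hLt.eventually hG.2] with t ht
    rw [ht, sub_zero, smul_eq_mul, ← mul_assoc, ← mul_pow]
    simp [hL]
  have h2 : ((analyticOrderAt (fun t => h (L t)) 0).toNat : ℕ∞) =
      analyticOrderAt (fun t => h (L t)) 0 := ENat.natCast_toNat htop
  rw [← h2] at h1
  exact_mod_cast h1

/-- **existence of the order** -/
theorem exists_ord {h : ℂ × ℂ → ℂ} {b : ℂ} (hh : AnalyticAt ℂ h (0, b))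
    (hne : ¬ ∀ᶠ q in 𝓝 ((0 : ℂ), b), h q = 0) : ∃ n, HasOrd h b n := by
  classical
  obtain ⟨N, hN⟩ := quo_le hh hne
  have h0 : ∃ G, Quo h b 0 G := ⟨h, hh, Eventually.of_forall fun q => by simp⟩
  obtain ⟨n, ⟨G, hG⟩, hmax⟩ : ∃ n, (∃ G, Quo h b n G) ∧ ∀ m, (∃ G, Quo h b m G) → m ≤ n := by
    have hfin : ({n | ∃ G, Quo h b n G} : Set ℕ).Finite :=
      (Set.finite_Iic N).subset fun n ⟨G, hG⟩ => hN n G hG
    obtain ⟨n, hn, hmax⟩ := hfin.exists_maximal ⟨0, h0⟩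
    exact ⟨n, hn, fun m hm => by
      by_contra hlt
      push Not at hlt
      exact absurd (hmax hm hlt.le) (not_le.2 hlt)⟩
  refine ⟨n, G, hG, ?_⟩
  by_contra hcon
  rw [not_frequently] at hcon
  simp only [not_not] at hcon
  obtain ⟨G', hG', hGG'⟩ := exists_div hG.1 hcon
  have h1 : Quo h b (n + 1) G' := by
    refine ⟨hG', ?_⟩
    filter_upwards [hG.2, hGG'] with q h1 h2
    rw [h1, h2]
    ring
  have := hmax (n + 1) ⟨G', h1⟩
  omega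

/-- the leading coefficient as a limit -/
theorem Quo.tendsto {h : ℂ × ℂ → ℂ} {b : ℂ} {n : ℕ} {G : ℂ × ℂ → ℂ} (hG : Quo h b n G) :
    ∀ᶠ z in 𝓝 b, Tendsto (fun s : ℂ => h (s, z) / s ^ n) (𝓝[≠] 0) (𝓝 (G (0, z))) := by
  filter_upwards [(tendsto_ax b).eventually hG.1.eventually_analyticAt,
    (tendsto_ax b).eventually hG.2.eventually_nhds] with z h1 h2
  have h3 : Tendsto (fun s : ℂ => G (s, z)) (𝓝[≠] 0) (𝓝 (G (0, z))) :=
    (h1.continuousAt.tendsto.comp (tendsto_fst z)).mono_left nhdsWithin_le_nhds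
  refine h3.congr' ?_
  filter_upwards [((tendsto_fst z).eventually h2).filter_mono nhdsWithin_le_nhds,
    self_mem_nhdsWithin] with s h4 h5
  rw [h4]
  have h6 : (s : ℂ) ^ n ≠ 0 := pow_ne_zero _ h5
  show G (s, z) = s ^ n * G (s, z) / s ^ n
  rw [mul_div_assoc, mul_div_cancel₀]
  exact h6

/-- if two factorisations exist, the smaller exponent has zero leading coefficient -/
theorem Quo.zero_of_lt {h : ℂ × ℂ → ℂ} {b : ℂ} {n m : ℕ} {G G' : ℂ × ℂ → ℂ} (hG : Quo h b n G)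
    (hG' : Quo h b m G') (hnm : n < m) : ∀ᶠ z in 𝓝 b, G (0, z) = 0 := by
  have h1 : Quo h b n (fun q => q.1 ^ (m - n) * G' q) := by
    refine ⟨(analyticAt_fst.pow _).mul hG'.1, ?_⟩
    filter_upwards [hG'.2] with q hq
    rw [hq, ← mul_assoc, ← pow_add]
    congr 3
    omega
  filter_upwards [hG.tendsto, h1.tendsto] with z h2 h3
  have h4 := tendsto_nhds_unique h2 h3
  rw [h4, zero_pow (by omega), zero_mul]

/-- **uniqueness of the order** -/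
theorem HasOrd.unique {h : ℂ × ℂ → ℂ} {b : ℂ} {n m : ℕ} (hn : HasOrd h b n) (hm : HasOrd h b m) :
    n = m := by
  obtain ⟨G, hG, hne⟩ := hn
  obtain ⟨G', hG', hne'⟩ := hm
  rcases lt_trichotomy n m with hlt | heq | hgt
  · exact absurd (hG.zero_of_lt hG' hlt) fun h => hne (h.mono fun z hz h' => h' hz)
  · exact heq
  · exact absurd (hG'.zero_of_lt hG hgt) fun h => hne' (h.mono fun z hz h' => h' hz)

theorem HasOrd.quo_ne {h : ℂ × ℂ → ℂ} {b : ℂ} {n : ℕ} (hn : HasOrd h b n) {G : ℂ × ℂ → ℂ}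
    (hG : Quo h b n G) : ∃ᶠ z in 𝓝 b, G (0, z) ≠ 0 := by
  obtain ⟨G', hG', hne⟩ := hn
  refine (hne.and_eventually (hG.tendsto.and hG'.tendsto)).mono ?_
  rintro z ⟨h1, h2, h3⟩
  rwa [tendsto_nhds_unique h2 h3]

theorem HasOrd.not_zero {h : ℂ × ℂ → ℂ} {b : ℂ} {n : ℕ} (hn : HasOrd h b n) :
    ¬ ∀ᶠ q in 𝓝 ((0 : ℂ), b), h q = 0 := by
  intro h0
  obtain ⟨G, hG, hne⟩ := hn
  have h1 : Quo h b n (fun _ => 0) := by
    refine ⟨analyticAt_const, ?_⟩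
    filter_upwards [h0] with q hq
    rw [hq, mul_zero]
  have := (HasOrd.quo_ne ⟨G, hG, hne⟩ h1)
  simp at this

/-- an analytic function of one variable, frequently nonzero, is nonzero on a punctured
neighbourhood -/
theorem ne_punct {g : ℂ → ℂ} {b : ℂ} (hg : AnalyticAt ℂ g b) (hne : ∃ᶠ z in 𝓝 b, g z ≠ 0) :
    ∀ᶠ z in 𝓝[≠] b, g z ≠ 0 := by
  rcases hg.eventually_eq_zero_or_eventually_ne_zero with h | h
  · exact absurd h fun h' => hne (h'.mono fun z hz h2 => h2 hz)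
  · exact h

/-- **local constancy** -/
theorem HasOrd.eventually {h : ℂ × ℂ → ℂ} {b : ℂ} {n : ℕ} (hn : HasOrd h b n) :
    ∀ᶠ z in 𝓝 b, HasOrd h z n := by
  obtain ⟨G, hG, hne⟩ := hn
  have h1 := ne_punct (an_ax hG.1) hne
  have h2 : ∀ᶠ z in 𝓝 b, z ≠ b → G (0, z) ≠ 0 := by
    rw [eventually_nhdsWithin_iff] at h1
    exact h1
  filter_upwards [(tendsto_ax b).eventually hG.1.eventually_analyticAt,
    (tendsto_ax b).eventually hG.2.eventually_nhds, h2] with z h3 h4 h5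
  refine ⟨G, ⟨h3, h4⟩, ?_⟩
  by_cases hz : z = b
  · subst hz; exact hne
  · have h6 : ∀ᶠ z' in 𝓝 z, G (0, z') ≠ 0 :=
      (an_ax h3).continuousAt.eventually_ne (h5 hz)
    exact h6.frequently

/-- **constancy on connected sets** -/
theorem HasOrd.of_preconnected {h : ℂ × ℂ → ℂ} {K : Set ℂ} (hK : IsPreconnected K)
    (han : ∀ z ∈ K, AnalyticAt ℂ h (0, z)) {b : ℂ} (hb : b ∈ K) {n : ℕ} (hn : HasOrd h b n) :
    ∀ z ∈ K, HasOrd h z n := by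
  set A : Set ℂ := {z | HasOrd h z n} with hA
  set B : Set ℂ := {z | (∀ᶠ q in 𝓝 ((0 : ℂ), z), h q = 0) ∨ ∃ m, m ≠ n ∧ HasOrd h z m} with hB
  have hAo : IsOpen A := isOpen_iff_mem_nhds.2 fun z hz => HasOrd.eventually hz
  have hBo : IsOpen B := by
    refine isOpen_iff_mem_nhds.2 fun z hz => ?_
    rcases hz with hz | ⟨m, hm, hz⟩
    · filter_upwards [(tendsto_ax z).eventually hz.eventually_nhds] with y hy
      exact Or.inl hy
    · filter_upwards [hz.eventually] with y hy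
      exact Or.inr ⟨m, hm, hy⟩
  have hcov : K ⊆ A ∪ B := by
    intro z hz
    by_cases h0 : ∀ᶠ q in 𝓝 ((0 : ℂ), z), h q = 0
    · exact Or.inr (Or.inl h0)
    · obtain ⟨m, hm⟩ := exists_ord (han z hz) h0
      by_cases hmn : m = n
      · subst hmn; exact Or.inl hm
      · exact Or.inr (Or.inr ⟨m, hmn, hm⟩)
  intro z hz
  by_contra hcon
  have hzB : z ∈ B := (hcov hz).resolve_left hcon
  obtain ⟨y, hyK, hyA, hyB⟩ := hK A B hAo hBo hcov ⟨b, hb, hn⟩ ⟨z, hz, hzB⟩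
  rcases hyB with h0 | ⟨m, hm, hy⟩
  · exact (HasOrd.not_zero hyA) h0
  · exact hm (hy.unique hyA)

/-! ### crossing point -/

/-- exchange of the coordinates -/
def sw (h : ℂ × ℂ → ℂ) : ℂ × ℂ → ℂ := fun q => h (q.2, q.1)

theorem sw_tendsto (p : ℂ × ℂ) : Tendsto (fun q : ℂ × ℂ => ((q.2, q.1) : ℂ × ℂ)) (𝓝 p)
    (𝓝 (p.2, p.1)) := (by fun_prop : Continuous fun q : ℂ × ℂ => ((q.2, q.1) : ℂ × ℂ)).tendsto p

theorem sw_an {h : ℂ × ℂ → ℂ} {p : ℂ × ℂ} (hh : AnalyticAt ℂ h (p.2, p.1)) :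
    AnalyticAt ℂ (sw h) p :=
  AnalyticAt.comp (g := h) (f := fun q : ℂ × ℂ => ((q.2, q.1) : ℂ × ℂ)) hh
    (analyticAt_snd.prod analyticAt_fst)

/-- factorisation at the crossing point `0` -/
structure Cross (h : ℂ × ℂ → ℂ) (n m : ℕ) (G : ℂ × ℂ → ℂ) : Prop where
  an : AnalyticAt ℂ G 0
  eq : ∀ᶠ q in 𝓝 (0 : ℂ × ℂ), h q = q.1 ^ n * q.2 ^ m * G q
  ne1 : ∃ᶠ z in 𝓝 (0 : ℂ), G (0, z) ≠ 0
  ne2 : ∃ᶠ z in 𝓝 (0 : ℂ), G (z, 0) ≠ 0

theorem exists_cross {h : ℂ × ℂ → ℂ} (hh : AnalyticAt ℂ h 0) (hne : ¬ ∀ᶠ q in 𝓝 (0 : ℂ × ℂ), h q = 0) :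
    ∃ n m G, Cross h n m G := by
  obtain ⟨n, G1, hG1, hne1⟩ := exists_ord (b := 0) hh hne
  have hG1ne : ¬ ∀ᶠ q in 𝓝 (((0 : ℂ), (0 : ℂ))), sw G1 q = 0 := by
    intro h0
    have h1 : ∀ᶠ q in 𝓝 ((0 : ℂ × ℂ)), G1 q = 0 := (sw_tendsto (0 : ℂ × ℂ)).eventually h0
    exact hne1 (((tendsto_ax 0).eventually h1).mono fun z hz h2 => h2 hz)
  obtain ⟨m, G2, hG2, hne2⟩ := exists_ord (b := 0) (h := sw G1) (sw_an hG1.1) hG1ne
  have he : ∀ᶠ q in 𝓝 (0 : ℂ × ℂ), G1 q = q.2 ^ m * sw G2 q :=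
    (sw_tendsto (0 : ℂ × ℂ)).eventually hG2.2
  refine ⟨n, m, sw G2, sw_an hG2.1, ?_, ?_, hne2⟩
  · filter_upwards [hG1.2, he] with q h1 h2
    rw [h1, h2, mul_assoc]
  · refine (hne1.and_eventually ((tendsto_ax 0).eventually he)).mono ?_
    rintro z ⟨h1, h2⟩ h3
    rw [h2, h3, mul_zero] at h1
    exact h1 rfl

theorem Cross.ord1 {h : ℂ × ℂ → ℂ} {n m : ℕ} {G : ℂ × ℂ → ℂ} (hc : Cross h n m G) :
    HasOrd h 0 n := by
  refine ⟨fun q => q.2 ^ m * G q, ⟨(analyticAt_snd.pow m).mul hc.an, ?_⟩, ?_⟩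
  · filter_upwards [hc.eq] with q hq
    rw [hq, mul_assoc]
  · have h1 := ne_punct (an_ax (b := 0) hc.an) hc.ne1
    have h2 : ∀ᶠ z in 𝓝[≠] (0 : ℂ), z ^ m * G (0, z) ≠ 0 := by
      filter_upwards [h1, self_mem_nhdsWithin] with z h3 h4
      exact mul_ne_zero (pow_ne_zero _ h4) h3
    exact (h2.frequently).filter_mono nhdsWithin_le_nhds

theorem Cross.swap {h : ℂ × ℂ → ℂ} {n m : ℕ} {G : ℂ × ℂ → ℂ} (hc : Cross h n m G) :
    Cross (sw h) m n (sw G) where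
  an := sw_an hc.an
  eq := by
    filter_upwards [(sw_tendsto (0 : ℂ × ℂ)).eventually hc.eq] with q hq
    show h (q.2, q.1) = _
    rw [hq]
    show q.2 ^ n * q.1 ^ m * G (q.2, q.1) = q.1 ^ m * q.2 ^ n * sw G q
    rw [sw]
    ring
  ne1 := hc.ne2
  ne2 := hc.ne1

theorem Cross.ord2 {h : ℂ × ℂ → ℂ} {n m : ℕ} {G : ℂ × ℂ → ℂ} (hc : Cross h n m G) :
    HasOrd (sw h) 0 m := hc.swap.ord1

/-- the exponents of a crossing are determined by the orders on the two branches -/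
theorem exists_cross_of {h : ℂ × ℂ → ℂ} (hh : AnalyticAt ℂ h 0) {n m : ℕ} (hn : HasOrd h 0 n)
    (hm : HasOrd (sw h) 0 m) : ∃ G, Cross h n m G := by
  obtain ⟨n', m', G, hG⟩ := exists_cross hh hn.not_zero
  have h1 := hn.unique hG.ord1
  have h2 := hm.unique hG.ord2
  subst h1 h2
  exact ⟨G, hG⟩

/-! ### change of charts -/

/-- an admissible change of coordinates from `(0,b)` to `(0,b')` preserving `{p.1 = 0}` -/
structure Chg (φ : ℂ × ℂ → ℂ × ℂ) (u : ℂ × ℂ → ℂ) (b b' : ℂ) : Prop where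
  an1 : AnalyticAt ℂ (fun q => (φ q).1) (0, b)
  an2 : AnalyticAt ℂ (fun q => (φ q).2) (0, b)
  val : φ (0, b) = (0, b')
  uan : AnalyticAt ℂ u (0, b)
  une : u (0, b) ≠ 0
  fst : ∀ᶠ q in 𝓝 ((0 : ℂ), b), (φ q).1 = q.1 * u q
  snd : ∃ᶠ z in 𝓝 b, (φ (0, z)).2 ≠ b'

theorem Chg.an {φ : ℂ × ℂ → ℂ × ℂ} {u : ℂ × ℂ → ℂ} {b b' : ℂ} (hφ : Chg φ u b b') :
    AnalyticAt ℂ φ (0, b) := hφ.an1.prod hφ.an2

theorem Chg.quo {φ : ℂ × ℂ → ℂ × ℂ} {u : ℂ × ℂ → ℂ} {b b' : ℂ} (hφ : Chg φ u b b')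
    {h : ℂ × ℂ → ℂ} {n : ℕ} {G : ℂ × ℂ → ℂ} (hG : Quo h b' n G) :
    Quo (fun q => h (φ q)) b n (fun q => u q ^ n * G (φ q)) := by
  have ht : Tendsto φ (𝓝 ((0 : ℂ), b)) (𝓝 ((0 : ℂ), b')) := by
    have := hφ.an.continuousAt.tendsto
    rwa [hφ.val] at this
  refine ⟨(hφ.uan.pow n).mul (AnalyticAt.comp (g := G) (f := φ) (by rw [hφ.val]; exact hG.1)
    hφ.an), ?_⟩
  filter_upwards [hφ.fst, ht.eventually hG.2] with q h1 h2
  rw [h2, h1, mul_pow]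
  ring

theorem Chg.lead {φ : ℂ × ℂ → ℂ × ℂ} {u : ℂ × ℂ → ℂ} {b b' : ℂ} (hφ : Chg φ u b b') :
    ∀ᶠ z in 𝓝 b, φ (0, z) = (0, (φ (0, z)).2) := by
  filter_upwards [(tendsto_ax b).eventually hφ.fst] with z hz
  refine Prod.ext ?_ rfl
  rw [hz]
  simp

theorem Chg.hasOrd {φ : ℂ × ℂ → ℂ × ℂ} {u : ℂ × ℂ → ℂ} {b b' : ℂ} (hφ : Chg φ u b b')
    {h : ℂ × ℂ → ℂ} {n : ℕ} (hn : HasOrd h b' n) : HasOrd (fun q => h (φ q)) b n := by
  obtain ⟨G, hG, hne⟩ := hn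
  refine ⟨_, hφ.quo hG, ?_⟩
  have h1 := ne_punct (an_ax hG.1) hne
  have h2 : ∀ᶠ z in 𝓝[≠] b, (φ (0, z)).2 - b' ≠ 0 := by
    refine ne_punct ((AnalyticAt.comp (g := fun q => (φ q).2) (f := fun z : ℂ => ((0 : ℂ), z))
      hφ.an2 (analyticAt_const.prod analyticAt_id)).sub analyticAt_const) ?_
    exact hφ.snd.mono fun z hz => sub_ne_zero.2 hz
  have ht2 : Tendsto (fun z => (φ (0, z)).2) (𝓝[≠] b) (𝓝[≠] b') := by
    refine tendsto_nhdsWithin_iff.2 ⟨?_, h2.mono fun z hz => sub_ne_zero.1 hz⟩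
    have h3 : ContinuousAt (fun z => (φ (0, z)).2) b :=
      (AnalyticAt.comp (g := fun q => (φ q).2) (f := fun z : ℂ => ((0 : ℂ), z))
        hφ.an2 (analyticAt_const.prod analyticAt_id)).continuousAt
    have h4 := h3.tendsto
    rw [hφ.val] at h4
    exact h4.mono_left nhdsWithin_le_nhds
  have hu : ∀ᶠ z in 𝓝 b, u (0, z) ≠ 0 := (an_ax hφ.uan).continuousAt.eventually_ne hφ.une
  have h3 : ∀ᶠ z in 𝓝[≠] b, u (0, z) ^ n * G (φ (0, z)) ≠ 0 := by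
    filter_upwards [ht2.eventually h1, hu.filter_mono nhdsWithin_le_nhds,
      hφ.lead.filter_mono nhdsWithin_le_nhds] with z h4 h5 h6
    rw [h6]
    exact mul_ne_zero (pow_ne_zero _ h5) h4
  exact (h3.frequently).filter_mono nhdsWithin_le_nhds

/-- orders agree in both directions -/
theorem Chg.hasOrd_iff {φ : ℂ × ℂ → ℂ × ℂ} {u : ℂ × ℂ → ℂ} {b b' : ℂ} (hφ : Chg φ u b b')
    {h : ℂ × ℂ → ℂ} (hh : AnalyticAt ℂ h (0, b')) {n : ℕ}
    (h0 : ¬ ∀ᶠ q in 𝓝 ((0 : ℂ), b'), h q = 0) :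
    HasOrd (fun q => h (φ q)) b n ↔ HasOrd h b' n := by
  refine ⟨fun hn => ?_, hφ.hasOrd⟩
  obtain ⟨m, hm⟩ := exists_ord hh h0
  have := hn.unique (hφ.hasOrd hm)
  subst this
  exact hm

/-! ### leading coefficients -/

/-- the leading coefficient -/
def lc (h : ℂ × ℂ → ℂ) (n : ℕ) (z : ℂ) : ℂ := limUnder (𝓝[≠] (0 : ℂ)) fun s => h (s, z) / s ^ n

theorem Quo.lc_eq {h : ℂ × ℂ → ℂ} {b : ℂ} {n : ℕ} {G : ℂ × ℂ → ℂ} (hG : Quo h b n G) :
    ∀ᶠ z in 𝓝 b, lc h n z = G (0, z) := by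
  filter_upwards [hG.tendsto] with z hz
  exact hz.limUnder_eq

theorem Quo.lc_eq_self {h : ℂ × ℂ → ℂ} {b : ℂ} {n : ℕ} {G : ℂ × ℂ → ℂ} (hG : Quo h b n G) :
    lc h n b = G (0, b) := hG.lc_eq.self_of_nhds

theorem Quo.lc_an {h : ℂ × ℂ → ℂ} {b : ℂ} {n : ℕ} {G : ℂ × ℂ → ℂ} (hG : Quo h b n G) :
    AnalyticAt ℂ (lc h n) b := (an_ax hG.1).congr (hG.lc_eq.mono fun _ hz => hz.symm)

theorem HasOrd.lc_an {h : ℂ × ℂ → ℂ} {b : ℂ} {n : ℕ} (hn : HasOrd h b n) :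
    AnalyticAt ℂ (lc h n) b := by
  obtain ⟨G, hG, -⟩ := hn
  exact hG.lc_an

theorem HasOrd.lc_ne {h : ℂ × ℂ → ℂ} {b : ℂ} {n : ℕ} (hn : HasOrd h b n) :
    ∃ᶠ z in 𝓝 b, lc h n z ≠ 0 := by
  obtain ⟨G, hG, hne⟩ := hn
  refine (hne.and_eventually hG.lc_eq).mono ?_
  rintro z ⟨h1, h2⟩
  rwa [h2]

/-- leading coefficients and change of charts -/
theorem Chg.lc_eq {φ : ℂ × ℂ → ℂ × ℂ} {u : ℂ × ℂ → ℂ} {b b' : ℂ} (hφ : Chg φ u b b')
    {h : ℂ × ℂ → ℂ} {n : ℕ} {G : ℂ × ℂ → ℂ} (hG : Quo h b' n G) :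
    ∀ᶠ z in 𝓝 b, lc (fun q => h (φ q)) n z = u (0, z) ^ n * lc h n (φ (0, z)).2 := by
  have ht : Tendsto (fun z => (φ (0, z)).2) (𝓝 b) (𝓝 b') := by
    have h3 : ContinuousAt (fun z => (φ (0, z)).2) b :=
      (AnalyticAt.comp (g := fun q => (φ q).2) (f := fun z : ℂ => ((0 : ℂ), z))
        hφ.an2 (analyticAt_const.prod analyticAt_id)).continuousAt
    have h4 := h3.tendsto
    rwa [hφ.val] at h4
  filter_upwards [(hφ.quo hG).lc_eq, ht.eventually hG.lc_eq, hφ.lead] with z h1 h2 h3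
  rw [h1, h2, ← h3]

/-- leading coefficient near a crossing point: `lc (z) = z ^ m * G (0, z)` -/
theorem Cross.lc_eq {h : ℂ × ℂ → ℂ} {n m : ℕ} {G : ℂ × ℂ → ℂ} (hc : Cross h n m G) :
    ∀ᶠ z in 𝓝 (0 : ℂ), lc h n z = z ^ m * G (0, z) := by
  have h1 : Quo h 0 n (fun q => q.2 ^ m * G q) := by
    refine ⟨(analyticAt_snd.pow m).mul hc.an, ?_⟩
    filter_upwards [hc.eq] with q hq
    rw [hq, mul_assoc]
  exact h1.lc_eq

/-- edge charts, `s = α β`: the leading coefficient with respect to `s` is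
`β ^ (m - n) * G (0, β)` -/
theorem Cross.lc_edge {h : ℂ × ℂ → ℂ} {n m : ℕ} {G : ℂ × ℂ → ℂ} (hc : Cross h n m G) :
    ∀ᶠ z in 𝓝[≠] (0 : ℂ), Tendsto (fun α : ℂ => h (α, z) / (α * z) ^ n) (𝓝[≠] 0)
      (𝓝 (z ^ ((m : ℤ) - n) * G (0, z))) := by
  have h1 : Quo h 0 n (fun q => q.2 ^ m * G q) := by
    refine ⟨(analyticAt_snd.pow m).mul hc.an, ?_⟩
    filter_upwards [hc.eq] with q hq
    rw [hq, mul_assoc]
  filter_upwards [h1.tendsto.filter_mono nhdsWithin_le_nhds, self_mem_nhdsWithin] with z h2 h3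
  have h4 := h2.div_const (z ^ n)
  have h5 : z ^ m * G (0, z) / z ^ n = z ^ ((m : ℤ) - n) * G (0, z) := by
    rw [zpow_sub₀ h3, zpow_natCast, zpow_natCast]
    ring
  rw [h5] at h4
  refine h4.congr fun α => ?_
  rw [mul_pow, div_div]

end Crest.Agent.R257.OrdL_578
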