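import Crest.Agent.R257.T3_387
import Crest.Agent.R257.OrdL_578
import Crest.Agent.R257.Deg3_578

/-!
# Row 257, part C, `Frame.ord` in the T-frame (helper578), part 1: pull-backs of germs to the charts
-/

set_option autoImplicit false
set_option linter.unusedSectionVars false

open Polynomial Set Filter Topology Metric
open Crest.AlgGeometry.Germ Crest.Agent.R257.AJ387

noncomputable section

namespace Crest.Agent.R257.OrdT_578

open Crest.Agent.R257.T387 Crest.Agent.R257.OrdL_578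

variable {f : (Fin 3 → ℂ) → ℂ} (T : TB f)

/-- `g ∘ th` -/
def gth (g : (Fin 3 → ℂ) → ℂ) (c : Ch T.m) (z : ℂ × ℂ → ℂ) (q : ℂ × ℂ) : ℂ := g (T.th c z q)

variable {T}

theorem pt_an {z : ℂ × ℂ → ℂ} {q : ℂ × ℂ → ℂ × ℂ} {p : ℂ × ℂ} (hz : AnalyticAt ℂ z p)
    (hq : AnalyticAt ℂ q p) : AnalyticAt ℂ (fun p => pt (z p) (q p)) p := by
  refine AnalyticAt.pi fun i => ?_
  fin_cases i
  · exact hz
  · exact AnalyticAt.comp (g := fun x : ℂ × ℂ => x.1) (f := q) analyticAt_fst hq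
  · exact AnalyticAt.comp (g := fun x : ℂ × ℂ => x.2) (f := q) analyticAt_snd hq

theorem pt_zero : pt 0 (0 : ℂ × ℂ) = 0 := by
  funext i
  fin_cases i <;> rfl

theorem base_an (q : ℂ × ℂ) : AnalyticAt ℂ T.base q := by
  have h1 : AnalyticAt ℂ (fun q : ℂ × ℂ => (q.1 ^ T.N, q.2)) q :=
    (analyticAt_fst.pow _).prod analyticAt_snd
  exact AnalyticAt.comp (g := T.A) (f := fun q : ℂ × ℂ => (q.1 ^ T.N, q.2))
    ((T.A : (ℂ × ℂ) →L[ℂ] (ℂ × ℂ)).analyticAt _) h1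

theorem base_zero : T.base 0 = 0 := by
  have : (((0 : ℂ × ℂ).1 ^ T.N, (0 : ℂ × ℂ).2) : ℂ × ℂ) = 0 := by
    ext <;> simp [T.N_pos.ne']
  rw [TB.base, this, map_zero]

/-- the chart map is analytic where `|s|^M < ρ` -/
theorem map_an {c : Ch T.m} {p : ℂ × ℂ} (h : ‖(T.map c p).1‖ ^ T.M < T.ρ) :
    AnalyticAt ℂ (T.map c) p := by
  have hφ : ∀ (i : Fin T.m) (g : ℂ × ℂ → ℂ), AnalyticAt ℂ g p → ‖g p‖ ^ T.M < T.ρ →
      AnalyticAt ℂ (fun p => T.φ i (g p ^ T.M)) p := by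
    intro i g hg hlt
    refine AnalyticAt.comp (g := T.φ i) (f := fun p => g p ^ T.M) ?_ (hg.pow _)
    refine T.φ_an i _ ?_
    rwa [mem_ball, dist_zero_right, norm_pow]
  cases c with
  | edge i k k' =>
    have h1 : AnalyticAt ℂ (fun p : ℂ × ℂ => p.1 * p.2) p := analyticAt_fst.mul analyticAt_snd
    exact h1.prod ((hφ i _ h1 h).add ((analyticAt_fst.pow _).mul (analyticAt_snd.pow _)))
  | leg i =>
    exact analyticAt_fst.prod ((hφ i _ analyticAt_fst h).add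
      ((analyticAt_fst.pow _).mul (analyticAt_snd.pow _)))
  | vert i k w₀ =>
    exact analyticAt_fst.prod ((hφ i _ analyticAt_fst h).add
      ((analyticAt_fst.pow _).mul (analyticAt_const.add analyticAt_snd)))

/-- sheets vanish where the chart map vanishes -/
theorem sheet_zero {c : Ch T.m} {r : ℝ} {ζ : Fin T.d → ℂ × ℂ → ℂ} (h : T.Sheets c r ζ)
    {p : ℂ × ℂ} (hp : p ∈ BD r r) (h0 : T.map c p = 0) (j : Fin T.d) : ζ j p = 0 := by
  have h1 := h.split p hp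
  have h2 : T.Q 0 = X ^ T.d := by
    have : (((0 : ℂ × ℂ).1 ^ T.N, (0 : ℂ × ℂ).2) : ℂ × ℂ) = 0 := by
      ext <;> simp [T.N_pos.ne']
    rw [TB.Q, this, T.P_zero]
  rw [h0, h2] at h1
  have h3 := congrArg (Polynomial.eval (ζ j p)) h1
  rw [eval_pow, eval_X, eval_prod, Finset.prod_eq_zero (Finset.mem_univ j) (by simp)] at h3
  exact (pow_eq_zero_iff T.d_pos.ne').1 h3

theorem th_zero {c : Ch T.m} {r : ℝ} {ζ : Fin T.d → ℂ × ℂ → ℂ} (h : T.Sheets c r ζ)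
    {p : ℂ × ℂ} (hp : p ∈ BD r r) (h0 : T.map c p = 0) (j : Fin T.d) : T.th c (ζ j) p = 0 := by
  rw [TB.th, sheet_zero h hp h0 j, h0, base_zero, pt_zero]

theorem th_an {c : Ch T.m} {z : ℂ × ℂ → ℂ} {p : ℂ × ℂ} (hz : AnalyticAt ℂ z p)
    (hs : ‖(T.map c p).1‖ ^ T.M < T.ρ) : AnalyticAt ℂ (T.th c z) p :=
  pt_an hz (AnalyticAt.comp (g := T.base) (f := T.map c) (base_an _) (map_an hs))

/-- `g ∘ th` is analytic on the special fibre -/
theorem gth_an {g : (Fin 3 → ℂ) → ℂ} (hg : AnalyticAt ℂ g 0) {c : Ch T.m} {r : ℝ}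
    {ζ : Fin T.d → ℂ × ℂ → ℂ} (h : T.Sheets c r ζ) {p : ℂ × ℂ} (hp : p ∈ BD r r)
    (h0 : T.map c p = 0) (j : Fin T.d) : AnalyticAt ℂ (gth T g c (ζ j)) p := by
  refine AnalyticAt.comp (g := g) (f := T.th c (ζ j)) ?_ (th_an (h.an j p hp) (h.mem p hp).2)
  rw [th_zero h hp h0 j]
  exact hg

/-- the points of the special fibre -/
theorem map_vert {i : Fin T.m} {k : ℕ} (hk : 0 < k) (w₀ b : ℂ) :
    T.map (.vert i k w₀) (0, b) = 0 := by
  have h1 : T.M * k ≠ 0 := (Nat.mul_pos T.M_pos hk).ne'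
  simp [TB.map, T.M_pos.ne', T.φ_zero, h1]

theorem map_leg (i : Fin T.m) (b : ℂ) : T.map (.leg i) (0, b) = 0 := by
  have h1 : T.M * T.top i ≠ 0 := (Nat.mul_pos T.M_pos (TB.lev_pos (T := T) (TB.top_mem (T := T) i))).ne'
  simp [TB.map, T.M_pos.ne', T.φ_zero, h1]

theorem map_edge1 {i : Fin T.m} {k k' : ℕ} (hk : 0 < k) (b : ℂ) :
    T.map (.edge i k k') (0, b) = 0 := by
  have h1 : T.M * k ≠ 0 := (Nat.mul_pos T.M_pos hk).ne'
  simp [TB.map, T.M_pos.ne', T.φ_zero, h1]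

theorem map_edge2 {i : Fin T.m} {k k' : ℕ} (hk' : 0 < k') (a : ℂ) :
    T.map (.edge i k k') (a, 0) = 0 := by
  have h1 : T.M * k' ≠ 0 := (Nat.mul_pos T.M_pos hk').ne'
  simp [TB.map, T.M_pos.ne', T.φ_zero, h1]

end Crest.Agent.R257.OrdT_578
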