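import Crest.Agent.R257.OrdT1_578
import Crest.Agent.R257.OrdL2_578

/-!
# Row 257, part C, `Frame.ord` in the T-frame (helper578), part 2: the coordinate `w` of a vertex in
the charts

`Wf i k c` : the coordinate `w = (y' - φ_i)/s^(Mk)` of the vertex `(i,k)` in the chart `c`;
`T.map c q = T.map (vert i k x) ((T.map c q).1, Wf q - x)`.
-/

set_option autoImplicit false
set_option linter.unusedSectionVars false

open Polynomial Set Filter Topology Metric
open Crest.AlgGeometry.Germ Crest.Agent.R257.AJ387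

noncomputable section

namespace Crest.Agent.R257.OrdT_578

open Crest.Agent.R257.T387 Crest.Agent.R257.OrdL_578

variable {f : (Fin 3 → ℂ) → ℂ} (T : TB f)

/-- `(φ_j - φ_i) / s₀ ^ k` -/
def shD (k : ℕ) (i j : Fin T.m) (s : ℂ) : ℂ :=
  if j = i then 0 else s ^ (T.del j i - k) * T.u j i s

/-- `i` and `j` define the same vertex at level `k` -/
def Same (k : ℕ) (i j : Fin T.m) : Prop := j = i ∨ k ≤ T.del j i

variable {T}

theorem shD_an (k : ℕ) (i j : Fin T.m) {s : ℂ} (hs : s ∈ ball (0 : ℂ) T.ρ) :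
    AnalyticAt ℂ (shD T k i j) s := by
  unfold shD
  by_cases h : j = i
  · simp only [h, if_true]
    exact analyticAt_const
  · simp only [h, if_false]
    exact (analyticAt_id.pow _).mul (T.u_an j i h s hs)

theorem shD_spec {k : ℕ} {i j : Fin T.m} (h : Same T k i j) {s : ℂ} (hs : s ∈ ball (0 : ℂ) T.ρ) :
    T.φ j s = T.φ i s + s ^ k * shD T k i j s := by
  unfold shD
  by_cases hj : j = i
  · simp [hj]
  · have h1 : k ≤ T.del j i := h.resolve_left hj
    have h2 := T.φ_sub j i hj s hs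
    simp only [hj, if_false]
    rw [← mul_assoc, ← pow_add, Nat.add_sub_cancel' h1, ← h2]
    ring

variable (T)

/-- the coordinate `w` of the vertex `(i,k)` in the chart `c` -/
def Wf (i : Fin T.m) (k : ℕ) : Ch T.m → ℂ × ℂ → ℂ
  | .edge j k₁ k₂, q => shD T k i j ((q.1 * q.2) ^ T.M) +
      if k = k₁ then q.2 ^ (T.M * (k₂ - k₁)) else (q.1 ^ (T.M * (k₂ - k₁)))⁻¹
  | .leg j, q => shD T k i j (q.1 ^ T.M) + q.2 ^ T.M
  | .vert j _ w₁, q => shD T k i j (q.1 ^ T.M) + (w₁ + q.2)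

variable {T}

theorem map_vert_eq {i : Fin T.m} {k : ℕ} {x W s y : ℂ} (h : y = T.φ i (s ^ T.M) + s ^ (T.M * k) * W) :
    (s, y) = T.map (.vert i k x) (s, W - x) := by
  simp only [TB.map]
  rw [h]
  congr 1
  ring

theorem Wf_vert {i j : Fin T.m} {k : ℕ} (hs : Same T k i j) {w₁ x : ℂ} {q : ℂ × ℂ}
    (hq : ‖q.1‖ ^ T.M < T.ρ) :
    T.map (.vert j k w₁) q = T.map (.vert i k x) (q.1, Wf T i k (.vert j k w₁) q - x) := by
  rw [← map_vert_eq (W := Wf T i k (.vert j k w₁) q)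
    (y := (T.map (.vert j k w₁) q).2) (s := q.1)]
  · rfl
  · simp only [TB.map, Wf]
    have h1 := shD_spec hs (s := q.1 ^ T.M) (by rwa [mem_ball, dist_zero_right, norm_pow])
    rw [h1, ← pow_mul]
    ring

theorem Wf_leg {i j : Fin T.m} {k : ℕ} (hs : Same T k i j) (hk : T.top j = k) {x : ℂ} {q : ℂ × ℂ}
    (hq : ‖q.1‖ ^ T.M < T.ρ) :
    T.map (.leg j) q = T.map (.vert i k x) (q.1, Wf T i k (.leg j) q - x) := by
  rw [← map_vert_eq (W := Wf T i k (.leg j) q) (y := (T.map (.leg j) q).2) (s := q.1)]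
  · rfl
  · simp only [TB.map, Wf]
    have h1 := shD_spec hs (s := q.1 ^ T.M) (by rwa [mem_ball, dist_zero_right, norm_pow])
    rw [h1, ← pow_mul, hk]
    ring

theorem Wf_edge1 {i j : Fin T.m} {k k₂ : ℕ} (hs : Same T k i j) (hk : k ≤ k₂) {x : ℂ} {q : ℂ × ℂ}
    (hq : ‖q.1 * q.2‖ ^ T.M < T.ρ) :
    T.map (.edge j k k₂) q = T.map (.vert i k x) (q.1 * q.2, Wf T i k (.edge j k k₂) q - x) := by
  rw [← map_vert_eq (W := Wf T i k (.edge j k k₂) q) (y := (T.map (.edge j k k₂) q).2)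
    (s := q.1 * q.2)]
  · rfl
  · simp only [TB.map, Wf, if_true]
    have h1 := shD_spec hs (s := (q.1 * q.2) ^ T.M) (by rwa [mem_ball, dist_zero_right, norm_pow])
    rw [h1, ← pow_mul, mul_add, add_assoc]
    congr 2
    rw [mul_pow, mul_assoc, ← pow_add, ← mul_add, Nat.add_sub_cancel' hk]

theorem Wf_edge2 {i j : Fin T.m} {k₁ k : ℕ} (hs : Same T k i j) (hk : k₁ < k) {x : ℂ} {q : ℂ × ℂ}
    (hq : ‖q.1 * q.2‖ ^ T.M < T.ρ) (hq1 : q.1 ≠ 0) :
    T.map (.edge j k₁ k) q = T.map (.vert i k x) (q.1 * q.2, Wf T i k (.edge j k₁ k) q - x) := by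
  rw [← map_vert_eq (W := Wf T i k (.edge j k₁ k) q) (y := (T.map (.edge j k₁ k) q).2)
    (s := q.1 * q.2)]
  · rfl
  · simp only [TB.map, Wf, hk.ne', if_false]
    have h1 := shD_spec hs (s := (q.1 * q.2) ^ T.M) (by rwa [mem_ball, dist_zero_right, norm_pow])
    rw [h1, ← pow_mul, mul_add, add_assoc]
    congr 2
    have h2 : T.M * k = T.M * k₁ + T.M * (k - k₁) := by
      rw [← mul_add, Nat.add_sub_cancel' hk.le]
    have h3 : q.1 ^ (T.M * (k - k₁)) ≠ 0 := pow_ne_zero _ hq1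
    rw [mul_pow, h2, pow_add, pow_add]
    field_simp

end Crest.Agent.R257.OrdT_578
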