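import Crest.Agent.R257.OrdT2_578

/-!
# Row 257, part C, `Frame.ord` in the T-frame (helper578), part 3: the charts against the vertex
charts are admissible changes of coordinates (`Chg`).
-/

set_option autoImplicit false
set_option linter.unusedSectionVars false

open Polynomial Set Filter Topology Metric
open Crest.AlgGeometry.Germ Crest.Agent.R257.AJ387

noncomputable section

namespace Crest.Agent.R257.OrdT_578

open Crest.Agent.R257.T387 Crest.Agent.R257.OrdL_578

variable {f : (Fin 3 → ℂ) → ℂ} {T : TB f}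

theorem zero_mem_ρ : (0 : ℂ) ∈ ball (0 : ℂ) T.ρ := mem_ball_self T.ρ_pos

/-- analyticity of `shD` composed with a function vanishing at the point -/
theorem shD_comp (k : ℕ) (i j : Fin T.m) {g : ℂ × ℂ → ℂ} {p : ℂ × ℂ} (hg : AnalyticAt ℂ g p)
    (h0 : g p = 0) : AnalyticAt ℂ (fun q => shD T k i j (g q ^ T.M)) p := by
  refine AnalyticAt.comp (g := shD T k i j) (f := fun q => g q ^ T.M) ?_ (hg.pow _)
  refine shD_an k i j ?_
  rw [h0, zero_pow T.M_pos.ne']
  exact zero_mem_ρ

theorem frequently_of_deriv {W : ℂ → ℂ} {b d : ℂ} (h : HasDerivAt W d b) (hd : d ≠ 0) (x : ℂ) :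
    ∃ᶠ z in 𝓝 b, W z ≠ x :=
  ((h.eventually_ne hd (c := x)).frequently).filter_mono nhdsWithin_le_nhds

theorem pow_zero_M (g : ℂ) (h : g = 0) : g ^ T.M = 0 := by
  rw [h, zero_pow T.M_pos.ne']

/-- vertex charts -/
theorem chg_vert (i j : Fin T.m) (k : ℕ) (w₁ b : ℂ) :
    Chg (fun q => (q.1, Wf T i k (.vert j k w₁) q - (shD T k i j 0 + (w₁ + b))))
      (fun _ => 1) b 0 where
  an1 := analyticAt_fst
  an2 := by
    refine AnalyticAt.sub ?_ analyticAt_const
    exact (shD_comp k i j analyticAt_fst rfl).add (analyticAt_const.add analyticAt_snd)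
  val := by
    simp [Wf, T.M_pos.ne']
  uan := analyticAt_const
  une := one_ne_zero
  fst := Eventually.of_forall fun q => by simp
  snd := by
    have h1 : ∀ z : ℂ, Wf T i k (.vert j k w₁) (0, z) - (shD T k i j 0 + (w₁ + b)) = z - b := by
      intro z
      simp [Wf, T.M_pos.ne']
    simp only [h1]
    exact frequently_of_deriv ((hasDerivAt_id' b).sub_const b) one_ne_zero 0

/-- leg charts off the end point -/
theorem chg_leg (i j : Fin T.m) (k : ℕ) {b : ℂ} (hb : b ≠ 0) :
    Chg (fun q => (q.1, Wf T i k (.leg j) q - (shD T k i j 0 + b ^ T.M)))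
      (fun _ => 1) b 0 where
  an1 := analyticAt_fst
  an2 := by
    refine AnalyticAt.sub ?_ analyticAt_const
    exact (shD_comp k i j analyticAt_fst rfl).add (analyticAt_snd.pow _)
  val := by
    simp [Wf, T.M_pos.ne']
  uan := analyticAt_const
  une := one_ne_zero
  fst := Eventually.of_forall fun q => by simp
  snd := by
    have h1 : ∀ z : ℂ, Wf T i k (.leg j) (0, z) - (shD T k i j 0 + b ^ T.M) =
        z ^ T.M - b ^ T.M := by
      intro z
      simp [Wf, T.M_pos.ne']
    simp only [h1]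
    have hM : ((T.M : ℕ) : ℂ) ≠ 0 := by exact_mod_cast T.M_pos.ne'
    exact frequently_of_deriv ((hasDerivAt_pow T.M b).sub_const _)
      (mul_ne_zero hM (pow_ne_zero _ hb)) 0

/-- edge charts, first branch -/
theorem chg_edge1 (i j : Fin T.m) {k k₂ : ℕ} (hk : k < k₂) {b : ℂ} (hb : b ≠ 0) :
    Chg (fun q => (q.1 * q.2, Wf T i k (.edge j k k₂) q -
      (shD T k i j 0 + b ^ (T.M * (k₂ - k))))) (fun q => q.2) b 0 where
  an1 := analyticAt_fst.mul analyticAt_snd
  an2 := by
    refine AnalyticAt.sub ?_ analyticAt_const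
    have h1 : Wf T i k (.edge j k k₂) = fun q : ℂ × ℂ =>
        shD T k i j ((q.1 * q.2) ^ T.M) + q.2 ^ (T.M * (k₂ - k)) := by
      funext q; simp [Wf]
    rw [h1]
    exact (shD_comp k i j (analyticAt_fst.mul analyticAt_snd) (by simp)).add (analyticAt_snd.pow _)
  val := by
    simp [Wf, T.M_pos.ne']
  uan := analyticAt_snd
  une := hb
  fst := Eventually.of_forall fun q => rfl
  snd := by
    have h1 : ∀ z : ℂ, Wf T i k (.edge j k k₂) (0, z) -
        (shD T k i j 0 + b ^ (T.M * (k₂ - k))) =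
        z ^ (T.M * (k₂ - k)) - b ^ (T.M * (k₂ - k)) := by
      intro z
      simp [Wf, T.M_pos.ne']
    simp only [h1]
    have hl : ((T.M * (k₂ - k) : ℕ) : ℂ) ≠ 0 := by
      have : 0 < T.M * (k₂ - k) := Nat.mul_pos T.M_pos (by omega)
      exact_mod_cast this.ne'
    exact frequently_of_deriv ((hasDerivAt_pow (T.M * (k₂ - k)) b).sub_const _)
      (mul_ne_zero hl (pow_ne_zero _ hb)) 0

/-- edge charts, second branch (in exchanged coordinates) -/
theorem chg_edge2 (i j : Fin T.m) {k₁ k : ℕ} (hk : k₁ < k) {a : ℂ} (ha : a ≠ 0) :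
    Chg (fun q => (q.2 * q.1, Wf T i k (.edge j k₁ k) (q.2, q.1) -
      (shD T k i j 0 + (a ^ (T.M * (k - k₁)))⁻¹))) (fun q => q.2) a 0 where
  an1 := analyticAt_snd.mul analyticAt_fst
  an2 := by
    refine AnalyticAt.sub ?_ analyticAt_const
    have h1 : (fun q : ℂ × ℂ => Wf T i k (.edge j k₁ k) (q.2, q.1)) = fun q =>
        shD T k i j ((q.2 * q.1) ^ T.M) + (q.2 ^ (T.M * (k - k₁)))⁻¹ := by
      funext q; simp [Wf, hk.ne']
    rw [h1]
    exact (shD_comp k i j (analyticAt_snd.mul analyticAt_fst) (by simp)).add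
      ((analyticAt_snd.pow _).inv (pow_ne_zero _ ha))
  val := by
    simp [Wf, T.M_pos.ne', hk.ne']
  uan := analyticAt_snd
  une := ha
  fst := Eventually.of_forall fun q => by simp [mul_comm]
  snd := by
    have h1 : ∀ z : ℂ, Wf T i k (.edge j k₁ k) (z, 0) -
        (shD T k i j 0 + (a ^ (T.M * (k - k₁)))⁻¹) =
        (z ^ (T.M * (k - k₁)))⁻¹ - (a ^ (T.M * (k - k₁)))⁻¹ := by
      intro z
      simp [Wf, T.M_pos.ne', hk.ne']
    simp only [h1]
    have hl : ((T.M * (k - k₁) : ℕ) : ℂ) ≠ 0 := by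
      have : 0 < T.M * (k - k₁) := Nat.mul_pos T.M_pos (by omega)
      exact_mod_cast this.ne'
    have hal : a ^ (T.M * (k - k₁)) ≠ 0 := pow_ne_zero _ ha
    have h2 := ((hasDerivAt_pow (T.M * (k - k₁)) a).fun_inv hal).sub_const
      ((a ^ (T.M * (k - k₁)))⁻¹)
    exact frequently_of_deriv h2
      (div_ne_zero (neg_ne_zero.2 (mul_ne_zero hl (pow_ne_zero _ ha))) (pow_ne_zero _ hal)) 0

end Crest.Agent.R257.OrdT_578
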