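import Crest.Agent.R257.OrdT3_578

/-!
# Row 257, part C, `Frame.ord` in the T-frame (helper578), part 4: sheets of a chart against the sheets
of a vertex chart

`attach` : near a generic point of the special fibre every sheet of a chart is the pull-back of exactly
one sheet of the vertex chart.
-/

set_option autoImplicit false
set_option linter.unusedSectionVars false

open Polynomial Set Filter Topology Metric
open Crest.AlgGeometry.Germ Crest.Agent.R257.AJ387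

noncomputable section

namespace Crest.Agent.R257.OrdT_578

open Crest.Agent.R257.T387 Crest.Agent.R257.OrdL_578

/-- germs of analytic functions form a domain -/
theorem germ_mul {E : Type*} [NormedAddCommGroup E] [NormedSpace ℂ E] {f g : E → ℂ} {p : E}
    (hf : AnalyticAt ℂ f p) (hg : AnalyticAt ℂ g p) (h : ∀ᶠ q in 𝓝 p, f q * g q = 0) :
    (∀ᶠ q in 𝓝 p, f q = 0) ∨ ∀ᶠ q in 𝓝 p, g q = 0 := by
  by_contra hcon
  push Not at hcon
  obtain ⟨h1, h2⟩ := hcon
  obtain ⟨r, hr, hball⟩ := Metric.eventually_nhds_iff_ball.1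
    ((hf.eventually_analyticAt.and hg.eventually_analyticAt).and h)
  obtain ⟨y, hyf, hyb⟩ := (h1.and_eventually (Metric.ball_mem_nhds p hr)).exists
  have h3 : ∀ᶠ q in 𝓝 y, g q = 0 := by
    filter_upwards [(hball y hyb).1.1.continuousAt.eventually_ne hyf,
      Metric.isOpen_ball.mem_nhds hyb] with q hq1 hq2
    exact (mul_eq_zero.1 (hball q hq2).2).resolve_left hq1
  let _ : NormedSpace ℝ E := NormedSpace.restrictScalars ℝ ℂ E
  have h4 : EqOn g 0 (Metric.ball p r) := by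
    refine AnalyticOnNhd.eqOn_zero_of_preconnected_of_eventuallyEq_zero
      (fun q hq => (hball q hq).1.2) (convex_ball p r).isPreconnected hyb h3
  refine h2 ?_
  filter_upwards [Metric.ball_mem_nhds p hr] with q hq
  exact not_not.2 (h4 hq)

theorem germ_prod {E : Type*} [NormedAddCommGroup E] [NormedSpace ℂ E] {ι : Type*} {f : ι → E → ℂ}
    {p : E} (s : Finset ι) (hf : ∀ i ∈ s, AnalyticAt ℂ (f i) p)
    (h : ∀ᶠ q in 𝓝 p, ∏ i ∈ s, f i q = 0) : ∃ i ∈ s, ∀ᶠ q in 𝓝 p, f i q = 0 := by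
  classical
  induction s using Finset.induction_on with
  | empty =>
    obtain ⟨q, hq⟩ := h.exists
    simp at hq
  | insert a s ha ih =>
    simp only [Finset.prod_insert ha] at h
    have h1 : AnalyticAt ℂ (fun q => ∏ i ∈ s, f i q) p :=
      Finset.analyticAt_fun_prod s fun i hi => hf i (Finset.mem_insert_of_mem hi)
    rcases germ_mul (hf a (Finset.mem_insert_self _ _)) h1 h with h2 | h2
    · exact ⟨a, Finset.mem_insert_self _ _, h2⟩
    · obtain ⟨i, hi, h3⟩ := ih (fun i hi => hf i (Finset.mem_insert_of_mem hi)) h2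
      exact ⟨i, Finset.mem_insert_of_mem hi, h3⟩

variable {f : (Fin 3 → ℂ) → ℂ} {T : TB f}

/-- **attaching** the sheets of a chart to the sheets of a vertex chart -/
theorem attach {c c' : Ch T.m} {r r' : ℝ} {ζ ζ' : Fin T.d → ℂ × ℂ → ℂ} (h : T.Sheets c r ζ)
    (h' : T.Sheets c' r' ζ') {p : ℂ × ℂ} (hp : p ∈ BD r r) {φ : ℂ × ℂ → ℂ × ℂ}
    (hφ : AnalyticAt ℂ φ p) (hφp : φ p ∈ BD r' r')
    (hmap : ∀ᶠ q in 𝓝 p, T.map c q = T.map c' (φ q))
    (hgen : ∃ᶠ q in 𝓝 p, T.Gen c q) :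
    ∃ σ : Equiv.Perm (Fin T.d), ∀ j, ∀ᶠ q in 𝓝 p, ζ j q = ζ' (σ j) (φ q) := by
  classical
  have hφn : ∀ᶠ q in 𝓝 p, φ q ∈ BD r' r' :=
    hφ.continuousAt.eventually ((isOpen_BD r' r').mem_nhds hφp)
  have hpn : ∀ᶠ q in 𝓝 p, q ∈ BD r r := (isOpen_BD r r).mem_nhds hp
  have key : ∀ j, ∃ n, ∀ᶠ q in 𝓝 p, ζ j q = ζ' n (φ q) := by
    intro j
    have h1 : ∀ᶠ q in 𝓝 p, ∏ n ∈ Finset.univ, (ζ j q - ζ' n (φ q)) = 0 := by
      filter_upwards [hmap, hφn, hpn] with q h2 h3 h4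
      have h5 : (T.Q (T.map c q)).eval (ζ j q) = 0 := by
        rw [h.split q h4, eval_prod]
        exact Finset.prod_eq_zero (Finset.mem_univ j) (by simp)
      rw [h2, h'.split _ h3, eval_prod] at h5
      simpa using h5
    obtain ⟨n, -, hn⟩ := germ_prod (f := fun n q => ζ j q - ζ' n (φ q)) Finset.univ
      (fun n _ => (h.an j p hp).sub (AnalyticAt.comp (g := ζ' n) (f := φ) (h'.an n _ hφp) hφ)) h1
    exact ⟨n, hn.mono fun q hq => sub_eq_zero.1 hq⟩
  choose σ hσ using key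
  have hinj : Function.Injective σ := by
    intro j j' hjj
    by_contra hne
    obtain ⟨q, hq1, hq2, hq3, hq4⟩ := (hgen.and_eventually
      ((hσ j).and ((hσ j').and hpn))).exists
    apply hne
    refine h.inj q hq4 hq1 ?_
    show ζ j q = ζ j' q
    rw [hq2, hq3, hjj]
  exact ⟨Equiv.ofBijective σ (Finite.injective_iff_bijective.1 hinj), hσ⟩

theorem gen_freq1 (c : Ch T.m) {b : ℂ} (hc : (∃ j k₁ k₂, c = .edge j k₁ k₂) ∨ (∃ j, c = .leg j) →
    b ≠ 0) : ∃ᶠ q in 𝓝 ((0 : ℂ), b), T.Gen c q := by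
  have h1 : Tendsto (fun s : ℂ => (s, b)) (𝓝[≠] 0) (𝓝 ((0 : ℂ), b)) :=
    (tendsto_fst b).mono_left nhdsWithin_le_nhds
  refine h1.frequently ?_
  have h2 : ∀ᶠ s in 𝓝[≠] (0 : ℂ), T.Gen c (s, b) := by
    filter_upwards [self_mem_nhdsWithin] with s hs
    cases c with
    | edge i k k' => exact ⟨hs, hc (Or.inl ⟨i, k, k', rfl⟩)⟩
    | leg i => exact ⟨hs, hc (Or.inr ⟨i, rfl⟩)⟩
    | vert i k w₀ => exact hs
  exact h2.frequently

theorem gen_freq2 {j : Fin T.m} {k₁ k₂ : ℕ} {a : ℂ} (ha : a ≠ 0) :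
    ∃ᶠ q in 𝓝 (a, (0 : ℂ)), T.Gen (.edge j k₁ k₂) q := by
  have h1 : Tendsto (fun s : ℂ => (a, s)) (𝓝[≠] 0) (𝓝 (a, (0 : ℂ))) := by
    have h2 : Tendsto (fun s : ℂ => (a, s)) (𝓝 0) (𝓝 (a, (0 : ℂ))) :=
      (by fun_prop : Continuous fun s : ℂ => (a, s)).tendsto 0
    exact h2.mono_left nhdsWithin_le_nhds
  refine h1.frequently ?_
  have h2 : ∀ᶠ s in 𝓝[≠] (0 : ℂ), T.Gen (.edge j k₁ k₂) (a, s) := by
    filter_upwards [self_mem_nhdsWithin] with s hs
    exact ⟨ha, hs⟩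
  exact h2.frequently

end Crest.Agent.R257.OrdT_578
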