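import Crest.Agent.R257.FrmB_547
import Crest.Agent.R257.OrdT4_578

/-!
# Row 257, part C, `Frame.ord` in the T-frame (helper578), part 5: orders at the points of the special
fibre

`gm T g μ ζ`  : the pull-back of `g` to the chart `μ` with the sheet `ζ`;
`Ox g x n`    : the order of `g` at the point `x : X T i k` is `n`; invariance along components;
`Lw g i k n w γ` : the leading coefficient;
`BrP`         : a point of a branch of a chart; transfer of orders and leading coefficients.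
-/

set_option autoImplicit false
set_option linter.unusedSectionVars false

open Polynomial Set Filter Topology Metric
open Crest.AlgGeometry.Germ Crest.Agent.R257.AJ387

noncomputable section

namespace Crest.Agent.R257.OrdT_578

open Crest.Agent.R257.T387 Crest.Agent.R257.OrdL_578
open Crest.Agent.R257.Frm_547 (Z2 Sh1 X Step Cmp cl fib Att LocBr Eqv)

variable {f : (Fin 3 → ℂ) → ℂ} (T : TB f)

/-- the pull-back of `g` to the chart `μ` with the sheet `ζ` -/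
def gm (g : (Fin 3 → ℂ) → ℂ) (μ : ℂ × ℂ → ℂ × ℂ) (ζ : ℂ × ℂ → ℂ) (q : ℂ × ℂ) : ℂ :=
  g (pt (ζ q) (T.base (μ q)))

theorem gth_eq (g : (Fin 3 → ℂ) → ℂ) (c : Ch T.m) (ζ : ℂ × ℂ → ℂ) :
    gth T g c ζ = gm T g (T.map c) ζ := rfl

variable {T}

theorem root_zero {z : ℂ} (h : (T.Q 0).eval z = 0) : z = 0 := by
  have h2 : T.Q 0 = (Polynomial.X : Polynomial ℂ) ^ T.d := by
    have : (((0 : ℂ × ℂ).1 ^ T.N, (0 : ℂ × ℂ).2) : ℂ × ℂ) = 0 := by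
      ext <;> simp [T.N_pos.ne']
    rw [TB.Q, this, T.P_zero]
  rw [h2, eval_pow, eval_X] at h
  exact (pow_eq_zero_iff T.d_pos.ne').1 h

theorem gm_an {g : (Fin 3 → ℂ) → ℂ} (hg : AnalyticAt ℂ g 0) {μ : ℂ × ℂ → ℂ × ℂ} {ζ : ℂ × ℂ → ℂ}
    {p : ℂ × ℂ} (hμ : AnalyticAt ℂ μ p) (hμ0 : μ p = 0) (hζ : AnalyticAt ℂ ζ p) (hζ0 : ζ p = 0) :
    AnalyticAt ℂ (gm T g μ ζ) p := by
  have h1 : AnalyticAt ℂ (fun q => pt (ζ q) (T.base (μ q))) p :=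
    pt_an hζ (AnalyticAt.comp (g := T.base) (f := μ) (base_an _) hμ)
  refine AnalyticAt.comp (g := g) (f := fun q => pt (ζ q) (T.base (μ q))) ?_ h1
  rw [hζ0, hμ0, base_zero, pt_zero]
  exact hg

theorem gm_congr {g : (Fin 3 → ℂ) → ℂ} {μ : ℂ × ℂ → ℂ × ℂ} {ζ ζ' : ℂ × ℂ → ℂ} {p : ℂ × ℂ}
    (h : ζ =ᶠ[𝓝 p] ζ') : gm T g μ ζ =ᶠ[𝓝 p] gm T g μ ζ' := by
  filter_upwards [h] with q hq
  rw [gm, gm, hq]

theorem sh1_zero {i : Fin T.m} {k : ℕ} (hk : 0 < k) {w : ℂ} {r : ℝ} {ξ : ℂ × ℂ → ℂ}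
    (h : Sh1 T i k w r ξ) {β : ℂ} (hβ : ‖β‖ < r) : ξ (0, β) = 0 := by
  have h1 := h.root (0, β) ⟨by simpa using h.r_pos, hβ⟩
  rw [map_vert hk] at h1
  exact root_zero h1

theorem sh1_gan {g : (Fin 3 → ℂ) → ℂ} (hg : AnalyticAt ℂ g 0) {i : Fin T.m} {k : ℕ} (hk : 0 < k)
    {w : ℂ} {r : ℝ} {ξ : ℂ × ℂ → ℂ} (h : Sh1 T i k w r ξ) {β : ℂ} (hβ : ‖β‖ < r) :
    AnalyticAt ℂ (gm T g (T.map (.vert i k w)) ξ) (0, β) := by
  have hmem : ((0 : ℂ), β) ∈ BD r r := ⟨by simpa using h.r_pos, hβ⟩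
  exact gm_an hg (map_an (h.mem _ hmem).2) (map_vert hk w β) (h.an _ hmem) (sh1_zero hk h hβ)

/-- the order of `g` at a point of the special fibre -/
def Ox (g : (Fin 3 → ℂ) → ℂ) {i : Fin T.m} {k : ℕ} (x : X T i k) (n : ℕ) : Prop :=
  ∃ ζ : ℂ × ℂ → ℂ, x.1.2 = (ζ : Z2) ∧ HasOrd (gm T g (T.map (.vert i k x.1.1)) ζ) 0 n

variable (T) in
/-- the leading coefficient of `g` at a point of the special fibre -/
def Lw (g : (Fin 3 → ℂ) → ℂ) (i : Fin T.m) (k : ℕ) (n : ℕ) (w : ℂ) (γ : Z2) : ℂ :=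
  lc (gm T g (T.map (.vert i k w)) (Quotient.out γ)) n 0

theorem out_ev {γ : Z2} {ζ : ℂ × ℂ → ℂ} (h : γ = (ζ : Z2)) :
    (Quotient.out γ : ℂ × ℂ → ℂ) =ᶠ[𝓝 (0 : ℂ × ℂ)] ζ := by
  have h1 : ((Quotient.out γ : ℂ × ℂ → ℂ) : Z2) = γ := Quotient.out_eq γ
  exact Germ.coe_eq.1 (h1.trans h)

theorem Lw_eq {g : (Fin 3 → ℂ) → ℂ} {i : Fin T.m} {k n : ℕ} {w : ℂ} {γ : Z2} {ζ : ℂ × ℂ → ℂ}
    (h : γ = (ζ : Z2)) : Lw T g i k n w γ = lc (gm T g (T.map (.vert i k w)) ζ) n 0 :=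
  lc_congr (gm_congr (out_ev h))

theorem Ox.any {g : (Fin 3 → ℂ) → ℂ} {i : Fin T.m} {k : ℕ} {x : X T i k} {n : ℕ} (h : Ox g x n)
    {ζ : ℂ × ℂ → ℂ} (hζ : x.1.2 = (ζ : Z2)) : HasOrd (gm T g (T.map (.vert i k x.1.1)) ζ) 0 n := by
  obtain ⟨ζ', h1, h2⟩ := h
  exact h2.congr (gm_congr (Germ.coe_eq.1 (h1.symm.trans hζ)))

theorem Ox.iff {g : (Fin 3 → ℂ) → ℂ} {i : Fin T.m} {k : ℕ} {x : X T i k} {n : ℕ}
    {ζ : ℂ × ℂ → ℂ} (hζ : x.1.2 = (ζ : Z2)) :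
    Ox g x n ↔ HasOrd (gm T g (T.map (.vert i k x.1.1)) ζ) 0 n :=
  ⟨fun h => h.any hζ, fun h => ⟨ζ, hζ, h⟩⟩

theorem Ox.unique {g : (Fin 3 → ℂ) → ℂ} {i : Fin T.m} {k : ℕ} {x : X T i k} {n n' : ℕ}
    (h : Ox g x n) (h' : Ox g x n') : n = n' := by
  obtain ⟨ζ, h1, h2⟩ := h
  exact h2.unique (h'.any h1)

theorem ord_ball {h : ℂ × ℂ → ℂ} {r : ℝ} (han : ∀ z, ‖z‖ < r → AnalyticAt ℂ h (0, z)) {z z' : ℂ}
    (hz : ‖z‖ < r) (hz' : ‖z'‖ < r) {n : ℕ} (hn : HasOrd h z n) : HasOrd h z' n := by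
  obtain ⟨m, hm⟩ := exists_ord_ball han hz hn.not_zero
  have := hn.unique (hm z hz)
  subst this
  exact hm z' hz'

theorem gm_shift (g : (Fin 3 → ℂ) → ℂ) (i : Fin T.m) (k : ℕ) (w β : ℂ) (ζ : ℂ × ℂ → ℂ) :
    gm T g (T.map (.vert i k (w + β))) (fun p : ℂ × ℂ => ζ (p.1, p.2 + β)) =
      fun q => gm T g (T.map (.vert i k w)) ζ (q.1, q.2 + β) := by
  funext q
  have h1 : T.map (.vert i k (w + β)) q = T.map (.vert i k w) (q.1, q.2 + β) := by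
    rw [Frm_547.map_vert, Frm_547.map_vert]
    congr 2
    ring
  simp only [gm, h1]

theorem Ox.step {g : (Fin 3 → ℂ) → ℂ} (hg : AnalyticAt ℂ g 0) {i : Fin T.m} {k : ℕ} (hk : 0 < k)
    {x y : X T i k} (h : Step T i k x y) {n : ℕ} : Ox g x n ↔ Ox g y n := by
  obtain ⟨r, ζ, h1, h2, β, hβ, h3, h4⟩ := h
  rw [Ox.iff h2, Ox.iff h4, h3, gm_shift, hasOrd_trans, zero_add]
  have h0 : ‖(0 : ℂ)‖ < r := by simpa using h1.r_pos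
  have han : ∀ z, ‖z‖ < r → AnalyticAt ℂ (gm T g (T.map (.vert i k x.1.1)) ζ) (0, z) :=
    fun z hz => sh1_gan hg hk h1 hz
  exact ⟨fun h => ord_ball han h0 hβ h, fun h => ord_ball han hβ h0 h⟩

theorem Ox.cl {g : (Fin 3 → ℂ) → ℂ} (hg : AnalyticAt ℂ g 0) {i : Fin T.m} {k : ℕ} (hk : 0 < k)
    {x y : X T i k} (h : cl T x = cl T y) {n : ℕ} : Ox g x n ↔ Ox g y n := by
  have h1 := Quot.eqvGen_exact h
  clear h
  induction h1 with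
  | rel x y h => exact Ox.step hg hk h
  | refl x => exact Iff.rfl
  | symm x y _ ih => exact ih.symm
  | trans x y z _ _ ih1 ih2 => exact ih1.trans ih2

/-- the order of `g` on a component -/
def Oc (g : (Fin 3 → ℂ) → ℂ) {i : Fin T.m} {k : ℕ} (E : Cmp T i k) (n : ℕ) : Prop :=
  ∃ x : X T i k, Frm_547.cl T x = E ∧ Ox g x n

theorem Oc.all {g : (Fin 3 → ℂ) → ℂ} (hg : AnalyticAt ℂ g 0) {i : Fin T.m} {k : ℕ} (hk : 0 < k)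
    {E : Cmp T i k} {n : ℕ} (h : Oc g E n) {x : X T i k} (hx : Frm_547.cl T x = E) : Ox g x n := by
  obtain ⟨y, h1, h2⟩ := h
  exact (Ox.cl hg hk (h1.trans hx.symm)).1 h2

theorem Oc.unique {g : (Fin 3 → ℂ) → ℂ} (hg : AnalyticAt ℂ g 0) {i : Fin T.m} {k : ℕ} (hk : 0 < k)
    {E : Cmp T i k} {n n' : ℕ} (h : Oc g E n) (h' : Oc g E n') : n = n' := by
  obtain ⟨y, h1, h2⟩ := h
  exact h2.unique (h'.all hg hk h1)

/-! ### points of a branch -/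

/-- the point `(0, b)` of a branch `{q.1 = 0}` of the chart `μ` with coordinate function `W`,
`s = q.1 * u q` -/
structure BrP (i : Fin T.m) (k : ℕ) (μ : ℂ × ℂ → ℂ × ℂ) (W u : ℂ × ℂ → ℂ)
    (ζ : Fin T.d → ℂ × ℂ → ℂ) (b : ℂ) : Prop where
  loc : LocBr (T := T) i k μ W ζ (0, b)
  an : AnalyticAt ℂ μ (0, b)
  zero : μ (0, b) = 0
  uan : AnalyticAt ℂ u (0, b)
  une : u (0, b) ≠ 0
  fst : ∀ᶠ q in 𝓝 ((0 : ℂ), b), (μ q).1 = q.1 * u q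
  snd : ∃ᶠ z in 𝓝 b, W (0, z) ≠ W (0, b)

theorem att_W {i : Fin T.m} {k : ℕ} {μ : ℂ × ℂ → ℂ × ℂ} {W : ℂ × ℂ → ℂ}
    {ζ : Fin T.d → ℂ × ℂ → ℂ} {p : ℂ × ℂ} (h : LocBr (T := T) i k μ W ζ p) {x : X T i k}
    {j : Fin T.d} (ha : Att T i k x μ (ζ j) p) : W p = x.1.1 ∧ ∃ γ : ℂ × ℂ → ℂ,
      AnalyticAt ℂ γ 0 ∧ x.1.2 = (γ : Z2) ∧ ∀ᶠ q in 𝓝 p,
        μ q = T.map (.vert i k x.1.1) ((μ q).1, W q - x.1.1) ∧ ζ j q = γ ((μ q).1, W q - x.1.1) := by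
  obtain ⟨hs0, W', γ, hW', hWp', hγ, hxγ, he⟩ := ha
  have h1 : ∀ᶠ q in 𝓝 p, (μ q).1 ^ (T.M * k) * (W q - W' q) = 0 := by
    filter_upwards [h.eq, he] with q hq hq'
    have e2 := hq'.1
    rw [Frm_547.map_vert_sub] at e2
    have e3 := congrArg Prod.snd (hq.symm.trans e2)
    simp only [Frm_547.bm] at e3
    linear_combination e3
  have h2 : ∀ᶠ q in 𝓝 p, W q - W' q = 0 := by
    rcases Frm_547.mul_ev (h.hμ.pow _) (h.hW.sub hW') h1 with h3 | h3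
    · exfalso
      obtain ⟨q, hq, hq'⟩ := (h.nz.and_eventually h3).exists
      exact pow_ne_zero _ hq hq'
    · exact h3
  refine ⟨(sub_eq_zero.1 h2.self_of_nhds).trans hWp', γ, hγ, hxγ, ?_⟩
  filter_upwards [h2, he] with q a1 a2
  rw [sub_eq_zero.1 a1]
  exact a2

theorem BrP.chg {i : Fin T.m} {k : ℕ} {μ : ℂ × ℂ → ℂ × ℂ} {W u : ℂ × ℂ → ℂ}
    {ζ : Fin T.d → ℂ × ℂ → ℂ} {b : ℂ} (h : BrP (T := T) i k μ W u ζ b) :
    Chg (fun q => ((μ q).1, W q - W (0, b))) u b 0 where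
  an1 := h.loc.hμ
  an2 := h.loc.hW.sub analyticAt_const
  val := by
    rw [h.loc.s0]
    simp
  uan := h.uan
  une := h.une
  fst := h.fst
  snd := h.snd.mono fun z hz => sub_ne_zero.2 hz

/-- comparison of the pull-backs -/
theorem BrP.att {i : Fin T.m} {k : ℕ} {μ : ℂ × ℂ → ℂ × ℂ} {W u : ℂ × ℂ → ℂ}
    {ζ : Fin T.d → ℂ × ℂ → ℂ} {b : ℂ} (h : BrP (T := T) i k μ W u ζ b) {x : X T i k} {j : Fin T.d}
    (ha : Att T i k x μ (ζ j) (0, b)) (g : (Fin 3 → ℂ) → ℂ) : W (0, b) = x.1.1 ∧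
      ∃ γ : ℂ × ℂ → ℂ, x.1.2 = (γ : Z2) ∧ ∀ᶠ q in 𝓝 ((0 : ℂ), b),
        gm T g μ (ζ j) q = gm T g (T.map (.vert i k x.1.1)) γ ((μ q).1, W q - W (0, b)) := by
  obtain ⟨h1, γ, -, h3, h4⟩ := att_W h.loc ha
  refine ⟨h1, γ, h3, ?_⟩
  filter_upwards [h4] with q hq
  rw [h1]
  simp only [gm]
  rw [← hq.1, ← hq.2]

theorem x_gan {g : (Fin 3 → ℂ) → ℂ} (hg : AnalyticAt ℂ g 0) {i : Fin T.m} {k : ℕ} (hk : 0 < k)
    (x : X T i k) {γ : ℂ × ℂ → ℂ} (hγ : x.1.2 = (γ : Z2)) :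
    AnalyticAt ℂ (gm T g (T.map (.vert i k x.1.1)) γ) (0, 0) := by
  obtain ⟨-, r, ξ, hξ, hx⟩ := x.2
  have h0 : ‖(0 : ℂ)‖ < r := by simpa using hξ.r_pos
  exact (sh1_gan hg hk hξ h0).congr (gm_congr (Germ.coe_eq.1 (hx.symm.trans hγ)))

/-- **transfer of orders** -/
theorem BrP.hasOrd_iff {g : (Fin 3 → ℂ) → ℂ} (hg : AnalyticAt ℂ g 0) {i : Fin T.m} {k : ℕ}
    (hk : 0 < k) {μ : ℂ × ℂ → ℂ × ℂ} {W u : ℂ × ℂ → ℂ}
    {ζ : Fin T.d → ℂ × ℂ → ℂ} {b : ℂ} (h : BrP (T := T) i k μ W u ζ b) {x : X T i k} {j : Fin T.d}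
    (ha : Att T i k x μ (ζ j) (0, b)) {n : ℕ} : HasOrd (gm T g μ (ζ j)) b n ↔ Ox g x n := by
  obtain ⟨h1, γ, h3, h4⟩ := h.att ha g
  rw [Ox.iff h3]
  constructor
  · intro hn
    exact hn.of_att' h.chg h4 (x_gan hg hk x h3)
  · intro hn
    exact hn.of_att h.chg h4

/-- **transfer of leading coefficients** -/
theorem BrP.lc_eq {g : (Fin 3 → ℂ) → ℂ} {i : Fin T.m} {k : ℕ} {μ : ℂ × ℂ → ℂ × ℂ}
    {W u : ℂ × ℂ → ℂ} {ζ : Fin T.d → ℂ × ℂ → ℂ} {b : ℂ} (h : BrP (T := T) i k μ W u ζ b)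
    {x : X T i k} {j : Fin T.d} (ha : Att T i k x μ (ζ j) (0, b)) {n : ℕ} (hn : Ox g x n) :
    lc (gm T g μ (ζ j)) n b = u (0, b) ^ n * Lw T g i k n x.1.1 x.1.2 := by
  obtain ⟨h1, γ, h3, h4⟩ := h.att ha g
  rw [Lw_eq h3]
  exact lc_of_att h.chg h4 (hn.any h3)

end Crest.Agent.R257.OrdT_578
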