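import Crest.Agent.R257.OrdT5_578

/-!
# Row 257, part C, `Frame.ord` in the T-frame (helper578), part 6: the degree formula on a component

`Raw`, `Raw.Ok` : the branch of a chart ending at a special point (or at infinity) of the vertex;
`deg_vertex`    : the degree formula.
-/

set_option autoImplicit false
set_option linter.unusedSectionVars false

open Polynomial Set Filter Topology Metric
open Crest.AlgGeometry.Germ Crest.Agent.R257.AJ387

noncomputable section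

namespace Crest.Agent.R257.OrdT_578

open Crest.Agent.R257.T387 Crest.Agent.R257.OrdL_578 Crest.Agent.R257.Deg_578
open Crest.Agent.R257.Frm_547 (Z2 Sh1 X Step Cmp cl fib Att LocBr Eqv)

variable {f : (Fin 3 → ℂ) → ℂ} {T : TB f}

/-- the sheets near an ordinary point -/
theorem fib_loc (hS : T.SheetsStmt) {g : (Fin 3 → ℂ) → ℂ} (hg : AnalyticAt ℂ g 0) {i : Fin T.m}
    {k : ℕ} (hk : k ∈ T.lev i) {E : Cmp T i k} {n : ℕ} (hE : Oc g E n) {w₀ : ℂ}
    (hw₀ : w₀ ∉ T.Sp i k) : ∃ (J : Type) (_ : Fintype J) (ζ : J → ℂ → Z2),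
      (∀ᶠ w in 𝓝 w₀, Function.Injective (fun j => ζ j w) ∧ ∀ x, x ∈ fib T E w ↔ ∃ j, ζ j w = x) ∧
      ∀ j, DifferentiableAt ℂ (fun w => Lw T g i k n w (ζ j w)) w₀ := by
  classical
  have hk0 : 0 < k := TB.lev_pos (T := T) hk
  obtain ⟨r, σ, hσ, hsp⟩ := Frm_547.exists_sheets_vert hS hk hw₀
  have hsh : ∀ j, Sh1 T i k w₀ r (σ j) := fun j => Frm_547.sh1_of hσ hsp j
  refine ⟨{j : Fin T.d // cl T (hsh j).pt = E}, inferInstance,
    fun j w => ((fun p : ℂ × ℂ => σ j (p.1, p.2 + (w - w₀)) : ℂ × ℂ → ℂ) : Z2), ?_, ?_⟩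
  · filter_upwards [ball_mem_nhds w₀ hσ.r_pos] with w hw
    have hβ : ‖w - w₀‖ < r := by simpa [dist_eq_norm] using hw
    obtain ⟨β, hβw⟩ : ∃ β, w = w₀ + β := ⟨w - w₀, by ring⟩
    subst hβw
    simp only [add_sub_cancel_left] at hβ ⊢
    have hlb := Frm_547.locBr_vert hσ hβ (hsp β hβ)
    obtain ⟨ξ, hatt, hξw, hinj, hsurj, -⟩ := hlb.pts hS hk
    have hξ : ∀ j, ((hsh j).shift hβ).pt = ξ j := fun j =>
      Frm_547.Att.unique hS hk hlb.hμ hlb.nz (Frm_547.att_shift (hsh j) hβ) (hatt j)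
    have hcl : ∀ j, cl T ((hsh j).shift hβ).pt = cl T (hsh j).pt :=
      fun j => (Quot.sound ((hsh j).step hβ)).symm
    constructor
    · intro j j' hjj
      apply Subtype.ext
      apply hinj
      rw [← hξ, ← hξ]
      exact Subtype.ext (Prod.ext rfl hjj)
    · intro γ
      constructor
      · rintro ⟨x, hx, hcx⟩
        have hx1 : x.1.1 = w₀ + β := by rw [hx]
        obtain ⟨j, hj⟩ := hsurj x hx1
        refine ⟨⟨j, ?_⟩, ?_⟩
        · rw [← hcl, hξ, hj, hcx]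
        · have h1 : x.1.2 = γ := by rw [hx]
          have h2 : ((hsh j).shift hβ).pt = x := (hξ j).trans hj
          exact (congrArg (fun y : X T i k => y.1.2) h2).trans h1
      · rintro ⟨j, hj⟩
        refine ⟨((hsh j.1).shift hβ).pt, ?_, ?_⟩
        · rw [← hj]
          rfl
        · rw [hcl]
          exact j.2
  · rintro ⟨j, hj⟩
    have h1 : HasOrd (gm T g (T.map (.vert i k w₀)) (σ j)) 0 n :=
      (hE.all hg hk0 hj).any rfl
    have h2 : AnalyticAt ℂ (fun w => lc (gm T g (T.map (.vert i k w₀)) (σ j)) n (w - w₀)) w₀ := by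
      refine AnalyticAt.comp (g := lc (gm T g (T.map (.vert i k w₀)) (σ j)) n)
        (f := fun w => w - w₀) ?_ (analyticAt_id.sub analyticAt_const)
      simpa using h1.lc_an
    refine (h2.differentiableAt).congr_of_eventuallyEq (Eventually.of_forall fun w => ?_)
    show Lw T g i k n w ((fun p : ℂ × ℂ => σ j (p.1, p.2 + (w - w₀)) : ℂ × ℂ → ℂ) : Z2) = _
    rw [Lw_eq rfl]
    have h3 := gm_shift g i k w₀ (w - w₀) (σ j)
    rw [add_sub_cancel] at h3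
    rw [h3, lc_trans, zero_add]

variable (T) in
/-- a branch of a chart, the components of its sheets, and the expansions -/
structure Raw (i : Fin T.m) (k : ℕ) : Type where
  μ : ℂ × ℂ → ℂ × ℂ
  W : ℂ × ℂ → ℂ
  u : ℂ × ℂ → ℂ
  ζ : Fin T.d → ℂ × ℂ → ℂ
  e : Fin T.d → Cmp T i k
  v : Fin T.d → ℤ
  H : Fin T.d → ℂ → ℂ

/-- the branch is over `w = φ β` near `β = 0` -/
structure Raw.Ok {i : Fin T.m} {k : ℕ} (B : Raw T i k) (g : (Fin 3 → ℂ) → ℂ) (E : Cmp T i k)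
    (n : ℕ) (φ : ℂ → ℂ) : Prop where
  pts : ∀ᶠ β in 𝓝[≠] (0 : ℂ), BrP (T := T) i k B.μ B.W B.u B.ζ β ∧ B.W (0, β) = φ β ∧
    ∀ j x, Att T i k x B.μ (B.ζ j) (0, β) → cl T x = B.e j
  coef : ∀ j, B.e j = E → AnalyticAt ℂ (B.H j) 0 ∧ (∃ᶠ β in 𝓝 (0 : ℂ), B.H j β ≠ 0) ∧
    ∀ᶠ β in 𝓝[≠] (0 : ℂ), lc (gm T g B.μ (B.ζ j)) n β = B.u (0, β) ^ n * (β ^ (B.v j) * B.H j β)

open Classical in
/-- the point of the sheet `j` at `(0, β)` -/
def Raw.z {i : Fin T.m} {k : ℕ} (B : Raw T i k) (j : Fin T.d) (β : ℂ) : Z2 :=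
  if h : ∃ x : X T i k, Att T i k x B.μ (B.ζ j) (0, β) then h.choose.1.2 else (0 : ℂ × ℂ → ℂ)

theorem Raw.Ok.sheetsA (hS : T.SheetsStmt) {g : (Fin 3 → ℂ) → ℂ} (hg : AnalyticAt ℂ g 0)
    {i : Fin T.m} {k : ℕ} (hk : k ∈ T.lev i) {E : Cmp T i k} {n : ℕ} (hE : Oc g E n)
    {B : Raw T i k} {φ : ℂ → ℂ} (h : B.Ok g E n φ) :
    SheetsA (fib T E) (Lw T g i k n) φ (fun (j : {j : Fin T.d // B.e j = E}) β => B.z j β)
      (fun j => B.v j) (fun j => B.H j) := by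
  classical
  have hk0 : 0 < k := TB.lev_pos (T := T) hk
  -- the points
  have key : ∀ᶠ β in 𝓝[≠] (0 : ℂ), BrP (T := T) i k B.μ B.W B.u B.ζ β ∧
      ∃ ξ : Fin T.d → X T i k, (∀ j, Att T i k (ξ j) B.μ (B.ζ j) (0, β)) ∧
        (∀ j, (ξ j).1.1 = φ β) ∧ Function.Injective ξ ∧
        (∀ y : X T i k, y.1.1 = φ β → ∃ j, ξ j = y) ∧ (∀ j, cl T (ξ j) = B.e j) ∧
        ∀ j, B.z j β = (ξ j).1.2 := by
    filter_upwards [h.pts] with β hβ
    obtain ⟨h1, h2, h3⟩ := hβ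
    obtain ⟨ξ, hatt, hξw, hinj, hsurj, -⟩ := h1.loc.pts hS hk
    refine ⟨h1, ξ, hatt, fun j => (hξw j).trans h2, hinj, fun y hy => hsurj y (hy.trans h2.symm),
      fun j => h3 j _ (hatt j), fun j => ?_⟩
    have hex : ∃ x : X T i k, Att T i k x B.μ (B.ζ j) (0, β) := ⟨_, hatt j⟩
    rw [Raw.z, dif_pos hex,
      Frm_547.Att.unique hS hk h1.loc.hμ h1.loc.nz hex.choose_spec (hatt j)]
  refine ⟨?_, fun j => ?_⟩
  · filter_upwards [key] with β hβ
    obtain ⟨-, ξ, hatt, hξw, hinj, hsurj, hcl, hz⟩ := hβ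
    constructor
    · intro j j' hjj
      apply Subtype.ext
      apply hinj
      have h4 : B.z j β = B.z j' β := hjj
      rw [hz, hz] at h4
      exact Subtype.ext (Prod.ext ((hξw _).trans (hξw _).symm) h4)
    · intro γ
      constructor
      · rintro ⟨x, hx, hcx⟩
        obtain ⟨j, hj⟩ := hsurj x (by rw [hx])
        refine ⟨⟨j, ?_⟩, ?_⟩
        · rw [← hcl, hj, hcx]
        · show B.z j β = γ
          rw [hz, hj, hx]
      · rintro ⟨⟨j, hjE⟩, hj⟩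
        refine ⟨ξ j, Prod.ext (hξw j) ?_, (hcl j).trans hjE⟩
        rw [← hj]
        exact (hz j).symm
  · obtain ⟨j, hjE⟩ := j
    obtain ⟨h1, h2, h3⟩ := h.coef j hjE
    refine ⟨h1, h2, ?_⟩
    filter_upwards [key, h3] with β hβ h4
    obtain ⟨hbr, ξ, hatt, hξw, hinj, hsurj, hcl, hz⟩ := hβ
    have h5 := hbr.lc_eq (hatt j) (hE.all hg hk0 ((hcl j).trans hjE))
    rw [h4, hξw j] at h5
    have h6 : B.u (0, β) ^ n ≠ 0 := pow_ne_zero _ hbr.une
    show Lw T g i k n (φ β) (B.z j β) = β ^ B.v j * B.H j β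
    rw [hz j]
    exact (mul_left_cancel₀ h6 h5).symm

open Classical in
/-- **the degree formula on the component `E`** -/
theorem deg_vertex (hS : T.SheetsStmt) {g : (Fin 3 → ℂ) → ℂ} (hg : AnalyticAt ℂ g 0)
    {i : Fin T.m} {k : ℕ} (hk : k ∈ T.lev i) {E : Cmp T i k} {n : ℕ} (hE : Oc g E n)
    {B : ℂ → Raw T i k} {B' : Raw T i k} {l : ℂ → ℕ} {l' : ℕ} (hl : ∀ c ∈ T.Sp i k, 0 < l c)
    (hl' : 0 < l') (hB : ∀ c ∈ T.Sp i k, (B c).Ok g E n (fun β => c + β ^ l c))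
    (hB' : B'.Ok g E n (fun β => (β ^ l')⁻¹)) :
    ∑ c ∈ T.Sp i k, ∑ j, (if (B c).e j = E then ((B c).v j : ℝ) / l c else 0) +
        ∑ j, (if B'.e j = E then (B'.v j : ℝ) / l' else 0) ≤ 0 ∧
      (∑ c ∈ T.Sp i k, ∑ j, (if (B c).e j = E then ((B c).v j : ℝ) / l c else 0) +
        ∑ j, (if B'.e j = E then (B'.v j : ℝ) / l' else 0) = 0 →
        (∀ x : X T i k, cl T x = E → Lw T g i k n x.1.1 x.1.2 ≠ 0) ∧
        (∀ c ∈ T.Sp i k, ∀ j, (B c).e j = E → (B c).H j 0 ≠ 0) ∧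
        ∀ j, B'.e j = E → B'.H j 0 ≠ 0) := by
  have h1 := cover_an (S := T.Sp i k) (fib := fib T E) (G := Lw T g i k n)
    (fun w₀ hw₀ => fib_loc hS hg hk hE hw₀) (J := fun c => {j : Fin T.d // (B c).e j = E}) hl
    (fun c hc => (hB c hc).sheetsA hS hg hk hE) hl' (hB'.sheetsA hS hg hk hE)
  have e1 : ∀ c, ∑ j, (if (B c).e j = E then ((B c).v j : ℝ) / l c else 0) =
      ∑ j : {j : Fin T.d // (B c).e j = E}, ((B c).v j : ℝ) / l c := by
    intro c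
    rw [← Finset.sum_filter]
    exact Finset.sum_subtype _ (by simp) _
  have e2 : ∑ j, (if B'.e j = E then (B'.v j : ℝ) / l' else 0) =
      ∑ j : {j : Fin T.d // B'.e j = E}, (B'.v j : ℝ) / l' := by
    rw [← Finset.sum_filter]
    exact Finset.sum_subtype _ (by simp) _
  simp only [e1, e2]
  refine ⟨h1.1, fun h0 => ?_⟩
  obtain ⟨a1, a2, a3⟩ := h1.2 h0
  refine ⟨fun x hx => a1 _ x.2.1 _ ⟨x, rfl, hx⟩, fun c hc j hj => a2 c hc ⟨j, hj⟩,
    fun j hj => a3 ⟨j, hj⟩⟩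

end Crest.Agent.R257.OrdT_578
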