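import Crest.Agent.R257.OrdT6_578

/-!
# Row 257, part C, `Frame.ord` in the T-frame (helper578), part 7: the branches of the edge and leg
charts

`brp_vert`, `brp_leg`, `brp_edge1`, `brp_edge2` : the points of the branches (`BrP`).
-/

set_option autoImplicit false
set_option linter.unusedSectionVars false

open Polynomial Set Filter Topology Metric
open Crest.AlgGeometry.Germ Crest.Agent.R257.AJ387

noncomputable section

namespace Crest.Agent.R257.OrdT_578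

open Crest.Agent.R257.T387 Crest.Agent.R257.OrdL_578 Crest.Agent.R257.Deg_578
open Crest.Agent.R257.Frm_547 (Z2 Sh1 X Step Cmp cl fib Att LocBr Eqv)

variable {f : (Fin 3 → ℂ) → ℂ} {T : TB f}

theorem same_of_eqv {k : ℕ} {i l : Fin T.m} (h : Eqv T k i l) : Same T k i l := by
  rcases h.symm with h | h
  · exact Or.inl h
  · exact Or.inr h

theorem sh_eq_shD (k : ℕ) (i l : Fin T.m) (s : ℂ) : Frm_547.sh T k l i s = shD T k i l (s ^ T.M) := by
  unfold Frm_547.sh shD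
  split_ifs <;> rfl

theorem shD_zero_eq {k : ℕ} {i l : Fin T.m} (h : Eqv T k i l) :
    shD T k i l 0 = - Frm_547.sh T k i l 0 := by
  have h1 := sh_eq_shD k i l (0 : ℂ)
  rw [zero_pow T.M_pos.ne'] at h1
  have h2 := Frm_547.sh_cocycle T h h.symm (Frm_547.zero_mem_sD T)
  rw [Frm_547.sh_self] at h2
  rw [← h1]
  linear_combination -h2

theorem shD_self (k : ℕ) (i : Fin T.m) (s : ℂ) : shD T k i i s = 0 := by simp [shD]

/-- from `Sheets` to `LocBr`, in the coordinates of the chart composed with `χ` -/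
theorem locBr_of {c : Ch T.m} {r : ℝ} {ζ : Fin T.d → ℂ × ℂ → ℂ} (h : T.Sheets c r ζ) {i : Fin T.m}
    {k : ℕ} {χ : ℂ × ℂ → ℂ × ℂ} {p : ℂ × ℂ} (hχ : AnalyticAt ℂ χ p) (hp : χ p ∈ BD r r)
    {W : ℂ × ℂ → ℂ} (hW : AnalyticAt ℂ W p) (s0 : (T.map c (χ p)).1 = 0) (sp : W p ∉ T.Sp i k)
    (eq : ∀ᶠ q in 𝓝 p, T.map c (χ q) = Frm_547.bm T i k ((T.map c (χ q)).1, W q))
    (nz : ∃ᶠ q in 𝓝 p, (T.map c (χ q)).1 ≠ 0)
    (hgen : ∀ q, (T.map c q).1 ≠ 0 → T.Gen c q) :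
    LocBr (T := T) i k (fun q => T.map c (χ q)) W (fun j q => ζ j (χ q)) p := by
  have hev : ∀ᶠ q in 𝓝 p, χ q ∈ BD r r := hχ.continuousAt.eventually ((isOpen_BD r r).mem_nhds hp)
  have hm : AnalyticAt ℂ (fun q => T.map c (χ q)) p :=
    AnalyticAt.comp (g := T.map c) (f := χ) (map_an (h.mem _ hp).2) hχ
  refine ⟨hW, ?_, s0, sp, eq, nz, fun j => AnalyticAt.comp (g := ζ j) (f := χ) (h.an j _ hp) hχ,
    ?_, ?_⟩
  · exact AnalyticAt.comp (g := fun x : ℂ × ℂ => x.1) (f := fun q => T.map c (χ q)) analyticAt_fst hm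
  · filter_upwards [hev] with q hq
    exact h.split _ hq
  · filter_upwards [hev] with q hq h0
    exact h.inj _ hq (hgen _ h0)

theorem bm_of_vert {i : Fin T.m} {k : ℕ} {p : ℂ × ℂ} {s W x : ℂ}
    (h : p = T.map (.vert i k x) (s, W - x)) : p = Frm_547.bm T i k (p.1, W) := by
  rw [Frm_547.map_vert_sub] at h
  conv_lhs => rw [h]
  rw [h]
  rfl

theorem small_ev {g : ℂ × ℂ → ℂ} {p : ℂ × ℂ} (hg : ContinuousAt g p) (h0 : g p = 0) :
    ∀ᶠ q in 𝓝 p, ‖g q‖ ^ T.M < T.ρ := by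
  have h1 : ContinuousAt (fun q => ‖g q‖ ^ T.M) p := hg.norm.pow _
  refine h1.eventually_lt_const ?_
  simp only [h0, norm_zero, zero_pow T.M_pos.ne']
  exact T.ρ_pos

/-- vertex charts -/
theorem brp_vert {i j₀ : Fin T.m} {k : ℕ} (hk : 0 < k) (he : Eqv T k i j₀) {w₁ : ℂ} {r : ℝ}
    {ζ : Fin T.d → ℂ × ℂ → ℂ} (h : T.Sheets (.vert j₀ k w₁) r ζ) {b : ℂ} (hb : ‖b‖ < r)
    (hsp : shD T k i j₀ 0 + (w₁ + b) ∉ T.Sp i k) :
    BrP (T := T) i k (T.map (.vert j₀ k w₁)) (Wf T i k (.vert j₀ k w₁)) (fun _ => 1) ζ b := by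
  have hc := chg_vert (T := T) i j₀ k w₁ b
  have hmem : ((0 : ℂ), b) ∈ BD r r := ⟨by simpa using h.r_pos, hb⟩
  have hW : Wf T i k (.vert j₀ k w₁) (0, b) = shD T k i j₀ 0 + (w₁ + b) := by
    simp [Wf, T.M_pos.ne']
  have hWan : AnalyticAt ℂ (Wf T i k (.vert j₀ k w₁)) (0, b) := by
    have := hc.an2.add (analyticAt_const (v := shD T k i j₀ 0 + (w₁ + b)))
    refine this.congr (Eventually.of_forall fun q => ?_)
    simp
  refine ⟨?_, map_an (h.mem _ hmem).2, map_vert hk w₁ b, hc.uan, hc.une, hc.fst, ?_⟩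
  · refine locBr_of h (χ := fun q => q) analyticAt_id hmem hWan rfl (by rw [hW]; exact hsp) ?_ ?_
      fun q hq => hq
    · filter_upwards [small_ev (T := T) (g := fun q => q.1) (p := ((0 : ℂ), b)) continuousAt_fst rfl]
        with q hq
      exact bm_of_vert (x := 0) (Wf_vert (same_of_eqv he) hq)
    · exact gen_freq1 (T := T) (.vert j₀ k w₁) (by
        rintro (⟨_, _, _, h⟩ | ⟨_, h⟩) <;> cases h)
  · refine hc.snd.mono fun z hz => ?_
    rw [hW]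
    exact sub_ne_zero.1 hz

/-- leg charts -/
theorem brp_leg {i l : Fin T.m} {k : ℕ} (he : Eqv T k i l) (htop : T.top l = k) {r : ℝ}
    {ζ : Fin T.d → ℂ × ℂ → ℂ} (h : T.Sheets (.leg l) r ζ) {b : ℂ} (hb : ‖b‖ < r) (hb0 : b ≠ 0)
    (hsp : shD T k i l 0 + b ^ T.M ∉ T.Sp i k) :
    BrP (T := T) i k (T.map (.leg l)) (Wf T i k (.leg l)) (fun _ => 1) ζ b := by
  have hc := chg_leg (T := T) i l k hb0
  have hmem : ((0 : ℂ), b) ∈ BD r r := ⟨by simpa using h.r_pos, hb⟩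
  have hW : Wf T i k (.leg l) (0, b) = shD T k i l 0 + b ^ T.M := by
    simp [Wf, T.M_pos.ne']
  have hWan : AnalyticAt ℂ (Wf T i k (.leg l)) (0, b) := by
    have := hc.an2.add (analyticAt_const (v := shD T k i l 0 + b ^ T.M))
    refine this.congr (Eventually.of_forall fun q => ?_)
    simp
  -- generic points
  have hgen : ∀ᶠ q in 𝓝 ((0 : ℂ), b), q.2 ≠ 0 :=
    (continuousAt_snd (p := ((0 : ℂ), b))).eventually_ne hb0
  have hev : ∀ᶠ q in 𝓝 ((0 : ℂ), b), q ∈ BD r r := (isOpen_BD r r).mem_nhds hmem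
  refine ⟨⟨hWan, analyticAt_fst, rfl, by rw [hW]; exact hsp, ?_, ?_, fun j => h.an j _ hmem, ?_, ?_⟩,
    map_an (h.mem _ hmem).2, map_leg l b, hc.uan, hc.une, hc.fst, ?_⟩
  · filter_upwards [small_ev (T := T) (g := fun q => q.1) (p := ((0 : ℂ), b)) continuousAt_fst rfl]
      with q hq
    exact bm_of_vert (x := 0) (Wf_leg (same_of_eqv he) htop hq)
  · exact (gen_freq1 (T := T) (.leg l) (fun _ => hb0)).mono fun q hq => hq.1
  · filter_upwards [hev] with q hq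
    exact h.split q hq
  · filter_upwards [hev, hgen] with q hq h1 h2
    exact h.inj q hq ⟨h2, h1⟩
  · refine hc.snd.mono fun z hz => ?_
    rw [hW]
    exact sub_ne_zero.1 hz

/-- edge charts, first branch -/
theorem brp_edge1 {i l : Fin T.m} {k k₂ : ℕ} (hk : 0 < k) (he : Eqv T k i l) (hkk : k < k₂) {r : ℝ}
    {ζ : Fin T.d → ℂ × ℂ → ℂ} (h : T.Sheets (.edge l k k₂) r ζ) {b : ℂ} (hb : ‖b‖ < r) (hb0 : b ≠ 0)
    (hsp : shD T k i l 0 + b ^ (T.M * (k₂ - k)) ∉ T.Sp i k) :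
    BrP (T := T) i k (T.map (.edge l k k₂)) (Wf T i k (.edge l k k₂)) (fun q => q.2) ζ b := by
  have hc := chg_edge1 (T := T) i l hkk hb0
  have hmem : ((0 : ℂ), b) ∈ BD r r := ⟨by simpa using h.r_pos, hb⟩
  have hW : Wf T i k (.edge l k k₂) (0, b) = shD T k i l 0 + b ^ (T.M * (k₂ - k)) := by
    simp [Wf, T.M_pos.ne']
  have hWan : AnalyticAt ℂ (Wf T i k (.edge l k k₂)) (0, b) := by
    have := hc.an2.add (analyticAt_const (v := shD T k i l 0 + b ^ (T.M * (k₂ - k))))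
    refine this.congr (Eventually.of_forall fun q => ?_)
    simp
  have hev : ∀ᶠ q in 𝓝 ((0 : ℂ), b), q ∈ BD r r := (isOpen_BD r r).mem_nhds hmem
  have hs0 : (T.map (.edge l k k₂) (0, b)).1 = 0 := by simp [TB.map]
  refine ⟨⟨hWan, analyticAt_fst.mul analyticAt_snd, hs0, by rw [hW]; exact hsp, ?_, ?_,
    fun j => h.an j _ hmem, ?_, ?_⟩,
    map_an (h.mem _ hmem).2, map_edge1 hk b, hc.uan, hc.une, hc.fst, ?_⟩
  · filter_upwards [small_ev (T := T) (g := fun q => q.1 * q.2) (p := ((0 : ℂ), b))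
      (continuousAt_fst.mul continuousAt_snd) (by simp)] with q hq
    exact bm_of_vert (x := 0) (Wf_edge1 (same_of_eqv he) hkk.le hq)
  · exact (gen_freq1 (T := T) (.edge l k k₂) (fun _ => hb0)).mono fun q hq => mul_ne_zero hq.1 hq.2
  · filter_upwards [hev] with q hq
    exact h.split q hq
  · filter_upwards [hev] with q hq h2
    exact h.inj q hq ⟨left_ne_zero_of_mul h2, right_ne_zero_of_mul h2⟩
  · refine hc.snd.mono fun z hz => ?_
    rw [hW]
    exact sub_ne_zero.1 hz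

/-- edge charts, second branch, in exchanged coordinates -/
theorem brp_edge2 {i l : Fin T.m} {k₁ k : ℕ} (he : Eqv T k i l) (hkk : k₁ < k) {r : ℝ}
    {ζ : Fin T.d → ℂ × ℂ → ℂ} (h : T.Sheets (.edge l k₁ k) r ζ) {a : ℂ} (ha : ‖a‖ < r) (ha0 : a ≠ 0)
    (hsp : shD T k i l 0 + (a ^ (T.M * (k - k₁)))⁻¹ ∉ T.Sp i k) :
    BrP (T := T) i k (fun q => T.map (.edge l k₁ k) (q.2, q.1))
      (fun q => Wf T i k (.edge l k₁ k) (q.2, q.1)) (fun q => q.2) (fun j q => ζ j (q.2, q.1)) a := by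
  have hc := chg_edge2 (T := T) i l hkk ha0
  have hmem : (a, (0 : ℂ)) ∈ BD r r := ⟨ha, by simpa using h.r_pos⟩
  have hW : Wf T i k (.edge l k₁ k) (a, 0) = shD T k i l 0 + (a ^ (T.M * (k - k₁)))⁻¹ := by
    simp [Wf, T.M_pos.ne', hkk.ne']
  have hWan : AnalyticAt ℂ (fun q : ℂ × ℂ => Wf T i k (.edge l k₁ k) (q.2, q.1)) (0, a) := by
    have := hc.an2.add (analyticAt_const (v := shD T k i l 0 + (a ^ (T.M * (k - k₁)))⁻¹))
    refine this.congr (Eventually.of_forall fun q => ?_)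
    simp
  have hχ : AnalyticAt ℂ (fun q : ℂ × ℂ => ((q.2, q.1) : ℂ × ℂ)) (0, a) :=
    analyticAt_snd.prod analyticAt_fst
  have hev : ∀ᶠ q : ℂ × ℂ in 𝓝 ((0 : ℂ), a), ((q.2, q.1) : ℂ × ℂ) ∈ BD r r :=
    hχ.continuousAt.eventually ((isOpen_BD r r).mem_nhds hmem)
  have hs0 : (T.map (.edge l k₁ k) (a, 0)).1 = 0 := by simp [TB.map]
  have hk' : 0 < k := by omega
  have hq1 : ∀ᶠ q in 𝓝 ((0 : ℂ), a), q.2 ≠ 0 :=
    (continuousAt_snd (p := ((0 : ℂ), a))).eventually_ne ha0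
  refine ⟨⟨hWan, analyticAt_snd.mul analyticAt_fst, hs0, ?_, ?_, ?_,
    fun j => AnalyticAt.comp (g := ζ j) (f := fun q : ℂ × ℂ => ((q.2, q.1) : ℂ × ℂ))
      (h.an j _ hmem) hχ, ?_, ?_⟩,
    AnalyticAt.comp (g := T.map (.edge l k₁ k)) (f := fun q : ℂ × ℂ => ((q.2, q.1) : ℂ × ℂ))
      (map_an (h.mem _ hmem).2) hχ, map_edge2 hk' a, hc.uan, hc.une, ?_, ?_⟩
  · show Wf T i k (.edge l k₁ k) (a, 0) ∉ T.Sp i k
    rw [hW]
    exact hsp
  · filter_upwards [small_ev (T := T) (g := fun q => q.2 * q.1) (p := ((0 : ℂ), a))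
      (continuousAt_snd.mul continuousAt_fst) (by simp), hq1] with q hq hq2
    exact bm_of_vert (x := 0) (Wf_edge2 (q := (q.2, q.1)) (same_of_eqv he) hkk hq hq2)
  · have h1 : ∃ᶠ q in 𝓝 (a, (0 : ℂ)), T.Gen (.edge l k₁ k) q := gen_freq2 ha0
    have h2 : ∃ᶠ q : ℂ × ℂ in 𝓝 ((0 : ℂ), a), T.Gen (.edge l k₁ k) (q.2, q.1) :=
      (sw_tendsto (a, (0 : ℂ))).frequently (p := fun q => T.Gen (.edge l k₁ k) (q.2, q.1)) h1
    exact h2.mono fun q hq => mul_ne_zero hq.1 hq.2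
  · filter_upwards [hev] with q hq
    exact h.split _ hq
  · filter_upwards [hev] with q hq h2
    exact h.inj _ hq ⟨left_ne_zero_of_mul h2, right_ne_zero_of_mul h2⟩
  · exact Eventually.of_forall fun q => mul_comm _ _
  · refine hc.snd.mono fun z hz => ?_
    show Wf T i k (.edge l k₁ k) (z, 0) ≠ Wf T i k (.edge l k₁ k) (a, 0)
    rw [hW]
    exact sub_ne_zero.1 hz

end Crest.Agent.R257.OrdT_578
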