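import Crest.Agent.R275.Loc2D_879

/-!
R257 / OtKF_331 (helper331): D5 of BP-D, part 1: one-variable division and zeros.
`dz F p = ∂F/∂z (p)`; a remainder vanishing at all (simple) zeros is zero; local lower bound of the
remainder by its values at the zeros.
-/

set_option autoImplicit false

open Set Filter Topology Metric Complex
open Crest.Agent.R275.Loc2879

noncomputable section

namespace Crest.Agent.R257.OtK_331

universe u

variable {E : Type u} [NormedAddCommGroup E] [NormedSpace ℂ E]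

/-- the `z`-derivative -/
def dz (F : E × ℂ → ℂ) (p : E × ℂ) : ℂ := fderiv ℂ F p (0, 1)

theorem hasDerivAt_dz {F : E × ℂ → ℂ} {b : E} {z : ℂ} (h : DifferentiableAt ℂ F (b, z)) :
    HasDerivAt (fun w : ℂ => F (b, w)) (dz F (b, z)) z := by
  have h1 : HasDerivAt (fun w : ℂ => ((b, w) : E × ℂ)) ((0, 1) : E × ℂ) z :=
    (hasDerivAt_const z b).prodMk (hasDerivAt_id z)
  exact h.hasFDerivAt.comp_hasDerivAt z h1

theorem deriv_dz {F : E × ℂ → ℂ} {b : E} {z : ℂ} (h : DifferentiableAt ℂ F (b, z)) :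
    deriv (fun w : ℂ => F (b, w)) z = dz F (b, z) := (hasDerivAt_dz h).deriv

theorem analyticAt_slice {F : E × ℂ → ℂ} {b : E} {z : ℂ} (h : AnalyticAt ℂ F (b, z)) :
    AnalyticAt ℂ (fun w : ℂ => F (b, w)) z :=
  AnalyticAt.comp (g := F) (f := fun w : ℂ => (b, w)) h (analyticAt_const.prod analyticAt_id)

theorem analyticAt_dz {F : E × ℂ → ℂ} {p : E × ℂ} [CompleteSpace E] (h : AnalyticAt ℂ F p) :
    AnalyticAt ℂ (dz F) p := by
  have h1 : AnalyticAt ℂ (fderiv ℂ F) p := h.fderiv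
  exact ((ContinuousLinearMap.apply ℂ ℂ ((0 : E), (1 : ℂ))).analyticAt _).comp h1

theorem analyticAt_dslope {f : ℂ → ℂ} {z : ℂ} (hf : AnalyticAt ℂ f z) :
    AnalyticAt ℂ (dslope f z) z := by
  obtain ⟨p, hp⟩ := hf
  exact ⟨_, hp.has_fpower_series_dslope_fslope⟩

/-- the value at `z` of the polynomial with coefficients `c` -/
def pv {N : ℕ} (c : Fin N → ℂ) (z : ℂ) : ℂ := ∑ j, c j * z ^ (j : ℕ)

theorem pv_an {N : ℕ} (c : Fin N → ℂ) : AnalyticOnNhd ℂ (pv c) univ := by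
  intro z _
  unfold pv
  exact Finset.analyticAt_fun_sum _ fun j _ => analyticAt_const.mul (analyticAt_id.pow _)

theorem pv_smul {N : ℕ} (a : ℂ) (c : Fin N → ℂ) (z : ℂ) : pv (a • c) z = a * pv c z := by
  simp only [pv, Pi.smul_apply, smul_eq_mul, Finset.mul_sum, mul_assoc]

theorem continuous_pv {N : ℕ} : Continuous (fun x : (Fin N → ℂ) × ℂ => pv x.1 x.2) := by
  unfold pv; fun_prop

/-- a polynomial of degree `< N` vanishing at the zeros of a function with simple zeros only, for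
which the division is bijective, is zero -/
theorem rem_eq_zero {r : ℝ} {N : ℕ} {F : E × ℂ → ℂ} [FiniteDimensional ℂ E] {U : Set E}
    (hF : AnalyticOnNhd ℂ F (U ×ˢ closedBall 0 r)) {b : E} (hb : b ∈ good r N F U)
    (hs : ∀ z ∈ closedBall (0 : ℂ) r, F (b, z) = 0 → dz F (b, z) ≠ 0) {c : Fin N → ℂ}
    (hc : ∀ z ∈ closedBall (0 : ℂ) r, F (b, z) = 0 → pv c z = 0) : c = 0 := by
  classical
  set u : ℂ → ℂ := fun z => if F (b, z) = 0 then deriv (pv c) z / dz F (b, z)
    else pv c z / F (b, z) with hu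
  have hua : ∀ z ∈ closedBall (0 : ℂ) r, AnalyticAt ℂ u z := by
    intro z0 hz0
    have hFa := hF (b, z0) ⟨hb.1, hz0⟩
    have hf : AnalyticAt ℂ (fun w : ℂ => F (b, w)) z0 := analyticAt_slice hFa
    have hp : AnalyticAt ℂ (pv c) z0 := pv_an c z0 (mem_univ _)
    by_cases h0 : F (b, z0) = 0
    · have hd : dslope (fun w : ℂ => F (b, w)) z0 z0 ≠ 0 := by
        rw [dslope_same, deriv_dz hFa.differentiableAt]; exact hs z0 hz0 h0
      have h1 := analyticAt_dslope hf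
      have h2 := analyticAt_dslope hp
      refine (h2.div h1 hd).congr ?_
      filter_upwards [h1.continuousAt.eventually_ne hd] with w hw
      rcases eq_or_ne w z0 with rfl | hne
      · simp only [hu, Pi.div_apply, dslope_same, if_pos h0]
        rw [deriv_dz hFa.differentiableAt]
      · have e1 : F (b, w) = (w - z0) * dslope (fun w : ℂ => F (b, w)) z0 w := by
          have := sub_smul_dslope (fun w : ℂ => F (b, w)) z0 w
          simp only [smul_eq_mul, h0, sub_zero] at this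
          exact this.symm
        have e2 : pv c w = (w - z0) * dslope (pv c) z0 w := by
          have := sub_smul_dslope (pv c) z0 w
          simp only [smul_eq_mul, hc z0 hz0 h0, sub_zero] at this
          exact this.symm
        have hw0 : w - z0 ≠ 0 := sub_ne_zero.2 hne
        have e3 : F (b, w) ≠ 0 := by rw [e1]; exact mul_ne_zero hw0 hw
        simp only [hu, Pi.div_apply, if_neg e3]
        rw [e1, e2, mul_div_mul_left _ _ hw0]
    · refine (hp.div hf h0).congr ?_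
      filter_upwards [hf.continuousAt.eventually_ne h0] with w hw
      simp only [hu, Pi.div_apply, if_neg hw]
  have hcont : ContinuousOn u (closedBall 0 r) := fun z hz =>
    (hua z hz).continuousAt.continuousWithinAt
  let q : C(Kd r, ℂ) := ⟨fun k => u k, hcont.comp_continuous continuous_subtype_val (fun k => k.2)⟩
  have hq : q ∈ AA r := mem_AA_of (F := u)
    (fun z hz => (hua z (ball_subset_closedBall hz)).differentiableAt.differentiableWithinAt)
    (fun _ => rfl)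
  have h5 : LL r N (famA r F b) (⟨q, hq⟩, -c) = 0 := by
    apply Subtype.ext
    ext k
    rw [LL_apply_apply, famA_apply hF hb.1]
    have h6 : F (b, (k : ℂ)) * u k = pv c k := by
      by_cases h0 : F (b, (k : ℂ)) = 0
      · rw [h0, zero_mul, hc k k.2 h0]
      · simp only [hu, if_neg h0]
        field_simp
    have h7 : ∑ j : Fin N, (-c) j * (k : ℂ) ^ (j : ℕ) = - pv c k := by
      simp [pv, Finset.sum_neg_distrib]
    change F (b, (k : ℂ)) * u k + ∑ j : Fin N, (-c) j * (k : ℂ) ^ (j : ℕ) = 0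
    rw [h6, h7, add_neg_cancel]
  have h7 := hb.2.1 (h5.trans (map_zero _).symm)
  rw [Prod.ext_iff] at h7
  have : -c = 0 := h7.2
  exact neg_eq_zero.1 this

/-- persistence of a simple zero -/
theorem persist {F : E × ℂ → ℂ} {b : E} {z : ℂ} (hF : AnalyticAt ℂ F (b, z)) (h0 : F (b, z) = 0)
    (hd : dz F (b, z) ≠ 0) {ε : ℝ} (hε : 0 < ε) :
    ∀ᶠ b' in 𝓝 b, ∃ w ∈ ball z ε, F (b', w) = 0 := by
  have hA : AnalyticAt ℂ (fun p : E × ℂ => F (p.1, z + p.2)) (b, 0) := by
    refine AnalyticAt.fun_comp (g := F) (f := fun p : E × ℂ => (p.1, z + p.2)) ?_ ?_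
    · simpa using hF
    · exact analyticAt_fst.prod (analyticAt_const.add analyticAt_snd)
  have h1 := exists_zero_near (F := fun p : E × ℂ => F (p.1, z + p.2)) hA (by simpa using h0) ?_ hε
  · filter_upwards [h1] with b' hb'
    obtain ⟨w, hw, hw0⟩ := hb'
    refine ⟨z + w, ?_, hw0⟩
    simpa [mem_ball, dist_eq_norm] using hw
  · intro hz
    apply hd
    have h2 : (fun w : ℂ => F (b, w)) =ᶠ[𝓝 z] fun _ => 0 := by
      have ht : Tendsto (fun w : ℂ => w - z) (𝓝 z) (𝓝 0) := by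
        have : Tendsto (fun w : ℂ => w - z) (𝓝 z) (𝓝 (z - z)) := by
          exact (continuous_id.sub continuous_const).tendsto z
        simpa using this
      filter_upwards [ht.eventually hz] with w hw
      simpa using hw
    rw [← deriv_dz hF.differentiableAt, h2.deriv_eq, deriv_const]

/-- local lower bound of a polynomial by its values at the zeros -/
theorem lower {r : ℝ} {N : ℕ} {F : E × ℂ → ℂ} [FiniteDimensional ℂ E] {U : Set E}
    (hF : AnalyticOnNhd ℂ F (U ×ˢ closedBall 0 r)) {b : E} (hb : b ∈ good r N F U)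
    (hs : ∀ z ∈ closedBall (0 : ℂ) r, F (b, z) = 0 → dz F (b, z) ≠ 0)
    (hr : ∀ z ∈ closedBall (0 : ℂ) r, F (b, z) = 0 → z ∈ ball (0 : ℂ) r) :
    ∃ K > 0, ∀ᶠ b' in 𝓝 b, ∀ c : Fin N → ℂ, c ≠ 0 →
      ∃ z ∈ ball (0 : ℂ) r, F (b', z) = 0 ∧ ‖c‖ ≤ K * ‖pv c z‖ := by
  have key : ∃ κ > 0, ∀ᶠ b' in 𝓝 b, ∀ c ∈ sphere (0 : Fin N → ℂ) 1,
      ∃ z ∈ ball (0 : ℂ) r, F (b', z) = 0 ∧ κ ≤ ‖pv c z‖ := by
    refine (isCompact_sphere (0 : Fin N → ℂ) 1).induction_on
      (p := fun s => ∃ κ : ℝ, κ > 0 ∧ ∀ᶠ b' in 𝓝 b, ∀ c ∈ s,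
        ∃ z ∈ ball (0 : ℂ) r, F (b', z) = 0 ∧ κ ≤ ‖pv c z‖) ?_ ?_ ?_ ?_
    · exact ⟨1, one_pos, Eventually.of_forall fun b' c hc => absurd hc (by simp)⟩
    · rintro s t hst ⟨κ, hκ, h⟩
      exact ⟨κ, hκ, h.mono fun b' hb' c hc => hb' c (hst hc)⟩
    · rintro s t ⟨κ, hκ, h⟩ ⟨κ', hκ', h'⟩
      refine ⟨min κ κ', lt_min hκ hκ', ?_⟩
      filter_upwards [h, h'] with b' h1 h2 c hc
      rcases hc with hc | hc
      · obtain ⟨z, hz, hz0, hzκ⟩ := h1 c hc
        exact ⟨z, hz, hz0, (min_le_left _ _).trans hzκ⟩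
      · obtain ⟨z, hz, hz0, hzκ⟩ := h2 c hc
        exact ⟨z, hz, hz0, (min_le_right _ _).trans hzκ⟩
    · intro c0 hc0
      have hne : c0 ≠ 0 := by
        rintro rfl
        simp at hc0
      have hex : ∃ z ∈ closedBall (0 : ℂ) r, F (b, z) = 0 ∧ pv c0 z ≠ 0 := by
        by_contra hcon
        push Not at hcon
        exact hne (rem_eq_zero hF hb hs hcon)
      obtain ⟨z0, hz0, hF0, hp0⟩ := hex
      have hzb := hr z0 hz0 hF0
      set κ : ℝ := ‖pv c0 z0‖ / 2 with hκ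
      have hκ0 : 0 < κ := by positivity
      have hcont : ∀ᶠ x : (Fin N → ℂ) × ℂ in 𝓝 (c0, z0), κ < ‖pv x.1 x.2‖ := by
        refine continuous_pv.norm.continuousAt.eventually (lt_mem_nhds ?_)
        show κ < ‖pv c0 z0‖
        have : 0 < ‖pv c0 z0‖ := norm_pos_iff.2 hp0
        rw [hκ]; linarith
      rw [nhds_prod_eq] at hcont
      obtain ⟨V, hV, W, hW, hVW⟩ := Filter.mem_prod_iff.1 hcont
      obtain ⟨ε, hε, hεW⟩ := Metric.mem_nhds_iff.1 (inter_mem hW (isOpen_ball.mem_nhds hzb))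
      refine ⟨V, mem_nhdsWithin_of_mem_nhds hV, κ, hκ0, ?_⟩
      filter_upwards [persist (hF (b, z0) ⟨hb.1, hz0⟩) hF0 (hs z0 hz0 hF0) hε] with b' hb' c hc
      obtain ⟨w, hw, hw0⟩ := hb'
      have h1 := hεW hw
      exact ⟨w, h1.2, hw0, le_of_lt (hVW (mk_mem_prod hc h1.1))⟩
  obtain ⟨κ, hκ, hk⟩ := key
  refine ⟨κ⁻¹, inv_pos.2 hκ, ?_⟩
  filter_upwards [hk] with b' hb' c hc
  have hcn : 0 < ‖c‖ := norm_pos_iff.2 hc
  obtain ⟨z, hz, hz0, hzκ⟩ := hb' (((‖c‖⁻¹ : ℝ) : ℂ) • c) (by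
    rw [mem_sphere_zero_iff_norm, norm_smul, norm_real, norm_inv, norm_norm]
    exact inv_mul_cancel₀ hcn.ne')
  rw [pv_smul, norm_mul, norm_real, norm_inv, norm_norm] at hzκ
  refine ⟨z, hz, hz0, ?_⟩
  have h3 : κ * ‖c‖ ≤ ‖pv c z‖ := by
    rw [inv_mul_eq_div, le_div_iff₀ hcn] at hzκ
    exact hzκ
  rw [inv_mul_eq_div, le_div_iff₀ hκ]
  linarith [mul_comm κ ‖c‖]

end Crest.Agent.R257.OtK_331
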