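import Crest.Agent.R257.Out1_835
import Crest.Agent.R257.CLSD_39
import Crest.Agent.R257.AYDisc_209

/-!
# R257 (S0395), Part E (helper835): the Kaehler-Einstein weights `u_(t,s)`, `s ≠ 0`, unconditionally
-/

set_option autoImplicit false

open Set Filter Topology Complex
open Crest.AlgGeometry.Germ

namespace Crest.Agent.R257.Out2_835

open Crest.Agent.R257.Defs_219 Crest.Agent.R257.KED_952

variable {G : E3 × ℂ → ℂ} {μ d : ℕ} {R r c₀ e : ℝ} {P : ℂ → MvPolynomial (Fin 3) ℂ}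
  {c : Fin 3 → ℂ}

theorem out2 (h : GFam G μ d R r c₀ e P c) {r₁ : ℝ} (hr : 0 < r₁) :
    ∃ e₁ > 0, ∃ (C : ℝ) (w : PP → E3 → ℝ), ∀ t s : ℂ, ‖t‖ < e₁ → 0 < ‖s‖ → ‖s‖ < e₁ →
      KEon (fun x => fam G (x, (t, s))) 0 r₁ (w (t, s)) ∧
      Bd (fun x => fam G (x, (t, s))) 0 r₁ C (w (t, s)) :=
  Out1_835.out1 AYDisc_209.ay_all h
    (fun _ hd hκ => CLSD_39.euclStmt (GDof_835.gd h) hd hκ) hr

end Crest.Agent.R257.Out2_835
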