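import Crest.Agent.R257.Ked2_397
import Crest.Agent.R257.LimB_37

/-!
# R257 (S0395), leaf GB-OUT (helper309), part A: integration on a level in a parametrisation

* `LC f s r p θ ρ q N` : chart `θ : ball 0 ρ → {f = s}` at `p`, `θ 0 = p`, continuous left inverse
  `q`, `N` open neighbourhood of `p` with `{f = s} ∩ N ⊆ θ (ball 0 ρ)`
* `exists_lc`, `LC.shrink`
* `LC.integral` : `∫ F dν = ∫ G dλ` when `F ∘ θ * |η|² = G` and `F = 0` off `N`
* `LC.cut`      : `φ ψ` read in the chart, `φ` with compact support in `N`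
* `glob`        : from local to global
-/

set_option autoImplicit false
set_option linter.unusedSectionVars false

open Set Filter Topology Complex MeasureTheory
open scoped ContDiff Matrix ComplexConjugate ComplexOrder ENNReal

namespace Crest.Agent.R257.OutA_309

open Crest.Agent.R275.Geo
open Crest.Agent.R257.Defs_219
open Crest.Agent.R257.PN_835 (nsq)
open Crest.Agent.R257.Aff_835 (eta2a)
open Crest.Agent.R257.KED_952 Crest.Agent.R257.Ked1_397 Crest.Agent.R257.Ked2_397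

noncomputable section

theorem continuous_nsq : Continuous (nsq : E3 → ℝ) := by
  unfold nsq; fun_prop

/-- chart of a level at `p` -/
structure LC (f : E3 → ℂ) (s : ℂ) (r : ℝ) (p : E3) (θ : Cn 2 → E3) (ρ : ℝ) (q : E3 → Cn 2)
    (N : Set E3) : Prop where
  pos : 0 < ρ
  pe : PE f s r θ (Metric.ball 0 ρ)
  zero : θ 0 = p
  qc : Continuous q
  left : ∀ z ∈ Metric.ball (0 : Cn 2) ρ, q (θ z) = z
  No : IsOpen N
  Np : p ∈ N
  right : ∀ x ∈ N, f x = s → q x ∈ Metric.ball (0 : Cn 2) ρ ∧ θ (q x) = x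

theorem LC.shrink {f : E3 → ℂ} {s : ℂ} {r : ℝ} {p : E3} {θ : Cn 2 → E3} {ρ : ℝ} {q : E3 → Cn 2}
    {N : Set E3} (h : LC f s r p θ ρ q N) {ρ' : ℝ} (h0 : 0 < ρ') (h1 : ρ' ≤ ρ) {W : Set E3}
    (hW : IsOpen W) (hpW : p ∈ W) :
    LC f s r p θ ρ' q (N ∩ (q ⁻¹' Metric.ball 0 ρ' ∩ W)) where
  pos := h0
  pe := ⟨h.pe.par.mono Metric.isOpen_ball (Metric.ball_subset_ball h1),
    fun z hz => h.pe.ne z (Metric.ball_subset_ball h1 hz),
    fun z hz => h.pe.lt z (Metric.ball_subset_ball h1 hz)⟩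
  zero := h.zero
  qc := h.qc
  left := fun z hz => h.left z (Metric.ball_subset_ball h1 hz)
  No := h.No.inter ((Metric.isOpen_ball.preimage h.qc).inter hW)
  Np := by
    refine ⟨h.Np, ?_, hpW⟩
    have h2 := h.left 0 (Metric.mem_ball_self h.pos)
    rw [h.zero] at h2
    rw [mem_preimage, h2]
    exact Metric.mem_ball_self h0
  right := fun x hx hs => ⟨hx.2.1, (h.right x hx.1 hs).2⟩

theorem exists_lc {f : E3 → ℂ} {s : ℂ} {r : ℝ} {p : E3} (hf : AnalyticAt ℂ f p)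
    (h0 : fderiv ℂ f p ≠ 0) (hs : f p = s) (hp : p ≠ 0) (hr : nsq p < r ^ 2) :
    ∃ (θ : Cn 2 → E3) (ρ : ℝ) (q : E3 → Cn 2) (N : Set E3), LC f s r p θ ρ q N := by
  have hD : IsOpen {x : E3 | x ≠ 0 ∧ nsq x < r ^ 2} :=
    isOpen_ne.inter (isOpen_lt continuous_nsq continuous_const)
  have hJ : AnalyticAt ℂ (LimA_37.jn (n := 2) (fun _ : ℂ => f) (fun _ : ℂ => s)) (p, 0) := by
    have h1 : AnalyticAt ℂ (fun y : E3 × ℂ => f y.1) (p, 0) :=
      AnalyticAt.fun_comp (g := f) hf analyticAt_fst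
    exact h1.sub analyticAt_const
  obtain ⟨c⟩ := LimA_37.exists_cht (n := 2) (g := fun _ : ℂ => f) (σ := fun _ : ℂ => s) hD
    (τ₀ := (0 : ℂ)) (x₀ := p) ⟨hp, hr⟩ hs hJ h0
  refine ⟨fun z => c.Θ (z, 0), c.ρ, fun x => c.π (x - p), c.N, c.ρ_pos,
    ⟨c.par 0 c.mem_T, fun z hz => (c.maps z hz 0 c.mem_T).1, fun z hz => (c.maps z hz 0 c.mem_T).2⟩,
    c.zero, c.π.continuous.comp (continuous_id.sub continuous_const),
    fun z hz => c.left z hz 0 c.mem_T, c.N_open, c.mem_N, fun x hx hfx => c.right x hx 0 c.mem_T hfx⟩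

section
variable {f : E3 → ℂ} {s : ℂ} {r : ℝ} {p : E3} {θ : Cn 2 → E3} {ρ : ℝ} {q : E3 → Cn 2}
  {N : Set E3}

theorem LC.injOn (h : LC f s r p θ ρ q N) : InjOn θ (Metric.ball 0 ρ) := fun z hz w hw e => by
  rw [← h.left z hz, ← h.left w hw, e]

theorem LC.cont (h : LC f s r p θ ρ q N) : ContinuousOn θ (Metric.ball 0 ρ) :=
  h.pe.par.hol.continuousOn

theorem LC.image_eq (h : LC f s r p θ ρ q N) :
    θ '' Metric.ball 0 ρ = {x | q x ∈ Metric.ball (0 : Cn 2) ρ ∧ θ (q x) = x} := by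
  ext x
  constructor
  · rintro ⟨z, hz, rfl⟩
    exact ⟨by rw [h.left z hz]; exact hz, by rw [h.left z hz]⟩
  · rintro ⟨h1, h2⟩
    exact ⟨q x, h1, h2⟩

theorem LC.meas (h : LC f s r p θ ρ q N) : MeasurableSet (θ '' Metric.ball 0 ρ) := by
  rw [h.image_eq]
  have hO : IsOpen (q ⁻¹' Metric.ball (0 : Cn 2) ρ) := Metric.isOpen_ball.preimage h.qc
  have hc : ContinuousOn (fun x => (θ (q x), x)) (q ⁻¹' Metric.ball (0 : Cn 2) ρ) :=
    (h.cont.comp h.qc.continuousOn fun x hx => hx).prodMk continuousOn_id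
  obtain ⟨t, ht, hte⟩ := continuousOn_iff_isClosed.1 hc _ (isClosed_diagonal (X := E3))
  have e : {x | q x ∈ Metric.ball (0 : Cn 2) ρ ∧ θ (q x) = x}
      = t ∩ q ⁻¹' Metric.ball (0 : Cn 2) ρ := by
    rw [← hte]
    ext x
    simp only [Set.mem_ofPred_eq, mem_inter_iff, mem_preimage, mem_diagonal_iff]
    tauto
  rw [e]
  exact ht.measurableSet.inter hO.measurableSet

/-- the level is regular in the ball -/
theorem eta2a_ct {O : Set (Cn 2)} (h : PE f s r θ O)
    (han : ∀ x, nsq x < r ^ 2 → AnalyticAt ℂ f x)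
    (hsm : ∀ x, x ≠ 0 → nsq x < r ^ 2 → f x = s → fderiv ℂ f x ≠ 0) :
    ContinuousOn (fun z => eta2a (n := 2) f θ z) O := by
  intro z hz
  obtain ⟨g, hg, -, hge⟩ := eta2a_norm h.par hz (han _ (h.lt z hz))
    (hsm _ (h.ne z hz) (h.lt z hz) (h.par.lvl z hz))
  have h1 : ContinuousAt (fun w => ‖g w‖ ^ 2) z := hg.continuousAt.norm.pow 2
  exact (h1.congr hge.symm).continuousWithinAt

variable {ν : Measure E3}

theorem LC.map_eq (h : LC f s r p θ ρ q N) (hν : IsNu f s r ν) :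
    Measure.map q (ν.restrict (θ '' Metric.ball 0 ρ))
      = (volume.restrict (Metric.ball (0 : Cn 2) ρ)).withDensity
        fun z => ENNReal.ofReal (eta2a (n := 2) f θ z) := by
  refine Measure.ext fun S hS => ?_
  rw [Measure.map_apply h.qc.measurable hS, withDensity_apply _ hS,
    ← lintegral_indicator_one (h.qc.measurable hS),
    hν.par θ _ h.pe h.injOn _ (measurable_one.indicator (h.qc.measurable hS)),
    ← lintegral_indicator hS]
  refine setLIntegral_congr_fun measurableSet_ball fun z hz => ?_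
  have e := h.left z hz
  by_cases hzS : z ∈ S
  · rw [indicator_of_mem hzS, indicator_of_mem (show θ z ∈ q ⁻¹' S by rwa [mem_preimage, e])]
    simp
  · rw [indicator_of_notMem hzS,
      indicator_of_notMem (show θ z ∉ q ⁻¹' S by rwa [mem_preimage, e]), zero_mul]

theorem eta2a_nn {O : Set (Cn 2)} (h : PE f s r θ O)
    (hsm : ∀ x, x ≠ 0 → nsq x < r ^ 2 → f x = s → fderiv ℂ f x ≠ 0) {z : Cn 2} (hz : z ∈ O) :
    0 < eta2a (n := 2) f θ z :=
  Loc_835.eta2a_pos h.par hz (hsm _ (h.ne z hz) (h.lt z hz) (h.par.lvl z hz))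

/-- **integration in a chart** -/
theorem LC.integral_ae (h : LC f s r p θ ρ q N) (hν : IsNu f s r ν)
    (han : ∀ x, nsq x < r ^ 2 → AnalyticAt ℂ f x)
    (hsm : ∀ x, x ≠ 0 → nsq x < r ^ 2 → f x = s → fderiv ℂ f x ≠ 0)
    {F : E3 → ℝ} {G : Cn 2 → ℝ} (hG : Integrable G)
    (hFG : ∀ᵐ z : Cn 2, z ∈ Metric.ball (0 : Cn 2) ρ → F (θ z) * eta2a (n := 2) f θ z = G z)
    (hG0 : ∀ z, z ∉ Metric.ball (0 : Cn 2) ρ → G z = 0)
    (hF0 : ∀ x, f x = s → x ≠ 0 → nsq x < r ^ 2 → x ∉ N → F x = 0) :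
    Integrable F ν ∧ ∫ x, F x ∂ν = ∫ z, G z := by
  set B := Metric.ball (0 : Cn 2) ρ with hB
  have hη := eta2a_ct h.pe han hsm
  have hηm : AEMeasurable (fun z => ENNReal.ofReal (eta2a (n := 2) f θ z))
      (volume.restrict B) := (hη.aemeasurable measurableSet_ball).ennreal_ofReal
  have hlt : ∀ᵐ z ∂(volume.restrict B), ENNReal.ofReal (eta2a (n := 2) f θ z) < ⊤ :=
    Eventually.of_forall fun _ => ENNReal.ofReal_lt_top
  -- the function in the chart
  set H : Cn 2 → ℝ := fun z => F (θ z) with hH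
  have hsmul : (fun z => (ENNReal.ofReal (eta2a (n := 2) f θ z)).toReal • H z)
      =ᵐ[volume.restrict B] G := by
    filter_upwards [ae_restrict_mem measurableSet_ball, ae_restrict_of_ae hFG] with z hz hz'
    rw [ENNReal.toReal_ofReal (eta2a_nn h.pe hsm hz).le, smul_eq_mul, mul_comm]
    exact hz' hz
  have hI1 : Integrable H ((volume.restrict B).withDensity
      fun z => ENNReal.ofReal (eta2a (n := 2) f θ z)) := by
    rw [integrable_withDensity_iff_integrable_smul₀' hηm hlt]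
    exact (hG.restrict (s := B)).congr hsmul.symm
  have hE1 : ∫ z, H z ∂((volume.restrict B).withDensity
      fun z => ENNReal.ofReal (eta2a (n := 2) f θ z)) = ∫ z, G z := by
    rw [integral_withDensity_eq_integral_toReal_smul₀ hηm hlt, integral_congr_ae hsmul]
    exact setIntegral_eq_integral_of_forall_compl_eq_zero hG0
  rw [← h.map_eq hν] at hI1 hE1
  have hI2 : Integrable (fun x => H (q x)) (ν.restrict (θ '' B)) :=
    hI1.comp_measurable h.qc.measurable
  have hE2 : ∫ x, H (q x) ∂(ν.restrict (θ '' B)) = ∫ z, G z := by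
    rw [← hE1, integral_map h.qc.measurable.aemeasurable hI1.aestronglyMeasurable]
  have hc : ∀ x ∈ θ '' B, H (q x) = F x := by
    rintro _ ⟨z, hz, rfl⟩
    rw [hH]
    simp only
    rw [h.left z hz]
  have hI3 : IntegrableOn F (θ '' B) ν := by
    refine hI2.congr ?_
    filter_upwards [ae_restrict_mem h.meas] with x hx
    exact hc x hx
  have hE3 : ∫ x in θ '' B, F x ∂ν = ∫ z, G z := by
    rw [← hE2]
    exact setIntegral_congr_fun h.meas fun x hx => (hc x hx).symm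
  have hae : ∀ᵐ x ∂ν, x ∉ θ '' B → F x = 0 := by
    have h1 : ∀ᵐ x ∂ν, f x = s ∧ x ≠ 0 ∧ nsq x < r ^ 2 := by
      rw [ae_iff]; exact hν.null
    filter_upwards [h1] with x hx hxB
    refine hF0 x hx.1 hx.2.1 hx.2.2 fun hxN => hxB ?_
    obtain ⟨h2, h3⟩ := h.right x hxN hx.1
    exact ⟨q x, h2, h3⟩
  refine ⟨?_, ?_⟩
  · rw [← integrableOn_univ]
    refine (integrableOn_univ (μ := ν)).1 ?_ |>.integrableOn
    have e : F =ᵐ[ν] (θ '' B).indicator F := by
      filter_upwards [hae] with x hx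
      by_cases hxB : x ∈ θ '' B
      · rw [indicator_of_mem hxB]
      · rw [indicator_of_notMem hxB, hx hxB]
    rw [integrableOn_univ]
    exact ((integrable_indicator_iff h.meas).2 hI3).congr e.symm
  · rw [← hE3]
    exact (setIntegral_eq_integral_of_ae_compl_eq_zero hae).symm

theorem LC.integral (h : LC f s r p θ ρ q N) (hν : IsNu f s r ν)
    (han : ∀ x, nsq x < r ^ 2 → AnalyticAt ℂ f x)
    (hsm : ∀ x, x ≠ 0 → nsq x < r ^ 2 → f x = s → fderiv ℂ f x ≠ 0)
    {F : E3 → ℝ} {G : Cn 2 → ℝ} (hG : Integrable G)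
    (hFG : ∀ z ∈ Metric.ball (0 : Cn 2) ρ, F (θ z) * eta2a (n := 2) f θ z = G z)
    (hG0 : ∀ z, z ∉ Metric.ball (0 : Cn 2) ρ → G z = 0)
    (hF0 : ∀ x, f x = s → x ≠ 0 → nsq x < r ^ 2 → x ∉ N → F x = 0) :
    Integrable F ν ∧ ∫ x, F x ∂ν = ∫ z, G z :=
  h.integral_ae hν han hsm hG (Eventually.of_forall hFG) hG0 hF0

/-- a cut-off function times a function on the level, read in the chart -/
def rdc (θ : Cn 2 → E3) (ρ : ℝ) (a : E3 → ℝ) (z : Cn 2) : ℝ :=
  open Classical in if z ∈ Metric.ball (0 : Cn 2) ρ then a (θ z) else 0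

theorem rdc_in {a : E3 → ℝ} {z : Cn 2} (hz : z ∈ Metric.ball (0 : Cn 2) ρ) :
    rdc θ ρ a z = a (θ z) := if_pos hz

theorem rdc_off {a : E3 → ℝ} {z : Cn 2} (hz : z ∉ Metric.ball (0 : Cn 2) ρ) :
    rdc θ ρ a z = 0 := if_neg hz

theorem rdc_ev {a : E3 → ℝ} {z : Cn 2} (hz : z ∈ Metric.ball (0 : Cn 2) ρ) :
    rdc θ ρ a =ᶠ[𝓝 z] fun w => a (θ w) := by
  filter_upwards [Metric.isOpen_ball.mem_nhds hz] with w hw
  exact rdc_in hw

theorem LC.cut (h : LC f s r p θ ρ q N) (han : ∀ x, nsq x < r ^ 2 → AnalyticAt ℂ f x)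
    (hN : ∀ x ∈ N, nsq x < r ^ 2) {φ a : E3 → ℝ} (hφ : ContDiff ℝ ∞ φ)
    (hc : HasCompactSupport φ) (hs : tsupport φ ⊆ N)
    (ha : ContDiffOn ℝ ∞ (fun z => a (θ z)) (Metric.ball 0 ρ)) :
    ContDiff ℝ ∞ (rdc θ ρ fun x => φ x * a x) ∧ HasCompactSupport (rdc θ ρ fun x => φ x * a x) ∧
      tsupport (rdc θ ρ fun x => φ x * a x) ⊆ Metric.ball 0 ρ := by
  set C : Set E3 := tsupport φ ∩ {x | f x = s} with hC
  have hfc : ContinuousOn f (tsupport φ) := fun x hx =>
    (han x (hN x (hs hx))).continuousAt.continuousWithinAt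
  have hCc : IsCompact C := by
    have h1 : IsClosed (tsupport φ ∩ f ⁻¹' {s}) :=
      hfc.preimage_isClosed_of_isClosed (isClosed_tsupport φ) isClosed_singleton
    exact hc.isCompact.of_isClosed_subset h1 inter_subset_left
  have hKc : IsCompact (q '' C) := hCc.image h.qc
  have hKB : q '' C ⊆ Metric.ball 0 ρ := by
    rintro _ ⟨x, hx, rfl⟩
    exact (h.right x (hs hx.1) hx.2).1
  have h0 : ∀ z, z ∉ q '' C → rdc θ ρ (fun x => φ x * a x) z = 0 := by
    intro z hz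
    by_cases hzB : z ∈ Metric.ball (0 : Cn 2) ρ
    · rw [rdc_in hzB]
      by_cases hx : θ z ∈ tsupport φ
      · exact absurd ⟨θ z, ⟨hx, h.pe.par.lvl z hzB⟩, h.left z hzB⟩ hz
      · simp only [image_eq_zero_of_notMem_tsupport hx, zero_mul]
    · exact rdc_off hzB
  have hsub : tsupport (rdc θ ρ fun x => φ x * a x) ⊆ q '' C := by
    refine closure_minimal (fun z hz => ?_) hKc.isClosed
    by_contra hcon
    exact hz (h0 z hcon)
  refine ⟨contDiff_iff_contDiffAt.2 fun z => ?_, hKc.of_isClosed_subset (isClosed_tsupport _) hsub,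
    hsub.trans hKB⟩
  by_cases hzB : z ∈ Metric.ball (0 : Cn 2) ρ
  · have hB := Metric.isOpen_ball.mem_nhds hzB
    have h1 : ContDiffAt ℝ ∞ θ z :=
      ((Crest.Agent.R266.SCV.contDiffOn_omega_of_differentiableOn Metric.isOpen_ball
        h.pe.par.hol).restrict_scalars ℝ |>.of_le le_top).contDiffAt hB
    have h2 : ContDiffAt ℝ ∞ (fun w => φ (θ w)) z := hφ.contDiffAt.comp z h1
    exact (h2.mul (ha.contDiffAt hB)).congr_of_eventuallyEq (rdc_ev hzB)
  · have h1 : z ∉ q '' C := fun hz => hzB (hKB hz)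
    refine contDiffAt_const (c := (0 : ℝ)) |>.congr_of_eventuallyEq ?_
    filter_upwards [hKc.isClosed.isOpen_compl.mem_nhds h1] with w hw
    exact h0 w hw

end

/-! ### from local to global -/

theorem exists_cutoff {U A : Set E3} (hU : IsOpen U) (hA : IsClosed A) (hAU : A ⊆ U) :
    ∃ η : E3 → ℝ, ContDiff ℝ ∞ η ∧ tsupport η ⊆ U ∧ (∀ x ∈ A, ∀ᶠ y in 𝓝 x, η y = 1) ∧
      (∀ x, 0 ≤ η x) ∧ ∀ x, η x ≤ 1 := by
  obtain ⟨g, h0, h1, h2⟩ := exists_contMDiffMap_zero_one_nhds_of_isClosed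
    (n := (⊤ : ℕ∞)) (modelWithCornersSelf ℝ E3) (s := Uᶜ) (t := A)
    hU.isClosed_compl hA (by
      rw [Set.disjoint_left]
      intro x hx hx'
      exact hx (hAU hx'))
  refine ⟨g, g.contMDiff.contDiff, fun x hx => ?_, fun x hx =>
    (eventually_nhdsSet_iff_forall.1 h1) x hx, fun x => (h2 x).1, fun x => (h2 x).2⟩
  by_contra hxU
  have h3 := (eventually_nhdsSet_iff_forall.1 h0) x hxU
  exact (notMem_tsupport_iff_eventuallyEq.2 h3) hx

/-- **from local to global** -/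
theorem glob {P : (E3 → ℝ) → Prop} (P0 : P fun _ => 0)
    (Padd : ∀ φ φ', ContDiff ℝ ∞ φ → ContDiff ℝ ∞ φ' → HasCompactSupport φ →
      HasCompactSupport φ' → P φ → P φ' → P fun x => φ x + φ' x) {K : Set E3} (hK : IsCompact K)
    (hloc : ∀ p ∈ K, ∃ W : Set E3, IsOpen W ∧ p ∈ W ∧ ∀ φ : E3 → ℝ, ContDiff ℝ ∞ φ →
      HasCompactSupport φ → tsupport φ ⊆ W → P φ)
    {φ : E3 → ℝ} (hφ : ContDiff ℝ ∞ φ) (hc : HasCompactSupport φ) (hs : tsupport φ ⊆ K) : P φ := by
  have key : ∃ U : Set E3, IsOpen U ∧ K ⊆ U ∧ ∀ φ : E3 → ℝ, ContDiff ℝ ∞ φ →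
      HasCompactSupport φ → tsupport φ ⊆ U → P φ := by
    refine hK.induction_on (p := fun S => ∃ U : Set E3, IsOpen U ∧ S ⊆ U ∧ ∀ φ : E3 → ℝ,
      ContDiff ℝ ∞ φ → HasCompactSupport φ → tsupport φ ⊆ U → P φ) ?_ ?_ ?_ ?_
    · refine ⟨∅, isOpen_empty, Subset.rfl, fun φ _ _ h => ?_⟩
      have : φ = fun _ => 0 := by
        funext x
        exact image_eq_zero_of_notMem_tsupport fun hx => h hx
      rw [this]
      exact P0
    · rintro S T hST ⟨U, hU, hTU, H⟩
      exact ⟨U, hU, hST.trans hTU, H⟩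
    · rintro S T ⟨U, hU, hSU, H⟩ ⟨U', hU', hTU', H'⟩
      refine ⟨U ∪ U', hU.union hU', union_subset_union hSU hTU', fun φ hφ hc hs => ?_⟩
      have hA : IsClosed (tsupport φ \ U') := (isClosed_tsupport φ).sdiff hU'
      have hAU : tsupport φ \ U' ⊆ U := fun x hx => (hs hx.1).resolve_right hx.2
      obtain ⟨η, hη, hηU, hη1, -, -⟩ := exists_cutoff hU hA hAU
      have e : φ = fun x => η x * φ x + (1 - η x) * φ x := by funext x; ring
      rw [e]
      have c1 : HasCompactSupport fun x => η x * φ x := hc.mul_left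
      have c2 : HasCompactSupport fun x => (1 - η x) * φ x := hc.mul_left
      have d1 : ContDiff ℝ ∞ fun x => η x * φ x := hη.mul hφ
      have d2 : ContDiff ℝ ∞ fun x => (1 - η x) * φ x := (contDiff_const.sub hη).mul hφ
      refine Padd _ _ d1 d2 c1 c2 (H _ d1 c1 ?_) (H' _ d2 c2 ?_)
      · refine (closure_mono (fun x hx => ?_)).trans hηU
        exact fun h0 => hx (by simp only [h0, zero_mul])
      · intro x hx
        by_contra hxU
        by_cases hxs : x ∈ tsupport φ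
        · have h1 := hη1 x ⟨hxs, hxU⟩
          refine (notMem_tsupport_iff_eventuallyEq.2 ?_) hx
          filter_upwards [h1] with y hy
          simp [hy]
        · refine (notMem_tsupport_iff_eventuallyEq.2 ?_) hx
          filter_upwards [notMem_tsupport_iff_eventuallyEq.1 hxs] with y hy
          simp [hy]
    · intro p hp
      obtain ⟨W, hW, hpW, H⟩ := hloc p hp
      exact ⟨W, mem_nhdsWithin_of_mem_nhds (hW.mem_nhds hpW), W, hW, Subset.rfl, H⟩
  obtain ⟨U, -, hKU, H⟩ := key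
  exact H φ hφ hc (hs.trans hKU)

end

end Crest.Agent.R257.OutA_309
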