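import Crest.Agent.R257.OutA_309
import Crest.Agent.R257.LossD_309

/-!
# R257 (S0395), leaf GB-OUT (helper309), part C: the identity `∫ χ c₂ = ∫ ∂∂̄χ ∧ Γ + π² Σ χ`

* `dns_rep`  : `dns` at a point is read in one parametrisation
* `Bun`      : Hermitian bundle of rank 2 with a holomorphic section on a level
* `c2x`, `ox`: densities
* `Bun.e1`   : the identity
-/

set_option autoImplicit false
set_option linter.unusedSectionVars false

open Set Filter Topology Complex MeasureTheory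
open scoped ContDiff Matrix ComplexConjugate ComplexOrder ENNReal

namespace Crest.Agent.R257.OutC_309

open Crest.Agent.R275.Geo Crest.Agent.R275.EDR890
open Crest.Agent.R273.Fock_243 Crest.Agent.R273.Calc_243
open Crest.Agent.R273.Bkn_243 Crest.Agent.R273.Pos_243 Crest.Agent.R273.BochA_101
open Crest.Agent.R273.BochB_101
open Crest.Agent.R273.BochC_101 Crest.Agent.R273.BochD_101
open Crest.Agent.R273.Hess_333 Crest.Agent.R273.HessB_333
open Crest.Agent.R273.YauDefs_635 (cH)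
open Crest.Agent.R273.YauMax_635 (cH_eq_hess)
open Crest.Agent.R257.C2F1_625 Crest.Agent.R257.C2F2_625 Crest.Agent.R257.C2F3_625
open Crest.Agent.R257.C2F4_335 Crest.Agent.R257.C2F5_335 Crest.Agent.R257.C2F6_335
open Crest.Agent.R257.Idx1_761 (CS hs hs_cu)
open Crest.Agent.R257.Defs_219
open Crest.Agent.R257.PN_835 (nsq)
open Crest.Agent.R257.Aff_835 (eta2a)
open Crest.Agent.R257.KED_952 Crest.Agent.R257.Ked1_397 Crest.Agent.R257.Ked2_397
open Crest.Agent.R257.V1Defs_822 (SmL LvlOK)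
open Crest.Agent.R257.OutA_309 Crest.Agent.R257.OutB_309 Crest.Agent.R257.LossD_309

noncomputable section

variable {f : E3 → ℂ} {s : ℂ} {r : ℝ}

theorem hol_contDiffAt {O : Set (Cn 2)} {θ : Cn 2 → E3} (h : PE f s r θ O) {z : Cn 2}
    (hz : z ∈ O) : ContDiffAt ℝ ∞ θ z :=
  ((Crest.Agent.R266.SCV.contDiffOn_omega_of_differentiableOn h.par.isOpen
    h.par.hol).restrict_scalars ℝ |>.of_le le_top).contDiffAt (h.par.isOpen.mem_nhds hz)

/-- `dns` at a point is read in one parametrisation -/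
theorem dns_rep (L : LvlOK f s r) {x : E3} (hx : f x = s) (h0 : x ≠ 0) (hr : nsq x < r ^ 2) :
    ∃ (θ : Cn 2 → E3) (O : Set (Cn 2)) (z : Cn 2), PE f s r θ O ∧ z ∈ O ∧ θ z = x ∧
      0 < eta2a (n := 2) f θ z ∧
      ∀ D : (Cn 2 → E3) → Cn 2 → ℝ, dns f D x = D θ z / eta2a (n := 2) f θ z := by
  obtain ⟨θ₁, ρ₁, q₁, N₁, c⟩ := exists_lc (r := r) (L.an x hr) (L.sm x h0 hr hx) hx h0 hr
  have hex : ∃ p : (Cn 2 → E3) × Set (Cn 2) × Cn 2,
      Aff_835.Par (n := 2) f (f x) p.1 p.2.1 ∧ p.2.2 ∈ p.2.1 ∧ p.1 p.2.2 = x :=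
    ⟨(θ₁, Metric.ball 0 ρ₁, 0), by rw [hx]; exact c.pe.par, Metric.mem_ball_self c.pos, c.zero⟩
  obtain ⟨h1, h2, h3⟩ := hex.choose_spec
  set θ' := hex.choose.1 with hθ'
  set O' := hex.choose.2.1 with hO'
  set z' := hex.choose.2.2 with hz'
  rw [hx] at h1
  have hct : ContinuousOn θ' O' := h1.hol.continuousOn
  have hopen : IsOpen (O' ∩ θ' ⁻¹' {y | y ≠ 0 ∧ nsq y < r ^ 2}) :=
    hct.isOpen_inter_preimage h1.isOpen
      (isOpen_ne.inter (isOpen_lt continuous_nsq continuous_const))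
  have hpe : PE f s r θ' (O' ∩ θ' ⁻¹' {y | y ≠ 0 ∧ nsq y < r ^ 2}) :=
    ⟨h1.mono hopen inter_subset_left, fun z hz => hz.2.1, fun z hz => hz.2.2⟩
  have hmem : z' ∈ O' ∩ θ' ⁻¹' {y | y ≠ 0 ∧ nsq y < r ^ 2} :=
    ⟨h2, by show θ' z' ≠ 0 ∧ nsq (θ' z') < r ^ 2; rw [h3]; exact ⟨h0, hr⟩⟩
  refine ⟨θ', _, z', hpe, hmem, h3, eta2a_nn hpe L.sm hmem, fun D => ?_⟩
  unfold dns
  rw [dif_pos hex]

/-- additivity of `dns` at the points of the level -/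
theorem dns_add (L : LvlOK f s r) {D₁ D₂ D₃ : (Cn 2 → E3) → Cn 2 → ℝ}
    (hD : ∀ θ O, PE f s r θ O → ∀ z ∈ O, D₃ θ z = D₁ θ z + D₂ θ z) {x : E3} (hx : f x = s)
    (h0 : x ≠ 0) (hr : nsq x < r ^ 2) : dns f D₃ x = dns f D₁ x + dns f D₂ x := by
  obtain ⟨θ, O, z, h, hz, -, -, e⟩ := dns_rep L hx h0 hr
  rw [e D₁, e D₂, e D₃, hD θ O h z hz, add_div]

theorem dns_zero (L : LvlOK f s r) {D : (Cn 2 → E3) → Cn 2 → ℝ} {x : E3}
    (hD : ∀ θ O, PE f s r θ O → ∀ z ∈ O, θ z = x → D θ z = 0) (hx : f x = s)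
    (h0 : x ≠ 0) (hr : nsq x < r ^ 2) : dns f D x = 0 := by
  obtain ⟨θ, O, z, h, hz, hzx, -, e⟩ := dns_rep L hx h0 hr
  rw [e D, hD θ O h z hz hzx, zero_div]

/-- Hermitian bundle of rank 2 with a holomorphic section on a level -/
structure Bun (f : E3 → ℂ) (s : ℂ) (r : ℝ) (H : (Cn 2 → E3) → Cn 2 → Matrix (Fin 2) (Fin 2) ℂ)
    (V : (Cn 2 → E3) → Cn 2 → Fin 2 → ℂ) : Prop where
  bv : ∀ θ O, PE f s r θ O → ∀ z ∈ O, BV (H θ) (V θ) z
  tr : ∀ θ O, PE f s r θ O → ∀ (θ' : Cn 2 → E3) (z' : Cn 2) (T : Cn 2 → Cn 2),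
      (∀ᶠ w in 𝓝 z', DifferentiableAt ℂ T w) → T z' ∈ O →
      (∀ᶠ w in 𝓝 z', T w ∈ O ∧ θ' w = θ (T w)) → (Jac T z').det ≠ 0 →
      ∃ F, Chg (H θ') (V θ') (H θ) (V θ) T F z'

/-- density of the second Chern form -/
def c2x (f : E3 → ℂ) (H : (Cn 2 → E3) → Cn 2 → Matrix (Fin 2) (Fin 2) ℂ) : E3 → ℝ :=
  dns f fun θ z => (c2 (H θ) z).re

/-- density of `∂∂̄χ ∧ Γ` -/
def ox (f : E3 → ℂ) (H : (Cn 2 → E3) → Cn 2 → Matrix (Fin 2) (Fin 2) ℂ)
    (V : (Cn 2 → E3) → Cn 2 → Fin 2 → ℂ) (χ : E3 → ℝ) : E3 → ℝ :=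
  dns f fun θ z => (pd (cH (fun z => χ (θ z)) z) (Gm (H θ) (V θ) z)).re

theorem oxd_eq_ox (f : E3 → ℂ) (u φ : E3 → ℝ) (h : E3 → ℂ) (χ : E3 → ℝ) :
    oxd f u φ h χ = ox f (HO u φ) (dV h) χ := rfl

variable {H : (Cn 2 → E3) → Cn 2 → Matrix (Fin 2) (Fin 2) ℂ}
  {V : (Cn 2 → E3) → Cn 2 → Fin 2 → ℂ} {χ : E3 → ℝ}

theorem comp_sm (hχ : ContDiff ℝ ∞ χ) {O : Set (Cn 2)} {θ : Cn 2 → E3} (h : PE f s r θ O)
    {z : Cn 2} (hz : z ∈ O) : ContDiffAt ℝ ∞ (fun z => χ (θ z)) z :=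
  hχ.contDiffAt.comp z (hol_contDiffAt h hz)

theorem hess_zero (z : Cn 2) : hess (fun _ : Cn 2 => (0 : ℝ)) z = 0 := by
  ext a b
  rw [hess_eq]
  have h1 : (cu fun _ : Cn 2 => (0 : ℝ)) = fun _ => (0 : ℂ) := by
    funext y; simp [cu]
  have h2 : dS I b (fun _ : Cn 2 => (0 : ℂ)) = fun _ => 0 := by
    funext y; simp [dS]
  rw [h1, h2]
  simp [dS]

theorem cH_zero {O : Set (Cn 2)} {θ : Cn 2 → E3} (h : PE f s r θ O)
    {z : Cn 2} (hz : z ∈ O) (h0 : ∀ᶠ x in 𝓝 (θ z), χ x = 0) : cH (fun z => χ (θ z)) z = 0 := by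
  have hc : ContinuousAt θ z := (hol_contDiffAt h hz).continuousAt
  have e : (fun z => χ (θ z)) =ᶠ[𝓝 z] fun _ => (0 : ℝ) := hc.eventually h0
  have h1 : ContDiffAt ℝ ∞ (fun z => χ (θ z)) z := contDiffAt_const.congr_of_eventuallyEq e
  rw [cH_eq_hess h1, hess_congr e, hess_zero]

theorem Bun.c2x_eq (B : Bun f s r H V) (L : LvlOK f s r) {O : Set (Cn 2)} {θ : Cn 2 → E3}
    (h : PE f s r θ O) {z : Cn 2} (hz : z ∈ O) :
    c2x f H (θ z) * eta2a (n := 2) f θ z = (c2 (H θ) z).re := by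
  refine dns_eq (D := fun θ z => (c2 (H θ) z).re) h.par hz (L.an _ (h.lt z hz))
    (L.sm _ (h.ne z hz) (h.lt z hz) (h.par.lvl z hz)) ?_
  intro θ' z' T hT hTz hTe hdet
  have hTO : T z' ∈ O := by rw [hTz]; exact hz
  obtain ⟨F, c⟩ := B.tr θ O h θ' z' T hT hTO hTe hdet
  have e := c.c2_eq (B.bv θ O h _ hTO)
  show (c2 (H θ') z').re = _
  rw [e, hTz, Complex.mul_conj, Complex.normSq_eq_norm_sq, Complex.re_ofReal_mul]

theorem Bun.ox_eq (B : Bun f s r H V) (L : LvlOK f s r) (hχ : ContDiff ℝ ∞ χ) {O : Set (Cn 2)}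
    {θ : Cn 2 → E3} (h : PE f s r θ O) {z : Cn 2} (hz : z ∈ O) (h0 : V θ z ≠ 0) :
    ox f H V χ (θ z) * eta2a (n := 2) f θ z =
      (pd (cH (fun z => χ (θ z)) z) (Gm (H θ) (V θ) z)).re := by
  refine dns_eq (D := fun θ z => (pd (cH (fun z => χ (θ z)) z) (Gm (H θ) (V θ) z)).re) h.par hz
    (L.an _ (h.lt z hz)) (L.sm _ (h.ne z hz) (h.lt z hz) (h.par.lvl z hz)) ?_
  intro θ' z' T hT hTz hTe hdet
  have hTO : T z' ∈ O := by rw [hTz]; exact hz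
  obtain ⟨F, c⟩ := B.tr θ O h θ' z' T hT hTO hTe hdet
  have e := c.gm_eq (B.bv θ O h _ hTO) (by rw [hTz]; exact h0)
  have ha := comp_sm (χ := χ) hχ h hz
  obtain ⟨a1, a2⟩ := hess_trans hT hTe (a := χ) (by rw [hTz]; exact ha)
  show (pd (cH (fun z => χ (θ' z)) z') (Gm (H θ') (V θ') z')).re = _
  rw [cH_eq_hess a1, cH_eq_hess ha, a2, e, pd_pbk, hTz,
    Complex.mul_conj, Complex.normSq_eq_norm_sq, Complex.re_ofReal_mul]

theorem ox_zero (L : LvlOK f s r) {x : E3} (hχ : ∀ᶠ y in 𝓝 x, χ y = 0) (hx : f x = s)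
    (h0 : x ≠ 0) (hr : nsq x < r ^ 2) : ox f H V χ x = 0 := by
  refine dns_zero L (fun θ O h z hz hzx => ?_) hx h0 hr
  rw [cH_zero (χ := χ) h hz (by rw [hzx]; exact hχ)]
  simp [pd]

theorem ox_add (L : LvlOK f s r) {χ' : E3 → ℝ} (hχ : ContDiff ℝ ∞ χ) (hχ' : ContDiff ℝ ∞ χ')
    {x : E3} (hx : f x = s) (h0 : x ≠ 0) (hr : nsq x < r ^ 2) :
    ox f H V (fun x => χ x + χ' x) x = ox f H V χ x + ox f H V χ' x := by
  refine dns_add L (fun θ O h z hz => ?_) hx h0 hr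
  have h1 := comp_sm (χ := χ) hχ h hz
  have h2 := comp_sm (χ := χ') hχ' h hz
  rw [cH_eq_hess (h1.add h2), cH_eq_hess h1, cH_eq_hess h2,
    hess_add (u := fun z => χ (θ z)) (v := fun z => χ' (θ z)) h1 h2, add_pd, Complex.add_re]

/-- isolated zeros -/
theorem BV.iso_zero {H : Cn 2 → Matrix (Fin 2) (Fin 2) ℂ} {V : Cn 2 → Fin 2 → ℂ} {p : Cn 2}
    (h : BV H V p) (hnd : V p = 0 → Nd V p) :
    ∃ ρ > 0, ∀ z ∈ Metric.ball p ρ, z ≠ p → V z ≠ 0 := by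
  by_cases h0 : V p = 0
  · have hN : Idx6_761.ND H V p := ⟨h.mH, h.mP, h.mV, h0, hnd h0⟩
    obtain ⟨ρ, c, C, hG⟩ := Idx4_761.exists_good hN.nz
    refine ⟨ρ, hG.r0, fun z hz hzp hz0 => ?_⟩
    have h1 := hG.q_pos hz hzp
    unfold hV at h1
    rw [hz0] at h1
    simp at h1
  · obtain ⟨ρ, hρ, hb⟩ := Metric.eventually_nhds_iff_ball.1 (h.ne_ev h0)
    exact ⟨ρ, hρ, fun z hz _ => hb z hz⟩

open Classical in
/-- the local statement -/
theorem Bun.loc (B : Bun f s r H V) (L : LvlOK f s r) {ν : Measure E3} (hν : IsNu f s r ν)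
    (hnd : ∀ θ O, PE f s r θ O → ∀ z ∈ O, V θ z = 0 → Nd (V θ) z) {p : E3} (hp : f p = s)
    (hp0 : p ≠ 0) (hpr : nsq p < r ^ 2) {W : Set E3} (hW : IsOpen W) (hpW : p ∈ W) :
    ∃ N : Set E3, IsOpen N ∧ p ∈ N ∧ N ⊆ W ∧ ∃ b : Prop,
      (∀ θ O, PE f s r θ O → ∀ z ∈ O, θ z = p → (V θ z = 0 ↔ b)) ∧
      ∀ φ : E3 → ℝ, ContDiff ℝ ∞ φ → HasCompactSupport φ → tsupport φ ⊆ N →
      Integrable (fun x => φ x * c2x f H x) ν ∧ Integrable (ox f H V φ) ν ∧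
      ∫ x, φ x * c2x f H x ∂ν = ∫ x, ox f H V φ x ∂ν + (if b then Real.pi ^ 2 * φ p else 0) := by
  obtain ⟨θ, ρ, q, N, c⟩ := exists_lc (r := r) (L.an p hpr) (L.sm p hp0 hpr hp) hp hp0 hpr
  have h0B : (0 : Cn 2) ∈ Metric.ball (0 : Cn 2) ρ := Metric.mem_ball_self c.pos
  have hbv := B.bv θ _ c.pe 0 h0B
  have hnd0 := hnd θ _ c.pe 0 h0B
  obtain ⟨r₀, hr₀, hloc⟩ := hbv.loc hnd0
  obtain ⟨r₁, hr₁, hiso⟩ := BV.iso_zero hbv hnd0
  set ρ' := min ρ (min r₀ r₁) with hρ'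
  have hρ'0 : 0 < ρ' := lt_min c.pos (lt_min hr₀ hr₁)
  have hB : IsOpen {x : E3 | nsq x < r ^ 2} := isOpen_lt continuous_nsq continuous_const
  have c' := c.shrink hρ'0 (min_le_left _ _) (hW.inter hB) ⟨hpW, hpr⟩
  set N' := N ∩ (q ⁻¹' Metric.ball 0 ρ' ∩ (W ∩ {x : E3 | nsq x < r ^ 2})) with hN'
  have hsub0 : Metric.ball (0 : Cn 2) ρ' ⊆ Metric.ball 0 r₀ :=
    Metric.ball_subset_ball ((min_le_right _ _).trans (min_le_left _ _))
  have hsub1 : Metric.ball (0 : Cn 2) ρ' ⊆ Metric.ball 0 r₁ :=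
    Metric.ball_subset_ball ((min_le_right _ _).trans (min_le_right _ _))
  have hpe := c'.pe
  refine ⟨N', c'.No, c'.Np, fun x hx => hx.2.2.1, V θ 0 = 0, ?_, ?_⟩
  · intro θ' O' h' z' hz' hzp
    obtain ⟨T, hT, hTz, hTe⟩ := exists_trans h'.par hpe.par hz' (Metric.mem_ball_self hρ'0)
      (by rw [hzp, c.zero]) (L.an _ (by rw [c.zero]; exact hpr)).hasStrictFDerivAt
      (L.sm _ (by rw [c.zero]; exact hp0) (by rw [c.zero]; exact hpr) (by rw [c.zero]; exact hp))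
    have hdet := det_trans h'.par hpe.par hz' hT hTe
    have hTO : T z' ∈ Metric.ball (0 : Cn 2) ρ' := by rw [hTz]; exact Metric.mem_ball_self hρ'0
    obtain ⟨F, cg⟩ := B.tr θ _ hpe θ' z' T hT hTO hTe hdet
    have e := cg.eV.self_of_nhds
    rw [hTz] at e
    constructor
    · intro h1
      rw [e, h1, Matrix.mulVec_zero]
    · intro h1
      rw [h1] at e
      by_contra h2
      exact cg.F_ne (Matrix.exists_mulVec_eq_zero_iff.1 ⟨_, h2, e.symm⟩)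
  intro φ hφ hc hsp
  obtain ⟨s1, s2, s3⟩ := c'.cut L.an (fun x hx => hx.2.2.2) hφ hc hsp (a := fun _ => (1 : ℝ))
    contDiffOn_const
  simp only [mul_one] at s1 s2 s3
  set κ : Cn 2 → ℝ := rdc θ ρ' φ with hκ
  have hCS : CS (Metric.ball (0 : Cn 2) ρ') (cu κ) := by
    refine ⟨Complex.ofRealCLM.contDiff.comp s1, ?_, ?_⟩
    · exact s2.comp_left (g := fun x : ℝ => (x : ℂ)) Complex.ofReal_zero
    · refine (closure_mono fun z hz => ?_).trans s3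
      intro h1
      exact hz (by show ((κ z : ℝ) : ℂ) = 0; rw [h1]; simp)
  obtain ⟨i1, i2, i3⟩ := hloc (cu κ) (hCS.mono hsub0)
  have hφ0 : ∀ x, x ∉ N' → ∀ᶠ y in 𝓝 x, φ y = 0 := fun x hx =>
    notMem_tsupport_iff_eventuallyEq.1 fun h => hx (hsp h)
  -- second Chern form
  have A1 := c'.integral hν L.an L.sm (F := fun x => φ x * c2x f H x)
    (G := fun z => (cu κ z * c2 (H θ) z).re) i1.re
    (fun z hz => by
      show φ (θ z) * c2x f H (θ z) * _ = (((κ z : ℝ) : ℂ) * _).re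
      rw [mul_assoc, B.c2x_eq L hpe hz, Complex.re_ofReal_mul, hκ, rdc_in hz])
    (fun z hz => by
      show (((κ z : ℝ) : ℂ) * _).re = 0
      rw [hκ, rdc_off hz]; simp)
    (fun x _ _ _ hx => by
      show φ x * _ = 0
      rw [(hφ0 x hx).self_of_nhds, zero_mul])
  -- outer form
  have hae : ∀ᵐ z : Cn 2, z ≠ 0 := Idx4_761.ae_ne 0
  have A2 := c'.integral_ae hν L.an L.sm (F := ox f H V φ)
    (G := fun z => (pd (hs (cu κ) z) (Gm (H θ) (V θ) z)).re) i2.re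
    (by
      filter_upwards [hae] with z hz0 hz
      rw [B.ox_eq L hφ hpe hz (hiso z (hsub1 hz) hz0), hs_cu, cH_eq_hess (comp_sm hφ hpe hz)]
      rw [hess_congr (rdc_ev hz)])
    (fun z hz => by
      have h1 : (cu κ) =ᶠ[𝓝 z] fun _ => (0 : ℂ) := by
        have h2 : z ∉ tsupport (cu κ) := fun h => hz (hCS.sub h)
        exact notMem_tsupport_iff_eventuallyEq.1 h2
      have h2 : hs (cu κ) z = 0 := by
        rw [hs_cu]
        have h3 : κ =ᶠ[𝓝 z] fun _ => (0 : ℝ) := by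
          filter_upwards [h1] with y hy
          exact Complex.ofReal_eq_zero.1 hy
        rw [hess_congr h3, hess_zero]
      rw [h2]
      simp [pd])
    (fun x hx hx0 hxr hxN => ox_zero L (hφ0 x hxN) hx hx0 hxr)
  refine ⟨A1.1, A2.1, ?_⟩
  rw [A1.2, A2.2]
  have e1 : ∫ z, (cu κ z * c2 (H θ) z).re = (∫ z, cu κ z * c2 (H θ) z).re := integral_re i1
  have e2 : ∫ z, (pd (hs (cu κ) z) (Gm (H θ) (V θ) z)).re
      = (∫ z, pd (hs (cu κ) z) (Gm (H θ) (V θ) z)).re := integral_re i2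
  rw [e1, e2, i3, Complex.add_re]
  congr 1
  by_cases hb : V θ 0 = 0
  · rw [if_pos hb, if_pos hb]
    have h1 : κ 0 = φ p := by
      rw [hκ, rdc_in (Metric.mem_ball_self hρ'0), c.zero]
    show ((Real.pi : ℂ) ^ 2 * ((κ 0 : ℝ) : ℂ)).re = _
    rw [h1]
    have h2 : ((Real.pi : ℂ) ^ 2 * ((φ p : ℝ) : ℂ)) = ((Real.pi ^ 2 * φ p : ℝ) : ℂ) := by
      push_cast; ring
    rw [h2, Complex.ofReal_re]
  · rw [if_neg hb, if_neg hb]
    simp

open Classical in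
/-- **the identity** -/
theorem Bun.e1 (B : Bun f s r H V) (L : LvlOK f s r) {ν : Measure E3} (hν : IsNu f s r ν)
    (hχ : ContDiff ℝ ∞ χ) (hc : HasCompactSupport χ)
    (hr : ∀ x ∈ tsupport χ, nsq x < r ^ 2) (h0 : ∀ x ∈ tsupport χ, f x = s → x ≠ 0)
    (hnd : ∀ θ O, PE f s r θ O → ∀ z ∈ O, V θ z = 0 → Nd (V θ) z) (Z : Finset E3)
    (hZ : ∀ x ∈ Z, f x = s)
    (hZV : ∀ θ O, PE f s r θ O → ∀ z ∈ O, θ z ∈ tsupport χ → (θ z ∈ Z ↔ V θ z = 0)) :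
    Integrable (fun x => χ x * c2x f H x) ν ∧ Integrable (ox f H V χ) ν ∧
    ∫ x, χ x * c2x f H x ∂ν = ∫ x, ox f H V χ x ∂ν + Real.pi ^ 2 * ∑ x ∈ Z, χ x := by
  have hlv : ∀ᵐ x ∂ν, f x = s ∧ x ≠ 0 ∧ nsq x < r ^ 2 := by
    rw [ae_iff]; exact hν.null
  refine glob (P := fun φ => Integrable (fun x => φ x * c2x f H x) ν ∧
    Integrable (ox f H V φ) ν ∧
    ∫ x, φ x * c2x f H x ∂ν = ∫ x, ox f H V φ x ∂ν + Real.pi ^ 2 * ∑ x ∈ Z, φ x)
    ?_ ?_ hc.isCompact ?_ hχ hc Subset.rfl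
  · -- zero
    have e : ox f H V (fun _ => 0) =ᵐ[ν] fun _ => 0 := by
      filter_upwards [hlv] with x hx
      exact ox_zero L (Eventually.of_forall fun _ => rfl) hx.1 hx.2.1 hx.2.2
    refine ⟨by simp, (integrable_zero _ _ _).congr e.symm, ?_⟩
    rw [integral_congr_ae e]
    simp
  · -- sum
    rintro φ φ' hφ hφ' - - ⟨a1, a2, a3⟩ ⟨b1, b2, b3⟩
    have e : ox f H V (fun x => φ x + φ' x) =ᵐ[ν] fun x => ox f H V φ x + ox f H V φ' x := by
      filter_upwards [hlv] with x hx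
      exact ox_add L hφ hφ' hx.1 hx.2.1 hx.2.2
    have e' : (fun x => (φ x + φ' x) * c2x f H x) =
        fun x => φ x * c2x f H x + φ' x * c2x f H x := funext fun x => by ring
    refine ⟨by rw [e']; exact a1.add b1, (a2.add b2).congr e.symm, ?_⟩
    rw [integral_congr_ae e, e', integral_add a1 b1, integral_add a2 b2, a3, b3,
      Finset.sum_add_distrib]
    ring
  · -- local
    intro p hp
    have hB : IsOpen {x : E3 | nsq x < r ^ 2} := isOpen_lt continuous_nsq continuous_const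
    have hpr := hr p hp
    by_cases hps : f p = s
    · have hp0 := h0 p hp hps
      set W : Set E3 := ((Z.erase p : Finset E3) : Set E3)ᶜ with hW
      have hWo : IsOpen W := (Finset.finite_toSet _).isClosed.isOpen_compl
      have hpW : p ∈ W := by
        intro h1
        exact Finset.notMem_erase p Z (Finset.mem_coe.1 h1)
      obtain ⟨N, hNo, hpN, hNW, b, hb, hk⟩ := B.loc L hν hnd hps hp0 hpr hWo hpW
      refine ⟨N, hNo, hpN, fun φ hφ hcφ hsφ => ?_⟩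
      obtain ⟨k1, k2, k3⟩ := hk φ hφ hcφ hsφ
      refine ⟨k1, k2, ?_⟩
      rw [k3]
      congr 1
      have hz : ∀ x ∈ Z, x ≠ p → φ x = 0 := by
        intro x hx hxp
        refine image_eq_zero_of_notMem_tsupport fun h1 => ?_
        exact hNW (hsφ h1) (Finset.mem_coe.2 (Finset.mem_erase.2 ⟨hxp, hx⟩))
      obtain ⟨θ, O, z, hpe, hzO, hzp, -, -⟩ := dns_rep L hps hp0 hpr
      have hbZ : p ∈ Z ↔ b := by
        rw [← hb θ O hpe z hzO hzp, ← hZV θ O hpe z hzO (by rw [hzp]; exact hp), hzp]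
      by_cases hpZ : p ∈ Z
      · rw [if_pos (hbZ.1 hpZ), Finset.sum_eq_single_of_mem p hpZ hz]
      · rw [if_neg fun h1 => hpZ (hbZ.2 h1), Finset.sum_eq_zero, mul_zero]
        intro x hx
        exact hz x hx fun h1 => hpZ (h1 ▸ hx)
    · have hfc : ContinuousOn f {x : E3 | nsq x < r ^ 2} := fun x hx =>
        (L.an x hx).continuousAt.continuousWithinAt
      refine ⟨{x : E3 | nsq x < r ^ 2} ∩ f ⁻¹' {s}ᶜ,
        hfc.isOpen_inter_preimage hB isClosed_singleton.isOpen_compl, ⟨hpr, hps⟩,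
        fun φ hφ hcφ hsφ => ?_⟩
      have hz : ∀ x, f x = s → ∀ᶠ y in 𝓝 x, φ y = 0 := fun x hx =>
        notMem_tsupport_iff_eventuallyEq.1 fun h => (hsφ h).2 hx
      have e1 : (fun x => φ x * c2x f H x) =ᵐ[ν] fun _ => 0 := by
        filter_upwards [hlv] with x hx
        rw [(hz x hx.1).self_of_nhds, zero_mul]
      have e2 : ox f H V φ =ᵐ[ν] fun _ => 0 := by
        filter_upwards [hlv] with x hx
        exact ox_zero L (hz x hx.1) hx.1 hx.2.1 hx.2.2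
      refine ⟨(integrable_zero _ _ _).congr e1.symm, (integrable_zero _ _ _).congr e2.symm, ?_⟩
      rw [integral_congr_ae e1, integral_congr_ae e2, Finset.sum_eq_zero fun x hx =>
        (hz x (hZ x hx)).self_of_nhds]
      simp

end

end Crest.Agent.R257.OutC_309
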