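import Crest.Agent.R257.OutD_309

/-!
# R257 (S0395), leaf GB-OUT (helper309), part E: cut-off functions smooth along the level

* `ox_congr`, `ox_eqL`, `ox_addL`
* `Bun.locL`, `Bun.e1L` : the identity for a cut-off function which is smooth along the level
* `e1L`                 : Kähler–Einstein weights, no zeros
-/

set_option autoImplicit false
set_option linter.unusedSectionVars false

open Set Filter Topology Complex MeasureTheory
open scoped ContDiff Matrix ComplexConjugate ComplexOrder ENNReal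

namespace Crest.Agent.R257.OutE_309

open Crest.Agent.R275.Geo Crest.Agent.R275.EDR890
open Crest.Agent.R273.Fock_243 Crest.Agent.R273.Calc_243
open Crest.Agent.R273.Bkn_243 Crest.Agent.R273.Pos_243 Crest.Agent.R273.BochA_101
open Crest.Agent.R273.BochB_101
open Crest.Agent.R273.BochC_101 Crest.Agent.R273.BochD_101
open Crest.Agent.R273.Hess_333 Crest.Agent.R273.HessB_333
open Crest.Agent.R273.Defs_333 (lev)
open Crest.Agent.R273.YauDefs_635 (cH)
open Crest.Agent.R273.YauMax_635 (cH_eq_hess)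
open Crest.Agent.R257.C2F1_625 Crest.Agent.R257.C2F2_625 Crest.Agent.R257.C2F3_625
open Crest.Agent.R257.C2F4_335 Crest.Agent.R257.C2F5_335 Crest.Agent.R257.C2F6_335
open Crest.Agent.R257.Idx1_761 (CS hs hs_cu)
open Crest.Agent.R257.Defs_219
open Crest.Agent.R257.PN_835 (nsq)
open Crest.Agent.R257.Aff_835 (eta2a)
open Crest.Agent.R257.KED_952 Crest.Agent.R257.Ked1_397 Crest.Agent.R257.Ked2_397
open Crest.Agent.R257.V1Defs_822 (SmL LvlOK)
open Crest.Agent.R257.OutA_309 Crest.Agent.R257.OutB_309 Crest.Agent.R257.LossD_309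
open Crest.Agent.R257.OutC_309 Crest.Agent.R257.OutD_309

noncomputable section

variable {f : E3 → ℂ} {s : ℂ} {r : ℝ} {H : (Cn 2 → E3) → Cn 2 → Matrix (Fin 2) (Fin 2) ℂ}
  {V : (Cn 2 → E3) → Cn 2 → Fin 2 → ℂ} {χ χ' : E3 → ℝ}

theorem smL_at (hχ : SmL f s r χ) {O : Set (Cn 2)} {θ : Cn 2 → E3} (h : PE f s r θ O)
    {z : Cn 2} (hz : z ∈ O) : ContDiffAt ℝ ∞ (fun z => χ (θ z)) z :=
  (hχ θ O h).contDiffAt (h.par.isOpen.mem_nhds hz)

theorem smL_of (hχ : ContDiff ℝ ∞ χ) : SmL f s r χ := fun _ _ h _ hz =>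
  (comp_sm (χ := χ) hχ h hz).contDiffWithinAt

theorem smL_mul (hχ : SmL f s r χ) (hχ' : SmL f s r χ') : SmL f s r fun x => χ x * χ' x :=
  fun θ O h => (hχ θ O h).mul (hχ' θ O h)

/-- equality near a point of the level -/
def EqL (f : E3 → ℂ) (s : ℂ) (x : E3) (χ χ' : E3 → ℝ) : Prop := ∀ᶠ y in 𝓝 x, f y = s → χ y = χ' y

theorem EqL.comp {x : E3} (h : EqL f s x χ χ') {O : Set (Cn 2)} {θ : Cn 2 → E3}
    (hP : PE f s r θ O) {z : Cn 2} (hz : z ∈ O) (hx : θ z = x) :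
    (fun z => χ (θ z)) =ᶠ[𝓝 z] fun z => χ' (θ z) := by
  have hc : ContinuousAt θ z := (hol_contDiffAt hP hz).continuousAt
  have h1 : ∀ᶠ w in 𝓝 z, f (θ w) = s → χ (θ w) = χ' (θ w) :=
    hc.eventually (p := fun y => f y = s → χ y = χ' y) (by rw [hx]; exact h)
  filter_upwards [h1, hP.par.isOpen.mem_nhds hz] with w h2 h3
  exact h2 (hP.par.lvl w h3)

theorem cH_congr {a b : Cn 2 → ℝ} {z : Cn 2} (h : a =ᶠ[𝓝 z] b) (ha : ContDiffAt ℝ ∞ a z) :
    cH a z = cH b z := by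
  rw [cH_eq_hess ha, cH_eq_hess (ha.congr_of_eventuallyEq h.symm), hess_congr h]

theorem ox_congr (L : LvlOK f s r) (hχ : SmL f s r χ) {x : E3} (h : EqL f s x χ χ') (hx : f x = s)
    (h0 : x ≠ 0) (hr : nsq x < r ^ 2) : ox f H V χ x = ox f H V χ' x := by
  obtain ⟨θ, O, z, hP, hz, hzx, -, e⟩ := dns_rep L hx h0 hr
  unfold ox
  rw [e, e]
  rw [cH_congr (h.comp hP hz hzx) (smL_at hχ hP hz)]

theorem Bun.ox_eqL (B : Bun f s r H V) (L : LvlOK f s r) (hχ : SmL f s r χ) {O : Set (Cn 2)}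
    {θ : Cn 2 → E3} (h : PE f s r θ O) {z : Cn 2} (hz : z ∈ O) (h0 : V θ z ≠ 0) :
    ox f H V χ (θ z) * eta2a (n := 2) f θ z =
      (pd (cH (fun z => χ (θ z)) z) (Gm (H θ) (V θ) z)).re := by
  refine dns_eq (D := fun θ z => (pd (cH (fun z => χ (θ z)) z) (Gm (H θ) (V θ) z)).re) h.par hz
    (L.an _ (h.lt z hz)) (L.sm _ (h.ne z hz) (h.lt z hz) (h.par.lvl z hz)) ?_
  intro θ' z' T hT hTz hTe hdet
  have hTO : T z' ∈ O := by rw [hTz]; exact hz
  obtain ⟨F, c⟩ := B.tr θ O h θ' z' T hT hTO hTe hdet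
  have e := c.gm_eq (B.bv θ O h _ hTO) (by rw [hTz]; exact h0)
  have ha := smL_at hχ h hz
  obtain ⟨a1, a2⟩ := hess_trans hT hTe (a := χ) (by rw [hTz]; exact ha)
  show (pd (cH (fun z => χ (θ' z)) z') (Gm (H θ') (V θ') z')).re = _
  rw [cH_eq_hess a1, cH_eq_hess ha, a2, e, pd_pbk, hTz,
    Complex.mul_conj, Complex.normSq_eq_norm_sq, Complex.re_ofReal_mul]

theorem ox_zeroL (L : LvlOK f s r) {x : E3} (hχ : EqL f s x χ fun _ => 0) (hx : f x = s)
    (h0 : x ≠ 0) (hr : nsq x < r ^ 2) : ox f H V χ x = 0 := by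
  obtain ⟨θ, O, z, hP, hz, hzx, -, e⟩ := dns_rep L hx h0 hr
  unfold ox
  rw [e]
  have h1 := hχ.comp hP hz hzx
  have h2 : ContDiffAt ℝ ∞ (fun z => χ (θ z)) z := contDiffAt_const.congr_of_eventuallyEq h1
  rw [cH_eq_hess h2, hess_congr h1, hess_zero]
  simp [pd]

theorem ox_addL (L : LvlOK f s r) (hχ : SmL f s r χ) (hχ' : SmL f s r χ')
    {x : E3} (hx : f x = s) (h0 : x ≠ 0) (hr : nsq x < r ^ 2) :
    ox f H V (fun x => χ x + χ' x) x = ox f H V χ x + ox f H V χ' x := by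
  refine dns_add L (fun θ O h z hz => ?_) hx h0 hr
  have h1 := smL_at hχ h hz
  have h2 := smL_at hχ' h hz
  rw [cH_eq_hess (h1.add h2), cH_eq_hess h1, cH_eq_hess h2,
    hess_add (u := fun z => χ (θ z)) (v := fun z => χ' (θ z)) h1 h2, add_pd, Complex.add_re]

open Classical in
/-- the local statement -/
theorem Bun.locL (B : Bun f s r H V) (L : LvlOK f s r) {ν : Measure E3} (hν : IsNu f s r ν)
    (hnd : ∀ θ O, PE f s r θ O → ∀ z ∈ O, V θ z = 0 → Nd (V θ) z) {p : E3} (hp : f p = s)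
    (hp0 : p ≠ 0) (hpr : nsq p < r ^ 2) {W : Set E3} (hW : IsOpen W) (hpW : p ∈ W) :
    ∃ N : Set E3, IsOpen N ∧ p ∈ N ∧ N ⊆ W ∧ ∃ b : Prop,
      (∀ θ O, PE f s r θ O → ∀ z ∈ O, θ z = p → (V θ z = 0 ↔ b)) ∧
      ∀ a : E3 → ℝ, SmL f s r a → ∀ φ : E3 → ℝ, ContDiff ℝ ∞ φ → HasCompactSupport φ →
      tsupport φ ⊆ N →
      Integrable (fun x => (φ x * a x) * c2x f H x) ν ∧
      Integrable (ox f H V fun x => φ x * a x) ν ∧
      ∫ x, (φ x * a x) * c2x f H x ∂ν = ∫ x, ox f H V (fun x => φ x * a x) x ∂ν +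
        (if b then Real.pi ^ 2 * (φ p * a p) else 0) := by
  obtain ⟨θ, ρ, q, N, c⟩ := exists_lc (r := r) (L.an p hpr) (L.sm p hp0 hpr hp) hp hp0 hpr
  have h0B : (0 : Cn 2) ∈ Metric.ball (0 : Cn 2) ρ := Metric.mem_ball_self c.pos
  have hbv := B.bv θ _ c.pe 0 h0B
  have hnd0 := hnd θ _ c.pe 0 h0B
  obtain ⟨r₀, hr₀, hloc⟩ := hbv.loc hnd0
  obtain ⟨r₁, hr₁, hiso⟩ := BV.iso_zero hbv hnd0
  set ρ' := min ρ (min r₀ r₁) with hρ'
  have hρ'0 : 0 < ρ' := lt_min c.pos (lt_min hr₀ hr₁)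
  have hB : IsOpen {x : E3 | nsq x < r ^ 2} := isOpen_lt continuous_nsq continuous_const
  have c' := c.shrink hρ'0 (min_le_left _ _) (hW.inter hB) ⟨hpW, hpr⟩
  set N' := N ∩ (q ⁻¹' Metric.ball 0 ρ' ∩ (W ∩ {x : E3 | nsq x < r ^ 2})) with hN'
  have hsub0 : Metric.ball (0 : Cn 2) ρ' ⊆ Metric.ball 0 r₀ :=
    Metric.ball_subset_ball ((min_le_right _ _).trans (min_le_left _ _))
  have hsub1 : Metric.ball (0 : Cn 2) ρ' ⊆ Metric.ball 0 r₁ :=
    Metric.ball_subset_ball ((min_le_right _ _).trans (min_le_right _ _))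
  have hpe := c'.pe
  refine ⟨N', c'.No, c'.Np, fun x hx => hx.2.2.1, V θ 0 = 0, ?_, ?_⟩
  · intro θ' O' h' z' hz' hzp
    obtain ⟨T, hT, hTz, hTe⟩ := exists_trans h'.par hpe.par hz' (Metric.mem_ball_self hρ'0)
      (by rw [hzp, c.zero]) (L.an _ (by rw [c.zero]; exact hpr)).hasStrictFDerivAt
      (L.sm _ (by rw [c.zero]; exact hp0) (by rw [c.zero]; exact hpr) (by rw [c.zero]; exact hp))
    have hdet := det_trans h'.par hpe.par hz' hT hTe
    have hTO : T z' ∈ Metric.ball (0 : Cn 2) ρ' := by rw [hTz]; exact Metric.mem_ball_self hρ'0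
    obtain ⟨F, cg⟩ := B.tr θ _ hpe θ' z' T hT hTO hTe hdet
    have e := cg.eV.self_of_nhds
    rw [hTz] at e
    constructor
    · intro h1
      rw [e, h1, Matrix.mulVec_zero]
    · intro h1
      rw [h1] at e
      by_contra h2
      exact cg.F_ne (Matrix.exists_mulVec_eq_zero_iff.1 ⟨_, h2, e.symm⟩)
  intro a ha φ hφ hc hsp
  obtain ⟨s1, s2, s3⟩ := c'.cut L.an (fun x hx => hx.2.2.2) hφ hc hsp (a := a) (ha θ _ hpe)
  have hφa : SmL f s r fun x => φ x * a x := smL_mul (smL_of hφ) ha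
  set κ : Cn 2 → ℝ := rdc θ ρ' fun x => φ x * a x with hκ
  have hCS : CS (Metric.ball (0 : Cn 2) ρ') (cu κ) := by
    refine ⟨Complex.ofRealCLM.contDiff.comp s1, ?_, ?_⟩
    · exact s2.comp_left (g := fun x : ℝ => (x : ℂ)) Complex.ofReal_zero
    · refine (closure_mono fun z hz => ?_).trans s3
      intro h1
      exact hz (by show ((κ z : ℝ) : ℂ) = 0; rw [h1]; simp)
  obtain ⟨i1, i2, i3⟩ := hloc (cu κ) (hCS.mono hsub0)
  have hφ0 : ∀ x, x ∉ N' → ∀ᶠ y in 𝓝 x, φ y = 0 := fun x hx =>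
    notMem_tsupport_iff_eventuallyEq.1 fun h => hx (hsp h)
  -- second Chern form
  have A1 := c'.integral hν L.an L.sm (F := fun x => (φ x * a x) * c2x f H x)
    (G := fun z => (cu κ z * c2 (H θ) z).re) i1.re
    (fun z hz => by
      show (φ (θ z) * a (θ z)) * c2x f H (θ z) * _ = (((κ z : ℝ) : ℂ) * _).re
      rw [mul_assoc, B.c2x_eq L hpe hz, Complex.re_ofReal_mul, hκ, rdc_in hz])
    (fun z hz => by
      show (((κ z : ℝ) : ℂ) * _).re = 0
      rw [hκ, rdc_off hz]; simp)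
    (fun x _ _ _ hx => by
      show (φ x * a x) * _ = 0
      rw [(hφ0 x hx).self_of_nhds, zero_mul, zero_mul])
  -- outer form
  have hae : ∀ᵐ z : Cn 2, z ≠ 0 := Idx4_761.ae_ne 0
  have A2 := c'.integral_ae hν L.an L.sm (F := ox f H V fun x => φ x * a x)
    (G := fun z => (pd (hs (cu κ) z) (Gm (H θ) (V θ) z)).re) i2.re
    (by
      filter_upwards [hae] with z hz0 hz
      rw [Bun.ox_eqL B L hφa hpe hz (hiso z (hsub1 hz) hz0), hs_cu, cH_eq_hess (smL_at hφa hpe hz)]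
      rw [hess_congr (rdc_ev hz)])
    (fun z hz => by
      have h1 : (cu κ) =ᶠ[𝓝 z] fun _ => (0 : ℂ) := by
        have h2 : z ∉ tsupport (cu κ) := fun h => hz (hCS.sub h)
        exact notMem_tsupport_iff_eventuallyEq.1 h2
      have h2 : hs (cu κ) z = 0 := by
        rw [hs_cu]
        have h3 : κ =ᶠ[𝓝 z] fun _ => (0 : ℝ) := by
          filter_upwards [h1] with y hy
          exact Complex.ofReal_eq_zero.1 hy
        rw [hess_congr h3, hess_zero]
      rw [h2]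
      simp [pd])
    (fun x hx hx0 hxr hxN => ox_zeroL L ((hφ0 x hxN).mono fun y hy _ => by
      simp only [hy, zero_mul]) hx hx0 hxr)
  refine ⟨A1.1, A2.1, ?_⟩
  rw [A1.2, A2.2]
  have e1 : ∫ z, (cu κ z * c2 (H θ) z).re = (∫ z, cu κ z * c2 (H θ) z).re := integral_re i1
  have e2 : ∫ z, (pd (hs (cu κ) z) (Gm (H θ) (V θ) z)).re
      = (∫ z, pd (hs (cu κ) z) (Gm (H θ) (V θ) z)).re := integral_re i2
  rw [e1, e2, i3, Complex.add_re]
  congr 1
  by_cases hb : V θ 0 = 0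
  · rw [if_pos hb, if_pos hb]
    have h1 : κ 0 = φ p * a p := by
      rw [hκ, rdc_in (Metric.mem_ball_self hρ'0), c.zero]
    show ((Real.pi : ℂ) ^ 2 * ((κ 0 : ℝ) : ℂ)).re = _
    rw [h1]
    have h2 : ((Real.pi : ℂ) ^ 2 * ((φ p * a p : ℝ) : ℂ)) =
        ((Real.pi ^ 2 * (φ p * a p) : ℝ) : ℂ) := by
      push_cast; ring
    rw [h2, Complex.ofReal_re]
  · rw [if_neg hb, if_neg hb]
    simp

open Classical in
/-- **the identity for a cut-off function smooth along the level** -/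
theorem Bun.e1L (B : Bun f s r H V) (L : LvlOK f s r) {ν : Measure E3} (hν : IsNu f s r ν)
    (hχ : SmL f s r χ) {K : Set E3} (hK : IsCompact K) (hr : ∀ x ∈ K, nsq x < r ^ 2)
    (h0 : ∀ x ∈ K, f x = s → x ≠ 0) (hχK : ∀ x, f x = s → x ∉ K → χ x = 0)
    (hnd : ∀ θ O, PE f s r θ O → ∀ z ∈ O, V θ z = 0 → Nd (V θ) z) (Z : Finset E3)
    (hZ : ∀ x ∈ Z, f x = s)
    (hZV : ∀ θ O, PE f s r θ O → ∀ z ∈ O, (θ z ∈ Z ↔ V θ z = 0)) :
    Integrable (fun x => χ x * c2x f H x) ν ∧ Integrable (ox f H V χ) ν ∧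
    ∫ x, χ x * c2x f H x ∂ν = ∫ x, ox f H V χ x ∂ν + Real.pi ^ 2 * ∑ x ∈ Z, χ x := by
  have hlv : ∀ᵐ x ∂ν, f x = s ∧ x ≠ 0 ∧ nsq x < r ^ 2 := by
    rw [ae_iff]; exact hν.null
  have hB : IsOpen {x : E3 | nsq x < r ^ 2} := isOpen_lt continuous_nsq continuous_const
  -- the ambient cut-off function
  have hfc : ContinuousOn f {x : E3 | nsq x < r ^ 2} := fun x hx =>
    (L.an x hx).continuousAt.continuousWithinAt
  set U : Set E3 := {x : E3 | nsq x < r ^ 2} ∩ {x | f x = s → x ≠ 0} with hU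
  have hUo : IsOpen U := by
    have h1 : U = {x : E3 | nsq x < r ^ 2} ∩ ({x : E3 | nsq x < r ^ 2} ∩ f ⁻¹' {s}ᶜ ∪ {0}ᶜ) := by
      ext x
      constructor
      · rintro ⟨h1, h2⟩
        refine ⟨h1, ?_⟩
        by_cases hx : f x = s
        · exact Or.inr (h2 hx)
        · exact Or.inl ⟨h1, hx⟩
      · rintro ⟨h1, h2⟩
        refine ⟨h1, fun hx => ?_⟩
        rcases h2 with h2 | h2
        · exact absurd hx h2.2
        · exact h2
    rw [h1]
    exact hB.inter ((hfc.isOpen_inter_preimage hB isClosed_singleton.isOpen_compl).union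
      isClosed_singleton.isOpen_compl)
  have hKU : K ⊆ U := fun x hx => ⟨hr x hx, h0 x hx⟩
  obtain ⟨K', hK', hKK', hK'U⟩ := exists_compact_between hK hUo hKU
  obtain ⟨η, hη, hηU, hη1, -, -⟩ := exists_cutoff (isOpen_interior (s := K')) hK.isClosed hKK'
  have hηc : HasCompactSupport η :=
    hK'.of_isClosed_subset (isClosed_tsupport η) (hηU.trans interior_subset)
  have hηU' : tsupport η ⊆ U := (hηU.trans interior_subset).trans hK'U
  have key : Integrable (fun x => (η x * χ x) * c2x f H x) ν ∧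
      Integrable (ox f H V fun x => η x * χ x) ν ∧
      ∫ x, (η x * χ x) * c2x f H x ∂ν = ∫ x, ox f H V (fun x => η x * χ x) x ∂ν +
        Real.pi ^ 2 * ∑ x ∈ Z, (η x * χ x) := by
    refine glob (P := fun φ => Integrable (fun x => (φ x * χ x) * c2x f H x) ν ∧
      Integrable (ox f H V fun x => φ x * χ x) ν ∧
      ∫ x, (φ x * χ x) * c2x f H x ∂ν = ∫ x, ox f H V (fun x => φ x * χ x) x ∂ν +
        Real.pi ^ 2 * ∑ x ∈ Z, (φ x * χ x))
      ?_ ?_ hηc.isCompact ?_ hη hηc Subset.rfl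
    · -- zero
      have e : ox f H V (fun x => (0 : ℝ) * χ x) =ᵐ[ν] fun _ => 0 := by
        filter_upwards [hlv] with x hx
        exact ox_zeroL L (Eventually.of_forall fun y _ => by simp) hx.1 hx.2.1 hx.2.2
      refine ⟨by simp, (integrable_zero _ _ _).congr e.symm, ?_⟩
      rw [integral_congr_ae e]
      simp
    · -- sum
      rintro φ φ' hφ hφ' - - ⟨a1, a2, a3⟩ ⟨b1, b2, b3⟩
      have e0 : (fun x => (φ x + φ' x) * χ x) = fun x => φ x * χ x + φ' x * χ x :=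
        funext fun x => add_mul _ _ _
      have e : ox f H V (fun x => (φ x + φ' x) * χ x) =ᵐ[ν]
          fun x => ox f H V (fun x => φ x * χ x) x + ox f H V (fun x => φ' x * χ x) x := by
        filter_upwards [hlv] with x hx
        rw [e0]
        exact ox_addL L (smL_mul (smL_of hφ) hχ) (smL_mul (smL_of hφ') hχ) hx.1 hx.2.1 hx.2.2
      have e' : (fun x => ((φ x + φ' x) * χ x) * c2x f H x) =
          fun x => (φ x * χ x) * c2x f H x + (φ' x * χ x) * c2x f H x := funext fun x => by ring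
      refine ⟨by rw [e']; exact a1.add b1, (a2.add b2).congr e.symm, ?_⟩
      rw [integral_congr_ae e, e', integral_add a1 b1, integral_add a2 b2, a3, b3]
      have e2 : ∑ x ∈ Z, (φ x + φ' x) * χ x = ∑ x ∈ Z, φ x * χ x + ∑ x ∈ Z, φ' x * χ x := by
        rw [← Finset.sum_add_distrib]
        exact Finset.sum_congr rfl fun x _ => add_mul _ _ _
      rw [e2]
      ring
    · -- local
      intro p hp
      have hpr : nsq p < r ^ 2 := (hηU' hp).1
      by_cases hps : f p = s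
      · have hp0 : p ≠ 0 := (hηU' hp).2 hps
        set W : Set E3 := ((Z.erase p : Finset E3) : Set E3)ᶜ with hW
        have hWo : IsOpen W := (Finset.finite_toSet _).isClosed.isOpen_compl
        have hpW : p ∈ W := by
          intro h1
          exact Finset.notMem_erase p Z (Finset.mem_coe.1 h1)
        obtain ⟨N, hNo, hpN, hNW, b, hb, hk⟩ := Bun.locL B L hν hnd hps hp0 hpr hWo hpW
        refine ⟨N, hNo, hpN, fun φ hφ hcφ hsφ => ?_⟩
        obtain ⟨k1, k2, k3⟩ := hk χ hχ φ hφ hcφ hsφ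
        refine ⟨k1, k2, ?_⟩
        rw [k3]
        congr 1
        have hz : ∀ x ∈ Z, x ≠ p → φ x * χ x = 0 := by
          intro x hx hxp
          rw [image_eq_zero_of_notMem_tsupport (f := φ) fun h1 => ?_, zero_mul]
          exact hNW (hsφ h1) (Finset.mem_coe.2 (Finset.mem_erase.2 ⟨hxp, hx⟩))
        obtain ⟨θ, O, z, hpe, hzO, hzp, -, -⟩ := dns_rep L hps hp0 hpr
        have hbZ : p ∈ Z ↔ b := by
          rw [← hb θ O hpe z hzO hzp, ← hZV θ O hpe z hzO, hzp]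
        by_cases hpZ : p ∈ Z
        · rw [if_pos (hbZ.1 hpZ), Finset.sum_eq_single_of_mem p hpZ hz]
        · rw [if_neg fun h1 => hpZ (hbZ.2 h1), Finset.sum_eq_zero, mul_zero]
          intro x hx
          exact hz x hx fun h1 => hpZ (h1 ▸ hx)
      · refine ⟨{x : E3 | nsq x < r ^ 2} ∩ f ⁻¹' {s}ᶜ,
          hfc.isOpen_inter_preimage hB isClosed_singleton.isOpen_compl, ⟨hpr, hps⟩,
          fun φ hφ hcφ hsφ => ?_⟩
        have hz : ∀ x, f x = s → ∀ᶠ y in 𝓝 x, φ y = 0 := fun x hx =>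
          notMem_tsupport_iff_eventuallyEq.1 fun h => (hsφ h).2 hx
        have e1 : (fun x => (φ x * χ x) * c2x f H x) =ᵐ[ν] fun _ => 0 := by
          filter_upwards [hlv] with x hx
          rw [(hz x hx.1).self_of_nhds, zero_mul, zero_mul]
        have e2 : ox f H V (fun x => φ x * χ x) =ᵐ[ν] fun _ => 0 := by
          filter_upwards [hlv] with x hx
          exact ox_zeroL L ((hz x hx.1).mono fun y hy _ => by simp only [hy, zero_mul])
            hx.1 hx.2.1 hx.2.2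
        refine ⟨(integrable_zero _ _ _).congr e1.symm, (integrable_zero _ _ _).congr e2.symm, ?_⟩
        rw [integral_congr_ae e1, integral_congr_ae e2, Finset.sum_eq_zero fun x hx => by
          rw [(hz x (hZ x hx)).self_of_nhds, zero_mul]]
        simp
  -- `η χ = χ` on the level
  have heq : ∀ x, f x = s → η x * χ x = χ x := by
    intro x hx
    by_cases hxK : x ∈ K
    · rw [(hη1 x hxK).self_of_nhds, one_mul]
    · rw [hχK x hx hxK, mul_zero]
  obtain ⟨k1, k2, k3⟩ := key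
  have e1 : (fun x => (η x * χ x) * c2x f H x) =ᵐ[ν] fun x => χ x * c2x f H x := by
    filter_upwards [hlv] with x hx
    rw [heq x hx.1]
  have e2 : ox f H V (fun x => η x * χ x) =ᵐ[ν] ox f H V χ := by
    filter_upwards [hlv] with x hx
    exact ox_congr L (smL_mul (smL_of hη) hχ) (Eventually.of_forall fun y hy => heq y hy)
      hx.1 hx.2.1 hx.2.2
  refine ⟨k1.congr e1, k2.congr e2, ?_⟩
  rw [← integral_congr_ae e1, ← integral_congr_ae e2, k3]
  congr 2
  exact Finset.sum_congr rfl fun x hx => heq x (hZ x hx)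

/-- **the identity on the punctured level** -/
theorem e1L (L : LvlOK f s r) {u φ : E3 → ℝ} (hu : KEon f s r u) (hφ : SmL f s r φ)
    {ν : Measure E3} (hν : IsNu f s r ν) (hχ : SmL f s r χ) {K : Set E3} (hK : IsCompact K)
    (hr : ∀ x ∈ K, nsq x < r ^ 2) (h0 : ∀ x ∈ K, f x = s → x ≠ 0)
    (hχK : ∀ x, f x = s → x ∉ K → χ x = 0) {h : E3 → ℂ}
    (hh : ∀ x, nsq x < r ^ 2 → AnalyticAt ℂ h x)
    (hnz : ∀ θ O, PE f s r θ O → ∀ z ∈ O, dV h θ z ≠ 0) :
    Integrable (fun x => χ x * (c2d f u x + mxd f u φ x + mxd f φ φ x)) ν ∧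
    Integrable (oxd f u φ h χ) ν ∧
    ∫ x, χ x * (c2d f u x + mxd f u φ x + mxd f φ φ x) ∂ν = ∫ x, oxd f u φ h χ x ∂ν := by
  have B := bunO L hu.sm hu.pos hφ hh (φ := φ)
  obtain ⟨a1, a2, a3⟩ := Bun.e1L B L hν hχ hK hr h0 hχK
    (fun θ O h z hz h1 => absurd h1 (hnz θ O h z hz))
    ∅ (by simp) (fun θ O h z hz => by simp [hnz θ O h z hz])
  have hlv : ∀ᵐ x ∂ν, f x = s ∧ x ≠ 0 ∧ nsq x < r ^ 2 := by
    rw [ae_iff]; exact hν.null
  have e : (fun x => χ x * c2x f (HO u φ) x) =ᵐ[ν]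
      fun x => χ x * (c2d f u x + mxd f u φ x + mxd f φ φ x) := by
    filter_upwards [hlv] with x hx
    rw [c2x_HO L hu hφ hx.1 hx.2.1 hx.2.2]
  refine ⟨a1.congr e, a2, ?_⟩
  rw [← integral_congr_ae e, a3, Finset.sum_empty, mul_zero, add_zero]
  rfl

end

end Crest.Agent.R257.OutE_309
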