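import Crest.Agent.R257.LossD_309
import Crest.Agent.R257.OutA_309

/-!
# R257 (S0395), leaf OxCvStmt (helper397), part 1: `oxd` in a parametrisation

* `bv`     : `HO u φ θ`, `dV h θ` form a `BV`
* `chg`    : change of the parametrisation
* `oxd_eq` : `oxd` in a parametrisation, where `dh ≠ 0`
* `oxd_zero` : `oxd = 0` where `χ` is locally constant
* `dV_ne_iff` : `dV h θ z ≠ 0 ↔ ∃ v ∈ ker df, dh v ≠ 0`
-/

set_option autoImplicit false
set_option linter.unusedSectionVars false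

open Set Filter Topology Complex
open scoped ContDiff Matrix ComplexConjugate ComplexOrder

namespace Crest.Agent.R257.OxCv1_397

open Crest.Agent.R275.Geo Crest.Agent.R275.EDR890
open Crest.Agent.R273.Fock_243 Crest.Agent.R273.Calc_243
open Crest.Agent.R273.Bkn_243 Crest.Agent.R273.Pos_243 Crest.Agent.R273.BochA_101
open Crest.Agent.R273.BochB_101
open Crest.Agent.R273.BochC_101 Crest.Agent.R273.BochD_101
open Crest.Agent.R273.Hess_333 Crest.Agent.R273.HessB_333
open Crest.Agent.R273.YauDefs_635 Crest.Agent.R273.YauMax_635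
open Crest.Agent.R257.C2F2_625 Crest.Agent.R257.C2F3_625
open Crest.Agent.R257.C2F4_335 Crest.Agent.R257.C2F5_335
open Crest.Agent.R257.Defs_219
open Crest.Agent.R257.Gram_835 Crest.Agent.R257.Aff_835
open Crest.Agent.R257.KED_952 Crest.Agent.R257.Ked1_397 Crest.Agent.R257.Ked2_397
open Crest.Agent.R257.LossD_309 Crest.Agent.R257.OutB_309

noncomputable section

variable {f : E3 → ℂ} {s : ℂ} {θ : Cn 2 → E3} {O : Set (Cn 2)} {u φ χ : E3 → ℝ} {h : E3 → ℂ}

/-- local data: `u`, `φ` smooth on the parametrisation, `∂∂̄u > 0`, `h` analytic -/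
structure LD (u φ : E3 → ℝ) (h : E3 → ℂ) (θ : Cn 2 → E3) (O : Set (Cn 2)) : Prop where
  op : IsOpen O
  hol : DifferentiableOn ℂ θ O
  su : ∀ y ∈ O, ContDiffAt ℝ ∞ (fun z => u (θ z)) y
  pu : ∀ y ∈ O, (cH (fun z => u (θ z)) y).PosDef
  sφ : ∀ y ∈ O, ContDiffAt ℝ ∞ (fun z => φ (θ z)) y
  ah : ∀ y ∈ O, AnalyticAt ℂ h (θ y)

theorem smM_HO (d : LD u φ h θ O) {z : Cn 2} (hz : z ∈ O) : SmM z (HO u φ θ) := by
  have h1 : SmM z (fun y => (hess (fun z => u (θ z)) y)⁻¹) := by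
    refine SmM.inv (fun S T => contDiffAt_hess (d.su z hz) S T) ?_
    rw [← cH_eq_hess (d.su z hz)]
    exact (d.pu z hz).det_pos.ne'
  have h2 : Sm z (fun y => ((Real.exp (-φ (θ y)) : ℝ) : ℂ)) := by
    have h3 : ContDiffAt ℝ ∞ (fun y => Real.exp (-φ (θ y))) z := (d.sφ z hz).neg.exp
    exact Complex.ofRealCLM.contDiff.contDiffAt.comp z h3
  intro S T
  refine (h2.mul (h1 S T)).congr_of_eventuallyEq ?_
  filter_upwards [d.op.mem_nhds hz] with y hy
  show (((Real.exp (-φ (θ y)) : ℝ) : ℂ) • (cH (fun z => u (θ z)) y)⁻¹) S T = _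
  rw [cH_eq_hess (d.su y hy)]
  rfl

theorem pos_HO (d : LD u φ h θ O) {z : Cn 2} (hz : z ∈ O) : (HO u φ θ z).PosDef := by
  have h1 : (cH (fun z => u (θ z)) z)⁻¹.PosDef := (d.pu z hz).inv
  have h2 : (0 : ℂ) < ((Real.exp (-φ (θ z)) : ℝ) : ℂ) := by
    exact_mod_cast Real.exp_pos _
  exact h1.smul h2

theorem dV_eq_dS (d : LD u φ h θ O) {z : Cn 2} (hz : z ∈ O) (i : Fin 2) :
    dV h θ z i = dS (-I) i (fun y => h (θ y)) z := by
  have h1 : DifferentiableAt ℂ (fun y => h (θ y)) z :=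
    DifferentiableAt.comp z (g := h) (d.ah z hz).differentiableAt
      ((d.hol z hz).differentiableAt (d.op.mem_nhds hz))
  exact (wd_hol' h1 i).symm

theorem LD.anθ (d : LD u φ h θ O) : AnalyticOnNhd ℂ θ O :=
  Crest.Agent.R266.SCV.analyticOnNhd_of_differentiableOn d.op d.hol

theorem LD.anh (d : LD u φ h θ O) : AnalyticOnNhd ℂ (fun y => h (θ y)) O := fun y hy =>
  AnalyticAt.fun_comp (g := h) (d.ah y hy) (d.anθ y hy)

theorem hol_dV (d : LD u φ h θ O) {z : Cn 2} (hz : z ∈ O) (i : Fin 2) :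
    ∀ᶠ y in 𝓝 z, DifferentiableAt ℂ (fun w => dV h θ w i) y := by
  filter_upwards [d.op.mem_nhds hz] with y hy
  exact (d.anh.fderiv y hy).differentiableAt.clm_apply (differentiableAt_const _)

theorem bv (d : LD u φ h θ O) {z : Cn 2} (hz : z ∈ O) : BV (HO u φ θ) (dV h θ) z where
  mH := by
    filter_upwards [d.op.mem_nhds hz] with y hy
    exact smM_HO d hy
  mP := by
    filter_upwards [d.op.mem_nhds hz] with y hy
    exact pos_HO d hy
  mV := hol_dV d hz

/-- the frame change -/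
def FT (T : Cn 2 → Cn 2) (w : Cn 2) : Matrix (Fin 2) (Fin 2) ℂ := ((Jac T w)ᵀ)⁻¹

theorem dV_trans (d : LD u φ h θ O) {θ' : Cn 2 → E3} {z' : Cn 2} {T : Cn 2 → Cn 2}
    (hT : ∀ᶠ w in 𝓝 z', DifferentiableAt ℂ T w)
    (hTe : ∀ᶠ w in 𝓝 z', T w ∈ O ∧ θ' w = θ (T w)) :
    dV h θ' z' = (Jac T z')ᵀ *ᵥ dV h θ (T z') := by
  have e : (fun w => h (θ' w)) =ᶠ[𝓝 z'] fun w => (fun y => h (θ y)) (T w) := by
    filter_upwards [hTe] with w hw
    rw [hw.2]
  have hO := hTe.self_of_nhds.1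
  have h1 : DifferentiableAt ℂ (fun y => h (θ y)) (T z') := (d.anh _ hO).differentiableAt
  have h2 : HasFDerivAt (fun w => (fun y => h (θ y)) (T w))
      ((fderiv ℂ (fun y => h (θ y)) (T z')).comp (fderiv ℂ T z')) z' :=
    HasFDerivAt.comp z' (g := fun y => h (θ y)) h1.hasFDerivAt hT.self_of_nhds.hasFDerivAt
  funext i
  show fderiv ℂ (fun w => h (θ' w)) z' (EuclideanSpace.single i 1) = _
  rw [e.fderiv_eq, h2.fderiv]
  show fderiv ℂ (fun y => h (θ y)) (T z') (fderiv ℂ T z' (EuclideanSpace.single i 1)) = _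
  have h3 : fderiv ℂ T z' (EuclideanSpace.single i 1) =
      ∑ a, Jac T z' a i • (EuclideanSpace.single a (1 : ℂ) : Cn 2) := by
    ext k
    fin_cases k <;> simp [Jac]
  rw [h3, map_sum]
  simp only [map_smul, smul_eq_mul, Matrix.mulVec, dotProduct, Matrix.transpose_apply]
  rfl

theorem chg (d : LD u φ h θ O) {θ' : Cn 2 → E3} {z' : Cn 2} {T : Cn 2 → Cn 2}
    (hT : ∀ᶠ w in 𝓝 z', DifferentiableAt ℂ T w)
    (hTe : ∀ᶠ w in 𝓝 z', T w ∈ O ∧ θ' w = θ (T w)) (hdet : (Jac T z').det ≠ 0) :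
    Chg (HO u φ θ') (dV h θ') (HO u φ θ) (dV h θ) T (FT T) z' := by
  have hJ := fun S S' => J_hol hT S S'
  have hJd : ∀ᶠ w in 𝓝 z', (Jac T w).det ≠ 0 := by
    have h1 : ContinuousAt (fun w => (Jac T w).det) z' := by
      have e : (fun w => (Jac T w).det) =
          fun w => Jac T w 0 0 * Jac T w 1 1 - Jac T w 0 1 * Jac T w 1 0 :=
        funext fun w => Matrix.det_fin_two _
      rw [e]
      exact (((hJ 0 0).self_of_nhds.mul (hJ 1 1).self_of_nhds).sub
        ((hJ 0 1).self_of_nhds.mul (hJ 1 0).self_of_nhds)).continuousAt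
    exact h1.eventually_ne hdet
  refine ⟨hT, ?_, ?_, ?_, ?_⟩
  · -- holomorphy
    have e : ∀ S S', (fun w => FT T w S S') = fun w =>
        ((Jac T w).det)⁻¹ * ((Jac T w)ᵀ).adjugate S S' := by
      intro S S'
      funext w
      unfold FT
      rw [Matrix.inv_def, Ring.inverse_eq_inv, Matrix.det_transpose]
      rfl
    intro S S'
    rw [e S S']
    filter_upwards [hJ 0 0, hJ 0 1, hJ 1 0, hJ 1 1, hJd] with w a b c e' hd
    have hdd : DifferentiableAt ℂ (fun w => (Jac T w).det) w := by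
      have e : (fun w => (Jac T w).det) =
          fun w => Jac T w 0 0 * Jac T w 1 1 - Jac T w 0 1 * Jac T w 1 0 :=
        funext fun w => Matrix.det_fin_two _
      rw [e]
      exact (a.fun_mul e').fun_sub (b.fun_mul c)
    refine (hdd.inv hd).mul ?_
    simp only [Matrix.adjugate_fin_two]
    fin_cases S <;> fin_cases S' <;> simp <;> assumption
  · unfold FT
    rw [Matrix.det_nonsing_inv, Ring.inverse_eq_inv, Matrix.det_transpose]
    exact inv_ne_zero hdet
  · filter_upwards [eventually_eventually_nhds.2 hTe, eventually_eventually_nhds.2 hT, hJd]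
      with w hw hw' hd
    obtain ⟨a1, a2⟩ := hess_trans hw' hw (a := u) (d.su _ hw.self_of_nhds.1)
    show ((Real.exp (-φ (θ' w)) : ℝ) : ℂ) • (cH (fun z => u (θ' z)) w)⁻¹ = _
    have hJt : ((Jac T w)ᵀ).det ≠ 0 := by rwa [Matrix.det_transpose]
    have hJc : ((Jac T w).map conj).det ≠ 0 := by
      have : ((Jac T w).map conj).det = conj (Jac T w).det := by
        rw [RingHom.map_det]
        rfl
      rw [this]
      exact (map_ne_zero _).2 hd
    rw [cH_eq_hess a1, a2, hw.self_of_nhds.2]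
    unfold pbk FT HO
    rw [cH_eq_hess (d.su _ hw.self_of_nhds.1), Matrix.mul_inv_rev, Matrix.mul_inv_rev,
      Matrix.conjTranspose_nonsing_inv]
    have e2 : ((Jac T w)ᵀ)ᴴ = (Jac T w).map conj := by
      ext i j
      simp
    rw [e2, Matrix.mul_smul, Matrix.smul_mul, Matrix.mul_assoc]
  · filter_upwards [eventually_eventually_nhds.2 hTe, eventually_eventually_nhds.2 hT, hJd]
      with w hw hw' hd
    have hJt : IsUnit ((Jac T w)ᵀ).det := by
      rw [Matrix.det_transpose]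
      exact isUnit_iff_ne_zero.2 hd
    rw [dV_trans d hw' hw, FT, Matrix.mulVec_mulVec, Matrix.nonsing_inv_mul _ hJt,
      Matrix.one_mulVec]

/-- **`oxd` in a parametrisation** -/
theorem oxd_eq (hP : Par (n := 2) f s θ O) (d : LD u φ h θ O) {z : Cn 2} (hz : z ∈ O)
    (hf : AnalyticAt ℂ f (θ z)) (h0 : fderiv ℂ f (θ z) ≠ 0)
    (hχ : ContDiffAt ℝ ∞ (fun z => χ (θ z)) z) (hne : dV h θ z ≠ 0) :
    oxd f u φ h χ (θ z) * eta2a (n := 2) f θ z =
      (C2F1_625.pd (cH (fun z => χ (θ z)) z) (Gm (HO u φ θ) (dV h θ) z)).re := by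
  refine dns_eq (D := fun θ z =>
    (C2F1_625.pd (cH (fun z => χ (θ z)) z) (Gm (HO u φ θ) (dV h θ) z)).re) hP hz hf h0 ?_
  intro θ' z' T hT hTz hTe hdet
  obtain ⟨a1, a2⟩ := hess_trans hT hTe (a := χ) (by rw [hTz]; exact hχ)
  have hc := chg (z' := z') d hT hTe hdet
  have hb : BV (HO u φ θ) (dV h θ) (T z') := by rw [hTz]; exact bv d hz
  have e1 := hc.gm_eq hb (by rw [hTz]; exact hne)
  show (C2F1_625.pd (cH (fun z => χ (θ' z)) z') (Gm (HO u φ θ') (dV h θ') z')).re = _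
  rw [cH_eq_hess a1, cH_eq_hess hχ, a2, e1, pd_pbk, hTz, Complex.mul_conj,
    Complex.normSq_eq_norm_sq, Complex.re_ofReal_mul]

open Classical in
/-- `oxd = 0` where `χ` is locally constant -/
theorem oxd_zero {x : E3} {c : ℝ} (hb : ∀ᶠ y in 𝓝 x, χ y = c) : oxd f u φ h χ x = 0 := by
  unfold oxd dns
  split_ifs with hx
  · obtain ⟨h1, h2, h3⟩ := hx.choose_spec
    have hc : ContinuousAt hx.choose.1 hx.choose.2.2 :=
      h1.hol.continuousOn.continuousAt (h1.isOpen.mem_nhds h2)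
    have h5 : Tendsto hx.choose.1 (𝓝 hx.choose.2.2) (𝓝 x) := by
      have := hc.tendsto
      rwa [h3] at this
    have h4 : (fun z => χ (hx.choose.1 z)) =ᶠ[𝓝 hx.choose.2.2] fun _ => c := h5.eventually hb
    have h6 : cH (fun z => χ (hx.choose.1 z)) hx.choose.2.2 = 0 := by
      rw [KEl_835.cH_congr h4]
      ext i j
      simp [cH, Crest.Agent.R273.YauDefs_635.D2]
    change (C2F1_625.pd (cH (fun z => χ (hx.choose.1 z)) hx.choose.2.2) _).re / _ = 0
    rw [h6]
    simp [C2F1_625.pd]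
  · rfl

/-! ### `dh ≠ 0` on the level -/

theorem exists_lift (hP : Par (n := 2) f s θ O) {z : Cn 2} (hz : z ∈ O)
    (hf : DifferentiableAt ℂ f (θ z)) (h0 : fderiv ℂ f (θ z) ≠ 0) {v : E3}
    (hv : fderiv ℂ f (θ z) v = 0) : ∃ w : Cn 2, fderiv ℂ θ z w = v := by
  set A : Cn 2 →ₗ[ℂ] E3 := (fderiv ℂ θ z : Cn 2 →ₗ[ℂ] E3) with hA
  set B : E3 →ₗ[ℂ] ℂ := (fderiv ℂ f (θ z) : E3 →ₗ[ℂ] ℂ) with hB
  have hinj : Function.Injective A := by
    refine (injective_iff_map_eq_zero A).2 fun w hw => hP.imm z hz w hw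
  have hle : LinearMap.range A ≤ LinearMap.ker B := by
    rintro _ ⟨w, rfl⟩
    exact hP.ker hz hf w
  have h1 : Module.finrank ℂ (LinearMap.range A) = 2 := by
    rw [LinearMap.finrank_range_of_inj hinj]
    simp
  have hs : Function.Surjective B := by
    have hBne : B ≠ 0 := fun h => h0 (by ext1 x; exact LinearMap.congr_fun h x)
    exact LinearMap.surjective hBne
  have h2 : Module.finrank ℂ (LinearMap.ker B) = 2 := by
    have h3 := B.finrank_range_add_finrank_ker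
    rw [LinearMap.range_eq_top.2 hs, finrank_top, Module.finrank_self] at h3
    have h4 : Module.finrank ℂ E3 = 3 := by simp
    omega
  have h3 : LinearMap.range A = LinearMap.ker B :=
    Submodule.eq_of_le_of_finrank_eq hle (h1.trans h2.symm)
  have h4 : v ∈ LinearMap.ker B := hv
  rw [← h3] at h4
  exact h4

theorem dV_apply (hP : Par (n := 2) f s θ O) {z : Cn 2} (hz : z ∈ O)
    (hh : DifferentiableAt ℂ h (θ z)) (w : Cn 2) :
    fderiv ℂ h (θ z) (fderiv ℂ θ z w) = ∑ i, w i * dV h θ z i := by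
  have h1 : fderiv ℂ (fun z => h (θ z)) z = (fderiv ℂ h (θ z)).comp (fderiv ℂ θ z) :=
    (HasFDerivAt.comp z (g := h) hh.hasFDerivAt (hP.diffAt hz).hasFDerivAt).fderiv
  have h2 : w = ∑ i, w i • (EuclideanSpace.single i (1 : ℂ) : Cn 2) := by
    ext k
    fin_cases k <;> simp
  have h3 : fderiv ℂ h (θ z) (fderiv ℂ θ z w) = fderiv ℂ (fun z => h (θ z)) z w := by
    rw [h1]
    rfl
  rw [h3]
  conv_lhs => rw [h2]
  rw [map_sum]
  simp only [map_smul, smul_eq_mul]
  rfl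

theorem dV_ne_iff (hP : Par (n := 2) f s θ O) {z : Cn 2} (hz : z ∈ O)
    (hf : DifferentiableAt ℂ f (θ z)) (h0 : fderiv ℂ f (θ z) ≠ 0)
    (hh : DifferentiableAt ℂ h (θ z)) :
    dV h θ z ≠ 0 ↔ ∃ v, fderiv ℂ f (θ z) v = 0 ∧ fderiv ℂ h (θ z) v ≠ 0 := by
  constructor
  · intro hne
    by_contra hcon
    push Not at hcon
    apply hne
    funext i
    have h1 := dV_apply hP hz hh (EuclideanSpace.single i 1)
    rw [hcon _ (hP.ker hz hf _)] at h1
    simpa [PiLp.single_apply] using h1.symm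
  · rintro ⟨v, hv, hv'⟩ hV
    obtain ⟨w, rfl⟩ := exists_lift hP hz hf h0 hv
    apply hv'
    rw [dV_apply hP hz hh w, hV]
    simp

theorem dV_ne_of_fderiv {z : Cn 2} (h0 : fderiv ℂ (fun z => h (θ z)) z ≠ 0) : dV h θ z ≠ 0 := by
  intro hV
  apply h0
  ext w
  have h2 : w = ∑ i, w i • (EuclideanSpace.single i (1 : ℂ) : Cn 2) := by
    ext k
    fin_cases k <;> simp
  rw [h2, map_sum]
  refine Finset.sum_eq_zero fun i _ => ?_
  rw [map_smul]
  have h3 : fderiv ℂ (fun z => h (θ z)) z (EuclideanSpace.single i 1) = 0 := congrFun hV i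
  rw [h3, smul_zero]

end

end Crest.Agent.R257.OxCv1_397
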