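import Crest.Agent.R257.Ked4_397

/-!
# R257 (S0395), leaf OxCvStmt (helper397), part 2: calculus of convergent families

* `CI.mono`, `CI.add`, `CI.prodMk`, `CI.comp` : closure of `CI` under sums, pairs, smooth maps
* `CL l z F F₀` : `CI` near `z`; `CL.cc`, `CL.mul`, `CL.inv`, `CL.log`, `CL.dS`, `CL.hess`, ...
-/

set_option autoImplicit false
set_option linter.unusedSectionVars false

open Set Filter Topology Complex
open scoped ContDiff Matrix ComplexConjugate ComplexOrder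

namespace Crest.Agent.R257.OxCv2_397

open Crest.Agent.R275.Geo Crest.Agent.R275.EDR890
open Crest.Agent.R273.Fock_243 Crest.Agent.R273.Calc_243
open Crest.Agent.R273.Hess_333 Crest.Agent.R273.HessB_333
open Crest.Agent.R257.KED_952 (PP)
open Crest.Agent.R257.Ked3_397 Crest.Agent.R257.Ked4_397

noncomputable section

variable {l : Filter PP} {O O' : Set (Cn 2)} {z : Cn 2}
variable {E : Type} [NormedAddCommGroup E] [NormedSpace ℝ E]
  {G : Type} [NormedAddCommGroup G] [NormedSpace ℝ G]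

theorem CI.mono {F : PP → Cn 2 → E} {F₀ : Cn 2 → E} (h : CI l O F F₀) (hO : O' ⊆ O) :
    CI l O' F F₀ :=
  ⟨h.sm.mono fun _ hτ => hτ.mono hO, h.sm0.mono hO, fun k z hz => h.cv k z (hO hz)⟩

theorem CI.add (hO : IsOpen O) {F H : PP → Cn 2 → E} {F₀ H₀ : Cn 2 → E} (h : CI l O F F₀)
    (h' : CI l O H H₀) : CI l O (fun τ y => F τ y + H τ y) (fun y => F₀ y + H₀ y) where
  sm := by filter_upwards [h.sm, h'.sm] with τ a b using a.add b
  sm0 := h.sm0.add h'.sm0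
  cv k z hz := by
    have h1 : CC l (fun τ y => iteratedFDeriv ℝ k (F τ) y + iteratedFDeriv ℝ k (H τ) y)
        (fun y => iteratedFDeriv ℝ k F₀ y + iteratedFDeriv ℝ k H₀ y) z :=
      Tendsto.add (h.cv k z hz) (h'.cv k z hz)
    have key : ∀ (f g : Cn 2 → E), ContDiffOn ℝ ∞ f O → ContDiffOn ℝ ∞ g O → ∀ y ∈ O,
        iteratedFDeriv ℝ k f y + iteratedFDeriv ℝ k g y =
          iteratedFDeriv ℝ k (fun y => f y + g y) y := by
      intro f g hf hg y hy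
      have a := (hf.contDiffAt (hO.mem_nhds hy)).of_le
        (show (k : WithTop ℕ∞) ≤ ∞ by exact_mod_cast le_top)
      have b := (hg.contDiffAt (hO.mem_nhds hy)).of_le
        (show (k : WithTop ℕ∞) ≤ ∞ by exact_mod_cast le_top)
      exact (iteratedFDeriv_add_apply a b).symm
    refine h1.congrO hO hz ?_ (key _ _ h.sm0 h'.sm0)
    filter_upwards [h.sm, h'.sm] with τ a b using key _ _ a b

theorem CI.prodMk (hO : IsOpen O) {F : PP → Cn 2 → E} {F₀ : Cn 2 → E} {H : PP → Cn 2 → G}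
    {H₀ : Cn 2 → G} (h : CI l O F F₀) (h' : CI l O H H₀) :
    CI l O (fun τ y => (F τ y, H τ y)) (fun y => (F₀ y, H₀ y)) := by
  have h1 := CI.add hO (h.clm hO (ContinuousLinearMap.inl ℝ E G))
    (h'.clm hO (ContinuousLinearMap.inr ℝ E G))
  refine h1.congr hO (Eventually.of_forall fun τ y _ => ?_) fun y _ => ?_
  · simp
  · simp

theorem CI.comp_aux (hO : IsOpen O) (k : ℕ) : ∀ {E G : Type} [NormedAddCommGroup E]
    [NormedSpace ℝ E] [NormedAddCommGroup G] [NormedSpace ℝ G] {F : PP → Cn 2 → E}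
    {F₀ : Cn 2 → E} (_ : CI l O F F₀) {U : Set E} (_ : IsOpen U) {g : E → G}
    (_ : ContDiffOn ℝ ∞ g U) (_ : ∀ᶠ τ in l, ∀ y ∈ O, F τ y ∈ U) (_ : ∀ y ∈ O, F₀ y ∈ U),
    ∀ z ∈ O, CC l (fun τ => iteratedFDeriv ℝ k fun y => g (F τ y))
      (iteratedFDeriv ℝ k fun y => g (F₀ y)) z := by
  induction k with
  | zero =>
    intro E G _ _ _ _ F F₀ h U hU g hg hm hm0 z hz
    have h1 : CC l F F₀ z := h.cc hz
    have h2 : CC l (fun τ y => g (F τ y)) (fun y => g (F₀ y)) z :=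
      h1.comp ((hg.contDiffAt (hU.mem_nhds (hm0 z hz))).continuousAt)
    have h3 := (continuousMultilinearCurryFin0 ℝ (Cn 2) G).symm.continuous
    exact h3.continuousAt.tendsto.comp h2
  | succ k ih =>
    intro E G _ _ _ _ F F₀ h U hU g hg hm hm0 z hz
    set g' : E × (Cn 2 →L[ℝ] E) → (Cn 2 →L[ℝ] G) := fun q => (_root_.fderiv ℝ g q.1).comp q.2
      with hg'
    have hgs : ContDiffOn ℝ ∞ g' (U ×ˢ univ) := by
      have h1 : ContDiffOn ℝ ∞ (_root_.fderiv ℝ g) U := hg.fderiv_of_isOpen hU (m := ∞) le_rfl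
      exact (h1.comp contDiffOn_fst fun q hq => hq.1).clm_comp contDiffOn_snd
    have h1 := ih (CI.prodMk hO h (h.fderiv hO)) (hU.prod isOpen_univ) hgs
      (hm.mono fun τ hτ y hy => ⟨hτ y hy, mem_univ _⟩) (fun y hy => ⟨hm0 y hy, mem_univ _⟩) z hz
    have h2 := (continuousMultilinearCurryRightEquiv' ℝ k (Cn 2) G).symm.continuous
    have h3 : ∀ (f : Cn 2 → E), ContDiffOn ℝ ∞ f O → (∀ y ∈ O, f y ∈ U) → ∀ y ∈ O,
        (continuousMultilinearCurryRightEquiv' ℝ k (Cn 2) G).symm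
          (iteratedFDeriv ℝ k (fun y => g' (f y, _root_.fderiv ℝ f y)) y) =
            iteratedFDeriv ℝ (k + 1) (fun y => g (f y)) y := by
      intro f hf hfU y hy
      rw [iteratedFDeriv_succ_eq_comp_right, Function.comp_apply]
      have h4 : (fun y => g' (f y, _root_.fderiv ℝ f y)) =ᶠ[𝓝 y]
          fun y' => _root_.fderiv ℝ (fun y => g (f y)) y' := by
        filter_upwards [hO.mem_nhds hy] with w hw
        have h5 : HasFDerivAt g (_root_.fderiv ℝ g (f w)) (f w) :=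
          ((hg.contDiffAt (hU.mem_nhds (hfU w hw))).differentiableAt (by simp)).hasFDerivAt
        have h6 : HasFDerivAt f (_root_.fderiv ℝ f w) w :=
          ((hf.contDiffAt (hO.mem_nhds hw)).differentiableAt (by simp)).hasFDerivAt
        exact (h5.comp w h6).fderiv.symm
      rw [(h4.iteratedFDeriv ℝ k).eq_of_nhds]
    have h4 := h1.comp (g := (continuousMultilinearCurryRightEquiv' ℝ k (Cn 2) G).symm)
      h2.continuousAt
    refine h4.congrO hO hz ?_ (h3 _ h.sm0 hm0)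
    filter_upwards [h.sm, hm] with τ a b using h3 _ a b

theorem CI.comp (hO : IsOpen O) {F : PP → Cn 2 → E} {F₀ : Cn 2 → E} (h : CI l O F F₀)
    {U : Set E} (hU : IsOpen U) {g : E → G} (hg : ContDiffOn ℝ ∞ g U)
    (hm : ∀ᶠ τ in l, ∀ y ∈ O, F τ y ∈ U) (hm0 : ∀ y ∈ O, F₀ y ∈ U) :
    CI l O (fun τ y => g (F τ y)) (fun y => g (F₀ y)) where
  sm := by filter_upwards [h.sm, hm] with τ a b using hg.comp a b
  sm0 := hg.comp h.sm0 hm0
  cv k z hz := CI.comp_aux hO k h hU hg hm hm0 z hz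

/-! ### local version -/

/-- convergence of all derivatives near `z` -/
def CL (l : Filter PP) (z : Cn 2) (F : PP → Cn 2 → E) (F₀ : Cn 2 → E) : Prop :=
  ∃ O : Set (Cn 2), IsOpen O ∧ z ∈ O ∧ CI l O F F₀

theorem CI.cl {F : PP → Cn 2 → E} {F₀ : Cn 2 → E} (h : CI l O F F₀) (hO : IsOpen O)
    (hz : z ∈ O) : CL l z F F₀ := ⟨O, hO, hz, h⟩

theorem CL.cc {F : PP → Cn 2 → E} {F₀ : Cn 2 → E} (h : CL l z F F₀) : CC l F F₀ z := by
  obtain ⟨O, -, hz, h⟩ := h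
  exact h.cc hz

theorem CL.clm {F : PP → Cn 2 → E} {F₀ : Cn 2 → E} (h : CL l z F F₀) (L : E →L[ℝ] G) :
    CL l z (fun τ y => L (F τ y)) (fun y => L (F₀ y)) := by
  obtain ⟨O, hO, hz, h⟩ := h
  exact ⟨O, hO, hz, h.clm hO L⟩

theorem CL.prodMk {F : PP → Cn 2 → E} {F₀ : Cn 2 → E} {H : PP → Cn 2 → G} {H₀ : Cn 2 → G}
    (h : CL l z F F₀) (h' : CL l z H H₀) :
    CL l z (fun τ y => (F τ y, H τ y)) (fun y => (F₀ y, H₀ y)) := by
  obtain ⟨O, hO, hz, h⟩ := h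
  obtain ⟨O', hO', hz', h'⟩ := h'
  exact ⟨O ∩ O', hO.inter hO', ⟨hz, hz'⟩, CI.prodMk (hO.inter hO') (CI.mono h inter_subset_left)
    (CI.mono h' inter_subset_right)⟩

theorem CL.comp {F : PP → Cn 2 → E} {F₀ : Cn 2 → E} (h : CL l z F F₀) {U : Set E}
    (hU : IsOpen U) {g : E → G} (hg : ContDiffOn ℝ ∞ g U) (h0 : F₀ z ∈ U) :
    CL l z (fun τ y => g (F τ y)) (fun y => g (F₀ y)) := by
  obtain ⟨O, hO, hz, h⟩ := h
  have h1 : Tendsto (fun p : PP × Cn 2 => F p.1 p.2) (l ×ˢ 𝓝 z) (𝓝 (F₀ z)) := h.cc hz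
  have h2 := h1 (hU.mem_nhds h0)
  obtain ⟨A, hA, B, hB, hAB⟩ := Filter.mem_prod_iff.1 h2
  have h3 : ContinuousAt F₀ z := (h.sm0.contDiffAt (hO.mem_nhds hz)).continuousAt
  have h4 := h3 (hU.mem_nhds h0)
  obtain ⟨O', hO's, hO', hz'⟩ := mem_nhds_iff.1 (inter_mem (inter_mem hB h4) (hO.mem_nhds hz))
  refine ⟨O', hO', hz', CI.comp hO' (CI.mono h fun y hy => (hO's hy).2) hU hg ?_
    fun y hy => (hO's hy).1.2⟩
  filter_upwards [hA] with τ hτ y hy
  exact hAB (mk_mem_prod hτ (hO's hy).1.1)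

theorem CL.congr {F F' : PP → Cn 2 → E} {F₀ F₀' : Cn 2 → E} (h : CL l z F F₀) (hO : IsOpen O)
    (hz : z ∈ O) (he : ∀ᶠ τ in l, ∀ y ∈ O, F τ y = F' τ y) (h0 : ∀ y ∈ O, F₀ y = F₀' y) :
    CL l z F' F₀' := by
  obtain ⟨O', hO', hz', h⟩ := h
  refine ⟨O' ∩ O, hO'.inter hO, ⟨hz', hz⟩, (CI.mono h inter_subset_left).congr (hO'.inter hO)
    (he.mono fun τ hτ y hy => hτ y hy.2) fun y hy => h0 y hy.2⟩

theorem CL.congr' {F F' : PP → Cn 2 → E} {F₀ F₀' : Cn 2 → E} (h : CL l z F F₀)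
    (he : ∀ τ y, F τ y = F' τ y) (h0 : ∀ y, F₀ y = F₀' y) : CL l z F' F₀' := by
  have e : F = F' := funext fun τ => funext fun y => he τ y
  have e' : F₀ = F₀' := funext fun y => h0 y
  rw [← e, ← e']
  exact h

theorem CL.comp_univ {F : PP → Cn 2 → E} {F₀ : Cn 2 → E} (h : CL l z F F₀) {g : E → G}
    (hg : ContDiff ℝ ∞ g) : CL l z (fun τ y => g (F τ y)) (fun y => g (F₀ y)) :=
  CL.comp h isOpen_univ hg.contDiffOn (mem_univ _)

theorem CL.add {F H : PP → Cn 2 → E} {F₀ H₀ : Cn 2 → E} (h : CL l z F F₀) (h' : CL l z H H₀) :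
    CL l z (fun τ y => F τ y + H τ y) (fun y => F₀ y + H₀ y) :=
  CL.comp_univ (CL.prodMk h h') (g := fun q : E × E => q.1 + q.2) contDiff_add

theorem CL.sub {F H : PP → Cn 2 → E} {F₀ H₀ : Cn 2 → E} (h : CL l z F F₀) (h' : CL l z H H₀) :
    CL l z (fun τ y => F τ y - H τ y) (fun y => F₀ y - H₀ y) :=
  CL.comp_univ (CL.prodMk h h') (g := fun q : E × E => q.1 - q.2)
    (contDiff_fst.sub contDiff_snd)

theorem CL.neg {F : PP → Cn 2 → E} {F₀ : Cn 2 → E} (h : CL l z F F₀) :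
    CL l z (fun τ y => - F τ y) (fun y => - F₀ y) :=
  CL.comp_univ h (g := fun q : E => - q) contDiff_neg

theorem CL.mul {F H : PP → Cn 2 → ℂ} {F₀ H₀ : Cn 2 → ℂ} (h : CL l z F F₀) (h' : CL l z H H₀) :
    CL l z (fun τ y => F τ y * H τ y) (fun y => F₀ y * H₀ y) :=
  CL.comp_univ (CL.prodMk h h') (g := fun q : ℂ × ℂ => q.1 * q.2) contDiff_mul

theorem CL.rmul {F H : PP → Cn 2 → ℝ} {F₀ H₀ : Cn 2 → ℝ} (h : CL l z F F₀) (h' : CL l z H H₀) :
    CL l z (fun τ y => F τ y * H τ y) (fun y => F₀ y * H₀ y) :=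
  CL.comp_univ (CL.prodMk h h') (g := fun q : ℝ × ℝ => q.1 * q.2) contDiff_mul

theorem CL.inv {F : PP → Cn 2 → ℂ} {F₀ : Cn 2 → ℂ} (h : CL l z F F₀) (h0 : F₀ z ≠ 0) :
    CL l z (fun τ y => (F τ y)⁻¹) (fun y => (F₀ y)⁻¹) :=
  CL.comp h (isOpen_compl_singleton (x := (0 : ℂ))) (g := fun x : ℂ => x⁻¹)
    (fun _ hx => ((contDiffAt_inv ℝ hx).of_le le_top).contDiffWithinAt) h0

theorem CL.log {F : PP → Cn 2 → ℝ} {F₀ : Cn 2 → ℝ} (h : CL l z F F₀) (h0 : F₀ z ≠ 0) :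
    CL l z (fun τ y => Real.log (F τ y)) (fun y => Real.log (F₀ y)) :=
  CL.comp h (isOpen_compl_singleton (x := (0 : ℝ))) (g := Real.log)
    (fun _ hx => (Real.contDiffAt_log.2 hx).contDiffWithinAt) h0

theorem CL.conj {F : PP → Cn 2 → ℂ} {F₀ : Cn 2 → ℂ} (h : CL l z F F₀) :
    CL l z (fun τ y => conj (F τ y)) (fun y => conj (F₀ y)) :=
  CL.clm h (conjCLE : ℂ →L[ℝ] ℂ)

theorem CL.re {F : PP → Cn 2 → ℂ} {F₀ : Cn 2 → ℂ} (h : CL l z F F₀) :
    CL l z (fun τ y => (F τ y).re) (fun y => (F₀ y).re) := CL.clm h Complex.reCLM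

theorem CL.ofReal {F : PP → Cn 2 → ℝ} {F₀ : Cn 2 → ℝ} (h : CL l z F F₀) :
    CL l z (fun τ y => (F τ y : ℂ)) (fun y => (F₀ y : ℂ)) := CL.clm h Complex.ofRealCLM

theorem CL.dS {F : PP → Cn 2 → ℂ} {F₀ : Cn 2 → ℂ} (h : CL l z F F₀) (s : ℂ) (a : Fin 2) :
    CL l z (fun τ => dS s a (F τ)) (dS s a F₀) := by
  obtain ⟨O, hO, hz, h⟩ := h
  exact ⟨O, hO, hz, h.dS hO s a⟩

theorem CL.hess {v : PP → Cn 2 → ℝ} {v₀ : Cn 2 → ℝ} (h : CL l z v v₀) (a b : Fin 2) :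
    CL l z (fun τ y => hess (v τ) y a b) (fun y => hess v₀ y a b) := by
  obtain ⟨O, hO, hz, h⟩ := h
  exact ⟨O, hO, hz, h.hess hO a b⟩

/-- a family of constants -/
theorem CL.cst {c : PP → E} {c₀ : E} (h : Tendsto c l (𝓝 c₀)) :
    CL l z (fun τ _ => c τ) (fun _ => c₀) := by
  refine ⟨univ, isOpen_univ, mem_univ _, Eventually.of_forall fun τ => contDiffOn_const,
    contDiffOn_const, fun k z _ => ?_⟩
  rcases Nat.eq_zero_or_pos k with rfl | hk
  · have h3 := (continuousMultilinearCurryFin0 ℝ (Cn 2) E).symm.continuous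
    exact h3.continuousAt.tendsto.comp (h.comp tendsto_fst)
  · have e : ∀ (d : E) (y : Cn 2), iteratedFDeriv ℝ k (fun _ : Cn 2 => d) y = 0 := by
      intro d y
      rw [iteratedFDeriv_const_of_ne (Nat.pos_iff_ne_zero.1 hk)]
      rfl
    unfold CC
    simp only [e]
    exact tendsto_const_nhds

/-- matrices: common neighbourhood -/
theorem CL.common {K : PP → Cn 2 → Matrix (Fin 2) (Fin 2) ℂ} {K₀ : Cn 2 → Matrix (Fin 2) (Fin 2) ℂ}
    (h : ∀ a b, CL l z (fun τ y => K τ y a b) (fun y => K₀ y a b)) :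
    ∃ O : Set (Cn 2), IsOpen O ∧ z ∈ O ∧ ∀ a b, CI l O (fun τ y => K τ y a b)
      (fun y => K₀ y a b) := by
  choose W hW hzW hI using h
  refine ⟨⋂ a, ⋂ b, W a b, isOpen_iInter_of_finite fun a => isOpen_iInter_of_finite fun b =>
    hW a b, mem_iInter.2 fun a => mem_iInter.2 fun b => hzW a b, fun a b =>
    CI.mono (hI a b) ((iInter_subset _ a).trans (iInter_subset _ b))⟩

end

end Crest.Agent.R257.OxCv2_397
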