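import Crest.Agent.R257.OxCv1_397
import Crest.Agent.R257.OxCv2_397
import Crest.Agent.R257.Vol_397

/-!
# R257 (S0395), leaf OxCvStmt (helper397), part 3

* `cc_Gm` : convergence of the form `Γ`
* `cl_HO`, `cl_dV` : convergence of the metric and of the section
* `ctl_oxd` : `oxd` is continuous on a level where `dh ≠ 0` on `supp ∂∂̄χ`
* `ev_ne` : `dh ≠ 0` on the near levels between two radii
* `oxCvStmt`
-/

set_option autoImplicit false
set_option linter.unusedSectionVars false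

open Set Filter Topology Complex
open scoped ContDiff Matrix ComplexConjugate ComplexOrder

namespace Crest.Agent.R257.OxCv3_397

open Crest.Agent.R275.Geo Crest.Agent.R275.EDR890
open Crest.Agent.R273.Fock_243 Crest.Agent.R273.Calc_243
open Crest.Agent.R273.Bkn_243 Crest.Agent.R273.Pos_243 Crest.Agent.R273.BochA_101
open Crest.Agent.R273.BochB_101
open Crest.Agent.R273.BochC_101 Crest.Agent.R273.BochD_101
open Crest.Agent.R273.Hess_333 Crest.Agent.R273.HessB_333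
open Crest.Agent.R273.YauDefs_635 Crest.Agent.R273.YauMax_635
open Crest.Agent.R257.C2F2_625 Crest.Agent.R257.C2F3_625
open Crest.Agent.R257.C2F4_335 Crest.Agent.R257.C2F5_335
open Crest.Agent.R257.Defs_219
open Crest.Agent.R257.PN_835 (nsq)
open Crest.Agent.R257.Gram_835 Crest.Agent.R257.Aff_835
open Crest.Agent.R257.V1Defs_822 (LvlOK)
open Crest.Agent.R257.V1Pe_822 (continuous_nsq3)
open Crest.Agent.R257.KED_952 Crest.Agent.R257.KEG_952
open Crest.Agent.R257.Ked1_397 Crest.Agent.R257.Ked2_397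
open Crest.Agent.R257.Ked3_397 Crest.Agent.R257.Ked4_397
open Crest.Agent.R257.LossD_309 Crest.Agent.R257.OutB_309
open Crest.Agent.R257.OxCv1_397 Crest.Agent.R257.OxCv2_397

noncomputable section

variable {l : Filter PP} {z : Cn 2}

/-! ### the form `Γ` -/

section GmC

variable {K : PP → Cn 2 → Matrix (Fin 2) (Fin 2) ℂ} {K₀ : Cn 2 → Matrix (Fin 2) (Fin 2) ℂ}
  {V : PP → Cn 2 → Fin 2 → ℂ} {V₀ : Cn 2 → Fin 2 → ℂ}

theorem cl_hV (hK : ∀ a b, CL l z (fun τ y => K τ y a b) (fun y => K₀ y a b))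
    (hV' : ∀ i, CL l z (fun τ y => V τ y i) (fun y => V₀ y i)) :
    CL l z (fun τ y => hV (K τ) (V τ) y) (fun y => hV K₀ V₀ y) := by
  have h1 := ((hV' 0).conj.mul (((hK 0 0).mul (hV' 0)).add ((hK 0 1).mul (hV' 1)))).add
    ((hV' 1).conj.mul (((hK 1 0).mul (hV' 0)).add ((hK 1 1).mul (hV' 1))))
  refine h1.re.congr' (fun τ y => ?_) fun y => ?_
  · simp [hV, dotProduct, Matrix.mulVec, Fin.sum_univ_two]
  · simp [hV, dotProduct, Matrix.mulVec, Fin.sum_univ_two]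

theorem cl_det (hK : ∀ a b, CL l z (fun τ y => K τ y a b) (fun y => K₀ y a b)) :
    CL l z (fun τ y => (K τ y).det) (fun y => (K₀ y).det) := by
  refine (((hK 0 0).mul (hK 1 1)).sub ((hK 0 1).mul (hK 1 0))).congr' (fun τ y => ?_) fun y => ?_
  · rw [Matrix.det_fin_two]
  · rw [Matrix.det_fin_two]

theorem cl_inv (hK : ∀ a b, CL l z (fun τ y => K τ y a b) (fun y => K₀ y a b))
    (h0 : (K₀ z).det ≠ 0) (a b : Fin 2) :
    CL l z (fun τ y => (K τ y)⁻¹ a b) (fun y => (K₀ y)⁻¹ a b) := by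
  have hd := (cl_det hK).inv h0
  have e : ∀ (m : Matrix (Fin 2) (Fin 2) ℂ) (a b : Fin 2), m⁻¹ a b = m.det⁻¹ * m.adjugate a b := by
    intro m a b
    rw [Matrix.inv_def, Ring.inverse_eq_inv]
    rfl
  have key : CL l z (fun τ y => (K τ y).adjugate a b) (fun y => (K₀ y).adjugate a b) := by
    simp only [Matrix.adjugate_fin_two]
    fin_cases a <;> fin_cases b
    · exact (hK 1 1).congr' (fun _ _ => by simp) fun _ => by simp
    · exact (hK 0 1).neg.congr' (fun _ _ => by simp) fun _ => by simp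
    · exact (hK 1 0).neg.congr' (fun _ _ => by simp) fun _ => by simp
    · exact (hK 0 0).congr' (fun _ _ => by simp) fun _ => by simp
  exact (hd.mul key).congr' (fun τ y => (e _ a b).symm) fun y => (e _ a b).symm

theorem cc_vec (hV' : ∀ i, CL l z (fun τ y => V τ y i) (fun y => V₀ y i)) : CC l V V₀ z :=
  tendsto_pi_nhds.2 fun i => (hV' i).cc

theorem cc_quad {R : PP → Cn 2 → Matrix (Fin 2) (Fin 2) ℂ} {R₀ : Cn 2 → Matrix (Fin 2) (Fin 2) ℂ}
    (h : CC l R R₀ z) (h' : CC l V V₀ z) :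
    CC l (fun τ y => star (V τ y) ⬝ᵥ (R τ y *ᵥ V τ y)) (fun y => star (V₀ y) ⬝ᵥ (R₀ y *ᵥ V₀ y))
      z := by
  have hc : Continuous fun q : Matrix (Fin 2) (Fin 2) ℂ × (Fin 2 → ℂ) =>
      star q.2 ⬝ᵥ (q.1 *ᵥ q.2) :=
    continuous_snd.star.dotProduct (continuous_fst.matrix_mulVec continuous_snd)
  exact Tendsto.comp (g := fun q : Matrix (Fin 2) (Fin 2) ℂ × (Fin 2 → ℂ) =>
    star q.2 ⬝ᵥ (q.1 *ᵥ q.2)) (f := fun p : PP × Cn 2 => (R p.1 p.2, V p.1 p.2))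
    (hc.tendsto (R₀ z, V₀ z)) (Tendsto.prodMk_nhds h h')

theorem cc_Gm (hK : ∀ a b, CL l z (fun τ y => K τ y a b) (fun y => K₀ y a b))
    (hV' : ∀ i, CL l z (fun τ y => V τ y i) (fun y => V₀ y i)) (hP : (K₀ z).PosDef)
    (h0 : V₀ z ≠ 0) : CC l (fun τ => Gm (K τ) (V τ)) (Gm K₀ V₀) z := by
  have hv := cl_hV hK hV'
  have hpos : 0 < hV K₀ V₀ z := hV_pos hP h0
  have hlg := hv.log hpos.ne'
  have hdr : 0 < (K₀ z).det.re := det_re_pos'' hP
  have hld := (cl_det hK).re.log hdr.ne'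
  have hdet : (K₀ z).det ≠ 0 := hP.det_pos.ne'
  obtain ⟨O, hO, hz, hKI⟩ := CL.common hK
  have c1 : CC l (fun τ y => hess (fun y => Real.log (K τ y).det.re) y)
      (fun y => hess (fun y => Real.log (K₀ y).det.re) y) z :=
    cc_mat fun a b => (hld.hess a b).cc
  have c2' : CC l (fun τ y => hess (fun y => Real.log (hV (K τ) (V τ) y)) y)
      (fun y => hess (fun y => Real.log (hV K₀ V₀ y)) y) z :=
    cc_mat fun a b => (hlg.hess a b).cc
  have c3 : CC l (fun τ => bb (K τ) (V τ)) (bb K₀ V₀) z := by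
    refine cc_mat fun c d => ?_
    have e1 := (hlg.hess c d).cc
    have e2 := cc_quad (cc_rm hO hKI hz hdet c d) (cc_vec hV')
    have e3 := CC.div e2 hv.ofReal.cc (Complex.ofReal_ne_zero.2 hpos.ne')
    exact Tendsto.add e1 e3
  have c4 : CC l (fun τ y => (Real.log (hV (K τ) (V τ) y) : ℂ)) (fun y => (Real.log (hV K₀ V₀ y) : ℂ))
      z := hlg.ofReal.cc
  exact (Tendsto.smul c4 (Tendsto.sub c1 c2')).add c3

end GmC

/-! ### the metric and the section -/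

section fam

variable {Φ : E3 × PP → ℂ} {τ₀ : PP} {r : ℝ} {O : Set (Cn 2)} {N : Set PP} {Θ : Cn 2 × PP → E3}

theorem cl_HO {w : PP → E3 → ℝ} {u : E3 → ℝ} (hO : IsOpen O)
    (hI : CI l O (fun τ y => w τ (Θ (y, τ))) (fun y => u (Θ (y, τ₀)))) (hz : z ∈ O)
    (h0 : (cH (fun y => u (Θ (y, τ₀))) z).det ≠ 0) (a b : Fin 2) :
    CL l z (fun τ y => HO (w τ) (fun _ => 0) (fun y => Θ (y, τ)) y a b)
      (fun y => HO u (fun _ => 0) (fun y => Θ (y, τ₀)) y a b) := by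
  have h1 : ∀ a b, CL l z (fun τ y => cH (fun y => w τ (Θ (y, τ))) y a b)
      (fun y => cH (fun y => u (Θ (y, τ₀))) y a b) := by
    intro a b
    refine CL.congr ⟨O, hO, hz, hI.hess hO a b⟩ hO hz ?_ fun y hy => ?_
    · filter_upwards [hI.sm] with τ hτ y hy
      rw [cH_eq_hess (hτ.contDiffAt (hO.mem_nhds hy))]
    · rw [cH_eq_hess (hI.sm0.contDiffAt (hO.mem_nhds hy))]
  refine (cl_inv h1 h0 a b).congr' (fun τ y => ?_) fun y => ?_
  · simp [HO]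
  · simp [HO]

theorem ptb_an {h : E3 → ℂ} {x a : E3} (hh : AnalyticAt ℂ h x) : AnalyticAt ℂ (ptb h a) x := by
  have h1 : AnalyticAt ℂ (fun x : E3 => ∑ i, a i * x i) x := by
    refine Finset.analyticAt_fun_sum _ fun i _ => analyticAt_const.mul ?_
    exact (ContinuousLinearMap.proj (R := ℂ) (φ := fun _ : Fin 3 => ℂ) i).analyticAt x
  exact hh.add h1

theorem cl_dV (hl : l ≤ 𝓝 τ₀) (hC : Chart Φ r τ₀ O N Θ) {h : E3 → ℂ}
    (hh : ∀ x, nsq x < r ^ 2 → AnalyticAt ℂ h x) {a : PP → E3} (ha : Tendsto a l (𝓝 0))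
    (hz : z ∈ O) (i : Fin 2) :
    CL l z (fun τ y => dV (ptb h (a τ)) (fun y => Θ (y, τ)) y i)
      (fun y => dV h (fun y => Θ (y, τ₀)) y i) := by
  have hP := hC.par τ₀ (mem_of_mem_nhds hC.nhd)
  have hO := hP.par.isOpen
  have hsm : ContDiffOn ℝ ∞ Θ (O ×ˢ N) := fun q hq =>
    (((hC.an q hq).contDiffAt (n := ∞)).restrict_scalars ℝ).contDiffWithinAt
  have h1 : CL l z (fun τ y => h (Θ (y, τ))) (fun y => h (Θ (y, τ₀))) := by
    refine ⟨O, hO, hz, CI.joint (f := fun q => h (Θ q)) hl hO hC.nhd fun q hq => ?_⟩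
    have e1 : AnalyticAt ℂ (fun q => h (Θ q)) q :=
      AnalyticAt.fun_comp (g := h) (hh _ ((hC.par q.2 hq.2).lt _ hq.1)) (hC.an q hq)
    exact ((e1.contDiffAt (n := ∞)).restrict_scalars ℝ).contDiffWithinAt
  have h2 : ∀ k : Fin 3, CL l z (fun τ y => a τ k * Θ (y, τ) k) (fun _ => (0 : ℂ)) := by
    intro k
    have e1 : CL l z (fun τ _ => a τ k) (fun _ => (0 : ℂ)) :=
      CL.cst ((tendsto_pi_nhds.1 ha) k)
    have e2 : CL l z (fun τ y => Θ (y, τ) k) (fun y => Θ (y, τ₀) k) := by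
      refine ⟨O, hO, hz, CI.joint (f := fun q => Θ q k) hl hO hC.nhd ?_⟩
      exact contDiffOn_pi.1 hsm k
    exact (e1.mul e2).congr' (fun _ _ => rfl) fun y => by simp
  have h3 := h1.add (((h2 0).add (h2 1)).add (h2 2))
  have h4 := h3.dS (-I) i
  refine h4.congr hO hz ?_ fun y hy => ?_
  · filter_upwards [hl hC.nhd] with τ hτ y hy
    have hPτ := hC.par τ hτ
    have e1 : DifferentiableAt ℂ (fun y => ptb h (a τ) (Θ (y, τ))) y :=
      DifferentiableAt.comp y (g := ptb h (a τ)) (ptb_an (hh _ (hPτ.lt y hy))).differentiableAt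
        (hPτ.par.diffAt hy)
    have e2 : (fun y => h (Θ (y, τ)) + (a τ 0 * Θ (y, τ) 0 + a τ 1 * Θ (y, τ) 1 +
        a τ 2 * Θ (y, τ) 2)) = fun y => ptb h (a τ) (Θ (y, τ)) := by
      funext y
      unfold ptb
      rw [Fin.sum_univ_three]
    show dS (-I) i (fun y => h (Θ (y, τ)) + (a τ 0 * Θ (y, τ) 0 + a τ 1 * Θ (y, τ) 1 +
        a τ 2 * Θ (y, τ) 2)) y = _
    rw [e2]
    exact wd_hol' e1 i
  · have e1 : DifferentiableAt ℂ (fun y => h (Θ (y, τ₀))) y :=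
      DifferentiableAt.comp y (g := h) (hh _ (hP.lt y hy)).differentiableAt (hP.par.diffAt hy)
    have e2 : (fun y => h (Θ (y, τ₀)) + ((0 : ℂ) + 0 + 0)) = fun y => h (Θ (y, τ₀)) := by
      funext y
      ring
    show dS (-I) i (fun y => h (Θ (y, τ₀)) + ((0 : ℂ) + 0 + 0)) y = _
    rw [e2]
    exact wd_hol' e1 i

end fam

/-! ### continuity on one level -/

section one

variable {f : E3 → ℂ} {s : ℂ} {r : ℝ} {u χ : E3 → ℝ} {h : E3 → ℂ} {θ : Cn 2 → E3}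
  {O : Set (Cn 2)}

theorem ld_of (hu : KEon f s r u) (hh : ∀ x, nsq x < r ^ 2 → AnalyticAt ℂ h x)
    (hP : PE f s r θ O) : LD u (fun _ => 0) h θ O where
  op := hP.par.isOpen
  hol := hP.par.hol
  su y hy := (hu.sm θ O hP).contDiffAt (hP.par.isOpen.mem_nhds hy)
  pu y hy := by
    have h1 := (hu.sm θ O hP).contDiffAt (hP.par.isOpen.mem_nhds hy)
    rw [cH_eq_hess h1]
    exact posDef_hess h1 (hu.pos θ O hP y hy)
  sφ _ _ := contDiffAt_const
  ah y hy := hh _ (hP.lt y hy)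

/-- continuity at a point where `dh ≠ 0` -/
theorem contAt_oxd (hL : LvlOK f s r) (hu : KEon f s r u) (hχ : ContDiff ℝ ∞ χ)
    (hh : ∀ x, nsq x < r ^ 2 → AnalyticAt ℂ h x) (hP : PE f s r θ O) {z : Cn 2} (hz : z ∈ O)
    (hne : dV h θ z ≠ 0) :
    ContinuousAt (fun y => oxd f u (fun _ => 0) h χ (θ y)) z := by
  have d := ld_of hu hh hP
  have hO := hP.par.isOpen
  have hb := bv d hz
  have hχθ : ContDiffOn ℝ ∞ (fun y => χ (θ y)) O := contDiffOn_par hP.par hχ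
  have hpos : ∀ y ∈ O, 0 < eta2a (n := 2) f θ y := fun y hy =>
    Loc_835.eta2a_pos hP.par hy (hL.sm _ (hP.ne y hy) (hP.lt y hy) (hP.par.lvl y hy))
  have hetc : ContinuousAt (fun y => eta2a (n := 2) f θ y) z := by
    obtain ⟨q, hq, hq0, hqe⟩ := eta2a_norm (n := 2) hP.par hz (hL.an _ (hP.lt z hz))
      (hL.sm _ (hP.ne z hz) (hP.lt z hz) (hP.par.lvl z hz))
    exact (hq.continuousAt.norm.pow 2).congr hqe.symm
  have c1 : ContinuousAt (cH (fun y => χ (θ y))) z :=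
    cc_const (cc_cH (l := pure (0 : PP)) hO (CI.const hO hχθ 0) hz)
  have c2 : ContinuousAt (Gm (HO u (fun _ => 0) θ) (dV h θ)) z :=
    tendsto_pi_nhds.2 fun a => tendsto_pi_nhds.2 fun b => (hb.sm_Gm hne a b).continuousAt
  have c3 : ContinuousAt (fun y => (C2F1_625.pd (cH (fun y => χ (θ y)) y)
      (Gm (HO u (fun _ => 0) θ) (dV h θ) y)).re) z :=
    Complex.continuous_re.continuousAt.comp
      (ContinuousAt.comp (g := fun q : Matrix (Fin 2) (Fin 2) ℂ × Matrix (Fin 2) (Fin 2) ℂ =>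
        C2F1_625.pd q.1 q.2) (f := fun y => (cH (fun y => χ (θ y)) y,
        Gm (HO u (fun _ => 0) θ) (dV h θ) y)) cont_pd.continuousAt (c1.prodMk c2))
  refine (c3.div hetc (hpos z hz).ne').congr ?_
  filter_upwards [hO.mem_nhds hz, hb.ne_ev hne] with y hy hne'
  exact (eq_div_of_mul_eq (hpos y hy).ne' (oxd_eq hP.par d hy (hL.an _ (hP.lt y hy))
    (hL.sm _ (hP.ne y hy) (hP.lt y hy) (hP.par.lvl y hy))
    (hχθ.contDiffAt (hO.mem_nhds hy)) hne')).symm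

theorem contAt_zero (hP : PE f s r θ O) {z : Cn 2} (hz : z ∈ O) {c : ℝ}
    (hc : ∀ᶠ y in 𝓝 (θ z), χ y = c) :
    ContinuousAt (fun y => oxd f u (fun _ => 0) h χ (θ y)) z := by
  have h1 : ContinuousAt θ z := (hP.par.diffAt hz).continuousAt
  have h2 : (fun _ => (0 : ℝ)) =ᶠ[𝓝 z] fun y => oxd f u (fun _ => 0) h χ (θ y) := by
    filter_upwards [h1.eventually hc.eventually_nhds] with y hy
    exact (oxd_zero hy).symm
  exact continuousAt_const.congr h2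

/-- `dh ≠ 0` on the level between two radii -/
def NeB (f : E3 → ℂ) (s : ℂ) (h : E3 → ℂ) (r₁ r₂ : ℝ) : Prop :=
  ∀ x, r₁ ^ 2 ≤ nsq x → nsq x ≤ r₂ ^ 2 → f x = s →
    ∃ v, fderiv ℂ f x v = 0 ∧ fderiv ℂ h x v ≠ 0

theorem ctl_oxd (hL : LvlOK f s r) (hu : KEon f s r u) (hχ : ContDiff ℝ ∞ χ)
    (hh : ∀ x, nsq x < r ^ 2 → AnalyticAt ℂ h x) {r₁ r₂ : ℝ} {c₁ c₂ : ℝ}
    (h1 : ∀ x, nsq x ≤ r₁ ^ 2 → ∀ᶠ y in 𝓝 x, χ y = c₁)
    (h2 : ∀ x, r₂ ^ 2 ≤ nsq x → ∀ᶠ y in 𝓝 x, χ y = c₂) (hne : NeB f s h r₁ r₂) :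
    CtL f s r (oxd f u (fun _ => 0) h χ) := by
  intro θ O hP z hz
  refine ContinuousAt.continuousWithinAt ?_
  by_cases e1 : nsq (θ z) ≤ r₁ ^ 2
  · exact contAt_zero hP hz (h1 _ e1)
  by_cases e2 : r₂ ^ 2 ≤ nsq (θ z)
  · exact contAt_zero hP hz (h2 _ e2)
  push Not at e1 e2
  refine contAt_oxd hL hu hχ hh hP hz ?_
  exact (dV_ne_iff hP.par hz (hL.an _ (hP.lt z hz)).differentiableAt
    (hL.sm _ (hP.ne z hz) (hP.lt z hz) (hP.par.lvl z hz)) (hh _ (hP.lt z hz)).differentiableAt).2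
    (hne _ e1.le e2.le (hP.par.lvl z hz))

theorem neb_of_noz (hL : LvlOK f 0 r) (hh : ∀ x, nsq x < r ^ 2 → AnalyticAt ℂ h x)
    (hN : NoZ f r h) {x : E3} (hx : f x = 0) (h0 : x ≠ 0) (hr : nsq x < r ^ 2) :
    ∃ v, fderiv ℂ f x v = 0 ∧ fderiv ℂ h x v ≠ 0 := by
  obtain ⟨θ, O, z, hP, hz, rfl⟩ := exists_pe (hL.an x hr) (hL.sm x h0 hr hx) hx h0 hr
  exact (dV_ne_iff hP.par hz (hL.an _ (hP.lt z hz)).differentiableAt
    (hL.sm _ (hP.ne z hz) (hP.lt z hz) (hP.par.lvl z hz)) (hh _ (hP.lt z hz)).differentiableAt).1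
    (dV_ne_of_fderiv (hN θ O hP z hz))

end one

/-! ### the near levels -/

section near

variable {Φ : E3 × PP → ℂ} {τ₀ : PP} {r : ℝ} {h : E3 → ℂ}

theorem fderiv_ptb {x a : E3} (hh : DifferentiableAt ℂ h x) (v : E3) :
    fderiv ℂ (ptb h a) x v = fderiv ℂ h x v + ∑ i, a i * v i := by
  have h1 : HasFDerivAt (fun x : E3 => ∑ i, a i * x i)
      (∑ i, a i • (ContinuousLinearMap.proj (R := ℂ) (φ := fun _ : Fin 3 => ℂ) i)) x := by
    refine HasFDerivAt.fun_sum fun i _ => ?_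
    exact ((ContinuousLinearMap.proj (R := ℂ) (φ := fun _ : Fin 3 => ℂ) i).hasFDerivAt).const_mul _
  have h2 : HasFDerivAt (ptb h a) (fderiv ℂ h x +
      ∑ i, a i • (ContinuousLinearMap.proj (R := ℂ) (φ := fun _ : Fin 3 => ℂ) i)) x :=
    hh.hasFDerivAt.add h1
  rw [h2.fderiv]
  simp

theorem ev_ne (hF : Fam Φ τ₀ l r) (hh : ∀ x, nsq x < r ^ 2 → AnalyticAt ℂ h x)
    (hN : NoZ (fun x => Φ (x, τ₀)) r h) {r₁ r₂ : ℝ} (hr₁ : 0 < r₁) (hr₂ : 0 ≤ r₂) (h2r : r₂ < r)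
    {a : PP → E3} (ha : Tendsto a l (𝓝 0)) :
    ∀ᶠ τ in l, NeB (fun x => Φ (x, τ)) 0 (ptb h (a τ)) r₁ r₂ := by
  have hL0 := Vol_397.lvl0 hF
  have hA : IsCompact {x : E3 | r₁ ^ 2 ≤ nsq x ∧ nsq x ≤ r₂ ^ 2} :=
    (KedM_941.isCompact_cball (r₂ ^ 2)).inter_left (isClosed_le continuous_const continuous_nsq3)
  have h4 : r₂ ^ 2 < r ^ 2 := pow_lt_pow_left₀ h2r hr₂ two_ne_zero
  have key : ∀ᶠ q : PP × E3 in 𝓝 (τ₀, 0), ∀ x ∈ {x : E3 | r₁ ^ 2 ≤ nsq x ∧ nsq x ≤ r₂ ^ 2},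
      Φ (x, q.1) = 0 → ∃ v, fderiv ℂ (fun x => Φ (x, q.1)) x v = 0 ∧
        fderiv ℂ (ptb h q.2) x v ≠ 0 := by
    refine hA.eventually_forall_of_forall_eventually (P := fun (q : PP × E3) (x : E3) =>
      Φ (x, q.1) = 0 → ∃ v, fderiv ℂ (fun x => Φ (x, q.1)) x v = 0 ∧
        fderiv ℂ (ptb h q.2) x v ≠ 0) fun x hx => ?_
    have hxr : nsq x < r ^ 2 := hx.2.trans_lt h4
    have hx0 : x ≠ 0 := by
      rintro rfl
      have := hx.1
      rw [V1Pe_822.nsq_zero3] at this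
      have : 0 < r₁ ^ 2 := by positivity
      linarith
    have hΦ := hF.an x hxr.le
    have ht : Tendsto (fun p : (PP × E3) × E3 => (p.2, p.1.1)) (𝓝 ((τ₀, 0), x)) (𝓝 (x, τ₀)) :=
      (continuous_snd.prodMk (continuous_fst.comp continuous_fst)).tendsto _
    have ht2 : Tendsto (fun p : (PP × E3) × E3 => p.2) (𝓝 ((τ₀, 0), x)) (𝓝 x) :=
      continuous_snd.tendsto _
    by_cases hz : Φ (x, τ₀) = 0
    · obtain ⟨v₀, hv₀, hv₀'⟩ := neb_of_noz hL0 hh hN hz hx0 hxr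
      obtain ⟨w₀, hw₀⟩ : ∃ w, fderiv ℂ (fun x => Φ (x, τ₀)) x w ≠ 0 := by
        by_contra hcon
        push Not at hcon
        exact hL0.sm x hx0 hxr hz (ContinuousLinearMap.ext fun v => by rw [hcon v]; rfl)
      -- the minor
      set m : (PP × E3) × E3 → ℂ := fun p =>
        fderiv ℂ Φ (p.2, p.1.1) (w₀, 0) * (fderiv ℂ h p.2 v₀ + ∑ i, p.1.2 i * v₀ i) -
        fderiv ℂ Φ (p.2, p.1.1) (v₀, 0) * (fderiv ℂ h p.2 w₀ + ∑ i, p.1.2 i * w₀ i) with hm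
      have c1 : ∀ v : E3, ContinuousAt (fun p : (PP × E3) × E3 => fderiv ℂ Φ (p.2, p.1.1) (v, 0))
          ((τ₀, 0), x) := fun v =>
        ((ContinuousLinearMap.apply ℂ ℂ ((v, 0) : E3 × PP)).continuous.tendsto _).comp
          ((hΦ.fderiv.continuousAt.tendsto).comp ht)
      have c2 : ∀ v : E3, ContinuousAt (fun p : (PP × E3) × E3 => fderiv ℂ h p.2 v)
          ((τ₀, 0), x) := fun v =>
        ((ContinuousLinearMap.apply ℂ ℂ v).continuous.tendsto _).comp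
          (((hh x hxr).fderiv.continuousAt.tendsto).comp ht2)
      have c3 : ∀ v : E3, ContinuousAt (fun p : (PP × E3) × E3 => ∑ i, p.1.2 i * v i)
          ((τ₀, 0), x) := fun v => by
        have : Continuous fun p : (PP × E3) × E3 => ∑ i, p.1.2 i * v i := by fun_prop
        exact this.continuousAt
      have hmc : ContinuousAt m ((τ₀, 0), x) :=
        ((c1 w₀).mul ((c2 v₀).add (c3 v₀))).sub ((c1 v₀).mul ((c2 w₀).add (c3 w₀)))
      have hsl : ∀ v : E3, fderiv ℂ Φ (x, τ₀) (v, 0) = fderiv ℂ (fun x => Φ (x, τ₀)) x v :=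
        fun v => (KedM_941.fderiv_slice hΦ.differentiableAt v).symm
      have hm0 : m ((τ₀, 0), x) ≠ 0 := by
        simp only [hm, hsl, hv₀, zero_mul, sub_zero, Pi.zero_apply, Finset.sum_const_zero,
          add_zero]
        exact mul_ne_zero hw₀ hv₀'
      filter_upwards [hmc.eventually_ne hm0, ht.eventually hΦ.eventually_analyticAt,
        ht2.eventually (hh x hxr).eventually_analyticAt] with p hp1 hp2 hp3 _
      have e1 := fun v => KedM_941.fderiv_slice hp2.differentiableAt v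
      have e2 := fun v => fderiv_ptb (a := p.1.2) hp3.differentiableAt v
      refine ⟨fderiv ℂ (fun x => Φ (x, p.1.1)) p.2 w₀ • v₀ -
        fderiv ℂ (fun x => Φ (x, p.1.1)) p.2 v₀ • w₀, ?_, ?_⟩
      · rw [map_sub, map_smul, map_smul, smul_eq_mul, smul_eq_mul]
        ring
      · rw [map_sub, map_smul, map_smul, smul_eq_mul, smul_eq_mul, e1, e1, e2, e2]
        exact hp1
    · have h5 : ∀ᶠ p : (PP × E3) × E3 in 𝓝 ((τ₀, 0), x), Φ (p.2, p.1.1) ≠ 0 :=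
        ht.eventually (hΦ.continuousAt.eventually_ne hz)
      filter_upwards [h5] with p hp hcon
      exact absurd hcon hp
  have ht : Tendsto (fun τ => (τ, a τ)) l (𝓝 (τ₀, 0)) := by
    rw [nhds_prod_eq]
    exact (tendsto_id.mono_left hF.lim).prodMk ha
  filter_upwards [ht.eventually key] with τ hτ x h1 h2 h3
  exact hτ x ⟨h1, h2⟩ h3

end near

/-- **`OxCvStmt`** -/
theorem oxCvStmt : OxCvStmt := by
  intro Φ τ₀ l r C w u hS f hf χ hχ h hh hN a ha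
  subst hf
  have hF : FamD Φ τ₀ l r C w u := hS.toFamD
  have hL0 := Vol_397.lvl0 hF.toFam
  have hh' : ∀ x, nsq x < r ^ 2 → AnalyticAt ℂ h x := fun x hx => hh x hx.le
  obtain ⟨r₁, -, h1, -, h3, -⟩ := V1Top_822.cut_locconst hχ
  obtain ⟨ρ, a1, a2, a3⟩ := hχ.supp
  set r₂ := (ρ + r) / 2 with hr₂
  have b1 : 0 ≤ r₂ := by rw [hr₂]; linarith
  have b2 : r₂ < r := by rw [hr₂]; linarith
  have h4 : ∀ x, r₂ ^ 2 ≤ nsq x → ∀ᶠ y in 𝓝 x, χ y = 0 := by
    intro x hx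
    have h6 : ∀ᶠ y in 𝓝 x, ρ ^ 2 < nsq y := by
      refine continuousAt_const.eventually_lt continuous_nsq3.continuousAt ?_
      rw [hr₂] at hx
      nlinarith
    exact h6.mono fun y hy => a3 y hy.le
  have hct : CtL (fun x => Φ (x, τ₀)) 0 r (oxd (fun x => Φ (x, τ₀)) u (fun _ => 0) h χ) := by
    intro θ O hP z hz
    exact (contAt_oxd hL0 hF.ke0.1 hχ.sm hh' hP hz
      (dV_ne_of_fderiv (hN θ O hP z hz))).continuousWithinAt
  refine ⟨?_, hct, ?_⟩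
  · intro O N Θ hC K hKO hK
    have hP := hC.par τ₀ (mem_of_mem_nhds hC.nhd)
    have hO := hP.par.isOpen
    refine tendstoUniformlyOn_of_cc hK (fun z hz => ?_) fun z hz =>
      (hct _ _ hP).continuousAt (hO.mem_nhds (hKO hz))
    have hz := hKO hz
    have hI : CI l O (fun τ y => w τ (Θ (y, τ))) (fun y => u (Θ (y, τ₀))) := by
      refine CI.of_cvOn hO ?_ (hF.ke0.1.sm _ _ hP) (hF.conv O N Θ hC)
      have hev : ∀ᶠ τ in l, τ ∈ N := hF.lim hC.nhd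
      filter_upwards [hF.ke, hev] with τ hτ hτN
      exact hτ.1.sm _ _ (hC.par τ hτN)
    have hJ : CI l O (fun τ y => χ (Θ (y, τ))) (fun y => χ (Θ (y, τ₀))) := by
      refine CI.joint (f := fun q => χ (Θ q)) hF.lim hO hC.nhd ?_
      have h1 : ContDiffOn ℝ ∞ Θ (O ×ˢ N) := fun q hq =>
        (((hC.an q hq).contDiffAt (n := ∞)).restrict_scalars ℝ).contDiffWithinAt
      exact hχ.sm.comp_contDiffOn h1
    have d0 := ld_of hF.ke0.1 hh' hP
    have hne0 : dV h (fun y => Θ (y, τ₀)) z ≠ 0 := dV_ne_of_fderiv (hN _ _ hP z hz)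
    have hdet : (cH (fun y => u (Θ (y, τ₀))) z).det ≠ 0 := (d0.pu z hz).det_pos.ne'
    have hVc := cl_dV hF.lim hC hh' ha hz
    have hG := cc_Gm (fun a b => cl_HO hO hI hz hdet a b) hVc (pos_HO d0 hz) hne0
    have hΦ : AnalyticAt ℂ Φ (Θ (z, τ₀), τ₀) := hF.an _ (hP.lt z hz).le
    have h0 : fderiv ℂ (fun x => Φ (x, τ₀)) (Θ (z, τ₀)) ≠ 0 :=
      hF.sm0 _ (hP.ne z hz) (hP.lt z hz).le (hP.par.lvl z hz)
    have e1 := CC.rdiv (CC.re (cc_pd (cc_cH hO hJ hz) hG))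
      (cc_eta hF.lim hO hC.nhd hC.an hz hΦ h0) (Loc_835.eta2a_pos hP.par hz h0).ne'
    refine e1.congr ?_ ?_
    · have hVev : ∀ᶠ p : PP × Cn 2 in l ×ˢ 𝓝 z,
          dV (ptb h (a p.1)) (fun y => Θ (y, p.1)) p.2 ≠ 0 := by
        have hc : CC l (fun τ => dV (ptb h (a τ)) (fun y => Θ (y, τ)))
            (dV h fun y => Θ (y, τ₀)) z := cc_vec (V := fun τ => dV (ptb h (a τ))
              (fun y => Θ (y, τ))) (V₀ := dV h fun y => Θ (y, τ₀)) hVc
        exact hc.eventually_ne hne0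
      have hev : ∀ᶠ τ in l, τ ∈ N := hF.lim hC.nhd
      have e2 := (hev.and ((Vol_397.ev_lvl hF.toFam).and hF.ke)).prod_mk
        (hO.mem_nhds hz : ∀ᶠ y in 𝓝 z, y ∈ O)
      filter_upwards [hVev, e2] with p hp1 hp2
      obtain ⟨⟨hpN, hpL, hpK⟩, hpO⟩ := hp2
      have hPp := hC.par p.1 hpN
      have hhp : ∀ x, nsq x < r ^ 2 → AnalyticAt ℂ (ptb h (a p.1)) x := fun x hx =>
        ptb_an (hh' x hx)
      have dp := ld_of hpK.1 hhp hPp
      have h0p := hpL.sm _ (hPp.ne _ hpO) (hPp.lt _ hpO) (hPp.par.lvl _ hpO)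
      have e3 := oxd_eq (χ := χ) hPp.par dp hpO (hpL.an _ (hPp.lt _ hpO)) h0p
        ((contDiffOn_par hPp.par hχ.sm).contDiffAt (hO.mem_nhds hpO)) hp1
      exact (eq_div_of_mul_eq (Loc_835.eta2a_pos hPp.par hpO h0p).ne' e3).symm
    · have e3 := oxd_eq (χ := χ) hP.par d0 hz (hL0.an _ (hP.lt _ hz)) h0
        ((contDiffOn_par hP.par hχ.sm).contDiffAt (hO.mem_nhds hz)) hne0
      exact (eq_div_of_mul_eq (Loc_835.eta2a_pos hP.par hz h0).ne' e3).symm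
  · filter_upwards [ev_ne hF.toFam hh' hN h1 b1 b2 ha, Vol_397.ev_lvl hF.toFam, hF.ke]
      with τ t1 t2 t3
    exact ctl_oxd t2 t3.1 hχ.sm (fun x hx => ptb_an (hh' x hx)) h3 h4 t1

end

end Crest.Agent.R257.OxCv3_397
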