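import Crest.Agent.R257.PN_835
import Crest.Agent.R273.TLs_201

/-!
# Row 257 (S0395), UP0 (helper101): the projective plane, interface

`P2Stmt` : the projective plane with the Fubini-Study metric, and its reading in the affine chart
`aff 0`.
-/

set_option autoImplicit false

open Topology Filter MeasureTheory Set
open scoped ENNReal ContDiff Matrix ComplexConjugate

noncomputable section

namespace Crest.Agent.R257.P2Defs_101

open Crest.Agent.R275.Geo Crest.Agent.R275.Core144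
open Crest.Agent.R275.GC293 (GoodA)
open Crest.Agent.R257.PN_835
open Crest.Agent.R273.Defs_333 Crest.Agent.R273.Kah_333 Crest.Agent.R273.Vol_333
open Crest.Agent.R273.Vm_333 Crest.Agent.R273.YauDefs_635 Crest.Agent.R273.FIc0_597

instance : MeasurableSpace (PN 2) := borel _
instance : BorelSpace (PN 2) := ⟨rfl⟩

open Classical in
/-- extension by zero of a function on the affine chart -/
def ext {W : Type*} [Zero W] (F : Cn 2 → W) (P : PN 2) : W :=
  if P ∈ (aff (N := 2) 0).source then F (aff 0 P) else 0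

/-- the projective plane, with its Fubini-Study metric, read in an affine chart -/
def P2Stmt : Prop := ConnectedSpace (PN 2) ∧
  ∃ (A : Atl 2 (PN 2)) (_ : Fintype A.ι) (L : LB A) (H : HM L) (hH : H.Pos),
    GoodA A ∧ Nonempty (Part A) ∧
    (∀ F : Cn 2 → ℝ, ContDiff ℝ ∞ F → HasCompactSupport F → A.Sm (ext F)) ∧
    (∀ φ : PN 2 → ℝ, A.Sm φ → ContDiff ℝ ∞ (fun z => φ ((aff 0).symm z))) ∧
    (∀ (z : Cn 2) (i : A.ι), (aff 0).symm z ∈ (A.e i).source →
      ∃ J : Matrix (Fin 2) (Fin 2) ℂ, J.det ≠ 0 ∧ ∀ φ : PN 2 → ℝ, A.Sm φ →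
        cH (fun z => Real.log (1 + ‖z‖ ^ 2) + φ ((aff 0).symm z)) z =
          Jᵀ * (cur H i ((aff 0).symm z) + hsf A φ i ((aff 0).symm z)) * J.map conj) ∧
    (∀ ρ : ℝ, ∃ C : ℝ, ∀ F : Cn 2 → ℝ≥0∞, Measurable F → (∀ z, ρ ≤ ‖z‖ → F z = 0) →
      ∫⁻ P, ext F P ∂(vm (volK (kah H hH))) ≤ ENNReal.ofReal C * ∫⁻ z, F z)

end Crest.Agent.R257.P2Defs_101
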