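import Mathlib

/-!
R257 / P8a_472: a local algebra with few generators: the Milnor algebra of `x²/2 + C`, `C` a smooth
cubic, has dimension at most `7`.
-/

set_option autoImplicit false
set_option linter.unusedVariables false
set_option linter.unusedSectionVars false

open IsLocalRing
open scoped Pointwise

noncomputable section

namespace Crest.Agent.R257.P8a_472

variable {A : Type*} [CommRing A] [IsLocalRing A] [Algebra ℂ A]

local notation "M" => maximalIdeal A

/-- one layer -/
theorem layer (hres : ∀ a : A, ∃ c : ℂ, a - algebraMap ℂ A c ∈ M) (S : Set A) (W : Submodule ℂ A)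
    (hS : ∀ s ∈ S, s ∈ W) (hM : ∀ a ∈ M * Ideal.span S, a ∈ W) :
    ∀ a ∈ Ideal.span S, a ∈ W := by
  intro a ha
  induction ha using Submodule.span_induction with
  | mem a ha => exact hS a ha
  | zero => exact W.zero_mem
  | add a b _ _ ha hb => exact W.add_mem ha hb
  | smul r a ha' ha =>
    obtain ⟨c, hc⟩ := hres r
    have e : r • a = c • a + (r - algebraMap ℂ A c) * a := by
      rw [smul_eq_mul, Algebra.smul_def]
      ring
    rw [e]
    exact W.add_mem (W.smul_mem c ha) (hM _ (Ideal.mul_mem_mul hc ha'))

/-- **spanning**: two generators and one relation of order two -/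
theorem span7 (hres : ∀ a : A, ∃ c : ℂ, a - algebraMap ℂ A c ∈ M) {y z : A}
    (hM : M = Ideal.span {y, z}) (l : ℂ) (hy : y * y - algebraMap ℂ A l * (y * z) ∈ M ^ 3)
    (h4 : M ^ 4 = ⊥) : Module.Finite ℂ A ∧ Module.finrank ℂ A ≤ 7 := by
  classical
  have hyM : y ∈ M := by rw [hM]; exact Ideal.subset_span (by simp)
  have hzM : z ∈ M := by rw [hM]; exact Ideal.subset_span (by simp)
  let B : Fin 7 → A := ![1, y, z, y * z, z * z, y * (z * z), z * (z * z)]
  let W : Submodule ℂ A := Submodule.span ℂ (Set.range B)
  have hB : ∀ i, B i ∈ W := fun i => Submodule.subset_span ⟨i, rfl⟩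
  have hM2 : M * M = Ideal.span {y * y, y * z, z * y, z * z} := by
    conv_lhs => rw [hM]
    rw [Ideal.span_pair_mul_span_pair]
  have z4 : ∀ a ∈ M ^ 4, a = 0 := fun a ha => by rw [h4] at ha; exact ha
  have hpow3 : M ^ 3 = M * (M * M) := by rw [pow_succ, pow_two, mul_comm]
  have hpow4 : M ^ 4 = M * M ^ 3 := by rw [pow_succ, mul_comm]
  -- the relation in degree 3
  have r1 : y * (y * z) = algebraMap ℂ A l * (y * (z * z)) := by
    have : (y * y - algebraMap ℂ A l * (y * z)) * z ∈ M ^ 4 := by
      rw [hpow4, mul_comm M]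
      exact Ideal.mul_mem_mul hy hzM
    have := z4 _ this
    linear_combination this
  have r2 : y * (y * y) = algebraMap ℂ A l * (algebraMap ℂ A l * (y * (z * z))) := by
    have : (y * y - algebraMap ℂ A l * (y * z)) * y ∈ M ^ 4 := by
      rw [hpow4, mul_comm M]
      exact Ideal.mul_mem_mul hy hyM
    have := z4 _ this
    linear_combination this + algebraMap ℂ A l * r1
  have smulW : ∀ (c : ℂ) (a : A), a ∈ W → algebraMap ℂ A c * a ∈ W := fun c a ha => by
    rw [← Algebra.smul_def]
    exact W.smul_mem c ha
  have w5 : y * (z * z) ∈ W := hB 5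
  have w6 : z * (z * z) ∈ W := hB 6
  have w3 : y * z ∈ W := hB 3
  have w4 : z * z ∈ W := hB 4
  have w1 : y ∈ W := hB 1
  have w2 : z ∈ W := hB 2
  have w0 : (1 : A) ∈ W := hB 0
  have hM3 : M ^ 3 = Ideal.span (({y, z} : Set A) * ({y * y, y * z, z * y, z * z} : Set A)) := by
    rw [hpow3, hM2]
    conv_lhs => rw [hM]
    rw [Ideal.span_mul_span']
  have c3 : ∀ a ∈ M ^ 3, a ∈ W := by
    rw [hM3]
    refine layer hres _ W ?_ ?_
    · rintro s ⟨a, ha, b, hb, rfl⟩
      simp only [Set.mem_insert_iff, Set.mem_singleton_iff] at ha hb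
      rcases ha with rfl | rfl <;> rcases hb with rfl | rfl | rfl | rfl
      · change a * (a * a) ∈ W
        rw [r2]
        exact smulW _ _ (smulW _ _ w5)
      · change a * (a * z) ∈ W
        rw [r1]
        exact smulW _ _ w5
      · change a * (z * a) ∈ W
        rw [mul_comm z a, r1]
        exact smulW _ _ w5
      · exact w5
      · change a * (y * y) ∈ W
        rw [show a * (y * y) = y * (y * a) by ring, r1]
        exact smulW _ _ w5
      · change a * (y * a) ∈ W
        rw [show a * (y * a) = y * (a * a) by ring]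
        exact w5
      · change a * (a * y) ∈ W
        rw [show a * (a * y) = y * (a * a) by ring]
        exact w5
      · exact w6
    · intro a ha
      rw [← hM3, ← hpow4] at ha
      rw [z4 a ha]
      exact W.zero_mem
  have c2 : ∀ a ∈ M * M, a ∈ W := by
    rw [hM2]
    refine layer hres _ W ?_ ?_
    · intro s hs
      simp only [Set.mem_insert_iff, Set.mem_singleton_iff] at hs
      rcases hs with rfl | rfl | rfl | rfl
      · have : y * y = (y * y - algebraMap ℂ A l * (y * z)) + algebraMap ℂ A l * (y * z) := by ring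
        rw [this]
        exact W.add_mem (c3 _ hy) (smulW _ _ w3)
      · exact w3
      · rw [mul_comm]
        exact w3
      · exact w4
    · intro a ha
      rw [← hM2, ← hpow3] at ha
      exact c3 a ha
  have c1 : ∀ a ∈ M, a ∈ W := by
    intro a ha
    rw [hM] at ha
    refine layer hres _ W ?_ ?_ a ha
    · intro s hs
      simp only [Set.mem_insert_iff, Set.mem_singleton_iff] at hs
      rcases hs with rfl | rfl
      · exact w1
      · exact w2
    · intro b hb
      rw [← hM] at hb
      exact c2 b hb
  have htop : W = ⊤ := by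
    rw [eq_top_iff]
    rintro a -
    obtain ⟨c, hc⟩ := hres a
    have : a = algebraMap ℂ A c * 1 + (a - algebraMap ℂ A c) := by ring
    rw [this]
    exact W.add_mem (smulW _ _ w0) (c1 _ hc)
  refine ⟨⟨⟨Finset.univ.image B, by rw [Finset.coe_image, Finset.coe_univ, Set.image_univ]; exact htop⟩⟩, ?_⟩
  have h7 := finrank_range_le_card (R := ℂ) B
  rw [show Set.finrank ℂ (Set.range B) = Module.finrank ℂ W from rfl, htop, finrank_top] at h7
  simpa using h7

end Crest.Agent.R257.P8a_472
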