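import Crest.Agent.R257.P8a_472

/-!
R257 / P8b_472: the relations of the Milnor algebra of `x²/2 + C`.
-/

set_option autoImplicit false
set_option linter.unusedVariables false
set_option linter.unusedSectionVars false

open IsLocalRing
open scoped Pointwise

noncomputable section

namespace Crest.Agent.R257.P8b_472

open Crest.Agent.R257.P8a_472

variable {A : Type*} [CommRing A] [IsLocalRing A] [Algebra ℂ A]

local notation "M" => maximalIdeal A

/-- scalars -/
local notation "κ" => algebraMap ℂ A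

theorem pow_add' (i j : ℕ) : M ^ i * M ^ j = M ^ (i + j) := (pow_add _ _ _).symm

theorem mul_mem_pow {a b : A} {i j k : ℕ} (ha : a ∈ M ^ i) (hb : b ∈ M ^ j) (hk : i + j = k) :
    a * b ∈ M ^ k := by
  rw [← hk, ← pow_add']
  exact Ideal.mul_mem_mul ha hb

theorem unscale {c : ℂ} (hc : c ≠ 0) {a : A} {I : Ideal A} (h : κ c * a ∈ I) : a ∈ I := by
  have : a = κ c⁻¹ * (κ c * a) := by
    rw [← mul_assoc, ← map_mul, inv_mul_cancel₀ hc, map_one, one_mul]
  rw [this]
  exact I.mul_mem_left _ h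

theorem nak {I : Ideal A} (hfg : I.FG) (h : I ≤ M * I) : I = ⊥ := by
  refine Submodule.eq_bot_of_le_smul_of_le_jacobson_bot M I hfg h ?_
  rw [IsLocalRing.jacobson_eq_maximalIdeal ⊥ bot_ne_top]

/-- `M = (y,z)` as soon as `x ∈ M²` -/
theorem two_gens {x y z : A} (hM : M = Ideal.span {x, y, z}) (hx : x ∈ M ^ 2) :
    M = Ideal.span {y, z} := by
  have hy : y ∈ M := by rw [hM]; exact Ideal.subset_span (by simp)
  have hz : z ∈ M := by rw [hM]; exact Ideal.subset_span (by simp)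
  refine le_antisymm ?_ ?_
  · refine Submodule.le_of_le_smul_of_le_jacobson_bot (I := M) ?_ ?_ ?_
    · rw [hM]
      exact Submodule.fg_span (Set.toFinite _)
    · rw [IsLocalRing.jacobson_eq_maximalIdeal ⊥ bot_ne_top]
    · conv_lhs => rw [hM]
      refine Ideal.span_le.2 ?_
      rintro s hs
      simp only [Set.mem_insert_iff, Set.mem_singleton_iff] at hs
      rcases hs with rfl | rfl | rfl
      · refine Submodule.mem_sup_right ?_
        rw [pow_two] at hx
        exact hx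
      · exact Submodule.mem_sup_left (Ideal.subset_span (by simp))
      · exact Submodule.mem_sup_left (Ideal.subset_span (by simp))
  · refine Ideal.span_le.2 ?_
    rintro s hs
    simp only [Set.mem_insert_iff, Set.mem_singleton_iff] at hs
    rcases hs with rfl | rfl
    · exact hy
    · exact hz

/-- criterion for `M⁴ = 0` -/
theorem pow4 {y z : A} (hM : M = Ideal.span {y, z}) (h1 : y * y * (y * y) ∈ M ^ 5)
    (h2 : y * y * (y * z) ∈ M ^ 5) (h3 : y * y * (z * z) ∈ M ^ 5) (h4 : y * z * (z * z) ∈ M ^ 5)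
    (h5 : z * z * (z * z) ∈ M ^ 5) : M ^ 4 = ⊥ := by
  have hM2 : M ^ 2 = Ideal.span {y * y, y * z, z * y, z * z} := by
    rw [pow_two]
    conv_lhs => rw [hM]
    rw [Ideal.span_pair_mul_span_pair]
  have hM4 : M ^ 4 = Ideal.span ((({y * y, y * z, z * y, z * z} : Set A)) *
      (({y * y, y * z, z * y, z * z} : Set A))) := by
    rw [show (4 : ℕ) = 2 + 2 from rfl, pow_add]
    conv_lhs => rw [hM2]
    rw [Ideal.span_mul_span']
  refine nak ?_ ?_
  · have : (M).FG := by
      rw [hM]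
      exact Submodule.fg_span (Set.toFinite _)
    exact this.pow
  · have h6 : M * M ^ 4 = M ^ 5 := by rw [pow_succ (M) 4, mul_comm]
    rw [h6]
    conv_lhs => rw [hM4]
    refine Ideal.span_le.2 ?_
    rintro s ⟨a, ha, b, hb, rfl⟩
    simp only [Set.mem_insert_iff, Set.mem_singleton_iff] at ha hb
    rcases ha with rfl | rfl | rfl | rfl <;> rcases hb with rfl | rfl | rfl | rfl <;>
      (simp only [SetLike.mem_coe]) <;>
      first
        | exact h1
        | exact h2
        | exact h3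
        | exact h4
        | exact h5
        | (convert h1 using 1; ring1)
        | (convert h2 using 1; ring1)
        | (convert h3 using 1; ring1)
        | (convert h4 using 1; ring1)
        | (convert h5 using 1; ring1)

section Rel

theorem x_mem {x y z : A} (hM : M = Ideal.span {x, y, z}) (c : Fin 3 → Fin 3 → Fin 3 → ℂ)
    (E0 : κ 2 * x + (κ (c 0 1 1) * (y * y) + κ (2 * c 0 1 2) * (y * z) +
      κ (c 0 2 2) * (z * z)) + x * (κ (c 0 0 0) * x + κ (2 * c 0 0 1) * y +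
        κ (2 * c 0 0 2) * z) = 0) : x ∈ M ^ 2 := by
  have hx : x ∈ M := by rw [hM]; exact Ideal.subset_span (by simp)
  have hy : y ∈ M := by rw [hM]; exact Ideal.subset_span (by simp)
  have hz : z ∈ M := by rw [hM]; exact Ideal.subset_span (by simp)
  have m2 : ∀ {a b : A}, a ∈ M → b ∈ M → a * b ∈ M ^ 2 := fun ha hb => by
    rw [pow_two]
    exact Ideal.mul_mem_mul ha hb
  refine unscale (c := 2) two_ne_zero ?_
  have e : κ 2 * x = -(κ (c 0 1 1) * (y * y) + κ (2 * c 0 1 2) * (y * z) + κ (c 0 2 2) * (z * z) +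
      x * (κ (c 0 0 0) * x + κ (2 * c 0 0 1) * y + κ (2 * c 0 0 2) * z)) := by
    linear_combination E0
  rw [e]
  refine (M ^ 2).neg_mem ?_
  refine (M ^ 2).add_mem ((M ^ 2).add_mem ((M ^ 2).add_mem ?_ ?_) ?_) ?_
  · exact (M ^ 2).mul_mem_left _ (m2 hy hy)
  · exact (M ^ 2).mul_mem_left _ (m2 hy hz)
  · exact (M ^ 2).mul_mem_left _ (m2 hz hz)
  · refine m2 hx ?_
    exact (M).add_mem ((M).add_mem ((M).mul_mem_left _ hx) ((M).mul_mem_left _ hy))
      ((M).mul_mem_left _ hz)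

/-- the three cases -/
theorem le7 {x y z : A} (hres : ∀ a : A, ∃ c : ℂ, a - κ c ∈ M) (hM : M = Ideal.span {x, y, z})
    (c : Fin 3 → Fin 3 → Fin 3 → ℂ)
    (E0 : κ 2 * x + (κ (c 0 1 1) * (y * y) + κ (2 * c 0 1 2) * (y * z) +
      κ (c 0 2 2) * (z * z)) + x * (κ (c 0 0 0) * x + κ (2 * c 0 0 1) * y +
        κ (2 * c 0 0 2) * z) = 0)
    (E1 : κ (c 1 1 1) * (y * y) + κ (2 * c 1 1 2) * (y * z) + κ (c 1 2 2) * (z * z) +
      x * (κ (c 0 0 1) * x + κ (2 * c 0 1 1) * y + κ (2 * c 0 1 2) * z) = 0)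
    (E2 : κ (c 1 1 2) * (y * y) + κ (2 * c 1 2 2) * (y * z) + κ (c 2 2 2) * (z * z) +
      x * (κ (c 0 0 2) * x + κ (2 * c 0 1 2) * y + κ (2 * c 0 2 2) * z) = 0)
    (hcase : (c 1 1 2 ≠ 0 ∧ c 1 2 2 = 0 ∧ c 2 2 2 = 0 ∧ c 0 2 2 ≠ 0) ∨
      (c 1 1 1 ≠ 0 ∧ c 1 1 2 = 0 ∧ c 1 2 2 = 0 ∧ c 2 2 2 = 0 ∧ c 0 2 2 ≠ 0) ∨
      (c 1 1 1 = 0 ∧ c 1 1 2 ≠ 0 ∧ c 1 2 2 ≠ 0 ∧ c 2 2 2 = 0)) :
    Module.Finite ℂ A ∧ Module.finrank ℂ A ≤ 7 := by
  have hx2 := x_mem hM c E0
  have hM' := two_gens hM hx2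
  have hx : x ∈ M := by rw [hM]; exact Ideal.subset_span (by simp)
  have hy : y ∈ M := by rw [hM]; exact Ideal.subset_span (by simp)
  have hz : z ∈ M := by rw [hM]; exact Ideal.subset_span (by simp)
  have hy1 : y ∈ M ^ 1 := by rwa [pow_one]
  have hz1 : z ∈ M ^ 1 := by rwa [pow_one]
  have hx1 : x ∈ M ^ 1 := by rwa [pow_one]
  have hyy : y * y ∈ M ^ 2 := mul_mem_pow hy1 hy1 rfl
  have hyz : y * z ∈ M ^ 2 := mul_mem_pow hy1 hz1 rfl
  have hzz : z * z ∈ M ^ 2 := mul_mem_pow hz1 hz1 rfl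
  set p := κ (c 0 0 1) * x + κ (2 * c 0 1 1) * y + κ (2 * c 0 1 2) * z with hp
  set q := κ (c 0 0 2) * x + κ (2 * c 0 1 2) * y + κ (2 * c 0 2 2) * z with hq
  set r := κ (c 0 0 0) * x + κ (2 * c 0 0 1) * y + κ (2 * c 0 0 2) * z with hr
  have lin : ∀ a b d : ℂ, κ a * x + κ b * y + κ d * z ∈ M ^ 1 := fun a b d => by
    rw [pow_one]
    exact (M).add_mem ((M).add_mem ((M).mul_mem_left _ hx) ((M).mul_mem_left _ hy))
      ((M).mul_mem_left _ hz)
  have hp1 : p ∈ M ^ 1 := lin _ _ _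
  have hq1 : q ∈ M ^ 1 := lin _ _ _
  have hr1 : r ∈ M ^ 1 := lin _ _ _
  have hxp : x * p ∈ M ^ 3 := mul_mem_pow hx2 hp1 rfl
  have hxq : x * q ∈ M ^ 3 := mul_mem_pow hx2 hq1 rfl
  have hxr : x * r ∈ M ^ 3 := mul_mem_pow hx2 hr1 rfl
  have hxy : x * y ∈ M ^ 3 := mul_mem_pow hx2 hy1 rfl
  have hxz : x * z ∈ M ^ 3 := mul_mem_pow hx2 hz1 rfl
  have hxx : x * x ∈ M ^ 3 := mul_mem_pow hx2 hx1 rfl
  rcases hcase with ⟨h112, h122, h222, h022⟩ | ⟨h111, h112, h122, h222, h022⟩ |
    ⟨h111, h112, h122, h222⟩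
  · -- `b = y² (…)`, two different roots
    rw [h122] at E1 E2
    rw [h222] at E2
    simp only [map_zero, zero_mul, mul_zero, add_zero] at E1 E2
    have hyy3 : y * y ∈ M ^ 3 := by
      refine unscale h112 ?_
      have : κ (c 1 1 2) * (y * y) = -(x * q) := by linear_combination E2
      rw [this]
      exact (M ^ 3).neg_mem hxq
    have hyz3 : y * z ∈ M ^ 3 := by
      refine unscale (mul_ne_zero two_ne_zero h112) ?_
      have : κ (2 * c 1 1 2) * (y * z) = -(κ (c 1 1 1) * (y * y) + x * p) := by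
        linear_combination E1
      rw [this]
      exact (M ^ 3).neg_mem ((M ^ 3).add_mem ((M ^ 3).mul_mem_left _ hyy3) hxp)
    -- the relation in degree four
    have hrel : x * (2 * q * z * κ (c 1 1 2) - p * y * κ (c 1 1 2) + κ (c 1 1 1) * (q * y)) = 0 := by
      have e1 := congrArg (fun a => a * y * κ (c 1 1 2)) E1
      have e2 := congrArg (fun a => a * z * κ 2 * κ (c 1 1 2)) E2
      have e3 := congrArg (fun a => a * y * κ (c 1 1 1)) E2
      simp only [zero_mul, map_mul, map_ofNat] at e1 e2 e3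
      linear_combination (-1 : A) * e1 + e2 + e3
    have hz4 : z * z * (z * z) ∈ M ^ 5 := by
      -- `u = 2qz κ - … = 4 c022 κ z² + M³`, `(2 + r) x = - c022 z² + M³`
      have hu : (2 * q * z * κ (c 1 1 2) - p * y * κ (c 1 1 2) + κ (c 1 1 1) * (q * y)) -
          κ (4 * c 0 2 2 * c 1 1 2) * (z * z) ∈ M ^ 3 := by
        have hpy : p * y ∈ M ^ 3 := by
          have : p * y = κ (c 0 0 1) * (x * y) + κ (2 * c 0 1 1) * (y * y) +
              κ (2 * c 0 1 2) * (y * z) := by rw [hp]; ring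
          rw [this]
          exact (M ^ 3).add_mem ((M ^ 3).add_mem ((M ^ 3).mul_mem_left _ hxy)
            ((M ^ 3).mul_mem_left _ hyy3)) ((M ^ 3).mul_mem_left _ hyz3)
        have hqy : q * y ∈ M ^ 3 := by
          have : q * y = κ (c 0 0 2) * (x * y) + κ (2 * c 0 1 2) * (y * y) +
              κ (2 * c 0 2 2) * (y * z) := by rw [hq]; ring
          rw [this]
          exact (M ^ 3).add_mem ((M ^ 3).add_mem ((M ^ 3).mul_mem_left _ hxy)
            ((M ^ 3).mul_mem_left _ hyy3)) ((M ^ 3).mul_mem_left _ hyz3)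
        have hqz : 2 * q * z * κ (c 1 1 2) - κ (4 * c 0 2 2 * c 1 1 2) * (z * z) ∈ M ^ 3 := by
          have : 2 * q * z * κ (c 1 1 2) - κ (4 * c 0 2 2 * c 1 1 2) * (z * z) =
              2 * κ (c 1 1 2) * (κ (c 0 0 2) * (x * z) + κ (2 * c 0 1 2) * (y * z)) := by
            rw [hq]
            simp only [map_mul, map_ofNat]
            ring
          rw [this]
          exact (M ^ 3).mul_mem_left _ ((M ^ 3).add_mem ((M ^ 3).mul_mem_left _ hxz)
            ((M ^ 3).mul_mem_left _ hyz3))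
        have : (2 * q * z * κ (c 1 1 2) - p * y * κ (c 1 1 2) + κ (c 1 1 1) * (q * y)) -
            κ (4 * c 0 2 2 * c 1 1 2) * (z * z) =
            (2 * q * z * κ (c 1 1 2) - κ (4 * c 0 2 2 * c 1 1 2) * (z * z)) -
            κ (c 1 1 2) * (p * y) + κ (c 1 1 1) * (q * y) := by ring
        rw [this]
        exact (M ^ 3).add_mem ((M ^ 3).sub_mem hqz ((M ^ 3).mul_mem_left _ hpy))
          ((M ^ 3).mul_mem_left _ hqy)
      have hv : (κ 2 + r) * x + κ (c 0 2 2) * (z * z) ∈ M ^ 3 := by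
        have : (κ 2 + r) * x + κ (c 0 2 2) * (z * z) =
            -(κ (c 0 1 1) * (y * y) + κ (2 * c 0 1 2) * (y * z)) := by
          linear_combination E0
        rw [this]
        exact (M ^ 3).neg_mem ((M ^ 3).add_mem ((M ^ 3).mul_mem_left _ hyy3)
          ((M ^ 3).mul_mem_left _ hyz3))
      set u := 2 * q * z * κ (c 1 1 2) - p * y * κ (c 1 1 2) + κ (c 1 1 1) * (q * y) with hu'
      set e := u - κ (4 * c 0 2 2 * c 1 1 2) * (z * z) with he
      set e' := (κ 2 + r) * x + κ (c 0 2 2) * (z * z) with he'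
      have hu2 : u = κ (4 * c 0 2 2 * c 1 1 2) * (z * z) + e := by rw [he]; ring
      have hprod : (e' - κ (c 0 2 2) * (z * z)) * (κ (4 * c 0 2 2 * c 1 1 2) * (z * z) + e) = 0 := by
        rw [← hu2, he']
        linear_combination (κ 2 + r) * hrel
      refine unscale (c := c 0 2 2 * (4 * c 0 2 2 * c 1 1 2))
        (mul_ne_zero h022 (mul_ne_zero (mul_ne_zero (by norm_num) h022) h112)) ?_
      have : κ (c 0 2 2 * (4 * c 0 2 2 * c 1 1 2)) * (z * z * (z * z)) =
          κ (4 * c 0 2 2 * c 1 1 2) * (e' * (z * z)) + e' * e - κ (c 0 2 2) * ((z * z) * e) := by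
        rw [map_mul]
        have key : ∀ (K L e e' w : A), (e' - K * w) * (L * w + e) = 0 →
            K * L * (w * w) = L * (e' * w) + e' * e - K * (w * e) := by
          intro K L e e' w h
          linear_combination (-1 : A) * h
        exact key _ _ _ _ _ hprod
      rw [this]
      refine (M ^ 5).sub_mem ((M ^ 5).add_mem ((M ^ 5).mul_mem_left _ (mul_mem_pow hv hzz rfl)) ?_)
        ((M ^ 5).mul_mem_left _ (mul_mem_pow hzz hu rfl))
      exact Ideal.pow_le_pow_right (by norm_num) (mul_mem_pow hv hu (k := 6) rfl)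
    refine span7 hres hM' 0 (by simpa using hyy3) (pow4 hM' (mul_mem_pow hyy3 hyy rfl)
      (mul_mem_pow hyy3 hyz rfl) (mul_mem_pow hyy3 hzz rfl) (mul_mem_pow hyz3 hzz rfl) hz4)
  · -- `b = y³`
    rw [h122, h112] at E1 E2
    rw [h222] at E2
    simp only [map_zero, zero_mul, mul_zero, add_zero, zero_add] at E1 E2
    have hyy3 : y * y ∈ M ^ 3 := by
      refine unscale h111 ?_
      have : κ (c 1 1 1) * (y * y) = -(x * p) := by linear_combination E1
      rw [this]
      exact (M ^ 3).neg_mem hxp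
    -- `k q = 0`
    have hkq : (κ (c 0 1 1) * (y * y) + κ (2 * c 0 1 2) * (y * z) + κ (c 0 2 2) * (z * z)) * q =
        0 := by
      linear_combination q * E0 - (κ 2 + r) * E2
    have hz3 : κ (2 * c 0 2 2 * c 0 2 2) * (z * (z * z)) +
        κ (6 * c 0 1 2 * c 0 2 2) * (y * (z * z)) ∈ M ^ 4 := by
      have e : κ (2 * c 0 2 2 * c 0 2 2) * (z * (z * z)) + κ (6 * c 0 1 2 * c 0 2 2) * (y * (z * z))
          = -(κ (c 0 1 1) * ((y * y) * q) + κ (2 * c 0 1 2) * (κ (2 * c 0 1 2) * ((y * y) * z) +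
            κ (c 0 0 2) * ((x * y) * z)) + κ (c 0 2 2) * (κ (c 0 0 2) * ((x * z) * z))) := by
        have := hkq
        rw [hq] at this ⊢
        simp only [map_mul, map_ofNat] at this ⊢
        linear_combination this
      rw [e]
      refine (M ^ 4).neg_mem ((M ^ 4).add_mem ((M ^ 4).add_mem ?_ ?_) ?_)
      · exact (M ^ 4).mul_mem_left _ (mul_mem_pow hyy3 hq1 rfl)
      · exact (M ^ 4).mul_mem_left _ ((M ^ 4).add_mem
          ((M ^ 4).mul_mem_left _ (mul_mem_pow hyy3 hz1 rfl))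
          ((M ^ 4).mul_mem_left _ (mul_mem_pow hxy hz1 rfl)))
      · exact (M ^ 4).mul_mem_left _ ((M ^ 4).mul_mem_left _ (mul_mem_pow hxz hz1 rfl))
    have h22 : (2 * c 0 2 2 * c 0 2 2 : ℂ) ≠ 0 :=
      mul_ne_zero (mul_ne_zero two_ne_zero h022) h022
    have hyz3' : y * z * (z * z) ∈ M ^ 5 := by
      refine unscale h22 ?_
      have : κ (2 * c 0 2 2 * c 0 2 2) * (y * z * (z * z)) =
          y * (κ (2 * c 0 2 2 * c 0 2 2) * (z * (z * z)) +
            κ (6 * c 0 1 2 * c 0 2 2) * (y * (z * z))) -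
          κ (6 * c 0 1 2 * c 0 2 2) * ((y * y) * (z * z)) := by ring
      rw [this]
      exact (M ^ 5).sub_mem (mul_mem_pow hy1 hz3 rfl)
        ((M ^ 5).mul_mem_left _ (mul_mem_pow hyy3 hzz rfl))
    have hz4 : z * z * (z * z) ∈ M ^ 5 := by
      refine unscale h22 ?_
      have : κ (2 * c 0 2 2 * c 0 2 2) * (z * z * (z * z)) =
          z * (κ (2 * c 0 2 2 * c 0 2 2) * (z * (z * z)) +
            κ (6 * c 0 1 2 * c 0 2 2) * (y * (z * z))) -
          κ (6 * c 0 1 2 * c 0 2 2) * (y * z * (z * z)) := by ring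
      rw [this]
      exact (M ^ 5).sub_mem (mul_mem_pow hz1 hz3 rfl) ((M ^ 5).mul_mem_left _ hyz3')
    exact span7 hres hM' 0 (by simpa using hyy3) (pow4 hM' (mul_mem_pow hyy3 hyy rfl)
      (mul_mem_pow hyy3 hyz rfl) (mul_mem_pow hyy3 hzz rfl) hyz3' hz4)
  · -- three different roots
    rw [h111] at E1
    rw [h222] at E2
    simp only [map_zero, zero_mul, mul_zero, add_zero, zero_add] at E1 E2
    -- `2 c112 yz + c122 z² ∈ M³`, `c112 y² + 2 c122 yz ∈ M³`
    have g1 : κ (2 * c 1 1 2) * (y * z) + κ (c 1 2 2) * (z * z) ∈ M ^ 3 := by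
      have : κ (2 * c 1 1 2) * (y * z) + κ (c 1 2 2) * (z * z) = -(x * p) := by
        linear_combination E1
      rw [this]
      exact (M ^ 3).neg_mem hxp
    have g2 : κ (c 1 1 2) * (y * y) + κ (2 * c 1 2 2) * (y * z) ∈ M ^ 3 := by
      have : κ (c 1 1 2) * (y * y) + κ (2 * c 1 2 2) * (y * z) = -(x * q) := by
        linear_combination E2
      rw [this]
      exact (M ^ 3).neg_mem hxq
    have g1y := mul_mem_pow g1 hy1 (k := 4) rfl
    have g1z := mul_mem_pow g1 hz1 (k := 4) rfl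
    have g2y := mul_mem_pow g2 hy1 (k := 4) rfl
    have g2z := mul_mem_pow g2 hz1 (k := 4) rfl
    have k1 : y * (z * z) ∈ M ^ 4 := by
      refine unscale (c := 3 * c 1 2 2) (mul_ne_zero (by norm_num) h122) ?_
      have : κ (3 * c 1 2 2) * (y * (z * z)) =
          κ 2 * ((κ (c 1 1 2) * (y * y) + κ (2 * c 1 2 2) * (y * z)) * z) -
          (κ (2 * c 1 1 2) * (y * z) + κ (c 1 2 2) * (z * z)) * y := by
        simp only [map_mul, map_ofNat]
        ring
      rw [this]
      exact (M ^ 4).sub_mem ((M ^ 4).mul_mem_left _ g2z) g1y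
    have k2 : z * (z * z) ∈ M ^ 4 := by
      refine unscale h122 ?_
      have : κ (c 1 2 2) * (z * (z * z)) =
          (κ (2 * c 1 1 2) * (y * z) + κ (c 1 2 2) * (z * z)) * z -
          κ (2 * c 1 1 2) * (y * (z * z)) := by ring
      rw [this]
      exact (M ^ 4).sub_mem g1z ((M ^ 4).mul_mem_left _ k1)
    have k3 : y * (y * z) ∈ M ^ 4 := by
      refine unscale h112 ?_
      have : κ (c 1 1 2) * (y * (y * z)) =
          (κ (c 1 1 2) * (y * y) + κ (2 * c 1 2 2) * (y * z)) * z -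
          κ (2 * c 1 2 2) * (y * (z * z)) := by ring
      rw [this]
      exact (M ^ 4).sub_mem g2z ((M ^ 4).mul_mem_left _ k1)
    have k4 : y * (y * y) ∈ M ^ 4 := by
      refine unscale h112 ?_
      have : κ (c 1 1 2) * (y * (y * y)) =
          (κ (c 1 1 2) * (y * y) + κ (2 * c 1 2 2) * (y * z)) * y -
          κ (2 * c 1 2 2) * (y * (y * z)) := by ring
      rw [this]
      exact (M ^ 4).sub_mem g2y ((M ^ 4).mul_mem_left _ k3)
    refine span7 hres hM' (-(2 * c 1 2 2) / c 1 1 2) ?_ (pow4 hM' ?_ ?_ ?_ ?_ ?_)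
    · refine unscale h112 ?_
      have : κ (c 1 1 2) * (y * y - κ (-(2 * c 1 2 2) / c 1 1 2) * (y * z)) =
          κ (c 1 1 2) * (y * y) + κ (2 * c 1 2 2) * (y * z) := by
        have e : κ (c 1 1 2) * κ (-(2 * c 1 2 2) / c 1 1 2) = -κ (2 * c 1 2 2) := by
          rw [← map_mul, mul_div_cancel₀ _ h112, map_neg]
        linear_combination (-(y * z)) * e
      rw [this]
      exact g2
    · convert mul_mem_pow k4 hy1 (k := 5) rfl using 1; ring
    · convert mul_mem_pow k4 hz1 (k := 5) rfl using 1; ring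
    · convert mul_mem_pow k3 hz1 (k := 5) rfl using 1; ring
    · convert mul_mem_pow k1 hz1 (k := 5) rfl using 1; ring
    · convert mul_mem_pow k2 hz1 (k := 5) rfl using 1; ring

end Rel

end Crest.Agent.R257.P8b_472
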