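import Crest.Agent.R257.LCDefs_472

/-!
R257 / P8c_472: coordinates for a symmetric trilinear form `D` (a smooth cubic) and a linear form.
-/

set_option autoImplicit false
set_option linter.unusedVariables false
set_option linter.unusedSectionVars false

noncomputable section

namespace Crest.Agent.R257.P8c_472

open Crest.Agent.R257.Defs_219

/-- symmetric trilinear forms on `ℂ³` -/
structure Tri (D : E3 → E3 → E3 → ℂ) : Prop where
  add : ∀ u v w w', D u v (w + w') = D u v w + D u v w'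
  smul : ∀ u v w (c : ℂ), D u v (c • w) = c * D u v w
  sw12 : ∀ u v w, D u v w = D v u w
  sw23 : ∀ u v w, D u v w = D u w v

variable {D : E3 → E3 → E3 → ℂ}

namespace Tri

theorem add2 (h : Tri D) (u v v' w : E3) : D u (v + v') w = D u v w + D u v' w := by
  rw [h.sw23 u (v + v') w, h.add, h.sw23 u w v, h.sw23 u w v']

theorem smul2 (h : Tri D) (u v w : E3) (c : ℂ) : D u (c • v) w = c * D u v w := by
  rw [h.sw23 u (c • v) w, h.smul, h.sw23 u w v]

theorem add1 (h : Tri D) (u u' v w : E3) : D (u + u') v w = D u v w + D u' v w := by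
  rw [h.sw12 (u + u') v w, h.add2, h.sw12 v u w, h.sw12 v u' w]

theorem smul1 (h : Tri D) (u v w : E3) (c : ℂ) : D (c • u) v w = c * D u v w := by
  rw [h.sw12 (c • u) v w, h.smul2, h.sw12 v u w]

end Tri

/-- roots of polynomials of degree two -/
theorem root2 {a b c : ℂ} (ha : a ≠ 0) : ∃ s : ℂ, a * s ^ 2 + b * s + c = 0 := by
  obtain ⟨d, hd⟩ := IsAlgClosed.exists_pow_nat_eq (b ^ 2 - 4 * a * c) (n := 2) (by norm_num)
  refine ⟨(-b + d) / (2 * a), ?_⟩
  field_simp
  linear_combination hd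

/-- roots of polynomials of degree three -/
theorem root3 {a b c d : ℂ} (ha : a ≠ 0) : ∃ s : ℂ, a * s ^ 3 + b * s ^ 2 + c * s + d = 0 := by
  let p : Polynomial ℂ := Polynomial.C a * Polynomial.X ^ 3 + Polynomial.C b * Polynomial.X ^ 2 +
    Polynomial.C c * Polynomial.X + Polynomial.C d
  have hp : p.degree ≠ 0 := by
    rw [Polynomial.degree_cubic ha]
    norm_num
  obtain ⟨s, hs⟩ := IsAlgClosed.exists_root p hp
  refine ⟨s, ?_⟩
  simpa [p, Polynomial.IsRoot] using hs

/-- the three cases -/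
def Case (c : Fin 3 → Fin 3 → Fin 3 → ℂ) : Prop :=
  (c 1 1 2 ≠ 0 ∧ c 1 2 2 = 0 ∧ c 2 2 2 = 0 ∧ c 0 2 2 ≠ 0) ∨
  (c 1 1 1 ≠ 0 ∧ c 1 1 2 = 0 ∧ c 1 2 2 = 0 ∧ c 2 2 2 = 0 ∧ c 0 2 2 ≠ 0) ∨
  (c 1 1 1 = 0 ∧ c 1 1 2 ≠ 0 ∧ c 1 2 2 ≠ 0 ∧ c 2 2 2 = 0)

theorem normal (hD : Tri D) (lam : E3 →ₗ[ℂ] ℂ) (hl : lam ≠ 0)
    (hs : ∀ v : E3, v ≠ 0 → ∃ w, D v v w ≠ 0) :
    ∃ u : Fin 3 → E3, lam (u 0) = 1 ∧ lam (u 1) = 0 ∧ lam (u 2) = 0 ∧
      (∀ a b : ℂ, a • u 1 + b • u 2 = 0 → a = 0 ∧ b = 0) ∧
      Case (fun i j k => D (u i) (u j) (u k)) := by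
  -- `u₀`
  obtain ⟨x, hx⟩ : ∃ x, lam x ≠ 0 := by
    by_contra hcon
    push Not at hcon
    exact hl (LinearMap.ext hcon)
  set u0 : E3 := (lam x)⁻¹ • x with hu0
  have hl0 : lam u0 = 1 := by
    rw [hu0, map_smul, smul_eq_mul, inv_mul_cancel₀ hx]
  let K := LinearMap.ker lam
  have hKdim : Module.finrank ℂ K = 2 := by
    have h1 := LinearMap.finrank_range_add_finrank_ker lam
    have h2 : LinearMap.range lam = ⊤ := LinearMap.range_eq_top.2 (LinearMap.surjective hl)
    rw [h2, finrank_top, Module.finrank_self] at h1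
    have h3 : Module.finrank ℂ E3 = 3 := by simp
    rw [h3] at h1
    change Module.finrank ℂ (LinearMap.ker lam) = 2
    omega
  -- complements in `K`
  have hpair : ∀ v : E3, lam v = 0 → v ≠ 0 → ∃ u : E3, lam u = 0 ∧
      (∀ a b : ℂ, a • u + b • v = 0 → a = 0 ∧ b = 0) ∧
      ∀ w, lam w = 0 → ∃ a b : ℂ, w = a • u + b • v := by
    intro v hv hv0
    let v' : K := ⟨v, hv⟩
    have hv' : v' ≠ 0 := fun h => hv0 (congrArg Subtype.val h)
    obtain ⟨y, hy⟩ := exists_linearIndependent_pair_of_one_lt_finrank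
      (R := ℂ) (M := K) (by rw [hKdim]; norm_num) hv'
    have hspan := hy.span_eq_top_of_card_eq_finrank' (by simp [hKdim])
    refine ⟨y, y.2, ?_, ?_⟩
    · intro a b hab
      rw [LinearIndependent.pair_iff] at hy
      have := hy b a (by
        apply Subtype.ext
        change b • v + a • (y : E3) = 0
        rw [add_comm]
        exact hab)
      exact ⟨this.2, this.1⟩
    · intro w hw
      have hw' : (⟨w, hw⟩ : K) ∈ Submodule.span ℂ (Set.range ![v', y]) := by
        rw [hspan]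
        trivial
      rw [Matrix.range_cons, Matrix.range_cons, Matrix.range_empty, Set.union_empty,
        Set.singleton_union, Submodule.mem_span_pair] at hw'
      obtain ⟨a, b, hab⟩ := hw'
      refine ⟨b, a, ?_⟩
      have := congrArg Subtype.val hab
      change a • v + b • (y : E3) = w at this
      rw [← this, add_comm]
  have hdec : ∀ w : E3, w = lam w • u0 + (w - lam w • u0) ∧ lam (w - lam w • u0) = 0 := by
    intro w
    refine ⟨by abel, ?_⟩
    rw [map_sub, map_smul, hl0]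
    simp
  by_cases hA : ∃ v : E3, lam v = 0 ∧ v ≠ 0 ∧ ∀ w, lam w = 0 → D v v w = 0
  · obtain ⟨v, hv, hv0, hvw⟩ := hA
    obtain ⟨u, hu, hind, hsp⟩ := hpair v hv hv0
    have h022 : D u0 v v ≠ 0 := by
      intro h0
      obtain ⟨w, hw⟩ := hs v hv0
      apply hw
      rw [(hdec w).1, hD.add, hD.smul, hvw _ (hdec w).2, hD.sw23 v v u0, hD.sw12 v u0 v, h0]
      simp
    have h222 : D v v v = 0 := hvw v hv
    have h122 : D u v v = 0 := by
      rw [hD.sw12 u v v, hD.sw23 v u v]
      exact hvw u hu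
    refine ⟨![u0, u, v], hl0, hu, hv, hind, ?_⟩
    by_cases h112 : D u u v = 0
    · refine Or.inr (Or.inl ⟨?_, h112, h122, h222, h022⟩)
      change D u u u ≠ 0
      intro h111
      -- the cubic is divisible by the linear form
      obtain ⟨s, hs2⟩ := root2 (a := D u0 v v) (b := 2 * D u0 u v) (c := D u0 u u) h022
      obtain ⟨w, hw⟩ := hs (u + s • v) (by
        intro h0
        have := hind 1 s (by rw [one_smul]; exact h0)
        exact one_ne_zero this.1)
      apply hw
      obtain ⟨a, b, hab⟩ := hsp _ (hdec w).2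
      rw [(hdec w).1, hab]
      have e1 : D u v u = D u u v := hD.sw23 u v u
      have e2 : D v u u = D u u v := by rw [hD.sw12 v u u, hD.sw23 u v u]
      have e3 : D v u v = D u v v := hD.sw12 v u v
      have e4 : D v v u = D u v v := by rw [hD.sw23 v v u, hD.sw12 v u v]
      have f1 : D u u u0 = D u0 u u := by rw [hD.sw23 u u u0, hD.sw12 u u0 u]
      have f2 : D u v u0 = D u0 u v := by rw [hD.sw23 u v u0, hD.sw12 u u0 v]
      have f3 : D v u u0 = D u0 u v := by rw [hD.sw23 v u u0, hD.sw12 v u0 u, hD.sw23 u0 v u]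
      have f4 : D v v u0 = D u0 v v := by rw [hD.sw23 v v u0, hD.sw12 v u0 v]
      simp only [hD.add, hD.smul, hD.add1, hD.smul1, hD.add2, hD.smul2, e1, e2, e3, e4, f1, f2, f3,
        f4, h111, h112, h122, h222]
      linear_combination (lam w) * hs2
    · exact Or.inl ⟨h112, h122, h222, h022⟩
  · push Not at hA
    -- a root of the binary cubic
    obtain ⟨q0, hq0⟩ : ∃ q : K, q ≠ 0 := by
      have : Nontrivial K := Module.nontrivial_of_finrank_pos (R := ℂ) (by rw [hKdim]; norm_num)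
      exact exists_ne 0
    have hq1 : lam (q0 : E3) = 0 := q0.2
    have hq2 : (q0 : E3) ≠ 0 := fun h => hq0 (Subtype.ext h)
    obtain ⟨p, hp, hind, hsp⟩ := hpair q0 hq1 hq2
    obtain ⟨v, hv, hv0, hvvv⟩ : ∃ v : E3, lam v = 0 ∧ v ≠ 0 ∧ D v v v = 0 := by
      by_cases hq : D (q0 : E3) q0 q0 = 0
      · exact ⟨q0, hq1, hq2, hq⟩
      · obtain ⟨s, hs3⟩ := root3 (a := D (q0 : E3) q0 q0) (b := 3 * D p q0 q0) (c := 3 * D p p q0)
          (d := D p p p) hq
        refine ⟨p + s • (q0 : E3), by rw [map_add, map_smul, hp, hq1]; simp, ?_, ?_⟩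
        · intro h0
          have := hind 1 s (by rw [one_smul]; exact h0)
          exact one_ne_zero this.1
        · have e1 : D p q0 p = D p p q0 := hD.sw23 p q0 p
          have e2 : D (q0 : E3) p p = D p p q0 := by rw [hD.sw12 _ p p, hD.sw23 p _ p]
          have e3 : D (q0 : E3) p q0 = D p q0 q0 := hD.sw12 _ p _
          have e4 : D (q0 : E3) q0 p = D p q0 q0 := by rw [hD.sw23 _ _ p, hD.sw12 _ p _]
          simp only [hD.add, hD.smul, hD.add1, hD.smul1, hD.add2, hD.smul2, e1, e2, e3, e4]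
          linear_combination hs3
    obtain ⟨u', hu', hind', hsp'⟩ := hpair v hv hv0
    have h122' : D u' v v ≠ 0 := by
      intro h0
      obtain ⟨w, hw, hw0⟩ := hA v hv hv0
      apply hw0
      obtain ⟨a, b, rfl⟩ := hsp' w hw
      rw [hD.add, hD.smul, hD.smul, hvvv, hD.sw23 v v u', hD.sw12 v u' v, h0]
      simp
    obtain ⟨s, hs2⟩ := root2 (a := 3 * D u' v v) (b := 3 * D u' u' v) (c := D u' u' u')
      (mul_ne_zero (by norm_num) h122')
    have g1 : D u' v u' = D u' u' v := hD.sw23 u' v u'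
    have g2 : D v u' u' = D u' u' v := by rw [hD.sw12 v u' u', hD.sw23 u' v u']
    have g3 : D v u' v = D u' v v := hD.sw12 v u' v
    have g4 : D v v u' = D u' v v := by rw [hD.sw23 v v u', hD.sw12 v u' v]
    set u : E3 := u' + s • v with hu_def
    have hu : lam u = 0 := by rw [hu_def, map_add, map_smul, hu', hv]; simp
    have h111 : D u u u = 0 := by
      rw [hu_def]
      simp only [hD.add, hD.smul, hD.add1, hD.smul1, hD.add2, hD.smul2, g1, g2, g3, g4, hvvv]
      linear_combination hs2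
    have h122 : D u v v ≠ 0 := by
      rw [hu_def, hD.add1, hD.smul1, hvvv]
      simpa using h122'
    have hindu : ∀ a b : ℂ, a • u + b • v = 0 → a = 0 ∧ b = 0 := by
      intro a b hab
      have : a • u' + (a * s + b) • v = 0 := by
        rw [← hab, hu_def]
        module
      obtain ⟨h1, h2⟩ := hind' _ _ this
      rw [h1] at h2
      exact ⟨h1, by simpa using h2⟩
    have hspu : ∀ w, lam w = 0 → ∃ a b : ℂ, w = a • u + b • v := by
      intro w hw
      obtain ⟨a, b, rfl⟩ := hsp' w hw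
      refine ⟨a, b - a * s, ?_⟩
      rw [hu_def]
      module
    have hune : u ≠ 0 := by
      intro h0
      have := hindu 1 0 (by rw [h0]; simp)
      exact one_ne_zero this.1
    have h112 : D u u v ≠ 0 := by
      intro h0
      obtain ⟨w, hw, hw0⟩ := hA u hu hune
      apply hw0
      obtain ⟨a, b, rfl⟩ := hspu w hw
      rw [hD.add, hD.smul, hD.smul, h111, h0]
      simp
    exact ⟨![u0, u, v], hl0, hu, hv, hindu, Or.inr (Or.inr ⟨h111, h112, h122, hvvv⟩)⟩

end Crest.Agent.R257.P8c_472
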