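import Crest.Agent.R257.P8b_472
import Crest.Agent.R257.P8c_472
import Crest.Agent.R257.CNS_939
import Crest.Agent.R257.LCa_472

/-!
R257 / P8d_472: `dim O/(2 δ_{i0} y_0 + ∑ c_{ijk} y_j y_k) ≤ 7`.
-/

set_option autoImplicit false
set_option linter.unusedVariables false
set_option linter.unusedSectionVars false

open Set Filter Topology IsLocalRing
open Crest.Agent.R275.Loc2879
open Crest.Agent.R257.Defs_219 Crest.Agent.R257.UI939
open Crest.Agent.R257.P8b_472 Crest.Agent.R257.P8c_472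

noncomputable section

namespace Crest.Agent.R257.P8d_472

/-- the generators -/
def gq (c : Fin 3 → Fin 3 → Fin 3 → ℂ) (i : Fin 3) (y : E3) : ℂ :=
  2 * (if i = 0 then y 0 else 0) + ∑ j, ∑ k, c i j k * y j * y k

theorem an_gq (c : Fin 3 → Fin 3 → Fin 3 → ℂ) (i : Fin 3) (p : E3) : AnalyticAt ℂ (gq c i) p := by
  have hx : ∀ j : Fin 3, AnalyticAt ℂ (fun y : E3 => y j) p := fun j => an_coord j p
  have h2 : AnalyticAt ℂ (fun y : E3 => ∑ j, ∑ k, c i j k * y j * y k) p :=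
    Finset.analyticAt_fun_sum _ fun j _ => Finset.analyticAt_fun_sum _ fun k _ =>
      (analyticAt_const.mul (hx j)).mul (hx k)
  by_cases h : i = 0
  · subst h
    have : gq c 0 = fun y => 2 * y 0 + ∑ j, ∑ k, c 0 j k * y j * y k := by
      ext y
      simp [gq]
    rw [this]
    exact (analyticAt_const.mul (hx 0)).add h2
  · have : gq c i = fun y => 2 * 0 + ∑ j, ∑ k, c i j k * y j * y k := by
      ext y
      simp [gq, h]
    rw [this]
    exact analyticAt_const.add h2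

variable {c : Fin 3 → Fin 3 → Fin 3 → ℂ}

theorem max_eq : maximalIdeal (BB 3) = Ideal.span {xB 0, xB 1, xB 2} := by
  refine le_antisymm (fun a ha => ?_) ?_
  · obtain ⟨k, y, hy⟩ := hadamard a
    have h1 : evp 0 a = 0 := by
      by_contra hne
      have : IsUnit a := isUnit_iff.2 hne
      exact (IsLocalRing.mem_maximalIdeal a).1 ha this
    have h2 : ∀ i, evp (0 : Fin 3 → ℂ) (xB i) = 0 := fun i => rfl
    have h3 : k = 0 := by
      have := congrArg (evp (0 : Fin 3 → ℂ)) hy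
      rw [h1, map_add, map_sum] at this
      simp only [map_mul, h2, mul_zero, Finset.sum_const_zero, add_zero] at this
      exact this.symm
    rw [hy, h3, map_zero, zero_add, Fin.sum_univ_three]
    refine Ideal.add_mem _ (Ideal.add_mem _ ?_ ?_) ?_
    · exact Ideal.mul_mem_left _ _ (Ideal.subset_span (by simp))
    · exact Ideal.mul_mem_left _ _ (Ideal.subset_span (by simp))
    · exact Ideal.mul_mem_left _ _ (Ideal.subset_span (by simp))
  · refine Ideal.span_le.2 ?_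
    intro s hs
    have h2 : ∀ i, (xB i : BB 3) ∈ maximalIdeal (BB 3) := fun i => by
      rw [IsLocalRing.mem_maximalIdeal]
      intro hu
      have := isUnit_iff.1 hu
      exact this rfl
    simp only [Set.mem_insert_iff, Set.mem_singleton_iff] at hs
    rcases hs with rfl | rfl | rfl
    · exact h2 0
    · exact h2 1
    · exact h2 2

theorem idl_le (c : Fin 3 → Fin 3 → Fin 3 → ℂ) :
    Idl (0 : Fin 3 → ℂ) (gq c) ≤ maximalIdeal (BB 3) := by
  intro a ha
  obtain ⟨k, rfl⟩ := (mem_Idl (fun j => an_gq c j 0)).1 ha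
  refine Ideal.sum_mem _ fun j _ => Ideal.mul_mem_left _ _ ?_
  rw [IsLocalRing.mem_maximalIdeal]
  intro hu
  have h1 := isUnit_iff.1 hu
  apply h1
  change gq c j 0 = 0
  simp [gq]

theorem col_gq (h12 : ∀ i j k, c i j k = c j i k) (h23 : ∀ i j k, c i j k = c i k j)
    (hc : Case c) : ColFin (gq c) ∧ col (gq c) ≤ 7 := by
  have hg : ∀ i, AnalyticAt ℂ (gq c i) 0 := fun i => an_gq c i 0
  set I : Ideal (BB 3) := Idl (0 : Fin 3 → ℂ) (gq c) with hI
  have hIle : I ≤ maximalIdeal (BB 3) := idl_le c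
  have hIne : I ≠ ⊤ := fun h => (Ideal.IsPrime.ne_top'
    (I := maximalIdeal (BB 3))) (top_le_iff.1 (h ▸ hIle))
  have : Nontrivial (BB 3 ⧸ I) := Ideal.Quotient.nontrivial_iff.2 hIne
  have : IsLocalRing (BB 3 ⧸ I) :=
    IsLocalRing.of_surjective' (Ideal.Quotient.mk I) Ideal.Quotient.mk_surjective
  have hmk : ∀ a : BB 3, a ∈ maximalIdeal (BB 3) →
      Ideal.Quotient.mk I a ∈ maximalIdeal (BB 3 ⧸ I) := by
    intro a ha
    rw [IsLocalRing.mem_maximalIdeal]
    intro hu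
    obtain ⟨b, hb⟩ := hu.exists_right_inv
    obtain ⟨b, rfl⟩ := Ideal.Quotient.mk_surjective b
    rw [← map_mul, ← map_one (Ideal.Quotient.mk I), Ideal.Quotient.eq] at hb
    have h1 := hIle hb
    have h2 : a * b ∈ maximalIdeal (BB 3) := Ideal.mul_mem_right _ _ ha
    have h3 : (1 : BB 3) ∈ maximalIdeal (BB 3) := by
      have := Ideal.sub_mem _ h2 h1
      simpa using this
    exact (Ideal.ne_top_iff_one _).1 (maximalIdeal.isMaximal (BB 3)).ne_top h3
  have hmk' : ∀ a : BB 3, Ideal.Quotient.mk I a ∈ maximalIdeal (BB 3 ⧸ I) →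
      a ∈ maximalIdeal (BB 3) := by
    intro a ha
    rw [IsLocalRing.mem_maximalIdeal] at ha ⊢
    intro hu
    exact ha (hu.map (Ideal.Quotient.mk I))
  set x : BB 3 ⧸ I := Ideal.Quotient.mk I (xB 0) with hx
  set y : BB 3 ⧸ I := Ideal.Quotient.mk I (xB 1) with hy
  set z : BB 3 ⧸ I := Ideal.Quotient.mk I (xB 2) with hz
  have hM : maximalIdeal (BB 3 ⧸ I) = Ideal.span {x, y, z} := by
    refine le_antisymm ?_ ?_
    · intro b hb
      obtain ⟨a, rfl⟩ := Ideal.Quotient.mk_surjective b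
      have h1 := hmk' a hb
      rw [max_eq] at h1
      have h2 := Ideal.mem_map_of_mem (Ideal.Quotient.mk I) h1
      rw [Ideal.map_span] at h2
      rw [Set.image_insert_eq, Set.image_insert_eq, Set.image_singleton] at h2
      exact h2
    · refine Ideal.span_le.2 ?_
      intro s hs
      have h2 : ∀ i, (xB i : BB 3) ∈ maximalIdeal (BB 3) := fun i => by
        rw [IsLocalRing.mem_maximalIdeal]
        intro hu
        exact (isUnit_iff.1 hu) rfl
      simp only [Set.mem_insert_iff, Set.mem_singleton_iff] at hs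
      rcases hs with rfl | rfl | rfl
      · exact hmk _ (h2 0)
      · exact hmk _ (h2 1)
      · exact hmk _ (h2 2)
  have hres : ∀ b : BB 3 ⧸ I, ∃ k : ℂ, b - algebraMap ℂ (BB 3 ⧸ I) k ∈
      maximalIdeal (BB 3 ⧸ I) := by
    intro b
    obtain ⟨a, rfl⟩ := Ideal.Quotient.mk_surjective b
    refine ⟨evp 0 a, ?_⟩
    have h1 : algebraMap ℂ (BB 3 ⧸ I) (evp 0 a) =
        Ideal.Quotient.mk I (algebraMap ℂ (BB 3) (evp 0 a)) := rfl
    rw [h1, ← map_sub]
    refine hmk _ ?_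
    rw [IsLocalRing.mem_maximalIdeal]
    intro hu
    refine (isUnit_iff.1 hu) ?_
    rw [map_sub]
    have : evp (0 : Fin 3 → ℂ) (algebraMap ℂ (BB 3) (evp 0 a)) = evp 0 a := rfl
    rw [this, sub_self]
  have hzero : ∀ i, Ideal.Quotient.mk I (gm (gq c i) (hg i)) = 0 := fun i => by
    rw [Ideal.Quotient.eq_zero_iff_mem]
    refine (mem_Idl hg).2 ⟨Pi.single i 1, ?_⟩
    rw [Finset.sum_eq_single i]
    · simp
    · intro j _ hj
      simp [hj]
    · simp
  -- the three relations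
  have F0 : (algebraMap ℂ (BB 3) 2 * xB 0 + (algebraMap ℂ (BB 3) (c 0 1 1) * (xB 1 * xB 1) +
      algebraMap ℂ (BB 3) (2 * c 0 1 2) * (xB 1 * xB 2) +
      algebraMap ℂ (BB 3) (c 0 2 2) * (xB 2 * xB 2)) + xB 0 * (algebraMap ℂ (BB 3) (c 0 0 0) * xB 0 +
        algebraMap ℂ (BB 3) (2 * c 0 0 1) * xB 1 + algebraMap ℂ (BB 3) (2 * c 0 0 2) * xB 2)) =
      gm (gq c 0) (hg 0) := by
    have p0 : ∀ v : E3, 2 * v 0 + (c 0 1 1 * (v 1 * v 1) + 2 * c 0 1 2 * (v 1 * v 2) +
        c 0 2 2 * (v 2 * v 2)) + v 0 * (c 0 0 0 * v 0 + 2 * c 0 0 1 * v 1 + 2 * c 0 0 2 * v 2) =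
        gq c 0 v := by
      intro v
      simp only [gq, Fin.sum_univ_three, if_true]
      rw [h23 0 1 0, h23 0 2 0, h23 0 2 1]
      ring
    exact (gm_eq_gm (hf := (hg 0).congr (Eventually.of_forall fun v => (p0 v).symm))).2
      (Eventually.of_forall p0)
  have F1 : (algebraMap ℂ (BB 3) (c 1 1 1) * (xB 1 * xB 1) +
      algebraMap ℂ (BB 3) (2 * c 1 1 2) * (xB 1 * xB 2) +
      algebraMap ℂ (BB 3) (c 1 2 2) * (xB 2 * xB 2) + xB 0 * (algebraMap ℂ (BB 3) (c 0 0 1) * xB 0 +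
        algebraMap ℂ (BB 3) (2 * c 0 1 1) * xB 1 + algebraMap ℂ (BB 3) (2 * c 0 1 2) * xB 2)) =
      gm (gq c 1) (hg 1) := by
    have p1 : ∀ v : E3, c 1 1 1 * (v 1 * v 1) + 2 * c 1 1 2 * (v 1 * v 2) +
        c 1 2 2 * (v 2 * v 2) + v 0 * (c 0 0 1 * v 0 + 2 * c 0 1 1 * v 1 + 2 * c 0 1 2 * v 2) =
        gq c 1 v := by
      intro v
      simp only [gq, Fin.sum_univ_three]
      rw [h23 1 1 0, h23 1 2 0, h23 1 2 1, h12 1 0 0, h12 1 0 1, h12 1 0 2, h23 0 1 0]
      simp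
      ring
    exact (gm_eq_gm (hf := (hg 1).congr (Eventually.of_forall fun v => (p1 v).symm))).2
      (Eventually.of_forall p1)
  have F2 : (algebraMap ℂ (BB 3) (c 1 1 2) * (xB 1 * xB 1) +
      algebraMap ℂ (BB 3) (2 * c 1 2 2) * (xB 1 * xB 2) +
      algebraMap ℂ (BB 3) (c 2 2 2) * (xB 2 * xB 2) + xB 0 * (algebraMap ℂ (BB 3) (c 0 0 2) * xB 0 +
        algebraMap ℂ (BB 3) (2 * c 0 1 2) * xB 1 + algebraMap ℂ (BB 3) (2 * c 0 2 2) * xB 2)) =
      gm (gq c 2) (hg 2) := by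
    have p2 : ∀ v : E3, c 1 1 2 * (v 1 * v 1) + 2 * c 1 2 2 * (v 1 * v 2) +
        c 2 2 2 * (v 2 * v 2) + v 0 * (c 0 0 2 * v 0 + 2 * c 0 1 2 * v 1 + 2 * c 0 2 2 * v 2) =
        gq c 2 v := by
      intro v
      simp only [gq, Fin.sum_univ_three]
      rw [h23 2 1 0, h23 2 2 0, h23 2 2 1, h12 2 0 0, h12 2 0 1, h12 2 0 2, h23 0 2 0, h23 0 2 1,
        h12 2 1 1, h12 2 1 2, h23 1 2 1]
      simp
      ring
    exact (gm_eq_gm (hf := (hg 2).congr (Eventually.of_forall fun v => (p2 v).symm))).2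
      (Eventually.of_forall p2)
  have E0 := congrArg (Ideal.Quotient.mk I) F0
  have E1 := congrArg (Ideal.Quotient.mk I) F1
  have E2 := congrArg (Ideal.Quotient.mk I) F2
  rw [hzero] at E0 E1 E2
  simp only [map_add, map_mul] at E0 E1 E2
  have key := le7 (A := BB 3 ⧸ I) (x := x) (y := y) (z := z) hres hM c
    (by simp only [map_mul]; exact E0) (by simp only [map_mul]; exact E1)
    (by simp only [map_mul]; exact E2) hc
  exact ⟨(colFin_iff hg).2 key.1, by rw [col_eq hg]; exact key.2⟩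

end Crest.Agent.R257.P8d_472
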