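import Crest.Agent.R257.KEG_952
import Crest.Agent.R257.UpK1_938
import Crest.Agent.R257.Low_39
import Crest.Agent.R257.GradK_39

/-!
# Row 257 (S0395), PAIR-K (helper39), part 1: the punctured level as a surface, `lowK`, `gmK`

For `hf : LvlOK f 0 r`, `KEon f 0 r u`, `Esc f r u A`:
* `lowK` : psh `w` with `c e^w |η|² ≤ det ∂∂̄w` near `0` implies `w ≤ u + C` near `0`
* `gmK`  : `|g|² ≤ C (A - u)^m e^{a u}` near `0` implies `UpB f ρ u A' (m + 2) (a u) g`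
-/

set_option autoImplicit false
set_option linter.unusedSectionVars false

open Set Filter Topology Complex
open scoped ContDiff ComplexConjugate Matrix

namespace Crest.Agent.R257.PairK_39

open Crest.Agent.R275.Geo Crest.Agent.R275.Core144 Crest.Agent.R275.GC293
open Crest.Agent.R273
open Crest.Agent.R273.YauDefs_635 (cH lev333_eq_lev145 inC)
open Crest.Agent.R273.YauMax_635 (continuous_of_sm)
open Crest.Agent.R257.PN_835 (nsq)
open Crest.Agent.R257.Aff_835 (eta2a)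
open Crest.Agent.R257.Defs_219 Crest.Agent.R257.KED_952 Crest.Agent.R257.KEG_952
open Crest.Agent.R257.V1Defs_822 (SmL LvlOK lgh)
open Crest.Agent.R257.UpK_938 (LX mem_M mkM thc pe_chart thc_eq)
open Crest.Agent.R257.CLD_39 (two_le')
open Crest.Agent.R257.GMa_101 Crest.Agent.R257.GMb_101 Crest.Agent.R257.GMc_101
open Crest.Agent.R257.GradK_39 (continuous_nsq isCompact_nsq_le)

noncomputable section

variable {f : E3 → ℂ} {r : ℝ} {u : E3 → ℝ} {A : ℝ}

/-! ### restriction to smaller balls -/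

theorem PE.mono' {s : ℂ} {r r' : ℝ} {θ : Cn 2 → E3} {O : Set (Cn 2)} (h : PE f s r' θ O)
    (h0 : 0 ≤ r') (hr : r' ≤ r) : PE f s r θ O :=
  ⟨h.par, h.ne, fun z hz => (h.lt z hz).trans_le (pow_le_pow_left₀ h0 hr 2)⟩

theorem KEon.mono' {s : ℂ} {r r' : ℝ} (h : KEon f s r u) (h0 : 0 ≤ r') (hr : r' ≤ r) :
    KEon f s r' u :=
  ⟨fun θ O hP => h.sm θ O (PE.mono' hP h0 hr), fun θ O hP => h.pos θ O (PE.mono' hP h0 hr),
    fun θ O hP => h.ma θ O (PE.mono' hP h0 hr)⟩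

theorem Esc.mono' {r r' : ℝ} (h : Esc f r u A) (h0 : 0 ≤ r') (hr : r' ≤ r) : Esc f r' u A :=
  ⟨h.pos, fun x h1 h2 h3 => h.one x h1 h2 (h3.trans_le (pow_le_pow_left₀ h0 hr 2)), h.inf,
    fun θ O hP => h.grad θ O (PE.mono' hP h0 hr)⟩

/-! ### gradient: real and complex -/

/-- `|∂u v|² = ((du v)² + (du (iv))²) / 4` -/
theorem norm_gr_sq {u : Cn 2 → ℝ} {z : Cn 2} (hu : DifferentiableAt ℝ u z) (v : Cn 2) :
    ‖Levi_145.gr u z v‖ ^ 2 = ((fderiv ℝ u z v) ^ 2 + (fderiv ℝ u z (I • v)) ^ 2) / 4 := by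
  rw [Levi_145.gr_eq hu, ← Complex.normSq_eq_norm_sq, Complex.normSq_apply]
  simp
  ring

theorem lev_I_smul (u : Cn 2 → ℝ) (z : Cn 2) (v : Cn 2) :
    Levi_145.lev u z (I • v) = Levi_145.lev u z v := by
  unfold Levi_145.lev
  have h1 : I • I • v = (-1 : ℂ) • v := by rw [smul_smul, Complex.I_mul_I]
  rw [h1]
  simp
  ring

/-! ### the level as a surface -/

section lvl

variable (hf : LvlOK f 0 r)

/-- functions on the level -/
def vl (a : E3 → ℝ) : (LX hf).M 0 → ℝ := fun x => a x.1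

theorem inC_vl (a : E3 → ℝ) (i : ((LX hf).A 0).ι) :
    inC ((LX hf).A 0) i (vl hf a) = fun z => a (thc hf i z) := rfl

theorem sm_vl {a : E3 → ℝ} (ha : SmL f 0 r a) : ((LX hf).A 0).Sm (vl hf a) := fun i =>
  ha _ _ (pe_chart hf i)

theorem psh_vl (hK : KEon f 0 r u) : Psh ((LX hf).A 0) (vl hf u) := by
  intro i z hz v hv
  have h := hK.pos _ _ (pe_chart hf i) z hz v hv
  rw [lev333_eq_lev145] at h
  show 0 < Levi_145.lev (fun z => u (thc hf i z)) z v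
  linarith

theorem kele_vl (hK : KEon f 0 r u) : KEle ((LX hf).A 0) (vl hf u) 1 := by
  intro i
  have hP := pe_chart hf i
  set θ := thc hf i with hθ
  set U := (((LX hf).A 0).e i).target with hU
  have hUo : IsOpen U := hP.par.isOpen
  have hs : ∀ z ∈ U, ContDiffAt ℝ ∞ (fun z => u (θ z)) z := fun z hz =>
    (hK.sm _ _ hP).contDiffAt (hUo.mem_nhds hz)
  have hp : ∀ z ∈ U, ∀ v, v ≠ 0 → 0 < Levi_145.lev (fun z => u (θ z)) z v := fun z hz v hv => by
    have h := hK.pos _ _ hP z hz v hv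
    rw [lev333_eq_lev145] at h
    linarith
  have hUm : ∀ z ∈ U, C2a_793.Um (fun z => u (θ z)) z = cH (fun z => u (θ z)) z := fun z hz =>
    C2f_793.Um_eq_cH (two_le' (hs z hz))
  have hdp : ∀ z ∈ U, 0 < (C2a_793.Um (fun z => u (θ z)) z).det.re := fun z hz =>
    (Complex.pos_iff.1 (C2c_793.Um_posDef (two_le' (hs z hz)) (hp z hz)).det_pos).1
  have hΩ : IsOpen {x : E3 | x ≠ 0 ∧ nsq x < r ^ 2} :=
    isOpen_ne.inter (isOpen_lt continuous_nsq continuous_const)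
  refine ⟨C2a_793.ld fun z => u (θ z), ?_, ?_, ?_⟩
  · exact fun z hz => (C2a_793.sm_ld (hs z hz) (hdp z hz).ne').contDiffWithinAt
  · intro z hz
    have h1 := hdp z hz
    have h2 := hK.ma _ _ hP z hz
    show (cH (fun z => u (θ z)) z).det = _
    unfold C2a_793.ld
    rw [Real.exp_log h1, hUm z hz]
    rw [h2, Complex.ofReal_re]
  · intro z hz v
    rw [one_mul]
    refine le_of_eq (GradE_537.lev_ld_of_ke (n := 2) hΩ
      (fun x hx => (hf.an x hx.2).differentiableAt.differentiableWithinAt) hP.par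
      (fun w hw => ⟨hP.ne w hw, hP.lt w hw⟩) (hK.sm _ _ hP) hp (hK.ma _ _ hP) hz
      (hf.sm _ (hP.ne z hz) (hP.lt z hz) (hP.par.lvl z hz)) v)

theorem gradB_vl (hK : KEon f 0 r u) (hE : Esc f r u A) (S : Set ((LX hf).M 0)) :
    GradB ((LX hf).A 0) (vl hf u) A (2 * A) S := by
  intro x _ i hi v
  have hP := pe_chart hf i
  have hz : ((LX hf).A 0).e i x ∈ (((LX hf).A 0).e i).target := (((LX hf).A 0).e i).map_source hi
  have hs : ContDiffAt ℝ ∞ (fun z => u (thc hf i z)) (((LX hf).A 0).e i x) :=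
    (hK.sm _ _ hP).contDiffAt (hP.par.isOpen.mem_nhds hz)
  have h1 := hE.grad _ _ hP _ hz v
  have h2 := hE.grad _ _ hP _ hz (I • v)
  rw [lev333_eq_lev145] at h1 h2
  rw [lev_I_smul] at h2
  have hx : thc hf i (((LX hf).A 0).e i x) = x.1 := thc_eq hf hi
  rw [hx] at h1 h2
  show ‖Levi_145.gr (fun z => u (thc hf i z)) _ v‖ ^ 2 ≤
    2 * A * ((A - u x.1) ^ 2 * Levi_145.lev (fun z => u (thc hf i z)) _ v)
  rw [norm_gr_sq (hs.differentiableAt (by simp))]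
  nlinarith

/-- closed ball in the level -/
def Sb (ρ : ℝ) : Set ((LX hf).M 0) := {x | nsq x.1 ≤ ρ ^ 2}

theorem isCompact_lvl {a b : ℝ} (ha : 0 < a) (hb : b < r ^ 2) :
    IsCompact {x : (LX hf).M 0 | a ≤ nsq x.1 ∧ nsq x.1 ≤ b} := by
  have e : (Subtype.val '' {x : (LX hf).M 0 | a ≤ nsq x.1 ∧ nsq x.1 ≤ b}) =
      {x : E3 | a ≤ nsq x ∧ nsq x ≤ b} ∩ f ⁻¹' {0} := by
    ext x
    constructor
    · rintro ⟨y, hy, rfl⟩
      exact ⟨hy, (mem_M hf y).1⟩
    · rintro ⟨hx, h0⟩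
      have hx0 : x ≠ 0 := by
        rintro rfl
        have : nsq (0 : E3) = 0 := by simp [nsq]
        linarith [hx.1]
      exact ⟨mkM hf h0 hx0 (lt_of_le_of_lt hx.2 hb), hx, rfl⟩
  have hcl : IsClosed {x : E3 | a ≤ nsq x ∧ nsq x ≤ b} :=
    (isClosed_le continuous_const continuous_nsq).inter (isClosed_le continuous_nsq continuous_const)
  have hc : ContinuousOn f {x : E3 | a ≤ nsq x ∧ nsq x ≤ b} := fun x hx =>
    (hf.an x (lt_of_le_of_lt hx.2 hb)).continuousAt.continuousWithinAt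
  have h1 : IsCompact ({x : E3 | a ≤ nsq x ∧ nsq x ≤ b} ∩ f ⁻¹' {0}) :=
    (isCompact_nsq_le b).of_isClosed_subset
      (hc.preimage_isClosed_of_isClosed hcl isClosed_singleton) fun x hx => hx.1.2
  rw [← e] at h1
  exact Topology.IsInducing.subtypeVal.isCompact_iff.2 h1

theorem continuous_vl (hK : KEon f 0 r u) : Continuous (vl hf u) :=
  continuous_of_sm (sm_vl hf hK.sm)

theorem prop_vl (hK : KEon f 0 r u) (hE : Esc f r u A) {ρ : ℝ} (h0 : 0 ≤ ρ) (hρ : ρ < r) (R : ℝ) :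
    IsCompact {x ∈ Sb hf ρ | -R ≤ vl hf u x} := by
  obtain ⟨δ, hδ, hi⟩ := hE.inf (-R)
  have h1 : ρ ^ 2 < r ^ 2 := pow_lt_pow_left₀ hρ h0 two_ne_zero
  refine (isCompact_lvl hf (a := δ ^ 2) (by positivity) h1).of_isClosed_subset ?_ ?_
  · have h2 : IsClosed (Sb hf ρ) :=
      isClosed_le (continuous_nsq.comp continuous_subtype_val) continuous_const
    exact h2.inter (isClosed_le continuous_const (continuous_vl hf hK))
  · rintro x ⟨hx1, hx2⟩
    refine ⟨?_, hx1⟩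
    by_contra hlt
    obtain ⟨m1, m2, m3⟩ := mem_M hf x
    have := hi x.1 m1 m2 (not_le.1 hlt)
    have h3 : -R ≤ u x.1 := hx2
    linarith

theorem frontier_vl {ρ : ℝ} (h0 : 0 < ρ) (hρ : ρ < r) :
    IsCompact (Sb hf ρ \ interior (Sb hf ρ)) := by
  have h1 : ρ ^ 2 < r ^ 2 := pow_lt_pow_left₀ hρ h0.le two_ne_zero
  refine (isCompact_lvl hf (a := ρ ^ 2) (by positivity) h1).of_isClosed_subset ?_ ?_
  · have h2 : IsClosed (Sb hf ρ) :=
      isClosed_le (continuous_nsq.comp continuous_subtype_val) continuous_const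
    exact h2.sdiff isOpen_interior
  · rintro x ⟨hx1, hx2⟩
    refine ⟨?_, hx1⟩
    by_contra hlt
    apply hx2
    rw [mem_interior]
    refine ⟨{y : (LX hf).M 0 | nsq y.1 < ρ ^ 2}, fun y hy => le_of_lt (show nsq y.1 < ρ ^ 2 from hy), ?_, not_le.1 hlt⟩
    exact isOpen_lt (continuous_nsq.comp continuous_subtype_val) continuous_const

include hf in
/-- **lower bound of the Kaehler-Einstein weight** (`Low_39.low` on the punctured level) -/
theorem lowK (hK : KEon f 0 r u) (hE : Esc f r u A) {ρ : ℝ} (h0 : 0 < ρ) (hρ : ρ < r)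
    {w : E3 → ℝ} (hw : SmL f 0 r w)
    (hw0 : ∀ θ O, PE f 0 r θ O → ∀ z ∈ O, ∀ v, 0 ≤ Defs_333.lev (fun z => w (θ z)) z v)
    {c : ℝ} (hc : 0 < c)
    (hdet : ∀ θ O, PE f 0 r θ O → ∀ z ∈ O,
      c * Real.exp (w (θ z)) * eta2a (n := 2) f θ z ≤ (cH (fun z => w (θ z)) z).det.re) :
    ∃ C : ℝ, ∀ x, f x = 0 → x ≠ 0 → nsq x ≤ ρ ^ 2 → w x ≤ u x + C := by
  have h1 : ρ ^ 2 < r ^ 2 := pow_lt_pow_left₀ hρ h0.le two_ne_zero
  obtain ⟨C, hC⟩ := Low_39.low (A := (LX hf).A 0) (u := vl hf u) (w := vl hf w) (A₀ := A)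
    (Cg := 2 * A) (S := Sb hf ρ) two_pos (sm_vl hf hK.sm) (psh_vl hf hK)
    (fun x => by
      obtain ⟨m1, m2, m3⟩ := mem_M hf x
      have := hE.one x.1 m1 m2 m3
      show u x.1 + 1 ≤ A
      linarith) (by linarith [hE.pos]) (gradB_vl hf hK hE _) (prop_vl hf hK hE h0.le hρ)
    (frontier_vl hf h0 hρ) (sm_vl hf hw)
    (fun x _ i hi v => by
      have h := hw0 _ _ (pe_chart hf i) _ ((((LX hf).A 0).e i).map_source hi) v
      rw [lev333_eq_lev145] at h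
      show 0 ≤ Levi_145.lev (fun z => w (thc hf i z)) _ v
      linarith) hc
    (fun x _ i hi => by
      have hz := (((LX hf).A 0).e i).map_source hi
      have h2 := hdet _ _ (pe_chart hf i) _ hz
      have h3 := hK.ma _ _ (pe_chart hf i) _ hz
      have hx : thc hf i (((LX hf).A 0).e i x) = x.1 := thc_eq hf hi
      rw [hx] at h2 h3
      show c * Real.exp (w x.1 - u x.1) *
        (cH (fun z => u (thc hf i z)) (((LX hf).A 0).e i x)).det.re ≤
        (cH (fun z => w (thc hf i z)) (((LX hf).A 0).e i x)).det.re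
      rw [h3, Complex.ofReal_re]
      refine le_trans (le_of_eq ?_) h2
      rw [Real.exp_sub]
      field_simp)
  refine ⟨C, fun x m1 m2 m3 => ?_⟩
  exact hC (mkM hf m1 m2 (lt_of_le_of_lt m3 h1)) m3

theorem hol_vl {N : ℕ} {F : E3 → Fin N → ℂ}
    (hF : ∀ k, ∀ x, x ≠ 0 → nsq x < r ^ 2 → DifferentiableAt ℂ (fun x => F x k) x) :
    Hol ((LX hf).A 0) (fun (x : (LX hf).M 0) => F x.1) := by
  intro i k z hz
  have hP := pe_chart hf i
  have h1 := hF k _ (hP.ne z hz) (hP.lt z hz)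
  have h2 : DifferentiableAt ℂ (thc hf i) z :=
    hP.par.hol.differentiableAt (hP.par.isOpen.mem_nhds hz)
  exact (h1.comp z h2).differentiableWithinAt

end lvl

/-- a parametrisation factors through the charts of `LX` -/
theorem factorX (hf : LvlOK f 0 r) {θ : Cn 2 → E3} {O : Set (Cn 2)} (hP : PE f 0 r θ O)
    {z₀ : Cn 2} (hz₀ : z₀ ∈ O) : ∃ (i : ((LX hf).A 0).ι) (T : Cn 2 → Cn 2),
      AnalyticAt ℂ T z₀ ∧ T z₀ ∈ (((LX hf).A 0).e i).target ∧
      (((LX hf).A 0).e i).symm (T z₀) ∈ (((LX hf).A 0).e i).source ∧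
      thc hf i (T z₀) = θ z₀ ∧ θ =ᶠ[𝓝 z₀] fun w => thc hf i (T w) := by
  classical
  -- `θ` as a map to the surface
  set x₀ : (LX hf).M 0 := mkM hf (hP.par.lvl z₀ hz₀) (hP.ne z₀ hz₀) (hP.lt z₀ hz₀) with hx₀
  let ψ : Cn 2 → (LX hf).M 0 := fun z =>
    if hz : z ∈ O then mkM hf (hP.par.lvl z hz) (hP.ne z hz) (hP.lt z hz) else x₀
  have hψ : ∀ z ∈ O, (ψ z).1 = θ z := fun z hz => by
    show (if hz : z ∈ O then mkM hf (hP.par.lvl z hz) (hP.ne z hz) (hP.lt z hz) else x₀).1 = θ z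
    rw [dif_pos hz]
    rfl
  have hpar : Crest.Agent.R257.Atl_941.Par (LX hf) 0 ψ O :=
    ⟨hP.par.isOpen, hP.par.hol.congr fun z hz => hψ z hz⟩
  obtain ⟨i, hi⟩ := ((LX hf).A 0).cover (ψ z₀)
  have hU : IsOpen (O ∩ ψ ⁻¹' (((LX hf).A 0).e i).source) :=
    hpar.contOn.isOpen_inter_preimage hpar.isOpen (((LX hf).A 0).e i).open_source
  have h1 : DifferentiableOn ℂ (fun z => ((LX hf).A 0).e i (ψ z))
      (O ∩ ψ ⁻¹' (((LX hf).A 0).e i).source) :=
    fun w hw => (hpar.diffAt_e hw.1 i).differentiableWithinAt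
  refine ⟨i, fun z => ((LX hf).A 0).e i (ψ z), ?_, (((LX hf).A 0).e i).map_source hi, ?_, ?_, ?_⟩
  · exact ((Crest.Agent.R266.SCV.contDiffOn_omega_of_differentiableOn hU h1).contDiffAt
      (hU.mem_nhds ⟨hz₀, hi⟩)).analyticAt
  · rw [(((LX hf).A 0).e i).left_inv hi]
    exact hi
  · rw [← hψ z₀ hz₀]
    exact thc_eq hf hi
  · filter_upwards [hU.mem_nhds ⟨hz₀, hi⟩] with w hw
    rw [← hψ w hw.1]
    exact (thc_eq hf hw.2).symm

/-- **moving gradient estimate** (helper101's `grad_mov_fderiv` on the punctured level) -/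
theorem gmK (hf : LvlOK f 0 r) (hK : KEon f 0 r u) (hE : Esc f r u A) {ρ : ℝ} (h0 : 0 < ρ)
    (hρ : ρ < r) {N : ℕ} {F : E3 → Fin N → ℂ}
    (hF : ∀ k, ∀ x, x ≠ 0 → nsq x < r ^ 2 → DifferentiableAt ℂ (fun x => F x k) x)
    {C a : ℝ} {m : ℕ} (hC : 0 < C)
    (hb : ∀ x, f x = 0 → x ≠ 0 → nsq x ≤ ρ ^ 2 →
      ∑ k, ‖F x k‖ ^ 2 ≤ C * (Real.exp (a * u x) * (A - u x) ^ m)) :
    ∃ C' : ℝ, 0 < C' ∧ ∀ θ O, PE f 0 ρ θ O → ∀ z ∈ O, ∀ v : Cn 2,
      ∑ k, ‖fderiv ℂ (fun z => F (θ z) k) z v‖ ^ 2 ≤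
        C' * (Real.exp (a * u (θ z)) * (A - u (θ z)) ^ (m + 2)) *
          Levi_145.lev (fun z => u (θ z)) z v := by
  have h1 : ρ ^ 2 < r ^ 2 := pow_lt_pow_left₀ hρ h0.le two_ne_zero
  obtain ⟨C', hC', h⟩ := GMd_101.grad_mov_fderiv (A := (LX hf).A 0) (u := vl hf u) (κ := 1)
    (A₀ := A) (Cg := 2 * A) (C := C) (a := a) (m := m) (S := Sb hf ρ)
    (F := fun x : (LX hf).M 0 => F x.1) (sm_vl hf hK.sm) (psh_vl hf hK) (kele_vl hf hK)
    zero_le_one
    (fun x => by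
      obtain ⟨m1, m2, m3⟩ := mem_M hf x
      have := hE.one x.1 m1 m2 m3
      show u x.1 + 1 ≤ A
      linarith) (by linarith [hE.pos]) (gradB_vl hf hK hE _) (prop_vl hf hK hE h0.le hρ)
    (frontier_vl hf h0 hρ) (hol_vl hf hF) hC
    (fun x hx => by
      obtain ⟨m1, m2, m3⟩ := mem_M hf x
      exact hb x.1 m1 m2 hx)
  refine ⟨C', hC', fun θ O hP z hz v => ?_⟩
  have hP' := PE.mono' hP h0.le hρ.le
  obtain ⟨i, T, hT, hTz, hTs, hTe, hev⟩ := factorX hf hP' hz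
  set x := (((LX hf).A 0).e i).symm (T z) with hx
  have hxθ : x.1 = θ z := hTe
  have hex : ((LX hf).A 0).e i x = T z := (((LX hf).A 0).e i).right_inv hTz
  have h2 := h x (show nsq x.1 ≤ ρ ^ 2 by rw [hxθ]; exact (hP.lt z hz).le) i hTs
    (fderiv ℂ T z v)
  rw [hex] at h2
  have hu1 : ContDiffAt ℝ ∞ (fun z => u (thc hf i z)) (T z) :=
    (hK.sm _ _ (pe_chart hf i)).contDiffAt ((((LX hf).A 0).e i).open_target.mem_nhds hTz)
  have e2 : Levi_145.lev (fun z => u (θ z)) z v =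
      Levi_145.lev (fun z => u (thc hf i z)) (T z) (fderiv ℂ T z v) := by
    have hev' : (fun z => u (θ z)) =ᶠ[𝓝 z] fun w => (fun z => u (thc hf i z)) (T w) := by
      filter_upwards [hev] with w hw
      exact congrArg u hw
    rw [Levi_145.lev_congr hev', Levi_145.lev_comp hT (two_le' hu1)]
  have e3 : ∀ k, fderiv ℂ (fun z => F (θ z) k) z v =
      fderiv ℂ (fun z => F (thc hf i z) k) (T z) (fderiv ℂ T z v) := by
    intro k
    have hev' : (fun z => F (θ z) k) =ᶠ[𝓝 z] (fun w => F (thc hf i w) k) ∘ T := by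
      filter_upwards [hev] with w hw
      exact congrArg (fun x => F x k) hw
    have hd : DifferentiableAt ℂ (fun w => F (thc hf i w) k) (T z) :=
      (hol_vl hf hF i k).differentiableAt ((((LX hf).A 0).e i).open_target.mem_nhds hTz)
    rw [hev'.fderiv_eq, fderiv_comp z hd hT.differentiableAt]
    rfl
  rw [e2]
  have e4 : vl hf u x = u (θ z) := by
    show u x.1 = _
    rw [hxθ]
  rw [e4] at h2
  refine le_trans (le_of_eq ?_) h2
  exact Finset.sum_congr rfl fun k _ => by rw [e3 k]; rfl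

/-! ### `UpB`, `LoB`, `Esc`: change of constants -/

theorem lev_nn (hK : KEon f 0 r u) {θ : Cn 2 → E3} {O : Set (Cn 2)} (hP : PE f 0 r θ O)
    {z : Cn 2} (hz : z ∈ O) (v : Cn 2) : 0 ≤ Defs_333.lev (fun z => u (θ z)) z v := by
  rcases eq_or_ne v 0 with h0 | h0
  · rw [h0, lev333_eq_lev145, Levi_145.lev_zero, mul_zero]
  · exact (hK.pos _ _ hP z hz v h0).le

theorem Esc.le (hK : KEon f 0 r u) (h : Esc f r u A) {A' : ℝ} (hA : A ≤ A') : Esc f r u A' := by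
  refine ⟨h.pos.trans_le hA, fun x h1 h2 h3 => (h.one x h1 h2 h3).trans (by linarith), h.inf,
    fun θ O hP z hz v => (h.grad θ O hP z hz v).trans ?_⟩
  have h1 := h.one _ (hP.par.lvl z hz) (hP.ne z hz) (hP.lt z hz)
  have h2 := lev_nn hK hP hz v
  have h3 := h.pos
  have h4 : (A - u (θ z)) ^ 2 ≤ (A' - u (θ z)) ^ 2 := by
    apply pow_le_pow_left₀ (by linarith) (by linarith)
  have h5 : 0 ≤ A' := by linarith
  gcongr

theorem UpB.mono {φ : E3 → ℝ} {N : ℕ} {h : E3 → ℂ} {r' : ℝ} (hU : UpB f r u A N φ h)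
    (h0 : 0 ≤ r') (hr : r' ≤ r) : UpB f r' u A N φ h :=
  fun θ O hP => hU θ O (PE.mono' hP h0 hr)

theorem LoB.mono {φ : E3 → ℝ} {N : ℕ} {h : E3 → ℂ} {r' : ℝ} (hU : LoB f r u A N φ h)
    (h0 : 0 ≤ r') (hr : r' ≤ r) : LoB f r' u A N φ h :=
  fun θ O hP => hU θ O (PE.mono' hP h0 hr)

theorem UpB.le (hK : KEon f 0 r u) {φ : E3 → ℝ} {N N' : ℕ} {h : E3 → ℂ} {A' : ℝ} (hA0 : 0 ≤ A)
    (hU : UpB f r u A N φ h) (hA : A ≤ A') (hN : N ≤ N')
    (h1 : ∀ x, f x = 0 → x ≠ 0 → nsq x < r ^ 2 → 1 ≤ A - u x) : UpB f r u A' N' φ h := by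
  intro θ O hP z hz v
  refine (hU θ O hP z hz v).trans ?_
  have h1 := h1 _ (hP.par.lvl z hz) (hP.ne z hz) (hP.lt z hz)
  have h2 := lev_nn hK hP hz v
  have h4 : (A - u (θ z)) ^ N ≤ (A' - u (θ z)) ^ N' :=
    (pow_le_pow_left₀ (by linarith) (by linarith) N).trans
      (pow_le_pow_right₀ (by linarith) hN)
  have h5 : 0 ≤ (A - u (θ z)) ^ N := pow_nonneg (by linarith) N
  have h6 : 0 ≤ A' := by linarith
  gcongr

theorem LoB.le {φ : E3 → ℝ} {N N' : ℕ} {h : E3 → ℂ} {A' : ℝ} (hA0 : 0 ≤ A)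
    (hU : LoB f r u A N φ h) (hA : A ≤ A') (hN : N ≤ N')
    (h1 : ∀ x, f x = 0 → x ≠ 0 → nsq x < r ^ 2 → 1 ≤ A - u x) : LoB f r u A' N' φ h := by
  intro θ O hP z hz
  obtain ⟨v, hv, h2⟩ := hU θ O hP z hz
  refine ⟨v, hv, h2.trans ?_⟩
  have h1 := h1 _ (hP.par.lvl z hz) (hP.ne z hz) (hP.lt z hz)
  have h4 : (A - u (θ z)) ^ N ≤ (A' - u (θ z)) ^ N' :=
    (pow_le_pow_left₀ (by linarith) (by linarith) N).trans
      (pow_le_pow_right₀ (by linarith) hN)
  have h5 : 0 ≤ (A - u (θ z)) ^ N := pow_nonneg (by linarith) N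
  have h6 : 0 ≤ A' := by linarith
  gcongr

/-- the moving gradient estimate, one function, in the shape `UpB` -/
theorem gmK_UpB (hf : LvlOK f 0 r) (hK : KEon f 0 r u) (hE : Esc f r u A) {ρ : ℝ} (h0 : 0 < ρ)
    (hρ : ρ < r) {g : E3 → ℂ} (hg : ∀ x, x ≠ 0 → nsq x < r ^ 2 → DifferentiableAt ℂ g x)
    {C a : ℝ} {m : ℕ}
    (hb : ∀ x, f x = 0 → x ≠ 0 → nsq x ≤ ρ ^ 2 →
      ‖g x‖ ^ 2 ≤ C * (Real.exp (a * u x) * (A - u x) ^ m)) :
    ∃ A' : ℝ, A ≤ A' ∧ UpB f ρ u A' (m + 2) (fun x => a * u x) g := by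
  obtain ⟨C', hC', h⟩ := gmK hf hK hE h0 hρ (N := 1) (F := fun x _ => g x) (fun _ => hg)
    (C := max C 1) (a := a) (m := m) (lt_max_of_lt_right one_pos) (fun x h1 h2 h3 => by
      have h4 := hE.one x h1 h2 (lt_of_le_of_lt h3 (pow_lt_pow_left₀ hρ h0.le two_ne_zero))
      rw [Fin.sum_univ_one]
      refine (hb x h1 h2 h3).trans (mul_le_mul_of_nonneg_right (le_max_left _ _) ?_)
      have : 0 ≤ (A - u x) ^ m := pow_nonneg (by linarith) m
      positivity)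
  refine ⟨max A C', le_max_left _ _, fun θ O hP z hz v => ?_⟩
  have h1 := h θ O hP z hz v
  rw [Fin.sum_univ_one] at h1
  have hP' := PE.mono' hP h0.le hρ.le
  have h2 := hE.one _ (hP'.par.lvl z hz) (hP'.ne z hz) (hP'.lt z hz)
  have h3 := lev_nn hK hP' hz v
  rw [lev333_eq_lev145] at h3 ⊢
  refine h1.trans ?_
  have h4 : (A - u (θ z)) ^ (m + 2) ≤ (max A C' - u (θ z)) ^ (m + 2) :=
    pow_le_pow_left₀ (by linarith) (by linarith [le_max_left A C']) _
  have h5 : 0 ≤ (A - u (θ z)) ^ (m + 2) := pow_nonneg (by linarith) _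
  have h6 : C' ≤ max A C' := le_max_right _ _
  have h7 : 0 ≤ Levi_145.lev (fun z => u (θ z)) z v := by linarith
  calc C' * (Real.exp (a * u (θ z)) * (A - u (θ z)) ^ (m + 2)) *
        Levi_145.lev (fun z => u (θ z)) z v
      ≤ max A C' * (Real.exp (a * u (θ z)) * (max A C' - u (θ z)) ^ (m + 2)) *
        Levi_145.lev (fun z => u (θ z)) z v := by gcongr
    _ = max A C' * (max A C' - u (θ z)) ^ (m + 2) * Real.exp (a * u (θ z)) *
        Levi_145.lev (fun z => u (θ z)) z v := by ring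
    _ ≤ max A C' * (max A C' - u (θ z)) ^ (m + 2) * Real.exp (a * u (θ z)) *
        (4 * Levi_145.lev (fun z => u (θ z)) z v) := by
      have h8 : 0 ≤ max A C' * (max A C' - u (θ z)) ^ (m + 2) * Real.exp (a * u (θ z)) := by
        have : 0 ≤ max A C' := hC'.le.trans h6
        have : 0 ≤ (max A C' - u (θ z)) ^ (m + 2) := h5.trans h4
        positivity
      exact mul_le_mul_of_nonneg_left (by linarith) h8

end

end Crest.Agent.R257.PairK_39
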