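import Crest.Agent.R257.PairK1_39

/-!
# Row 257 (S0395), PAIR-K (helper39), part 2: the explicit subsolution

`v = (1/k) log (|g|² + |h|²) - 4 ∑ log (-φ_l)`, `φ_l = log ∑ |q_m|²` (sum over a system).
* `det_ge`  : `½ ∑ a_l a_m |∂F_l ∧ ∂F_m|² ≤ det ∂∂̄w` if `∑ a_l |∂F_l|² ≤ ∂∂̄w`
* `lev_ll`  : `φ⁻² e^{-φ} ∑ |∂F_j|² ≤ ∂∂̄ (- log (-φ))`
* `sub_det` : `(∂∂̄v)² ≥ c e^v |η|²`
* `lowV`    : `v ≤ u + C`
-/

set_option autoImplicit false
set_option linter.unusedSectionVars false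

open Set Filter Topology Complex
open scoped ContDiff ComplexConjugate Matrix ComplexOrder

namespace Crest.Agent.R257.PairK_39

open Crest.Agent.R275.Geo Crest.Agent.R275.Core144 Crest.Agent.R275.GC293
open Crest.Agent.R273
open Crest.Agent.R273.YauDefs_635 (cH lev333_eq_lev145 inC)
open Crest.Agent.R273.YauMax_635 (continuous_of_sm cH_eq_hess)
open Crest.Agent.R273.HessB_333
open Crest.Agent.R257.PN_835 (nsq)
open Crest.Agent.R257.Aff_835 (eta2a)
open Crest.Agent.R257.Defs_219 Crest.Agent.R257.KED_952 Crest.Agent.R257.KEG_952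
open Crest.Agent.R257.V1Defs_822 (SmL LvlOK lgh)
open Crest.Agent.R257.CLD_39 (two_le')
open Crest.Agent.R257.Jac_39 (jc ee jac)

noncomputable section

/-! ### 2 × 2 matrices -/

theorem det_add_ge {P Q : Matrix (Fin 2) (Fin 2) ℂ} (hP : P.PosSemidef) (hQ : Q.PosSemidef) :
    Q.det.re ≤ (P + Q).det.re := by
  have key : ∀ {R : Matrix (Fin 2) (Fin 2) ℂ}, R.PosSemidef →
      0 ≤ (R 0 0).re ∧ 0 ≤ (R 1 1).re ∧ (R 0 0).im = 0 ∧ (R 1 1).im = 0 ∧
      R 1 0 = conj (R 0 1) ∧ ‖R 0 1‖ ^ 2 ≤ (R 0 0).re * (R 1 1).re := by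
    intro R hR
    have h0 := hR.diag_nonneg (i := 0)
    have h1 := hR.diag_nonneg (i := 1)
    have e0 := (Complex.le_def.1 h0)
    have e1 := (Complex.le_def.1 h1)
    have hc : R 1 0 = conj (R 0 1) := (hR.isHermitian.apply 1 0).symm
    refine ⟨e0.1, e1.1, e0.2.symm, e1.2.symm, hc, ?_⟩
    have hd := (Complex.le_def.1 hR.det_nonneg).1
    rw [Matrix.det_fin_two, hc, Complex.mul_conj', Complex.sub_re] at hd
    have h2 : (R 0 0 * R 1 1).re = (R 0 0).re * (R 1 1).re := by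
      rw [Complex.mul_re, ← e0.2]
      simp
    rw [h2] at hd
    have h3 : (((‖R 0 1‖ : ℂ)) ^ 2).re = ‖R 0 1‖ ^ 2 := by
      rw [← Complex.ofReal_pow, Complex.ofReal_re]
    rw [h3] at hd
    simp only [Complex.zero_re] at hd
    linarith
  obtain ⟨a0, b0, ai, bi, hp, hpl⟩ := key hP
  obtain ⟨c0, d0, ci, di, hq, hql⟩ := key hQ
  have hdP := (Complex.le_def.1 hP.det_nonneg).1
  set a := (P 0 0).re
  set b := (P 1 1).re
  set c := (Q 0 0).re
  set d := (Q 1 1).re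
  set p := ‖P 0 1‖ with hpd
  set q := ‖Q 0 1‖ with hqd
  have hp0 : 0 ≤ p := norm_nonneg _
  have hq0 : 0 ≤ q := norm_nonneg _
  have h1 : 2 * (p * q) ≤ a * d + b * c := by
    refine abs_le_of_sq_le_sq' ?_ (by positivity) |>.2
    have h2 : (p * q) ^ 2 ≤ (a * b) * (c * d) := by
      rw [mul_pow]
      exact mul_le_mul hpl hql (by positivity) (by positivity)
    nlinarith [sq_nonneg (a * d - b * c)]
  have h3 : (P 0 1 * Q 1 0 + P 1 0 * Q 0 1).re ≤ 2 * (p * q) := by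
    refine (Complex.re_le_norm _).trans ((norm_add_le _ _).trans ?_)
    rw [norm_mul, norm_mul, hq, hp, Complex.norm_conj, Complex.norm_conj, ← hpd, ← hqd]
    linarith
  have h4 : (P 0 0 * Q 1 1 + P 1 1 * Q 0 0).re = a * d + b * c := by
    rw [Complex.add_re, Complex.mul_re, Complex.mul_re, ai, bi]
    simp [a, b, c, d]
  have h5 : (P + Q).det = P.det + Q.det + ((P 0 0 * Q 1 1 + P 1 1 * Q 0 0) -
      (P 0 1 * Q 1 0 + P 1 0 * Q 0 1)) := by
    rw [Matrix.det_fin_two, Matrix.det_fin_two, Matrix.det_fin_two]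
    simp only [Matrix.add_apply]
    ring
  rw [h5, Complex.add_re, Complex.add_re, Complex.sub_re, h4]
  simp only [Complex.zero_re] at hdP
  linarith

/-- lower bound of `det ∂∂̄w` by a sum of squares -/
theorem det_ge {L : ℕ} {w : Cn 2 → ℝ} {z : Cn 2} (hw : ContDiffAt ℝ ∞ w z)
    {F : Fin L → Cn 2 → ℂ} (hF : ∀ l, AnalyticAt ℂ (F l) z) {a : Fin L → ℝ} (ha : ∀ l, 0 ≤ a l)
    (h : ∀ v, ∑ l, a l * ‖fderiv ℂ (F l) z v‖ ^ 2 ≤ Levi_145.lev w z v) :
    (∑ l, ∑ m, a l * a m * ‖jc (F l) (F m) z‖ ^ 2) / 2 ≤ (cH w z).det.re := by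
  set G : Cn 2 → Fin L → ℂ := fun y l => (Real.sqrt (a l) : ℂ) * F l y with hG
  have hGa : ∀ l, AnalyticAt ℂ (fun y => G y l) z := fun l => analyticAt_const.mul (hF l)
  have hev : ∀ᶠ y in 𝓝 z, ∀ l, DifferentiableAt ℂ (fun y => G y l) y := by
    rw [eventually_all]
    exact fun l => Levi_145.ev_of_anal (hGa l)
  obtain ⟨U, hU, hUo, hzU⟩ := eventually_nhds_iff.1 hev
  have hGU : ∀ l, DifferentiableOn ℂ (fun y => G y l) U := fun l y hy =>
    (hU y hy l).differentiableWithinAt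
  have hsq : ContDiffAt ℝ ∞ (FS_333.sq G) z :=
    Levi_145.c2_sumSq (F := fun l y => G y l) hGa ∞
  have hfd : ∀ l v, fderiv ℂ (fun y => G y l) z v = (Real.sqrt (a l) : ℂ) * fderiv ℂ (F l) z v := by
    intro l v
    have h1 : HasFDerivAt (fun y => (Real.sqrt (a l) : ℂ) * F l y)
        ((Real.sqrt (a l) : ℂ) • fderiv ℂ (F l) z) z :=
      (hF l).differentiableAt.hasFDerivAt.const_mul _
    show fderiv ℂ (fun y => (Real.sqrt (a l) : ℂ) * F l y) z v = _
    rw [h1.fderiv]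
    rfl
  have hns : ∀ l, ‖(Real.sqrt (a l) : ℂ)‖ ^ 2 = a l := fun l => by
    rw [Complex.norm_real, Real.norm_eq_abs, sq_abs, Real.sq_sqrt (ha l)]
  have hlsq : ∀ v, Levi_145.lev (FS_333.sq G) z v = ∑ l, a l * ‖fderiv ℂ (F l) z v‖ ^ 2 := by
    intro v
    have h1 := Levi_145.lev_sumSq (F := fun l y => G y l) hGa v
    have e : Levi_145.lev (FS_333.sq G) z v =
      Levi_145.lev (Levi_145.sumSq fun l y => G y l) z v := rfl
    rw [e, h1]
    refine Finset.sum_congr rfl fun l _ => ?_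
    rw [hfd l v, norm_mul, mul_pow, hns]
  have hd : ContDiffAt ℝ ∞ (fun y => w y - FS_333.sq G y) z := hw.sub hsq
  have h1 : (cH (fun y => w y - FS_333.sq G y) z).PosSemidef := by
    rw [cH_eq_hess hd]
    refine posSemidef_hess hd fun v => ?_
    rw [lev333_eq_lev145, Levi_145.lev_sub (two_le' hw) (two_le' hsq), hlsq]
    linarith [h v]
  have h2 : (cH (FS_333.sq G) z).PosSemidef := by
    rw [cH_eq_hess hsq]
    refine posSemidef_hess hsq fun v => ?_
    rw [lev333_eq_lev145, hlsq]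
    have : 0 ≤ ∑ l, a l * ‖fderiv ℂ (F l) z v‖ ^ 2 :=
      Finset.sum_nonneg fun l _ => mul_nonneg (ha l) (by positivity)
    linarith
  have h3 : cH w z = cH (fun y => w y - FS_333.sq G y) z + cH (FS_333.sq G) z := by
    rw [cH_eq_hess hd, cH_eq_hess hsq, cH_eq_hess hw, ← hess_add hd hsq]
    congr 1
    funext y
    ring
  have h4 := det_add_ge h1 h2
  rw [← h3] at h4
  refine le_trans (le_of_eq ?_) h4
  -- the determinant of the sum of squares
  set x : Fin L → ℂ := fun l => fderiv ℂ (fun y => G y l) z (ee 0) with hx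
  set y : Fin L → ℂ := fun l => fderiv ℂ (fun y => G y l) z (ee 1) with hy
  have he : ∀ i j, cH (FS_333.sq G) z i j = ∑ k, fderiv ℂ (fun z => G z k) z (ee i) *
      conj (fderiv ℂ (fun z => G z k) z (ee j)) := fun i j => by
    rw [cH_eq_hess hsq, FS_333.hess_sq hUo hGU hzU]
  have h5 := Levi_145.lagrange x y
  have h6 : (cH (FS_333.sq G) z).det.re =
      (∑ j, ‖x j‖ ^ 2) * (∑ j, ‖y j‖ ^ 2) - ‖∑ j, conj (x j) * y j‖ ^ 2 := by
    have e1 : (cH (FS_333.sq G) z).det = (((∑ j, ‖x j‖ ^ 2) * (∑ j, ‖y j‖ ^ 2) -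
        ‖∑ j, conj (x j) * y j‖ ^ 2 : ℝ) : ℂ) := by
      rw [Matrix.det_fin_two, he, he, he, he]
      push_cast
      have e2 : ∀ t : Fin L → ℂ, ∑ k, t k * conj (t k) = ∑ k, ((‖t k‖ : ℂ)) ^ 2 := fun t =>
        Finset.sum_congr rfl fun k _ => Complex.mul_conj' _
      have e3 : ((‖∑ j, conj (x j) * y j‖ : ℂ)) ^ 2 =
          (∑ k, x k * conj (y k)) * (∑ k, y k * conj (x k)) := by
        rw [← Complex.mul_conj', map_sum, mul_comm]
        congr 1
        · exact Finset.sum_congr rfl fun k _ => by rw [map_mul, Complex.conj_conj]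
        · exact Finset.sum_congr rfl fun k _ => by ring
      rw [e3, ← e2 x, ← e2 y]
    rw [e1, Complex.ofReal_re]
  rw [h6]
  have h7 : ∑ i, ∑ j, ‖x i * y j - x j * y i‖ ^ 2 =
      ∑ l, ∑ m, a l * a m * ‖jc (F l) (F m) z‖ ^ 2 := by
    refine Finset.sum_congr rfl fun l _ => Finset.sum_congr rfl fun m _ => ?_
    simp only [hx, hy, hfd]
    have e1 : (Real.sqrt (a l) : ℂ) * fderiv ℂ (F l) z (ee 0) *
          ((Real.sqrt (a m) : ℂ) * fderiv ℂ (F m) z (ee 1)) -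
        (Real.sqrt (a m) : ℂ) * fderiv ℂ (F m) z (ee 0) *
          ((Real.sqrt (a l) : ℂ) * fderiv ℂ (F l) z (ee 1)) =
        (Real.sqrt (a l) : ℂ) * (Real.sqrt (a m) : ℂ) * jc (F l) (F m) z := by
      unfold jc
      ring
    rw [e1, norm_mul, norm_mul, mul_pow, mul_pow, hns, hns]
  rw [← h7, ← h5]
  ring

/-! ### the Levi form of `-log (-φ)` -/

theorem lev_ll {ι : Type*} [Fintype ι] {F : ι → Cn 2 → ℂ} {z : Cn 2}
    (hF : ∀ j, AnalyticAt ℂ (F j) z) (h0 : ∃ j, F j z ≠ 0)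
    (h1 : Real.log (Levi_145.sumSq F z) ≤ -1) (v : Cn 2) :
    ((Real.log (Levi_145.sumSq F z))⁻¹) ^ 2 * ((Levi_145.sumSq F z)⁻¹ *
      ∑ j, ‖fderiv ℂ (F j) z v‖ ^ 2) ≤
      Levi_145.lev (fun y => - Real.log (- Real.log (Levi_145.sumSq F y))) z v := by
  have hp := Levi_145.sumSq_pos h0
  have hs : ContDiffAt ℝ 2 (Levi_145.sumSq F) z := Levi_145.c2_sumSq hF 2
  have hφ : ContDiffAt ℝ 2 (fun y => Real.log (Levi_145.sumSq F y)) z := hs.log hp.ne'
  have hφn : ContDiffAt ℝ 2 (fun y => - Real.log (Levi_145.sumSq F y)) z := hφ.neg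
  set t := Real.log (Levi_145.sumSq F z) with ht
  have ht0 : 0 < - t := by linarith
  have hφl : ContDiffAt ℝ 2 (fun y => Real.log (- Real.log (Levi_145.sumSq F y))) z :=
    hφn.log ht0.ne'
  have e1 : Levi_145.lev (fun y => - Real.log (- Real.log (Levi_145.sumSq F y))) z v =
      Levi_145.lev (fun y => Real.log (Levi_145.sumSq F y)) z v / (-t) +
        ‖Levi_145.gr (fun y => - Real.log (Levi_145.sumSq F y)) z v‖ ^ 2 / t ^ 2 := by
    rw [Levi_145.lev_neg hφl, Levi_145.lev_log hφn ht0, Levi_145.lev_neg hφ]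
    rw [neg_sq]
    ring
  have e2 : Levi_145.gr (fun y => - Real.log (Levi_145.sumSq F y)) z v =
      ((-(Levi_145.sumSq F z)⁻¹ : ℝ) : ℂ) * Levi_145.gr (Levi_145.sumSq F) z v :=
    GradB_537.gr_comp_real (χ := fun t => - Real.log t) (hs.differentiableAt (by simp))
      ((Real.hasDerivAt_log hp.ne').neg) v
  have e3 := Levi_145.lev_log hs hp v
  have hl0 := Levi_145.lev_log_sumSq_nonneg hF h0 v
  have e4 : ‖Levi_145.gr (fun y => - Real.log (Levi_145.sumSq F y)) z v‖ ^ 2 =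
      ‖Levi_145.gr (Levi_145.sumSq F) z v‖ ^ 2 / (Levi_145.sumSq F z) ^ 2 := by
    rw [e2, norm_mul, Complex.norm_real, Real.norm_eq_abs, mul_pow, sq_abs]
    field_simp
  rw [Levi_145.lev_sumSq hF] at e3
  set X := Levi_145.lev (fun y => Real.log (Levi_145.sumSq F y)) z v with hX
  set S := Levi_145.sumSq F z with hS
  set Y := ‖Levi_145.gr (Levi_145.sumSq F) z v‖ ^ 2 / S ^ 2 with hY
  have hY0 : 0 ≤ Y := by positivity
  have e5 : S⁻¹ * ∑ j, ‖fderiv ℂ (F j) z v‖ ^ 2 = X + Y := by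
    rw [e3]
    ring
  rw [e1, e4, e5]
  have h2 : X / t ^ 2 ≤ X / (-t) := by
    apply div_le_div_of_nonneg_left hl0 ht0
    nlinarith
  calc (t⁻¹) ^ 2 * (X + Y) = X / t ^ 2 + Y / t ^ 2 := by
        rw [inv_pow]
        ring
    _ ≤ X / (-t) + Y / t ^ 2 := by linarith

end

end Crest.Agent.R257.PairK_39
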