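import Crest.Agent.R257.UpK3_938
import Crest.Agent.R257.Fto_889

namespace Crest.Agent.R257.UpK_938

/-- (UP) of `V1Defs_822`, unconditional. -/
theorem upStmt : V1Defs_822.UPStmt := UpK_938.upStmt_of Fto_889.ftoStmt

end Crest.Agent.R257.UpK_938
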