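import Crest.Agent.R257.PairK3_39
import Crest.Agent.R257.Esc_537
import Crest.Agent.R257.UpK4_938
import Crest.Agent.R257.KedM3_941
import Crest.Agent.R257.Vol_397

/-!
# Row 257 (S0395), PAIR-K (helper39), part 4: two-sided estimate of the weight from C-LOG

* `exists_QOK` : the hypotheses of `lowV` hold near `0`
* `TwoS`       : `|u - ψ/k| ≤ B (1 + log (A - u))`
* `twoS`       : `TwoS` from C-LOG (ii) and the upper bound of helper938
* `upb_of_twoS`: `UpB` for the weight `k u`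
* `up1_of_xl`  : `XLStmt → Up1Stmt`
-/

set_option autoImplicit false
set_option linter.unusedSectionVars false

open Set Filter Topology Complex MeasureTheory
open scoped ContDiff ComplexConjugate Matrix ComplexOrder

namespace Crest.Agent.R257.PairK_39

open Crest.Agent.R275.Geo
open Crest.Agent.R273
open Crest.Agent.R273.YauDefs_635 (cH lev333_eq_lev145 inC)
open Crest.Agent.R257.PN_835 (nsq)
open Crest.Agent.R257.Aff_835 (eta2a)
open Crest.Agent.R257.Defs_219 Crest.Agent.R257.KED_952 Crest.Agent.R257.KEG_952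
open Crest.Agent.R257.KEU_952
open Crest.Agent.R257.V1Defs_822 (SmL LvlOK lgh XUStmt)
open Crest.Agent.R257.CLogD_39
open Crest.Agent.R257.Esc_537 (zero_of_col)

noncomputable section

variable {f : E3 → ℂ} {r : ℝ} {L : ℕ} {q : Fin L → E3 → ℂ} {s : Fin L → ℕ} {g h : E3 → ℂ}
  {u : E3 → ℝ} {A : ℝ}

theorem norm_sq_le (x : E3) : ‖x‖ ^ 2 ≤ nsq x := SkelV_952.norm_sq_le_nsq x

theorem norm_lt_of {x : E3} {δ : ℝ} (hδ : 0 < δ) (h : nsq x < δ ^ 2) : ‖x‖ < δ := by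
  have h1 := norm_sq_le x
  exact lt_of_pow_lt_pow_left₀ 2 hδ.le (h1.trans_lt h)

/-- from `𝓝 0` to balls -/
theorem ball_of_ev {P : E3 → Prop} (h : ∀ᶠ x in 𝓝 (0 : E3), P x) :
    ∃ δ : ℝ, 0 < δ ∧ ∀ x, nsq x < δ ^ 2 → P x := by
  obtain ⟨δ, hδ, hb⟩ := Metric.eventually_nhds_iff_ball.1 h
  exact ⟨δ, hδ, fun x hx => hb x (by rw [mem_ball_zero_iff]; exact norm_lt_of hδ hx)⟩

theorem gh_pos (hf : AnalyticAt ℂ f 0) (hg : AnalyticAt ℂ g 0)
    (hh : AnalyticAt ℂ h 0) (hfin : ColFin ![f, g, h]) :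
    ∀ᶠ x in 𝓝 (0 : E3), f x = 0 → x ≠ 0 → 0 < ‖g x‖ ^ 2 + ‖h x‖ ^ 2 := by
  have hG : ∀ j : Fin 3, AnalyticAt ℂ ((![f, g, h] : Fin 3 → E3 → ℂ) j) 0 := by
    intro j
    fin_cases j
    · exact hf
    · exact hg
    · exact hh
  have hiso := (NS0554.colFin_iff_isolated hG).1 hfin
  filter_upwards [hiso] with x h1 h3 h4
  by_contra hn
  have hge : 0 ≤ ‖g x‖ ^ 2 := by positivity
  have hhe : 0 ≤ ‖h x‖ ^ 2 := by positivity
  have hg1 : ‖g x‖ ^ 2 = 0 := by linarith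
  have hh1 : ‖h x‖ ^ 2 = 0 := by linarith
  apply h4
  apply h1
  intro j
  fin_cases j
  · exact h3
  · simpa using hg1
  · simpa using hh1

/-- the systems are small near `0` -/
theorem sqq_small (hq : ∀ l, AnalyticAt ℂ (q l) 0) (h0 : ∀ l, q l 0 = 0) {ε : ℝ} (hε : 0 < ε) :
    ∀ᶠ x in 𝓝 (0 : E3), ∀ l, sqq q s l x < ε := by
  rw [eventually_all]
  intro l
  have hc : ContinuousAt (sqq q s l) 0 := by
    unfold sqq
    exact tendsto_finsetSum _ fun m _ => ((hq m).continuousAt.norm.pow 2)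
  have h1 : sqq q s l 0 = 0 := by
    unfold sqq
    exact Finset.sum_eq_zero fun m _ => by rw [h0 m]; simp
  exact hc.eventually (Iio_mem_nhds (by rw [h1]; exact hε))

theorem exists_QOK {k : ℕ} (hf : AnalyticAt ℂ f 0) (hg : AnalyticAt ℂ g 0)
    (hh : AnalyticAt ℂ h 0) (hfin : ColFin ![f, g, h]) (hC : CLog f g h k q s) :
    ∃ r₀ c : ℝ, ∃ N : ℕ, 0 < r₀ ∧ 0 < c ∧ ∀ r, 0 < r → r ≤ r₀ → QOK f r g h q s ∧
      (∀ x, f x = 0 → x ≠ 0 → nsq x < r ^ 2 →
        c * (‖g x‖ ^ 2 + ‖h x‖ ^ 2) ^ (1 / (k : ℝ)) ≤ J2 f q s x) ∧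
      ∀ x, f x = 0 → x ≠ 0 → nsq x < r ^ 2 → ∀ l, c * ‖x‖ ^ N ≤ sqq q s l x := by
  obtain ⟨N, c₁, r₁, hc₁, hr₁, hlo⟩ := hC.lo
  obtain ⟨c₂, r₂, hc₂, hr₂, hii⟩ := hC.ii
  have hanq : ∀ᶠ x in 𝓝 (0 : E3), ∀ l, AnalyticAt ℂ (q l) x := by
    rw [eventually_all]
    exact fun l => (hC.an l).eventually_analyticAt
  obtain ⟨δ, hδ, hb⟩ := ball_of_ev (hg.eventually_analyticAt.and (hh.eventually_analyticAt.and
    (hanq.and ((gh_pos hf hg hh hfin).and (sqq_small (s := s) hC.an hC.z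
      (Real.exp_pos (-1)))))))
  refine ⟨min δ (min r₁ r₂), min c₁ c₂, N, lt_min hδ (lt_min hr₁ hr₂), lt_min hc₁ hc₂,
    fun r hr hrr => ?_⟩
  have e1 : ∀ x : E3, nsq x < r ^ 2 → nsq x < δ ^ 2 := fun x hx =>
    hx.trans_le (pow_le_pow_left₀ hr.le (hrr.trans (min_le_left _ _)) 2)
  have e2 : ∀ x : E3, nsq x < r ^ 2 → ‖x‖ < r₁ := fun x hx =>
    norm_lt_of hr₁ (hx.trans_le (pow_le_pow_left₀ hr.le
      (hrr.trans ((min_le_right _ _).trans (min_le_left _ _))) 2))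
  have e3 : ∀ x : E3, nsq x < r ^ 2 → ‖x‖ < r₂ := fun x hx =>
    norm_lt_of hr₂ (hx.trans_le (pow_le_pow_left₀ hr.le
      (hrr.trans ((min_le_right _ _).trans (min_le_right _ _))) 2))
  have hpos : ∀ x, f x = 0 → x ≠ 0 → nsq x < r ^ 2 → ∀ l, 0 < sqq q s l x := fun x h1 h2 h3 l =>
    lt_of_lt_of_le (by
      have := norm_pos_iff.2 h2
      positivity) (hlo x (e2 x h3) h1 l)
  refine ⟨⟨fun x hx => (hb x (e1 x hx)).1, fun x hx => (hb x (e1 x hx)).2.1,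
    fun l x hx => (hb x (e1 x hx)).2.2.1 l, fun x h1 h2 h3 => (hb x (e1 x h3)).2.2.2.1 h1 h2,
    hpos, fun x h1 h2 h3 l => ?_⟩, fun x h1 h2 h3 => ?_, fun x h1 h2 h3 l => ?_⟩
  · have h4 := (hb x (e1 x h3)).2.2.2.2 l
    unfold phq
    have := Real.log_le_log (hpos x h1 h2 h3 l) h4.le
    rwa [Real.log_exp] at this
  · refine le_trans ?_ (hii x (e3 x h3) h1 h2)
    have : 0 ≤ (‖g x‖ ^ 2 + ‖h x‖ ^ 2) ^ (1 / (k : ℝ)) := by positivity
    exact mul_le_mul_of_nonneg_right (min_le_right _ _) this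
  · refine le_trans ?_ (hlo x (e2 x h3) h1 l)
    exact mul_le_mul_of_nonneg_right (min_le_left _ _) (by positivity)

/-- two-sided estimate of the weight -/
def TwoS (f : E3 → ℂ) (r : ℝ) (u : E3 → ℝ) (A : ℝ) (k : ℝ) (g h : E3 → ℂ) (B : ℝ) : Prop :=
  ∀ x, f x = 0 → x ≠ 0 → nsq x < r ^ 2 →
    |u x - 1 / k * lgh g h x| ≤ B * (1 + Real.log (A - u x))

/-- `log (|g|² + |h|²) ≤ 2 log ‖x‖ + K` -/
theorem lgh_le (hf : AnalyticAt ℂ f 0) (hg : AnalyticAt ℂ g 0) (hh : AnalyticAt ℂ h 0)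
    (hg0 : g 0 = 0) (hh0 : h 0 = 0) (hfin : ColFin ![f, g, h]) :
    ∃ K : ℝ, ∀ᶠ x in 𝓝 (0 : E3), f x = 0 → x ≠ 0 → lgh g h x ≤ 2 * Real.log ‖x‖ + K := by
  have hO : ∀ {g : E3 → ℂ}, AnalyticAt ℂ g 0 → g 0 = 0 → ∃ K : ℝ, 0 < K ∧
      ∀ᶠ x in 𝓝 (0 : E3), ‖g x‖ ≤ K * ‖x‖ := by
    intro g hg hg0
    have h1 := hg.differentiableAt.isBigO_sub
    obtain ⟨K, hK, h2⟩ := h1.exists_pos
    refine ⟨K, hK, ?_⟩
    filter_upwards [h2.bound] with x hx
    rwa [hg0, sub_zero, sub_zero] at hx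
  obtain ⟨K₁, hK₁, h1⟩ := hO hg hg0
  obtain ⟨K₂, hK₂, h2⟩ := hO hh hh0
  refine ⟨Real.log (K₁ ^ 2 + K₂ ^ 2), ?_⟩
  filter_upwards [h1, h2, gh_pos hf hg hh hfin] with x h1 h2 h3 h4 h5
  have hx := norm_pos_iff.2 h5
  unfold lgh
  have h6 : ‖g x‖ ^ 2 + ‖h x‖ ^ 2 ≤ ‖x‖ ^ 2 * (K₁ ^ 2 + K₂ ^ 2) := by
    have a1 : ‖g x‖ ^ 2 ≤ (K₁ * ‖x‖) ^ 2 := pow_le_pow_left₀ (norm_nonneg _) h1 2
    have a2 : ‖h x‖ ^ 2 ≤ (K₂ * ‖x‖) ^ 2 := pow_le_pow_left₀ (norm_nonneg _) h2 2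
    nlinarith
  refine (Real.log_le_log (h3 h4 h5) h6).trans (le_of_eq ?_)
  rw [Real.log_mul (by positivity) (by positivity), Real.log_pow]
  push_cast
  ring

/-- **the two-sided estimate** -/
theorem twoS {k : ℕ} (hk : 2 ≤ k) (hf0 : AnalyticAt ℂ f 0) (hf : LvlOK f 0 r) (hK : KEon f 0 r u)
    (hE : Esc f r u A) (hg : AnalyticAt ℂ g 0) (hh : AnalyticAt ℂ h 0)
    (hg0 : g 0 = 0) (hh0 : h 0 = 0) (hfin : ColFin ![f, g, h]) (hC : CLog f g h k q s)
    (hup : ∃ C r' : ℝ, 0 < r' ∧ ∀ x, f x = 0 → x ≠ 0 → nsq x < r' ^ 2 →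
      u x ≤ 1 / (k : ℝ) * lgh g h x + C) :
    ∃ r' B : ℝ, 0 < r' ∧ r' < r ∧ 0 < B ∧ TwoS f r' u A k g h B := by
  have hr := hf.pos
  have hk0 : (0 : ℝ) < k := by exact_mod_cast (by omega : 0 < k)
  obtain ⟨r₀, c, N, hr₀, hc, hQ⟩ := exists_QOK hf0 hg hh hfin hC
  obtain ⟨C₂, r₂, hr₂, hup⟩ := hup
  obtain ⟨K, hK'⟩ := lgh_le hf0 hg hh hg0 hh0 hfin
  obtain ⟨r₃, hr₃, hlgh⟩ := ball_of_ev hK'
  -- the lower bound
  set r₁ : ℝ := min r₀ (r / 2) with hr₁
  have hr₁0 : 0 < r₁ := lt_min hr₀ (by positivity)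
  have hr₁r : r₁ < r := lt_of_le_of_lt (min_le_right _ _) (by linarith)
  obtain ⟨hQ1, hQ2, hQ3⟩ := hQ r₁ hr₁0 (min_le_left _ _)
  obtain ⟨C₁, hC₁⟩ := lowV (UpK_938.LvlOK.mono hf hr₁0 hr₁r.le) (KEon.mono' hK hr₁0.le hr₁r.le)
    (Esc.mono' hE hr₁0.le hr₁r.le) (ρ := r₁ / 2) (by positivity) (by linarith) hQ1 hk0 hc hQ2
  set r' : ℝ := min (r₁ / 2) (min r₂ r₃) with hr'
  have hr'0 : 0 < r' := lt_min (by positivity) (lt_min hr₂ hr₃)
  have hr'1 : r' ≤ r₁ / 2 := min_le_left _ _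
  -- constants
  set B₁ : ℝ := 1 + |Real.log c| + N * (|K| + k * (|C₂| + |A| + 1)) with hB₁
  have hB₁1 : 1 ≤ B₁ := by
    have : 0 ≤ |Real.log c| + N * (|K| + k * (|C₂| + |A| + 1)) := by positivity
    linarith
  set B : ℝ := |C₁| + |C₂| + 4 * L * (Real.log B₁ + 1) + 1 with hB
  have hlB : 0 ≤ Real.log B₁ := Real.log_nonneg hB₁1
  have hB0 : 0 < B := by
    have : 0 ≤ |C₁| + |C₂| + 4 * L * (Real.log B₁ + 1) := by positivity
    linarith
  refine ⟨r', B, hr'0, by linarith, hB0, fun x h1 h2 h3 => ?_⟩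
  have hx1 : nsq x ≤ (r₁ / 2) ^ 2 := (h3.trans_le (pow_le_pow_left₀ hr'0.le hr'1 2)).le
  have hx1' : nsq x < r₁ ^ 2 := by
    refine lt_of_le_of_lt hx1 ?_
    nlinarith
  have hx2 : nsq x < r₂ ^ 2 := h3.trans_le (pow_le_pow_left₀ hr'0.le
    ((min_le_right _ _).trans (min_le_left _ _)) 2)
  have hx3 : nsq x < r₃ ^ 2 := h3.trans_le (pow_le_pow_left₀ hr'0.le
    ((min_le_right _ _).trans (min_le_right _ _)) 2)
  have hxr : nsq x < r ^ 2 := hx1'.trans_le (pow_le_pow_left₀ hr₁0.le hr₁r.le 2)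
  have hone := hE.one x h1 h2 hxr
  have hlog : 0 ≤ Real.log (A - u x) := Real.log_nonneg hone
  have hu1 := hup x h1 h2 hx2
  have hl1 := hlgh x hx3 h1 h2
  have hv := hC₁ x h1 h2 hx1
  -- each logarithm
  have hph : ∀ l, - Real.log (- phq q s l x) ≥ -(Real.log B₁ + Real.log (A - u x)) := by
    intro l
    have h4 := hQ3 x h1 h2 hx1' l
    have h5 := hQ1.le x h1 h2 hx1' l
    have hxn := norm_pos_iff.2 h2
    have h6 : Real.log c + N * Real.log ‖x‖ ≤ phq q s l x := by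
      have := Real.log_le_log (by positivity) h4
      rw [Real.log_mul hc.ne' (by positivity), Real.log_pow] at this
      exact this
    -- `- log ‖x‖` in terms of `u`
    have h7 : - Real.log ‖x‖ ≤ (|K| + k * (|C₂| + |A| + 1)) * (A - u x) := by
      have a1 : (k : ℝ) * u x ≤ lgh g h x + k * C₂ := by
        have := mul_le_mul_of_nonneg_left hu1 hk0.le
        have e : (k : ℝ) * (1 / (k : ℝ) * lgh g h x + C₂) = lgh g h x + k * C₂ := by
          field_simp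
        linarith
      have a2 : -(2 * Real.log ‖x‖) ≤ K + k * C₂ - k * u x := by linarith
      have a3 : K ≤ |K| := le_abs_self K
      have a4 : (k : ℝ) * C₂ ≤ k * |C₂| := mul_le_mul_of_nonneg_left (le_abs_self _) hk0.le
      have a5 : -(A) ≤ |A| := neg_le_abs A
      have a6 : 0 ≤ |K| + k * (|C₂| + |A| + 1) := by positivity
      have a7 : K + k * C₂ - k * u x ≤ (|K| + k * (|C₂| + |A| + 1)) * (A - u x) := by
        have b1 : K + k * C₂ - k * u x = K + k * C₂ - k * A + k * (A - u x) := by ring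
        have b2 : K + k * C₂ - k * A ≤ |K| + k * |C₂| + k * |A| := by
          have := mul_le_mul_of_nonneg_left a5 hk0.le
          linarith
        have b3 : |K| + k * |C₂| + k * |A| ≤ (|K| + k * |C₂| + k * |A|) * (A - u x) :=
          le_mul_of_one_le_right (by positivity) hone
        calc K + k * C₂ - k * u x ≤ (|K| + k * |C₂| + k * |A|) * (A - u x) + k * (A - u x) := by
              linarith
          _ = _ := by ring
      have a8 : 0 ≤ (|K| + k * (|C₂| + |A| + 1)) * (A - u x) := mul_nonneg a6 (by linarith)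
      linarith
    have h8 : - phq q s l x ≤ B₁ * (A - u x) := by
      have a1 : -(Real.log c) ≤ |Real.log c| := neg_le_abs _
      have a2 : (N : ℝ) * (- Real.log ‖x‖) ≤ N * ((|K| + k * (|C₂| + |A| + 1)) * (A - u x)) :=
        mul_le_mul_of_nonneg_left h7 (Nat.cast_nonneg N)
      have a3 : |Real.log c| ≤ |Real.log c| * (A - u x) :=
        le_mul_of_one_le_right (abs_nonneg _) hone
      calc - phq q s l x ≤ -(Real.log c) + N * (- Real.log ‖x‖) := by linarith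
        _ ≤ |Real.log c| * (A - u x) + N * ((|K| + k * (|C₂| + |A| + 1)) * (A - u x)) := by
            linarith
        _ ≤ B₁ * (A - u x) := by
            have e : B₁ * (A - u x) = (A - u x) + (|Real.log c| * (A - u x) +
                N * ((|K| + k * (|C₂| + |A| + 1)) * (A - u x))) := by
              rw [hB₁]
              ring
            rw [e]
            linarith
    have h9 := Real.log_le_log (by linarith : 0 < - phq q s l x) h8
    rw [Real.log_mul (by linarith) (by linarith)] at h9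
    linarith
  have hsum : ∑ l, 4 * (- Real.log (- phq q s l x)) ≥
      -(4 * L * (Real.log B₁ + Real.log (A - u x))) := by
    have h4 : ∑ _l : Fin L, -(4 * (Real.log B₁ + Real.log (A - u x))) ≤
        ∑ l, 4 * (- Real.log (- phq q s l x)) :=
      Finset.sum_le_sum fun l _ => by linarith [hph l]
    rw [Finset.sum_const, Finset.card_univ, Fintype.card_fin, nsmul_eq_mul] at h4
    linarith
  have hvq : vq k g h q s x = 1 / (k : ℝ) * lgh g h x +
      ∑ l, 4 * (- Real.log (- phq q s l x)) := rfl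
  have hLn : (0 : ℝ) ≤ L := Nat.cast_nonneg L
  have hlow : 1 / (k : ℝ) * lgh g h x - u x ≤ B * (1 + Real.log (A - u x)) := by
    have h4 : 1 / (k : ℝ) * lgh g h x - u x ≤
        C₁ + 4 * L * (Real.log B₁ + Real.log (A - u x)) := by linarith
    have h5 : C₁ ≤ |C₁| := le_abs_self _
    have h6 : 0 ≤ |C₂| := abs_nonneg _
    have h7 : 0 ≤ |C₁| := abs_nonneg _
    set y := Real.log (A - u x) with hy
    set b := Real.log B₁ with hb
    have h8 : 0 ≤ 4 * (L : ℝ) * b * y := by positivity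
    have h9 : 0 ≤ |C₁| * y := by positivity
    have h10 : 0 ≤ |C₂| * y := by positivity
    have h11 : B * (1 + y) = |C₁| + |C₁| * y + |C₂| + |C₂| * y + 4 * L * (b + y) +
        4 * (L : ℝ) * b * y + 4 * L + 1 + y := by
      rw [hB]
      ring
    rw [h11]
    linarith
  have hupp : u x - 1 / (k : ℝ) * lgh g h x ≤ B * (1 + Real.log (A - u x)) := by
    have h4 : u x - 1 / (k : ℝ) * lgh g h x ≤ |C₂| := by linarith [le_abs_self C₂]
    have h5 : |C₂| ≤ B := by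
      rw [hB]
      have : 0 ≤ |C₁| + 4 * L * (Real.log B₁ + 1) := by positivity
      linarith
    have h6 : B ≤ B * (1 + Real.log (A - u x)) := le_mul_of_one_le_right hB0.le (by linarith)
    linarith
  rw [abs_le]
  constructor
  · linarith
  · exact hupp

end

end Crest.Agent.R257.PairK_39
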