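import Crest.Agent.R257.PairK4_39

/-!
# Row 257 (S0395), PAIR-K (helper39), part 5: gradient bounds from the two-sided estimate

* `UpB.weight` : change of the weight
* `upb_of_two` : `UpB` with the weight `k u` from `TwoS`
* `XUof`       : `XLStmt → XUStmt`
* `up1_of_xl`  : `XLStmt → Up1Stmt`
-/

set_option autoImplicit false
set_option linter.unusedSectionVars false

open Set Filter Topology Complex MeasureTheory
open scoped ContDiff ComplexConjugate Matrix ComplexOrder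

namespace Crest.Agent.R257.PairK_39

open Crest.Agent.R275.Geo
open Crest.Agent.R273
open Crest.Agent.R273.YauDefs_635 (cH lev333_eq_lev145 inC)
open Crest.Agent.R257.PN_835 (nsq)
open Crest.Agent.R257.Aff_835 (eta2a)
open Crest.Agent.R257.Defs_219 Crest.Agent.R257.KED_952 Crest.Agent.R257.KEG_952
open Crest.Agent.R257.KEU_952
open Crest.Agent.R257.V1Defs_822 (SmL LvlOK lgh XUStmt)
open Crest.Agent.R257.CLogD_39
open Crest.Agent.R257.Esc_537 (zero_of_col)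

noncomputable section

variable {f : E3 → ℂ} {r : ℝ} {L : ℕ} {q : Fin L → E3 → ℂ} {s : Fin L → ℕ} {g h : E3 → ℂ}
  {u : E3 → ℝ} {A : ℝ}

/-- change of the weight -/
theorem UpB.weight (hK : KEon f 0 r u) {φ φ' : E3 → ℝ} {N : ℕ} {h : E3 → ℂ} (hA0 : 0 ≤ A)
    (hU : UpB f r u A N φ h) {c : ℝ}
    (hφ : ∀ x, f x = 0 → x ≠ 0 → nsq x < r ^ 2 → φ x ≤ φ' x + c)
    (h1 : ∀ x, f x = 0 → x ≠ 0 → nsq x < r ^ 2 → 1 ≤ A - u x) :
    ∃ A' : ℝ, A ≤ A' ∧ UpB f r u A' N φ' h := by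
  refine ⟨max A (A * Real.exp c), le_max_left _ _, fun θ O hP z hz v => ?_⟩
  refine (hU θ O hP z hz v).trans ?_
  have h2 := hφ _ (hP.par.lvl z hz) (hP.ne z hz) (hP.lt z hz)
  have h3 := h1 _ (hP.par.lvl z hz) (hP.ne z hz) (hP.lt z hz)
  have h4 := lev_nn hK hP hz v
  set A' := max A (A * Real.exp c) with hA'
  have h5 : (A - u (θ z)) ^ N ≤ (A' - u (θ z)) ^ N :=
    pow_le_pow_left₀ (by linarith) (by linarith [le_max_left A (A * Real.exp c)]) _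
  have h6 : 0 ≤ (A - u (θ z)) ^ N := pow_nonneg (by linarith) _
  have h7 : Real.exp (φ (θ z)) ≤ Real.exp (φ' (θ z)) * Real.exp c := by
    rw [← Real.exp_add]
    exact Real.exp_le_exp.2 h2
  have h10 : 0 ≤ (A' - u (θ z)) ^ N := h6.trans h5
  calc A * (A - u (θ z)) ^ N * Real.exp (φ (θ z)) * Defs_333.lev (fun z => u (θ z)) z v
      ≤ A * (A' - u (θ z)) ^ N * (Real.exp (φ' (θ z)) * Real.exp c) *
        Defs_333.lev (fun z => u (θ z)) z v := by gcongr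
    _ = (A * Real.exp c) * (A' - u (θ z)) ^ N * Real.exp (φ' (θ z)) *
        Defs_333.lev (fun z => u (θ z)) z v := by ring
    _ ≤ A' * (A' - u (θ z)) ^ N * Real.exp (φ' (θ z)) *
        Defs_333.lev (fun z => u (θ z)) z v := by
      have h8 : 0 ≤ (A' - u (θ z)) ^ N := h6.trans h5
      have h9 : A * Real.exp c ≤ A' := le_max_right _ _
      gcongr

/-- `|g|² ≤ C e^{k u} (A - u)^m` -/
theorem sq_le_of_two {k : ℕ} (hk : 2 ≤ k) {B : ℝ} (hT : TwoS f r u A k g h B)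
    (h1 : ∀ x, f x = 0 → x ≠ 0 → nsq x < r ^ 2 → 1 ≤ A - u x) :
    ∃ (C : ℝ) (m : ℕ), 0 < C ∧ ∀ x, f x = 0 → x ≠ 0 → nsq x < r ^ 2 →
      ‖g x‖ ^ 2 + ‖h x‖ ^ 2 ≤ C * (Real.exp (k * u x) * (A - u x) ^ m) := by
  have hk0 : (0 : ℝ) < k := by exact_mod_cast (by omega : 0 < k)
  refine ⟨Real.exp (k * B), ⌈k * B⌉₊, Real.exp_pos _, fun x h2 h3 h4 => ?_⟩
  have h5 := h1 x h2 h3 h4
  have hlog : 0 ≤ Real.log (A - u x) := Real.log_nonneg h5
  have hpos : 0 < A - u x := by linarith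
  rcases (by positivity : 0 ≤ ‖g x‖ ^ 2 + ‖h x‖ ^ 2).eq_or_lt with h0 | h0
  · rw [← h0]
    positivity
  have h6 := (abs_le.1 (hT x h2 h3 h4)).1
  have h7 : lgh g h x ≤ k * B + (k * u x + k * B * Real.log (A - u x)) := by
    have h8 : 1 / (k : ℝ) * lgh g h x ≤ u x + B * (1 + Real.log (A - u x)) := by linarith
    have h9 := mul_le_mul_of_nonneg_left h8 hk0.le
    have e : (k : ℝ) * (1 / (k : ℝ) * lgh g h x) = lgh g h x := by field_simp
    rw [e] at h9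
    linarith
  have h8 : k * B * Real.log (A - u x) ≤ (⌈k * B⌉₊ : ℝ) * Real.log (A - u x) :=
    mul_le_mul_of_nonneg_right (Nat.le_ceil _) hlog
  have h9 : Real.exp ((⌈k * B⌉₊ : ℝ) * Real.log (A - u x)) = (A - u x) ^ ⌈k * B⌉₊ := by
    rw [← Real.log_pow, Real.exp_log (pow_pos hpos _)]
  calc ‖g x‖ ^ 2 + ‖h x‖ ^ 2 = Real.exp (lgh g h x) := by
        unfold lgh
        rw [Real.exp_log h0]
    _ ≤ Real.exp (k * B + (k * u x + (⌈k * B⌉₊ : ℝ) * Real.log (A - u x))) :=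
        Real.exp_le_exp.2 (by linarith)
    _ = _ := by rw [Real.exp_add, Real.exp_add, h9]

/-- **upper gradient bound** -/
theorem upb_of_two {k : ℕ} (hk : 2 ≤ k) {B : ℝ} (hf : LvlOK f 0 r)
    (hK : KEon f 0 r u) (hE : Esc f r u A) (hT : TwoS f r u A k g h B)
    (hg : ∀ x, nsq x < r ^ 2 → AnalyticAt ℂ g x) {ρ : ℝ} (h0 : 0 < ρ) (hρ : ρ < r) :
    ∃ (A' : ℝ) (N : ℕ), A ≤ A' ∧ UpB f ρ u A' N (fun x => k * u x) g := by
  obtain ⟨C, m, hC, h1⟩ := sq_le_of_two hk hT hE.one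
  obtain ⟨A', hA', h2⟩ := gmK_UpB (C := C) (a := k) (m := m) hf hK hE h0 hρ
    (fun x _ hx => (hg x hx).differentiableAt) (fun x m1 m2 m3 => by
      have h3 := h1 x m1 m2 (lt_of_le_of_lt m3 (pow_lt_pow_left₀ hρ h0.le two_ne_zero))
      have : 0 ≤ ‖h x‖ ^ 2 := by positivity
      linarith)
  exact ⟨A', m + 2, hA', h2⟩

/-- `XLStmt` implies `XUStmt` -/
theorem XUof (xl : XLStmt) : XUStmt := by
  intro f hiso hm
  obtain ⟨k, g, h, L, q, s, hX, hju, -⟩ := xl f hiso hm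
  exact ⟨k, g, h, hX.two, hX.g_an, hX.h_an, hX.fin, hX.num, hju⟩

/-- values at `0` of an exact pair -/
theorem xpr_zero {k : ℕ} (hiso : Iso f) (hm : 0 < mstar f) (hX : XPr f k g h) :
    g 0 = 0 ∧ h 0 = 0 := by
  have hcol0 : col ![f, g, h] ≠ 0 := by
    intro h0
    have hcol := hX.num
    rw [h0] at hcol
    have hk0 : (0 : ℝ) < (k : ℝ) ^ 2 := by
      have : (0 : ℝ) < k := by exact_mod_cast (by have := hX.two; omega : 0 < k)
      positivity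
    have h2 : 0 < (k : ℝ) ^ 2 * mstar f := mul_pos hk0 hm
    rw [← hcol] at h2
    simp at h2
  have hG : ∀ j : Fin 3, AnalyticAt ℂ ((![f, g, h] : Fin 3 → E3 → ℂ) j) 0 := by
    intro j
    fin_cases j
    · exact hiso.an
    · exact hX.g_an
    · exact hX.h_an
  exact ⟨zero_of_col hG hcol0 1, zero_of_col hG hcol0 2⟩

/-- **everything about the weight of an exact pair with C-LOG**: radius, `Esc`, two-sided estimate -/
theorem two_of_xl {Φ : E3 × PP → ℂ} {τ₀ : PP} {l : Filter PP} {r C : ℝ} {w : PP → E3 → ℝ}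
    {u : E3 → ℝ} (hD : SmD Φ τ₀ l r C w u) {f : E3 → ℂ} (hf : f = (fun x => Φ (x, τ₀)))
    (hm : 0 < mstar f) {k : ℕ} {g h : E3 → ℂ} (hX : XPr f k g h)
    (hju : ∃ C r : ℝ, 0 < r ∧ ∀ x, ‖x‖ < r → f x = 0 →
      ‖Dt f g h x‖ ^ 2 ≤ C * (‖g x‖ ^ 2 + ‖h x‖ ^ 2) ^ (2 + 1 / (k : ℝ)))
    (hC : CLog f g h k q s) (esc : EscStmt) :
    ∃ r' A B : ℝ, 0 < r' ∧ r' < r ∧ 0 < B ∧ LvlOK f 0 r' ∧ KEon f 0 r' u ∧ Esc f r' u A ∧
      TwoS f r' u A k g h B ∧ (∀ x, nsq x < r' ^ 2 → AnalyticAt ℂ g x ∧ AnalyticAt ℂ h x ∧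
        ∀ l, AnalyticAt ℂ (q l) x) ∧ QOK f r' g h q s := by
  have hiso : Iso f := by rw [hf]; exact hD.iso
  have hr := hD.r_pos
  obtain ⟨hg0, hh0⟩ := xpr_zero hiso hm hX
  have han : ∀ x, nsq x < r ^ 2 → AnalyticAt ℂ f x := by
    intro x hx
    rw [hf]
    exact (hD.an x hx.le).comp₂ analyticAt_id analyticAt_const
  have hsm : ∀ x, x ≠ 0 → nsq x < r ^ 2 → f x = 0 → fderiv ℂ f x ≠ 0 := by
    intro x h1 h2 h3
    rw [hf] at h3 ⊢
    exact hD.sm0 x h1 h2.le h3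
  have hL : LvlOK f 0 r := ⟨hr, han, hsm⟩
  have hK : KEon f 0 r u := by rw [hf]; exact hD.ke0.1
  obtain ⟨r₁, A, hr₁, hr₁r, hE⟩ := esc Φ τ₀ l r C w u hD f hf hm
  obtain ⟨ν, hν⟩ := KedM_941.nuStmt f 0 r hr han hsm
  obtain ⟨χ, hχ⟩ := SkelV_952.exists_cut hr
  have hvol := Vol_397.volStmt Φ τ₀ l r C w u hD f hf χ hχ ν hν
  have hup := UpK_938.upStmt f r u ν χ k g h hiso hL hK hν hχ hvol hX.two hX.g_an hX.h_an hg0
    hh0 hX.fin hju
  have hL₁ := UpK_938.LvlOK.mono hL hr₁ hr₁r.le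
  have hK₁ := KEon.mono' hK hr₁.le hr₁r.le
  obtain ⟨r₂, B, hr₂, hr₂₁, hB, hT⟩ := twoS hX.two hiso.an hL₁ hK₁ hE hX.g_an hX.h_an hg0 hh0
    hX.fin hC hup
  obtain ⟨r₀, c, N, hr₀, hc, hQ⟩ := exists_QOK hiso.an hX.g_an hX.h_an hX.fin hC
  set r' : ℝ := min r₂ r₀ with hr'
  have hr'0 : 0 < r' := lt_min hr₂ hr₀
  have hr'2 : r' ≤ r₂ := min_le_left _ _
  have hr'1 : r' ≤ r₁ := hr'2.trans hr₂₁.le
  have hQ' := (hQ r' hr'0 (min_le_right _ _)).1
  refine ⟨r', A, B, hr'0, by linarith, hB, UpK_938.LvlOK.mono hL₁ hr'0 hr'1,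
    KEon.mono' hK₁ hr'0.le hr'1, Esc.mono' hE hr'0.le hr'1, fun x h1 h2 h3 => hT x h1 h2
      (h3.trans_le (pow_le_pow_left₀ hr'0.le hr'2 2)), fun x hx => ⟨hQ'.ang x hx, hQ'.anh x hx,
        fun l => hQ'.anq l x hx⟩, hQ'⟩

theorem escOf (xl : XLStmt) : EscStmt :=
  Esc_537.esc_of KedM_941.nuStmt (XUof xl) UpK_938.upStmt Vol_397.volStmt

/-- **`Up1Stmt` from C-LOG** -/
theorem up1_of_xl (xl : XLStmt) : Up1Stmt := by
  intro Φ τ₀ l r C w u hD f hf hm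
  have hiso : Iso f := by rw [hf]; exact hD.iso
  obtain ⟨k, g, h, L, q, s, hX, hju, hC⟩ := xl f hiso hm
  obtain ⟨r', A, B, hr', hr'r, hB, hL, hK, hE, hT, han, -⟩ :=
    two_of_xl hD hf hm hX hju hC (escOf xl)
  refine ⟨k, g, h, hX, fun κ hκ hκk => ?_⟩
  obtain ⟨A', N, hA', hU⟩ := upb_of_two hX.two hL hK hE hT (fun x hx => (han x hx).1)
    (ρ := r' / 2) (by positivity) (by linarith)
  have hr2 : (r' / 2) ≤ r' := by linarith
  have hK2 := KEon.mono' hK (by positivity : 0 ≤ r' / 2) hr2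
  have hE2 := Esc.mono' hE (by positivity : 0 ≤ r' / 2) hr2
  have h1 : ∀ x, f x = 0 → x ≠ 0 → nsq x < (r' / 2) ^ 2 → 1 ≤ A' - u x := fun x m1 m2 m3 => by
    have := hE2.one x m1 m2 m3
    linarith
  have hA'0 : 0 < A' := hE.pos.trans_le hA'
  obtain ⟨A₂, hA₂, hU₂⟩ := UpB.weight (φ' := fun x => κ * u x) (c := (k - κ) * A') hK2 hA'0.le hU
    (fun x m1 m2 m3 => by
      have h2 := h1 x m1 m2 m3
      have h3 : (k - κ) * u x ≤ (k - κ) * A' :=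
        mul_le_mul_of_nonneg_left (by linarith) (by linarith)
      linarith) h1
  refine ⟨r' / 2, A₂, N, by positivity, by linarith, by linarith, fun x m1 m2 m3 => ?_, hU₂⟩
  have := h1 x m1 m2 m3
  linarith

end

end Crest.Agent.R257.PairK_39
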