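import Crest.Agent.R257.PairK5_39
import Crest.Agent.R257.CLogDefs_68
import Crest.Agent.R257.Cmp_157
import Crest.Agent.R257.Cne3_812
import Crest.Agent.R257.Fto_889
import Crest.Agent.R257.NS0_554

/-!
# Row 257 (S0395), PAIR-K (helper39), part 6: helper68's `CLogStmt`

* `xpr_of_exact` : an exact pair has the numbers `XPr`
* `xl_of_clog`   : `CLog_68.CLogStmt → CLogD_39.XLStmt`
* `up1_of_clog`  : `CLog_68.CLogStmt → KEU_952.Up1Stmt`
-/

set_option autoImplicit false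
set_option linter.unusedSectionVars false

open Set Filter Topology Complex MeasureTheory
open scoped ContDiff ComplexConjugate Matrix ComplexOrder

namespace Crest.Agent.R257.PairK_39

open Crest.Agent.R257.Defs_219 Crest.Agent.R257.KED_952 Crest.Agent.R257.KEG_952
open Crest.Agent.R257.KEU_952
open Crest.Agent.R257.V1Defs_822 (SmL LvlOK lgh XUStmt)
open Crest.Agent.R257.CLogD_39

noncomputable section

/-- an exact pair has the numbers `XPr` -/
theorem xpr_of_exact {f g h : E3 → ℂ} {k : ℕ} (hI : Iso f) (hm : 0 < mstar f)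
    (E : XF_157.Exact f k g h) : XPr f k g h where
  two := E.k2
  g_an := E.ang
  h_an := E.anh
  fin := E.colFin NS0554.isoFinStmt hI.an
  num := E.col_eq (Cmp_157.cmp_of Cne_812.cneStmt NS0554.isoFinStmt) NS0554.isoFinStmt hI hm
  fin' := E.colFin' NS0554.isoFinStmt hI.an
  num' := E.col_eq' (Cmp_157.cmp_of Cne_812.cneStmt NS0554.isoFinStmt) Cmp_157.mulStmt
    NS0554.isoFinStmt Fto_889.detStmt hI hm

theorem sqq_eq_68 {L : ℕ} (q : Fin L → E3 → ℂ) (s : Fin L → ℕ) (l : Fin L) (x : E3) :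
    sqq q s l x = CLog_68.sq q s l x := rfl

theorem J2_eq_68 {L : ℕ} (f : E3 → ℂ) (q : Fin L → E3 → ℂ) (s : Fin L → ℕ) {x : E3}
    (h : ∀ l, 0 < sqq q s l x) : J2 f q s x = CLog_68.J2 f q s x := by
  unfold J2 CLog_68.J2 CLog_68.phq
  congr 1
  refine Finset.sum_congr rfl fun l _ => Finset.sum_congr rfl fun m _ => ?_
  rw [← sqq_eq_68, ← sqq_eq_68, Real.exp_neg, Real.exp_add, Real.exp_log (h l),
    Real.exp_log (h m), div_eq_mul_inv, mul_comm]

theorem a2_eq_68 {L : ℕ} (f g : E3 → ℂ) (q : Fin L → E3 → ℂ) (s : Fin L → ℕ) {x : E3}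
    (h : ∀ l, 0 < sqq q s l x) : a2 f g q s x = CLog_68.a2 f g q s x := by
  unfold a2 CLog_68.a2 CLog_68.phq
  refine Finset.sum_congr rfl fun l _ => ?_
  rw [← sqq_eq_68, Real.exp_neg, Real.exp_log (h l), div_eq_mul_inv, mul_comm]

/-- helper68's lists -/
theorem clog_of {f g h : E3 → ℂ} {k L : ℕ} {q : Fin L → E3 → ℂ} {s : Fin L → ℕ}
    (hS : CLog_68.Sys f q s) (h1 : CLog_68.CI f g h q s) (h2 : CLog_68.CII f g h k q s) :
    CLog f g h k q s := by
  obtain ⟨N, c, r, hc, hr, hlo⟩ := hS.lo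
  have hpos : ∀ x, ‖x‖ < r → f x = 0 → x ≠ 0 → ∀ l, 0 < sqq q s l x := fun x hx h0 hne l =>
    lt_of_lt_of_le (by
      have := norm_pos_iff.2 hne
      positivity) (hlo x hx h0 l)
  refine ⟨hS.an, hS.z, ⟨N, c, r, hc, hr, hlo⟩, ?_, ?_⟩
  · obtain ⟨c₁, r₁, hc₁, hr₁, h3⟩ := h1
    refine ⟨c₁, min r r₁, hc₁, lt_min hr hr₁, fun x hx h0 hne => ?_⟩
    have hp := hpos x (hx.trans_le (min_le_left _ _)) h0 hne
    rw [J2_eq_68 f q s hp, a2_eq_68 f g q s hp]
    exact h3 x (hx.trans_le (min_le_right _ _)) h0 hne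
  · obtain ⟨c₁, r₁, hc₁, hr₁, h3⟩ := h2
    refine ⟨c₁, min r r₁, hc₁, lt_min hr hr₁, fun x hx h0 hne => ?_⟩
    have hp := hpos x (hx.trans_le (min_le_left _ _)) h0 hne
    rw [J2_eq_68 f q s hp]
    exact h3 x (hx.trans_le (min_le_right _ _)) h0 hne

/-- **`XLStmt` from helper68's `CLogStmt`** -/
theorem xl_of_clog (cl : CLog_68.CLogStmt) : XLStmt := by
  intro f hI hm
  obtain ⟨L, q, s, hS, h2, k, g, h, hE, hju, h1⟩ := cl f hI hm
  exact ⟨k, g, h, L, q, s, xpr_of_exact hI hm hE, hju,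
    clog_of hS h1 (h2 k g h hE.k2 hE.ang hE.anh hE.e1)⟩

/-- **`Up1Stmt` from helper68's `CLogStmt`** -/
theorem up1_of_clog (cl : CLog_68.CLogStmt) : Up1Stmt := up1_of_xl (xl_of_clog cl)

theorem xu_of_clog (cl : CLog_68.CLogStmt) : XUStmt := XUof (xl_of_clog cl)

end

end Crest.Agent.R257.PairK_39
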