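import Crest.Agent.R257.Tay_812
import Crest.Agent.R257.CNS_939
import Crest.Agent.R257.Inv_939

/-!
R257 / Par1_771 (leaf LCX5): weighted orders of germs and lower bounds for colengths.

`WtB w d g` : `|g x| ≤ C s^d` on the boxes `|x_i| ≤ s^{w_i}`;
`wln w v`   : restriction of germs to the curve `t ↦ (v_i t^{w_i})`;
`FF w k`    : germs whose restrictions to all these curves have order `≥ k`;
`wt_lower`  : `#S ≤ dim O/(G) + Σ_j #T_j`.
-/

set_option autoImplicit false
set_option linter.unusedSectionVars false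

open Set Filter Topology
open Crest.AlgGeometry.Germ
open Crest.Agent.R275.Loc2879
open Crest.Agent.R257.Uni554
open Crest.Agent.R257.Tay_812

noncomputable section

namespace Crest.Agent.R257.Par1_771

variable {n : ℕ}

/-- weighted order at least `d`, analytic version -/
def WtB (w : Fin n → ℕ) (d : ℕ) (g : (Fin n → ℂ) → ℂ) : Prop :=
  ∃ C s₀ : ℝ, 0 < s₀ ∧ ∀ s : ℝ, 0 < s → s ≤ s₀ → ∀ x : Fin n → ℂ, (∀ i, ‖x i‖ ≤ s ^ w i) →
    ‖g x‖ ≤ C * s ^ d

/-- weighted curves -/
def cv (w : Fin n → ℕ) (v : Fin n → ℂ) (t : ℂ) : Fin n → ℂ := fun i => v i * t ^ w i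

lemma cv_an (w : Fin n → ℕ) (v : Fin n → ℂ) (t : ℂ) : AnalyticAt ℂ (cv w v) t := by
  unfold cv
  refine AnalyticAt.pi fun i => ?_
  exact analyticAt_const.mul (analyticAt_id.pow _)

lemma cv_zero {w : Fin n → ℕ} (hw : ∀ i, 0 < w i) (v : Fin n → ℂ) :
    cv w v 0 = (0 : Fin n → ℂ) := by
  funext i
  simp [cv, (hw i).ne']

/-- restriction to a weighted curve -/
def wln {w : Fin n → ℕ} (hw : ∀ i, 0 < w i) (v : Fin n → ℂ) : On n →+* OO (0 : ℂ) :=
  pull (cv w v) (cv_an w v 0) (cv_zero hw v)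

/-- the weight filtration -/
def FF {w : Fin n → ℕ} (hw : ∀ i, 0 < w i) (k : ℕ) : Ideal (On n) :=
  ⨅ v, (Ideal.span {TT (0 : ℂ) ^ k}).comap (wln hw v)

lemma mem_FF {w : Fin n → ℕ} {hw : ∀ i, 0 < w i} {k : ℕ} {b : On n} :
    b ∈ FF hw k ↔ ∀ v, TT (0 : ℂ) ^ k ∣ wln hw v b := by
  simp only [FF, Ideal.mem_iInf, Ideal.mem_comap, Ideal.mem_span_singleton]

lemma FF_mul {w : Fin n → ℕ} {hw : ∀ i, 0 < w i} {k l : ℕ} {a b : On n}
    (ha : a ∈ FF hw k) (hb : b ∈ FF hw l) : a * b ∈ FF hw (k + l) := by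
  rw [mem_FF] at *
  intro v
  rw [map_mul, pow_add]
  exact mul_dvd_mul (ha v) (hb v)

lemma FF_anti {w : Fin n → ℕ} {hw : ∀ i, 0 < w i} {k l : ℕ} (h : k ≤ l) {a : On n}
    (ha : a ∈ FF hw l) : a ∈ FF hw k := by
  rw [mem_FF] at *
  exact fun v => (pow_dvd_pow _ h).trans (ha v)

lemma wln_Xo {w : Fin n → ℕ} (hw : ∀ i, 0 < w i) (v : Fin n → ℂ) (i : Fin n) :
    wln hw v (Xo i) = algebraMap ℂ (OO (0 : ℂ)) (v i) * TT (0 : ℂ) ^ w i := by
  rw [wln, Xo, pull_gm, TT, Crest.Agent.R275.Loc2879.algebraMap_apply]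
  have h1 : ∀ k : ℕ, (gm (fun w : ℂ => w - 0) (analyticAt_id.sub analyticAt_const) :
      OO (0 : ℂ)) ^ k = gm (fun t : ℂ => t ^ k) (analyticAt_id.pow k) := by
    intro k
    induction k with
    | zero =>
      rw [pow_zero, ← map_one (algebraMap ℂ (OO (0 : ℂ))),
        Crest.Agent.R275.Loc2879.algebraMap_apply, gm_eq_gm]
      exact Eventually.of_forall fun t => by simp
    | succ k ih =>
      rw [pow_succ, ih, gm_mul, gm_eq_gm]
      refine Eventually.of_forall fun t => ?_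
      simp [pow_succ]
  rw [h1, gm_mul, gm_eq_gm]
  exact Eventually.of_forall fun t => rfl

lemma wln_algebraMap {w : Fin n → ℕ} (hw : ∀ i, 0 < w i) (v : Fin n → ℂ) (c : ℂ) :
    wln hw v (algebraMap ℂ (On n) c) = algebraMap ℂ (OO (0 : ℂ)) c := by
  rw [wln, Crest.Agent.R275.Loc2879.algebraMap_apply, pull_gm,
    Crest.Agent.R275.Loc2879.algebraMap_apply, gm_eq_gm]
  exact Eventually.of_forall (fun t => rfl)

lemma Xo_mem_FF {w : Fin n → ℕ} (hw : ∀ i, 0 < w i) (i : Fin n) : Xo i ∈ FF hw (w i) := by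
  rw [mem_FF]
  intro v
  rw [wln_Xo]
  exact Dvd.intro_left _ rfl

/-- the `K`-th power of the maximal ideal has weighted order at least `K` -/
lemma max_pow_le {w : Fin n → ℕ} (hw : ∀ i, 0 < w i) (K : ℕ) {b : On n}
    (hb : b ∈ IsLocalRing.maximalIdeal (On n) ^ K) : b ∈ FF hw K := by
  rw [mem_FF]
  intro v
  have h1 : (IsLocalRing.maximalIdeal (On n)).map (wln hw v) ≤ Ideal.span {TT (0 : ℂ)} := by
    rw [Ideal.map_le_iff_le_comap]
    intro a ha
    rw [Ideal.mem_comap, Ideal.mem_span_singleton]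
    obtain ⟨q, hq⟩ := had a
    have h2 : evp 0 a = 0 := by
      by_contra hne
      exact (IsLocalRing.mem_maximalIdeal _).1 ha (Crest.Agent.R275.Loc2879.isUnit_iff.2 hne)
    rw [hq, h2, map_zero, zero_add, map_sum]
    refine Finset.dvd_sum fun i _ => ?_
    rw [map_mul, wln_Xo]
    exact ((dvd_pow_self _ (hw i).ne').mul_left _).mul_right _
  have h2 : ((IsLocalRing.maximalIdeal (On n)) ^ K).map (wln hw v) ≤
      Ideal.span {TT (0 : ℂ) ^ K} := by
    rw [Ideal.map_pow, ← Ideal.span_singleton_pow]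
    exact Ideal.pow_right_mono h1 K
  exact Ideal.mem_span_singleton.1 (h2 (Ideal.mem_map_of_mem _ hb))

/-! ### polynomials -/

/-- the weight of an exponent -/
def wt (w : Fin n → ℕ) (α : Fin n →₀ ℕ) : ℕ := ∑ i, w i * α i

/-- a polynomial restricted to a weighted curve -/
def wlp (w : Fin n → ℕ) (v : Fin n → ℂ) : MvPolynomial (Fin n) ℂ →ₐ[ℂ] Polynomial ℂ :=
  MvPolynomial.aeval fun i => Polynomial.C (v i) * Polynomial.X ^ w i

lemma wln_aeval {w : Fin n → ℕ} (hw : ∀ i, 0 < w i) (v : Fin n → ℂ)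
    (p : MvPolynomial (Fin n) ℂ) :
    wln hw v (MvPolynomial.aeval Xo p) = Polynomial.aeval (TT (0 : ℂ)) (wlp w v p) := by
  induction p using MvPolynomial.induction_on with
  | C a =>
    rw [MvPolynomial.algHom_C, wlp, MvPolynomial.algHom_C, wln_algebraMap,
      Polynomial.algebraMap_apply, Polynomial.aeval_C]
    rfl
  | add p q hp hq => rw [map_add, map_add, hp, hq, map_add, map_add]
  | mul_X p i hp =>
    rw [map_mul, map_mul, hp, map_mul, map_mul, MvPolynomial.aeval_X, wln_Xo]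
    congr 1
    rw [wlp, MvPolynomial.aeval_X, map_mul, map_pow, Polynomial.aeval_X, Polynomial.aeval_C]

lemma wlp_eq (w : Fin n → ℕ) (v : Fin n → ℂ) (p : MvPolynomial (Fin n) ℂ) :
    wlp w v p = ∑ d ∈ p.support,
      Polynomial.C (p.coeff d * ∏ i, v i ^ d i) * Polynomial.X ^ wt w d := by
  conv_lhs => rw [p.as_sum]
  rw [map_sum]
  refine Finset.sum_congr rfl fun d _ => ?_
  rw [wlp, MvPolynomial.aeval_monomial, Finsupp.prod_fintype _ _ (fun i => pow_zero _)]
  simp only [mul_pow, Finset.prod_mul_distrib, ← pow_mul, Finset.prod_pow_eq_pow_sum]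
  rw [Polynomial.C_mul, map_prod]
  simp only [Polynomial.C_pow, Polynomial.algebraMap_apply, Algebra.algebraMap_self,
    RingHom.id_apply, wt]
  ring

/-- the part of weight `j` of a polynomial -/
def wc (w : Fin n → ℕ) (j : ℕ) (p : MvPolynomial (Fin n) ℂ) : MvPolynomial (Fin n) ℂ :=
  ∑ d ∈ p.support with wt w d = j, MvPolynomial.monomial d (p.coeff d)

lemma coeff_wc (w : Fin n → ℕ) (j : ℕ) (p : MvPolynomial (Fin n) ℂ) {α : Fin n →₀ ℕ}
    (h : wt w α = j) : (wc w j p).coeff α = p.coeff α := by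
  classical
  rw [wc, MvPolynomial.coeff_sum]
  simp only [MvPolynomial.coeff_monomial]
  by_cases hα : α ∈ p.support
  · rw [Finset.sum_eq_single α]
    · simp
    · intro b _ hb; rw [if_neg hb]
    · intro hh
      exact absurd (Finset.mem_filter.2 ⟨hα, h⟩) hh
  · rw [Finset.sum_eq_zero, MvPolynomial.notMem_support_iff.1 hα]
    intro b hb
    have : b ≠ α := fun e => hα (e ▸ (Finset.mem_filter.1 hb).1)
    rw [if_neg this]

lemma coeff_wlp (w : Fin n → ℕ) (v : Fin n → ℂ) (p : MvPolynomial (Fin n) ℂ) (j : ℕ) :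
    (wlp w v p).coeff j = MvPolynomial.eval v (wc w j p) := by
  classical
  rw [wlp_eq, Polynomial.finsetSum_coeff, wc, map_sum, Finset.sum_filter]
  refine Finset.sum_congr rfl fun d _ => ?_
  rw [Polynomial.coeff_C_mul_X_pow, MvPolynomial.eval_monomial,
    Finsupp.prod_fintype _ _ (fun i => pow_zero _)]
  by_cases h : j = wt w d
  · rw [if_pos h, if_pos h.symm]
  · rw [if_neg h, if_neg (fun h' => h h'.symm)]

/-- the coefficients of low weight of a polynomial in `FF K` vanish -/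
lemma coeff_eq_zero {w : Fin n → ℕ} {hw : ∀ i, 0 < w i} {K : ℕ} {p : MvPolynomial (Fin n) ℂ}
    (hp : MvPolynomial.aeval Xo p ∈ FF hw K) {α : Fin n →₀ ℕ} (hα : wt w α < K) :
    p.coeff α = 0 := by
  rw [← coeff_wc w (wt w α) p rfl]
  have h0 : wc w (wt w α) p = 0 := by
    apply MvPolynomial.funext
    intro v
    have h1 := mem_FF.1 hp v
    rw [wln_aeval] at h1
    obtain ⟨q, hq⟩ := X_pow_dvd K _ h1
    rw [← coeff_wlp, hq, Polynomial.coeff_X_pow_mul', if_neg (by omega), map_zero]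
  rw [h0, MvPolynomial.coeff_zero]

lemma aeval_monomial_mem {w : Fin n → ℕ} (hw : ∀ i, 0 < w i) (α : Fin n →₀ ℕ) (c : ℂ) :
    MvPolynomial.aeval (Xo (n := n)) (MvPolynomial.monomial α c) ∈ FF hw (wt w α) := by
  rw [mem_FF]
  intro v
  rw [wln_aeval, wlp, MvPolynomial.aeval_monomial,
    Finsupp.prod_fintype _ _ (fun i => pow_zero _)]
  simp only [mul_pow, Finset.prod_mul_distrib, ← pow_mul, Finset.prod_pow_eq_pow_sum]
  rw [map_mul, map_mul, map_pow, Polynomial.aeval_X]
  exact ((Dvd.intro_left _ rfl).mul_left _)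

/-- every germ is a polynomial supported in weights `< K`, modulo weighted order `≥ K` -/
lemma exists_low {w : Fin n → ℕ} (hw : ∀ i, 0 < w i) (K : ℕ) (b : On n) :
    ∃ p : MvPolynomial (Fin n) ℂ, (∀ α ∈ p.support, wt w α < K) ∧
      b - MvPolynomial.aeval Xo p ∈ FF hw K := by
  classical
  obtain ⟨p, hp⟩ := exists_poly K b
  refine ⟨∑ d ∈ p.support with wt w d < K, MvPolynomial.monomial d (p.coeff d), ?_, ?_⟩
  · intro α hα
    by_contra hcon
    rw [MvPolynomial.mem_support_iff, MvPolynomial.coeff_sum] at hα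
    apply hα
    refine Finset.sum_eq_zero fun d hd => ?_
    rw [MvPolynomial.coeff_monomial, if_neg]
    rintro rfl
    exact hcon (Finset.mem_filter.1 hd).2
  · have h1 : p = ∑ d ∈ p.support with wt w d < K, MvPolynomial.monomial d (p.coeff d) +
        ∑ d ∈ p.support with ¬ wt w d < K, MvPolynomial.monomial d (p.coeff d) := by
      rw [Finset.sum_filter_add_sum_filter_not]
      exact p.as_sum
    have h2 : b - MvPolynomial.aeval Xo
        (∑ d ∈ p.support with wt w d < K, MvPolynomial.monomial d (p.coeff d)) =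
        (b - MvPolynomial.aeval Xo p) + MvPolynomial.aeval Xo
        (∑ d ∈ p.support with ¬ wt w d < K, MvPolynomial.monomial d (p.coeff d)) := by
      nth_rewrite 3 [h1]
      rw [map_add]
      ring
    rw [h2]
    refine Ideal.add_mem _ (max_pow_le hw K hp) ?_
    rw [map_sum]
    refine Ideal.sum_mem _ fun d hd => ?_
    exact FF_anti (not_lt.1 (Finset.mem_filter.1 hd).2) (aeval_monomial_mem hw _ _)

end Crest.Agent.R257.Par1_771
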