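import Crest.Agent.R257.Par1_771

/-!
R257 / Par2_771 (leaf LCX5): the lower bound for colengths by weights.
-/

set_option autoImplicit false
set_option linter.unusedSectionVars false

open Set Filter Topology
open Crest.AlgGeometry.Germ
open Crest.Agent.R275.Loc2879
open Crest.Agent.R257.Uni554
open Crest.Agent.R257.Tay_812
open Crest.Agent.R257.Par1_771

noncomputable section

namespace Crest.Agent.R257.Par2_771

variable {n m : ℕ}

/-- the polynomial with given coefficients on `S` -/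
def PS (S : Finset (Fin n →₀ ℕ)) : (S → ℂ) →ₗ[ℂ] MvPolynomial (Fin n) ℂ :=
  ∑ α : S, (MvPolynomial.monomial (R := ℂ) (α : Fin n →₀ ℕ)).comp (LinearMap.proj α)

theorem coeff_PS (S : Finset (Fin n →₀ ℕ)) (c : S → ℂ) (α : S) :
    (PS S c).coeff (α : Fin n →₀ ℕ) = c α := by
  classical
  simp only [PS, LinearMap.sum_apply, LinearMap.comp_apply, LinearMap.proj_apply,
    MvPolynomial.coeff_sum, MvPolynomial.coeff_monomial]
  rw [Finset.sum_eq_single α]
  · simp
  · intro β _ hβ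
    rw [if_neg (fun h => hβ (Subtype.ext h))]
  · intro h; exact absurd (Finset.mem_univ _) h

/-- **lower bound for the colength by weights** -/
theorem wt_lower {w : Fin n → ℕ} (hw : ∀ i, 0 < w i) (G : Fin m → On n) (J : Ideal (On n))
    (hJ : ∀ a ∈ J, ∃ c : Fin m → On n, a = ∑ j, c j * G j) [Module.Finite ℂ (On n ⧸ J)]
    {K : ℕ} {d : Fin m → ℕ} (hd : ∀ j, d j ≤ K) (hG : ∀ j, G j ∈ FF hw (d j))
    (S : Finset (Fin n →₀ ℕ)) (hS : ∀ α ∈ S, wt w α < K) (T : Fin m → Finset (Fin n →₀ ℕ))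
    (hT : ∀ j α, wt w α + d j < K → α ∈ T j) :
    S.card ≤ Module.finrank ℂ (On n ⧸ J) + ∑ j, (T j).card := by
  classical
  let A : (S → ℂ) →ₗ[ℂ] On n := (MvPolynomial.aeval Xo).toLinearMap ∘ₗ PS S
  let q : On n →ₗ[ℂ] (On n ⧸ J) := (Ideal.Quotient.mkₐ ℂ J).toLinearMap
  let π : On n →ₗ[ℂ] (On n ⧸ (FF hw K)) := (Ideal.Quotient.mkₐ ℂ (FF hw K)).toLinearMap
  have hq : ∀ a, q a = 0 ↔ a ∈ J := fun a => Ideal.Quotient.eq_zero_iff_mem
  have hπ : ∀ a, π a = 0 ↔ a ∈ FF hw K := fun a => Ideal.Quotient.eq_zero_iff_mem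
  set L := LinearMap.ker (q ∘ₗ A) with hL
  let u : (Σ j : Fin m, T j) → (On n ⧸ (FF hw K)) := fun p =>
    π (MvPolynomial.aeval Xo (MvPolynomial.monomial (p.2 : Fin n →₀ ℕ) (1 : ℂ)) * G p.1)
  set W := Submodule.span ℂ (Set.range u) with hW
  have hLW : ∀ c ∈ L, π (A c) ∈ W := by
    intro c hc
    have h1 : A c ∈ J := (hq _).1 hc
    obtain ⟨a, ha⟩ := hJ _ h1
    rw [ha, map_sum]
    refine Submodule.sum_mem _ fun j _ => ?_
    obtain ⟨p, hp, hr⟩ := exists_low hw (K - d j) (a j)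
    have e1 : a j * G j = (a j - MvPolynomial.aeval Xo p) * G j +
        ∑ α ∈ p.support, p.coeff α •
          (MvPolynomial.aeval Xo (MvPolynomial.monomial α (1 : ℂ)) * G j) := by
      have e2 : (MvPolynomial.aeval Xo p : On n) =
          ∑ α ∈ p.support, p.coeff α • MvPolynomial.aeval Xo (MvPolynomial.monomial α (1 : ℂ)) := by
        conv_lhs => rw [p.as_sum]
        rw [map_sum]
        refine Finset.sum_congr rfl fun α _ => ?_
        rw [← map_smul, MvPolynomial.smul_monomial, smul_eq_mul, mul_one]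
      simp only [← smul_mul_assoc]
      rw [← Finset.sum_mul, ← e2]
      ring
    have e3 : (a j - MvPolynomial.aeval Xo p) * G j ∈ FF hw K := by
      have := FF_mul hr (hG j)
      rwa [Nat.sub_add_cancel (hd j)] at this
    rw [e1, map_add, (hπ _).2 e3, zero_add, map_sum]
    refine Submodule.sum_mem _ fun α hα => ?_
    rw [map_smul]
    refine Submodule.smul_mem _ _ (Submodule.subset_span ⟨⟨j, ⟨α, hT j α ?_⟩⟩, rfl⟩)
    have := hp α hα
    omega
  have hWf : Module.Finite ℂ W := Module.Finite.span_of_finite ℂ (Set.finite_range u)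
  have hWc : Module.finrank ℂ W ≤ ∑ j, (T j).card := by
    have h1 := finrank_range_le_card (R := ℂ) u
    have h2 : Fintype.card (Σ j : Fin m, T j) = ∑ j, (T j).card := by
      rw [Fintype.card_sigma]
      exact Finset.sum_congr rfl fun j _ => Fintype.card_coe _
    rw [h2] at h1
    simpa [Set.finrank, hW] using h1
  let B : L →ₗ[ℂ] W := LinearMap.codRestrict W ((π ∘ₗ A) ∘ₗ L.subtype) fun c => hLW c c.2
  have hB : Function.Injective B := by
    rw [← LinearMap.ker_eq_bot, LinearMap.ker_eq_bot']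
    intro c hc
    have h1 : π (A c) = 0 := congrArg Subtype.val hc
    have h2 : MvPolynomial.aeval Xo (PS S c.1) ∈ FF hw K := (hπ _).1 h1
    apply Subtype.ext
    funext α
    have h3 := coeff_eq_zero h2 (hS α α.2)
    rw [coeff_PS] at h3
    exact h3
  have h3 : Module.finrank ℂ L ≤ ∑ j, (T j).card :=
    (LinearMap.finrank_le_finrank_of_injective hB).trans hWc
  have h4 := LinearMap.finrank_range_add_finrank_ker (q ∘ₗ A)
  have h5 : Module.finrank ℂ (LinearMap.range (q ∘ₗ A)) ≤ Module.finrank ℂ (On n ⧸ J) :=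
    Submodule.finrank_le _
  have h6 : Module.finrank ℂ (S → ℂ) = S.card := by
    rw [Module.finrank_fintype_fun_eq_card, Fintype.card_coe]
  rw [h6] at h4
  have h7 : Module.finrank ℂ (LinearMap.range (q ∘ₗ A)) + Module.finrank ℂ L = S.card := h4
  omega

/-! ### analytic criterion -/

/-- order of vanishing in one variable from a bound -/
lemma TT_pow_dvd {h : ℂ → ℂ} (hh : AnalyticAt ℂ h 0) {k : ℕ} {C : ℝ}
    (hb : ∀ᶠ t in 𝓝[≠] (0 : ℂ), ‖h t‖ ≤ C * ‖t‖ ^ k) : TT (0 : ℂ) ^ k ∣ (gm h hh : OO (0 : ℂ)) := by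
  have h1 : (k : ℕ∞) ≤ analyticOrderAt h 0 := by
    by_contra hcon
    rw [not_le] at hcon
    obtain ⟨m, hm⟩ := ENat.ne_top_iff_exists.1 (ne_top_of_lt hcon)
    rw [← hm] at hcon
    have hmk : m < k := by exact_mod_cast hcon
    obtain ⟨g, hg, hg0, hge⟩ := (hh.analyticOrderAt_eq_natCast (n := m)).1 hm.symm
    -- `‖g t‖ ≤ C ‖t‖^(k-m)`
    have h2 : ∀ᶠ t in 𝓝[≠] (0 : ℂ), ‖g t‖ ≤ C * ‖t‖ ^ (k - m) := by
      filter_upwards [hb, hge.filter_mono nhdsWithin_le_nhds, self_mem_nhdsWithin] with t h3 h4 h5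
      have h5' : (0 : ℝ) < ‖t‖ := norm_pos_iff.2 h5
      rw [h4, sub_zero, norm_smul, norm_pow] at h3
      have h6 : ‖t‖ ^ k = ‖t‖ ^ m * ‖t‖ ^ (k - m) := by rw [← pow_add]; congr 1; omega
      rw [h6] at h3
      have h7 : 0 < ‖t‖ ^ m := pow_pos h5' m
      have h8 : ‖t‖ ^ m * ‖g t‖ ≤ ‖t‖ ^ m * (C * ‖t‖ ^ (k - m)) := by linarith [h3]
      exact le_of_mul_le_mul_left h8 h7
    have h3 : Tendsto (fun t : ℂ => ‖g t‖) (𝓝[≠] 0) (𝓝 ‖g 0‖) :=
      (hg.continuousAt.norm.tendsto).mono_left nhdsWithin_le_nhds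
    have h4 : Tendsto (fun t : ℂ => C * ‖t‖ ^ (k - m)) (𝓝[≠] 0) (𝓝 (C * ‖(0 : ℂ)‖ ^ (k - m))) :=
      ((continuous_const.mul (continuous_norm.pow _)).tendsto 0).mono_left nhdsWithin_le_nhds
    have h5 := le_of_tendsto_of_tendsto h3 h4 h2
    rw [norm_zero, zero_pow (by omega), mul_zero] at h5
    exact hg0 (norm_le_zero_iff.1 h5)
  obtain ⟨g, hg, hge⟩ := (natCast_le_analyticOrderAt hh).1 h1
  have h2 : ∀ k : ℕ, (TT (0 : ℂ)) ^ k = (gm (fun t : ℂ => (t - 0) ^ k)
      ((analyticAt_id.sub analyticAt_const).pow k) : OO (0 : ℂ)) := by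
    intro k
    induction k with
    | zero =>
      rw [pow_zero, ← map_one (algebraMap ℂ (OO (0 : ℂ))),
        Crest.Agent.R275.Loc2879.algebraMap_apply, gm_eq_gm]
      exact Eventually.of_forall fun t => by simp
    | succ k ih =>
      rw [pow_succ, ih, TT, gm_mul, gm_eq_gm]
      refine Eventually.of_forall fun t => ?_
      simp [pow_succ]
  refine ⟨gm g hg, ?_⟩
  rw [h2, gm_mul, gm_eq_gm]
  filter_upwards [hge] with t ht
  rw [ht, smul_eq_mul]
  rfl

/-- the analytic weight bound implies the algebraic one -/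
theorem mem_FF_of_WtB {w : Fin n → ℕ} (hw : ∀ i, 0 < w i) {d : ℕ} {g : (Fin n → ℂ) → ℂ}
    (hg : AnalyticAt ℂ g 0) (h : WtB w d g) : (gm g hg : On n) ∈ FF hw d := by
  rw [mem_FF]
  intro v
  obtain ⟨C, s₀, hs₀, hb⟩ := h
  rw [wln, pull_gm]
  set M : ℝ := 1 + ∑ i, ‖v i‖ with hM
  have hM1 : 1 ≤ M := by
    have : 0 ≤ ∑ i, ‖v i‖ := Finset.sum_nonneg fun i _ => norm_nonneg _
    rw [hM]; linarith
  refine TT_pow_dvd (C := C * M ^ d) _ ?_
  have h1 : ∀ᶠ t in 𝓝 (0 : ℂ), M * ‖t‖ < s₀ := by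
    have : Tendsto (fun t : ℂ => M * ‖t‖) (𝓝 0) (𝓝 (M * ‖(0 : ℂ)‖)) :=
      (continuous_const.mul continuous_norm).tendsto 0
    rw [norm_zero, mul_zero] at this
    exact this.eventually (gt_mem_nhds hs₀)
  filter_upwards [h1.filter_mono nhdsWithin_le_nhds, self_mem_nhdsWithin] with t ht ht0
  have ht1 : 0 < M * ‖t‖ := mul_pos (by linarith) (norm_pos_iff.2 ht0)
  have h2 := hb (M * ‖t‖) ht1 ht.le (cv w v t) (fun i => by
    rw [cv, norm_mul, norm_pow, mul_pow]
    have h3 : ‖v i‖ ≤ M ^ w i := by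
      have h4 : ‖v i‖ ≤ M := by
        have : ‖v i‖ ≤ ∑ i, ‖v i‖ :=
          Finset.single_le_sum (f := fun i => ‖v i‖) (fun i _ => norm_nonneg _) (Finset.mem_univ i)
        rw [hM]; linarith
      exact h4.trans (le_self_pow₀ hM1 (hw i).ne')
    exact mul_le_mul_of_nonneg_right h3 (by positivity))
  calc ‖(g ∘ cv w v) t‖ ≤ C * (M * ‖t‖) ^ d := h2
    _ = C * M ^ d * ‖t‖ ^ d := by ring

end Crest.Agent.R257.Par2_771
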