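import Crest.Agent.R257.Par2_771
import Crest.Agent.R257.LcxDefs_759
import Crest.Agent.R257.Inv_939

/-!
R257 / Par3_771: `CountStmt` of `LcxDefs_759`, the lower bound of the Milnor number by weights.
-/

set_option autoImplicit false
set_option linter.unusedSectionVars false

open Set Filter Topology
open Crest.AlgGeometry.Germ
open Crest.Agent.R275.Loc2879
open Crest.Agent.R257.Uni554
open Crest.Agent.R257.Defs_219 Crest.Agent.R257.LCDefs_472
open Crest.Agent.R257.Par1_771 Crest.Agent.R257.Par2_771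

noncomputable section

namespace Crest.Agent.R257.Par3_771

variable {n : ℕ}

/-- Cauchy estimate in boxes -/
theorem wtB_cd {w : Fin n → ℕ} (hw : ∀ i, 0 < w i) {d : ℕ} {g : (Fin n → ℂ) → ℂ}
    (hg : AnalyticAt ℂ g 0) (h : WtB w d g) {j : Fin n} (hj : w j ≤ d) :
    WtB w (d - w j) (coordDeriv g j) := by
  obtain ⟨C, s₀, hs₀, h⟩ := h
  obtain ⟨ρ, hρ, hρa⟩ : ∃ ρ > 0, ∀ x : Fin n → ℂ, ‖x‖ < ρ → AnalyticAt ℂ g x := by
    obtain ⟨ρ, hρ, h1⟩ := Metric.eventually_nhds_iff.1 hg.eventually_analyticAt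
    exact ⟨ρ, hρ, fun x hx => h1 (by rwa [dist_zero_right])⟩
  refine ⟨C * 2 ^ d, min (s₀ / 2) (min (1 / 2) (ρ / 4)), by positivity, ?_⟩
  intro s hs hs1 x hx
  have hsa : s ≤ s₀ / 2 := hs1.trans (min_le_left _ _)
  have hsb : s ≤ 1 / 2 := hs1.trans ((min_le_right _ _).trans (min_le_left _ _))
  have hsc : s ≤ ρ / 4 := hs1.trans ((min_le_right _ _).trans (min_le_right _ _))
  have h2s : ∀ i, (2 * s) ^ w i ≤ 2 * s := fun i =>
    pow_le_of_le_one (by positivity) (by linarith) (hw i).ne'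
  have key : ∀ ζ : ℂ, ‖ζ‖ ≤ s ^ w j → ∀ i, ‖(x + ζ • (Pi.single j 1 : Fin n → ℂ)) i‖ ≤
      (2 * s) ^ w i := by
    intro ζ hζ i
    have h1 : (1 : ℝ) + 1 ≤ 2 ^ w i := by
      calc (1 : ℝ) + 1 = 2 ^ 1 := by norm_num
        _ ≤ 2 ^ w i := pow_le_pow_right₀ (by norm_num) (hw i)
    rw [mul_pow]
    have hp : 0 ≤ s ^ w i := by positivity
    by_cases hij : i = j
    · subst hij
      simp only [Pi.add_apply, Pi.smul_apply, Pi.single_eq_same, smul_eq_mul, mul_one]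
      calc ‖x i + ζ‖ ≤ ‖x i‖ + ‖ζ‖ := norm_add_le _ _
        _ ≤ s ^ w i + s ^ w i := add_le_add (hx i) hζ
        _ ≤ 2 ^ w i * s ^ w i := by nlinarith
    · simp only [Pi.add_apply, Pi.smul_apply, Pi.single_eq_of_ne hij, smul_eq_mul, mul_zero,
        add_zero]
      refine (hx i).trans ?_
      nlinarith
  have hball : ∀ ζ : ℂ, ‖ζ‖ ≤ s ^ w j → ‖x + ζ • (Pi.single j 1 : Fin n → ℂ)‖ < ρ := by
    intro ζ hζ
    rw [pi_norm_lt_iff hρ]
    intro i
    refine (key ζ hζ i).trans_lt ?_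
    refine (h2s i).trans_lt ?_
    linarith
  have hR : 0 < s ^ w j := by positivity
  have han : ∀ ζ : ℂ, ‖ζ‖ ≤ s ^ w j →
      AnalyticAt ℂ (fun ζ : ℂ => g (x + ζ • (Pi.single j 1 : Fin n → ℂ))) ζ := by
    intro ζ hζ
    have h1 : AnalyticAt ℂ (fun ζ : ℂ => x + ζ • (Pi.single j 1 : Fin n → ℂ)) ζ :=
      analyticAt_const.add (analyticAt_id.smul analyticAt_const)
    exact AnalyticAt.comp (g := g) (hρa _ (hball ζ hζ)) h1
  have hd : DiffContOnCl ℂ (fun ζ : ℂ => g (x + ζ • (Pi.single j 1 : Fin n → ℂ)))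
      (Metric.ball 0 (s ^ w j)) := by
    refine DifferentiableOn.diffContOnCl ?_
    rw [closure_ball _ hR.ne']
    intro ζ hζ
    exact (han ζ (by simpa using hζ)).differentiableAt.differentiableWithinAt
  have hC := Complex.norm_deriv_le_of_forall_mem_sphere_norm_le hR hd (C := C * (2 * s) ^ d)
    (by
      intro ζ hζ
      refine h (2 * s) (by positivity) (by linarith) _ (key ζ ?_)
      have : ‖ζ‖ = s ^ w j := by simpa using hζ
      exact this.le)
  have hx0 : AnalyticAt ℂ g x := hρa x (by simpa using hball 0 (by simpa using hR.le))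
  have hder : deriv (fun ζ : ℂ => g (x + ζ • (Pi.single j 1 : Fin n → ℂ))) 0 =
      coordDeriv g j x := by
    have h1 : HasDerivAt (fun ζ : ℂ => x + ζ • (Pi.single j 1 : Fin n → ℂ))
        (Pi.single j 1 : Fin n → ℂ) 0 := by
      have := ((hasDerivAt_id (0 : ℂ)).smul_const (Pi.single j 1 : Fin n → ℂ)).const_add x
      simpa using this
    have h2 : HasFDerivAt g (fderiv ℂ g x) (x + (0 : ℂ) • (Pi.single j 1 : Fin n → ℂ)) := by
      rw [zero_smul, add_zero]
      exact hx0.differentiableAt.hasFDerivAt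
    exact (h2.comp_hasDerivAt (0 : ℂ) h1).deriv
  rw [hder] at hC
  refine hC.trans (le_of_eq ?_)
  rw [div_eq_iff hR.ne', mul_pow, ← Nat.sub_add_cancel hj, pow_add s (d - w j) (w j),
    Nat.sub_add_cancel hj]
  ring

/-- `BoxO` gives `WtB` -/
theorem wtB_of_boxO {w : Fin 3 → ℕ} (hw : ∀ i, 0 < w i) {d : ℕ} {g : E3 → ℂ}
    (h : LcxDefs_759.BoxO w d g) : WtB w d g := by
  obtain ⟨κ, K, s₀, hκ, hs₀, h⟩ := h
  set κ' : ℝ := min κ 1 with hκ'
  have h0 : 0 < κ' := lt_min hκ one_pos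
  have h1 : κ' ≤ 1 := min_le_right _ _
  refine ⟨K / κ' ^ d, κ' * s₀, by positivity, ?_⟩
  intro s hs hs1 x hx
  have h2 : s / κ' ≤ s₀ := by
    rw [div_le_iff₀ h0]; linarith
  have h3 := h (s / κ') (by positivity) h2 x ?_
  · refine h3.trans (le_of_eq ?_)
    rw [div_pow]; ring
  · intro i
    refine (hx i).trans ?_
    have h4 : s ^ w i = κ' ^ w i * (s / κ') ^ w i := by
      rw [← mul_pow, mul_div_cancel₀ _ h0.ne']
    rw [h4]
    have h5 : κ' ^ w i ≤ κ := (pow_le_of_le_one h0.le h1 (hw i).ne').trans (min_le_left _ _)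
    exact mul_le_mul_of_nonneg_right h5 (by positivity)


/-! ### counting -/

/-- the exponent of a triple -/
def ex3 (a : ℕ × ℕ × ℕ) : Fin 3 →₀ ℕ := Finsupp.equivFunOnFinite.symm ![a.1, a.2.1, a.2.2]

lemma ex3_inj : Function.Injective ex3 := by
  rintro ⟨a, b, c⟩ ⟨a', b', c'⟩ h
  have h1 := Finsupp.equivFunOnFinite.symm.injective h
  have h2 := congrFun h1 0
  have h3 := congrFun h1 1
  have h4 := congrFun h1 2
  simp at h2 h3 h4
  simp [h2, h3, h4]

lemma ex3_surj (α : Fin 3 →₀ ℕ) : ex3 (α 0, α 1, α 2) = α := by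
  ext i
  fin_cases i <;> rfl

lemma wt_ex3 (w : Fin 3 → ℕ) (a : ℕ × ℕ × ℕ) :
    wt w (ex3 a) = w 0 * a.1 + w 1 * a.2.1 + w 2 * a.2.2 := by
  rw [wt, Fin.sum_univ_three]
  rfl

/-- the finset counted by `cnt` -/
def cs (w : Fin 3 → ℕ) (N e : ℕ) : Finset (ℕ × ℕ × ℕ) :=
  (Finset.range (N / w 0 + 1) ×ˢ Finset.range (N / w 1 + 1) ×ˢ Finset.range (N / w 2 + 1)).filter
    fun a => w 0 * a.1 + w 1 * a.2.1 + w 2 * a.2.2 + e ≤ N

lemma mem_cs {w : Fin 3 → ℕ} (hw : ∀ i, 0 < w i) {N e : ℕ} {a : ℕ × ℕ × ℕ} :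
    a ∈ cs w N e ↔ w 0 * a.1 + w 1 * a.2.1 + w 2 * a.2.2 + e ≤ N := by
  unfold cs
  rw [Finset.mem_filter, Finset.mem_product, Finset.mem_product, Finset.mem_range,
    Finset.mem_range, Finset.mem_range]
  refine ⟨fun h => h.2, fun h => ⟨⟨?_, ?_, ?_⟩, h⟩⟩
  · rw [Nat.lt_succ_iff, Nat.le_div_iff_mul_le (hw 0)]; nlinarith
  · rw [Nat.lt_succ_iff, Nat.le_div_iff_mul_le (hw 1)]; nlinarith
  · rw [Nat.lt_succ_iff, Nat.le_div_iff_mul_le (hw 2)]; nlinarith

/-- the bound in the given coordinates -/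
theorem count0 {w : Fin 3 → ℕ} {d N : ℕ} {f : E3 → ℂ} (hw : ∀ i, 0 < w i) (hwd : ∀ i, w i ≤ d)
    (hf : AnalyticAt ℂ f 0) (hfin : ColFin (par f)) (h : WtB w d f) :
    LcxDefs_759.cnt w N 0 ≤ col (par f) + ∑ j, LcxDefs_759.cnt w N (d - w j) := by
  classical
  have ha : ∀ i, AnalyticAt ℂ (par f i) 0 := fun i => UI939.an_coordDeriv hf i
  rw [UI939.col_eq ha]
  have := (UI939.colFin_iff ha).1 hfin
  have h1 := wt_lower (n := 3) (m := 3) hw (fun j => gm (par f j) (ha j))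
    (UI939.Idl (0 : Fin 3 → ℂ) (par f)) (fun a h => (UI939.mem_Idl ha).1 h) (K := N + 1)
    (d := fun j => min (d - w j) (N + 1)) (fun j => min_le_right _ _)
    (fun j => FF_anti (min_le_left _ _) (mem_FF_of_WtB hw (ha j) (wtB_cd hw hf h (hwd j))))
    ((cs w N 0).image ex3)
    (by
      intro α hα
      obtain ⟨a, ha, rfl⟩ := Finset.mem_image.1 hα
      rw [wt_ex3]
      have := (mem_cs hw).1 ha
      omega)
    (fun j => (cs w N (d - w j)).image ex3)
    (by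
      intro j α hα
      refine Finset.mem_image.2 ⟨(α 0, α 1, α 2), ?_, ex3_surj α⟩
      rw [mem_cs hw]
      rw [← ex3_surj α, wt_ex3] at hα
      dsimp only at hα ⊢
      rcases le_total (d - w j) (N + 1) with h2 | h2
      · rw [min_eq_left h2] at hα; omega
      · rw [min_eq_right h2] at hα; omega)
  rw [Finset.card_image_of_injective _ ex3_inj] at h1
  simp only [Finset.card_image_of_injective _ ex3_inj] at h1
  exact h1

/-- **CountStmt** -/
theorem countStmt : LcxDefs_759.CountStmt := by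
  intro w d N f A hw hwd hf hfin hB
  have hA : AnalyticAt ℂ (fun x : E3 => A x) 0 :=
    (A : E3 →L[ℂ] E3).analyticAt 0
  have hg : AnalyticAt ℂ (fun x : E3 => f (A x)) 0 :=
    AnalyticAt.comp (g := f) (f := fun x : E3 => A x) (by simpa using hf) hA
  have h1 := UI939.inv (f := f) (g := fun x : E3 => f (A x)) (Phi := fun x : E3 => A x) hf hA
    (map_zero A) (by
      have : fderiv ℂ (fun x : E3 => A x) 0 = (A : E3 →L[ℂ] E3) :=
        (A : E3 →L[ℂ] E3).hasFDerivAt.fderiv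
      rw [this]
      exact A.injective) (Eventually.of_forall fun x => rfl)
  have h2 := count0 (N := N) hw hwd hg (h1.1.2 hfin) (wtB_of_boxO hw hB)
  have h3 : col (par fun x : E3 => f (A x)) = col (par f) := h1.2
  rw [h3] at h2
  exact h2

end Crest.Agent.R257.Par3_771
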