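import Crest.Agent.R257.BCUP_532
import Crest.Agent.R257.OutD_309
import Crest.Agent.R257.GBL3_625
import Crest.Agent.R257.GBLcut_844

/-!
# R257 (S0395), part (GB), leaf GB-PTW (helper617): pointwise curvature bound on `Ω¹`

* `ke_pack`  : the metric matrix `K = (∂∂̄u)ᵀ` of a Kaehler-Einstein weight in a parametrisation
* `psd_trf`  : `|tr (Q rm_{cd})| ≤ r tr (Q K) Kᵀ` for `Q ≥ 0`
* `ptwStmt`  : **`BCUP_532.PtwStmt`**
-/

set_option autoImplicit false
set_option linter.unusedSectionVars false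
set_option linter.unusedSimpArgs false

open Topology Filter MeasureTheory Set Complex
open scoped ContDiff Matrix ComplexConjugate ComplexOrder

noncomputable section

namespace Crest.Agent.R257.Ptw_617

open Crest.Agent.R275.Geo Crest.Agent.R275.EDR890
open Crest.Agent.R273.Fock_243 Crest.Agent.R273.Calc_243
open Crest.Agent.R273.Bkn_243 Crest.Agent.R273.Pos_243 Crest.Agent.R273.BochA_101
open Crest.Agent.R273.BochB_101
open Crest.Agent.R273.BochC_101 Crest.Agent.R273.BochD_101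
open Crest.Agent.R273.Hess_333 Crest.Agent.R273.HessB_333
open Crest.Agent.R273.Defs_333 (lev)
open Crest.Agent.R273.YauDefs_635 (cH)
open Crest.Agent.R273.YauMax_635 (cH_eq_hess)
open Crest.Agent.R257.C2F1_625 Crest.Agent.R257.C2F2_625 Crest.Agent.R257.C2F3_625
open Crest.Agent.R257.C2F4_335 Crest.Agent.R257.C2F5_335
open Crest.Agent.R257.Defs_219
open Crest.Agent.R257.PN_835 (nsq)
open Crest.Agent.R257.Aff_835 (eta2a)
open Crest.Agent.R257.KED_952 Crest.Agent.R257.KEG_952 Crest.Agent.R257.KEU_952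
open Crest.Agent.R257.V1Defs_822 (SmL LvlOK)
open Crest.Agent.R257.KUP_952 (HK)
open Crest.Agent.R257.BCU4_532 (bf Th)
open Crest.Agent.R257.OutD_309 (Js Js_det Hc Hc_ev HO_eq Pot ldt)
open Crest.Agent.R257.GBL3_625
open Crest.Agent.R257.GBLcut_844 (pd_nonneg)
open Crest.Agent.R257.Ked2_397 (denStmt eta2a_norm kahAt_hess)

/-! ### the Kaehler-Einstein metric in a parametrisation -/

/-- data of a Kaehler-Einstein metric matrix at a point -/
structure KPack (K : Cn 2 → Matrix (Fin 2) (Fin 2) ℂ) (z : Cn 2) : Prop where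
  sm : ∀ᶠ y in 𝓝 z, SmM y K
  herm : ∀ᶠ y in 𝓝 z, (K y).IsHermitian
  pos : (K z).PosDef
  kah : ∀ᶠ y in 𝓝 z, KahAt K y
  ein : ∀ a b, ric K z a b = - K z b a

theorem ke_pack {f : E3 → ℂ} {s : ℂ} {r : ℝ} {u : E3 → ℝ} (hL : LvlOK f s r)
    (hu : KEon f s r u) {θ : Cn 2 → E3} {O : Set (Cn 2)} (hP : PE f s r θ O) {z : Cn 2}
    (hz : z ∈ O) :
    KPack (fun y => (hess (fun z => u (θ z)) y)ᵀ) z := by
  have hO := hP.par.isOpen
  set v : Cn 2 → ℝ := fun z => u (θ z) with hv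
  have hvs : ContDiffOn ℝ ∞ v O := hu.sm θ O hP
  have hva : ∀ y ∈ O, ContDiffAt ℝ ∞ v y := fun y hy => hvs.contDiffAt (hO.mem_nhds hy)
  set K : Cn 2 → Matrix (Fin 2) (Fin 2) ℂ := fun y => (hess v y)ᵀ with hK
  have hpd : ∀ y ∈ O, (hess v y).PosDef := fun y hy => posDef_hess (hva y hy) (hu.pos θ O hP y hy)
  have eO : ∀ᶠ y in 𝓝 z, y ∈ O := hO.mem_nhds hz
  have hfz : ∀ y ∈ O, AnalyticAt ℂ f (θ y) := fun y hy => hL.an _ (hP.lt y hy)
  have h0z : ∀ y ∈ O, fderiv ℂ f (θ y) ≠ 0 := fun y hy =>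
    hL.sm _ (hP.ne y hy) (hP.lt y hy) (hP.par.lvl y hy)
  have hmu : 0 < eta2a (n := 2) f θ z := Loc_835.eta2a_pos hP.par hz (h0z z hz)
  have hma : ∀ y ∈ O, (K y).det = ((Real.exp (u (θ y)) * eta2a (n := 2) f θ y : ℝ) : ℂ) := by
    intro y hy
    show ((hess v y)ᵀ).det = _
    rw [Matrix.det_transpose, ← cH_eq_hess (hva y hy)]
    exact hu.ma θ O hP y hy
  have hKsm : ∀ y ∈ O, SmM y K := fun y hy S S' => contDiffAt_hess (hva y hy) S' S
  have hKh : ∀ y ∈ O, (K y).IsHermitian := fun y hy => (hpd y hy).isHermitian.transpose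
  refine ⟨eO.mono fun y hy => hKsm y hy, eO.mono fun y hy => hKh y hy, (hpd z hz).transpose,
    eO.mono fun y hy => kahAt_hess hO hvs hy, ?_⟩
  intro a b
  have h0 : 0 < (K z).det.re := by
    rw [hma z hz, ofReal_re]
    positivity
  rw [← hess_neg_log_det (hKsm z hz) (eO.mono fun y hy => hKh y hy) h0 a b]
  obtain ⟨q, hq, hq0, hqe⟩ := eta2a_norm (n := 2) hP.par hz (hfz z hz) (h0z z hz)
  have hqd : ∀ᶠ w in 𝓝 z, DifferentiableAt ℂ q w :=
    hq.eventually_analyticAt.mono fun w hw => hw.differentiableAt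
  set g : Cn 2 → ℝ := fun w => Real.log (‖q w‖ ^ 2) with hg
  have hgs : ContDiffAt ℝ ∞ g z := KEl_835.c2_log hq hq0 ∞
  have e3 : (fun y => - Real.log (K y).det.re) =ᶠ[𝓝 z] fun y => -(v y + g y) := by
    filter_upwards [eO, hqe, hq.continuousAt.eventually_ne hq0] with y hy hy' hy0
    have h1 : eta2a (n := 2) f θ y = ‖q y‖ ^ 2 := hy'
    have h2 : 0 < ‖q y‖ := norm_pos_iff.2 hy0
    rw [hma y hy, ofReal_re, h1, Real.log_mul (Real.exp_pos _).ne' (by positivity), Real.log_exp]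
  rw [hess_congr e3, hess_neg ((hva z hz).add hgs), hess_add (hva z hz) hgs,
    hess_log_norm hqd hq0, add_zero]
  rfl

/-! ### contraction with a positive matrix -/

/-- `tr (Q X_{cd})` -/
def trf (Q : Matrix (Fin 2) (Fin 2) ℂ) (X : Fin 2 → Fin 2 → Matrix (Fin 2) (Fin 2) ℂ) :
    Matrix (Fin 2) (Fin 2) ℂ := Matrix.of fun c d => (Q * X c d).trace

theorem trace_fac (B X : Matrix (Fin 2) (Fin 2) ℂ) : ((Bᴴ * B) * X).trace =
    star (fun a => star (B 0 a)) ⬝ᵥ (X *ᵥ fun a => star (B 0 a)) +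
      star (fun a => star (B 1 a)) ⬝ᵥ (X *ᵥ fun a => star (B 1 a)) := by
  simp only [Matrix.trace_fin_two, Matrix.mul_apply, Fin.sum_univ_two, dotProduct,
    Matrix.mulVec, Pi.star_apply, star_star, Matrix.conjTranspose_apply]
  ring

theorem psd_trf {K : Cn 2 → Matrix (Fin 2) (Fin 2) ℂ} {z : Cn 2} (h : KPack K z)
    {Q : Matrix (Fin 2) (Fin 2) ℂ} (hQ : Q.PosSemidef) {r : ℝ}
    (hr : 4 * Real.sqrt ((c2 K z).re / (K z).det.re) ≤ r) :
    (((r * (Q * K z).trace.re : ℝ) : ℂ) • (K z)ᵀ - trf Q (rm K z)).PosSemidef ∧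
    (((r * (Q * K z).trace.re : ℝ) : ℂ) • (K z)ᵀ + trf Q (rm K z)).PosSemidef := by
  obtain ⟨B, hB⟩ := exists_fac hQ
  have h0 := einstein_psd h.sm h.herm h.pos h.kah h.ein (fun a => star (B 0 a)) hr
  have h1 := einstein_psd h.sm h.herm h.pos h.kah h.ein (fun a => star (B 1 a)) hr
  have e1 : trf Q (rm K z) = (Matrix.of fun c d => star (fun a => star (B 0 a)) ⬝ᵥ
      (rm K z c d *ᵥ fun a => star (B 0 a))) + Matrix.of fun c d =>
      star (fun a => star (B 1 a)) ⬝ᵥ (rm K z c d *ᵥ fun a => star (B 1 a)) := by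
    ext c d
    rw [Matrix.add_apply, Matrix.of_apply, Matrix.of_apply, trf, Matrix.of_apply, hB, trace_fac]
  have e2 : (((r * (Q * K z).trace.re : ℝ) : ℂ) • (K z)ᵀ) =
      (((r * (star (fun a => star (B 0 a)) ⬝ᵥ (K z *ᵥ fun a => star (B 0 a))).re : ℝ) : ℂ) •
        (K z)ᵀ) +
      (((r * (star (fun a => star (B 1 a)) ⬝ᵥ (K z *ᵥ fun a => star (B 1 a))).re : ℝ) : ℂ) •
        (K z)ᵀ) := by
    rw [← add_smul, hB, trace_fac, Complex.add_re]
    congr 1
    push_cast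
    ring
  rw [e1, e2]
  constructor
  · have := h0.1.add h1.1
    convert this using 1
    abel
  · have := h0.2.add h1.2
    convert this using 1
    abel

/-- `pd X Y` against a bound of a Hermitian `Y` -/
theorem pd_norm_le {X Y W : Matrix (Fin 2) (Fin 2) ℂ} (hX : X.PosSemidef)
    (h1 : (W - Y).PosSemidef) (h2 : (W + Y).PosSemidef) : ‖pd X Y‖ ≤ (pd X W).re := by
  have hY : Y.IsHermitian := by
    have h3 : ((W + Y) - (W - Y)).IsHermitian := h2.1.sub h1.1
    have h4 : (W + Y) - (W - Y) = (2 : ℂ) • Y := by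
      rw [two_smul]; abel
    rw [h4] at h3
    have h5 : Yᴴ = (2 : ℂ)⁻¹ • ((2 : ℂ) • Y)ᴴ := by
      rw [Matrix.conjTranspose_smul, smul_smul]
      simp
    rw [Matrix.IsHermitian, h5, h3.eq, smul_smul]
    simp
  have him : (pd X Y).im = 0 := GBLcut_844.pd_herm_im hX.1 hY
  have a1 := pd_nonneg hX h1
  have a2 := pd_nonneg hX h2
  rw [pd_sub, Complex.sub_re] at a1
  rw [pd_add, Complex.add_re] at a2
  have e : ‖pd X Y‖ = |(pd X Y).re| := by
    have : pd X Y = (((pd X Y).re : ℝ) : ℂ) := Complex.ext (by simp) (by simp [him])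
    rw [this, Complex.norm_real, Real.norm_eq_abs, Complex.ofReal_re]
  rw [e, abs_le]
  constructor <;> linarith

end Crest.Agent.R257.Ptw_617
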