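import Crest.Agent.R257.Ptw1_617

/-!
# R257 (S0395), part (GB), leaf GB-PTW (helper617): pointwise curvature bound on `Ω¹`

* `bf_eq`    : `tr (L F)` for the metric `HK u`, by the curvature of `K = (∂∂̄u)ᵀ`
* `ptwStmt`  : **`BCUP_532.PtwStmt`**
-/

set_option autoImplicit false
set_option linter.unusedSectionVars false
set_option linter.unusedSimpArgs false

open Topology Filter MeasureTheory Set Complex
open scoped ContDiff Matrix ComplexConjugate ComplexOrder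

noncomputable section

namespace Crest.Agent.R257.Ptw_617

open Crest.Agent.R275.Geo Crest.Agent.R275.EDR890
open Crest.Agent.R273.Fock_243 Crest.Agent.R273.Calc_243
open Crest.Agent.R273.Bkn_243 Crest.Agent.R273.Pos_243 Crest.Agent.R273.BochA_101
open Crest.Agent.R273.BochB_101
open Crest.Agent.R273.BochC_101 Crest.Agent.R273.BochD_101
open Crest.Agent.R273.Hess_333 Crest.Agent.R273.HessB_333
open Crest.Agent.R273.Defs_333 (lev)
open Crest.Agent.R273.YauDefs_635 (cH)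
open Crest.Agent.R273.YauMax_635 (cH_eq_hess)
open Crest.Agent.R257.C2F1_625 Crest.Agent.R257.C2F2_625 Crest.Agent.R257.C2F3_625
open Crest.Agent.R257.C2F4_335 Crest.Agent.R257.C2F5_335
open Crest.Agent.R257.Defs_219
open Crest.Agent.R257.PN_835 (nsq)
open Crest.Agent.R257.Aff_835 (eta2a)
open Crest.Agent.R257.KED_952 Crest.Agent.R257.KEG_952 Crest.Agent.R257.KEU_952
open Crest.Agent.R257.V1Defs_822 (SmL LvlOK)
open Crest.Agent.R257.KUP_952 (HK)
open Crest.Agent.R257.BCU4_532 (bf Th)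
open Crest.Agent.R257.OutD_309 (Js Js_det Hc Hc_ev HO_eq Pot ldt)
open Crest.Agent.R257.GBL3_625
open Crest.Agent.R257.GBLcut_844 (pd_nonneg)
open Crest.Agent.R257.Ked2_397 (denStmt eta2a_norm kahAt_hess)

theorem Js1 : Jsᴴ * Js = 1 := by
  ext i j
  fin_cases i <;> fin_cases j <;>
    simp [Js, Matrix.mul_apply, Fin.sum_univ_two, Matrix.conjTranspose_apply]

theorem Js2 : Js * Jsᴴ = 1 := by
  ext i j
  fin_cases i <;> fin_cases j <;>
    simp [Js, Matrix.mul_apply, Fin.sum_univ_two, Matrix.conjTranspose_apply]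

variable {v : Cn 2 → ℝ} {z : Cn 2}

/-- the twisted frame -/
theorem Th_HK (h : Pot v z) (hp : KPack (fun y => (hess v y)ᵀ) z) (c d : Fin 2) :
    Th (Hc v fun _ => 0) c d z =
      Jsᴴ * ((hess v z)ᵀ)⁻¹ * rm (fun y => (hess v y)ᵀ) z c d * Js +
        ((hess v z)ᵀ) d c • (1 : Matrix (Fin 2) (Fin 2) ℂ) := by
  set K : Cn 2 → Matrix (Fin 2) (Fin 2) ℂ := fun y => (hess v y)ᵀ with hK
  have hKz : (hess v z)ᵀ = K z := rfl
  have hKd : (K z).det ≠ 0 := hp.pos.det_pos.ne'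
  have i3 : K z * (K z)⁻¹ = 1 := Matrix.mul_nonsing_inv _ (isUnit_iff_ne_zero.2 hKd)
  have i4 : (K z)⁻¹ * K z = 1 := Matrix.nonsing_inv_mul _ (isUnit_iff_ne_zero.2 hKd)
  have hJ : HolM z (fun _ : Cn 2 => Js) := fun S T =>
    Eventually.of_forall fun y => differentiableAt_const _
  have hJd : (Js).det ≠ 0 := by rw [Js_det]; exact one_ne_zero
  set K' : Cn 2 → Matrix (Fin 2) (Fin 2) ℂ := fun y => Jsᴴ * K y * Js with hK'
  have hJc : (Jsᴴ).det = 1 := by rw [Matrix.det_conjTranspose, Js_det, star_one]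
  have hdet : ∀ y, (K' y).det = (hess v y).det := fun y => by
    rw [hK', Matrix.det_mul, Matrix.det_mul, hJc, Js_det, one_mul, mul_one, hK,
      Matrix.det_transpose]
  have hK'd : (K' z).det ≠ 0 := by rw [hdet]; exact h.det_ne
  have hK'sm : SmM z K' := by
    have h1 := hp.sm.self_of_nhds
    intro S T
    have h2 : (fun y => K' y S T) = fun y => ∑ b, (∑ a, Jsᴴ S a * K y a b) * Js b T := by
      funext y
      simp only [hK', Matrix.mul_apply]
    rw [h2]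
    refine ContDiffAt.sum fun b _ => ContDiffAt.mul (ContDiffAt.sum fun a _ => ?_)
      contDiffAt_const
    exact contDiffAt_const.mul (h1 a b)
  have hinv : (K' z)⁻¹ = Jsᴴ * (K z)⁻¹ * Js := by
    refine Matrix.inv_eq_right_inv ?_
    calc Jsᴴ * K z * Js * (Jsᴴ * (K z)⁻¹ * Js)
        = Jsᴴ * (K z * ((Js * Jsᴴ) * (K z)⁻¹)) * Js := by simp only [Matrix.mul_assoc]
      _ = 1 := by rw [Js2, Matrix.one_mul, i3, Matrix.mul_one, Js1]
  have hld := h.sm_ldt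
  have hrm : rm K' z c d = Jsᴴ * rm K z c d * Js :=
    rm_frame (F := fun _ => Js) hp.sm hKd hJ hJd c d
  have hH : hess (ldt v) z c d = K z d c := by
    have h0 : 0 < (K z).det.re := (Complex.lt_def.1 hp.pos.det_pos).1
    have h1 := hess_neg_log_det hp.sm.self_of_nhds hp.herm h0 c d
    rw [hp.ein] at h1
    have e3 : (fun y => - Real.log (K y).det.re) = fun y => - ldt v y := by
      funext y
      rw [hK, Matrix.det_transpose, ldt]
    rw [e3, hess_neg hld, Matrix.neg_apply] at h1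
    exact neg_inj.1 h1
  have e0 := Hc_ev (ψ := fun _ => 0) h
  have hz0 : Hc v (fun _ => 0) z = ((Real.exp (-(0 + ldt v z)) : ℝ) : ℂ) • K' z := e0.eq_of_nhds
  have hrmH : rm (Hc v fun _ => 0) z c d = ((Real.exp (-(0 + ldt v z)) : ℝ) : ℂ) •
      (rm K' z c d + hess (fun y => 0 + ldt v y) z c d • K' z) := by
    rw [rm_congr e0]
    exact rm_twist (H := K') (φ := fun y => 0 + ldt v y) hK'sm hK'd (contDiffAt_const.add hld) c d
  have hH' : hess (fun y => 0 + ldt v y) z = hess (ldt v) z := by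
    have : (fun y => 0 + ldt v y) = ldt v := by
      funext y
      rw [zero_add]
    rw [this]
  set e : ℂ := ((Real.exp (-(0 + ldt v z)) : ℝ) : ℂ) with he
  have he0 : e ≠ 0 := Complex.ofReal_ne_zero.2 (Real.exp_pos _).ne'
  have hinv2 : (e • K' z)⁻¹ = e⁻¹ • (K' z)⁻¹ := by
    refine Matrix.inv_eq_right_inv ?_
    rw [Matrix.smul_mul, Matrix.mul_smul,
      Matrix.mul_nonsing_inv _ (isUnit_iff_ne_zero.2 hK'd), smul_smul, mul_inv_cancel₀ he0,
      one_smul]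
  rw [Th, hrmH, hz0, hinv2, Matrix.smul_mul, Matrix.mul_smul, smul_smul, inv_mul_cancel₀ he0,
    one_smul, hH', hH, Matrix.mul_add, Matrix.mul_smul,
    Matrix.nonsing_inv_mul _ (isUnit_iff_ne_zero.2 hK'd), hrm, hinv, hKz]
  congr 1
  calc Jsᴴ * (K z)⁻¹ * Js * (Jsᴴ * rm K z c d * Js)
      = Jsᴴ * (K z)⁻¹ * ((Js * Jsᴴ) * rm K z c d * Js) := by simp only [Matrix.mul_assoc]
    _ = Jsᴴ * (K z)⁻¹ * rm K z c d * Js := by
      rw [Js2, Matrix.one_mul]; simp only [Matrix.mul_assoc]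

/-- the endomorphism in the frame of the tangent bundle -/
def PP' (K L : Matrix (Fin 2) (Fin 2) ℂ) : Matrix (Fin 2) (Fin 2) ℂ := Js * L * Jsᴴ * K⁻¹

theorem bf_eq (h : Pot v z) (hp : KPack (fun y => (hess v y)ᵀ) z)
    (L : Cn 2 → Matrix (Fin 2) (Fin 2) ℂ) :
    bf (Hc v fun _ => 0) L z =
      trf (PP' ((hess v z)ᵀ) (L z)) (rm (fun y => (hess v y)ᵀ) z) +
        (L z).trace • ((hess v z)ᵀ)ᵀ := by
  ext c d
  rw [bf, Matrix.of_apply, Th_HK h hp, Matrix.mul_add, Matrix.trace_add, Matrix.add_apply,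
    Matrix.smul_apply, trf, Matrix.of_apply, Matrix.mul_smul, Matrix.mul_one, Matrix.trace_smul,
    Matrix.transpose_apply _ c d, smul_eq_mul, smul_eq_mul, mul_comm (Matrix.trace (L z))]
  congr 1
  rw [PP', ← Matrix.mul_assoc, Matrix.trace_mul_comm]
  simp only [Matrix.mul_assoc]

theorem trace_PP {K L : Matrix (Fin 2) (Fin 2) ℂ} (hK : K.det ≠ 0) :
    (PP' K L * K).trace = L.trace := by
  rw [PP', Matrix.mul_assoc, Matrix.nonsing_inv_mul _ (isUnit_iff_ne_zero.2 hK), Matrix.mul_one,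
    Matrix.mul_assoc, Matrix.trace_mul_comm, Matrix.mul_assoc, Js1, Matrix.mul_one]

/-- positivity in the frame of the tangent bundle -/
theorem psd_PP {K L : Matrix (Fin 2) (Fin 2) ℂ} (hK : K.PosDef) {e : ℝ} (he : 0 < e) {V σ : ℂ}
    (h : (V • ((e : ℂ) • (Jsᴴ * K * Js)) + σ • (((e : ℂ) • (Jsᴴ * K * Js)) * L)).PosSemidef) :
    (V • K⁻¹ + σ • PP' K L).PosSemidef := by
  have hKd : K.det ≠ 0 := hK.det_pos.ne'
  have i3 : K * K⁻¹ = 1 := Matrix.mul_nonsing_inv _ (isUnit_iff_ne_zero.2 hKd)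
  have i4 : K⁻¹ * K = 1 := Matrix.nonsing_inv_mul _ (isUnit_iff_ne_zero.2 hKd)
  have hc : (K⁻¹)ᴴ = K⁻¹ := (hK.inv).1
  have h1 := h.conjTranspose_mul_mul_same (Jsᴴ * K⁻¹)
  rw [Matrix.conjTranspose_mul, Matrix.conjTranspose_conjTranspose, hc] at h1
  have a1 : K⁻¹ * Js * (Jsᴴ * K * Js) * (Jsᴴ * K⁻¹) = K⁻¹ := by
    calc K⁻¹ * Js * (Jsᴴ * K * Js) * (Jsᴴ * K⁻¹)
        = K⁻¹ * ((Js * Jsᴴ) * (K * ((Js * Jsᴴ) * K⁻¹))) := by simp only [Matrix.mul_assoc]
      _ = K⁻¹ := by rw [Js2, Matrix.one_mul, Matrix.one_mul, i3, Matrix.mul_one]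
  have a2 : K⁻¹ * Js * ((Jsᴴ * K * Js) * L) * (Jsᴴ * K⁻¹) = PP' K L := by
    calc K⁻¹ * Js * ((Jsᴴ * K * Js) * L) * (Jsᴴ * K⁻¹)
        = K⁻¹ * ((Js * Jsᴴ) * (K * (Js * (L * (Jsᴴ * K⁻¹))))) := by simp only [Matrix.mul_assoc]
      _ = (K⁻¹ * K) * (Js * (L * (Jsᴴ * K⁻¹))) := by
        rw [Js2, Matrix.one_mul]; simp only [Matrix.mul_assoc]
      _ = PP' K L := by rw [i4, Matrix.one_mul, PP']; simp only [Matrix.mul_assoc]
  have e1 : K⁻¹ * Js * (V • ((e : ℂ) • (Jsᴴ * K * Js)) +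
      σ • (((e : ℂ) • (Jsᴴ * K * Js)) * L)) * (Jsᴴ * K⁻¹) =
      (e : ℂ) • (V • K⁻¹ + σ • PP' K L) := by
    rw [Matrix.mul_add, Matrix.add_mul, Matrix.mul_smul, Matrix.smul_mul, Matrix.mul_smul,
      Matrix.smul_mul, a1, Matrix.smul_mul, Matrix.mul_smul, Matrix.smul_mul, Matrix.mul_smul,
      Matrix.smul_mul, a2, smul_add, smul_comm V, smul_comm σ]
  rw [e1] at h1
  have h2 := h1.smul (a := ((e⁻¹ : ℝ) : ℂ)) (by
    rw [Complex.zero_le_real]; positivity)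
  rw [smul_smul, ← Complex.ofReal_mul, inv_mul_cancel₀ he.ne', Complex.ofReal_one, one_smul] at h2
  exact h2

theorem trace_nonneg {Q K : Matrix (Fin 2) (Fin 2) ℂ} (hQ : Q.PosSemidef) (hK : K.PosSemidef) :
    0 ≤ (Q * K).trace := by
  obtain ⟨B, hB⟩ := exists_fac hQ
  rw [hB, trace_fac]
  exact add_nonneg (hK.dotProduct_mulVec_nonneg _) (hK.dotProduct_mulVec_nonneg _)

theorem trf_add (A B : Matrix (Fin 2) (Fin 2) ℂ)
    (X : Fin 2 → Fin 2 → Matrix (Fin 2) (Fin 2) ℂ) : trf (A + B) X = trf A X + trf B X := by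
  ext c d
  simp only [trf, Matrix.of_apply, Matrix.add_apply, Matrix.add_mul, Matrix.trace_add]

theorem trf_smul (t : ℂ) (B : Matrix (Fin 2) (Fin 2) ℂ)
    (X : Fin 2 → Fin 2 → Matrix (Fin 2) (Fin 2) ℂ) : trf (t • B) X = t • trf B X := by
  ext c d
  simp only [trf, Matrix.of_apply, Matrix.smul_apply, Matrix.smul_mul, Matrix.trace_smul]

/-- the bound of `trf P + t Kᵀ` -/
theorem psd_tot {K : Cn 2 → Matrix (Fin 2) (Fin 2) ℂ} (h : KPack K z)
    {P : Matrix (Fin 2) (Fin 2) ℂ} {V t : ℝ} (ht : (P * K z).trace = (t : ℂ))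
    (h1 : ((V : ℂ) • (K z)⁻¹ + (1 : ℂ) • P).PosSemidef)
    (h2 : ((V : ℂ) • (K z)⁻¹ + (-1 : ℂ) • P).PosSemidef) {r : ℝ}
    (hr : 4 * Real.sqrt ((c2 K z).re / (K z).det.re) ≤ r) :
    |t| ≤ 2 * V ∧
    (((2 * r * V + |t| : ℝ) : ℂ) • (K z)ᵀ - (trf P (rm K z) + (t : ℂ) • (K z)ᵀ)).PosSemidef ∧
    (((2 * r * V + |t| : ℝ) : ℂ) • (K z)ᵀ + (trf P (rm K z) + (t : ℂ) • (K z)ᵀ)).PosSemidef := by
  have hKd : (K z).det ≠ 0 := h.pos.det_pos.ne'
  have i4 : (K z)⁻¹ * K z = 1 := Matrix.nonsing_inv_mul _ (isUnit_iff_ne_zero.2 hKd)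
  have t1 : (((V : ℂ) • (K z)⁻¹ + (1 : ℂ) • P) * K z).trace = ((2 * V + t : ℝ) : ℂ) := by
    rw [Matrix.add_mul, Matrix.trace_add, Matrix.smul_mul, Matrix.smul_mul, i4,
      Matrix.trace_smul, Matrix.trace_smul, ht, Matrix.trace_one]
    simp
    ring
  have t2 : (((V : ℂ) • (K z)⁻¹ + (-1 : ℂ) • P) * K z).trace = ((2 * V - t : ℝ) : ℂ) := by
    rw [Matrix.add_mul, Matrix.trace_add, Matrix.smul_mul, Matrix.smul_mul, i4,
      Matrix.trace_smul, Matrix.trace_smul, ht, Matrix.trace_one]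
    simp
    ring
  have p1 : 0 ≤ 2 * V + t := by
    have := trace_nonneg h1 h.pos.posSemidef
    rw [t1] at this
    exact_mod_cast this
  have p2 : 0 ≤ 2 * V - t := by
    have := trace_nonneg h2 h.pos.posSemidef
    rw [t2] at this
    exact_mod_cast this
  have hab : |t| ≤ 2 * V := abs_le.2 ⟨by linarith, by linarith⟩
  have q1 := psd_trf h h1 hr
  have q2 := psd_trf h h2 hr
  rw [t1, Complex.ofReal_re] at q1
  rw [t2, Complex.ofReal_re] at q2
  have hKt : ((K z)ᵀ).PosSemidef := h.pos.posSemidef.transpose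
  have half : (0 : ℂ) ≤ ((1 / 2 : ℝ) : ℂ) := by
    rw [Complex.zero_le_real]; norm_num
  have eP : trf P (rm K z) = ((1 / 2 : ℝ) : ℂ) • trf ((V : ℂ) • (K z)⁻¹ + (1 : ℂ) • P) (rm K z) -
      ((1 / 2 : ℝ) : ℂ) • trf ((V : ℂ) • (K z)⁻¹ + (-1 : ℂ) • P) (rm K z) := by
    rw [trf_add, trf_add, trf_smul 1, trf_smul (-1)]
    push_cast
    module
  refine ⟨hab, ?_, ?_⟩
  · have b1 := (q1.1.smul half).add (q2.2.smul half)
    have b2 : (((|t| - t : ℝ) : ℂ) • (K z)ᵀ).PosSemidef :=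
      hKt.smul (by rw [Complex.zero_le_real]; linarith [le_abs_self t])
    convert b1.add b2 using 1
    rw [eP]
    push_cast
    module
  · have b1 := (q1.2.smul half).add (q2.1.smul half)
    have b2 : (((|t| + t : ℝ) : ℂ) • (K z)ᵀ).PosSemidef :=
      hKt.smul (by rw [Complex.zero_le_real]; linarith [neg_abs_le t])
    convert b1.add b2 using 1
    rw [eP]
    push_cast
    module

end Crest.Agent.R257.Ptw_617
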