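import Crest.Agent.R257.Ptw2_617

/-!
# R257 (S0395), part (GB), leaf GB-PTW (helper617)

* `ptwStmt` : **`BCUP_532.PtwStmt`**, constant `21`
-/

set_option autoImplicit false
set_option linter.unusedSectionVars false
set_option linter.unusedSimpArgs false

open Topology Filter MeasureTheory Set Complex
open scoped ContDiff Matrix ComplexConjugate ComplexOrder

noncomputable section

namespace Crest.Agent.R257.Ptw_617

open Crest.Agent.R275.Geo Crest.Agent.R275.EDR890
open Crest.Agent.R273.Fock_243 Crest.Agent.R273.Calc_243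
open Crest.Agent.R273.Bkn_243 Crest.Agent.R273.Pos_243 Crest.Agent.R273.BochA_101
open Crest.Agent.R273.BochB_101
open Crest.Agent.R273.BochC_101 Crest.Agent.R273.BochD_101
open Crest.Agent.R273.Hess_333 Crest.Agent.R273.HessB_333
open Crest.Agent.R273.Defs_333 (lev)
open Crest.Agent.R273.YauDefs_635 (cH)
open Crest.Agent.R273.YauMax_635 (cH_eq_hess)
open Crest.Agent.R257.C2F1_625 Crest.Agent.R257.C2F2_625 Crest.Agent.R257.C2F3_625
open Crest.Agent.R257.C2F4_335 Crest.Agent.R257.C2F5_335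
open Crest.Agent.R257.Defs_219
open Crest.Agent.R257.PN_835 (nsq)
open Crest.Agent.R257.Aff_835 (eta2a)
open Crest.Agent.R257.KED_952 Crest.Agent.R257.KEG_952 Crest.Agent.R257.KEU_952
open Crest.Agent.R257.V1Defs_822 (SmL LvlOK)
open Crest.Agent.R257.KUP_952 (HK)
open Crest.Agent.R257.BCU4_532 (bf Th)
open Crest.Agent.R257.OutD_309 (Js Js_det Hc Hc_ev HO_eq Pot ldt)
open Crest.Agent.R257.GBL3_625
open Crest.Agent.R257.GBLcut_844 (pd_nonneg)
open Crest.Agent.R257.Ked2_397 (denStmt eta2a_norm kahAt_hess)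
open Crest.Agent.R257.BCUP_532 (PtwStmt)

/-- **pointwise curvature bound** -/
theorem ptwStmt : PtwStmt := by
  refine ⟨21, by norm_num, ?_⟩
  intro f r u hL hu θ O hP z hz L X q V hq hV hX hqX hm hp
  have hO := hP.par.isOpen
  set v : Cn 2 → ℝ := fun z => u (θ z) with hv
  have hvs : ContDiffOn ℝ ∞ v O := hu.sm θ O hP
  have hpot : Pot v z := Pot.of_on hO hvs (hu.pos θ O hP) hz
  have hK : KPack (fun y => (hess v y)ᵀ) z := ke_pack hL hu hP hz
  set K : Cn 2 → Matrix (Fin 2) (Fin 2) ℂ := fun y => (hess v y)ᵀ with hKdef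
  have hKd : (K z).det ≠ 0 := hK.pos.det_pos.ne'
  have hcH : cH v z = (K z)ᵀ := by
    rw [cH_eq_hess (hvs.contDiffAt (hO.mem_nhds hz))]
    rfl
  -- the metric
  have e0 : HK u θ z = ((Real.exp (-(0 + ldt v z)) : ℝ) : ℂ) • (Jsᴴ * K z * Js) :=
    (Hc_ev (ψ := fun _ => 0) hpot).eq_of_nhds
  have hf0 : fderiv ℂ f (θ z) ≠ 0 := hL.sm _ (hP.ne z hz) (hP.lt z hz) (hP.par.lvl z hz)
  have hmu : 0 < eta2a (n := 2) f θ z := Loc_835.eta2a_pos hP.par hz hf0
  have hdet : (K z).det.re = Real.exp (u (θ z)) * eta2a (n := 2) f θ z := by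
    have h1 := hu.ma θ O hP z hz
    have h2 : (K z).det = (cH v z).det := by rw [hcH]; exact (Matrix.det_transpose _).symm
    rw [h2]
    rw [show (cH v z).det = ((Real.exp (u (θ z)) * eta2a (n := 2) f θ z : ℝ) : ℂ) from h1,
      Complex.ofReal_re]
  have hc2 : (c2 K z).re = c2d f u (θ z) * eta2a (n := 2) f θ z := by
    have h1 := (denStmt f 0 r hL.pos hL.an (fun x a b c => hL.sm x a b c) θ O hP).2 u hu z hz
    rw [h1]
    refine congrArg Complex.re (c2_congr ?_).symm
    filter_upwards [hO.mem_nhds hz] with y hy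
    rw [cH_eq_hess (hvs.contDiffAt (hO.mem_nhds hy))]
  set s : ℝ := Real.sqrt ((c2 K z).re / (K z).det.re) with hs
  -- `s` is bounded below
  have hdp : 0 < (K z).det.re := by rw [hdet]; positivity
  have hge := einstein_ge hK.sm hK.herm hK.pos hK.kah hK.ein
  have hs1 : 1 ≤ 5 / 4 * s := by
    have h1 : (4 / 5 : ℝ) ≤ s := by
      refine Real.le_sqrt_of_sq_le ?_
      rw [le_div_iff₀ hdp]
      linarith
    linarith
  have hs0 : 0 ≤ s := Real.sqrt_nonneg _
  have hsd : s * (K z).det.re =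
      Real.sqrt (c2d f u (θ z) * Real.exp (u (θ z))) * eta2a (n := 2) f θ z := by
    have hE := Real.exp_pos (u (θ z))
    have h1 : (c2 K z).re / (K z).det.re = c2d f u (θ z) / Real.exp (u (θ z)) := by
      rw [hc2, hdet]
      field_simp
    have h2 : c2d f u (θ z) * Real.exp (u (θ z)) =
        c2d f u (θ z) / Real.exp (u (θ z)) * Real.exp (u (θ z)) ^ 2 := by
      field_simp
    rw [hs, h1, h2, Real.sqrt_mul' _ (sq_nonneg _), Real.sqrt_sq hE.le, hdet]
    ring
  -- the trace of `L` is real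
  have hHK : (HK u θ z).PosDef := by
    rw [show HK u θ z = Hc v (fun _ => 0) z from rfl]
    exact OutD_309.Hc_posDef hpot _
  set P := PP' (K z) (L z) with hPd
  have g1 : ((V : ℂ) • (K z)⁻¹ + (1 : ℂ) • P).PosSemidef := by
    refine psd_PP hK.pos (e := Real.exp (-(0 + ldt v z))) (Real.exp_pos _) ?_
    rw [← e0, one_smul]
    exact hp
  have g2 : ((V : ℂ) • (K z)⁻¹ + (-1 : ℂ) • P).PosSemidef := by
    refine psd_PP hK.pos (e := Real.exp (-(0 + ldt v z))) (Real.exp_pos _) ?_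
    rw [← e0, neg_one_smul, ← sub_eq_add_neg]
    exact hm
  have hPH : Pᴴ = P := by
    have h1 : ((V : ℂ) • (K z)⁻¹ + (1 : ℂ) • P)ᴴ = (V : ℂ) • (K z)⁻¹ + (1 : ℂ) • P := g1.1
    rw [Matrix.conjTranspose_add, Matrix.conjTranspose_smul, Matrix.conjTranspose_smul,
      (hK.pos.inv).1.eq, star_one, one_smul, one_smul, RCLike.star_def, Complex.conj_ofReal] at h1
    exact add_left_cancel h1
  have htr : (P * K z).trace = (L z).trace := trace_PP hKd
  obtain ⟨t, ht⟩ : ∃ t : ℝ, (P * K z).trace = (t : ℂ) := by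
    refine ⟨(P * K z).trace.re, ?_⟩
    have h1 : star (P * K z).trace = (P * K z).trace := by
      rw [← Matrix.trace_conjTranspose, Matrix.conjTranspose_mul, hPH, hK.pos.1.eq,
        Matrix.trace_mul_comm]
    exact (Complex.conj_eq_iff_re.1 h1).symm
  obtain ⟨h1, h2, h3⟩ := psd_tot hK ht g1 g2 (r := 4 * s) le_rfl
  have hb : bf (HK u θ) L z = trf P (rm K z) + (t : ℂ) • (K z)ᵀ := by
    rw [← ht, htr]
    exact bf_eq hpot hK L
  rw [hb]
  have h4 := pd_norm_le hX h2 h3
  set T : ℝ := 2 * (4 * s) * V + |t| with hT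
  have hT0 : 0 ≤ T := by positivity
  have hT1 : T ≤ 21 / 2 * s * V := by
    have : 2 * V ≤ 5 / 2 * s * V := by nlinarith
    rw [hT]
    linarith
  rw [pd_smul, Complex.re_ofReal_mul] at h4
  have hKt : ((K z)ᵀ).PosSemidef := hK.pos.posSemidef.transpose
  have h5 : (pd X (K z)ᵀ).re ≤ 2 * q * (K z).det.re := by
    have h6 := pd_nonneg hqX hKt
    rw [hcH, sub_pd, smul_pd, pd_self, Complex.sub_re, Complex.re_ofReal_mul,
      Matrix.det_transpose] at h6
    have h7 : (2 * (K z).det).re = 2 * (K z).det.re := by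
      simp
    rw [h7] at h6
    linarith
  calc ‖pd X (trf P (rm K z) + (t : ℂ) • (K z)ᵀ)‖ ≤ T * (pd X (K z)ᵀ).re := h4
    _ ≤ T * (2 * q * (K z).det.re) := mul_le_mul_of_nonneg_left h5 hT0
    _ ≤ (21 / 2 * s * V) * (2 * q * (K z).det.re) :=
      mul_le_mul_of_nonneg_right hT1 (by positivity)
    _ = 21 * (q * V * (s * (K z).det.re)) := by ring
    _ = _ := by rw [hsd]; ring

end Crest.Agent.R257.Ptw_617
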