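import Crest.Agent.R273.CLinE_933
import Crest.Agent.R273.StokesV_332

/-!
# R257 (S0395), part C, task RS-AN (helper844): compact Riemann surfaces, file 1

`M` with `A : Atl 1 M`.
* `J1`, `J1_self`, `J1_mul`, `dens1`    : the derivative of the change of charts
* `kah P : Kah A`                       : a metric (`[Finite A.ι]`)
* `dn_iff`, `tn_iff`                    : transformation laws for `n = 1`
* `poisson_m`, `poisson`                : the Poisson equation for real densities
-/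

set_option autoImplicit false
set_option linter.unusedSectionVars false

open Set Filter Topology Complex MeasureTheory
open scoped ContDiff Matrix ComplexConjugate ComplexOrder

namespace Crest.Agent.R257.RSA_844

open Crest.Agent.R275 Crest.Agent.R275.Geo Crest.Agent.R275.Core144 Crest.Agent.R275.EDR890
open Crest.Agent.R275.SerG398 (dens lint)
open Crest.Agent.R273.Defs_333 Crest.Agent.R273.Vm_333 Crest.Agent.R273.Kah_333
open Crest.Agent.R273.Hess_333 Crest.Agent.R273.HessB_333 Crest.Agent.R273.HM_333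
open Crest.Agent.R273.Vol_333 Crest.Agent.R273.Green_5 Crest.Agent.R273.GreenM_5
open Crest.Agent.R273.StokesV_332

noncomputable section

variable {M : Type} [TopologicalSpace M] {A : Atl 1 M}

/-- the derivative of the change of charts -/
def J1 (A : Atl 1 M) (i j : A.ι) (x : M) : ℂ := A.J i j x 0 0

theorem J1_self (i : A.ι) {x : M} (hx : x ∈ (A.e i).source) : J1 A i i x = 1 := by
  have h := J_self (A := A) i hx
  have := congrFun (congrFun h 0) 0
  rw [Matrix.one_apply_eq] at this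
  exact this

theorem J1_mul (i j k : A.ι) {x : M}
    (hx : x ∈ (A.e i).source ∩ (A.e j).source ∩ (A.e k).source) :
    J1 A i k x = J1 A j k x * J1 A i j x := by
  have h := J_mul (A := A) i j k hx
  have := congrFun (congrFun h 0) 0
  rw [Matrix.mul_apply, Fin.sum_univ_one] at this
  exact this.symm

theorem J1_ne {i j : A.ι} {x : M} (hx : x ∈ (A.e i).source ∩ (A.e j).source) :
    J1 A i j x ≠ 0 := by
  have h := J1_mul (A := A) i j i (x := x) ⟨hx, hx.1⟩
  rw [J1_self i hx.1] at h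
  exact right_ne_zero_of_mul (h ▸ one_ne_zero)

theorem dens1 (i j : A.ι) (x : M) : dens A i j x = ((‖J1 A i j x‖ ^ 2 : ℝ) : ℂ) := by
  unfold dens
  rw [Matrix.det_fin_one]
  rfl

theorem J1_smooth (i j : A.ι) :
    ContDiffOn ℝ ∞ (fun z => J1 A i j ((A.e i).symm z)) (A.ov i j) :=
  OmT75.J_smooth i j 0 0

theorem holAt_J1 (i j : A.ι) : HolAt A i (A.e j).source (J1 A i j) := holAt_J i j 0 0

/-- densities for `n = 1` -/
theorem dn_iff {f : A.ι → M → ℂ} : Dn A f ↔ ∀ i j, ∀ x ∈ (A.e i).source ∩ (A.e j).source,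
    f i x = ((‖J1 A i j x‖ ^ 2 : ℝ) : ℂ) * f j x := by
  constructor
  · intro h i j x hx
    rw [← dens1]
    exact h i j x hx
  · intro h i j x hx
    rw [dens1]
    exact h i j x hx

/-- `(1,1)` tensors for `n = 1` -/
theorem tn_iff {S : A.ι → M → Matrix (Fin 1) (Fin 1) ℂ} :
    Tn A S ↔ ∀ i j, ∀ x ∈ (A.e i).source ∩ (A.e j).source,
      S i x 0 0 = ((‖J1 A i j x‖ ^ 2 : ℝ) : ℂ) * S j x 0 0 := by
  have e : ∀ i j x, ((Jm A i j x)ᵀ * S j x * (Jm A i j x).map conj) 0 0 =
      ((‖J1 A i j x‖ ^ 2 : ℝ) : ℂ) * S j x 0 0 := by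
    intro i j x
    simp only [Matrix.mul_apply, Fin.sum_univ_one, Matrix.transpose_apply, Matrix.map_apply,
      Jm_apply]
    change J1 A i j x * S j x 0 0 * conj (J1 A i j x) = _
    have : ((‖J1 A i j x‖ ^ 2 : ℝ) : ℂ) = J1 A i j x * conj (J1 A i j x) := by
      rw [Complex.mul_conj, Complex.normSq_eq_norm_sq]
    rw [this]
    ring
  constructor
  · intro h i j x hx
    rw [← e, ← h i j x hx]
  · intro h i j x hx
    ext a b
    rw [Subsingleton.elim a 0, Subsingleton.elim b 0, e]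
    exact h i j x hx

theorem det1 (S : Matrix (Fin 1) (Fin 1) ℂ) : S.det = S 0 0 := Matrix.det_fin_one S

/-! ### a metric -/

theorem psi_sub (P : Part A) (k : A.ι) : tsupport (P.ψ k) ⊆ (A.e k).source := fun x hx => by
  have h := (P.χ_one k x hx).self_of_nhds
  refine P.χ_sub k (subset_tsupport _ ?_)
  rw [Function.mem_support, h]
  exact one_ne_zero

/-- products of a cut-off function with a function which is smooth on the chart -/
theorem smAt_cut_mul {W : Type*} [NormedAddCommGroup W] [NormedSpace ℝ W] {i k : A.ι}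
    {ψ : M → ℝ} (hψ : A.Sm ψ)
    (hs : tsupport ψ ⊆ (A.e k).source) {f : M → W}
    (hf : ContDiffOn ℝ ∞ (fun z => f ((A.e i).symm z)) (A.ov i k)) :
    A.SmAt i (fun x => ψ x • f x) := by
  intro z hz
  refine ContDiffAt.contDiffWithinAt ?_
  by_cases hk : (A.e i).symm z ∈ (A.e k).source
  · have hz' : z ∈ A.ov i k := ⟨hz, hk⟩
    have h1 : ContDiffAt ℝ ∞ (fun z => f ((A.e i).symm z)) z :=
      hf.contDiffAt ((isOpen_ov (A := A) i k).mem_nhds hz')
    have h2 : ContDiffAt ℝ ∞ (fun z => ψ ((A.e i).symm z)) z :=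
      (hψ i).contDiffAt ((A.e i).open_target.mem_nhds hz)
    exact h2.smul h1
  · have h1 : (A.e i).symm z ∉ tsupport ψ := fun h => hk (hs h)
    have h2 : ∀ᶠ y in 𝓝 ((A.e i).symm z), ψ y = 0 := by
      filter_upwards [(isClosed_tsupport ψ).isOpen_compl.mem_nhds h1] with y hy
      exact image_eq_zero_of_notMem_tsupport hy
    have h3 : ∀ᶠ w in 𝓝 z, ψ ((A.e i).symm w) = 0 :=
      ((A.e i).continuousAt_symm hz).eventually h2
    refine (contDiffAt_const (c := (0 : W))).congr_of_eventuallyEq ?_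
    filter_upwards [h3] with w hw
    rw [hw, zero_smul]

section met

variable [Finite A.ι] (P : Part A)

/-- the density of the metric -/
def gq (P : Part A) (i : A.ι) (x : M) : ℝ := ∑ᶠ k, P.ψ k x ^ 2 * ‖J1 A i k x‖ ^ 2

theorem gq_eq [Fintype A.ι] (i : A.ι) (x : M) :
    gq P i x = ∑ k, P.ψ k x ^ 2 * ‖J1 A i k x‖ ^ 2 := finsum_eq_sum_of_fintype _

theorem smAt_gq (i : A.ι) : A.SmAt i (gq P i) := by
  have := Fintype.ofFinite A.ι
  have h1 : ∀ k, A.SmAt i (fun x => P.ψ k x • (P.ψ k x * ‖J1 A i k x‖ ^ 2)) := by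
    intro k
    refine smAt_cut_mul (P.ψ_sm k) (psi_sub P k) ?_
    have h2 : ContDiffOn ℝ ∞ (fun z => P.ψ k ((A.e i).symm z)) (A.ov i k) :=
      (P.ψ_sm k i).mono fun z hz => hz.1
    exact h2.mul ((J1_smooth i k).norm_sq ℝ)
  have h2 : A.SmAt i (fun x => ∑ k, P.ψ k x • (P.ψ k x * ‖J1 A i k x‖ ^ 2)) :=
    ContDiffOn.sum fun k _ => h1 k
  refine ContDiffOn.congr h2 fun z _ => ?_
  simp only [gq_eq, smul_eq_mul]
  exact Finset.sum_congr rfl fun k _ => by ring

theorem gq_tr {i j : A.ι} {x : M} (hx : x ∈ (A.e i).source ∩ (A.e j).source) :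
    gq P i x = ‖J1 A i j x‖ ^ 2 * gq P j x := by
  have := Fintype.ofFinite A.ι
  rw [gq_eq, gq_eq, Finset.mul_sum]
  refine Finset.sum_congr rfl fun k _ => ?_
  by_cases hk : x ∈ (A.e k).source
  · rw [J1_mul i j k ⟨hx, hk⟩, norm_mul]
    ring
  · have : P.ψ k x = 0 := image_eq_zero_of_notMem_tsupport fun h => hk (psi_sub P k h)
    rw [this]
    ring

theorem gq_pos {i : A.ι} {x : M} (hx : x ∈ (A.e i).source) : 0 < gq P i x := by
  have := Fintype.ofFinite A.ι
  rw [gq_eq]
  have h1 : ∃ k, P.ψ k x ≠ 0 := by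
    by_contra hc
    simp only [not_exists, not_not] at hc
    have := P.sum_one x
    simp only [hc, finsum_zero] at this
    exact zero_ne_one this
  obtain ⟨k, hk⟩ := h1
  have hkx : x ∈ (A.e k).source := psi_sub P k (subset_tsupport _ hk)
  refine Finset.sum_pos' (fun l _ => by positivity) ⟨k, Finset.mem_univ _, ?_⟩
  have h2 := J1_ne (A := A) ⟨hx, hkx⟩
  have h3 : 0 < ‖J1 A i k x‖ := norm_pos_iff.2 h2
  have h4 : 0 < P.ψ k x ^ 2 := by positivity
  positivity

/-- a Kaehler metric on the Riemann surface -/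
def kah (P : Part A) : Kah A where
  g i x := Matrix.of fun _ _ => ((gq P i x : ℝ) : ℂ)
  sm i _ _ := Complex.ofRealCLM.contDiff.comp_contDiffOn (smAt_gq P i)
  pos i x hx := by
    have h0 := gq_pos P hx
    refine Matrix.PosDef.of_dotProduct_mulVec_pos ?_ ?_
    · ext a b
      simp [Matrix.conjTranspose_apply]
    · intro v hv
      have h1 : v 0 ≠ 0 := fun h => hv (by
        ext a
        rw [Subsingleton.elim a 0, h]
        rfl)
      simp only [dotProduct, Matrix.mulVec, Fin.sum_univ_one, Pi.star_apply, Matrix.of_apply,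
        RCLike.star_def]
      have h2 : conj (v 0) * (((gq P i x : ℝ) : ℂ) * v 0) =
          ((gq P i x * ‖v 0‖ ^ 2 : ℝ) : ℂ) := by
        push_cast
        rw [← Complex.conj_mul']
        ring
      rw [h2]
      have h3 : 0 < ‖v 0‖ := norm_pos_iff.2 h1
      exact_mod_cast mul_pos h0 (by positivity)
  tr := tn_iff.2 fun i j x hx => by
    simp only [Matrix.of_apply]
    rw [gq_tr P hx]
    push_cast
    ring
  closed i z _ a b c := by
    rw [Subsingleton.elim c a]
  closed' i z _ a b c := by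
    rw [Subsingleton.elim c b]

theorem kah_g (i : A.ι) (x : M) (a b : Fin 1) : (kah P).g i x a b = ((gq P i x : ℝ) : ℂ) := rfl

end met

/-! ### the Poisson equation -/

section poi

variable [T2Space M] [CompactSpace M] [Finite A.ι]

theorem lapK1 (K : Kah A) {u : M → ℝ} (hu : A.Sm u) {i : A.ι} {x : M}
    (hx : x ∈ (A.e i).source) :
    hsf A u i x 0 0 = ((lapK K u x : ℝ) : ℂ) * K.g i x 0 0 := by
  have h1 := lapK_ofReal K hu x
  have h2 := trK_eq K (hsf_tn hu) hx
  rw [h1, h2]
  have h3 : K.g i x 0 0 ≠ 0 := by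
    have := K_det_ne K hx
    rwa [det1] at this
  have h4 : ((K.g i x)⁻¹ * hsf A u i x).trace = (K.g i x 0 0)⁻¹ * hsf A u i x 0 0 := by
    rw [Matrix.trace_fin_one, Matrix.mul_apply, Fin.sum_univ_one]
    congr 1
    rw [Matrix.inv_def, Matrix.adjugate_fin_one, det1]
    simp [Ring.inverse_eq_inv']
  rw [h4]
  field_simp

/-- solution up to a constant: `∂∂̄ v = q - m g` -/
theorem poisson_m [ConnectedSpace M] (K : Kah A) (P : Part A) {q : A.ι → M → ℝ}
    (hs : ∀ i, A.SmAt i (q i)) (hq : Dn A (fun i x => (q i x : ℂ))) :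
    ∃ (v : M → ℝ) (m : ℝ), A.Sm v ∧ ∀ i, ∀ x ∈ (A.e i).source,
      hsf A v i x 0 0 = (q i x : ℂ) - (m : ℂ) * K.g i x 0 0 := by
  have hsc : ∀ i, A.SmAt i (fun x => (q i x : ℂ)) := fun i =>
    Complex.ofRealCLM.contDiff.comp_contDiffOn (hs i)
  obtain ⟨v, m, hv, he⟩ := Crest.Agent.R273.CLin_933.lin_kah K P
    (sm_re (sm_fnD K hq hsc))
  refine ⟨v, m, hv, fun i x hx => ?_⟩
  have h3 : K.g i x 0 0 ≠ 0 := by
    have := K_det_ne K hx
    rwa [det1] at this
  have h4 : K.g i x 0 0 = (((K.g i x).det.re : ℝ) : ℂ) := by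
    rw [det_real (K.pos i x hx).1, det1]
  have h5 : fnD K (fun i x => (q i x : ℂ)) x = ((q i x / (K.g i x).det.re : ℝ) : ℂ) := by
    rw [fnD_div K hq hx, ← det_real (K.pos i x hx).1]
    push_cast
    rfl
  rw [lapK1 K hv hx, he x, h5, ofReal_re]
  rw [h4]
  have h6 : (K.g i x).det.re ≠ 0 := (det_re_pos (K.pos i x hx)).ne'
  have h7 : (((K.g i x).det.re : ℝ) : ℂ) ≠ 0 := by exact_mod_cast h6
  push_cast
  field_simp

end poi

end

end Crest.Agent.R257.RSA_844
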