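import Crest.Agent.R257.RSA1_844
import Crest.Agent.R273.BKNe_37

/-!
# R257 (S0395), part C, task RS-AN (helper844): compact Riemann surfaces, file 2

* `F01 A α`, `F10 A θ`, `H10 A θ` : smooth `(0,1)`-, `(1,0)`-forms, holomorphic `1`-forms
* `F01.stokes`                    : `∫ ∂α = 0`
* `poisson`, `poissonC`           : `∂∂̄ u = q` if `∫ q = 0` (real, complex)
* `poisson_const`                 : the sign of the constant of `poisson_m`
* `dbar_dec`                      : `α = ∂̄u + conj θ`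
-/

set_option autoImplicit false
set_option linter.unusedSectionVars false

open Set Filter Topology Complex MeasureTheory
open scoped ContDiff Matrix ComplexConjugate ComplexOrder

namespace Crest.Agent.R257.RSA_844

open Crest.Agent.R275 Crest.Agent.R275.Geo Crest.Agent.R275.Core144 Crest.Agent.R275.EDR890
open Crest.Agent.R275.OmT75
open Crest.Agent.R275.SerG398 (dens lint)
open Crest.Agent.R273.Defs_333 Crest.Agent.R273.Vm_333 Crest.Agent.R273.Kah_333
open Crest.Agent.R273.Hess_333 Crest.Agent.R273.HessB_333 Crest.Agent.R273.HM_333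
open Crest.Agent.R273.Vol_333 Crest.Agent.R273.Green_5 Crest.Agent.R273.GreenM_5
open Crest.Agent.R273.StokesV_332

noncomputable section

variable {M : Type} [TopologicalSpace M] [T2Space M] {A : Atl 1 M}

/-- smooth `(0,1)`-forms `α_i dz̄_i` -/
structure F01 (A : Atl 1 M) (α : A.ι → M → ℂ) : Prop where
  sm : ∀ i, A.SmAt i (α i)
  tr : ∀ i j, ∀ x ∈ (A.e i).source ∩ (A.e j).source, α i x = conj (J1 A i j x) * α j x

/-- smooth `(1,0)`-forms `θ_i dz_i` -/
structure F10 (A : Atl 1 M) (θ : A.ι → M → ℂ) : Prop where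
  sm : ∀ i, A.SmAt i (θ i)
  tr : ∀ i j, ∀ x ∈ (A.e i).source ∩ (A.e j).source, θ i x = J1 A i j x * θ j x

/-- holomorphic `1`-forms -/
structure H10 (A : Atl 1 M) (θ : A.ι → M → ℂ) : Prop where
  hol : ∀ i, HolAt A i univ (θ i)
  tr : ∀ i j, ∀ x ∈ (A.e i).source ∩ (A.e j).source, θ i x = J1 A i j x * θ j x

theorem smAt_diff {i : A.ι} {f : M → ℂ} (hf : A.SmAt i f) {x : M} (hx : x ∈ (A.e i).source) :
    DifferentiableAt ℝ (fun z => f ((A.e i).symm z)) (A.e i x) :=
  (hf.contDiffAt ((A.e i).open_target.mem_nhds ((A.e i).map_source hx))).differentiableAt (by simp)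

theorem smAt_holo {i : A.ι} {f : M → ℂ} (hf : HolAt A i univ f) : A.SmAt i f := by
  have h1 : DifferentiableOn ℂ (fun z => f ((A.e i).symm z)) (A.e i).target :=
    DifferentiableOn.mono hf fun z hz => ⟨hz, mem_univ _⟩
  exact ((Crest.Agent.R266.SCV.contDiffOn_omega_of_differentiableOn (A.e i).open_target
    h1).restrict_scalars ℝ).of_le le_top

theorem H10.f10 {θ : A.ι → M → ℂ} (h : H10 A θ) : F10 A θ := ⟨fun i => smAt_holo (h.hol i), h.tr⟩

theorem F10.conjF {θ : A.ι → M → ℂ} (h : F10 A θ) : F01 A (fun i x => conj (θ i x)) :=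
  ⟨fun i => Den.smAt_conj (h.sm i), fun i j x hx => by rw [h.tr i j x hx, map_mul]⟩

theorem F01.conjF {α : A.ι → M → ℂ} (h : F01 A α) : F10 A (fun i x => conj (α i x)) :=
  ⟨fun i => Den.smAt_conj (h.sm i), fun i j x hx => by
    rw [h.tr i j x hx, map_mul, Complex.conj_conj]⟩

theorem smAt_db {i : A.ι} {f : M → ℂ} (hf : A.SmAt i f) : A.SmAt i (A.db i 0 f) :=
  Atl.SmAt.db hf 0

theorem f01_db {u : M → ℂ} (hu : A.Sm u) : F01 A (fun i x => A.db i 0 u x) where
  sm i := smAt_db (hu i)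
  tr i j x hx := by
    have h := db_chain (A := A) (i := i) (j := j) (x := x) (f := u) (smAt_diff (hu j) hx.2) hx 0
    rw [Fin.sum_univ_one, smul_eq_mul] at h
    exact h

theorem f10_dl {u : M → ℂ} (hu : A.Sm u) : F10 A (fun i x => dl A i 0 u x) where
  sm i := smAt_dl (hu i) 0
  tr i j x hx := by
    have h := dl_chain (A := A) (i := i) (j := j) (x := x) (f := u) (smAt_diff (hu j) hx.2) hx 0
    rw [Fin.sum_univ_one, smul_eq_mul] at h
    exact h

theorem F01.add {α β : A.ι → M → ℂ} (h : F01 A α) (h' : F01 A β) :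
    F01 A (fun i x => α i x + β i x) :=
  ⟨fun i => (h.sm i).add (h'.sm i), fun i j x hx => by rw [h.tr i j x hx, h'.tr i j x hx]; ring⟩

theorem F01.sub {α β : A.ι → M → ℂ} (h : F01 A α) (h' : F01 A β) :
    F01 A (fun i x => α i x - β i x) :=
  ⟨fun i => (h.sm i).sub (h'.sm i), fun i j x hx => by rw [h.tr i j x hx, h'.tr i j x hx]; ring⟩

theorem F01.mulF {α : A.ι → M → ℂ} (h : F01 A α) {u : M → ℂ} (hu : A.Sm u) :
    F01 A (fun i x => u x * α i x) :=
  ⟨fun i => (hu i).mul (h.sm i), fun i j x hx => by rw [h.tr i j x hx]; ring⟩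

theorem F01.sum {σ : Type*} (s : Finset σ) {α : σ → A.ι → M → ℂ} (h : ∀ t ∈ s, F01 A (α t)) :
    F01 A (fun i x => ∑ t ∈ s, α t i x) :=
  ⟨fun i => ContDiffOn.sum fun t ht => (h t ht).sm i, fun i j x hx => by
    rw [Finset.mul_sum]
    exact Finset.sum_congr rfl fun t ht => (h t ht).tr i j x hx⟩

theorem F01.vd {α : A.ι → M → ℂ} (h : F01 A α) : VD10 A (fun i _ x => α i x) where
  sm i _ := h.sm i
  tr i j x hx b := by
    rw [Subsingleton.elim b 0, Fin.sum_univ_one, h.tr i j x hx, dens1]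
    change J1 A i j x * (conj (J1 A i j x) * α j x) = _
    rw [← mul_assoc, Complex.mul_conj, Complex.normSq_eq_norm_sq]

/-- the density `∂α` -/
theorem F01.dn {α : A.ι → M → ℂ} (h : F01 A α) : Dn A (fun i x => dl A i 0 (α i) x) := by
  rw [dn_iff]
  intro i j x hx
  have e1 : ∀ k, dl A k 0 (α k) x = conj (A.db k 0 (fun y => conj (α k y)) x) := by
    intro k
    have := dl_conj (A := A) k 0 (fun y => conj (α k y)) x
    simp only [Complex.conj_conj] at this
    exact this
  have hs := h.conjF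
  have h1 : (fun y => conj (α i y)) =ᶠ[𝓝 x] fun y => J1 A i j y * conj (α j y) := by
    filter_upwards [((A.e i).open_source.inter (A.e j).open_source).mem_nhds hx] with y hy
    exact hs.tr i j y hy
  have hJ : DifferentiableAt ℝ (fun z => J1 A i j ((A.e i).symm z)) (A.e i x) :=
    diffAt_of_ov (J1_smooth i j) hx
  have hcj : DifferentiableAt ℝ (fun z => conj (α j ((A.e j).symm z))) (A.e j x) :=
    smAt_diff (hs.sm j) hx.2
  have hci : DifferentiableAt ℝ (fun z => conj (α j ((A.e i).symm z))) (A.e i x) := by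
    have hT : DifferentiableAt ℝ (fun z => A.e j ((A.e i).symm z)) (A.e i x) :=
      ((A.holo i j).differentiableAt ((isOpen_ov (A := A) i j).mem_nhds
        (mem_ov hx))).restrictScalars ℝ
    have hv : A.e j ((A.e i).symm (A.e i x)) = A.e j x := by rw [(A.e i).left_inv hx.1]
    have h2 : DifferentiableAt ℝ ((fun z => conj (α j ((A.e j).symm z))) ∘
        fun z => A.e j ((A.e i).symm z)) (A.e i x) :=
      DifferentiableAt.comp _ (by rw [hv]; exact hcj) hT
    refine h2.congr_of_eventuallyEq ?_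
    filter_upwards [(isOpen_ov (A := A) i j).mem_nhds (mem_ov hx)] with w hw
    simp only [Function.comp_apply]
    rw [(A.e j).left_inv hw.2]
  have hJ0 : A.db i 0 (J1 A i j) x = 0 := (holAt_J1 i j).db_zero (A.e j).open_source hx.1 hx.2 0
  have h3 : A.db i 0 (fun y => conj (α j y)) x =
      conj (J1 A i j x) * A.db j 0 (fun y => conj (α j y)) x := by
    have h := db_chain (A := A) (i := i) (j := j) (x := x) (f := fun y => conj (α j y)) hcj hx 0
    rw [Fin.sum_univ_one, smul_eq_mul] at h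
    exact h
  rw [e1 i, e1 j, Atl.db_congr hx.1 h1, db_mul hJ hci hx.1, hJ0, h3, zero_mul, zero_add]
  rw [map_mul, map_mul, Complex.conj_conj]
  have e2 : ((‖J1 A i j x‖ ^ 2 : ℝ) : ℂ) = J1 A i j x * conj (J1 A i j x) := by
    rw [Complex.mul_conj, Complex.normSq_eq_norm_sq]
  rw [e2]
  ring

theorem F01.stokes [CompactSpace M] (P : Part A) {α : A.ι → M → ℂ} (h : F01 A α) :
    intD P (fun i x => dl A i 0 (α i) x) = 0 := by
  have h1 := stokes10_compact P h.vd
  simp only [Fin.sum_univ_one] at h1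
  exact h1

theorem smAt_dlα {α : A.ι → M → ℂ} (h : F01 A α) (i : A.ι) :
    A.SmAt i (fun x => dl A i 0 (α i) x) := smAt_dl (h.sm i) 0

theorem den_of {f : A.ι → M → ℂ} (hs : ∀ i, A.SmAt i (f i)) (hd : Dn A f) : Den A f := ⟨hs, hd⟩

/-- `∫ ∂∂̄u = 0` -/
theorem int_hm [CompactSpace M] (P : Part A) {u : M → ℂ} (hu : A.Sm u) :
    intD P (fun i x => hm A u i x 0 0) = 0 := (f01_db hu).stokes P

theorem smR {u : M → ℝ} (hu : A.Sm u) : A.Sm (fun x => (u x : ℂ)) := fun i =>
  Complex.ofRealCLM.contDiff.comp_contDiffOn (hu i)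

theorem smAtR {u : M → ℝ} {i : A.ι} (hu : A.SmAt i u) : A.SmAt i (fun x => (u x : ℂ)) :=
  Complex.ofRealCLM.contDiff.comp_contDiffOn hu

theorem smAt_cmul {i : A.ι} (c : ℂ) {f : M → ℂ} (hf : A.SmAt i f) :
    A.SmAt i (fun x => c * f x) := ContDiffOn.const_smul c hf

theorem int_hsf [CompactSpace M] (P : Part A) {u : M → ℝ} (hu : A.Sm u) :
    intD P (fun i x => hsf A u i x 0 0) = 0 := by
  rw [← int_hm P (smR hu)]
  refine intD_congr P fun i x hx => ?_
  rw [hm_ofReal u i hx]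

section poi

variable [CompactSpace M]

/-- the volume -/
theorem int_g_pos [Nonempty M] (K : Kah A) (P : Part A) :
    0 < (intD P (fun i x => K.g i x 0 0)).re ∧ (intD P (fun i x => K.g i x 0 0)).im = 0 := by
  have hd : Den A (fun i x => K.g i x 0 0) := ⟨fun i => K.sm i 0 0, by
    have h := tn_iff.1 K.tr
    intro i j x hx
    rw [dens1]
    exact h i j x hx⟩
  have hn : NonnegD A (fun i x => K.g i x 0 0) := fun i x hx => by
    have h1 := K.pos i x hx
    have h2 := det_re_pos h1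
    have h3 := det_real h1.1
    rw [det1] at h2 h3
    refine ⟨h2.le, ?_⟩
    change (K.g i x 0 0).im = 0
    rw [← h3, ofReal_im]
  have h1 := intD_nonneg P hd hn isCompact_univ (offK_univ _)
  refine ⟨lt_of_le_of_ne h1.1 fun h0 => ?_, h1.2⟩
  have h2 := eq_zero_of_intD P hd hn isCompact_univ (offK_univ _) h0.symm
  obtain ⟨x⟩ := ‹Nonempty M›
  obtain ⟨i, hi⟩ := A.cover x
  have h3 := h2 i x hi
  have h4 := det_re_pos (K.pos i x hi)
  rw [det1] at h4
  have h5 : K.g i x 0 0 = 0 := h3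
  rw [h5] at h4
  simp at h4

/-- the constant in `poisson_m` -/
theorem poisson_const (K : Kah A) (P : Part A) {q : A.ι → M → ℝ}
    (hs : ∀ i, A.SmAt i (q i)) {v : M → ℝ} {m : ℝ} (hv : A.Sm v)
    (he : ∀ i, ∀ x ∈ (A.e i).source, hsf A v i x 0 0 = (q i x : ℂ) - (m : ℂ) * K.g i x 0 0) :
    intD P (fun i x => (q i x : ℂ)) = (m : ℂ) * intD P (fun i x => K.g i x 0 0) := by
  have h1 := int_hsf P hv
  rw [intD_congr P (g := fun i x => (q i x : ℂ) - (m : ℂ) * K.g i x 0 0) he] at h1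
  rw [intD_sub P (fun i => smAtR (hs i)) (fun i => smAt_cmul (m : ℂ) (K.sm i 0 0))
    isCompact_univ (offK_univ _) (offK_univ _), intD_smul P (m : ℂ) isCompact_univ
    (offK_univ _)] at h1
  exact sub_eq_zero.1 h1

variable [ConnectedSpace M] [Finite A.ι]

/-- **the Poisson equation** -/
theorem poisson (P : Part A) {q : A.ι → M → ℝ}
    (hs : ∀ i, A.SmAt i (q i)) (hq : Dn A (fun i x => (q i x : ℂ)))
    (h0 : intD P (fun i x => (q i x : ℂ)) = 0) :
    ∃ v : M → ℝ, A.Sm v ∧ ∀ i, ∀ x ∈ (A.e i).source, hsf A v i x 0 0 = (q i x : ℂ) := by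
  have hne : Nonempty M := inferInstance
  obtain ⟨v, m, hv, he⟩ := poisson_m (kah P) P hs hq
  have h1 := poisson_const (kah P) P hs hv he
  have h2 := (int_g_pos (kah P) P).1
  rw [h0] at h1
  have h3 : intD P (fun i x => (kah P).g i x 0 0) ≠ 0 := fun h => by
    rw [h] at h2
    simp at h2
  have h4 : (m : ℂ) = 0 := (mul_eq_zero.1 h1.symm).resolve_right h3
  refine ⟨v, hv, fun i x hx => ?_⟩
  rw [he i x hx, h4, zero_mul, sub_zero]

/-- the Poisson equation, complex right hand side -/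
theorem poissonC (P : Part A) {q : A.ι → M → ℂ}
    (hs : ∀ i, A.SmAt i (q i)) (hq : Dn A q) (h0 : intD P q = 0) :
    ∃ v : M → ℂ, A.Sm v ∧ ∀ i, ∀ x ∈ (A.e i).source, hm A v i x 0 0 = q i x := by
  have hre : ∀ i, A.SmAt i (fun x => (q i x).re) := fun i =>
    Complex.reCLM.contDiff.comp_contDiffOn (hs i)
  have him : ∀ i, A.SmAt i (fun x => (q i x).im) := fun i =>
    Complex.imCLM.contDiff.comp_contDiffOn (hs i)
  have hd := dn_iff.1 hq
  have dre : Dn A (fun i x => (((q i x).re : ℝ) : ℂ)) := dn_iff.2 fun i j x hx => by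
    rw [hd i j x hx, Complex.re_ofReal_mul]
    push_cast
    rfl
  have dim : Dn A (fun i x => (((q i x).im : ℝ) : ℂ)) := dn_iff.2 fun i j x hx => by
    rw [hd i j x hx, Complex.im_ofReal_mul]
    push_cast
    rfl
  have hc : intD P (fun i x => conj (q i x)) = 0 := by
    rw [intD_conj P isCompact_univ (offK_univ _), h0, map_zero]
  have hsc : ∀ i, A.SmAt i (fun x => conj (q i x)) := fun i => Den.smAt_conj (hs i)
  have r1 : intD P (fun i x => (((q i x).re : ℝ) : ℂ)) = 0 := by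
    have h1 : intD P (fun i x => (1 / 2 : ℂ) * (q i x + conj (q i x))) = 0 := by
      rw [intD_smul P (1 / 2 : ℂ) isCompact_univ (offK_univ _),
        intD_add P hs hsc isCompact_univ (offK_univ _) (offK_univ _), h0, hc]
      simp
    rw [← h1]
    refine intD_congr P fun i x _ => ?_
    rw [Complex.add_conj]
    push_cast
    ring
  have r2 : intD P (fun i x => (((q i x).im : ℝ) : ℂ)) = 0 := by
    have h1 : intD P (fun i x => (-(I / 2) : ℂ) * (q i x - conj (q i x))) = 0 := by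
      rw [intD_smul P (-(I / 2) : ℂ) isCompact_univ (offK_univ _),
        intD_sub P hs hsc isCompact_univ (offK_univ _) (offK_univ _), h0, hc]
      simp
    rw [← h1]
    refine intD_congr P fun i x _ => ?_
    rw [Complex.sub_conj]
    push_cast
    have : I * I = -1 := I_mul_I
    linear_combination (((q i x).im : ℝ) : ℂ) * this
  obtain ⟨v1, s1, e1⟩ := poisson P hre dre r1
  obtain ⟨v2, s2, e2⟩ := poisson P him dim r2
  have t1 : ∀ i, A.SmAt i (fun x => (v1 x : ℂ)) := fun i => smAtR (s1 i)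
  have t2 : ∀ i, A.SmAt i (fun x => (v2 x : ℂ)) := fun i => smAtR (s2 i)
  refine ⟨fun x => (v1 x : ℂ) + I * (v2 x : ℂ), fun i =>
    (t1 i).add ((t2 i).const_smul I), fun i x hx => ?_⟩
  have hz := (A.e i).map_source hx
  have d1 : ∀ y ∈ (A.e i).source, A.db i 0 (fun x => (v1 x : ℂ) + I * (v2 x : ℂ)) y =
      A.db i 0 (fun x => (v1 x : ℂ)) y + I * A.db i 0 (fun x => (v2 x : ℂ)) y := by
    intro y hy
    have a1 := smAt_diff (t1 i) hy
    have a2 := smAt_diff (t2 i) hy
    unfold Atl.db dbj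
    have e : fderiv ℝ (fun z => (v1 ((A.e i).symm z) : ℂ) + I * (v2 ((A.e i).symm z) : ℂ))
        (A.e i y) = fderiv ℝ (fun z => (v1 ((A.e i).symm z) : ℂ)) (A.e i y) +
          I • fderiv ℝ (fun z => (v2 ((A.e i).symm z) : ℂ)) (A.e i y) := by
      have h1 : HasFDerivAt (fun z => (v1 ((A.e i).symm z) : ℂ) + I * (v2 ((A.e i).symm z) : ℂ))
          (fderiv ℝ (fun z => (v1 ((A.e i).symm z) : ℂ)) (A.e i y) +
          I • fderiv ℝ (fun z => (v2 ((A.e i).symm z) : ℂ)) (A.e i y)) (A.e i y) :=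
        a1.hasFDerivAt.add (a2.hasFDerivAt.const_mul I)
      exact h1.fderiv
    rw [e]
    simp only [_root_.add_apply, _root_.smul_apply, smul_eq_mul]
    ring
  have b1 := smAt_diff (smAt_db (t1 i)) hx
  have b2 := smAt_diff (smAt_db (t2 i)) hx
  have d2 : dl A i 0 (A.db i 0 (fun x => (v1 x : ℂ) + I * (v2 x : ℂ))) x =
      dl A i 0 (A.db i 0 (fun x => (v1 x : ℂ))) x +
        I * dl A i 0 (A.db i 0 (fun x => (v2 x : ℂ))) x := by
    have h1 : (fun z => A.db i 0 (fun x => (v1 x : ℂ) + I * (v2 x : ℂ)) ((A.e i).symm z)) =ᶠ[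
        𝓝 (A.e i x)] fun z => A.db i 0 (fun x => (v1 x : ℂ)) ((A.e i).symm z) +
          I * A.db i 0 (fun x => (v2 x : ℂ)) ((A.e i).symm z) := by
      filter_upwards [(A.e i).open_target.mem_nhds hz] with z hz'
      exact d1 _ ((A.e i).map_target hz')
    have h2 : HasFDerivAt (fun z => A.db i 0 (fun x => (v1 x : ℂ)) ((A.e i).symm z) +
          I * A.db i 0 (fun x => (v2 x : ℂ)) ((A.e i).symm z))
        (fderiv ℝ (fun z => A.db i 0 (fun x => (v1 x : ℂ)) ((A.e i).symm z)) (A.e i x) +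
          I • fderiv ℝ (fun z => A.db i 0 (fun x => (v2 x : ℂ)) ((A.e i).symm z)) (A.e i x))
        (A.e i x) := b1.hasFDerivAt.add (b2.hasFDerivAt.const_mul I)
    unfold dl dj
    rw [h1.fderiv_eq, h2.fderiv]
    simp only [_root_.add_apply, _root_.smul_apply, smul_eq_mul]
    ring
  have c1 := e1 i x hx
  have c2 := e2 i x hx
  rw [← hm_ofReal v1 i hx, hm_apply] at c1
  rw [← hm_ofReal v2 i hx, hm_apply] at c2
  rw [hm_apply, d2, c1, c2]
  have := Complex.re_add_im (q i x)
  rw [mul_comm I]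
  exact this

/-- **Hodge decomposition of `(0,1)`-forms** -/
theorem dbar_dec (P : Part A) {α : A.ι → M → ℂ} (hα : F01 A α) :
    ∃ (u : M → ℂ) (θ : A.ι → M → ℂ), A.Sm u ∧ H10 A θ ∧
      ∀ i, ∀ x ∈ (A.e i).source, α i x = A.db i 0 u x + conj (θ i x) := by
  obtain ⟨u, hu, he⟩ := poissonC P (fun i => smAt_dlα hα i) hα.dn (hα.stokes P)
  have hβ := hα.sub (f01_db hu)
  refine ⟨u, fun i x => conj (α i x - A.db i 0 u x), hu, ⟨fun i => ?_, hβ.conjF.tr⟩,
    fun i x hx => ?_⟩
  · refine Crest.Agent.R273.BKNe_37.holAt_of_db (hβ.conjF.sm i) fun x hx k => ?_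
    rw [Subsingleton.elim k 0, db_conj]
    have b1 := smAt_diff (hα.sm i) hx
    have b2 := smAt_diff (smAt_db (hu i)) hx
    have e : dl A i 0 (fun y => α i y - A.db i 0 u y) x =
        dl A i 0 (α i) x - dl A i 0 (A.db i 0 u) x := by
      unfold dl dj
      have h1 : HasFDerivAt (fun z => α i ((A.e i).symm z) - A.db i 0 u ((A.e i).symm z))
        (fderiv ℝ (fun z => α i ((A.e i).symm z)) (A.e i x) -
          fderiv ℝ (fun z => A.db i 0 u ((A.e i).symm z)) (A.e i x)) (A.e i x) :=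
        b1.hasFDerivAt.sub b2.hasFDerivAt
      rw [h1.fderiv]
      simp only [_root_.sub_apply, smul_eq_mul]
      ring
    have h2 := he i x hx
    rw [hm_apply] at h2
    rw [e, h2, sub_self, map_zero]
  · simp only [Complex.conj_conj]
    ring

end poi

end

end Crest.Agent.R257.RSA_844
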