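import Crest.Agent.R257.RSA2_844
import Crest.Agent.R257.GBLcut_844
import Crest.Agent.R273.SteinM_794
import Crest.Agent.R273.YauDefs_635
import Crest.Agent.R275.Dg1_199

/-!
# R257 (S0395), part C, task RS-AN (helper844): compact Riemann surfaces, file 3

The cut-off logarithm `Gc R t = kap (t / R) log t`; `t (Gc R)' = Hc R`, `Hc R = 1` near `0`.
* `hess_Gc`  : `∂∂̄ Gc(|z - c|²) = (Hc R)'(|z - c|²)`
* `int_dHc`  : `∫ (Hc R)'(|z - c|²) = -π`
-/

set_option autoImplicit false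
set_option linter.unusedSectionVars false

open Set Filter Topology Complex MeasureTheory
open scoped ContDiff Matrix ComplexConjugate ComplexOrder

namespace Crest.Agent.R257.RSA_844

open Crest.Agent.R273 Crest.Agent.R275 Crest.Agent.R275.Geo Crest.Agent.R275.Core144
open Crest.Agent.R275.EDR890 Crest.Agent.R275.OmT75 Crest.Agent.R275.Tor812
open Crest.Agent.R275.SerG398 (dens lint)
open Crest.Agent.R273.Defs_333 Crest.Agent.R273.Vm_333 Crest.Agent.R273.Kah_333
open Crest.Agent.R273.Hess_333 Crest.Agent.R273.HessB_333 Crest.Agent.R273.HM_333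
open Crest.Agent.R273.Vol_333 Crest.Agent.R273.Green_5 Crest.Agent.R273.GreenM_5
open Crest.Agent.R273.StokesV_332
open Crest.Agent.R257.GBLcut_844

noncomputable section

/-! ### one real variable -/

/-- the cut-off logarithm -/
def Gc (R t : ℝ) : ℝ := kap (t / R) * Real.log t

/-- `t (Gc R)'` -/
def Hc (R t : ℝ) : ℝ := (t / R) * deriv kap (t / R) * Real.log t + kap (t / R)

variable {R t : ℝ}

theorem Gc_near (hR : 0 < R) (h : t ≤ R) : Gc R t = Real.log t := by
  unfold Gc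
  rw [kap_one ((div_le_one hR).2 h), one_mul]

theorem Gc_far (hR : 0 < R) (h : 2 * R ≤ t) : Gc R t = 0 := by
  unfold Gc
  rw [kap_zero ((le_div_iff₀ hR).2 h), zero_mul]

theorem Gc_sm (ht : t ≠ 0) : ContDiffAt ℝ ∞ (Gc R) t :=
  (kap_sm.contDiffAt.comp t (contDiffAt_id.div_const R)).mul (Real.contDiffAt_log.2 ht)

theorem dkap_near (hR : 0 < R) (h : t < R) : deriv kap (t / R) = 0 :=
  (dkap_off fun hm => absurd hm.1 (not_le.2 ((div_lt_one hR).2 h))).1

theorem dkap_far (hR : 0 < R) (h : 2 * R < t) : deriv kap (t / R) = 0 :=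
  (dkap_off fun hm => absurd hm.2 (not_le.2 ((lt_div_iff₀ hR).2 h))).1

theorem Hc_near (hR : 0 < R) (h : t < R) : Hc R =ᶠ[𝓝 t] fun _ => 1 := by
  filter_upwards [gt_mem_nhds h] with s hs
  unfold Hc
  rw [dkap_near hR hs, kap_one ((div_le_one hR).2 hs.le)]
  ring

theorem Hc_far (hR : 0 < R) (h : 2 * R < t) : Hc R =ᶠ[𝓝 t] fun _ => 0 := by
  filter_upwards [lt_mem_nhds h] with s hs
  unfold Hc
  rw [dkap_far hR hs, kap_zero ((le_div_iff₀ hR).2 hs.le)]
  ring

theorem Hc_sm (hR : 0 < R) : ContDiff ℝ ∞ (Hc R) := by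
  rw [contDiff_iff_contDiffAt]
  intro t
  by_cases h : t < R
  · exact contDiffAt_const.congr_of_eventuallyEq (Hc_near hR h)
  · have ht : t ≠ 0 := by
      rintro rfl
      exact h hR
    have h1 : ContDiffAt ℝ ∞ (fun s : ℝ => s / R) t := contDiffAt_id.div_const R
    have h2 : ContDiffAt ℝ ∞ (fun s : ℝ => deriv kap (s / R)) t := dkap_sm.contDiffAt.comp t h1
    have h3 : ContDiffAt ℝ ∞ (fun s : ℝ => kap (s / R)) t := kap_sm.contDiffAt.comp t h1
    exact ((h1.mul h2).mul (Real.contDiffAt_log.2 ht)).add h3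

theorem dHc_sm (hR : 0 < R) : ContDiff ℝ ∞ (deriv (Hc R)) :=
  (contDiff_infty_iff_deriv.1 (Hc_sm hR)).2

theorem hasDerivAt_Hc (hR : 0 < R) (t : ℝ) : HasDerivAt (Hc R) (deriv (Hc R) t) t :=
  ((Hc_sm hR).differentiable (by simp) t).hasDerivAt

theorem dHc_near (hR : 0 < R) (h : t < R) : deriv (Hc R) t = 0 := by
  rw [(Hc_near hR h).deriv_eq, deriv_const]

theorem dHc_far (hR : 0 < R) (h : 2 * R < t) : deriv (Hc R) t = 0 := by
  rw [(Hc_far hR h).deriv_eq, deriv_const]

theorem hasDerivAt_Gc (hR : 0 < R) (ht : 0 < t) : HasDerivAt (Gc R) (Hc R t / t) t := by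
  have h1 : HasDerivAt (fun s : ℝ => s / R) (1 / R) t := (hasDerivAt_id t).div_const R
  have h2 : HasDerivAt (fun s : ℝ => kap (s / R)) (deriv kap (t / R) * (1 / R)) t :=
    HasDerivAt.comp (h₂ := kap) (h := fun s : ℝ => s / R) t (hasDerivAt_kap (t / R)) h1
  have h3 := h2.mul (Real.hasDerivAt_log ht.ne')
  refine h3.congr_deriv ?_
  unfold Hc
  have := hR.ne'
  have := ht.ne'
  field_simp

theorem hasDerivAt_Gc' (hR : 0 < R) (ht : 0 < t) :
    HasDerivAt (fun s => Hc R s / s) (deriv (Hc R) t / t - Hc R t / t ^ 2) t := by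
  have h3 := (hasDerivAt_Hc hR t).div (hasDerivAt_id t) ht.ne'
  refine h3.congr_deriv ?_
  have := ht.ne'
  simp only [id]
  field_simp

/-! ### the Levi form -/

/-- for `n = 1` the Hessian is the Levi form -/
theorem hess_lev {u : Cn 1 → ℝ} {z : Cn 1} (hu : ContDiffAt ℝ ∞ u z) :
    hess u z 0 0 = ((Levi_145.lev u z (EuclideanSpace.single 0 1) : ℝ) : ℂ) := by
  have h1 := hq_real hu (EuclideanSpace.single 0 1)
  rw [YauDefs_635.lev333_eq_lev145] at h1
  unfold hq at h1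
  simp only [Fin.sum_univ_one] at h1
  have h2 : (EuclideanSpace.single 0 1 : Cn 1) 0 = 1 := by simp
  rw [h2, map_one, mul_one, mul_one] at h1
  rw [h1]
  congr 1
  ring

/-- the square of the distance to `c` -/
def rho (c z : Cn 1) : ℝ := ‖z 0 - c 0‖ ^ 2

theorem rho_eq (c z : Cn 1) : rho c z = ‖z - c‖ ^ 2 := by
  rw [EuclideanSpace.norm_sq_eq, Fin.sum_univ_one]
  rfl

theorem rho_nonneg (c z : Cn 1) : 0 ≤ rho c z := by
  unfold rho
  positivity

theorem rho_pos {c z : Cn 1} (h : z ≠ c) : 0 < rho c z := by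
  rw [rho_eq]
  have : 0 < ‖z - c‖ := norm_pos_iff.2 (sub_ne_zero.2 h)
  positivity

theorem rho_self (c : Cn 1) : rho c c = 0 := by simp [rho]

theorem anal_coord (c z : Cn 1) : AnalyticAt ℂ (fun w : Cn 1 => w 0 - c 0) z :=
  ((EuclideanSpace.proj 0 : Cn 1 →L[ℂ] ℂ).analyticAt z).sub analyticAt_const

theorem rho_sm (c : Cn 1) : ContDiff ℝ ∞ (rho c) :=
  contDiff_iff_contDiffAt.2 fun z => Levi_145.c2_normSq (anal_coord c z) _

theorem continuous_rho (c : Cn 1) : Continuous (rho c) := (rho_sm c).continuous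

theorem fderiv_coord (c z : Cn 1) (v : Cn 1) :
    fderiv ℂ (fun w : Cn 1 => w 0 - c 0) z v = v 0 := by
  have h : HasFDerivAt (fun w : Cn 1 => w 0 - c 0) (EuclideanSpace.proj 0 : Cn 1 →L[ℂ] ℂ) z :=
    ((EuclideanSpace.proj 0 : Cn 1 →L[ℂ] ℂ).hasFDerivAt).sub_const _
  rw [h.fderiv]
  rfl

theorem lev_rho (c z v : Cn 1) : Levi_145.lev (rho c) z v = ‖v 0‖ ^ 2 := by
  have h := Levi_145.lev_normSq (anal_coord c z) v
  rw [fderiv_coord] at h
  exact h

theorem gr_rho (c z v : Cn 1) : ‖Levi_145.gr (rho c) z v‖ ^ 2 = rho c z * ‖v 0‖ ^ 2 := by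
  have h := Levi_145.gr_sumSq (F := fun (_ : Fin 1) (w : Cn 1) => w 0 - c 0)
    (fun _ => anal_coord c z) v
  have e : Levi_145.sumSq (fun (_ : Fin 1) (w : Cn 1) => w 0 - c 0) = rho c := by
    funext w
    simp [Levi_145.sumSq, rho]
  rw [e, Fin.sum_univ_one, fderiv_coord] at h
  rw [h, norm_mul, Complex.norm_conj, mul_pow]
  rfl

theorem hess_Gc (hR : 0 < R) {c z : Cn 1} (hz : z ≠ c) :
    hess (fun w => Gc R (rho c w)) z 0 0 = ((deriv (Hc R) (rho c z) : ℝ) : ℂ) := by
  have h0 := rho_pos hz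
  have hs : ContDiffAt ℝ ∞ (fun w => Gc R (rho c w)) z :=
    (Gc_sm h0.ne').comp z (rho_sm c).contDiffAt
  rw [hess_lev hs]
  congr 1
  rw [Levi_145.lev_comp_real (χ := Gc R) (χ' := fun s => Hc R s / s)
    (χ'' := deriv (Hc R) (rho c z) / rho c z - Hc R (rho c z) / rho c z ^ 2)
    (show ContDiffAt ℝ 2 (rho c) z from Levi_145.c2_normSq (anal_coord c z) 2)
    ((lt_mem_nhds h0).mono fun s hs => hasDerivAt_Gc hR hs) (hasDerivAt_Gc' hR h0),
    gr_rho, lev_rho]
  have h2 : (EuclideanSpace.single 0 1 : Cn 1) 0 = 1 := by simp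
  rw [h2, norm_one]
  field_simp
  ring

/-! ### the integral -/

theorem mp_c0 : MeasurePreserving (fun x : RI 1 → ℝ => (cc x : Cn 1) 0) volume volume := by
  have h1 := (volume_preserving_funUnique (Fin 1) ℂ).comp
    (Crest.Agent.R273.SteinM_794.mp_kap 1)
  exact h1

theorem me_c0 : MeasurableEmbedding (fun x : RI 1 → ℝ => (cc x : Cn 1) 0) :=
  (MeasurableEquiv.funUnique (Fin 1) ℂ).measurableEmbedding.comp
    (Crest.Agent.R273.SteinM_794.me_kap 1)

theorem int_ray (hR : 0 < R) : ∫ y in Ioi (0 : ℝ), y * deriv (Hc R) (y ^ 2) = - (1 / 2) := by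
  have hd : ∀ y : ℝ, HasDerivAt (fun y : ℝ => (1 / 2) * Hc R (y ^ 2))
      (y * deriv (Hc R) (y ^ 2)) y := by
    intro y
    have h1 : HasDerivAt (fun y : ℝ => y ^ 2) (2 * y) y := by simpa using hasDerivAt_pow 2 y
    have h2 := ((hasDerivAt_Hc hR (y ^ 2)).comp y h1).const_mul (1 / 2)
    refine h2.congr_deriv ?_
    ring
  have hc : Continuous fun y : ℝ => y * deriv (Hc R) (y ^ 2) :=
    continuous_id.mul ((dHc_sm hR).continuous.comp (continuous_pow 2))
  have hcs : HasCompactSupport fun y : ℝ => y * deriv (Hc R) (y ^ 2) := by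
    refine HasCompactSupport.of_support_subset_isCompact
      (isCompact_Icc (a := -(Real.sqrt (2 * R))) (b := Real.sqrt (2 * R))) ?_
    intro y hy
    by_contra hn
    apply hy
    have h1 : 2 * R < y ^ 2 := by
      by_contra h2
      exact hn (abs_le.1 (Real.abs_le_sqrt (not_lt.1 h2)))
    change y * deriv (Hc R) (y ^ 2) = 0
    rw [dHc_far hR h1, mul_zero]
  have hl : Tendsto (fun y : ℝ => (1 / 2) * Hc R (y ^ 2)) atTop (𝓝 0) := by
    refine tendsto_const_nhds.congr' ?_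
    have h1 : Tendsto (fun y : ℝ => y ^ 2) atTop atTop := tendsto_pow_atTop (by norm_num)
    filter_upwards [h1.eventually (eventually_gt_atTop (2 * R))] with y hy
    rw [(Hc_far hR hy).self_of_nhds, mul_zero]
  have h := integral_Ioi_of_hasDerivAt_of_tendsto' (a := 0) (fun y _ => hd y)
    (hc.integrable_of_hasCompactSupport hcs).integrableOn hl
  rw [h]
  have h0 : Hc R ((0 : ℝ) ^ 2) = 1 := by
    have : (0 : ℝ) ^ 2 < R := by simpa using hR
    exact (Hc_near hR this).self_of_nhds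
  rw [h0]
  ring

theorem int_dHc (hR : 0 < R) (c : Cn 1) :
    ∫ x : RI 1 → ℝ, ((deriv (Hc R) (rho c (cc x)) : ℝ) : ℂ) = ((-Real.pi : ℝ) : ℂ) := by
  rw [integral_complex_ofReal]
  congr 1
  have h1 : ∫ x : RI 1 → ℝ, deriv (Hc R) (rho c (cc x)) =
      ∫ z : ℂ, deriv (Hc R) (‖z - c 0‖ ^ 2) :=
    mp_c0.integral_comp me_c0 (fun z : ℂ => deriv (Hc R) (‖z - c 0‖ ^ 2))
  rw [h1, integral_sub_right_eq_self (fun z : ℂ => deriv (Hc R) (‖z‖ ^ 2)) (c 0),
    integral_fun_norm_addHaar volume (fun y : ℝ => deriv (Hc R) (y ^ 2)),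
    Complex.finrank_real_complex]
  have h2 : (volume : Measure ℂ).real (Metric.ball 0 1) = Real.pi := by
    rw [measureReal_def, Complex.volume_ball]
    simp
  rw [h2]
  have h3 : ∫ y in Ioi (0 : ℝ), y ^ (2 - 1) • deriv (Hc R) (y ^ 2) = - (1 / 2) := by
    rw [← int_ray hR]
    refine setIntegral_congr_fun measurableSet_Ioi fun y _ => ?_
    simp
  rw [h3]
  simp only [nsmul_eq_mul, smul_eq_mul]
  push_cast
  ring


/-! ### on the surface -/

variable {M : Type} [TopologicalSpace M] [T2Space M] {A : Atl 1 M}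

open Crest.Agent.R275.Dg199 (SmN smN_iff sm_iff ev_symm ev_chart smN_const smAt_of_smN)

theorem smN_hess {h : M → ℝ} {x : M} (hh : SmN A h x) {i : A.ι} (hx : x ∈ (A.e i).source) :
    ContDiffAt ℝ ∞ (fun z => h ((A.e i).symm z)) (A.e i x) := (smN_iff hx).1 hh

/-- transformation of the Hessian at a point where `h` is smooth -/
theorem hsf_trN {h : M → ℝ} {x : M} (hh : SmN A h x) {i j : A.ι}
    (hx : x ∈ (A.e i).source ∩ (A.e j).source) :
    hsf A h i x 0 0 = ((‖J1 A i j x‖ ^ 2 : ℝ) : ℂ) * hsf A h j x 0 0 := by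
  have ho : IsOpen (A.ov i j) := isOpen_ov i j
  have hm : A.e i x ∈ A.ov i j := mem_ov hx
  have h1 : hsf A h i x = (Jm A i j x)ᵀ * hsf A h j x * (Jm A i j x).map conj := by
    refine hess_tr (f := fun _ => (1 : ℂ)) hx (smN_hess hh hx.1) (smN_hess hh hx.2)
      (Eventually.of_forall fun w => differentiableAt_const _) one_ne_zero ?_
    filter_upwards [ho.mem_nhds hm] with w hw
    rw [(A.e j).left_inv hw.2]
    simp
  rw [h1]
  simp only [Matrix.mul_apply, Fin.sum_univ_one, Matrix.transpose_apply, Matrix.map_apply,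
    Jm_apply]
  change J1 A i j x * hsf A h j x 0 0 * conj (J1 A i j x) = _
  have : ((‖J1 A i j x‖ ^ 2 : ℝ) : ℂ) = J1 A i j x * conj (J1 A i j x) := by
    rw [Complex.mul_conj, Complex.normSq_eq_norm_sq]
  rw [this]
  ring

theorem hsf_realN {h : M → ℝ} {x : M} (hh : SmN A h x) {i : A.ι} (hx : x ∈ (A.e i).source) :
    hsf A h i x 0 0 = (((hsf A h i x 0 0).re : ℝ) : ℂ) := by
  have h1 := hess_symm (smN_hess hh hx) 0 0
  exact (Complex.conj_eq_iff_re.1 h1).symm

theorem hsf_smN {h : M → ℝ} {x : M} (hh : ∀ᶠ y in 𝓝 x, SmN A h y) {i : A.ι}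
    (hx : x ∈ (A.e i).source) :
    ContDiffAt ℝ ∞ (fun z => hsf A h i ((A.e i).symm z) 0 0) (A.e i x) := by
  have h1 := contDiffAt_hess (smN_hess hh.self_of_nhds hx) 0 0
  refine h1.congr_of_eventuallyEq ?_
  filter_upwards [(A.e i).open_target.mem_nhds ((A.e i).map_source hx)] with z hz
  rw [hsf_read h i hz]

/-- the density `∂∂̄ h` off the finite set `S` -/
def dq (A : Atl 1 M) (S : Set M) (h : M → ℝ) (i : A.ι) (x : M) : ℝ := by
  classical
  exact if x ∈ S then 0 else (hsf A h i x 0 0).re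

variable {S : Set M} {h : M → ℝ}

theorem dq_mem {i : A.ι} {x : M} (hx : x ∈ S) : dq A S h i x = 0 := by
  unfold dq
  rw [if_pos hx]

theorem dq_off {i : A.ι} {x : M} (hx : x ∉ S) : dq A S h i x = (hsf A h i x 0 0).re := by
  unfold dq
  rw [if_neg hx]

/-- `h` is smooth off `S` and harmonic near the points of `S` -/
structure HarmS (A : Atl 1 M) (S : Set M) (h : M → ℝ) : Prop where
  cl : IsClosed S
  sm : ∀ x, x ∉ S → SmN A h x
  harm : ∀ p ∈ S, ∃ i, p ∈ (A.e i).source ∧ ∀ᶠ x in 𝓝 p, x ∉ S → hsf A h i x 0 0 = 0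

theorem HarmS.smN (H : HarmS A S h) {x : M} (hx : x ∉ S) : ∀ᶠ y in 𝓝 x, SmN A h y := by
  filter_upwards [H.cl.isOpen_compl.mem_nhds hx] with y hy using H.sm y hy

theorem HarmS.zero (H : HarmS A S h) {p : M} (hp : p ∈ S) {i : A.ι} (hi : p ∈ (A.e i).source) :
    ∀ᶠ x in 𝓝 p, dq A S h i x = 0 := by
  obtain ⟨j, hj, h1⟩ := H.harm p hp
  filter_upwards [h1, (A.e i).open_source.mem_nhds hi, (A.e j).open_source.mem_nhds hj]
    with x h2 h3 h4
  by_cases hx : x ∈ S
  · exact dq_mem hx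
  · rw [dq_off hx, hsf_trN (H.sm x hx) ⟨h3, h4⟩, h2 hx]
    simp

theorem HarmS.dqC (H : HarmS A S h) {i : A.ι} {x : M} (hi : x ∈ (A.e i).source) (hx : x ∉ S) :
    ((dq A S h i x : ℝ) : ℂ) = hsf A h i x 0 0 := by
  rw [dq_off hx, ← hsf_realN (H.sm x hx) hi]

theorem HarmS.smAt (H : HarmS A S h) (i : A.ι) : A.SmAt i (dq A S h i) := by
  intro z hz
  refine ContDiffAt.contDiffWithinAt ?_
  have hs := (A.e i).map_target hz
  have hrz := (A.e i).right_inv hz
  by_cases hx : (A.e i).symm z ∈ S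
  · have h1 := ev_symm hs (H.zero hx hs)
    rw [hrz] at h1
    refine (contDiffAt_const (c := (0 : ℝ))).congr_of_eventuallyEq ?_
    filter_upwards [h1] with w hw
    exact hw
  · have h1 := hsf_smN (H.smN hx) hs
    rw [hrz] at h1
    have h2 : ContDiffAt ℝ ∞ (fun w => (hsf A h i ((A.e i).symm w) 0 0).re) z :=
      Complex.reCLM.contDiff.contDiffAt.comp z h1
    refine h2.congr_of_eventuallyEq ?_
    have h3 := ev_symm hs (H.cl.isOpen_compl.mem_nhds hx)
    rw [hrz] at h3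
    filter_upwards [h3] with w hw
    exact dq_off hw

theorem HarmS.dn (H : HarmS A S h) : Dn A (fun i x => (dq A S h i x : ℂ)) := by
  rw [dn_iff]
  intro i j x hx
  by_cases hS : x ∈ S
  · simp only [dq_mem hS]
    simp
  · rw [H.dqC hx.1 hS, H.dqC hx.2 hS]
    exact hsf_trN (H.sm x hS) hx

theorem HarmS.den (H : HarmS A S h) : Den A (fun i x => (dq A S h i x : ℂ)) :=
  ⟨fun i => smAtR (H.smAt i), H.dn⟩

/-! ### the cut-off logarithm on `M` -/

/-- `|z - e_j p| ≤ 2 r` lies in the chart `j` -/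
structure Disc (A : Atl 1 M) (p : M) (j : A.ι) (r : ℝ) : Prop where
  hr : 0 < r
  src : p ∈ (A.e j).source
  sub : Metric.closedBall (A.e j p) (2 * r) ⊆ (A.e j).target

variable {p : M} {j : A.ι} {r : ℝ}

theorem exists_disc {U : Set M} (hj : p ∈ (A.e j).source) (hU : U ∈ 𝓝 p) :
    ∃ r, Disc A p j r ∧ (A.e j).symm '' Metric.closedBall (A.e j p) (2 * r) ⊆ U := by
  have h1 : ∀ᶠ z in 𝓝 (A.e j p), (A.e j).symm z ∈ U ∧ z ∈ (A.e j).target := by
    filter_upwards [ev_symm hj hU, (A.e j).open_target.mem_nhds ((A.e j).map_source hj)]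
      with z h1 h2 using ⟨h1, h2⟩
  obtain ⟨r, hr, hrU⟩ := Metric.eventually_nhds_iff_ball.1 h1
  have hbc : Metric.closedBall (A.e j p) (2 * (r / 4)) ⊆ Metric.ball (A.e j p) r :=
    Metric.closedBall_subset_ball (by linarith)
  refine ⟨r / 4, ⟨by positivity, hj, fun z hz => (hrU z (hbc hz)).2⟩, ?_⟩
  rintro _ ⟨z, hz, rfl⟩
  exact (hrU z (hbc hz)).1

/-- the compact disc -/
def dk (A : Atl 1 M) (p : M) (j : A.ι) (r : ℝ) : Set M :=
  (A.e j).symm '' Metric.closedBall (A.e j p) (2 * r)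

theorem Disc.cpt (D : Disc A p j r) : IsCompact (dk A p j r) :=
  (isCompact_closedBall _ _).image_of_continuousOn ((A.e j).continuousOn_symm.mono D.sub)

theorem Disc.ksub (D : Disc A p j r) : dk A p j r ⊆ (A.e j).source := by
  rintro _ ⟨z, hz, rfl⟩
  exact (A.e j).map_target (D.sub hz)

theorem Disc.mem (D : Disc A p j r) {x : M} (hx : x ∈ (A.e j).source)
    (h : rho (A.e j p) (A.e j x) ≤ (2 * r) ^ 2) : x ∈ dk A p j r := by
  refine ⟨A.e j x, ?_, (A.e j).left_inv hx⟩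
  rw [rho_eq] at h
  rw [Metric.mem_closedBall, dist_eq_norm]
  exact le_of_sq_le_sq h (by linarith [D.hr])

/-- the cut-off logarithm of `|z - e_j p|²` -/
def lgf (A : Atl 1 M) (p : M) (j : A.ι) (r : ℝ) (x : M) : ℝ := by
  classical
  exact if x ∈ (A.e j).source then Gc (r ^ 2) (rho (A.e j p) (A.e j x)) else 0

theorem lgf_src {x : M} (hx : x ∈ (A.e j).source) :
    lgf A p j r x = Gc (r ^ 2) (rho (A.e j p) (A.e j x)) := by
  unfold lgf
  rw [if_pos hx]

theorem lgf_nsrc {x : M} (hx : x ∉ (A.e j).source) : lgf A p j r x = 0 := by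
  unfold lgf
  rw [if_neg hx]

theorem Disc.lgf_off (D : Disc A p j r) {x : M} (hx : x ∉ dk A p j r) : lgf A p j r x = 0 := by
  by_cases hs : x ∈ (A.e j).source
  · rw [lgf_src hs]
    have h1 : (2 * r) ^ 2 < rho (A.e j p) (A.e j x) := by
      by_contra hn
      exact hx (D.mem hs (not_lt.1 hn))
    have hr := D.hr
    exact Gc_far (by positivity) (by nlinarith)
  · exact lgf_nsrc hs

theorem rho_chart_pos {x : M} (hp : p ∈ (A.e j).source) (hx : x ∈ (A.e j).source) (h : x ≠ p) :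
    0 < rho (A.e j p) (A.e j x) :=
  rho_pos fun he => h ((A.e j).injOn hx hp he)

theorem lgf_read {z : Cn 1} (hz : z ∈ (A.e j).target) :
    lgf A p j r ((A.e j).symm z) = Gc (r ^ 2) (rho (A.e j p) z) := by
  rw [lgf_src ((A.e j).map_target hz), (A.e j).right_inv hz]

theorem Disc.smN (D : Disc A p j r) {x : M} (hx : x ≠ p) : SmN A (lgf A p j r) x := by
  by_cases hs : x ∈ (A.e j).source
  · rw [smN_iff hs]
    have h0 := rho_chart_pos D.src hs hx
    have h1 : ContDiffAt ℝ ∞ (fun z => Gc (r ^ 2) (rho (A.e j p) z)) (A.e j x) :=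
      (Gc_sm h0.ne').comp _ (rho_sm _).contDiffAt
    refine h1.congr_of_eventuallyEq ?_
    filter_upwards [(A.e j).open_target.mem_nhds ((A.e j).map_source hs)] with z hz
    exact lgf_read hz
  · have h1 : x ∉ dk A p j r := fun h => hs (D.ksub h)
    refine (smN_const (A := A) (0 : ℝ) x).congr ?_
    filter_upwards [D.cpt.isClosed.isOpen_compl.mem_nhds h1] with y hy
    exact D.lgf_off hy

theorem Disc.hsf_eq (D : Disc A p j r) {x : M} (hs : x ∈ (A.e j).source) (hx : x ≠ p) :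
    hsf A (lgf A p j r) j x 0 0 =
      ((deriv (Hc (r ^ 2)) (rho (A.e j p) (A.e j x)) : ℝ) : ℂ) := by
  have hr := D.hr
  have hne : A.e j x ≠ A.e j p := fun he => hx ((A.e j).injOn hs D.src he)
  rw [← hess_Gc (R := r ^ 2) (by positivity) hne]
  have h1 : (fun z => lgf A p j r ((A.e j).symm z)) =ᶠ[𝓝 (A.e j x)]
      fun z => Gc (r ^ 2) (rho (A.e j p) z) := by
    filter_upwards [(A.e j).open_target.mem_nhds ((A.e j).map_source hs)] with z hz
    exact lgf_read hz
  unfold hsf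
  rw [hess_congr h1]

theorem ev_rho_lt (hp : p ∈ (A.e j).source) {ε : ℝ} (hε : 0 < ε) :
    ∀ᶠ x in 𝓝 p, rho (A.e j p) (A.e j x) < ε := by
  have h1 : ∀ᶠ z in 𝓝 (A.e j p), rho (A.e j p) z < ε := by
    have := (continuous_rho (A.e j p)).continuousAt (x := A.e j p)
    refine this.eventually (gt_mem_nhds ?_)
    rwa [rho_self]
  exact ev_chart hp h1

theorem Disc.lgf_near (D : Disc A p j r) :
    ∀ᶠ x in 𝓝 p, lgf A p j r x = Real.log (rho (A.e j p) (A.e j x)) := by
  have hr := D.hr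
  filter_upwards [ev_rho_lt D.src (ε := r ^ 2) (by positivity),
    (A.e j).open_source.mem_nhds D.src] with x h1 h2
  rw [lgf_src h2, Gc_near (by positivity) h1.le]

theorem Disc.harm (D : Disc A p j r) : HarmS A {p} (lgf A p j r) where
  cl := isClosed_singleton
  sm x hx := D.smN hx
  harm q hq := by
    rw [mem_singleton_iff] at hq
    subst hq
    have hr := D.hr
    refine ⟨j, D.src, ?_⟩
    filter_upwards [ev_rho_lt D.src (ε := r ^ 2) (by positivity),
      (A.e j).open_source.mem_nhds D.src] with x h1 h2 h3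
    rw [D.hsf_eq h2 h3, dHc_near (by positivity) h1, ofReal_zero]

theorem Disc.dq_eq (D : Disc A p j r) {x : M} (hs : x ∈ (A.e j).source) :
    dq A {p} (lgf A p j r) j x = deriv (Hc (r ^ 2)) (rho (A.e j p) (A.e j x)) := by
  have hr := D.hr
  by_cases hx : x = p
  · subst hx
    rw [dq_mem (mem_singleton _), rho_self, dHc_near (by positivity) (by positivity)]
  · rw [dq_off (S := {p}) (x := x) hx, D.hsf_eq hs hx, ofReal_re]

theorem Disc.offK (D : Disc A p j r) :
    OffK A (fun i x => (dq A {p} (lgf A p j r) i x : ℂ)) (dk A p j r) := by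
  intro i x hx hxK
  have hxp : x ∉ ({p} : Set M) := fun h => hxK (by
    rw [mem_singleton_iff] at h
    subst h
    exact D.mem D.src (by rw [rho_self]; positivity))
  have h1 : hsf A (lgf A p j r) i x = hsf A (fun _ => (0 : ℝ)) i x := by
    unfold hsf
    refine hess_congr ?_
    have h2 := ev_symm hx (D.cpt.isClosed.isOpen_compl.mem_nhds hxK)
    filter_upwards [h2] with z hz
    exact D.lgf_off hz
  change ((dq A {p} (lgf A p j r) i x : ℝ) : ℂ) = 0
  rw [dq_off hxp, h1]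
  have h3 : hsf A (fun _ => (0 : ℝ)) i x = 0 := by
    ext a b
    unfold hsf
    rw [hess_apply]
    have h4 : wd (true, b) (cu fun _ : Cn 1 => (0 : ℝ)) = fun _ => 0 := by
      funext w
      exact wd_const _ _ _
    rw [h4, wd_const]
    rfl
  rw [h3]
  simp

/-- **the residue**: `∫ ∂∂̄ (cut-off log|z - z(p)|²) = -π` -/
theorem Disc.int (D : Disc A p j r) (P : Part A) :
    intD P (fun i x => (dq A {p} (lgf A p j r) i x : ℂ)) = ((-Real.pi : ℝ) : ℂ) := by
  have hr := D.hr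
  rw [intD_local P D.harm.den D.cpt D.ksub D.offK, ← int_dHc (R := r ^ 2) (by positivity)
    (A.e j p)]
  unfold Crest.Agent.R275.SerG398.lint
  refine integral_congr_ae (Eventually.of_forall fun y => ?_)
  change rd A j (fun x => ((dq A {p} (lgf A p j r) j x : ℝ) : ℂ)) y =
    ((deriv (Hc (r ^ 2)) (rho (A.e j p) (cc y)) : ℝ) : ℂ)
  unfold Geo.rd
  split_ifs with hy
  · have h2 := D.dq_eq ((A.e j).map_target hy)
    rw [(A.e j).right_inv hy] at h2
    exact congrArg (fun t : ℝ => (t : ℂ)) h2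
  · have h1 : (2 * r) ^ 2 < rho (A.e j p) (cc y) := by
      by_contra hn
      apply hy
      apply D.sub
      rw [Metric.mem_closedBall, dist_eq_norm]
      rw [rho_eq] at hn
      exact le_of_sq_le_sq (not_lt.1 hn) (by linarith)
    rw [dHc_far (by positivity) (by nlinarith), ofReal_zero]

end

end Crest.Agent.R257.RSA_844
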