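import Crest.Agent.R257.RSA3_844
import Crest.Agent.R257.Cmp2_101

/-!
# R257 (S0395), part C, task RS-AN (helper844): compact Riemann surfaces, file 4

* `Crd A p τ`   : `τ` is a holomorphic coordinate at `p`, `τ p = 0`
* `exists_h2`   : a function with prescribed logarithmic poles, `∂∂̄ h = κ g` off the poles
* `rg`          : regularised maximum of `0` and `t`
* `exists_weight` : the weights with exact form `a_p log|τ_p|² - C` near `p`
-/

set_option autoImplicit false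
set_option linter.unusedSectionVars false

open Set Filter Topology Complex MeasureTheory
open scoped ContDiff Matrix ComplexConjugate ComplexOrder

namespace Crest.Agent.R257.RSA_844

open Crest.Agent.R273 Crest.Agent.R275 Crest.Agent.R275.Geo Crest.Agent.R275.Core144
open Crest.Agent.R275.EDR890 Crest.Agent.R275.OmT75 Crest.Agent.R275.Tor812
open Crest.Agent.R275.SerG398 (dens lint)
open Crest.Agent.R273.Defs_333 Crest.Agent.R273.Vm_333 Crest.Agent.R273.Kah_333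
open Crest.Agent.R273.Hess_333 Crest.Agent.R273.HessB_333 Crest.Agent.R273.HM_333
open Crest.Agent.R273.Vol_333 Crest.Agent.R273.Green_5 Crest.Agent.R273.GreenM_5
open Crest.Agent.R273.StokesV_332
open Crest.Agent.R275.Dg199 (SmN smN_iff sm_iff ev_symm ev_chart smN_const smAt_of_smN)

noncomputable section

/-! ### one complex variable -/

theorem eq_smul_e (z : Cn 1) : z = z 0 • (EuclideanSpace.single 0 1 : Cn 1) := by
  ext a
  rw [Subsingleton.elim a 0]
  simp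

theorem fac {T : Cn 1 → ℂ} {c : Cn 1} (hT : AnalyticAt ℂ T c) (h0 : T c = 0) :
    ∃ U : Cn 1 → ℂ, AnalyticAt ℂ U c ∧ U c = fderiv ℂ T c (EuclideanSpace.single 0 1) ∧
      ∀ z, T z = (z 0 - c 0) * U z := by
  set e : Cn 1 := EuclideanSpace.single 0 1 with he
  set L : ℂ →L[ℂ] Cn 1 := ContinuousLinearMap.toSpanSingleton ℂ e with hL
  have hLc : L (c 0) = c := (eq_smul_e c).symm
  have hLz : ∀ z : Cn 1, L (z 0) = z := fun z => (eq_smul_e z).symm
  set f : ℂ → ℂ := fun ζ => T (L ζ) with hf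
  have hT' : AnalyticAt ℂ T (L (c 0)) := by rwa [hLc]
  have hfa : AnalyticAt ℂ f (c 0) := hT'.comp (L.analyticAt (c 0))
  obtain ⟨p, hp⟩ := id hfa
  have hda : AnalyticAt ℂ (dslope f (c 0)) (c 0) := hp.has_fpower_series_dslope_fslope.analyticAt
  have hpr : AnalyticAt ℂ (fun z : Cn 1 => z 0) c :=
    (EuclideanSpace.proj 0 : Cn 1 →L[ℂ] ℂ).analyticAt c
  refine ⟨fun z => dslope f (c 0) (z 0), AnalyticAt.comp (g := dslope f (c 0))
    (f := fun z : Cn 1 => z 0) hda hpr, ?_, fun z => ?_⟩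
  · show dslope f (c 0) (c 0) = _
    rw [dslope_same]
    have h1 : HasFDerivAt T (fderiv ℂ T c) (L (c 0)) := by
      rw [hLc]
      exact hT.differentiableAt.hasFDerivAt
    have h2 : HasDerivAt f (fderiv ℂ T c (L 1)) (c 0) :=
      h1.comp_hasDerivAt (c 0) L.hasDerivAt
    rw [h2.deriv]
    congr 1
    rw [hL]
    simp
  · have h1 := sub_smul_dslope f (c 0) (z 0)
    have h2 : f (c 0) = 0 := by
      rw [hf]
      simp only [hLc, h0]
    have h3 : f (z 0) = T z := by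
      rw [hf]
      simp only [hLz]
    rw [h2, h3, sub_zero, smul_eq_mul] at h1
    exact h1.symm

variable {M : Type} [TopologicalSpace M] {A : Atl 1 M}

/-- a holomorphic coordinate at `p`, centred at `p` -/
structure Crd (A : Atl 1 M) (p : M) (τ : M → ℂ) : Prop where
  zero : τ p = 0
  ex : ∃ i, p ∈ (A.e i).source ∧ AnalyticAt ℂ (fun z => τ ((A.e i).symm z)) (A.e i p) ∧
    fderiv ℂ (fun z => τ ((A.e i).symm z)) (A.e i p) (EuclideanSpace.single 0 1) ≠ 0

theorem Crd.ana {p : M} {τ : M → ℂ} (H : Crd A p τ) {j : A.ι} (hj : p ∈ (A.e j).source) :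
    AnalyticAt ℂ (fun z => τ ((A.e j).symm z)) (A.e j p) ∧
    fderiv ℂ (fun z => τ ((A.e j).symm z)) (A.e j p) (EuclideanSpace.single 0 1) ≠ 0 := by
  obtain ⟨i, hi, h1, h2⟩ := H.ex
  have hm : A.e j p ∈ A.ov j i := mem_ov ⟨hj, hi⟩
  have ho : IsOpen (A.ov j i) := isOpen_ov j i
  have hg : AnalyticAt ℂ (fun z => A.e i ((A.e j).symm z)) (A.e j p) :=
    Crest.Agent.R266.SCV.analyticOnNhd_of_differentiableOn ho (A.holo j i) _ hm
  have hv : A.e i ((A.e j).symm (A.e j p)) = A.e i p := by rw [(A.e j).left_inv hj]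
  have h1' : AnalyticAt ℂ (fun z => τ ((A.e i).symm z)) (A.e i ((A.e j).symm (A.e j p))) := by
    rwa [hv]
  have hc : AnalyticAt ℂ ((fun z => τ ((A.e i).symm z)) ∘ fun z => A.e i ((A.e j).symm z))
      (A.e j p) := AnalyticAt.comp h1' hg
  have he : (fun z => τ ((A.e j).symm z)) =ᶠ[𝓝 (A.e j p)]
      ((fun z => τ ((A.e i).symm z)) ∘ fun z => A.e i ((A.e j).symm z)) := by
    filter_upwards [ho.mem_nhds hm] with z hz
    simp only [Function.comp_apply]
    rw [(A.e i).left_inv hz.2]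
  refine ⟨hc.congr he.symm, ?_⟩
  rw [he.fderiv_eq, fderiv_comp (g := fun z => τ ((A.e i).symm z))
    (f := fun z => A.e i ((A.e j).symm z)) (A.e j p) h1'.differentiableAt hg.differentiableAt, hv]
  have h3 : fderiv ℂ (fun z => A.e i ((A.e j).symm z)) (A.e j p) (EuclideanSpace.single 0 1) =
      J1 A j i p • (EuclideanSpace.single 0 1 : Cn 1) := by
    rw [eq_smul_e (fderiv ℂ (fun z => A.e i ((A.e j).symm z)) (A.e j p)
      (EuclideanSpace.single 0 1))]
    rfl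
  rw [ContinuousLinearMap.comp_apply, h3, map_smul, smul_eq_mul]
  exact mul_ne_zero (J1_ne ⟨hj, hi⟩) h2

theorem Crd.fac {p : M} {τ : M → ℂ} (H : Crd A p τ) {j : A.ι} (hj : p ∈ (A.e j).source) :
    ∃ U : Cn 1 → ℂ, AnalyticAt ℂ U (A.e j p) ∧ U (A.e j p) ≠ 0 ∧
      ∀ z, τ ((A.e j).symm z) = (z 0 - (A.e j p) 0) * U z := by
  obtain ⟨h1, h2⟩ := H.ana hj
  obtain ⟨U, a, b, c⟩ := RSA_844.fac h1 (by rw [(A.e j).left_inv hj, H.zero])
  exact ⟨U, a, by rw [b]; exact h2, c⟩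

/-- the coordinate of a chart -/
theorem crd_chart {p : M} {j : A.ι} (hj : p ∈ (A.e j).source) :
    Crd A p (fun x => (A.e j x) 0 - (A.e j p) 0) where
  zero := sub_self _
  ex := by
    have he : (fun z => (A.e j ((A.e j).symm z)) 0 - (A.e j p) 0) =ᶠ[𝓝 (A.e j p)]
        fun z : Cn 1 => z 0 - (A.e j p) 0 := by
      filter_upwards [(A.e j).open_target.mem_nhds ((A.e j).map_source hj)] with z hz
      rw [(A.e j).right_inv hz]
    refine ⟨j, hj, (anal_coord _ _).congr he.symm, ?_⟩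
    rw [he.fderiv_eq, fderiv_coord]
    simp

variable [T2Space M]

/-- comparison of the logarithms of two coordinates -/
theorem Crd.log {p : M} {τ : M → ℂ} (H : Crd A p τ) {j : A.ι} (hj : p ∈ (A.e j).source) :
    ∃ B : M → ℝ, ∀ᶠ x in 𝓝 p, SmN A B x ∧ hsf A B j x 0 0 = 0 ∧
      (x ≠ p → Real.log (‖τ x‖ ^ 2) = Real.log (rho (A.e j p) (A.e j x)) + B x) := by
  obtain ⟨U, hU, h0, hf⟩ := H.fac hj
  refine ⟨fun x => Real.log (‖U (A.e j x)‖ ^ 2), ?_⟩
  have e1 := ev_chart hj (hU.eventually_analyticAt.and (hU.continuousAt.eventually_ne h0))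
  filter_upwards [e1, (A.e j).open_source.mem_nhds hj] with x h1 h2
  have hr : (fun z => Real.log (‖U (A.e j ((A.e j).symm z))‖ ^ 2)) =ᶠ[𝓝 (A.e j x)]
      fun z => Real.log (‖U z‖ ^ 2) := by
    filter_upwards [(A.e j).open_target.mem_nhds ((A.e j).map_source h2)] with z hz
    rw [(A.e j).right_inv hz]
  have hd : ∀ᶠ w in 𝓝 (A.e j x), DifferentiableAt ℂ U w :=
    h1.1.eventually_analyticAt.mono fun w hw => hw.differentiableAt
  refine ⟨?_, ?_, fun h3 => ?_⟩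
  · rw [smN_iff h2]
    have hs : ContDiffAt ℝ ∞ (fun z => Real.log (‖U z‖ ^ 2)) (A.e j x) := by
      refine ContDiffAt.log ?_ (by have := norm_pos_iff.2 h1.2; positivity)
      exact Levi_145.c2_normSq h1.1 _
    exact hs.congr_of_eventuallyEq hr
  · unfold hsf
    rw [hess_congr hr, hess_log_norm hd h1.2]
    rfl
  · have h4 := hf (A.e j x)
    rw [(A.e j).left_inv h2] at h4
    have h5 : 0 < rho (A.e j p) (A.e j x) := rho_chart_pos hj h2 h3
    have h6 := norm_pos_iff.2 h1.2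
    rw [h4, norm_mul, mul_pow]
    exact Real.log_mul h5.ne' (by positivity)

/-! ### functions with logarithmic poles -/

theorem hsf_addN {u v : M → ℝ} {x : M} (hu : SmN A u x) (hv : SmN A v x) {i : A.ι}
    (hx : x ∈ (A.e i).source) : hsf A (fun y => u y + v y) i x = hsf A u i x + hsf A v i x :=
  hess_add ((smN_iff hx).1 hu) ((smN_iff hx).1 hv)

theorem hsf_subN {u v : M → ℝ} {x : M} (hu : SmN A u x) (hv : SmN A v x) {i : A.ι}
    (hx : x ∈ (A.e i).source) : hsf A (fun y => u y - v y) i x = hsf A u i x - hsf A v i x :=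
  hess_sub ((smN_iff hx).1 hu) ((smN_iff hx).1 hv)

theorem hsf_smulN (c : ℝ) {u : M → ℝ} {x : M} (hu : SmN A u x) {i : A.ι}
    (hx : x ∈ (A.e i).source) : hsf A (fun y => c * u y) i x = (c : ℂ) • hsf A u i x :=
  hess_const_mul c ((smN_iff hx).1 hu)

theorem smN_smul (c : ℝ) {u : M → ℝ} {x : M} (hu : SmN A u x) : SmN A (fun y => c * u y) x :=
  Crest.Agent.R275.Dg199.SmN.smul (smN_const c x) hu

theorem smN_mulR {u v : M → ℝ} {x : M} (hu : SmN A u x) (hv : SmN A v x) :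
    SmN A (fun y => u y * v y) x := Crest.Agent.R275.Dg199.SmN.smul hu hv

theorem hsf_const0 (c : ℝ) (i : A.ι) (x : M) : hsf A (fun _ => c) i x = 0 := by
  ext a b
  unfold hsf
  rw [hess_apply]
  have h4 : wd (true, b) (cu fun _ : Cn 1 => c) = fun _ => 0 := by
    funext w
    exact wd_const _ _ _
  rw [h4, wd_const]
  rfl

theorem hsf_sumN {σ : Type*} (s : Finset σ) {u : σ → M → ℝ} {x : M} (hu : ∀ t ∈ s, SmN A (u t) x)
    {i : A.ι} (hx : x ∈ (A.e i).source) :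
    hsf A (fun y => ∑ t ∈ s, u t y) i x = ∑ t ∈ s, hsf A (u t) i x := by
  classical
  induction s using Finset.induction_on with
  | empty =>
    simp only [Finset.sum_empty]
    exact hsf_const0 0 i x
  | insert a s ha ih =>
    simp only [Finset.sum_insert ha]
    rw [hsf_addN (hu a (Finset.mem_insert_self a s))
      (Crest.Agent.R275.Dg199.SmN.sum fun t ht => hu t (Finset.mem_insert_of_mem ht)) hx,
      ih fun t ht => hu t (Finset.mem_insert_of_mem ht)]

theorem hsf_congrN {f g : M → ℝ} {x : M} (h : f =ᶠ[𝓝 x] g) {i : A.ι} (hx : x ∈ (A.e i).source) :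
    hsf A f i x = hsf A g i x := hess_congr (ev_symm hx h)

theorem hsf_logrho {p x : M} {j : A.ι} (hj : p ∈ (A.e j).source) (hx : x ∈ (A.e j).source)
    (h : x ≠ p) : SmN A (fun y => Real.log (rho (A.e j p) (A.e j y))) x ∧
      hsf A (fun y => Real.log (rho (A.e j p) (A.e j y))) j x 0 0 = 0 := by
  have h0 := rho_chart_pos hj hx h
  have hne : (A.e j x) 0 - (A.e j p) 0 ≠ 0 := by
    intro h1
    unfold rho at h0
    rw [h1] at h0
    simp at h0
  have hr : (fun z => Real.log (rho (A.e j p) (A.e j ((A.e j).symm z)))) =ᶠ[𝓝 (A.e j x)]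
      fun z => Real.log (‖z 0 - (A.e j p) 0‖ ^ 2) := by
    filter_upwards [(A.e j).open_target.mem_nhds ((A.e j).map_source hx)] with z hz
    rw [(A.e j).right_inv hz]
    rfl
  constructor
  · rw [smN_iff hx]
    have hs : ContDiffAt ℝ ∞ (fun z : Cn 1 => Real.log (‖z 0 - (A.e j p) 0‖ ^ 2)) (A.e j x) := by
      refine ContDiffAt.log ?_ (by have := norm_pos_iff.2 hne; positivity)
      exact Levi_145.c2_normSq (anal_coord _ _) _
    exact hs.congr_of_eventuallyEq hr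
  · unfold hsf
    rw [hess_congr hr, hess_log_norm (f := fun w : Cn 1 => w 0 - (A.e j p) 0)
      (Eventually.of_forall fun w => (anal_coord (A.e j p) w).differentiableAt) hne]
    rfl

/-- **functions with prescribed logarithmic poles** -/
theorem exists_h2 [CompactSpace M] [ConnectedSpace M] [Finite A.ι] (K : Kah A) (P : Part A)
    (S : Finset M) (b : M → ℝ) :
    ∃ (h : M → ℝ) (κ : ℝ), κ * (intD P (fun i x => K.g i x 0 0)).re = -Real.pi * ∑ p ∈ S, b p ∧
      (∀ x, x ∉ S → SmN A h x) ∧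
      (∀ i, ∀ x ∈ (A.e i).source, x ∉ S → hsf A h i x 0 0 = (κ : ℂ) * K.g i x 0 0) ∧
      ∀ p ∈ S, ∀ j, p ∈ (A.e j).source → ∃ B : M → ℝ, (∀ᶠ x in 𝓝 p, SmN A B x) ∧
        ∀ᶠ x in 𝓝 p, x ≠ p → h x = b p * Real.log (rho (A.e j p) (A.e j x)) + B x := by
  classical
  have hne : Nonempty M := inferInstance
  have hch : ∀ p : M, ∃ (j : A.ι) (r : ℝ), Disc A p j r := fun p => by
    obtain ⟨j, hj⟩ := A.cover p
    obtain ⟨r, hr, -⟩ := exists_disc (U := univ) hj univ_mem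
    exact ⟨j, r, hr⟩
  choose j r hD using hch
  set q : A.ι → M → ℝ := fun i x => ∑ p ∈ S, (-b p) * dq A {p} (lgf A p (j p) (r p)) i x with hq
  have hqs : ∀ i, A.SmAt i (q i) := fun i =>
    ContDiffOn.sum fun p _ => contDiffOn_const.mul ((hD p).harm.smAt i)
  have hqd : Dn A (fun i x => (q i x : ℂ)) := by
    rw [dn_iff]
    intro i k x hx
    simp only [hq]
    push_cast
    rw [Finset.mul_sum]
    refine Finset.sum_congr rfl fun p _ => ?_
    rw [dn_iff.1 (hD p).harm.dn i k x hx]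
    push_cast
    ring
  obtain ⟨v, m, hv, he⟩ := poisson_m K P hqs hqd
  have hc := poisson_const K P hqs hv he
  have hqi : intD P (fun i x => (q i x : ℂ)) = ((Real.pi * ∑ p ∈ S, b p : ℝ) : ℂ) := by
    have h1 : intD P (fun i x => (q i x : ℂ)) = intD P (fun i x => ∑ p ∈ S,
        ((-b p : ℝ) : ℂ) * (dq A {p} (lgf A p (j p) (r p)) i x : ℂ)) := by
      refine intD_congr P fun i x _ => ?_
      simp only [hq]
      push_cast
      rfl
    rw [h1, intD_sum P S (fun p _ i => smAt_cmul _ (smAtR ((hD p).harm.smAt i)))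
      isCompact_univ (fun p _ => offK_univ _)]
    have h2 : ∀ p ∈ S, intD P (fun i x => ((-b p : ℝ) : ℂ) *
        (dq A {p} (lgf A p (j p) (r p)) i x : ℂ)) = ((Real.pi * b p : ℝ) : ℂ) := by
      intro p _
      rw [intD_smul P _ isCompact_univ (offK_univ _), (hD p).int P]
      push_cast
      ring
    rw [Finset.sum_congr rfl h2]
    push_cast
    rw [Finset.mul_sum]
  set s : M → M → ℝ := fun p => lgf A p (j p) (r p) with hs
  have hsN : ∀ p x, x ≠ p → SmN A (fun y => b p * s p y) x := fun p x hx =>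
    smN_smul (b p) ((hD p).smN hx)
  refine ⟨fun x => v x + ∑ p ∈ S, b p * s p x, -m, ?_, ?_, ?_, ?_⟩
  · rw [hqi] at hc
    have h1 := congrArg Complex.re hc
    rw [ofReal_re, Complex.re_ofReal_mul] at h1
    linarith
  · intro x hx
    refine Crest.Agent.R275.Dg199.SmN.add (sm_iff.1 hv x)
      (Crest.Agent.R275.Dg199.SmN.sum fun p hp => hsN p x ?_)
    rintro rfl
    exact hx hp
  · intro i x hx hxS
    have hxp : ∀ p ∈ S, x ≠ p := by
      rintro p hp rfl
      exact hxS hp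
    rw [hsf_addN (sm_iff.1 hv x) (Crest.Agent.R275.Dg199.SmN.sum fun p hp =>
      hsN p x (hxp p hp)) hx, hsf_sumN S (fun p hp => hsN p x (hxp p hp)) hx]
    have h1 : ∀ p ∈ S, hsf A (fun y => b p * s p y) i x =
        ((b p : ℝ) : ℂ) • hsf A (s p) i x := fun p hp =>
      hsf_smulN (b p) ((hD p).smN (hxp p hp)) hx
    rw [Finset.sum_congr rfl h1, Matrix.add_apply, Matrix.sum_apply, he i x hx]
    simp only [hq, Matrix.smul_apply, smul_eq_mul]
    have h2 : ∀ p ∈ S, ((dq A {p} (lgf A p (j p) (r p)) i x : ℝ) : ℂ) =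
        hsf A (s p) i x 0 0 := fun p hp => (hD p).harm.dqC hx (hxp p hp)
    push_cast
    have h3 : ∑ p ∈ S, -(b p : ℂ) * (dq A {p} (lgf A p (j p) (r p)) i x : ℂ) =
        -∑ p ∈ S, (b p : ℂ) * hsf A (s p) i x 0 0 := by
      rw [← Finset.sum_neg_distrib]
      refine Finset.sum_congr rfl fun p hp => ?_
      rw [h2 p hp]
      ring
    rw [h3]
    ring
  · intro p hp k hk
    -- the chart `k` versus the chart `j p`
    have hcr : Crd A p (fun x => (A.e (j p) x) 0 - (A.e (j p) p) 0) := crd_chart (hD p).src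
    obtain ⟨B, hB⟩ := hcr.log hk
    refine ⟨fun x => b p * B x + (v x + ∑ t ∈ S.erase p, b t * s t x), ?_, ?_⟩
    · have h1 : ∀ᶠ x in 𝓝 p, ∀ t ∈ S.erase p, x ≠ t := by
        rw [eventually_all_finset]
        intro t ht
        exact isOpen_compl_singleton.mem_nhds (by
          rw [mem_compl_singleton_iff]
          rintro rfl
          exact (Finset.notMem_erase _ _) ht)
      filter_upwards [hB, h1] with x h2 h3
      exact Crest.Agent.R275.Dg199.SmN.add (smN_smul (b p) h2.1)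
        (Crest.Agent.R275.Dg199.SmN.add (sm_iff.1 hv x)
          (Crest.Agent.R275.Dg199.SmN.sum fun t ht => hsN t x (h3 t ht)))
    · filter_upwards [hB, (hD p).lgf_near] with x h2 h3 h4
      have h5 := h2.2.2 h4
      have h6 : Real.log (‖(A.e (j p) x) 0 - (A.e (j p) p) 0‖ ^ 2) = s p x := h3.symm
      rw [h6] at h5
      rw [← Finset.add_sum_erase S (fun t => b t * s t x) hp]
      rw [h5]
      ring

/-! ### regularised maximum of `0` and `t` -/

/-- a constant in `[-2, -1]` -/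
def k2 : ℝ := Cmp2_101.kap (-2)

theorem k2_le : k2 ≤ -1 := by
  have h := Cmp2_101.kap_mono (show (-2 : ℝ) ≤ -1 by norm_num)
  rwa [Cmp2_101.kap_id (s := -1) le_rfl] at h

theorem le_k2 : -2 ≤ k2 := Cmp2_101.le_kap (-2)

/-- regularised maximum of `0` and `t` -/
def rg (t : ℝ) : ℝ := Cmp2_101.kap (t + k2) - k2

/-- derivative of `rg` -/
def rg1 (t : ℝ) : ℝ := Cmp2_101.th (t + k2)

theorem rg_id {t : ℝ} (h : 1 ≤ t) : rg t = t := by
  unfold rg
  rw [Cmp2_101.kap_id (by linarith [le_k2])]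
  ring

theorem rg_zero {t : ℝ} (h : t ≤ -1) : rg t = 0 := by
  unfold rg
  rw [Cmp2_101.kap_const (by linarith [k2_le])]
  exact sub_self _

theorem rg_deriv (t : ℝ) : HasDerivAt rg (rg1 t) t := by
  have h1 : HasDerivAt (fun s : ℝ => s + k2) 1 t := (hasDerivAt_id t).add_const _
  have h2 := (HasDerivAt.comp (h₂ := Cmp2_101.kap) (h := fun s : ℝ => s + k2) t
    (Cmp2_101.kap_deriv (t + k2)) h1).sub_const k2
  exact h2.congr_deriv (mul_one _)

theorem rg1_deriv (t : ℝ) : HasDerivAt rg1 (deriv Cmp2_101.th (t + k2)) t := by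
  have h1 : HasDerivAt (fun s : ℝ => s + k2) 1 t := (hasDerivAt_id t).add_const _
  have h2 := HasDerivAt.comp (h₂ := Cmp2_101.th) (h := fun s : ℝ => s + k2) t
    (Cmp2_101.th_hasDeriv (t + k2)) h1
  exact h2.congr_deriv (mul_one _)

theorem rg_sm : ContDiff ℝ ∞ rg :=
  (Cmp2_101.kap_sm.comp (contDiff_id.add contDiff_const)).sub contDiff_const

theorem rg1_nonneg (t : ℝ) : 0 ≤ rg1 t := Cmp2_101.th_nonneg _

theorem rg1_le_one (t : ℝ) : rg1 t ≤ 1 := Cmp2_101.th_le_one _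

/-- Hessian of a composition -/
theorem hsf_comp_re {φ : M → ℝ} {x : M} (hφ : SmN A φ x) {Q Q' : ℝ → ℝ} {Q'' : ℝ}
    (hQ : ContDiff ℝ ∞ Q) (h1 : ∀ t, HasDerivAt Q (Q' t) t) (h2 : HasDerivAt Q' Q'' (φ x))
    {i : A.ι} (hx : x ∈ (A.e i).source) :
    ∃ g : ℝ, 0 ≤ g ∧ (hsf A (fun y => Q (φ y)) i x 0 0).re =
      Q'' * g + Q' (φ x) * (hsf A φ i x 0 0).re := by
  have hs := (smN_iff hx).1 hφ
  have hv : φ ((A.e i).symm (A.e i x)) = φ x := by rw [(A.e i).left_inv hx]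
  have hc : ContDiffAt ℝ ∞ (fun z => Q (φ ((A.e i).symm z))) (A.e i x) :=
    hQ.contDiffAt.comp _ hs
  have h2' : HasDerivAt Q' Q'' (φ ((A.e i).symm (A.e i x))) := by rwa [hv]
  refine ⟨‖Levi_145.gr (fun z => φ ((A.e i).symm z)) (A.e i x) (EuclideanSpace.single 0 1)‖ ^ 2,
    by positivity, ?_⟩
  unfold hsf
  rw [hess_lev hc, hess_lev hs, ofReal_re, ofReal_re,
    Levi_145.lev_comp_real (u := fun z => φ ((A.e i).symm z)) (χ := Q) (χ' := Q')
      (hs.of_le (m := 2) (WithTop.coe_le_coe.2 le_top)) (Eventually.of_forall h1) h2', hv]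

/-- the local geometry at a pole -/
theorem loc_pole {h₂ : M → ℝ} {p : M} {τ : M → ℂ} (H : Crd A p τ) {a b : ℝ} (hab : a < b)
    {U : Set M} (hU : U ∈ 𝓝 p) {j : A.ι} (hj : p ∈ (A.e j).source) {B : M → ℝ}
    (hB : ∀ᶠ x in 𝓝 p, SmN A B x)
    (hh : ∀ᶠ x in 𝓝 p, x ≠ p → h₂ x = b * Real.log (rho (A.e j p) (A.e j x)) + B x) :
    ∃ (D K : Set M) (A₀ : ℝ), IsOpen D ∧ IsClosed K ∧ p ∈ D ∧ K ⊆ D ∧ D ⊆ U ∧
      (∀ x ∈ D, x ≠ p → SmN A (fun y => Real.log (‖τ y‖ ^ 2)) x ∧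
        ∀ i, x ∈ (A.e i).source → hsf A (fun y => Real.log (‖τ y‖ ^ 2)) i x 0 0 = 0) ∧
      (∀ C, A₀ ≤ C → ∀ x ∈ D, x ∉ K → 1 ≤ h₂ x - (a * Real.log (‖τ x‖ ^ 2) - C)) ∧
      ∀ C, ∀ᶠ x in 𝓝 p, x ≠ p → h₂ x - (a * Real.log (‖τ x‖ ^ 2) - C) ≤ -1 := by
  obtain ⟨Bτ, hτ⟩ := H.log hj
  have hev := hτ.and (hB.and (hh.and (Filter.Eventually.and
    (show ∀ᶠ x in 𝓝 p, x ∈ U from hU) ((A.e j).open_source.mem_nhds hj))))
  obtain ⟨V, hV, hVo, hpV⟩ := eventually_nhds_iff.1 hev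
  obtain ⟨r, hr, hrV⟩ := exists_disc hj (hVo.mem_nhds hpV)
  have hr0 := hr.hr
  -- the bound
  have hcont : ContinuousOn (fun x => B x - a * Bτ x) (dk A p j r) := by
    intro x hx
    have h1 := hV x (hrV hx)
    exact (ContinuousAt.sub h1.2.1.continuousAt
      (continuousAt_const.mul h1.1.1.continuousAt)).continuousWithinAt
  obtain ⟨b₀, hb₀⟩ := hr.cpt.exists_bound_of_continuousOn hcont
  -- the sets
  set D : Set M := (A.e j).source ∩ A.e j ⁻¹' {z | rho (A.e j p) z < (2 * r) ^ 2} with hD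
  have hDo : IsOpen D := (A.e j).isOpen_inter_preimage
    (isOpen_lt (continuous_rho _) continuous_const)
  have hDk : D ⊆ dk A p j r := fun x hx => hr.mem hx.1 (le_of_lt hx.2)
  have hr' : Disc A p j (r / 2) := ⟨by positivity, hj,
    (Metric.closedBall_subset_closedBall (by linarith)).trans hr.sub⟩
  have hKc : IsClosed (dk A p j (r / 2)) := hr'.cpt.isClosed
  have hpD : p ∈ D := ⟨hj, by
    change rho (A.e j p) (A.e j p) < _
    rw [rho_self]
    positivity⟩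
  have hKD : dk A p j (r / 2) ⊆ D := by
    intro x hx
    have hxs := hr'.ksub hx
    obtain ⟨z, hz, rfl⟩ := hx
    have hzt : z ∈ (A.e j).target := hr'.sub hz
    refine ⟨hxs, ?_⟩
    change rho (A.e j p) (A.e j ((A.e j).symm z)) < _
    rw [(A.e j).right_inv hzt, rho_eq]
    rw [Metric.mem_closedBall, dist_eq_norm] at hz
    have : 2 * (r / 2) = r := by ring
    rw [this] at hz
    have := norm_nonneg (z - A.e j p)
    nlinarith
  -- the difference
  have hdiff : ∀ C : ℝ, ∀ x ∈ dk A p j r, x ≠ p → h₂ x - (a * Real.log (‖τ x‖ ^ 2) - C) =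
      (b - a) * Real.log (rho (A.e j p) (A.e j x)) + (B x - a * Bτ x) + C := by
    intro C x hx hxp
    have h1 := hV x (hrV hx)
    rw [h1.2.2.1 hxp, h1.1.2.2 hxp]
    ring
  refine ⟨D, dk A p j (r / 2), 1 + b₀ - (b - a) * Real.log (r ^ 2), hDo, hKc, hpD, hKD,
    fun x hx => (hV x (hrV (hDk hx))).2.2.2.1, ?_, ?_, ?_⟩
  · intro x hx hxp
    have hxV := hrV (hDk hx)
    have hxs := hx.1
    have he : (fun y => Real.log (‖τ y‖ ^ 2)) =ᶠ[𝓝 x]
        fun y => Real.log (rho (A.e j p) (A.e j y)) + Bτ y := by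
      filter_upwards [hVo.mem_nhds hxV, isOpen_compl_singleton.mem_nhds hxp] with y h1 h2
      exact (hV y h1).1.2.2 h2
    have hl := hsf_logrho hj hxs hxp
    have h1 := (hV x hxV).1
    have hsm : SmN A (fun y => Real.log (‖τ y‖ ^ 2)) x := (hl.1.add h1.1).congr he
    refine ⟨hsm, fun i hi => ?_⟩
    rw [hsf_trN hsm ⟨hi, hxs⟩, hsf_congrN he hxs, hsf_addN hl.1 h1.1 hxs, Matrix.add_apply,
      hl.2, h1.2.1]
    simp
  · intro C hC x hx hxK
    have hxp : x ≠ p := by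
      rintro rfl
      exact hxK (hr'.mem hj (by rw [rho_self]; positivity))
    rw [hdiff C x (hDk hx) hxp]
    have h1 : r ^ 2 < rho (A.e j p) (A.e j x) := by
      by_contra hn
      refine hxK (hr'.mem hx.1 ?_)
      have : 2 * (r / 2) = r := by ring
      rw [this]
      exact not_lt.1 hn
    have h2 : Real.log (r ^ 2) ≤ Real.log (rho (A.e j p) (A.e j x)) :=
      Real.log_le_log (by positivity) h1.le
    have h3 := hb₀ x (hDk hx)
    rw [Real.norm_eq_abs] at h3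
    have h4 := (abs_le.1 h3).1
    have h5 : (b - a) * Real.log (r ^ 2) ≤ (b - a) * Real.log (rho (A.e j p) (A.e j x)) :=
      mul_le_mul_of_nonneg_left h2 (by linarith)
    linarith
  · intro C
    have h0 : 0 < Real.exp ((-1 - C - b₀) / (b - a)) := Real.exp_pos _
    filter_upwards [ev_rho_lt hj h0, hDo.mem_nhds hpD] with x h1 h2 h3
    rw [hdiff C x (hDk h2) h3]
    have h4 : 0 < rho (A.e j p) (A.e j x) := rho_chart_pos hj h2.1 h3
    have h5 : Real.log (rho (A.e j p) (A.e j x)) ≤ (-1 - C - b₀) / (b - a) := by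
      have := Real.log_le_log h4 h1.le
      rwa [Real.log_exp] at this
    have h6 := hb₀ x (hDk h2)
    rw [Real.norm_eq_abs] at h6
    have h7 := (abs_le.1 h6).2
    have h8 : 0 < b - a := by linarith
    have h9 : (b - a) * Real.log (rho (A.e j p) (A.e j x)) ≤ -1 - C - b₀ := by
      have := mul_le_mul_of_nonneg_left h5 h8.le
      rwa [mul_div_cancel₀ _ h8.ne'] at this
    linarith

/-- **gluing** of `h₂` with `a_p log|τ_p|² - C` -/
theorem glue (S : Finset M) (τ : M → M → ℂ) (a b : M → ℝ) (hτ : ∀ p ∈ S, Crd A p (τ p))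
    (hab : ∀ p ∈ S, a p < b p) {N : Set M} (hN : ∀ p ∈ S, N ∈ 𝓝 p) {h₂ : M → ℝ}
    (hsm : ∀ x, x ∉ S → SmN A h₂ x)
    (hps : ∀ i, ∀ x ∈ (A.e i).source, x ∉ S → 0 ≤ (hsf A h₂ i x 0 0).re)
    (hlog : ∀ p ∈ S, ∀ j, p ∈ (A.e j).source → ∃ B : M → ℝ, (∀ᶠ x in 𝓝 p, SmN A B x) ∧
        ∀ᶠ x in 𝓝 p, x ≠ p → h₂ x = b p * Real.log (rho (A.e j p) (A.e j x)) + B x) :
    ∃ A₀ : ℝ, ∀ C, A₀ ≤ C → ∃ h : M → ℝ, (∀ x, x ∉ S → SmN A h x) ∧
      (∀ p ∈ S, ∀ᶠ x in 𝓝 p, x ≠ p → h x = a p * Real.log (‖τ p x‖ ^ 2) - C) ∧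
      (∀ i, ∀ x ∈ (A.e i).source, x ∉ S → 0 ≤ (hsf A h i x 0 0).re) ∧
      ∀ x, x ∉ N → h =ᶠ[𝓝 x] h₂ := by
  classical
  obtain ⟨V, hV, hVd⟩ := (S.finite_toSet).t2_separation
  have hloc : ∀ p : M, ∃ (D K : Set M) (A₀ : ℝ), p ∈ S → IsOpen D ∧ IsClosed K ∧ p ∈ D ∧ K ⊆ D ∧
      D ⊆ V p ∩ N ∧
      (∀ x ∈ D, x ≠ p → SmN A (fun y => Real.log (‖τ p y‖ ^ 2)) x ∧
        ∀ i, x ∈ (A.e i).source → hsf A (fun y => Real.log (‖τ p y‖ ^ 2)) i x 0 0 = 0) ∧
      (∀ C, A₀ ≤ C → ∀ x ∈ D, x ∉ K → 1 ≤ h₂ x - (a p * Real.log (‖τ p x‖ ^ 2) - C)) ∧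
      ∀ C, ∀ᶠ x in 𝓝 p, x ≠ p → h₂ x - (a p * Real.log (‖τ p x‖ ^ 2) - C) ≤ -1 := by
    intro p
    by_cases hp : p ∈ S
    · obtain ⟨j, hj⟩ := A.cover p
      obtain ⟨B, h1, h2⟩ := hlog p hp j hj
      obtain ⟨D, K, A₀, h3⟩ := loc_pole (hτ p hp) (hab p hp)
        (inter_mem ((hV p).2.mem_nhds (hV p).1) (hN p hp)) hj h1 h2
      exact ⟨D, K, A₀, fun _ => h3⟩
    · exact ⟨∅, ∅, 0, fun h => absurd h hp⟩
  choose D K A₀ hL using hloc
  have hdis : ∀ p ∈ S, ∀ q ∈ S, p ≠ q → ∀ x ∈ D p, x ∉ D q := by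
    intro p hp q hq hpq x hx hx'
    have h1 := hVd hp hq hpq
    rw [Function.onFun, Set.disjoint_left] at h1
    exact h1 ((hL p hp).2.2.2.2.1 hx).1 ((hL q hq).2.2.2.2.1 hx').1
  refine ⟨∑ p ∈ S, |A₀ p|, fun C hC => ?_⟩
  have hAC : ∀ p ∈ S, A₀ p ≤ C := fun p hp =>
    (le_abs_self _).trans ((Finset.single_le_sum (f := fun q => |A₀ q|)
      (fun q _ => abs_nonneg _) hp).trans hC)
  -- the difference and the correction
  set d : M → M → ℝ := fun p x => h₂ x - (a p * Real.log (‖τ p x‖ ^ 2) - C) with hd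
  set co : M → M → ℝ := fun p x => if x ∈ D p then rg (d p x) - d p x else 0 with hco
  have hcoD : ∀ p ∈ S, ∀ x ∈ D p, co p =ᶠ[𝓝 x] fun y => rg (d p y) - d p y := by
    intro p hp x hx
    filter_upwards [(hL p hp).1.mem_nhds hx] with y hy
    rw [hco]
    simp only [if_pos hy]
  have hcoK : ∀ p ∈ S, ∀ x, x ∉ K p → co p =ᶠ[𝓝 x] fun _ => 0 := by
    intro p hp x hx
    filter_upwards [(hL p hp).2.1.isOpen_compl.mem_nhds hx] with y hy
    rw [hco]
    simp only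
    split_ifs with h1
    · have h2 := (hL p hp).2.2.2.2.2.2.1 C (hAC p hp) y h1 hy
      have h3 : rg (d p y) = d p y := rg_id h2
      rw [h3, sub_self]
    · rfl
  set h : M → ℝ := fun x => h₂ x + ∑ p ∈ S, co p x with hh
  have hfar : ∀ x, (∀ p ∈ S, x ∉ K p) → h =ᶠ[𝓝 x] h₂ := by
    intro x hx
    have h1 : ∀ᶠ y in 𝓝 x, ∀ p ∈ S, co p y = 0 := by
      rw [eventually_all_finset]
      exact fun p hp => hcoK p hp x (hx p hp)
    filter_upwards [h1] with y hy
    rw [hh]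
    simp only
    rw [Finset.sum_eq_zero hy, add_zero]
  have hnear : ∀ p ∈ S, ∀ x ∈ D p, h =ᶠ[𝓝 x] fun y =>
      (a p * Real.log (‖τ p y‖ ^ 2) - C) + rg (d p y) := by
    intro p hp x hx
    have h1 : ∀ᶠ y in 𝓝 x, ∀ q ∈ S.erase p, co q y = 0 := by
      rw [eventually_all_finset]
      intro q hq
      refine hcoK q (Finset.mem_of_mem_erase hq) x fun hxK => ?_
      exact hdis p hp q (Finset.mem_of_mem_erase hq) (Finset.ne_of_mem_erase hq).symm x hx
        ((hL q (Finset.mem_of_mem_erase hq)).2.2.2.1 hxK)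
    filter_upwards [h1, hcoD p hp x hx] with y hy hy'
    rw [hh]
    simp only
    rw [← Finset.add_sum_erase S (fun q => co q y) hp, Finset.sum_eq_zero hy, hy', add_zero, hd]
    ring
  have hloc2 : ∀ p ∈ S, ∀ x ∈ D p, x ∉ S → x ≠ p ∧ SmN A (d p) x ∧
      SmN A (fun y => a p * Real.log (‖τ p y‖ ^ 2) - C) x ∧
      ∀ i, x ∈ (A.e i).source → hsf A (fun y => a p * Real.log (‖τ p y‖ ^ 2) - C) i x 0 0 = 0 := by
    intro p hp x hx hxS
    have hxp : x ≠ p := by
      rintro rfl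
      exact hxS hp
    obtain ⟨h1, h2⟩ := (hL p hp).2.2.2.2.2.1 x hx hxp
    have h3 : SmN A (fun y => a p * Real.log (‖τ p y‖ ^ 2) - C) x :=
      (smN_smul (a p) h1).sub (smN_const C x)
    refine ⟨hxp, (hsm x hxS).sub h3, h3, fun i hi => ?_⟩
    rw [hsf_subN (smN_smul (a p) h1) (smN_const C x) hi, hsf_smulN (a p) h1 hi, hsf_const0,
      Matrix.sub_apply, Matrix.smul_apply, h2 i hi]
    simp
  refine ⟨h, ?_, ?_, ?_, ?_⟩
  · intro x hxS
    by_cases hx : ∃ p ∈ S, x ∈ K p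
    · obtain ⟨p, hp, hxK⟩ := hx
      have hxD := (hL p hp).2.2.2.1 hxK
      obtain ⟨-, h1, h2, -⟩ := hloc2 p hp x hxD hxS
      have h3 : SmN A (fun y => rg (d p y)) x := by
        obtain ⟨i, hi⟩ := A.cover x
        rw [smN_iff hi] at h1 ⊢
        exact rg_sm.contDiffAt.comp _ h1
      exact (h2.add h3).congr (hnear p hp x hxD)
    · push Not at hx
      exact (hsm x hxS).congr (hfar x hx)
  · intro p hp
    have hpD := (hL p hp).2.2.1
    filter_upwards [hnear p hp p hpD, (hL p hp).2.2.2.2.2.2.2 C] with x h1 h2 h3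
    rw [h1]
    have h4 : rg (d p x) = 0 := rg_zero (h2 h3)
    rw [h4, add_zero]
  · intro i x hx hxS
    by_cases hxk : ∃ p ∈ S, x ∈ K p
    · obtain ⟨p, hp, hxK⟩ := hxk
      have hxD := (hL p hp).2.2.2.1 hxK
      obtain ⟨hxp, h1, h2, h3⟩ := hloc2 p hp x hxD hxS
      have h4 : SmN A (fun y => rg (d p y)) x := by
        rw [smN_iff hx] at h1 ⊢
        exact rg_sm.contDiffAt.comp _ h1
      rw [hsf_congrN (hnear p hp x hxD) hx, hsf_addN h2 h4 hx, Matrix.add_apply, h3 i hx,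
        zero_add]
      obtain ⟨g, hg, he⟩ := hsf_comp_re h1 rg_sm rg_deriv (rg1_deriv (d p x)) hx
      rw [he]
      have h5 : (hsf A (d p) i x 0 0).re = (hsf A h₂ i x 0 0).re := by
        have : hsf A (d p) i x = hsf A h₂ i x -
            hsf A (fun y => a p * Real.log (‖τ p y‖ ^ 2) - C) i x := hsf_subN (hsm x hxS) h2 hx
        rw [this, Matrix.sub_apply, h3 i hx, sub_zero]
      rw [h5]
      have h6 := hps i x hx hxS
      have h7 := Cmp2_101.th_deriv_nonneg (d p x + k2)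
      have h8 := rg1_nonneg (d p x)
      positivity
    · push Not at hxk
      rw [hsf_congrN (hfar x hxk) hx]
      exact hps i x hx hxS
  · intro x hxN
    exact hfar x fun p hp hxK => hxN ((hL p hp).2.2.2.2.1 ((hL p hp).2.2.2.1 hxK)).2

/-- **(A2) weights with exact slopes and equal constants** -/
theorem exists_weight [CompactSpace M] [ConnectedSpace M] [Finite A.ι] (K : Kah A) (P : Part A)
    (S : Finset M) (τ : M → M → ℂ) (a : M → ℝ) (hτ : ∀ p ∈ S, Crd A p (τ p))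
    (ha : ∑ p ∈ S, a p < 0) {N : Set M} (hN : ∀ p ∈ S, N ∈ 𝓝 p) :
    ∃ (h₂ : M → ℝ) (κ A₀ : ℝ), 0 < κ ∧ (∀ x, x ∉ S → SmN A h₂ x) ∧
      (∀ i, ∀ x ∈ (A.e i).source, x ∉ S → hsf A h₂ i x 0 0 = (κ : ℂ) * K.g i x 0 0) ∧
      ∀ C, A₀ ≤ C → ∃ h : M → ℝ, (∀ x, x ∉ S → SmN A h x) ∧
        (∀ p ∈ S, ∀ᶠ x in 𝓝 p, x ≠ p → h x = a p * Real.log (‖τ p x‖ ^ 2) - C) ∧
        (∀ i, ∀ x ∈ (A.e i).source, x ∉ S → 0 ≤ (hsf A h i x 0 0).re) ∧
        ∀ x, x ∉ N → h =ᶠ[𝓝 x] h₂ := by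
  have hne : S.Nonempty := by
    by_contra hn
    rw [Finset.not_nonempty_iff_eq_empty] at hn
    rw [hn] at ha
    simp at ha
  have hcard : (0 : ℝ) < S.card := by exact_mod_cast hne.card_pos
  set δ : ℝ := (-∑ p ∈ S, a p) / (2 * S.card) with hδ
  have hδ0 : 0 < δ := div_pos (by linarith) (by positivity)
  have hsum : ∑ p ∈ S, (a p + δ) = (∑ p ∈ S, a p) / 2 := by
    rw [Finset.sum_add_distrib, Finset.sum_const, nsmul_eq_mul, hδ]
    field_simp
    ring
  obtain ⟨h₂, κ, h1, h2, h3, h4⟩ := exists_h2 K P S (fun p => a p + δ)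
  rw [hsum] at h1
  have hne' : Nonempty M := inferInstance
  have hvol := (int_g_pos K P).1
  have hκ : 0 < κ := by
    have h5 : 0 < κ * (intD P (fun i x => K.g i x 0 0)).re := by
      rw [h1]
      have := Real.pi_pos
      nlinarith
    exact (pos_iff_pos_of_mul_pos h5).2 hvol
  have hpos : ∀ i, ∀ x ∈ (A.e i).source, x ∉ S → 0 ≤ (hsf A h₂ i x 0 0).re := by
    intro i x hx hxS
    rw [h3 i x hx hxS, Complex.re_ofReal_mul]
    have h5 := det_re_pos (K.pos i x hx)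
    rw [det1] at h5
    positivity
  obtain ⟨A₀, hA⟩ := glue S τ a (fun p => a p + δ) hτ (fun p _ => by linarith) hN h2 hpos h4
  exact ⟨h₂, κ, A₀, hκ, h2, h3, hA⟩

end

end Crest.Agent.R257.RSA_844
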