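import Crest.Agent.R257.RSA4_844
import Crest.Agent.R273.Map_835

/-!
# R257 (S0395), part C, task RS-AN (helper844): compact Riemann surfaces, file 5

Finite groups of automorphisms.
* `j1 A p i j x`   : the derivative of a holomorphic map `p` in the charts `i`, `j`
* `HolAct A Γ`     : `Γ` acts by holomorphic maps
* `InvH`, `InvA`   : invariant `(1,0)`-, `(0,1)`-forms
* `NoH A Γ`        : there is no invariant holomorphic form `≠ 0`
* `dbar_inv`       : `α` invariant `⟹ α = ∂̄u`, `u` invariant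
-/

set_option autoImplicit false
set_option linter.unusedSectionVars false

open Set Filter Topology Complex MeasureTheory
open scoped ContDiff Matrix ComplexConjugate ComplexOrder

namespace Crest.Agent.R257.RSA_844

open Crest.Agent.R273 Crest.Agent.R275 Crest.Agent.R275.Geo Crest.Agent.R275.Core144
open Crest.Agent.R275.EDR890 Crest.Agent.R275.OmT75
open Crest.Agent.R273.Map_835
open Crest.Agent.R275.Dg199 (SmN smN_iff sm_iff ev_symm ev_chart smN_const smAt_of_smN)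

noncomputable section

variable {M : Type} [TopologicalSpace M] {A : Atl 1 M}

/-! ### holomorphic maps -/

/-- the derivative of a holomorphic map in the charts `i` (at `x`) and `j` (at `p x`) -/
def j1 (A : Atl 1 M) (p : M → M) (i j : A.ι) (x : M) : ℂ := Jp A A p i j x 0 0

variable {p q : M → M}

theorem j1_left (h : HolMap A A p) {i i' j : A.ι} {x : M}
    (hx : x ∈ (A.e i).source ∩ (A.e i').source) (hj : p x ∈ (A.e j).source) :
    j1 A p i j x = J1 A i i' x * j1 A p i' j x := by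
  have h1 := congrFun (congrFun (h.Jp_left hx hj) 0) 0
  rw [Matrix.mul_apply, Fin.sum_univ_one] at h1
  rw [mul_comm]
  exact h1.symm

theorem j1_right (h : HolMap A A p) {i j j' : A.ι} {x : M}
    (hx : x ∈ (A.e i).source) (hj : p x ∈ (A.e j).source ∩ (A.e j').source) :
    j1 A p i j' x = J1 A j j' (p x) * j1 A p i j x := by
  have h1 := congrFun (congrFun (h.Jp_right hx hj) 0) 0
  rw [Matrix.mul_apply, Fin.sum_univ_one] at h1
  exact h1.symm

theorem j1_comp (hq : HolMap A A q) (hp : HolMap A A p) {i j l : A.ι} {x : M}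
    (hx : x ∈ (A.e i).source) (hj : p x ∈ (A.e j).source) (hl : q (p x) ∈ (A.e l).source) :
    j1 A (fun y => q (p y)) i l x = j1 A p i j x * j1 A q j l (p x) := by
  have h1 := congrFun (congrFun (Jp_comp hq hp hx hj hl) 0) 0
  rw [Matrix.mul_apply, Fin.sum_univ_one] at h1
  rw [mul_comm]
  exact h1.symm

theorem j1_self {i : A.ι} {x : M} (hx : x ∈ (A.e i).source) :
    j1 A (fun y => y) i i x = 1 := J1_self i hx

theorem j1_hol (h : HolMap A A p) (i j : A.ι) :
    HolAt A i (p ⁻¹' (A.e j).source) (j1 A p i j) := h.holAt_Jp i j 0 0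

/-- a chart at `x` -/
def ch (A : Atl 1 M) (x : M) : A.ι := (A.cover x).choose

theorem mem_ch (A : Atl 1 M) (x : M) : x ∈ (A.e (ch A x)).source := (A.cover x).choose_spec

/-- `f` is holomorphic at `x` -/
def HolN (A : Atl 1 M) (f : M → ℂ) (x : M) : Prop :=
  ∀ i, x ∈ (A.e i).source → AnalyticAt ℂ (fun z => f ((A.e i).symm z)) (A.e i x)

theorem ana_trans {i j : A.ι} {x : M} (hi : x ∈ (A.e i).source) (hj : x ∈ (A.e j).source) :
    AnalyticAt ℂ (fun z => A.e j ((A.e i).symm z)) (A.e i x) :=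
  Crest.Agent.R266.SCV.analyticOnNhd_of_differentiableOn (isOpen_ov i j) (A.holo i j) _
    (mem_ov ⟨hi, hj⟩)

theorem holN_of {f : M → ℂ} {x : M} {i : A.ι} (hi : x ∈ (A.e i).source)
    (h : AnalyticAt ℂ (fun z => f ((A.e i).symm z)) (A.e i x)) : HolN A f x := by
  intro j hj
  have hv : A.e i ((A.e j).symm (A.e j x)) = A.e i x := by rw [(A.e j).left_inv hj]
  have h1 : AnalyticAt ℂ (fun z => f ((A.e i).symm z)) (A.e i ((A.e j).symm (A.e j x))) := by
    rwa [hv]
  have h2 : AnalyticAt ℂ ((fun z => f ((A.e i).symm z)) ∘ fun z => A.e i ((A.e j).symm z))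
      (A.e j x) := AnalyticAt.comp h1 (ana_trans hj hi)
  refine h2.congr ?_
  filter_upwards [(isOpen_ov (A := A) j i).mem_nhds (mem_ov ⟨hj, hi⟩)] with z hz
  simp only [Function.comp_apply]
  rw [(A.e i).left_inv hz.2]

theorem HolN.eventually {f : M → ℂ} {x : M} (h : HolN A f x) : ∀ᶠ y in 𝓝 x, HolN A f y := by
  obtain ⟨i, hi⟩ := A.cover x
  have h1 := ev_chart hi (h i hi).eventually_analyticAt
  filter_upwards [h1, (A.e i).open_source.mem_nhds hi] with y h2 h3 using holN_of h3 h2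

theorem HolN.smN {f : M → ℂ} {x : M} (h : HolN A f x) : SmN A f x := by
  obtain ⟨i, hi⟩ := A.cover x
  rw [smN_iff hi]
  exact ((h i hi).contDiffAt (n := ∞)).restrict_scalars ℝ

theorem HolN.congr {f g : M → ℂ} {x : M} (h : HolN A f x) (he : g =ᶠ[𝓝 x] f) : HolN A g x :=
  fun i hi => (h i hi).congr (ev_symm hi he.symm)

theorem HolN.mul {f g : M → ℂ} {x : M} (h : HolN A f x) (h' : HolN A g x) :
    HolN A (fun y => f y * g y) x := fun i hi => (h i hi).mul (h' i hi)

theorem HolN.inv {f : M → ℂ} {x : M} (h : HolN A f x) (h0 : f x ≠ 0) :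
    HolN A (fun y => (f y)⁻¹) x := fun i hi => (h i hi).inv (by rwa [(A.e i).left_inv hi])

theorem HolN.pow {f : M → ℂ} {x : M} (h : HolN A f x) (m : ℕ) :
    HolN A (fun y => f y ^ m) x := fun i hi => (h i hi).pow m

theorem HolN.zpow {f : M → ℂ} {x : M} (h : HolN A f x) (h0 : f x ≠ 0) (m : ℤ) :
    HolN A (fun y => f y ^ m) x := by
  cases m with
  | ofNat m => simpa using h.pow m
  | negSucc m =>
    simp only [zpow_negSucc]
    exact (h.pow (m + 1)).inv (pow_ne_zero _ h0)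

theorem holN_const (c : ℂ) (x : M) : HolN A (fun _ => c) x := fun _ _ => analyticAt_const

theorem HolN.db {f : M → ℂ} {x : M} (h : HolN A f x) {i : A.ι} (hi : x ∈ (A.e i).source) :
    A.db i 0 f x = 0 := Levi_145.dbj_holo (h i hi).differentiableAt 0

/-- smooth and `∂̄ f = 0` near `x` -/
theorem holN_of_db {f : M → ℂ} {x : M} {i : A.ι} (hi : x ∈ (A.e i).source)
    (hs : ∀ᶠ y in 𝓝 x, SmN A f y) (h0 : ∀ᶠ y in 𝓝 x, A.db i 0 f y = 0) : HolN A f x := by
  refine holN_of hi ?_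
  have h1 := ev_symm hi (hs.and (h0.and ((A.e i).open_source.mem_nhds hi)))
  have h1' := h1.and ((A.e i).open_target.mem_nhds ((A.e i).map_source hi))
  have h2 : ∀ᶠ z in 𝓝 (A.e i x), DifferentiableAt ℂ (fun z => f ((A.e i).symm z)) z := by
    filter_upwards [h1'] with z hz
    have h3 := (smN_iff hz.1.2.2).1 hz.1.1
    rw [(A.e i).right_inv hz.2] at h3
    have h5 := hz.1.2.1
    unfold Atl.db at h5
    rw [(A.e i).right_inv hz.2] at h5
    exact GeoHol912.differentiableAt_of_dbj (h3.differentiableAt (by simp)) fun k => by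
      rw [Subsingleton.elim k 0]
      exact h5
  exact Levi_145.anal_of_ev h2

/-! ### pull-back -/

theorem ev_map (h : HolMap A A p) {x : M} {Q : M → Prop} (hQ : ∀ᶠ y in 𝓝 (p x), Q y) :
    ∀ᶠ y in 𝓝 x, Q (p y) := h.cont.continuousAt.eventually hQ

theorem rd_val {i j : A.ι} {x : M} (hi : x ∈ (A.e i).source) :
    rd A A p i j (A.e i x) = A.e j (p x) := by
  simp only [Map_835.rd]
  rw [(A.e i).left_inv hi]

theorem read_map (h : HolMap A A p) {W : Type*} (f : M → W) {i j : A.ι} {x : M}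
    (hi : x ∈ (A.e i).source) (hj : p x ∈ (A.e j).source) :
    (fun z => f (p ((A.e i).symm z))) =ᶠ[𝓝 (A.e i x)]
      (fun w => f ((A.e j).symm w)) ∘ rd A A p i j := by
  filter_upwards [(h.isOpen_dm i j).mem_nhds (mem_dm hi hj)] with z hz
  simp only [Map_835.rd, Function.comp_apply]
  rw [(A.e j).left_inv hz.2]

theorem smN_map (h : HolMap A A p) {W : Type*} [NormedAddCommGroup W] [NormedSpace ℝ W]
    {f : M → W} {x : M} (hf : SmN A f (p x)) : SmN A (fun y => f (p y)) x := by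
  obtain ⟨i, hi⟩ := A.cover x
  obtain ⟨j, hj⟩ := A.cover (p x)
  rw [smN_iff hi]
  have h1 := (smN_iff hj).1 hf
  rw [← rd_val (p := p) (j := j) hi] at h1
  have h2 : ContDiffAt ℝ ∞ (rd A A p i j) (A.e i x) :=
    ((h.analyticAt (mem_dm hi hj)).contDiffAt (n := ∞)).restrict_scalars ℝ
  exact (ContDiffAt.comp (A.e i x) h1 h2).congr_of_eventuallyEq (read_map h f hi hj)

theorem holN_map (h : HolMap A A p) {f : M → ℂ} {x : M} (hf : HolN A f (p x)) :
    HolN A (fun y => f (p y)) x := by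
  obtain ⟨i, hi⟩ := A.cover x
  obtain ⟨j, hj⟩ := A.cover (p x)
  refine holN_of hi ?_
  have h1 := hf j hj
  rw [← rd_val (p := p) (j := j) hi] at h1
  exact (AnalyticAt.comp h1 (h.analyticAt (mem_dm hi hj))).congr (read_map h f hi hj).symm

theorem db_map (h : HolMap A A p) {f : M → ℂ} {i j : A.ι} {x : M} (hi : x ∈ (A.e i).source)
    (hj : p x ∈ (A.e j).source)
    (hf : DifferentiableAt ℝ (fun z => f ((A.e j).symm z)) (A.e j (p x))) :
    A.db i 0 (fun y => f (p y)) x = conj (j1 A p i j x) * A.db j 0 f (p x) := by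
  unfold Atl.db
  rw [OmT75.dbj_congr (read_map h f hi hj)]
  rw [← rd_val (p := p) (j := j) hi] at hf
  have h1 := dbj_comp (T := rd A A p i j) hf (h.diffAt (mem_dm hi hj)) 0
  rw [Fin.sum_univ_one, rd_val hi] at h1
  exact h1

/-- pull-back of `(1,0)`-forms -/
def pbH (A : Atl 1 M) (p : M → M) (θ : A.ι → M → ℂ) (i : A.ι) (x : M) : ℂ :=
  j1 A p i (ch A (p x)) x * θ (ch A (p x)) (p x)

theorem pbH_eq (h : HolMap A A p) {θ : A.ι → M → ℂ}
    (hθ : ∀ i j, ∀ x ∈ (A.e i).source ∩ (A.e j).source, θ i x = J1 A i j x * θ j x)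
    {i j : A.ι} {x : M} (hi : x ∈ (A.e i).source) (hj : p x ∈ (A.e j).source) :
    pbH A p θ i x = j1 A p i j x * θ j (p x) := by
  unfold pbH
  rw [j1_right h hi ⟨mem_ch A (p x), hj⟩, hθ (ch A (p x)) j (p x) ⟨mem_ch A (p x), hj⟩]
  ring

theorem pbH_H10 (h : HolMap A A p) {θ : A.ι → M → ℂ} (hθ : H10 A θ) : H10 A (pbH A p θ) where
  hol i := by
    refine holAt_of_local fun x hx _ => ?_
    set j := ch A (p x)
    have hj : p x ∈ (A.e j).source := mem_ch A (p x)
    refine ⟨p ⁻¹' (A.e j).source, (A.e j).open_source.preimage h.cont, hj, ?_⟩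
    have h1 : HolAt A i (p ⁻¹' (A.e j).source) (fun y => θ j (p y)) :=
      (h.comp_holAt (hθ.hol j)).mono fun y hy => ⟨mem_univ _, hy⟩
    exact ((j1_hol h i j).mul h1).congr fun y hy hyV => (pbH_eq h hθ.tr hy hyV).symm
  tr i i' x hx := by
    rw [pbH_eq h hθ.tr hx.1 (mem_ch A (p x)), pbH_eq h hθ.tr hx.2 (mem_ch A (p x)),
      j1_left h hx (mem_ch A (p x))]
    ring

/-! ### finite groups -/

/-- the group acts by holomorphic maps -/
def HolAct (A : Atl 1 M) (Γ : Type) [Group Γ] [MulAction Γ M] : Prop :=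
  ∀ γ : Γ, HolMap A A (fun x => γ • x)

/-- invariant `(1,0)`-forms -/
def InvH (A : Atl 1 M) (Γ : Type) [Group Γ] [MulAction Γ M] (θ : A.ι → M → ℂ) : Prop :=
  ∀ (γ : Γ) (i j : A.ι), ∀ x ∈ (A.e i).source, γ • x ∈ (A.e j).source →
    θ i x = Jp A A (fun y => γ • y) i j x 0 0 * θ j (γ • x)

/-- invariant `(0,1)`-forms -/
def InvA (A : Atl 1 M) (Γ : Type) [Group Γ] [MulAction Γ M] (α : A.ι → M → ℂ) : Prop :=
  ∀ (γ : Γ) (i j : A.ι), ∀ x ∈ (A.e i).source, γ • x ∈ (A.e j).source →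
    α i x = conj (Jp A A (fun y => γ • y) i j x 0 0) * α j (γ • x)

/-- there is no invariant holomorphic form -/
def NoH (A : Atl 1 M) (Γ : Type) [Group Γ] [MulAction Γ M] : Prop :=
  ∀ θ, H10 A θ → InvH A Γ θ → ∀ i, ∀ x ∈ (A.e i).source, θ i x = 0

section act

variable {Γ : Type} [Group Γ] [Fintype Γ] [MulAction Γ M]

/-- the average of a `(1,0)`-form -/
def avH (A : Atl 1 M) (Γ : Type) [Group Γ] [Fintype Γ] [MulAction Γ M] (θ : A.ι → M → ℂ)
    (i : A.ι) (x : M) : ℂ :=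
  (Fintype.card Γ : ℂ)⁻¹ * ∑ γ : Γ, pbH A (fun y => γ • y) θ i x

theorem avH_H10 (hΓ : HolAct A Γ) {θ : A.ι → M → ℂ} (hθ : H10 A θ) : H10 A (avH A Γ θ) where
  hol i := (HolAt.sum _ fun γ _ => (pbH_H10 (hΓ γ) hθ).hol i).const_mul _
  tr i j x hx := by
    unfold avH
    rw [Finset.sum_congr rfl fun γ _ => (pbH_H10 (hΓ γ) hθ).tr i j x hx, ← Finset.mul_sum]
    ring

theorem avH_inv (hΓ : HolAct A Γ) {θ : A.ι → M → ℂ} (hθ : H10 A θ) : InvH A Γ (avH A Γ θ) := by
  intro δ i j x hx hj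
  change avH A Γ θ i x = j1 A (fun y => δ • y) i j x * avH A Γ θ j (δ • x)
  unfold avH
  conv_rhs => rw [mul_left_comm, Finset.mul_sum]
  refine congrArg (fun t => (Fintype.card Γ : ℂ)⁻¹ * t) ?_
  refine (Fintype.sum_equiv (Equiv.mulRight δ) _ _ fun γ => ?_).symm
  rw [Equiv.coe_mulRight]
  have e1 : ((fun y : M => (γ * δ) • y) : M → M) = fun y => γ • (δ • y) := by
    funext y
    rw [mul_smul]
  have hl := mem_ch A (γ • (δ • x))
  rw [pbH_eq (hΓ γ) hθ.tr hj hl, e1]
  have h2 : HolMap A A (fun y : M => γ • (δ • y)) := by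
    have := hΓ (γ * δ)
    rwa [e1] at this
  rw [pbH_eq h2 hθ.tr hx hl, j1_comp (hΓ γ) (hΓ δ) hx hj hl]
  ring

theorem card_ne (Γ : Type) [Group Γ] [Fintype Γ] : (Fintype.card Γ : ℂ) ≠ 0 := by
  have : 0 < Fintype.card Γ := Fintype.card_pos
  exact_mod_cast this.ne'

/-- **(A3)** an invariant `(0,1)`-form is `∂̄` of an invariant function if there is no invariant
holomorphic form -/
theorem dbar_inv [T2Space M] [CompactSpace M] [ConnectedSpace M] [Finite A.ι] (P : Part A)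
    (hΓ : HolAct A Γ) (hno : NoH A Γ) {α : A.ι → M → ℂ} (hα : F01 A α) (hinv : InvA A Γ α) :
    ∃ u : M → ℂ, A.Sm u ∧ (∀ (γ : Γ) (x : M), u (γ • x) = u x) ∧
      ∀ i, ∀ x ∈ (A.e i).source, α i x = A.db i 0 u x := by
  obtain ⟨u₀, θ, hu₀, hθ, he⟩ := dbar_dec P hα
  have hsm : ∀ (γ : Γ) (x : M), SmN A (fun y => u₀ (γ • y)) x := fun γ x =>
    smN_map (hΓ γ) (sm_iff.1 hu₀ _)
  have hs : ∀ x, SmN A (fun y => ∑ γ : Γ, u₀ (γ • y)) x := fun x =>
    Crest.Agent.R275.Dg199.SmN.sum fun γ _ => hsm γ x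
  refine ⟨fun x => (Fintype.card Γ : ℂ)⁻¹ * ∑ γ : Γ, u₀ (γ • x), ?_, ?_, ?_⟩
  · exact sm_iff.2 fun x => (smN_const _ x).mul (hs x)
  · intro δ x
    change (Fintype.card Γ : ℂ)⁻¹ * ∑ γ : Γ, u₀ (γ • (δ • x)) = (Fintype.card Γ : ℂ)⁻¹ *
      ∑ γ : Γ, u₀ (γ • x)
    congr 1
    refine Fintype.sum_equiv (Equiv.mulRight δ) _ _ fun γ => ?_
    rw [Equiv.coe_mulRight, mul_smul]
  · intro i x hx
    have h0 := hno _ (avH_H10 hΓ hθ) (avH_inv hΓ hθ) i x hx
    have hz := (A.e i).map_source hx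
    have hd : ∀ γ : Γ, DifferentiableAt ℝ (fun z => u₀ (γ • (A.e i).symm z)) (A.e i x) := fun γ =>
      ((smN_iff hx).1 (hsm γ x)).differentiableAt (by simp)
    have hdb : A.db i 0 (fun y => (Fintype.card Γ : ℂ)⁻¹ * ∑ γ : Γ, u₀ (γ • y)) x =
        (Fintype.card Γ : ℂ)⁻¹ * ∑ γ : Γ, A.db i 0 (fun y => u₀ (γ • y)) x := by
      have h1 := dbj_sum (s := Finset.univ) (a := (0 : Fin 1))
        (f := fun (γ : Γ) z => u₀ (γ • (A.e i).symm z)) (z := A.e i x) fun γ _ => hd γ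
      unfold Atl.db
      rw [← h1]
      unfold dbj
      have h2 : HasFDerivAt (fun z => (Fintype.card Γ : ℂ)⁻¹ * ∑ γ : Γ, u₀ (γ • (A.e i).symm z))
          ((Fintype.card Γ : ℂ)⁻¹ • fderiv ℝ (fun z => ∑ γ : Γ, u₀ (γ • (A.e i).symm z))
            (A.e i x)) (A.e i x) :=
        (DifferentiableAt.fun_sum fun γ _ => hd γ).hasFDerivAt.const_mul _
      rw [h2.fderiv]
      simp only [_root_.smul_apply, smul_eq_mul]
      ring
    rw [hdb]
    -- every summand
    have h3 : ∀ γ : Γ, α i x = A.db i 0 (fun y => u₀ (γ • y)) x +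
        conj (pbH A (fun y => γ • y) θ i x) := by
      intro γ
      have hj := mem_ch A (γ • x)
      have h4 := hinv γ i (ch A (γ • x)) x hx hj
      have h5 : DifferentiableAt ℝ (fun z => u₀ ((A.e (ch A (γ • x))).symm z))
          (A.e (ch A (γ • x)) (γ • x)) :=
        ((smN_iff hj).1 (sm_iff.1 hu₀ _)).differentiableAt (by simp)
      rw [h4, db_map (hΓ γ) hx hj h5, pbH_eq (hΓ γ) hθ.tr hx hj, map_mul, he _ _ hj]
      change conj (j1 A (fun y => γ • y) i (ch A (γ • x)) x) * _ = _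
      ring
    have h6 : (Fintype.card Γ : ℂ) * α i x = ∑ γ : Γ, (A.db i 0 (fun y => u₀ (γ • y)) x +
        conj (pbH A (fun y => γ • y) θ i x)) := by
      rw [← Finset.sum_congr rfl fun γ _ => h3 γ, Finset.sum_const, Finset.card_univ,
        nsmul_eq_mul]
    rw [Finset.sum_add_distrib] at h6
    have h7 : ∑ γ : Γ, conj (pbH A (fun y => γ • y) θ i x) = 0 := by
      have h8 : ∑ γ : Γ, pbH A (fun y => γ • y) θ i x = 0 := by
        unfold avH at h0
        exact (mul_eq_zero.1 h0).resolve_left (inv_ne_zero (card_ne Γ))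
      rw [← map_sum, h8, map_zero]
    rw [h7, add_zero] at h6
    rw [← h6, ← mul_assoc, inv_mul_cancel₀ (card_ne Γ), one_mul]

end act

end

end Crest.Agent.R257.RSA_844
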