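import Crest.Agent.R257.RSA5_844

/-!
# R257 (S0395), part C, task RS-AN (helper844): compact Riemann surfaces, file 6

Divisors of degree `0`.
* `Ld A D f`    : `f` is smooth and zero-free off the support of `D`, `f = τ_p^(D p) * (unit)` near `p`
* `exists_ld`   : `∑ D = 0 ⟹ ∃ f, Ld A D f`
* `exists_mero` : (A4)
-/

set_option autoImplicit false
set_option linter.unusedSectionVars false

open Set Filter Topology Complex MeasureTheory
open scoped ContDiff Matrix ComplexConjugate ComplexOrder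

namespace Crest.Agent.R257.RSA_844

open Crest.Agent.R273 Crest.Agent.R275 Crest.Agent.R275.Geo Crest.Agent.R275.Core144
open Crest.Agent.R275.EDR890 Crest.Agent.R275.OmT75
open Crest.Agent.R273.Map_835
open Crest.Agent.R257.GBLcut_844
open Crest.Agent.R275.Dg199 (SmN smN_iff sm_iff ev_symm ev_chart smN_const smAt_of_smN)

noncomputable section

variable {M : Type} [TopologicalSpace M] {A : Atl 1 M}

/-! ### punctured neighbourhoods -/

theorem neBot_ne (A : Atl 1 M) (x : M) : (𝓝[≠] x).NeBot := by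
  obtain ⟨i, hi⟩ := A.cover x
  rw [neBot_iff]
  intro hb
  have h1 : ∀ᶠ y in 𝓝 x, y = x := by
    have h2 : ∀ᶠ y in 𝓝[≠] x, False := by rw [hb]; exact Filter.eventually_bot
    rw [eventually_nhdsWithin_iff] at h2
    filter_upwards [h2] with y hy
    by_contra hne
    exact hy hne
  have h3 : ∀ᶠ z in 𝓝 (A.e i x), z = A.e i x := by
    filter_upwards [ev_symm hi h1, (A.e i).open_target.mem_nhds ((A.e i).map_source hi)]
      with z h4 h5
    rw [← (A.e i).right_inv h5, h4]
  have h6 : ∀ᶠ z in 𝓝[≠] (A.e i x), False := by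
    rw [eventually_nhdsWithin_iff]
    filter_upwards [h3] with z hz hz'
    exact hz' hz
  have h7 : (𝓝[≠] (A.e i x)).NeBot := inferInstance
  exact h7.ne (Filter.eventually_false_iff_eq_bot.1 h6)

theorem eq_punct (A : Atl 1 M) {f g : M → ℂ} {x : M} (hf : ContinuousAt f x)
    (hg : ContinuousAt g x) (h : ∀ᶠ y in 𝓝 x, y ≠ x → f y = g y) : f =ᶠ[𝓝 x] g := by
  have := neBot_ne A x
  have h1 : f =ᶠ[𝓝[≠] x] g := by
    rw [Filter.EventuallyEq, eventually_nhdsWithin_iff]
    exact h
  have h2 : f x = g x := by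
    have a1 := (hf.tendsto.mono_left (nhdsWithin_le_nhds (s := {x}ᶜ)))
    have a2 := (hg.tendsto.mono_left (nhdsWithin_le_nhds (s := {x}ᶜ)))
    exact tendsto_nhds_unique_of_eventuallyEq a1 a2 h1
  filter_upwards [h] with y hy
  by_cases hyx : y = x
  · rw [hyx, h2]
  · exact hy hyx

/-! ### coordinates -/

theorem Crd.hol {p : M} {τ : M → ℂ} (H : Crd A p τ) : HolN A τ p := fun _ hi => (H.ana hi).1

theorem HolN.continuousAt {f : M → ℂ} {x : M} (h : HolN A f x) : ContinuousAt f x :=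
  h.smN.continuousAt

theorem Crd.ne {p : M} {τ : M → ℂ} (H : Crd A p τ) : ∀ᶠ x in 𝓝 p, x ≠ p → τ x ≠ 0 := by
  obtain ⟨j, hj⟩ := A.cover p
  obtain ⟨U, hU, h0, hf⟩ := H.fac hj
  filter_upwards [ev_chart hj (hU.continuousAt.eventually_ne h0),
    (A.e j).open_source.mem_nhds hj] with x h1 h2 h3
  have h4 := hf (A.e j x)
  rw [(A.e j).left_inv h2] at h4
  rw [h4]
  refine mul_ne_zero (fun h5 => ?_) h1
  have h6 : A.e j x = A.e j p := by
    rw [eq_smul_e (A.e j x), eq_smul_e (A.e j p), sub_eq_zero.1 h5]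
  exact h3 ((A.e j).injOn h2 hj h6)

theorem Crd.cmp {p : M} {τ τ' : M → ℂ} (H : Crd A p τ) (H' : Crd A p τ') :
    ∃ v : M → ℂ, HolN A v p ∧ v p ≠ 0 ∧ ∀ᶠ x in 𝓝 p, τ x = τ' x * v x := by
  obtain ⟨j, hj⟩ := A.cover p
  obtain ⟨U, hU, h0, hf⟩ := H.fac hj
  obtain ⟨U', hU', h0', hf'⟩ := H'.fac hj
  refine ⟨fun x => U (A.e j x) / U' (A.e j x), ?_, div_ne_zero h0 h0', ?_⟩
  · refine holN_of hj ?_
    refine (hU.div hU' h0').congr ?_
    filter_upwards [(A.e j).open_target.mem_nhds ((A.e j).map_source hj)] with z hz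
    rw [(A.e j).right_inv hz]
    rfl
  · filter_upwards [ev_chart hj (hU'.continuousAt.eventually_ne h0'),
      (A.e j).open_source.mem_nhds hj] with x h1 h2
    have h3 := hf (A.e j x)
    have h4 := hf' (A.e j x)
    rw [(A.e j).left_inv h2] at h3 h4
    rw [h3, h4]
    field_simp

theorem Crd.map {p : M} {g g' : M → M} (hg : HolMap A A g) (hg' : HolMap A A g')
    (hgg : ∀ x, g' (g x) = x) {τ : M → ℂ} (H : Crd A (g p) τ) : Crd A p (fun x => τ (g x)) where
  zero := H.zero
  ex := by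
    obtain ⟨i, hi⟩ := A.cover p
    obtain ⟨j, hj⟩ := A.cover (g p)
    obtain ⟨h1, h2⟩ := H.ana hj
    have hv := rd_val (p := g) (j := j) hi
    have hr := hg.analyticAt (mem_dm hi hj)
    rw [← hv] at h1
    refine ⟨i, hi, (AnalyticAt.comp h1 hr).congr (read_map hg τ hi hj).symm, ?_⟩
    rw [(read_map hg τ hi hj).fderiv_eq, fderiv_comp _ h1.differentiableAt hr.differentiableAt, hv,
      ContinuousLinearMap.comp_apply,
      eq_smul_e (fderiv ℂ (Map_835.rd A A g i j) (A.e i p) (EuclideanSpace.single 0 1)),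
      map_smul, smul_eq_mul]
    refine mul_ne_zero ?_ h2
    change j1 A g i j p ≠ 0
    intro h0
    have h3 := j1_comp hg' hg hi hj (l := i) (by rw [hgg]; exact hi)
    have e : (fun y => g' (g y)) = fun y => y := funext hgg
    rw [e, j1_self hi, h0, zero_mul] at h3
    exact one_ne_zero h3

/-- the coordinate of the chosen chart -/
def ct (A : Atl 1 M) (p x : M) : ℂ := (A.e (ch A p) x) 0 - (A.e (ch A p) p) 0

theorem crd_ct (A : Atl 1 M) (p : M) : Crd A p (ct A p) := crd_chart (mem_ch A p)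

theorem ev_ne {S : Finset M} [T2Space M] (p : M) : ∀ᶠ x in 𝓝 p, x ≠ p → x ∉ S := by
  classical
  have h1 : ∀ᶠ x in 𝓝 p, ∀ t ∈ S.erase p, x ≠ t := by
    rw [eventually_all_finset]
    intro t ht
    exact isOpen_compl_singleton.mem_nhds (by
      rw [mem_compl_singleton_iff]
      rintro rfl
      exact (Finset.notMem_erase _ _) ht)
  filter_upwards [h1] with x hx hxp hxS
  exact hx x (Finset.mem_erase.2 ⟨hxp, hxS⟩) rfl

/-! ### smooth functions with a divisor -/

/-- `f = ct_p ^ D * u` near `p`, `u` smooth, `u p ≠ 0` -/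
structure Rp (A : Atl 1 M) (D : ℤ) (f : M → ℂ) (p : M) (u : M → ℂ) : Prop where
  sm : ∀ᶠ x in 𝓝 p, SmN A u x
  ne : u p ≠ 0
  eq : ∀ᶠ x in 𝓝 p, x ≠ p → f x = ct A p x ^ D * u x

/-- `f` is a smooth function with the divisor `D` -/
def Ld (A : Atl 1 M) (D : M → ℤ) (f : M → ℂ) : Prop := ∀ p, ∃ u, Rp A (D p) f p u

theorem Rp.cont {D : ℤ} {f : M → ℂ} {p : M} {u : M → ℂ} (h : Rp A D f p u) :
    ContinuousAt u p := h.sm.self_of_nhds.continuousAt

theorem Rp.evne {D : ℤ} {f : M → ℂ} {p : M} {u : M → ℂ} (h : Rp A D f p u) :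
    ∀ᶠ x in 𝓝 p, u x ≠ 0 := h.cont.eventually_ne h.ne

theorem SmNinv {u : M → ℂ} {x : M} (h : SmN A u x) (h0 : u x ≠ 0) :
    SmN A (fun y => (u y)⁻¹) x := Crest.Agent.R275.Dg199.SmN.inv h h0

/-- from an arbitrary coordinate -/
theorem rp_of {D : ℤ} {f : M → ℂ} {p : M} {u τ : M → ℂ} (hτ : Crd A p τ)
    (sm : ∀ᶠ x in 𝓝 p, SmN A u x) (ne : u p ≠ 0)
    (eq : ∀ᶠ x in 𝓝 p, x ≠ p → f x = τ x ^ D * u x) : ∃ u', Rp A D f p u' := by
  obtain ⟨v, hv, hv0, hve⟩ := hτ.cmp (crd_ct A p)
  refine ⟨fun x => v x ^ D * u x, ?_, mul_ne_zero (zpow_ne_zero _ hv0) ne, ?_⟩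
  · filter_upwards [sm, hv.eventually, hv.continuousAt.eventually_ne hv0] with x h1 h2 h3
    exact (h2.zpow h3 D).smN.mul h1
  · filter_upwards [eq, hve] with x h1 h2 h3
    rw [h1 h3, h2, mul_zpow, mul_assoc]

/-- to an arbitrary coordinate -/
theorem Rp.crd {D : ℤ} {f : M → ℂ} {p : M} {u τ : M → ℂ} (h : Rp A D f p u) (hτ : Crd A p τ) :
    ∃ v : M → ℂ, HolN A v p ∧ v p ≠ 0 ∧
      ∀ᶠ x in 𝓝 p, x ≠ p → f x = τ x ^ D * (v x ^ D * u x) := by
  obtain ⟨v, hv, hv0, hve⟩ := (crd_ct A p).cmp hτ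
  refine ⟨v, hv, hv0, ?_⟩
  filter_upwards [h.eq, hve] with x h1 h2 h3
  rw [h1 h3, h2, mul_zpow, mul_assoc]

theorem Rp.mul {D D' : ℤ} {f f' : M → ℂ} {p : M} {u u' : M → ℂ} (h : Rp A D f p u)
    (h' : Rp A D' f' p u') : Rp A (D + D') (fun x => f x * f' x) p (fun x => u x * u' x) where
  sm := by
    filter_upwards [h.sm, h'.sm] with x h1 h2 using h1.mul h2
  ne := mul_ne_zero h.ne h'.ne
  eq := by
    filter_upwards [h.eq, h'.eq, (crd_ct A p).ne] with x h1 h2 h3 h4
    rw [h1 h4, h2 h4, zpow_add₀ (h3 h4)]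
    ring

theorem Rp.inv {D : ℤ} {f : M → ℂ} {p : M} {u : M → ℂ} (h : Rp A D f p u) :
    Rp A (-D) (fun x => (f x)⁻¹) p (fun x => (u x)⁻¹) where
  sm := by
    filter_upwards [h.sm, h.evne] with x h1 h2 using SmNinv h1 h2
  ne := inv_ne_zero h.ne
  eq := by
    filter_upwards [h.eq] with x h1 h4
    rw [h1 h4, mul_inv, zpow_neg]

theorem rp_one (p : M) : Rp A 0 (fun _ => 1) p (fun _ => 1) where
  sm := Eventually.of_forall fun x => smN_const 1 x
  ne := one_ne_zero
  eq := Eventually.of_forall fun x _ => by simp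

theorem Ld.mul {D D' : M → ℤ} {f f' : M → ℂ} (h : Ld A D f) (h' : Ld A D' f') :
    Ld A (fun p => D p + D' p) (fun x => f x * f' x) := fun p => by
  obtain ⟨u, hu⟩ := h p
  obtain ⟨u', hu'⟩ := h' p
  exact ⟨_, hu.mul hu'⟩

theorem Ld.inv {D : M → ℤ} {f : M → ℂ} (h : Ld A D f) :
    Ld A (fun p => -D p) (fun x => (f x)⁻¹) := fun p => by
  obtain ⟨u, hu⟩ := h p
  exact ⟨_, hu.inv⟩

theorem ld_one : Ld A (fun _ => 0) (fun _ => 1) := fun p => ⟨_, rp_one p⟩

theorem Ld.congrD {D D' : M → ℤ} {f : M → ℂ} (h : Ld A D f) (e : ∀ p, D p = D' p) : Ld A D' f :=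
  fun p => by rw [← e p]; exact h p

theorem Ld.pow {D : M → ℤ} {f : M → ℂ} (h : Ld A D f) (m : ℕ) :
    Ld A (fun p => m * D p) (fun x => f x ^ m) := by
  induction m with
  | zero => simpa using (ld_one (A := A))
  | succ m ih =>
    have h1 := (ih.mul h).congrD (D' := fun p => ((m + 1 : ℕ) : ℤ) * D p) fun p => by
      push_cast
      ring
    simpa [pow_succ] using h1

theorem Ld.zpow {D : M → ℤ} {f : M → ℂ} (h : Ld A D f) (m : ℤ) :
    Ld A (fun p => m * D p) (fun x => f x ^ m) := by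
  cases m with
  | ofNat m => simpa using h.pow m
  | negSucc m =>
    have h1 := (h.pow (m + 1)).inv.congrD (D' := fun p => Int.negSucc m * D p) fun p => by
      rw [Int.negSucc_eq]
      push_cast
      ring
    simpa [zpow_negSucc] using h1

theorem ld_prod {σ : Type*} (s : Finset σ) {D : σ → M → ℤ} {f : σ → M → ℂ}
    (h : ∀ t ∈ s, Ld A (D t) (f t)) : Ld A (fun p => ∑ t ∈ s, D t p) (fun x => ∏ t ∈ s, f t x) := by
  classical
  induction s using Finset.induction_on with
  | empty => simpa using (ld_one (A := A))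
  | insert a s ha ih =>
    have h1 := (h a (Finset.mem_insert_self a s)).mul
      (ih fun t ht => h t (Finset.mem_insert_of_mem ht))
    refine fun p => ?_
    obtain ⟨u, hu⟩ := h1 p
    refine ⟨u, ?_⟩
    simpa [Finset.sum_insert ha, Finset.prod_insert ha] using hu

/-! ### two points of a disc -/

/-- `p - q` -/
def dd (p q : M) : M → ℤ := by
  classical
  exact fun x => (if x = p then 1 else 0) - (if x = q then 1 else 0)

theorem dd_self (p x : M) : dd p p x = 0 := by
  unfold dd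
  simp

/-- `p - q` is the divisor of a smooth function -/
def Rl (A : Atl 1 M) (p q : M) : Prop := ∃ f, Ld A (dd p q) f

theorem Rl.refl (p : M) : Rl A p p := ⟨_, ld_one.congrD fun x => (dd_self p x).symm⟩

theorem Rl.symm {p q : M} (h : Rl A p q) : Rl A q p := by
  obtain ⟨f, hf⟩ := h
  exact ⟨_, hf.inv.congrD fun x => by unfold dd; ring⟩

theorem Rl.trans {p q r : M} (h : Rl A p q) (h' : Rl A q r) : Rl A p r := by
  obtain ⟨f, hf⟩ := h
  obtain ⟨f', hf'⟩ := h'
  exact ⟨_, (hf.mul hf').congrD fun x => by unfold dd; ring⟩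

/-- the ratio has positive real part -/
theorem slit_ratio {a b c z : ℂ} {r : ℝ} (ha : ‖a - c‖ < r / 4) (hb : ‖b - c‖ < r / 4)
    (hz : r ≤ ‖z - c‖) : (z - a) / (z - b) ∈ slitPlane := by
  have hr : 0 < r := by
    have := norm_nonneg (a - c)
    linarith
  have h1 : 3 / 4 * r < ‖z - b‖ := by
    have h2 : z - c = (z - b) + (b - c) := by ring
    have h3 := norm_add_le (z - b) (b - c)
    rw [← h2] at h3
    linarith
  have hne : z - b ≠ 0 := by
    intro h
    rw [h, norm_zero] at h1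
    linarith
  have h2 : ‖(z - a) / (z - b) - 1‖ < 1 := by
    have e : (z - a) / (z - b) - 1 = ((b - c) - (a - c)) / (z - b) := by
      field_simp
      ring
    rw [e, norm_div, div_lt_one (by linarith)]
    have h3 := norm_sub_le (b - c) (a - c)
    linarith
  left
  have h3 : |((z - a) / (z - b) - 1).re| < 1 := (abs_re_le_norm _).trans_lt h2
  rw [sub_re, one_re] at h3
  linarith [(abs_lt.1 h3).1]

variable [T2Space M]

/-- the function with the divisor `p - q` in a disc -/
def fpq (A : Atl 1 M) (o : M) (j : A.ι) (r : ℝ) (a b : ℂ) (x : M) : ℂ := by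
  classical
  exact if x ∈ (A.e j).source then Complex.exp ((kap (rho (A.e j o) (A.e j x) / r ^ 2) : ℝ) *
    Complex.log (((A.e j x) 0 - a) / ((A.e j x) 0 - b))) else 1

theorem fpq_src {o : M} {j : A.ι} {r : ℝ} {a b : ℂ} {x : M} (hx : x ∈ (A.e j).source) :
    fpq A o j r a b x = Complex.exp ((kap (rho (A.e j o) (A.e j x) / r ^ 2) : ℝ) *
      Complex.log (((A.e j x) 0 - a) / ((A.e j x) 0 - b))) := by
  unfold fpq
  rw [if_pos hx]

theorem fpq_near {o : M} {j : A.ι} {r : ℝ} (D : Disc A o j r) {a b : ℂ} {x : M}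
    (hx : x ∈ (A.e j).source) (h : rho (A.e j o) (A.e j x) ≤ r ^ 2) (ha : (A.e j x) 0 ≠ a)
    (hb : (A.e j x) 0 ≠ b) :
    fpq A o j r a b x = ((A.e j x) 0 - a) / ((A.e j x) 0 - b) := by
  have hr := D.hr
  rw [fpq_src hx, kap_one ((div_le_one (by positivity)).2 h), ofReal_one, one_mul,
    Complex.exp_log (div_ne_zero (sub_ne_zero.2 ha) (sub_ne_zero.2 hb))]

theorem fpq_far {o : M} {j : A.ι} {r : ℝ} (D : Disc A o j r) {a b : ℂ} {x : M}
    (hx : x ∉ dk A o j r) : fpq A o j r a b x = 1 := by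
  have hr := D.hr
  by_cases hs : x ∈ (A.e j).source
  · have h1 : (2 * r) ^ 2 < rho (A.e j o) (A.e j x) := by
      by_contra hn
      exact hx (D.mem hs (not_lt.1 hn))
    rw [fpq_src hs, kap_zero, ofReal_zero, zero_mul, Complex.exp_zero]
    rw [le_div_iff₀ (by positivity)]
    nlinarith
  · unfold fpq
    rw [if_neg hs]

/-- the coordinate function minus a constant is holomorphic on the chart -/
theorem holN_co {j : A.ι} (a : ℂ) {x : M} (hx : x ∈ (A.e j).source) :
    HolN A (fun y => (A.e j y) 0 - a) x := by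
  refine holN_of hx ?_
  have h1 : AnalyticAt ℂ (fun z : Cn 1 => z 0 - a) (A.e j x) :=
    ((EuclideanSpace.proj 0 : Cn 1 →L[ℂ] ℂ).analyticAt _).sub analyticAt_const
  refine h1.congr ?_
  filter_upwards [(A.e j).open_target.mem_nhds ((A.e j).map_source hx)] with z hz
  rw [(A.e j).right_inv hz]

theorem co_ne {j : A.ι} {x y : M} (hx : x ∈ (A.e j).source) (hy : y ∈ (A.e j).source)
    (h : x ≠ y) : (A.e j x) 0 ≠ (A.e j y) 0 := by
  intro h5
  have h6 : A.e j x = A.e j y := by
    rw [eq_smul_e (A.e j x), eq_smul_e (A.e j y), h5]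
  exact h ((A.e j).injOn hx hy h6)

theorem rl_disc {o : M} {j : A.ι} {r : ℝ} (D : Disc A o j r) {p q : M}
    (hp : p ∈ (A.e j).source) (hp' : rho (A.e j o) (A.e j p) < (r / 4) ^ 2)
    (hq : q ∈ (A.e j).source) (hq' : rho (A.e j o) (A.e j q) < (r / 4) ^ 2) : Rl A p q := by
  classical
  have hr := D.hr
  by_cases hpq : p = q
  · subst hpq
    exact Rl.refl p
  set a : ℂ := (A.e j p) 0 with ha
  set b : ℂ := (A.e j q) 0 with hb
  set c : ℂ := (A.e j o) 0 with hc
  have hac : ‖a - c‖ < r / 4 := lt_of_pow_lt_pow_left₀ 2 (by positivity) hp'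
  have hbc : ‖b - c‖ < r / 4 := lt_of_pow_lt_pow_left₀ 2 (by positivity) hq'
  have hsm4 : (r / 4) ^ 2 < r ^ 2 := by nlinarith [sq_nonneg r]
  set f := fpq A o j r a b with hf
  -- the formula near the points of the inner disc
  have hin : ∀ x ∈ (A.e j).source, rho (A.e j o) (A.e j x) < r ^ 2 →
      ∀ᶠ y in 𝓝 x, y ≠ p → y ≠ q → f y = ((A.e j y) 0 - a) * ((A.e j y) 0 - b)⁻¹ := by
    intro x hx h
    have h1 : ∀ᶠ y in 𝓝 x, rho (A.e j o) (A.e j y) < r ^ 2 :=
      ((continuous_rho (A.e j o)).continuousAt.comp ((A.e j).continuousAt hx)).eventually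
        (gt_mem_nhds h)
    filter_upwards [h1, (A.e j).open_source.mem_nhds hx] with y h2 h3 h4 h5
    rw [hf, fpq_near D h3 h2.le (co_ne h3 hp h4) (co_ne h3 hq h5), div_eq_mul_inv]
  refine ⟨f, fun x => ?_⟩
  by_cases hxp : x = p
  · subst hxp
    have e : dd x q x = 1 := by
      unfold dd
      rw [if_pos rfl, if_neg hpq]
      norm_num
    rw [e]
    have hba : a - b ≠ 0 := sub_ne_zero.2 (co_ne hp hq hpq)
    refine rp_of (τ := fun y => (A.e j y) 0 - (A.e j x) 0)
      (u := fun y => ((A.e j y) 0 - b)⁻¹) (crd_chart hp) ?_ (inv_ne_zero hba) ?_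
    · have h1 : HolN A (fun y => ((A.e j y) 0 - b)⁻¹) x := (holN_co b hp).inv hba
      exact h1.eventually.mono fun y hy => hy.smN
    · filter_upwards [hin x hp (hp'.trans hsm4), isOpen_ne.mem_nhds hpq] with y h1 h2 h3
      rw [h1 h3 h2, zpow_one]
  by_cases hxq : x = q
  · subst hxq
    have e : dd p x x = -1 := by
      unfold dd
      rw [if_neg hxp, if_pos rfl]
      norm_num
    rw [e]
    have hba : b - a ≠ 0 := sub_ne_zero.2 (co_ne hq hp hxp)
    refine rp_of (τ := fun y => (A.e j y) 0 - (A.e j x) 0)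
      (u := fun y => (A.e j y) 0 - a) (crd_chart hq) ?_ hba ?_
    · exact (holN_co a hq).eventually.mono fun y hy => hy.smN
    · filter_upwards [hin x hq (hq'.trans hsm4), isOpen_ne.mem_nhds hxp] with y h1 h2 h3
      rw [h1 h2 h3, zpow_neg_one, mul_comm]
  · have e : dd p q x = 0 := by
      unfold dd
      rw [if_neg hxp, if_neg hxq]
      norm_num
    rw [e]
    have hne : f x ≠ 0 := by
      rw [hf]
      unfold fpq
      split_ifs
      · exact Complex.exp_ne_zero _
      · exact one_ne_zero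
    refine ⟨f, ?_, hne, Eventually.of_forall fun y _ => by simp⟩
    -- smoothness off `p`, `q`
    have key : ∀ y, y ≠ p → y ≠ q → SmN A f y := by
      intro y hyp hyq
      by_cases hy : y ∈ (A.e j).source
      · by_cases hyr : rho (A.e j o) (A.e j y) < r ^ 2
        · have h1 : HolN A (fun y => ((A.e j y) 0 - a) * ((A.e j y) 0 - b)⁻¹) y :=
            (holN_co a hy).mul ((holN_co b hy).inv (sub_ne_zero.2 (co_ne hy hq hyq)))
          refine h1.smN.congr ?_
          filter_upwards [hin y hy hyr, isOpen_ne.mem_nhds hyp, isOpen_ne.mem_nhds hyq]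
            with z h2 h3 h4 using h2 h3 h4
        · rw [not_lt] at hyr
          have hz : r ≤ ‖(A.e j y) 0 - c‖ := by
            by_contra hn
            rw [not_le] at hn
            have : rho (A.e j o) (A.e j y) < r ^ 2 := by
              unfold rho
              have h0 := norm_nonneg ((A.e j y) 0 - c)
              nlinarith
            linarith
          have hsl := slit_ratio hac hbc hz
          have hbne : (A.e j y) 0 - b ≠ 0 := sub_ne_zero.2 (co_ne hy hq hyq)
          have hana : AnalyticAt ℂ (fun z : Cn 1 => Complex.log ((z 0 - a) / (z 0 - b)))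
              (A.e j y) := by
            have g1 : AnalyticAt ℂ (fun z : Cn 1 => z 0 - a) (A.e j y) :=
              ((EuclideanSpace.proj 0 : Cn 1 →L[ℂ] ℂ).analyticAt _).sub analyticAt_const
            have g2 : AnalyticAt ℂ (fun z : Cn 1 => z 0 - b) (A.e j y) :=
              ((EuclideanSpace.proj 0 : Cn 1 →L[ℂ] ℂ).analyticAt _).sub analyticAt_const
            exact (g1.div g2 hbne).clog hsl
          rw [smN_iff hy]
          have h1 : ContDiffAt ℝ ∞ (fun z : Cn 1 => Complex.log ((z 0 - a) / (z 0 - b)))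
              (A.e j y) := (hana.contDiffAt (n := ∞)).restrict_scalars ℝ
          have h2 : ContDiffAt ℝ ∞ (fun z : Cn 1 => ((kap (rho (A.e j o) z / r ^ 2) : ℝ) : ℂ))
              (A.e j y) :=
            Complex.ofRealCLM.contDiff.contDiffAt.comp _
              (kap_sm.contDiffAt.comp _ ((rho_sm _).contDiffAt.div_const _))
          have h3 := (Complex.contDiff_exp (𝕜 := ℝ) (n := ∞)).contDiffAt.comp (A.e j y) (h2.mul h1)
          refine h3.congr_of_eventuallyEq ?_
          filter_upwards [(A.e j).open_target.mem_nhds ((A.e j).map_source hy)] with z hz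
          rw [hf, fpq_src ((A.e j).map_target hz), (A.e j).right_inv hz]
          rfl
      · have h1 : y ∉ dk A o j r := fun h => hy (D.ksub h)
        refine (smN_const (A := A) (1 : ℂ) y).congr ?_
        filter_upwards [D.cpt.isClosed.isOpen_compl.mem_nhds h1] with z hz
        exact fpq_far D hz
    filter_upwards [isOpen_ne.mem_nhds hxp, isOpen_ne.mem_nhds hxq] with y h1 h2
    exact key y h1 h2

theorem rl_nhds (A : Atl 1 M) (o : M) : ∃ V ∈ 𝓝 o, ∀ p ∈ V, ∀ q ∈ V, Rl A p q := by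
  obtain ⟨j, hj⟩ := A.cover o
  obtain ⟨r, hD, -⟩ := exists_disc (U := univ) hj univ_mem
  have hr := hD.hr
  refine ⟨{x | x ∈ (A.e j).source ∧ rho (A.e j o) (A.e j x) < (r / 4) ^ 2}, ?_, ?_⟩
  · filter_upwards [ev_rho_lt hj (ε := (r / 4) ^ 2) (by positivity),
      (A.e j).open_source.mem_nhds hj] with x h1 h2 using ⟨h2, h1⟩
  · exact fun p hp q hq => rl_disc hD hp.1 hp.2 hq.1 hq.2

theorem rl_all [PreconnectedSpace M] (A : Atl 1 M) (p q : M) : Rl A p q := by
  have hcl : IsClopen {x | Rl A p x} := by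
    constructor
    · rw [← isOpen_compl_iff, isOpen_iff_mem_nhds]
      intro x hx
      obtain ⟨V, hV, h⟩ := rl_nhds A x
      filter_upwards [hV] with y hy hy'
      exact hx (Rl.trans hy' (h y hy x (mem_of_mem_nhds hV)))
    · rw [isOpen_iff_mem_nhds]
      intro x hx
      obtain ⟨V, hV, h⟩ := rl_nhds A x
      filter_upwards [hV] with y hy
      exact Rl.trans hx (h x (mem_of_mem_nhds hV) y hy)
  rcases isClopen_iff.1 hcl with h | h
  · have : p ∈ {x | Rl A p x} := Rl.refl p
    rw [h] at this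
    exact absurd this (notMem_empty _)
  · have : q ∈ {x | Rl A p x} := by rw [h]; exact mem_univ _
    exact this

/-- divisors of degree `0` are divisors of smooth functions -/
theorem exists_ld [PreconnectedSpace M] (A : Atl 1 M) (S : Finset M) (D : M → ℤ)
    (hD : ∀ p, p ∉ S → D p = 0) (h0 : ∑ p ∈ S, D p = 0) : ∃ f, Ld A D f := by
  classical
  rcases S.eq_empty_or_nonempty with hS | ⟨p₀, hp₀⟩
  · exact ⟨_, ld_one.congrD fun p => (hD p (by rw [hS]; exact Finset.notMem_empty p)).symm⟩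
  · have h1 : ∀ p : M, ∃ f, Ld A (dd p p₀) f := fun p => rl_all A p p₀
    choose f hf using h1
    refine ⟨_, (ld_prod S fun p _ => (hf p).zpow (D p)).congrD fun x => ?_⟩
    unfold dd
    simp only [mul_sub, Finset.sum_sub_distrib, mul_ite, mul_one, mul_zero]
    have e1 : (∑ p ∈ S, if x = p₀ then D p else 0) = 0 := by
      by_cases hx : x = p₀
      · simp [hx, h0]
      · simp [hx]
    have e2 : (∑ p ∈ S, if x = p then D p else 0) = D x := by
      rw [Finset.sum_ite_eq]
      split_ifs with hx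
      · rfl
      · exact (hD x hx).symm
    rw [e1, e2, sub_zero]

end

end Crest.Agent.R257.RSA_844
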