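import Crest.Agent.R257.RSA6_844

/-!
# R257 (S0395), part C, task RS-AN (helper844): compact Riemann surfaces, file 7

* `exists_mero` : (A4) meromorphic functions with a given invariant divisor of degree `0`
-/

set_option autoImplicit false
set_option linter.unusedSectionVars false

open Set Filter Topology Complex MeasureTheory
open scoped ContDiff Matrix ComplexConjugate ComplexOrder

namespace Crest.Agent.R257.RSA_844

open Crest.Agent.R273 Crest.Agent.R275 Crest.Agent.R275.Geo Crest.Agent.R275.Core144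
open Crest.Agent.R275.EDR890 Crest.Agent.R275.OmT75
open Crest.Agent.R273.Map_835
open Crest.Agent.R275.Dg199 (SmN smN_iff sm_iff ev_symm ev_chart smN_const smAt_of_smN)

noncomputable section

variable {M : Type} [TopologicalSpace M] [T2Space M] {A : Atl 1 M}

/-! ### logarithmic derivatives -/

theorem smN_diff {u : M → ℂ} {x : M} (h : SmN A u x) {i : A.ι} (hi : x ∈ (A.e i).source) :
    DifferentiableAt ℝ (fun z => u ((A.e i).symm z)) (A.e i x) :=
  ((smN_iff hi).1 h).differentiableAt (by simp)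

theorem db_mulN {u v : M → ℂ} {x : M} (hu : SmN A u x) (hv : SmN A v x) {i : A.ι}
    (hi : x ∈ (A.e i).source) :
    A.db i 0 (fun y => u y * v y) x = A.db i 0 u x * v x + u x * A.db i 0 v x :=
  db_mul (smN_diff hu hi) (smN_diff hv hi) hi

/-- multiplication with a holomorphic function does not change the logarithmic derivative -/
theorem ldb_hol {u u' g : M → ℂ} {x : M} (hu' : SmN A u' x) (hg : HolN A g x)
    (hg0 : g x ≠ 0) (h0 : u' x ≠ 0) (he : u =ᶠ[𝓝 x] fun y => g y * u' y) {i : A.ι}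
    (hi : x ∈ (A.e i).source) : A.db i 0 u x / u x = A.db i 0 u' x / u' x := by
  rw [Atl.db_congr hi he, db_mulN hg.smN hu' hi, hg.db hi, he.self_of_nhds]
  simp only
  field_simp
  ring

/-- two representations of the same function at nearby points -/
theorem Rp.near {D : M → ℤ} {S : Finset M} (hD : ∀ p, p ∉ S → D p = 0) {f : M → ℂ} {p : M}
    {u : M → ℂ} (h : Rp A (D p) f p u) : ∀ᶠ x in 𝓝 p, ∀ v, Rp A (D x) f x v → x ≠ p →
      v =ᶠ[𝓝 x] fun y => ct A p y ^ D p * u y := by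
  filter_upwards [ev_ne (S := S) p, h.sm, h.eq.eventually_nhds, (crd_ct A p).hol.eventually,
    (crd_ct A p).ne] with x h1 h2 h3 h4 h5 v hv hxp
  have hDx : D x = 0 := hD x (h1 hxp)
  have hc : HolN A (fun y => ct A p y ^ D p) x := h4.zpow (h5 hxp) _
  refine eq_punct A hv.cont (hc.continuousAt.mul h2.continuousAt) ?_
  filter_upwards [hv.eq, h3, isOpen_ne.mem_nhds hxp] with y h6 h7 h8 h9
  have h10 := h6 h9
  rw [hDx, zpow_zero, one_mul] at h10
  rw [← h10, h7 h8]

theorem Rp.uniq {D : ℤ} {f : M → ℂ} {p : M} {u v : M → ℂ} (h : Rp A D f p u)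
    (h' : Rp A D f p v) : u =ᶠ[𝓝 p] v := by
  refine eq_punct A h.cont h'.cont ?_
  filter_upwards [h.eq, h'.eq, (crd_ct A p).ne] with x h1 h2 h3 h4
  have h5 := (h1 h4).symm.trans (h2 h4)
  exact mul_left_cancel₀ (zpow_ne_zero _ (h3 h4)) h5

section ld

variable {D : M → ℤ} {f : M → ℂ}

/-- the chosen local unit -/
def un (h : Ld A D f) (p : M) : M → ℂ := (h p).choose

theorem un_rp (h : Ld A D f) (p : M) : Rp A (D p) f p (un h p) := (h p).choose_spec

/-- the form `∂̄f / f` -/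
def lf (h : Ld A D f) (i : A.ι) (x : M) : ℂ := A.db i 0 (un h x) x / un h x x

theorem lf_near {S : Finset M} (hD : ∀ p, p ∉ S → D p = 0) (h : Ld A D f) (p : M) :
    ∀ᶠ x in 𝓝 p, ∀ i, x ∈ (A.e i).source →
      lf h i x = A.db i 0 (un h p) x / un h p x := by
  filter_upwards [(un_rp h p).near hD, (un_rp h p).sm, (un_rp h p).evne,
    (crd_ct A p).hol.eventually, (crd_ct A p).ne] with x h1 h2 h3 h4 h5 i hi
  by_cases hxp : x = p
  · subst hxp
    rfl
  · exact ldb_hol h2 (h4.zpow (h5 hxp) _) (zpow_ne_zero _ (h5 hxp)) h3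
      (h1 _ (un_rp h x) hxp) hi

theorem lf_F01 {S : Finset M} (hD : ∀ p, p ∉ S → D p = 0) (h : Ld A D f) : F01 A (lf h) where
  sm i := by
    intro z hz
    refine ContDiffAt.contDiffWithinAt ?_
    have hs := (A.e i).map_target hz
    have hrz := (A.e i).right_inv hz
    set p := (A.e i).symm z with hp
    have h1 := ev_symm hs (lf_near hD h p)
    have h2 := ev_symm hs (un_rp h p).sm
    have h3 := (un_rp h p).sm.self_of_nhds
    have h4 : ContDiffAt ℝ ∞ (fun w => un h p ((A.e i).symm w)) (A.e i p) := (smN_iff hs).1 h3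
    have h5 : ContDiffAt ℝ ∞ (fun w => A.db i 0 (un h p) ((A.e i).symm w)) (A.e i p) := by
      have h6 : ContDiffAt ℝ ∞ (dbj 0 fun w => un h p ((A.e i).symm w)) (A.e i p) :=
        contDiffAt_wd h4 (true, 0)
      refine h6.congr_of_eventuallyEq ?_
      filter_upwards [(A.e i).open_target.mem_nhds ((A.e i).map_source hs)] with w hw
      unfold Atl.db
      rw [(A.e i).right_inv hw]
    have h7 : un h p ((A.e i).symm (A.e i p)) ≠ 0 := by
      rw [(A.e i).left_inv hs]
      exact (un_rp h p).ne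
    have h8 := h5.mul (h4.inv h7)
    rw [hrz] at h8 h1
    refine h8.congr_of_eventuallyEq ?_
    filter_upwards [h1, (A.e i).open_target.mem_nhds hz] with w hw hwt
    rw [hw i ((A.e i).map_target hwt), div_eq_mul_inv]
    rfl
  tr i j x hx := by
    have h3 := (un_rp h x).sm.self_of_nhds
    have h4 := db_chain (A := A) (i := i) (j := j) (x := x) (f := un h x) (smN_diff h3 hx.2) hx 0
    rw [Fin.sum_univ_one, smul_eq_mul] at h4
    unfold lf
    rw [h4]
    change conj (J1 A i j x) * _ / _ = _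
    ring

/-- the composition with an automorphism -/
theorem Rp.map {g g' : M → M} (hg : HolMap A A g) (hg' : HolMap A A g')
    (hgg : ∀ x, g' (g x) = x) {k : ℤ} {F : M → ℂ} {p : M} {u : M → ℂ} (h : Rp A k F (g p) u) :
    ∃ v : M → ℂ, HolN A v p ∧ v p ≠ 0 ∧ Rp A k (fun x => F (g x)) p (fun x => v x ^ k * u (g x)) := by
  obtain ⟨v, hv, hv0, hve⟩ := (Crd.map hg hg' hgg (crd_ct A (g p))).cmp (crd_ct A p)
  refine ⟨v, hv, hv0, ?_, mul_ne_zero (zpow_ne_zero _ hv0) h.ne, ?_⟩
  · filter_upwards [ev_map hg h.sm, hv.eventually, hv.continuousAt.eventually_ne hv0]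
      with x h1 h2 h3
    exact (h2.zpow h3 k).smN.mul (smN_map hg h1)
  · filter_upwards [ev_map hg h.eq, hve] with x h1 h2 h3
    have h4 : g x ≠ g p := fun h5 => h3 (by rw [← hgg x, h5, hgg])
    rw [h1 h4, h2, mul_zpow, mul_assoc]

theorem Ld.map {g g' : M → M} (hg : HolMap A A g) (hg' : HolMap A A g')
    (hgg : ∀ x, g' (g x) = x) (h : Ld A D f) : Ld A (fun p => D (g p)) (fun x => f (g x)) := by
  intro p
  obtain ⟨u, hu⟩ := h (g p)
  obtain ⟨v, -, -, hv⟩ := Rp.map hg hg' hgg hu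
  exact ⟨_, hv⟩

end ld

section act

variable {Γ : Type} [Group Γ] [Fintype Γ] [MulAction Γ M]

theorem lf_inv {D : M → ℤ} {f : M → ℂ} (hΓ : HolAct A Γ) (h : Ld A D f)
    (hD : ∀ (γ : Γ) p, D (γ • p) = D p) (hf : ∀ (γ : Γ) x, f (γ • x) = f x) :
    InvA A Γ (lf h) := by
  intro γ i j x hi hj
  change lf h i x = conj (j1 A (fun y => γ • y) i j x) * lf h j (γ • x)
  have h1 := un_rp h (γ • x)
  have hgg : ∀ y : M, γ⁻¹ • (γ • y) = y := fun y => inv_smul_smul γ y
  obtain ⟨v, hv, hv0, h2⟩ := Rp.map (g := fun y => γ • y) (g' := fun y => γ⁻¹ • y)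
    (hΓ γ) (hΓ γ⁻¹) hgg h1
  rw [hD γ x] at h2
  have h3 : Rp A (D x) f x (fun y => v y ^ D x * un h (γ • x) (γ • y)) := by
    have e : (fun y => f (γ • y)) = f := funext fun y => hf γ y
    rw [e] at h2
    exact h2
  have h4 := (un_rp h x).uniq h3
  have h5 : SmN A (fun y => un h (γ • x) (γ • y)) x :=
    smN_map (hΓ γ) h1.sm.self_of_nhds
  have h6 := ldb_hol h5 (hv.zpow hv0 _) (zpow_ne_zero _ hv0) h1.ne h4 hi
  unfold lf
  rw [h6, db_map (hΓ γ) hi hj (smN_diff h1.sm.self_of_nhds hj)]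
  ring

/-- **(A4)** meromorphic functions with an invariant divisor of degree `0` -/
theorem exists_mero [CompactSpace M] [ConnectedSpace M] [Finite A.ι] (P : Part A)
    (hΓ : HolAct A Γ) (hno : NoH A Γ) (S : Finset M) (hS : ∀ (γ : Γ), ∀ p ∈ S, γ • p ∈ S)
    (D : M → ℤ) (hD : ∀ (γ : Γ) p, D (γ • p) = D p) (h0 : ∑ p ∈ S, D p = 0) :
    ∃ f : M → ℂ, (∀ (γ : Γ), ∀ x, x ∉ S → f (γ • x) = f x) ∧
      (∀ x, x ∉ S → f x ≠ 0 ∧ HolN A f x) ∧
      ∀ p ∈ S, ∀ τ, Crd A p τ → ∃ u : M → ℂ, HolN A u p ∧ u p ≠ 0 ∧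
        ∀ᶠ x in 𝓝 p, x ≠ p → f x = τ x ^ ((Fintype.card Γ : ℤ) * D p) * u x := by
  classical
  -- restrict the divisor to `S`
  set D₀ : M → ℤ := fun p => if p ∈ S then D p else 0 with hD₀
  have hSγ : ∀ (γ : Γ) p, γ • p ∈ S ↔ p ∈ S := fun γ p => by
    constructor
    · intro h
      have := hS γ⁻¹ _ h
      rwa [inv_smul_smul] at this
    · exact hS γ p
  have hD₀γ : ∀ (γ : Γ) p, D₀ (γ • p) = D₀ p := fun γ p => by
    rw [hD₀]
    simp only [hSγ, hD]
  have h00 : ∑ p ∈ S, D₀ p = 0 := by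
    rw [← h0]
    exact Finset.sum_congr rfl fun p hp => by rw [hD₀]; simp only [if_pos hp]
  obtain ⟨f₀, hf₀⟩ := exists_ld A S D₀ (fun p hp => by rw [hD₀]; simp only [if_neg hp]) h00
  -- the product over the group
  set E : M → ℤ := fun p => (Fintype.card Γ : ℤ) * D₀ p with hE
  set f₁ : M → ℂ := fun x => ∏ γ : Γ, f₀ (γ • x) with hf₁
  have hES : ∀ p, p ∉ S → E p = 0 := fun p hp => by rw [hE, hD₀]; simp only [if_neg hp, mul_zero]
  have hLd : Ld A E f₁ := by
    have h1 := ld_prod (A := A) (Finset.univ : Finset Γ) (D := fun γ p => D₀ (γ • p))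
      (f := fun γ x => f₀ (γ • x)) fun γ _ =>
        Ld.map (g := fun y => γ • y) (g' := fun y => γ⁻¹ • y) (hΓ γ) (hΓ γ⁻¹)
          (fun y => inv_smul_smul γ y) hf₀
    refine h1.congrD fun p => ?_
    simp only [hD₀γ, Finset.sum_const, Finset.card_univ, hE, nsmul_eq_mul]
  have hEγ : ∀ (γ : Γ) p, E (γ • p) = E p := fun γ p => by rw [hE]; simp only [hD₀γ]
  have hf₁γ : ∀ (γ : Γ) x, f₁ (γ • x) = f₁ x := fun δ x => by
    rw [hf₁]
    refine Fintype.prod_equiv (Equiv.mulRight δ) _ _ fun γ => ?_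
    rw [Equiv.coe_mulRight, mul_smul]
  obtain ⟨v, hv, hvγ, hve⟩ := dbar_inv P hΓ hno (lf_F01 hES hLd) (lf_inv hΓ hLd hEγ hf₁γ)
  -- the local units
  set U : M → M → ℂ := fun p x => un hLd p x * Complex.exp (-v x) with hU
  have hexp : ∀ x, SmN A (fun y => Complex.exp (-v y)) x := fun x => by
    obtain ⟨i, hi⟩ := A.cover x
    rw [smN_iff hi]
    exact (Complex.contDiff_exp (𝕜 := ℝ) (n := ∞)).contDiffAt.comp _
      ((smN_iff hi).1 (sm_iff.1 hv x)).neg
  have hUsm : ∀ p, ∀ᶠ x in 𝓝 p, SmN A (U p) x := fun p => by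
    filter_upwards [(un_rp hLd p).sm] with x h1 using h1.mul (hexp x)
  have hdbexp : ∀ x i, x ∈ (A.e i).source → A.db i 0 (fun y => Complex.exp (-v y)) x =
      -A.db i 0 v x * Complex.exp (-v x) := by
    intro x i hi
    have h1 := smN_diff (sm_iff.1 hv x) hi
    have h2 : HasFDerivAt (fun z => Complex.exp (-v ((A.e i).symm z)))
        (Complex.exp (-v ((A.e i).symm (A.e i x))) •
          -fderiv ℝ (fun z => v ((A.e i).symm z)) (A.e i x)) (A.e i x) :=
      h1.hasFDerivAt.neg.cexp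
    unfold Atl.db dbj
    rw [h2.fderiv, (A.e i).left_inv hi]
    simp only [_root_.smul_apply, _root_.neg_apply, smul_eq_mul]
    ring
  have hUhol : ∀ p, ∀ᶠ x in 𝓝 p, HolN A (U p) x := by
    intro p
    obtain ⟨i, hi⟩ := A.cover p
    have h1 : ∀ᶠ x in 𝓝 p, A.db i 0 (U p) x = 0 := by
      filter_upwards [lf_near hES hLd p, (un_rp hLd p).sm, (un_rp hLd p).evne,
        (A.e i).open_source.mem_nhds hi] with x h2 h3 h4 h5
      have h6 := hve i x h5
      rw [h2 i h5] at h6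
      change A.db i 0 (fun y => un hLd p y * Complex.exp (-v y)) x = 0
      rw [db_mulN h3 (hexp x) h5, hdbexp x i h5, ← h6]
      field_simp
      ring
    exact (holN_of_db hi (hUsm p) h1).eventually
  have hU0 : ∀ p, U p p ≠ 0 := fun p => mul_ne_zero (un_rp hLd p).ne (Complex.exp_ne_zero _)
  have hRp : ∀ p, Rp A (E p) (fun x => f₁ x * Complex.exp (-v x)) p (U p) := fun p => by
    refine ⟨hUsm p, hU0 p, ?_⟩
    filter_upwards [(un_rp hLd p).eq] with x h1 h2
    rw [h1 h2, mul_assoc]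
  -- the function
  refine ⟨fun x => U x x, ?_, ?_, ?_⟩
  · intro γ x hx
    have h1 := hRp (γ • x)
    obtain ⟨w, hw, hw0, h2⟩ := Rp.map (g := fun y => γ • y) (g' := fun y => γ⁻¹ • y)
      (hΓ γ) (hΓ γ⁻¹) (fun y => inv_smul_smul γ y) h1
    rw [hEγ γ x] at h2
    have e : (fun y => f₁ (γ • y) * Complex.exp (-v (γ • y))) =
        fun y => f₁ y * Complex.exp (-v y) := funext fun y => by rw [hf₁γ, hvγ]
    rw [e] at h2
    have h3 := ((hRp x).uniq h2).self_of_nhds
    simp only at h3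
    rw [hES x hx, zpow_zero, one_mul] at h3
    exact h3.symm
  · intro x hx
    refine ⟨hU0 x, (hUhol x).self_of_nhds.congr ?_⟩
    filter_upwards [(hRp x).near hES] with y h1
    by_cases hyx : y = x
    · rw [hyx]
    · have h2 := (h1 (U y) (hRp y) hyx).self_of_nhds
      simp only at h2
      rw [h2, hES x hx, zpow_zero, one_mul]
  · intro p hp τ hτ
    obtain ⟨w, hw, hw0, hwe⟩ := (crd_ct A p).cmp hτ
    have hEp : E p = (Fintype.card Γ : ℤ) * D p := by
      rw [hE, hD₀]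
      simp only [if_pos hp]
    refine ⟨fun x => w x ^ E p * U p x, (hw.zpow hw0 _).mul (hUhol p).self_of_nhds,
      mul_ne_zero (zpow_ne_zero _ hw0) (hU0 p), ?_⟩
    filter_upwards [(hRp p).near hES, hwe] with x h1 h2 h3
    have h4 := (h1 (U x) (hRp x) h3).self_of_nhds
    simp only at h4
    rw [h4, h2, mul_zpow, hEp]
    ring

end act

end

end Crest.Agent.R257.RSA_844
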