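import Crest.Agent.R257.RSA_176

/-!
# Row 257, part C, compactification of a finite covering of `ℂ ∖ S` (helper176), file B

`Cp T = X ∪ ends`, its topology and its charts (`secCh`: local sections, coordinate `pr`;
`endCh i`: the disc `D i` at the end `i`, coordinate `τ`).
-/

set_option autoImplicit false
set_option linter.unusedSectionVars false

open Set Filter Topology Metric

noncomputable section

namespace Crest.Agent.R257.RS_176

lemma hasStrictDerivAt_endPr (c : Option ℂ) {m : ℕ} (hm : 0 < m) {τ : ℂ} (hτ : τ ≠ 0) :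
    ∃ d ≠ 0, HasStrictDerivAt (endPr c m) d τ := by
  have h1 : HasStrictDerivAt (fun τ : ℂ => τ ^ m) ((m : ℂ) * τ ^ (m - 1)) τ :=
    hasStrictDerivAt_pow m τ
  have h0 : (m : ℂ) * τ ^ (m - 1) ≠ 0 :=
    mul_ne_zero (by exact_mod_cast hm.ne') (pow_ne_zero _ hτ)
  cases c with
  | none =>
    have h2 := (hasStrictDerivAt_inv (pow_ne_zero m hτ)).comp τ h1
    exact ⟨_, mul_ne_zero (neg_ne_zero.2 (inv_ne_zero (pow_ne_zero _ (pow_ne_zero _ hτ)))) h0, h2⟩
  | some a => exact ⟨_, h0, h1.const_add a⟩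

lemma map_nhds_endPr (c : Option ℂ) {m : ℕ} (hm : 0 < m) {τ : ℂ} (hτ : τ ≠ 0) :
    map (endPr c m) (𝓝 τ) = 𝓝 (endPr c m τ) := by
  obtain ⟨d, hd, h⟩ := hasStrictDerivAt_endPr c hm hτ
  exact h.map_nhds_eq hd

/-- a chart from a parametrisation -/
def mkCh {M : Type*} [TopologicalSpace M] (f : ℂ → M) (s : Set ℂ) (hs : IsOpen s)
    (hinj : InjOn f s) (hmap : ∀ z ∈ s, map f (𝓝 z) = 𝓝 (f z)) : OpenPartialHomeomorph M ℂ :=
  (OpenPartialHomeomorph.ofContinuousOpenRestrict (hinj.toPartialEquiv f s)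
    (fun z hz => (show ContinuousAt f z from (hmap z hz).le).continuousWithinAt)
    (by
      have : IsOpenMap (s.domRestrict f) := by
        rw [isOpenMap_iff_nhds_le]
        intro z
        have h1 : map (s.domRestrict f) (𝓝 z) = map f (map ((↑) : s → ℂ) (𝓝 z)) := by
          rw [Filter.map_map]; rfl
        rw [h1, hs.isOpenEmbedding_subtypeVal.map_nhds_eq, hmap _ z.2]
        exact le_rfl
      exact this) hs).symm

section mkCh

variable {M : Type*} [TopologicalSpace M] {f : ℂ → M} {s : Set ℂ} {hs : IsOpen s}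
    {hinj : InjOn f s} {hmap : ∀ z ∈ s, map f (𝓝 z) = 𝓝 (f z)}

@[simp] lemma mkCh_symm : ⇑(mkCh f s hs hinj hmap).symm = f := rfl

@[simp] lemma mkCh_target : (mkCh f s hs hinj hmap).target = s := rfl

@[simp] lemma mkCh_source : (mkCh f s hs hinj hmap).source = f '' s := rfl

lemma mkCh_apply {z : ℂ} (hz : z ∈ s) : mkCh f s hs hinj hmap (f z) = z := by
  have := (mkCh f s hs hinj hmap).right_inv (x := z) hz
  simpa using this

end mkCh

namespace Srf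

variable {X : Type} [TopologicalSpace X] (T : Srf X)

/-- a continuous lift of an open map is open -/
lemma map_nhds_lift [T2Space X] {g : ℂ → X} {p : ℂ → ℂ} {z : ℂ} (hg : ContinuousAt g z)
    (hp : ∀ᶠ y in 𝓝 z, T.pr (g y) = p y) (hm : map p (𝓝 z) = 𝓝 (p z)) :
    map g (𝓝 z) = 𝓝 (g z) := by
  have hz : T.pr (g z) = p z := hp.self_of_nhds
  obtain ⟨r, hr, σ, h1, h2, h3, h4⟩ := T.sec (p z) (by rw [← hz]; exact T.pr_notMem _)
  obtain ⟨j, hj⟩ := h4 (g z) (by rw [hz]; exact mem_ball_self hr)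
  rw [hz] at hj
  have hnb := section_image_nhds h1 h2 h3 h4 j (mem_ball_self hr)
  rw [hj] at hnb
  have hσ : map (σ j) (𝓝 (p z)) = 𝓝 (g z) := by
    apply le_antisymm
    · have : ContinuousAt (σ j) (p z) := (h1 j).continuousAt (ball_mem_nhds _ hr)
      have h := this.tendsto
      rwa [hj] at h
    · intro u hu
      have h5 : ∀ᶠ y in 𝓝 (g z), σ j (T.pr y) ∈ u := by
        have hc : ContinuousAt T.pr (g z) := T.contPr.continuousAt
        have h := hc.tendsto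
        rw [hz] at h
        exact h.eventually hu
      filter_upwards [h5, hnb] with y hy1 hy2
      rwa [hy2.2] at hy1
  have hev : g =ᶠ[𝓝 z] fun y => σ j (p y) := by
    filter_upwards [hg.eventually hnb, hp] with y hy1 hy2
    rw [← hy2, hy1.2]
  rw [Filter.map_congr hev]
  change map (σ j ∘ p) (𝓝 z) = _
  rw [← Filter.map_map, hm, hσ]

/-- the punctured parameter disc -/
def Pn : Set ℂ := {τ | 0 < ‖τ‖ ∧ ‖τ‖ < T.ε}

lemma isOpen_Pn : IsOpen T.Pn := by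
  have h1 : IsOpen {τ : ℂ | 0 < ‖τ‖} := isOpen_lt continuous_const continuous_norm
  have h2 : IsOpen {τ : ℂ | ‖τ‖ < T.ε} := isOpen_lt continuous_norm continuous_const
  exact h1.inter h2

lemma map_nhds_γ [T2Space X] (i : T.ι) {τ : ℂ} (hτ : τ ∈ T.Pn) :
    map (T.γ i) (𝓝 τ) = 𝓝 (T.γ i τ) := by
  have hne : τ ≠ 0 := norm_pos_iff.1 hτ.1
  refine T.map_nhds_lift (p := endPr (T.c i) (T.m i))
    ((T.γ_cont i).continuousAt (T.isOpen_Pn.mem_nhds hτ)) ?_
    (map_nhds_endPr _ (T.mpos i) hne)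
  filter_upwards [T.isOpen_Pn.mem_nhds hτ] with y hy
  exact T.pr_γ i y hy.1 hy.2

/-- the compactification -/
def Cp (T : Srf X) : Type := X ⊕ T.ι

/-- the inclusion of `X` -/
def jn (x : X) : T.Cp := Sum.inl x

/-- the ends -/
def en (i : T.ι) : T.Cp := Sum.inr i

lemma jn_injective : Function.Injective T.jn := Sum.inl_injective

lemma en_injective : Function.Injective T.en := Sum.inr_injective

lemma jn_ne_en (x : X) (i : T.ι) : T.jn x ≠ T.en i := Sum.inl_ne_inr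

lemma cases (p : T.Cp) : (∃ x, p = T.jn x) ∨ ∃ i, p = T.en i := by
  rcases p with x | i
  · exact Or.inl ⟨x, rfl⟩
  · exact Or.inr ⟨i, rfl⟩

instance : TopologicalSpace T.Cp where
  IsOpen U := IsOpen (T.jn ⁻¹' U) ∧
    ∀ i, T.en i ∈ U → ∃ δ > 0, ∀ τ : ℂ, 0 < ‖τ‖ → ‖τ‖ < δ → T.jn (T.γ i τ) ∈ U
  isOpen_univ := ⟨isOpen_univ, fun _ _ => ⟨1, one_pos, fun _ _ _ => trivial⟩⟩
  isOpen_inter := by
    rintro U V ⟨h1, h2⟩ ⟨h3, h4⟩
    refine ⟨h1.inter h3, fun i hi => ?_⟩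
    obtain ⟨δ, hδ, h5⟩ := h2 i hi.1
    obtain ⟨δ', hδ', h6⟩ := h4 i hi.2
    exact ⟨min δ δ', lt_min hδ hδ', fun τ h7 h8 => ⟨h5 τ h7 (h8.trans_le (min_le_left _ _)),
      h6 τ h7 (h8.trans_le (min_le_right _ _))⟩⟩
  isOpen_sUnion := by
    intro s hs
    refine ⟨?_, fun i hi => ?_⟩
    · rw [preimage_sUnion]
      exact isOpen_biUnion fun U hU => (hs U hU).1
    · obtain ⟨U, hU, hi⟩ := hi
      obtain ⟨δ, hδ, h5⟩ := (hs U hU).2 i hi
      exact ⟨δ, hδ, fun τ h7 h8 => ⟨U, hU, h5 τ h7 h8⟩⟩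

variable {T} in
lemma isOpen_Cp {U : Set T.Cp} : IsOpen U ↔ IsOpen (T.jn ⁻¹' U) ∧
    ∀ i, T.en i ∈ U → ∃ δ > 0, ∀ τ : ℂ, 0 < ‖τ‖ → ‖τ‖ < δ → T.jn (T.γ i τ) ∈ U := Iff.rfl

lemma isOpenEmbedding_jn : IsOpenEmbedding T.jn := by
  refine IsOpenEmbedding.of_continuous_injective_isOpenMap ?_ T.jn_injective ?_
  · exact ⟨fun U hU => hU.1⟩
  · intro V hV
    refine isOpen_Cp.2 ⟨?_, fun i hi => ?_⟩
    · rwa [preimage_image_eq _ T.jn_injective]
    · obtain ⟨x, -, hx⟩ := hi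
      exact absurd hx (T.jn_ne_en x i)

open Classical in
/-- the disc at the end `i` -/
def D (i : T.ι) (τ : ℂ) : T.Cp := if τ = 0 then T.en i else T.jn (T.γ i τ)

@[simp] lemma D_zero (i : T.ι) : T.D i 0 = T.en i := by simp [D]

lemma D_of_ne (i : T.ι) {τ : ℂ} (h : τ ≠ 0) : T.D i τ = T.jn (T.γ i τ) := by simp [D, h]

lemma D_eq_iff {i i' : T.ι} {τ τ' : ℂ} (h : τ ∈ ball (0 : ℂ) T.ε) (h' : τ' ∈ ball (0 : ℂ) T.ε)
    (he : T.D i τ = T.D i' τ') : i = i' ∧ τ = τ' := by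
  rw [mem_ball_zero_iff] at h h'
  by_cases h0 : τ = 0
  · by_cases h0' : τ' = 0
    · subst h0; subst h0'
      simp only [D_zero] at he
      exact ⟨T.en_injective he, rfl⟩
    · rw [h0, D_zero, T.D_of_ne i' h0'] at he
      exact absurd he.symm (T.jn_ne_en _ _)
  · by_cases h0' : τ' = 0
    · rw [h0', D_zero, T.D_of_ne i h0] at he
      exact absurd he (T.jn_ne_en _ _)
    · rw [T.D_of_ne i h0, T.D_of_ne i' h0'] at he
      exact T.γ_inj i i' τ τ' (norm_pos_iff.2 h0) h (norm_pos_iff.2 h0') h' (T.jn_injective he)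

lemma injOn_D (i : T.ι) : InjOn (T.D i) (ball 0 T.ε) := fun _ h _ h' he =>
  (T.D_eq_iff h h' he).2

lemma isOpen_D_image [T2Space X] (i : T.ι) {δ : ℝ} (hδ : δ ≤ T.ε) :
    IsOpen (T.D i '' ball 0 δ) := by
  refine isOpen_Cp.2 ⟨?_, fun i' hi' => ?_⟩
  · rw [isOpen_iff_mem_nhds]
    rintro x ⟨τ, hτ, hx⟩
    rw [mem_ball_zero_iff] at hτ
    have h0 : τ ≠ 0 := by
      rintro rfl
      rw [D_zero] at hx
      exact T.jn_ne_en x i hx.symm
    rw [T.D_of_ne i h0] at hx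
    have hx' : T.γ i τ = x := T.jn_injective hx
    have hP : τ ∈ T.Pn := ⟨norm_pos_iff.2 h0, hτ.trans_le hδ⟩
    rw [← hx', ← T.map_nhds_γ i hP]
    have hnb : {y : ℂ | y ≠ 0 ∧ y ∈ ball (0 : ℂ) δ} ∈ 𝓝 τ :=
      (isOpen_ne.inter isOpen_ball).mem_nhds ⟨h0, mem_ball_zero_iff.2 hτ⟩
    rw [Filter.mem_map]
    filter_upwards [hnb] with y hy
    exact ⟨y, hy.2, T.D_of_ne i hy.1⟩
  · obtain ⟨τ, hτ, hx⟩ := hi'
    have h0 : τ = 0 := by
      by_contra h0
      rw [T.D_of_ne i h0] at hx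
      exact T.jn_ne_en _ _ hx
    subst h0
    rw [D_zero] at hx
    have hi : i = i' := T.en_injective hx
    subst hi
    have hδ0 : 0 < δ := by simpa using hτ
    exact ⟨δ, hδ0, fun τ h1 h2 => ⟨τ, mem_ball_zero_iff.2 h2,
      T.D_of_ne i (norm_pos_iff.1 h1)⟩⟩

lemma map_nhds_D [T2Space X] (i : T.ι) {τ : ℂ} (hτ : τ ∈ ball (0 : ℂ) T.ε) :
    map (T.D i) (𝓝 τ) = 𝓝 (T.D i τ) := by
  by_cases h0 : τ = 0
  · subst h0
    rw [D_zero]
    apply le_antisymm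
    · intro U hU
      obtain ⟨V, hVU, hV, hi⟩ := mem_nhds_iff.1 hU
      obtain ⟨δ, hδ, h1⟩ := (isOpen_Cp.1 hV).2 i hi
      rw [Filter.mem_map]
      filter_upwards [ball_mem_nhds (0 : ℂ) hδ] with y hy
      rw [mem_ball_zero_iff] at hy
      apply hVU
      by_cases hy0 : y = 0
      · rw [hy0, D_zero]; exact hi
      · rw [T.D_of_ne i hy0]
        exact h1 y (norm_pos_iff.2 hy0) hy
    · intro U hU
      obtain ⟨δ, hδ, h1⟩ := Metric.mem_nhds_iff.1 hU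
      have hδ' : 0 < min δ T.ε := lt_min hδ T.εpos
      have h2 := T.isOpen_D_image i (min_le_right δ T.ε)
      refine mem_nhds_iff.2 ⟨_, ?_, h2, ⟨0, mem_ball_self hδ', T.D_zero i⟩⟩
      rintro _ ⟨y, hy, rfl⟩
      exact h1 (ball_subset_ball (min_le_left _ _) hy)
  · rw [mem_ball_zero_iff] at hτ
    have hP : τ ∈ T.Pn := ⟨norm_pos_iff.2 h0, hτ⟩
    have hev : T.D i =ᶠ[𝓝 τ] fun y => T.jn (T.γ i y) := by
      filter_upwards [isOpen_ne.mem_nhds h0] with y hy using T.D_of_ne i hy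
    rw [Filter.map_congr hev]
    change map (T.jn ∘ T.γ i) (𝓝 τ) = _
    rw [← Filter.map_map, T.map_nhds_γ i hP, T.isOpenEmbedding_jn.map_nhds_eq, T.D_of_ne i h0]

/-- the chart at the end `i` -/
def endCh [T2Space X] (i : T.ι) : OpenPartialHomeomorph T.Cp ℂ :=
  mkCh (T.D i) (ball 0 T.ε) isOpen_ball (T.injOn_D i) fun _ h => T.map_nhds_D i h

/-- a local section -/
structure SecD where
  w : ℂ
  r : ℝ
  s : ℂ → X
  cont : ContinuousOn s (ball w r)
  sec : ∀ z ∈ ball w r, T.pr (s z) = z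

lemma map_nhds_sec [T2Space X] (s : T.SecD) {z : ℂ} (hz : z ∈ ball s.w s.r) :
    map s.s (𝓝 z) = 𝓝 (s.s z) := by
  refine T.map_nhds_lift (p := id) (s.cont.continuousAt (isOpen_ball.mem_nhds hz)) ?_ (by simp)
  filter_upwards [isOpen_ball.mem_nhds hz] with y hy using s.sec y hy

lemma map_nhds_jsec [T2Space X] (s : T.SecD) {z : ℂ} (hz : z ∈ ball s.w s.r) :
    map (fun z => T.jn (s.s z)) (𝓝 z) = 𝓝 (T.jn (s.s z)) := by
  change map (T.jn ∘ s.s) (𝓝 z) = _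
  rw [← Filter.map_map, T.map_nhds_sec s hz, T.isOpenEmbedding_jn.map_nhds_eq]

lemma injOn_jsec (s : T.SecD) : InjOn (fun z => T.jn (s.s z)) (ball s.w s.r) := by
  intro z hz z' hz' h
  have := congrArg T.pr (T.jn_injective h)
  rwa [s.sec z hz, s.sec z' hz'] at this

/-- the chart of a local section -/
def secCh [T2Space X] (s : T.SecD) : OpenPartialHomeomorph T.Cp ℂ :=
  mkCh (fun z => T.jn (s.s z)) (ball s.w s.r) isOpen_ball (T.injOn_jsec s)
    fun _ h => T.map_nhds_jsec s h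

/-- every point lies on a local section -/
lemma exists_secD (x : X) : ∃ s : T.SecD, 0 < s.r ∧ s.w = T.pr x ∧ s.s (T.pr x) = x := by
  obtain ⟨r, hr, σ, h1, h2, h3, h4⟩ := T.sec (T.pr x) (T.pr_notMem x)
  obtain ⟨j, hj⟩ := h4 x (mem_ball_self hr)
  exact ⟨⟨T.pr x, r, σ j, h1 j, h2 j⟩, hr, rfl, hj⟩

end Srf

end Crest.Agent.R257.RS_176
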