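import Crest.Agent.R257.RSB_176

/-!
# Row 257, part C, compactification of a finite covering of `ℂ ∖ S` (helper176), file C

`Cp T` is Hausdorff, compact, connected.
-/

set_option autoImplicit false
set_option linter.unusedSectionVars false

open Set Filter Topology Metric

noncomputable section

namespace Crest.Agent.R257.RS_176

lemma endPr_away (c : Option ℂ) {m : ℕ} (hm : 0 < m) {z : ℂ} (hz : ∀ a, c = some a → z ≠ a) :
    ∃ δ > 0, ∃ ρ > 0, ∀ τ : ℂ, 0 < ‖τ‖ → ‖τ‖ < δ → ρ ≤ ‖endPr c m τ - z‖ := by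
  cases c with
  | none =>
    refine ⟨min 1 (‖z‖ + 1)⁻¹, lt_min one_pos (by positivity), 1, one_pos, fun τ h1 h2 => ?_⟩
    have h3 : ‖τ‖ < 1 := h2.trans_le (min_le_left _ _)
    have h4 : ‖τ‖ < (‖z‖ + 1)⁻¹ := h2.trans_le (min_le_right _ _)
    have h5 : ‖τ‖ ^ m ≤ ‖τ‖ := pow_le_of_le_one h1.le h3.le hm.ne'
    have h6 : 0 < ‖τ‖ ^ m := pow_pos h1 m
    have h7 : ‖z‖ + 1 ≤ (‖τ‖ ^ m)⁻¹ := by
      rw [le_inv_comm₀ (by positivity) h6]
      exact h5.trans h4.le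
    have h8 : ‖endPr none m τ‖ = (‖τ‖ ^ m)⁻¹ := by simp [endPr]
    have h9 := norm_sub_norm_le (endPr none m τ) z
    linarith
  | some a =>
    have hza : z ≠ a := hz a rfl
    have hd : 0 < ‖z - a‖ := norm_pos_iff.2 (sub_ne_zero.2 hza)
    refine ⟨min 1 (‖z - a‖ / 2), lt_min one_pos (by positivity), ‖z - a‖ / 2, by positivity,
      fun τ h1 h2 => ?_⟩
    have h3 : ‖τ‖ < 1 := h2.trans_le (min_le_left _ _)
    have h4 : ‖τ‖ < ‖z - a‖ / 2 := h2.trans_le (min_le_right _ _)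
    have h5 : ‖τ‖ ^ m ≤ ‖τ‖ := pow_le_of_le_one h1.le h3.le hm.ne'
    have h6 : endPr (some a) m τ - z = τ ^ m - (z - a) := by simp [endPr]; ring
    rw [h6]
    have h7 := norm_sub_norm_le (z - a) (τ ^ m)
    rw [norm_sub_rev (z - a) (τ ^ m), norm_pow] at h7
    linarith

namespace Srf

variable {X : Type} [TopologicalSpace X] (T : Srf X)

lemma sep_jn_en [T2Space X] (x : X) (i : T.ι) : ∃ U V : Set T.Cp, IsOpen U ∧ IsOpen V ∧
    T.jn x ∈ U ∧ T.en i ∈ V ∧ Disjoint U V := by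
  obtain ⟨δ, hδ, ρ, hρ, h⟩ := endPr_away (T.c i) (T.mpos i) (z := T.pr x)
    (fun a ha hx => T.pr_notMem x (hx ▸ T.c_mem i a ha))
  have hδ' : 0 < min δ T.ε := lt_min hδ T.εpos
  refine ⟨T.jn '' (T.pr ⁻¹' ball (T.pr x) ρ), T.D i '' ball 0 (min δ T.ε),
    T.isOpenEmbedding_jn.isOpenMap _ (isOpen_ball.preimage T.contPr),
    T.isOpen_D_image i (min_le_right _ _), ⟨x, mem_ball_self hρ, rfl⟩,
    ⟨0, mem_ball_self hδ', T.D_zero i⟩, ?_⟩
  rw [Set.disjoint_left]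
  rintro _ ⟨y, hy, rfl⟩ ⟨τ, hτ, hτy⟩
  rw [mem_ball_zero_iff] at hτ
  have h0 : τ ≠ 0 := by
    rintro rfl
    rw [D_zero] at hτy
    exact T.jn_ne_en y i hτy.symm
  rw [T.D_of_ne i h0] at hτy
  have h1 : T.γ i τ = y := T.jn_injective hτy
  have h2 := h τ (norm_pos_iff.2 h0) (hτ.trans_le (min_le_left _ _))
  rw [← T.pr_γ i τ (norm_pos_iff.2 h0) (hτ.trans_le (min_le_right _ _)), h1] at h2
  have h3 : dist (T.pr y) (T.pr x) < ρ := hy
  rw [dist_eq_norm] at h3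
  linarith

instance [T2Space X] : T2Space T.Cp := by
  refine ⟨fun p q hpq => ?_⟩
  rcases T.cases p with ⟨x, rfl⟩ | ⟨i, rfl⟩ <;> rcases T.cases q with ⟨y, rfl⟩ | ⟨j, rfl⟩
  · have hxy : x ≠ y := fun h => hpq (congrArg _ h)
    obtain ⟨U, V, hU, hV, hx, hy, hd⟩ := t2_separation hxy
    exact ⟨T.jn '' U, T.jn '' V, T.isOpenEmbedding_jn.isOpenMap _ hU,
      T.isOpenEmbedding_jn.isOpenMap _ hV, ⟨x, hx, rfl⟩, ⟨y, hy, rfl⟩,
      (disjoint_image_iff T.jn_injective).2 hd⟩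
  · exact T.sep_jn_en x j
  · obtain ⟨U, V, hU, hV, hx, hy, hd⟩ := T.sep_jn_en y i
    exact ⟨V, U, hV, hU, hy, hx, hd.symm⟩
  · refine ⟨T.D i '' ball 0 T.ε, T.D j '' ball 0 T.ε, T.isOpen_D_image i le_rfl,
      T.isOpen_D_image j le_rfl, ⟨0, mem_ball_self T.εpos, T.D_zero i⟩,
      ⟨0, mem_ball_self T.εpos, T.D_zero j⟩, ?_⟩
    rw [Set.disjoint_left]
    rintro _ ⟨τ, hτ, rfl⟩ ⟨τ', hτ', he⟩
    have := (T.D_eq_iff hτ' hτ he).1
    exact hpq (by rw [this])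

lemma isCompact_pr_preimage {L : Set ℂ} (hL : IsCompact L) (hS : ∀ w ∈ L, w ∉ T.S) :
    IsCompact (T.pr ⁻¹' L) := by
  have h : ∀ w ∈ L, ∃ U ∈ 𝓝 w, ∃ K : Set X, IsCompact K ∧ T.pr ⁻¹' U ⊆ K := by
    intro w hw
    obtain ⟨r, hr, σ, h1, h2, h3, h4⟩ := T.sec w (hS w hw)
    refine ⟨closedBall w (r / 2), closedBall_mem_nhds w (by positivity),
      ⋃ j, σ j '' closedBall w (r / 2), isCompact_iUnion fun j => ?_, fun x hx => ?_⟩
    · exact (isCompact_closedBall w (r / 2)).image_of_continuousOn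
        ((h1 j).mono (closedBall_subset_ball (by linarith)))
    · have hx' : T.pr x ∈ ball w r := closedBall_subset_ball (by linarith) hx
      obtain ⟨j, hj⟩ := h4 x hx'
      exact mem_iUnion.2 ⟨j, T.pr x, hx, hj⟩
  choose! U hU K hK hUK using h
  obtain ⟨t, ht, hLt⟩ := hL.elim_nhds_subcover U hU
  refine (t.isCompact_biUnion fun w hw => hK w (ht w hw)).of_isClosed_subset
    (hL.isClosed.preimage T.contPr) ?_
  intro x hx
  obtain ⟨w, hw, hxw⟩ := mem_iUnion₂.1 (hLt hx)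
  exact mem_iUnion₂.2 ⟨w, hw, hUK w (ht w hw) hxw⟩

lemma exists_delta : ∃ δ > 0, ∀ a ∈ T.S, ∀ x, ‖T.pr x - a‖ < δ →
    ∃ i τ, T.c i = some a ∧ 0 < ‖τ‖ ∧ ‖τ‖ < T.ε / 2 ∧ T.γ i τ = x := by
  have h1 : ∀ᶠ δ in 𝓝[>] (0 : ℝ), ∀ a ∈ T.S, ∀ x, ‖T.pr x - a‖ < δ →
    ∃ i τ, T.c i = some a ∧ 0 < ‖τ‖ ∧ ‖τ‖ < T.ε ∧ T.γ i τ = x := by
    rw [Finset.eventually_all]
    intro a ha
    obtain ⟨δ, hδ, h⟩ := T.cover_fin a ha
    filter_upwards [Ioo_mem_nhdsGT hδ] with δ' hδ' x hx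
    exact h x (hx.trans hδ'.2)
  have h2 : ∀ᶠ δ in 𝓝[>] (0 : ℝ), ∀ i : T.ι, δ < (T.ε / 2) ^ T.m i := by
    rw [eventually_all]
    intro i
    have := T.εpos
    exact mem_of_superset (Ioo_mem_nhdsGT (show (0 : ℝ) < (T.ε / 2) ^ T.m i by positivity))
      fun δ hδ => hδ.2
  obtain ⟨δ, h3, h4, h5⟩ := (h1.and (h2.and self_mem_nhdsWithin)).exists
  refine ⟨δ, h5, fun a ha x hx => ?_⟩
  obtain ⟨i, τ, hc, h6, h7, h8⟩ := h3 a ha x hx
  refine ⟨i, τ, hc, h6, ?_, h8⟩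
  have h9 : T.pr x - a = τ ^ T.m i := by
    rw [← h8, T.pr_γ i τ h6 h7, hc]; simp [endPr]
  rw [h9, norm_pow] at hx
  have := T.εpos
  exact lt_of_pow_lt_pow_left₀ _ (by positivity) (hx.trans (h4 i))

lemma exists_R : ∃ R : ℝ, ∀ x, R < ‖T.pr x‖ →
    ∃ i τ, T.c i = none ∧ 0 < ‖τ‖ ∧ ‖τ‖ < T.ε / 2 ∧ T.γ i τ = x := by
  obtain ⟨R, hR⟩ := T.cover_inf
  have h1 : ∀ᶠ R' in atTop (α := ℝ), ∀ x, R' < ‖T.pr x‖ →
    ∃ i τ, T.c i = none ∧ 0 < ‖τ‖ ∧ ‖τ‖ < T.ε ∧ T.γ i τ = x := by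
    filter_upwards [eventually_ge_atTop R] with R' hR' x hx
    exact hR x (hR'.trans_lt hx)
  have h2 : ∀ᶠ R' in atTop (α := ℝ), ∀ i : T.ι, ((T.ε / 2) ^ T.m i)⁻¹ ≤ R' := by
    rw [eventually_all]
    intro i
    exact eventually_ge_atTop _
  obtain ⟨R', h3, h4⟩ := (h1.and h2).exists
  refine ⟨R', fun x hx => ?_⟩
  obtain ⟨i, τ, hc, h6, h7, h8⟩ := h3 x hx
  refine ⟨i, τ, hc, h6, ?_, h8⟩
  have h9 : T.pr x = (τ ^ T.m i)⁻¹ := by
    rw [← h8, T.pr_γ i τ h6 h7, hc]; simp [endPr]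
  rw [h9, norm_inv, norm_pow] at hx
  have := T.εpos
  have h10 : ((T.ε / 2) ^ T.m i)⁻¹ < (‖τ‖ ^ T.m i)⁻¹ := (h4 i).trans_lt hx
  have h11 := (inv_lt_inv₀ (by positivity) (pow_pos h6 _)).1 h10
  exact lt_of_pow_lt_pow_left₀ _ (by positivity) h11

instance [T2Space X] : CompactSpace T.Cp := by
  obtain ⟨δ, hδ, h1⟩ := T.exists_delta
  obtain ⟨R, h2⟩ := T.exists_R
  set L : Set ℂ := closedBall 0 R ∩ (⋃ a ∈ T.S, ball a δ)ᶜ with hL
  have hLc : IsCompact L := (isCompact_closedBall _ _).inter_right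
    (isOpen_biUnion fun _ _ => isOpen_ball).isClosed_compl
  have hLS : ∀ w ∈ L, w ∉ T.S := by
    intro w hw hwS
    exact hw.2 (mem_iUnion₂.2 ⟨w, hwS, mem_ball_self hδ⟩)
  have hK1 : IsCompact (T.jn '' (T.pr ⁻¹' L)) :=
    (T.isCompact_pr_preimage hLc hLS).image T.isOpenEmbedding_jn.continuous
  have hε := T.εpos
  have hK2 : ∀ i, IsCompact (T.D i '' closedBall 0 (T.ε / 2)) := by
    intro i
    refine (isCompact_closedBall _ _).image_of_continuousOn fun τ hτ => ?_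
    have : ContinuousAt (T.D i) τ :=
      (T.map_nhds_D i (closedBall_subset_ball (by linarith) hτ)).le
    exact this.continuousWithinAt
  refine ⟨?_⟩
  have hK := hK1.union (isCompact_iUnion hK2)
  have hu : (univ : Set T.Cp) = T.jn '' (T.pr ⁻¹' L) ∪ ⋃ i, T.D i '' closedBall 0 (T.ε / 2) := by
    symm
    rw [eq_univ_iff_forall]
    intro p
    rcases T.cases p with ⟨x, rfl⟩ | ⟨i, rfl⟩
    · by_cases hx : T.pr x ∈ L
      · exact Or.inl ⟨x, hx, rfl⟩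
      · right
        rw [hL, mem_inter_iff, not_and_or] at hx
        rcases hx with hx | hx
        · rw [mem_closedBall_zero_iff, not_le] at hx
          obtain ⟨i, τ, -, h3, h4, h5⟩ := h2 x hx
          refine mem_iUnion.2 ⟨i, τ, mem_closedBall_zero_iff.2 h4.le, ?_⟩
          rw [T.D_of_ne i (norm_pos_iff.1 h3), h5]
        · rw [mem_compl_iff, not_not] at hx
          obtain ⟨a, ha, hxa⟩ := mem_iUnion₂.1 hx
          rw [mem_ball, dist_eq_norm] at hxa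
          obtain ⟨i, τ, -, h3, h4, h5⟩ := h1 a ha x hxa
          refine mem_iUnion.2 ⟨i, τ, mem_closedBall_zero_iff.2 h4.le, ?_⟩
          rw [T.D_of_ne i (norm_pos_iff.1 h3), h5]
    · exact Or.inr (mem_iUnion.2 ⟨i, 0, mem_closedBall_self (by positivity), T.D_zero i⟩)
  rw [hu]
  exact hK

lemma denseRange_jn : DenseRange T.jn := by
  intro p
  rw [_root_.mem_closure_iff]
  intro U hU hp
  rcases T.cases p with ⟨x, rfl⟩ | ⟨i, rfl⟩
  · exact ⟨_, hp, x, rfl⟩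
  · obtain ⟨δ, hδ, h⟩ := (isOpen_Cp.1 hU).2 i hp
    have h1 : ‖((δ / 2 : ℝ) : ℂ)‖ = δ / 2 := by
      rw [Complex.norm_real, Real.norm_of_nonneg (by positivity)]
    exact ⟨_, h ((δ / 2 : ℝ) : ℂ) (by rw [h1]; positivity) (by rw [h1]; linarith), _, rfl⟩

instance [ConnectedSpace X] : ConnectedSpace T.Cp := by
  have : PreconnectedSpace T.Cp :=
    T.denseRange_jn.preconnectedSpace T.isOpenEmbedding_jn.continuous
  have : Nonempty T.Cp := (‹ConnectedSpace X›.toNonempty).map T.jn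
  exact ⟨inferInstance⟩

end Srf

end Crest.Agent.R257.RS_176
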