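import Crest.Agent.R257.RSC_176
import Crest.Agent.R275.GAtl_293

/-!
# Row 257, part C, compactification of a finite covering of `ℂ ∖ S` (helper176), file D

`Cp T` is a compact complex manifold of dimension one, and has a finite good atlas
(`exists_atl`), in which the local sections and the discs at the ends are holomorphic.
-/

set_option autoImplicit false
set_option linter.unusedSectionVars false

open Set Filter Topology Metric
open scoped ContDiff Manifold

noncomputable section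

namespace Crest.Agent.R257.RS_176

open Crest.Agent.R275.Geo Crest.Agent.R275.GC293

/-- `ℂ ≃ Cn 1` -/
def L1 : ℂ ≃L[ℂ] Cn 1 :=
  (ContinuousLinearEquiv.funUnique (Fin 1) ℂ ℂ).symm.trans (EuclideanSpace.equiv (Fin 1) ℂ).symm

@[simp] lemma L1_apply (z : ℂ) (i : Fin 1) : L1 z i = z := rfl

@[simp] lemma L1_symm_apply (v : Cn 1) : L1.symm v = v 0 := rfl

namespace Srf

variable {X : Type} [TopologicalSpace X] (T : Srf X)

/-- the charts, with values in `ℂ` -/
def ch0 [T2Space X] (a : T.SecD ⊕ T.ι) : OpenPartialHomeomorph T.Cp ℂ :=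
  Sum.elim T.secCh T.endCh a

/-- change of charts -/
lemma holo_ch0 [T2Space X] (a b : T.SecD ⊕ T.ι) :
    DifferentiableOn ℂ (fun z => T.ch0 b ((T.ch0 a).symm z))
      {z | z ∈ (T.ch0 a).target ∧ (T.ch0 a).symm z ∈ (T.ch0 b).source} := by
  have hopen : IsOpen {z | z ∈ (T.ch0 a).target ∧ (T.ch0 a).symm z ∈ (T.ch0 b).source} :=
    (T.ch0 a).isOpen_inter_preimage_symm (T.ch0 b).open_source
  have hcont : ∀ z ∈ {z | z ∈ (T.ch0 a).target ∧ (T.ch0 a).symm z ∈ (T.ch0 b).source},
      ContinuousAt (fun z => T.ch0 b ((T.ch0 a).symm z)) z := by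
    rintro z ⟨h1, h2⟩
    exact ContinuousAt.comp (f := (T.ch0 a).symm) ((T.ch0 b).continuousAt h2)
      ((T.ch0 a).continuousAt_symm h1)
  rcases a with s | i <;> rcases b with s' | i'
  · -- section, section
    refine differentiableOn_id.congr ?_
    rintro z ⟨h1, ⟨z', h2, h3⟩⟩
    have h3' : T.jn (s'.s z') = T.jn (s.s z) := h3
    have h4 : z' = z := by
      have := congrArg T.pr (T.jn_injective h3')
      rwa [s'.sec z' h2, s.sec z h1] at this
    change (T.secCh s') (T.jn (s.s z)) = z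
    rw [← h3', h4]
    rw [h4] at h2
    exact mkCh_apply h2
  · -- section, end
    intro z hz
    obtain ⟨h1, ⟨τ, h2, h3⟩⟩ := id hz
    have h3' : T.D i' τ = T.jn (s.s z) := h3
    have h5 : (T.endCh i') (T.jn (s.s z)) = τ := by
      rw [← h3']; exact mkCh_apply h2
    have h0 : τ ≠ 0 := by
      rintro rfl
      rw [D_zero] at h3'
      exact T.jn_ne_en _ _ h3'.symm
    obtain ⟨d, hd, hder⟩ := hasStrictDerivAt_endPr (T.c i') (T.mpos i') h0
    have hev : ∀ᶠ y in 𝓝 z, endPr (T.c i') (T.m i') ((T.endCh i') (T.jn (s.s y))) = y := by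
      filter_upwards [hopen.mem_nhds hz] with y hy
      obtain ⟨k1, ⟨τ', k2, k3⟩⟩ := hy
      have k3' : T.D i' τ' = T.jn (s.s y) := k3
      have k0 : τ' ≠ 0 := by
        rintro rfl
        rw [D_zero] at k3'
        exact T.jn_ne_en _ _ k3'.symm
      have k5 : (T.endCh i') (T.jn (s.s y)) = τ' := by
        rw [← k3']; exact mkCh_apply k2
      rw [k5]
      rw [T.D_of_ne i' k0] at k3'
      have k6 := congrArg T.pr (T.jn_injective k3')
      rw [mem_ball_zero_iff] at k2
      rw [T.pr_γ i' τ' (norm_pos_iff.2 k0) k2, s.sec y k1] at k6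
      exact k6
    have hc : ContinuousAt (fun z => (T.endCh i') (T.jn (s.s z))) z := hcont z hz
    have := HasStrictDerivAt.hasDerivAt (HasStrictDerivAt.of_local_left_inverse
      (f := endPr (T.c i') (T.m i')) (g := fun z => (T.endCh i') (T.jn (s.s z))) (a := z) hc
      (by rw [h5]; exact hder) hd hev)
    exact this.differentiableAt.differentiableWithinAt
  · -- end, section
    intro τ hτ
    obtain ⟨h1, ⟨z, h2, h3⟩⟩ := id hτ
    have h3' : T.jn (s'.s z) = T.D i τ := h3
    have h0 : τ ≠ 0 := by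
      rintro rfl
      rw [D_zero] at h3'
      exact T.jn_ne_en _ _ h3'
    obtain ⟨d, hd, hder⟩ := hasStrictDerivAt_endPr (T.c i) (T.mpos i) h0
    have hev : (fun τ => (T.secCh s') (T.D i τ)) =ᶠ[𝓝 τ] endPr (T.c i) (T.m i) := by
      filter_upwards [hopen.mem_nhds hτ, isOpen_ne.mem_nhds h0] with y hy hy0
      obtain ⟨k1, ⟨z', k2, k3⟩⟩ := hy
      have k3' : T.jn (s'.s z') = T.D i y := k3
      rw [← k3']
      have k4 : (T.secCh s') (T.jn (s'.s z')) = z' := mkCh_apply k2
      rw [k4]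
      have k1' : y ∈ ball (0 : ℂ) T.ε := k1
      rw [mem_ball_zero_iff] at k1'
      rw [T.D_of_ne i hy0] at k3'
      have k6 := congrArg T.pr (T.jn_injective k3')
      rw [T.pr_γ i y (norm_pos_iff.2 hy0) k1', s'.sec z' k2] at k6
      exact k6
    exact (hder.hasDerivAt.differentiableAt.congr_of_eventuallyEq hev).differentiableWithinAt
  · -- end, end
    refine differentiableOn_id.congr ?_
    rintro τ ⟨h1, ⟨τ', h2, h3⟩⟩
    have h3' : T.D i' τ' = T.D i τ := h3
    obtain ⟨h4, h5⟩ := T.D_eq_iff h2 h1 h3'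
    subst h4; subst h5
    exact mkCh_apply (hmap := fun _ h => T.map_nhds_D _ h) h2

/-- the charts with values in `Cn 1` -/
def ch [T2Space X] (a : T.SecD ⊕ T.ι) : OpenPartialHomeomorph T.Cp (Cn 1) :=
  (T.ch0 a).transHomeomorph L1.toHomeomorph

@[simp] lemma ch_source [T2Space X] (a : T.SecD ⊕ T.ι) :
    (T.ch a).source = (T.ch0 a).source := rfl

lemma ch_apply [T2Space X] (a : T.SecD ⊕ T.ι) (p : T.Cp) : T.ch a p = L1 (T.ch0 a p) := rfl

lemma ch_symm_apply [T2Space X] (a : T.SecD ⊕ T.ι) (v : Cn 1) :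
    (T.ch a).symm v = (T.ch0 a).symm (L1.symm v) := rfl

lemma mem_ch_target [T2Space X] (a : T.SecD ⊕ T.ι) (v : Cn 1) :
    v ∈ (T.ch a).target ↔ L1.symm v ∈ (T.ch0 a).target := Iff.rfl

lemma exists_mem_source [T2Space X] (p : T.Cp) : ∃ a, p ∈ (T.ch a).source := by
  rcases T.cases p with ⟨x, rfl⟩ | ⟨i, rfl⟩
  · obtain ⟨s, hr, hw, hx⟩ := T.exists_secD x
    refine ⟨Sum.inl s, T.pr x, ?_, ?_⟩
    · rw [← hw]; exact mem_ball_self hr
    · exact congrArg T.jn hx
  · exact ⟨Sum.inr i, 0, mem_ball_self T.εpos, T.D_zero i⟩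

/-- the index of a chart at a point -/
def ix [T2Space X] (p : T.Cp) : T.SecD ⊕ T.ι := (T.exists_mem_source p).choose

lemma mem_ix [T2Space X] (p : T.Cp) : p ∈ (T.ch (T.ix p)).source :=
  (T.exists_mem_source p).choose_spec

instance [T2Space X] : ChartedSpace (Cn 1) T.Cp where
  atlas := range T.ch
  chartAt p := T.ch (T.ix p)
  mem_chart_source p := T.mem_ix p
  chart_mem_atlas _ := mem_range_self _

lemma atlas_eq [T2Space X] : atlas (Cn 1) T.Cp = range T.ch := rfl

instance [T2Space X] (k : ℕ∞ω) : IsManifold 𝓘(ℂ, Cn 1) k T.Cp := by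
  refine isManifold_of_contDiffOn _ _ _ ?_
  rintro _ _ ⟨a, rfl⟩ ⟨b, rfl⟩
  have h1 : DifferentiableOn ℂ (fun z => T.ch0 b ((T.ch0 a).symm z))
      {z | z ∈ (T.ch0 a).target ∧ (T.ch0 a).symm z ∈ (T.ch0 b).source} := T.holo_ch0 a b
  have hopen : IsOpen {z | z ∈ (T.ch0 a).target ∧ (T.ch0 a).symm z ∈ (T.ch0 b).source} :=
    (T.ch0 a).isOpen_inter_preimage_symm (T.ch0 b).open_source
  have h2 : ContDiffOn ℂ k (fun z => T.ch0 b ((T.ch0 a).symm z))
      {z | z ∈ (T.ch0 a).target ∧ (T.ch0 a).symm z ∈ (T.ch0 b).source} :=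
    h1.contDiffOn hopen
  have h3 : ContDiffOn ℂ k (fun v : Cn 1 => L1 (T.ch0 b ((T.ch0 a).symm (L1.symm v))))
      (L1.symm ⁻¹' {z | z ∈ (T.ch0 a).target ∧ (T.ch0 a).symm z ∈ (T.ch0 b).source}) := by
    refine L1.contDiff.comp_contDiffOn ?_
    exact h2.comp L1.symm.contDiff.contDiffOn (fun v hv => hv)
  refine h3.mono ?_
  rintro v ⟨hv, -⟩
  have hv' : v ∈ ((T.ch a).symm ≫ₕ T.ch b).source := hv
  rw [OpenPartialHomeomorph.trans_source] at hv'
  exact ⟨hv'.1, hv'.2⟩

/-- `A` is an atlas of the complex manifold `Cp T` -/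
structure Compat [T2Space X] (A : Atl 1 T.Cp) : Prop where
  out : ∀ a j, DifferentiableOn ℂ (fun z => A.e j ((T.ch0 a).symm z))
    {z | z ∈ (T.ch0 a).target ∧ (T.ch0 a).symm z ∈ (A.e j).source}
  inn : ∀ a j, DifferentiableOn ℂ (fun v => T.ch0 a ((A.e j).symm v))
    {v | v ∈ (A.e j).target ∧ (A.e j).symm v ∈ (T.ch0 a).source}

lemma compat_goodAtl [T2Space X] (G : Crest.Agent.R275.GC293.GoodCover (Cn 1) T.Cp) :
    T.Compat (goodAtl G) := by
  have key : ∀ j : Fin G.n, ∃ b, T.ch b = G.e j := fun j => G.e_mem j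
  constructor
  · suffices H : ∀ a (j : Fin G.n), DifferentiableOn ℂ (fun z => G.ch j ((T.ch0 a).symm z))
        {z | z ∈ (T.ch0 a).target ∧ (T.ch0 a).symm z ∈ (G.ch j).source} from fun a j => H a j
    intro a j
    obtain ⟨b, hb⟩ := key j
    have hsub : ∀ p ∈ (G.ch j).source, p ∈ (T.ch0 b).source := by
      intro p hp
      rw [G.ch_source] at hp
      have h1 : p ∈ (G.e j).source := cball_subset_source _ _ _ hp
      rwa [← hb] at h1
    have h2 : DifferentiableOn ℂ (fun z => aff (G.e j (G.c j)) G.r G.r_pos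
        (L1 (T.ch0 b ((T.ch0 a).symm z))))
        {z | z ∈ (T.ch0 a).target ∧ (T.ch0 a).symm z ∈ (T.ch0 b).source} :=
      (differentiable_aff _ _ _).comp_differentiableOn
        (L1.differentiable.comp_differentiableOn (T.holo_ch0 a b))
    refine (h2.mono fun z hz => ⟨hz.1, hsub _ hz.2⟩).congr fun z _ => ?_
    have h3 : G.e j ((T.ch0 a).symm z) = L1 (T.ch0 b ((T.ch0 a).symm z)) := by
      rw [← hb]; rfl
    rw [G.ch_apply, h3]
  · suffices H : ∀ a (j : Fin G.n), DifferentiableOn ℂ (fun v => T.ch0 a ((G.ch j).symm v))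
        {v | v ∈ (G.ch j).target ∧ (G.ch j).symm v ∈ (T.ch0 a).source} from fun a j => H a j
    intro a j
    obtain ⟨b, hb⟩ := key j
    have h2 : DifferentiableOn ℂ (fun v => T.ch0 a ((T.ch0 b).symm
        (L1.symm ((aff (G.e j (G.c j)) G.r G.r_pos).symm v))))
        ((fun v => L1.symm ((aff (G.e j (G.c j)) G.r G.r_pos).symm v)) ⁻¹'
          {z | z ∈ (T.ch0 b).target ∧ (T.ch0 b).symm z ∈ (T.ch0 a).source}) :=
      (T.holo_ch0 b a).comp (L1.symm.differentiable.comp
        (differentiable_aff_symm _ _ _)).differentiableOn fun v hv => hv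
    have hsymm : ∀ v, (G.ch j).symm v = (T.ch0 b).symm
        (L1.symm ((aff (G.e j (G.c j)) G.r G.r_pos).symm v)) := by
      intro v
      rw [G.ch_symm_apply, ← hb]
      rfl
    refine (h2.mono fun v hv => ⟨?_, ?_⟩).congr fun v _ => ?_
    · have h3 : v ∈ (G.ch j).target := hv.1
      rw [G.ch_target] at h3
      have h4 := G.ball_sub_target j h3
      have h5 : (G.e j).target = (T.ch b).target := by rw [hb]
      rw [h5] at h4
      exact h4
    · have h3 : (G.ch j).symm v ∈ (T.ch0 a).source := hv.2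
      rwa [hsymm] at h3
    · rw [hsymm]

/-- **the compactification has a finite good atlas**, subordinate to any given open cover -/
theorem exists_atl [T2Space X] {κ : Type*} (O : κ → Set T.Cp) (hO : ∀ k, IsOpen (O k))
    (hOc : ∀ x, ∃ k, x ∈ O k) : ∃ A : Atl 1 T.Cp, GoodA A ∧ Nonempty (Part A) ∧ Finite A.ι ∧
      T.Compat A ∧ ∀ i, ∃ k, (A.e i).source ⊆ O k := by
  obtain ⟨G, h1, h2, h3, h4⟩ := exists_goodAtl (m := 1) (M := T.Cp) O hO hOc
  exact ⟨goodAtl G, h1, h2, h3, T.compat_goodAtl G, h4⟩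

end Srf

end Crest.Agent.R257.RS_176
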