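import Crest.Agent.R257.RSD_176

/-!
# Row 257, part C, compactification of a finite covering of `ℂ ∖ S` (helper176), file E

Every homeomorphism `g` of `X` extends to the compactification (`ext`), holomorphically if `g` is
holomorphic (`holo_ext`); `ext` is multiplicative.
-/

set_option autoImplicit false
set_option linter.unusedSectionVars false

open Set Filter Topology Metric
open scoped ContDiff Manifold

noncomputable section

namespace Crest.Agent.R257.RS_176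

/-- the punctured disc -/
def PD (δ : ℝ) : Set ℂ := {τ | 0 < ‖τ‖ ∧ ‖τ‖ < δ}

lemma PD_mono {δ δ' : ℝ} (h : δ ≤ δ') : PD δ ⊆ PD δ' := fun _ h1 => ⟨h1.1, h1.2.trans_le h⟩

lemma isPreconnected_PD (δ : ℝ) : IsPreconnected (PD δ) := by
  by_cases hδ : 0 < δ
  · have h1 : PD δ = (fun z : ℂ => (δ : ℂ) * Complex.exp z) '' {z : ℂ | z.re < 0} := by
      ext τ
      constructor
      · rintro ⟨h1, h2⟩
        have hne : τ / δ ≠ 0 := div_ne_zero (norm_pos_iff.1 h1) (by exact_mod_cast hδ.ne')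
        refine ⟨Complex.log (τ / δ), ?_, ?_⟩
        · simp only [mem_ofPred_eq, Complex.log_re, norm_div, Complex.norm_real,
            Real.norm_of_nonneg hδ.le]
          exact Real.log_neg (div_pos h1 hδ) ((div_lt_one hδ).2 h2)
        · have hδ' : (δ : ℂ) ≠ 0 := by exact_mod_cast hδ.ne'
          simp only [Complex.exp_log hne]
          field_simp
      · rintro ⟨z, hz, rfl⟩
        simp only [mem_ofPred_eq] at hz
        have h3 : ‖(δ : ℂ) * Complex.exp z‖ = δ * Real.exp z.re := by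
          rw [norm_mul, Complex.norm_exp, Complex.norm_real, Real.norm_of_nonneg hδ.le]
        constructor
        · rw [h3]; positivity
        · rw [h3]
          have := Real.exp_lt_one_iff.2 hz
          nlinarith
    rw [h1]
    refine IsPreconnected.image ?_ _ (by fun_prop)
    have : Convex ℝ {z : ℂ | z.re < 0} := convex_halfSpace_re_lt 0
    exact this.isPreconnected
  · have : PD δ = ∅ := by
      ext τ
      simp only [PD, mem_ofPred_eq, mem_empty_iff_false, iff_false, not_and, not_lt]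
      intro h; linarith
    rw [this]; exact isPreconnected_empty

namespace Srf

variable {X : Type} [TopologicalSpace X] (T : Srf X)

lemma isPreconnected_γ (i : T.ι) {δ : ℝ} (hδ : δ ≤ T.ε) : IsPreconnected (T.γ i '' PD δ) :=
  (isPreconnected_PD δ).image _ ((T.γ_cont i).mono (PD_mono hδ))

lemma D_image_eq (i : T.ι) {δ : ℝ} (hδ : 0 < δ) :
    T.D i '' ball 0 δ = insert (T.en i) (T.jn '' (T.γ i '' PD δ)) := by
  ext p
  constructor
  · rintro ⟨τ, hτ, rfl⟩
    rw [mem_ball_zero_iff] at hτ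
    by_cases h0 : τ = 0
    · subst h0; rw [D_zero]; exact mem_insert _ _
    · rw [T.D_of_ne i h0]
      exact mem_insert_of_mem _ ⟨_, ⟨τ, ⟨norm_pos_iff.2 h0, hτ⟩, rfl⟩, rfl⟩
  · rintro (rfl | ⟨_, ⟨τ, hτ, rfl⟩, rfl⟩)
    · exact ⟨0, mem_ball_self hδ, T.D_zero i⟩
    · exact ⟨τ, mem_ball_zero_iff.2 hτ.2, T.D_of_ne i (norm_pos_iff.1 hτ.1)⟩

/-- the punctured discs at the ends are open -/
lemma isOpen_γ_image [T2Space X] (i : T.ι) {δ : ℝ} (hδ : δ ≤ T.ε) :
    IsOpen (T.γ i '' PD δ) := by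
  rw [isOpen_iff_mem_nhds]
  rintro _ ⟨τ, hτ, rfl⟩
  rw [← T.map_nhds_γ i (PD_mono hδ hτ)]
  rw [Filter.mem_map]
  have hop : IsOpen (PD δ) := by
    have h1 : IsOpen {τ : ℂ | 0 < ‖τ‖} := isOpen_lt continuous_const continuous_norm
    have h2 : IsOpen {τ : ℂ | ‖τ‖ < δ} := isOpen_lt continuous_norm continuous_const
    exact h1.inter h2
  filter_upwards [hop.mem_nhds hτ] with y hy using ⟨y, hy, rfl⟩

/-- the complement of the ends is compact -/
lemma isCompact_core [T2Space X] {δ : ℝ} (h0 : 0 < δ) (hδ : δ ≤ T.ε) :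
    IsCompact (⋃ i, T.γ i '' PD δ)ᶜ := by
  rw [T.isOpenEmbedding_jn.isInducing.isCompact_iff]
  have h1 : T.jn '' (⋃ i, T.γ i '' PD δ)ᶜ = (⋃ i, T.D i '' ball 0 δ)ᶜ := by
    ext p
    constructor
    · rintro ⟨x, hx, rfl⟩ hp
      obtain ⟨i, hi⟩ := mem_iUnion.1 hp
      rw [T.D_image_eq i h0] at hi
      rcases hi with hi | ⟨y, hy, hyx⟩
      · exact T.jn_ne_en x i hi
      · rw [T.jn_injective hyx] at hy
        exact hx (mem_iUnion.2 ⟨i, hy⟩)
    · intro hp
      rcases T.cases p with ⟨x, rfl⟩ | ⟨i, rfl⟩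
      · refine ⟨x, fun hx => hp ?_, rfl⟩
        obtain ⟨i, hi⟩ := mem_iUnion.1 hx
        refine mem_iUnion.2 ⟨i, ?_⟩
        rw [T.D_image_eq i h0]
        exact mem_insert_of_mem _ ⟨x, hi, rfl⟩
      · exact (hp (mem_iUnion.2 ⟨i, 0, mem_ball_self h0, T.D_zero i⟩)).elim
  rw [h1]
  exact (isOpen_iUnion fun i => T.isOpen_D_image i hδ).isClosed_compl.isCompact

/-- an end is mapped into one end -/
lemma end_to_end [T2Space X] (g : X ≃ₜ X) (i : T.ι) {η : ℝ} (h0 : 0 < η) (hη : η ≤ T.ε) :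
    ∃ i', ∃ δ > 0, δ ≤ T.ε ∧ g '' (T.γ i '' PD δ) ⊆ T.γ i' '' PD η := by
  have h1 : IsCompact (g ⁻¹' (⋃ i, T.γ i '' PD η)ᶜ) :=
    (g.isCompact_preimage).2 (T.isCompact_core h0 hη)
  have h2 : IsCompact (T.jn '' (g ⁻¹' (⋃ i, T.γ i '' PD η)ᶜ)) :=
    h1.image T.isOpenEmbedding_jn.continuous
  have h3 : T.en i ∈ (T.jn '' (g ⁻¹' (⋃ i, T.γ i '' PD η)ᶜ))ᶜ := by
    rintro ⟨x, -, hx⟩
    exact T.jn_ne_en x i hx
  obtain ⟨δ, hδ, h4⟩ := (isOpen_Cp.1 h2.isClosed.isOpen_compl).2 i h3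
  have hδ' : 0 < min δ T.ε := lt_min hδ T.εpos
  have h5 : g '' (T.γ i '' PD (min δ T.ε)) ⊆ ⋃ i, T.γ i '' PD η := by
    rintro _ ⟨_, ⟨τ, hτ, rfl⟩, rfl⟩
    by_contra h
    exact h4 τ hτ.1 (hτ.2.trans_le (min_le_left _ _)) ⟨_, h, rfl⟩
  have h6 : IsPreconnected (g '' (T.γ i '' PD (min δ T.ε))) :=
    (T.isPreconnected_γ i (min_le_right _ _)).image _ g.continuous.continuousOn
  -- a point in it
  have h7 : ((min δ T.ε / 2 : ℝ) : ℂ) ∈ PD (min δ T.ε) := by
    have h1 : ‖((min δ T.ε / 2 : ℝ) : ℂ)‖ = min δ T.ε / 2 := by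
      rw [Complex.norm_real, Real.norm_of_nonneg (by positivity)]
    exact ⟨by rw [h1]; positivity, by rw [h1]; linarith⟩
  obtain ⟨i', hi'⟩ := mem_iUnion.1 (h5 ⟨_, ⟨_, h7, rfl⟩, rfl⟩)
  refine ⟨i', min δ T.ε, hδ', min_le_right _ _, ?_⟩
  have h8 := h6.subset_or_subset (u := T.γ i' '' PD η) (v := ⋃ j, ⋃ _ : j ≠ i', T.γ j '' PD η)
    (T.isOpen_γ_image i' hη) (isOpen_iUnion fun j => isOpen_iUnion fun _ => T.isOpen_γ_image j hη)
    (by
      rw [Set.disjoint_left]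
      rintro _ ⟨τ, hτ, rfl⟩ h
      obtain ⟨j, h⟩ := mem_iUnion.1 h
      obtain ⟨hj, τ', hτ', he⟩ := mem_iUnion.1 h
      exact hj (T.γ_inj j i' τ' τ hτ'.1 (hτ'.2.trans_le hη) hτ.1 (hτ.2.trans_le hη) he).1)
    (by
      intro x hx
      obtain ⟨j, hj⟩ := mem_iUnion.1 (h5 hx)
      by_cases hji : j = i'
      · subst hji; exact Or.inl hj
      · exact Or.inr (mem_iUnion.2 ⟨j, mem_iUnion.2 ⟨hji, hj⟩⟩))
  rcases h8 with h8 | h8
  · exact h8
  · exfalso
    obtain ⟨j, h9⟩ := mem_iUnion.1 (h8 ⟨_, ⟨_, h7, rfl⟩, rfl⟩)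
    obtain ⟨hj, τ', hτ', he⟩ := mem_iUnion.1 h9
    obtain ⟨τ, hτ, he'⟩ := hi'
    exact hj (T.γ_inj j i' τ' τ hτ'.1 (hτ'.2.trans_le hη) hτ.1 (hτ.2.trans_le hη)
      (he.trans he'.symm)).1

/-- the permutation of the ends -/
def σE [T2Space X] (g : X ≃ₜ X) (i : T.ι) : T.ι :=
  (T.end_to_end g i T.εpos le_rfl).choose

lemma σE_spec [T2Space X] (g : X ≃ₜ X) (i : T.ι) {η : ℝ} (h0 : 0 < η) :
    ∃ δ > 0, δ ≤ T.ε ∧ g '' (T.γ i '' PD δ) ⊆ T.γ (T.σE g i) '' PD η := by
  obtain ⟨i', δ, hδ, hδε, h1⟩ := T.end_to_end g i (lt_min h0 T.εpos) (min_le_right η T.ε)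
  obtain ⟨δ', hδ', hδε', h2⟩ := (T.end_to_end g i T.εpos le_rfl).choose_spec
  have h7 : ((min δ δ' / 2 : ℝ) : ℂ) ∈ PD (min δ δ') := by
    have h0 : 0 < min δ δ' := lt_min hδ hδ'
    have h1 : ‖((min δ δ' / 2 : ℝ) : ℂ)‖ = min δ δ' / 2 := by
      rw [Complex.norm_real, Real.norm_of_nonneg (by positivity)]
    exact ⟨by rw [h1]; positivity, by rw [h1]; linarith⟩
  obtain ⟨τ, hτ, he⟩ := h1 ⟨_, ⟨_, PD_mono (min_le_left _ _) h7, rfl⟩, rfl⟩
  obtain ⟨τ', hτ', he'⟩ := h2 ⟨_, ⟨_, PD_mono (min_le_right _ _) h7, rfl⟩, rfl⟩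
  have hi : i' = T.σE g i :=
    (T.γ_inj _ _ τ τ' hτ.1 (hτ.2.trans_le (min_le_right _ _)) hτ'.1 hτ'.2 (he.trans he'.symm)).1
  refine ⟨δ, hδ, hδε, ?_⟩
  rw [← hi]
  exact h1.trans (image_mono (PD_mono (min_le_left _ _)))

/-- the extension of a homeomorphism, as a map -/
def extF [T2Space X] (g : X ≃ₜ X) (p : T.Cp) : T.Cp :=
  Sum.elim (fun x => T.jn (g x)) (fun i => T.en (T.σE g i)) p

@[simp] lemma extF_jn [T2Space X] (g : X ≃ₜ X) (x : X) : T.extF g (T.jn x) = T.jn (g x) := rfl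

@[simp] lemma extF_en [T2Space X] (g : X ≃ₜ X) (i : T.ι) :
    T.extF g (T.en i) = T.en (T.σE g i) := rfl

lemma continuous_extF [T2Space X] (g : X ≃ₜ X) : Continuous (T.extF g) := by
  refine ⟨fun U hU => ?_⟩
  refine isOpen_Cp.2 ⟨?_, fun i hi => ?_⟩
  · have : T.jn ⁻¹' (T.extF g ⁻¹' U) = g ⁻¹' (T.jn ⁻¹' U) := rfl
    rw [this]
    exact (isOpen_Cp.1 hU).1.preimage g.continuous
  · obtain ⟨η, hη, h1⟩ := (isOpen_Cp.1 hU).2 (T.σE g i) hi
    obtain ⟨δ, hδ, hδε, h2⟩ := T.σE_spec g i hη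
    refine ⟨δ, hδ, fun τ h3 h4 => ?_⟩
    obtain ⟨τ', hτ', he⟩ := h2 ⟨_, ⟨τ, ⟨h3, h4⟩, rfl⟩, rfl⟩
    change T.jn (g (T.γ i τ)) ∈ U
    rw [← he]
    exact h1 τ' hτ'.1 hτ'.2

lemma extF_comp [T2Space X] (g h : X ≃ₜ X) : T.extF g ∘ T.extF h = T.extF (h.trans g) := by
  refine T.denseRange_jn.equalizer ((T.continuous_extF g).comp (T.continuous_extF h))
    (T.continuous_extF _) ?_
  rfl

lemma extF_id [T2Space X] : T.extF (Homeomorph.refl X) = id := by
  refine T.denseRange_jn.equalizer (T.continuous_extF _) continuous_id ?_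
  rfl

/-- **the extension of a homeomorphism of `X` to the compactification** -/
def ext [T2Space X] (g : X ≃ₜ X) : T.Cp ≃ₜ T.Cp where
  toFun := T.extF g
  invFun := T.extF g.symm
  left_inv p := by
    have := congrFun (T.extF_comp g.symm g) p
    rw [Homeomorph.self_trans_symm, T.extF_id] at this
    exact this
  right_inv p := by
    have := congrFun (T.extF_comp g g.symm) p
    rw [Homeomorph.symm_trans_self, T.extF_id] at this
    exact this
  continuous_toFun := T.continuous_extF g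
  continuous_invFun := T.continuous_extF g.symm

@[simp] lemma ext_jn [T2Space X] (g : X ≃ₜ X) (x : X) : T.ext g (T.jn x) = T.jn (g x) := rfl

@[simp] lemma ext_en [T2Space X] (g : X ≃ₜ X) (i : T.ι) :
    T.ext g (T.en i) = T.en (T.σE g i) := rfl

lemma ext_trans [T2Space X] (g h : X ≃ₜ X) (p : T.Cp) :
    T.ext (h.trans g) p = T.ext g (T.ext h p) := (congrFun (T.extF_comp g h) p).symm

lemma ext_refl [T2Space X] (p : T.Cp) : T.ext (Homeomorph.refl X) p = p :=
  congrFun T.extF_id p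

lemma secCh_apply [T2Space X] {s : T.SecD} {p : X}
    (h : T.jn p ∈ (T.secCh s).source) : T.secCh s (T.jn p) = T.pr p := by
  obtain ⟨z, hz, he⟩ := h
  have h1 : s.s z = p := T.jn_injective he
  have h2 : T.secCh s (T.jn (s.s z)) = z := mkCh_apply hz
  rw [← h1, h2, s.sec z hz]

lemma mem_secCh_source [T2Space X] {s : T.SecD} {x : X} (h1 : T.pr x ∈ ball s.w s.r)
    (h2 : s.s (T.pr x) = x) : T.jn x ∈ (T.secCh s).source :=
  ⟨T.pr x, h1, congrArg T.jn h2⟩

/-- **holomorphic homeomorphisms extend holomorphically** -/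
theorem holo_ext [T2Space X] (g : X ≃ₜ X) (hg : T.Hol fun x => T.pr (g x))
    (a b : T.SecD ⊕ T.ι) :
    DifferentiableOn ℂ (fun z => T.ch0 b (T.ext g ((T.ch0 a).symm z)))
      {z | z ∈ (T.ch0 a).target ∧ T.ext g ((T.ch0 a).symm z) ∈ (T.ch0 b).source} := by
  have hopen : ∀ a, IsOpen
      {z | z ∈ (T.ch0 a).target ∧ T.ext g ((T.ch0 a).symm z) ∈ (T.ch0 b).source} := fun a =>
    (T.ch0 a).isOpen_inter_preimage_symm
      ((T.ch0 b).open_source.preimage (T.ext g).continuous)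
  -- sections
  have hsec : ∀ s : T.SecD, ∀ z ∈ ball s.w s.r, T.jn (g (s.s z)) ∈ (T.ch0 b).source →
      DifferentiableAt ℂ (fun z => T.ch0 b (T.jn (g (s.s z)))) z := by
    intro s z hz hb
    obtain ⟨t, ht, htw, htx⟩ := T.exists_secD (g (s.s z))
    have h1 : DifferentiableAt ℂ (fun y => T.pr (g (s.s y))) z :=
      (hg s.w s.r s.s s.cont s.sec).differentiableAt (isOpen_ball.mem_nhds hz)
    have hmem : T.pr (g (s.s z)) ∈ ball t.w t.r := by rw [htw]; exact mem_ball_self ht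
    have h2 : T.pr (g (s.s z)) ∈ {z | z ∈ (T.ch0 (Sum.inl t)).target ∧
        (T.ch0 (Sum.inl t)).symm z ∈ (T.ch0 b).source} := by
      refine ⟨hmem, ?_⟩
      change T.jn (t.s (T.pr (g (s.s z)))) ∈ _
      rw [htx]; exact hb
    have h3 : DifferentiableAt ℂ (fun z => T.ch0 b ((T.ch0 (Sum.inl t)).symm z))
        (T.pr (g (s.s z))) :=
      (T.holo_ch0 (Sum.inl t) b).differentiableAt
        (((T.ch0 (Sum.inl t)).isOpen_inter_preimage_symm (T.ch0 b).open_source).mem_nhds h2)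
    have h4 := DifferentiableAt.comp z h3 h1
    refine h4.congr_of_eventuallyEq ?_
    have hsrc : T.jn (g (s.s z)) ∈ (T.secCh t).source := T.mem_secCh_source hmem htx
    have hc : ContinuousAt (fun y => T.jn (g (s.s y))) z :=
      T.isOpenEmbedding_jn.continuous.continuousAt.comp
        (g.continuous.continuousAt.comp (s.cont.continuousAt (isOpen_ball.mem_nhds hz)))
    filter_upwards [hc.eventually ((T.secCh t).open_source.mem_nhds hsrc)] with y hy
    obtain ⟨u, hu, he⟩ := hy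
    have he1 : t.s u = g (s.s y) := T.jn_injective he
    have he2 : T.pr (g (s.s y)) = u := by rw [← he1, t.sec u hu]
    change T.ch0 b (T.jn (g (s.s y))) = T.ch0 b (T.jn (t.s (T.pr (g (s.s y)))))
    rw [he2, he1]
  rcases a with s | i
  · rintro z ⟨hz, hb⟩
    exact (hsec s z hz hb).differentiableWithinAt
  · -- the end
    have hne : ∀ τ ∈ {z | z ∈ (T.ch0 (Sum.inr i)).target ∧
        T.ext g ((T.ch0 (Sum.inr i)).symm z) ∈ (T.ch0 b).source}, τ ≠ 0 →
        DifferentiableAt ℂ (fun z => T.ch0 b (T.ext g ((T.ch0 (Sum.inr i)).symm z))) τ := by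
      rintro τ ⟨hτ, hb⟩ h0
      have hτ' : ‖τ‖ < T.ε := by
        have : τ ∈ ball (0 : ℂ) T.ε := hτ
        rwa [mem_ball_zero_iff] at this
      obtain ⟨s, hs, hsw, hsx⟩ := T.exists_secD (T.γ i τ)
      have hpr := T.pr_γ i τ (norm_pos_iff.2 h0) hτ'
      rw [hpr] at hsw hsx
      have hmem : endPr (T.c i) (T.m i) τ ∈ ball s.w s.r := by rw [hsw]; exact mem_ball_self hs
      have hb' : T.jn (g (s.s (endPr (T.c i) (T.m i) τ))) ∈ (T.ch0 b).source := by
        rw [hsx]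
        have hb2 : T.ext g (T.D i τ) ∈ (T.ch0 b).source := hb
        rw [T.D_of_ne i h0] at hb2
        exact hb2
      have h1 := hsec s _ hmem hb'
      obtain ⟨d, hd, hder⟩ := hasStrictDerivAt_endPr (T.c i) (T.mpos i) h0
      have h2 := DifferentiableAt.comp τ h1 hder.hasDerivAt.differentiableAt
      refine h2.congr_of_eventuallyEq ?_
      have hsrc : T.jn (T.γ i τ) ∈ (T.secCh s).source :=
        T.mem_secCh_source (by rw [hpr]; exact hmem) (by rw [hpr]; exact hsx)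
      have hP : τ ∈ T.Pn := ⟨norm_pos_iff.2 h0, hτ'⟩
      have hc : ContinuousAt (fun y => T.jn (T.γ i y)) τ :=
        T.isOpenEmbedding_jn.continuous.continuousAt.comp
          ((T.γ_cont i).continuousAt (T.isOpen_Pn.mem_nhds hP))
      filter_upwards [hc.eventually ((T.secCh s).open_source.mem_nhds hsrc),
        T.isOpen_Pn.mem_nhds hP] with y hy hyP
      obtain ⟨u, hu, he⟩ := hy
      have he1 : s.s u = T.γ i y := T.jn_injective he
      have he2 : endPr (T.c i) (T.m i) y = u := by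
        rw [← T.pr_γ i y hyP.1 hyP.2, ← he1, s.sec u hu]
      change T.ch0 b (T.ext g (T.D i y)) = T.ch0 b (T.jn (g (s.s (endPr (T.c i) (T.m i) y))))
      rw [he2, he1, T.D_of_ne i (norm_pos_iff.1 hyP.1), ext_jn]
    intro τ hτ
    by_cases h0 : τ = 0
    · subst h0
      have hW := (hopen (Sum.inr i)).mem_nhds hτ
      refine (Complex.differentiableOn_compl_singleton_and_continuousAt_iff hW).1 ⟨?_, ?_⟩ 0 hτ
      · intro y hy
        exact (hne y hy.1 hy.2).differentiableWithinAt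
      · have hc1 : ContinuousAt ((T.ch0 (Sum.inr i)).symm) 0 :=
          (T.ch0 (Sum.inr i)).continuousAt_symm hτ.1
        have hc2 : ContinuousAt (fun z => T.ext g ((T.ch0 (Sum.inr i)).symm z)) 0 :=
          (T.ext g).continuous.continuousAt.comp hc1
        exact ContinuousAt.comp (f := fun z => T.ext g ((T.ch0 (Sum.inr i)).symm z))
          ((T.ch0 b).continuousAt hτ.2) hc2
    · exact (hne τ hτ h0).differentiableWithinAt

end Srf

end Crest.Agent.R257.RS_176
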