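import Crest.Agent.R257.RSE_176

/-!
# Row 257, part C (helper176), file G: smooth functions with prescribed divisor on `Cp T`

`HasDiv b x n` : near `x`, `b = (z - z(x))^n * c`, `c` smooth and non-zero.
`exists_div` : every divisor of degree zero is the divisor of a smooth function.
-/

set_option autoImplicit false
set_option linter.unusedSectionVars false

open Set Filter Topology Metric
open scoped ContDiff Manifold

noncomputable section

namespace Crest.Agent.R257.RS_176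

lemma contDiffAt_zpow_of_ne {f : ℂ → ℂ} {z : ℂ} (hf : ContDiffAt ℝ ∞ f z) (h0 : f z ≠ 0) (n : ℤ) :
    ContDiffAt ℝ ∞ (fun y => f y ^ n) z := by
  have h1 : ContDiffAt ℂ ∞ (fun y : ℂ => y ^ n) (f z) :=
    (analyticAt_id.zpow h0).contDiffAt
  exact (h1.restrict_scalars ℝ).comp z hf

namespace Srf

variable {X : Type} [TopologicalSpace X] (T : Srf X)

section trans

variable [T2Space X] (a a' : T.SecD ⊕ T.ι) {x : T.Cp}

lemma trans_an (hx : x ∈ (T.ch0 a).source) (hx' : x ∈ (T.ch0 a').source) :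
    AnalyticAt ℂ (fun z => T.ch0 a ((T.ch0 a').symm z)) (T.ch0 a' x) := by
  refine (T.holo_ch0 a' a).analyticAt
    (((T.ch0 a').isOpen_inter_preimage_symm (T.ch0 a).open_source).mem_nhds ⟨?_, ?_⟩)
  · exact (T.ch0 a').map_source hx'
  · rw [mem_preimage, (T.ch0 a').left_inv hx']; exact hx

lemma trans_ev (hx : x ∈ (T.ch0 a).source) (hx' : x ∈ (T.ch0 a').source) :
    ∀ᶠ z in 𝓝 (T.ch0 a' x), z ∈ (T.ch0 a').target ∧ (T.ch0 a').symm z ∈ (T.ch0 a).source := by
  refine ((T.ch0 a').isOpen_inter_preimage_symm (T.ch0 a).open_source).mem_nhds ⟨?_, ?_⟩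
  · exact (T.ch0 a').map_source hx'
  · rw [mem_preimage, (T.ch0 a').left_inv hx']; exact hx

lemma trans_deriv (hx : x ∈ (T.ch0 a).source) (hx' : x ∈ (T.ch0 a').source) :
    deriv (fun z => T.ch0 a ((T.ch0 a').symm z)) (T.ch0 a' x) ≠ 0 := by
  have h1 := (T.trans_an a a' hx hx').differentiableAt.hasDerivAt
  have h2 := (T.trans_an a' a hx' hx).differentiableAt.hasDerivAt
  have e1 : T.ch0 a ((T.ch0 a').symm (T.ch0 a' x)) = T.ch0 a x := by
    rw [(T.ch0 a').left_inv hx']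
  have h3 := HasDerivAt.comp (T.ch0 a' x) (h₂ := fun z => T.ch0 a' ((T.ch0 a).symm z))
    (h₂' := deriv (fun z => T.ch0 a' ((T.ch0 a).symm z)) (T.ch0 a x)) (by rw [e1]; exact h2) h1
  have h4 : ((fun z => T.ch0 a' ((T.ch0 a).symm z)) ∘ fun z => T.ch0 a ((T.ch0 a').symm z))
      =ᶠ[𝓝 (T.ch0 a' x)] id := by
    filter_upwards [T.trans_ev a a' hx hx'] with z hz
    simp only [Function.comp_apply, id]
    rw [(T.ch0 a).left_inv hz.2, (T.ch0 a').right_inv hz.1]
  have h5 := (h3.congr_of_eventuallyEq h4.symm).unique (hasDerivAt_id _)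
  intro h0
  rw [h0, mul_zero] at h5
  exact one_ne_zero h5.symm

lemma trans_tendsto (hx : x ∈ (T.ch0 a).source) (hx' : x ∈ (T.ch0 a').source) :
    Tendsto (fun z => T.ch0 a ((T.ch0 a').symm z)) (𝓝[≠] (T.ch0 a' x)) (𝓝[≠] (T.ch0 a x)) := by
  have e1 : T.ch0 a ((T.ch0 a').symm (T.ch0 a' x)) = T.ch0 a x := by
    rw [(T.ch0 a').left_inv hx']
  refine tendsto_nhdsWithin_iff.2 ⟨?_, ?_⟩
  · have := (T.trans_an a a' hx hx').continuousAt.tendsto
    rw [e1] at this
    exact this.mono_left nhdsWithin_le_nhds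
  · filter_upwards [(T.trans_ev a a' hx hx').filter_mono nhdsWithin_le_nhds,
      self_mem_nhdsWithin] with z hz hne heq
    apply hne
    have h1 : (T.ch0 a').symm z = x := (T.ch0 a).injOn hz.2 hx heq
    rw [mem_singleton_iff, ← h1, (T.ch0 a').right_inv hz.1]

end trans

/-- local form of a function with order `n` at `x` -/
def HasDiv [T2Space X] (b : T.Cp → ℂ) (x : T.Cp) (n : ℤ) : Prop :=
  ∃ a, x ∈ (T.ch0 a).source ∧ ∃ c : ℂ → ℂ, ContDiffAt ℝ ∞ c (T.ch0 a x) ∧ c (T.ch0 a x) ≠ 0 ∧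
    ∀ᶠ z in 𝓝[≠] (T.ch0 a x), b ((T.ch0 a).symm z) = (z - T.ch0 a x) ^ n * c z

variable {T}

lemma HasDiv.chart [T2Space X] {b : T.Cp → ℂ} {x : T.Cp} {n : ℤ} (h : T.HasDiv b x n)
    (a' : T.SecD ⊕ T.ι) (hx' : x ∈ (T.ch0 a').source) :
    ∃ c : ℂ → ℂ, ContDiffAt ℝ ∞ c (T.ch0 a' x) ∧ c (T.ch0 a' x) ≠ 0 ∧
      ∀ᶠ z in 𝓝[≠] (T.ch0 a' x), b ((T.ch0 a').symm z) = (z - T.ch0 a' x) ^ n * c z := by
  obtain ⟨a, hx, c, hc, hc0, hev⟩ := h
  set φ : ℂ → ℂ := fun z => T.ch0 a ((T.ch0 a').symm z) with hφ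
  set z0 := T.ch0 a' x with hz0
  have e1 : φ z0 = T.ch0 a x := by
    simp only [hφ, hz0]; rw [(T.ch0 a').left_inv hx']
  have han : AnalyticAt ℂ φ z0 := T.trans_an a a' hx hx'
  have hd : deriv φ z0 ≠ 0 := T.trans_deriv a a' hx hx'
  have hk : AnalyticAt ℂ (dslope φ z0) z0 := by
    obtain ⟨s, hs, hsd⟩ : ∃ s ∈ 𝓝 z0, DifferentiableOn ℂ φ s := by
      refine ⟨_, han.eventually_analyticAt, fun y hy => ?_⟩
      exact (AnalyticAt.differentiableAt hy).differentiableWithinAt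
    have := (Complex.differentiableOn_dslope hs).2 hsd
    exact this.analyticAt hs
  have hk0 : dslope φ z0 z0 ≠ 0 := by rw [dslope_same]; exact hd
  refine ⟨fun z => dslope φ z0 z ^ n * c (φ z), ?_, ?_, ?_⟩
  · refine (contDiffAt_zpow_of_ne (hk.contDiffAt.restrict_scalars ℝ) hk0 n).mul ?_
    have h2 : ContDiffAt ℝ ∞ c (φ z0) := by rw [e1]; exact hc
    exact h2.comp z0 (han.contDiffAt.restrict_scalars ℝ)
  · refine mul_ne_zero (zpow_ne_zero _ hk0) ?_
    rw [e1]; exact hc0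
  · have h3 := (T.trans_tendsto a a' hx hx').eventually hev
    filter_upwards [h3, (T.trans_ev a a' hx hx').filter_mono nhdsWithin_le_nhds,
      self_mem_nhdsWithin] with z hz1 hz2 hz3
    have hne : z ≠ z0 := hz3
    rw [(T.ch0 a).left_inv hz2.2] at hz1
    rw [hz1, ← mul_assoc, ← mul_zpow]
    congr 2
    rw [dslope_of_ne _ hne, slope_def_field, mul_div_cancel₀ _ (sub_ne_zero.2 hne), e1]

lemma HasDiv.mul [T2Space X] {b b' : T.Cp → ℂ} {x : T.Cp} {n n' : ℤ} (h : T.HasDiv b x n)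
    (h' : T.HasDiv b' x n') : T.HasDiv (fun y => b y * b' y) x (n + n') := by
  obtain ⟨a, hx, c, hc, hc0, hev⟩ := h
  obtain ⟨c', hc', hc0', hev'⟩ := h'.chart a hx
  refine ⟨a, hx, fun z => c z * c' z, hc.mul hc', mul_ne_zero hc0 hc0', ?_⟩
  filter_upwards [hev, hev', self_mem_nhdsWithin] with z h1 h2 h3
  rw [h1, h2, zpow_add₀ (sub_ne_zero.2 h3)]
  ring

lemma HasDiv.zpow [T2Space X] {b : T.Cp → ℂ} {x : T.Cp} {n : ℤ} (h : T.HasDiv b x n) (k : ℤ) :
    T.HasDiv (fun y => b y ^ k) x (k * n) := by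
  obtain ⟨a, hx, c, hc, hc0, hev⟩ := h
  refine ⟨a, hx, fun z => c z ^ k, contDiffAt_zpow_of_ne hc hc0 k, zpow_ne_zero _ hc0, ?_⟩
  filter_upwards [hev] with z h1
  rw [h1, mul_zpow, ← zpow_mul, mul_comm n k]

lemma HasDiv.one [T2Space X] (x : T.Cp) : T.HasDiv (fun _ => (1 : ℂ)) x 0 := by
  obtain ⟨a, hx⟩ := T.exists_mem_source x
  exact ⟨a, hx, fun _ => 1, contDiffAt_const, one_ne_zero, by simp⟩

lemma HasDiv.congr [T2Space X] {b b' : T.Cp → ℂ} {x : T.Cp} {n : ℤ} (h : T.HasDiv b x n)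
    (hb : b' =ᶠ[𝓝 x] b) : T.HasDiv b' x n := by
  obtain ⟨a, hx, c, hc, hc0, hev⟩ := h
  refine ⟨a, hx, c, hc, hc0, ?_⟩
  have h1 : Tendsto (T.ch0 a).symm (𝓝 (T.ch0 a x)) (𝓝 x) := by
    have := (T.ch0 a).continuousAt_symm ((T.ch0 a).map_source hx)
    have h2 := this.tendsto
    rwa [(T.ch0 a).left_inv hx] at h2
  filter_upwards [hev, (h1.eventually hb).filter_mono nhdsWithin_le_nhds] with z h2 h3
  rw [h3, h2]

/-- a product over a finite set -/
lemma HasDiv.prod [T2Space X] {κ : Type*} (s : Finset κ) {b : κ → T.Cp → ℂ} {x : T.Cp}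
    {n : κ → ℤ} (h : ∀ k ∈ s, T.HasDiv (b k) x (n k)) :
    T.HasDiv (fun y => ∏ k ∈ s, b k y) x (∑ k ∈ s, n k) := by
  classical
  induction s using Finset.induction_on with
  | empty => simpa using HasDiv.one x
  | insert k s hk ih =>
    simp only [Finset.prod_insert hk, Finset.sum_insert hk]
    exact (h k (Finset.mem_insert_self _ _)).mul
      (ih fun j hj => h j (Finset.mem_insert_of_mem hj))

/-! ### patches -/

/-- local form of a function on `ℂ` -/
def HasDivC (m : ℂ → ℂ) (z : ℂ) (n : ℤ) : Prop :=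
  ∃ c : ℂ → ℂ, ContDiffAt ℝ ∞ c z ∧ c z ≠ 0 ∧ ∀ᶠ y in 𝓝[≠] z, m y = (y - z) ^ n * c y

open Classical in
/-- extension by `1` of a function on a coordinate disc -/
def patch [T2Space X] (a : T.SecD ⊕ T.ι) (z0 : ℂ) (r : ℝ) (m : ℂ → ℂ) (x : T.Cp) : ℂ :=
  if x ∈ (T.ch0 a).symm '' ball z0 r then m (T.ch0 a x) else 1

section patch

variable [T2Space X] {a : T.SecD ⊕ T.ι} {z0 : ℂ} {r ρ : ℝ} {m : ℂ → ℂ}

lemma patch_symm (hr : ball z0 r ⊆ (T.ch0 a).target) {z : ℂ} (hz : z ∈ ball z0 r) :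
    patch a z0 r m ((T.ch0 a).symm z) = m z := by
  rw [patch, if_pos ⟨z, hz, rfl⟩, (T.ch0 a).right_inv (hr hz)]

lemma hasDiv_patch_in (hr : ball z0 r ⊆ (T.ch0 a).target) {z : ℂ} (hz : z ∈ ball z0 r) {n : ℤ}
    (h : HasDivC m z n) : T.HasDiv (patch a z0 r m) ((T.ch0 a).symm z) n := by
  obtain ⟨c, hc, hc0, hev⟩ := h
  refine ⟨a, (T.ch0 a).map_target (hr hz), c, ?_, ?_, ?_⟩
  · rwa [(T.ch0 a).right_inv (hr hz)]
  · rwa [(T.ch0 a).right_inv (hr hz)]
  · rw [(T.ch0 a).right_inv (hr hz)]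
    filter_upwards [hev, (isOpen_ball.mem_nhds hz |> mem_nhdsWithin_of_mem_nhds)] with y h1 h2
    rw [patch_symm hr h2, h1]

lemma patch_eq_one (hr : closedBall z0 ρ ⊆ (T.ch0 a).target)
    (hr' : ball z0 r ⊆ (T.ch0 a).target)
    (h1 : ∀ y ∈ ball z0 r, ρ < ‖y - z0‖ → m y = 1) {x : T.Cp}
    (hx : x ∉ (T.ch0 a).symm '' closedBall z0 ρ) : patch a z0 r m =ᶠ[𝓝 x] fun _ => 1 := by
  have hK : IsClosed ((T.ch0 a).symm '' closedBall z0 ρ) :=
    ((isCompact_closedBall z0 ρ).image_of_continuousOn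
      ((T.ch0 a).continuousOn_symm.mono hr)).isClosed
  filter_upwards [hK.isOpen_compl.mem_nhds hx] with y hy
  by_cases hy1 : y ∈ (T.ch0 a).symm '' ball z0 r
  · obtain ⟨z, hz, rfl⟩ := hy1
    rw [patch_symm hr' hz]
    apply h1 z hz
    by_contra h
    rw [not_lt] at h
    exact hy ⟨z, by rwa [mem_closedBall, dist_eq_norm], rfl⟩
  · rw [patch, if_neg hy1]

lemma hasDiv_patch_out (hr : closedBall z0 ρ ⊆ (T.ch0 a).target)
    (hr' : ball z0 r ⊆ (T.ch0 a).target)
    (h1 : ∀ y ∈ ball z0 r, ρ < ‖y - z0‖ → m y = 1) {x : T.Cp}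
    (hx : x ∉ (T.ch0 a).symm '' closedBall z0 ρ) : T.HasDiv (patch a z0 r m) x 0 :=
  (HasDiv.one x).congr (patch_eq_one hr hr' h1 hx)

end patch

/-! ### the local block -/

/-- the function `(z - z₁) / (z - z₂)`, cut off -/
def mu (z0 z1 z2 : ℂ) (r : ℝ) (χ : ContDiffBump z0) (z : ℂ) : ℂ :=
  if ‖z - z0‖ < r / 3 then (z - z1) / (z - z2) else
    Complex.exp ((χ z : ℂ) * (Complex.log (1 + -((z1 - z0) / (z - z0))) -
      Complex.log (1 + -((z2 - z0) / (z - z0)))))

section mu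

variable {z0 z1 z2 : ℂ} {r : ℝ} {χ : ContDiffBump z0}

lemma aux_norm (h1 : ‖z1 - z0‖ < r / 4) {z : ℂ} (hz : r / 4 ≤ ‖z - z0‖) :
    ‖-((z1 - z0) / (z - z0))‖ < 1 := by
  have h2 : 0 < ‖z - z0‖ := (norm_nonneg _).trans_lt (h1.trans_le hz)
  rw [norm_neg, norm_div, div_lt_one h2]
  exact h1.trans_le hz

lemma aux_exp (h1 : ‖z1 - z0‖ < r / 4) (h2 : ‖z2 - z0‖ < r / 4) {z : ℂ}
    (hz : r / 4 ≤ ‖z - z0‖) :
    Complex.exp (Complex.log (1 + -((z1 - z0) / (z - z0))) -
      Complex.log (1 + -((z2 - z0) / (z - z0)))) = (z - z1) / (z - z2) := by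
  have h3 : 0 < ‖z - z0‖ := (norm_nonneg _).trans_lt (h1.trans_le hz)
  have h4 : z - z0 ≠ 0 := norm_pos_iff.1 h3
  have s1 := Complex.slitPlane_ne_zero (Complex.mem_slitPlane_of_norm_lt_one (aux_norm h1 hz))
  have s2 := Complex.slitPlane_ne_zero (Complex.mem_slitPlane_of_norm_lt_one (aux_norm h2 hz))
  rw [Complex.exp_sub, Complex.exp_log s1, Complex.exp_log s2]
  have e1 : 1 + -((z1 - z0) / (z - z0)) = (z - z1) / (z - z0) := by field_simp; ring
  have e2 : 1 + -((z2 - z0) / (z - z0)) = (z - z2) / (z - z0) := by field_simp; ring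
  rw [e1, e2, div_div_div_cancel_right₀ h4]

lemma mu_outer (h1 : ‖z1 - z0‖ < r / 4) (h2 : ‖z2 - z0‖ < r / 4) (hχ : χ.rIn = r / 3) {z : ℂ}
    (hz : r / 4 ≤ ‖z - z0‖) : mu z0 z1 z2 r χ z =
      Complex.exp ((χ z : ℂ) * (Complex.log (1 + -((z1 - z0) / (z - z0))) -
      Complex.log (1 + -((z2 - z0) / (z - z0))))) := by
  rw [mu]
  split_ifs with h
  · have : χ z = 1 := χ.one_of_mem_closedBall (by
      rw [mem_closedBall, dist_eq_norm, hχ]; exact h.le)
    rw [this, Complex.ofReal_one, one_mul, aux_exp h1 h2 hz]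
  · rfl

lemma mu_one (h1 : ‖z1 - z0‖ < r / 4) (h2 : ‖z2 - z0‖ < r / 4) (hχ : χ.rIn = r / 3)
    (hχ' : χ.rOut = r / 2) {z : ℂ} (hz : r / 2 < ‖z - z0‖) : mu z0 z1 z2 r χ z = 1 := by
  have hr : 0 < r := by have := (norm_nonneg _).trans_lt h1; linarith
  rw [mu_outer h1 h2 hχ (by linarith)]
  have : χ z = 0 := χ.zero_of_le_dist (by rw [dist_eq_norm, hχ']; exact hz.le)
  rw [this]; simp

open Classical in
lemma hasDivC_mu (h1 : ‖z1 - z0‖ < r / 4) (h2 : ‖z2 - z0‖ < r / 4) (hχ : χ.rIn = r / 3)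
    (z : ℂ) : HasDivC (mu z0 z1 z2 r χ) z
      ((if z = z1 then 1 else 0) - (if z = z2 then 1 else 0)) := by
  have hr : 0 < r := by have := (norm_nonneg _).trans_lt h1; linarith
  by_cases hz : ‖z - z0‖ < r / 3
  · have hnear : ∀ᶠ y in 𝓝 z, mu z0 z1 z2 r χ y = (y - z1) / (y - z2) := by
      have : ∀ᶠ y in 𝓝 z, ‖y - z0‖ < r / 3 :=
        (by fun_prop : Continuous fun y : ℂ => ‖y - z0‖).continuousAt.eventually_lt_const hz
      filter_upwards [this] with y hy
      rw [mu, if_pos hy]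
    refine ⟨fun y => (if z = z1 then 1 else (y - z1)) * (if z = z2 then 1 else (y - z2))⁻¹,
      ?_, ?_, ?_⟩
    · refine ContDiffAt.mul ?_ (ContDiffAt.inv ?_ ?_)
      · split_ifs
        · exact contDiffAt_const
        · exact contDiffAt_id.sub contDiffAt_const
      · split_ifs
        · exact contDiffAt_const
        · exact contDiffAt_id.sub contDiffAt_const
      · split_ifs with h
        · exact one_ne_zero
        · exact sub_ne_zero.2 h
    · refine mul_ne_zero ?_ (inv_ne_zero ?_)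
      · split_ifs with h
        · exact one_ne_zero
        · exact sub_ne_zero.2 h
      · split_ifs with h
        · exact one_ne_zero
        · exact sub_ne_zero.2 h
    · filter_upwards [hnear.filter_mono nhdsWithin_le_nhds, self_mem_nhdsWithin] with y hy hne
      have hne' : y - z ≠ 0 := sub_ne_zero.2 hne
      rw [hy]
      by_cases e1 : z = z1 <;> by_cases e2 : z = z2
      · subst e1; subst e2
        simp [div_self hne']
      · subst e1
        simp [e2, div_eq_mul_inv]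
      · subst e2
        simp [e1, div_eq_mul_inv, mul_comm]
      · simp [e1, e2, div_eq_mul_inv]
  · rw [not_lt] at hz
    have hz4 : r / 4 < ‖z - z0‖ := by linarith
    have e1 : z ≠ z1 := by rintro rfl; linarith
    have e2 : z ≠ z2 := by rintro rfl; linarith
    rw [if_neg e1, if_neg e2, sub_zero]
    have hz0 : z - z0 ≠ 0 := norm_pos_iff.1 (by linarith)
    refine ⟨fun z => Complex.exp ((χ z : ℂ) * (Complex.log (1 + -((z1 - z0) / (z - z0))) -
      Complex.log (1 + -((z2 - z0) / (z - z0))))), ?_, Complex.exp_ne_zero _, ?_⟩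
    · have hA : ∀ w : ℂ, ‖w - z0‖ < r / 4 →
          AnalyticAt ℂ (fun z => Complex.log (1 + -((w - z0) / (z - z0)))) z := by
        intro w hw
        refine AnalyticAt.clog ?_ (Complex.mem_slitPlane_of_norm_lt_one (aux_norm hw hz4.le))
        exact analyticAt_const.add ((analyticAt_const.div
          (analyticAt_id.sub analyticAt_const) hz0).neg)
      have hχs : ContDiffAt ℝ ∞ (fun z => (χ z : ℂ)) z :=
        Complex.ofRealCLM.contDiff.contDiffAt.comp z χ.contDiffAt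
      have h5 : ContDiffAt ℝ ∞ (fun z => Complex.log (1 + -((z1 - z0) / (z - z0))) -
          Complex.log (1 + -((z2 - z0) / (z - z0)))) z :=
        (((hA z1 h1).sub (hA z2 h2)).contDiffAt).restrict_scalars ℝ
      exact ((Complex.contDiff_exp (𝕜 := ℝ)).contDiffAt).comp z (hχs.mul h5)
    · have : ∀ᶠ y in 𝓝 z, r / 4 < ‖y - z0‖ :=
        (by fun_prop : Continuous fun y : ℂ => ‖y - z0‖).continuousAt.eventually_const_lt hz4
      filter_upwards [this.filter_mono nhdsWithin_le_nhds] with y hy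
      rw [zpow_zero, one_mul, mu_outer h1 h2 hχ hy.le]

end mu

/-! ### divisors of degree zero -/

variable (T) in
/-- `D` is the divisor of a smooth function -/
def Good [T2Space X] (D : T.Cp → ℤ) : Prop := ∃ b : T.Cp → ℂ, ∀ x, T.HasDiv b x (D x)

lemma Good.add [T2Space X] {D D' : T.Cp → ℤ} (h : T.Good D) (h' : T.Good D') :
    T.Good (fun x => D x + D' x) := by
  obtain ⟨b, hb⟩ := h
  obtain ⟨b', hb'⟩ := h'
  exact ⟨_, fun x => (hb x).mul (hb' x)⟩

lemma Good.zsmul [T2Space X] {D : T.Cp → ℤ} (k : ℤ) (h : T.Good D) :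
    T.Good (fun x => k * D x) := by
  obtain ⟨b, hb⟩ := h
  exact ⟨_, fun x => (hb x).zpow k⟩

lemma Good.sum [T2Space X] {κ : Type*} (s : Finset κ) {D : κ → T.Cp → ℤ}
    (h : ∀ k ∈ s, T.Good (D k)) : T.Good (fun x => ∑ k ∈ s, D k x) := by
  classical
  induction s using Finset.induction_on with
  | empty => exact ⟨fun _ => 1, fun x => by simpa using HasDiv.one x⟩
  | insert k s hk ih =>
    simp only [Finset.sum_insert hk]
    exact (h k (Finset.mem_insert_self _ _)).add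
      (ih fun j hj => h j (Finset.mem_insert_of_mem hj))

open Classical in
/-- the divisor `p - q` -/
def dpq (T : Srf X) (p q x : T.Cp) : ℤ := (if x = p then 1 else 0) - (if x = q then 1 else 0)

lemma good_local [T2Space X] (x : T.Cp) : ∀ᶠ y in 𝓝 x, ∀ᶠ y' in 𝓝 x, T.Good (T.dpq y y') := by
  classical
  obtain ⟨a, hx⟩ := T.exists_mem_source x
  change x ∈ (T.ch0 a).source at hx
  set z0 := T.ch0 a x with hz0
  obtain ⟨r, hr, hrt⟩ : ∃ r > 0, ball z0 r ⊆ (T.ch0 a).target :=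
    Metric.isOpen_iff.1 (T.ch0 a).open_target z0 ((T.ch0 a).map_source hx)
  have key : ∀ᶠ y in 𝓝 x, y ∈ (T.ch0 a).source ∧ ‖T.ch0 a y - z0‖ < r / 4 := by
    have h1 := (T.ch0 a).open_source.mem_nhds hx
    have h2 : ContinuousAt (fun y => ‖T.ch0 a y - z0‖) x :=
      (((T.ch0 a).continuousAt hx).sub continuousAt_const).norm
    have h3 : ‖T.ch0 a x - z0‖ < r / 4 := by rw [← hz0, sub_self, norm_zero]; positivity
    exact (eventually_mem_set.2 h1).and (h2.eventually_lt_const h3)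
  filter_upwards [key] with p hp
  filter_upwards [key] with q hq
  have hχ : r / 3 < r / 2 := by linarith
  set χ : ContDiffBump z0 := ⟨r / 3, r / 2, by positivity, hχ⟩ with hχd
  refine ⟨patch a z0 r (mu z0 (T.ch0 a p) (T.ch0 a q) r χ), fun y => ?_⟩
  by_cases hy : y ∈ (T.ch0 a).symm '' ball z0 r
  · obtain ⟨z, hz, rfl⟩ := hy
    have h1 := hasDiv_patch_in hrt hz (hasDivC_mu (χ := χ) hp.2 hq.2 rfl z)
    have e1 : ∀ p, p ∈ (T.ch0 a).source → ((T.ch0 a).symm z = p ↔ z = T.ch0 a p) := by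
      intro p hp
      constructor
      · rintro rfl; rw [(T.ch0 a).right_inv (hrt hz)]
      · rintro rfl; rw [(T.ch0 a).left_inv hp]
    unfold dpq
    rw [if_congr (e1 p hp.1) rfl rfl, if_congr (e1 q hq.1) rfl rfl]
    exact h1
  · have hcl : closedBall z0 (r / 2) ⊆ ball z0 r := closedBall_subset_ball (by linarith)
    have h1 : T.HasDiv (patch a z0 r (mu z0 (T.ch0 a p) (T.ch0 a q) r χ)) y 0 := by
      refine hasDiv_patch_out (ρ := r / 2) (hcl.trans hrt) hrt ?_ ?_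
      · intro z _ hz
        exact mu_one hp.2 hq.2 rfl rfl hz
      · rintro ⟨z, hz, rfl⟩
        exact hy ⟨z, hcl hz, rfl⟩
    have hmem : ∀ p, p ∈ (T.ch0 a).source ∧ ‖T.ch0 a p - z0‖ < r / 4 → y ≠ p := by
      rintro p hp rfl
      refine hy ⟨T.ch0 a y, ?_, (T.ch0 a).left_inv hp.1⟩
      rw [mem_ball, dist_eq_norm]; linarith [hp.2]
    unfold dpq
    rw [if_neg (hmem p hp), if_neg (hmem q hq), sub_zero]
    exact h1

lemma good_pq [T2Space X] [ConnectedSpace X] (p q : T.Cp) : T.Good (T.dpq p q) := by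
  have hadd : ∀ p q r, T.Good (T.dpq p q) → T.Good (T.dpq q r) → T.Good (T.dpq p r) := by
    intro p q r h1 h2
    have h3 := h1.add h2
    have e : (fun x => T.dpq p q x + T.dpq q r x) = T.dpq p r := by
      funext x; unfold dpq; ring
    rwa [e] at h3
  have hsymm : ∀ p q, T.Good (T.dpq p q) → T.Good (T.dpq q p) := by
    intro p q h
    have h3 := h.zsmul (-1)
    have e : (fun x => -1 * T.dpq p q x) = T.dpq q p := by
      funext x; unfold dpq; ring
    rwa [e] at h3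
  have hloc : ∀ x : T.Cp, ∃ U ∈ 𝓝 x, ∀ y ∈ U, ∀ y' ∈ U, T.Good (T.dpq y y') := by
    intro x
    have h1 := good_local (T := T) x
    refine ⟨{y | T.Good (T.dpq y x)}, ?_, ?_⟩
    · filter_upwards [h1] with y hy using hy.self_of_nhds
    · intro y hy y' hy'
      exact hadd y x y' hy (hsymm y' x hy')
  have hopen : IsOpen {y | T.Good (T.dpq p y)} := by
    rw [isOpen_iff_mem_nhds]
    intro y hy
    obtain ⟨U, hU, h⟩ := hloc y
    filter_upwards [hU] with y' hy'
    exact hadd p y y' hy (h y (mem_of_mem_nhds hU) y' hy')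
  have hclosed : IsClosed {y | T.Good (T.dpq p y)} := by
    rw [← closure_subset_iff_isClosed]
    intro y hy
    obtain ⟨U, hU, h⟩ := hloc y
    obtain ⟨y', hy'U, hy'⟩ := mem_closure_iff_nhds.1 hy U hU
    exact hadd p y' y hy' (h y' hy'U y (mem_of_mem_nhds hU))
  have hne : ({y | T.Good (T.dpq p y)} : Set T.Cp).Nonempty := by
    refine ⟨p, fun _ => 1, fun x => ?_⟩
    have : T.dpq p p x = 0 := by unfold dpq; ring
    rw [this]; exact HasDiv.one x
  have := IsClopen.eq_univ ⟨hclosed, hopen⟩ hne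
  have h : q ∈ {y | T.Good (T.dpq p y)} := by rw [this]; trivial
  exact h

open Classical in
/-- **every divisor of degree zero at the ends is the divisor of a smooth function** -/
theorem exists_div [T2Space X] [ConnectedSpace X] (D : T.ι → ℤ) (hD : ∑ i, D i = 0) :
    ∃ b : T.Cp → ℂ, (∀ i, T.HasDiv b (T.en i) (D i)) ∧ ∀ x, T.HasDiv b (T.jn x) 0 := by
  have x0 : X := Classical.arbitrary X
  have h1 : T.Good (fun x => ∑ i, D i * T.dpq (T.en i) (T.jn x0) x) :=
    Good.sum _ fun i _ => (good_pq _ _).zsmul _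
  obtain ⟨b, hb⟩ := h1
  have e : ∀ x, (∑ i, D i * T.dpq (T.en i) (T.jn x0) x) = ∑ i, D i * (if x = T.en i then 1 else 0) := by
    intro x
    unfold dpq
    simp only [mul_sub, Finset.sum_sub_distrib]
    rw [← Finset.sum_mul, hD]
    ring
  refine ⟨b, fun i => ?_, fun x => ?_⟩
  · have := hb (T.en i)
    beta_reduce at this
    rw [e] at this
    have e2 : ∑ j, D j * (if T.en i = T.en j then 1 else 0) = D i := by
      rw [Finset.sum_eq_single i]
      · simp
      · intro j _ hj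
        rw [if_neg (fun h => hj (T.en_injective h).symm), mul_zero]
      · intro h; exact absurd (Finset.mem_univ _) h
    rwa [e2] at this
  · have := hb (T.jn x)
    beta_reduce at this
    rw [e] at this
    have e2 : ∑ j, D j * (if T.jn x = T.en j then 1 else 0) = 0 := by
      refine Finset.sum_eq_zero fun j _ => ?_
      rw [if_neg (T.jn_ne_en x j), mul_zero]
    rwa [e2] at this

end Srf

end Crest.Agent.R257.RS_176
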