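import Crest.Agent.R257.RSE_176

/-!
# Row 257, part C, weights on finite coverings (helper176), file RSW2

Sums over the fibres near a branch point (or infinity) and the ends: `sum_fib_eq`.
-/

set_option autoImplicit false
set_option linter.unusedSectionVars false

open Set Filter Topology Metric
open scoped ContDiff

noncomputable section

namespace Crest.Agent.R257.RS_176

/-- a function locally constant along a preconnected set is constant -/
lemma const_on {α β : Type*} [TopologicalSpace α] {s : Set α} (hs : IsPreconnected s)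
    {f : α → β} (hf : ∀ x ∈ s, ∀ᶠ y in 𝓝[s] x, f y = f x) {x y : α} (hx : x ∈ s) (hy : y ∈ s) :
    f x = f y := by
  have h1 : PreconnectedSpace s := isPreconnected_iff_preconnectedSpace.1 hs
  have h2 : IsLocallyConstant (fun z : s => f z.1) := by
    rw [IsLocallyConstant.iff_eventually_eq]
    intro z
    have h3 := hf z.1 z.2
    rw [nhdsWithin_eq_map_subtype_coe z.2, Filter.eventually_map] at h3
    exact h3
  exact h2.apply_eq_of_isPreconnected (s := univ) isPreconnected_univ (mem_univ (⟨x, hx⟩ : s))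
    (mem_univ (⟨y, hy⟩ : s))

/-- region around a centre -/
def Rg (c : Option ℂ) (ρ : ℝ) : Set ℂ :=
  match c with
  | some a => {w | ‖w - a‖ < ρ}
  | none => {w | ρ⁻¹ < ‖w‖}

/-- closed region around a centre -/
def Rc (c : Option ℂ) (ρ : ℝ) : Set ℂ :=
  match c with
  | some a => {w | ‖w - a‖ ≤ ρ}
  | none => {w | ρ⁻¹ ≤ ‖w‖}

/-- the logarithm of a centre -/
def Lg (c : Option ℂ) (w : ℂ) : ℝ :=
  match c with
  | some a => Real.log (‖w - a‖ ^ 2)
  | none => - Real.log (‖w‖ ^ 2)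

lemma isOpen_Rg (c : Option ℂ) (ρ : ℝ) : IsOpen (Rg c ρ) := by
  cases c with
  | none => exact isOpen_lt continuous_const continuous_norm
  | some a => exact isOpen_lt (continuous_id.sub continuous_const).norm continuous_const

lemma isClosed_Rc (c : Option ℂ) (ρ : ℝ) : IsClosed (Rc c ρ) := by
  cases c with
  | none => exact isClosed_le continuous_const continuous_norm
  | some a => exact isClosed_le (continuous_id.sub continuous_const).norm continuous_const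

lemma Rg_sub_Rc (c : Option ℂ) (ρ : ℝ) : Rg c ρ ⊆ Rc c ρ := by
  cases c with
  | none => exact fun w (hw : ρ⁻¹ < ‖w‖) => show ρ⁻¹ ≤ ‖w‖ from hw.le
  | some a => exact fun w (hw : ‖w - a‖ < ρ) => show ‖w - a‖ ≤ ρ from hw.le

lemma Rc_sub_Rg (c : Option ℂ) {ρ ρ' : ℝ} (h0 : 0 < ρ) (h : ρ < ρ') : Rc c ρ ⊆ Rg c ρ' := by
  cases c with
  | none =>
    intro w hw
    have h1 : ρ⁻¹ ≤ ‖w‖ := hw
    exact lt_of_lt_of_le ((inv_lt_inv₀ (h0.trans h) h0).2 h) h1
  | some a =>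
    intro w hw
    exact lt_of_le_of_lt hw h

lemma pow_bd {m : ℕ} (hm : 0 < m) {τ : ℂ} {ρ : ℝ} (h : τ ∈ PD (min 1 ρ)) :
    0 < ‖τ‖ ^ m ∧ ‖τ‖ ^ m < ρ := by
  refine ⟨pow_pos h.1 m, ?_⟩
  have h1 : ‖τ‖ < 1 := h.2.trans_le (min_le_left _ _)
  exact (pow_le_of_le_one h.1.le h1.le hm.ne').trans_lt (h.2.trans_le (min_le_right _ _))

lemma Rg_of_pow (c : Option ℂ) {m : ℕ} {τ : ℂ} {ρ : ℝ} (h0 : 0 < ‖τ‖ ^ m)
    (h1 : ‖τ‖ ^ m < ρ) : endPr c m τ ∈ Rg c ρ := by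
  cases c with
  | none =>
    change ρ⁻¹ < ‖(τ ^ m)⁻¹‖
    rw [norm_inv, norm_pow]
    exact (inv_lt_inv₀ (h0.trans h1) h0).2 h1
  | some a =>
    change ‖a + τ ^ m - a‖ < ρ
    rw [add_sub_cancel_left, norm_pow]
    exact h1

lemma Lg_endPr (c : Option ℂ) (m : ℕ) (τ : ℂ) :
    Lg c (endPr c m τ) = m * Real.log (‖τ‖ ^ 2) := by
  cases c with
  | none =>
    change - Real.log (‖(τ ^ m)⁻¹‖ ^ 2) = _
    rw [norm_inv, norm_pow, inv_pow, Real.log_inv, neg_neg, ← pow_mul, mul_comm m 2, pow_mul,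
      Real.log_pow]
  | some a =>
    change Real.log (‖a + τ ^ m - a‖ ^ 2) = _
    rw [add_sub_cancel_left, norm_pow, ← pow_mul, mul_comm m 2, pow_mul, Real.log_pow]

/-- the punctured region -/
def PR (c : Option ℂ) (ρ : ℝ) : Set ℂ := endPr c 1 '' PD ρ

lemma isPreconnected_PR (c : Option ℂ) (ρ : ℝ) : IsPreconnected (PR c ρ) := by
  refine (isPreconnected_PD ρ).image _ fun q hq => ?_
  obtain ⟨d, -, h⟩ := hasStrictDerivAt_endPr c one_pos (norm_pos_iff.1 hq.1)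
  exact h.hasDerivAt.continuousAt.continuousWithinAt

lemma mem_PR {c : Option ℂ} {ρ : ℝ} (hρ : 0 < ρ) {w : ℂ} :
    w ∈ PR c ρ ↔ w ∈ Rg c ρ ∧ ∀ a, c = some a → w ≠ a := by
  cases c with
  | none =>
    constructor
    · rintro ⟨q, hq, rfl⟩
      exact ⟨Rg_of_pow none (by simpa using hq.1) (by simpa using hq.2), by simp⟩
    · rintro ⟨h1, -⟩
      have h1' : ρ⁻¹ < ‖w‖ := h1
      have h2 : 0 < ‖w‖ := lt_trans (inv_pos.2 hρ) h1'
      refine ⟨w⁻¹, ⟨by rw [norm_inv]; positivity, ?_⟩, ?_⟩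
      · rw [norm_inv]
        rw [inv_lt_comm₀ h2 hρ]
        exact h1'
      · simp [endPr]
  | some a =>
    constructor
    · rintro ⟨q, hq, rfl⟩
      refine ⟨Rg_of_pow (some a) (by simpa using hq.1) (by simpa using hq.2), ?_⟩
      intro b hb
      have hb' : a = b := by simpa using hb
      subst hb'
      intro h
      have h3 : q = 0 := by simpa [endPr] using h
      rw [h3] at hq
      simp [PD] at hq
    · rintro ⟨h1, h2⟩
      have h1' : ‖w - a‖ < ρ := h1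
      exact ⟨w - a, ⟨norm_pos_iff.2 (sub_ne_zero.2 (h2 a rfl)), h1'⟩, by simp [endPr]⟩

lemma continuousAt_Lg {c : Option ℂ} {ρ : ℝ} (hρ : 0 < ρ) {w : ℂ} (h : w ∈ Rg c ρ)
    (h' : ∀ a, c = some a → w ≠ a) : ContinuousAt (Lg c) w := by
  cases c with
  | none =>
    have h1 : ρ⁻¹ < ‖w‖ := h
    have h2 : 0 < ‖w‖ := lt_trans (inv_pos.2 hρ) h1
    exact (ContinuousAt.log (continuous_norm.pow 2).continuousAt (pow_pos h2 2).ne').neg
  | some a =>
    have h2 : 0 < ‖w - a‖ := norm_pos_iff.2 (sub_ne_zero.2 (h' a rfl))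
    exact ContinuousAt.log ((continuous_id.sub continuous_const).norm.pow 2).continuousAt
      (pow_pos h2 2).ne'

lemma endPr_inj {c : Option ℂ} {m : ℕ} {τ q : ℂ} (h : endPr c m τ = endPr c 1 q) :
    τ ^ m = q := by
  cases c with
  | none => simpa [endPr] using h
  | some a => simpa [endPr] using h

lemma exists_roots {q : ℂ} (hq : q ≠ 0) {m : ℕ} (hm : 0 < m) :
    ∃ R : Finset ℂ, R.card = m ∧ ∀ τ, τ ∈ R ↔ τ ^ m = q := by
  classical
  have h1 := Complex.isPrimitiveRoot_exp m hm.ne'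
  refine ⟨(Polynomial.nthRoots m q).toFinset, ?_, fun τ => ?_⟩
  · rw [Multiset.toFinset_card_of_nodup (h1.nthRoots_nodup hq), h1.card_nthRoots, if_pos]
    obtain ⟨τ, hτ⟩ := IsAlgClosed.exists_pow_nat_eq q hm
    exact ⟨τ, hτ⟩
  · rw [Multiset.mem_toFinset, Polynomial.mem_nthRoots hm]

namespace Srf

variable {X : Type} [TopologicalSpace X] (T : Srf X)

variable {T} in
lemma sum_fib {w : ℂ} {r : ℝ} {σ : Fin T.n → ℂ → X}
    (h2 : ∀ j, ∀ z ∈ ball w r, T.pr (σ j z) = z)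
    (h3 : ∀ z ∈ ball w r, Function.Injective fun j => σ j z)
    (h4 : ∀ x, T.pr x ∈ ball w r → ∃ j, σ j (T.pr x) = x) {z : ℂ} (hz : z ∈ ball w r)
    (f : X → ℝ) : ∑ x ∈ T.fib z, f x = ∑ j, f (σ j z) := by
  have h := prod_fib (T := T) h2 h3 h4 hz (f := fun x => Multiplicative.ofAdd (f x))
  have h' := congrArg Multiplicative.toAdd h
  simpa using h'

/-- sums of locally constant functions over the fibres are locally constant -/
lemma sum_fib_loc [T2Space X] {f : X → ℝ} {w : ℂ} (hw : w ∉ T.S)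
    (hf : ∀ x, T.pr x = w → ∀ᶠ y in 𝓝 x, f y = f x) :
    ∀ᶠ z in 𝓝 w, ∑ x ∈ T.fib z, f x = ∑ x ∈ T.fib w, f x := by
  obtain ⟨r, hr, σ, h1, h2, h3, h4⟩ := T.sec w hw
  have h5 : ∀ᶠ z in 𝓝 w, ∀ j, f (σ j z) = f (σ j w) := by
    rw [eventually_all]
    intro j
    have h6 : ContinuousAt (σ j) w := (h1 j).continuousAt (ball_mem_nhds w hr)
    exact h6.eventually (hf (σ j w) (h2 j w (mem_ball_self hr)))
  filter_upwards [h5, ball_mem_nhds w hr] with z hz hzb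
  rw [sum_fib h2 h3 h4 hzb, sum_fib h2 h3 h4 (mem_ball_self hr)]
  exact Finset.sum_congr rfl fun j _ => hz j

lemma cover_end (c : Option ℂ) (hc : ∀ a, c = some a → a ∈ T.S) :
    ∃ η > 0, ∀ x, ∀ q ∈ PD η, T.pr x = endPr c 1 q →
      ∃ i τ, T.c i = c ∧ τ ∈ PD T.ε ∧ T.γ i τ = x ∧ τ ^ T.m i = q := by
  have hε := T.εpos
  cases c with
  | none =>
    obtain ⟨R, hR⟩ := T.exists_R
    refine ⟨(|R| + 1)⁻¹, by positivity, fun x q hq hx => ?_⟩
    have h1 : R < ‖T.pr x‖ := by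
      rw [hx]
      change R < ‖(q ^ 1)⁻¹‖
      rw [pow_one, norm_inv]
      have h2 : |R| + 1 < ‖q‖⁻¹ := by
        rw [lt_inv_comm₀ (by positivity) hq.1]
        exact hq.2
      have := le_abs_self R
      linarith
    obtain ⟨i, τ, hi, h2, h3, h4⟩ := hR x h1
    refine ⟨i, τ, hi, ⟨h2, by linarith⟩, h4, ?_⟩
    rw [← h4, T.pr_γ i τ h2 (by linarith), hi] at hx
    exact endPr_inj hx
  | some a =>
    obtain ⟨δ, hδ, h⟩ := T.exists_delta
    refine ⟨δ, hδ, fun x q hq hx => ?_⟩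
    obtain ⟨i, τ, hi, h2, h3, h4⟩ := h a (hc a rfl) x (by
      rw [hx]
      change ‖a + q ^ 1 - a‖ < δ
      rw [add_sub_cancel_left, pow_one]
      exact hq.2)
    refine ⟨i, τ, hi, ⟨h2, by linarith⟩, h4, ?_⟩
    rw [← h4, T.pr_γ i τ h2 (by linarith), hi] at hx
    exact endPr_inj hx

open Classical in
lemma sum_near (c : Option ℂ) (hc : ∀ a, c = some a → a ∈ T.S) {r : ℝ} (hr : 0 < r)
    (hS : ∀ q ∈ PD r, endPr c 1 q ∉ T.S) {f : X → ℝ} {v : T.ι → ℝ} {δ : ℝ} (hδ : 0 < δ)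
    (hv : ∀ i, T.c i = c → ∀ τ ∈ PD δ, f (T.γ i τ) = v i) :
    ∃ q ∈ PD r, ∑ x ∈ T.fib (endPr c 1 q), f x =
      ∑ i with T.c i = c, (T.m i : ℝ) * v i := by
  have hε := T.εpos
  obtain ⟨η, hη, hcov⟩ := T.cover_end c hc
  have h1 : ∀ᶠ q' in 𝓝[>] (0 : ℝ), ∀ i : T.ι, q' < (min δ T.ε) ^ T.m i := by
    rw [eventually_all]
    intro i
    exact mem_of_superset (Ioo_mem_nhdsGT (show (0 : ℝ) < (min δ T.ε) ^ T.m i from
      pow_pos (lt_min hδ hε) _)) fun q' hq' => hq'.2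
  have h2 : ∀ᶠ q' in 𝓝[>] (0 : ℝ), q' < min η r :=
    mem_of_superset (Ioo_mem_nhdsGT (lt_min hη hr)) fun q' hq' => hq'.2
  obtain ⟨q', h3, h4, h5⟩ := (h1.and (h2.and self_mem_nhdsWithin)).exists
  have h5' : 0 < q' := h5
  set q : ℂ := (q' : ℂ) with hq
  have hqn : ‖q‖ = q' := by rw [hq, Complex.norm_real, Real.norm_of_nonneg h5'.le]
  have hqr : q ∈ PD r := ⟨by rw [hqn]; exact h5', by rw [hqn]; exact h4.trans_le (min_le_right _ _)⟩
  have hqη : q ∈ PD η := ⟨by rw [hqn]; exact h5', by rw [hqn]; exact h4.trans_le (min_le_left _ _)⟩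
  have hq0 : q ≠ 0 := norm_pos_iff.1 hqr.1
  refine ⟨q, hqr, ?_⟩
  choose R hR1 hR2 using fun i : T.ι => exists_roots hq0 (T.mpos i)
  have hRτ : ∀ i, ∀ τ ∈ R i, τ ∈ PD (min δ T.ε) := by
    intro i τ hτ
    have h6 := (hR2 i τ).1 hτ
    have h7 : ‖τ‖ ^ T.m i = q' := by rw [← norm_pow, h6, hqn]
    constructor
    · rw [norm_pos_iff]
      rintro rfl
      rw [norm_zero, zero_pow (T.mpos i).ne'] at h7
      linarith
    · have h8 := h3 i
      rw [← h7] at h8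
      exact lt_of_pow_lt_pow_left₀ _ (lt_min hδ hε).le h8
  have hfib : T.fib (endPr c 1 q) = ((Finset.univ.filter fun i => T.c i = c).sigma R).image
      fun p => T.γ p.1 p.2 := by
    ext x
    rw [mem_fib (hS q hqr), Finset.mem_image]
    constructor
    · intro hx
      obtain ⟨i, τ, hi, hτ, hx', hm⟩ := hcov x q hqη hx
      exact ⟨⟨i, τ⟩, by simp [hi, hR2, hm], hx'⟩
    · rintro ⟨⟨i, τ⟩, hp, rfl⟩
      simp only [Finset.mem_sigma, Finset.mem_filter, Finset.mem_univ, true_and] at hp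
      have h6 := hRτ i τ hp.2
      have h7 := T.pr_γ i τ h6.1 (h6.2.trans_le (min_le_right _ _))
      simp only
      rw [h7, hp.1]
      have h8 := (hR2 i τ).1 hp.2
      cases c with
      | none => simp [endPr, h8]
      | some a => simp [endPr, h8]
  rw [hfib, Finset.sum_image, Finset.sum_sigma]
  · refine Finset.sum_congr rfl fun i hi => ?_
    have hi' : T.c i = c := (Finset.mem_filter.1 hi).2
    rw [Finset.sum_congr rfl fun τ hτ =>
      hv i hi' τ ((PD_mono (min_le_left _ _)) (hRτ i τ hτ)), Finset.sum_const, hR1, nsmul_eq_mul]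
  · rintro ⟨i, τ⟩ hp ⟨i', τ'⟩ hp' he
    simp only [Finset.coe_sigma, Set.mem_sigma_iff, Finset.mem_coe] at hp hp'
    have h6 := hRτ i τ hp.2
    have h7 := hRτ i' τ' hp'.2
    obtain ⟨h8, h9⟩ := T.γ_inj i i' τ τ' h6.1 (h6.2.trans_le (min_le_right _ _)) h7.1
      (h7.2.trans_le (min_le_right _ _)) he
    subst h8; subst h9
    rfl

open Classical in
/-- **sums over the fibres near a centre** -/
lemma sum_fib_eq [T2Space X] (c : Option ℂ) (hc : ∀ a, c = some a → a ∈ T.S) {r : ℝ} (hr : 0 < r)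
    (hS : ∀ q ∈ PD r, endPr c 1 q ∉ T.S) {f : X → ℝ}
    (hf : ∀ x, T.pr x ∈ PR c r → ∀ᶠ y in 𝓝 x, f y = f x) {v : T.ι → ℝ} {δ : ℝ} (hδ : 0 < δ)
    (hv : ∀ i, T.c i = c → ∀ τ ∈ PD δ, f (T.γ i τ) = v i) {w : ℂ} (hw : w ∈ PR c r) :
    ∑ x ∈ T.fib w, f x = ∑ i with T.c i = c, (T.m i : ℝ) * v i := by
  obtain ⟨q, hq, h1⟩ := T.sum_near c hc hr hS hδ hv
  rw [← h1]
  have hS' : ∀ z ∈ PR c r, z ∉ T.S := by
    rintro _ ⟨q, hq, rfl⟩
    exact hS q hq
  refine const_on (isPreconnected_PR c r) (f := fun z => ∑ x ∈ T.fib z, f x) ?_ hw ⟨q, hq, rfl⟩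
  intro z hz
  exact eventually_nhdsWithin_of_eventually_nhds
    (T.sum_fib_loc (hS' z hz) fun x hx => hf x (by rw [hx]; exact hz))

/-- constancy along the ends -/
lemma exists_vals [T2Space X] {r : ℝ} (hr : 0 < r) (lam : Option ℂ → X → ℝ)
    (hlam : ∀ i x, T.pr x ∈ PR (T.c i) r → ∀ᶠ y in 𝓝 x, lam (T.c i) y = lam (T.c i) x) :
    ∃ (v : T.ι → ℝ) (δ : ℝ), 0 < δ ∧ δ ≤ T.ε ∧ ∀ i, ∀ τ ∈ PD δ,
      T.pr (T.γ i τ) ∈ PR (T.c i) r ∧ lam (T.c i) (T.γ i τ) = v i := by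
  have hε := T.εpos
  set δ : ℝ := min (min 1 r) T.ε with hδ
  have hδ0 : 0 < δ := by positivity
  have hmem : ∀ i, ∀ τ ∈ PD δ, T.pr (T.γ i τ) ∈ PR (T.c i) r := by
    intro i τ hτ
    have h1 := pow_bd (T.mpos i) (PD_mono (min_le_left _ _) hτ)
    rw [T.pr_γ i τ hτ.1 (hτ.2.trans_le (min_le_right _ _))]
    refine ⟨τ ^ T.m i, ⟨?_, ?_⟩, ?_⟩
    · rw [norm_pow]; exact h1.1
    · rw [norm_pow]; exact h1.2
    · cases T.c i <;> simp [endPr]
  have h0 : ((δ / 2 : ℝ) : ℂ) ∈ PD δ := by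
    have h1 : ‖((δ / 2 : ℝ) : ℂ)‖ = δ / 2 := by
      rw [Complex.norm_real, Real.norm_of_nonneg (by positivity)]
    exact ⟨by rw [h1]; positivity, by rw [h1]; linarith⟩
  refine ⟨fun i => lam (T.c i) (T.γ i ((δ / 2 : ℝ) : ℂ)), δ, hδ0, min_le_right _ _,
    fun i τ hτ => ⟨hmem i τ hτ, ?_⟩⟩
  refine const_on (isPreconnected_PD δ) (f := fun τ => lam (T.c i) (T.γ i τ)) ?_ hτ h0
  intro τ' hτ'
  have h1 : ContinuousWithinAt (T.γ i) (PD δ) τ' :=
    ((T.γ_cont i).mono (PD_mono (min_le_right _ _))) τ' hτ'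
  exact h1.eventually (hlam i _ (hmem i τ' hτ'))

end Srf

end Crest.Agent.R257.RS_176
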