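import Crest.Agent.R257.RSE_176
import Crest.Agent.R257.RSA5_844

/-!
# Row 257, part C, the action of a finite group on the compactification (helper176), file RSX

* `Srf.act`     : the action on `T.Cp` (as a definition, not an instance), `act_jn`, `act_en`
* `Srf.holAct`  : it is holomorphic for every compatible atlas
-/

set_option autoImplicit false
set_option linter.unusedSectionVars false

open Set Filter Topology Metric
open scoped ContDiff Manifold

noncomputable section

namespace Crest.Agent.R257.RS_176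

open Crest.Agent.R275.Geo Crest.Agent.R257.RSA_844
open Crest.Agent.R273.Map_835 (HolMap)

namespace Srf

variable {X : Type} [TopologicalSpace X] [T2Space X] (T : Srf X)
  {Γ : Type} [Group Γ] [MulAction Γ X]

/-- the homeomorphism given by an element of the group -/
def hom (hΓ : ∀ γ : Γ, Continuous fun x : X => γ • x) (γ : Γ) : X ≃ₜ X where
  toFun x := γ • x
  invFun x := γ⁻¹ • x
  left_inv x := inv_smul_smul γ x
  right_inv x := smul_inv_smul γ x
  continuous_toFun := hΓ γ
  continuous_invFun := hΓ γ⁻¹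

@[simp] lemma hom_apply (hΓ : ∀ γ : Γ, Continuous fun x : X => γ • x) (γ : Γ) (x : X) :
    hom hΓ γ x = γ • x := rfl

lemma hom_one (hΓ : ∀ γ : Γ, Continuous fun x : X => γ • x) :
    hom hΓ (1 : Γ) = Homeomorph.refl X := by
  ext x
  exact one_smul Γ x

lemma hom_mul (hΓ : ∀ γ : Γ, Continuous fun x : X => γ • x) (γ δ : Γ) :
    hom hΓ (γ * δ) = (hom hΓ δ).trans (hom hΓ γ) := by
  ext x
  exact mul_smul γ δ x

/-- the action on the compactification -/
@[reducible] def act (hΓ : ∀ γ : Γ, Continuous fun x : X => γ • x) : MulAction Γ T.Cp where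
  smul γ p := T.ext (hom hΓ γ) p
  one_smul p := by
    change T.ext (hom hΓ 1) p = p
    rw [hom_one, T.ext_refl]
  mul_smul γ δ p := by
    change T.ext (hom hΓ (γ * δ)) p = T.ext (hom hΓ γ) (T.ext (hom hΓ δ) p)
    rw [hom_mul, T.ext_trans]

/-- holomorphic homeomorphisms are holomorphic maps for compatible atlases -/
theorem holMap_ext {A : Atl 1 T.Cp} (hC : T.Compat A) (g : X ≃ₜ X)
    (hg : T.Hol fun x => T.pr (g x)) : HolMap A A (fun p => T.ext g p) where
  cont := (T.ext g).continuous
  hol i j := by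
    rintro v ⟨hv, hv'⟩
    set p : T.Cp := (A.e i).symm v with hp
    have hpi : p ∈ (A.e i).source := (A.e i).map_target hv
    have hpj : T.ext g p ∈ (A.e j).source := hv'
    obtain ⟨a, ha⟩ : ∃ a, p ∈ (T.ch0 a).source := T.exists_mem_source p
    obtain ⟨b, hb⟩ : ∃ b, T.ext g p ∈ (T.ch0 b).source := T.exists_mem_source _
    -- the three maps
    have h1 : DifferentiableAt ℂ (fun v => T.ch0 a ((A.e i).symm v)) v :=
      (hC.inn a i).differentiableAt
        (((A.e i).isOpen_inter_preimage_symm (T.ch0 a).open_source).mem_nhds ⟨hv, ha⟩)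
    have hap : (T.ch0 a).symm (T.ch0 a p) = p := (T.ch0 a).left_inv ha
    have hopen : IsOpen {z | z ∈ (T.ch0 a).target ∧
        T.ext g ((T.ch0 a).symm z) ∈ (T.ch0 b).source} :=
      (T.ch0 a).isOpen_inter_preimage_symm
        ((T.ch0 b).open_source.preimage (T.ext g).continuous)
    have h2 : DifferentiableAt ℂ (fun z => T.ch0 b (T.ext g ((T.ch0 a).symm z))) (T.ch0 a p) :=
      (T.holo_ext g hg a b).differentiableAt
        (hopen.mem_nhds ⟨(T.ch0 a).map_source ha, by rw [hap]; exact hb⟩)
    have hbp : (T.ch0 b).symm (T.ch0 b (T.ext g p)) = T.ext g p := (T.ch0 b).left_inv hb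
    have h3 : DifferentiableAt ℂ (fun z => A.e j ((T.ch0 b).symm z)) (T.ch0 b (T.ext g p)) :=
      (hC.out b j).differentiableAt
        (((T.ch0 b).isOpen_inter_preimage_symm (A.e j).open_source).mem_nhds
          ⟨(T.ch0 b).map_source hb, by rw [mem_preimage, hbp]; exact hpj⟩)
    have h12 : DifferentiableAt ℂ
        (fun v => T.ch0 b (T.ext g ((T.ch0 a).symm (T.ch0 a ((A.e i).symm v))))) v :=
      DifferentiableAt.comp (g := fun z => T.ch0 b (T.ext g ((T.ch0 a).symm z)))
        (f := fun v => T.ch0 a ((A.e i).symm v)) v h2 h1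
    have h3' : DifferentiableAt ℂ (fun z => A.e j ((T.ch0 b).symm z))
        (T.ch0 b (T.ext g ((T.ch0 a).symm (T.ch0 a ((A.e i).symm v))))) := by
      rw [← hp, hap]
      exact h3
    have h123 := DifferentiableAt.comp (g := fun z => A.e j ((T.ch0 b).symm z))
      (f := fun v => T.ch0 b (T.ext g ((T.ch0 a).symm (T.ch0 a ((A.e i).symm v))))) v h3' h12
    refine (h123.congr_of_eventuallyEq ?_).differentiableWithinAt
    have c1 : ContinuousAt (A.e i).symm v := (A.e i).continuousAt_symm hv
    have c2 : ContinuousAt (fun v => T.ext g ((A.e i).symm v)) v :=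
      (T.ext g).continuous.continuousAt.comp c1
    filter_upwards [c1.eventually ((T.ch0 a).open_source.mem_nhds ha),
      c2.eventually ((T.ch0 b).open_source.mem_nhds hb)] with y hy1 hy2
    simp only [Function.comp_apply]
    rw [(T.ch0 a).left_inv hy1, (T.ch0 b).left_inv hy2]

/-- **the action on the compactification is holomorphic** -/
theorem holAct {A : Atl 1 T.Cp} (hC : T.Compat A) (hΓ : ∀ γ : Γ, Continuous fun x : X => γ • x)
    (χ : Γ → ℂ) (hχ : ∀ (γ : Γ) x, T.pr (γ • x) = χ γ * T.pr x) :
    letI := T.act hΓ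
    HolAct A Γ := by
  intro γ
  refine T.holMap_ext hC (hom hΓ γ) ?_
  have h1 : (fun x => T.pr (hom hΓ γ x)) = fun x => (fun z => χ γ * z) (T.pr x) :=
    funext fun x => hχ γ x
  rw [h1]
  exact Hol.comp_pr fun z _ => (differentiableAt_id.const_mul (χ γ))

end Srf

end Crest.Agent.R257.RS_176
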