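import Crest.Agent.R257.Rig1_20

/-!
Row 257 (S0395), KLT-RA (helper20), part 2: RIGIDITY. If `∂F/∂t (·,t) ∈ J(f_t)` for infinitely
many `t → 0` in a `μ`-constant family, then `∂F/∂t = ∑ b_j ∂_j F` near `(0,0)` with
`b_j (0,t) = 0`.
-/

set_option autoImplicit false
set_option linter.unusedSectionVars false

open Set Filter Topology Metric Complex
open Crest.Agent.R275.Loc2879 hiding AA
open Crest.Agent.R257.UI939

noncomputable section

namespace Crest.Agent.R257.Rig20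

variable {n : ℕ}

/-- the time derivative -/
def dt (F : (Fin n → ℂ) × ℂ → ℂ) (p : (Fin n → ℂ) × ℂ) : ℂ := fderiv ℂ F p (0, 1)

lemma an_fd {F : (Fin n → ℂ) × ℂ → ℂ} {p : (Fin n → ℂ) × ℂ} (hF : AnalyticAt ℂ F p)
    (v : (Fin n → ℂ) × ℂ) : AnalyticAt ℂ (fun q => fderiv ℂ F q v) p :=
  (ContinuousLinearMap.analyticAt (ContinuousLinearMap.apply ℂ ℂ v) _).comp hF.fderiv

lemma an_dt {F : (Fin n → ℂ) × ℂ → ℂ} {p : (Fin n → ℂ) × ℂ} (hF : AnalyticAt ℂ F p) :
    AnalyticAt ℂ (dt F) p := an_fd hF _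

/-- `a` belongs to the ideal generated by the `x`-gradient of `F`, near `(0,0)` -/
def InJ (F a : (Fin n → ℂ) × ℂ → ℂ) : Prop :=
  ∃ u : Fin n → (Fin n → ℂ) × ℂ → ℂ, (∀ j, AnalyticAt ℂ (u j) 0) ∧
    ∀ᶠ p in 𝓝 (0 : (Fin n → ℂ) × ℂ), a p = ∑ j, u j p * grad F j p

lemma InJ.congr {F a a' : (Fin n → ℂ) × ℂ → ℂ} (h : InJ F a) (e : a' =ᶠ[𝓝 0] a) : InJ F a' := by
  obtain ⟨u, hu, h⟩ := h
  refine ⟨u, hu, ?_⟩
  filter_upwards [h, e] with p h1 h2
  rw [h2, h1]

lemma InJ.add {F a a' : (Fin n → ℂ) × ℂ → ℂ} (h : InJ F a) (h' : InJ F a') :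
    InJ F (fun p => a p + a' p) := by
  obtain ⟨u, hu, h⟩ := h
  obtain ⟨u', hu', h'⟩ := h'
  refine ⟨fun j p => u j p + u' j p, fun j => (hu j).add (hu' j), ?_⟩
  filter_upwards [h, h'] with p h1 h2
  rw [h1, h2, ← Finset.sum_add_distrib]
  exact Finset.sum_congr rfl fun j _ => by ring

lemma InJ.mul_left {F a : (Fin n → ℂ) × ℂ → ℂ} (h : InJ F a) {c : (Fin n → ℂ) × ℂ → ℂ}
    (hc : AnalyticAt ℂ c 0) : InJ F (fun p => c p * a p) := by
  obtain ⟨u, hu, h⟩ := h
  refine ⟨fun j p => c p * u j p, fun j => hc.mul (hu j), ?_⟩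
  filter_upwards [h] with p h1
  rw [h1, Finset.mul_sum]
  exact Finset.sum_congr rfl fun j _ => by ring

lemma InJ.sub {F a a' : (Fin n → ℂ) × ℂ → ℂ} (h : InJ F a) (h' : InJ F a') :
    InJ F (fun p => a p - a' p) := by
  refine (h.add (h'.mul_left (c := fun _ => -1) analyticAt_const)).congr ?_
  exact Eventually.of_forall fun p => by ring

lemma InJ.sum {F : (Fin n → ℂ) × ℂ → ℂ} {ι : Type*} (s : Finset ι)
    {a : ι → (Fin n → ℂ) × ℂ → ℂ} (h : ∀ i ∈ s, InJ F (a i)) : InJ F (fun p => ∑ i ∈ s, a i p) := by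
  classical
  induction s using Finset.induction_on with
  | empty => exact ⟨fun _ _ => 0, fun _ => analyticAt_const, Eventually.of_forall fun p => by simp⟩
  | insert i s hi ih =>
    refine ((h i (Finset.mem_insert_self _ _)).add
      (ih fun j hj => h j (Finset.mem_insert_of_mem hj))).congr ?_
    exact Eventually.of_forall fun p => Finset.sum_insert hi

lemma InJ.grad (F : (Fin n → ℂ) × ℂ → ℂ) (j : Fin n) : InJ F (grad F j) := by
  classical
  refine ⟨fun i _ => if i = j then 1 else 0, fun i => analyticAt_const, ?_⟩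
  exact Eventually.of_forall fun p => by simp

/-- the vector field `∂_t - ∑ b_j ∂_j` acting on functions -/
def vf (b : Fin n → (Fin n → ℂ) × ℂ → ℂ) (a : (Fin n → ℂ) × ℂ → ℂ) (p : (Fin n → ℂ) × ℂ) : ℂ :=
  fderiv ℂ a p (fun j => - b j p, 1)

lemma vf_eq {b : Fin n → (Fin n → ℂ) × ℂ → ℂ} {a : (Fin n → ℂ) × ℂ → ℂ}
    {p : (Fin n → ℂ) × ℂ} (ha : DifferentiableAt ℂ a p) :
    vf b a p = dt a p - ∑ j, b j p * grad a j p := by
  classical
  have h1 : ((fun j => - b j p, 1) : (Fin n → ℂ) × ℂ) =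
      (0, 1) - ∑ j, b j p • ((Pi.single j 1, 0) : (Fin n → ℂ) × ℂ) := by
    refine Prod.ext ?_ ?_
    · rw [Prod.fst_sub, Prod.fst_sum]
      funext i
      simp [Finset.sum_apply, Pi.single_apply]
    · rw [Prod.snd_sub, Prod.snd_sum]
      simp
  rw [vf, h1, map_sub, map_sum]
  rw [dt]
  congr 1
  refine Finset.sum_congr rfl (fun j _ => ?_)
  rw [map_smul, smul_eq_mul, grad_eq ha]

lemma an_vf {b : Fin n → (Fin n → ℂ) × ℂ → ℂ} {a : (Fin n → ℂ) × ℂ → ℂ}
    (hb : ∀ j, AnalyticAt ℂ (b j) 0) (ha : AnalyticAt ℂ a 0) : AnalyticAt ℂ (vf b a) 0 := by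
  have h1 : AnalyticAt ℂ (fun p => dt a p - ∑ j, b j p * grad a j p) 0 := by
    refine (an_dt ha).sub ?_
    refine Finset.analyticAt_fun_sum _ (fun j _ => (hb j).mul (an_grad ha j))
  refine h1.congr ?_
  filter_upwards [ha.eventually_analyticAt] with p hp
  exact (vf_eq hp.differentiableAt).symm

lemma vf_congr {b : Fin n → (Fin n → ℂ) × ℂ → ℂ} {a a' : (Fin n → ℂ) × ℂ → ℂ}
    (h : a =ᶠ[𝓝 0] a') : vf b a =ᶠ[𝓝 0] vf b a' := by
  filter_upwards [h.eventuallyEq_nhds] with p hp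
  rw [vf, vf, hp.fderiv_eq]

lemma vf_mul {b : Fin n → (Fin n → ℂ) × ℂ → ℂ} {a a' : (Fin n → ℂ) × ℂ → ℂ}
    (ha : AnalyticAt ℂ a 0) (ha' : AnalyticAt ℂ a' 0) :
    vf b (fun p => a p * a' p) =ᶠ[𝓝 0] fun p => a p * vf b a' p + a' p * vf b a p := by
  filter_upwards [ha.eventually_analyticAt, ha'.eventually_analyticAt] with p h1 h2
  rw [vf, vf, vf, fderiv_fun_mul h1.differentiableAt h2.differentiableAt]
  simp

lemma vf_sum {b : Fin n → (Fin n → ℂ) × ℂ → ℂ} {ι : Type*} (s : Finset ι)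
    {a : ι → (Fin n → ℂ) × ℂ → ℂ} (ha : ∀ i, AnalyticAt ℂ (a i) 0) [Finite ι] :
    vf b (fun p => ∑ i ∈ s, a i p) =ᶠ[𝓝 0] fun p => ∑ i ∈ s, vf b (a i) p := by
  filter_upwards [Filter.eventually_all.2 fun i => (ha i).eventually_analyticAt] with p h1
  rw [vf, fderiv_fun_sum (fun i _ => (h1 i).differentiableAt)]
  simp [vf]

/-- a vector field preserving the generators preserves the ideal -/
lemma InJ.vf {F a : (Fin n → ℂ) × ℂ → ℂ} (hF : AnalyticAt ℂ F 0)
    {b : Fin n → (Fin n → ℂ) × ℂ → ℂ} (hb : ∀ j, AnalyticAt ℂ (b j) 0)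
    (hv : ∀ j, InJ F (vf b (UI939.grad F j))) (h : InJ F a) :
    InJ F (Rig20.vf b a) := by
  obtain ⟨u, hu, h⟩ := h
  have h1 : Rig20.vf b a =ᶠ[𝓝 0] fun p => ∑ j, (u j p * Rig20.vf b (UI939.grad F j) p +
      Rig20.vf b (u j) p * UI939.grad F j p) := by
    refine (vf_congr (b := b) (show a =ᶠ[𝓝 0] _ from h)).trans ?_
    refine (vf_sum (b := b) Finset.univ (fun j => (hu j).mul (an_grad hF j))).trans ?_
    have h2 := Filter.eventually_all.2 fun j => vf_mul (b := b) (hu j) (an_grad hF j)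
    filter_upwards [h2] with p hp
    refine Finset.sum_congr rfl (fun j _ => ?_)
    refine (hp j).trans ?_
    ring
  refine InJ.congr ?_ h1
  refine InJ.sum _ (fun j _ => ?_)
  exact ((hv j).mul_left (hu j)).add ((InJ.grad F j).mul_left (an_vf hb (hu j)))

/-- powers of `v y` for `y` in the radical -/
lemma InJ.radical {F y : (Fin n → ℂ) × ℂ → ℂ} (hF : AnalyticAt ℂ F 0)
    {b : Fin n → (Fin n → ℂ) × ℂ → ℂ} (hb : ∀ j, AnalyticAt ℂ (b j) 0)
    (hv : ∀ j, InJ F (Rig20.vf b (UI939.grad F j))) (hy : AnalyticAt ℂ y 0) (N : ℕ)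
    (h : InJ F (fun p => y p ^ N)) (i : ℕ) (hi : i ≤ N) :
    InJ F (fun p => y p ^ (N - i) * Rig20.vf b y p ^ (2 * i)) := by
  induction i with
  | zero => simpa using h
  | succ i ih =>
    have ih' := ih (by omega)
    set z := Rig20.vf b y with hz
    have hz' : AnalyticAt ℂ z 0 := an_vf hb hy
    have hw : AnalyticAt ℂ (Rig20.vf b z) 0 := an_vf hb hz'
    have h1 := (ih'.vf hF hb hv).mul_left hz'
    -- derivative of powers
    have hpow : ∀ (g : (Fin n → ℂ) × ℂ → ℂ) (_ : AnalyticAt ℂ g 0) (k : ℕ),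
        Rig20.vf b (fun p => g p ^ k) =ᶠ[𝓝 0]
          fun p => (k : ℂ) * g p ^ (k - 1) * Rig20.vf b g p := by
      intro g hg k
      filter_upwards [hg.eventually_analyticAt] with p hp
      rw [Rig20.vf, Rig20.vf, fderiv_fun_pow _ hp.differentiableAt]
      simp [mul_assoc]
    have h2 : (fun p => z p * Rig20.vf b (fun p => y p ^ (N - i) * z p ^ (2 * i)) p) =ᶠ[𝓝 0]
        fun p => ((N - i : ℕ) : ℂ) * (y p ^ (N - (i + 1)) * z p ^ (2 * (i + 1))) +
          ((2 * i : ℕ) : ℂ) * Rig20.vf b z p * (y p ^ (N - i) * z p ^ (2 * i)) := by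
      filter_upwards [vf_mul (b := b) (hy.pow (N - i)) (hz'.pow (2 * i)), hpow y hy (N - i),
        hpow z hz' (2 * i)] with p h3 h4 h5
      simp only [Pi.pow_apply] at h3
      rw [h3]
      have h4' : Rig20.vf b (y ^ (N - i)) p = ((N - i : ℕ) : ℂ) * y p ^ (N - i - 1) * z p := h4
      have h5' : Rig20.vf b (z ^ (2 * i)) p = ((2 * i : ℕ) : ℂ) * z p ^ (2 * i - 1) *
        Rig20.vf b z p := h5
      rw [h4', h5']
      have e1 : N - (i + 1) = N - i - 1 := by omega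
      rw [e1]
      rcases Nat.eq_zero_or_pos i with h0 | h0
      · subst h0
        simp only [Nat.sub_zero, mul_zero, pow_zero, Nat.cast_zero, zero_mul, add_zero, zero_add,
          mul_one]
        ring
      · have e2 : z p ^ (2 * i) = z p ^ (2 * i - 1) * z p := by
          rw [← pow_succ]; congr 1; omega
        have e3 : z p ^ (2 * (i + 1)) = z p ^ (2 * i) * z p * z p := by
          rw [← pow_succ, ← pow_succ]; congr 1
        rw [e3, e2]
        ring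
    have h3 := h1.congr h2.symm
    have h4 := (h3.sub (ih'.mul_left (c := fun p => ((2 * i : ℕ) : ℂ) * Rig20.vf b z p)
      (analyticAt_const.mul hw))).mul_left (c := fun _ => ((N - i : ℕ) : ℂ)⁻¹) analyticAt_const
    refine h4.congr (Eventually.of_forall fun p => ?_)
    have hne : ((N - i : ℕ) : ℂ) ≠ 0 := by
      rw [Nat.cast_ne_zero]; omega
    field_simp
    ring

end Crest.Agent.R257.Rig20
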