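import Crest.Agent.R257.Rig2_20

/-!
Row 257 (S0395), KLT-RA (helper20), part 3: RIGIDITY. If `∂F/∂t (·,t) ∈ J(f_t)` for infinitely
many `t → 0` in a `μ`-constant family, then `∂F/∂t = ∑ b_j ∂_j F` near `(0,0)` with
`b_j (0,t) = 0`, and the Hessian of `f_t` at `0` satisfies a linear differential equation.
-/

set_option autoImplicit false
set_option linter.unusedSectionVars false

open Set Filter Topology Metric Complex
open Crest.Agent.R275.Loc2879 hiding AA
open Crest.Agent.R257.UI939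

noncomputable section

namespace Crest.Agent.R257.Rig20

variable {n : ℕ}

section Sym

variable {E : Type*} [NormedAddCommGroup E] [NormedSpace ℂ E]

lemma fd_fd {F : E → ℂ} {p : E} (hF : AnalyticAt ℂ F p) (v w : E) :
    fderiv ℂ (fun q => fderiv ℂ F q v) p w = fderiv ℂ (fderiv ℂ F) p w v := by
  have h : DifferentiableAt ℂ (fderiv ℂ F) p := hF.fderiv.differentiableAt
  rw [fderiv_clm_apply h (differentiableAt_const v)]
  simp

lemma fd_symm {F : E → ℂ} {p : E} (hF : AnalyticAt ℂ F p) (v w : E) :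
    fderiv ℂ (fun q => fderiv ℂ F q v) p w = fderiv ℂ (fun q => fderiv ℂ F q w) p v := by
  rw [fd_fd hF, fd_fd hF]
  exact (hF.contDiffAt (n := ⊤)).isSymmSndFDerivAt_of_omega w v

end Sym

lemma grad_congr {F F' : (Fin n → ℂ) × ℂ → ℂ} {p : (Fin n → ℂ) × ℂ} (h : F =ᶠ[𝓝 p] F')
    (j : Fin n) : grad F j p = grad F' j p := by
  have h1 : Tendsto (fun x : Fin n → ℂ => ((x, p.2) : (Fin n → ℂ) × ℂ)) (𝓝 p.1) (𝓝 p) := by
    have : Continuous (fun x : Fin n → ℂ => ((x, p.2) : (Fin n → ℂ) × ℂ)) := by fun_prop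
    exact this.tendsto' _ _ rfl
  have h2 : (fun x => F (x, p.2)) =ᶠ[𝓝 p.1] fun x => F' (x, p.2) := h1.eventually h
  rw [grad, grad, h2.fderiv_eq]

lemma grad_eventuallyEq {F F' : (Fin n → ℂ) × ℂ → ℂ} {p : (Fin n → ℂ) × ℂ} (h : F =ᶠ[𝓝 p] F')
    (j : Fin n) : grad F j =ᶠ[𝓝 p] grad F' j := by
  filter_upwards [h.eventuallyEq_nhds] with q hq
  exact grad_congr hq j

lemma dt_congr {F F' : (Fin n → ℂ) × ℂ → ℂ} {p : (Fin n → ℂ) × ℂ} (h : F =ᶠ[𝓝 p] F') :
    dt F p = dt F' p := by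
  rw [dt, dt, h.fderiv_eq]

lemma grad_eventually {F : (Fin n → ℂ) × ℂ → ℂ} {p : (Fin n → ℂ) × ℂ} (hF : AnalyticAt ℂ F p)
    (j : Fin n) : grad F j =ᶠ[𝓝 p] fun q => fderiv ℂ F q (Pi.single j 1, 0) := by
  filter_upwards [hF.eventually_analyticAt] with q hq
  exact grad_eq hq.differentiableAt j

/-- second derivatives commute: space-space -/
lemma grad_grad {F : (Fin n → ℂ) × ℂ → ℂ} {p : (Fin n → ℂ) × ℂ} (hF : AnalyticAt ℂ F p)
    (i j : Fin n) : grad (grad F i) j p = grad (grad F j) i p := by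
  rw [grad_eq (an_grad hF i).differentiableAt, grad_eq (an_grad hF j).differentiableAt,
    (grad_eventually hF i).fderiv_eq, (grad_eventually hF j).fderiv_eq, fd_symm hF]

/-- second derivatives commute: space-time -/
lemma dt_grad {F : (Fin n → ℂ) × ℂ → ℂ} {p : (Fin n → ℂ) × ℂ} (hF : AnalyticAt ℂ F p)
    (j : Fin n) : dt (grad F j) p = grad (dt F) j p := by
  rw [grad_eq (an_dt hF).differentiableAt, dt, (grad_eventually hF j).fderiv_eq,
    fd_symm hF]
  rfl

lemma grad_sum {ι : Type*} (s : Finset ι) {a : ι → (Fin n → ℂ) × ℂ → ℂ} {p : (Fin n → ℂ) × ℂ}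
    (ha : ∀ i, AnalyticAt ℂ (a i) p) (j : Fin n) :
    grad (fun q => ∑ i ∈ s, a i q) j p = ∑ i ∈ s, grad (a i) j p := by
  have h : AnalyticAt ℂ (fun q => ∑ i ∈ s, a i q) p :=
    Finset.analyticAt_fun_sum _ fun i _ => ha i
  rw [grad_eq h.differentiableAt, fderiv_fun_sum (fun i _ => (ha i).differentiableAt)]
  simp only [FunLike.coe_sum, Finset.sum_apply]
  exact Finset.sum_congr rfl fun i _ => (grad_eq (ha i).differentiableAt j).symm

lemma amul {a c : (Fin n → ℂ) × ℂ → ℂ} {p : (Fin n → ℂ) × ℂ} (ha : AnalyticAt ℂ a p)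
    (hc : AnalyticAt ℂ c p) : AnalyticAt ℂ (fun q => a q * c q) p := ha.mul hc

lemma aadd {a c : (Fin n → ℂ) × ℂ → ℂ} {p : (Fin n → ℂ) × ℂ} (ha : AnalyticAt ℂ a p)
    (hc : AnalyticAt ℂ c p) : AnalyticAt ℂ (fun q => a q + c q) p := ha.add hc

lemma grad_mul {a c : (Fin n → ℂ) × ℂ → ℂ} {p : (Fin n → ℂ) × ℂ}
    (ha : AnalyticAt ℂ a p) (hc : AnalyticAt ℂ c p) (j : Fin n) :
    grad (fun q => a q * c q) j p = a p * grad c j p + grad a j p * c p := by
  rw [grad_eq (amul ha hc).differentiableAt, grad_eq ha.differentiableAt,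
    grad_eq hc.differentiableAt, fderiv_fun_mul ha.differentiableAt hc.differentiableAt]
  simp
  ring

lemma grad_add {a c : (Fin n → ℂ) × ℂ → ℂ} {p : (Fin n → ℂ) × ℂ}
    (ha : AnalyticAt ℂ a p) (hc : AnalyticAt ℂ c p) (j : Fin n) :
    grad (fun q => a q + c q) j p = grad a j p + grad c j p := by
  rw [grad_eq (aadd ha hc).differentiableAt, grad_eq ha.differentiableAt,
    grad_eq hc.differentiableAt, fderiv_fun_add ha.differentiableAt hc.differentiableAt]
  simp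

/-- the vector field of a trivialisation preserves the Jacobian ideal -/
lemma vf_grad_mem {F : (Fin n → ℂ) × ℂ → ℂ} (hF : AnalyticAt ℂ F 0)
    {b : Fin n → (Fin n → ℂ) × ℂ → ℂ} (hb : ∀ j, AnalyticAt ℂ (b j) 0)
    (h : ∀ᶠ p in 𝓝 (0 : (Fin n → ℂ) × ℂ), dt F p = ∑ j, b j p * grad F j p) (k : Fin n) :
    InJ F (vf b (grad F k)) := by
  have h1 : vf b (grad F k) =ᶠ[𝓝 0] fun p => ∑ j, grad (b j) k p * grad F j p := by
    have hball := Filter.eventually_all.2 fun j => (hb j).eventually_analyticAt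
    filter_upwards [hF.eventually_analyticAt, hball, Filter.EventuallyEq.eventuallyEq_nhds
      (show dt F =ᶠ[𝓝 0] fun p => ∑ j, b j p * grad F j p from h)] with p h2 h3 h4
    rw [vf_eq (an_grad h2 k).differentiableAt, dt_grad h2, grad_congr h4,
      grad_sum _ (fun j => amul (h3 j) (an_grad h2 j))]
    rw [← Finset.sum_sub_distrib]
    refine Finset.sum_congr rfl fun j _ => ?_
    rw [grad_mul (h3 j) (an_grad h2 j) k, grad_grad h2 k j]
    ring
  refine InJ.congr ?_ h1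
  exact InJ.sum _ fun j _ => (InJ.grad F j).mul_left (an_grad (hb j) k)

lemma vf_coord {b : Fin n → (Fin n → ℂ) × ℂ → ℂ} (k : Fin n) (p : (Fin n → ℂ) × ℂ) :
    vf b (fun q => q.1 k) p = - b k p := by
  have h : HasFDerivAt (fun q : (Fin n → ℂ) × ℂ => q.1 k)
      ((ContinuousLinearMap.proj (R := ℂ) (φ := fun _ : Fin n => ℂ) k).comp
        (ContinuousLinearMap.fst ℂ (Fin n → ℂ) ℂ)) p :=
    ((ContinuousLinearMap.proj (R := ℂ) (φ := fun _ : Fin n => ℂ) k).comp
        (ContinuousLinearMap.fst ℂ (Fin n → ℂ) ℂ)).hasFDerivAt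
  rw [vf, h.fderiv]
  rfl

/-- RIGIDITY, part 1: the vector field of a trivialisation vanishes on the axis -/
theorem b_zero {F : (Fin n → ℂ) × ℂ → ℂ} (hF : AnalyticAt ℂ F 0) {N : ℕ}
    (hpow : ∀ k : Fin n, InJ F (fun p => p.1 k ^ N))
    (hcrit : ∀ᶠ t in 𝓝 (0 : ℂ), ∀ j, grad F j (0, t) = 0)
    {b : Fin n → (Fin n → ℂ) × ℂ → ℂ} (hb : ∀ j, AnalyticAt ℂ (b j) 0)
    (h : ∀ᶠ p in 𝓝 (0 : (Fin n → ℂ) × ℂ), dt F p = ∑ j, b j p * grad F j p) :
    ∀ᶠ t in 𝓝 (0 : ℂ), ∀ k, b k (0, t) = 0 := by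
  have h0t : Tendsto (fun t : ℂ => ((0, t) : (Fin n → ℂ) × ℂ)) (𝓝 0) (𝓝 0) := by
    have : Continuous (fun t : ℂ => ((0, t) : (Fin n → ℂ) × ℂ)) := by fun_prop
    exact this.tendsto' _ _ rfl
  rw [Filter.eventually_all]
  intro k
  have h1 := InJ.radical hF hb (vf_grad_mem hF hb h) (y := fun p => p.1 k) (an_x k 0) N (hpow k)
    N le_rfl
  obtain ⟨u, -, hu⟩ := h1
  filter_upwards [h0t.eventually hu, hcrit] with t h2 h3
  simp only [h3, mul_zero, Finset.sum_const_zero, Nat.sub_self, pow_zero, one_mul, vf_coord] at h2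
  exact neg_eq_zero.1 (eq_zero_of_pow_eq_zero h2)

/-- the Hessian entries along the axis -/
def hs (F : (Fin n → ℂ) × ℂ → ℂ) (i j : Fin n) (t : ℂ) : ℂ := grad (grad F i) j (0, t)

lemma an_axis {a : (Fin n → ℂ) × ℂ → ℂ} {t : ℂ} (ha : AnalyticAt ℂ a (0, t)) :
    AnalyticAt ℂ (fun s : ℂ => a (0, s)) t :=
  AnalyticAt.comp (g := a) (f := fun s : ℂ => ((0, s) : (Fin n → ℂ) × ℂ)) ha
    (analyticAt_const.prod analyticAt_id)

lemma an_hs {F : (Fin n → ℂ) × ℂ → ℂ} {t : ℂ} (hF : AnalyticAt ℂ F (0, t)) (i j : Fin n) :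
    AnalyticAt ℂ (hs F i j) t := an_axis (an_grad (an_grad hF i) j)

lemma deriv_axis {a : (Fin n → ℂ) × ℂ → ℂ} {t : ℂ} (ha : AnalyticAt ℂ a (0, t)) :
    deriv (fun s : ℂ => a (0, s)) t = dt a (0, t) := by
  have h2 : HasFDerivAt (fun s : ℂ => ((0, s) : (Fin n → ℂ) × ℂ))
      (ContinuousLinearMap.inr ℂ (Fin n → ℂ) ℂ) t := hasFDerivAt_prodMk_right 0 t
  have h1 := HasFDerivAt.comp t ha.differentiableAt.hasFDerivAt h2
  have h3 : HasDerivAt (fun s : ℂ => a (0, s))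
    (((fderiv ℂ a (0, t)).comp (ContinuousLinearMap.inr ℂ (Fin n → ℂ) ℂ)) 1) t := h1.hasDerivAt
  rw [h3.deriv]
  rfl

/-- the linear differential equation of the Hessian -/
lemma deriv_hs {F : (Fin n → ℂ) × ℂ → ℂ} (hF : AnalyticAt ℂ F 0)
    (hcrit : ∀ᶠ t in 𝓝 (0 : ℂ), ∀ j, grad F j (0, t) = 0)
    {b : Fin n → (Fin n → ℂ) × ℂ → ℂ} (hb : ∀ j, AnalyticAt ℂ (b j) 0)
    (h : ∀ᶠ p in 𝓝 (0 : (Fin n → ℂ) × ℂ), dt F p = ∑ j, b j p * grad F j p)
    (hb0 : ∀ᶠ t in 𝓝 (0 : ℂ), ∀ k, b k (0, t) = 0) :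
    ∀ᶠ t in 𝓝 (0 : ℂ), ∀ i j, deriv (hs F i j) t =
      ∑ k, (grad (b k) i (0, t) * hs F k j t + grad (b k) j (0, t) * hs F k i t) := by
  have h0t : Tendsto (fun t : ℂ => ((0, t) : (Fin n → ℂ) × ℂ)) (𝓝 0) (𝓝 0) := by
    have : Continuous (fun t : ℂ => ((0, t) : (Fin n → ℂ) × ℂ)) := by fun_prop
    exact this.tendsto' _ _ rfl
  have hball := Filter.eventually_all.2 fun j => (hb j).eventually_analyticAt
  filter_upwards [h0t.eventually hF.eventually_analyticAt, h0t.eventually hball, hcrit, hb0,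
    h0t.eventually (Filter.EventuallyEq.eventuallyEq_nhds
      (show dt F =ᶠ[𝓝 0] fun p => ∑ j, b j p * grad F j p from h))] with t hFt hbt hct hb0t ht
  intro i j
  have e0 : deriv (hs F i j) t = dt (grad (grad F i) j) (0, t) :=
    deriv_axis (an_grad (an_grad hFt i) j)
  have e1 : dt (grad (grad F i) j) (0, t) = grad (grad (dt F) i) j (0, t) := by
    rw [dt_grad (an_grad hFt i)]
    refine grad_congr ?_ j
    filter_upwards [hFt.eventually_analyticAt] with p hp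
    exact dt_grad hp i
  have e2 : grad (dt F) i =ᶠ[𝓝 (0, t)]
      fun p => ∑ k, (b k p * grad (grad F k) i p + grad (b k) i p * grad F k p) := by
    filter_upwards [hFt.eventually_analyticAt,
      Filter.eventually_all.2 fun j => (hbt j).eventually_analyticAt,
      Filter.EventuallyEq.eventuallyEq_nhds ht] with p h1 h2 h3
    rw [grad_congr h3, grad_sum _ (fun k => amul (h2 k) (an_grad h1 k))]
    refine Finset.sum_congr rfl fun k _ => ?_
    exact grad_mul (h2 k) (an_grad h1 k) i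
  have e3 : ∀ k, AnalyticAt ℂ
      (fun p => b k p * grad (grad F k) i p + grad (b k) i p * grad F k p) (0, t) := fun k =>
    ((hbt k).mul (an_grad (an_grad hFt k) i)).add ((an_grad (hbt k) i).mul (an_grad hFt k))
  rw [e0, e1, grad_congr e2, grad_sum _ e3]
  refine Finset.sum_congr rfl fun k _ => ?_
  have e4 : grad (fun p => b k p * grad (grad F k) i p + grad (b k) i p * grad F k p) j (0, t) =
      grad (fun p => b k p * grad (grad F k) i p) j (0, t) +
        grad (fun p => grad (b k) i p * grad F k p) j (0, t) := by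
    exact grad_add (amul (hbt k) (an_grad (an_grad hFt k) i))
      (amul (an_grad (hbt k) i) (an_grad hFt k)) j
  rw [e4, grad_mul (hbt k) (an_grad (an_grad hFt k) i), grad_mul (an_grad (hbt k) i)
    (an_grad hFt k), hb0t k, hct k]
  simp only [hs]
  rw [grad_grad hFt k i]
  have e5 : grad (grad (b k) i) j (0, t) * 0 = 0 := mul_zero _
  simp only [zero_mul, mul_zero, zero_add, add_zero]
  rw [grad_grad hFt i k]
  ring

end Crest.Agent.R257.Rig20
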