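import Crest.Agent.R257.Rig3_20

/-!
Row 257 (S0395), KLT-RA (helper20), part 4: uniqueness for analytic linear differential
equations; order of vanishing along the axis.
-/

set_option autoImplicit false
set_option linter.unusedSectionVars false

open Set Filter Topology Metric Complex
open Crest.Agent.R257.UI939

noncomputable section

namespace Crest.Agent.R257.Rig20

/-- analytic solutions of a linear differential equation with zero initial value vanish -/
theorem ode_zero {ι : Type*} [Fintype ι] (Y : ι → ℂ → ℂ) (hY : ∀ i, AnalyticAt ℂ (Y i) 0)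
    (hY0 : ∀ i, Y i 0 = 0) (A : ι → ι → ℂ → ℂ) (hA : ∀ i k, ContinuousAt (A i k) 0)
    (h : ∀ᶠ t in 𝓝 (0 : ℂ), ∀ i, deriv (Y i) t = ∑ k, A i k t * Y k t) :
    ∀ᶠ t in 𝓝 (0 : ℂ), ∀ i, Y i t = 0 := by
  classical
  set y : ℂ → (ι → ℂ) := fun t i => Y i t with hy
  have hya : AnalyticAt ℂ y 0 := AnalyticAt.pi hY
  by_contra hcon
  have h1 : ¬ ∀ᶠ t in 𝓝 (0 : ℂ), y t = 0 := by
    intro h2
    refine hcon ?_
    filter_upwards [h2] with t ht i
    exact congrFun ht i
  obtain ⟨m, g, hg, hg0, hyg⟩ := hya.exists_eventuallyEq_pow_smul_nonzero_iff.2 h1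
  simp only [sub_zero] at hyg
  have hm : m ≠ 0 := by
    rintro rfl
    have h2 := hyg.self_of_nhds
    simp only [pow_zero, one_smul] at h2
    refine hg0 ?_
    rw [← h2]
    funext i
    exact hY0 i
  obtain ⟨k, rfl⟩ := Nat.exists_eq_succ_of_ne_zero hm
  obtain ⟨i, hi⟩ : ∃ i, g 0 i ≠ 0 := by
    by_contra hc
    push Not at hc
    exact hg0 (funext hc)
  -- componentwise
  have hgi : ∀ i, AnalyticAt ℂ (fun t => g t i) 0 := by
    intro i
    exact (ContinuousLinearMap.analyticAt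
      (ContinuousLinearMap.proj (R := ℂ) (φ := fun _ : ι => ℂ) i) _).comp hg
  have hYg : ∀ i, Y i =ᶠ[𝓝 0] fun t => t ^ (k + 1) * g t i := by
    intro i
    filter_upwards [hyg] with t ht
    have := congrFun ht i
    simpa [hy] using this
  have hder : ∀ᶠ t in 𝓝 (0 : ℂ), deriv (Y i) t =
      (k + 1 : ℂ) * t ^ k * g t i + t ^ (k + 1) * deriv (fun t => g t i) t := by
    filter_upwards [(hYg i).eventuallyEq_nhds, (hgi i).eventually_analyticAt] with t h2 h3
    rw [h2.deriv_eq]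
    have h4 := (hasDerivAt_pow (k + 1) t).mul h3.differentiableAt.hasDerivAt
    have h5 : (fun t : ℂ => t ^ (k + 1) * g t i) = (fun t : ℂ => t ^ (k + 1)) * fun t => g t i := rfl
    rw [h5, h4.deriv]
    push_cast
    simp
  have hlim : ∀ᶠ t in 𝓝[≠] (0 : ℂ), (k + 1 : ℂ) * g t i + t * deriv (fun t => g t i) t -
      t * ∑ j, A i j t * g t j = 0 := by
    have h6 : ∀ᶠ t in 𝓝 (0 : ℂ), ∀ j, Y j t = t ^ (k + 1) * g t j :=
      Filter.eventually_all.2 hYg
    filter_upwards [(h.and (hder.and h6)).filter_mono nhdsWithin_le_nhds, self_mem_nhdsWithin]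
      with t h7 ht
    obtain ⟨h8, h9, h10⟩ := h7
    have ht0 : t ≠ 0 := ht
    have h11 := h8 i
    rw [h9] at h11
    simp only [h10] at h11
    have h12 : t ^ k * ((k + 1 : ℂ) * g t i + t * deriv (fun t => g t i) t -
      t * ∑ j, A i j t * g t j) = 0 := by
      have e1 : ∑ j, A i j t * (t ^ (k + 1) * g t j) = t ^ k * (t * ∑ j, A i j t * g t j) := by
        rw [Finset.mul_sum, Finset.mul_sum]
        refine Finset.sum_congr rfl fun j _ => by ring
      rw [e1] at h11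
      linear_combination h11
    rcases mul_eq_zero.1 h12 with h13 | h13
    · exact absurd (eq_zero_of_pow_eq_zero h13) ht0
    · exact h13
  have hcont : ContinuousAt (fun t : ℂ => (k + 1 : ℂ) * g t i + t * deriv (fun t => g t i) t -
      t * ∑ j, A i j t * g t j) 0 := by
    refine ContinuousAt.sub (ContinuousAt.add (continuousAt_const.mul (hgi i).continuousAt)
      (continuousAt_id.mul (hgi i).deriv.continuousAt)) (continuousAt_id.mul ?_)
    exact tendsto_finsetSum _ fun j _ => ((hA i j).mul (hgi j).continuousAt)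
  have h14 : Tendsto (fun t : ℂ => (k + 1 : ℂ) * g t i + t * deriv (fun t => g t i) t -
      t * ∑ j, A i j t * g t j) (𝓝[≠] 0) (𝓝 0) :=
    Tendsto.congr' (hlim.mono fun t ht => ht.symm) tendsto_const_nhds
  have h15 := tendsto_nhds_unique (hcont.tendsto.mono_left nhdsWithin_le_nhds) h14
  simp only [zero_mul, add_zero, sub_zero] at h15
  rcases mul_eq_zero.1 h15 with h16 | h16
  · have : ((k : ℂ) + 1) ≠ 0 := by exact_mod_cast Nat.succ_ne_zero k
    exact this h16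
  · exact hi h16

/-- a zero-free family on a disc does not degenerate at the centre -/
theorem axis_zero {ψ : ℂ × ℂ → ℂ} (hψ : AnalyticAt ℂ ψ 0)
    (hz : ∀ᶠ p in 𝓝 (0 : ℂ × ℂ), ψ p = 0 → p.2 = 0) (h0 : ψ 0 = 0) :
    ∀ᶠ t in 𝓝 (0 : ℂ), ψ (t, 0) = 0 := by
  have hax : AnalyticAt ℂ (fun t : ℂ => ψ (t, 0)) 0 :=
    AnalyticAt.comp (g := ψ) (f := fun t : ℂ => (t, (0 : ℂ))) hψ
      (analyticAt_id.prod analyticAt_const)
  rcases hax.eventually_eq_zero_or_eventually_ne_zero with h1 | h1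
  · exact h1
  exfalso
  obtain ⟨r, hr, hA⟩ := Metric.eventually_nhds_iff_ball.1 (hψ.eventually_analyticAt.and hz)
  obtain ⟨s, hs, hB⟩ := Metric.eventually_nhds_iff_ball.1 (eventually_nhdsWithin_iff.1 h1)
  set ρ := r / 2 with hρ
  have hρ0 : 0 < ρ := by positivity
  have hmem : ∀ t z : ℂ, ‖t‖ < r → ‖z‖ < r → ((t, z) : ℂ × ℂ) ∈ ball (0 : ℂ × ℂ) r := by
    intro t z h2 h3
    rw [mem_ball_zero_iff, Prod.norm_def]
    exact max_lt h2 h3
  -- lower bound on the circle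
  have hcircle : ∀ z ∈ sphere (0 : ℂ) ρ, ψ (0, z) ≠ 0 := by
    intro z hz h2
    have hz' : ‖z‖ = ρ := by simpa using hz
    have h3 := (hA (0, z) (hmem 0 z (by simpa using hr) (by rw [hz']; linarith))).2 h2
    simp only at h3
    rw [h3, norm_zero] at hz'
    linarith
  have hcontc : ContinuousOn (fun z : ℂ => ‖ψ (0, z)‖) (sphere 0 ρ) := by
    intro z hz
    have hz' : ‖z‖ = ρ := by simpa using hz
    have h3 := (hA (0, z) (hmem 0 z (by simpa using hr) (by rw [hz']; linarith))).1.continuousAt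
    have h4 : ContinuousAt (fun z : ℂ => ψ (0, z)) z :=
      ContinuousAt.comp (g := ψ) (f := fun z : ℂ => ((0, z) : ℂ × ℂ)) h3
        (continuousAt_const.prodMk continuousAt_id)
    exact h4.norm.continuousWithinAt
  obtain ⟨z0, hz0, hmin⟩ := (isCompact_sphere (0 : ℂ) ρ).exists_isMinOn
    (NormedSpace.sphere_nonempty.2 hρ0.le) hcontc
  set c := ‖ψ (0, z0)‖ / 2 with hc
  have hc0 : 0 < c := by
    have := norm_pos_iff.2 (hcircle z0 hz0)
    positivity
  have hunif : ∀ᶠ t in 𝓝 (0 : ℂ), ∀ z ∈ sphere (0 : ℂ) ρ, c < ‖ψ (t, z)‖ := by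
    refine (isCompact_sphere (0 : ℂ) ρ).eventually_forall_of_forall_eventually ?_
    intro z hz
    have hz' : ‖z‖ = ρ := by simpa using hz
    have h3 := (hA (0, z) (hmem 0 z (by simpa using hr) (by rw [hz']; linarith))).1.continuousAt
    have h4 : c < ‖ψ (0, z)‖ := by
      have : ‖ψ (0, z0)‖ ≤ ‖ψ (0, z)‖ := hmin hz
      have := norm_pos_iff.2 (hcircle z0 hz0)
      linarith
    exact h3.norm.eventually_const_lt h4
  have hlow : ∀ᶠ t in 𝓝[≠] (0 : ℂ), c ≤ ‖ψ (t, 0)‖ := by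
    filter_upwards [hunif.filter_mono nhdsWithin_le_nhds, self_mem_nhdsWithin,
      (ball_mem_nhds (0 : ℂ) hr : ball (0 : ℂ) r ∈ 𝓝 0) |> mem_nhdsWithin_of_mem_nhds,
      (ball_mem_nhds (0 : ℂ) hs : ball (0 : ℂ) s ∈ 𝓝 0) |> mem_nhdsWithin_of_mem_nhds]
      with t h2 h3 h4 h5
    have h4' : ‖t‖ < r := by simpa using h4
    have hne : ∀ z : ℂ, ‖z‖ < r → ψ (t, z) ≠ 0 := by
      intro z hz h6
      have h7 := (hA (t, z) (hmem t z h4' hz)).2 h6
      simp only at h7
      subst h7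
      exact hB t h5 h3 h6
    have hd : ∀ z : ℂ, ‖z‖ < r → DifferentiableAt ℂ (fun z => (ψ (t, z))⁻¹) z := by
      intro z hz
      have h8 := (hA (t, z) (hmem t z h4' hz)).1
      have h9 : AnalyticAt ℂ (fun z => ψ (t, z)) z :=
        AnalyticAt.comp (g := ψ) (f := fun z : ℂ => ((t, z) : ℂ × ℂ)) h8
          (analyticAt_const.prod analyticAt_id)
      exact h9.differentiableAt.inv (hne z hz)
    have hdc : DiffContOnCl ℂ (fun z => (ψ (t, z))⁻¹) (ball 0 ρ) := by
      refine DifferentiableOn.diffContOnCl ?_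
      rw [closure_ball _ hρ0.ne']
      intro z hz
      have : ‖z‖ ≤ ρ := by simpa using hz
      exact (hd z (by linarith)).differentiableWithinAt
    have hbd : ∀ z ∈ frontier (ball (0 : ℂ) ρ), ‖(ψ (t, z))⁻¹‖ ≤ c⁻¹ := by
      intro z hz
      rw [frontier_ball _ hρ0.ne'] at hz
      rw [norm_inv]
      exact inv_anti₀ hc0 (h2 z hz).le
    have := Complex.norm_le_of_forall_mem_frontier_norm_le isBounded_ball hdc hbd
      (subset_closure (mem_ball_self hρ0))
    rw [norm_inv] at this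
    exact (inv_le_inv₀ (norm_pos_iff.2 (hne 0 (by simpa using hr))) hc0).1 this
  have hlim : Tendsto (fun t : ℂ => ‖ψ (t, 0)‖) (𝓝[≠] 0) (𝓝 ‖ψ (0, 0)‖) :=
    (hax.continuousAt.norm.tendsto).mono_left nhdsWithin_le_nhds
  have h2 := ge_of_tendsto hlim hlow
  have h3 : ψ (0, 0) = 0 := h0
  rw [h3, norm_zero] at h2
  linarith

/-- order of vanishing: a family of functions of one variable with no zero outside the axis is
`z ^ m` times a unit -/
theorem pow_unit (m : ℕ) : ∀ {ψ : ℂ × ℂ → ℂ}, AnalyticAt ℂ ψ 0 →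
    (∀ᶠ p in 𝓝 (0 : ℂ × ℂ), ψ p = 0 → p.2 = 0) →
    (∃ g : ℂ → ℂ, AnalyticAt ℂ g 0 ∧ g 0 ≠ 0 ∧ ∀ᶠ z in 𝓝 (0 : ℂ), ψ (0, z) = z ^ m * g z) →
    ∃ U : ℂ × ℂ → ℂ, AnalyticAt ℂ U 0 ∧ U 0 ≠ 0 ∧ ∀ᶠ p in 𝓝 (0 : ℂ × ℂ), ψ p = p.2 ^ m * U p := by
  induction m with
  | zero =>
    rintro ψ hψ - ⟨g, hg, hg0, h⟩
    refine ⟨ψ, hψ, ?_, Eventually.of_forall fun p => by simp⟩
    have := h.self_of_nhds
    rw [show (0 : ℂ × ℂ) = (0, 0) from rfl, this]
    simpa using hg0
  | succ m ih =>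
    rintro ψ hψ hz ⟨g, hg, hg0, h⟩
    have h0 : ψ 0 = 0 := by
      have := h.self_of_nhds
      rw [show (0 : ℂ × ℂ) = (0, 0) from rfl, this]
      simp
    have hax := axis_zero hψ hz h0
    obtain ⟨q, hq, hqe⟩ := hadamard_fun hψ
    have h1 : Tendsto (fun p : ℂ × ℂ => p.1) (𝓝 0) (𝓝 0) := continuous_fst.tendsto' _ _ rfl
    have h2 : ∀ᶠ p in 𝓝 (0 : ℂ × ℂ), ψ p = p.2 * q p := by
      filter_upwards [hqe, h1.eventually hax] with p h3 h4
      rw [h3, h4, zero_add]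
    have hz' : ∀ᶠ p in 𝓝 (0 : ℂ × ℂ), q p = 0 → p.2 = 0 := by
      filter_upwards [h2, hz] with p h3 h4 h5
      exact h4 (by rw [h3, h5, mul_zero])
    have h0z : Tendsto (fun z : ℂ => ((0, z) : ℂ × ℂ)) (𝓝 0) (𝓝 0) := by
      have : Continuous (fun z : ℂ => ((0, z) : ℂ × ℂ)) := by fun_prop
      exact this.tendsto' _ _ rfl
    have hq0 : AnalyticAt ℂ (fun z : ℂ => q (0, z)) 0 :=
      AnalyticAt.comp (g := q) (f := fun z : ℂ => ((0, z) : ℂ × ℂ)) hq
        (analyticAt_const.prod analyticAt_id)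
    have hsub : AnalyticAt ℂ (fun z : ℂ => q (0, z) - z ^ m * g z) 0 :=
      hq0.sub ((analyticAt_id.pow m).mul hg)
    have h3 : ∀ᶠ z in 𝓝[≠] (0 : ℂ), q (0, z) - z ^ m * g z = 0 := by
      filter_upwards [(h.and (h0z.eventually h2)).filter_mono nhdsWithin_le_nhds,
        self_mem_nhdsWithin] with z h4 h5
      obtain ⟨h6, h7⟩ := h4
      rw [h6] at h7
      have h8 : z * (q (0, z) - z ^ m * g z) = 0 := by linear_combination -h7
      exact (mul_eq_zero.1 h8).resolve_left h5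
    have h4 := hsub.frequently_zero_iff_eventually_zero.1 h3.frequently
    obtain ⟨U, hU, hU0, hUe⟩ := ih hq hz' ⟨g, hg, hg0, h4.mono fun z hz => sub_eq_zero.1 hz⟩
    refine ⟨U, hU, hU0, ?_⟩
    filter_upwards [h2, hUe] with p h5 h6
    rw [h5, h6, pow_succ]
    ring

end Crest.Agent.R257.Rig20
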