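import Crest.Agent.R257.Rig4_20

/-!
Row 257 (S0395), KLT-RA (helper20), part 5: corank at most one is rigid: if the Hessian of `f_0`
has a nonzero `2x2` minor, then `∂F/∂t (·,0) ∈ J(f_0)` for a `μ`-constant family `F`
of functions of three variables.
-/

set_option autoImplicit false
set_option linter.unusedSectionVars false

open Set Filter Topology Metric Complex
open Crest.Agent.R257.UI939

noncomputable section

namespace Crest.Agent.R257.Rig20

/-- analytic inverse function theorem at the origin -/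
theorem local_inverse {E : Type*} [NormedAddCommGroup E] [NormedSpace ℂ E]
    [FiniteDimensional ℂ E] {Φ : E → E} (hΦ : AnalyticAt ℂ Φ 0) (h0 : Φ 0 = 0)
    (hinj : ∀ v, fderiv ℂ Φ 0 v = 0 → v = 0) :
    ∃ Ψ : E → E, AnalyticAt ℂ Ψ 0 ∧ Ψ 0 = 0 ∧ (∀ᶠ p in 𝓝 (0 : E), Ψ (Φ p) = p) ∧
      ∀ᶠ p in 𝓝 (0 : E), Φ (Ψ p) = p := by
  have : CompleteSpace E := FiniteDimensional.complete ℂ E
  have hker : Function.Injective ((fderiv ℂ Φ 0 : E →L[ℂ] E) : E →ₗ[ℂ] E) := by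
    rw [← LinearMap.ker_eq_bot]
    exact LinearMap.ker_eq_bot'.2 fun v hv => hinj v hv
  let L : E ≃L[ℂ] E := (LinearEquiv.ofInjectiveEndo _ hker).toContinuousLinearEquiv
  have hL : (L : E →L[ℂ] E) = fderiv ℂ Φ 0 := by
    ext v
    rfl
  have hst : HasStrictFDerivAt Φ (L : E →L[ℂ] E) 0 := by
    rw [hL]
    exact hΦ.hasStrictFDerivAt
  let e := hst.toOpenPartialHomeomorph Φ
  have he : (e : E → E) = Φ := rfl
  have hsrc : (0 : E) ∈ e.source := hst.mem_toOpenPartialHomeomorph_source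
  have h1 : AnalyticAt ℂ e.symm (e 0) :=
    e.analyticAt_symm' (i := L) hsrc hΦ hL.symm
  have he0 : e 0 = 0 := h0
  rw [he0] at h1
  refine ⟨e.symm, h1, ?_, ?_, ?_⟩
  · have := e.left_inv hsrc
    rwa [he0] at this
  · filter_upwards [e.open_source.mem_nhds hsrc] with p hp
    exact e.left_inv hp
  · have htar : (0 : E) ∈ e.target := by
      have := e.map_source hsrc
      rwa [he0] at this
    filter_upwards [e.open_target.mem_nhds htar] with p hp
    exact e.right_inv hp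

variable {n : ℕ}

/-- the total derivative in terms of the partial derivatives -/
lemma fderiv_split {F : (Fin n → ℂ) × ℂ → ℂ} {p : (Fin n → ℂ) × ℂ}
    (hF : DifferentiableAt ℂ F p) (v : (Fin n → ℂ) × ℂ) :
    fderiv ℂ F p v = ∑ j, v.1 j * grad F j p + v.2 * dt F p := by
  classical
  have h1 : v = ∑ j, v.1 j • ((Pi.single j 1, 0) : (Fin n → ℂ) × ℂ) + v.2 • (0, 1) := by
    refine Prod.ext ?_ ?_
    · rw [Prod.fst_add, Prod.fst_sum]
      funext i
      simp [Finset.sum_apply, Pi.single_apply]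
    · rw [Prod.snd_add, Prod.snd_sum]
      simp
  conv_lhs => rw [h1]
  rw [map_add, map_sum, map_smul, smul_eq_mul, dt]
  congr 1
  refine Finset.sum_congr rfl (fun j _ => ?_)
  rw [map_smul, smul_eq_mul, grad_eq hF]

/-- integration along the fibre: if `∂_z φ = z^m ρ` and `φ(t,0) = 0` then `φ = z^(m+1) χ` -/
lemma pow_dvd_of_deriv {φ ρ : ℂ × ℂ → ℂ} (hφ : AnalyticAt ℂ φ 0)
    (hρ : AnalyticAt ℂ ρ 0) (m : ℕ)
    (h0 : ∀ᶠ t in 𝓝 (0 : ℂ), φ (t, 0) = 0)
    (h : ∀ᶠ p in 𝓝 (0 : ℂ × ℂ), fderiv ℂ φ p (0, 1) = p.2 ^ m * ρ p) (k : ℕ) (hk : k ≤ m) :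
    ∃ χ : ℂ × ℂ → ℂ, AnalyticAt ℂ χ 0 ∧ ∀ᶠ p in 𝓝 (0 : ℂ × ℂ), φ p = p.2 ^ (k + 1) * χ p := by
  have h1 : Tendsto (fun p : ℂ × ℂ => p.1) (𝓝 0) (𝓝 0) := continuous_fst.tendsto' _ _ rfl
  have h0t : Tendsto (fun t : ℂ => ((t, 0) : ℂ × ℂ)) (𝓝 0) (𝓝 0) := by
    have : Continuous (fun t : ℂ => ((t, 0) : ℂ × ℂ)) := by fun_prop
    exact this.tendsto' _ _ rfl
  induction k with
  | zero =>
    obtain ⟨q, hq, hqe⟩ := hadamard_fun hφ
    refine ⟨q, hq, ?_⟩
    filter_upwards [hqe, h1.eventually h0] with p h3 h4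
    rw [h3, h4]
    ring
  | succ k ih =>
    obtain ⟨χ, hχ, hχe⟩ := ih (by omega)
    have hd : ∀ᶠ p in 𝓝 (0 : ℂ × ℂ), fderiv ℂ φ p (0, 1) =
        ((k : ℂ) + 1) * p.2 ^ k * χ p + p.2 ^ (k + 1) * fderiv ℂ χ p (0, 1) := by
      filter_upwards [Filter.EventuallyEq.eventuallyEq_nhds
        (show φ =ᶠ[𝓝 0] fun p => p.2 ^ (k + 1) * χ p from hχe), hχ.eventually_analyticAt]
        with p h3 h4
      rw [h3.fderiv_eq]
      have h5 : HasFDerivAt (fun p : ℂ × ℂ => p.2 ^ (k + 1))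
          (((k + 1 : ℕ) * p.2 ^ k) • ContinuousLinearMap.snd ℂ ℂ ℂ) p := by
        have := (hasFDerivAt_snd (𝕜 := ℂ) (E := ℂ) (F := ℂ) (p := p)).pow (k + 1)
        simpa using this
      rw [fderiv_fun_mul h5.differentiableAt h4.differentiableAt, h5.fderiv]
      simp
      ring
    have hmul : ∀ᶠ p in 𝓝 (0 : ℂ × ℂ), p.2 ≠ 0 →
        ((k : ℂ) + 1) * χ p + p.2 * fderiv ℂ χ p (0, 1) - p.2 ^ (m - k) * ρ p = 0 := by
      filter_upwards [h, hd] with p h3 h4 h5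
      rw [h3] at h4
      have e1 : p.2 ^ m = p.2 ^ k * p.2 ^ (m - k) := by
        rw [← pow_add]; congr 1; omega
      rw [e1] at h4
      have h6 : p.2 ^ k * (((k : ℂ) + 1) * χ p + p.2 * fderiv ℂ χ p (0, 1) -
          p.2 ^ (m - k) * ρ p) = 0 := by
        linear_combination -h4
      exact (mul_eq_zero.1 h6).resolve_left (pow_ne_zero _ h5)
    -- at z = 0
    have hχ0 : ∀ᶠ t in 𝓝 (0 : ℂ), χ (t, 0) = 0 := by
      have hcan : ∀ᶠ p in 𝓝 (0 : ℂ × ℂ), AnalyticAt ℂ χ p ∧ AnalyticAt ℂ ρ p :=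
        hχ.eventually_analyticAt.and hρ.eventually_analyticAt
      filter_upwards [h0t.eventually (eventually_eventually_nhds.2 hmul),
        h0t.eventually hcan] with t h3 h4
      obtain ⟨h5, h6⟩ := h4
      have hz : Tendsto (fun z : ℂ => ((t, z) : ℂ × ℂ)) (𝓝 0) (𝓝 (t, 0)) := by
        have : Continuous (fun z : ℂ => ((t, z) : ℂ × ℂ)) := by fun_prop
        exact this.tendsto' _ _ rfl
      have h7 := hz.eventually h3
      have hcont : ContinuousAt (fun p : ℂ × ℂ => ((k : ℂ) + 1) * χ p +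
          p.2 * fderiv ℂ χ p (0, 1) - p.2 ^ (m - k) * ρ p) (t, 0) := by
        have c1 : ContinuousAt (fun p : ℂ × ℂ => fderiv ℂ χ p (0, 1)) (t, 0) :=
          (((ContinuousLinearMap.analyticAt (ContinuousLinearMap.apply ℂ ℂ ((0, 1) : ℂ × ℂ)) _).comp
            h5.fderiv).continuousAt)
        exact ((continuousAt_const.mul h5.continuousAt).add (continuousAt_snd.mul c1)).sub
          ((continuousAt_snd.pow _).mul h6.continuousAt)
      have hlim := (ContinuousAt.tendsto (hcont.comp_of_eq (g := fun p : ℂ × ℂ => ((k : ℂ) + 1) * χ p +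
          p.2 * fderiv ℂ χ p (0, 1) - p.2 ^ (m - k) * ρ p) (f := fun z : ℂ => ((t, z) : ℂ × ℂ))
          (x := 0) (by fun_prop) rfl)).mono_left (nhdsWithin_le_nhds (s := {0}ᶜ))
      have h8 : Tendsto ((fun p : ℂ × ℂ => ((k : ℂ) + 1) * χ p +
          p.2 * fderiv ℂ χ p (0, 1) - p.2 ^ (m - k) * ρ p) ∘ fun z : ℂ => ((t, z) : ℂ × ℂ))
          (𝓝[≠] 0) (𝓝 0) := by
        refine Tendsto.congr' ?_ tendsto_const_nhds
        filter_upwards [h7.filter_mono nhdsWithin_le_nhds, self_mem_nhdsWithin] with z h9 h10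
        exact (h9 h10).symm
      have h9 := tendsto_nhds_unique hlim h8
      have h10 : m - k ≠ 0 := by omega
      simp only [Function.comp_apply, zero_mul, add_zero, zero_pow h10, sub_zero] at h9
      rcases mul_eq_zero.1 h9 with h11 | h11
      · have : ((k : ℂ) + 1) ≠ 0 := by exact_mod_cast Nat.succ_ne_zero k
        exact absurd h11 this
      · exact h11
    obtain ⟨q, hq, hqe⟩ := hadamard_fun hχ
    refine ⟨q, hq, ?_⟩
    filter_upwards [hχe, hqe, h1.eventually hχ0] with p h3 h4 h5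
    rw [h3, h4, h5, pow_succ]
    ring

/-- Hadamard's lemma with respect to two of the three coordinates -/
lemma had2 {f : (Fin 3 → ℂ) → ℂ} (hf : AnalyticAt ℂ f 0) (τ : Equiv.Perm (Fin 3)) :
    ∃ A B : (Fin 3 → ℂ) → ℂ, AnalyticAt ℂ A 0 ∧ AnalyticAt ℂ B 0 ∧
      ∀ᶠ w in 𝓝 (0 : Fin 3 → ℂ),
        f w = f (Pi.single (τ 2) (w (τ 2))) + w (τ 0) * A w + w (τ 1) * B w := by
  obtain ⟨A, hA, hAe⟩ := hadamard_coord hf (τ 0)
  obtain ⟨B, hB, hBe⟩ := hadamard_coord hf (τ 1)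
  have hup : ∀ k : Fin 3, Continuous (fun w : Fin 3 → ℂ => Function.update w k 0) := by
    intro k
    exact continuous_id.update k continuous_const
  have hup0 : ∀ k : Fin 3, Function.update (0 : Fin 3 → ℂ) k 0 = 0 := by
    intro k
    exact Function.update_eq_self k 0
  have hupa : ∀ k : Fin 3, AnalyticAt ℂ (fun w : Fin 3 → ℂ => Function.update w k 0) 0 := by
    intro k
    refine AnalyticAt.pi fun i => ?_
    by_cases h : i = k
    · subst h
      simpa using analyticAt_const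
    · simpa [Function.update_of_ne h] using an_coord i 0
  refine ⟨A, fun w => B (Function.update w (τ 0) 0), hA, ?_, ?_⟩
  · exact AnalyticAt.comp (g := B) (by rw [hup0]; exact hB) (hupa (τ 0))
  · have h1 : Tendsto (fun w : Fin 3 → ℂ => Function.update w (τ 0) 0) (𝓝 0) (𝓝 0) :=
      (hup (τ 0)).tendsto' _ _ (hup0 _)
    filter_upwards [hAe, h1.eventually hBe] with w h2 h3
    rw [h2, h3]
    have h01 : τ 1 ≠ τ 0 := fun h => by simpa using τ.injective h
    have h20 : τ 2 ≠ τ 0 := fun h => by simpa using τ.injective h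
    have h21 : τ 2 ≠ τ 1 := fun h => by simpa using τ.injective h
    have e1 : Function.update (Function.update w (τ 0) 0) (τ 1) 0 =
        Pi.single (τ 2) (w (τ 2)) := by
      funext i
      obtain ⟨j, rfl⟩ := τ.surjective i
      fin_cases j
      · simp
      · simp
      · simp
    rw [e1, Function.update_of_ne h01]
    ring

/-- LEMMA A: corank at most one is rigid -/
theorem lemma_A {F : (Fin 3 → ℂ) × ℂ → ℂ} (hF : AnalyticAt ℂ F 0)
    (hzero : ∀ᶠ t in 𝓝 (0 : ℂ), F (0, t) = 0)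
    (hcrit : ∀ᶠ t in 𝓝 (0 : ℂ), ∀ j, grad F j (0, t) = 0)
    (hiso : ∀ᶠ p in 𝓝 (0 : (Fin 3 → ℂ) × ℂ), (∀ j, grad F j p = 0) → p.1 = 0)
    (σ τ : Equiv.Perm (Fin 3))
    (hminor : hs F (σ 0) (τ 0) 0 * hs F (σ 1) (τ 1) 0 -
      hs F (σ 0) (τ 1) 0 * hs F (σ 1) (τ 0) 0 ≠ 0) :
    ∃ u : Fin 3 → (Fin 3 → ℂ) → ℂ, (∀ j, AnalyticAt ℂ (u j) 0) ∧
      ∀ᶠ x in 𝓝 (0 : Fin 3 → ℂ), dt F (x, 0) = ∑ j, u j x * grad F j (x, 0) := by
  classical
  have h01 : τ 1 ≠ τ 0 := fun h => by simpa using τ.injective h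
  have h20 : τ 2 ≠ τ 0 := fun h => by simpa using τ.injective h
  have h21 : τ 2 ≠ τ 1 := fun h => by simpa using τ.injective h
  have hg0 : ∀ j, grad F j 0 = 0 := fun j => hcrit.self_of_nhds j
  have hga : ∀ j, AnalyticAt ℂ (grad F j) 0 := fun j => an_grad hF j
  -- the coordinate change
  set Φ : (Fin 3 → ℂ) × ℂ → (Fin 3 → ℂ) × ℂ := fun p =>
    (fun m => if m = τ 0 then grad F (σ 0) p else if m = τ 1 then grad F (σ 1) p else p.1 m, p.2)
    with hΦ
  have hΦa : AnalyticAt ℂ Φ 0 := by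
    refine AnalyticAt.prod (AnalyticAt.pi fun m => ?_) analyticAt_snd
    by_cases h1 : m = τ 0
    · simpa [h1] using hga (σ 0)
    · by_cases h2 : m = τ 1
      · simpa [h2, h01] using hga (σ 1)
      · simpa [h1, h2] using an_x m 0
  have hΦ0 : Φ 0 = 0 := by
    refine Prod.ext (funext fun m => ?_) rfl
    by_cases h1 : m = τ 0
    · simp [hΦ, h1, hg0]
    · by_cases h2 : m = τ 1
      · simp [hΦ, h2, hg0]
      · simp [hΦ, h1, h2]
  have hΦd : ∀ v, fderiv ℂ Φ 0 v = (fun m => if m = τ 0 then fderiv ℂ (grad F (σ 0)) 0 v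
      else if m = τ 1 then fderiv ℂ (grad F (σ 1)) 0 v else v.1 m, v.2) := by
    intro v
    have hd := hΦa.differentiableAt.hasFDerivAt
    have hfst : HasFDerivAt (fun p => (Φ p).1)
        ((ContinuousLinearMap.fst ℂ (Fin 3 → ℂ) ℂ).comp (fderiv ℂ Φ 0)) 0 :=
      (ContinuousLinearMap.fst ℂ (Fin 3 → ℂ) ℂ).hasFDerivAt.comp 0 hd
    have hsnd : HasFDerivAt (fun p => (Φ p).2)
        ((ContinuousLinearMap.snd ℂ (Fin 3 → ℂ) ℂ).comp (fderiv ℂ Φ 0)) 0 :=
      HasFDerivAt.comp (f := Φ) 0 (ContinuousLinearMap.snd ℂ (Fin 3 → ℂ) ℂ).hasFDerivAt hd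
    refine Prod.ext (funext fun m => ?_) ?_
    · have hm : HasFDerivAt (fun p => (Φ p).1 m)
        ((ContinuousLinearMap.proj (R := ℂ) (φ := fun _ : Fin 3 => ℂ) m).comp
          ((ContinuousLinearMap.fst ℂ (Fin 3 → ℂ) ℂ).comp (fderiv ℂ Φ 0))) 0 :=
        (ContinuousLinearMap.proj (R := ℂ) (φ := fun _ : Fin 3 => ℂ) m).hasFDerivAt.comp 0 hfst
      have e1 : (fderiv ℂ Φ 0 v).1 m = fderiv ℂ (fun p => (Φ p).1 m) 0 v := by
        rw [hm.fderiv]; rfl
      rw [e1]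
      by_cases h1 : m = τ 0
      · have : (fun p => (Φ p).1 m) = grad F (σ 0) := by
          funext p; simp [hΦ, h1]
        rw [this]; simp [h1]
      · by_cases h2 : m = τ 1
        · have : (fun p => (Φ p).1 m) = grad F (σ 1) := by
            funext p; simp [hΦ, h2, h01]
          rw [this]; simp [h2, h01]
        · have : (fun p => (Φ p).1 m) = fun p => p.1 m := by
            funext p; simp [hΦ, h1, h2]
          rw [this]
          have h3 : HasFDerivAt (fun q : (Fin 3 → ℂ) × ℂ => q.1 m)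
              ((ContinuousLinearMap.proj (R := ℂ) (φ := fun _ : Fin 3 => ℂ) m).comp
                (ContinuousLinearMap.fst ℂ (Fin 3 → ℂ) ℂ)) 0 :=
            ((ContinuousLinearMap.proj (R := ℂ) (φ := fun _ : Fin 3 => ℂ) m).comp
              (ContinuousLinearMap.fst ℂ (Fin 3 → ℂ) ℂ)).hasFDerivAt
          rw [h3.fderiv]
          simp [h1, h2]
    · have e1 : (fderiv ℂ Φ 0 v).2 = fderiv ℂ (fun p => (Φ p).2) 0 v := by
        rw [hsnd.fderiv]; rfl
      rw [e1]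
      have : (fun p => (Φ p).2) = (Prod.snd : (Fin 3 → ℂ) × ℂ → ℂ) := rfl
      rw [this, fderiv_snd]
      rfl
  have hinj : ∀ v, fderiv ℂ Φ 0 v = 0 → v = 0 := by
    intro v hv
    rw [hΦd] at hv
    have hv2 : v.2 = 0 := congrArg Prod.snd hv
    have hv1 := congrArg Prod.fst hv
    have a0 := congrFun hv1 (τ 0)
    have a1 := congrFun hv1 (τ 1)
    have a2 := congrFun hv1 (τ 2)
    simp only [if_true, Prod.fst_zero, Pi.zero_apply] at a0
    simp only [h01, if_false, if_true, Prod.fst_zero, Pi.zero_apply] at a1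
    simp only [h20, h21, if_false, Prod.fst_zero, Pi.zero_apply] at a2
    rw [fderiv_split (hga _).differentiableAt, hv2, zero_mul, add_zero,
      ← Equiv.sum_comp τ, Fin.sum_univ_three, a2, zero_mul, add_zero] at a0 a1
    have b0 : v.1 (τ 0) * hs F (σ 0) (τ 0) 0 + v.1 (τ 1) * hs F (σ 0) (τ 1) 0 = 0 := a0
    have b1 : v.1 (τ 0) * hs F (σ 1) (τ 0) 0 + v.1 (τ 1) * hs F (σ 1) (τ 1) 0 = 0 := a1
    have c0 : v.1 (τ 0) = 0 := by
      have : v.1 (τ 0) * (hs F (σ 0) (τ 0) 0 * hs F (σ 1) (τ 1) 0 -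
        hs F (σ 0) (τ 1) 0 * hs F (σ 1) (τ 0) 0) = 0 := by
        linear_combination hs F (σ 1) (τ 1) 0 * b0 - hs F (σ 0) (τ 1) 0 * b1
      exact (mul_eq_zero.1 this).resolve_right hminor
    have c1 : v.1 (τ 1) = 0 := by
      have : v.1 (τ 1) * (hs F (σ 0) (τ 0) 0 * hs F (σ 1) (τ 1) 0 -
        hs F (σ 0) (τ 1) 0 * hs F (σ 1) (τ 0) 0) = 0 := by
        linear_combination hs F (σ 0) (τ 0) 0 * b1 - hs F (σ 1) (τ 0) 0 * b0
      exact (mul_eq_zero.1 this).resolve_right hminor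
    refine Prod.ext (funext fun i => ?_) hv2
    obtain ⟨j, rfl⟩ := τ.surjective i
    fin_cases j
    · exact c0
    · exact c1
    · exact a2
  obtain ⟨Ψ, hΨa, hΨ0, hl, hr⟩ := local_inverse hΦa hΦ0 hinj
  -- components of the right inverse
  have hr0 : ∀ᶠ w in 𝓝 (0 : (Fin 3 → ℂ) × ℂ), grad F (σ 0) (Ψ w) = w.1 (τ 0) ∧
      grad F (σ 1) (Ψ w) = w.1 (τ 1) ∧ (Ψ w).1 (τ 2) = w.1 (τ 2) ∧ (Ψ w).2 = w.2 := by
    filter_upwards [hr] with w hw
    have h1 := congrArg Prod.fst hw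
    have h2 : (Φ (Ψ w)).2 = w.2 := congrArg Prod.snd hw
    refine ⟨?_, ?_, ?_, h2⟩
    · simpa [hΦ] using congrFun h1 (τ 0)
    · simpa [hΦ, h01] using congrFun h1 (τ 1)
    · simpa [hΦ, h20, h21] using congrFun h1 (τ 2)
  -- the curve
  set c : ℂ × ℂ → (Fin 3 → ℂ) × ℂ := fun q => Ψ (Pi.single (τ 2) q.2, q.1) with hc
  have hin : AnalyticAt ℂ (fun q : ℂ × ℂ => ((Pi.single (τ 2) q.2, q.1) : (Fin 3 → ℂ) × ℂ)) 0 := by
    refine AnalyticAt.prod (AnalyticAt.pi fun i => ?_) analyticAt_fst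
    by_cases h : i = τ 2
    · subst h
      simpa using analyticAt_snd
    · simpa [Pi.single_eq_of_ne h] using analyticAt_const
  have hin0 : ((Pi.single (τ 2) (0 : ℂ × ℂ).2, (0 : ℂ × ℂ).1) : (Fin 3 → ℂ) × ℂ) = 0 := by
    simp
  have hca : AnalyticAt ℂ c 0 := by
    refine AnalyticAt.comp (g := Ψ) ?_ hin
    rw [hin0]; exact hΨa
  have hc0 : c 0 = 0 := by
    simp only [hc]
    rw [hin0, hΨ0]
  have hint : Tendsto (fun q : ℂ × ℂ => ((Pi.single (τ 2) q.2, q.1) : (Fin 3 → ℂ) × ℂ))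
      (𝓝 0) (𝓝 0) := by
    have := hin.continuousAt.tendsto
    rwa [hin0] at this
  have hct : Tendsto c (𝓝 0) (𝓝 0) := by
    have := hca.continuousAt.tendsto
    rwa [hc0] at this
  have hcr : ∀ᶠ q in 𝓝 (0 : ℂ × ℂ), grad F (σ 0) (c q) = 0 ∧ grad F (σ 1) (c q) = 0 ∧
      (c q).1 (τ 2) = q.2 ∧ (c q).2 = q.1 := by
    filter_upwards [hint.eventually hr0] with q hq
    obtain ⟨a1, a2, a3, a4⟩ := hq
    refine ⟨?_, ?_, ?_, a4⟩
    · rw [show grad F (σ 0) (c q) = _ from a1, Pi.single_eq_of_ne h20.symm]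
    · rw [show grad F (σ 1) (c q) = _ from a2, Pi.single_eq_of_ne h21.symm]
    · rw [show (c q).1 (τ 2) = _ from a3, Pi.single_eq_same]
  -- the remaining partial derivative on the curve
  set ψ : ℂ × ℂ → ℂ := fun q => grad F (σ 2) (c q) with hψ
  have hψa : AnalyticAt ℂ ψ 0 := AnalyticAt.comp (g := grad F (σ 2)) (by rw [hc0]; exact hga _) hca
  have hψz : ∀ᶠ q in 𝓝 (0 : ℂ × ℂ), ψ q = 0 → q.2 = 0 := by
    filter_upwards [hcr, hct.eventually hiso] with q h1 h2 h3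
    obtain ⟨a1, a2, a3, a4⟩ := h1
    have h4 := h2 (fun j => by
      obtain ⟨k, rfl⟩ := σ.surjective j
      fin_cases k
      · exact a1
      · exact a2
      · exact h3)
    rw [← a3, h4]
    rfl
  have h0z : Tendsto (fun z : ℂ => ((0, z) : ℂ × ℂ)) (𝓝 0) (𝓝 0) := by
    have : Continuous (fun z : ℂ => ((0, z) : ℂ × ℂ)) := by fun_prop
    exact this.tendsto' _ _ rfl
  have hψ0a : AnalyticAt ℂ (fun z : ℂ => ψ (0, z)) 0 :=
    AnalyticAt.comp (g := ψ) (f := fun z : ℂ => ((0, z) : ℂ × ℂ)) hψa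
      (analyticAt_const.prod analyticAt_id)
  have hne : ¬ ∀ᶠ z in 𝓝 (0 : ℂ), ψ (0, z) = 0 := by
    intro h
    have h2 : ∀ᶠ z in 𝓝[≠] (0 : ℂ), False := by
      filter_upwards [(h.and (h0z.eventually hψz)).filter_mono nhdsWithin_le_nhds,
        self_mem_nhdsWithin] with z h3 h4
      exact h4 (h3.2 h3.1)
    exact (h2.exists).elim fun _ h => h
  obtain ⟨m, g, hga', hg0', hge⟩ := hψ0a.exists_eventuallyEq_pow_smul_nonzero_iff.2 hne
  simp only [sub_zero, smul_eq_mul] at hge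
  obtain ⟨U, hU, hU0, hUe⟩ := pow_unit m hψa hψz ⟨g, hga', hg0', hge⟩
  -- F on the curve
  set φ : ℂ × ℂ → ℂ := fun q => F (c q) with hφ
  have hφa : AnalyticAt ℂ φ 0 := AnalyticAt.comp (g := F) (by rw [hc0]; exact hF) hca
  have hφ0 : ∀ᶠ t in 𝓝 (0 : ℂ), φ (t, 0) = 0 := by
    have h1 : Tendsto (fun t : ℂ => ((0, t) : (Fin 3 → ℂ) × ℂ)) (𝓝 0) (𝓝 0) := by
      have : Continuous (fun t : ℂ => ((0, t) : (Fin 3 → ℂ) × ℂ)) := by fun_prop
      exact this.tendsto' _ _ rfl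
    filter_upwards [h1.eventually hl, hcrit, hzero] with t h2 h3 h4
    have h5 : Φ (0, t) = (0, t) := by
      refine Prod.ext (funext fun i => ?_) rfl
      by_cases e1 : i = τ 0
      · simp [hΦ, e1, h3]
      · by_cases e2 : i = τ 1
        · simp [hΦ, e2, h3]
        · simp [hΦ, e1, e2]
    rw [h5] at h2
    have h6 : c (t, 0) = (0, t) := by
      simp only [hc, Pi.single_zero]
      exact h2
    simp only [hφ]
    rw [h6, h4]
  -- derivatives of the composite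
  have hcomp : ∀ᶠ q in 𝓝 (0 : ℂ × ℂ), ∀ v : ℂ × ℂ, fderiv ℂ φ q v =
      (fderiv ℂ c q v).1 (σ 2) * ψ q + v.1 * dt F (c q) := by
    filter_upwards [hcr, hca.eventually_analyticAt, hct.eventually hF.eventually_analyticAt,
      Filter.Eventually.eventually_nhds (hcr.mono fun q hq => hq.2.2.2)] with q h1 h2 h3 h4 v
    obtain ⟨a1, a2, a3, a4⟩ := h1
    have e1 : fderiv ℂ φ q v = fderiv ℂ F (c q) (fderiv ℂ c q v) := by
      have := (h3.differentiableAt.hasFDerivAt.comp q h2.differentiableAt.hasFDerivAt).fderiv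
      rw [show φ = F ∘ c from rfl, this]
      rfl
    have e2 : (fderiv ℂ c q v).2 = v.1 := by
      have h5 : HasFDerivAt (fun p => (c p).2)
          ((ContinuousLinearMap.snd ℂ (Fin 3 → ℂ) ℂ).comp (fderiv ℂ c q)) q :=
        (ContinuousLinearMap.snd ℂ (Fin 3 → ℂ) ℂ).hasFDerivAt.comp q
          h2.differentiableAt.hasFDerivAt
      have h6 : (fun p => (c p).2) =ᶠ[𝓝 q] Prod.fst := h4
      have h7 : (fderiv ℂ c q v).2 = fderiv ℂ (fun p => (c p).2) q v := by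
        rw [h5.fderiv]; rfl
      rw [h7, h6.fderiv_eq, fderiv_fst]
      rfl
    rw [e1, fderiv_split h3.differentiableAt, e2, ← Equiv.sum_comp σ, Fin.sum_univ_three, a1, a2]
    simp [hψ]
  -- the ρ of the integration lemma
  set κ : (ℂ × ℂ) → ℂ × ℂ → ℂ := fun v q => (fderiv ℂ c q v).1 (σ 2) with hκ
  have hκa : ∀ v, AnalyticAt ℂ (κ v) 0 := by
    intro v
    have h1 : AnalyticAt ℂ (fun q => fderiv ℂ c q v) 0 :=
      (ContinuousLinearMap.analyticAt (ContinuousLinearMap.apply ℂ ((Fin 3 → ℂ) × ℂ) v) _).comp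
        hca.fderiv
    exact (ContinuousLinearMap.analyticAt
      ((ContinuousLinearMap.proj (R := ℂ) (φ := fun _ : Fin 3 => ℂ) (σ 2)).comp
        (ContinuousLinearMap.fst ℂ (Fin 3 → ℂ) ℂ)) _).comp h1
  obtain ⟨χ, hχ, hχe⟩ := pow_dvd_of_deriv hφa (hU.mul (hκa (0, 1))) m hφ0 (by
    filter_upwards [hcomp, hUe] with q h1 h2
    rw [h1 (0, 1), h2]
    simp only [Pi.mul_apply, hκ, zero_mul, add_zero]
    ring) m le_rfl
  -- derivative in `t`
  have hdt : ∀ᶠ q in 𝓝 (0 : ℂ × ℂ), dt F (c q) =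
      q.2 ^ m * (q.2 * fderiv ℂ χ q (1, 0) - κ (1, 0) q * U q) := by
    filter_upwards [hcomp, hUe, Filter.EventuallyEq.eventuallyEq_nhds
      (show φ =ᶠ[𝓝 0] fun p => p.2 ^ (m + 1) * χ p from hχe), hχ.eventually_analyticAt]
      with q h1 h2 h3 h4
    have h5 := h1 (1, 0)
    rw [h2, h3.fderiv_eq] at h5
    have h6 : HasFDerivAt (fun p : ℂ × ℂ => p.2 ^ (m + 1))
        (((m + 1 : ℕ) * q.2 ^ m) • ContinuousLinearMap.snd ℂ ℂ ℂ) q := by
      have := (hasFDerivAt_snd (𝕜 := ℂ) (E := ℂ) (F := ℂ) (p := q)).pow (m + 1)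
      simpa using this
    rw [fderiv_fun_mul h6.differentiableAt h4.differentiableAt, h6.fderiv] at h5
    simp only [add_apply, smul_apply, smul_eq_mul,
      ContinuousLinearMap.coe_snd', mul_zero, add_zero, one_mul] at h5
    have h7 : κ (1, 0) q = (fderiv ℂ c q (1, 0)).1 (σ 2) := rfl
    rw [h7]
    linear_combination -h5
  -- on the slice `t = 0`
  set G : ℂ → ℂ := fun z => (z * fderiv ℂ χ (0, z) (1, 0) - κ (1, 0) (0, z) * U (0, z)) *
    (U (0, z))⁻¹ with hG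
  have hslz : ∀ {a : ℂ × ℂ → ℂ}, AnalyticAt ℂ a 0 → AnalyticAt ℂ (fun z : ℂ => a (0, z)) 0 := by
    intro a ha
    exact AnalyticAt.comp (g := a) (f := fun z : ℂ => ((0, z) : ℂ × ℂ)) ha
      (analyticAt_const.prod analyticAt_id)
  have hGa : AnalyticAt ℂ G 0 := by
    have h1 : AnalyticAt ℂ (fun q => fderiv ℂ χ q (1, 0)) 0 :=
      (ContinuousLinearMap.analyticAt (ContinuousLinearMap.apply ℂ ℂ ((1, 0) : ℂ × ℂ)) _).comp
        hχ.fderiv
    exact ((analyticAt_id.mul (hslz h1)).sub ((hslz (hκa (1, 0))).mul (hslz hU))).mul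
      ((hslz hU).inv hU0)
  have hDS : ∀ᶠ z in 𝓝 (0 : ℂ), dt F (c (0, z)) = G z * ψ (0, z) := by
    filter_upwards [h0z.eventually hdt, h0z.eventually hUe,
      (hslz hU).continuousAt.eventually_ne hU0] with z h1 h2 h3
    rw [h1, h2]
    simp only [hG]
    field_simp
  -- Hadamard
  have hin3 : AnalyticAt ℂ (fun w : Fin 3 → ℂ => Ψ (w, 0)) 0 :=
    AnalyticAt.comp (g := Ψ) (f := fun w : Fin 3 → ℂ => ((w, 0) : (Fin 3 → ℂ) × ℂ)) hΨa
      (analyticAt_id.prod analyticAt_const)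
  have hin30 : Ψ ((0 : Fin 3 → ℂ), (0 : ℂ)) = 0 := hΨ0
  obtain ⟨A, B, hA, hB, hAB⟩ := had2 (f := fun w => dt F (Ψ (w, 0)))
    (AnalyticAt.comp (g := dt F) (by rw [hin30]; exact an_dt hF) hin3) τ
  obtain ⟨A', B', hA', hB', hAB'⟩ := had2 (f := fun w => grad F (σ 2) (Ψ (w, 0)))
    (AnalyticAt.comp (g := grad F (σ 2)) (by rw [hin30]; exact hga _) hin3) τ
  -- the substitution
  set ω : (Fin 3 → ℂ) → (Fin 3 → ℂ) := fun x => (Φ (x, 0)).1 with hω
  have hsl : ∀ {E' : Type} [NormedAddCommGroup E'] [NormedSpace ℂ E']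
      {a : (Fin 3 → ℂ) × ℂ → E'}, AnalyticAt ℂ a 0 →
      AnalyticAt ℂ (fun x : Fin 3 → ℂ => a (x, 0)) 0 := by
    intro E' _ _ a ha
    exact AnalyticAt.comp (g := a) (f := fun x : Fin 3 → ℂ => ((x, 0) : (Fin 3 → ℂ) × ℂ)) ha
      (analyticAt_id.prod analyticAt_const)
  have hωa : AnalyticAt ℂ ω 0 :=
    (ContinuousLinearMap.analyticAt (ContinuousLinearMap.fst ℂ (Fin 3 → ℂ) ℂ) _).comp (hsl hΦa)
  have hω0 : ω 0 = 0 := by
    simp only [hω]
    rw [show ((0 : Fin 3 → ℂ), (0 : ℂ)) = 0 from rfl, hΦ0]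
    rfl
  have hωt : Tendsto ω (𝓝 0) (𝓝 0) := by
    have := hωa.continuousAt.tendsto
    rwa [hω0] at this
  have hcompω : ∀ {a : (Fin 3 → ℂ) → ℂ}, AnalyticAt ℂ a 0 →
      AnalyticAt ℂ (fun x => a (ω x)) 0 := by
    intro a ha
    exact AnalyticAt.comp (g := a) (by rw [hω0]; exact ha) hωa
  have hcoord : AnalyticAt ℂ (fun x : Fin 3 → ℂ => G (x (τ 2))) 0 :=
    AnalyticAt.comp (g := G) (by exact hGa) (an_coord (τ 2) 0)
  refine ⟨fun j x => if j = σ 0 then A (ω x) - G (x (τ 2)) * A' (ω x) else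
    if j = σ 1 then B (ω x) - G (x (τ 2)) * B' (ω x) else G (x (τ 2)), ?_, ?_⟩
  · intro j
    by_cases e1 : j = σ 0
    · simp only [if_pos e1]
      exact (hcompω hA).sub (hcoord.mul (hcompω hA'))
    · by_cases e2 : j = σ 1
      · simp only [if_neg e1, if_pos e2]
        exact (hcompω hB).sub (hcoord.mul (hcompω hB'))
      · simp only [if_neg e1, if_neg e2]
        exact hcoord
  · have hx0 : Tendsto (fun x : Fin 3 → ℂ => ((x, 0) : (Fin 3 → ℂ) × ℂ)) (𝓝 0) (𝓝 0) := by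
      have : Continuous (fun x : Fin 3 → ℂ => ((x, 0) : (Fin 3 → ℂ) × ℂ)) := by fun_prop
      exact this.tendsto' _ _ rfl
    have hxc : Tendsto (fun x : Fin 3 → ℂ => x (τ 2)) (𝓝 0) (𝓝 0) :=
      (continuous_apply (τ 2)).tendsto' _ _ rfl
    filter_upwards [hωt.eventually hAB, hωt.eventually hAB', hx0.eventually hl,
      hxc.eventually hDS] with x h1 h2 h3 h4
    have e3 : Φ (x, 0) = (ω x, 0) := rfl
    have s01 : σ 1 ≠ σ 0 := fun h => by simpa using σ.injective h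
    have s20 : σ 2 ≠ σ 0 := fun h => by simpa using σ.injective h
    have s21 : σ 2 ≠ σ 1 := fun h => by simpa using σ.injective h
    rw [e3] at h3
    have w0 : ω x (τ 0) = grad F (σ 0) (x, 0) := by simp [hω, hΦ]
    have w1 : ω x (τ 1) = grad F (σ 1) (x, 0) := by simp [hω, hΦ, h01]
    have w2 : ω x (τ 2) = x (τ 2) := by simp [hω, hΦ, h20, h21]
    rw [h3, w0, w1, w2] at h1 h2
    have h5 : dt F (Ψ (Pi.single (τ 2) (x (τ 2)), 0)) = dt F (c (0, x (τ 2))) := rfl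
    have h6 : grad F (σ 2) (Ψ (Pi.single (τ 2) (x (τ 2)), 0)) = ψ (0, x (τ 2)) := rfl
    rw [h5, h4] at h1
    rw [h6] at h2
    rw [← Equiv.sum_comp σ, Fin.sum_univ_three]
    simp only [s01, s20, s21, if_true, if_false]
    linear_combination h1 - G (x (τ 2)) * h2

end Crest.Agent.R257.Rig20
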