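import Mathlib
import Crest.Agent.R257.TDefs_387

/-!
Row 257 (S0395), part C, T-frame, file 2: monomial formulas in the charts (helper387).

`map0 c` is the chart map in `s₀`-units: `(a, b) ↦ (s₀, y')`; `y' - φ j s₀ = a ^ e₁ * b ^ e₂ * unit`.
-/

set_option autoImplicit false
set_option linter.unusedSectionVars false

open Polynomial Set Filter Topology Metric
open Crest.AlgGeometry.Germ Crest.Agent.R257.AJ387

noncomputable section

namespace Crest.Agent.R257.T387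

namespace TB

variable {f : (Fin 3 → ℂ) → ℂ} (T : TB f)

/-- the chart maps in `s₀`-units -/
def map0 : Ch T.m → ℂ × ℂ → ℂ × ℂ
  | .edge i k k', p => (p.1 * p.2, T.φ i (p.1 * p.2) + p.1 ^ k * p.2 ^ k')
  | .leg i, p => (p.1, T.φ i p.1 + p.1 ^ T.top i * p.2)
  | .vert i k w₀, p => (p.1, T.φ i p.1 + p.1 ^ k * (w₀ + p.2))

/-- `(α, β) ↦ (a, b)` -/
def kap : Ch T.m → ℂ × ℂ → ℂ × ℂ
  | .edge _ _ _, p => (p.1 ^ T.M, p.2 ^ T.M)
  | .leg _, p => (p.1 ^ T.M, p.2 ^ T.M)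
  | .vert _ _ _, p => (p.1 ^ T.M, p.2)

lemma map_fst_pow (c : Ch T.m) (p : ℂ × ℂ) :
    (T.map c p).1 ^ T.M = (T.map0 c (T.kap c p)).1 := by
  cases c <;> simp [map, map0, kap, mul_pow]

lemma map_snd (c : Ch T.m) (p : ℂ × ℂ) : (T.map c p).2 = (T.map0 c (T.kap c p)).2 := by
  cases c <;> simp [map, map0, kap, mul_pow, ← pow_mul]

lemma Q_map (c : Ch T.m) (p : ℂ × ℂ) :
    T.Q (T.map c p) = T.P ((T.map0 c (T.kap c p)).1 ^ T.N₀, (T.map0 c (T.kap c p)).2) := by
  rw [← map_fst_pow, ← map_snd, ← pow_mul, mul_comm T.M]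
  rfl

/-- exponents of `y' - φ j` -/
def ex : Ch T.m → Fin T.m → ℕ × ℕ
  | .edge i k k', j => if j = i ∨ k' ≤ T.del i j then (k, k') else (T.del i j, T.del i j)
  | .leg i, j => if j = i then (T.top i, 1) else (T.del i j, 0)
  | .vert i k _, j => if j = i ∨ k ≤ T.del i j then (k, 0) else (T.del i j, 0)

lemma del_mem_lev {i j : Fin T.m} (h : j ≠ i) : T.del i j ∈ T.lev i :=
  Finset.mem_insert_of_mem (Finset.mem_image_of_mem _ (Finset.mem_erase.2 ⟨h, Finset.mem_univ _⟩))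

lemma le_top {i : Fin T.m} {k : ℕ} (h : k ∈ T.lev i) : k ≤ T.top i := Finset.le_max' _ _ h

lemma top_mem (i : Fin T.m) : T.top i ∈ T.lev i := Finset.max'_mem _ _

lemma lev_pos {i : Fin T.m} {k : ℕ} (h : k ∈ T.lev i) : 0 < k := by
  rcases Finset.mem_insert.1 h with rfl | h
  · exact one_pos
  · obtain ⟨j, -, rfl⟩ := Finset.mem_image.1 h
    exact T.del_pos i j

lemma mul_mem_ball {r : ℝ} (hr : r ≤ 1) {p : ℂ × ℂ} (hp : p ∈ BD r r) :
    p.1 * p.2 ∈ ball (0 : ℂ) r := by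
  have h1 : ‖p.1‖ < r := hp.1
  have h2 : ‖p.2‖ < r := hp.2
  rw [mem_ball, dist_zero_right, norm_mul]
  have h0 := norm_nonneg p.1
  nlinarith [norm_nonneg p.2]

/-- analyticity of the units composed with a map -/
lemma u_comp {i j : Fin T.m} (h : i ≠ j) {g : ℂ × ℂ → ℂ} {U : Set (ℂ × ℂ)}
    (hg : AnalyticOnNhd ℂ g U) (hU : ∀ p ∈ U, g p ∈ ball (0 : ℂ) T.ρ) :
    AnalyticOnNhd ℂ (fun p => T.u i j (g p)) U := fun p hp =>
  AnalyticAt.comp (g := T.u i j) (T.u_an i j h _ (hU p hp)) (hg p hp)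

lemma φ_comp (i : Fin T.m) {g : ℂ × ℂ → ℂ} {U : Set (ℂ × ℂ)}
    (hg : AnalyticOnNhd ℂ g U) (hU : ∀ p ∈ U, g p ∈ ball (0 : ℂ) T.ρ) :
    AnalyticOnNhd ℂ (fun p => T.φ i (g p)) U := fun p hp =>
  AnalyticAt.comp (g := T.φ i) (T.φ_an i _ (hU p hp)) (hg p hp)

lemma BD_nhds {r : ℝ} (hr : 0 < r) : BD r r ∈ 𝓝 ((0 : ℂ), (0 : ℂ)) :=
  (isOpen_BD r r).mem_nhds ⟨by simpa using hr, by simpa using hr⟩

lemma exists_BD {s : Set (ℂ × ℂ)} (hs : s ∈ 𝓝 ((0 : ℂ), (0 : ℂ))) : ∃ r > 0, BD r r ⊆ s := by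
  obtain ⟨r, hr, h⟩ := Metric.mem_nhds_iff.1 hs
  refine ⟨r, hr, fun p hp => h ?_⟩
  rw [mem_ball, Prod.dist_eq, max_lt_iff, dist_zero_right, dist_zero_right]
  exact hp

lemma BD_mono {r r' : ℝ} (h : r ≤ r') : BD r r ⊆ BD r' r' := fun _ hp =>
  ⟨lt_of_lt_of_le hp.1 h, lt_of_lt_of_le hp.2 h⟩

/-- a function analytic and non-zero at `0` is so on a bidisc -/
lemma unit_near {U : ℂ × ℂ → ℂ} {r : ℝ} (hr : 0 < r) (hU : AnalyticOnNhd ℂ U (BD r r))
    (h0 : U (0, 0) ≠ 0) : ∃ r' > 0, r' ≤ r ∧ ∀ p ∈ BD r' r', U p ≠ 0 := by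
  have h1 : ∀ᶠ p in 𝓝 ((0 : ℂ), (0 : ℂ)), U p ≠ 0 :=
    (hU (0, 0) ⟨by simpa using hr, by simpa using hr⟩).continuousAt.eventually_ne h0
  obtain ⟨r₁, hr₁, h⟩ := exists_BD h1
  exact ⟨min r₁ r, lt_min hr₁ hr, min_le_right _ _, fun p hp => h (BD_mono (min_le_left _ _) hp)⟩

lemma analyticOnNhd_mul_fst_snd {U : Set (ℂ × ℂ)} : AnalyticOnNhd ℂ (fun p : ℂ × ℂ => p.1 * p.2) U :=
  fun _ _ => analyticAt_fst.mul analyticAt_snd

/-- **monomial formula** for `y' - φ j` -/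
theorem mono {c : Ch T.m} (hc : T.Valid c) (j : Fin T.m) : ∃ r > 0, ∃ U : ℂ × ℂ → ℂ,
    AnalyticOnNhd ℂ U (BD r r) ∧ (∀ p ∈ BD r r, U p ≠ 0) ∧
    ∀ p ∈ BD r r, (T.map0 c p).1 ∈ ball (0 : ℂ) T.ρ ∧ (T.map0 c p).2 - T.φ j (T.map0 c p).1 =
      p.1 ^ (T.ex c j).1 * p.2 ^ (T.ex c j).2 * U p := by
  have hρ := T.ρ_pos
  have hρ1 := T.ρ_le
  cases c with
  | edge i k k' =>
    obtain ⟨hk, hk', hkk, hcons⟩ := hc
    by_cases hj : j = i
    · subst hj
      refine ⟨T.ρ, hρ, fun _ => 1, fun _ _ => analyticAt_const, fun _ _ => one_ne_zero,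
        fun p hp => ⟨mul_mem_ball hρ1 hp, ?_⟩⟩
      simp [map0, ex]
    have hij : i ≠ j := fun h => hj h.symm
    have hu := T.u_comp hij (g := fun p : ℂ × ℂ => p.1 * p.2) (U := BD T.ρ T.ρ)
      analyticOnNhd_mul_fst_snd fun p hp => mul_mem_ball hρ1 hp
    have hu0 : T.u i j 0 ≠ 0 := T.u_ne i j hij 0 (mem_ball_self hρ)
    by_cases hd : k' ≤ T.del i j
    · let U : ℂ × ℂ → ℂ := fun p => 1 + p.1 ^ (T.del i j - k) * p.2 ^ (T.del i j - k') *
        T.u i j (p.1 * p.2)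
      have hUa : AnalyticOnNhd ℂ U (BD T.ρ T.ρ) := fun p hp =>
        analyticAt_const.add (((analyticAt_fst.pow _).mul (analyticAt_snd.pow _)).mul (hu p hp))
      have hU0 : U (0, 0) ≠ 0 := by
        have : T.del i j - k ≠ 0 := by omega
        simp [U, this]
      obtain ⟨r, hr, hrρ, hne⟩ := unit_near hρ hUa hU0
      refine ⟨r, hr, U, hUa.mono (BD_mono hrρ), hne, fun p hp => ?_⟩
      have hm := mul_mem_ball hρ1 (BD_mono hrρ hp)
      refine ⟨hm, ?_⟩
      have h1 := T.φ_sub i j hij _ hm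
      have h2 : (T.ex (.edge i k k') j) = (k, k') := by simp [ex, hd]
      rw [h2]
      simp only [map0, U]
      have e1 : p.1 ^ T.del i j = p.1 ^ k * p.1 ^ (T.del i j - k) := by
        rw [← pow_add]; congr 1; omega
      have e2 : p.2 ^ T.del i j = p.2 ^ k' * p.2 ^ (T.del i j - k') := by
        rw [← pow_add]; congr 1; omega
      rw [mul_pow, e1, e2] at h1
      linear_combination h1
    · have hdk : T.del i j ≤ k := by
        rcases hcons _ (T.del_mem_lev hj) with h | h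
        · exact h
        · exact absurd h hd
      let U : ℂ × ℂ → ℂ := fun p => T.u i j (p.1 * p.2) +
        p.1 ^ (k - T.del i j) * p.2 ^ (k' - T.del i j)
      have hUa : AnalyticOnNhd ℂ U (BD T.ρ T.ρ) := fun p hp =>
        (hu p hp).add ((analyticAt_fst.pow _).mul (analyticAt_snd.pow _))
      have hU0 : U (0, 0) ≠ 0 := by
        have : k' - T.del i j ≠ 0 := by omega
        simpa [U, this] using hu0
      obtain ⟨r, hr, hrρ, hne⟩ := unit_near hρ hUa hU0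
      refine ⟨r, hr, U, hUa.mono (BD_mono hrρ), hne, fun p hp => ?_⟩
      have hm := mul_mem_ball hρ1 (BD_mono hrρ hp)
      refine ⟨hm, ?_⟩
      have h1 := T.φ_sub i j hij _ hm
      have h2 : (T.ex (.edge i k k') j) = (T.del i j, T.del i j) := by simp [ex, hd, hj]
      rw [h2]
      simp only [map0, U]
      have e1 : p.1 ^ k = p.1 ^ T.del i j * p.1 ^ (k - T.del i j) := by
        rw [← pow_add]; congr 1; omega
      have e2 : p.2 ^ k' = p.2 ^ T.del i j * p.2 ^ (k' - T.del i j) := by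
        rw [← pow_add]; congr 1; omega
      rw [e1, e2]
      rw [mul_pow] at h1
      linear_combination h1
  | leg i =>
    by_cases hj : j = i
    · subst hj
      refine ⟨T.ρ, hρ, fun _ => 1, fun _ _ => analyticAt_const, fun _ _ => one_ne_zero,
        fun p hp => ⟨by simpa [map0] using hp.1, ?_⟩⟩
      simp [map0, ex]
    have hij : i ≠ j := fun h => hj h.symm
    have hu := T.u_comp hij (g := fun p : ℂ × ℂ => p.1) (U := BD T.ρ T.ρ)
      (fun _ _ => analyticAt_fst) fun p hp => by simpa using hp.1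
    have hu0 : T.u i j 0 ≠ 0 := T.u_ne i j hij 0 (mem_ball_self hρ)
    have hdk : T.del i j ≤ T.top i := T.le_top (T.del_mem_lev hj)
    let U : ℂ × ℂ → ℂ := fun p => T.u i j p.1 + p.1 ^ (T.top i - T.del i j) * p.2
    have hUa : AnalyticOnNhd ℂ U (BD T.ρ T.ρ) := fun p hp =>
      (hu p hp).add ((analyticAt_fst.pow _).mul analyticAt_snd)
    have hU0 : U (0, 0) ≠ 0 := by simpa [U] using hu0
    obtain ⟨r, hr, hrρ, hne⟩ := unit_near hρ hUa hU0
    refine ⟨r, hr, U, hUa.mono (BD_mono hrρ), hne, fun p hp => ?_⟩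
    have hm : p.1 ∈ ball (0 : ℂ) T.ρ := by simpa using (BD_mono hrρ hp).1
    refine ⟨hm, ?_⟩
    have h1 := T.φ_sub i j hij _ hm
    have h2 : (T.ex (.leg i) j) = (T.del i j, 0) := by simp [ex, hj]
    rw [h2]
    simp only [map0, U]
    have e1 : p.1 ^ T.top i = p.1 ^ T.del i j * p.1 ^ (T.top i - T.del i j) := by
      rw [← pow_add]; congr 1; omega
    rw [e1, pow_zero]
    linear_combination h1
  | vert i k w₀ =>
    obtain ⟨hk, hw⟩ := hc
    have hw0 : w₀ ≠ 0 := fun h => hw (by rw [h]; exact Finset.mem_insert_self _ _)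
    by_cases hj : j = i
    · subst hj
      let U : ℂ × ℂ → ℂ := fun p => w₀ + p.2
      have hUa : AnalyticOnNhd ℂ U (BD T.ρ T.ρ) := fun p hp => analyticAt_const.add analyticAt_snd
      have hU0 : U (0, 0) ≠ 0 := by simpa [U] using hw0
      obtain ⟨r, hr, hrρ, hne⟩ := unit_near hρ hUa hU0
      refine ⟨r, hr, U, hUa.mono (BD_mono hrρ), hne,
        fun p hp => ⟨by simpa [map0] using (BD_mono hrρ hp).1, ?_⟩⟩
      simp [map0, ex, U]
    have hij : i ≠ j := fun h => hj h.symm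
    have hu := T.u_comp hij (g := fun p : ℂ × ℂ => p.1) (U := BD T.ρ T.ρ)
      (fun _ _ => analyticAt_fst) fun p hp => by simpa using hp.1
    have hu0 : T.u i j 0 ≠ 0 := T.u_ne i j hij 0 (mem_ball_self hρ)
    by_cases hd : k ≤ T.del i j
    · let U : ℂ × ℂ → ℂ := fun p => w₀ + p.2 + p.1 ^ (T.del i j - k) * T.u i j p.1
      have hUa : AnalyticOnNhd ℂ U (BD T.ρ T.ρ) := fun p hp =>
        (analyticAt_const.add analyticAt_snd).add ((analyticAt_fst.pow _).mul (hu p hp))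
      have hU0 : U (0, 0) ≠ 0 := by
        rcases hd.lt_or_eq with h | h
        · have : T.del i j - k ≠ 0 := by omega
          simpa [U, this] using hw0
        · have h3 : -T.u i j 0 ∈ T.Sp i k := Finset.mem_insert_of_mem
            (Finset.mem_image_of_mem (fun j => -T.u i j 0) (by simp [hj, h]))
          have h4 : w₀ ≠ -T.u i j 0 := fun h => hw (h ▸ h3)
          have h5 : U (0, 0) = w₀ + T.u i j 0 := by simp [U, ← h]
          rw [h5]
          intro h6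
          exact h4 (eq_neg_of_add_eq_zero_left h6)
      obtain ⟨r, hr, hrρ, hne⟩ := unit_near hρ hUa hU0
      refine ⟨r, hr, U, hUa.mono (BD_mono hrρ), hne, fun p hp => ?_⟩
      have hm : p.1 ∈ ball (0 : ℂ) T.ρ := by simpa using (BD_mono hrρ hp).1
      refine ⟨hm, ?_⟩
      have h1 := T.φ_sub i j hij _ hm
      have h2 : (T.ex (.vert i k w₀) j) = (k, 0) := by simp [ex, hd]
      rw [h2]
      simp only [map0, U]
      have e1 : p.1 ^ T.del i j = p.1 ^ k * p.1 ^ (T.del i j - k) := by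
        rw [← pow_add]; congr 1; omega
      rw [e1] at h1
      rw [pow_zero]
      linear_combination h1
    · have hdk : T.del i j < k := not_le.1 hd
      let U : ℂ × ℂ → ℂ := fun p => T.u i j p.1 + p.1 ^ (k - T.del i j) * (w₀ + p.2)
      have hUa : AnalyticOnNhd ℂ U (BD T.ρ T.ρ) := fun p hp =>
        (hu p hp).add ((analyticAt_fst.pow _).mul (analyticAt_const.add analyticAt_snd))
      have hU0 : U (0, 0) ≠ 0 := by
        have : k - T.del i j ≠ 0 := by omega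
        simpa [U, this] using hu0
      obtain ⟨r, hr, hrρ, hne⟩ := unit_near hρ hUa hU0
      refine ⟨r, hr, U, hUa.mono (BD_mono hrρ), hne, fun p hp => ?_⟩
      have hm : p.1 ∈ ball (0 : ℂ) T.ρ := by simpa using (BD_mono hrρ hp).1
      refine ⟨hm, ?_⟩
      have h1 := T.φ_sub i j hij _ hm
      have h2 : (T.ex (.vert i k w₀) j) = (T.del i j, 0) := by simp [ex, hd, hj]
      rw [h2]
      simp only [map0, U]
      have e1 : p.1 ^ k = p.1 ^ T.del i j * p.1 ^ (k - T.del i j) := by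
        rw [← pow_add]; congr 1; omega
      rw [e1, pow_zero]
      linear_combination h1

end TB

end Crest.Agent.R257.T387
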