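import Mathlib
import Crest.Agent.R257.T2_387

/-!
Row 257 (S0395), part C, T-frame, file 3: the sheets exist in every chart (helper387).
-/

set_option autoImplicit false
set_option linter.unusedSectionVars false

open Polynomial Set Filter Topology Metric
open Crest.AlgGeometry.Germ Crest.Agent.R257.AJ387

noncomputable section

namespace Crest.Agent.R257.T387

lemma roots_prodf {d : ℕ} (z : Fin d → ℂ) :
    (∏ j, (X - C (z j)) : ℂ[X]).roots = Finset.univ.val.map z := by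
  have h7 : (∏ j, (X - C (z j)) : ℂ[X]) =
      ((Finset.univ.val.map z).map fun a => X - C a).prod := by
    rw [Multiset.map_map]; rfl
  rw [h7, roots_multiset_prod_X_sub_C]

lemma inj_of_nodup {d : ℕ} {z : Fin d → ℂ} (h : (∏ j, (X - C (z j)) : ℂ[X]).roots.Nodup) :
    Function.Injective z := by
  rw [roots_prodf] at h
  intro i j hij
  exact Multiset.inj_on_of_nodup_map h i (Finset.mem_univ i) j (Finset.mem_univ j) hij

/-- **Abhyankar-Jung, one branching direction** -/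
theorem aj_one {d : ℕ} {r₁ r₂ : ℝ} (h₁ : 0 < r₁) (h₂ : 0 < r₂) {P : ℂ × ℂ → ℂ[X]}
    (monic : ∀ p ∈ BD r₁ r₂, (P p).Monic) (deg : ∀ p ∈ BD r₁ r₂, (P p).natDegree = d)
    (an : ∀ i, AnalyticOnNhd ℂ (fun p => (P p).coeff i) (BD r₁ r₂))
    (nodup : ∀ p ∈ BD r₁ r₂, p.1 ≠ 0 → (P p).roots.Nodup) :
    ∃ ζ : Fin d → ℂ × ℂ → ℂ,
      (∀ j, AnalyticOnNhd ℂ (ζ j) {p | ‖p.1‖ ^ d.factorial < r₁ ∧ ‖p.2‖ < r₂ / 4}) ∧
      ∀ p : ℂ × ℂ, ‖p.1‖ ^ d.factorial < r₁ → ‖p.2‖ < r₂ / 4 →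
        P (p.1 ^ d.factorial, p.2) = ∏ j, (X - C (ζ j p)) := by
  set c : ℂ := ((r₂ / 4 : ℝ) : ℂ) with hc
  have hcn : ‖c‖ = r₂ / 4 := by rw [hc, Complex.norm_real, Real.norm_of_nonneg (by positivity)]
  have hmem : ∀ p ∈ BD r₁ (r₂ / 2), ((p.1, p.2 - c) : ℂ × ℂ) ∈ BD r₁ r₂ := by
    intro p hp
    refine ⟨hp.1, ?_⟩
    calc ‖p.2 - c‖ ≤ ‖p.2‖ + ‖c‖ := norm_sub_le _ _
      _ < r₂ := by rw [hcn]; have := hp.2; linarith
  let 𝒟 : Data d r₁ (r₂ / 2) :=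
    { P := fun p => P (p.1, p.2 - c)
      h₁ := h₁
      h₂ := by positivity
      monic := fun p hp => monic _ (hmem p hp)
      deg := fun p hp => deg _ (hmem p hp)
      an := fun i p hp => by
        have h3 : AnalyticAt ℂ (fun p : ℂ × ℂ => ((p.1, p.2 - c) : ℂ × ℂ)) p :=
          analyticAt_fst.prod (analyticAt_snd.sub analyticAt_const)
        exact AnalyticAt.comp (g := fun p => (P p).coeff i) (an i _ (hmem p hp)) h3
      nodup := fun p hp h0 => nodup _ (hmem p hp) (left_ne_zero_of_mul h0) }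
  obtain ⟨ζ, hζ, hζe⟩ := 𝒟.abhyankar_jung
  set N := d.factorial with hN
  have hN0 : N ≠ 0 := Nat.factorial_ne_zero d
  -- the root
  let g : ℂ × ℂ → ℂ × ℂ := fun p => (p.1, (p.2 + c) ^ (1 / (N : ℂ)))
  have hre : ∀ b : ℂ, ‖b‖ < r₂ / 4 → 0 < (b + c).re := by
    intro b hb
    have h3 : |b.re| ≤ ‖b‖ := Complex.abs_re_le_norm b
    have h4 : c.re = r₂ / 4 := by rw [hc, Complex.ofReal_re]
    rw [Complex.add_re, h4]
    have := neg_abs_le b.re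
    linarith
  have hpow : ∀ b : ℂ, ((b + c) ^ (1 / (N : ℂ))) ^ N = b + c := by
    intro b
    rw [one_div, Complex.cpow_nat_inv_pow _ hN0]
  have hgan : ∀ p ∈ {p : ℂ × ℂ | ‖p.1‖ ^ N < r₁ ∧ ‖p.2‖ < r₂ / 4}, AnalyticAt ℂ g p := by
    intro p hp
    refine analyticAt_fst.prod ?_
    refine AnalyticAt.cpow (analyticAt_snd.add analyticAt_const) analyticAt_const ?_
    exact Or.inl (hre _ hp.2)
  have hgK : ∀ p ∈ {p : ℂ × ℂ | ‖p.1‖ ^ N < r₁ ∧ ‖p.2‖ < r₂ / 4}, g p ∈ Data.KD N r₁ (r₂ / 2) := by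
    intro p hp
    refine ⟨hp.1, ?_⟩
    have h3 : ‖(p.2 + c) ^ (1 / (N : ℂ))‖ ^ N = ‖p.2 + c‖ := by rw [← norm_pow, hpow]
    show ‖(p.2 + c) ^ (1 / (N : ℂ))‖ ^ N < r₂ / 2
    rw [h3]
    calc ‖p.2 + c‖ ≤ ‖p.2‖ + ‖c‖ := norm_add_le _ _
      _ < r₂ / 2 := by rw [hcn]; have := hp.2; linarith
  refine ⟨fun j p => ζ j (g p), fun j p hp =>
    AnalyticAt.comp (g := ζ j) (hζ j _ (hgK p hp)) (hgan p hp), fun p hp1 hp2 => ?_⟩
  have h3 := hζe (g p) (hgK p ⟨hp1, hp2⟩)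
  have h4 : ((g p).1 ^ N, (g p).2 ^ N - c) = (p.1 ^ N, p.2) := by
    simp only [g]
    rw [hpow]
    simp
  rw [← h3]
  show P (p.1 ^ N, p.2) = P ((g p).1 ^ N, (g p).2 ^ N - c)
  rw [← h4]

namespace TB

variable {f : (Fin 3 → ℂ) → ℂ} (T : TB f)

lemma map0_an (c : Ch T.m) {r : ℝ} (hr : ∀ p ∈ BD r r, (T.map0 c p).1 ∈ ball (0 : ℂ) T.ρ) :
    AnalyticOnNhd ℂ (T.map0 c) (BD r r) := by
  intro p hp
  have h := hr p hp
  cases c with
  | edge i k k' =>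
    have h1 : AnalyticAt ℂ (fun p : ℂ × ℂ => p.1 * p.2) p := analyticAt_fst.mul analyticAt_snd
    refine h1.prod (AnalyticAt.add ?_ ((analyticAt_fst.pow _).mul (analyticAt_snd.pow _)))
    exact AnalyticAt.comp (g := T.φ i) (T.φ_an i _ h) h1
  | leg i =>
    refine analyticAt_fst.prod (AnalyticAt.add ?_ ((analyticAt_fst.pow _).mul analyticAt_snd))
    exact AnalyticAt.comp (g := T.φ i) (T.φ_an i _ h) analyticAt_fst
  | vert i k w₀ =>
    refine analyticAt_fst.prod (AnalyticAt.add ?_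
      ((analyticAt_fst.pow _).mul (analyticAt_const.add analyticAt_snd)))
    exact AnalyticAt.comp (g := T.φ i) (T.φ_an i _ h) analyticAt_fst

lemma map0_zero {c : Ch T.m} (hc : T.Valid c) : T.map0 c (0, 0) = (0, 0) := by
  cases c with
  | edge i k k' =>
    have : k' ≠ 0 := by have := hc.2.2.1; omega
    simp [map0, T.φ_zero, this]
  | leg i =>
    simp [map0, T.φ_zero]
  | vert i k w₀ =>
    have : k ≠ 0 := (T.lev_pos hc.1).ne'
    simp [map0, T.φ_zero, this]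

/-- a common radius for all formulas -/
theorem exists_r {c : Ch T.m} (hc : T.Valid c) : ∃ r > 0, r ≤ 1 ∧
    (∀ p ∈ BD r r, (T.map0 c p).1 ∈ ball (0 : ℂ) T.ρ ∧ (T.map0 c p).2 ∈ ball (0 : ℂ) T.R) ∧
    ∃ U : Fin T.m → ℂ × ℂ → ℂ, (∀ j, AnalyticOnNhd ℂ (U j) (BD r r)) ∧
      (∀ j, ∀ p ∈ BD r r, U j p ≠ 0) ∧
      ∀ j, ∀ p ∈ BD r r, (T.map0 c p).2 - T.φ j (T.map0 c p).1 =
        p.1 ^ (T.ex c j).1 * p.2 ^ (T.ex c j).2 * U j p := by
  classical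
  choose r hr U hUa hUn hU using fun j => T.mono hc j
  have hfin : ∃ r₀ > 0, ∀ j, r₀ ≤ r j := by
    have hne : (Finset.univ : Finset (Fin T.m)).Nonempty := ⟨⟨0, T.m_pos⟩, Finset.mem_univ _⟩
    obtain ⟨j₀, -, h⟩ := Finset.exists_min_image Finset.univ r hne
    exact ⟨r j₀, hr j₀, fun j => h j (Finset.mem_univ _)⟩
  obtain ⟨r₀, hr₀, hle⟩ := hfin
  have j₀ : Fin T.m := ⟨0, T.m_pos⟩
  have h1 : ∀ p ∈ BD r₀ r₀, (T.map0 c p).1 ∈ ball (0 : ℂ) T.ρ := fun p hp =>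
    (hU j₀ p (BD_mono (hle j₀) hp)).1
  have h2 := T.map0_an c h1
  have h3 : ContinuousAt (fun p => (T.map0 c p).2) ((0 : ℂ), (0 : ℂ)) :=
    (h2 (0, 0) ⟨by simpa using hr₀, by simpa using hr₀⟩).continuousAt.snd
  have h4 : ∀ᶠ p in 𝓝 ((0 : ℂ), (0 : ℂ)), (T.map0 c p).2 ∈ ball (0 : ℂ) T.R := by
    refine h3.eventually (isOpen_ball.mem_nhds ?_)
    show (T.map0 c (0, 0)).2 ∈ ball (0 : ℂ) T.R
    rw [T.map0_zero hc]
    exact mem_ball_self T.R_pos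
  obtain ⟨r₁, hr₁, h5⟩ := exists_BD h4
  refine ⟨min (min r₀ r₁) 1, by positivity, min_le_right _ _, fun p hp => ⟨h1 p (BD_mono
    ((min_le_left _ _).trans (min_le_left _ _)) hp), h5 (BD_mono ((min_le_left _ _).trans
    (min_le_right _ _)) hp)⟩, U, fun j => (hUa j).mono (BD_mono ((min_le_left _ _).trans
    ((min_le_left _ _).trans (hle j)))), fun j p hp => hUn j p (BD_mono ((min_le_left _ _).trans
    ((min_le_left _ _).trans (hle j))) hp), fun j p hp => (hU j p (BD_mono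
    ((min_le_left _ _).trans ((min_le_left _ _).trans (hle j))) hp)).2⟩

/-- generic points in `s₀`-units -/
def Gen0 : Ch T.m → ℂ × ℂ → Prop
  | .edge _ _ _, p => p.1 ≠ 0 ∧ p.2 ≠ 0
  | .leg _, p => p.1 ≠ 0 ∧ p.2 ≠ 0
  | .vert _ _ _, p => p.1 ≠ 0

lemma gen_iff (c : Ch T.m) (p : ℂ × ℂ) : T.Gen c p ↔ T.Gen0 c (T.kap c p) := by
  have := T.M_pos.ne'
  cases c <;> simp [Gen, Gen0, kap, this]

lemma ex_snd_vert {i : Fin T.m} {k : ℕ} {w₀ : ℂ} (j : Fin T.m) :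
    (T.ex (.vert i k w₀) j).2 = 0 := by
  simp only [ex]; split_ifs <;> rfl

lemma mono_ne {c : Ch T.m} {p : ℂ × ℂ} (h : T.Gen0 c p) (j : Fin T.m) :
    p.1 ^ (T.ex c j).1 * p.2 ^ (T.ex c j).2 ≠ 0 := by
  cases c with
  | edge i k k' => exact mul_ne_zero (pow_ne_zero _ h.1) (pow_ne_zero _ h.2)
  | leg i => exact mul_ne_zero (pow_ne_zero _ h.1) (pow_ne_zero _ h.2)
  | vert i k w₀ =>
    rw [ex_snd_vert, pow_zero, mul_one]
    exact pow_ne_zero _ h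

/-- **every valid chart has sheets** -/
theorem sheets : T.SheetsStmt := by
  intro c hc
  obtain ⟨r, hr, hr1, hmem, U, hUa, hUn, hU⟩ := T.exists_r hc
  have han := T.map0_an c fun p hp => (hmem p hp).1
  have hq : ∀ p ∈ BD r r, (((T.map0 c p).1 ^ T.N₀, (T.map0 c p).2) : ℂ × ℂ) ∈ BD T.R T.R :=
    fun p hp => ⟨T.ρ_R _ (hmem p hp).1, by simpa using (hmem p hp).2⟩
  have hqa : AnalyticOnNhd ℂ (fun p => (((T.map0 c p).1 ^ T.N₀, (T.map0 c p).2) : ℂ × ℂ)) (BD r r) :=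
    fun p hp => by
      have h1 : AnalyticAt ℂ (fun p => (T.map0 c p).1) p :=
        AnalyticAt.comp (g := Prod.fst) analyticAt_fst (han p hp)
      have h2 : AnalyticAt ℂ (fun p => (T.map0 c p).2) p :=
        AnalyticAt.comp (g := Prod.snd) analyticAt_snd (han p hp)
      exact (h1.pow _).prod h2
  let F : ℂ × ℂ → ℂ[X] := fun p => T.P ((T.map0 c p).1 ^ T.N₀, (T.map0 c p).2)
  have hmonic : ∀ p ∈ BD r r, (F p).Monic := fun p hp => T.monic _ (hq p hp)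
  have hdeg : ∀ p ∈ BD r r, (F p).natDegree = T.d := fun p hp => T.deg _ (hq p hp)
  have hFan : ∀ i, AnalyticOnNhd ℂ (fun p => (F p).coeff i) (BD r r) := fun i p hp =>
    AnalyticAt.comp (g := fun q => (T.P q).coeff i) (T.coeff_an i _ (hq p hp)) (hqa p hp)
  have hnod : ∀ p ∈ BD r r, T.Gen0 c p → (F p).roots.Nodup := fun p hp hg =>
    T.nodup _ (hmem p hp).1 _ (hmem p hp).2 fun j hj => by
      have h1 := hU j p hp
      rw [← hj, sub_self] at h1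
      exact mul_ne_zero (T.mono_ne hg j) (hUn j p hp) h1.symm
  -- sheets in terms of `kap`
  have key : ∃ (r₀ : ℝ) (ζ : Fin T.d → ℂ × ℂ → ℂ), 0 < r₀ ∧ r₀ ≤ 1 ∧
      (∀ p ∈ BD r₀ r₀, T.kap c p ∈ BD r r) ∧ (∀ j, AnalyticOnNhd ℂ (ζ j) (BD r₀ r₀)) ∧
      ∀ p ∈ BD r₀ r₀, F (T.kap c p) = ∏ j, (X - C (ζ j p)) := by
    have hM := T.M_pos
    have hpow : ∀ a : ℂ, ‖a‖ < r → ‖a‖ ^ T.M < r := fun a ha =>
      calc ‖a‖ ^ T.M ≤ ‖a‖ ^ 1 := pow_le_pow_of_le_one (norm_nonneg _) (ha.le.trans hr1) hM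
        _ < r := by rw [pow_one]; exact ha
    cases c with
    | edge i k k' =>
      let 𝒟 : Data T.d r r :=
        { P := F, h₁ := hr, h₂ := hr, monic := hmonic, deg := hdeg, an := hFan
          nodup := fun p hp h0 => hnod p hp ⟨left_ne_zero_of_mul h0, right_ne_zero_of_mul h0⟩ }
      obtain ⟨ζ, hζ, hζe⟩ := 𝒟.abhyankar_jung
      have hK : BD r r ⊆ Data.KD T.d.factorial r r := fun p hp => ⟨hpow _ hp.1, hpow _ hp.2⟩
      refine ⟨r, ζ, hr, hr1, fun p hp => ⟨?_, ?_⟩, fun j => (hζ j).mono hK,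
        fun p hp => hζe p (hK hp)⟩
      · show ‖p.1 ^ T.M‖ < r
        rw [norm_pow]; exact hpow _ hp.1
      · show ‖p.2 ^ T.M‖ < r
        rw [norm_pow]; exact hpow _ hp.2
    | leg i =>
      let 𝒟 : Data T.d r r :=
        { P := F, h₁ := hr, h₂ := hr, monic := hmonic, deg := hdeg, an := hFan
          nodup := fun p hp h0 => hnod p hp ⟨left_ne_zero_of_mul h0, right_ne_zero_of_mul h0⟩ }
      obtain ⟨ζ, hζ, hζe⟩ := 𝒟.abhyankar_jung
      have hK : BD r r ⊆ Data.KD T.d.factorial r r := fun p hp => ⟨hpow _ hp.1, hpow _ hp.2⟩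
      refine ⟨r, ζ, hr, hr1, fun p hp => ⟨?_, ?_⟩, fun j => (hζ j).mono hK,
        fun p hp => hζe p (hK hp)⟩
      · show ‖p.1 ^ T.M‖ < r
        rw [norm_pow]; exact hpow _ hp.1
      · show ‖p.2 ^ T.M‖ < r
        rw [norm_pow]; exact hpow _ hp.2
    | vert i k w₀ =>
      obtain ⟨ζ, hζ, hζe⟩ := aj_one hr hr hmonic hdeg hFan fun p hp h0 => hnod p hp h0
      have hr4 : 0 < r / 4 := by positivity
      have hr4' : r / 4 ≤ r := by linarith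
      refine ⟨r / 4, ζ, hr4, hr4'.trans hr1, fun p hp => ⟨?_, lt_of_lt_of_le hp.2 hr4'⟩,
        fun j => (hζ j).mono fun p hp => ⟨hpow _ (lt_of_lt_of_le hp.1 hr4'), hp.2⟩,
        fun p hp => hζe p (hpow _ (lt_of_lt_of_le hp.1 hr4')) hp.2⟩
      show ‖p.1 ^ T.M‖ < r
      rw [norm_pow]; exact hpow _ (lt_of_lt_of_le hp.1 hr4')
  obtain ⟨r₀, ζ, hr₀, hr01, hk, hζa, hζe⟩ := key
  refine ⟨r₀, hr₀, fun r' hr' hle => ⟨ζ, hr', fun p hp => ?_, fun j => (hζa j).mono (BD_mono hle),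
    fun p hp => ?_, fun p hp hg => ?_⟩⟩
  · have h1 := hk p (BD_mono hle hp)
    have h2 := (hmem _ h1).1
    have h3 := (hmem _ h1).2
    rw [← T.map_fst_pow] at h2
    rw [← T.map_snd] at h3
    rw [mem_ball, dist_zero_right, norm_pow] at h2
    refine ⟨⟨?_, by simpa using h3⟩, h2⟩
    show ‖(T.map c p).1‖ < 1
    by_contra hcon
    have h4 : 1 ≤ ‖(T.map c p).1‖ ^ T.M := one_le_pow₀ (not_lt.1 hcon)
    exact absurd (h4.trans_lt h2) (not_lt.2 T.ρ_le)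
  · rw [T.Q_map]
    exact hζe p (BD_mono hle hp)
  · refine inj_of_nodup ?_
    rw [← hζe p (BD_mono hle hp)]
    exact hnod _ (hk p (BD_mono hle hp)) ((T.gen_iff c p).1 hg)

end TB

end Crest.Agent.R257.T387
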