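import Mathlib
import Crest.Agent.R257.T3_387

/-!
Row 257 (S0395), part C, T-frame, file 4: **coverage** (helper387).
-/

set_option autoImplicit false
set_option linter.unusedSectionVars false

open Polynomial Set Filter Topology Metric
open Crest.AlgGeometry.Germ Crest.Agent.R257.AJ387

noncomputable section

namespace Crest.Agent.R257.T387

namespace TB

variable {f : (Fin 3 → ℂ) → ℂ} (T : TB f)

lemma cons_zero_one (i : Fin T.m) : T.Cons i 0 1 :=
  ⟨Or.inl rfl, T.one_mem_lev i, one_pos, fun _ hl => Or.inr (T.lev_pos hl)⟩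

/-- solving the edge equations -/
lemma solve_edge {i : Fin T.m} {k k' : ℕ} (hk : k < k') {s y : ℂ} (hs : s ≠ 0)
    (hy : y ≠ T.φ i (s ^ T.M)) : ∃ α β : ℂ, T.map (.edge i k k') (α, β) = (s, y) ∧
      ‖β‖ ^ (T.M * (k' - k)) = ‖y - T.φ i (s ^ T.M)‖ / ‖s‖ ^ (T.M * k) ∧
      ‖α‖ * ‖β‖ = ‖s‖ := by
  have hM := T.M_pos
  have hn : 0 < T.M * (k' - k) := Nat.mul_pos hM (by omega)
  obtain ⟨β, hβ⟩ := IsAlgClosed.exists_pow_nat_eq ((y - T.φ i (s ^ T.M)) / s ^ (T.M * k)) hn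
  have hβ0 : β ≠ 0 := by
    rintro rfl
    rw [zero_pow hn.ne'] at hβ
    exact (div_ne_zero (sub_ne_zero.2 hy) (pow_ne_zero _ hs)) hβ.symm
  have h1 : s / β * β = s := div_mul_cancel₀ _ hβ0
  refine ⟨s / β, β, ?_, ?_, ?_⟩
  · simp only [map, Prod.mk.injEq]
    refine ⟨h1, ?_⟩
    rw [h1]
    have h2 : (s / β) ^ (T.M * k) * β ^ (T.M * k') = s ^ (T.M * k) * β ^ (T.M * (k' - k)) := by
      have h3 : T.M * k' = T.M * k + T.M * (k' - k) := by
        rw [← Nat.mul_add]; congr 1; omega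
      rw [h3, pow_add, ← mul_assoc, ← mul_pow, h1]
    rw [h2, hβ]
    have h4 : s ^ (T.M * k) ≠ 0 := pow_ne_zero _ hs
    field_simp
    ring
  · rw [← norm_pow, hβ, norm_div, norm_pow]
  · rw [← norm_mul, h1]

/-- the compact part of a vertex -/
def Kc (i : Fin T.m) (k : ℕ) (a : ℝ) : Set ℂ :=
  {w | a ≤ ‖w‖ ∧ ‖w‖ ≤ a⁻¹ ∧ ∀ c ∈ T.Sp i k, a / 2 ≤ ‖w - c‖}

lemma isCompact_Kc (i : Fin T.m) (k : ℕ) (a : ℝ) : IsCompact (T.Kc i k a) := by
  have h1 : T.Kc i k a = closedBall 0 a⁻¹ ∩ ({w : ℂ | a ≤ ‖w‖} ∩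
      ⋂ c ∈ T.Sp i k, {w : ℂ | a / 2 ≤ ‖w - c‖}) := by
    ext w
    simp only [Kc, mem_ofPred_eq, mem_inter_iff, mem_closedBall, dist_zero_right, mem_iInter]
    tauto
  rw [h1]
  refine (isCompact_closedBall _ _).inter_right (IsClosed.inter ?_ ?_)
  · exact isClosed_le continuous_const continuous_norm
  · exact isClosed_biInter fun c _ => isClosed_le continuous_const (by fun_prop)

lemma Kc_not_mem {i : Fin T.m} {k : ℕ} {a : ℝ} (ha : 0 < a) {w : ℂ} (hw : w ∈ T.Kc i k a) :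
    w ∉ T.Sp i k := fun h => by
  have := hw.2.2 w h
  rw [sub_self, norm_zero] at this
  linarith

/-- **coverage** -/
theorem cover : T.CoverStmt := by
  classical
  intro r hr
  set K : ℕ := Finset.univ.sup T.top with hK
  have hKle : ∀ i, ∀ k ∈ T.lev i, k ≤ K := fun i k hk =>
    (T.le_top hk).trans (Finset.le_sup (f := T.top) (Finset.mem_univ i))
  have hM := T.M_pos
  -- a uniform radius for edges and legs
  obtain ⟨η, hη0, hη1, hηE, hηL⟩ : ∃ η : ℝ, 0 < η ∧ η ≤ 1 ∧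
      (∀ i k k', k ≤ K → k' ≤ K → η ≤ r (.edge i k k')) ∧ ∀ i, η ≤ r (.leg i) := by
    have h1 : ∃ η : ℝ, 0 < η ∧ ∀ c ∈ ((Finset.univ ×ˢ Finset.range (K + 1) ×ˢ
        Finset.range (K + 1)).image fun x : Fin T.m × ℕ × ℕ => Ch.edge x.1 x.2.1 x.2.2) ∪
        Finset.univ.image Ch.leg, η ≤ r c := by
      generalize ((Finset.univ ×ˢ Finset.range (K + 1) ×ˢ
        Finset.range (K + 1)).image fun x : Fin T.m × ℕ × ℕ => Ch.edge x.1 x.2.1 x.2.2) ∪
        Finset.univ.image Ch.leg = F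
      rcases F.eq_empty_or_nonempty with rfl | hF
      · exact ⟨1, one_pos, by simp⟩
      · obtain ⟨c₀, -, h⟩ := Finset.exists_min_image F r hF
        exact ⟨r c₀, hr c₀, h⟩
    obtain ⟨η, hη, h⟩ := h1
    refine ⟨min η 1, lt_min hη one_pos, min_le_right _ _, fun i k k' hk hk' =>
      (min_le_left _ _).trans (h _ ?_), fun i => (min_le_left _ _).trans (h _ ?_)⟩
    · refine Finset.mem_union_left _ (Finset.mem_image.2 ⟨(i, k, k'), ?_, rfl⟩)
      simp only [Finset.mem_product, Finset.mem_univ, Finset.mem_range, true_and]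
      omega
    · exact Finset.mem_union_right _ (Finset.mem_image_of_mem _ (Finset.mem_univ _))
  set L : ℕ := T.M * (K + 1) with hL
  set a : ℝ := η ^ L with ha
  have ha0 : 0 < a := pow_pos hη0 _
  have ha1 : a ≤ 1 := pow_le_one₀ hη0.le hη1
  have haη : ∀ n, n ≤ L → a ≤ η ^ n := fun n hn => pow_le_pow_of_le_one hη0.le hη1 hn
  -- finitely many ordinary charts
  have hsub := fun (i : Fin T.m) (k : ℕ) => (T.isCompact_Kc i k a).elim_nhds_subcover
    (fun w₀ => ball w₀ (r (.vert i k w₀))) fun w₀ _ => ball_mem_nhds w₀ (hr _)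
  choose t ht htc using hsub
  let V : Finset (Ch T.m) := (Finset.univ ×ˢ Finset.range (K + 1)).biUnion
    fun x : Fin T.m × ℕ => (t x.1 x.2).image (Ch.vert x.1 x.2)
  let E : Finset (Ch T.m) := ((Finset.univ ×ˢ Finset.range (K + 1) ×ˢ
        Finset.range (K + 1)).image fun x : Fin T.m × ℕ × ℕ => Ch.edge x.1 x.2.1 x.2.2)
  let F₀ : Finset (Ch T.m) := E ∪ Finset.univ.image Ch.leg ∪ V
  let F : Finset (Ch T.m) := F₀.filter T.Valid
  have hFedge : ∀ {i k k'}, T.Cons i k k' → Ch.edge i k k' ∈ F := by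
    intro i k k' h
    have h1 : k' ≤ K := hKle i k' h.2.1
    have h2 := h.2.2.1
    refine Finset.mem_filter.2 ⟨Finset.mem_union_left _ (Finset.mem_union_left _
      (Finset.mem_image.2 ⟨(i, k, k'), ?_, rfl⟩)), h⟩
    simp only [Finset.mem_product, Finset.mem_univ, Finset.mem_range, true_and]
    omega
  have hFleg : ∀ i, Ch.leg i ∈ F := fun i =>
    Finset.mem_filter.2 ⟨Finset.mem_union_left _ (Finset.mem_union_right _
      (Finset.mem_image_of_mem _ (Finset.mem_univ _))), trivial⟩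
  have hFvert : ∀ {i k w₀}, k ∈ T.lev i → w₀ ∈ t i k → Ch.vert i k w₀ ∈ F := by
    intro i k w₀ hk hw
    refine Finset.mem_filter.2 ⟨Finset.mem_union_right _ (Finset.mem_biUnion.2 ⟨(i, k), ?_,
      Finset.mem_image_of_mem _ hw⟩), hk, T.Kc_not_mem ha0 (ht i k w₀ hw)⟩
    simp only [Finset.mem_product, Finset.mem_univ, Finset.mem_range, true_and]
    have := hKle i k hk
    omega
  -- smallness conditions
  have e1 : ∀ᶠ s in 𝓝 (0 : ℂ), ∀ c ∈ F, ‖s‖ < r c := (Finset.eventually_all _).2 fun c _ =>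
    (continuous_norm.tendsto' (0 : ℂ) 0 norm_zero).eventually (gt_mem_nhds (hr c))
  have hpow : Tendsto (fun s : ℂ => s ^ T.M) (𝓝 0) (𝓝 0) :=
    (continuous_pow T.M).tendsto' 0 0 (zero_pow hM.ne')
  have e2 : ∀ᶠ s in 𝓝 (0 : ℂ), s ^ T.M ∈ ball (0 : ℂ) T.ρ :=
    hpow.eventually (ball_mem_nhds 0 T.ρ_pos)
  have e3 : ∀ᶠ s in 𝓝 (0 : ℂ), ∀ i, ‖T.φ i (s ^ T.M)‖ < a / 2 := by
    refine eventually_all.2 fun i => ?_
    have h1 : ContinuousAt (T.φ i) 0 := (T.φ_an i 0 (mem_ball_self T.ρ_pos)).continuousAt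
    have h2 : Tendsto (fun s : ℂ => ‖T.φ i (s ^ T.M)‖) (𝓝 0) (𝓝 0) := by
      have := (h1.tendsto.comp hpow).norm
      simpa [T.φ_zero] using this
    exact h2.eventually (gt_mem_nhds (by positivity))
  have e4 : ∀ᶠ s in 𝓝 (0 : ℂ), ∀ i j, i ≠ j → ‖T.u i j (s ^ T.M) - T.u i j 0‖ < a / 2 := by
    refine eventually_all.2 fun i => eventually_all.2 fun j => ?_
    by_cases h : i = j
    · exact Eventually.of_forall fun s h' => absurd h h'
    have h1 : ContinuousAt (T.u i j) 0 := (T.u_an i j h 0 (mem_ball_self T.ρ_pos)).continuousAt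
    have h2 : Tendsto (fun s : ℂ => ‖T.u i j (s ^ T.M) - T.u i j 0‖) (𝓝 0) (𝓝 0) := by
      have := ((h1.tendsto.comp hpow).sub_const (T.u i j 0)).norm
      simpa using this
    exact (h2.eventually (gt_mem_nhds (by positivity))).mono fun s hs _ => hs
  have e5 : ∀ᶠ s in 𝓝 (0 : ℂ), ‖s‖ < η :=
    (continuous_norm.tendsto' (0 : ℂ) 0 norm_zero).eventually (gt_mem_nhds hη0)
  obtain ⟨ε, hε, hall⟩ := Metric.eventually_nhds_iff_ball.1
    (e1.and (e2.and (e3.and (e4.and e5))))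
  refine ⟨F, fun c hc => (Finset.mem_filter.1 hc).2, min ε (a / 2), by positivity, ?_⟩
  intro s y hs hy hne
  obtain ⟨h1, h2, h3, h4, h5⟩ := hall s (by
    rw [mem_ball, dist_zero_right]; exact hs.trans_le (min_le_left _ _))
  have hya : ‖y‖ < a / 2 := hy.trans_le (min_le_right _ _)
  have i₀ : Fin T.m := ⟨0, T.m_pos⟩
  by_cases hs0 : s = 0
  · -- the top curve
    subst hs0
    have hy0 : y ≠ 0 := fun h => hne (by rw [h]; rfl)
    obtain ⟨β, hβ⟩ := IsAlgClosed.exists_pow_nat_eq y hM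
    refine ⟨_, hFedge (T.cons_zero_one i₀), (0, β), ?_, ?_, ?_⟩
    · simpa using (hr _).le
    · have h6 : ‖β‖ ^ T.M ≤ η ^ T.M := by
        rw [← norm_pow, hβ]
        have h7 := haη T.M (by rw [hL]; nlinarith)
        linarith
      have h7 := (pow_le_pow_iff_left₀ (norm_nonneg β) hη0.le hM.ne').1 h6
      exact h7.trans (hηE i₀ 0 1 (Nat.zero_le _) (hKle i₀ 1 (T.one_mem_lev i₀)))
    · simp [map, T.φ_zero, hM.ne', hβ]
  -- the nearest branch
  obtain ⟨i, -, hi⟩ := Finset.exists_min_image (Finset.univ : Finset (Fin T.m))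
    (fun j => ‖y - T.φ j (s ^ T.M)‖) ⟨i₀, Finset.mem_univ _⟩
  have hi' : ∀ j, ‖y - T.φ i (s ^ T.M)‖ ≤ ‖y - T.φ j (s ^ T.M)‖ := fun j => hi j (Finset.mem_univ _)
  set x : ℝ := ‖y - T.φ i (s ^ T.M)‖ with hx
  have hxa : x ≤ a := by
    have := norm_sub_le y (T.φ i (s ^ T.M))
    have := h3 i
    linarith
  have hsn : 0 < ‖s‖ := norm_pos_iff.2 hs0
  by_cases hx0 : x = 0
  · -- on the branch
    refine ⟨_, hFleg i, (s, 0), (h1 _ (hFleg i)).le, by simpa using (hr _).le, ?_⟩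
    have h6 : y = T.φ i (s ^ T.M) := sub_eq_zero.1 (norm_eq_zero.1 hx0)
    simp [map, hM.ne', h6]
  have hxp : 0 < x := lt_of_le_of_ne (norm_nonneg _) (Ne.symm hx0)
  have hyne : y ≠ T.φ i (s ^ T.M) := fun h => hx0 (by rw [hx, h, sub_self, norm_zero])
  -- a general edge step
  have hedge : ∀ k k', T.Cons i k k' → a⁻¹ * ‖s‖ ^ (T.M * k') ≤ x → x ≤ a * ‖s‖ ^ (T.M * k) →
      ∃ c ∈ F, ∃ p : ℂ × ℂ, ‖p.1‖ ≤ r c ∧ ‖p.2‖ ≤ r c ∧ T.map c p = (s, y) := by
    intro k k' hc hlo hup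
    obtain ⟨α, β, hm, hβ, hαβ⟩ := T.solve_edge hc.2.2.1 hs0 hyne
    have hkK : k' ≤ K := hKle i k' hc.2.1
    have hkk := hc.2.2.1
    have hn : T.M * (k' - k) ≠ 0 := (Nat.mul_pos hM (by omega)).ne'
    have hnL : T.M * (k' - k) ≤ L := by rw [hL]; exact Nat.mul_le_mul_left _ (by omega)
    have hβη : ‖β‖ ≤ η := by
      refine (pow_le_pow_iff_left₀ (norm_nonneg β) hη0.le hn).1 ?_
      rw [hβ, div_le_iff₀ (by positivity)]
      calc x ≤ a * ‖s‖ ^ (T.M * k) := hup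
        _ ≤ _ := by gcongr; exact haη _ hnL
    have hβpos : 0 < ‖β‖ := by
      rcases (norm_nonneg β).lt_or_eq with h | h
      · exact h
      · rw [← h, mul_zero] at hαβ; exact absurd hαβ.symm hsn.ne'
    have hαη : ‖α‖ ≤ η := by
      refine (pow_le_pow_iff_left₀ (norm_nonneg α) hη0.le hn).1 ?_
      have h6 : ‖α‖ ^ (T.M * (k' - k)) * ‖β‖ ^ (T.M * (k' - k)) = ‖s‖ ^ (T.M * (k' - k)) := by
        rw [← mul_pow, hαβ]
      rw [hβ, ← hx] at h6
      have h7 : ‖s‖ ^ (T.M * k') = ‖s‖ ^ (T.M * k) * ‖s‖ ^ (T.M * (k' - k)) := by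
        rw [← pow_add]; congr 1; rw [← Nat.mul_add]; congr 1; omega
      have h8 : 0 < ‖s‖ ^ (T.M * k) := by positivity
      have h9 : ‖α‖ ^ (T.M * (k' - k)) * x = ‖s‖ ^ (T.M * k') := by
        rw [h7, ← h6]
        field_simp
      have h10 : ‖α‖ ^ (T.M * (k' - k)) * x ≤ η ^ (T.M * (k' - k)) * x := by
        rw [h9]
        calc ‖s‖ ^ (T.M * k') = a * (a⁻¹ * ‖s‖ ^ (T.M * k')) := by field_simp
          _ ≤ a * x := by gcongr
          _ ≤ _ := by gcongr; exact haη _ hnL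
      exact le_of_mul_le_mul_right h10 hxp
    have hrc := hηE i k k' (by omega) hkK
    exact ⟨_, hFedge hc, (α, β), hαη.trans hrc, hβη.trans hrc, hm⟩
  by_cases htop : a⁻¹ * ‖s‖ ^ (T.M * 1) ≤ x
  · exact hedge 0 1 (T.cons_zero_one i) htop (by simpa using hxa)
  push Not at htop
  -- the last level which dominates
  let S : Finset ℕ := (T.lev i).filter fun k => x < a⁻¹ * ‖s‖ ^ (T.M * k)
  have hS : S.Nonempty := ⟨1, Finset.mem_filter.2 ⟨T.one_mem_lev i, htop⟩⟩
  obtain ⟨k, hkS, hkmax⟩ := S.exists_max_image id hS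
  have hk : k ∈ T.lev i := (Finset.mem_filter.1 hkS).1
  have hkx : x < a⁻¹ * ‖s‖ ^ (T.M * k) := (Finset.mem_filter.1 hkS).2
  have hnext : ∀ l ∈ T.lev i, k < l → a⁻¹ * ‖s‖ ^ (T.M * l) ≤ x := by
    intro l hl hkl
    by_contra hcon
    push Not at hcon
    have := hkmax l (Finset.mem_filter.2 ⟨hl, hcon⟩)
    simp only [id] at this
    omega
  by_cases hlow : a * ‖s‖ ^ (T.M * k) ≤ x
  · -- ordinary point of the vertex
    set w : ℂ := (y - T.φ i (s ^ T.M)) / s ^ (T.M * k) with hw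
    have hwn : ‖w‖ = x / ‖s‖ ^ (T.M * k) := by rw [hw, norm_div, norm_pow]
    have hwK : w ∈ T.Kc i k a := by
      refine ⟨?_, ?_, ?_⟩
      · rw [hwn, le_div_iff₀ (by positivity)]; exact hlow
      · rw [hwn, div_le_iff₀ (by positivity)]; exact hkx.le
      · intro c hc
        have hwa : a ≤ ‖w‖ := by rw [hwn, le_div_iff₀ (by positivity)]; exact hlow
        rcases Finset.mem_insert.1 hc with rfl | hc
        · rw [sub_zero]; linarith
        · obtain ⟨j, hj, rfl⟩ := Finset.mem_image.1 hc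
          obtain ⟨-, hji, hd⟩ := Finset.mem_filter.1 hj
          have hij : i ≠ j := fun h => hji h.symm
          have h6 := hi' j
          have h7 := T.φ_sub i j hij _ h2
          have h8 : y - T.φ j (s ^ T.M) = s ^ (T.M * k) * (w + T.u i j (s ^ T.M)) := by
            have h9 : s ^ (T.M * k) * w = y - T.φ i (s ^ T.M) := by
              rw [hw, mul_div_cancel₀ _ (pow_ne_zero _ hs0)]
            rw [hd, ← pow_mul] at h7
            linear_combination -h9 + h7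
          have h9 : ‖w‖ ≤ ‖w + T.u i j (s ^ T.M)‖ := by
            have h10 : x ≤ ‖s‖ ^ (T.M * k) * ‖w + T.u i j (s ^ T.M)‖ := by
              rw [h8, norm_mul, norm_pow] at h6; exact h6
            rw [hwn, div_le_iff₀ (by positivity), mul_comm]
            exact h10
          have h10 := h4 i j hij
          have h11 : ‖w + T.u i j (s ^ T.M)‖ ≤ ‖w - -T.u i j 0‖ +
              ‖T.u i j (s ^ T.M) - T.u i j 0‖ := by
            refine (le_of_eq ?_).trans (norm_add_le _ _)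
            congr 1
            ring
          linarith
    obtain ⟨w₀, hw₀, hwb⟩ := mem_iUnion₂.1 (htc i k hwK)
    have hwb' : ‖w - w₀‖ < r (.vert i k w₀) := by
      rw [mem_ball, dist_eq_norm] at hwb; exact hwb
    refine ⟨_, hFvert hk hw₀, (s, w - w₀), (h1 _ (hFvert hk hw₀)).le, hwb'.le, ?_⟩
    simp only [map, Prod.mk.injEq, true_and]
    rw [add_sub_cancel, hw, mul_div_cancel₀ _ (pow_ne_zero _ hs0)]
    ring
  push Not at hlow
  by_cases hkt : k = T.top i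
  · -- the leg
    obtain ⟨β, hβ⟩ := IsAlgClosed.exists_pow_nat_eq ((y - T.φ i (s ^ T.M)) / s ^ (T.M * k)) hM
    refine ⟨_, hFleg i, (s, β), (h1 _ (hFleg i)).le, ?_, ?_⟩
    · have h6 : ‖β‖ ^ T.M ≤ η ^ T.M := by
        rw [← norm_pow, hβ, norm_div, norm_pow, div_le_iff₀ (by positivity)]
        calc x ≤ a * ‖s‖ ^ (T.M * k) := hlow.le
          _ ≤ _ := by gcongr; exact haη _ (by rw [hL]; nlinarith)
      have h7 := (pow_le_pow_iff_left₀ (norm_nonneg β) hη0.le hM.ne').1 h6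
      exact h7.trans (hηL i)
    · simp only [map, Prod.mk.injEq, true_and]
      rw [hβ, ← hkt, mul_div_cancel₀ _ (pow_ne_zero _ hs0)]
      ring
  · -- the edge to the next level
    have hkt' : k < T.top i := lt_of_le_of_ne (T.le_top hk) hkt
    obtain ⟨k', hk'S, hk'min⟩ := ((T.lev i).filter fun l => k < l).exists_min_image id
      ⟨T.top i, Finset.mem_filter.2 ⟨T.top_mem i, hkt'⟩⟩
    have hk' : k' ∈ T.lev i := (Finset.mem_filter.1 hk'S).1
    have hkk' : k < k' := (Finset.mem_filter.1 hk'S).2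
    refine hedge k k' ⟨Or.inr hk, hk', hkk', fun l hl => ?_⟩ (hnext k' hk' hkk') hlow.le
    by_contra hcon
    push Not at hcon
    have := hk'min l (Finset.mem_filter.2 ⟨hl, hcon.1⟩)
    simp only [id] at this
    omega

end TB

end Crest.Agent.R257.T387
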