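import Mathlib
import Crest.Agent.R257.T4_387

/-!
Row 257 (S0395), part C, T-frame: the rotation `(z, s, y') ↦ (z, ξ s, y')`, `ξ ^ N = 1`, on branches and
charts (helper558, task C-ROT).

* `GalPt T`        : the Galois property of the branches (output of `puiseux`);
* `sg T ξ`         : permutation of the branches, `φ (sg i) (ξ ^ M * s) = φ i s`;
* `rc T ξ`         : the charts; `rm T ξ c` the two unimodular factors, `rp T ξ c` the rotation of the bidisc;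
* `map_rot`        : `map (rc c) (rp c p) = (ξ * s, y')`;
* `sheets_rot`     : the sheets.
-/

set_option autoImplicit false
set_option linter.unusedSectionVars false

open Polynomial Set Filter Topology Metric
open Crest.AlgGeometry.Germ Crest.Agent.R257.AJ387 Crest.Agent.R257.T387

noncomputable section

namespace Crest.Agent.R257.Rot1_558

variable {f : (Fin 3 → ℂ) → ℂ}

/-- the Galois property of the branches -/
def GalPt (T : TB f) : Prop :=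
  ∀ ζ : ℂ, ζ ^ T.N₀ = 1 → ∀ s ∈ ball (0 : ℂ) T.ρ, ∀ i, ∃ j, T.φ i (ζ * s) = T.φ j s

variable (T : TB f)

lemma phi_inj {s : ℂ} (hs : s ∈ ball (0 : ℂ) T.ρ) (h0 : s ≠ 0) :
    Function.Injective fun i => T.φ i s := by
  intro i j hij
  by_contra hne
  have h1 := T.φ_sub i j hne s hs
  have h2 : T.φ i s - T.φ j s = 0 := sub_eq_zero.2 hij
  rw [h2] at h1
  exact mul_ne_zero (pow_ne_zero _ h0) (T.u_ne i j hne s hs) h1.symm

lemma mul_mem {ζ s : ℂ} (hζ : ‖ζ‖ = 1) (hs : s ∈ ball (0 : ℂ) T.ρ) : ζ * s ∈ ball (0 : ℂ) T.ρ := by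
  simpa [hζ] using hs

lemma ball_punct : ∀ᶠ s in 𝓝[≠] (0 : ℂ), s ∈ ball (0 : ℂ) T.ρ ∧ s ≠ 0 :=
  (eventually_nhdsWithin_of_eventually_nhds (ball_mem_nhds _ T.ρ_pos)).and self_mem_nhdsWithin

lemma exists_punct : ∃ s ∈ ball (0 : ℂ) T.ρ, s ≠ 0 := by
  obtain ⟨s, hs, h0⟩ := (ball_punct T).exists
  exact ⟨s, hs, h0⟩

lemma gal_one {T : TB f} (hG : GalPt T) {ζ : ℂ} (hζ : ζ ^ T.N₀ = 1) (i : Fin T.m) :
    ∃ j, ∀ s ∈ ball (0 : ℂ) T.ρ, T.φ i (ζ * s) = T.φ j s := by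
  have hn : ‖ζ‖ = 1 := Complex.norm_eq_one_of_pow_eq_one hζ T.N₀_pos.ne'
  have h1 : ∃ j, ∃ᶠ s in 𝓝[≠] (0 : ℂ), T.φ i (ζ * s) = T.φ j s := by
    by_contra hcon
    push Not at hcon
    have h2 : ∀ᶠ s in 𝓝[≠] (0 : ℂ), ∀ j, ¬ T.φ i (ζ * s) = T.φ j s :=
      eventually_all.2 fun j => by simpa [Filter.not_frequently] using hcon j
    obtain ⟨s, hs, h3⟩ := ((ball_punct T).and h2).exists
    obtain ⟨j, hj⟩ := hG ζ hζ s hs.1 i
    exact h3 j hj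
  obtain ⟨j, hj⟩ := h1
  refine ⟨j, ?_⟩
  have h3 : AnalyticOnNhd ℂ (fun s => T.φ i (ζ * s)) (ball (0 : ℂ) T.ρ) := fun s hs => by
    have h4 : AnalyticAt ℂ (fun s : ℂ => ζ * s) s := analyticAt_const.mul analyticAt_id
    exact AnalyticAt.comp (g := T.φ i) (T.φ_an i _ (mul_mem T hn hs)) h4
  exact h3.eqOn_of_preconnected_of_frequently_eq (T.φ_an j) (convex_ball _ _).isPreconnected
    (mem_ball_self T.ρ_pos) hj

/-- `ξ ^ M` is a root of unity of order `N₀` -/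
lemma pow_M {ξ : ℂ} (hξ : ξ ^ T.N = 1) : (ξ ^ T.M) ^ T.N₀ = 1 := by
  rw [← pow_mul, mul_comm]; exact hξ

lemma norm_one {ξ : ℂ} (hξ : ξ ^ T.N = 1) : ‖ξ‖ = 1 :=
  Complex.norm_eq_one_of_pow_eq_one hξ T.N_pos.ne'

lemma ne_zero {ξ : ℂ} (hξ : ξ ^ T.N = 1) : ξ ≠ 0 := by
  intro h
  have := norm_one T hξ
  simp [h] at this

lemma exists_perm {T : TB f} (hG : GalPt T) {ξ : ℂ} (hξ : ξ ^ T.N = 1) :
    ∃ e : Equiv.Perm (Fin T.m), ∀ i, ∀ s ∈ ball (0 : ℂ) T.ρ, T.φ (e i) (ξ ^ T.M * s) = T.φ i s := by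
  choose τ hτ using fun i => gal_one hG (pow_M T hξ) i
  have hn : ‖ξ ^ T.M‖ = 1 := by rw [norm_pow, norm_one T hξ, one_pow]
  have hinj : Function.Injective τ := by
    intro i i' h
    obtain ⟨s, hs, h0⟩ := exists_punct T
    have h1 : T.φ i (ξ ^ T.M * s) = T.φ i' (ξ ^ T.M * s) := by rw [hτ i s hs, hτ i' s hs, h]
    exact phi_inj T (mul_mem T hn hs) (mul_ne_zero (pow_ne_zero _ (ne_zero T hξ)) h0) h1
  let e : Equiv.Perm (Fin T.m) := Equiv.ofBijective τ (Finite.injective_iff_bijective.1 hinj)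
  refine ⟨e.symm, fun i s hs => ?_⟩
  have h2 : τ (e.symm i) = i := e.apply_symm_apply i
  rw [hτ (e.symm i) s hs, h2]

/-- the permutation of the branches by the rotation `s ↦ ξ s` -/
def sg (ξ : ℂ) : Equiv.Perm (Fin T.m) := by
  classical
  exact if h : ∃ e : Equiv.Perm (Fin T.m), ∀ i, ∀ s ∈ ball (0 : ℂ) T.ρ,
    T.φ (e i) (ξ ^ T.M * s) = T.φ i s then h.choose else 1

variable {T}

lemma phi_sg (hG : GalPt T) {ξ : ℂ} (hξ : ξ ^ T.N = 1) (i : Fin T.m) {s : ℂ}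
    (hs : s ∈ ball (0 : ℂ) T.ρ) : T.φ (sg T ξ i) (ξ ^ T.M * s) = T.φ i s := by
  have h := exists_perm hG hξ
  unfold sg
  rw [dif_pos h]
  exact h.choose_spec i s hs

lemma sg_unique (hG : GalPt T) {ξ : ℂ} (hξ : ξ ^ T.N = 1) {i j : Fin T.m}
    (h : ∀ s ∈ ball (0 : ℂ) T.ρ, T.φ j (ξ ^ T.M * s) = T.φ i s) : j = sg T ξ i := by
  have hn : ‖ξ ^ T.M‖ = 1 := by rw [norm_pow, norm_one T hξ, one_pow]
  obtain ⟨s, hs, h0⟩ := exists_punct T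
  have h1 : T.φ j (ξ ^ T.M * s) = T.φ (sg T ξ i) (ξ ^ T.M * s) := by
    rw [h s hs, phi_sg hG hξ i hs]
  exact phi_inj T (mul_mem T hn hs) (mul_ne_zero (pow_ne_zero _ (ne_zero T hξ)) h0) h1

lemma one_root : (1 : ℂ) ^ T.N = 1 := one_pow _

lemma mul_root {ξ η : ℂ} (hξ : ξ ^ T.N = 1) (hη : η ^ T.N = 1) : (ξ * η) ^ T.N = 1 := by
  rw [mul_pow, hξ, hη, one_mul]

lemma inv_root {ξ : ℂ} (hξ : ξ ^ T.N = 1) : (ξ⁻¹) ^ T.N = 1 := by
  rw [inv_pow, hξ, inv_one]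

lemma sg_one (hG : GalPt T) : sg T 1 = 1 := by
  ext i
  have : i = sg T 1 i := sg_unique hG one_root fun s _ => by simp
  rw [← this]; rfl

lemma sg_mul (hG : GalPt T) {ξ η : ℂ} (hξ : ξ ^ T.N = 1) (hη : η ^ T.N = 1) :
    sg T (ξ * η) = sg T ξ * sg T η := by
  ext i
  have hn : ‖η ^ T.M‖ = 1 := by rw [norm_pow, norm_one T hη, one_pow]
  have : sg T ξ (sg T η i) = sg T (ξ * η) i := by
    refine sg_unique hG (mul_root hξ hη) fun s hs => ?_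
    have h1 : (ξ * η) ^ T.M * s = ξ ^ T.M * (η ^ T.M * s) := by rw [mul_pow, mul_assoc]
    rw [h1, phi_sg hG hξ _ (mul_mem T hn hs), phi_sg hG hη _ hs]
  rw [← this]; rfl

lemma sg_inv (hG : GalPt T) {ξ : ℂ} (hξ : ξ ^ T.N = 1) : sg T ξ⁻¹ = (sg T ξ)⁻¹ := by
  have h := sg_mul hG hξ (inv_root hξ)
  rw [mul_inv_cancel₀ (ne_zero T hξ), sg_one hG] at h
  exact (inv_eq_of_mul_eq_one_right h.symm).symm

lemma ord_eq {a b : ℕ} {g h : ℂ → ℂ} (hg : ContinuousAt g 0) (hh : ContinuousAt h 0)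
    (g0 : g 0 ≠ 0) (h0 : h 0 ≠ 0) (H : ∀ᶠ s in 𝓝[≠] (0 : ℂ), s ^ a * g s = s ^ b * h s) :
    a = b ∧ g 0 = h 0 := by
  have key : ∀ {a b : ℕ} {g h : ℂ → ℂ}, ContinuousAt g 0 → ContinuousAt h 0 → g 0 ≠ 0 → h 0 ≠ 0 →
      (∀ᶠ s in 𝓝[≠] (0 : ℂ), s ^ a * g s = s ^ b * h s) → a ≤ b → a = b ∧ g 0 = h 0 := by
    intro a b g h hg hh g0 h0 H hab
    obtain ⟨c, rfl⟩ := Nat.exists_eq_add_of_le hab
    have h1 : ∀ᶠ s in 𝓝[≠] (0 : ℂ), g s = s ^ c * h s := by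
      filter_upwards [H, self_mem_nhdsWithin] with s hs hs0
      have hs0' : s ≠ 0 := hs0
      have h2 : s ^ a * (g s - s ^ c * h s) = 0 := by
        rw [mul_sub, hs, pow_add]; ring
      exact sub_eq_zero.1 ((mul_eq_zero.1 h2).resolve_left (pow_ne_zero _ hs0'))
    have h3 : Tendsto g (𝓝[≠] 0) (𝓝 (g 0)) := hg.tendsto.mono_left nhdsWithin_le_nhds
    have h4 : Tendsto (fun s : ℂ => s ^ c * h s) (𝓝[≠] 0) (𝓝 (0 ^ c * h 0)) := by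
      have : ContinuousAt (fun s : ℂ => s ^ c * h s) 0 := (continuousAt_id.pow c).mul hh
      exact this.tendsto.mono_left nhdsWithin_le_nhds
    have h5 : g 0 = 0 ^ c * h 0 := tendsto_nhds_unique (h3.congr' h1) h4 |>.symm ▸ rfl
    rcases Nat.eq_zero_or_pos c with rfl | hc
    · exact ⟨rfl, by simpa using h5⟩
    · rw [zero_pow hc.ne', zero_mul] at h5
      exact absurd h5 g0
  rcases le_total a b with hab | hab
  · exact key hg hh g0 h0 H hab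
  · obtain ⟨h1, h2⟩ := key hh hg h0 g0 (H.mono fun s hs => hs.symm) hab
    exact ⟨h1.symm, h2.symm⟩

lemma del_u_sg (hG : GalPt T) {ξ : ℂ} (hξ : ξ ^ T.N = 1) {i j : Fin T.m} (hij : i ≠ j) :
    T.del (sg T ξ i) (sg T ξ j) = T.del i j ∧
      ξ ^ (T.M * T.del i j) * T.u (sg T ξ i) (sg T ξ j) 0 = T.u i j 0 := by
  have hne : sg T ξ i ≠ sg T ξ j := fun h => hij ((sg T ξ).injective h)
  have hn : ‖ξ ^ T.M‖ = 1 := by rw [norm_pow, norm_one T hξ, one_pow]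
  have h0 : (ξ ^ T.M) ≠ 0 := pow_ne_zero _ (ne_zero T hξ)
  set d' := T.del (sg T ξ i) (sg T ξ j)
  have hz : (0 : ℂ) ∈ ball (0 : ℂ) T.ρ := mem_ball_self T.ρ_pos
  have h1 : ContinuousAt (fun s => (ξ ^ T.M) ^ d' * T.u (sg T ξ i) (sg T ξ j) (ξ ^ T.M * s)) 0 := by
    refine continuousAt_const.mul ?_
    have h2 : ContinuousAt (T.u (sg T ξ i) (sg T ξ j)) (ξ ^ T.M * 0) := by
      rw [mul_zero]
      exact (T.u_an _ _ hne 0 hz).continuousAt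
    exact ContinuousAt.comp (g := T.u (sg T ξ i) (sg T ξ j)) (f := fun s => ξ ^ T.M * s) h2
      (continuousAt_const.mul continuousAt_id)
  have h2 := ord_eq (a := d') (b := T.del i j) h1 (T.u_an i j hij 0 hz).continuousAt
    (mul_ne_zero (pow_ne_zero _ h0) (by rw [mul_zero]; exact T.u_ne _ _ hne 0 hz))
    (T.u_ne _ _ hij 0 hz) (by
      filter_upwards [ball_punct T] with s hs
      have h3 := T.φ_sub _ _ hne _ (mul_mem T hn hs.1)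
      rw [phi_sg hG hξ _ hs.1, phi_sg hG hξ _ hs.1, T.φ_sub _ _ hij s hs.1, mul_pow] at h3
      rw [h3]; ring)
  refine ⟨h2.1, ?_⟩
  have h3 := h2.2
  rw [mul_zero, h2.1, ← pow_mul] at h3
  exact h3

lemma mem_lev {i : Fin T.m} {k : ℕ} : k ∈ T.lev i ↔ k = 1 ∨ ∃ j, j ≠ i ∧ T.del i j = k := by
  simp [TB.lev]

lemma lev_sg (hG : GalPt T) {ξ : ℂ} (hξ : ξ ^ T.N = 1) (i : Fin T.m) :
    T.lev (sg T ξ i) = T.lev i := by
  ext k
  rw [mem_lev, mem_lev]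
  refine or_congr Iff.rfl ⟨?_, ?_⟩
  · rintro ⟨j, hj, hk⟩
    obtain ⟨j, rfl⟩ := (sg T ξ).surjective j
    have hji : j ≠ i := fun h => hj (by rw [h])
    exact ⟨j, hji, by rw [← (del_u_sg hG hξ hji.symm).1]; exact hk⟩
  · rintro ⟨j, hj, hk⟩
    exact ⟨sg T ξ j, fun h => hj ((sg T ξ).injective h), by rw [(del_u_sg hG hξ hj.symm).1]; exact hk⟩

lemma top_sg (hG : GalPt T) {ξ : ℂ} (hξ : ξ ^ T.N = 1) (i : Fin T.m) :
    T.top (sg T ξ i) = T.top i := by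
  have key : ∀ (s t : Finset ℕ) (hs : s.Nonempty) (ht : t.Nonempty), s = t → s.max' hs = t.max' ht := by
    rintro s t hs ht rfl; rfl
  exact key _ _ _ _ (lev_sg hG hξ i)

lemma cons_sg (hG : GalPt T) {ξ : ℂ} (hξ : ξ ^ T.N = 1) {i : Fin T.m} {k k' : ℕ} :
    T.Cons (sg T ξ i) k k' ↔ T.Cons i k k' := by
  unfold TB.Cons
  rw [lev_sg hG hξ i]

lemma mem_Sp {i : Fin T.m} {k : ℕ} {w : ℂ} :
    w ∈ T.Sp i k ↔ w = 0 ∨ ∃ j, (j ≠ i ∧ T.del i j = k) ∧ -T.u i j 0 = w := by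
  simp [TB.Sp]

lemma mem_Sp_sg (hG : GalPt T) {ξ : ℂ} (hξ : ξ ^ T.N = 1) {i : Fin T.m} {k : ℕ} {w : ℂ} :
    (ξ ^ (T.M * k))⁻¹ * w ∈ T.Sp (sg T ξ i) k ↔ w ∈ T.Sp i k := by
  have h0 : ξ ^ (T.M * k) ≠ 0 := pow_ne_zero _ (ne_zero T hξ)
  rw [mem_Sp, mem_Sp]
  refine or_congr ?_ ⟨?_, ?_⟩
  · simp [h0]
  · rintro ⟨j, ⟨hj, hk⟩, hw⟩
    obtain ⟨j, rfl⟩ := (sg T ξ).surjective j
    have hji : j ≠ i := fun h => hj (by rw [h])
    obtain ⟨h1, h2⟩ := del_u_sg hG hξ hji.symm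
    refine ⟨j, ⟨hji, by rw [← h1]; exact hk⟩, ?_⟩
    have hk' : T.del i j = k := by rw [← h1]; exact hk
    rw [hk'] at h2
    rw [← h2, ← mul_neg, hw, mul_inv_cancel_left₀ h0]
  · rintro ⟨j, ⟨hj, hk⟩, rfl⟩
    obtain ⟨h1, h2⟩ := del_u_sg hG hξ hj.symm
    refine ⟨sg T ξ j, ⟨fun h => hj ((sg T ξ).injective h), by rw [h1]; exact hk⟩, ?_⟩
    rw [hk] at h2
    rw [← h2, ← mul_neg, inv_mul_cancel_left₀ h0]

variable (T)

/-- the rotation on charts -/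
def rc (ξ : ℂ) : Ch T.m → Ch T.m
  | .edge i k k' => .edge (sg T ξ i) k k'
  | .leg i => .leg (sg T ξ i)
  | .vert i k w₀ => .vert (sg T ξ i) k ((ξ ^ (T.M * k))⁻¹ * w₀)

/-- the two unimodular factors -/
def rm (ξ : ℂ) : Ch T.m → ℂ × ℂ
  | .edge _ k k' => (Complex.exp ((Complex.arg ξ * (k' / ((k' : ℝ) - k)) : ℝ) * Complex.I),
      Complex.exp ((-(Complex.arg ξ * (k / ((k' : ℝ) - k))) : ℝ) * Complex.I))
  | .leg i => (ξ, Complex.exp ((-(Complex.arg ξ * T.top i) : ℝ) * Complex.I))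
  | .vert _ k _ => (ξ, (ξ ^ (T.M * k))⁻¹)

/-- the rotation of the bidisc of a chart -/
def rp (ξ : ℂ) (c : Ch T.m) (p : ℂ × ℂ) : ℂ × ℂ := ((rm T ξ c).1 * p.1, (rm T ξ c).2 * p.2)

/-- its inverse -/
def rq (ξ : ℂ) (c : Ch T.m) (p : ℂ × ℂ) : ℂ × ℂ := ((rm T ξ c).1⁻¹ * p.1, (rm T ξ c).2⁻¹ * p.2)

variable {T}

lemma exp_norm (t : ℝ) : ‖Complex.exp (t * Complex.I)‖ = 1 := Complex.norm_exp_ofReal_mul_I t

lemma rm_norm {ξ : ℂ} (hξ : ξ ^ T.N = 1) (c : Ch T.m) :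
    ‖(rm T ξ c).1‖ = 1 ∧ ‖(rm T ξ c).2‖ = 1 := by
  have h := norm_one T hξ
  cases c with
  | edge i k k' => exact ⟨exp_norm _, exp_norm _⟩
  | leg i => exact ⟨h, exp_norm _⟩
  | vert i k w₀ => exact ⟨h, by simp [rm, h]⟩

lemma rm_ne {ξ : ℂ} (hξ : ξ ^ T.N = 1) (c : Ch T.m) : (rm T ξ c).1 ≠ 0 ∧ (rm T ξ c).2 ≠ 0 := by
  obtain ⟨h1, h2⟩ := rm_norm hξ c
  exact ⟨fun h => by simp [h] at h1, fun h => by simp [h] at h2⟩

lemma rp_rq {ξ : ℂ} (hξ : ξ ^ T.N = 1) (c : Ch T.m) (p : ℂ × ℂ) : rp T ξ c (rq T ξ c p) = p := by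
  obtain ⟨h1, h2⟩ := rm_ne hξ c
  simp [rp, rq, h1, h2]

lemma rq_rp {ξ : ℂ} (hξ : ξ ^ T.N = 1) (c : Ch T.m) (p : ℂ × ℂ) : rq T ξ c (rp T ξ c p) = p := by
  obtain ⟨h1, h2⟩ := rm_ne hξ c
  simp [rp, rq, h1, h2]

lemma rp_norm {ξ : ℂ} (hξ : ξ ^ T.N = 1) (c : Ch T.m) (p : ℂ × ℂ) :
    ‖(rp T ξ c p).1‖ = ‖p.1‖ ∧ ‖(rp T ξ c p).2‖ = ‖p.2‖ := by
  obtain ⟨h1, h2⟩ := rm_norm hξ c
  simp [rp, h1, h2]

lemma rq_norm {ξ : ℂ} (hξ : ξ ^ T.N = 1) (c : Ch T.m) (p : ℂ × ℂ) :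
    ‖(rq T ξ c p).1‖ = ‖p.1‖ ∧ ‖(rq T ξ c p).2‖ = ‖p.2‖ := by
  obtain ⟨h1, h2⟩ := rm_norm hξ c
  simp [rq, h1, h2]

lemma rp_mem {ξ : ℂ} (hξ : ξ ^ T.N = 1) (c : Ch T.m) {p : ℂ × ℂ} {r r' : ℝ} :
    rp T ξ c p ∈ BD r r' ↔ p ∈ BD r r' := by
  obtain ⟨h1, h2⟩ := rp_norm hξ c p
  simp only [BD, mem_ofPred_eq, h1, h2]

lemma rq_mem {ξ : ℂ} (hξ : ξ ^ T.N = 1) (c : Ch T.m) {p : ℂ × ℂ} {r r' : ℝ} :
    rq T ξ c p ∈ BD r r' ↔ p ∈ BD r r' := by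
  obtain ⟨h1, h2⟩ := rq_norm hξ c p
  simp only [BD, mem_ofPred_eq, h1, h2]

lemma valid_rc (hG : GalPt T) {ξ : ℂ} (hξ : ξ ^ T.N = 1) (c : Ch T.m) :
    T.Valid (rc T ξ c) ↔ T.Valid c := by
  cases c with
  | edge i k k' => exact cons_sg hG hξ
  | leg i => exact Iff.rfl
  | vert i k w₀ =>
    show (k ∈ T.lev (sg T ξ i) ∧ (ξ ^ (T.M * k))⁻¹ * w₀ ∉ T.Sp (sg T ξ i) k) ↔
      (k ∈ T.lev i ∧ w₀ ∉ T.Sp i k)
    rw [lev_sg hG hξ, mem_Sp_sg hG hξ]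

lemma rc_one (hG : GalPt T) (c : Ch T.m) : rc T 1 c = c := by
  cases c <;> simp [rc, sg_one hG]

lemma rc_mul (hG : GalPt T) {ξ η : ℂ} (hξ : ξ ^ T.N = 1) (hη : η ^ T.N = 1) (c : Ch T.m) :
    rc T (ξ * η) c = rc T ξ (rc T η c) := by
  cases c <;> simp [rc, sg_mul hG hξ hη, mul_pow, mul_comm, mul_left_comm]

/-- the permutation of the charts -/
def rcE (hG : GalPt T) {ξ : ℂ} (hξ : ξ ^ T.N = 1) : Equiv.Perm (Ch T.m) where
  toFun := rc T ξ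
  invFun := rc T ξ⁻¹
  left_inv c := by
    rw [← rc_mul hG (inv_root hξ) hξ, inv_mul_cancel₀ (ne_zero T hξ), rc_one hG]
  right_inv c := by
    rw [← rc_mul hG hξ (inv_root hξ), mul_inv_cancel₀ (ne_zero T hξ), rc_one hG]

lemma gen_rot {ξ : ℂ} (hξ : ξ ^ T.N = 1) (c : Ch T.m) (p : ℂ × ℂ) :
    T.Gen (rc T ξ c) (rp T ξ c p) ↔ T.Gen c p := by
  obtain ⟨h1, h2⟩ := rm_ne hξ c
  cases c <;> simp [TB.Gen, rc, rp, h1, h2]

/-- the numerical identities behind `map_rot` -/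
lemma rm_edge {ξ : ℂ} (hξ : ξ ^ T.N = 1) (i : Fin T.m) {k k' : ℕ} (h : k < k') :
    (rm T ξ (.edge i k k')).1 * (rm T ξ (.edge i k k')).2 = ξ ∧
    (rm T ξ (.edge i k k')).1 ^ (T.M * k) * (rm T ξ (.edge i k k')).2 ^ (T.M * k') = 1 := by
  have hn := norm_one T hξ
  have hk : (k' : ℝ) - k ≠ 0 := by
    have : (k : ℝ) < k' := by exact_mod_cast h
    intro h'
    linarith
  constructor
  · simp only [rm]
    rw [← Complex.exp_add]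
    have h1 : ((Complex.arg ξ * (k' / ((k' : ℝ) - k)) : ℝ) : ℂ) * Complex.I +
        ((-(Complex.arg ξ * (k / ((k' : ℝ) - k))) : ℝ) : ℂ) * Complex.I = Complex.arg ξ * Complex.I := by
      rw [← add_mul, ← Complex.ofReal_add]
      congr 2
      field_simp
      ring
    rw [h1]
    have h2 := Complex.norm_mul_exp_arg_mul_I ξ
    rwa [hn, Complex.ofReal_one, one_mul] at h2
  · simp only [rm]
    rw [← Complex.exp_nat_mul, ← Complex.exp_nat_mul, ← Complex.exp_add]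
    have h1 : ((T.M * k : ℕ) : ℂ) * (((Complex.arg ξ * (k' / ((k' : ℝ) - k)) : ℝ) : ℂ) * Complex.I) +
        ((T.M * k' : ℕ) : ℂ) * (((-(Complex.arg ξ * (k / ((k' : ℝ) - k))) : ℝ) : ℂ) * Complex.I) = 0 := by
      push_cast
      ring
    rw [h1, Complex.exp_zero]

lemma rm_leg {ξ : ℂ} (hξ : ξ ^ T.N = 1) (i : Fin T.m) :
    ξ ^ (T.M * T.top i) * (rm T ξ (.leg i)).2 ^ T.M = 1 := by
  have hn := norm_one T hξ
  have h2 := Complex.norm_mul_exp_arg_mul_I ξ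
  rw [hn, Complex.ofReal_one, one_mul] at h2
  simp only [rm]
  nth_rw 1 [← h2]
  rw [← Complex.exp_nat_mul, ← Complex.exp_nat_mul, ← Complex.exp_add]
  have h1 : ((T.M * T.top i : ℕ) : ℂ) * (Complex.arg ξ * Complex.I) +
      ((T.M : ℕ) : ℂ) * (((-(Complex.arg ξ * T.top i) : ℝ) : ℂ) * Complex.I) = 0 := by
    push_cast
    ring
  rw [h1, Complex.exp_zero]

/-- **the rotation in the charts** -/
theorem map_rot (hG : GalPt T) {ξ : ℂ} (hξ : ξ ^ T.N = 1) {c : Ch T.m} (hc : T.Valid c) {p : ℂ × ℂ}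
    (hp : ‖(T.map c p).1‖ ^ T.M < T.ρ) :
    T.map (rc T ξ c) (rp T ξ c p) = (ξ * (T.map c p).1, (T.map c p).2) := by
  have hball : (T.map c p).1 ^ T.M ∈ ball (0 : ℂ) T.ρ := by simpa using hp
  cases c with
  | edge i k k' =>
    obtain ⟨h1, h2⟩ := rm_edge hξ i (show k < k' from hc.2.2.1)
    have h3 : (rp T ξ (.edge i k k') p).1 * (rp T ξ (.edge i k k') p).2 = ξ * (p.1 * p.2) := by
      simp only [rp]
      calc _ = ((rm T ξ (.edge i k k')).1 * (rm T ξ (.edge i k k')).2) * (p.1 * p.2) := by ring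
        _ = _ := by rw [h1]
    have h4 : (rp T ξ (.edge i k k') p).1 ^ (T.M * k) * (rp T ξ (.edge i k k') p).2 ^ (T.M * k') =
        p.1 ^ (T.M * k) * p.2 ^ (T.M * k') := by
      simp only [rp, mul_pow]
      calc _ = ((rm T ξ (.edge i k k')).1 ^ (T.M * k) * (rm T ξ (.edge i k k')).2 ^ (T.M * k')) *
          (p.1 ^ (T.M * k) * p.2 ^ (T.M * k')) := by ring
        _ = _ := by rw [h2, one_mul]
    simp only [TB.map, rc] at hball ⊢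
    rw [h3, h4, mul_pow, phi_sg hG hξ i hball]
  | leg i =>
    have h2 := rm_leg hξ i
    simp only [TB.map, rc] at hball ⊢
    have h3 : (rp T ξ (.leg i) p).1 = ξ * p.1 := rfl
    have h4 : (rp T ξ (.leg i) p).2 = (rm T ξ (.leg i)).2 * p.2 := rfl
    rw [h3, top_sg hG hξ, mul_pow ξ p.1 T.M, phi_sg hG hξ i hball, h4]
    refine Prod.ext rfl ?_
    show T.φ i (p.1 ^ T.M) + (ξ * p.1) ^ (T.M * T.top i) * ((rm T ξ (.leg i)).2 * p.2) ^ T.M = _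
    rw [mul_pow, mul_pow]
    calc _ = T.φ i (p.1 ^ T.M) + (ξ ^ (T.M * T.top i) * (rm T ξ (.leg i)).2 ^ T.M) *
          (p.1 ^ (T.M * T.top i) * p.2 ^ T.M) := by ring
      _ = _ := by rw [h2, one_mul]
  | vert i k w₀ =>
    simp only [TB.map, rc] at hball ⊢
    have h0 : ξ ^ (T.M * k) ≠ 0 := pow_ne_zero _ (ne_zero T hξ)
    have h3 : (rp T ξ (.vert i k w₀) p).1 = ξ * p.1 := rfl
    have h4 : (rp T ξ (.vert i k w₀) p).2 = (ξ ^ (T.M * k))⁻¹ * p.2 := rfl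
    rw [h3, mul_pow ξ p.1 T.M, phi_sg hG hξ i hball, h4]
    refine Prod.ext rfl ?_
    show T.φ i (p.1 ^ T.M) + (ξ * p.1) ^ (T.M * k) *
      ((ξ ^ (T.M * k))⁻¹ * w₀ + (ξ ^ (T.M * k))⁻¹ * p.2) = _
    rw [mul_pow, ← mul_add]
    calc _ = T.φ i (p.1 ^ T.M) + (ξ ^ (T.M * k) * (ξ ^ (T.M * k))⁻¹) *
          (p.1 ^ (T.M * k) * (w₀ + p.2)) := by ring
      _ = _ := by rw [mul_inv_cancel₀ h0, one_mul]

lemma Q_rot {ξ : ℂ} (hξ : ξ ^ T.N = 1) (s y : ℂ) : T.Q (ξ * s, y) = T.Q (s, y) := by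
  simp only [TB.Q, mul_pow, hξ, one_mul]

lemma base_rot {ξ : ℂ} (hξ : ξ ^ T.N = 1) (s y : ℂ) : T.base (ξ * s, y) = T.base (s, y) := by
  simp only [TB.base, mul_pow, hξ, one_mul]

/-- the chart of the hypersurface -/
lemma th_rot (hG : GalPt T) {ξ : ℂ} (hξ : ξ ^ T.N = 1) {c : Ch T.m} (hc : T.Valid c) {p : ℂ × ℂ}
    (hp : ‖(T.map c p).1‖ ^ T.M < T.ρ) (z : ℂ × ℂ → ℂ) :
    T.th (rc T ξ c) (fun q => z (rq T ξ c q)) (rp T ξ c p) = T.th c z p := by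
  simp only [TB.th, rq_rp hξ, map_rot hG hξ hc hp, base_rot hξ]

/-- **the rotation of sheets** -/
theorem sheets_rot (hG : GalPt T) {ξ : ℂ} (hξ : ξ ^ T.N = 1) {c : Ch T.m} (hc : T.Valid c) {r : ℝ}
    {ζ : Fin T.d → ℂ × ℂ → ℂ} (h : T.Sheets c r ζ) :
    T.Sheets (rc T ξ c) r (fun j p => ζ j (rq T ξ c p)) := by
  have hkey : ∀ p ∈ BD r r, T.map (rc T ξ c) p =
      (ξ * (T.map c (rq T ξ c p)).1, (T.map c (rq T ξ c p)).2) := by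
    intro p hp
    have h1 : rq T ξ c p ∈ BD r r := (rq_mem hξ c).2 hp
    have h2 := map_rot hG hξ hc (h.mem _ h1).2
    rwa [rp_rq hξ] at h2
  refine ⟨h.r_pos, fun p hp => ?_, fun j p hp => ?_, fun p hp => ?_, fun p hp hg => ?_⟩
  · have h1 : rq T ξ c p ∈ BD r r := (rq_mem hξ c).2 hp
    have h2 := h.mem _ h1
    rw [hkey p hp]
    simp only [BD, mem_ofPred_eq] at h2 ⊢
    rw [norm_mul, norm_one T hξ, one_mul]
    exact h2
  · have h1 : rq T ξ c p ∈ BD r r := (rq_mem hξ c).2 hp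
    have h2 : AnalyticAt ℂ (rq T ξ c) p :=
      (analyticAt_const.mul analyticAt_fst).prod (analyticAt_const.mul analyticAt_snd)
    exact AnalyticAt.comp (g := ζ j) (h.an j _ h1) h2
  · have h1 : rq T ξ c p ∈ BD r r := (rq_mem hξ c).2 hp
    rw [hkey p hp, Q_rot hξ]
    exact h.split _ h1
  · have h1 : rq T ξ c p ∈ BD r r := (rq_mem hξ c).2 hp
    refine h.inj _ h1 ?_
    rw [← gen_rot hξ c, rp_rq hξ]
    exact hg

end Crest.Agent.R257.Rot1_558
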