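import Crest.Agent.R257.Rot1_558
import Crest.Agent.R257.FrmA_547

/-!
Row 257 (S0395), part C, T-frame: rotation and shift of the points of the special fibre and of the
components (helper558, task C-ROT).

* `rx`   : `X T i k ≃ X T (sg ξ i) k`, `(w, γ) ↦ (ξ^(-Mk) w, γ ∘ rq)`; `step_rx`, `rC` on components;
* `sx`   : `X T i k ≃ X T j k` for `Eqv T k i j`, `(w, γ) ↦ (w + sh 0, γ (s, β - sh s + sh 0))`; `cl_sx`,
           `sC` on components.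
-/

set_option autoImplicit false
set_option linter.unusedSectionVars false

open Polynomial Set Filter Topology Metric
open Crest.AlgGeometry.Germ Crest.Agent.R257.AJ387 Crest.Agent.R257.T387
open Crest.Agent.R257.Frm_547 Crest.Agent.R257.Rot1_558

noncomputable section

namespace Crest.Agent.R257.Rot2_558

variable {f : (Fin 3 → ℂ) → ℂ}

/-! ### rotation -/

section rot

variable (T : TB f)

/-- the inverse rotation on vertex charts -/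
def lq (ξ : ℂ) (k : ℕ) (p : ℂ × ℂ) : ℂ × ℂ := (ξ⁻¹ * p.1, ξ ^ (T.M * k) * p.2)

/-- the rotation on vertex charts -/
def lp (ξ : ℂ) (k : ℕ) (p : ℂ × ℂ) : ℂ × ℂ := (ξ * p.1, (ξ ^ (T.M * k))⁻¹ * p.2)

variable {T}

lemma rp_vert (ξ : ℂ) (i : Fin T.m) (k : ℕ) (w : ℂ) : rp T ξ (.vert i k w) = lp T ξ k := rfl

lemma rq_vert (ξ : ℂ) (i : Fin T.m) (k : ℕ) (w : ℂ) : rq T ξ (.vert i k w) = lq T ξ k := by
  funext p; simp [rq, rm, lq]

lemma lq_inv (ξ : ℂ) (k : ℕ) : lq T ξ⁻¹ k = lp T ξ k := by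
  funext p; simp [lq, lp]

lemma lp_lq {ξ : ℂ} (hξ : ξ ^ T.N = 1) (k : ℕ) (p : ℂ × ℂ) : lp T ξ k (lq T ξ k p) = p := by
  have h := ne_zero T hξ
  simp [lp, lq, h]

lemma lq_lp {ξ : ℂ} (hξ : ξ ^ T.N = 1) (k : ℕ) (p : ℂ × ℂ) : lq T ξ k (lp T ξ k p) = p := by
  have h := ne_zero T hξ
  simp [lp, lq, h]

lemma lq_mem {ξ : ℂ} (hξ : ξ ^ T.N = 1) {k : ℕ} {p : ℂ × ℂ} {r r' : ℝ} :
    lq T ξ k p ∈ BD r r' ↔ p ∈ BD r r' := by
  have h := norm_one T hξ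
  simp [BD, lq, h]

lemma lq_an (ξ : ℂ) (k : ℕ) (p : ℂ × ℂ) : AnalyticAt ℂ (lq T ξ k) p :=
  (analyticAt_const.mul analyticAt_fst).prod (analyticAt_const.mul analyticAt_snd)

lemma lq_tendsto (ξ : ℂ) (k : ℕ) : Tendsto (lq T ξ k) (𝓝 (0 : ℂ × ℂ)) (𝓝 (0 : ℂ × ℂ)) := by
  have h := (lq_an (T := T) ξ k 0).continuousAt.tendsto
  have h0 : lq T ξ k 0 = 0 := by simp [lq]
  rwa [h0] at h

lemma map_vert_rot (hG : GalPt T) {ξ : ℂ} (hξ : ξ ^ T.N = 1) {i : Fin T.m} {k : ℕ} {w : ℂ}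
    {p : ℂ × ℂ} (hp : ‖p.1‖ ^ T.M < T.ρ) :
    T.map (.vert (sg T ξ i) k ((ξ ^ (T.M * k))⁻¹ * w)) (lp T ξ k p) =
      (ξ * p.1, (T.map (.vert i k w) p).2) := by
  have hball : p.1 ^ T.M ∈ ball (0 : ℂ) T.ρ := by simpa using hp
  have h0 : ξ ^ (T.M * k) ≠ 0 := pow_ne_zero _ (ne_zero T hξ)
  simp only [TB.map, lp]
  rw [mul_pow ξ p.1 T.M, phi_sg hG hξ i hball]
  refine Prod.ext rfl ?_
  show T.φ i (p.1 ^ T.M) + (ξ * p.1) ^ (T.M * k) *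
      ((ξ ^ (T.M * k))⁻¹ * w + (ξ ^ (T.M * k))⁻¹ * p.2) = _
  rw [mul_pow, ← mul_add]
  calc _ = T.φ i (p.1 ^ T.M) + (ξ ^ (T.M * k) * (ξ ^ (T.M * k))⁻¹) *
          (p.1 ^ (T.M * k) * (w + p.2)) := by ring
      _ = _ := by rw [mul_inv_cancel₀ h0, one_mul]

theorem sh1_rot (hG : GalPt T) {ξ : ℂ} (hξ : ξ ^ T.N = 1) {i : Fin T.m} {k : ℕ} {w : ℂ} {r : ℝ}
    {ζ : ℂ × ℂ → ℂ} (h : Sh1 T i k w r ζ) :
    Sh1 T (sg T ξ i) k ((ξ ^ (T.M * k))⁻¹ * w) r (ζ ∘ lq T ξ k) := by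
  have h0 : ξ ^ (T.M * k) ≠ 0 := pow_ne_zero _ (ne_zero T hξ)
  have hn := norm_one T hξ
  have hkey : ∀ p ∈ BD r r, T.map (.vert (sg T ξ i) k ((ξ ^ (T.M * k))⁻¹ * w)) p =
      (ξ * (T.map (.vert i k w) (lq T ξ k p)).1, (T.map (.vert i k w) (lq T ξ k p)).2) := by
    intro p hp
    have h1 : lq T ξ k p ∈ BD r r := (lq_mem hξ).2 hp
    have h2 := map_vert_rot hG hξ (i := i) (k := k) (w := w) (p := lq T ξ k p) (h.mem _ h1).2
    rw [lp_lq hξ] at h2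
    rw [h2]
    rfl
  refine ⟨h.r_pos, fun β hβ => ?_, fun p hp => ?_, fun p hp => ?_, fun p hp => ?_⟩
  · have h1 : (ξ ^ (T.M * k))⁻¹ * w + β = (ξ ^ (T.M * k))⁻¹ * (w + ξ ^ (T.M * k) * β) := by
      rw [mul_add, inv_mul_cancel_left₀ h0]
    rw [h1, Rot1_558.mem_Sp_sg hG hξ]
    exact h.sp _ (by rw [norm_mul, norm_pow, hn, one_pow, one_mul]; exact hβ)
  · have h1 : lq T ξ k p ∈ BD r r := (lq_mem hξ).2 hp
    have h2 := h.mem _ h1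
    rw [hkey p hp]
    simp only [BD, mem_ofPred_eq] at h2 ⊢
    rw [norm_mul, hn, one_mul]
    exact h2
  · have h1 : lq T ξ k p ∈ BD r r := (lq_mem hξ).2 hp
    exact AnalyticAt.comp (g := ζ) (h.an _ h1) (lq_an ξ k p)
  · have h1 : lq T ξ k p ∈ BD r r := (lq_mem hξ).2 hp
    rw [hkey p hp, Q_rot hξ]
    exact h.root _ h1

/-- a step between pairs -/
def RStep (T : TB f) (i : Fin T.m) (k : ℕ) (x y : ℂ × Z2) : Prop :=
  ∃ (r : ℝ) (ζ : ℂ × ℂ → ℂ), Sh1 T i k x.1 r ζ ∧ x.2 = (ζ : Z2) ∧ ∃ β : ℂ, ‖β‖ < r ∧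
    y.1 = x.1 + β ∧ y.2 = ((fun p : ℂ × ℂ => ζ (p.1, p.2 + β) : ℂ × ℂ → ℂ) : Z2)

lemma step_iff {i : Fin T.m} {k : ℕ} {x y : X T i k} : Step T i k x y ↔ RStep T i k x.1 y.1 := Iff.rfl

/-- a point -/
def RX (T : TB f) (i : Fin T.m) (k : ℕ) (x : ℂ × Z2) : Prop :=
  x.1 ∉ T.Sp i k ∧ ∃ (r : ℝ) (ζ : ℂ × ℂ → ℂ), Sh1 T i k x.1 r ζ ∧ x.2 = (ζ : Z2)

variable (T) in
/-- the rotation of pairs -/
def rr (ξ : ℂ) (k : ℕ) (x : ℂ × Z2) : ℂ × Z2 :=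
  ((ξ ^ (T.M * k))⁻¹ * x.1, x.2.compTendsto (lq T ξ k) (lq_tendsto ξ k))

lemma rr_coe (ξ : ℂ) (k : ℕ) (w : ℂ) (ζ : ℂ × ℂ → ℂ) :
    rr T ξ k (w, (ζ : Z2)) = ((ξ ^ (T.M * k))⁻¹ * w, ((ζ ∘ lq T ξ k : ℂ × ℂ → ℂ) : Z2)) := rfl

lemma rr_one (k : ℕ) (x : ℂ × Z2) : rr T 1 k x = x := by
  obtain ⟨w, γ⟩ := x
  induction γ using Germ.inductionOn with | _ ζ => ?_
  rw [rr_coe]
  have : ζ ∘ lq T 1 k = ζ := by funext p; simp [lq]
  rw [this]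
  simp

lemma rr_mul (ξ η : ℂ) (k : ℕ) (x : ℂ × Z2) : rr T (ξ * η) k x = rr T ξ k (rr T η k x) := by
  obtain ⟨w, γ⟩ := x
  induction γ using Germ.inductionOn with | _ ζ => ?_
  rw [rr_coe, rr_coe, rr_coe]
  have : ζ ∘ lq T (ξ * η) k = (ζ ∘ lq T η k) ∘ lq T ξ k := by
    funext p; simp only [Function.comp, lq]; congr 2
    · rw [mul_inv]; ring
    · rw [mul_pow]; ring
  rw [this]
  refine Prod.ext ?_ rfl
  show ((ξ * η) ^ (T.M * k))⁻¹ * w = (ξ ^ (T.M * k))⁻¹ * ((η ^ (T.M * k))⁻¹ * w)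
  rw [mul_pow, mul_inv, mul_assoc]

lemma rx_rr (hG : GalPt T) {ξ : ℂ} (hξ : ξ ^ T.N = 1) {i : Fin T.m} {k : ℕ} {x : ℂ × Z2}
    (h : RX T i k x) : RX T (sg T ξ i) k (rr T ξ k x) := by
  obtain ⟨h1, r, ζ, h2, h3⟩ := h
  obtain ⟨w, γ⟩ := x
  simp only at h3
  subst h3
  exact ⟨fun h => h1 ((Rot1_558.mem_Sp_sg hG hξ).1 h), r, ζ ∘ lq T ξ k, sh1_rot hG hξ h2, rfl⟩

lemma rstep_rr (hG : GalPt T) {ξ : ℂ} (hξ : ξ ^ T.N = 1) {i : Fin T.m} {k : ℕ} {x y : ℂ × Z2}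
    (h : RStep T i k x y) : RStep T (sg T ξ i) k (rr T ξ k x) (rr T ξ k y) := by
  obtain ⟨r, ζ, h1, h2, β, hβ, h3, h4⟩ := h
  obtain ⟨w, γ⟩ := x
  obtain ⟨w', γ'⟩ := y
  simp only at h2 h3 h4
  subst h2 h3 h4
  have h0 : ξ ^ (T.M * k) ≠ 0 := pow_ne_zero _ (ne_zero T hξ)
  refine ⟨r, ζ ∘ lq T ξ k, sh1_rot hG hξ h1, rfl, (ξ ^ (T.M * k))⁻¹ * β, ?_, ?_, ?_⟩
  · simpa [norm_one T hξ] using hβ
  · show (ξ ^ (T.M * k))⁻¹ * (w + β) = _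
    rw [mul_add]; rfl
  · rw [rr_coe]
    show ((_ : ℂ × ℂ → ℂ) : Z2) = ((_ : ℂ × ℂ → ℂ) : Z2)
    congr 1
    funext p
    simp only [Function.comp, lq]
    rw [mul_add, mul_inv_cancel_left₀ h0]

lemma sg_inv_apply (hG : GalPt T) {ξ : ℂ} (hξ : ξ ^ T.N = 1) (i : Fin T.m) :
    sg T ξ⁻¹ (sg T ξ i) = i := by
  rw [sg_inv hG hξ]; simp

lemma rr_inv_left {ξ : ℂ} (hξ : ξ ^ T.N = 1) (k : ℕ) (x : ℂ × Z2) :
    rr T ξ⁻¹ k (rr T ξ k x) = x := by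
  rw [← rr_mul, inv_mul_cancel₀ (ne_zero T hξ), rr_one]

lemma rr_inv_right {ξ : ℂ} (hξ : ξ ^ T.N = 1) (k : ℕ) (x : ℂ × Z2) :
    rr T ξ k (rr T ξ⁻¹ k x) = x := by
  rw [← rr_mul, mul_inv_cancel₀ (ne_zero T hξ), rr_one]

/-- the rotation of points -/
def rx (hG : GalPt T) {ξ : ℂ} (hξ : ξ ^ T.N = 1) (i : Fin T.m) (k : ℕ) :
    X T i k ≃ X T (sg T ξ i) k where
  toFun x := ⟨rr T ξ k x.1, rx_rr hG hξ x.2⟩
  invFun y := ⟨rr T ξ⁻¹ k y.1, by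
    have h := rx_rr hG (inv_root hξ) y.2
    rwa [sg_inv_apply hG hξ] at h⟩
  left_inv x := Subtype.ext (rr_inv_left hξ k x.1)
  right_inv y := Subtype.ext (rr_inv_right hξ k y.1)

@[simp] lemma rx_val (hG : GalPt T) {ξ : ℂ} (hξ : ξ ^ T.N = 1) (i : Fin T.m) (k : ℕ) (x : X T i k) :
    (rx hG hξ i k x).1 = rr T ξ k x.1 := rfl

lemma step_rx (hG : GalPt T) {ξ : ℂ} (hξ : ξ ^ T.N = 1) {i : Fin T.m} {k : ℕ} (x y : X T i k) :
    Step T i k x y ↔ Step T (sg T ξ i) k (rx hG hξ i k x) (rx hG hξ i k y) := by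
  refine ⟨fun h => rstep_rr hG hξ h, fun h => ?_⟩
  have h1 := rstep_rr hG (inv_root hξ) (step_iff.1 h)
  rw [sg_inv_apply hG hξ, rx_val, rx_val, rr_inv_left hξ, rr_inv_left hξ] at h1
  exact h1

/-- the rotation of components -/
def rC (hG : GalPt T) {ξ : ℂ} (hξ : ξ ^ T.N = 1) (i : Fin T.m) (k : ℕ) :
    Cmp T i k ≃ Cmp T (sg T ξ i) k :=
  Quot.congr (rx hG hξ i k) (step_rx hG hξ)

@[simp] lemma rC_cl (hG : GalPt T) {ξ : ℂ} (hξ : ξ ^ T.N = 1) {i : Fin T.m} {k : ℕ} (x : X T i k) :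
    rC hG hξ i k (cl T x) = cl T (rx hG hξ i k x) := rfl

end rot

/-! ### shift -/

section shift

variable (T : TB f)

/-- `sh s - sh 0` -/
def dl (k : ℕ) (i j : Fin T.m) (s : ℂ) : ℂ := sh T k i j s - sh T k i j 0

@[simp] lemma dl_zero (k : ℕ) (i j : Fin T.m) : dl T k i j 0 = 0 := sub_self _

lemma dl_an {k : ℕ} {i j : Fin T.m} : AnalyticOnNhd ℂ (dl T k i j) (sD T) := fun s hs =>
  (sh_an T s hs).sub analyticAt_const

/-- the shift of the `β`-coordinate -/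
def ls (k : ℕ) (i j : Fin T.m) (p : ℂ × ℂ) : ℂ × ℂ := (p.1, p.2 - dl T k i j p.1)

lemma ls_an {k : ℕ} {i j : Fin T.m} {p : ℂ × ℂ} (hp : p.1 ∈ sD T) : AnalyticAt ℂ (ls T k i j) p := by
  have h : AnalyticAt ℂ (fun p : ℂ × ℂ => dl T k i j p.1) p :=
    AnalyticAt.comp (g := dl T k i j) (dl_an T _ hp) analyticAt_fst
  exact analyticAt_fst.prod (analyticAt_snd.sub h)

lemma ls_tendsto (k : ℕ) (i j : Fin T.m) : Tendsto (ls T k i j) (𝓝 (0 : ℂ × ℂ)) (𝓝 (0 : ℂ × ℂ)) := by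
  have h := (ls_an T (k := k) (i := i) (j := j) (p := 0) (zero_mem_sD T)).continuousAt.tendsto
  have h0 : ls T k i j 0 = 0 := by simp [ls]
  rwa [h0] at h

variable {T}

lemma map_vert_shift {k : ℕ} {i j : Fin T.m} (h : Eqv T k i j) {w b : ℂ} {p : ℂ × ℂ}
    (hp : p.1 ∈ sD T) :
    T.map (.vert j k (w + b + sh T k i j 0)) p =
      T.map (.vert i k w) (p.1, p.2 - dl T k i j p.1 + b) := by
  simp only [TB.map, dl]
  rw [φ_sh T h hp]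
  refine Prod.ext rfl ?_
  ring

theorem sh1_shift {k : ℕ} {i j : Fin T.m} (h : Eqv T k i j) {w : ℂ} {r : ℝ} {ζ : ℂ × ℂ → ℂ}
    (hs : Sh1 T i k w r ζ) {b : ℂ} (hb : ‖b‖ < r) :
    ∃ r', Sh1 T j k (w + b + sh T k i j 0) r' (fun p => ζ (p.1, p.2 - dl T k i j p.1 + b)) := by
  have h1 : ContinuousAt (dl T k i j) 0 := (dl_an T 0 (zero_mem_sD T)).continuousAt
  have h2 : ∀ᶠ s in 𝓝 (0 : ℂ), ‖dl T k i j s‖ < (r - ‖b‖) / 2 := by
    have h3 : Tendsto (fun s => ‖dl T k i j s‖) (𝓝 0) (𝓝 0) := by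
      have := h1.norm.tendsto
      simpa using this
    exact h3.eventually (gt_mem_nhds (by linarith))
  obtain ⟨e, he, h3⟩ := Metric.eventually_nhds_iff_ball.1 h2
  have hr := hs.r_pos
  set r' := min (min e r) ((r - ‖b‖) / 2) with hr'
  have hb2 : 0 < (r - ‖b‖) / 2 := by linarith
  have hr'0 : 0 < r' := by positivity
  have h4 : ∀ p ∈ BD r' r', (p.1, p.2 - dl T k i j p.1 + b) ∈ BD r r := by
    intro p hp
    have h5 : ‖p.1‖ < e := hp.1.trans_le ((min_le_left _ _).trans (min_le_left _ _))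
    have h6 : ‖p.1‖ < r := hp.1.trans_le ((min_le_left _ _).trans (min_le_right _ _))
    have h7 : ‖p.2‖ < (r - ‖b‖) / 2 := hp.2.trans_le (min_le_right _ _)
    have h8 := h3 p.1 (by simpa using h5)
    refine ⟨h6, ?_⟩
    calc ‖p.2 - dl T k i j p.1 + b‖ ≤ ‖p.2‖ + ‖dl T k i j p.1‖ + ‖b‖ :=
          (norm_add_le _ _).trans (add_le_add (norm_sub_le _ _) le_rfl)
      _ < r := by linarith
  have h5 : ∀ p ∈ BD r' r', p.1 ∈ sD T := fun p hp => (hs.mem _ (h4 p hp)).2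
  refine ⟨r', hr'0, fun β hβ => ?_, fun p hp => ?_, fun p hp => ?_, fun p hp => ?_⟩
  · have h6 : w + b + sh T k i j 0 + β = (w + (b + β)) + sh T k i j 0 := by ring
    rw [h6, ← sp_shift T h]
    refine hs.sp _ ?_
    have h7 : ‖β‖ < (r - ‖b‖) / 2 := hβ.trans_le (min_le_right _ _)
    calc ‖b + β‖ ≤ ‖b‖ + ‖β‖ := norm_add_le _ _
      _ < r := by linarith
  · rw [map_vert_shift h (h5 p hp)]
    exact hs.mem _ (h4 p hp)
  · have h6 : AnalyticAt ℂ (fun p : ℂ × ℂ => (p.1, p.2 - dl T k i j p.1 + b)) p := by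
      have h7 : AnalyticAt ℂ (fun p : ℂ × ℂ => dl T k i j p.1) p :=
        AnalyticAt.comp (g := dl T k i j) (dl_an T _ (h5 p hp)) analyticAt_fst
      exact analyticAt_fst.prod ((analyticAt_snd.sub h7).add analyticAt_const)
    exact AnalyticAt.comp (g := ζ) (hs.an _ (h4 p hp)) h6
  · rw [map_vert_shift h (h5 p hp)]
    exact hs.root _ (h4 p hp)

variable (T) in
/-- the shift of pairs -/
def ss (k : ℕ) (i j : Fin T.m) (x : ℂ × Z2) : ℂ × Z2 :=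
  (x.1 + sh T k i j 0, x.2.compTendsto (ls T k i j) (ls_tendsto T k i j))

lemma ss_coe (k : ℕ) (i j : Fin T.m) (w : ℂ) (ζ : ℂ × ℂ → ℂ) :
    ss T k i j (w, (ζ : Z2)) = (w + sh T k i j 0, ((ζ ∘ ls T k i j : ℂ × ℂ → ℂ) : Z2)) := rfl

lemma rx_ss {k : ℕ} {i j : Fin T.m} (h : Eqv T k i j) {x : ℂ × Z2}
    (hx : RX T i k x) : RX T j k (ss T k i j x) := by
  obtain ⟨h1, r, ζ, h2, h3⟩ := hx
  obtain ⟨w, γ⟩ := x
  simp only at h3
  subst h3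
  refine ⟨fun h' => h1 ((sp_shift T h).2 h'), ?_⟩
  obtain ⟨r', hr'⟩ := sh1_shift h h2 (b := 0) (by simpa using h2.r_pos)
  simp only [add_zero] at hr'
  exact ⟨r', _, hr', rfl⟩

lemma ss_self (k : ℕ) (i : Fin T.m) (x : ℂ × Z2) : ss T k i i x = x := by
  obtain ⟨w, γ⟩ := x
  induction γ using Germ.inductionOn with | _ ζ => ?_
  rw [ss_coe]
  have : ζ ∘ ls T k i i = ζ := by
    funext p; simp [ls, dl, sh_self]
  rw [this, sh_self, add_zero]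

lemma ss_ss {k : ℕ} {i j l : Fin T.m} (h : Eqv T k i j) (h' : Eqv T k j l) (x : ℂ × Z2) :
    ss T k j l (ss T k i j x) = ss T k i l x := by
  obtain ⟨w, γ⟩ := x
  induction γ using Germ.inductionOn with | _ ζ => ?_
  rw [ss_coe, ss_coe, ss_coe]
  refine Prod.ext ?_ ?_
  · show w + sh T k i j 0 + sh T k j l 0 = w + sh T k i l 0
    rw [sh_cocycle T h h' (zero_mem_sD T)]; ring
  · show ((_ : ℂ × ℂ → ℂ) : Z2) = ((_ : ℂ × ℂ → ℂ) : Z2)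
    rw [Germ.coe_eq]
    have h1 : ∀ᶠ p in 𝓝 (0 : ℂ × ℂ), p.1 ∈ sD T :=
      continuousAt_fst.eventually ((isOpen_sD T).mem_nhds (zero_mem_sD T))
    filter_upwards [h1] with p hp
    simp only [Function.comp, ls, dl]
    congr 2
    rw [sh_cocycle T h h' hp, sh_cocycle T h h' (zero_mem_sD T)]
    ring

/-- the shift of points -/
def sx {k : ℕ} {i j : Fin T.m} (h : Eqv T k i j) : X T i k ≃ X T j k where
  toFun x := ⟨ss T k i j x.1, rx_ss h x.2⟩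
  invFun y := ⟨ss T k j i y.1, rx_ss h.symm y.2⟩
  left_inv x := Subtype.ext (by
    show ss T k j i (ss T k i j x.1) = x.1
    rw [ss_ss h h.symm, ss_self])
  right_inv y := Subtype.ext (by
    show ss T k i j (ss T k j i y.1) = y.1
    rw [ss_ss h.symm h, ss_self])

@[simp] lemma sx_val {k : ℕ} {i j : Fin T.m} (h : Eqv T k i j) (x : X T i k) :
    (sx h x).1 = ss T k i j x.1 := rfl

/-- the point of the sheet `ζ` at `w + b` -/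
def ptb {i : Fin T.m} {k : ℕ} {w : ℂ} {r : ℝ} {ζ : ℂ × ℂ → ℂ} (hs : Sh1 T i k w r ζ) {b : ℂ}
    (hb : ‖b‖ < r) : X T i k :=
  ⟨(w + b, ((fun p : ℂ × ℂ => ζ (p.1, p.2 + b) : ℂ × ℂ → ℂ) : Z2)), by
    refine ⟨hs.sp b hb, ?_⟩
    obtain ⟨r', hr'⟩ := sh1_shift (Eqv.refl T k i) hs hb
    simp only [sh_self, add_zero, dl, sub_zero] at hr'
    exact ⟨r', _, hr', rfl⟩⟩

lemma cl_ptb_eq {i : Fin T.m} {k : ℕ} {w : ℂ} {r : ℝ} {ζ : ℂ × ℂ → ℂ} (hs : Sh1 T i k w r ζ)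
    {j : Fin T.m} (h : Eqv T k i j) {b b' : ℂ} (hb : ‖b‖ < r) (hb' : ‖b'‖ < r) :
    cl T (sx h (ptb hs hb)) = cl T (sx h (ptb hs hb')) := by
  classical
  let F : ℂ → Option (Cmp T j k) := fun b => if hb : ‖b‖ < r then some (cl T (sx h (ptb hs hb))) else none
  have key : ∀ x ∈ ball (0 : ℂ) r, ∀ᶠ y in 𝓝[ball 0 r] x, F x = F y := by
    intro b hb
    have hbn : ‖b‖ < r := by simpa using hb
    obtain ⟨r', hr'⟩ := sh1_shift h hs hbn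
    have hr0 := hr'.r_pos
    filter_upwards [nhdsWithin_le_nhds (ball_mem_nhds b hr0), self_mem_nhdsWithin] with b' h1 h2
    have hbn' : ‖b'‖ < r := by simpa using h2
    have h3 : ‖b' - b‖ < r' := by simpa [dist_eq_norm] using h1
    simp only [F, dif_pos hbn, dif_pos hbn']
    congr 1
    refine Quot.sound ⟨r', _, hr', ?_, b' - b, h3, ?_, ?_⟩
    · show ((_ : ℂ × ℂ → ℂ) : Z2) = ((_ : ℂ × ℂ → ℂ) : Z2)
      rfl
    · show w + b' + sh T k i j 0 = w + b + sh T k i j 0 + (b' - b)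
      ring
    · show ((_ : ℂ × ℂ → ℂ) : Z2) = ((_ : ℂ × ℂ → ℂ) : Z2)
      congr 1
      funext p
      simp only [Function.comp, ls]
      congr 2
      ring
  have h2 := IsPreconnected.induction₂' (convex_ball (0 : ℂ) r).isPreconnected
    (P := fun x y => F x = F y) (fun x hx => (key x hx).mono fun y hy => ⟨hy, hy.symm⟩)
    (fun x y z _ _ _ h1 h2 => h1.trans h2) (x := b) (y := b') (by simpa using hb) (by simpa using hb')
  simpa [F, hb, hb'] using h2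

lemma cl_sx {i : Fin T.m} {k : ℕ} {j : Fin T.m} (h : Eqv T k i j) {x y : X T i k}
    (hxy : Step T i k x y) : cl T (sx h x) = cl T (sx h y) := by
  obtain ⟨r, ζ, h1, h2, β, hβ, h3, h4⟩ := hxy
  have h0 : ‖(0 : ℂ)‖ < r := by simpa using h1.r_pos
  have e1 : x = ptb h1 h0 := by
    refine Subtype.ext (Prod.ext ?_ ?_)
    · simp [ptb]
    · simp [ptb, h2]
  have e2 : y = ptb h1 hβ := Subtype.ext (Prod.ext h3 h4)
  rw [e1, e2]
  exact cl_ptb_eq h1 h h0 hβ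

/-- the shift of components -/
def sC {k : ℕ} {i j : Fin T.m} (h : Eqv T k i j) : Cmp T i k ≃ Cmp T j k where
  toFun := Quot.lift (fun x => cl T (sx h x)) fun _ _ hxy => cl_sx h hxy
  invFun := Quot.lift (fun x => cl T (sx h.symm x)) fun _ _ hxy => cl_sx h.symm hxy
  left_inv := by
    rintro ⟨x⟩
    show cl T (sx h.symm (sx h x)) = cl T x
    congr 1
    exact (sx h).left_inv x
  right_inv := by
    rintro ⟨x⟩
    show cl T (sx h (sx h.symm x)) = cl T x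
    congr 1
    exact (sx h).right_inv x

@[simp] lemma sC_cl {k : ℕ} {i j : Fin T.m} (h : Eqv T k i j) (x : X T i k) :
    sC h (cl T x) = cl T (sx h x) := rfl

end shift

end Crest.Agent.R257.Rot2_558
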