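import Crest.Agent.R257.Rot2_558
import Crest.Agent.R257.FrmB_547

/-!
Row 257 (S0395), part C, T-frame: canonical labels, the rotation `pi ξ` on the set of all components
(helper558, task C-ROT).

* `Vx T`, `Idx T`  : canonical vertices `(i, k)`, `k ∈ lev i`, `rep i k = i`; components over them;
* `lab hk x`       : the label of a point `x : X T i k` (any `i`);
* `piE hG hξ`      : the permutation of `Idx T`, `piE (lab x) = lab (rx x)`; group law;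
* `att_rot`, `att_sx` : `Att` under rotation and change of the branch index.
-/

set_option autoImplicit false
set_option linter.unusedSectionVars false

open Polynomial Set Filter Topology Metric
open Crest.AlgGeometry.Germ Crest.Agent.R257.AJ387 Crest.Agent.R257.T387
open Crest.Agent.R257.Frm_547 Crest.Agent.R257.Rot1_558 Crest.Agent.R257.Rot2_558

noncomputable section

namespace Crest.Agent.R257.Rot3_558

variable {f : (Fin 3 → ℂ) → ℂ}

/-! ### `Att` -/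

section att

variable {T : TB f}

lemma map_fst_an (c : Ch T.m) (p : ℂ × ℂ) : AnalyticAt ℂ (fun q => (T.map c q).1) p := by
  cases c with
  | edge i k k' => exact analyticAt_fst.mul analyticAt_snd
  | leg i => exact analyticAt_fst
  | vert i k w => exact analyticAt_fst

lemma rq_an (ξ : ℂ) (c : Ch T.m) (p : ℂ × ℂ) : AnalyticAt ℂ (rq T ξ c) p :=
  (analyticAt_const.mul analyticAt_fst).prod (analyticAt_const.mul analyticAt_snd)

lemma rq_tendsto {ξ : ℂ} (hξ : ξ ^ T.N = 1) (c : Ch T.m) (p : ℂ × ℂ) :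
    Tendsto (rq T ξ c) (𝓝 (rp T ξ c p)) (𝓝 p) := by
  have h := (rq_an (T := T) ξ c (rp T ξ c p)).continuousAt.tendsto
  rwa [rq_rp hξ] at h

theorem bm_rot (hG : GalPt T) {ξ : ℂ} (hξ : ξ ^ T.N = 1) {i : Fin T.m} {k : ℕ} {s W : ℂ}
    (hs : ‖s‖ ^ T.M < T.ρ) :
    bm T (sg T ξ i) k (ξ * s, (ξ ^ (T.M * k))⁻¹ * W) = (ξ * s, (bm T i k (s, W)).2) := by
  have hball : s ^ T.M ∈ ball (0 : ℂ) T.ρ := by simpa using hs
  have h0 : ξ ^ (T.M * k) ≠ 0 := pow_ne_zero _ (ne_zero T hξ)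
  simp only [bm]
  rw [mul_pow ξ s T.M, phi_sg hG hξ i hball, mul_pow]
  refine Prod.ext rfl ?_
  show T.φ i (s ^ T.M) + ξ ^ (T.M * k) * s ^ (T.M * k) * ((ξ ^ (T.M * k))⁻¹ * W) = _
  calc _ = T.φ i (s ^ T.M) + (ξ ^ (T.M * k) * (ξ ^ (T.M * k))⁻¹) * (s ^ (T.M * k) * W) := by ring
      _ = _ := by rw [mul_inv_cancel₀ h0, one_mul]

/-- `Att` under the rotation -/
theorem att_rot (hG : GalPt T) {ξ : ℂ} (hξ : ξ ^ T.N = 1) {i : Fin T.m} {k : ℕ} {x : X T i k}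
    {c : Ch T.m} (hc : T.Valid c) {ζ : ℂ × ℂ → ℂ} {p : ℂ × ℂ} (h : Att T i k x (T.map c) ζ p) :
    Att T (sg T ξ i) k (rx hG hξ i k x) (T.map (rc T ξ c)) (fun q => ζ (rq T ξ c q))
      (rp T ξ c p) := by
  obtain ⟨hs0, W, γ, hW, hWp, hγ, hxγ, he⟩ := h
  have hlt : ∀ᶠ q in 𝓝 p, ‖(T.map c q).1‖ ^ T.M < T.ρ := by
    have h1 : ContinuousAt (fun q => ‖(T.map c q).1‖ ^ T.M) p :=
      ((map_fst_an c p).continuousAt.norm).pow _
    refine h1.eventually (gt_mem_nhds ?_)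
    show ‖(T.map c p).1‖ ^ T.M < T.ρ
    rw [hs0, norm_zero, zero_pow T.M_pos.ne']
    exact T.ρ_pos
  have h0 : ‖(T.map c p).1‖ ^ T.M < T.ρ := hlt.self_of_nhds
  refine ⟨?_, fun q => (ξ ^ (T.M * k))⁻¹ * W (rq T ξ c q), γ ∘ lq T ξ k, ?_, ?_, ?_, ?_, ?_⟩
  · rw [map_rot hG hξ hc h0, hs0, mul_zero]
  · refine analyticAt_const.mul ?_
    have h1 : AnalyticAt ℂ W (rq T ξ c (rp T ξ c p)) := by rw [rq_rp hξ]; exact hW
    exact AnalyticAt.comp (g := W) h1 (rq_an ξ c _)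
  · show (ξ ^ (T.M * k))⁻¹ * W (rq T ξ c (rp T ξ c p)) = (ξ ^ (T.M * k))⁻¹ * x.1.1
    rw [rq_rp hξ, hWp]
  · have h1 : AnalyticAt ℂ γ (lq T ξ k 0) := by
      have : lq T ξ k 0 = 0 := by simp [lq]
      rw [this]; exact hγ
    exact AnalyticAt.comp (g := γ) h1 (lq_an ξ k 0)
  · rw [rx_val, rr, hxγ]
    rfl
  · filter_upwards [(rq_tendsto hξ c p).eventually he, (rq_tendsto hξ c p).eventually hlt]
      with q hq hq2
    obtain ⟨e1, e2⟩ := hq
    have h3 := map_rot hG hξ hc hq2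
    rw [rp_rq hξ] at h3
    rw [map_vert_sub] at e1
    refine ⟨?_, ?_⟩
    · rw [rx_val]
      show _ = T.map (.vert (sg T ξ i) k ((ξ ^ (T.M * k))⁻¹ * x.1.1))
        ((T.map (rc T ξ c) q).1, (ξ ^ (T.M * k))⁻¹ * W (rq T ξ c q) - (ξ ^ (T.M * k))⁻¹ * x.1.1)
      rw [map_vert_sub, h3, bm_rot hG hξ hq2, ← e1]
    · rw [e2, h3]
      show γ _ = γ (lq T ξ k _)
      congr 1
      refine Prod.ext ?_ ?_
      · show _ = ξ⁻¹ * (ξ * _)
        rw [inv_mul_cancel_left₀ (ne_zero T hξ)]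
      · show _ = ξ ^ (T.M * k) * ((ξ ^ (T.M * k))⁻¹ * W (rq T ξ c q) - (ξ ^ (T.M * k))⁻¹ * x.1.1)
        rw [← mul_sub, mul_inv_cancel_left₀ (pow_ne_zero _ (ne_zero T hξ))]

/-- `Att` and the change of the branch index -/
theorem att_sx {i j : Fin T.m} {k : ℕ} (h : Eqv T k i j) {x : X T i k} {μ : ℂ × ℂ → ℂ × ℂ}
    {ζ : ℂ × ℂ → ℂ} {p : ℂ × ℂ} (hμ : AnalyticAt ℂ (fun q => (μ q).1) p)
    (hx : Att T i k x μ ζ p) : Att T j k (sx h x) μ ζ p := by
  obtain ⟨hs0, W, γ, hW, hWp, hγ, hxγ, he⟩ := hx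
  have hsD : ∀ᶠ q in 𝓝 p, (μ q).1 ∈ sD T := by
    refine hμ.continuousAt.eventually ((isOpen_sD T).mem_nhds ?_)
    show (μ p).1 ∈ sD T
    rw [hs0]; exact zero_mem_sD T
  refine ⟨hs0, fun q => W q + sh T k i j (μ q).1, γ ∘ ls T k i j, ?_, ?_, ?_, ?_, ?_⟩
  · refine hW.add ?_
    have h1 : AnalyticAt ℂ (sh T k i j) (μ p).1 := by rw [hs0]; exact sh_an T 0 (zero_mem_sD T)
    exact AnalyticAt.comp (g := sh T k i j) (f := fun q => (μ q).1) h1 hμ
  · show W p + sh T k i j (μ p).1 = x.1.1 + sh T k i j 0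
    rw [hWp, hs0]
  · have h1 : AnalyticAt ℂ γ (ls T k i j 0) := by
      have : ls T k i j 0 = 0 := by simp [ls]
      rw [this]; exact hγ
    exact AnalyticAt.comp (g := γ) h1 (ls_an T (p := 0) (zero_mem_sD T))
  · rw [sx_val, ss, hxγ]
    rfl
  · filter_upwards [he, hsD] with q hq hqD
    obtain ⟨e1, e2⟩ := hq
    rw [map_vert_sub] at e1
    refine ⟨?_, ?_⟩
    · show μ q = T.map (.vert j k (x.1.1 + sh T k i j 0))
        ((μ q).1, W q + sh T k i j (μ q).1 - (x.1.1 + sh T k i j 0))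
      rw [map_vert_sub]
      nth_rw 1 [e1]
      simp only [bm]
      rw [φ_sh T h hqD]
      refine Prod.ext rfl ?_
      ring
    · rw [e2]
      show γ _ = γ (ls T k i j ((μ q).1, W q + sh T k i j (μ q).1 - (x.1.1 + sh T k i j 0)))
      congr 1
      refine Prod.ext rfl ?_
      simp only [ls, dl]
      ring

end att

/-! ### canonical labels -/

/-- canonical vertices -/
def Vx (T : TB f) : Type := {v : Fin T.m × ℕ // v.2 ∈ T.lev v.1 ∧ rep T v.1 v.2 = v.1}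

/-- all components -/
def Idx (T : TB f) : Type := Σ v : Vx T, Cmp T v.1.1 v.1.2

instance finite_Vx (T : TB f) : Finite (Vx T) := by
  classical
  let S : Finset (Fin T.m × ℕ) := Finset.univ.biUnion fun i => (T.lev i).image fun k => (i, k)
  have h : ∀ v : Vx T, v.1 ∈ S := fun v =>
    Finset.mem_biUnion.2 ⟨v.1.1, Finset.mem_univ _, Finset.mem_image.2 ⟨v.1.2, v.2.1, rfl⟩⟩
  exact Finite.of_injective (fun v : Vx T => (⟨v.1, h v⟩ : S)) fun v v' h =>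
    Subtype.ext (congrArg (fun z : S => z.1) h)

theorem finite_Idx {T : TB f} (hS : T.SheetsStmt) : Finite (Idx T) := by
  have : ∀ v : Vx T, Finite (Cmp T v.1.1 v.1.2) := fun v => finite_Cmp hS v.2.1
  exact inferInstanceAs (Finite (Σ v : Vx T, Cmp T v.1.1 v.1.2))

variable {T : TB f}

/-- the label over a given canonical index -/
def labl {i l : Fin T.m} {k : ℕ} (hl : k ∈ T.lev l) (hr : rep T l k = l) (h : Eqv T k i l)
    (x : X T i k) : Idx T := ⟨⟨(l, k), hl, hr⟩, cl T (sx h x)⟩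

/-- the label of a point -/
def lab {i : Fin T.m} {k : ℕ} (hk : k ∈ T.lev i) (x : X T i k) : Idx T :=
  labl (rep_lev T hk) (rep_rep T i k) (rep_eqv T i k) x

lemma labl_congr {i l : Fin T.m} {k : ℕ} {hl : k ∈ T.lev l} {hr : rep T l k = l}
    {h : Eqv T k i l} {x : X T i k} {i' l' : Fin T.m} {hl' : k ∈ T.lev l'} {hr' : rep T l' k = l'}
    {h' : Eqv T k i' l'} {x' : X T i' k} (e : l = l') (e' : ss T k i l x.1 = ss T k i' l x'.1) :
    labl hl hr h x = labl hl' hr' h' x' := by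
  subst e
  have h1 : sx h x = sx h' x' := Subtype.ext e'
  unfold labl
  rw [h1]

lemma lab_eq_labl {i l : Fin T.m} {k : ℕ} (hk : k ∈ T.lev i) (hl : k ∈ T.lev l)
    (hr : rep T l k = l) (h : Eqv T k i l) (x : X T i k) : lab hk x = labl hl hr h x := by
  have e : rep T i k = l := by rw [rep_congr T h, hr]
  exact labl_congr e (by rw [e])

lemma lab_sx {i j : Fin T.m} {k : ℕ} (hk : k ∈ T.lev i) (hk' : k ∈ T.lev j) (h : Eqv T k i j)
    (x : X T i k) : lab hk' (sx h x) = lab hk x := by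
  refine labl_congr (rep_congr T h).symm ?_
  rw [sx_val, ss_ss h (rep_eqv T j k)]

lemma lab_step {i : Fin T.m} {k : ℕ} (hk : k ∈ T.lev i) {x y : X T i k} (h : Step T i k x y) :
    lab hk x = lab hk y := by
  unfold lab labl
  rw [cl_sx (rep_eqv T i k) h]

/-- labels depend on the component only -/
lemma lab_cl {i : Fin T.m} {k : ℕ} (hk : k ∈ T.lev i) {x y : X T i k} (h : cl T x = cl T y) :
    lab hk x = lab hk y := by
  have h1 : sC (rep_eqv T i k) (cl T x) = sC (rep_eqv T i k) (cl T y) := by rw [h]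
  rw [sC_cl, sC_cl] at h1
  unfold lab labl
  rw [h1]

/-- a canonical component is the label of its points -/
lemma lab_can (v : Vx T) (x : X T v.1.1 v.1.2) : lab v.2.1 x = ⟨v, cl T x⟩ := by
  rw [lab_eq_labl v.2.1 v.2.1 v.2.2 (Eqv.refl T _ _) x]
  have h1 : sx (Eqv.refl T v.1.2 v.1.1) x = x := Subtype.ext (by rw [sx_val, ss_self])
  unfold labl
  rw [h1]
  rfl

lemma lab_surj (E : Idx T) : ∃ (v : Vx T) (x : X T v.1.1 v.1.2), lab v.2.1 x = E := by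
  obtain ⟨v, F⟩ := E
  obtain ⟨x, rfl⟩ := Quot.exists_rep F
  exact ⟨v, x, lab_can v x⟩

/-! ### the rotation of the labels -/

lemma eqv_sg (hG : GalPt T) {ξ : ℂ} (hξ : ξ ^ T.N = 1) {k : ℕ} {i j : Fin T.m} (h : Eqv T k i j) :
    Eqv T k (sg T ξ i) (sg T ξ j) := by
  rcases h with h | h
  · exact Or.inl (by rw [h])
  · by_cases hij : i = j
    · exact Or.inl (by rw [hij])
    · exact Or.inr (by rw [(del_u_sg hG hξ hij).1]; exact h)

lemma sh_sg (hG : GalPt T) {ξ : ℂ} (hξ : ξ ^ T.N = 1) {k : ℕ} {i j : Fin T.m} (h : Eqv T k i j)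
    {s : ℂ} (hs : s ∈ sD T) :
    sh T k (sg T ξ i) (sg T ξ j) (ξ * s) = (ξ ^ (T.M * k))⁻¹ * sh T k i j s := by
  have h0 : ξ ^ (T.M * k) ≠ 0 := pow_ne_zero _ (ne_zero T hξ)
  have hmem : ∀ s ∈ sD T, ξ * s ∈ sD T := fun s hs => by
    show ‖ξ * s‖ ^ T.M < T.ρ
    rw [norm_mul, norm_one T hξ, one_mul]; exact hs
  have key : ∀ s ∈ sD T, s ≠ 0 →
      sh T k (sg T ξ i) (sg T ξ j) (ξ * s) = (ξ ^ (T.M * k))⁻¹ * sh T k i j s := by
    intro s hs hs0
    have h1 := φ_sh T h hs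
    have h2 := φ_sh T (eqv_sg hG hξ h) (hmem s hs)
    rw [mul_pow ξ s T.M, phi_sg hG hξ i (sD_pow T hs), phi_sg hG hξ j (sD_pow T hs), mul_pow] at h2
    have h3 : s ^ (T.M * k) ≠ 0 := pow_ne_zero _ hs0
    apply mul_left_cancel₀ (mul_ne_zero h0 h3)
    have h4 : ξ ^ (T.M * k) * s ^ (T.M * k) * ((ξ ^ (T.M * k))⁻¹ * sh T k i j s) =
        s ^ (T.M * k) * sh T k i j s := by
      calc _ = (ξ ^ (T.M * k) * (ξ ^ (T.M * k))⁻¹) * (s ^ (T.M * k) * sh T k i j s) := by ring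
        _ = _ := by rw [mul_inv_cancel₀ h0, one_mul]
    rw [h4]
    linear_combination h1 - h2
  by_cases hs0 : s = 0
  · subst hs0
    have c1 : Tendsto (fun s => sh T k (sg T ξ i) (sg T ξ j) (ξ * s)) (𝓝[≠] 0)
        (𝓝 (sh T k (sg T ξ i) (sg T ξ j) (ξ * 0))) := by
      have : ContinuousAt (fun s => sh T k (sg T ξ i) (sg T ξ j) (ξ * s)) 0 :=
        ContinuousAt.comp (g := sh T k (sg T ξ i) (sg T ξ j)) (f := fun s => ξ * s)
          (sh_an T _ (hmem 0 hs)).continuousAt (continuousAt_const.mul continuousAt_id)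
      exact this.tendsto.mono_left nhdsWithin_le_nhds
    have c2 : Tendsto (fun s => (ξ ^ (T.M * k))⁻¹ * sh T k i j s) (𝓝[≠] 0)
        (𝓝 ((ξ ^ (T.M * k))⁻¹ * sh T k i j 0)) :=
      (continuousAt_const.mul (sh_an T 0 hs).continuousAt).tendsto.mono_left nhdsWithin_le_nhds
    refine tendsto_nhds_unique (c1.congr' ?_) c2
    filter_upwards [nhdsWithin_le_nhds ((isOpen_sD T).mem_nhds hs), self_mem_nhdsWithin]
      with s h1 h2
    exact key s h1 h2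
  · exact key s hs hs0

lemma rr_ss (hG : GalPt T) {ξ : ℂ} (hξ : ξ ^ T.N = 1) {k : ℕ} {i j : Fin T.m} (h : Eqv T k i j)
    (x : ℂ × Z2) : rr T ξ k (ss T k i j x) = ss T k (sg T ξ i) (sg T ξ j) (rr T ξ k x) := by
  obtain ⟨w, γ⟩ := x
  induction γ using Germ.inductionOn with | _ ζ => ?_
  rw [ss_coe, rr_coe, rr_coe, ss_coe]
  have hz := zero_mem_sD T
  have e0 : sh T k (sg T ξ i) (sg T ξ j) 0 = (ξ ^ (T.M * k))⁻¹ * sh T k i j 0 := by
    have := sh_sg hG hξ h hz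
    rwa [mul_zero] at this
  refine Prod.ext ?_ ?_
  · show (ξ ^ (T.M * k))⁻¹ * (w + sh T k i j 0) = (ξ ^ (T.M * k))⁻¹ * w + sh T k (sg T ξ i) (sg T ξ j) 0
    rw [e0, mul_add]
  · show ((_ : ℂ × ℂ → ℂ) : Z2) = ((_ : ℂ × ℂ → ℂ) : Z2)
    rw [Germ.coe_eq]
    have h1 : ∀ᶠ p in 𝓝 (0 : ℂ × ℂ), ξ⁻¹ * p.1 ∈ sD T := by
      have h2 : ContinuousAt (fun p : ℂ × ℂ => ξ⁻¹ * p.1) 0 := by fun_prop
      refine h2.eventually ((isOpen_sD T).mem_nhds ?_)
      simpa using hz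
    filter_upwards [h1] with p hp
    simp only [Function.comp, ls, lq, dl]
    congr 2
    have e1 := sh_sg hG hξ h hp
    rw [mul_inv_cancel_left₀ (ne_zero T hξ)] at e1
    have h0 : ξ ^ (T.M * k) ≠ 0 := pow_ne_zero _ (ne_zero T hξ)
    rw [e1, e0]
    have : ξ ^ (T.M * k) * (p.2 - ((ξ ^ (T.M * k))⁻¹ * sh T k i j (ξ⁻¹ * p.1) -
        (ξ ^ (T.M * k))⁻¹ * sh T k i j 0)) = ξ ^ (T.M * k) * p.2 -
        (ξ ^ (T.M * k) * (ξ ^ (T.M * k))⁻¹) * (sh T k i j (ξ⁻¹ * p.1) - sh T k i j 0) := by ring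
    rw [this, mul_inv_cancel₀ h0, one_mul]

lemma lev_sg' (hG : GalPt T) {ξ : ℂ} (hξ : ξ ^ T.N = 1) {i : Fin T.m} {k : ℕ} (hk : k ∈ T.lev i) :
    k ∈ T.lev (sg T ξ i) := by rw [lev_sg hG hξ]; exact hk

/-- the rotation of the labels -/
def piF (hG : GalPt T) {ξ : ℂ} (hξ : ξ ^ T.N = 1) (E : Idx T) : Idx T :=
  Quot.lift (fun x => lab (lev_sg' hG hξ E.1.2.1) (rx hG hξ E.1.1.1 E.1.1.2 x))
    (fun _ _ h => lab_step _ ((step_rx hG hξ _ _).1 h)) E.2

lemma piF_can (hG : GalPt T) {ξ : ℂ} (hξ : ξ ^ T.N = 1) (v : Vx T) (x : X T v.1.1 v.1.2) :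
    piF hG hξ ⟨v, cl T x⟩ = lab (lev_sg' hG hξ v.2.1) (rx hG hξ v.1.1 v.1.2 x) := rfl

theorem piF_lab (hG : GalPt T) {ξ : ℂ} (hξ : ξ ^ T.N = 1) {i : Fin T.m} {k : ℕ} (hk : k ∈ T.lev i)
    (x : X T i k) : piF hG hξ (lab hk x) = lab (lev_sg' hG hξ hk) (rx hG hξ i k x) := by
  have h1 : piF hG hξ (lab hk x) = lab (lev_sg' hG hξ (rep_lev T hk))
      (rx hG hξ (rep T i k) k (sx (rep_eqv T i k) x)) := rfl
  rw [h1]
  have h2 : rx hG hξ (rep T i k) k (sx (rep_eqv T i k) x) =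
      sx (eqv_sg hG hξ (rep_eqv T i k)) (rx hG hξ i k x) := by
    refine Subtype.ext ?_
    rw [rx_val, sx_val, sx_val, rx_val, rr_ss hG hξ (rep_eqv T i k)]
  rw [h2, lab_sx]

lemma lab_congr {i i' : Fin T.m} {k : ℕ} {hk : k ∈ T.lev i} {hk' : k ∈ T.lev i'} {x : X T i k}
    {x' : X T i' k} (e : i = i') (e' : x.1 = x'.1) : lab hk x = lab hk' x' := by
  subst e
  have : x = x' := Subtype.ext e'
  rw [this]

theorem piF_one (hG : GalPt T) (E : Idx T) : piF hG one_root E = E := by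
  obtain ⟨v, x, rfl⟩ := lab_surj E
  rw [piF_lab]
  refine lab_congr (by rw [sg_one hG]; rfl) ?_
  rw [rx_val, rr_one]

theorem piF_mul (hG : GalPt T) {ξ η : ℂ} (hξ : ξ ^ T.N = 1) (hη : η ^ T.N = 1) (E : Idx T) :
    piF hG (mul_root hξ hη) E = piF hG hξ (piF hG hη E) := by
  obtain ⟨v, x, rfl⟩ := lab_surj E
  rw [piF_lab, piF_lab, piF_lab]
  refine lab_congr (by rw [sg_mul hG hξ hη]; rfl) ?_
  rw [rx_val, rx_val, rx_val, rr_mul]

lemma piF_congr (hG : GalPt T) {ξ η : ℂ} (hξ : ξ ^ T.N = 1) (hη : η ^ T.N = 1) (e : ξ = η)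
    (E : Idx T) : piF hG hξ E = piF hG hη E := by
  subst e; rfl

/-- **the permutation of all components** -/
def piE (hG : GalPt T) {ξ : ℂ} (hξ : ξ ^ T.N = 1) : Equiv.Perm (Idx T) where
  toFun := piF hG hξ
  invFun := piF hG (inv_root hξ)
  left_inv E := by
    rw [← piF_mul hG (inv_root hξ) hξ,
      piF_congr hG _ one_root (inv_mul_cancel₀ (ne_zero T hξ)), piF_one]
  right_inv E := by
    rw [← piF_mul hG hξ (inv_root hξ),
      piF_congr hG _ one_root (mul_inv_cancel₀ (ne_zero T hξ)), piF_one]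

theorem piE_lab (hG : GalPt T) {ξ : ℂ} (hξ : ξ ^ T.N = 1) {i : Fin T.m} {k : ℕ} (hk : k ∈ T.lev i)
    (x : X T i k) : piE hG hξ (lab hk x) = lab (lev_sg' hG hξ hk) (rx hG hξ i k x) :=
  piF_lab hG hξ hk x

theorem piE_one (hG : GalPt T) : piE hG one_root = 1 := Equiv.ext fun E => piF_one hG E

theorem piE_mul (hG : GalPt T) {ξ η : ℂ} (hξ : ξ ^ T.N = 1) (hη : η ^ T.N = 1) :
    piE hG (mul_root hξ hη) = piE hG hξ * piE hG hη := Equiv.ext fun E => piF_mul hG hξ hη E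

end Crest.Agent.R257.Rot3_558
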