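import Crest.Agent.R257.Rot3_558

/-!
Row 257 (S0395), part C, T-frame: sheets of equivalent edge charts (helper558, task C-ROT).

* `match_sheets` : two systems of sheets related by an analytic map `χ` are permuted;
* `edge_match`   : the edge charts `(i, k, k')` and `(i₀, k, k')`, `Eqv k' i i₀`;
* `att_comp`     : `Att` and composition.
-/

set_option autoImplicit false
set_option linter.unusedSectionVars false

open Polynomial Set Filter Topology Metric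
open Crest.AlgGeometry.Germ Crest.Agent.R257.AJ387 Crest.Agent.R257.T387
open Crest.Agent.R257.Frm_547 Crest.Agent.R257.Rot1_558 Crest.Agent.R257.Rot2_558
open Crest.Agent.R257.Rot3_558

noncomputable section

namespace Crest.Agent.R257.Rot4_558

variable {f : (Fin 3 → ℂ) → ℂ} {T : TB f}

/-- `Att` and composition -/
theorem att_comp {i : Fin T.m} {k : ℕ} {x : X T i k} {μ μ₀ : ℂ × ℂ → ℂ × ℂ} {ζ ζ₀ : ℂ × ℂ → ℂ}
    {χ : ℂ × ℂ → ℂ × ℂ} {p : ℂ × ℂ} (hχ : AnalyticAt ℂ χ p)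
    (he : ∀ᶠ q in 𝓝 p, μ q = μ₀ (χ q) ∧ ζ q = ζ₀ (χ q)) (h : Att T i k x μ₀ ζ₀ (χ p)) :
    Att T i k x μ ζ p := by
  obtain ⟨hs0, W, γ, hW, hWp, hγ, hxγ, hev⟩ := h
  refine ⟨by rw [he.self_of_nhds.1, hs0], fun q => W (χ q), γ, ?_, hWp, hγ, hxγ, ?_⟩
  · exact AnalyticAt.comp (g := W) hW hχ
  · filter_upwards [he, hχ.continuousAt.eventually hev] with q h1 h2
    rw [h1.1, h1.2]
    exact h2

lemma isPreconnected_BD (r r' : ℝ) : IsPreconnected (BD r r') := by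
  have : BD r r' = ball (0 : ℂ) r ×ˢ ball (0 : ℂ) r' := by
    ext p; simp [BD]
  rw [this]
  exact ((convex_ball _ _).prod (convex_ball _ _)).isPreconnected

/-- two systems of sheets related by an analytic map `χ` are permuted -/
theorem match_sheets {d : ℕ} {r' : ℝ} (hr' : 0 < r') {F : ℂ × ℂ → ℂ[X]} {a b : Fin d → ℂ × ℂ → ℂ}
    (ha : ∀ j, AnalyticOnNhd ℂ (a j) (BD r' r')) (hb : ∀ j, AnalyticOnNhd ℂ (b j) (BD r' r'))
    (ea : ∀ p ∈ BD r' r', F p = ∏ j, (Polynomial.X - C (a j p)))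
    (eb : ∀ p ∈ BD r' r', F p = ∏ j, (Polynomial.X - C (b j p)))
    (hinj : ∃ p ∈ BD r' r', Function.Injective fun j => a j p) :
    ∃ τ : Equiv.Perm (Fin d), ∀ j, ∀ p ∈ BD r' r', a j p = b (τ j) p := by
  classical
  have h0 : (0 : ℂ × ℂ) ∈ BD r' r' := ⟨by simpa using hr', by simpa using hr'⟩
  have h1 : ∀ j, ∃ l, ∀ p ∈ BD r' r', a j p = b l p := by
    intro j
    have h2 : ∀ᶠ p in 𝓝 (0 : ℂ × ℂ), ∏ l, (a j p - b l p) = 0 := by
      filter_upwards [(isOpen_BD r' r').mem_nhds h0] with p hp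
      have h3 : (F p).eval (a j p) = 0 := by
        rw [ea p hp, eval_prod]
        exact Finset.prod_eq_zero (Finset.mem_univ j) (by simp)
      rw [eb p hp, eval_prod] at h3
      simpa using h3
    obtain ⟨l, -, hl⟩ := prod_ev Finset.univ (fun l _ => (ha j 0 h0).sub (hb l 0 h0)) h2
    refine ⟨l, fun p hp => ?_⟩
    have h3 : ∀ᶠ p in 𝓝 (0 : ℂ × ℂ), a j p = b l p := by
      filter_upwards [hl] with p hp using sub_eq_zero.1 hp
    exact (ha j).eqOn_of_preconnected_of_eventuallyEq (hb l) (isPreconnected_BD r' r') h0 h3 hp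
  choose τ hτ using h1
  obtain ⟨p₀, hp₀, hi⟩ := hinj
  have hτi : Function.Injective τ := fun j j' h => hi (by
    show a j p₀ = a j' p₀
    rw [hτ j p₀ hp₀, hτ j' p₀ hp₀, h])
  exact ⟨Equiv.ofBijective τ (Finite.injective_iff_bijective.1 hτi), hτ⟩

/-! ### edges -/

section edge

variable (T)

/-- `1 + α^(M(k'-k)) sh(αβ)` -/
def tht (i i₀ : Fin T.m) (k k' : ℕ) (p : ℂ × ℂ) : ℂ :=
  1 + p.1 ^ (T.M * (k' - k)) * sh T k' i i₀ (p.1 * p.2)

/-- its root -/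
def VV (i i₀ : Fin T.m) (k k' : ℕ) (p : ℂ × ℂ) : ℂ :=
  Complex.exp (Complex.log (tht T i i₀ k k' p) / ((T.M * (k' - k) : ℕ) : ℂ))

/-- the change of coordinates -/
def chi (i i₀ : Fin T.m) (k k' : ℕ) (p : ℂ × ℂ) : ℂ × ℂ :=
  (p.1 * (VV T i i₀ k k' p)⁻¹, p.2 * VV T i i₀ k k' p)

variable {T}

lemma VV_ne (i i₀ : Fin T.m) (k k' : ℕ) (p : ℂ × ℂ) : VV T i i₀ k k' p ≠ 0 := Complex.exp_ne_zero _

lemma VV_pow {i i₀ : Fin T.m} {k k' : ℕ} (hk : k < k') {p : ℂ × ℂ} (h : tht T i i₀ k k' p ≠ 0) :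
    VV T i i₀ k k' p ^ (T.M * (k' - k)) = tht T i i₀ k k' p := by
  have hn : ((T.M * (k' - k) : ℕ) : ℂ) ≠ 0 := by
    have := T.M_pos
    have h1 : 0 < T.M * (k' - k) := Nat.mul_pos this (by omega)
    exact_mod_cast h1.ne'
  rw [VV, ← Complex.exp_nat_mul, mul_div_cancel₀ _ hn, Complex.exp_log h]

lemma VV_zero {i i₀ : Fin T.m} {k k' : ℕ} (hk : k < k') (b : ℂ) : VV T i i₀ k k' (0, b) = 1 := by
  have h1 : 0 < T.M * (k' - k) := Nat.mul_pos T.M_pos (by omega)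
  have h2 : tht T i i₀ k k' (0, b) = 1 := by simp [tht, zero_pow h1.ne']
  rw [VV, h2, Complex.log_one, zero_div, Complex.exp_zero]

lemma chi_left {i i₀ : Fin T.m} {k k' : ℕ} (hk : k < k') (b : ℂ) :
    chi T i i₀ k k' (0, b) = (0, b) := by
  simp [chi, VV_zero hk]

lemma chi_right {i i₀ : Fin T.m} {k k' : ℕ} (a : ℂ) :
    (chi T i i₀ k k' (a, 0)).2 = 0 := by simp [chi]

lemma chi_fst_ne {i i₀ : Fin T.m} {k k' : ℕ} {p : ℂ × ℂ} :
    (chi T i i₀ k k' p).1 ≠ 0 ↔ p.1 ≠ 0 := by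
  simp [chi, VV_ne]

lemma chi_snd_ne {i i₀ : Fin T.m} {k k' : ℕ} {p : ℂ × ℂ} :
    (chi T i i₀ k k' p).2 ≠ 0 ↔ p.2 ≠ 0 := by
  simp [chi, VV_ne]

lemma chi_an {i i₀ : Fin T.m} {k k' : ℕ} {p : ℂ × ℂ} (hp : p.1 * p.2 ∈ sD T)
    (h : tht T i i₀ k k' p ∈ Complex.slitPlane) : AnalyticAt ℂ (chi T i i₀ k k') p := by
  have h1 : AnalyticAt ℂ (fun q : ℂ × ℂ => sh T k' i i₀ (q.1 * q.2)) p := by
    have h2 : AnalyticAt ℂ (fun q : ℂ × ℂ => q.1 * q.2) p := analyticAt_fst.mul analyticAt_snd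
    exact AnalyticAt.comp (g := sh T k' i i₀) (f := fun q : ℂ × ℂ => q.1 * q.2) (sh_an T _ hp) h2
  have h2 : AnalyticAt ℂ (tht T i i₀ k k') p :=
    analyticAt_const.add ((analyticAt_fst.pow _).mul h1)
  have h3 : AnalyticAt ℂ (fun q => Complex.log (tht T i i₀ k k' q)) p := h2.clog h
  have h4 : AnalyticAt ℂ (VV T i i₀ k k') p := by
    have h5 : AnalyticAt ℂ (fun q => Complex.log (tht T i i₀ k k' q) /
        ((T.M * (k' - k) : ℕ) : ℂ)) p := by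
      simp only [div_eq_mul_inv]
      exact h3.mul analyticAt_const
    exact h5.cexp
  exact (analyticAt_fst.mul (h4.inv (VV_ne _ _ _ _ _))).prod (analyticAt_snd.mul h4)

lemma chi_map {i i₀ : Fin T.m} {k k' : ℕ} (hk : k < k') (he : Eqv T k' i i₀) {p : ℂ × ℂ}
    (hp : p.1 * p.2 ∈ sD T) (h : tht T i i₀ k k' p ≠ 0) :
    T.map (.edge i k k') p = T.map (.edge i₀ k k') (chi T i i₀ k k' p) := by
  have hV := VV_ne i i₀ k k' p
  have e1 : (chi T i i₀ k k' p).1 * (chi T i i₀ k k' p).2 = p.1 * p.2 := by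
    simp only [chi]
    field_simp
  have e2 : (chi T i i₀ k k' p).1 ^ (T.M * k) * (chi T i i₀ k k' p).2 ^ (T.M * k') =
      p.1 ^ (T.M * k) * p.2 ^ (T.M * k') * tht T i i₀ k k' p := by
    rw [← VV_pow hk h]
    simp only [chi]
    have e3 : T.M * k' = T.M * k + T.M * (k' - k) := by
      rw [← Nat.mul_add]; congr 1; omega
    have e4 : VV T i i₀ k k' p ^ (T.M * k') = VV T i i₀ k k' p ^ (T.M * k) *
        VV T i i₀ k k' p ^ (T.M * (k' - k)) := by rw [← pow_add, ← e3]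
    rw [mul_pow, mul_pow, e4, inv_pow]
    have e5 : VV T i i₀ k k' p ^ (T.M * k) ≠ 0 := pow_ne_zero _ hV
    field_simp
  simp only [TB.map]
  rw [e1, e2, φ_sh T he hp]
  refine Prod.ext rfl ?_
  simp only [tht]
  have e3 : (p.1 * p.2) ^ (T.M * k') = p.1 ^ (T.M * k) * p.2 ^ (T.M * k') *
      p.1 ^ (T.M * (k' - k)) := by
    have e4 : T.M * k' = T.M * k + T.M * (k' - k) := by
      rw [← Nat.mul_add]; congr 1; omega
    rw [mul_pow]
    nth_rw 1 [e4]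
    rw [pow_add]
    ring
  rw [e3]
  ring

/-- **sheets of equivalent edge charts** -/
theorem edge_match {i i₀ : Fin T.m} {k k' : ℕ} (hk : k < k') (he : Eqv T k' i i₀) {r r₀ : ℝ}
    {ζ ζ₀ : Fin T.d → ℂ × ℂ → ℂ} (h : T.Sheets (.edge i k k') r ζ)
    (h₀ : T.Sheets (.edge i₀ k k') r₀ ζ₀) :
    ∃ r' > 0, r' ≤ r ∧ (∀ p ∈ BD r' r', AnalyticAt ℂ (chi T i i₀ k k') p ∧
      chi T i i₀ k k' p ∈ BD r₀ r₀ ∧
      T.map (.edge i k k') p = T.map (.edge i₀ k k') (chi T i i₀ k k' p)) ∧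
      ∃ τ : Equiv.Perm (Fin T.d), ∀ j, ∀ p ∈ BD r' r', ζ j p = ζ₀ (τ j) (chi T i i₀ k k' p) := by
  have hn : 0 < T.M * (k' - k) := Nat.mul_pos T.M_pos (by omega)
  have h1 : ∀ᶠ p in 𝓝 (0 : ℂ × ℂ), p.1 * p.2 ∈ sD T := by
    have h2 : ContinuousAt (fun p : ℂ × ℂ => p.1 * p.2) 0 := by fun_prop
    refine h2.eventually ((isOpen_sD T).mem_nhds ?_)
    simpa using zero_mem_sD T
  have ht0 : tht T i i₀ k k' 0 = 1 := by simp [tht, zero_pow hn.ne']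
  have h2 : ∀ᶠ p in 𝓝 (0 : ℂ × ℂ), tht T i i₀ k k' p ∈ Complex.slitPlane := by
    have h3 : ContinuousAt (tht T i i₀ k k') 0 := by
      have h4 : AnalyticAt ℂ (fun q : ℂ × ℂ => sh T k' i i₀ (q.1 * q.2)) 0 := by
        have h2 : AnalyticAt ℂ (fun q : ℂ × ℂ => q.1 * q.2) 0 := analyticAt_fst.mul analyticAt_snd
        refine AnalyticAt.comp (g := sh T k' i i₀) (f := fun q : ℂ × ℂ => q.1 * q.2) (sh_an T _ ?_) h2
        simpa using zero_mem_sD T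
      have h5 : AnalyticAt ℂ (tht T i i₀ k k') 0 :=
        analyticAt_const.add ((analyticAt_fst.pow _).mul h4)
      exact h5.continuousAt
    refine h3.eventually (Complex.isOpen_slitPlane.mem_nhds ?_)
    rw [ht0]; exact Complex.one_mem_slitPlane
  have hχ0 : chi T i i₀ k k' 0 = 0 := chi_left hk 0
  have hχa : AnalyticAt ℂ (chi T i i₀ k k') 0 := chi_an (by simpa using zero_mem_sD T)
    (by rw [ht0]; exact Complex.one_mem_slitPlane)
  have h3 : ∀ᶠ p in 𝓝 (0 : ℂ × ℂ), chi T i i₀ k k' p ∈ BD r₀ r₀ := by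
    refine hχa.continuousAt.eventually ?_
    rw [hχ0]
    exact (isOpen_BD r₀ r₀).mem_nhds ⟨by simpa using h₀.r_pos, by simpa using h₀.r_pos⟩
  obtain ⟨r₁, hr₁, hsub⟩ := TB.exists_BD (h1.and (h2.and h3))
  set r' := min r₁ r with hr'
  have hr'0 : 0 < r' := lt_min hr₁ h.r_pos
  have hB1 : ∀ p ∈ BD r' r', p ∈ BD r₁ r₁ := fun p hp => TB.BD_mono (min_le_left _ _) hp
  have hB2 : ∀ p ∈ BD r' r', p ∈ BD r r := fun p hp => TB.BD_mono (min_le_right _ _) hp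
  have hall : ∀ p ∈ BD r' r', AnalyticAt ℂ (chi T i i₀ k k') p ∧ chi T i i₀ k k' p ∈ BD r₀ r₀ ∧
      T.map (.edge i k k') p = T.map (.edge i₀ k k') (chi T i i₀ k k' p) := by
    intro p hp
    have h4 : p.1 * p.2 ∈ sD T ∧ tht T i i₀ k k' p ∈ Complex.slitPlane ∧
      chi T i i₀ k k' p ∈ BD r₀ r₀ := hsub (hB1 p hp)
    exact ⟨chi_an h4.1 h4.2.1, h4.2.2, chi_map hk he h4.1 (Complex.slitPlane_ne_zero h4.2.1)⟩
  refine ⟨r', hr'0, min_le_right _ _, hall, ?_⟩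
  refine match_sheets hr'0 (F := fun p => T.Q (T.map (.edge i k k') p)) (a := ζ)
    (b := fun l p => ζ₀ l (chi T i i₀ k k' p)) (fun j p hp => h.an j p (hB2 p hp))
    (fun l p hp => AnalyticAt.comp (g := ζ₀ l) (h₀.an l _ (hall p hp).2.1) (hall p hp).1)
    (fun p hp => h.split p (hB2 p hp)) (fun p hp => ?_) ?_
  · show T.Q (T.map (.edge i k k') p) = _
    rw [(hall p hp).2.2]
    exact h₀.split _ (hall p hp).2.1
  · have hz : (((r' / 2 : ℝ) : ℂ), ((r' / 2 : ℝ) : ℂ)) ∈ BD r' r' := by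
      have : ‖((r' / 2 : ℝ) : ℂ)‖ < r' := by
        rw [Complex.norm_real, Real.norm_of_nonneg (by linarith)]; linarith
      exact ⟨this, this⟩
    refine ⟨_, hz, h.inj _ (hB2 _ hz) ?_⟩
    have : ((r' / 2 : ℝ) : ℂ) ≠ 0 := by
      exact_mod_cast (by linarith : r' / 2 ≠ 0)
    exact ⟨this, this⟩

/-- `Att` on matched sheets -/
theorem edge_match_att {i i₀ : Fin T.m} {k k' : ℕ} {r' r₀ : ℝ} {ζ ζ₀ : Fin T.d → ℂ × ℂ → ℂ}
    {τ : Equiv.Perm (Fin T.d)}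
    (hall : ∀ p ∈ BD r' r', AnalyticAt ℂ (chi T i i₀ k k') p ∧ chi T i i₀ k k' p ∈ BD r₀ r₀ ∧
      T.map (.edge i k k') p = T.map (.edge i₀ k k') (chi T i i₀ k k' p))
    (hτ : ∀ j, ∀ p ∈ BD r' r', ζ j p = ζ₀ (τ j) (chi T i i₀ k k' p)) {p : ℂ × ℂ}
    (hp : p ∈ BD r' r') {l : Fin T.m} {κ : ℕ} {x : X T l κ} (j : Fin T.d)
    (hx : Att T l κ x (T.map (.edge i₀ k k')) (ζ₀ (τ j)) (chi T i i₀ k k' p)) :
    Att T l κ x (T.map (.edge i k k')) (ζ j) p := by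
  refine att_comp (hall p hp).1 ?_ hx
  filter_upwards [(isOpen_BD r' r').mem_nhds hp] with q hq
  exact ⟨(hall q hq).2.2, hτ j q hq⟩

end edge

end Crest.Agent.R257.Rot4_558
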