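import Crest.Agent.R257.RSA7_844

/-!
# R257 (S0395), part C, task C-RSN (helper980), file 1: holomorphic curves and forms

`HC A c z`    : the curve `c : ℂ → M` is holomorphic at `z`;
`pe A θ c z`  : the coefficient of `c^* θ` at `z`.
-/

set_option autoImplicit false
set_option linter.unusedSectionVars false

open Set Filter Topology Complex MeasureTheory
open scoped ContDiff Matrix ComplexConjugate ComplexOrder

namespace Crest.Agent.R257.Rsn1_980

open Crest.Agent.R273 Crest.Agent.R275 Crest.Agent.R275.Geo Crest.Agent.R275.Core144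
open Crest.Agent.R273.Map_835 Crest.Agent.R257.RSA_844

noncomputable section

variable {M : Type} [TopologicalSpace M] {A : Atl 1 M}

/-- holomorphic curves -/
structure HC (A : Atl 1 M) (c : ℂ → M) (z : ℂ) : Prop where
  cont : ContinuousAt c z
  hol : ∀ j, c z ∈ (A.e j).source → DifferentiableAt ℂ (fun y => A.e j (c y)) z

/-- the coefficient of `c^* θ` -/
def pe (A : Atl 1 M) (θ : A.ι → M → ℂ) (c : ℂ → M) (z : ℂ) : ℂ :=
  θ (ch A (c z)) (c z) * deriv (fun y => (A.e (ch A (c z)) (c y)) 0) z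

variable {c c' : ℂ → M} {z : ℂ} {θ : A.ι → M → ℂ}

theorem HC.congr (h : HC A c z) (he : c' =ᶠ[𝓝 z] c) : HC A c' z where
  cont := h.cont.congr he.symm
  hol j hj := by
    rw [he.eq_of_nhds] at hj
    exact (h.hol j hj).congr_of_eventuallyEq (he.fun_comp (A.e j))

theorem coord_hasDeriv {F : ℂ → Cn 1} (h : DifferentiableAt ℂ F z) :
    HasDerivAt (fun y => F y 0) (deriv F z 0) z := by
  exact (EuclideanSpace.proj (𝕜 := ℂ) (0 : Fin 1)).hasFDerivAt.comp_hasDerivAt z h.hasDerivAt

/-- chain rule for one-dimensional maps -/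
theorem chain1 {F : ℂ → Cn 1} {G : Cn 1 → Cn 1} (hF : DifferentiableAt ℂ F z)
    (hG : DifferentiableAt ℂ G (F z)) :
    deriv (fun y => (G (F y)) 0) z =
      (fderiv ℂ G (F z) (EuclideanSpace.single 0 1)) 0 * deriv (fun y => (F y) 0) z := by
  have h1 : HasDerivAt (fun y => G (F y)) (fderiv ℂ G (F z) (deriv F z)) z :=
    hG.hasFDerivAt.comp_hasDerivAt z hF.hasDerivAt
  have h2 := coord_hasDeriv (h1.differentiableAt)
  rw [h2.deriv, h1.deriv, (coord_hasDeriv hF).deriv]
  conv_lhs => rw [eq_smul_e (deriv F z), map_smul]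
  simp [mul_comm]

theorem HC.deriv_chg (h : HC A c z) {i j : A.ι} (hi : c z ∈ (A.e i).source)
    (hj : c z ∈ (A.e j).source) :
    deriv (fun y => (A.e j (c y)) 0) z = J1 A i j (c z) * deriv (fun y => (A.e i (c y)) 0) z := by
  have h1 := h.hol i hi
  have h2 : DifferentiableAt ℂ (fun w => A.e j ((A.e i).symm w)) (A.e i (c z)) :=
    (ana_trans hi hj).differentiableAt
  have h3 := chain1 (F := fun y => A.e i (c y)) (G := fun w => A.e j ((A.e i).symm w)) h1 h2
  have he : (fun y => (A.e j ((A.e i).symm (A.e i (c y)))) 0) =ᶠ[𝓝 z]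
      fun y => (A.e j (c y)) 0 := by
    filter_upwards [h.cont.eventually ((A.e i).open_source.mem_nhds hi)] with y hy
    rw [(A.e i).left_inv hy]
  rw [← he.deriv_eq, h3]
  rfl

/-- `pe` in any chart -/
theorem pe_eq (hθ : ∀ i j, ∀ x ∈ (A.e i).source ∩ (A.e j).source, θ i x = J1 A i j x * θ j x)
    (h : HC A c z) {j : A.ι} (hj : c z ∈ (A.e j).source) :
    pe A θ c z = θ j (c z) * deriv (fun y => (A.e j (c y)) 0) z := by
  have hi := mem_ch A (c z)
  unfold pe
  rw [h.deriv_chg hi hj, hθ (ch A (c z)) j (c z) ⟨hi, hj⟩]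
  ring

theorem pe_congr (he : c' =ᶠ[𝓝 z] c) : pe A θ c' z = pe A θ c z := by
  unfold pe
  rw [he.eq_of_nhds]
  congr 1
  refine Filter.EventuallyEq.deriv_eq ?_
  filter_upwards [he] with y hy
  rw [hy]

theorem HC.comp {φ : ℂ → ℂ} (h : HC A c (φ z)) (hφ : DifferentiableAt ℂ φ z) :
    HC A (fun y => c (φ y)) z where
  cont := ContinuousAt.comp (f := φ) (g := c) h.cont hφ.continuousAt
  hol j hj := DifferentiableAt.comp z (f := φ) (g := fun y => A.e j (c y)) (h.hol j hj) hφ

theorem pe_comp {φ : ℂ → ℂ} (h : HC A c (φ z)) (hφ : DifferentiableAt ℂ φ z) :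
    pe A θ (fun y => c (φ y)) z = pe A θ c (φ z) * deriv φ z := by
  unfold pe
  have h1 := (coord_hasDeriv (h.hol _ (mem_ch A (c (φ z))))).comp z hφ.hasDerivAt
  have h2 := h1.deriv
  simp only [Function.comp_def] at h2
  rw [h2, (coord_hasDeriv (h.hol _ (mem_ch A (c (φ z))))).deriv, mul_assoc]

theorem HC.map {p : M → M} (hp : HolMap A A p) (h : HC A c z) : HC A (fun y => p (c y)) z where
  cont := hp.cont.continuousAt.comp h.cont
  hol j hj := by
    obtain ⟨i, hi⟩ := A.cover (c z)
    have h1 := h.hol i hi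
    have h2 := hp.diffAt (mem_dm hi hj)
    have h3 := DifferentiableAt.comp z (f := fun y => A.e i (c y)) (g := rd A A p i j) h2 h1
    refine h3.congr_of_eventuallyEq ?_
    filter_upwards [h.cont.eventually ((A.e i).open_source.mem_nhds hi)] with y hy
    simp only [Map_835.rd, Function.comp_apply]
    rw [(A.e i).left_inv hy]

variable {Γ : Type} [Group Γ] [MulAction Γ M]

theorem pe_inv (hΓ : HolAct A Γ) (hθ : H10 A θ) (hinv : InvH A Γ θ) (h : HC A c z) (γ : Γ) :
    pe A θ (fun y => γ • c y) z = pe A θ c z := by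
  obtain ⟨i, hi⟩ := A.cover (c z)
  obtain ⟨j, hj⟩ := A.cover (γ • c z)
  rw [pe_eq hθ.tr (h.map (hΓ γ)) hj, pe_eq hθ.tr h hi, hinv γ i j (c z) hi hj]
  have h1 := h.hol i hi
  have h2 := (hΓ γ).diffAt (mem_dm hi hj)
  have h3 := chain1 (F := fun y => A.e i (c y)) (G := rd A A (fun y => γ • y) i j) h1 h2
  have he : (fun y => (rd A A (fun y => γ • y) i j (A.e i (c y))) 0) =ᶠ[𝓝 z]
      fun y => (A.e j (γ • c y)) 0 := by
    filter_upwards [h.cont.eventually ((A.e i).open_source.mem_nhds hi)] with y hy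
    simp only [Map_835.rd]
    rw [(A.e i).left_inv hy]
  rw [← he.deriv_eq, h3]
  simp only [Jp, Matrix.of_apply]
  ring

/-- `pe` is holomorphic along holomorphic curves -/
theorem pe_an (hθ : H10 A θ) (h : ∀ᶠ y in 𝓝 z, HC A c y) : AnalyticAt ℂ (pe A θ c) z := by
  obtain ⟨j, hj⟩ := A.cover (c z)
  have hz := h.self_of_nhds
  have hsrc : ∀ᶠ y in 𝓝 z, c y ∈ (A.e j).source :=
    hz.cont.eventually ((A.e j).open_source.mem_nhds hj)
  have he : (fun y => θ j (c y) * deriv (fun u => (A.e j (c u)) 0) y) =ᶠ[𝓝 z] pe A θ c := by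
    filter_upwards [h, hsrc] with y h1 h2
    exact (pe_eq hθ.tr h1 h2).symm
  refine AnalyticAt.congr ?_ he
  have hF : AnalyticAt ℂ (fun u => (A.e j (c u)) 0) z := by
    rw [Complex.analyticAt_iff_eventually_differentiableAt]
    filter_upwards [h, hsrc] with y h1 h2
    exact (coord_hasDeriv (h1.hol j h2)).differentiableAt
  refine AnalyticAt.mul ?_ hF.deriv
  rw [Complex.analyticAt_iff_eventually_differentiableAt]
  filter_upwards [h, hsrc] with y h1 h2
  have h3 := (hθ.hol j).diffAt isOpen_univ h2 (mem_univ _)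
  have h4 := DifferentiableAt.comp y (f := fun u => A.e j (c u))
    (g := fun w => θ j ((A.e j).symm w)) h3 (h1.hol j h2)
  refine h4.congr_of_eventuallyEq ?_
  filter_upwards [h1.cont.eventually ((A.e j).open_source.mem_nhds h2)] with u hu
  simp only [Function.comp_apply]
  rw [(A.e j).left_inv hu]

end

end Crest.Agent.R257.Rsn1_980
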