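import Crest.Agent.R273.Piola_5

/-!
# R257 (S0395), leaf LCX-RT (helper838), part A: the dbar-divergence identity for `G^*Ψ`

For `G, g` holomorphic near the closure of the bounded open set `B`, `m = (∂_a G_b)` and
`Ψ : Fin n → Cn n → ℂ` of class `C^1`, such that `Ψ_b (G z) = 0` off a compact subset of `B`:
`∫_B (∑_b (∂̄_b Ψ_b) (G z)) * conj (det m z) * g z = 0`.
-/

set_option autoImplicit false
set_option linter.unusedSectionVars false

open Set Filter Topology Complex MeasureTheory
open scoped ContDiff Matrix ComplexConjugate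

namespace Crest.Agent.R257.RtA_838

open Crest.Agent.R275.Geo Crest.Agent.R275.EDR890

noncomputable section

variable {n : ℕ}

theorem int_fderiv {F : Cn n → ℂ} (hF : ContDiff ℝ 1 F) (hc : HasCompactSupport F) (v : Cn n) :
    ∫ z, fderiv ℝ F z v = 0 := by
  have hd : Differentiable ℝ F := hF.differentiable (by norm_num)
  have h1 : Continuous fun z => fderiv ℝ F z v :=
    (hF.continuous_fderiv (by norm_num)).clm_apply continuous_const
  have h2 : HasCompactSupport fun z => fderiv ℝ F z v := by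
    refine (hc.fderiv ℝ).mono ?_
    intro z hz
    rw [Function.mem_support] at hz ⊢
    intro h0
    exact hz (by rw [h0]; rfl)
  have h := integral_bilinear_hasLineDerivAt_right_eq_neg_left_of_integrable (μ := volume)
    (f := fun _ : Cn n => (1 : ℂ)) (f' := fun _ => (0 : ℂ)) (g := F) (g' := fun z => fderiv ℝ F z v)
    (v := v) (B := ContinuousLinearMap.mul ℝ ℂ)
    (by simp)
    (by simpa using h1.integrable_of_hasCompactSupport h2)
    (by simpa using hF.continuous.integrable_of_hasCompactSupport hc)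
    (fun x _ => by simpa using (hasFDerivAt_const (𝕜 := ℝ) (1 : ℂ) x).hasLineDerivAt v)
    (fun x _ => (hd x).hasFDerivAt.hasLineDerivAt v)
  simpa using h

theorem int_dbj {F : Cn n → ℂ} (hF : ContDiff ℝ 1 F) (hc : HasCompactSupport F) (a : Fin n) :
    Integrable (fun z => wd (true, a) F z) ∧ ∫ z, wd (true, a) F z = 0 := by
  have h1 : ∀ v, Continuous fun z => fderiv ℝ F z v := fun v =>
    (hF.continuous_fderiv (by norm_num)).clm_apply continuous_const
  have h2 : ∀ v, HasCompactSupport fun z => fderiv ℝ F z v := by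
    intro v
    refine (hc.fderiv ℝ).mono ?_
    intro z hz
    rw [Function.mem_support] at hz ⊢
    intro h0
    exact hz (by rw [h0]; rfl)
  have h3 : ∀ v, Integrable fun z => fderiv ℝ F z v := fun v =>
    (h1 v).integrable_of_hasCompactSupport (h2 v)
  unfold wd wdL
  simp only [smul_eq_mul]
  refine ⟨(((h3 _).add ((h3 _).const_mul _)).const_mul _), ?_⟩
  rw [integral_const_mul, integral_add (h3 _) ((h3 _).const_mul _), integral_const_mul,
    int_fderiv hF hc, int_fderiv hF hc]
  simp

/-- Jacobian matrix: `jm G z a b = ∂_a G_b` -/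
def jm (G : Cn n → Cn n) (z : Cn n) : Matrix (Fin n) (Fin n) ℂ :=
  Matrix.of fun a b => (fderiv ℂ G z (EuclideanSpace.single a 1)) b

theorem jm_apply (G : Cn n → Cn n) (z : Cn n) (a b : Fin n) :
    jm G z a b = (fderiv ℂ G z (EuclideanSpace.single a 1)) b := rfl

theorem wd_hol {f : Cn n → ℂ} {z : Cn n} (hf : DifferentiableAt ℂ f z) (a : Fin n) :
    wd (false, a) f z = fderiv ℂ f z (EuclideanSpace.single a 1) := by
  have h1 : fderiv ℝ f z = (fderiv ℂ f z).restrictScalars ℝ :=
    (hf.hasFDerivAt.restrictScalars ℝ).fderiv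
  have hI : (EuclideanSpace.single a I : Cn n) = I • EuclideanSpace.single a (1 : ℂ) := by
    ext c
    simp [PiLp.single_apply]
  rw [wd, h1, wdL]
  simp only [ContinuousLinearMap.coe_restrictScalars', cI_false, hI, map_smul, smul_eq_mul]
  have := Complex.I_mul_I
  linear_combination (-(1 / 2 : ℂ) * fderiv ℂ f z (EuclideanSpace.single a 1)) * this

theorem wd_hol_true {f : Cn n → ℂ} {z : Cn n} (hf : DifferentiableAt ℂ f z) (a : Fin n) :
    wd (true, a) f z = 0 := by
  have h1 : fderiv ℝ f z = (fderiv ℂ f z).restrictScalars ℝ :=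
    (hf.hasFDerivAt.restrictScalars ℝ).fderiv
  have hI : (EuclideanSpace.single a I : Cn n) = I • EuclideanSpace.single a (1 : ℂ) := by
    ext c
    simp [PiLp.single_apply]
  rw [wd, h1, wdL]
  simp only [ContinuousLinearMap.coe_restrictScalars', cI_true, hI, map_smul, smul_eq_mul]
  have := Complex.I_mul_I
  linear_combination ((1 / 2 : ℂ) * fderiv ℂ f z (EuclideanSpace.single a 1)) * this

theorem wd_conj {f : Cn n → ℂ} {z : Cn n} (_hf : DifferentiableAt ℝ f z) (a : Fin n) :
    wd (true, a) (fun w => conj (f w)) z = conj (wd (false, a) f z) := by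
  have h : fderiv ℝ (fun w => Complex.conjCLE (f w)) z =
      (Complex.conjCLE : ℂ →L[ℝ] ℂ).comp (fderiv ℝ f z) := Complex.conjCLE.comp_fderiv
  have h2 : (fun w => conj (f w)) = fun w => Complex.conjCLE (f w) := rfl
  unfold wd wdL
  rw [h2, h]
  simp only [smul_eq_mul, ContinuousLinearMap.comp_apply, cI_true, cI_false, map_mul, map_add,
    map_neg, conj_I, map_div₀, map_one, map_ofNat, neg_neg]
  rfl

variable {U : Set (Cn n)} {G : Cn n → Cn n}

theorem an_jm (hG : AnalyticOnNhd ℂ G U) (a b : Fin n) : AnalyticOnNhd ℂ (fun z => jm G z a b) U := by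
  intro z hz
  have h1 : AnalyticAt ℂ (fderiv ℂ G) z := (hG z hz).fderiv
  have h2 : AnalyticAt ℂ (fun z => fderiv ℂ G z (EuclideanSpace.single a 1)) z :=
    (ContinuousLinearMap.analyticAt
      (ContinuousLinearMap.apply ℂ (Cn n) (EuclideanSpace.single a (1 : ℂ) : Cn n)) _).comp h1
  exact (ContinuousLinearMap.analyticAt (EuclideanSpace.proj b : Cn n →L[ℂ] ℂ) _).comp h2

theorem jm_symm (hG : AnalyticOnNhd ℂ G U) {z : Cn n} (hz : z ∈ U) (a b c : Fin n) :
    wd (false, c) (fun w => jm G w a b) z = wd (false, a) (fun w => jm G w c b) z := by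
  have h0 : AnalyticAt ℂ (fderiv ℂ G) z := (hG z hz).fderiv
  have h1 : ∀ a b c : Fin n, wd (false, c) (fun w => jm G w a b) z =
      (fderiv ℂ (fderiv ℂ G) z (EuclideanSpace.single c 1) (EuclideanSpace.single a 1)) b := by
    intro a b c
    rw [wd_hol (an_jm hG a b z hz).differentiableAt]
    have h2 : HasFDerivAt (fun w => fderiv ℂ G w (EuclideanSpace.single a (1 : ℂ)))
        ((ContinuousLinearMap.apply ℂ (Cn n) (EuclideanSpace.single a (1 : ℂ) : Cn n)).comp
          (fderiv ℂ (fderiv ℂ G) z)) z :=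
      (ContinuousLinearMap.hasFDerivAt
        (ContinuousLinearMap.apply ℂ (Cn n) (EuclideanSpace.single a (1 : ℂ) : Cn n))).comp z
        h0.differentiableAt.hasFDerivAt
    have h3 : HasFDerivAt (fun w => jm G w a b)
        ((EuclideanSpace.proj b : Cn n →L[ℂ] ℂ).comp
        ((ContinuousLinearMap.apply ℂ (Cn n) (EuclideanSpace.single a (1 : ℂ) : Cn n)).comp
          (fderiv ℂ (fderiv ℂ G) z))) z :=
      (ContinuousLinearMap.hasFDerivAt (EuclideanSpace.proj b : Cn n →L[ℂ] ℂ)).comp z h2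
    rw [h3.fderiv]
    rfl
  have hs : IsSymmSndFDerivAt ℂ G z := (hG z hz).contDiffAt.isSymmSndFDerivAt (n := 2) (by simp)
  rw [h1, h1, hs.eq]

theorem piola' (hG : AnalyticOnNhd ℂ G U) {z : Cn n} (hz : z ∈ U) (b : Fin n) :
    ∑ a, wd (false, a) (fun w => (jm G w).adjugate b a) z = 0 :=
  Crest.Agent.R273.Piola_5.piola
    (fun i j => (an_jm hG i j z hz).differentiableAt.restrictScalars ℝ)
    (fun a b c => jm_symm hG hz a b c) b

theorem an_det {m : Cn n → Matrix (Fin n) (Fin n) ℂ}
    (hm : ∀ a b, AnalyticOnNhd ℂ (fun z => m z a b) U) : AnalyticOnNhd ℂ (fun z => (m z).det) U := by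
  simp_rw [Matrix.det_apply']
  intro z hz
  refine Finset.analyticAt_fun_sum _ fun σ _ => ?_
  exact analyticAt_const.mul (Finset.analyticAt_fun_prod _ fun i _ => hm (σ i) i z hz)

theorem an_adj (hG : AnalyticOnNhd ℂ G U) (a b : Fin n) :
    AnalyticOnNhd ℂ (fun z => (jm G z).adjugate a b) U := by
  simp_rw [Matrix.adjugate_apply]
  refine an_det fun c d => ?_
  by_cases h : c = b
  · subst h
    simp only [Matrix.updateRow_self]
    exact fun z _ => analyticAt_const
  · simp only [Matrix.updateRow_ne h]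
    exact an_jm hG c d

/-- the `(0,1)` vector field -/
def Ph (G : Cn n → Cn n) (g : Cn n → ℂ) (Ψ : Fin n → Cn n → ℂ) (a : Fin n) (z : Cn n) : ℂ :=
  ∑ b, Ψ b (G z) * (conj ((jm G z).adjugate b a) * g z)

theorem dbar_Ph {g : Cn n → ℂ} {Ψ : Fin n → Cn n → ℂ} (hG : AnalyticOnNhd ℂ G U)
    (hg : AnalyticOnNhd ℂ g U) (hΨ : ∀ b, ContDiff ℝ 1 (Ψ b)) {z : Cn n} (hz : z ∈ U) :
    ∑ a, wd (true, a) (Ph G g Ψ a) z =
      (∑ b, wd (true, b) (Ψ b) (G z)) * (conj (jm G z).det * g z) := by
  have hGd : DifferentiableAt ℂ G z := (hG z hz).differentiableAt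
  have hgd : DifferentiableAt ℂ g z := (hg z hz).differentiableAt
  have hA : ∀ b a, DifferentiableAt ℂ (fun w => (jm G w).adjugate b a) z := fun b a =>
    (an_adj hG b a z hz).differentiableAt
  have hAc : ∀ b a, DifferentiableAt ℝ (fun w => conj ((jm G w).adjugate b a)) z := fun b a =>
    (Complex.conjCLE.differentiableAt).comp z ((hA b a).restrictScalars ℝ)
  have hΨd : ∀ b w, DifferentiableAt ℝ (Ψ b) w := fun b w => (hΨ b).differentiable (by norm_num) w
  have hΨG : ∀ b, DifferentiableAt ℝ (fun w => Ψ b (G w)) z := fun b =>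
    (hΨd b (G z)).comp z (hGd.restrictScalars ℝ)
  have h1 : ∀ a, wd (true, a) (Ph G g Ψ a) z =
      ∑ b, ((∑ c, conj (jm G z a c) * wd (true, c) (Ψ b) (G z)) *
          (conj ((jm G z).adjugate b a) * g z) +
        Ψ b (G z) * (conj (wd (false, a) (fun w => (jm G w).adjugate b a) z) * g z)) := by
    intro a
    have hAg : ∀ b, DifferentiableAt ℝ (fun w => conj ((jm G w).adjugate b a) * g w) z := fun b =>
      (hAc b a).mul (hgd.restrictScalars ℝ)
    have hs : wd (true, a) (Ph G g Ψ a) z =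
        ∑ b, wd (true, a) (fun w => Ψ b (G w) * (conj ((jm G w).adjugate b a) * g w)) z :=
      wd_sum Finset.univ (f := fun b w => Ψ b (G w) * (conj ((jm G w).adjugate b a) * g w))
        (fun b _ => (hΨG b).mul (hAg b)) (true, a)
    rw [hs]
    refine Finset.sum_congr rfl fun b _ => ?_
    have e1 : wd (true, a) (fun w => conj ((jm G w).adjugate b a) * g w) z =
        conj (wd (false, a) (fun w => (jm G w).adjugate b a) z) * g z := by
      rw [wd_mul (f := fun w => conj ((jm G w).adjugate b a)) (hAc b a) (hgd.restrictScalars ℝ),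
        wd_conj ((hA b a).restrictScalars ℝ), wd_hol_true hgd, mul_zero, add_zero]
    rw [wd_mul (f := fun w => Ψ b (G w)) (hΨG b) (hAg b), e1, wd_comp (hΨd b (G z)) hGd]
    rfl
  simp_rw [h1, Finset.sum_add_distrib]
  have h2 : ∑ a, ∑ b, Ψ b (G z) * (conj (wd (false, a) (fun w => (jm G w).adjugate b a) z) * g z)
      = 0 := by
    rw [Finset.sum_comm]
    refine Finset.sum_eq_zero fun b _ => ?_
    rw [← Finset.mul_sum, ← Finset.sum_mul, ← map_sum, piola' hG hz b]
    simp
  rw [h2, add_zero, Finset.sum_comm, Finset.sum_mul]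
  refine Finset.sum_congr rfl fun b _ => ?_
  have h3 : ∀ c, ∑ a, conj (jm G z a c) * conj ((jm G z).adjugate b a) =
      if b = c then conj (jm G z).det else 0 := by
    intro c
    have h4 : ((jm G z).adjugate * jm G z) b c = ((jm G z).det • (1 : Matrix (Fin n) (Fin n) ℂ)) b c := by
      rw [Matrix.adjugate_mul]
    rw [Matrix.mul_apply] at h4
    simp_rw [← map_mul, ← map_sum]
    simp_rw [mul_comm (jm G z _ c)]
    rw [h4]
    simp only [Matrix.smul_apply, Matrix.one_apply, smul_eq_mul]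
    split_ifs <;> simp
  calc ∑ a, (∑ c, conj (jm G z a c) * wd (true, c) (Ψ b) (G z)) *
          (conj ((jm G z).adjugate b a) * g z)
      = ∑ c, (∑ a, conj (jm G z a c) * conj ((jm G z).adjugate b a)) *
          (wd (true, c) (Ψ b) (G z) * g z) := by
        simp_rw [Finset.sum_mul]
        rw [Finset.sum_comm]
        refine Finset.sum_congr rfl fun c _ => Finset.sum_congr rfl fun a _ => ?_
        ring
    _ = _ := by
        simp_rw [h3]
        simp only [ite_mul, zero_mul, Finset.sum_ite_eq, Finset.mem_univ, if_true]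
        ring

/-- **divergence identity** -/
theorem int_zero {g : Cn n → ℂ} {Ψ : Fin n → Cn n → ℂ} {B K : Set (Cn n)} (hB : IsOpen B)
    (hBU : B ⊆ U) (hG : AnalyticOnNhd ℂ G U) (hg : AnalyticOnNhd ℂ g U)
    (hΨ : ∀ b, ContDiff ℝ 1 (Ψ b)) (hK : IsCompact K) (hKB : K ⊆ B)
    (h0 : ∀ z ∈ B, z ∉ K → ∀ b, Ψ b (G z) = 0) :
    ∫ z in B, (∑ b, wd (true, b) (Ψ b) (G z)) * (conj (jm G z).det * g z) = 0 := by
  classical
  set Φ : Fin n → Cn n → ℂ := fun a => B.indicator (Ph G g Ψ a) with hΦ
  have hin : ∀ a, ∀ z ∈ B, Φ a =ᶠ[𝓝 z] Ph G g Ψ a := by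
    intro a z hz
    filter_upwards [hB.mem_nhds hz] with w hw
    exact indicator_of_mem hw _
  have hPh0 : ∀ a, ∀ z ∈ B, z ∉ K → Ph G g Ψ a z = 0 := by
    intro a z hz hzK
    exact Finset.sum_eq_zero fun b _ => by rw [h0 z hz hzK b, zero_mul]
  have hout : ∀ a, ∀ z, z ∉ K → Φ a =ᶠ[𝓝 z] fun _ => 0 := by
    intro a z hz
    filter_upwards [hK.isClosed.isOpen_compl.mem_nhds hz] with w hw
    by_cases hwB : w ∈ B
    · rw [hΦ]
      simp only
      rw [indicator_of_mem hwB]
      exact hPh0 a w hwB hw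
    · exact indicator_of_notMem hwB _
  have hsm : ∀ a, ContDiff ℝ 1 (Φ a) := by
    intro a
    rw [contDiff_iff_contDiffAt]
    intro z
    by_cases hz : z ∈ K
    · have hzB := hKB hz
      have hzU := hBU hzB
      refine ContDiffAt.congr_of_eventuallyEq ?_ (hin a z hzB)
      have hGr : ContDiffAt ℝ 1 G z := ((hG z hzU).contDiffAt (n := 1)).restrict_scalars ℝ
      have hgr : ContDiffAt ℝ 1 g z := ((hg z hzU).contDiffAt (n := 1)).restrict_scalars ℝ
      unfold Ph
      refine ContDiffAt.sum fun b _ => ?_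
      refine ContDiffAt.mul ((hΨ b).contDiffAt.comp z hGr) (ContDiffAt.mul ?_ hgr)
      exact Complex.conjCLE.contDiff.contDiffAt.comp z
        (((an_adj hG b a z hzU).contDiffAt (n := 1)).restrict_scalars ℝ)
    · exact contDiffAt_const.congr_of_eventuallyEq (hout a z hz)
  have hcs : ∀ a, HasCompactSupport (Φ a) := by
    intro a
    refine HasCompactSupport.intro hK fun z hz => ?_
    exact (hout a z hz).eq_of_nhds
  have hpt : ∀ z, ∑ a, wd (true, a) (Φ a) z =
      B.indicator (fun z => (∑ b, wd (true, b) (Ψ b) (G z)) * (conj (jm G z).det * g z)) z := by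
    intro z
    by_cases hz : z ∈ B
    · rw [indicator_of_mem hz, ← dbar_Ph hG hg hΨ (hBU hz)]
      exact Finset.sum_congr rfl fun a _ => wd_congr (hin a z hz) _
    · rw [indicator_of_notMem hz]
      refine Finset.sum_eq_zero fun a _ => ?_
      have hzK : z ∉ K := fun h => hz (hKB h)
      rw [wd_congr (hout a z hzK)]
      exact wd_const _ _ _
  rw [← integral_indicator hB.measurableSet]
  simp_rw [← hpt]
  rw [integral_finsetSum _ fun a _ => (int_dbj (hsm a) (hcs a) a).1]
  exact Finset.sum_eq_zero fun a _ => (int_dbj (hsm a) (hcs a) a).2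

end

end Crest.Agent.R257.RtA_838
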