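import Crest.Agent.R257.RtA_838

/-!
# R257 (S0395), leaf LCX-RT (helper838), part B: mollified traces do not depend on the radius
-/

set_option autoImplicit false
set_option linter.unusedSectionVars false

open Set Filter Topology Complex MeasureTheory
open scoped ContDiff Matrix ComplexConjugate

namespace Crest.Agent.R257.RtB_838

open Crest.Agent.R275.Geo Crest.Agent.R275.EDR890 RtA_838

noncomputable section

variable {n : ℕ}

/-- the profile -/
def P (u : ℝ) : ℝ := Real.smoothTransition (2 - 2 * u)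

theorem P_smooth : ContDiff ℝ ∞ P :=
  Real.smoothTransition.contDiff.comp (contDiff_const.sub (contDiff_const.mul contDiff_id))

theorem P_nonneg (u : ℝ) : 0 ≤ P u := Real.smoothTransition.nonneg _

theorem P_le_one (u : ℝ) : P u ≤ 1 := Real.smoothTransition.le_one _

theorem P_zero {u : ℝ} (h : 1 ≤ u) : P u = 0 := Real.smoothTransition.zero_of_nonpos (by linarith)

theorem P_one {u : ℝ} (h : u ≤ 1 / 2) : P u = 1 := Real.smoothTransition.one_of_one_le (by linarith)

theorem P_cont : Continuous P := P_smooth.continuous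

theorem P_diff : Differentiable ℝ P := P_smooth.differentiable (by simp)

theorem derivP_cont : Continuous (deriv P) := P_smooth.continuous_deriv (by simp)

theorem derivP_zero {u : ℝ} (h : 1 < u) : deriv P u = 0 := by
  have : P =ᶠ[𝓝 u] fun _ => 0 := by
    filter_upwards [lt_mem_nhds h] with v hv
    exact P_zero hv.le
  rw [this.deriv_eq]
  simp

theorem exists_C1 : ∃ C : ℝ, 0 ≤ C ∧ ∀ v, 0 ≤ v → |v * deriv P v| ≤ C := by
  obtain ⟨C, hC⟩ := (isCompact_Icc (a := (0 : ℝ)) (b := 1)).exists_bound_of_continuousOn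
    (f := fun v => v * deriv P v) (continuous_id.mul derivP_cont).continuousOn
  refine ⟨max C 0, le_max_right _ _, fun v hv => ?_⟩
  by_cases h : v ≤ 1
  · exact (hC v ⟨hv, h⟩).trans (le_max_left _ _)
  · rw [derivP_zero (not_le.1 h), mul_zero, abs_zero]
    exact le_max_right _ _

/-- the mollifier of radius `s` -/
def rho (n : ℕ) (s : ℝ) (y : Cn n) : ℝ := P (‖y‖ ^ 2 / s ^ 2) * (s ^ (2 * n))⁻¹

/-- the test functions -/
def Psi (s : ℝ) (b : Fin n) (y : Cn n) : ℂ := conj (y b) * (P (‖y‖ ^ 2 / s ^ 2) : ℝ)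

theorem rho_zero {s : ℝ} (hs : 0 < s) {y : Cn n} (h : s ≤ ‖y‖) : rho n s y = 0 := by
  unfold rho
  rw [P_zero, zero_mul]
  rw [one_le_div (by positivity)]
  exact pow_le_pow_left₀ hs.le h 2

theorem Psi_zero {s : ℝ} (hs : 0 < s) {y : Cn n} (h : s ≤ ‖y‖) (b : Fin n) : Psi s b y = 0 := by
  unfold Psi
  rw [P_zero]
  · simp
  rw [one_le_div (by positivity)]
  exact pow_le_pow_left₀ hs.le h 2

theorem nsq_smooth : ContDiff ℝ ∞ fun y : Cn n => ‖y‖ ^ 2 := contDiff_norm_sq ℝ

theorem Psi_smooth (s : ℝ) (b : Fin n) : ContDiff ℝ 1 (Psi (n := n) s b) := by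
  unfold Psi
  have h1 : ContDiff ℝ ∞ fun y : Cn n => P (‖y‖ ^ 2 / s ^ 2) :=
    P_smooth.comp (nsq_smooth.div_const _)
  have h2 : ContDiff ℝ ∞ fun y : Cn n => conj (y b) :=
    Complex.conjCLE.contDiff.comp
      ((EuclideanSpace.proj b : Cn n →L[ℂ] ℂ).restrictScalars ℝ).contDiff
  exact (h2.mul (Complex.ofRealCLM.contDiff.comp h1)).of_le (by simp)

theorem rho_cont (s : ℝ) : Continuous (rho n s) :=
  (P_cont.comp ((continuous_norm.pow 2).div_const _)).mul_const _

theorem rho_nonneg {s : ℝ} (y : Cn n) : 0 ≤ rho n s y := by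
  unfold rho
  exact mul_nonneg (P_nonneg _) (by rw [pow_mul]; positivity)

theorem wd_nsq (b : Fin n) (y : Cn n) (k : ℝ → ℝ) (hk : Differentiable ℝ k) :
    wd (true, b) (fun y : Cn n => ((k (‖y‖ ^ 2) : ℝ) : ℂ)) y = y b * (deriv k (‖y‖ ^ 2) : ℝ) := by
  have h1 : HasFDerivAt (fun y : Cn n => ‖y‖ ^ 2) (2 • (innerSL ℝ y)) y := by
    simpa using (hasStrictFDerivAt_norm_sq y).hasFDerivAt
  have h2 : HasFDerivAt (fun y : Cn n => ((k (‖y‖ ^ 2) : ℝ) : ℂ))
      (Complex.ofRealCLM.comp (deriv k (‖y‖ ^ 2) • (2 • (innerSL ℝ y)))) y :=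
    Complex.ofRealCLM.hasFDerivAt.comp y
      ((hk _).hasDerivAt.comp_hasFDerivAt y h1)
  rw [wd, h2.fderiv, wdL]
  have e1 : inner ℝ y (EuclideanSpace.single b (1 : ℂ) : Cn n) = (y b).re := by
    rw [PiLp.inner_apply, Finset.sum_eq_single b]
    · simp [Complex.inner]
    · intro c _ hc
      simp [hc]
    · intro h; exact absurd (Finset.mem_univ b) h
  have e2 : inner ℝ y (EuclideanSpace.single b I : Cn n) = (y b).im := by
    rw [PiLp.inner_apply, Finset.sum_eq_single b]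
    · simp [Complex.inner]
    · intro c _ hc
      simp [hc]
    · intro h; exact absurd (Finset.mem_univ b) h
  simp only [ContinuousLinearMap.comp_apply, _root_.smul_apply, innerSL_apply_apply, e1, e2, cI_true,
    ofRealCLM_apply, smul_eq_mul, nsmul_eq_mul, Nat.cast_ofNat]
  conv_rhs => rw [← Complex.re_add_im (y b)]
  push_cast
  ring

theorem sum_wd_Psi (s : ℝ) (y : Cn n) :
    ∑ b, wd (true, b) (Psi s b) y =
      ((n * P (‖y‖ ^ 2 / s ^ 2) + (‖y‖ ^ 2 / s ^ 2) * deriv P (‖y‖ ^ 2 / s ^ 2) : ℝ) : ℂ) := by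
  have hk : Differentiable ℝ fun u : ℝ => P (u / s ^ 2) := P_diff.comp (differentiable_id.div_const _)
  have hdk : ∀ u, deriv (fun u : ℝ => P (u / s ^ 2)) u = deriv P (u / s ^ 2) / s ^ 2 := by
    intro u
    have h := (P_diff (u / s ^ 2)).hasDerivAt.comp u ((hasDerivAt_id u).div_const (s ^ 2))
    rw [show (fun u : ℝ => P (u / s ^ 2)) = P ∘ fun x => id x / s ^ 2 from rfl, h.deriv]
    ring
  have h1 : ∀ b, wd (true, b) (Psi s b) y =
      ((P (‖y‖ ^ 2 / s ^ 2) : ℝ) : ℂ) + conj (y b) * (y b * (deriv P (‖y‖ ^ 2 / s ^ 2) / s ^ 2 : ℝ)) := by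
    intro b
    have hp : DifferentiableAt ℂ (fun y : Cn n => y b) y :=
      (EuclideanSpace.proj b : Cn n →L[ℂ] ℂ).differentiableAt
    have hc : DifferentiableAt ℝ (fun y : Cn n => conj (y b)) y :=
      (Complex.conjCLE.differentiableAt).comp y (hp.restrictScalars ℝ)
    have hq : DifferentiableAt ℝ (fun y : Cn n => ((P (‖y‖ ^ 2 / s ^ 2) : ℝ) : ℂ)) y :=
      (Complex.ofRealCLM.contDiff.comp (P_smooth.comp (nsq_smooth.div_const _))).differentiable
        (by simp) y
    have e0 : wd (true, b) (fun y : Cn n => conj (y b)) y = 1 := by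
      rw [wd_conj (hp.restrictScalars ℝ), wd_hol hp]
      have : fderiv ℂ (fun y : Cn n => y b) y = (EuclideanSpace.proj b : Cn n →L[ℂ] ℂ) :=
        (EuclideanSpace.proj b : Cn n →L[ℂ] ℂ).fderiv
      rw [this]
      simp
    unfold Psi
    rw [wd_mul hc hq, e0, one_mul, wd_nsq b y (fun u => P (u / s ^ 2)) hk, hdk]
  simp_rw [h1, Finset.sum_add_distrib]
  rw [Finset.sum_const, Finset.card_univ, Fintype.card_fin]
  have h2 : ∑ b, conj (y b) * (y b * (deriv P (‖y‖ ^ 2 / s ^ 2) / s ^ 2 : ℝ)) =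
      ((‖y‖ ^ 2 : ℝ) : ℂ) * (deriv P (‖y‖ ^ 2 / s ^ 2) / s ^ 2 : ℝ) := by
    simp_rw [← mul_assoc]
    rw [← Finset.sum_mul]
    congr 1
    rw [EuclideanSpace.norm_sq_eq]
    push_cast
    refine Finset.sum_congr rfl fun b _ => ?_
    rw [← Complex.normSq_eq_conj_mul_self, Complex.normSq_eq_norm_sq]
    push_cast
    ring
  rw [h2]
  push_cast
  simp only [nsmul_eq_mul]
  ring

theorem hasDerivAt_rho {s : ℝ} (hs : 0 < s) (y : Cn n) :
    HasDerivAt (fun s => rho n s y)
      (-2 * (s ^ (2 * n + 1))⁻¹ *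
        (n * P (‖y‖ ^ 2 / s ^ 2) + (‖y‖ ^ 2 / s ^ 2) * deriv P (‖y‖ ^ 2 / s ^ 2))) s := by
  unfold rho
  have h1 : HasDerivAt (fun s : ℝ => ‖y‖ ^ 2 / s ^ 2) (-2 * ‖y‖ ^ 2 / s ^ 3) s := by
    have h := ((hasDerivAt_pow 2 s).inv (pow_ne_zero 2 hs.ne')).const_mul (‖y‖ ^ 2)
    refine h.congr_deriv ?_
    norm_num
    field_simp
  have h2 := (P_diff (‖y‖ ^ 2 / s ^ 2)).hasDerivAt.comp s h1
  have h3 : HasDerivAt (fun s : ℝ => (s ^ (2 * n))⁻¹) (-(2 * n) * (s ^ (2 * n + 1))⁻¹) s := by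
    have h := (hasDerivAt_pow (2 * n) s).inv (pow_ne_zero _ hs.ne')
    refine h.congr_deriv ?_
    rcases Nat.eq_zero_or_pos n with rfl | hn
    · simp
    · have e2 : s ^ (2 * n) = s ^ (2 * n - 1) * s := by
        rw [← pow_succ]; congr 1; omega
      have hq : s ^ (2 * n - 1) ≠ 0 := pow_ne_zero _ hs.ne'
      rw [pow_succ s (2 * n), e2]
      set q := s ^ (2 * n - 1)
      push_cast
      field_simp
  refine (h2.mul h3).congr_deriv ?_
  simp only [Function.comp]
  rw [pow_succ s (2 * n)]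
  field_simp
  ring

/-- the mollified trace -/
def Mi (B : Set (Cn n)) (G : Cn n → Cn n) (g : Cn n → ℂ) (s : ℝ) : ℂ :=
  ∫ z in B, (rho n s (G z) : ℂ) * (conj (jm G z).det * g z)

variable {U B : Set (Cn n)} {G : Cn n → Cn n} {g : Cn n → ℂ}

theorem h_cont (hG : AnalyticOnNhd ℂ G U) (hg : AnalyticOnNhd ℂ g U) :
    ContinuousOn (fun z => conj (jm G z).det * g z) U := by
  have h1 : ContinuousOn (fun z => (jm G z).det) U := (an_det fun a b => an_jm hG a b).continuousOn
  exact (Complex.continuous_conj.comp_continuousOn h1).mul hg.continuousOn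

theorem Mi_deriv (hB : IsOpen B) (hBb : Bornology.IsBounded B) (hcl : closure B ⊆ U)
    (hG : AnalyticOnNhd ℂ G U) (hg : AnalyticOnNhd ℂ g U) {e : ℝ}
    (hf : ∀ z ∈ frontier B, e ≤ ‖G z‖) {s : ℝ} (hs : s ∈ Ioo 0 e) :
    HasDerivAt (Mi B G g) 0 s := by
  obtain ⟨hs0, hse⟩ := hs
  have hcpt : IsCompact (closure B) := hBb.isCompact_closure
  have hBU : B ⊆ U := subset_closure.trans hcl
  have hhc := h_cont hG hg
  obtain ⟨H, hH⟩ := hcpt.exists_bound_of_continuousOn (hhc.mono hcl)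
  have hH0 : ∀ z ∈ B, ‖conj (jm G z).det * g z‖ ≤ H := fun z hz => hH z (subset_closure hz)
  obtain ⟨C1, hC1, hC1b⟩ := exists_C1
  have hfin : volume B < ⊤ := hBb.measure_lt_top
  have hmeas : ∀ k : Cn n → ℝ, Continuous k → AEStronglyMeasurable
      (fun z => ((k (G z) : ℝ) : ℂ) * (conj (jm G z).det * g z)) (volume.restrict B) := by
    intro k hk
    refine ContinuousOn.aestronglyMeasurable ?_ hB.measurableSet
    exact (Complex.continuous_ofReal.comp_continuousOn
      (hk.comp_continuousOn (hG.continuousOn.mono hBU))).mul (hhc.mono hBU)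
  set F' : ℝ → Cn n → ℂ := fun s z => ((-2 * (s ^ (2 * n + 1))⁻¹ *
        (n * P (‖G z‖ ^ 2 / s ^ 2) + (‖G z‖ ^ 2 / s ^ 2) * deriv P (‖G z‖ ^ 2 / s ^ 2)) : ℝ) : ℂ) *
          (conj (jm G z).det * g z) with hF'
  have hball : Metric.ball s (s / 2) ∈ 𝓝 s := Metric.ball_mem_nhds s (by positivity)
  have key := hasDerivAt_integral_of_dominated_loc_of_deriv_le (μ := volume.restrict B)
    (F := fun s z => ((rho n s (G z) : ℝ) : ℂ) * (conj (jm G z).det * g z)) (F' := F')
    (bound := fun _ => 2 * ((s / 2) ^ (2 * n + 1))⁻¹ * (n + C1) * H) (x₀ := s) hball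
    (Eventually.of_forall fun s => hmeas _ (rho_cont s)) ?_ ?_ ?_ ?_ ?_
  · have h0 : ∫ z in B, F' s z = 0 := by
      have hK : IsCompact (closure B ∩ {z | ‖G z‖ ≤ s}) := by
        have h1 : ContinuousOn (fun z => ‖G z‖) (closure B) := (hG.continuousOn.mono hcl).norm
        have := h1.preimage_isClosed_of_isClosed isClosed_closure (isClosed_Iic (a := s))
        exact hcpt.of_isClosed_subset this inter_subset_left
      have hKB : closure B ∩ {z | ‖G z‖ ≤ s} ⊆ B := by
        rintro z ⟨hz, hz2⟩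
        by_contra hzB
        have : z ∈ frontier B := ⟨hz, by rwa [hB.interior_eq]⟩
        exact absurd (hf z this) (not_le.2 (lt_of_le_of_lt hz2 hse))
      have h1 := int_zero (Ψ := fun b => Psi s b) hB hBU hG hg (fun b => Psi_smooth s b) hK hKB
        (fun z hz hzK b => Psi_zero hs0 (by
          by_contra hlt
          exact hzK ⟨subset_closure hz, (not_le.1 hlt).le⟩) b)
      have h2 : ∀ z, F' s z = (-2 * ((s ^ (2 * n + 1))⁻¹ : ℝ) : ℂ) *
          ((∑ b, wd (true, b) (Psi s b) (G z)) * (conj (jm G z).det * g z)) := by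
        intro z
        rw [hF', sum_wd_Psi]
        push_cast
        ring
      simp_rw [h2]
      rw [integral_const_mul, h1, mul_zero]
    rw [← h0]
    exact key.2
  · -- integrable at s
    refine Integrable.mono' (g := fun _ => (s ^ (2 * n))⁻¹ * H) ?_ (hmeas _ (rho_cont s)) ?_
    · exact integrableOn_const hfin.ne
    · refine (ae_restrict_iff' hB.measurableSet).2 (Eventually.of_forall fun z hz => ?_)
      rw [norm_mul]
      refine mul_le_mul ?_ (hH0 z hz) (norm_nonneg _) (by positivity)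
      rw [Complex.norm_real, Real.norm_eq_abs, abs_of_nonneg (rho_nonneg _)]
      unfold rho
      calc P _ * (s ^ (2 * n))⁻¹ ≤ 1 * (s ^ (2 * n))⁻¹ :=
            mul_le_mul_of_nonneg_right (P_le_one _) (by positivity)
        _ = _ := one_mul _
  · exact hmeas (fun y => -2 * (s ^ (2 * n + 1))⁻¹ *
        (n * P (‖y‖ ^ 2 / s ^ 2) + (‖y‖ ^ 2 / s ^ 2) * deriv P (‖y‖ ^ 2 / s ^ 2)))
        (by
          have hc : Continuous fun y : Cn n => ‖y‖ ^ 2 / s ^ 2 := (continuous_norm.pow 2).div_const _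
          exact continuous_const.mul ((continuous_const.mul (P_cont.comp hc)).add
            (hc.mul (derivP_cont.comp hc))))
  · refine (ae_restrict_iff' hB.measurableSet).2 (Eventually.of_forall fun z hz r hr => ?_)
    rw [Metric.mem_ball, Real.dist_eq, abs_lt] at hr
    have hr0 : 0 < s / 2 := by positivity
    have hr1 : s / 2 ≤ r := by linarith [hr.1]
    have hrpos : 0 < r := by linarith
    rw [hF']
    simp only
    rw [norm_mul, Complex.norm_real, Real.norm_eq_abs, abs_mul, abs_mul]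
    have hu : 0 ≤ ‖G z‖ ^ 2 / r ^ 2 := by positivity
    have b1 : |(n : ℝ) * P (‖G z‖ ^ 2 / r ^ 2) + ‖G z‖ ^ 2 / r ^ 2 * deriv P (‖G z‖ ^ 2 / r ^ 2)| ≤
        n + C1 := by
      refine (abs_add_le _ _).trans (add_le_add ?_ (hC1b _ hu))
      rw [abs_mul, abs_of_nonneg (P_nonneg _), Nat.abs_cast]
      exact mul_le_of_le_one_right (Nat.cast_nonneg _) (P_le_one _)
    have b2 : |(r ^ (2 * n + 1))⁻¹| ≤ ((s / 2) ^ (2 * n + 1))⁻¹ := by
      rw [abs_of_nonneg (by positivity)]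
      exact inv_anti₀ (by positivity) (pow_le_pow_left₀ hr0.le hr1 _)
    have hH' : 0 ≤ H := (norm_nonneg _).trans (hH0 z hz)
    have b3 : |(-2 : ℝ)| = 2 := by norm_num
    rw [b3]
    gcongr
    exact hH0 z hz
  · exact integrableOn_const hfin.ne
  · refine (ae_restrict_iff' hB.measurableSet).2 (Eventually.of_forall fun z hz r hr => ?_)
    rw [Metric.mem_ball, Real.dist_eq, abs_lt] at hr
    have hrpos : 0 < r := by linarith [hr.1]
    exact (hasDerivAt_rho hrpos (G z)).ofReal_comp.mul_const _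

theorem Mi_const (hB : IsOpen B) (hBb : Bornology.IsBounded B) (hcl : closure B ⊆ U)
    (hG : AnalyticOnNhd ℂ G U) (hg : AnalyticOnNhd ℂ g U) {e : ℝ}
    (hf : ∀ z ∈ frontier B, e ≤ ‖G z‖) {s s' : ℝ} (hs : s ∈ Ioo 0 e) (hs' : s' ∈ Ioo 0 e) :
    Mi B G g s = Mi B G g s' :=
  isOpen_Ioo.is_const_of_deriv_eq_zero isPreconnected_Ioo
    (fun _ hr => (Mi_deriv hB hBb hcl hG hg hf hr).differentiableAt.differentiableWithinAt)
    (fun _ hr => (Mi_deriv hB hBb hcl hG hg hf hr).deriv) hs hs'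

theorem Mi_le (hBb : Bornology.IsBounded B) {s H : ℝ} (hs : 0 < s)
    (hH : ∀ z ∈ B, ‖conj (jm G z).det * g z‖ ≤ H) :
    ‖Mi B G g s‖ ≤ (s ^ (2 * n))⁻¹ * H * (volume B).toReal := by
  refine norm_setIntegral_le_of_norm_le_const hBb.measure_lt_top fun z hz => ?_
  rw [norm_mul]
  refine mul_le_mul ?_ (hH z hz) (norm_nonneg _) (by positivity)
  rw [Complex.norm_real, Real.norm_eq_abs, abs_of_nonneg (rho_nonneg _)]
  unfold rho
  calc P _ * (s ^ (2 * n))⁻¹ ≤ 1 * (s ^ (2 * n))⁻¹ :=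
        mul_le_mul_of_nonneg_right (P_le_one _) (by positivity)
    _ = _ := one_mul _

end

end Crest.Agent.R257.RtB_838
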