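import Crest.Agent.R257.RtB_838

/-!
# R257 (S0395), leaf LCX-RT (helper838), part C: the limit of the mollified trace for small radii,
and the trace formula `rt`.
-/

set_option autoImplicit false
set_option linter.unusedSectionVars false

open Set Filter Topology Complex MeasureTheory
open scoped ContDiff Matrix ComplexConjugate

namespace Crest.Agent.R257.RtC_838

open Crest.Agent.R275.Geo Crest.Agent.R275.EDR890 RtA_838 RtB_838

noncomputable section

variable {n : ℕ}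

/-- the mass of the profile -/
def cn (n : ℕ) : ℝ := ∫ y : Cn n, P (‖y‖ ^ 2)

theorem finrank_Cn : Module.finrank ℝ (Cn n) = 2 * n := by
  have h1 : Module.finrank ℝ (Cn n) = Module.finrank ℝ ℂ * Module.finrank ℂ (Cn n) :=
    (Module.finrank_mul_finrank ℝ ℂ (Cn n)).symm
  rw [h1, Complex.finrank_real_complex, finrank_euclideanSpace, Fintype.card_fin]

theorem int_rho {s : ℝ} (hs : 0 < s) : ∫ y : Cn n, rho n s y = cn n := by
  have h1 : ∀ y : Cn n, rho n s y = (s ^ (2 * n))⁻¹ * (fun y : Cn n => P (‖y‖ ^ 2)) (s⁻¹ • y) := by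
    intro y
    have e : ‖y‖ ^ 2 / s ^ 2 = ‖s⁻¹ • y‖ ^ 2 := by
      rw [norm_smul, Real.norm_eq_abs, abs_of_pos (inv_pos.2 hs)]
      field_simp
    show P (‖y‖ ^ 2 / s ^ 2) * (s ^ (2 * n))⁻¹ = (s ^ (2 * n))⁻¹ * P (‖s⁻¹ • y‖ ^ 2)
    rw [e, mul_comm]
  have h2 := Measure.integral_comp_smul (μ := (volume : Measure (Cn n)))
    (fun y : Cn n => P (‖y‖ ^ 2)) s⁻¹
  rw [integral_congr_ae (Eventually.of_forall h1), integral_const_mul, h2, finrank_Cn]
  unfold cn
  rw [smul_eq_mul, ← mul_assoc, inv_pow, inv_inv, abs_of_pos (pow_pos hs _),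
    inv_mul_cancel₀ (pow_ne_zero _ hs.ne'), one_mul]

theorem supp_rho {s : ℝ} (hs : 0 < s) {y : Cn n} (h : rho n s y ≠ 0) : ‖y‖ < s := by
  by_contra h1
  exact h (rho_zero hs (not_lt.1 h1))

theorem cs_rho {s : ℝ} (hs : 0 < s) : HasCompactSupport (rho n s) := by
  refine HasCompactSupport.intro (isCompact_closedBall (0 : Cn n) s) fun y hy => ?_
  rw [Metric.mem_closedBall, dist_zero_right, not_le] at hy
  exact rho_zero hs hy.le

theorem int_rho' {s : ℝ} (hs : 0 < s) : Integrable (rho n s) :=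
  (rho_cont s).integrable_of_hasCompactSupport (cs_rho hs)

theorem cn_pos : 0 < cn n := by
  have h1 : (∫ y : Cn n, rho n 1 y) = cn n := int_rho one_pos
  rw [← h1]
  refine (Continuous.integral_pos_of_hasCompactSupport_nonneg_nonzero (x := 0) (rho_cont 1)
    (cs_rho one_pos) (fun y => rho_nonneg y) ?_)
  unfold rho
  rw [P_one (by simp)]
  norm_num

/-- complex determinant of the derivative -/
theorem det_jm (G : Cn n → Cn n) (z : Cn n) :
    (jm G z).det = LinearMap.det ((fderiv ℂ G z : Cn n →L[ℂ] Cn n) : Cn n →ₗ[ℂ] Cn n) := by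
  rw [← LinearMap.det_toMatrix (EuclideanSpace.basisFun (Fin n) ℂ).toBasis, ← Matrix.det_transpose]
  congr 1

theorem det_real' (L : Cn n →L[ℂ] Cn n) :
    (L.restrictScalars ℝ).det = ‖LinearMap.det (L : Cn n →ₗ[ℂ] Cn n)‖ ^ 2 := by
  have h1 : (L.restrictScalars ℝ).det =
      LinearMap.det ((L : Cn n →ₗ[ℂ] Cn n).restrictScalars ℝ) := rfl
  rw [h1, LinearMap.det_restrictScalars, Algebra.norm_complex_apply, Complex.normSq_eq_norm_sq]

variable {U B : Set (Cn n)} {G : Cn n → Cn n} {g : Cn n → ℂ}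

/-- local structure at a nondegenerate zero -/
theorem loc (hG : AnalyticOnNhd ℂ G U) (hU : IsOpen U) {p : Cn n} (hp : p ∈ U) (h0 : G p = 0)
    (hd : (jm G p).det ≠ 0) {O : Set (Cn n)} (hO : IsOpen O) (hpO : p ∈ O) :
    ∃ V : Set (Cn n), IsOpen V ∧ p ∈ V ∧ V ⊆ U ∧ V ⊆ O ∧ InjOn G V ∧
      (∀ z ∈ V, (jm G z).det ≠ 0) ∧
      ∀ W ∈ 𝓝 p, ∃ r > (0 : ℝ), ∀ y : Cn n, ‖y‖ < r → ∃ w ∈ V ∩ W, G w = y := by
  have hd' : (fderiv ℂ G p).det ≠ 0 := by rw [det_jm] at hd; exact hd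
  set L := ContinuousLinearMap.toContinuousLinearEquivOfDetNeZero (fderiv ℂ G p) hd'
  have hst : HasStrictFDerivAt G (L : Cn n →L[ℂ] Cn n) p := (hG p hp).hasStrictFDerivAt
  set e := hst.toOpenPartialHomeomorph G
  have hdet : ContinuousOn (fun z => (jm G z).det) U := (an_det fun a b => an_jm hG a b).continuousOn
  have hR : IsOpen {z | z ∈ U ∧ (jm G z).det ≠ 0} :=
    hdet.isOpen_inter_preimage hU (isOpen_compl_singleton (x := (0 : ℂ)))
  refine ⟨e.source ∩ {z | z ∈ U ∧ (jm G z).det ≠ 0} ∩ O, (e.open_source.inter hR).inter hO,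
    ⟨⟨hst.mem_toOpenPartialHomeomorph_source, hp, hd⟩, hpO⟩, fun z hz => hz.1.2.1, fun z hz => hz.2,
    ?_, fun z hz => hz.1.2.2, ?_⟩
  · have : InjOn e e.source := e.injOn
    exact fun a ha b hb hab => this ha.1.1 hb.1.1 hab
  · intro W hW
    have hmem : (e.source ∩ {z | z ∈ U ∧ (jm G z).det ≠ 0} ∩ O) ∩ W ∈ 𝓝 p :=
      inter_mem (((e.open_source.inter hR).inter hO).mem_nhds
        ⟨⟨hst.mem_toOpenPartialHomeomorph_source, hp, hd⟩, hpO⟩) hW
    have himg : G '' ((e.source ∩ {z | z ∈ U ∧ (jm G z).det ≠ 0} ∩ O) ∩ W) ∈ 𝓝 (G p) := by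
      rw [← hst.map_nhds_eq_of_equiv]
      exact image_mem_map hmem
    rw [h0] at himg
    obtain ⟨r, hr, hball⟩ := Metric.mem_nhds_iff.1 himg
    refine ⟨r, hr, fun y hy => ?_⟩
    have : y ∈ Metric.ball (0 : Cn n) r := by rwa [Metric.mem_ball, dist_zero_right]
    exact hball this

/-- change of variables on an injectivity set -/
theorem chg (hG : AnalyticOnNhd ℂ G U) {V : Set (Cn n)} (hV : IsOpen V) (hVU : V ⊆ U)
    (hinj : InjOn G V) (f : Cn n → ℝ) :
    ∫ y in G '' V, f y = ∫ z in V, ‖(jm G z).det‖ ^ 2 * f (G z) := by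
  rw [integral_image_eq_integral_abs_det_fderiv_smul (μ := volume) hV.measurableSet
    (f' := fun z => (fderiv ℂ G z).restrictScalars ℝ)
    (fun z hz => ((hG z (hVU hz)).differentiableAt.hasFDerivAt.restrictScalars ℝ).hasFDerivWithinAt)
    hinj]
  refine setIntegral_congr_fun hV.measurableSet fun z _ => ?_
  simp only [smul_eq_mul]
  rw [det_real', abs_of_nonneg (by positivity), det_jm]

/-- the contribution of one zero -/
theorem one_zero (hG : AnalyticOnNhd ℂ G U) (hg : AnalyticOnNhd ℂ g U) {p : Cn n}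
    {V : Set (Cn n)} (hV : IsOpen V) (hpV : p ∈ V) (hVU : V ⊆ U) (hinj : InjOn G V)
    (hd : ∀ z ∈ V, (jm G z).det ≠ 0)
    (hloc : ∀ W ∈ 𝓝 p, ∃ r > (0 : ℝ), ∀ y : Cn n, ‖y‖ < r → ∃ w ∈ V ∩ W, G w = y) :
    Tendsto (fun s => ∫ z in V, (rho n s (G z) : ℂ) * (conj (jm G z).det * g z)) (𝓝[>] 0)
      (𝓝 (cn n * (g p / (jm G p).det))) := by
  set k : Cn n → ℂ := fun z => g z / (jm G z).det with hk
  have hkc : ContinuousAt k p :=
    ((hg p (hVU hpV)).continuousAt).div ((an_det fun a b => an_jm hG a b) p (hVU hpV)).continuousAt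
      (hd p hpV)
  have hdetc : ContinuousOn (fun z => (jm G z).det) V :=
    (an_det fun a b => an_jm hG a b).continuousOn.mono hVU
  have hkV : ContinuousOn k V := (hg.continuousOn.mono hVU).div hdetc hd
  rw [Metric.tendsto_nhds]
  intro ε hε
  -- mass
  obtain ⟨r0, hr0, hr0'⟩ := hloc univ univ_mem
  set δ := ε / (2 * cn n) with hδ
  have hcn := cn_pos (n := n)
  have hδ0 : 0 < δ := by positivity
  have hW : {z | dist (k z) (k p) < δ} ∈ 𝓝 p := hkc (Metric.ball_mem_nhds (k p) hδ0)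
  obtain ⟨r1, hr1, hr1'⟩ := hloc _ hW
  have hev : ∀ᶠ s : ℝ in 𝓝[>] 0, s < min r0 r1 :=
    mem_nhdsWithin_of_mem_nhds (gt_mem_nhds (lt_min hr0 hr1))
  filter_upwards [hev, self_mem_nhdsWithin] with s hs hs0
  have hs0' : (0 : ℝ) < s := hs0
  have hsr0 : s < r0 := hs.trans_le (min_le_left _ _)
  have hsr1 : s < r1 := hs.trans_le (min_le_right _ _)
  -- total mass
  have hball : ∀ y : Cn n, ‖y‖ < s → y ∈ G '' V := by
    intro y hy
    obtain ⟨w, hw, e⟩ := hr0' y (hy.trans hsr0)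
    exact ⟨w, hw.1, e⟩
  have hmass : ∫ z in V, ‖(jm G z).det‖ ^ 2 * rho n s (G z) = cn n := by
    rw [← chg hG hV hVU hinj, ← int_rho (n := n) hs0']
    refine setIntegral_eq_integral_of_forall_compl_eq_zero fun y hy => ?_
    by_contra hne
    exact hy (hball y (supp_rho hs0' hne))
  have hnear : ∀ z ∈ V, rho n s (G z) ≠ 0 → dist (k z) (k p) < δ := by
    intro z hz hne
    obtain ⟨w, hw, e⟩ := hr1' (G z) ((supp_rho hs0' hne).trans hsr1)
    have : w = z := hinj hw.1 hz e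
    rw [← this]
    exact hw.2
  -- integrability of the mass
  have hint : IntegrableOn (fun z => ‖(jm G z).det‖ ^ 2 * rho n s (G z)) V := by
    by_contra hni
    rw [integral_undef hni] at hmass
    exact hcn.ne hmass
  have hrw : ∀ z ∈ V, (rho n s (G z) : ℂ) * (conj (jm G z).det * g z) =
      ((‖(jm G z).det‖ ^ 2 * rho n s (G z) : ℝ) : ℂ) * k z := by
    intro z hz
    have h2 : (jm G z).det ≠ 0 := hd z hz
    have h3 : ((‖(jm G z).det‖ ^ 2 : ℝ) : ℂ) = conj (jm G z).det * (jm G z).det := by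
      rw [← Complex.normSq_eq_conj_mul_self, Complex.normSq_eq_norm_sq]
    rw [ofReal_mul, h3, hk]
    field_simp
  rw [setIntegral_congr_fun hV.measurableSet hrw]
  have hconst : (cn n : ℂ) * (g p / (jm G p).det) =
      ∫ z in V, ((‖(jm G z).det‖ ^ 2 * rho n s (G z) : ℝ) : ℂ) * k p := by
    have h4 : ∫ z in V, ((‖(jm G z).det‖ ^ 2 * rho n s (G z) : ℝ) : ℂ) = ((cn n : ℝ) : ℂ) := by
      rw [← hmass]
      exact integral_ofReal
    rw [integral_mul_const, h4]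
  have hintc : IntegrableOn (fun z => ((‖(jm G z).det‖ ^ 2 * rho n s (G z) : ℝ) : ℂ)) V := hint.ofReal
  have hint1 : IntegrableOn (fun z => ((‖(jm G z).det‖ ^ 2 * rho n s (G z) : ℝ) : ℂ) * k p) V :=
    hintc.mul_const _
  have hint3 : IntegrableOn (fun z => ((‖(jm G z).det‖ ^ 2 * rho n s (G z) : ℝ) : ℂ) * (k z - k p)) V := by
    refine Integrable.mono' (g := fun z => (‖(jm G z).det‖ ^ 2 * rho n s (G z)) * δ)
      (hint.mul_const δ) ?_ ?_
    · refine ContinuousOn.aestronglyMeasurable ?_ hV.measurableSet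
      refine ContinuousOn.mul ?_ (hkV.sub continuousOn_const)
      exact Complex.continuous_ofReal.comp_continuousOn ((hdetc.norm.pow 2).mul
        ((rho_cont s).comp_continuousOn (hG.continuousOn.mono hVU)))
    · refine (ae_restrict_iff' hV.measurableSet).2 (Eventually.of_forall fun z hz => ?_)
      rw [norm_mul, Complex.norm_real, Real.norm_eq_abs,
        abs_of_nonneg (mul_nonneg (by positivity) (rho_nonneg _))]
      by_cases hne : rho n s (G z) = 0
      · simp [hne]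
      · refine mul_le_mul_of_nonneg_left ?_ (mul_nonneg (by positivity) (rho_nonneg _))
        rw [← dist_eq_norm]
        exact (hnear z hz hne).le
  have hint2 : IntegrableOn (fun z => ((‖(jm G z).det‖ ^ 2 * rho n s (G z) : ℝ) : ℂ) * k z) V := by
    refine (hint3.add hint1).congr (Eventually.of_forall fun z => ?_)
    simp only [Pi.add_apply]
    ring
  rw [hconst, dist_eq_norm, ← integral_sub hint2 hint1]
  have hle : ‖∫ z in V, (((‖(jm G z).det‖ ^ 2 * rho n s (G z) : ℝ) : ℂ) * k z -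
      ((‖(jm G z).det‖ ^ 2 * rho n s (G z) : ℝ) : ℂ) * k p)‖ ≤
      ∫ z in V, (‖(jm G z).det‖ ^ 2 * rho n s (G z)) * δ := by
    refine norm_integral_le_of_norm_le (hint.mul_const δ) ?_
    refine (ae_restrict_iff' hV.measurableSet).2 (Eventually.of_forall fun z hz => ?_)
    rw [← mul_sub, norm_mul, Complex.norm_real, Real.norm_eq_abs,
      abs_of_nonneg (mul_nonneg (by positivity) (rho_nonneg _))]
    by_cases hne : rho n s (G z) = 0
    · simp [hne]
    · refine mul_le_mul_of_nonneg_left ?_ (mul_nonneg (by positivity) (rho_nonneg _))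
      rw [← dist_eq_norm]
      exact (hnear z hz hne).le
  refine hle.trans_lt ?_
  rw [integral_mul_const, hmass, hδ]
  have : cn n * (ε / (2 * cn n)) = ε / 2 := by field_simp
  rw [this]
  linarith

theorem int_on (hBb : Bornology.IsBounded B) (hcl : closure B ⊆ U)
    (hG : AnalyticOnNhd ℂ G U) (hg : AnalyticOnNhd ℂ g U) (s : ℝ) :
    IntegrableOn (fun z => (rho n s (G z) : ℂ) * (conj (jm G z).det * g z)) B := by
  have h1 : ContinuousOn (fun z => (rho n s (G z) : ℂ) * (conj (jm G z).det * g z)) (closure B) :=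
    (Complex.continuous_ofReal.comp_continuousOn
      ((rho_cont s).comp_continuousOn (hG.continuousOn.mono hcl))).mul ((h_cont hG hg).mono hcl)
  exact (h1.integrableOn_compact hBb.isCompact_closure).mono_set subset_closure

/-- the limit of the mollified trace -/
theorem total (hU : IsOpen U) (hB : IsOpen B) (hBb : Bornology.IsBounded B) (hcl : closure B ⊆ U)
    (hG : AnalyticOnNhd ℂ G U) (hg : AnalyticOnNhd ℂ g U) {e : ℝ} (he : 0 < e)
    (hf : ∀ z ∈ frontier B, e ≤ ‖G z‖) {Z : Finset (Cn n)} (hZ : ∀ z, z ∈ Z ↔ z ∈ B ∧ G z = 0)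
    (hd : ∀ z ∈ Z, (jm G z).det ≠ 0) :
    Tendsto (Mi B G g) (𝓝[>] 0) (𝓝 (cn n * ∑ p ∈ Z, g p / (jm G p).det)) := by
  obtain ⟨O, hO, hdis⟩ := Set.Finite.t2_separation (Z.finite_toSet)
  have hBU : B ⊆ U := subset_closure.trans hcl
  have hex : ∀ p : Z, ∃ V : Set (Cn n), IsOpen V ∧ (p : Cn n) ∈ V ∧ V ⊆ U ∧ V ⊆ O p ∩ B ∧ InjOn G V ∧
      (∀ z ∈ V, (jm G z).det ≠ 0) ∧
      ∀ W ∈ 𝓝 (p : Cn n), ∃ r > (0 : ℝ), ∀ y : Cn n, ‖y‖ < r → ∃ w ∈ V ∩ W, G w = y := by
    intro p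
    have hp := (hZ p).1 p.2
    exact loc hG hU (hBU hp.1) hp.2 (hd p p.2) ((hO p).2.inter hB) ⟨(hO p).1, hp.1⟩
  choose! V' hV' using hex
  set V : Cn n → Set (Cn n) := fun p => if h : p ∈ Z then V' ⟨p, h⟩ else ∅ with hV
  have hVp : ∀ p ∈ Z, IsOpen (V p) ∧ p ∈ V p ∧ V p ⊆ U ∧ V p ⊆ O p ∩ B ∧ InjOn G (V p) ∧
      (∀ z ∈ V p, (jm G z).det ≠ 0) ∧
      ∀ W ∈ 𝓝 p, ∃ r > (0 : ℝ), ∀ y : Cn n, ‖y‖ < r → ∃ w ∈ V p ∩ W, G w = y := by
    intro p hp
    have h1 : V p = V' ⟨p, hp⟩ := by rw [hV]; simp only [hp, dite_true]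
    rw [h1]
    exact hV' ⟨p, hp⟩
  have hsum : Tendsto (fun s => ∑ p ∈ Z, ∫ z in V p, (rho n s (G z) : ℂ) * (conj (jm G z).det * g z))
      (𝓝[>] 0) (𝓝 (∑ p ∈ Z, cn n * (g p / (jm G p).det))) := by
    refine tendsto_finset_sum _ fun p hp => ?_
    obtain ⟨h1, h2, h3, -, h5, h6, h7⟩ := hVp p hp
    exact one_zero hG hg h1 h2 h3 h5 h6 h7
  rw [← Finset.mul_sum] at hsum
  -- the complement
  have hopen : IsOpen (⋃ p ∈ Z, V p) := isOpen_biUnion fun p hp => (hVp p hp).1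
  have hK : IsCompact (closure B \ ⋃ p ∈ Z, V p) := hBb.isCompact_closure.diff hopen
  have hne : ∀ z ∈ closure B \ ⋃ p ∈ Z, V p, G z ≠ 0 := by
    rintro z ⟨hz, hz2⟩ h0
    by_cases hzB : z ∈ B
    · have : z ∈ Z := (hZ z).2 ⟨hzB, h0⟩
      exact hz2 (mem_biUnion this (hVp z this).2.1)
    · have : z ∈ frontier B := ⟨hz, by rwa [hB.interior_eq]⟩
      have := hf z this
      rw [h0, norm_zero] at this
      linarith
  obtain ⟨η, hη, hηb⟩ : ∃ η > (0 : ℝ), ∀ z ∈ closure B \ ⋃ p ∈ Z, V p, η ≤ ‖G z‖ := by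
    rcases (closure B \ ⋃ p ∈ Z, V p).eq_empty_or_nonempty with h | h
    · exact ⟨1, one_pos, fun z hz => by rw [h] at hz; exact absurd hz (notMem_empty z)⟩
    · obtain ⟨z0, hz0, hmin⟩ := hK.exists_isMinOn h
        ((hG.continuousOn.mono (diff_subset.trans hcl)).norm)
      exact ⟨‖G z0‖, norm_pos_iff.2 (hne z0 hz0), fun z hz => hmin hz⟩
  refine hsum.congr' ?_
  have hev : ∀ᶠ s : ℝ in 𝓝[>] 0, s < η := mem_nhdsWithin_of_mem_nhds (gt_mem_nhds hη)
  filter_upwards [hev, self_mem_nhdsWithin] with s hs hs0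
  have hs0' : (0 : ℝ) < s := hs0
  have hint := int_on hBb hcl hG hg s
  unfold Mi
  have h1 : ∫ z in B, (rho n s (G z) : ℂ) * (conj (jm G z).det * g z) =
      ∫ z in ⋃ p ∈ Z, V p, (rho n s (G z) : ℂ) * (conj (jm G z).det * g z) := by
    refine setIntegral_eq_of_subset_of_forall_diff_eq_zero hB.measurableSet ?_ ?_
    · exact iUnion₂_subset fun p hp => (hVp p hp).2.2.2.1.trans inter_subset_right
    · intro z hz
      have : s ≤ ‖G z‖ := hs.le.trans (hηb z ⟨subset_closure hz.1, hz.2⟩)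
      rw [rho_zero hs0' this]
      simp
  rw [h1, integral_biUnion_finset]
  · exact fun p hp => (hVp p hp).1.measurableSet
  · intro p hp q hq hpq
    have := hdis hp hq hpq
    exact this.mono ((hVp p hp).2.2.2.1.trans inter_subset_left)
      ((hVp q hq).2.2.2.1.trans inter_subset_left)
  · exact fun p hp => hint.mono_set ((hVp p hp).2.2.2.1.trans inter_subset_right)

/-- THE TRACE FORMULA -/
theorem trace (hU : IsOpen U) (hB : IsOpen B) (hBb : Bornology.IsBounded B) (hcl : closure B ⊆ U)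
    (hG : AnalyticOnNhd ℂ G U) (hg : AnalyticOnNhd ℂ g U) {e : ℝ}
    (hf : ∀ z ∈ frontier B, e ≤ ‖G z‖) {Z : Finset (Cn n)} (hZ : ∀ z, z ∈ Z ↔ z ∈ B ∧ G z = 0)
    (hd : ∀ z ∈ Z, (jm G z).det ≠ 0) {s : ℝ} (hs : s ∈ Ioo 0 e) :
    (cn n : ℂ) * ∑ p ∈ Z, g p / (jm G p).det = Mi B G g s := by
  have he : 0 < e := hs.1.trans hs.2
  refine tendsto_nhds_unique (total hU hB hBb hcl hG hg he hf hZ hd) ?_
  refine tendsto_const_nhds.congr' ?_
  have hev : ∀ᶠ s : ℝ in 𝓝[>] 0, s < e := mem_nhdsWithin_of_mem_nhds (gt_mem_nhds he)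
  filter_upwards [hev, self_mem_nhdsWithin] with s' hs' hs0
  exact Mi_const hB hBb hcl hG hg hf hs ⟨hs0, hs'⟩

/-- THE TRACE BOUND -/
theorem trace_le (hU : IsOpen U) (hB : IsOpen B) (hBb : Bornology.IsBounded B) (hcl : closure B ⊆ U)
    (hG : AnalyticOnNhd ℂ G U) (hg : AnalyticOnNhd ℂ g U) {e : ℝ} (he : 0 < e)
    (hf : ∀ z ∈ frontier B, e ≤ ‖G z‖) {Z : Finset (Cn n)} (hZ : ∀ z, z ∈ Z ↔ z ∈ B ∧ G z = 0)
    (hd : ∀ z ∈ Z, (jm G z).det ≠ 0) {H : ℝ} (hH : ∀ z ∈ B, ‖conj (jm G z).det * g z‖ ≤ H) :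
    ‖∑ p ∈ Z, g p / (jm G p).det‖ ≤
      (cn n)⁻¹ * (((e / 2) ^ (2 * n))⁻¹ * H * (volume B).toReal) := by
  have h1 := trace hU hB hBb hcl hG hg hf hZ hd (s := e / 2) ⟨by positivity, by linarith⟩
  have h2 := Mi_le (G := G) (g := g) hBb (s := e / 2) (H := H) (by positivity) hH
  rw [← h1, norm_mul, Complex.norm_real, Real.norm_eq_abs, abs_of_pos cn_pos] at h2
  rw [inv_mul_eq_div, le_div_iff₀ cn_pos, mul_comm]
  exact h2

end

end Crest.Agent.R257.RtC_838
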