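import Crest.Agent.R257.RtC_838
import Crest.Agent.R257.Defs_219

/-!
# R257 (S0395), leaf LCX-RT (helper838), part D: the trace bound for analytic families
`G(·,t) : ℂ^n → ℂ^n`, in the language of `Defs_219`.
-/

set_option autoImplicit false
set_option linter.unusedSectionVars false

open Set Filter Topology Complex MeasureTheory
open scoped ContDiff Matrix ComplexConjugate

namespace Crest.Agent.R257.RtD_838

open Crest.Agent.R275.Geo Crest.Agent.R275.EDR890 RtA_838 RtB_838 RtC_838 Defs_219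
open Crest.AlgGeometry.Germ

noncomputable section

variable {n : ℕ}

/-- the Jacobian determinant of `n` functions on `ℂ^n` -/
def jac (G : Fin n → (Fin n → ℂ) → ℂ) (x : Fin n → ℂ) : ℂ :=
  (Matrix.of fun i j => coordDeriv (G j) i x).det

/-- the Hessian determinant -/
def hs (f : (Fin n → ℂ) → ℂ) (x : Fin n → ℂ) : ℂ :=
  (Matrix.of fun i j => coordDeriv (coordDeriv f j) i x).det

abbrev eqv (n : ℕ) : Cn n ≃L[ℂ] (Fin n → ℂ) := EuclideanSpace.equiv (Fin n) ℂ

/-- the lift to the euclidean space -/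
def up (G : Fin n → (Fin n → ℂ) × ℂ → ℂ) (t : ℂ) (y : Fin n → ℂ) (z : Cn n) : Cn n :=
  (eqv n).symm fun j => G j (eqv n z, t) - y j

theorem up_apply (G : Fin n → (Fin n → ℂ) × ℂ → ℂ) (t : ℂ) (y : Fin n → ℂ) (z : Cn n) (j : Fin n) :
    up G t y z j = G j (eqv n z, t) - y j := rfl

theorem up_zero_iff {G : Fin n → (Fin n → ℂ) × ℂ → ℂ} {t : ℂ} {y : Fin n → ℂ} {z : Cn n} :
    up G t y z = 0 ↔ ∀ j, G j (eqv n z, t) = y j := by
  constructor
  · intro h j
    have := congrFun (congrArg (eqv n) h) j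
    exact sub_eq_zero.1 this
  · intro h
    ext j
    rw [up_apply, h j, sub_self]
    rfl

theorem norm_up {G : Fin n → (Fin n → ℂ) × ℂ → ℂ} {t : ℂ} {y : Fin n → ℂ} {z : Cn n} :
    ‖(fun j => G j (eqv n z, t) - y j : Fin n → ℂ)‖ ≤ ‖up G t y z‖ := by
  refine (pi_norm_le_iff_of_nonneg (norm_nonneg _)).2 fun j => ?_
  have := PiLp.norm_apply_le (up G t y z) j
  rwa [up_apply] at this

theorem an_sl {f : (Fin n → ℂ) × ℂ → ℂ} {x : Fin n → ℂ} {t : ℂ} (h : AnalyticAt ℂ f (x, t)) :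
    AnalyticAt ℂ (sl f t) x := by
  have h1 : AnalyticAt ℂ (fun x : Fin n → ℂ => (x, t)) x := analyticAt_id.prod analyticAt_const
  exact AnalyticAt.fun_comp (g := f) (f := fun x : Fin n → ℂ => (x, t)) h h1

theorem an_up {G : Fin n → (Fin n → ℂ) × ℂ → ℂ} {t : ℂ} {y : Fin n → ℂ} {z : Cn n}
    (h : ∀ j, AnalyticAt ℂ (G j) (eqv n z, t)) : AnalyticAt ℂ (up G t y) z := by
  have h1 : AnalyticAt ℂ (fun z : Cn n => (fun j => G j (eqv n z, t) - y j : Fin n → ℂ)) z := by
    refine AnalyticAt.pi fun j => ?_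
    refine AnalyticAt.sub ?_ analyticAt_const
    exact AnalyticAt.fun_comp (g := sl (G j) t) (f := fun z : Cn n => eqv n z) (an_sl (h j))
      ((eqv n).toContinuousLinearMap.analyticAt z)
  exact ((eqv n).symm.toContinuousLinearMap.analyticAt _).fun_comp h1

theorem jm_up {G : Fin n → (Fin n → ℂ) × ℂ → ℂ} {t : ℂ} {y : Fin n → ℂ} {z : Cn n}
    (h : ∀ j, AnalyticAt ℂ (G j) (eqv n z, t)) (a b : Fin n) :
    jm (up G t y) z a b = coordDeriv (sl (G b) t) a (eqv n z) := by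
  have h1 : HasFDerivAt (fun z : Cn n => (fun j => G j (eqv n z, t) - y j : Fin n → ℂ))
      (ContinuousLinearMap.pi fun j => (fderiv ℂ (sl (G j) t) (eqv n z)).comp
        (eqv n).toContinuousLinearMap) z := by
    refine hasFDerivAt_pi.2 fun j => ?_
    refine HasFDerivAt.sub_const _ ?_
    exact ((an_sl (h j)).differentiableAt.hasFDerivAt).comp z (eqv n).toContinuousLinearMap.hasFDerivAt
  have h2 : HasFDerivAt (up G t y) ((eqv n).symm.toContinuousLinearMap.comp
      (ContinuousLinearMap.pi fun j => (fderiv ℂ (sl (G j) t) (eqv n z)).comp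
        (eqv n).toContinuousLinearMap)) z :=
    ((eqv n).symm.toContinuousLinearMap.hasFDerivAt).comp z h1
  rw [jm_apply, h2.fderiv]
  unfold coordDeriv
  show (fderiv ℂ (sl (G b) t) (eqv n z)) (eqv n (EuclideanSpace.single a 1)) = _
  congr 1

theorem jac_up {G : Fin n → (Fin n → ℂ) × ℂ → ℂ} {t : ℂ} {y : Fin n → ℂ} {z : Cn n}
    (h : ∀ j, AnalyticAt ℂ (G j) (eqv n z, t)) :
    (jm (up G t y) z).det = jac (fun j => sl (G j) t) (eqv n z) := by
  unfold jac
  congr 1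
  ext a b
  exact jm_up h a b

theorem coordDeriv_sl {f : (Fin n → ℂ) × ℂ → ℂ} {x : Fin n → ℂ} {t : ℂ}
    (h : AnalyticAt ℂ f (x, t)) (i : Fin n) :
    coordDeriv (sl f t) i x = fderiv ℂ f (x, t) (Pi.single i 1, 0) := by
  have h1 : HasFDerivAt (fun x : Fin n → ℂ => (x, t))
      ((ContinuousLinearMap.id ℂ (Fin n → ℂ)).prod 0) x :=
    (hasFDerivAt_id x).prodMk (hasFDerivAt_const t x)
  have h2 : HasFDerivAt (sl f t) ((fderiv ℂ f (x, t)).comp
      ((ContinuousLinearMap.id ℂ (Fin n → ℂ)).prod 0)) x :=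
    (h.differentiableAt.hasFDerivAt).comp x h1
  unfold coordDeriv
  rw [h2.fderiv]
  rfl

theorem jac_cont {G : Fin n → (Fin n → ℂ) × ℂ → ℂ} {q : (Fin n → ℂ) × ℂ}
    (h : ∀ j, AnalyticAt ℂ (G j) q) :
    ContinuousAt (fun p : (Fin n → ℂ) × ℂ => jac (fun j => sl (G j) p.2) p.1) q := by
  have h1 : ∀ᶠ p in 𝓝 q, ∀ j, AnalyticAt ℂ (G j) p :=
    eventually_all.2 fun j => (h j).eventually_analyticAt
  have h2 : (fun p : (Fin n → ℂ) × ℂ => jac (fun j => sl (G j) p.2) p.1) =ᶠ[𝓝 q]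
      fun p => (Matrix.of fun i j => fderiv ℂ (G j) p (Pi.single i 1, 0)).det := by
    filter_upwards [h1] with p hp
    unfold jac
    congr 1
    ext i j
    exact coordDeriv_sl (x := p.1) (t := p.2) (hp j) i
  refine ContinuousAt.congr ?_ h2.symm
  refine Continuous.continuousAt (continuous_id.matrix_det) |>.comp (f := fun p =>
    (Matrix.of fun i j => fderiv ℂ (G j) p (Pi.single i 1, 0) : Matrix (Fin n) (Fin n) ℂ)) ?_
  refine continuousAt_pi.2 fun i => continuousAt_pi.2 fun j => ?_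
  exact ((h j).fderiv.continuousAt).clm_apply continuousAt_const

/-- THE TRACE BOUND FOR FAMILIES -/
theorem rtG (G : Fin n → (Fin n → ℂ) × ℂ → ℂ) (g : (Fin n → ℂ) × ℂ → ℂ)
    (hG : ∀ j, AnalyticAt ℂ (G j) (0, 0)) (hg : AnalyticAt ℂ g (0, 0))
    (hiso : ∀ᶠ x in 𝓝 (0 : Fin n → ℂ), (∀ j, G j (x, 0) = 0) → x = 0) :
    ∃ r₀ > (0 : ℝ), ∀ r, 0 < r → r < r₀ → ∃ δ > (0 : ℝ), ∃ C : ℝ,
      ∀ (t : ℂ) (y : Fin n → ℂ), ‖t‖ < δ → ‖y‖ < δ →
      ∀ Z : Finset (Fin n → ℂ),
      (∀ x, x ∈ Z ↔ x ∈ Metric.ball (0 : Fin n → ℂ) r ∧ ∀ j, G j (x, t) = y j) →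
      (∀ x ∈ Z, jac (fun j => sl (G j) t) x ≠ 0) →
      ‖∑ x ∈ Z, g (x, t) / jac (fun j => sl (G j) t) x‖ ≤ C := by
  have h1 : ∀ᶠ p in 𝓝 ((0 : Fin n → ℂ), (0 : ℂ)), (∀ j, AnalyticAt ℂ (G j) p) ∧ AnalyticAt ℂ g p :=
    (eventually_all.2 fun j => (hG j).eventually_analyticAt).and hg.eventually_analyticAt
  obtain ⟨R1, hR1, hb1⟩ := Metric.eventually_nhds_iff_ball.1 h1
  obtain ⟨R2, hR2, hb2⟩ := Metric.eventually_nhds_iff_ball.1 hiso
  have han : ∀ (x : Fin n → ℂ) (t : ℂ), ‖x‖ < R1 → ‖t‖ < R1 →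
      (∀ j, AnalyticAt ℂ (G j) (x, t)) ∧ AnalyticAt ℂ g (x, t) := by
    intro x t hx ht
    refine hb1 _ ?_
    rw [Metric.mem_ball, ← Prod.zero_eq_mk, dist_zero_right, Prod.norm_def]
    exact max_lt hx ht
  refine ⟨min R1 R2, lt_min hR1 hR2, fun r hr hrR => ?_⟩
  have hrR1 : r < R1 := hrR.trans_le (min_le_left _ _)
  have hrR2 : r < R2 := hrR.trans_le (min_le_right _ _)
  -- the lower bound on the sphere
  have hcS : IsCompact (Metric.sphere (0 : Fin n → ℂ) r) := isCompact_sphere _ _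
  have hc0 : ContinuousOn (fun x : Fin n → ℂ => ‖(fun j => G j (x, 0) : Fin n → ℂ)‖)
      (Metric.sphere (0 : Fin n → ℂ) r) := by
    intro x hx
    have hx' : ‖x‖ = r := by simpa using hx
    refine ContinuousAt.continuousWithinAt ?_
    refine ContinuousAt.norm (continuousAt_pi.2 fun j => ?_)
    exact (an_sl ((han x 0 (by rw [hx']; exact hrR1) (by simpa using hR1)).1 j)).continuousAt
  obtain ⟨e, he, heb⟩ : ∃ e > (0 : ℝ), ∀ x ∈ Metric.sphere (0 : Fin n → ℂ) r,
      3 * e ≤ ‖(fun j => G j (x, 0) : Fin n → ℂ)‖ := by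
    rcases (Metric.sphere (0 : Fin n → ℂ) r).eq_empty_or_nonempty with h | h
    · exact ⟨1, one_pos, fun z hz => by rw [h] at hz; exact absurd hz (notMem_empty z)⟩
    · obtain ⟨x0, hx0, hmin⟩ := hcS.exists_isMinOn h hc0
      have hx0' : ‖x0‖ = r := by simpa using hx0
      have hpos : 0 < ‖(fun j => G j (x0, 0) : Fin n → ℂ)‖ := by
        rw [norm_pos_iff]
        intro h0
        have := hb2 x0 (by rw [Metric.mem_ball, dist_zero_right, hx0']; exact hrR2)
          (fun j => congrFun h0 j)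
        rw [this, norm_zero] at hx0'
        exact hr.ne hx0'
      refine ⟨‖(fun j => G j (x0, 0) : Fin n → ℂ)‖ / 3, by positivity, fun x hx => ?_⟩
      have := hmin hx
      simp only [mem_ofPred_eq] at this
      linarith
  have htube : ∀ᶠ t in 𝓝 (0 : ℂ), ∀ x ∈ Metric.sphere (0 : Fin n → ℂ) r,
      2 * e < ‖(fun j => G j (x, t) : Fin n → ℂ)‖ := by
    refine hcS.eventually_forall_of_forall_eventually
      (P := fun t x => 2 * e < ‖(fun j => G j (x, t) : Fin n → ℂ)‖) fun x hx => ?_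
    have hx' : ‖x‖ = r := by simpa using hx
    have hca : ContinuousAt (fun q : ℂ × (Fin n → ℂ) => ‖(fun j => G j (q.2, q.1) : Fin n → ℂ)‖)
        (0, x) := by
      refine ContinuousAt.norm (continuousAt_pi.2 fun j => ?_)
      have := ((han x 0 (by rw [hx']; exact hrR1) (by simpa using hR1)).1 j).continuousAt
      exact ContinuousAt.comp (f := fun q : ℂ × (Fin n → ℂ) => (q.2, q.1)) (g := G j) (x := (0, x))
        this (continuous_swap.continuousAt)
    have hlt : 2 * e < ‖(fun j => G j (x, 0) : Fin n → ℂ)‖ := by linarith [heb x hx]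
    exact hca.eventually (lt_mem_nhds hlt)
  obtain ⟨δ1, hδ1, hb3⟩ := Metric.eventually_nhds_iff_ball.1 htube
  -- the upper bound
  have hcK : IsCompact (Metric.closedBall (0 : Fin n → ℂ) r ×ˢ Metric.closedBall (0 : ℂ) r) :=
    (isCompact_closedBall _ _).prod (isCompact_closedBall _ _)
  have hcH : ContinuousOn (fun p : (Fin n → ℂ) × ℂ =>
      conj (jac (fun j => sl (G j) p.2) p.1) * g p)
      (Metric.closedBall (0 : Fin n → ℂ) r ×ˢ Metric.closedBall (0 : ℂ) r) := by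
    rintro ⟨x, t⟩ ⟨hx, ht⟩
    have hx' : ‖x‖ ≤ r := by simpa using hx
    have ht' : ‖t‖ ≤ r := by simpa using ht
    have hA := han x t (hx'.trans_lt hrR1) (ht'.trans_lt hrR1)
    exact ((Complex.continuous_conj.continuousAt.comp (jac_cont hA.1)).mul
      hA.2.continuousAt).continuousWithinAt
  obtain ⟨H, hH⟩ := hcK.exists_bound_of_continuousOn hcH
  refine ⟨min δ1 (min e r), lt_min hδ1 (lt_min he hr),
    (cn n)⁻¹ * (((e / 2) ^ (2 * n))⁻¹ * H *
      (volume (eqv n ⁻¹' Metric.ball (0 : Fin n → ℂ) r)).toReal), fun t y ht hy Z hZ hd => ?_⟩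
  have ht1 : ‖t‖ < δ1 := ht.trans_le (min_le_left _ _)
  have htr : ‖t‖ < r := ht.trans_le ((min_le_right _ _).trans (min_le_right _ _))
  have hye : ‖y‖ < e := hy.trans_le ((min_le_right _ _).trans (min_le_left _ _))
  have htR : ‖t‖ < R1 := htr.trans hrR1
  set U : Set (Cn n) := eqv n ⁻¹' Metric.ball (0 : Fin n → ℂ) R1
  set B : Set (Cn n) := eqv n ⁻¹' Metric.ball (0 : Fin n → ℂ) r with hBdef
  have hUo : IsOpen U := Metric.isOpen_ball.preimage (eqv n).continuous
  have hBo : IsOpen B := Metric.isOpen_ball.preimage (eqv n).continuous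
  have hclB : closure B ⊆ eqv n ⁻¹' Metric.closedBall (0 : Fin n → ℂ) r :=
    closure_minimal (preimage_mono Metric.ball_subset_closedBall)
      (Metric.isClosed_closedBall.preimage (eqv n).continuous)
  have hBb : Bornology.IsBounded B := by
    have : IsCompact (eqv n ⁻¹' Metric.closedBall (0 : Fin n → ℂ) r) :=
      (eqv n).toHomeomorph.isCompact_preimage.2 (isCompact_closedBall _ _)
    exact this.isBounded.subset (preimage_mono Metric.ball_subset_closedBall)
  have hclU : closure B ⊆ U := by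
    intro z hz
    have h2 : ‖eqv n z‖ ≤ r := by simpa using hclB hz
    show eqv n z ∈ Metric.ball (0 : Fin n → ℂ) R1
    rw [Metric.mem_ball, dist_zero_right]
    exact h2.trans_lt hrR1
  have hUan : ∀ z ∈ U, (∀ j, AnalyticAt ℂ (G j) (eqv n z, t)) ∧ AnalyticAt ℂ g (eqv n z, t) := by
    intro z hz
    have h2 : ‖eqv n z‖ < R1 := by simpa using (show eqv n z ∈ Metric.ball (0 : Fin n → ℂ) R1 from hz)
    exact han _ _ h2 htR
  have hGan : AnalyticOnNhd ℂ (up G t y) U := fun z hz => an_up (hUan z hz).1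
  have hgan : AnalyticOnNhd ℂ (fun z : Cn n => g (eqv n z, t)) U := fun z hz =>
    AnalyticAt.fun_comp (g := sl g t) (f := fun z : Cn n => eqv n z) (an_sl (hUan z hz).2)
      ((eqv n).toContinuousLinearMap.analyticAt z)
  have hfr : ∀ z ∈ frontier B, e ≤ ‖up G t y z‖ := by
    intro z hz
    rw [hBo.frontier_eq] at hz
    have h2 : ‖eqv n z‖ ≤ r := by simpa using hclB hz.1
    have h3 : r ≤ ‖eqv n z‖ := by
      by_contra h4
      exact hz.2 (by
        show eqv n z ∈ Metric.ball (0 : Fin n → ℂ) r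
        rw [Metric.mem_ball, dist_zero_right]
        exact not_le.1 h4)
    have h5 : eqv n z ∈ Metric.sphere (0 : Fin n → ℂ) r := by
      rw [mem_sphere_iff_norm, sub_zero]; exact le_antisymm h2 h3
    have h6 := hb3 t (by rw [Metric.mem_ball, dist_zero_right]; exact ht1) _ h5
    refine le_trans ?_ norm_up
    have h7 : ‖(fun j => G j (eqv n z, t) : Fin n → ℂ)‖ ≤
        ‖(fun j => G j (eqv n z, t) - y j : Fin n → ℂ)‖ + ‖y‖ := by
      have : (fun j => G j (eqv n z, t) : Fin n → ℂ) =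
          (fun j => G j (eqv n z, t) - y j : Fin n → ℂ) + y := by
        ext j; simp
      rw [this]
      refine (norm_add_le _ _).trans ?_
      simp
    linarith
  have hinj : Function.Injective (eqv n).symm := (eqv n).symm.injective
  have hZ' : ∀ z, z ∈ Z.map ⟨(eqv n).symm, hinj⟩ ↔ z ∈ B ∧ up G t y z = 0 := by
    intro z
    rw [Finset.mem_map, up_zero_iff]
    constructor
    · rintro ⟨x, hx, rfl⟩
      have h2 := (hZ x).1 hx
      refine ⟨?_, ?_⟩
      · show eqv n ((eqv n).symm x) ∈ Metric.ball (0 : Fin n → ℂ) r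
        rw [ContinuousLinearEquiv.apply_symm_apply]; exact h2.1
      · intro j
        show G j (eqv n ((eqv n).symm x), t) = y j
        rw [ContinuousLinearEquiv.apply_symm_apply]; exact h2.2 j
    · rintro ⟨h2, h3⟩
      exact ⟨eqv n z, (hZ _).2 ⟨h2, h3⟩, (eqv n).symm_apply_apply z⟩
  have hfin := trace_le (g := fun z : Cn n => g (eqv n z, t)) hUo hBo hBb hclU hGan hgan he hfr hZ'
    (H := H) ?_ ?_
  · rw [Finset.sum_map] at hfin
    have hsum : ∑ x ∈ Z, g (x, t) / jac (fun j => sl (G j) t) x =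
        ∑ x ∈ Z, g (eqv n ((⟨(eqv n).symm, hinj⟩ : (Fin n → ℂ) ↪ Cn n) x), t) /
          (jm (up G t y) ((⟨(eqv n).symm, hinj⟩ : (Fin n → ℂ) ↪ Cn n) x)).det := by
      refine Finset.sum_congr rfl fun x hx => ?_
      have hx2 := ((hZ x).1 hx).1
      have hxz : eqv n ((eqv n).symm x) = x := (eqv n).apply_symm_apply x
      have hxU : (eqv n).symm x ∈ U := by
        show eqv n ((eqv n).symm x) ∈ Metric.ball (0 : Fin n → ℂ) R1
        rw [hxz]
        exact Metric.ball_subset_ball hrR1.le hx2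
      show _ = g (eqv n ((eqv n).symm x), t) / (jm (up G t y) ((eqv n).symm x)).det
      rw [jac_up (hUan _ hxU).1, hxz]
    rw [hsum]
    exact hfin
  · intro z hz
    rw [Finset.mem_map] at hz
    obtain ⟨x, hx, rfl⟩ := hz
    have hx2 := ((hZ x).1 hx).1
    have hxz : eqv n ((eqv n).symm x) = x := (eqv n).apply_symm_apply x
    have hxU : (eqv n).symm x ∈ U := by
      show eqv n ((eqv n).symm x) ∈ Metric.ball (0 : Fin n → ℂ) R1
      rw [hxz]
      exact Metric.ball_subset_ball hrR1.le hx2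
    show (jm (up G t y) ((eqv n).symm x)).det ≠ 0
    rw [jac_up (hUan _ hxU).1, hxz]
    exact hd x hx
  · intro z hz
    have hzU : z ∈ U := hclU (subset_closure hz)
    rw [jac_up (hUan _ hzU).1]
    refine hH (eqv n z, t) ⟨?_, ?_⟩
    · exact Metric.ball_subset_closedBall hz
    · rw [Metric.mem_closedBall, dist_zero_right]; exact htr.le

/-- the gradient of an analytic family is an analytic family -/
theorem an_coord {F : (Fin n → ℂ) × ℂ → ℂ} {x : Fin n → ℂ} {t : ℂ} (hF : AnalyticAt ℂ F (x, t))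
    (i : Fin n) : AnalyticAt ℂ (fun p : (Fin n → ℂ) × ℂ => coordDeriv (sl F p.2) i p.1) (x, t) := by
  have h1 : (fun p : (Fin n → ℂ) × ℂ => coordDeriv (sl F p.2) i p.1) =ᶠ[𝓝 (x, t)]
      fun p => fderiv ℂ F p (Pi.single i 1, 0) := by
    filter_upwards [hF.eventually_analyticAt] with p hp
    exact coordDeriv_sl (x := p.1) (t := p.2) hp i
  have h2 : AnalyticAt ℂ (fun p => fderiv ℂ F p (Pi.single i 1, 0)) (x, t) :=
    ((ContinuousLinearMap.apply ℂ ℂ ((Pi.single i 1, 0) : (Fin n → ℂ) × ℂ)).analyticAt _).fun_comp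
      hF.fderiv
  exact h2.congr h1.symm

/-- THE TRACE BOUND for the gradient of a family of functions -/
theorem rt {F g : (Fin n → ℂ) × ℂ → ℂ} (hF : AnalyticAt ℂ F (0, 0)) (hg : AnalyticAt ℂ g (0, 0))
    (hiso : ∀ᶠ x in 𝓝 (0 : Fin n → ℂ), (∀ i, coordDeriv (sl F 0) i x = 0) → x = 0) :
    ∃ r₀ > (0 : ℝ), ∀ r, 0 < r → r < r₀ → ∃ δ > (0 : ℝ), ∃ C : ℝ,
      ∀ (t : ℂ) (y : Fin n → ℂ), ‖t‖ < δ → ‖y‖ < δ →
      ∀ Z : Finset (Fin n → ℂ),
      (∀ x, x ∈ Z ↔ x ∈ Metric.ball (0 : Fin n → ℂ) r ∧ ∀ i, coordDeriv (sl F t) i x = y i) →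
      (∀ x ∈ Z, hs (sl F t) x ≠ 0) →
      ‖∑ x ∈ Z, g (x, t) / hs (sl F t) x‖ ≤ C :=
  rtG (fun i p => coordDeriv (sl F p.2) i p.1) g (fun i => an_coord hF i) hg hiso

end

end Crest.Agent.R257.RtD_838
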