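import Crest.Agent.R257.KUP_952
import Crest.Agent.R257.OutE_309

/-!
# R257 (S0395), leaf UPP-SQ (helper636): `SQStmt` of KUP_952

* `herm_ext`  : a Hermitian matrix is determined by its quadratic form
* `exists_lin`: the covectors `dV (lin a) θ z`, `a : E3`, are all covectors
* `tr_of_mt`  : transition rule of a metric `Mt f r H`
* `bun_of_mt` : `Mt f r H → Bun f 0 r H (dV g)`
* `sqStmt`    : **`SQStmt`**
-/

set_option autoImplicit false
set_option linter.unusedSectionVars false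

open Set Filter Topology Complex MeasureTheory
open scoped ContDiff Matrix ComplexConjugate ComplexOrder ENNReal

namespace Crest.Agent.R257.SQ_636

open Crest.Agent.R275.Geo Crest.Agent.R275.EDR890
open Crest.Agent.R273.Fock_243 Crest.Agent.R273.Calc_243
open Crest.Agent.R273.Bkn_243 Crest.Agent.R273.Pos_243 Crest.Agent.R273.BochA_101
open Crest.Agent.R273.BochB_101
open Crest.Agent.R273.BochC_101 Crest.Agent.R273.BochD_101
open Crest.Agent.R273.Hess_333 Crest.Agent.R273.HessB_333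
open Crest.Agent.R273.Defs_333 (lev)
open Crest.Agent.R273.YauDefs_635 (cH)
open Crest.Agent.R273.YauMax_635 (cH_eq_hess)
open Crest.Agent.R257.C2F1_625 Crest.Agent.R257.C2F2_625 Crest.Agent.R257.C2F3_625
open Crest.Agent.R257.C2F4_335 Crest.Agent.R257.C2F5_335 Crest.Agent.R257.C2F6_335
open Crest.Agent.R257.Defs_219
open Crest.Agent.R257.PN_835 (nsq)
open Crest.Agent.R257.Aff_835 (eta2a)
open Crest.Agent.R257.KED_952 Crest.Agent.R257.KEG_952
open Crest.Agent.R257.Ked1_397 Crest.Agent.R257.Ked2_397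
open Crest.Agent.R257.V1Defs_822 (SmL LvlOK)
open Crest.Agent.R257.LossA_625 (fx Lv pe_lv)
open Crest.Agent.R257.OutA_309 Crest.Agent.R257.OutB_309 Crest.Agent.R257.LossD_309
open Crest.Agent.R257.OutC_309 Crest.Agent.R257.OutD_309 Crest.Agent.R257.OutE_309
open Crest.Agent.R257.KUP_952

noncomputable section

/-- a Hermitian matrix is determined by its quadratic form -/
theorem herm_ext {A B : Matrix (Fin 2) (Fin 2) ℂ} (hA : A.IsHermitian) (hB : B.IsHermitian)
    (h : ∀ v : Fin 2 → ℂ, (star v ⬝ᵥ (A *ᵥ v)).re = (star v ⬝ᵥ (B *ᵥ v)).re) : A = B := by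
  have a00 := hA.apply 0 0
  have a11 := hA.apply 1 1
  have a10 := hA.apply 1 0
  have b00 := hB.apply 0 0
  have b11 := hB.apply 1 1
  have b10 := hB.apply 1 0
  have h1 := h ![1, 0]
  have h2 := h ![0, 1]
  have h3 := h ![1, 1]
  have h4 := h ![1, I]
  simp [Matrix.mulVec, dotProduct, Fin.sum_univ_two] at h1 h2 h3 h4
  have ia := congrArg Complex.im a00
  have ib := congrArg Complex.im b00
  have ja := congrArg Complex.im a11
  have jb := congrArg Complex.im b11
  have ra := congrArg Complex.re a10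
  have rb := congrArg Complex.re b10
  have sa := congrArg Complex.im a10
  have sb := congrArg Complex.im b10
  simp at ia ib ja jb ra rb sa sb
  ext i j
  fin_cases i <;> fin_cases j
  all_goals
    apply Complex.ext
    all_goals
      simp
      try linarith

/-- quadratic form after a linear change -/
theorem quad_mul (A B : Matrix (Fin 2) (Fin 2) ℂ) (v : Fin 2 → ℂ) :
    star (A *ᵥ v) ⬝ᵥ (B *ᵥ (A *ᵥ v)) = star v ⬝ᵥ ((Aᴴ * B * A) *ᵥ v) := by
  rw [Matrix.mul_assoc, ← Matrix.mulVec_mulVec, ← Matrix.mulVec_mulVec, Matrix.star_mulVec,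
    Matrix.dotProduct_mulVec (star v)]

theorem lin_an (a x : E3) : AnalyticAt ℂ (lin a) x := by
  show AnalyticAt ℂ (fun x : E3 => ∑ i, a i * x i) x
  refine Finset.analyticAt_fun_sum _ fun i _ => analyticAt_const.mul ?_
  exact (ContinuousLinearMap.proj (R := ℂ) (φ := fun _ : Fin 3 => ℂ) i).analyticAt x

theorem dV_lin {θ : Cn 2 → E3} {z : Cn 2} (hθ : DifferentiableAt ℂ θ z) (a : E3) (i : Fin 2) :
    dV (lin a) θ z i = ∑ j, a j * (fderiv ℂ θ z (EuclideanSpace.single i 1)) j := by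
  set L : E3 →L[ℂ] ℂ := ∑ j, a j • ContinuousLinearMap.proj (R := ℂ) (φ := fun _ : Fin 3 => ℂ) j
    with hL
  have e : (fun z => lin a (θ z)) = fun z => L (θ z) := by
    funext z
    simp [lin, hL]
  have h1 : fderiv ℂ (fun z => lin a (θ z)) z = L.comp (fderiv ℂ θ z) := by
    rw [e]
    exact (L.hasFDerivAt.comp z hθ.hasFDerivAt).fderiv
  show fderiv ℂ (fun z => lin a (θ z)) z (EuclideanSpace.single i 1) = _
  rw [h1]
  simp [hL]

variable {f : E3 → ℂ} {s : ℂ} {r : ℝ}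

/-- the covectors `dV (lin a) θ z` are all covectors -/
theorem exists_lin {O : Set (Cn 2)} {θ : Cn 2 → E3} {z : Cn 2} (hP : PE f s r θ O) (hz : z ∈ O)
    (ξ : Fin 2 → ℂ) : ∃ a : E3, dV (lin a) θ z = ξ := by
  have hθ : DifferentiableAt ℂ θ z := hP.par.hol.differentiableAt (hP.par.isOpen.mem_nhds hz)
  set M : Matrix (Fin 2) (Fin 3) ℂ :=
    Matrix.of fun i j => (fderiv ℂ θ z (EuclideanSpace.single i 1)) j with hM
  have hli : LinearIndependent ℂ M.row := by
    rw [Fintype.linearIndependent_iff]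
    intro c hc
    have h1 : fderiv ℂ θ z (∑ i, c i • (EuclideanSpace.single i (1 : ℂ) : Cn 2)) = 0 := by
      rw [map_sum, ← hc]
      refine Finset.sum_congr rfl fun i _ => ?_
      rw [map_smul]
      rfl
    have h2 := hP.par.imm z hz _ h1
    intro i
    have h3 := congrArg (fun v : Cn 2 => v i) h2
    fin_cases i <;> simpa [Fin.sum_univ_two] using h3
  have hr : M.rank = 2 := by simpa using hli.rank_matrix
  have hsurj : Function.Surjective M.mulVecLin := by
    rw [← LinearMap.range_eq_top]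
    apply Submodule.eq_top_of_finrank_eq
    rw [Matrix.rank] at hr
    rw [hr]
    simp
  obtain ⟨a, ha⟩ := hsurj ξ
  refine ⟨a, ?_⟩
  funext i
  rw [dV_lin hθ, ← ha]
  simp only [Matrix.mulVecLin_apply, Matrix.mulVec, dotProduct, hM, Matrix.of_apply]
  exact Finset.sum_congr rfl fun j _ => mul_comm _ _

/-- reparametrisation -/
theorem pe_trans {O U : Set (Cn 2)} {θ θ' : Cn 2 → E3} {T : Cn 2 → Cn 2} (hP : PE f s r θ O)
    (hU : IsOpen U) (hT : ∀ y ∈ U, DifferentiableAt ℂ T y)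
    (hTe : ∀ y ∈ U, T y ∈ O ∧ θ' y = θ (T y)) (hd : ∀ y ∈ U, (Jac T y).det ≠ 0) :
    PE f s r θ' U := by
  have hev : ∀ y ∈ U, θ' =ᶠ[𝓝 y] fun w => θ (T w) := fun y hy => by
    filter_upwards [hU.mem_nhds hy] with w hw using (hTe w hw).2
  have hdt : ∀ y ∈ U, DifferentiableAt ℂ θ (T y) := fun y hy =>
    hP.par.hol.differentiableAt (hP.par.isOpen.mem_nhds (hTe y hy).1)
  refine ⟨⟨hU, fun y hy => ?_, fun y hy => ?_, fun y hy v hv => ?_⟩, fun y hy => ?_,
    fun y hy => ?_⟩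
  · exact (((hdt y hy).comp y (hT y hy)).congr_of_eventuallyEq (hev y hy)).differentiableWithinAt
  · rw [(hTe y hy).2]
    exact hP.par.lvl _ (hTe y hy).1
  · have h1 : fderiv ℂ θ' y = (fderiv ℂ θ (T y)).comp (fderiv ℂ T y) := by
      rw [(hev y hy).fderiv_eq]
      exact fderiv_fun_comp y (hdt y hy) (hT y hy)
    rw [h1] at hv
    have h2 := hP.par.imm _ (hTe y hy).1 _ hv
    have h3 : (Jac T y) *ᵥ (fun a => v a) = 0 := by
      funext a
      have h4 : v = ∑ c, v c • (EuclideanSpace.single c (1 : ℂ) : Cn 2) := by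
        ext b
        simp [Fin.sum_univ_two, PiLp.single_apply]
        fin_cases b <;> simp
      have h5 := congrArg (fun v : Cn 2 => v a) h2
      rw [h4, map_sum] at h5
      simp only [map_smul] at h5
      simp only [Matrix.mulVec, dotProduct, Jac, Matrix.of_apply]
      simp only [Fin.sum_univ_two, PiLp.add_apply, PiLp.smul_apply, smul_eq_mul] at h5 ⊢
      rw [mul_comm, mul_comm ((fderiv ℂ T y _).ofLp a)]
      simpa using h5
    have h6 := Matrix.eq_zero_of_mulVec_eq_zero (hd y hy) h3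
    ext a
    exact congrFun h6 a
  · rw [(hTe y hy).2]
    exact hP.ne _ (hTe y hy).1
  · rw [(hTe y hy).2]
    exact hP.lt _ (hTe y hy).1

variable {H : Form}

theorem jac_ev {T : Cn 2 → Cn 2} {z' : Cn 2} (hT : ∀ᶠ w in 𝓝 z', DifferentiableAt ℂ T w)
    (hdet : (Jac T z').det ≠ 0) : ∀ᶠ y in 𝓝 z', (Jac T y).det ≠ 0 := by
  have hJij : ∀ i j, ∀ᶠ y in 𝓝 z', DifferentiableAt ℂ (fun w => Jac T w i j) y :=
    fun i j => J_hol hT i j
  have h1 : ContinuousAt (fun y => (Jac T y).det) z' := by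
    have : (fun y => (Jac T y).det) = fun y => Jac T y 0 0 * Jac T y 1 1 -
        Jac T y 0 1 * Jac T y 1 0 := funext fun y => Matrix.det_fin_two _
    rw [this]
    exact ((hJij 0 0).self_of_nhds.continuousAt.mul
      (hJij 1 1).self_of_nhds.continuousAt).sub
      ((hJij 0 1).self_of_nhds.continuousAt.mul (hJij 1 0).self_of_nhds.continuousAt)
  exact h1.eventually_ne hdet

/-- pointwise transition rule -/
theorem tr_pt (m : Mt f r H) {O U : Set (Cn 2)} {θ θ' : Cn 2 → E3} {T : Cn 2 → Cn 2}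
    (hP : PE f 0 r θ O) (hU : IsOpen U) (hT : ∀ y ∈ U, DifferentiableAt ℂ T y)
    (hTe : ∀ y ∈ U, T y ∈ O ∧ θ' y = θ (T y)) (hd : ∀ y ∈ U, (Jac T y).det ≠ 0) {w : Cn 2}
    (hw : w ∈ U) : H θ (T w) = ((Jac T w)ᵀ)ᴴ * H θ' w * (Jac T w)ᵀ := by
  have hP' := pe_trans hP hU hT hTe hd
  have hTw := (hTe w hw).1
  have hH' := (m.pos θ' U hP' w hw).isHermitian
  refine herm_ext (m.pos θ O hP _ hTw).isHermitian ?_ fun ξ => ?_
  · show (((Jac T w)ᵀ)ᴴ * H θ' w * (Jac T w)ᵀ)ᴴ = _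
    rw [Matrix.conjTranspose_mul, Matrix.conjTranspose_mul, Matrix.conjTranspose_conjTranspose,
      hH'.eq, Matrix.mul_assoc]
  · obtain ⟨a, rfl⟩ := exists_lin hP hTw ξ
    rw [← quad_mul]
    have h1 : dV (lin a) θ' w = (Jac T w)ᵀ *ᵥ dV (lin a) θ (T w) :=
      dV_trans (fun x _ => lin_an a x) hP (hT w hw)
        (by filter_upwards [hU.mem_nhds hw] with y hy using hTe y hy)
    rw [← h1]
    exact m.ind θ O θ' U (T w) w hP hP' hTw hw (hTe w hw).2.symm a

/-- **transition rule** -/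
theorem tr_of_mt (m : Mt f r H) {O : Set (Cn 2)} {θ θ' : Cn 2 → E3} {T : Cn 2 → Cn 2}
    {z' : Cn 2} (hP : PE f 0 r θ O) (hT : ∀ᶠ w in 𝓝 z', DifferentiableAt ℂ T w)
    (hTe : ∀ᶠ w in 𝓝 z', T w ∈ O ∧ θ' w = θ (T w)) (hdet : (Jac T z').det ≠ 0) :
    ∀ᶠ w in 𝓝 z', H θ' w = ((Jac T w)ᵀ⁻¹)ᴴ * H θ (T w) * (Jac T w)ᵀ⁻¹ := by
  have hdc := jac_ev hT hdet
  obtain ⟨U, hU, hUo, hUz⟩ := eventually_nhds_iff.1 (hT.and (hTe.and hdc))
  filter_upwards [hUo.mem_nhds hUz] with w hw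
  have h1 := tr_pt m hP hUo (fun y hy => (hU y hy).1) (fun y hy => (hU y hy).2.1)
    (fun y hy => (hU y hy).2.2) hw
  have hu : IsUnit ((Jac T w)ᵀ).det := by
    rw [Matrix.det_transpose]; exact isUnit_iff_ne_zero.2 (hU w hw).2.2
  have h2 : (Jac T w)ᵀ * (Jac T w)ᵀ⁻¹ = 1 := Matrix.mul_nonsing_inv _ hu
  have h3 : ((Jac T w)ᵀ⁻¹)ᴴ * ((Jac T w)ᵀ)ᴴ = 1 := by
    rw [← Matrix.conjTranspose_mul, h2, Matrix.conjTranspose_one]
  rw [h1]
  calc H θ' w = (1 : Matrix (Fin 2) (Fin 2) ℂ) * H θ' w * 1 := by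
        rw [Matrix.one_mul, Matrix.mul_one]
    _ = (((Jac T w)ᵀ⁻¹)ᴴ * ((Jac T w)ᵀ)ᴴ) * H θ' w * ((Jac T w)ᵀ * (Jac T w)ᵀ⁻¹) := by
        rw [h2, h3]
    _ = _ := by simp only [Matrix.mul_assoc]

/-- the inverse transposed Jacobian matrix is holomorphic -/
theorem jinv_hol {T : Cn 2 → Cn 2} {z' : Cn 2} (hT : ∀ᶠ w in 𝓝 z', DifferentiableAt ℂ T w)
    (hdet : (Jac T z').det ≠ 0) : HolM z' fun w => ((Jac T w)ᵀ)⁻¹ := by
  have hJij : ∀ i j, ∀ᶠ y in 𝓝 z', DifferentiableAt ℂ (fun w => Jac T w i j) y :=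
    fun i j => J_hol hT i j
  have hdc := jac_ev hT hdet
  intro i j
  have e : ∀ y, ((Jac T y)ᵀ)⁻¹ i j = ((Jac T y).det)⁻¹ * (Jac T y)ᵀ.adjugate i j := by
    intro y
    rw [Matrix.inv_def, Ring.inverse_eq_inv', Matrix.det_transpose]
    rfl
  have ha : ∀ᶠ y in 𝓝 z', DifferentiableAt ℂ (fun w => (Jac T w)ᵀ.adjugate i j) y := by
    have e2 : ∀ w, (Jac T w)ᵀ.adjugate i j =
        !![Jac T w 1 1, -Jac T w 1 0; -Jac T w 0 1, Jac T w 0 0] i j := by
      intro w
      rw [Matrix.adjugate_fin_two]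
      rfl
    simp only [e2]
    filter_upwards [hJij 0 0, hJij 0 1, hJij 1 0, hJij 1 1] with y a b c d
    fin_cases i <;> fin_cases j
    · exact d
    · exact c.neg
    · exact b.neg
    · exact a
  have hdd : ∀ᶠ y in 𝓝 z', DifferentiableAt ℂ (fun w => (Jac T w).det) y := by
    have : (fun y => (Jac T y).det) = fun y => Jac T y 0 0 * Jac T y 1 1 -
        Jac T y 0 1 * Jac T y 1 0 := funext fun y => Matrix.det_fin_two _
    rw [this]
    filter_upwards [hJij 0 0, hJij 0 1, hJij 1 0, hJij 1 1] with y a b c d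
    exact (a.fun_mul d).fun_sub (b.fun_mul c)
  simp only [e]
  filter_upwards [ha, hdd, hdc] with y h1 h2 h3
  exact (h2.fun_inv h3).fun_mul h1

/-- **the bundle `Ω¹` with a metric `H` and the section `dg`** -/
theorem bun_of_mt (m : Mt f r H) {g : E3 → ℂ} (hg : ∀ x, nsq x < r ^ 2 → AnalyticAt ℂ g x) :
    Bun f 0 r H (dV g) where
  bv θ O hP z hz := by
    have hO := hP.par.isOpen
    refine ⟨?_, ?_, fun i => ?_⟩
    · filter_upwards [hO.mem_nhds hz] with y hy
      exact fun a b => (m.sm θ O hP a b).contDiffAt (hO.mem_nhds hy)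
    · filter_upwards [hO.mem_nhds hz] with y hy
      exact m.pos θ O hP y hy
    · filter_upwards [hO.mem_nhds hz] with y hy
      exact (dV_hol hg hP i).differentiableAt (hO.mem_nhds hy)
  tr θ O hP θ' z' T hT hTO hTe hdet := by
    have hTe' := eventually_eventually_nhds.2 hTe
    have hT' := eventually_eventually_nhds.2 hT
    have hdc := jac_ev hT hdet
    refine ⟨fun w => ((Jac T w)ᵀ)⁻¹, hT, jinv_hol hT hdet, ?_, tr_of_mt m hP hT hTe hdet, ?_⟩
    · rw [Matrix.det_nonsing_inv, Ring.inverse_eq_inv', Matrix.det_transpose]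
      exact inv_ne_zero hdet
    · filter_upwards [hTe', hT', hdc] with w h1 h2 h3
      rw [dV_trans hg hP h2.self_of_nhds h1, Matrix.mulVec_mulVec, Matrix.nonsing_inv_mul _
        (by rw [Matrix.det_transpose]; exact isUnit_iff_ne_zero.2 h3), Matrix.one_mulVec]

/-- `dV g ≠ 0` -/
theorem NoZ.dV_ne {g : E3 → ℂ} (hg : NoZ f r g) {O : Set (Cn 2)} {θ : Cn 2 → E3}
    (hP : PE f 0 r θ O) {z : Cn 2} (hz : z ∈ O) : dV g θ z ≠ 0 := by
  intro h0
  refine hg θ O hP z hz ?_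
  ext w
  rw [fderiv_eq_dV, h0]
  simp

open Classical in
/-- **`SQStmt`** -/
theorem sqStmt : SQStmt := by
  intro f r H L m ν hν g hg hz a ha
  obtain ⟨r₁, r₂, h1, h2, h3, h4⟩ := ha.supp
  have B := bun_of_mt m hg
  have hlv : ∀ᵐ x ∂ν, f x = 0 ∧ x ≠ 0 ∧ nsq x < r ^ 2 := by
    rw [ae_iff]; exact hν.null
  -- cut off outside the level
  set a' : E3 → ℝ := fun x => if x ∈ Lv f r then a x else 0 with ha'
  have e0 : ∀ x ∈ Lv f r, a' x = a x := fun x hx => if_pos hx
  have hs : SmL f 0 r a' := by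
    intro θ O hP
    refine (ha.sm θ O hP).congr fun z hz => ?_
    exact e0 _ (pe_lv hP hz)
  set K : Set E3 := {x | r₁ ^ 2 ≤ nsq x ∧ nsq x ≤ r₂ ^ 2} with hK
  have hKc : IsCompact K :=
    (isCompact_nsq_le (r₂ ^ 2)).of_isClosed_subset
      ((isClosed_le continuous_const continuous_nsq).inter
        (isClosed_le continuous_nsq continuous_const)) fun x hx => hx.2
  obtain ⟨k1, k2, k3⟩ := Bun.e1L B L hν hs hKc
    (fun x hx => hx.2.trans_lt (by nlinarith))
    (fun x hx _ h0 => by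
      have h5 := hx.1
      rw [h0] at h5
      have h6 : nsq (0 : E3) = 0 := by simp [nsq]
      rw [h6] at h5
      nlinarith)
    (fun x hx hxK => by
      by_cases hl : x ∈ Lv f r
      · rw [e0 x hl]
        refine h4 x hl ?_
        by_contra h5
        push Not at h5
        exact hxK ⟨h5.1.le, h5.2.le⟩
      · exact if_neg hl)
    (fun θ O hP z hz' h0 => absurd h0 (NoZ.dV_ne hz hP hz'))
    ∅ (by simp) (fun θ O hP z hz' => by simp [NoZ.dV_ne hz hP hz'])
  have e1 : (fun x => a' x * c2x f H x) =ᵐ[ν] fun x => a x * c2h f H x := by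
    filter_upwards [hlv] with x hx
    rw [e0 x hx]
    rfl
  have e2 : ox f H (dV g) a' =ᵐ[ν] Gd f H g a := by
    filter_upwards [hlv] with x hx
    refine ox_congr L hs ?_ hx.1 hx.2.1 hx.2.2
    have o1 : ∀ᶠ y : E3 in 𝓝 x, y ≠ 0 := isOpen_ne.mem_nhds hx.2.1
    have o2 : ∀ᶠ y : E3 in 𝓝 x, nsq y < r ^ 2 :=
      (isOpen_lt continuous_nsq continuous_const).mem_nhds hx.2.2
    filter_upwards [o1, o2] with y y1 y2 y3
    exact e0 y ⟨y3, y1, y2⟩
  refine ⟨k1.congr e1, k2.congr e2, ?_⟩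
  rw [← integral_congr_ae e1, ← integral_congr_ae e2, k3, Finset.sum_empty, mul_zero, add_zero]

end

end Crest.Agent.R257.SQ_636
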