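import Crest.Agent.R266.SCV

/-!
# Row 257, leaf D-SH (helper297), part 4: maximum principle off a hypersurface

`max_off`: `Δ` open connected in a finite dimensional complex space, `D` holomorphic on `Δ`, not
identically zero, `A ⊆ Δ` compact.  There is a compact `T ⊆ Δ ∩ {D ≠ 0}` such that
`sup_A ‖a‖ ≤ sup_T ‖a‖` for every `a` holomorphic on `Δ`.
-/

set_option autoImplicit false
set_option linter.unusedSectionVars false

open Set Metric Topology Filter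

namespace Crest.Agent.R257.Sh_297

noncomputable section

variable {Y : Type*} [NormedAddCommGroup Y] [NormedSpace ℂ Y] [FiniteDimensional ℂ Y]

/-- local version -/
theorem max_off_local {Δ : Set Y} (hΔ : IsOpen Δ) (hc : IsPreconnected Δ) {D : Y → ℂ}
    (hD : AnalyticOnNhd ℂ D Δ) (hne : ∃ y ∈ Δ, D y ≠ 0) {y₀ : Y} (hy₀ : y₀ ∈ Δ) :
    ∃ N ∈ 𝓝 y₀, ∃ T : Set Y, IsCompact T ∧ T ⊆ Δ ∧ (∀ y ∈ T, D y ≠ 0) ∧
      ∀ a : Y → ℂ, DifferentiableOn ℂ a Δ → ∀ C : ℝ, (∀ y ∈ T, ‖a y‖ ≤ C) →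
        ∀ y ∈ N, ‖a y‖ ≤ C := by
  have : FiniteDimensional ℝ Y := FiniteDimensional.complexToReal Y
  have : ProperSpace Y := FiniteDimensional.proper ℝ Y
  obtain ⟨ε, hε, hεΔ⟩ := Metric.isOpen_iff.1 hΔ y₀ hy₀
  -- a point with `D ≠ 0` near `y₀`
  have h1 := R266.SCV.dense_ne_zero hΔ hc hD hne y₀ hy₀
  obtain ⟨y₁, ⟨-, hy₁0⟩, hy₁⟩ := (h1.and_eventually (ball_mem_nhds y₀ (half_pos hε))).exists
  set v : Y := y₁ - y₀ with hv
  have hvn : ‖v‖ < ε / 2 := by rw [hv, ← dist_eq_norm]; exact hy₁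
  -- the function on the line
  set g : ℂ → ℂ := fun τ => D (y₀ + τ • v) with hg
  have hmem : ∀ y ∈ ball y₀ (ε / 2), ∀ τ ∈ closedBall (0 : ℂ) 1, y + τ • v ∈ Δ := by
    intro y hy τ hτ
    refine hεΔ ?_
    rw [mem_ball, dist_eq_norm]
    have h2 : ‖τ • v‖ ≤ ‖v‖ := by
      rw [norm_smul]
      have : ‖τ‖ ≤ 1 := by simpa using hτ
      nlinarith [norm_nonneg v]
    have h3 : ‖y - y₀‖ < ε / 2 := by rw [← dist_eq_norm]; exact hy
    calc ‖y + τ • v - y₀‖ = ‖(y - y₀) + τ • v‖ := by congr 1; abel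
      _ ≤ ‖y - y₀‖ + ‖τ • v‖ := norm_add_le _ _
      _ < ε := by linarith
  have hy₀b : y₀ ∈ ball y₀ (ε / 2) := mem_ball_self (half_pos hε)
  have hga : AnalyticOnNhd ℂ g (closedBall 0 1) := by
    intro τ hτ
    have h2 : AnalyticAt ℂ (fun τ : ℂ => y₀ + τ • v) τ := by fun_prop
    exact AnalyticAt.comp (g := D) (hD _ (hmem y₀ hy₀b τ hτ)) h2
  have hg1 : g 1 ≠ 0 := by
    have h9 : y₀ + (1 : ℂ) • v = y₁ := by rw [hv]; simp
    show D (y₀ + (1 : ℂ) • v) ≠ 0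
    rw [h9]; exact hy₁0
  have hgev : ∀ᶠ τ in 𝓝[≠] (0 : ℂ), g τ ≠ 0 := by
    rcases (hga 0 (by simp)).eventually_eq_zero_or_eventually_ne_zero with h | h
    · exfalso
      have := hga.eqOn_zero_of_preconnected_of_eventuallyEq_zero
        (convex_closedBall (0 : ℂ) 1).isPreconnected (by simp) h
      exact hg1 (this (by simp))
    · exact h
  obtain ⟨ρ₀, hρ₀, hρ⟩ := Metric.mem_nhdsWithin_iff.1 hgev
  set ρ : ℝ := min (ρ₀ / 2) 1 with hρdef
  have hρpos : 0 < ρ := lt_min (by positivity) one_pos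
  have hρ1 : ρ ≤ 1 := min_le_right _ _
  have hρρ₀ : ρ < ρ₀ := (min_le_left _ _).trans_lt (by linarith)
  have hcirc : ∀ τ ∈ sphere (0 : ℂ) ρ, g τ ≠ 0 := by
    intro τ hτ
    have hτn : ‖τ‖ = ρ := by simpa using hτ
    refine hρ ⟨?_, ?_⟩
    · rw [mem_ball, dist_zero_right, hτn]; exact hρρ₀
    · intro h
      rw [mem_singleton_iff] at h
      rw [h, norm_zero] at hτn
      exact hρpos.ne hτn
  -- tube lemma
  have hopen : IsOpen {p : Y × ℂ | p.1 + p.2 • v ∈ Δ ∩ {y | D y ≠ 0}} := by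
    have h2 : Continuous (fun p : Y × ℂ => p.1 + p.2 • v) := by fun_prop
    have h3 : IsOpen (Δ ∩ {y | D y ≠ 0}) := by
      have : Δ ∩ {y | D y ≠ 0} = Δ ∩ D ⁻¹' {w | w ≠ 0} := rfl
      rw [this]
      exact hD.continuousOn.isOpen_inter_preimage hΔ isOpen_ne
    exact h3.preimage h2
  have htube := generalized_tube_lemma (s := {y₀}) (t := sphere (0 : ℂ) ρ) isCompact_singleton
    (isCompact_sphere 0 ρ) hopen (by
      rintro ⟨y, τ⟩ ⟨hy, hτ⟩
      rw [mem_singleton_iff] at hy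
      simp only at hy hτ
      subst hy
      refine ⟨hmem y hy₀b τ ?_, hcirc τ hτ⟩
      exact (closedBall_subset_closedBall hρ1) (sphere_subset_closedBall hτ))
  obtain ⟨u, w, huo, hwo, hyu, hsw, huw⟩ := htube
  obtain ⟨η, hη, hηu⟩ := Metric.isOpen_iff.1 huo y₀ (hyu (mem_singleton _))
  set η' : ℝ := min (η / 2) (ε / 4) with hη'
  have hη'pos : 0 < η' := lt_min (by positivity) (by positivity)
  refine ⟨ball y₀ η', ball_mem_nhds _ hη'pos,
    (fun p : Y × ℂ => p.1 + p.2 • v) '' (closedBall y₀ η' ×ˢ sphere (0 : ℂ) ρ), ?_, ?_, ?_, ?_⟩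
  · exact ((isCompact_closedBall _ _).prod (isCompact_sphere _ _)).image (by fun_prop)
  · rintro _ ⟨⟨y, τ⟩, ⟨hy, hτ⟩, rfl⟩
    have hyη : y ∈ ball y₀ η := (closedBall_subset_ball ((min_le_left _ _).trans_lt (by linarith))) hy
    exact (huw (mk_mem_prod (hηu hyη) (hsw hτ))).1
  · rintro _ ⟨⟨y, τ⟩, ⟨hy, hτ⟩, rfl⟩
    have hyη : y ∈ ball y₀ η := (closedBall_subset_ball ((min_le_left _ _).trans_lt (by linarith))) hy
    exact (huw (mk_mem_prod (hηu hyη) (hsw hτ))).2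
  · intro a ha C hC y hy
    have hyε : y ∈ ball y₀ (ε / 2) := ball_subset_ball ((min_le_right _ _).trans (by linarith)) hy
    have h2 : DiffContOnCl ℂ (fun τ : ℂ => a (y + τ • v)) (ball 0 ρ) := by
      refine DifferentiableOn.diffContOnCl ?_
      rw [closure_ball _ hρpos.ne']
      refine ha.comp (by fun_prop : Differentiable ℂ fun τ : ℂ => y + τ • v).differentiableOn ?_
      intro τ hτ
      exact hmem y hyε τ (closedBall_subset_closedBall hρ1 hτ)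
    have h3 := Complex.norm_le_of_forall_mem_frontier_norm_le isBounded_ball h2 (C := C) (by
      intro τ hτ
      rw [frontier_ball _ hρpos.ne'] at hτ
      exact hC _ ⟨(y, τ), ⟨ball_subset_closedBall hy, hτ⟩, rfl⟩)
      (subset_closure (mem_ball_self hρpos))
    simpa using h3

/-- maximum principle off a hypersurface -/
theorem max_off {Δ : Set Y} (hΔ : IsOpen Δ) (hc : IsPreconnected Δ) {D : Y → ℂ}
    (hD : AnalyticOnNhd ℂ D Δ) (hne : ∃ y ∈ Δ, D y ≠ 0) {A : Set Y} (hA : IsCompact A)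
    (hAΔ : A ⊆ Δ) :
    ∃ T : Set Y, IsCompact T ∧ T ⊆ Δ ∧ (∀ y ∈ T, D y ≠ 0) ∧
      ∀ a : Y → ℂ, DifferentiableOn ℂ a Δ → ∀ C : ℝ, (∀ y ∈ T, ‖a y‖ ≤ C) →
        ∀ y ∈ A, ‖a y‖ ≤ C := by
  refine hA.induction_on (p := fun S => ∃ T : Set Y, IsCompact T ∧ T ⊆ Δ ∧ (∀ y ∈ T, D y ≠ 0) ∧
      ∀ a : Y → ℂ, DifferentiableOn ℂ a Δ → ∀ C : ℝ, (∀ y ∈ T, ‖a y‖ ≤ C) →
        ∀ y ∈ S, ‖a y‖ ≤ C) ?_ ?_ ?_ ?_
  · exact ⟨∅, isCompact_empty, empty_subset _, by simp, by simp⟩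
  · rintro S S' hSS ⟨T, h1, h2, h3, h4⟩
    exact ⟨T, h1, h2, h3, fun a ha C hC y hy => h4 a ha C hC y (hSS hy)⟩
  · rintro S S' ⟨T, h1, h2, h3, h4⟩ ⟨T', h1', h2', h3', h4'⟩
    refine ⟨T ∪ T', h1.union h1', union_subset h2 h2', ?_, ?_⟩
    · rintro y (hy | hy)
      · exact h3 y hy
      · exact h3' y hy
    · rintro a ha C hC y (hy | hy)
      · exact h4 a ha C (fun w hw => hC w (Or.inl hw)) y hy
      · exact h4' a ha C (fun w hw => hC w (Or.inr hw)) y hy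
  · intro y hy
    obtain ⟨N, hN, T, h1, h2, h3, h4⟩ := max_off_local hΔ hc hD hne (hAΔ hy)
    exact ⟨N, mem_nhdsWithin_of_mem_nhds hN, T, h1, h2, h3, h4⟩

end

end Crest.Agent.R257.Sh_297
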