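import Crest.Agent.R257.KEG_952
import Crest.Agent.R257.SkelA_219
import Crest.Agent.R257.ColAdd_812

/-!
R257 / SkelG1_952: `L(g g') = L(g) + L(g') + 2 I(g,g') - (μ + 1)`, `L(h) = col (mnr f h)`.
-/

set_option autoImplicit false

open Topology Filter MeasureTheory Set
open Crest.AlgGeometry.Germ

noncomputable section

namespace Crest.Agent.R257.SkelG_952

open Crest.Agent.R257.Defs_219 Crest.Agent.R257.KEG_952
open Crest.Agent.R257.Skel_219
open Crest.Agent.R257.CM_812 (col3_mul col3_swap)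

/-- `(f, g, a g + X) = (f, g, X)` -/
theorem gens3_add {f g h h' b : E3 → ℂ} (hb : AnalyticAt ℂ b 0)
    (eh : ∀ᶠ x in 𝓝 (0 : E3), h' x = h x + b x * g x) :
    gens ![f, g, h'] = gens ![f, g, h] := by
  have key : ∀ {h h' b : E3 → ℂ}, AnalyticAt ℂ b 0 →
      (∀ᶠ x in 𝓝 (0 : E3), h' x = h x + b x * g x) → gens ![f, g, h'] ≤ gens ![f, g, h] := by
    intro h h' b hb eh
    refine gens_le fun j => ?_
    fin_cases j
    · refine ⟨![fun _ => 1, fun _ => 0, fun _ => 0], fun i => ?_, ?_⟩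
      · fin_cases i <;> exact analyticAt_const
      · exact Eventually.of_forall fun x => by simp [Fin.sum_univ_three]
    · refine ⟨![fun _ => 0, fun _ => 1, fun _ => 0], fun i => ?_, ?_⟩
      · fin_cases i <;> exact analyticAt_const
      · exact Eventually.of_forall fun x => by simp [Fin.sum_univ_three]
    · refine ⟨![fun _ => 0, b, fun _ => 1], fun i => ?_, ?_⟩
      · fin_cases i
        · exact analyticAt_const
        · exact hb
        · exact analyticAt_const
      · filter_upwards [eh] with x hx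
        simp [Fin.sum_univ_three, hx, add_comm]
  refine le_antisymm (key hb eh) (key (b := fun x => -b x) hb.neg ?_)
  filter_upwards [eh] with x hx
  rw [hx]; ring

theorem Dt_mul {f g g' h : E3 → ℂ} (hg : AnalyticAt ℂ g 0) (hg' : AnalyticAt ℂ g' 0) :
    ∀ᶠ x in 𝓝 (0 : E3), Dt f (fun x => g x * g' x) h x =
      g x * Dt f g' h x + g' x * Dt f g h x := by
  filter_upwards [hg.eventually_analyticAt, hg'.eventually_analyticAt] with x h1 h2
  have e : ∀ i, coordDeriv (fun x => g x * g' x) i x =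
      g x * coordDeriv g' i x + g' x * coordDeriv g i x := by
    intro i
    unfold coordDeriv
    have h3 : HasFDerivAt (fun x => g x * g' x) (g x • fderiv ℂ g' x + g' x • fderiv ℂ g x) x :=
      h1.differentiableAt.hasFDerivAt.mul h2.differentiableAt.hasFDerivAt
    rw [h3.fderiv]
    simp
  simp only [Dt_eq, e]
  ring

/-- additivity for the Jacobian determinant of a product -/
theorem col_Dt_mul {f g g' h : E3 → ℂ} (hf : AnalyticAt ℂ f 0) (hg : AnalyticAt ℂ g 0)
    (hg' : AnalyticAt ℂ g' 0) (hh : AnalyticAt ℂ h 0) (h1 : ColFin ![f, g, g'])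
    (h2 : ColFin ![f, g, Dt f g h]) (h3 : ColFin ![f, g', Dt f g' h]) :
    ColFin ![f, fun x => g x * g' x, Dt f (fun x => g x * g' x) h] ∧
    col ![f, fun x => g x * g' x, Dt f (fun x => g x * g' x) h] =
      2 * col ![f, g, g'] + col ![f, g, Dt f g h] + col ![f, g', Dt f g' h] := by
  have hD := analyticAt_Dt hf hg hh
  have hD' := analyticAt_Dt hf hg' hh
  have hgg : AnalyticAt ℂ (fun x => g x * g' x) 0 := hg.mul hg'
  have hX : AnalyticAt ℂ (Dt f (fun x => g x * g' x) h) 0 := analyticAt_Dt hf hgg hh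
  have e := Dt_mul (f := f) (h := h) hg hg'
  -- `(f, g, X) = (f, g, g' D)`
  have e1 : gens ![f, g, Dt f (fun x => g x * g' x) h] = gens ![f, g, fun x => g' x * Dt f g h x] :=
    gens3_add hD' (by filter_upwards [e] with x hx; rw [hx]; ring)
  have e2 : gens ![f, g', Dt f (fun x => g x * g' x) h] = gens ![f, g', fun x => g x * Dt f g' h x] :=
    gens3_add hD (by filter_upwards [e] with x hx; rw [hx]; ring)
  have hgD : AnalyticAt ℂ (fun x => g' x * Dt f g h x) 0 := hg'.mul hD
  have hgD' : AnalyticAt ℂ (fun x => g x * Dt f g' h x) 0 := hg.mul hD'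
  have s1 := col3_swap hf hg hgD
  have s2 := col3_swap hf hg' hgD'
  have s3 := col3_swap hf hg hg'
  have s4 := col3_swap hf hg hD
  have s5 := col3_swap hf hg' hD'
  have m1 := col3_mul hf hg' hD hg
  have m2 := col3_mul hf hg hD' hg'
  have c1 : ColFin ![f, g', g] := s3.1.1 h1
  have c2 : ColFin ![f, Dt f g h, g] := s4.1.1 h2
  have c3 : ColFin ![f, Dt f g' h, g'] := s5.1.1 h3
  have f1 : ColFin ![f, g, Dt f (fun x => g x * g' x) h] := by
    rw [colFin_congr e1]
    exact s1.1.2 (m1.1.2 ⟨c1, c2⟩)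
  have f2 : ColFin ![f, g', Dt f (fun x => g x * g' x) h] := by
    rw [colFin_congr e2]
    exact s2.1.2 (m2.1.2 ⟨h1, c3⟩)
  have k1 : col ![f, g, Dt f (fun x => g x * g' x) h] = col ![f, g, g'] + col ![f, g, Dt f g h] := by
    rw [col_congr e1]
    have := m1.2 c1 c2
    have a1 := s1.2
    have a3 := s3.2
    have a4 := s4.2
    exact a1.trans (this.trans (by omega))
  have k2 : col ![f, g', Dt f (fun x => g x * g' x) h] = col ![f, g, g'] + col ![f, g', Dt f g' h] := by
    rw [col_congr e2]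
    have := m2.2 h1 c3
    have a1 := s2.2
    have a5 := s5.2
    exact a1.trans (this.trans (by omega))
  have m3 := col3_mul hf hg hg' hX
  refine ⟨m3.1.2 ⟨f1, f2⟩, ?_⟩
  rw [m3.2 f1 f2, k1, k2]
  ring

/-- **`L(g g') + μ + 1 = L(g) + L(g') + 2 I(g,g')`** -/
theorem L_mul (lg : LGStmt) (gen : GenStmt) {f g g' : E3 → ℂ} (hf : Iso f)
    (hg : AnalyticAt ℂ g 0) (hg' : AnalyticAt ℂ g' 0) (g0 : g 0 = 0) (g0' : g' 0 = 0)
    (h1 : ColFin ![f, g, g']) (h2 : ColFin (mnr f g)) (h3 : ColFin (mnr f g')) :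
    ColFin (mnr f fun x => g x * g' x) ∧
    col (mnr f fun x => g x * g' x) + (col (par f) + 1) =
      col (mnr f g) + col (mnr f g') + 2 * col ![f, g, g'] := by
  obtain ⟨h, hh, h0, a1, a2, a3, a4⟩ := gen f g g' hf hg hg' g0 g0' h1 h2 h3
  have hfin := hf.fin
  have b1 := lg f g h hf.an hg hh hf.zero g0 h0 hfin a1 a3
  have b2 := lg f g' h hf.an hg' hh hf.zero g0' h0 hfin a2 a4
  have b3 := col_Dt_mul hf.an hg hg' hh h1 a3 a4
  have m := col3_mul hf.an hg hg' hh
  have hgg : AnalyticAt ℂ (fun x => g x * g' x) 0 := hg.mul hg'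
  have b4 := lg f (fun x => g x * g' x) h hf.an hgg hh hf.zero (by simp [g0]) h0 hfin
    (m.1.2 ⟨a1, a2⟩) b3.1
  refine ⟨b4.1, ?_⟩
  have c1 := b1.2
  have c2 := b2.2
  have c3 : col (mnr f fun x => g x * g' x) + col ![f, (fun x => g x * g' x : E3 → ℂ), h] =
      col (par f) + col ![f, (fun x => g x * g' x : E3 → ℂ), Dt f (fun x => g x * g' x) h] + 1 :=
    b4.2
  have c4 : col ![f, (fun x => g x * g' x : E3 → ℂ), Dt f (fun x => g x * g' x) h] =
      2 * col ![f, g, g'] + col ![f, g, Dt f g h] + col ![f, g', Dt f g' h] := b3.2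
  have c5 : col ![f, (fun x => g x * g' x : E3 → ℂ), h] = col ![f, g, h] + col ![f, g', h] :=
    m.2 a1 a2
  omega

end Crest.Agent.R257.SkelG_952
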