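import Crest.Agent.R257.SkelV_952
import Crest.Agent.R257.KEG_952

/-!
R257 / SkelG2_952: change of the radius and of the cut-off.
-/

set_option autoImplicit false

open Topology Filter MeasureTheory Set
open scoped ENNReal ContDiff Matrix
open Crest.AlgGeometry.Germ

noncomputable section

namespace Crest.Agent.R257.SkelG_952

open Crest.Agent.R275.Geo
open Crest.Agent.R257.Defs_219 Crest.Agent.R257.KED_952 Crest.Agent.R257.KEG_952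
open Crest.Agent.R257.SkelV_952
open Crest.Agent.R257.PN_835 (nsq)
open Crest.Agent.R257.Aff_835 (eta2a nga)
open Crest.Agent.R257.V1Defs_822 (SmL LvlOK lgh)

section mono

variable {f : E3 → ℂ} {s : ℂ} {r r' C : ℝ} {u : E3 → ℝ}

theorem sq_mono (h0 : 0 ≤ r') (h : r' ≤ r) : r' ^ 2 ≤ r ^ 2 := by gcongr

theorem pe_mono (h0 : 0 ≤ r') (h : r' ≤ r) {θ : Cn 2 → E3} {O : Set (Cn 2)}
    (hθ : PE f s r' θ O) : PE f s r θ O :=
  ⟨hθ.par, hθ.ne, fun z hz => (hθ.lt z hz).trans_le (sq_mono h0 h)⟩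

theorem ke_mono (h0 : 0 ≤ r') (h : r' ≤ r) (hu : KEon f s r u) : KEon f s r' u :=
  ⟨fun θ O hθ => hu.sm θ O (pe_mono h0 h hθ), fun θ O hθ => hu.pos θ O (pe_mono h0 h hθ),
    fun θ O hθ => hu.ma θ O (pe_mono h0 h hθ)⟩

theorem bd_mono (h0 : 0 ≤ r') (h : r' ≤ r) (hu : Bd f s r C u) : Bd f s r' C u :=
  ⟨fun x h1 h2 h3 => hu.lo x h1 h2 (h3.trans_le (sq_mono h0 h)),
    fun x h1 h2 h3 => hu.hi x h1 h2 (h3.trans_le (sq_mono h0 h)),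
    fun θ O hθ => hu.eu θ O (pe_mono h0 h hθ)⟩

theorem sml_mono (h0 : 0 ≤ r') (h : r' ≤ r) {a : E3 → ℝ} (ha : SmL f s r a) : SmL f s r' a :=
  fun θ O hθ => ha θ O (pe_mono h0 h hθ)

theorem ctl_mono (h0 : 0 ≤ r') (h : r' ≤ r) {a : E3 → ℝ} (ha : CtL f s r a) : CtL f s r' a :=
  fun θ O hθ => ha θ O (pe_mono h0 h hθ)

theorem esc_mono (h0 : 0 ≤ r') (h : r' ≤ r) {A : ℝ} (hu : Esc f r u A) : Esc f r' u A :=
  ⟨hu.pos, fun x h1 h2 h3 => hu.one x h1 h2 (h3.trans_le (sq_mono h0 h)), hu.inf,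
    fun θ O hθ => hu.grad θ O (pe_mono h0 h hθ)⟩

theorem upb_mono (h0 : 0 ≤ r') (h : r' ≤ r) {A : ℝ} {N : ℕ} {φ : E3 → ℝ} {g : E3 → ℂ}
    (hu : UpB f r u A N φ g) : UpB f r' u A N φ g := fun θ O hθ => hu θ O (pe_mono h0 h hθ)

theorem lob_mono (h0 : 0 ≤ r') (h : r' ≤ r) {A : ℝ} {N : ℕ} {φ : E3 → ℝ} {g : E3 → ℂ}
    (hu : LoB f r u A N φ g) : LoB f r' u A N φ g := fun θ O hθ => hu θ O (pe_mono h0 h hθ)

theorem cut_mono (h : r' ≤ r) {χ : E3 → ℝ} (hχ : Cut r' χ) : Cut r χ := by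
  obtain ⟨ρ, h1, h2, h3⟩ := hχ.supp
  exact ⟨hχ.sm, hχ.nn, hχ.le, hχ.one, ρ, h1, h2.trans_le h, h3⟩

variable {Φ : E3 × PP → ℂ} {τ₀ : PP} {l : Filter PP} {w : PP → E3 → ℝ}

theorem chart_mono (h0 : 0 ≤ r') (h : r' ≤ r) {O : Set (Cn 2)} {N : Set PP}
    {Θ : Cn 2 × PP → E3} (hΘ : Chart Φ r' τ₀ O N Θ) : Chart Φ r τ₀ O N Θ :=
  ⟨hΘ.nhd, hΘ.an, fun τ hτ => pe_mono h0 h (hΘ.par τ hτ)⟩

theorem smd_mono (h0 : 0 < r') (h : r' ≤ r) (hD : SmD Φ τ₀ l r C w u) : SmD Φ τ₀ l r' C w u where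
  r_pos := h0
  an x hx := hD.an x (hx.trans (sq_mono h0.le h))
  ne := hD.ne
  lim := hD.lim
  iso := hD.iso
  sm0 x h1 h2 h3 := hD.sm0 x h1 (h2.trans (sq_mono h0.le h)) h3
  sm := hD.sm.mono fun _ hτ x h1 h2 h3 => hτ x h1 (h2.trans (sq_mono h0.le h)) h3
  ke := hD.ke.mono fun _ hτ => ⟨ke_mono h0.le h hτ.1, bd_mono h0.le h hτ.2⟩
  ke0 := ⟨ke_mono h0.le h hD.ke0.1, bd_mono h0.le h hD.ke0.2⟩
  conv O N Θ hΘ := hD.conv O N Θ (chart_mono h0.le h hΘ)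
  nz := hD.nz

end mono

/-! ### restriction of the measure -/

theorem isOpen_bl (r : ℝ) : IsOpen {x : E3 | nsq x < r ^ 2} := isOpen_lt continuous_nsq continuous_const

/-- the restriction to a smaller ball -/
def rs (r : ℝ) (ν : Measure E3) : Measure E3 := ν.restrict {x | nsq x < r ^ 2}

theorem isnu_rs {f : E3 → ℂ} {s : ℂ} {r r' : ℝ} (h0 : 0 ≤ r') (h : r' ≤ r) {ν : Measure E3}
    (hν : IsNu f s r ν) : IsNu f s r' (rs r' ν) where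
  null := by
    rw [rs, Measure.restrict_apply' (isOpen_bl r').measurableSet]
    refine measure_mono_null ?_ hν.null
    rintro x ⟨h1, h2⟩ h3
    exact h1 ⟨h3.1, h3.2.1, h2⟩
  par θ O hθ hinj F hF := by
    rw [← hν.par θ O (pe_mono h0 h hθ) hinj F hF, rs]
    rw [Measure.restrict_restrict_of_subset]
    rintro _ ⟨z, hz, rfl⟩
    exact hθ.lt z hz

theorem lint_rs {r : ℝ} {ν : Measure E3} {F : E3 → ℝ≥0∞} (hF : ∀ x, r ^ 2 ≤ nsq x → F x = 0) :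
    ∫⁻ x, F x ∂(rs r ν) = ∫⁻ x, F x ∂ν := by
  rw [rs]
  exact setLIntegral_eq_of_support_subset (fun x hx => by
    by_contra hcon
    exact hx (hF x (not_lt.1 hcon)))

theorem int_rs {r : ℝ} {ν : Measure E3} {F : E3 → ℝ} (hF : ∀ x, r ^ 2 ≤ nsq x → F x = 0) :
    ∫ x, F x ∂(rs r ν) = ∫ x, F x ∂ν := by
  rw [rs]
  exact setIntegral_eq_integral_of_forall_compl_eq_zero (fun x hx => hF x (not_lt.1 hx))

end Crest.Agent.R257.SkelG_952
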