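import Crest.Agent.R257.SkelG4_952

/-!
R257 / SkelG5_952: constants, product rule, mixed masses of proportional weights.
-/

set_option autoImplicit false

open Topology Filter MeasureTheory Set
open scoped ENNReal ContDiff Matrix
open Crest.AlgGeometry.Germ

noncomputable section

namespace Crest.Agent.R257.SkelG_952

open Crest.Agent.R275.Geo
open Crest.Agent.R257.Defs_219 Crest.Agent.R257.KED_952 Crest.Agent.R257.KEG_952
open Crest.Agent.R257.SkelV_952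
open Crest.Agent.R257.PN_835 (nsq)
open Crest.Agent.R257.Aff_835 (eta2a nga)
open Crest.Agent.R257.V1Defs_822 (SmL LvlOK lgh)
open Crest.Agent.R273.Defs_333 (lev)
open Crest.Agent.R257.V1Pe_822 (exists_pe mxd_mul mxd_comm mxd_ke)
open Crest.Agent.R257.V1W_822 (iso_zero nsq_lt_of)

section const

variable {f : E3 → ℂ} {r : ℝ} {u : E3 → ℝ} {A A' : ℝ} {N : ℕ} {φ : E3 → ℝ} {h : E3 → ℂ}

theorem esc_A (hu : KEon f 0 r u) (hE : Esc f r u A) (hA : A ≤ A') : Esc f r u A' where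
  pos := hE.pos.trans_le hA
  one x h1 h2 h3 := (hE.one x h1 h2 h3).trans (by linarith)
  inf := hE.inf
  grad θ O hθ z hz v := by
    refine (hE.grad θ O hθ z hz v).trans ?_
    have h1 := hE.one (θ z) (hθ.par.lvl z hz) (hθ.ne z hz) (hθ.lt z hz)
    have h2 : 0 ≤ lev (fun z => u (θ z)) z v := by
      rcases eq_or_ne v 0 with rfl | hv
      · rw [show lev (fun z => u (θ z)) z (0 : Cn 2) = 0 by
          unfold Crest.Agent.R273.Defs_333.lev
          have e : ∀ m : Fin 2 → Cn 2, (∃ i, m i = 0) →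
              iteratedFDeriv ℝ 2 (fun z => u (θ z)) z m = 0 := fun m ⟨i, hi⟩ =>
            ContinuousMultilinearMap.map_coord_zero _ i hi
          rw [e _ ⟨0, by simp⟩, e _ ⟨0, by simp⟩, add_zero]]
      · exact (hu.pos θ O hθ z hz v hv).le
    have h3 : A - u (θ z) ≤ A' - u (θ z) := by linarith
    have h4 : 0 < A := hE.pos
    have h5 : 0 ≤ A' := by linarith
    have h6 : 0 ≤ A - u (θ z) := by linarith
    gcongr

theorem lev_nn (hu : KEon f 0 r u) {θ : Cn 2 → E3} {O : Set (Cn 2)} (hθ : PE f 0 r θ O)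
    {z : Cn 2} (hz : z ∈ O) (v : Cn 2) : 0 ≤ lev (fun z => u (θ z)) z v := by
  rcases eq_or_ne v 0 with rfl | hv
  · rw [show lev (fun z => u (θ z)) z (0 : Cn 2) = 0 by
      unfold Crest.Agent.R273.Defs_333.lev
      have e : ∀ m : Fin 2 → Cn 2, (∃ i, m i = 0) →
          iteratedFDeriv ℝ 2 (fun z => u (θ z)) z m = 0 := fun m ⟨i, hi⟩ =>
        ContinuousMultilinearMap.map_coord_zero _ i hi
      rw [e _ ⟨0, by simp⟩, e _ ⟨0, by simp⟩, add_zero]]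
  · exact (hu.pos θ O hθ z hz v hv).le

theorem upb_A (hu : KEon f 0 r u) (h1 : ∀ x, f x = 0 → x ≠ 0 → nsq x < r ^ 2 → 1 ≤ A - u x)
    (hA0 : 0 < A) (hB : UpB f r u A N φ h) (hA : A ≤ A') : UpB f r u A' N φ h := by
  intro θ O hθ z hz v
  refine (hB θ O hθ z hz v).trans ?_
  have h2 := h1 (θ z) (hθ.par.lvl z hz) (hθ.ne z hz) (hθ.lt z hz)
  have h3 := lev_nn hu hθ hz v
  have h4 : A - u (θ z) ≤ A' - u (θ z) := by linarith
  have h5 := (Real.exp_pos (φ (θ z))).le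
  have h6 : 0 ≤ A - u (θ z) := by linarith
  have h7 : 0 ≤ A' := by linarith
  gcongr

theorem lob_A (h1 : ∀ x, f x = 0 → x ≠ 0 → nsq x < r ^ 2 → 1 ≤ A - u x)
    (hA0 : 0 < A) (hB : LoB f r u A N φ h) (hA : A ≤ A') : LoB f r u A' N φ h := by
  intro θ O hθ z hz
  obtain ⟨v, hv, h2⟩ := hB θ O hθ z hz
  refine ⟨v, hv, h2.trans ?_⟩
  have h3 := h1 (θ z) (hθ.par.lvl z hz) (hθ.ne z hz) (hθ.lt z hz)
  have h4 : A - u (θ z) ≤ A' - u (θ z) := by linarith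
  have h6 : 0 ≤ A - u (θ z) := by linarith
  have h7 : 0 ≤ A' := by linarith
  gcongr

/-- product rule for the upper bounds -/
theorem upb_mul {g : E3 → ℂ} (hu : KEon f 0 r u)
    (h1 : ∀ x, f x = 0 → x ≠ 0 → nsq x < r ^ 2 → 1 ≤ A - u x) (hA0 : 0 < A)
    (hg : ∀ x, nsq x < r ^ 2 → AnalyticAt ℂ g x) (hh : ∀ x, nsq x < r ^ 2 → AnalyticAt ℂ h x)
    (hne : ∀ x, f x = 0 → x ≠ 0 → nsq x < r ^ 2 → g x ≠ 0 ∨ h x ≠ 0)
    (hB : UpB f r u A N (lgh g h) g) (hB' : UpB f r u A N (lgh g h) h) :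
    UpB f r u (2 * A) N (fun x => 2 * lgh g h x) fun x => g x * h x := by
  intro θ O hθ z hz v
  have a1 := hB θ O hθ z hz v
  have a2 := hB' θ O hθ z hz v
  have hgz := hg _ (hθ.lt z hz)
  have hhz := hh _ (hθ.lt z hz)
  have dg : DifferentiableAt ℂ (fun z => g (θ z)) z :=
    hgz.differentiableAt.comp z (hθ.par.diffAt hz)
  have dh : DifferentiableAt ℂ (fun z => h (θ z)) z :=
    hhz.differentiableAt.comp z (hθ.par.diffAt hz)
  have e1 : fderiv ℂ (fun z => g (θ z) * h (θ z)) z v =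
      g (θ z) * fderiv ℂ (fun z => h (θ z)) z v + h (θ z) * fderiv ℂ (fun z => g (θ z)) z v := by
    have h3 : HasFDerivAt (fun z => g (θ z) * h (θ z))
        (g (θ z) • fderiv ℂ (fun z => h (θ z)) z + h (θ z) • fderiv ℂ (fun z => g (θ z)) z) z :=
      dg.hasFDerivAt.mul dh.hasFDerivAt
    rw [h3.fderiv]
    rfl
  set G := fderiv ℂ (fun z => g (θ z)) z v with hG
  set H := fderiv ℂ (fun z => h (θ z)) z v with hH
  set L := lev (fun z => u (θ z)) z v with hL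
  have hL0 : 0 ≤ L := lev_nn hu hθ hz v
  have hpos : 0 < ‖g (θ z)‖ ^ 2 + ‖h (θ z)‖ ^ 2 := by
    rcases hne _ (hθ.par.lvl z hz) (hθ.ne z hz) (hθ.lt z hz) with hx | hx
    · have := norm_pos_iff.2 hx; positivity
    · have := norm_pos_iff.2 hx; positivity
  have e2 : Real.exp (lgh g h (θ z)) = ‖g (θ z)‖ ^ 2 + ‖h (θ z)‖ ^ 2 := by
    unfold Crest.Agent.R257.V1Defs_822.lgh
    rw [Real.exp_log hpos]
  have e3 : Real.exp (2 * lgh g h (θ z)) =
      (‖g (θ z)‖ ^ 2 + ‖h (θ z)‖ ^ 2) * Real.exp (lgh g h (θ z)) := by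
    rw [two_mul, Real.exp_add, e2]
  have h2 := h1 (θ z) (hθ.par.lvl z hz) (hθ.ne z hz) (hθ.lt z hz)
  have h6 : 0 ≤ A - u (θ z) := by linarith
  have key : ‖g (θ z) * H + h (θ z) * G‖ ^ 2 ≤
      (‖g (θ z)‖ ^ 2 + ‖h (θ z)‖ ^ 2) * (‖H‖ ^ 2 + ‖G‖ ^ 2) := by
    have k1 : ‖g (θ z) * H + h (θ z) * G‖ ≤ ‖g (θ z)‖ * ‖H‖ + ‖h (θ z)‖ * ‖G‖ := by
      refine (norm_add_le _ _).trans ?_
      rw [norm_mul, norm_mul]
    have k2 : ‖g (θ z) * H + h (θ z) * G‖ ^ 2 ≤ (‖g (θ z)‖ * ‖H‖ + ‖h (θ z)‖ * ‖G‖) ^ 2 := by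
      gcongr
    nlinarith [sq_nonneg (‖g (θ z)‖ * ‖G‖ - ‖h (θ z)‖ * ‖H‖)]
  show ‖fderiv ℂ (fun z => g (θ z) * h (θ z)) z v‖ ^ 2 ≤
    2 * A * (2 * A - u (θ z)) ^ N * Real.exp (2 * lgh g h (θ z)) * L
  rw [e1]
  refine key.trans ?_
  rw [e3]
  set S := ‖g (θ z)‖ ^ 2 + ‖h (θ z)‖ ^ 2 with hS
  set X := Real.exp (lgh g h (θ z)) with hX
  have hX0 : 0 < X := Real.exp_pos _
  have h7 : (A - u (θ z)) ^ N ≤ (2 * A - u (θ z)) ^ N := by
    have : A - u (θ z) ≤ 2 * A - u (θ z) := by linarith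
    gcongr
  have h8 : ‖H‖ ^ 2 + ‖G‖ ^ 2 ≤ 2 * (A * (2 * A - u (θ z)) ^ N * X * L) := by
    have b1 : A * (A - u (θ z)) ^ N * X * L ≤ A * (2 * A - u (θ z)) ^ N * X * L := by gcongr
    linarith
  calc S * (‖H‖ ^ 2 + ‖G‖ ^ 2) ≤ S * (2 * (A * (2 * A - u (θ z)) ^ N * X * L)) := by gcongr
    _ = 2 * A * (2 * A - u (θ z)) ^ N * (S * X) * L := by ring

/-- lower bounds exclude zeros -/
theorem noz_of_lob (hu : KEon f 0 r u) (hB : LoB f r u A N φ h) : NoZ f r h := by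
  intro θ O hθ z hz h0
  obtain ⟨v, hv, h2⟩ := hB θ O hθ z hz
  rw [h0] at h2
  have h3 := hu.pos θ O hθ z hz v hv
  have h4 : 0 < Real.exp (φ (θ z)) * lev (fun z => u (θ z)) z v := mul_pos (Real.exp_pos _) h3
  simp at h2
  linarith

end const

/-! ### masses of proportional weights -/

section mss

variable {f : E3 → ℂ} {r : ℝ} {u : E3 → ℝ} {a b χ : E3 → ℝ} {ν : Measure E3}

theorem mss_mul_right (hL : LvlOK f 0 r) (hν : IsNu f 0 r ν) (hb : SmL f 0 r b) (c : ℝ) :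
    mss ν f a (fun x => c * b x) χ = c * mss ν f a b χ := by
  unfold mss
  have e1 : ∫ x, a x * mxd f (fun x => c * b x) χ x ∂ν = c * ∫ x, a x * mxd f b χ x ∂ν := by
    rw [← integral_const_mul]
    refine integral_congr_ae ?_
    filter_upwards [isnu_ae hν] with x hx
    rw [mxd_mul hL hb c hx.2.1 hx.2.2 hx.1]
    ring
  have e2 : ∫ x, χ x * mxd f a (fun x => c * b x) x ∂ν = c * ∫ x, χ x * mxd f a b x ∂ν := by
    rw [← integral_const_mul]
    refine integral_congr_ae ?_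
    filter_upwards [isnu_ae hν] with x hx
    rw [mxd_comm hL hx.2.1 hx.2.2 hx.1, mxd_mul hL hb c hx.2.1 hx.2.2 hx.1,
      mxd_comm hL hx.2.1 hx.2.2 hx.1]
    ring
  rw [e1, e2]
  ring

theorem mss_mul_left (hL : LvlOK f 0 r) (hν : IsNu f 0 r ν) (ha : SmL f 0 r a) (c : ℝ) :
    mss ν f (fun x => c * a x) b χ = c * mss ν f a b χ := by
  unfold mss
  have e1 : ∫ x, c * a x * mxd f b χ x ∂ν = c * ∫ x, a x * mxd f b χ x ∂ν := by
    rw [← integral_const_mul]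
    refine integral_congr_ae (Eventually.of_forall fun x => ?_)
    show c * a x * _ = c * (a x * _)
    ring
  have e2 : ∫ x, χ x * mxd f (fun x => c * a x) b x ∂ν = c * ∫ x, χ x * mxd f a b x ∂ν := by
    rw [← integral_const_mul]
    refine integral_congr_ae ?_
    filter_upwards [isnu_ae hν] with x hx
    rw [mxd_mul hL ha c hx.2.1 hx.2.2 hx.1]
    ring
  rw [e1, e2]
  ring

/-- `mxd f a a = 0` if `det cH = 0` -/
theorem mxd_self_zero (hL : LvlOK f 0 r)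
    (ha : SmL f 0 r a) (h0 : ∀ θ O, PE f 0 r θ O → ∀ z ∈ O,
      (Crest.Agent.R273.YauDefs_635.cH (fun z => a (θ z)) z).det = 0)
    {x : E3} (hx : x ≠ 0) (hr : nsq x < r ^ 2) (hfx : f x = 0) : mxd f a a x = 0 := by
  obtain ⟨θ, O, z, hθ, hz, hθz, -⟩ := exists_pe hL hx hr hfx
  have h1 := (Ked2_397.denStmt f 0 r hL.pos hL.an hL.sm θ O hθ).1 a a (ha θ O hθ) (ha θ O hθ) z hz
  rw [C2F1_625.pd_self, h0 θ O hθ z hz, hθz] at h1
  have h2 : 0 < eta2a (n := 2) f θ z := Loc_835.eta2a_pos hθ.par hz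
    (hL.sm _ (hθ.ne z hz) (hθ.lt z hz) (hθ.par.lvl z hz))
  simpa [h2.ne'] using h1

/-- `mss u u = mas` -/
theorem mss_self (hL : LvlOK f 0 r) (hν : IsNu f 0 r ν) (hu : KEon f 0 r u)
    (hχ : Cut r χ) (hmeas : AEMeasurable (fun x => χ x * Real.exp (u x)) ν) :
    mss ν f u u χ = mas ν f u χ := by
  unfold mss mas TOT
  have h2 : ∫ x, χ x * Real.exp (u x) ∂ν = (VOL ν u χ).toReal := by
    rw [integral_eq_lintegral_of_nonneg_ae
      (Eventually.of_forall fun x => mul_nonneg (hχ.nn x) (Real.exp_pos _).le)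
      hmeas.aestronglyMeasurable]
    rfl
  have h3 : ∫ x, χ x * mxd f u u x ∂ν = 2 * ∫ x, χ x * Real.exp (u x) ∂ν := by
    rw [← integral_const_mul]
    refine integral_congr_ae ?_
    filter_upwards [isnu_ae hν] with x hx
    rw [mxd_ke hL hu hx.2.1 hx.2.2 hx.1]
    ring
  rw [h3, h2]

end mss

end Crest.Agent.R257.SkelG_952
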