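import Crest.Agent.R257.V3A_218
import Crest.Agent.R257.KedM1_941
import Crest.Agent.R257.KEG_952
import Crest.Agent.R257.M3Cnt_5

/-!
R257 / V3B_218 (helper218): pointwise estimates and compactness for MASS-LE on a level.

* `grad_alg`  : `|∂u(v)|² ≤ c ⟨H v, v⟩` for all `v`  ⟹  `adj H (∂u, ∂̄u) ≤ c det H`
* `grd_rs`    : the field `grad` of `Dat` from `Esc`
* `cpt_ann`   : compactness of the annuli of the level
* `lower_on`  : smooth functions are bounded below on annuli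
-/

set_option autoImplicit false
set_option linter.unusedSectionVars false

open Set Filter Topology Complex MeasureTheory
open scoped ContDiff Matrix ComplexConjugate ComplexOrder ENNReal

namespace Crest.Agent.R257.V3_218

open Crest.Agent.R275 Crest.Agent.R275.Geo Crest.Agent.R275.Core144 Crest.Agent.R275.EDR890
open Crest.Agent.R275.Pai323 Crest.Agent.R275.C1d194
open Crest.Agent.R275.OmT75 (dj dl)
open Crest.Agent.R273.Defs_333 Crest.Agent.R273.Hess_333 Crest.Agent.R273.HessB_333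
open Crest.Agent.R273.HM_333 Crest.Agent.R273.Kah_333 Crest.Agent.R273.Vol_333
open Crest.Agent.R273.Vm_333
open Crest.Agent.R273.StokesV_332 (Den OffK intD intD_eq_sum intD_congr)
open Crest.Agent.R273.StV_37 Crest.Agent.R273.Green_5 Crest.Agent.R273.GreenM_5 Crest.Agent.R273.GreenG_5
open Crest.Agent.R273.YauDefs_635 (cH)
open Crest.Agent.R257.Defs_219 Crest.Agent.R257.KED_952 Crest.Agent.R257.V1Defs_822
open Crest.Agent.R257.PN_835 (nsq)
open Crest.Agent.R257.Aff_835 (eta2a)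
open Crest.Agent.R257.C2F1_625 (pd)
open Crest.Agent.R257.UpK_938
open Crest.Agent.R257.MassLe218
open Crest.Agent.R257.KEG_952 (Esc)

noncomputable section

/-! ### linear algebra -/

theorem grad_alg {H : Matrix (Fin 2) (Fin 2) ℂ} (hH : H.PosDef) (g : Fin 2 → ℂ) {c : ℝ}
    (hc : 0 ≤ c) (h : ∀ v : Fin 2 → ℂ, (∑ a, g a * v a).re ^ 2 ≤
      c * (∑ a, ∑ b, H a b * v a * conj (v b)).re) :
    (∑ a, ∑ b, H.adjugate b a * g a * conj (g b)).re ≤ c * H.det.re := by
  have hh := hH.isHermitian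
  have e : ∀ a b, conj (H a b) = H b a := fun a b => hh.apply b a
  have e00 : conj (H 0 0) = H 0 0 := e 0 0
  have e11 : conj (H 1 1) = H 1 1 := e 1 1
  have e01 : conj (H 0 1) = H 1 0 := e 0 1
  have e10 : conj (H 1 0) = H 0 1 := e 1 0
  set Q : ℂ := ∑ a, ∑ b, H.adjugate b a * g a * conj (g b) with hQ
  have eQ : Q = H 1 1 * g 0 * conj (g 0) - H 1 0 * g 0 * conj (g 1) - H 0 1 * g 1 * conj (g 0)
      + H 0 0 * g 1 * conj (g 1) := by
    rw [hQ, Matrix.adjugate_fin_two]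
    simp only [Fin.sum_univ_two, Matrix.of_apply, Matrix.cons_val', Matrix.cons_val_zero,
      Matrix.cons_val_one, Matrix.cons_val_fin_one]
    ring
  have cQ : conj Q = Q := by
    rw [eQ]
    simp only [map_add, map_sub, map_mul, e00, e11, e01, e10, Complex.conj_conj]
    ring
  have hdet : H.det = H 0 0 * H 1 1 - H 0 1 * H 1 0 := Matrix.det_fin_two H
  set v : Fin 2 → ℂ := ![H 1 1 * conj (g 0) - H 1 0 * conj (g 1),
    - H 0 1 * conj (g 0) + H 0 0 * conj (g 1)] with hv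
  have v0 : v 0 = H 1 1 * conj (g 0) - H 1 0 * conj (g 1) := rfl
  have v1 : v 1 = - H 0 1 * conj (g 0) + H 0 0 * conj (g 1) := rfl
  have h1 := h v
  have s1 : ∑ a, g a * v a = Q := by
    rw [Fin.sum_univ_two, v0, v1, eQ]
    ring
  have s2 : ∑ a, ∑ b, H a b * v a * conj (v b) = H.det * Q := by
    simp only [Fin.sum_univ_two, v0, v1, map_add, map_sub, map_mul, map_neg, e00, e11, e01, e10,
      Complex.conj_conj]
    rw [eQ, hdet]
    ring
  rw [s1, s2] at h1
  have hQi : Q.im = 0 := Complex.conj_eq_iff_im.1 cQ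
  have hdp : 0 < H.det.re := by
    have := hH.det_pos
    exact (Complex.pos_iff.1 this).1
  have hmul : (H.det * Q).re = H.det.re * Q.re := by
    rw [Complex.mul_re, hQi, mul_zero, sub_zero]
  rw [hmul] at h1
  by_cases hq : 0 < Q.re
  · by_contra hcon
    push Not at hcon
    nlinarith
  · push Not at hq
    exact hq.trans (mul_nonneg hc hdp.le)

/-! ### the gradient on the level -/

variable {f : E3 → ℂ} {s : ℂ} {r : ℝ}

theorem hsf_sub_const (hL : LvlOK f s r) {u : E3 → ℝ} (hu : SmL f s r u) (A₀ : ℝ)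
    {i : ((LX hL).A 0).ι} {x : (LX hL).M 0} (hx : x ∈ (((LX hL).A 0).e i).source) :
    hsf ((LX hL).A 0) (rs hL fun y => u y - A₀) i x = hsf ((LX hL).A 0) (rs hL u) i x := by
  have h := hsf_affine (A := (LX hL).A 0) 1 A₀ (rs_sm hL hu) hx
  simp only [one_mul, Complex.ofReal_one, one_smul] at h
  exact h

theorem posDef_rs (hL : LvlOK f s r) {u : E3 → ℝ} (hu : KEon f s r u)
    {i : ((LX hL).A 0).ι} {x : (LX hL).M 0} (hx : x ∈ (((LX hL).A 0).e i).source) :
    (hsf ((LX hL).A 0) (rs hL u) i x).PosDef := by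
  have hz := (((LX hL).A 0).e i).map_source hx
  have hP := pe_chart hL i
  have h1 : ContDiffAt ℝ ∞ (fun z => u (thc hL i z)) (((LX hL).A 0).e i x) :=
    (hu.sm _ _ hP).contDiffAt (hP.par.isOpen.mem_nhds hz)
  exact posDef_hess h1 (hu.pos _ _ hP _ hz)

theorem posSemi_rs (hL : LvlOK f s r) {w : E3 → ℝ} (hw : SmL f s r w)
    (pw : ∀ θ O, PE f s r θ O → ∀ z ∈ O, ∀ v, 0 ≤ lev (fun z => w (θ z)) z v)
    {i : ((LX hL).A 0).ι} {x : (LX hL).M 0} (hx : x ∈ (((LX hL).A 0).e i).source) :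
    (hsf ((LX hL).A 0) (rs hL w) i x).PosSemidef := by
  have hz := (((LX hL).A 0).e i).map_source hx
  have hP := pe_chart hL i
  have h1 : ContDiffAt ℝ ∞ (fun z => w (thc hL i z)) (((LX hL).A 0).e i x) :=
    (hw _ _ hP).contDiffAt (hP.par.isOpen.mem_nhds hz)
  exact posSemidef_hess h1 (pw _ _ hP _ hz)

/-- the field `grad` of `Dat` -/
theorem grd_rs (hL : LvlOK f 0 r) {u : E3 → ℝ} (hu : KEon f 0 r u) {A₀ : ℝ} (hE : Esc f r u A₀)
    {i : ((LX hL).A 0).ι} {x : (LX hL).M 0} (hx : x ∈ (((LX hL).A 0).e i).source) :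
    (grd (hsf ((LX hL).A 0) (rs hL fun y => u y - A₀))
      (fun y => (rs hL (fun y => u y - A₀) y : ℂ)) (fun y => (rs hL (fun y => u y - A₀) y : ℂ))
        i x).re ≤ (A₀ / 2) * (rs hL (fun y => u y - A₀) x) ^ 2 *
        (mx ((LX hL).A 0) (rs hL fun y => u y - A₀) (rs hL fun y => u y - A₀) i x).re := by
  have hz := (((LX hL).A 0).e i).map_source hx
  have hP := pe_chart hL i
  set U : Cn 2 → ℝ := fun z => u (thc hL i z) with hU
  set z := ((LX hL).A 0).e i x with hzd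
  have h1 : ContDiffAt ℝ ∞ U z := (hu.sm _ _ hP).contDiffAt (hP.par.isOpen.mem_nhds hz)
  have hd : DifferentiableAt ℝ U z := h1.differentiableAt (by simp)
  have hsm := hsf_sub_const hL hu.sm A₀ hx
  have hH : hsf ((LX hL).A 0) (rs hL u) i x = hess U z := rfl
  have hu1 : SmL f 0 r fun y => u y - A₀ := fun θ O hθ => (hu.sm θ O hθ).sub contDiffOn_const
  have hxu : u (thc hL i z) = u x.1 := by rw [hzd, thc_eq hL hx]
  -- the gradient vector
  have hg : gv ((LX hL).A 0) (rs hL fun y => u y - A₀) i x = fun a => dj a (Crest.Agent.R273.Levi_145.cx U) z := by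
    funext a
    have e1 : gv ((LX hL).A 0) (rs hL fun y => u y - A₀) i x a =
        dj a (fun w => ((U w - A₀ : ℝ) : ℂ)) z := rfl
    rw [e1]
    have e2 : dj a (fun w => ((U w - A₀ : ℝ) : ℂ)) z = dj a (fun w => ((U w : ℝ) : ℂ)) z := by
      rw [dj_eq_wd, dj_eq_wd]
      unfold wd
      have e3 : (fun w => ((U w - A₀ : ℝ) : ℂ)) = fun w => ((U w : ℝ) : ℂ) - (A₀ : ℂ) := by
        funext w; push_cast; ring
      rw [e3, fderiv_sub_const]
    rw [e2]
    rfl
  have key := grad_alg (posDef_rs hL hu hx) (fun a => dj a (Crest.Agent.R273.Levi_145.cx U) z)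
    (c := A₀ * (A₀ - u x.1) ^ 2) (by have := hE.pos; positivity) ?_
  · have e1 := grd_gv (hsf ((LX hL).A 0) (rs hL fun y => u y - A₀)) (rs hL fun y => u y - A₀) i x
    rw [e1, hg]
    have e2 : qa (hsf ((LX hL).A 0) (rs hL fun y => u y - A₀) i x).adjugate
        (fun a => dj a (Crest.Agent.R273.Levi_145.cx U) z)
        (fun b => conj (dj b (Crest.Agent.R273.Levi_145.cx U) z)) =
        ∑ a, ∑ b, (hsf ((LX hL).A 0) (rs hL u) i x).adjugate b a *
          dj a (Crest.Agent.R273.Levi_145.cx U) z *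
            conj (dj b (Crest.Agent.R273.Levi_145.cx U) z) := by
      rw [hsm]
      rfl
    rw [e2]
    refine key.trans (le_of_eq ?_)
    rw [mx_self, hsm]
    have e3 : rs hL (fun y => u y - A₀) x = u x.1 - A₀ := rfl
    rw [e3, show (2 : ℂ) = ((2 : ℝ) : ℂ) by norm_num, Complex.re_ofReal_mul]
    ring
  · intro v
    have h2 := hE.grad _ _ hP z hz (WithLp.toLp 2 v)
    rw [hxu] at h2
    have h3 : (∑ a, dj a (Crest.Agent.R273.Levi_145.cx U) z * v a).re =
        (1 / 2) * fderiv ℝ U z (WithLp.toLp 2 v) := by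
      have h4 := Crest.Agent.R273.Levi_145.gr_eq hd (WithLp.toLp 2 v)
      have h5 : Crest.Agent.R273.Levi_145.gr U z (WithLp.toLp 2 v) =
        ∑ a, dj a (Crest.Agent.R273.Levi_145.cx U) z * v a := rfl
      rw [← h5, h4]
      simp
    have h6 : (∑ a, ∑ b, hsf ((LX hL).A 0) (rs hL u) i x a b * v a * conj (v b)).re =
        lev U z (WithLp.toLp 2 v) / 4 := by
      rw [hH]
      exact hq_re h1 (WithLp.toLp 2 v)
    rw [h3, h6]
    calc (1 / 2 * fderiv ℝ U z (WithLp.toLp 2 v)) ^ 2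
        = (1 / 4) * (fderiv ℝ U z (WithLp.toLp 2 v)) ^ 2 := by ring
      _ ≤ (1 / 4) * (A₀ * (A₀ - u x.1) ^ 2 * lev U z (WithLp.toLp 2 v)) := by
          exact mul_le_mul_of_nonneg_left h2 (by norm_num)
      _ = _ := by ring

/-! ### compactness -/

theorem cont_nsq3 : Continuous (nsq : E3 → ℝ) := Crest.Agent.R257.PN_835.continuous_nsq

theorem gd_of (hL : LvlOK f s r) : KedM_941.Gd f s r := ⟨hL.an, hL.sm⟩

/-- the compact annulus of the level -/
def ann (f : E3 → ℂ) (s : ℂ) (a b : ℝ) : Set E3 := {x | f x = s ∧ a ≤ nsq x ∧ nsq x ≤ b}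

theorem ann_cpt (hL : LvlOK f s r) {a b : ℝ} (hb : b < r ^ 2) : IsCompact (ann f s a b) := by
  have h1 : IsCompact {x : E3 | nsq x ≤ b} := by
    refine Metric.isCompact_of_isClosed_isBounded (isClosed_le cont_nsq3 continuous_const) ?_
    refine (Metric.isBounded_iff_subset_closedBall 0).2 ⟨Real.sqrt b, fun x hx => ?_⟩
    rw [mem_closedBall_zero_iff, pi_norm_le_iff_of_nonneg (Real.sqrt_nonneg _)]
    intro k
    refine Real.le_sqrt_of_sq_le ?_
    exact (Crest.Agent.R257.PN_835.sq_le_nsq x k).trans hx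
  have h2 : ContinuousOn f {x : E3 | nsq x ≤ b} := fun x hx =>
    (hL.an x (lt_of_le_of_lt hx hb)).continuousAt.continuousWithinAt
  have h3 : IsClosed ({x : E3 | nsq x ≤ b} ∩ f ⁻¹' {s}) :=
    h2.preimage_isClosed_of_isClosed h1.isClosed isClosed_singleton
  have h4 : ann f s a b = ({x : E3 | nsq x ≤ b} ∩ f ⁻¹' {s}) ∩ {x | a ≤ nsq x} := by
    ext x
    constructor
    · rintro ⟨h1, h2, h3⟩
      exact ⟨⟨h3, h1⟩, h2⟩
    · rintro ⟨⟨h3, h1⟩, h2⟩
      exact ⟨h1, h2, h3⟩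
  rw [h4]
  exact (h1.of_isClosed_subset h3 inter_subset_left).inter_right
    (isClosed_le continuous_const cont_nsq3)

theorem ann_sub (_hL : LvlOK f s r) {a b : ℝ} (ha : 0 < a) (hb : b < r ^ 2) :
    ann f s a b ⊆ KedM_941.L f s r := by
  rintro x ⟨h1, h2, h3⟩
  refine ⟨h1, ?_, lt_of_le_of_lt h3 hb⟩
  rintro rfl
  rw [V1Pe_822.nsq_zero3] at h2
  linarith

/-- smooth functions are bounded below on annuli -/
theorem lower_on (hL : LvlOK f s r) {v : E3 → ℝ} (hv : SmL f s r v) {a b : ℝ} (ha : 0 < a)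
    (hb : b < r ^ 2) : ∃ B : ℝ, ∀ x, f x = s → a ≤ nsq x → nsq x ≤ b → -B ≤ v x := by
  have h1 : ContinuousOn v (ann f s a b) :=
    (KedM_941.ctL_contOn (gd_of hL) (V1Top_822.smL_ctl hv)).mono (ann_sub hL ha hb)
  obtain ⟨B, hB⟩ := (ann_cpt hL hb).bddBelow_image h1
  refine ⟨-B, fun x h2 h3 h4 => ?_⟩
  rw [neg_neg]
  exact hB (mem_image_of_mem v ⟨h2, h3, h4⟩)

/-- the annulus as a compact set of the surface -/
theorem cpt_ann (hL : LvlOK f s r) {a b : ℝ} (ha : 0 < a) (hb : b < r ^ 2) :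
    IsCompact {x : (LX hL).M 0 | a ≤ nsq x.1 ∧ nsq x.1 ≤ b} := by
  have h1 : IsCompact (Subtype.val ⁻¹' (ann f s a b) : Set ((LX hL).M 0)) := by
    refine (Topology.IsEmbedding.subtypeVal.isCompact_preimage_iff ?_).2 (ann_cpt hL hb)
    intro x hx
    obtain ⟨h2, h3, h4⟩ := ann_sub hL ha hb hx
    exact ⟨mkM hL h2 h3 h4, rfl⟩
  refine h1.of_isClosed_subset ?_ fun x hx => ⟨(mem_M hL x).1, hx.1, hx.2⟩
  exact (isClosed_le continuous_const (cont_nsq3.comp continuous_subtype_val)).inter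
    (isClosed_le (cont_nsq3.comp continuous_subtype_val) continuous_const)

end

end Crest.Agent.R257.V3_218
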