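import Crest.Agent.R257.UpA9_952
import Crest.Agent.R257.Vol_397
import Crest.Agent.R257.M3Cnt_5
import Crest.Agent.R257.Bd_309
import Crest.Agent.R257.LgG_827
import Crest.Agent.R257.V3B_218

/-!
R257 / UpA10_952: **`UppStmt`** from `TrialStmt` and `EscStmt`.
-/

set_option autoImplicit false
set_option linter.unusedSectionVars false

open Topology Filter MeasureTheory Set
open scoped ENNReal ContDiff Matrix ComplexOrder

noncomputable section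

namespace Crest.Agent.R257.UpA_952

open Crest.Agent.R275.Geo
open Crest.Agent.R257.Defs_219
open Crest.Agent.R257.KED_952 Crest.Agent.R257.KEG_952 Crest.Agent.R257.KEU_952
open Crest.Agent.R257.KUP_952
open Crest.Agent.R257.V1Defs_822 (SmL LvlOK lgh)
open Crest.Agent.R273.Defs_333 (lev)
open Crest.Agent.R257.PN_835 (nsq)
open Crest.Agent.R257.LossA_625 (Lv)
open Crest.Agent.R257.LossB_625 (Sh exists_sh)
open Crest.Agent.R257.LossD_309 (oxd)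
open Crest.Agent.R257.SkelV_952 Crest.Agent.R257.SkelG_952

variable {f : E3 → ℂ} {r r' A : ℝ} {u : E3 → ℝ} {ν : Measure E3} {χ ζ : E3 → ℝ} {k : ℕ}
  {g h : E3 → ℂ} {B : ℝ} {H : Form} {φ V U : E3 → ℝ} {d d₁ d₂ : ℝ}

theorem mt_mono (h0 : 0 ≤ r') (hr : r' ≤ r) (hH : Mt f r H) : Mt f r' H where
  sm θ O hP := hH.sm θ O (pe_mono h0 hr hP)
  pos θ O hP := hH.pos θ O (pe_mono h0 hr hP)
  ind θ O θ' O' z z' h1 h2 := hH.ind θ O θ' O' z z' (pe_mono h0 hr h1) (pe_mono h0 hr h2)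

theorem trl_mono (h0 : 0 ≤ r') (hr : r' ≤ r) (hT : Trl f r A u ν k g h B H φ V) :
    Trl f r' A u (rs r' ν) k g h B H φ V where
  pr := hT.pr
  g_an x hx := hT.g_an x (hx.trans_le (sq_mono h0 hr))
  h_an x hx := hT.h_an x (hx.trans_le (sq_mono h0 hr))
  nz x hx := hT.nz x ⟨hx.1, hx.2.1, hx.2.2.trans_le (sq_mono h0 hr)⟩
  mt := mt_mono h0 hr hT.mt
  dg θ O hP := hT.dg θ O (pe_mono h0 hr hP)
  det θ O hP := hT.det θ O (pe_mono h0 hr hP)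
  φ_sm := sml_mono h0 hr hT.φ_sm
  φ_psh θ O hP := hT.φ_psh θ O (pe_mono h0 hr hP)
  φ_int χ hχ := (hT.φ_int χ (cut_mono hr hχ)).mono_measure Measure.restrict_le_self
  bb θ O hP := hT.bb θ O (pe_mono h0 hr hP)
  V_nn := hT.V_nn
  V_me := hT.V_me.mono_measure Measure.restrict_le_self
  cpr θ O hP := hT.cpr θ O (pe_mono h0 hr hP)
  V_int χ hχ := by
    obtain ⟨C, hC⟩ := hT.V_int χ (cut_mono hr hχ)
    refine ⟨C, fun R hR => le_trans ?_ (hC R hR)⟩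
    exact lintegral_mono' (Measure.restrict_mono' (Eventually.of_forall fun _ h => h)
      Measure.restrict_le_self) le_rfl

/-- the inequality for the cone, all data constructed -/
theorem cone (hf : LvlOK f 0 r) (hK : KEon f 0 r u) (hE : Esc f r u A) (hν : IsNu f 0 r ν)
    (hT : Trl f r A u ν k g h B H φ V) (hχ : Cut r χ) (hfin : C2I ν f u χ ≠ ⊤) :
    2 * (C2I ν f u χ).toReal - 2 * (VOL ν u χ).toReal ≤
      2 * (∫ x, oxd f u (fun _ => 0) g χ x ∂ν + (1 + 1 / k) * TOT ν f (lgh g h) χ) -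
        (TOT ν f u χ - TOT ν f (lgh g h) χ / k ^ 2) := by
  obtain ⟨r₁, r₂, hs⟩ := exists_sh hχ
  have hr := hf.pos
  set d₁ := min r₁ r with hd₁
  have hd₁0 : 0 < d₁ := lt_min hs.p1 hr
  obtain ⟨ζ, hζ⟩ := exists_cut hd₁0
  obtain ⟨s₁, s₂, hz⟩ := exists_sh hζ
  have hmt : Mt f r (gl ζ H (HK u)) :=
    mt_gl hζ.sm hζ.nn hζ.le hT.mt (UVl_351.mtOStmt f r u hf hK).1
  obtain ⟨U, hU⟩ := UVl_351.vlStmt f r _ hf hmt
  have S : Sit f r A u ν k g h B H φ V χ ζ (min s₁ d₁) d₁ s₂ U :=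
    { hf := hf
      hK := hK
      hE := hE
      hν := hν
      hT := hT
      hχ := hχ
      ζs := hζ.sm
      ζ0 := hζ.nn
      ζ1 := hζ.le
      dp := lt_min hz.p1 hd₁0
      d1 := min_le_right _ _
      dr := min_le_right _ _
      d2p := hz.p2
      d2 := hz.lt
      in1 := fun x hx => hz.one x (hx.trans_le
        (sq_mono (lt_min hz.p1 hd₁0).le (min_le_left _ _)))
      out1 := hz.zero
      chi := fun x hx => hs.one x (hx.trans_le (sq_mono hd₁0.le (min_le_left _ _)))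
      hU := hU }
  exact S.ineq hfin

/-- **`UppStmt`** -/
theorem upp_of (esc : EscStmt) (tr : TrialStmt) : UppStmt := by
  intro Φ τ₀ l r C w u hD f hf hm
  have hiso : Iso f := hf ▸ hD.iso
  have hfa : AnalyticAt ℂ f 0 := hiso.an
  obtain ⟨r₁, A, e1, e2, hE⟩ := esc Φ τ₀ l r C w u hD f hf hm
  have hD₁ := smd_mono e1 e2.le hD
  have hlv₁ : LvlOK f 0 r₁ := hf ▸ smd_0 hD₁
  have hke₁ : KEon f 0 r₁ u := hf ▸ hD₁.ke0.1
  have hbd₁ : Bd f 0 r₁ C u := hf ▸ hD₁.ke0.2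
  obtain ⟨ν₁, hν₁⟩ := KedM_941.nuStmt f 0 r₁ hlv₁.pos hlv₁.an hlv₁.sm
  obtain ⟨r₂, k, g, h, B, H, φ, V, hr₂, hr₂₁, hT⟩ := tr f r₁ C A u ν₁ hiso hlv₁ hke₁ hbd₁ hν₁ hm hE
    fun χ hχ => Vol_397.volStmt Φ τ₀ l r₁ C w u hD₁ f hf χ hχ ν₁ hν₁
  have hX := hT.pr
  obtain ⟨g0, h0⟩ := xpr_zero hX hm
  obtain ⟨cf, cL⟩ := xpr_L LgA_827.lgStmt hiso hX hm
  obtain ⟨r₃, hr₃, hM3⟩ := M3_5.m3Stmt f g h hiso hX.g_an hX.h_an g0 h0 hX.fin
  obtain ⟨r', hr', h1, h2⟩ : ∃ r' : ℝ, 0 < r' ∧ r' < r₂ ∧ r' ≤ r₃ :=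
    ⟨min (r₂ / 2) r₃, by positivity, (min_le_left _ _).trans_lt (by linarith), min_le_right _ _⟩
  have hr'₁ : r' ≤ r₁ := h1.le.trans hr₂₁
  have hr'r : r' ≤ r := hr'₁.trans e2.le
  obtain ⟨χ, hχ⟩ := exists_cut hr'
  refine ⟨k, g, h, r', χ, hX, hr', hr'r, hχ, fun ν ν₀ hν hν₀ ε hε => ?_⟩
  have hD' : SmD Φ τ₀ l r' C w u := smd_mono hr' hr'r hD
  have hlv' : LvlOK f 0 r' := hf ▸ smd_0 hD'
  have hke' : KEon f 0 r' u := ke_mono hr'.le hr'₁ hke₁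
  have hE' := esc_mono hr'.le hr'₁ hE
  -- uniqueness of the measure
  have hun : ν₀ = rs r' (rs r₂ ν₁) :=
    KedM_941.isNu_unique (V3_218.gd_of hlv') hν₀ (isnu_rs hr'.le h1.le
      (isnu_rs hr₂.le hr₂₁ hν₁))
  have hT' : Trl f r' A u ν₀ k g h B H φ V := by
    rw [hun]
    exact trl_mono hr'.le h1.le hT
  have hν₀'' : IsNu (fun x => Φ (x, τ₀)) 0 r' ν₀ := hf ▸ hν₀
  have hfin : C2I ν₀ f u χ ≠ ⊤ := by
    have := fin_0 KedM_941.fatStmt Ked4_397.ctDStmt Ked4_397.cvDStmt Bd_309.bdStmt hD' hχ hν hν₀''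
    rw [hf]
    exact this
  have hcone := cone hlv' hke' hE' hν₀ hT' hχ hfin
  rw [hM3 r' h2 hlv' ν₀ hν₀ χ hχ] at hcone
  have hg_an : ∀ x, nsq x ≤ r' ^ 2 → AnalyticAt ℂ g x := fun x hx =>
    hT.g_an x (hx.trans_lt (pow_lt_pow_left₀ h1 hr'.le two_ne_zero))
  have hlim := Bd_309.e2Stmt Φ τ₀ l r' C w u hD' f hf χ hχ ν ν₀ hν hν₀ g hg_an g0 cf
    (noz_of_trl hT')
  have hpi : 0 < Real.pi ^ 2 := by positivity
  have hmas : Real.pi ^ 2 * (mas ν₀ f u χ / 2) =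
      (TOT ν₀ f u χ - 2 * (VOL ν₀ u χ).toReal) / 2 := by
    unfold mas
    field_simp
  filter_upwards [hlim.eventually (lt_mem_nhds (sub_lt_self _ hε))] with τ hτ
  have e3 : Real.pi ^ 2 * (col (mnr f g) - (1 + 1 / k) * col ![f, g, h] -
      col ![f, g, h] / (2 * k ^ 2) + mas ν₀ f u χ / 2) =
      Real.pi ^ 2 * col (mnr f g) - (1 + 1 / k) * (Real.pi ^ 2 * col ![f, g, h]) -
        (Real.pi ^ 2 * col ![f, g, h]) / k ^ 2 / 2 + Real.pi ^ 2 * (mas ν₀ f u χ / 2) := by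
    ring
  rw [e3, hmas]
  linarith

end Crest.Agent.R257.UpA_952
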