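import Crest.Agent.R257.V3D_218
import Crest.Agent.R257.Jnu_980
import Crest.Agent.R257.Esc_537
import Crest.Agent.R257.V1_822

/-!
R257 / V3_218 (helper218): `V31Stmt` (MASS-LE: residual mass `≤ mstar f` if `0 < mstar f`) from the
exact pair `XUStmt` only (used through `EscStmt`).
-/

set_option autoImplicit false

noncomputable section

namespace Crest.Agent.R257.V3_218

open Crest.Agent.R257 Crest.Agent.R257.KED_952 Crest.Agent.R257.V1Defs_822

theorem jnuStmt : JnuStmt := fun _ _ _ _ _ h1 h2 h3 h4 h5 h6 => Jnu_980.jnu h1 h2 h3 h4 h5 h6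

theorem v31Stmt_of_esc (esc : KEG_952.EscStmt) : KEG_952.V31Stmt := v31_of jnuStmt esc

/-- **V31**: residual mass `≤ mstar f`, from the exact pair -/
theorem v31Stmt_of_xu (xu : XUStmt) : KEG_952.V31Stmt :=
  v31Stmt_of_esc (Esc_537.esc_of KedM_941.nuStmt xu (UpK_938.upStmt_of Fto_889.ftoStmt)
    Vol_397.volStmt)

end Crest.Agent.R257.V3_218
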