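import Crest.Agent.R257.SkelT_952
import Crest.Agent.R257.UpA10_952
import Crest.Agent.R257.PairK6_39
import Crest.Agent.R257.TrD_218
import Crest.Agent.R257.B2_844
import Crest.Agent.R257.V3_218

/-!
R257 / SkelU_952: `VStmt3` of `Skel2_219` from `CLogStmt` and `PosStmt3`.
-/

set_option autoImplicit false

open Topology Filter MeasureTheory Set

noncomputable section

namespace Crest.Agent.R257.SkelU_952

open Crest.Agent.R257.Defs_219 Crest.Agent.R257.KED_952 Crest.Agent.R257.KEG_952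
open Crest.Agent.R257.KEU_952 Crest.Agent.R257.V1Defs_822 Crest.Agent.R257.Skel2_219

theorem esc_of_xu (xu : XUStmt) : EscStmt :=
  Esc_537.esc_of KedM_941.nuStmt xu (UpK_938.upStmt_of Fto_889.ftoStmt) Vol_397.volStmt

/-- `UppStmt` from `CLogStmt` -/
theorem upp_of_clog (cl : CLog_68.CLogStmt) : UppStmt :=
  UpA_952.upp_of (esc_of_xu (PairK_39.xu_of_clog cl)) (TrA_218.trialStmt_of cl B0_844.b0Stmt)

/-- **(V) for germs of multiplicity `≥ 3` from `CLogStmt`** -/
theorem vstmt3_of_clog (cl : CLog_68.CLogStmt) (pos : PosStmt3) : VStmt3 :=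
  SkelT_952.vstmt3' (PairK_39.up1_of_clog cl) (upp_of_clog cl) (PairK_39.xu_of_clog cl)
    (V3_218.v31Stmt_of_xu (PairK_39.xu_of_clog cl)) pos

end Crest.Agent.R257.SkelU_952
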