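import Crest.Agent.R257.KED_952

/-!
R257 / SkelV1_952: elementary lemmas on `Cv0`, `CtL` and the splitting of the second Chern integral.
-/

set_option autoImplicit false

open Topology Filter MeasureTheory Set
open scoped ENNReal ContDiff Matrix

noncomputable section

namespace Crest.Agent.R257.SkelV_952

open Crest.Agent.R275.Geo
open Crest.Agent.R257.Defs_219 Crest.Agent.R257.KED_952
open Crest.Agent.R273.Defs_333 (lev)
open Crest.Agent.R273.YauDefs_635 (cH)
open Crest.Agent.R257.PN_835 (nsq)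
open Crest.Agent.R257.Aff_835 (eta2a nga)
open Crest.Agent.R257.C2F1_625 (c2)

/-! ### uniform convergence -/

theorem tu_mul {ι α : Type*} {l : Filter ι} {F G : ι → α → ℝ} {f g : α → ℝ} {K : Set α}
    (hF : TendstoUniformlyOn F f l K) (hG : TendstoUniformlyOn G g l K)
    (hf : ∃ C, ∀ x ∈ K, |f x| ≤ C) (hg : ∃ C, ∀ x ∈ K, |g x| ≤ C) :
    TendstoUniformlyOn (fun i x => F i x * G i x) (fun x => f x * g x) l K := by
  obtain ⟨A, hA⟩ := hf
  obtain ⟨B, hB⟩ := hg
  rw [Metric.tendstoUniformlyOn_iff] at *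
  intro ε hε
  set M : ℝ := |A| + |B| + 2 with hM
  have hM0 : 0 < M := by positivity
  have hδ : 0 < min 1 (ε / (2 * M)) := lt_min one_pos (by positivity)
  filter_upwards [hF _ hδ, hG _ hδ] with i h1 h2 x hx
  have a1 := h1 x hx
  have a2 := h2 x hx
  rw [Real.dist_eq] at a1 a2 ⊢
  have b1 : |f x - F i x| < ε / (2 * M) := lt_of_lt_of_le a1 (min_le_right _ _)
  have b2 : |g x - G i x| < ε / (2 * M) := lt_of_lt_of_le a2 (min_le_right _ _)
  have b3 : |g x - G i x| < 1 := lt_of_lt_of_le a2 (min_le_left _ _)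
  have c1 : |f x| ≤ M := (hA x hx).trans ((le_abs_self A).trans (by rw [hM]; linarith [abs_nonneg B]))
  have c2 : |G i x| ≤ M := by
    have h3 : |G i x| ≤ |g x| + |g x - G i x| := by
      have := abs_sub_abs_le_abs_sub (G i x) (g x)
      rw [abs_sub_comm] at this
      linarith
    have h4 : |g x| ≤ |B| := (hB x hx).trans (le_abs_self B)
    rw [hM]
    linarith [abs_nonneg A]
  have e : f x * g x - F i x * G i x = (f x - F i x) * G i x + f x * (g x - G i x) := by ring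
  rw [e]
  calc |(f x - F i x) * G i x + f x * (g x - G i x)|
      ≤ |f x - F i x| * |G i x| + |f x| * |g x - G i x| := by
        refine (abs_add_le _ _).trans ?_
        rw [abs_mul, abs_mul]
    _ ≤ |f x - F i x| * M + M * |g x - G i x| := by gcongr
    _ < ε / (2 * M) * M + M * (ε / (2 * M)) := by
        have := mul_lt_mul_of_pos_right b1 hM0
        have := mul_lt_mul_of_pos_left b2 hM0
        linarith
    _ = ε := by field_simp; ring

theorem tu_exp {ι α : Type*} {l : Filter ι} {F : ι → α → ℝ} {f : α → ℝ} {K : Set α}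
    (hF : TendstoUniformlyOn F f l K) (hf : ∃ C, ∀ x ∈ K, |f x| ≤ C) :
    TendstoUniformlyOn (fun i x => Real.exp (F i x)) (fun x => Real.exp (f x)) l K := by
  obtain ⟨A, hA⟩ := hf
  rw [Metric.tendstoUniformlyOn_iff] at *
  intro ε hε
  have hc : UniformContinuousOn Real.exp (Icc (-(A + 1)) (A + 1)) :=
    isCompact_Icc.uniformContinuousOn_of_continuous Real.continuous_exp.continuousOn
  rw [Metric.uniformContinuousOn_iff] at hc
  obtain ⟨δ, hδ, h⟩ := hc ε hε
  filter_upwards [hF (min δ 1) (lt_min hδ one_pos)] with i hi x hx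
  have a := hi x hx
  have a0 := hA x hx
  have a1 : |f x - F i x| < 1 := by
    rw [← Real.dist_eq]
    exact a.trans_le (min_le_right _ _)
  rw [abs_le] at a0
  rw [abs_lt] at a1
  exact h _ ⟨by linarith, by linarith⟩ _ ⟨by linarith, by linarith⟩ (a.trans_le (min_le_left _ _))

/-- joint continuity gives uniform convergence on compact sets -/
theorem tu_of_cont {α : Type*} [TopologicalSpace α] {g : α × PP → ℝ} {O : Set α} {N : Set PP}
    {τ₀ : PP} (hN : N ∈ 𝓝 τ₀) (hg : ContinuousOn g (O ×ˢ N)) {l : Filter PP} (hl : l ≤ 𝓝 τ₀)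
    {K : Set α} (hK : K ⊆ O) (hKc : IsCompact K) :
    TendstoUniformlyOn (fun τ z => g (z, τ)) (fun z => g (z, τ₀)) l K := by
  have h1 : ContinuousOn (Function.uncurry fun (τ : PP) (z : α) => g (z, τ)) (N ×ˢ K) := by
    have : (Function.uncurry fun (τ : PP) (z : α) => g (z, τ)) = g ∘ Prod.swap := by
      funext p; rfl
    rw [this]
    exact hg.comp continuous_swap.continuousOn fun p hp => ⟨hK hp.2, hp.1⟩
  intro u hu
  obtain ⟨v, hv, h2⟩ := hKc.mem_uniformity_of_prod h1 (mem_of_mem_nhds hN) (symm_le_uniformity hu)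
  rw [nhdsWithin_eq_nhds.2 hN] at hv
  filter_upwards [hl hv] with τ hτ z hz
  exact h2 τ hτ z hz

section

variable {Φ : E3 × PP → ℂ} {r : ℝ} {l : Filter PP} {τ₀ : PP} {v w : PP → E3 → ℝ} {a b : E3 → ℝ}

theorem chart_cont {O : Set (Cn 2)} {N : Set PP} {Θ : Cn 2 × PP → E3} (h : Chart Φ r τ₀ O N Θ) :
    ContinuousOn Θ (O ×ˢ N) := h.an.continuousOn

theorem chart_par0 {O : Set (Cn 2)} {N : Set PP} {Θ : Cn 2 × PP → E3} (h : Chart Φ r τ₀ O N Θ) :
    PE (fun x => Φ (x, τ₀)) 0 r (fun z => Θ (z, τ₀)) O := h.par τ₀ (mem_of_mem_nhds h.nhd)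

theorem bdd_of_ct {O : Set (Cn 2)} {g : Cn 2 → ℝ} (hg : ContinuousOn g O) {K : Set (Cn 2)}
    (hK : K ⊆ O) (hKc : IsCompact K) : ∃ C, ∀ x ∈ K, |g x| ≤ C := by
  obtain ⟨C, hC⟩ := hKc.exists_bound_of_continuousOn (hg.mono hK)
  exact ⟨C, fun x hx => by simpa using hC x hx⟩

theorem Cv0.mul (hv : Cv0 Φ r l τ₀ v a) (hw : Cv0 Φ r l τ₀ w b)
    (ha : CtL (fun x => Φ (x, τ₀)) 0 r a) (hb : CtL (fun x => Φ (x, τ₀)) 0 r b) :
    Cv0 Φ r l τ₀ (fun τ x => v τ x * w τ x) (fun x => a x * b x) := by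
  intro O N Θ hΘ K hK hKc
  exact tu_mul (hv O N Θ hΘ K hK hKc) (hw O N Θ hΘ K hK hKc)
    (bdd_of_ct (ha _ _ (chart_par0 hΘ)) hK hKc) (bdd_of_ct (hb _ _ (chart_par0 hΘ)) hK hKc)

theorem Cv0.sub (hv : Cv0 Φ r l τ₀ v a) (hw : Cv0 Φ r l τ₀ w b) :
    Cv0 Φ r l τ₀ (fun τ x => v τ x - w τ x) (fun x => a x - b x) := by
  intro O N Θ hΘ K hK hKc
  exact (hv O N Θ hΘ K hK hKc).sub (hw O N Θ hΘ K hK hKc)

theorem Cv0.exp (hv : Cv0 Φ r l τ₀ v a) (ha : CtL (fun x => Φ (x, τ₀)) 0 r a) :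
    Cv0 Φ r l τ₀ (fun τ x => Real.exp (v τ x)) (fun x => Real.exp (a x)) := by
  intro O N Θ hΘ K hK hKc
  exact tu_exp (hv O N Θ hΘ K hK hKc) (bdd_of_ct (ha _ _ (chart_par0 hΘ)) hK hKc)

theorem cv0_amb (hl : l ≤ 𝓝 τ₀) {χ : E3 → ℝ} (hχ : Continuous χ) :
    Cv0 Φ r l τ₀ (fun _ => χ) χ := by
  intro O N Θ hΘ K hK hKc
  exact tu_of_cont (g := fun p => χ (Θ p)) hΘ.nhd (hχ.comp_continuousOn (chart_cont hΘ)) hl hK hKc

theorem cv0_of_conv (h : Conv Φ r l τ₀ w b) : Cv0 Φ r l τ₀ w b := by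
  intro O N Θ hΘ K hK hKc
  have h1 := h O N Θ hΘ 0 K hK hKc
  rw [Metric.tendstoUniformlyOn_iff] at h1 ⊢
  intro ε hε
  filter_upwards [h1 ε hε] with τ hτ z hz
  have h2 := hτ z hz
  rw [dist_eq_norm, iteratedFDeriv_zero_eq_comp, iteratedFDeriv_zero_eq_comp,
    Function.comp_apply, Function.comp_apply, ← map_sub, LinearIsometryEquiv.norm_map] at h2
  rw [dist_eq_norm]
  exact h2

end

/-! ### continuity on the levels -/

section

variable {f : E3 → ℂ} {s : ℂ} {r : ℝ} {a b : E3 → ℝ}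

theorem pe_cont {θ : Cn 2 → E3} {O : Set (Cn 2)} (h : PE f s r θ O) : ContinuousOn θ O :=
  h.par.hol.continuousOn

theorem CtL.mul (ha : CtL f s r a) (hb : CtL f s r b) : CtL f s r fun x => a x * b x :=
  fun θ O h => (ha θ O h).mul (hb θ O h)

theorem CtL.sub (ha : CtL f s r a) (hb : CtL f s r b) : CtL f s r fun x => a x - b x :=
  fun θ O h => (ha θ O h).sub (hb θ O h)

theorem CtL.exp (ha : CtL f s r a) : CtL f s r fun x => Real.exp (a x) :=
  fun θ O h => Real.continuous_exp.comp_continuousOn (ha θ O h)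

theorem ctl_amb (ha : Continuous a) : CtL f s r a := fun _ _ h => ha.comp_continuousOn (pe_cont h)

theorem ctl_ke {u : E3 → ℝ} (h : KEon f s r u) : CtL f s r u := fun θ O hθ =>
  (h.sm θ O hθ).continuousOn

end

end Crest.Agent.R257.SkelV_952
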