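import Crest.Agent.R257.SkelV2_952

/-!
R257 / SkelV_952: `VStmt` of `Defs_219` from the leaves of `KED_952`.
-/

set_option autoImplicit false

open Topology Filter MeasureTheory Set
open scoped ENNReal ContDiff Matrix
open Crest.AlgGeometry.Germ

noncomputable section

namespace Crest.Agent.R257.SkelV_952

open Crest.Agent.R275.Geo
open Crest.Agent.R257.Defs_219 Crest.Agent.R257.KED_952
open Crest.Agent.R257.PN_835 (nsq)
open Crest.Agent.R257.Aff_835 (eta2a nga)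

/-! ### facts on a convergent family -/

section

variable {Φ : E3 × PP → ℂ} {τ₀ : PP} {l : Filter PP} {r C : ℝ} {w : PP → E3 → ℝ} {u χ : E3 → ℝ}

theorem fam_an (h : Fam Φ τ₀ l r) : ∀ x, nsq x < r ^ 2 → AnalyticAt ℂ (fun x => Φ (x, τ₀)) x :=
  fun _ hx => (h.an _ hx.le).curry_left

theorem fam_sm (h : Fam Φ τ₀ l r) : ∀ x, x ≠ 0 → nsq x < r ^ 2 → Φ (x, τ₀) = 0 →
    fderiv ℂ (fun x => Φ (x, τ₀)) x ≠ 0 := fun x hx hx1 h0 => h.sm0 x hx hx1.le h0

theorem cv_c (cvd : CvDStmt) (ctd : CtDStmt) (h : FamD Φ τ₀ l r C w u) (hχ : Cut r χ) :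
    Cv0 Φ r l τ₀ (fun τ x => χ x * c2d (fun x => Φ (x, τ)) (w τ) x)
      (fun x => χ x * c2d (fun x => Φ (x, τ₀)) u x) :=
  Cv0.mul (cv0_amb h.lim hχ.sm.continuous) (cvd Φ τ₀ l r C w u h χ hχ).1
    (ctl_amb hχ.sm.continuous) (ctd _ 0 r h.r_pos (fam_an h.toFam) (fam_sm h.toFam) u h.ke0.1).1

theorem ct_e (ctd : CtDStmt) {f : E3 → ℂ} {s : ℂ} (hr : 0 < r)
    (han : ∀ x, nsq x < r ^ 2 → AnalyticAt ℂ f x)
    (hsm : ∀ x, x ≠ 0 → nsq x < r ^ 2 → f x = s → fderiv ℂ f x ≠ 0) (hu : KEon f s r u)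
    (hχ : Cut r χ) : CtL f s r fun x => χ x * (c2d f u x - 2 / 3 * Real.exp (u x)) :=
  CtL.mul (ctl_amb hχ.sm.continuous) (CtL.sub (ctd f s r hr han hsm u hu).1
    (CtL.mul (ctl_amb (a := fun _ => 2 / 3) continuous_const) (CtL.exp (ctl_ke hu))))

theorem cv_e (cvd : CvDStmt) (ctd : CtDStmt) (h : FamD Φ τ₀ l r C w u) (hχ : Cut r χ) :
    Cv0 Φ r l τ₀ (fun τ x => χ x * (c2d (fun x => Φ (x, τ)) (w τ) x - 2 / 3 * Real.exp (w τ x)))
      (fun x => χ x * (c2d (fun x => Φ (x, τ₀)) u x - 2 / 3 * Real.exp (u x))) := by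
  have h1 := (ctd _ 0 r h.r_pos (fam_an h.toFam) (fam_sm h.toFam) u h.ke0.1).1
  have h2 : Cv0 Φ r l τ₀ (fun τ x => Real.exp (w τ x)) (fun x => Real.exp (u x)) :=
    Cv0.exp (cv0_of_conv h.conv) (ctl_ke h.ke0.1)
  have h3 : Cv0 Φ r l τ₀ (fun τ x => 2 / 3 * Real.exp (w τ x)) (fun x => 2 / 3 * Real.exp (u x)) :=
    Cv0.mul (cv0_amb (χ := fun _ => 2 / 3) h.lim continuous_const) h2 (ctl_amb continuous_const)
      (CtL.exp (ctl_ke h.ke0.1))
  exact Cv0.mul (cv0_amb h.lim hχ.sm.continuous) (Cv0.sub (cvd Φ τ₀ l r C w u h χ hχ).1 h3)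
    (ctl_amb hχ.sm.continuous) (CtL.sub h1 (CtL.mul (ctl_amb (a := fun _ => 2 / 3) continuous_const)
      (CtL.exp (ctl_ke h.ke0.1))))

theorem cv_t (cvd : CvDStmt) (ctd : CtDStmt) (h : FamD Φ τ₀ l r C w u) (hχ : Cut r χ) :
    Cv0 Φ r l τ₀ (fun τ x => w τ x * mxd (fun x => Φ (x, τ)) (w τ) χ x)
      (fun x => u x * mxd (fun x => Φ (x, τ₀)) u χ x) :=
  Cv0.mul (cv0_of_conv h.conv) (cvd Φ τ₀ l r C w u h χ hχ).2 (ctl_ke h.ke0.1)
    ((ctd _ 0 r h.r_pos (fam_an h.toFam) (fam_sm h.toFam) u h.ke0.1).2 χ hχ.sm)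

/-- `mxd f a χ` vanishes where `χ` is locally constant -/
theorem mxd_eq_zero {f : E3 → ℂ} {a χ : E3 → ℝ} {x : E3} {k : ℝ} (hx : ∀ᶠ y in 𝓝 x, χ y = k) :
    mxd f a χ x = 0 := by
  unfold mxd dns
  split_ifs with h
  · obtain ⟨h1, h2, h3⟩ := h.choose_spec
    set θ := h.choose.1 with hθ
    set z := h.choose.2.2 with hz
    have hc : ContinuousAt θ z := (h1.hol.continuousOn).continuousAt (h1.isOpen.mem_nhds h2)
    have h4 : (fun z => χ (θ z)) =ᶠ[𝓝 z] fun _ => k := by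
      have : ∀ᶠ y in 𝓝 (θ z), χ y = k := by rw [h3]; exact hx
      exact hc.eventually this
    have h5 : Crest.Agent.R273.YauDefs_635.cH (fun z => χ (θ z)) z = 0 := by
      have e1 : fderiv ℝ (fun z => χ (θ z)) =ᶠ[𝓝 z] fderiv ℝ (fun _ => k) := h4.fderiv
      have e2 : fderiv ℝ (fderiv ℝ (fun z => χ (θ z))) z = 0 := by
        rw [e1.fderiv_eq]
        have : fderiv ℝ (fun _ : Cn 2 => k) = fun _ => 0 := by
          funext y
          simp
        rw [this]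
        simp
      ext i j
      simp [Crest.Agent.R273.YauDefs_635.cH, Crest.Agent.R273.YauDefs_635.D2, e2]
    show (C2F1_625.pd _ (Crest.Agent.R273.YauDefs_635.cH (fun z => χ (θ z)) z)).re / _ = 0
    rw [h5]
    simp [C2F1_625.pd]
  · rfl

end

theorem continuous_nsq : Continuous fun x : E3 => nsq x := by
  unfold nsq
  fun_prop

theorem supp_t {r : ℝ} {χ : E3 → ℝ} (hχ : Cut r χ) : ∃ r₁ r₂ : ℝ, 0 < r₁ ∧ 0 < r₂ ∧ r₂ < r ∧
    ∀ x, nsq x ≤ r₁ ^ 2 ∨ r₂ ^ 2 ≤ nsq x → ∀ (f : E3 → ℂ) (a : E3 → ℝ), mxd f a χ x = 0 := by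
  obtain ⟨ρ, hρ, h1⟩ := Metric.eventually_nhds_iff_ball.1 hχ.one
  obtain ⟨r', h2, h3, h4⟩ := hχ.supp
  refine ⟨ρ / 2, (r' + r) / 2, by positivity, by linarith, by linarith, fun x hx f a => ?_⟩
  rcases hx with hx | hx
  · have h5 : ‖x‖ < ρ := by
      have := norm_sq_le_nsq x
      have h6 : ‖x‖ ≤ ρ / 2 := (sq_le_sq₀ (norm_nonneg _) (by positivity)).1 (this.trans hx)
      linarith
    refine mxd_eq_zero (k := 1) ?_
    filter_upwards [Metric.isOpen_ball.mem_nhds (show x ∈ Metric.ball (0 : E3) ρ by simpa using h5)]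
      with y hy using h1 y hy
  · refine mxd_eq_zero (k := 0) ?_
    have h5 : r' ^ 2 < nsq x := by nlinarith
    filter_upwards [(continuous_nsq.tendsto x).eventually (lt_mem_nhds h5)] with y hy
    exact h4 y hy.le

/-! ### the theorem -/

theorem V_of (nu : NuStmt) (meas : MeasStmt) (fat : FatStmt) (cvi : CvIStmt) (ctd : CtDStmt)
    (bmy : BmyStmt) (cvd : CvDStmt) (bd : BdStmt) (gb0 : GB0Stmt) (gbt : GBtStmt) (v1 : V1Stmt)
    (v3 : V3Stmt) (klt : KltStmt) (kltm : KltMStmt) (out : OutStmt) : VStmt := by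
  intro G μ d R r c₀ e P c hG m hm
  rcases (mstar_nonneg (sl G 0)).eq_or_lt with h0 | hpos
  · refine Eventually.of_forall fun t => ?_
    have := mstar_nonneg (sl G t)
    linarith
  by_contra hcon
  rw [Filter.not_eventually] at hcon
  have hne : (𝓝[≠] (0 : ℂ) ⊓ 𝓟 {t | ¬ m ≤ mstar (sl G t)}).NeBot := by
    rw [← Filter.frequently_mem_iff_neBot]
    exact hcon
  obtain ⟨T, hT'⟩ : ∃ T : Ultrafilter ℂ, (T : Filter ℂ) ≤ 𝓝[≠] 0 ⊓ 𝓟 {t | ¬ m ≤ mstar (sl G t)} :=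
    ⟨Ultrafilter.of _, Ultrafilter.of_le _⟩
  have hT : (T : Filter ℂ) ≤ 𝓝[≠] 0 := hT'.trans inf_le_left
  have hTm : ∀ᶠ t in (T : Filter ℂ), mstar (sl G t) < m := by
    have h1 : ∀ᶠ t in (T : Filter ℂ), ¬ m ≤ mstar (sl G t) := hT'.trans inf_le_right (mem_principal_self _)
    exact h1.mono fun t ht => not_le.1 ht
  obtain ⟨r₁, C, w, S, hr, hr1, hS, hA, hB⟩ := out G μ d R r c₀ e P c hG
  obtain ⟨u₀, k1, k2⟩ := hB T hT
  obtain ⟨χ, hχ⟩ := exists_cut hr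
  -- neighbourhoods
  have hR0 : ‖(0 : ℂ)‖ < R := by simpa using hG.R_pos
  have hRn : ∀ᶠ t in 𝓝 (0 : ℂ), ‖t‖ < R := (continuous_norm.tendsto (0 : ℂ)).eventually
    (gt_mem_nhds hR0)
  have hRT : ∀ᶠ t in (T : Filter ℂ), ‖t‖ < R := (hT.trans nhdsWithin_le_nhds) hRn
  -- measures
  have hex : ∀ τ : PP, ∃ ν : Measure E3, ‖τ.1‖ < R → IsNu (fun x => fam G (x, τ)) 0 r₁ ν := by
    intro τ
    by_cases hτ : ‖τ.1‖ < R
    · obtain ⟨ν, hν⟩ := nu (fun x => fam G (x, τ)) 0 r₁ hr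
        (fun x _ => (an_fam hG x hτ).curry_left) (fun x hx hx1 _ => sm_fam hG hr hr1 hτ x hx hx1.le)
      exact ⟨ν, fun _ => hν⟩
    · exact ⟨0, fun h => absurd h hτ⟩
  choose ν hν using hex
  set L : Filter PP := Filter.bind (T : Filter ℂ) fun t => map (fun s => (t, s)) (S : Filter ℂ)
    with hL
  set LT : Filter PP := map (fun t => (t, 0)) (T : Filter ℂ) with hLT
  have hS0 : (S : Filter ℂ) ≤ 𝓝 0 := hS.trans nhdsWithin_le_nhds
  have hT0 : (T : Filter ℂ) ≤ 𝓝 0 := hT.trans nhdsWithin_le_nhds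
  have hLn : L ≤ 𝓝 (0, 0) := by
    intro U hU
    obtain ⟨U₁, h1, U₂, h2, h3⟩ := mem_nhds_prod_iff.1 hU
    rw [hL, Filter.mem_bind']
    filter_upwards [hT0 h1] with t ht
    show ∀ᶠ s in (S : Filter ℂ), (t, s) ∈ U
    filter_upwards [hS0 h2] with s hs
    exact h3 ⟨ht, hs⟩
  have hLne : L.NeBot := by
    rw [Filter.neBot_iff, hL]
    intro h
    have h1 : (∅ : Set PP) ∈ L := by
      rw [hL, h]
      exact mem_bot
    rw [hL, Filter.mem_bind'] at h1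
    obtain ⟨t, ht⟩ := Filter.nonempty_of_mem h1
    have h2 : (∅ : Set ℂ) ∈ (S : Filter ℂ) := ht
    exact Filter.empty_notMem _ h2
  have hLTn : LT ≤ 𝓝 (0, 0) := by
    have : Tendsto (fun t : ℂ => ((t, 0) : PP)) (𝓝 0) (𝓝 (0, 0)) :=
      (Continuous.prodMk continuous_id continuous_const).tendsto' _ _ rfl
    exact this.mono_left hT0
  have hSn : ∀ t : ℂ, map (fun s => ((t, s) : PP)) (S : Filter ℂ) ≤ 𝓝 (t, 0) := fun t => by
    have : Tendsto (fun s : ℂ => ((t, s) : PP)) (𝓝 0) (𝓝 (t, 0)) :=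
      (Continuous.prodMk continuous_const continuous_id).tendsto' _ _ rfl
    exact this.mono_left hS0
  -- the data
  have hL1 : ∀ {Q : PP → Prop}, (∀ᶠ t in (T : Filter ℂ), ∀ᶠ s in (S : Filter ℂ), Q (t, s)) →
      ∀ᶠ τ in L, Q τ := fun {Q} h => by
    rw [hL, Filter.eventually_bind]
    exact h
  have hSne : ∀ᶠ s in (S : Filter ℂ), s ≠ 0 := hS self_mem_nhdsWithin
  have SM0 : SmD (fam G) (0, 0) L r₁ C w u₀ := by
    refine ⟨⟨fam_gfam hG hr hr1 hR0 hLn, k2⟩, hL1 ?_⟩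
    filter_upwards [hRT] with t ht
    filter_upwards [hSne] with s hs
    exact nz_fam hG ht hs
  have FT : FamD (fam G) (0, 0) LT r₁ C w u₀ := ⟨fam_gfam hG hr hr1 hR0 hLTn, k1⟩
  have SMt : ∀ᶠ t in (T : Filter ℂ),
      SmD (fam G) (t, 0) (map (fun s => (t, s)) (S : Filter ℂ)) r₁ C w (w (t, 0)) := by
    filter_upwards [hRT, hT hA] with t ht hk
    refine ⟨⟨fam_gfam hG hr hr1 ht (hSn t), hk⟩, ?_⟩
    rw [Filter.eventually_map]
    filter_upwards [hSne] with s hs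
    exact nz_fam hG ht hs
  have hνL : ∀ᶠ τ in L, IsNu (fun x => fam G (x, τ)) 0 r₁ (ν τ) := by
    refine hL1 ?_
    filter_upwards [hRT] with t ht
    exact Eventually.of_forall fun s => hν (t, s) ht
  have hνLT : ∀ᶠ τ in LT, IsNu (fun x => fam G (x, τ)) 0 r₁ (ν τ) := by
    rw [hLT, Filter.eventually_map]
    filter_upwards [hRT] with t ht using hν (t, 0) ht
  have hν0 : IsNu (fun x => fam G (x, (0, 0))) 0 r₁ (ν (0, 0)) := hν (0, 0) hR0
  -- klt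
  have hk0 : ¬ Klt (sl G 0) := fun h => hpos.ne' (kltm _ (iso_gfam hG hR0) h)
  have hkt : ∀ᶠ t in (T : Filter ℂ), ¬ Klt (sl G t) := by
    refine hT ?_
    have : ¬ ∃ᶠ t in 𝓝[≠] (0 : ℂ), Klt (sl G t) := fun h => hk0 (klt G μ d R r c₀ e P c hG h)
    exact Filter.not_frequently.1 this
  -- the numbers
  set MM : ℝ≥0∞ := ENNReal.ofReal (Real.pi ^ 2 * (μ + 1)) with hMM
  obtain ⟨B, hBd⟩ := bd (fam G) (0, 0) L r₁ C w u₀ SM0 χ hχ ν hνL
  have hC0 : C2I (ν (0, 0)) (fun x => fam G (x, (0, 0))) u₀ χ ≤ ENNReal.ofReal B := by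
    by_contra hcon
    rw [not_le] at hcon
    have hct : ∀ᶠ τ in L, CtL (fun x => fam G (x, τ)) 0 r₁
        (fun x => χ x * c2d (fun x => fam G (x, τ)) (w τ) x) := by
      have h1 : ∀ᶠ τ in L, ‖τ.1‖ < R := hL1 (hRT.mono fun t ht => Eventually.of_forall fun _ => ht)
      filter_upwards [h1, k2.ke] with τ h2 h3
      exact CtL.mul (ctl_amb hχ.sm.continuous) (ctd _ 0 r₁ hr
        (fun x _ => (an_fam hG x h2).curry_left) (fun x hx hx1 _ => sm_fam hG hr hr1 h2 x hx hx1.le)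
        (w τ) h3.1).1
    have h1 := fat (fam G) (0, 0) L r₁ SM0.toFam ν (ν (0, 0)) hνL hν0 _ _ hct
      (CtL.mul (ctl_amb hχ.sm.continuous) (ctd _ 0 r₁ hr (fam_an SM0.toFam) (fam_sm SM0.toFam) u₀
        k2.ke0.1).1) (cv_c cvd ctd SM0.toFamD hχ) _ hcon
    obtain ⟨τ, h2, h3⟩ := (h1.and hBd).exists
    exact absurd h3 (not_le.2 h2)
  have hsp0 := c2i_split meas bmy hr (fam_an SM0.toFam) (fam_sm SM0.toFam) hν0 k2.ke0.1 hχ
  set C0 := C2I (ν (0, 0)) (fun x => fam G (x, (0, 0))) u₀ χ with hC0d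
  set A0 := VOL (ν (0, 0)) u₀ χ with hA0d
  set E0 := C2E (ν (0, 0)) (fun x => fam G (x, (0, 0))) u₀ χ with hE0d
  have hC0f : C0 ≠ ⊤ := (hC0.trans_lt ENNReal.ofReal_lt_top).ne
  have h23 : ENNReal.ofReal (2 / 3) ≠ 0 := by
    rw [Ne, ENNReal.ofReal_eq_zero]
    norm_num
  have hE0f : E0 ≠ ⊤ := fun h => hC0f (by rw [hsp0, h, top_add])
  have hA0f : A0 ≠ ⊤ := fun h => hC0f (by rw [hsp0, h, ENNReal.mul_top h23, add_top])
  -- comparison of the losses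
  have hcmp : ∀ ε : ℝ, 0 < ε → ∀ᶠ t in (T : Filter ℂ),
      C2I (ν (t, 0)) (fun x => fam G (x, (t, 0))) (w (t, 0)) χ ≤
        C0 + ENNReal.ofReal ε + ENNReal.ofReal ε := by
    intro ε hε
    have h1 := gb0 (fam G) (0, 0) L r₁ C w u₀ SM0 _ rfl (by rw [fam_zero]; exact hpos) χ hχ ν
      (ν (0, 0)) hνL hν0 ε hε
    rw [fam_zero G 0, hG.mu 0 hR0] at h1
    have h1' : ∀ᶠ t in (T : Filter ℂ), ∀ᶠ s in (S : Filter ℂ),
        C2I (ν (t, s)) (fun x => fam G (x, (t, s))) (w (t, s)) χ ≤ C0 + MM + ENNReal.ofReal ε := by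
      rw [hL, Filter.eventually_bind] at h1
      filter_upwards [h1] with t ht
      rw [Filter.eventually_map] at ht
      filter_upwards [ht] with s hs
      rw [hC0d, fam_zero G 0]
      exact hs
    filter_upwards [h1', SMt, hkt, hRT] with t h2 h3 h4 h5
    have h6 := gbt (fam G) (t, 0) _ r₁ C w (w (t, 0)) h3 _ rfl (by rw [fam_zero]; exact h4) χ hχ ν
      (ν (t, 0)) (by
        rw [Filter.eventually_map]
        exact Eventually.of_forall fun s => hν (t, s) h5) (hν (t, 0) h5) ε hε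
    rw [Filter.eventually_map] at h6
    obtain ⟨s, h7, h8⟩ := (h2.and h6).exists
    have h9 : (col (par fun x => fam G (x, (t, 0))) : ℝ) = μ := by
      rw [fam_zero, hG.mu t h5]
    rw [h9, ← hMM] at h8
    have h10 : C2I (ν (t, 0)) (fun x => fam G (x, (t, 0))) (w (t, 0)) χ + MM ≤
        (C0 + ENNReal.ofReal ε + ENNReal.ofReal ε) + MM := by
      refine h8.trans ?_
      calc C2I (ν (t, s)) (fun x => fam G (x, (t, s))) (w (t, s)) χ + ENNReal.ofReal ε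
          ≤ C0 + MM + ENNReal.ofReal ε + ENNReal.ofReal ε := by gcongr
        _ = _ := by abel
    exact (ENNReal.add_le_add_iff_right ENNReal.ofReal_ne_top).1 h10
  -- Fatou
  have hfat : ∀ δ : ℝ, 0 < δ → ∀ᶠ t in (T : Filter ℂ),
      E0 ≤ C2E (ν (t, 0)) (fun x => fam G (x, (t, 0))) (w (t, 0)) χ + ENNReal.ofReal δ := by
    intro δ hδ
    by_cases hE : E0 ≤ ENNReal.ofReal δ
    · exact Eventually.of_forall fun t => hE.trans le_add_self
    · rw [not_le] at hE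
      have hlt : E0 - ENNReal.ofReal δ < E0 := ENNReal.sub_lt_self hE0f
        (pos_of_gt hE).ne' (by simpa using hδ)
      have hct : ∀ᶠ τ in LT, CtL (fun x => fam G (x, τ)) 0 r₁
          (fun x => χ x * (c2d (fun x => fam G (x, τ)) (w τ) x - 2 / 3 * Real.exp (w τ x))) := by
        have h1 : ∀ᶠ τ in LT, ‖τ.1‖ < R := by
          rw [hLT, Filter.eventually_map]
          exact hRT
        filter_upwards [h1, k1.ke] with τ h2 h3
        exact ct_e ctd hr (fun x _ => (an_fam hG x h2).curry_left)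
          (fun x hx hx1 _ => sm_fam hG hr hr1 h2 x hx hx1.le) h3.1 hχ
      have h1 := fat (fam G) (0, 0) LT r₁ FT.toFam ν (ν (0, 0)) hνLT hν0 _ _ hct
        (ct_e ctd hr (fam_an FT.toFam) (fam_sm FT.toFam) k1.ke0.1 hχ) (cv_e cvd ctd FT hχ) _ hlt
      rw [hLT, Filter.eventually_map] at h1
      filter_upwards [h1] with t ht
      exact tsub_le_iff_right.1 ht.le
  -- the volumes
  have hvol : ∀ η : ℝ, 0 < η → ∀ᶠ t in (T : Filter ℂ),
      (VOL (ν (t, 0)) (w (t, 0)) χ).toReal ≤ A0.toReal + η := by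
    intro η hη
    filter_upwards [hcmp (2 / 9 * η) (by positivity), hfat (2 / 9 * η) (by positivity), SMt, hRT]
      with t h1 h2 h3 h4
    have hsp := c2i_split meas bmy hr (fam_an h3.toFam) (fam_sm h3.toFam) (hν (t, 0) h4) h3.ke0.1 hχ
    set At := VOL (ν (t, 0)) (w (t, 0)) χ with hAt
    set Et := C2E (ν (t, 0)) (fun x => fam G (x, (t, 0))) (w (t, 0)) χ with hEt
    rw [hsp] at h1
    have hfin : Et + ENNReal.ofReal (2 / 3) * At ≠ ⊤ :=
      (h1.trans_lt (by simp [hC0f.lt_top])).ne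
    have hEf : Et ≠ ⊤ := fun h => hfin (by rw [h, top_add])
    have hAf : At ≠ ⊤ := fun h => hfin (by rw [h, ENNReal.mul_top h23, add_top])
    have h5 : Et.toReal + 2 / 3 * At.toReal ≤ C0.toReal + 2 / 9 * η + 2 / 9 * η := by
      have h6 := ENNReal.toReal_mono (by simp [hC0f]) h1
      rw [ENNReal.toReal_add hEf (ENNReal.mul_ne_top ENNReal.ofReal_ne_top hAf),
        ENNReal.toReal_mul, ENNReal.toReal_ofReal (by norm_num),
        ENNReal.toReal_add (by simp [hC0f]) ENNReal.ofReal_ne_top,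
        ENNReal.toReal_add hC0f ENNReal.ofReal_ne_top,
        ENNReal.toReal_ofReal (by positivity)] at h6
      exact h6
    have h7 : C0.toReal = E0.toReal + 2 / 3 * A0.toReal := by
      rw [hsp0, ENNReal.toReal_add hE0f (ENNReal.mul_ne_top ENNReal.ofReal_ne_top hA0f),
        ENNReal.toReal_mul, ENNReal.toReal_ofReal (by norm_num)]
    have h8 : E0.toReal ≤ Et.toReal + 2 / 9 * η := by
      have h9 := ENNReal.toReal_mono (by simp [hEf]) h2
      rw [ENNReal.toReal_add hEf ENNReal.ofReal_ne_top, ENNReal.toReal_ofReal (by positivity)] at h9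
      exact h9
    linarith
  -- the total masses
  have htot : Tendsto (fun τ => TOT (ν τ) (fun x => fam G (x, τ)) (w τ) χ) LT
      (𝓝 (TOT (ν (0, 0)) (fun x => fam G (x, (0, 0))) u₀ χ)) := by
    obtain ⟨r₂, r₃, h1, h2, h3, h4⟩ := supp_t hχ
    have hct : ∀ᶠ τ in LT, CtL (fun x => fam G (x, τ)) 0 r₁
        (fun x => w τ x * mxd (fun x => fam G (x, τ)) (w τ) χ x) := by
      have h1 : ∀ᶠ τ in LT, ‖τ.1‖ < R := by
        rw [hLT, Filter.eventually_map]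
        exact hRT
      filter_upwards [h1, k1.ke] with τ h2 h3
      exact CtL.mul (ctl_ke h3.1) ((ctd _ 0 r₁ hr (fun x _ => (an_fam hG x h2).curry_left)
        (fun x hx hx1 _ => sm_fam hG hr hr1 h2 x hx hx1.le) (w τ) h3.1).2 χ hχ.sm)
    refine cvi (fam G) (0, 0) LT r₁ FT.toFam ν (ν (0, 0)) hνLT hν0 _ _ hct
      (CtL.mul (ctl_ke k1.ke0.1) ((ctd _ 0 r₁ hr (fam_an FT.toFam) (fam_sm FT.toFam) u₀
        k1.ke0.1).2 χ hχ.sm)) (cv_t cvd ctd FT hχ) ⟨r₂, r₃, h1, h2, h3, fun x hx => ⟨fun τ => ?_, ?_⟩⟩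
    · rw [h4 x hx, mul_zero]
    · rw [h4 x hx, mul_zero]
  -- the end
  have hV1 := v1 (fam G) (0, 0) L r₁ C w u₀ SM0 _ rfl (by rw [fam_zero]; exact hpos) χ hχ
    (ν (0, 0)) hν0
  rw [fam_zero] at hV1
  have hpi : 0 < Real.pi ^ 2 := by positivity
  set T0 := TOT (ν (0, 0)) (sl G 0) u₀ χ with hT0d
  set η : ℝ := Real.pi ^ 2 * (mstar (sl G 0) - m) / 4 with hη
  have hη0 : 0 < η := by
    have : 0 < mstar (sl G 0) - m := by linarith
    positivity
  have h1 : ∀ᶠ t in (T : Filter ℂ), T0 - η < TOT (ν (t, 0)) (fun x => fam G (x, (t, 0))) (w (t, 0)) χ := by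
    rw [fam_zero] at htot
    have := htot.eventually (lt_mem_nhds (show T0 - η < T0 by linarith))
    rwa [hLT, Filter.eventually_map] at this
  obtain ⟨t, h2, h3, h4, h5, h6, h7⟩ :=
    (h1.and ((hvol η hη0).and (SMt.and (hkt.and (hRT.and hTm))))).exists
  have hV3 := v3 (fam G) (t, 0) _ r₁ C w (w (t, 0)) h4 _ rfl (by rw [fam_zero]; exact h5) χ hχ
    (ν (t, 0)) (hν (t, 0) h6)
  unfold mas at hV1 hV3
  rw [le_div_iff₀ hpi] at hV1
  rw [div_le_iff₀ hpi] at hV3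
  have h8 : mstar (fun x => fam G (x, (t, 0))) < m := by
    rw [fam_zero]
    exact h7
  have h9 : mstar (fun x => fam G (x, (t, 0))) * Real.pi ^ 2 < m * Real.pi ^ 2 :=
    mul_lt_mul_of_pos_right h8 hpi
  have h10 : 4 * η = Real.pi ^ 2 * (mstar (sl G 0) - m) := by rw [hη]; ring
  nlinarith

end Crest.Agent.R257.SkelV_952
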