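import Mathlib
import Crest.Agent.R257.OrdL_578
import Crest.Agent.R257.NodeA_547
import Crest.Agent.R257.T3_387

/-!
Row 257 (S0395), part C, T-frame, file 5 (helper387): functions without zeros off the axes of a bidisc
are monomials times units, on the whole bidisc.
-/

set_option autoImplicit false
set_option linter.unusedSectionVars false

open Polynomial Set Filter Topology Metric
open Crest.AlgGeometry.Germ Crest.Agent.R257.AJ387
open Crest.Agent.R257.OrdL_578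

noncomputable section

namespace Crest.Agent.R257.T387

lemma fst_nhds {p : ℂ × ℂ} (h : p.1 ≠ 0) : ∀ᶠ q in 𝓝 p, q.1 ≠ 0 :=
  continuous_fst.continuousAt.eventually_ne h

lemma snd_nhds {p : ℂ × ℂ} (h : p.2 ≠ 0) : ∀ᶠ q in 𝓝 p, q.2 ≠ 0 :=
  continuous_snd.continuousAt.eventually_ne h

/-- global division by the first coordinate -/
theorem div_bd {r : ℝ} {g : ℂ × ℂ → ℂ} (hr : 0 < r) (hg : AnalyticOnNhd ℂ g (BD r r))
    (hne : ∀ p ∈ BD r r, p.1 ≠ 0 → p.2 ≠ 0 → g p ≠ 0) :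
    ∃ (n : ℕ) (G : ℂ × ℂ → ℂ), AnalyticOnNhd ℂ G (BD r r) ∧
      (∀ p ∈ BD r r, g p = p.1 ^ n * G p) ∧ ∀ b ∈ ball (0 : ℂ) r, ∃ᶠ z in 𝓝 b, G (0, z) ≠ 0 := by
  have hmem : ∀ z ∈ ball (0 : ℂ) r, ((0 : ℂ), z) ∈ BD r r := fun z hz =>
    ⟨by simpa using hr, by simpa using hz⟩
  have h0 : ¬ ∀ᶠ q in 𝓝 ((0 : ℂ), (0 : ℂ)), g q = 0 := by
    intro h
    obtain ⟨ε, hε, hb⟩ := TB.exists_BD h
    set t : ℝ := min ε r / 2 with ht
    have ht0 : 0 < t := by positivity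
    have h1 : t < ε := by
      have := min_le_left ε r
      rw [ht]; linarith
    have h2 : t < r := by
      have := min_le_right ε r
      rw [ht]; linarith
    have hn : ‖(t : ℂ)‖ = t := by rw [Complex.norm_real, Real.norm_of_nonneg ht0.le]
    have h3 : ((t : ℂ), (t : ℂ)) ∈ BD r r := ⟨by rw [hn]; exact h2, by rw [hn]; exact h2⟩
    have h4 : ((t : ℂ), (t : ℂ)) ∈ BD ε ε := ⟨by rw [hn]; exact h1, by rw [hn]; exact h1⟩
    have h5 : (t : ℂ) ≠ 0 := by exact_mod_cast ht0.ne'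
    exact hne _ h3 h5 h5 (hb h4)
  obtain ⟨n, hn⟩ := exists_ord (hg _ (hmem 0 (mem_ball_self hr))) h0
  have hall := HasOrd.of_preconnected (convex_ball (0 : ℂ) r).isPreconnected
    (fun z hz => hg _ (hmem z hz)) (mem_ball_self hr) hn
  classical
  refine ⟨n, fun p => if p.1 = 0 then lc g n p.2 else g p / p.1 ^ n, ?_, ?_, ?_⟩
  · intro p hp
    by_cases h : p.1 = 0
    · obtain ⟨G, hG, -⟩ := hall p.2 (by simpa using hp.2)
      have hp' : p = (0, p.2) := Prod.ext h rfl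
      have hG1 : AnalyticAt ℂ G p := by rw [hp']; exact hG.1
      refine hG1.congr ?_
      rw [hp']
      have h1 : ∀ᶠ q in 𝓝 ((0 : ℂ), p.2), lc g n q.2 = G (0, q.2) :=
        (continuous_snd.tendsto' ((0 : ℂ), p.2) p.2 rfl).eventually hG.lc_eq
      filter_upwards [h1, hG.2] with q h2 h3
      by_cases hq : q.1 = 0
      · rw [if_pos hq, h2]
        exact congrArg G (Prod.ext hq rfl)
      · rw [if_neg hq, h3, mul_div_cancel_left₀]
        exact pow_ne_zero _ hq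
    · have h1 : AnalyticAt ℂ (fun p : ℂ × ℂ => g p / p.1 ^ n) p :=
        (hg p hp).div (analyticAt_fst.pow n) (pow_ne_zero _ h)
      refine h1.congr ?_
      filter_upwards [fst_nhds h] with q hq
      rw [if_neg hq]
  · intro p hp
    by_cases h : p.1 = 0
    · obtain ⟨G, hG, -⟩ := hall p.2 (by simpa using hp.2)
      have hp' : p = (0, p.2) := Prod.ext h rfl
      simp only [h, if_true]
      rw [hG.lc_eq_self, ← hp']
      have h1 := hG.2.self_of_nhds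
      rw [← hp'] at h1
      rw [h1, h]
    · simp only [h, if_false]
      rw [mul_div_cancel₀]
      exact pow_ne_zero _ h
  · intro b hb
    refine ((hall b hb).lc_ne).mono fun z hz => ?_
    simp only [if_true]
    exact hz

/-- no isolated zeros, at any point -/
theorem no_isolated' {K : ℂ × ℂ → ℂ} {p : ℂ × ℂ} (hK : AnalyticAt ℂ K p) (h0 : K p = 0)
    (h : ∀ᶠ q in 𝓝 p, K q = 0 → q = p) : False := by
  have ht : Tendsto (fun q : ℂ × ℂ => p + q) (𝓝 ((0 : ℂ), (0 : ℂ))) (𝓝 p) :=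
    (by fun_prop : Continuous fun q : ℂ × ℂ => p + q).tendsto' _ _ (by
      have : ((0 : ℂ), (0 : ℂ)) = 0 := rfl
      rw [this, add_zero])
  refine Crest.Agent.R257.Node_547.no_isolated (K := fun q => K (p + q)) ?_ ?_ ?_
  · refine AnalyticAt.comp (g := K) (f := fun q : ℂ × ℂ => p + q) ?_
      (analyticAt_const.add analyticAt_id)
    have : p + ((0 : ℂ), (0 : ℂ)) = p := add_zero p
    rw [this]
    exact hK
  · show K (p + (0 : ℂ × ℂ)) = 0
    rw [add_zero, h0]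
  · filter_upwards [ht.eventually h] with q hq hq0
    have := hq hq0
    exact add_eq_left.1 this

/-- **monomial times unit** -/
theorem mono_bd {r : ℝ} {g : ℂ × ℂ → ℂ} (hr : 0 < r) (hg : AnalyticOnNhd ℂ g (BD r r))
    (hne : ∀ p ∈ BD r r, p.1 ≠ 0 → p.2 ≠ 0 → g p ≠ 0) :
    ∃ (a b : ℕ) (w : ℂ × ℂ → ℂ), AnalyticOnNhd ℂ w (BD r r) ∧ (∀ p ∈ BD r r, w p ≠ 0) ∧
      ∀ p ∈ BD r r, g p = p.1 ^ a * p.2 ^ b * w p := by
  obtain ⟨a, G, hGa, hG, hG0⟩ := div_bd hr hg hne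
  have hsw : ∀ {p : ℂ × ℂ}, p ∈ BD r r → ((p.2, p.1) : ℂ × ℂ) ∈ BD r r := fun h => ⟨h.2, h.1⟩
  obtain ⟨b, G', hGa', hG', hG0'⟩ := div_bd (g := sw G) hr (fun p hp => sw_an (hGa _ (hsw hp)))
    (fun p hp h1 h2 h => by
      have h3 := hne _ (hsw hp) h2 h1
      rw [hG _ (hsw hp)] at h3
      apply h3
      have : G (p.2, p.1) = 0 := h
      rw [this, mul_zero])
  set w : ℂ × ℂ → ℂ := sw G' with hw
  have hwa : AnalyticOnNhd ℂ w (BD r r) := fun p hp => sw_an (hGa' _ (hsw hp))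
  have hGw : ∀ p ∈ BD r r, G p = p.2 ^ b * w p := fun p hp => hG' (p.2, p.1) (hsw hp)
  have hgw : ∀ p ∈ BD r r, g p = p.1 ^ a * p.2 ^ b * w p := fun p hp => by
    rw [hG p hp, hGw p hp, mul_assoc]
  have hoff : ∀ p ∈ BD r r, p.1 ≠ 0 → p.2 ≠ 0 → w p ≠ 0 := fun p hp h1 h2 h => by
    apply hne p hp h1 h2
    rw [hgw p hp, h, mul_zero]
  -- on the two axes the zeros of `w` are isolated
  have hax1 : ∀ b ∈ ball (0 : ℂ) r, ∀ᶠ z in 𝓝[≠] b, w (0, z) ≠ 0 := by
    intro z₀ hz₀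
    refine ne_punct (an_ax (hwa _ ⟨by simpa using hr, by simpa using hz₀⟩)) ?_
    have h1 : ∀ᶠ z in 𝓝 z₀, z ∈ ball (0 : ℂ) r := isOpen_ball.mem_nhds hz₀
    refine ((hG0 z₀ hz₀).and_eventually h1).mono ?_
    rintro z ⟨h2, h3⟩ h4
    apply h2
    rw [hGw (0, z) ⟨by simpa using hr, by simpa using h3⟩, h4, mul_zero]
  have hax2 : ∀ a ∈ ball (0 : ℂ) r, ∀ᶠ z in 𝓝[≠] a, w (z, 0) ≠ 0 := by
    intro z₀ hz₀
    have h0 : AnalyticAt ℂ (fun z => G' (0, z)) z₀ :=
      an_ax (hGa' _ ⟨by simpa using hr, by simpa using hz₀⟩)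
    exact ne_punct h0 (hG0' z₀ hz₀)
  refine ⟨a, b, w, hwa, fun p hp hp0 => ?_, hgw⟩
  have hBD : ∀ᶠ q in 𝓝 p, q ∈ BD r r := (isOpen_BD r r).mem_nhds hp
  have e1 : ∀ᶠ q in 𝓝 p, p.1 = 0 → q.2 ≠ p.2 → w (0, q.2) ≠ 0 := by
    have h1 := hax1 p.2 (by simpa using hp.2)
    rw [eventually_nhdsWithin_iff] at h1
    have h2 := (continuous_snd.tendsto p).eventually h1
    filter_upwards [h2] with q hq _ h3
    exact hq h3
  have e2 : ∀ᶠ q in 𝓝 p, p.2 = 0 → q.1 ≠ p.1 → w (q.1, 0) ≠ 0 := by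
    have h1 := hax2 p.1 (by simpa using hp.1)
    rw [eventually_nhdsWithin_iff] at h1
    have h2 := (continuous_fst.tendsto p).eventually h1
    filter_upwards [h2] with q hq _ h3
    exact hq h3
  have e3 : ∀ᶠ q in 𝓝 p, p.1 ≠ 0 → q.1 ≠ 0 := by
    by_cases h : p.1 = 0
    · exact Eventually.of_forall fun q h' => absurd h h'
    · filter_upwards [fst_nhds h] with q hq _ using hq
  have e4 : ∀ᶠ q in 𝓝 p, p.2 ≠ 0 → q.2 ≠ 0 := by
    by_cases h : p.2 = 0
    · exact Eventually.of_forall fun q h' => absurd h h'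
    · filter_upwards [snd_nhds h] with q hq _ using hq
  refine no_isolated' (hwa p hp) hp0 ?_
  filter_upwards [hBD, e1, e2, e3, e4] with q hq h1 h2 h3 h4 hq0
  by_cases ha : q.1 = 0
  · have hp1 : p.1 = 0 := by
      by_contra h
      exact h3 h ha
    refine Prod.ext (by rw [ha, hp1]) ?_
    by_contra hne2
    apply h1 hp1 hne2
    have : q = (0, q.2) := Prod.ext ha rfl
    rw [← this]
    exact hq0
  · by_cases hb : q.2 = 0
    · have hp2 : p.2 = 0 := by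
        by_contra h
        exact h4 h hb
      refine Prod.ext ?_ (by rw [hb, hp2])
      by_contra hne2
      apply h2 hp2 hne2
      have : q = (q.1, 0) := Prod.ext rfl hb
      rw [← this]
      exact hq0
    · exact absurd hq0 (hoff q hq ha hb)

/-- the version with only one axis -/
theorem mono_bd1 {r : ℝ} {g : ℂ × ℂ → ℂ} (hr : 0 < r) (hg : AnalyticOnNhd ℂ g (BD r r))
    (hne : ∀ p ∈ BD r r, p.1 ≠ 0 → g p ≠ 0) :
    ∃ (a : ℕ) (w : ℂ × ℂ → ℂ), AnalyticOnNhd ℂ w (BD r r) ∧ (∀ p ∈ BD r r, w p ≠ 0) ∧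
      ∀ p ∈ BD r r, g p = p.1 ^ a * w p := by
  obtain ⟨a, b, w, hw, hw0, h⟩ := mono_bd hr hg fun p hp h1 _ => hne p hp h1
  have hb : b = 0 := by
    by_contra hb
    have h1 : ((↑(r / 2) : ℂ), (0 : ℂ)) ∈ BD r r := by
      refine ⟨?_, by simpa using hr⟩
      rw [Complex.norm_real, Real.norm_of_nonneg (by positivity)]
      linarith
    have h2 : (↑(r / 2) : ℂ) ≠ 0 := by exact_mod_cast (by positivity : (r / 2 : ℝ) ≠ 0)
    apply hne _ h1 h2
    rw [h _ h1]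
    simp [hb]
  subst hb
  exact ⟨a, w, hw, hw0, fun p hp => by rw [h p hp, pow_zero, mul_one]⟩

end Crest.Agent.R257.T387
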