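import Mathlib
import Crest.Agent.R257.T3_387

/-!
Row 257 (S0395), part C, T-frame, file 8 (helper387): sheets together with the monomial formulas for
`y' - φ j` (all branches, also dummy ones) on the same bidisc.
-/

set_option autoImplicit false
set_option linter.unusedSectionVars false

open Polynomial Set Filter Topology Metric
open Crest.AlgGeometry.Germ Crest.Agent.R257.AJ387

noncomputable section

namespace Crest.Agent.R257.T387

namespace TB

variable {f : (Fin 3 → ℂ) → ℂ} (T : TB f)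

/-- in the chart `c`, on the bidisc of radius `r`, every `y' - φ j` is a monomial times a unit -/
def MonoC (c : Ch T.m) (r : ℝ) : Prop :=
  ∀ j, ∃ U : ℂ × ℂ → ℂ, AnalyticOnNhd ℂ U (BD r r) ∧ (∀ p ∈ BD r r, U p ≠ 0) ∧
    ∀ p ∈ BD r r, (T.map c p).2 - T.φ j ((T.map c p).1 ^ T.M) =
      (T.kap c p).1 ^ (T.ex c j).1 * (T.kap c p).2 ^ (T.ex c j).2 * U p

lemma MonoC.mono {T : TB f} {c : Ch T.m} {r r' : ℝ} (h : T.MonoC c r) (hr : r' ≤ r) : T.MonoC c r' :=
  fun j => by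
    obtain ⟨U, h1, h2, h3⟩ := h j
    exact ⟨U, h1.mono (BD_mono hr), fun p hp => h2 p (BD_mono hr hp),
      fun p hp => h3 p (BD_mono hr hp)⟩

lemma kap_an (c : Ch T.m) (p : ℂ × ℂ) : AnalyticAt ℂ (T.kap c) p := by
  cases c with
  | edge i k k' => exact (analyticAt_fst.pow _).prod (analyticAt_snd.pow _)
  | leg i => exact (analyticAt_fst.pow _).prod (analyticAt_snd.pow _)
  | vert i k w₀ => exact (analyticAt_fst.pow _).prod analyticAt_snd

theorem exists_monoC {c : Ch T.m} (hc : T.Valid c) : ∃ r₀ > 0, T.MonoC c r₀ := by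
  obtain ⟨r, hr, hr1, -, U, hUa, hUn, hU⟩ := T.exists_r hc
  have hM := T.M_pos
  have hk : ∀ p ∈ BD r r, T.kap c p ∈ BD r r := by
    have hpow : ∀ a : ℂ, ‖a‖ < r → ‖a ^ T.M‖ < r := fun a ha => by
      rw [norm_pow]
      calc ‖a‖ ^ T.M ≤ ‖a‖ ^ 1 := pow_le_pow_of_le_one (norm_nonneg _) (ha.le.trans hr1) hM
        _ < r := by rw [pow_one]; exact ha
    intro p hp
    cases c with
    | edge i k k' => exact ⟨hpow _ hp.1, hpow _ hp.2⟩
    | leg i => exact ⟨hpow _ hp.1, hpow _ hp.2⟩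
    | vert i k w₀ => exact ⟨hpow _ hp.1, hp.2⟩
  refine ⟨r, hr, fun j => ⟨fun p => U j (T.kap c p), fun p hp => ?_, fun p hp => hUn j _ (hk p hp),
    fun p hp => ?_⟩⟩
  · exact AnalyticAt.comp (g := U j) (f := T.kap c) (hUa j _ (hk p hp)) (T.kap_an c p)
  · rw [T.map_fst_pow, T.map_snd]
    exact hU j _ (hk p hp)

/-- **sheets and monomial formulas for all small radii** -/
theorem exists_sheets_mono {c : Ch T.m} (hc : T.Valid c) :
    ∃ r₀ > 0, ∀ r > 0, r ≤ r₀ → T.MonoC c r ∧ ∃ ζ, T.Sheets c r ζ := by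
  obtain ⟨r₁, hr₁, h1⟩ := T.exists_monoC hc
  obtain ⟨r₂, hr₂, h2⟩ := T.sheets c hc
  exact ⟨min r₁ r₂, by positivity, fun r hr hle => ⟨h1.mono (hle.trans (min_le_left _ _)),
    h2 r hr (hle.trans (min_le_right _ _))⟩⟩

/-- off the axes no branch (dummy or not) meets the chart -/
theorem MonoC.ne {T : TB f} {c : Ch T.m} {r : ℝ} (h : T.MonoC c r) {p : ℂ × ℂ} (hp : p ∈ BD r r)
    (hg : T.Gen c p) (j : Fin T.m) : (T.map c p).2 ≠ T.φ j ((T.map c p).1 ^ T.M) := by
  obtain ⟨U, -, h2, h3⟩ := h j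
  intro he
  have h4 := h3 p hp
  rw [he, sub_self] at h4
  exact mul_ne_zero (T.mono_ne ((T.gen_iff c p).1 hg) j) (h2 p hp) h4.symm

end TB

end Crest.Agent.R257.T387
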