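import Crest.Agent.R257.Cnm4_889

/-!
Row 257 (S0395), leaf CNE (helper812): the Taylor map.  Germs at the origin of `ℂⁿ` can be evaluated
at an `n`-tuple `m` of nilpotent elements of a commutative `ℂ`-algebra.
-/

set_option autoImplicit false
set_option linter.unusedSectionVars false

open Set Filter Topology
open Crest.Agent.R275.Loc2879
open Crest.Agent.R257.Fin554 Crest.Agent.R257.Uni554
open Crest.Agent.R257.Cnm3_889 Crest.Agent.R257.Cnm4_889

noncomputable section

namespace Crest.Agent.R257.Tay_812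

variable {n : ℕ}

/-- every germ is a polynomial modulo a power of the maximal ideal -/
lemma exists_poly (K : ℕ) : ∀ b : On n, ∃ p : MvPolynomial (Fin n) ℂ,
    b - MvPolynomial.aeval Xo p ∈ IsLocalRing.maximalIdeal (On n) ^ K := by
  induction K with
  | zero => intro b; exact ⟨0, by simp⟩
  | succ K ih =>
    intro b
    obtain ⟨q, hq⟩ := had b
    choose p hp using fun i => ih (q i)
    refine ⟨MvPolynomial.C (evp 0 b) + ∑ i, MvPolynomial.X i * p i, ?_⟩
    have h1 : b - MvPolynomial.aeval Xo (MvPolynomial.C (evp 0 b) +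
        ∑ i, MvPolynomial.X i * p i) =
        ∑ i, Xo i * (q i - MvPolynomial.aeval Xo (p i)) := by
      rw [map_add, map_sum]
      simp only [map_mul, MvPolynomial.aeval_X, MvPolynomial.aeval_C, mul_sub,
        Finset.sum_sub_distrib]
      nth_rewrite 1 [hq]
      ring
    rw [h1]
    refine Ideal.sum_mem _ fun i _ => ?_
    rw [pow_succ']
    exact Ideal.mul_mem_mul (Xo_mem i) (hp i)

/-- divisibility of polynomials in one variable can be tested on germs -/
lemma X_pow_dvd (K : ℕ) : ∀ q : Polynomial ℂ,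
    TT (0 : ℂ) ^ K ∣ Polynomial.aeval (TT (0 : ℂ)) q → Polynomial.X ^ K ∣ q := by
  induction K with
  | zero => intro q _; simp
  | succ K ih =>
    intro q hq
    have h0 : Polynomial.X ∣ q := by
      rw [Polynomial.X_dvd_iff, Polynomial.coeff_zero_eq_eval_zero]
      obtain ⟨c, hc⟩ := hq
      have h1 := congrArg (evp (0 : ℂ)) hc
      have h2 : evp (0 : ℂ) (TT (0 : ℂ)) = 0 := by
        by_contra hne
        exact TT_not_unit (a := (0 : ℂ)) (isUnit_iff.2 hne)
      rw [map_mul, map_pow, h2, zero_pow (Nat.succ_ne_zero K), zero_mul] at h1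
      have h3 : evp (0 : ℂ) (Polynomial.aeval (TT (0 : ℂ)) q) = q.eval 0 := by
        rw [Polynomial.aeval_def, Polynomial.hom_eval₂, h2]
        have h4 : (evp (0 : ℂ)).comp (algebraMap ℂ (OO (0 : ℂ))) = RingHom.id ℂ := by
          ext z
          simp
        rw [h4]
        simp [Polynomial.eval₂_eq_eval_map]
      rw [← h3, h1]
    obtain ⟨q', rfl⟩ := h0
    have h1 : TT (0 : ℂ) ^ K ∣ Polynomial.aeval (TT (0 : ℂ)) q' := by
      rw [map_mul, Polynomial.aeval_X, pow_succ'] at hq
      exact (mul_dvd_mul_iff_left (TT_ne_zero (a := (0 : ℂ)))).1 hq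
    rw [pow_succ']
    exact mul_dvd_mul_left _ (ih q' h1)

/-- a polynomial restricted to the line through `v` -/
def lp (v : Fin n → ℂ) : MvPolynomial (Fin n) ℂ →ₐ[ℂ] Polynomial ℂ :=
  MvPolynomial.aeval fun i => Polynomial.C (v i) * Polynomial.X

lemma ln_Xo (v : Fin n → ℂ) (i : Fin n) :
    ln v (Xo i) = algebraMap ℂ (OO (0 : ℂ)) (v i) * TT (0 : ℂ) := by
  rw [ln, Xo, pull_gm, TT, Crest.Agent.R275.Loc2879.algebraMap_apply, gm_mul, gm_eq_gm]
  refine Eventually.of_forall (fun t => ?_)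
  simp [mul_comm]

lemma ln_algebraMap (v : Fin n → ℂ) (c : ℂ) :
    ln v (algebraMap ℂ (On n) c) = algebraMap ℂ (OO (0 : ℂ)) c := by
  rw [ln, Crest.Agent.R275.Loc2879.algebraMap_apply, pull_gm,
    Crest.Agent.R275.Loc2879.algebraMap_apply, gm_eq_gm]
  exact Eventually.of_forall (fun t => rfl)

lemma ln_aeval (v : Fin n → ℂ) (p : MvPolynomial (Fin n) ℂ) :
    ln v (MvPolynomial.aeval Xo p) = Polynomial.aeval (TT (0 : ℂ)) (lp v p) := by
  induction p using MvPolynomial.induction_on with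
  | C a =>
    rw [MvPolynomial.algHom_C, lp, MvPolynomial.algHom_C, ln_algebraMap, Polynomial.algebraMap_apply,
      Polynomial.aeval_C]
    rfl
  | add p q hp hq => rw [map_add, map_add, hp, hq, map_add, map_add]
  | mul_X p i hp =>
    rw [map_mul, map_mul, hp, map_mul, map_mul, MvPolynomial.aeval_X, ln_Xo]
    congr 1
    rw [lp, MvPolynomial.aeval_X, map_mul, Polynomial.aeval_X, Polynomial.aeval_C]

lemma lp_eq (v : Fin n → ℂ) (p : MvPolynomial (Fin n) ℂ) :
    lp v p = ∑ d ∈ p.support, Polynomial.C (p.coeff d * ∏ i, v i ^ d i) * Polynomial.X ^ d.degree := by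
  conv_lhs => rw [p.as_sum]
  rw [map_sum]
  refine Finset.sum_congr rfl fun d _ => ?_
  rw [lp, MvPolynomial.aeval_monomial, Finsupp.prod_fintype _ _ (fun i => pow_zero _)]
  simp only [mul_pow, Finset.prod_mul_distrib, Finset.prod_pow_eq_pow_sum]
  rw [Finsupp.degree_eq_sum, Polynomial.C_mul, map_prod]
  simp only [Polynomial.C_pow, Polynomial.algebraMap_apply, Algebra.algebraMap_self, RingHom.id_apply]
  ring

lemma coeff_lp (v : Fin n → ℂ) (p : MvPolynomial (Fin n) ℂ) (j : ℕ) :
    (lp v p).coeff j = MvPolynomial.eval v (MvPolynomial.homogeneousComponent j p) := by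
  classical
  rw [lp_eq, Polynomial.finsetSum_coeff, MvPolynomial.homogeneousComponent_apply, map_sum,
    Finset.sum_filter]
  refine Finset.sum_congr rfl fun d _ => ?_
  rw [Polynomial.coeff_C_mul_X_pow, MvPolynomial.eval_monomial,
    Finsupp.prod_fintype _ _ (fun i => pow_zero _)]
  by_cases h : j = d.degree
  · rw [if_pos h, if_pos h.symm]
  · rw [if_neg h, if_neg (fun h' => h h'.symm)]

lemma ln_mem (v : Fin n → ℂ) {K : ℕ} {b : On n}
    (hb : b ∈ IsLocalRing.maximalIdeal (On n) ^ K) : TT (0 : ℂ) ^ K ∣ ln v b := by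
  have h1 : (IsLocalRing.maximalIdeal (On n)).map (ln v) ≤ Ideal.span {TT (0 : ℂ)} := by
    rw [Ideal.map_le_iff_le_comap]
    intro a ha
    rw [Ideal.mem_comap, Ideal.mem_span_singleton]
    obtain ⟨q, hq⟩ := had a
    have h2 : evp 0 a = 0 := by
      by_contra hne
      exact (IsLocalRing.mem_maximalIdeal _).1 ha (Crest.Agent.R275.Loc2879.isUnit_iff.2 hne)
    rw [hq, h2, map_zero, zero_add, map_sum]
    refine Finset.dvd_sum fun i _ => ?_
    rw [map_mul, ln_Xo]
    exact (Dvd.intro_left _ rfl).mul_right _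
  have h2 : ((IsLocalRing.maximalIdeal (On n)) ^ K).map (ln v) ≤ Ideal.span {TT (0 : ℂ) ^ K} := by
    rw [Ideal.map_pow, ← Ideal.span_singleton_pow]
    exact Ideal.pow_right_mono h1 K
  exact Ideal.mem_span_singleton.1 (h2 (Ideal.mem_map_of_mem _ hb))

/-- the low order part of a polynomial in `𝔪 ^ K` vanishes -/
lemma hc_eq_zero {K : ℕ} {p : MvPolynomial (Fin n) ℂ}
    (hp : MvPolynomial.aeval Xo p ∈ IsLocalRing.maximalIdeal (On n) ^ K) {j : ℕ} (hj : j < K) :
    MvPolynomial.homogeneousComponent j p = 0 := by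
  apply MvPolynomial.funext
  intro v
  have h1 := ln_mem v hp
  rw [ln_aeval] at h1
  obtain ⟨q, hq⟩ := X_pow_dvd K _ h1
  rw [← coeff_lp, hq, Polynomial.coeff_X_pow_mul', if_neg (by omega), map_zero]

section Ev

variable {S : Type*} [CommRing S] [Algebra ℂ S] {m : Fin n → S} {K : ℕ}

/-- evaluation at nilpotent elements -/
lemma aeval_eq_zero (hm : Ideal.span (range m) ^ K = ⊥) {p : MvPolynomial (Fin n) ℂ}
    (hp : MvPolynomial.aeval Xo p ∈ IsLocalRing.maximalIdeal (On n) ^ K) :
    MvPolynomial.aeval m p = 0 := by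
  classical
  rw [← MvPolynomial.sum_homogeneousComponent p, map_sum]
  refine Finset.sum_eq_zero fun j _ => ?_
  rcases lt_or_ge j K with hj | hj
  · rw [hc_eq_zero hp hj, map_zero]
  · rw [MvPolynomial.homogeneousComponent_apply, map_sum]
    refine Finset.sum_eq_zero fun d hd => ?_
    rw [Finset.mem_filter] at hd
    rw [MvPolynomial.aeval_monomial, Finsupp.prod_fintype _ _ (fun i => pow_zero _)]
    have h1 : ∏ i, m i ^ d i ∈ Ideal.span (range m) ^ K := by
      have h2 : ∏ i, m i ^ d i ∈ ∏ i, Ideal.span (range m) ^ d i :=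
        Ideal.prod_mem_prod fun i _ => Ideal.pow_mem_pow (Ideal.subset_span (mem_range_self i)) _
      rw [Finset.prod_pow_eq_pow_sum, ← Finsupp.degree_eq_sum, hd.2] at h2
      exact Ideal.pow_le_pow_right hj h2
    rw [hm, Ideal.mem_bot] at h1
    rw [h1, mul_zero]

/-- the Taylor polynomial of order `K` -/
def tp (K : ℕ) (b : On n) : MvPolynomial (Fin n) ℂ := (exists_poly K b).choose

lemma tp_spec (K : ℕ) (b : On n) :
    b - MvPolynomial.aeval Xo (tp K b) ∈ IsLocalRing.maximalIdeal (On n) ^ K :=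
  (exists_poly K b).choose_spec

lemma tp_eq (hm : Ideal.span (range m) ^ K = ⊥) {b : On n} {p : MvPolynomial (Fin n) ℂ}
    (hp : b - MvPolynomial.aeval Xo p ∈ IsLocalRing.maximalIdeal (On n) ^ K) :
    MvPolynomial.aeval m (tp K b) = MvPolynomial.aeval m p := by
  rw [← sub_eq_zero, ← map_sub]
  apply aeval_eq_zero hm
  rw [map_sub]
  have h := Ideal.sub_mem _ hp (tp_spec K b)
  have e : b - MvPolynomial.aeval Xo p - (b - MvPolynomial.aeval Xo (tp K b)) =
      MvPolynomial.aeval Xo (tp K b) - MvPolynomial.aeval Xo p := by ring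
  rwa [e] at h

/-- **the Taylor map**: evaluation of germs at an `n`-tuple of nilpotent elements -/
def evm (m : Fin n → S) (K : ℕ) (hm : Ideal.span (range m) ^ K = ⊥) : On n →ₐ[ℂ] S where
  toFun b := MvPolynomial.aeval m (tp K b)
  map_one' := by
    rw [tp_eq hm (p := 1), map_one]
    rw [map_one, sub_self]; exact Ideal.zero_mem _
  map_mul' a b := by
    rw [tp_eq hm (p := tp K a * tp K b), map_mul]
    rw [map_mul]
    have e : a * b - MvPolynomial.aeval Xo (tp K a) * MvPolynomial.aeval Xo (tp K b) =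
      (a - MvPolynomial.aeval Xo (tp K a)) * b +
        MvPolynomial.aeval Xo (tp K a) * (b - MvPolynomial.aeval Xo (tp K b)) := by ring
    rw [e]
    exact Ideal.add_mem _ (Ideal.mul_mem_right _ _ (tp_spec K a))
      (Ideal.mul_mem_left _ _ (tp_spec K b))
  map_zero' := by
    rw [tp_eq hm (p := 0), map_zero]
    rw [map_zero, sub_self]; exact Ideal.zero_mem _
  map_add' a b := by
    rw [tp_eq hm (p := tp K a + tp K b), map_add]
    rw [map_add]
    have e : a + b - (MvPolynomial.aeval Xo (tp K a) + MvPolynomial.aeval Xo (tp K b)) =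
      (a - MvPolynomial.aeval Xo (tp K a)) + (b - MvPolynomial.aeval Xo (tp K b)) := by ring
    rw [e]
    exact Ideal.add_mem _ (tp_spec K a) (tp_spec K b)
  commutes' c := by
    rw [tp_eq hm (p := MvPolynomial.C c), MvPolynomial.aeval_C]
    rw [MvPolynomial.aeval_C, sub_self]; exact Ideal.zero_mem _

lemma evm_Xo (hm : Ideal.span (range m) ^ K = ⊥) (i : Fin n) : evm m K hm (Xo i) = m i := by
  show MvPolynomial.aeval m (tp K (Xo i)) = m i
  rw [tp_eq hm (p := MvPolynomial.X i), MvPolynomial.aeval_X]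
  rw [MvPolynomial.aeval_X, sub_self]; exact Ideal.zero_mem _

lemma evm_wd (hm : Ideal.span (range m) ^ K = ⊥) (w : List (Fin n)) :
    evm m K hm (wd w Xo) = wd w m := by
  have := wd_map ((evm m K hm : On n →ₐ[ℂ] S) : On n →* S) w Xo
  rw [show wd w m = wd w fun k => ((evm m K hm : On n →ₐ[ℂ] S) : On n →* S) (Xo k) from
    congrArg (wd w) (funext fun k => (evm_Xo hm k).symm)]
  exact this

end Ev

/-- an element of a finite dimensional algebra killed by all characters is nilpotent -/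
lemma isNilpotent_of_chars {S : Type*} [CommRing S] [Algebra ℂ S] [Module.Finite ℂ S] {s : S}
    (h : ∀ χ : S →ₐ[ℂ] ℂ, χ s = 0) : IsNilpotent s := by
  rw [← mem_nilradical, nilradical_eq_sInf, Ideal.mem_sInf]
  intro P hP
  have hP' : P.IsPrime := hP
  by_contra hs
  have hbij : Function.Bijective (algebraMap ℂ (S ⧸ P)) :=
    IsAlgClosed.algebraMap_bijective_of_isIntegral
  let ψ : ℂ ≃ₐ[ℂ] (S ⧸ P) := AlgEquiv.ofBijective (Algebra.ofId ℂ (S ⧸ P)) hbij
  let χ : S →ₐ[ℂ] ℂ := (ψ.symm : (S ⧸ P) →ₐ[ℂ] ℂ).comp (Ideal.Quotient.mkₐ ℂ P)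
  have h1 : ψ.symm (Ideal.Quotient.mk P s) = 0 := h χ
  rw [map_eq_zero_iff _ ψ.symm.injective, Ideal.Quotient.eq_zero_iff_mem] at h1
  exact hs h1

lemma exists_pow_eq_bot {S : Type*} [CommRing S] {m : Fin n → S} (h : ∀ i, IsNilpotent (m i)) :
    ∃ K, Ideal.span (range m) ^ K = ⊥ := by
  have h1 : IsNilpotent (Ideal.span (range m)) := by
    rw [Ideal.FG.isNilpotent_iff_le_nilradical (Submodule.fg_span (finite_range m))]
    rw [Ideal.span_le]
    rintro _ ⟨i, rfl⟩
    exact h i
  exact h1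

end Crest.Agent.R257.Tay_812
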