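import Crest.Agent.R257.UI8_939
import Crest.Agent.R275.Loc2G_879

/-!
Row 257 (S0395), leaf TOU (helper939), part 1: Hadamard lemma with parameters, second order Taylor
formula, analytic implicit function theorem.
-/

set_option autoImplicit false
set_option linter.unusedSectionVars false

open Set Filter Topology Metric Complex
open Crest.Agent.R275.Loc2879

noncomputable section

namespace Crest.Agent.R257.UI939

universe u v w

variable {n : ℕ}

section Par

variable {E : Type u} [NormedAddCommGroup E] [NormedSpace ℂ E] [FiniteDimensional ℂ E]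

lemma an_sndcoord (i : Fin n) (p : E × (Fin n → ℂ)) :
    AnalyticAt ℂ (fun p : E × (Fin n → ℂ) => p.2 i) p :=
  (ContinuousLinearMap.analyticAt
    ((ContinuousLinearMap.proj (R := ℂ) (φ := fun _ : Fin n => ℂ) i).comp
      (ContinuousLinearMap.snd ℂ E (Fin n → ℂ))) p)

/-- one variable at a time, with parameters -/
lemma hadamard_coord_par {f : E × (Fin n → ℂ) → ℂ} (hf : AnalyticAt ℂ f 0) (k : Fin n) :
    ∃ q : E × (Fin n → ℂ) → ℂ, AnalyticAt ℂ q 0 ∧
      ∀ᶠ p in 𝓝 (0 : E × (Fin n → ℂ)),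
        f p = f (p.1, Function.update p.2 k 0) + p.2 k * q p := by
  have hup : ∀ p : (E × (Fin n → ℂ)) × ℂ, AnalyticAt ℂ
      (fun p : (E × (Fin n → ℂ)) × ℂ => (p.1.1, Function.update p.1.2 k p.2)) p := by
    intro p
    refine AnalyticAt.prod (analyticAt_fst.comp analyticAt_fst) (AnalyticAt.pi fun i => ?_)
    by_cases h : i = k
    · subst h
      simpa using analyticAt_snd
    · simp only [Function.update_of_ne h]
      exact AnalyticAt.comp (g := fun p : E × (Fin n → ℂ) => p.2 i) (f := Prod.fst)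
        (an_sndcoord i _) analyticAt_fst
  have h1 : AnalyticAt ℂ (fun p : (E × (Fin n → ℂ)) × ℂ =>
      f (p.1.1, Function.update p.1.2 k p.2)) 0 := by
    refine AnalyticAt.comp (g := f) ?_ (hup 0)
    have : ((0 : (E × (Fin n → ℂ)) × ℂ).1.1,
        Function.update (0 : (E × (Fin n → ℂ)) × ℂ).1.2 k (0 : (E × (Fin n → ℂ)) × ℂ).2) =
          (0 : E × (Fin n → ℂ)) := by
      refine Prod.ext rfl ?_
      ext i
      by_cases h : i = k
      · subst h; simp
      · simp [Function.update_of_ne h]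
    rw [this]
    exact hf
  obtain ⟨q, hq, h⟩ := hadamard_fun h1
  have hlin : AnalyticAt ℂ (fun x : E × (Fin n → ℂ) =>
      ((x, x.2 k) : (E × (Fin n → ℂ)) × ℂ)) 0 :=
    analyticAt_id.prod (an_sndcoord k 0)
  refine ⟨fun x => q (x, x.2 k), AnalyticAt.comp (g := q) (by exact hq) hlin, ?_⟩
  have h2 : Tendsto (fun x : E × (Fin n → ℂ) =>
      ((x, x.2 k) : (E × (Fin n → ℂ)) × ℂ)) (𝓝 0) (𝓝 0) :=
    hlin.continuousAt
  filter_upwards [h2.eventually h] with x hx
  simpa using hx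

/-- **Hadamard lemma with parameters** -/
theorem hadamard_par {f : E × (Fin n → ℂ) → ℂ} (hf : AnalyticAt ℂ f 0) :
    ∃ y : Fin n → E × (Fin n → ℂ) → ℂ, (∀ i, AnalyticAt ℂ (y i) 0) ∧
      ∀ᶠ p in 𝓝 (0 : E × (Fin n → ℂ)), f p = f (p.1, 0) + ∑ i, p.2 i * y i p := by
  classical
  have key : ∀ s : Finset (Fin n), ∃ y : Fin n → E × (Fin n → ℂ) → ℂ,
      (∀ i, AnalyticAt ℂ (y i) 0) ∧
      AnalyticAt ℂ (fun p : E × (Fin n → ℂ) => f (p.1, fun i => if i ∈ s then 0 else p.2 i)) 0 ∧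
      ∀ᶠ p in 𝓝 (0 : E × (Fin n → ℂ)),
        f p = f (p.1, fun i => if i ∈ s then 0 else p.2 i) + ∑ i, p.2 i * y i p := by
    intro s
    induction s using Finset.induction_on with
    | empty =>
      refine ⟨fun _ _ => 0, fun _ => analyticAt_const, by simpa using hf, ?_⟩
      simp
    | insert k s hk ih =>
      obtain ⟨y, hy, h, e⟩ := ih
      obtain ⟨q, hq, hqe⟩ := hadamard_coord_par h k
      have hlin : AnalyticAt ℂ (fun p : E × (Fin n → ℂ) =>
          ((p.1, fun i => if i ∈ insert k s then 0 else p.2 i) : E × (Fin n → ℂ))) 0 := by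
        refine AnalyticAt.prod analyticAt_fst (AnalyticAt.pi fun i => ?_)
        by_cases hi : i ∈ insert k s
        · simpa [hi] using analyticAt_const
        · simpa [hi] using an_sndcoord i 0
      have h' : AnalyticAt ℂ (fun p : E × (Fin n → ℂ) =>
          f (p.1, fun i => if i ∈ insert k s then 0 else p.2 i)) 0 := by
        refine AnalyticAt.comp (g := f) ?_ hlin
        have : (((0 : E × (Fin n → ℂ)).1, fun i => if i ∈ insert k s then 0 else
            (0 : E × (Fin n → ℂ)).2 i) : E × (Fin n → ℂ)) = 0 := by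
          refine Prod.ext rfl ?_
          ext i; simp
        rw [this]; exact hf
      refine ⟨fun i p => y i p + if i = k then q p else 0, ?_, h', ?_⟩
      · intro i
        by_cases hi : i = k
        · simp only [hi, if_true]; exact (hy k).add hq
        · simp only [hi, if_false, add_zero]; exact hy i
      · filter_upwards [e, hqe] with p h1 h2
        rw [h1, h2]
        have e1 : (fun i => if i ∈ s then 0 else Function.update p.2 k 0 i) =
            (fun i => if i ∈ insert k s then 0 else p.2 i : Fin n → ℂ) := by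
          ext i
          by_cases hi : i = k
          · subst hi; simp
          · simp [hi]
        rw [e1]
        simp only [mul_add, Finset.sum_add_distrib, mul_ite, mul_zero, Finset.sum_ite_eq',
          Finset.mem_univ, if_true]
        ring
  obtain ⟨y, hy, h, e⟩ := key Finset.univ
  refine ⟨y, hy, ?_⟩
  filter_upwards [e] with p hp
  rw [hp]
  simp only [Finset.mem_univ, if_true]
  rfl

end Par

/-- second order Taylor formula in `x`, with parameter `t` -/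
theorem taylor2 {F : (Fin n → ℂ) × ℂ → ℂ} (hF : AnalyticAt ℂ F 0) :
    ∃ H : Fin n → Fin n → ((Fin n → ℂ) × ℂ) × (Fin n → ℂ) → ℂ,
      (∀ i j, AnalyticAt ℂ (H i j) 0) ∧
      ∀ᶠ p in 𝓝 (0 : ((Fin n → ℂ) × ℂ) × (Fin n → ℂ)),
        F (p.1.1 + p.2, p.1.2) = F p.1 + ∑ i, p.2 i * grad F i p.1 +
          ∑ i, ∑ j, p.2 i * p.2 j * H i j p := by
  classical
  have hlin : AnalyticAt ℂ (fun p : ((Fin n → ℂ) × ℂ) × (Fin n → ℂ) =>
      ((p.1.1 + p.2, p.1.2) : (Fin n → ℂ) × ℂ)) 0 :=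
    ((analyticAt_fst.comp analyticAt_fst).add analyticAt_snd).prod
      (analyticAt_snd.comp analyticAt_fst)
  have h0 : (fun p : ((Fin n → ℂ) × ℂ) × (Fin n → ℂ) =>
      ((p.1.1 + p.2, p.1.2) : (Fin n → ℂ) × ℂ)) 0 = 0 := by
    refine Prod.ext ?_ rfl
    simp
  have hF' : AnalyticAt ℂ F ((fun p : ((Fin n → ℂ) × ℂ) × (Fin n → ℂ) =>
      ((p.1.1 + p.2, p.1.2) : (Fin n → ℂ) × ℂ)) 0) := by rw [h0]; exact hF
  have hΦ : AnalyticAt ℂ (fun p : ((Fin n → ℂ) × ℂ) × (Fin n → ℂ) => F (p.1.1 + p.2, p.1.2)) 0 :=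
    AnalyticAt.comp (g := F) (f := fun p : ((Fin n → ℂ) × ℂ) × (Fin n → ℂ) =>
      ((p.1.1 + p.2, p.1.2) : (Fin n → ℂ) × ℂ)) hF' hlin
  obtain ⟨Φ, hΦa, e1⟩ := hadamard_par hΦ
  choose H hHa e2 using fun i => hadamard_par (hΦa i)
  refine ⟨H, hHa, ?_⟩
  -- Φ i (z, 0) = grad F i z
  have h1 : ∀ᶠ z in 𝓝 (0 : (Fin n → ℂ) × ℂ), ∀ᶠ ξ in 𝓝 (0 : Fin n → ℂ),
      (F (z.1 + ξ, z.2) = F z + ∑ i, ξ i * Φ i (z, ξ)) := by
    have : ∀ᶠ p in 𝓝 (0 : ((Fin n → ℂ) × ℂ) × (Fin n → ℂ)),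
      (F (p.1.1 + p.2, p.1.2) = F p.1 + ∑ i, p.2 i * Φ i p) := by
      filter_upwards [e1] with p hp
      rw [hp]
      simp
    have h3 := this
    rw [show (0 : ((Fin n → ℂ) × ℂ) × (Fin n → ℂ)) = (0, 0) from rfl] at h3
    rw [nhds_prod_eq] at h3
    exact h3.curry
  have h2 : ∀ᶠ z in 𝓝 (0 : (Fin n → ℂ) × ℂ), ∀ i, AnalyticAt ℂ (Φ i) (z, 0) := by
    have h3 : Tendsto (fun z : (Fin n → ℂ) × ℂ => ((z, 0) : ((Fin n → ℂ) × ℂ) × (Fin n → ℂ)))
        (𝓝 0) (𝓝 0) := by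
      have : Continuous (fun z : (Fin n → ℂ) × ℂ =>
        ((z, 0) : ((Fin n → ℂ) × ℂ) × (Fin n → ℂ))) := by fun_prop
      exact this.tendsto' _ _ rfl
    exact h3.eventually (Filter.eventually_all.2 fun i => (hΦa i).eventually_analyticAt)
  have h3 : ∀ᶠ z in 𝓝 (0 : (Fin n → ℂ) × ℂ), AnalyticAt ℂ F z := hF.eventually_analyticAt
  have hgr : ∀ᶠ z in 𝓝 (0 : (Fin n → ℂ) × ℂ), ∀ i, Φ i (z, 0) = grad F i z := by
    filter_upwards [h1, h2, h3] with z k1 k2 k3 i
    -- derivative of ξ ↦ F(z.1 + ξ, z.2)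
    have d1 : HasFDerivAt (fun x : Fin n → ℂ => F (x, z.2))
        (fderiv ℂ (fun x : Fin n → ℂ => F (x, z.2)) z.1) z.1 := by
      have : DifferentiableAt ℂ (fun x : Fin n → ℂ => F (x, z.2)) z.1 := by
        have h5 : AnalyticAt ℂ (fun x : Fin n → ℂ => F (x, z.2)) z.1 :=
          AnalyticAt.comp (g := F) (f := fun x : Fin n → ℂ => (x, z.2)) k3
            (analyticAt_id.prod analyticAt_const)
        exact h5.differentiableAt
      exact this.hasFDerivAt
    have d2 : HasFDerivAt (fun ξ : Fin n → ℂ => F (z.1 + ξ, z.2))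
        (fderiv ℂ (fun x : Fin n → ℂ => F (x, z.2)) z.1) 0 := by
      have h5 : HasFDerivAt (fun x : Fin n → ℂ => F (x, z.2))
        (fderiv ℂ (fun x : Fin n → ℂ => F (x, z.2)) z.1) (z.1 + 0) := by rw [add_zero]; exact d1
      have h6 : HasFDerivAt (fun ξ : Fin n → ℂ => z.1 + ξ)
          (ContinuousLinearMap.id ℂ (Fin n → ℂ)) 0 := (hasFDerivAt_id 0).const_add z.1
      have h7 := HasFDerivAt.comp (0 : Fin n → ℂ) h5 h6
      rw [ContinuousLinearMap.comp_id] at h7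
      exact h7
    -- derivative of the right hand side
    have d3 : ∀ j, HasFDerivAt (fun ξ : Fin n → ℂ => ξ j * Φ j (z, ξ))
        (Φ j (z, 0) • ContinuousLinearMap.proj (R := ℂ) (φ := fun _ : Fin n => ℂ) j) 0 := by
      intro j
      have h5 : HasFDerivAt (fun ξ : Fin n → ℂ => ξ j)
          (ContinuousLinearMap.proj (R := ℂ) (φ := fun _ : Fin n => ℂ) j) 0 :=
        hasFDerivAt_apply j 0
      have h6 : DifferentiableAt ℂ (fun ξ : Fin n → ℂ => Φ j (z, ξ)) 0 := by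
        have h7 : AnalyticAt ℂ (fun ξ : Fin n → ℂ => Φ j (z, ξ)) 0 :=
          AnalyticAt.comp (g := Φ j) (f := fun ξ : Fin n → ℂ => (z, ξ)) (k2 j)
            (analyticAt_const.prod analyticAt_id)
        exact h7.differentiableAt
      have h8 := h5.mul h6.hasFDerivAt
      have h9 : (Φ j (z, 0) • ContinuousLinearMap.proj (R := ℂ) (φ := fun _ : Fin n => ℂ) j :
          (Fin n → ℂ) →L[ℂ] ℂ) = (0 : Fin n → ℂ) j • fderiv ℂ (fun ξ : Fin n → ℂ => Φ j (z, ξ)) 0 +
          Φ j (z, 0) • ContinuousLinearMap.proj (R := ℂ) (φ := fun _ : Fin n => ℂ) j := by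
        refine ContinuousLinearMap.ext fun v => ?_
        simp
      rw [h9]
      exact h8
    have d4 : HasFDerivAt (fun ξ : Fin n → ℂ => F z + ∑ j, ξ j * Φ j (z, ξ))
        (∑ j, Φ j (z, 0) • ContinuousLinearMap.proj (R := ℂ) (φ := fun _ : Fin n => ℂ) j) 0 := by
      refine HasFDerivAt.const_add _ ?_
      exact HasFDerivAt.fun_sum fun j _ => d3 j
    have d5 := d4.congr_of_eventuallyEq (f₁ := fun ξ : Fin n → ℂ => F (z.1 + ξ, z.2)) k1
    have d6 := d2.unique d5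
    rw [grad, d6]
    have d7 : ∀ v : Fin n → ℂ, (∑ j, Φ j (z, 0) •
        ContinuousLinearMap.proj (R := ℂ) (φ := fun _ : Fin n => ℂ) j) v = ∑ j, Φ j (z, 0) * v j := by
      intro v
      simp
    rw [d7, Finset.sum_eq_single i]
    · simp
    · intro j _ hj
      simp [Pi.single_eq_of_ne hj]
    · intro h; exact absurd (Finset.mem_univ _) h
  have hgr' : ∀ᶠ p in 𝓝 (0 : ((Fin n → ℂ) × ℂ) × (Fin n → ℂ)), ∀ i,
      Φ i (p.1, 0) = grad F i p.1 :=
    (continuous_fst.tendsto' (0 : ((Fin n → ℂ) × ℂ) × (Fin n → ℂ)) 0 rfl).eventually hgr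
  filter_upwards [e1, Filter.eventually_all.2 e2, hgr'] with p k1 k2 k3
  have k4 : F (p.1.1 + p.2, p.1.2) = F p.1 + ∑ i, p.2 i * Φ i p := by
    rw [k1]; simp
  rw [k4, add_assoc, ← Finset.sum_add_distrib]
  congr 1
  refine Finset.sum_congr rfl fun i _ => ?_
  rw [k2 i, k3 i, mul_add, Finset.mul_sum]
  congr 1
  exact Finset.sum_congr rfl fun j _ => by ring

section Implicit

variable {Z : Type u} [NormedAddCommGroup Z] [NormedSpace ℂ Z] [FiniteDimensional ℂ Z]
variable {Y : Type v} [NormedAddCommGroup Y] [NormedSpace ℂ Y] [FiniteDimensional ℂ Y]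

/-- analytic implicit function theorem -/
theorem implicit_an {Ψ : Z × Y → Y} (hΨ : AnalyticAt ℂ Ψ 0) (h0 : Ψ 0 = 0)
    (hinj : ∀ v : Y, fderiv ℂ Ψ 0 (0, v) = 0 → v = 0) :
    ∃ y : Z → Y, AnalyticAt ℂ y 0 ∧ y 0 = 0 ∧ (∀ᶠ z in 𝓝 (0 : Z), Ψ (z, y z) = 0) ∧
      (∀ᶠ p in 𝓝 (0 : Z × Y), Ψ p = 0 → p.2 = y p.1) := by
  have hΘ : AnalyticAt ℂ (fun p : Z × Y => ((p.1, Ψ p) : Z × Y)) 0 := analyticAt_fst.prod hΨ
  have hd : fderiv ℂ (fun p : Z × Y => ((p.1, Ψ p) : Z × Y)) 0 =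
      (ContinuousLinearMap.fst ℂ Z Y).prod (fderiv ℂ Ψ 0) :=
    (hasFDerivAt_fst.prodMk hΨ.differentiableAt.hasFDerivAt).fderiv
  obtain ⟨R, hR, hR0, -, -, hRs⟩ := exists_bihol (F := Z × Y) (G := Z × Y) rfl hΘ (by
    intro v hv
    rw [hd] at hv
    have h1 : v.1 = 0 := congrArg Prod.fst hv
    have h2 : fderiv ℂ Ψ 0 v = 0 := congrArg Prod.snd hv
    have h3 : v = (0, v.2) := Prod.ext h1 rfl
    rw [h3] at h2
    rw [h3, hinj v.2 h2]
    rfl) Filter.univ_mem
  have hR00 : R 0 = 0 := by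
    rw [hR]
    exact Prod.ext rfl h0
  have h0t : (0 : Z × Y) ∈ R.target := by
    rw [← hR00]; exact R.map_source hR0
  have hs0 : R.symm 0 = 0 := by
    conv_lhs => rw [← hR00]
    exact R.left_inv hR0
  have hlin : AnalyticAt ℂ (fun z : Z => ((z, 0) : Z × Y)) 0 := analyticAt_id.prod analyticAt_const
  have hyan : AnalyticAt ℂ (fun z : Z => (R.symm (z, 0)).2) 0 := by
    have h1 : AnalyticAt ℂ (fun z : Z => R.symm (z, 0)) 0 :=
      AnalyticAt.comp (g := R.symm) (hRs 0 h0t) hlin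
    exact analyticAt_snd.comp h1
  refine ⟨fun z => (R.symm (z, 0)).2, hyan, ?_, ?_, ?_⟩
  · change (R.symm (0 : Z × Y)).2 = 0
    rw [hs0]; rfl
  · have h1 : ∀ᶠ z in 𝓝 (0 : Z), ((z, 0) : Z × Y) ∈ R.target := by
      have : Tendsto (fun z : Z => ((z, 0) : Z × Y)) (𝓝 0) (𝓝 0) := hlin.continuousAt
      exact this.eventually (R.open_target.mem_nhds h0t)
    filter_upwards [h1] with z hz
    have h2 := R.right_inv hz
    rw [hR] at h2
    have h3 : (R.symm (z, 0)).1 = z := congrArg Prod.fst h2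
    have h4 : Ψ (R.symm (z, 0)) = 0 := congrArg Prod.snd h2
    have h5 : R.symm (z, 0) = (z, (R.symm (z, 0)).2) := Prod.ext h3 rfl
    rw [← h5]
    exact h4
  · filter_upwards [R.open_source.mem_nhds hR0] with p hp h
    have h1 : R p = (p.1, 0) := by
      rw [hR]; exact Prod.ext rfl h
    rw [← h1, R.left_inv hp]

end Implicit

end Crest.Agent.R257.UI939
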