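import Crest.Agent.R257.UI6_939

/-!
Row 257 (S0395), leaf CNF (helper939), part 2: data at `t = 0`, semicontinuity, uniform inclusion
from a frequent lower bound.
-/

set_option autoImplicit false
set_option linter.unusedSectionVars false

open Set Filter Topology Metric Complex
open Crest.Agent.R275.Loc2879

noncomputable section

namespace Crest.Agent.R257.UI939

universe u v w

variable {n : ℕ} {κ : Type*} [Fintype κ]

lemma an_slice {f : (Fin n → ℂ) × ℂ → ℂ} {t : ℂ} (hf : AnalyticAt ℂ f (0, t)) :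
    AnalyticAt ℂ (fun x => f (x, t)) (0 : Fin n → ℂ) :=
  AnalyticAt.comp (g := f) (f := fun x : Fin n → ℂ => (x, t)) hf
      (analyticAt_id.prod analyticAt_const)

lemma tendsto_0t : Tendsto (fun t : ℂ => ((0, t) : (Fin n → ℂ) × ℂ)) (𝓝 0) (𝓝 0) := by
  have : Continuous (fun t : ℂ => ((0, t) : (Fin n → ℂ) × ℂ)) := by fun_prop
  exact this.tendsto' _ _ rfl

/-- the quotient of the slice at `t` -/
abbrev QQ (G : κ → (Fin n → ℂ) × ℂ → ℂ) (t : ℂ) : Type :=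
  BB n ⧸ Idl (0 : Fin n → ℂ) (fun j x => G j (x, t))

set_option maxHeartbeats 4000000 in
set_option synthInstance.maxHeartbeats 200000 in
/-- DATA: lifts of a basis at `t = 0` generate over the germs in the parameter -/
theorem exists_data (G : κ → (Fin n → ℂ) × ℂ → ℂ) (hG : ∀ j, AnalyticAt ℂ (G j) 0) (μ : ℕ)
    (hf0 : Module.Finite ℂ (QQ G 0)) (hd0 : Module.finrank ℂ (QQ G 0) = μ) :
    ∃ Ef : Fin μ → (Fin n → ℂ) → ℂ, (∀ i, AnalyticAt ℂ (Ef i) 0) ∧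
      ∀ f : (Fin n → ℂ) × ℂ → ℂ, AnalyticAt ℂ f 0 →
      ∃ (c : Fin μ → ℂ → ℂ) (b : κ → (Fin n → ℂ) × ℂ → ℂ),
      (∀ i, AnalyticAt ℂ (c i) 0) ∧ (∀ j, AnalyticAt ℂ (b j) 0) ∧
      ∀ᶠ p in 𝓝 (0 : (Fin n → ℂ) × ℂ),
        f p = ∑ i, c i p.2 * Ef i p.1 + ∑ j, b j p * G j p := by
  classical
  set I0 : Ideal (BB n) := Idl (0 : Fin n → ℂ) (fun j x => G j (x, 0)) with hI0
  have hfree : Module.Free ℂ (BB n ⧸ I0) := Module.Free.of_divisionRing _ _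
  let bas : Module.Basis (Fin μ) ℂ (BB n ⧸ I0) := Module.finBasisOfFinrankEq _ _ hd0
  choose e he using fun i => Ideal.Quotient.mk_surjective (I := I0) (bas i)
  choose Ef hEf hEe using fun i => exists_gm (e i)
  set I : Ideal (AA n) := Ideal.span (Set.range fun j => gm (G j) (hG j)) with hI
  have hGI : ∀ j, gm (G j) (hG j) ∈ I := fun j => Ideal.subset_span ⟨j, rfl⟩
  have hres : ∀ j, res0 n (gm (G j) (hG j)) = gm (fun x => G j (x, 0)) (an_slice (hG j)) :=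
    fun j => rfl
  have hI0I : ∀ a ∈ I0, ∃ a1 : AA n, emb n a + Tv n * a1 ∈ I := by
    intro a ha
    rw [hI0, mem_Idl (fun j => an_slice (hG j))] at ha
    obtain ⟨c, hc⟩ := ha
    choose H hH using fun j => split_T' (gm (G j) (hG j))
    refine ⟨∑ j, emb n (c j) * H j, ?_⟩
    have : emb n a + Tv n * ∑ j, emb n (c j) * H j = ∑ j, emb n (c j) * gm (G j) (hG j) := by
      rw [hc, map_sum, Finset.mul_sum, ← Finset.sum_add_distrib]
      refine Finset.sum_congr rfl (fun j _ => ?_)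
      conv_rhs => rw [hH j, hres j]
      rw [map_mul]
      ring
    rw [this]
    exact Ideal.sum_mem _ fun j _ => Ideal.mul_mem_left _ _ (hGI j)
  have hJ0 : JJ (xB (n := n)) μ ≤ I0 := by
    have := JJ_le_of_finrank (xB (n := n)) xB_not_unit I0
    rwa [hd0] at this
  have hfin1 : FG (RingHom.id (AA n)) (AA n ⧸ I) := by
    refine ⟨1, fun _ => 1, fun m => ?_⟩
    obtain ⟨a, rfl⟩ := Ideal.Quotient.mk_surjective m
    refine ⟨fun _ => a, ?_⟩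
    simp only [RingHom.id_apply, Finset.univ_unique, Finset.sum_singleton]
    rw [← map_one (Ideal.Quotient.mk I)]
    change _ = Ideal.Quotient.mk I (a • (1 : AA n))
    rw [smul_eq_mul, mul_one]
  have hfin2 : FG (par n) (AA n ⧸ I) := by
    refine fin_all hfin1 (fun i => ⟨μ, fun m => ?_⟩)
    obtain ⟨a, rfl⟩ := Ideal.Quotient.mk_surjective m
    have h1 : xB i ^ μ ∈ I0 := by
      refine hJ0 (Ideal.subset_span ⟨Pi.single i μ, by simp, ?_⟩)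
      unfold mon
      rw [Finset.prod_eq_single i]
      · simp
      · intro j _ hj
        simp [Pi.single_eq_of_ne hj]
      · intro h; exact absurd (Finset.mem_univ _) h
    obtain ⟨a1, ha1⟩ := hI0I _ h1
    rw [map_pow, emb_xB] at ha1
    refine ⟨Ideal.Quotient.mk I (-(a1 * a)), ?_⟩
    change Ideal.Quotient.mk I (Xv i ^ μ • a) = Ideal.Quotient.mk I (Tv n • (-(a1 * a)))
    rw [Ideal.Quotient.eq, smul_eq_mul, smul_eq_mul]
    have : Xv i ^ μ * a - Tv n * (-(a1 * a)) = a * (Xv i ^ μ + Tv n * a1) := by ring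
    rw [this]
    exact Ideal.mul_mem_left _ _ ha1
  have hgen : ∀ a : AA n, ∃ c : Fin μ → OO (0 : ℂ),
      a - ∑ i, par n (c i) * emb n (e i) ∈ I := by
    have := nak hfin2 (fun i => Ideal.Quotient.mk I (emb n (e i))) ?_
    · intro a
      obtain ⟨c, hc⟩ := this (Ideal.Quotient.mk I a)
      refine ⟨c, ?_⟩
      rw [← Ideal.Quotient.eq, hc, map_sum]
      rfl
    · intro m
      obtain ⟨a, rfl⟩ := Ideal.Quotient.mk_surjective m
      obtain ⟨a0, a1, rfl⟩ := split_T a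
      have h1 : a0 - ∑ i, algebraMap ℂ (BB n) (bas.repr (Ideal.Quotient.mk I0 a0) i) * e i ∈ I0 := by
        rw [← Ideal.Quotient.eq, map_sum]
        conv_lhs => rw [← bas.sum_repr (Ideal.Quotient.mk I0 a0)]
        refine Finset.sum_congr rfl (fun i _ => ?_)
        rw [map_mul, he i, Algebra.smul_def]
        rfl
      obtain ⟨a2, ha2⟩ := hI0I _ h1
      refine ⟨fun i => bas.repr (Ideal.Quotient.mk I0 a0) i, Ideal.Quotient.mk I (a1 - a2), ?_⟩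
      have e1 : ∑ i, algebraMap ℂ (AA n) (bas.repr (Ideal.Quotient.mk I0 a0) i) •
          Ideal.Quotient.mk I (emb n (e i)) + Tv n • Ideal.Quotient.mk I (a1 - a2) =
          Ideal.Quotient.mk I (∑ i, algebraMap ℂ (AA n) (bas.repr (Ideal.Quotient.mk I0 a0) i) *
          emb n (e i) + Tv n * (a1 - a2)) := by
        rw [map_add, map_sum]
        rfl
      rw [e1, Ideal.Quotient.eq]
      rw [map_sub, map_sum] at ha2
      simp only [map_mul, emb_algebraMap] at ha2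
      have e2 : emb n a0 + Tv n * a1 - (∑ i, algebraMap ℂ (AA n)
          (bas.repr (Ideal.Quotient.mk I0 a0) i) * emb n (e i) + Tv n * (a1 - a2)) =
          emb n a0 - ∑ i, algebraMap ℂ (AA n) (bas.repr (Ideal.Quotient.mk I0 a0) i) *
            emb n (e i) + Tv n * a2 := by ring
      rw [e2]
      exact ha2
  refine ⟨Ef, hEf, fun f hf => ?_⟩
  obtain ⟨c, hc⟩ := hgen (gm f hf)
  rw [hI, Ideal.mem_span_range_iff_exists_fun] at hc
  obtain ⟨b, hb⟩ := hc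
  choose cf hcf hce using fun i => exists_gm (c i)
  choose bf hbf hbe using fun j => exists_gm (b j)
  obtain rfl : (fun i => gm (cf i) (hcf i)) = c := funext hce
  obtain rfl : (fun j => gm (bf j) (hbf j)) = b := funext hbe
  obtain rfl : (fun i => gm (Ef i) (hEf i)) = e := funext hEe
  refine ⟨cf, bf, hcf, hbf, ?_⟩
  obtain ⟨h1, e1⟩ := exists_sum_gm' Finset.univ bf G hbf hG
  obtain ⟨h2, e2⟩ := exists_sum_gm' Finset.univ (fun i (p : (Fin n → ℂ) × ℂ) => cf i p.2)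
    (fun i (p : (Fin n → ℂ) × ℂ) => Ef i p.1) (p := 0)
    (fun i => AnalyticAt.comp (g := cf i) (f := Prod.snd) (hcf i) analyticAt_snd)
    (fun i => AnalyticAt.comp (g := Ef i) (f := Prod.fst) (hEf i) analyticAt_fst)
  have e4 : gm f hf = ∑ i, par n (gm (cf i) (hcf i)) * emb n (gm (Ef i) (hEf i)) +
      ∑ j, gm (bf j) (hbf j) * gm (G j) (hG j) := by
    rw [hb]; ring
  have e6 : ∑ i, par n (gm (cf i) (hcf i)) * emb n (gm (Ef i) (hEf i)) =
      gm (fun x => ∑ i, cf i x.2 * Ef i x.1) h2 := e2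
  rw [e6, e1, gm_add, gm_eq_gm] at e4
  exact e4

/-- slices of a relation -/
theorem slice_rel (G : κ → (Fin n → ℂ) × ℂ → ℂ) (hG : ∀ j, AnalyticAt ℂ (G j) 0) {μ : ℕ}
    {Ef : Fin μ → (Fin n → ℂ) → ℂ} (hEf : ∀ i, AnalyticAt ℂ (Ef i) 0)
    {f : (Fin n → ℂ) × ℂ → ℂ} (hf : AnalyticAt ℂ f 0)
    {c : Fin μ → ℂ → ℂ} {b : κ → (Fin n → ℂ) × ℂ → ℂ}
    (hb : ∀ j, AnalyticAt ℂ (b j) 0)
    (hid : ∀ᶠ p in 𝓝 (0 : (Fin n → ℂ) × ℂ),
        f p = ∑ i, c i p.2 * Ef i p.1 + ∑ j, b j p * G j p) :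
    ∀ᶠ t in 𝓝 (0 : ℂ), (gz (fun x => f (x, t)) : BB n) -
      ∑ i, algebraMap ℂ (BB n) (c i t) * gm (Ef i) (hEf i) ∈
        Idl (0 : Fin n → ℂ) (fun j x => G j (x, t)) := by
  have h1 : ∀ᶠ t in 𝓝 (0 : ℂ), AnalyticAt ℂ f (0, t) :=
    tendsto_0t.eventually hf.eventually_analyticAt
  have h2 : ∀ᶠ t in 𝓝 (0 : ℂ), ∀ j, AnalyticAt ℂ (b j) (0, t) :=
    tendsto_0t.eventually (Filter.eventually_all.2 fun j => (hb j).eventually_analyticAt)
  have h3 : ∀ᶠ t in 𝓝 (0 : ℂ), ∀ j, AnalyticAt ℂ (G j) (0, t) :=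
    tendsto_0t.eventually (Filter.eventually_all.2 fun j => (hG j).eventually_analyticAt)
  have h4 := tendsto_0t.eventually (eventually_eventually_nhds.2 hid)
  filter_upwards [h1, h2, h3, h4] with t k1 k2 k3 k4
  have k5 : Tendsto (fun x : Fin n → ℂ => ((x, t) : (Fin n → ℂ) × ℂ)) (𝓝 0) (𝓝 (0, t)) := by
    have : Continuous (fun x : Fin n → ℂ => ((x, t) : (Fin n → ℂ) × ℂ)) := by fun_prop
    exact this.tendsto' _ _ rfl
  have k6 := k5.eventually k4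
  rw [gz_eq (an_slice k1), mem_Idl (fun j => an_slice (k3 j))]
  refine ⟨fun j => gm (fun x => b j (x, t)) (an_slice (k2 j)), ?_⟩
  obtain ⟨h5, e5⟩ := exists_sum_gm' (p := (0 : Fin n → ℂ)) Finset.univ
    (fun j x => b j (x, t)) (fun j x => G j (x, t)) (fun j => an_slice (k2 j))
    (fun j => an_slice (k3 j))
  obtain ⟨h6, e6⟩ := exists_sum_gm' (p := (0 : Fin n → ℂ)) Finset.univ
    (fun i _ => c i t) Ef (fun i => analyticAt_const) hEf
  have e9 : ∑ i, algebraMap ℂ (BB n) (c i t) * gm (Ef i) (hEf i) =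
    gm (fun x => ∑ i, c i t * Ef i x) h6 := e6
  rw [e5, e9, gm_sub, gm_eq_gm]
  filter_upwards [k6] with x hx
  simp only [Pi.sub_apply]
  rw [hx]
  ring

lemma gz_mon (β : Fin n → ℕ) :
    (gz (fun x : Fin n → ℂ => ∏ i, x i ^ β i) : BB n) = mon xB β := by
  obtain ⟨h7, e7⟩ := gm_mon (p := (0 : Fin n → ℂ)) (fun i x => x i) (fun i => an_coord i 0) β
  rw [gz_eq h7]
  exact e7.symm

lemma an_mon (β : Fin n → ℕ) (p : (Fin n → ℂ) × ℂ) :
    AnalyticAt ℂ (fun p : (Fin n → ℂ) × ℂ => ∏ i, p.1 i ^ β i) p :=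
  Finset.analyticAt_fun_prod _ fun i _ => (an_x i p).pow _

/-- SEMICONTINUITY with generators -/
theorem usc_aux (G : κ → (Fin n → ℂ) × ℂ → ℂ) (hG : ∀ j, AnalyticAt ℂ (G j) 0) {μ : ℕ}
    {Ef : Fin μ → (Fin n → ℂ) → ℂ} (hEf : ∀ i, AnalyticAt ℂ (Ef i) 0)
    (hrel : ∀ f : (Fin n → ℂ) × ℂ → ℂ, AnalyticAt ℂ f 0 →
      ∃ (c : Fin μ → ℂ → ℂ) (b : κ → (Fin n → ℂ) × ℂ → ℂ),
      (∀ i, AnalyticAt ℂ (c i) 0) ∧ (∀ j, AnalyticAt ℂ (b j) 0) ∧
      ∀ᶠ p in 𝓝 (0 : (Fin n → ℂ) × ℂ),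
        f p = ∑ i, c i p.2 * Ef i p.1 + ∑ j, b j p * G j p) :
    ∀ᶠ t in 𝓝 (0 : ℂ), ⊤ ≤ Submodule.span ℂ (Set.range fun i =>
      (Ideal.Quotient.mkₐ ℂ (Idl (0 : Fin n → ℂ) (fun j x => G j (x, t)))).toLinearMap
        (gm (Ef i) (hEf i))) := by
  classical
  have hfinset : {β : Fin n → ℕ | ∑ i, β i ≤ n * μ}.Finite := by
    refine (Set.Finite.subset (Set.finite_Iic (fun _ : Fin n => n * μ)) ?_)
    intro β hβ
    rw [Set.mem_Iic]
    intro i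
    exact (Finset.single_le_sum (fun j _ => Nat.zero_le (β j)) (Finset.mem_univ i)).trans hβ
  have hall : ∀ᶠ t in 𝓝 (0 : ℂ), ∀ β ∈ {β : Fin n → ℕ | ∑ i, β i ≤ n * μ},
      ∃ c : Fin μ → ℂ, mon xB β - ∑ i, algebraMap ℂ (BB n) (c i) * gm (Ef i) (hEf i) ∈
        Idl (0 : Fin n → ℂ) (fun j x => G j (x, t)) := by
    rw [Filter.eventually_all_finite hfinset]
    intro β _
    obtain ⟨c, b, _, hb, hid⟩ := hrel _ (an_mon β 0)
    filter_upwards [slice_rel G hG hEf (an_mon β 0) hb hid] with t ht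
    exact ⟨fun i => c i t, by rw [gz_mon] at ht; exact ht⟩
  filter_upwards [hall] with t ht
  exact span_of_rel (xB (n := n)) xB_not_unit hadamard _ _ ht

/-- **UPPER SEMICONTINUITY of the multiplicity** -/
theorem usc (G : κ → (Fin n → ℂ) × ℂ → ℂ) (hG : ∀ j, AnalyticAt ℂ (G j) 0) (μ : ℕ)
    (hf0 : Module.Finite ℂ (QQ G 0)) (hd0 : Module.finrank ℂ (QQ G 0) = μ) :
    ∀ᶠ t in 𝓝 (0 : ℂ), Module.Finite ℂ (QQ G t) ∧ Module.finrank ℂ (QQ G t) ≤ μ := by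
  obtain ⟨Ef, hEf, hrel⟩ := exists_data G hG μ hf0 hd0
  filter_upwards [usc_aux G hG hEf hrel] with t ht
  exact finite_of_span ht

/-- FREENESS: coefficients of a relation vanish -/
theorem free_aux (G : κ → (Fin n → ℂ) × ℂ → ℂ) (hG : ∀ j, AnalyticAt ℂ (G j) 0) {μ : ℕ}
    {Ef : Fin μ → (Fin n → ℂ) → ℂ} (hEf : ∀ i, AnalyticAt ℂ (Ef i) 0)
    (hrel : ∀ f : (Fin n → ℂ) × ℂ → ℂ, AnalyticAt ℂ f 0 →
      ∃ (c : Fin μ → ℂ → ℂ) (b : κ → (Fin n → ℂ) × ℂ → ℂ),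
      (∀ i, AnalyticAt ℂ (c i) 0) ∧ (∀ j, AnalyticAt ℂ (b j) 0) ∧
      ∀ᶠ p in 𝓝 (0 : (Fin n → ℂ) × ℂ),
        f p = ∑ i, c i p.2 * Ef i p.1 + ∑ j, b j p * G j p)
    (hfr : ∃ᶠ t in 𝓝[≠] (0 : ℂ), Module.Finite ℂ (QQ G t) → μ ≤ Module.finrank ℂ (QQ G t))
    {c : Fin μ → ℂ → ℂ} (hc : ∀ i, AnalyticAt ℂ (c i) 0)
    (hz : ∀ᶠ t in 𝓝 (0 : ℂ), Module.Finite ℂ (QQ G t) → Module.finrank ℂ (QQ G t) = μ →
      ∑ i, algebraMap ℂ (BB n) (c i t) * gm (Ef i) (hEf i) ∈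
        Idl (0 : Fin n → ℂ) (fun j x => G j (x, t))) (i : Fin μ) :
    ∀ᶠ t in 𝓝 (0 : ℂ), c i t = 0 := by
  rw [← (hc i).frequently_zero_iff_eventually_zero]
  have h1 := (usc_aux G hG hEf hrel).filter_mono (nhdsWithin_le_nhds (s := {(0 : ℂ)}ᶜ))
  have h2 := hz.filter_mono (nhdsWithin_le_nhds (s := {(0 : ℂ)}ᶜ))
  refine (hfr.and_eventually (h1.and h2)).mono ?_
  rintro t ⟨k1, k2, k3⟩
  obtain ⟨k4, k5⟩ := finite_of_span k2
  have k6 : Module.finrank ℂ (QQ G t) = μ := le_antisymm k5 (k1 k4)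
  have k7 := k3 k4 k6
  have hli : LinearIndependent ℂ (fun i =>
      (Ideal.Quotient.mkₐ ℂ (Idl (0 : Fin n → ℂ) (fun j x => G j (x, t)))).toLinearMap
        (gm (Ef i) (hEf i))) := by
    refine linearIndependent_of_top_le_span_of_card_eq_finrank k2 ?_
    rw [Fintype.card_fin]
    exact k6.symm
  have k8 : ∑ i, c i t •
      (Ideal.Quotient.mkₐ ℂ (Idl (0 : Fin n → ℂ) (fun j x => G j (x, t)))).toLinearMap
        (gm (Ef i) (hEf i)) = 0 := by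
    have k9 := (Ideal.Quotient.eq_zero_iff_mem
      (I := Idl (0 : Fin n → ℂ) (fun j x => G j (x, t)))).2 k7
    rw [map_sum] at k9
    rw [← k9]
    refine Finset.sum_congr rfl fun i _ => ?_
    rw [← map_smul, Algebra.smul_def]
    rfl
  exact (Fintype.linearIndependent_iff.1 hli) _ k8 i

/-- **UNIFORM INCLUSION from a frequent lower bound** -/
theorem ui_freq (G : κ → (Fin n → ℂ) × ℂ → ℂ) (hG : ∀ j, AnalyticAt ℂ (G j) 0) (μ : ℕ)
    (hf0 : Module.Finite ℂ (QQ G 0)) (hd0 : Module.finrank ℂ (QQ G 0) = μ)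
    (hfr : ∃ᶠ t in 𝓝[≠] (0 : ℂ), Module.Finite ℂ (QQ G t) → μ ≤ Module.finrank ℂ (QQ G t))
    (α : Fin n → ℕ) (hα : ∑ i, α i = μ) :
    ∃ b : κ → (Fin n → ℂ) × ℂ → ℂ, (∀ j, AnalyticAt ℂ (b j) 0) ∧
      ∀ᶠ p in 𝓝 (0 : (Fin n → ℂ) × ℂ), ∏ i, p.1 i ^ α i = ∑ j, b j p * G j p := by
  obtain ⟨Ef, hEf, hrel⟩ := exists_data G hG μ hf0 hd0
  obtain ⟨c, b, hc, hb, hid⟩ := hrel _ (an_mon α 0)
  have hsl := slice_rel G hG hEf (an_mon α 0) hb hid
  have hz : ∀ i, ∀ᶠ t in 𝓝 (0 : ℂ), c i t = 0 := by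
    refine free_aux G hG hEf hrel hfr hc ?_
    filter_upwards [hsl] with t ht hfin hdim
    rw [gz_mon] at ht
    have h1 : mon xB α ∈ Idl (0 : Fin n → ℂ) (fun j x => G j (x, t)) := by
      have h2 := JJ_le_of_finrank (xB (n := n)) xB_not_unit
        (Idl (0 : Fin n → ℂ) (fun j x => G j (x, t)))
      rw [hdim] at h2
      exact h2 (Ideal.subset_span ⟨α, hα, rfl⟩)
    have h3 := (Idl (0 : Fin n → ℂ) (fun j x => G j (x, t))).sub_mem h1 ht
    rwa [sub_sub_cancel] at h3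
  refine ⟨b, hb, ?_⟩
  have h2 : Tendsto (fun p : (Fin n → ℂ) × ℂ => p.2) (𝓝 0) (𝓝 0) :=
    continuous_snd.tendsto' _ _ rfl
  filter_upwards [hid, h2.eventually (Filter.eventually_all.2 hz)] with p h3 h4
  rw [h3]
  simp [h4]

end Crest.Agent.R257.UI939
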