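import Crest.Agent.R257.Tou1_939
import Crest.Agent.R257.UI7_939

/-!
Row 257 (S0395), leaf TOU (helper939), part 2: a perturbation of order `> 2μ` of a `μ`-constant
family is analytically trivial (parametrised Tougeron theorem).
-/

set_option autoImplicit false
set_option linter.unusedSectionVars false

open Set Filter Topology Metric Complex
open Crest.Agent.R275.Loc2879

noncomputable section

namespace Crest.Agent.R257.UI939

universe u v w

variable {n : ℕ}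

lemma quadD {E : Type u} [NormedAddCommGroup E] [NormedSpace ℂ E] {a b c : E → ℂ} {p : E}
    (ha : DifferentiableAt ℂ a p) (hb : DifferentiableAt ℂ b p) (hc : DifferentiableAt ℂ c p)
    (ha0 : a p = 0) (hb0 : b p = 0) :
    HasFDerivAt (fun x => a x * b x * c x) (0 : E →L[ℂ] ℂ) p := by
  have h := (ha.hasFDerivAt.fun_mul hb.hasFDerivAt).fun_mul hc.hasFDerivAt
  refine h.congr_fderiv ?_
  refine ContinuousLinearMap.ext fun v => ?_
  simp [ha0, hb0]

lemma prodD {E : Type u} [NormedAddCommGroup E] [NormedSpace ℂ E] {a b : E → ℂ} {p : E}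
    (ha : DifferentiableAt ℂ a p) (hb : DifferentiableAt ℂ b p)
    (ha0 : a p = 0) (hb0 : b p = 0) :
    HasFDerivAt (fun x => a x * b x) (0 : E →L[ℂ] ℂ) p := by
  have h := ha.hasFDerivAt.fun_mul hb.hasFDerivAt
  refine h.congr_fderiv ?_
  refine ContinuousLinearMap.ext fun v => ?_
  simp [ha0, hb0]

lemma sum4 (f : Fin n → Fin n → Fin n → Fin n → ℂ) :
    ∑ l, ∑ k, ∑ i, ∑ j, f l k i j = ∑ i, ∑ j, ∑ k, ∑ l, f l k i j := by
  calc ∑ l, ∑ k, ∑ i, ∑ j, f l k i j = ∑ l, ∑ i, ∑ k, ∑ j, f l k i j :=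
        Finset.sum_congr rfl fun l _ => Finset.sum_comm
    _ = ∑ i, ∑ l, ∑ k, ∑ j, f l k i j := Finset.sum_comm
    _ = ∑ i, ∑ l, ∑ j, ∑ k, f l k i j :=
        Finset.sum_congr rfl fun i _ => Finset.sum_congr rfl fun l _ => Finset.sum_comm
    _ = ∑ i, ∑ j, ∑ l, ∑ k, f l k i j := Finset.sum_congr rfl fun i _ => Finset.sum_comm
    _ = ∑ i, ∑ j, ∑ k, ∑ l, f l k i j :=
        Finset.sum_congr rfl fun i _ => Finset.sum_congr rfl fun j _ => Finset.sum_comm

/-- the algebraic identity behind Tougeron's theorem -/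
lemma tou_alg (y : Fin n → Fin n → ℂ) (D : Fin n → ℂ) (H g : Fin n → Fin n → ℂ)
    (h : ∀ l k, y l k + ∑ i, ∑ j, y i k * y j l * H i j = g l k) :
    ∑ i, (∑ k, y i k * D k) * D i +
      ∑ i, ∑ j, (∑ k, y i k * D k) * (∑ k, y j k * D k) * H i j =
      ∑ l, ∑ k, g l k * D l * D k := by
  have e1 : ∑ i, (∑ k, y i k * D k) * D i = ∑ l, ∑ k, y l k * D l * D k := by
    refine Finset.sum_congr rfl fun i _ => ?_
    rw [Finset.sum_mul]
    exact Finset.sum_congr rfl fun k _ => by ring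
  have e2 : ∑ i, ∑ j, (∑ k, y i k * D k) * (∑ k, y j k * D k) * H i j =
      ∑ l, ∑ k, (∑ i, ∑ j, y i k * y j l * H i j) * D l * D k := by
    have e3 : ∑ l, ∑ k, (∑ i, ∑ j, y i k * y j l * H i j) * D l * D k =
        ∑ l, ∑ k, ∑ i, ∑ j, y i k * y j l * H i j * D l * D k := by
      refine Finset.sum_congr rfl fun l _ => Finset.sum_congr rfl fun k _ => ?_
      rw [Finset.sum_mul, Finset.sum_mul]
      refine Finset.sum_congr rfl fun i _ => ?_
      rw [Finset.sum_mul, Finset.sum_mul]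
    rw [e3, sum4]
    refine Finset.sum_congr rfl fun i _ => Finset.sum_congr rfl fun j _ => ?_
    rw [Finset.sum_mul_sum, Finset.sum_mul]
    refine Finset.sum_congr rfl fun k _ => ?_
    rw [Finset.sum_mul]
    refine Finset.sum_congr rfl fun l _ => ?_
    ring
  rw [e1, e2, ← Finset.sum_add_distrib]
  refine Finset.sum_congr rfl fun l _ => ?_
  rw [← Finset.sum_add_distrib]
  refine Finset.sum_congr rfl fun k _ => ?_
  rw [← h l k]
  ring

/-- a product over a word as a monomial -/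
lemma word_mon {m : ℕ} (w : Fin m → Fin n) :
    ∃ α : Fin n → ℕ, ∑ i, α i = m ∧ ∀ x : Fin n → ℂ, ∏ j, x (w j) = ∏ i, x i ^ α i := by
  classical
  refine ⟨fun i => (Finset.univ.filter fun j => w j = i).card, ?_, fun x => ?_⟩
  · have := Finset.card_eq_sum_card_fiberwise (s := (Finset.univ : Finset (Fin m)))
      (t := (Finset.univ : Finset (Fin n))) (f := w) (fun _ _ => Finset.mem_coe.2 (Finset.mem_univ _))
    rw [← this]; simp
  · rw [← Finset.prod_fiberwise_of_maps_to (s := (Finset.univ : Finset (Fin m)))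
      (t := (Finset.univ : Finset (Fin n))) (g := w) (fun _ _ => Finset.mem_univ _)]
    refine Finset.prod_congr rfl fun i _ => ?_
    rw [← Finset.prod_const]
    exact Finset.prod_congr rfl fun j hj => by rw [(Finset.mem_filter.1 hj).2]

/-- **analytic part**: if `G - F = ∑ g_lk D_l D_k` with `g_lk(0,t) = 0`, then `G = F ∘ ψ` -/
theorem tou_core (F G : (Fin n → ℂ) × ℂ → ℂ) (hF : AnalyticAt ℂ F 0)
    (hcrit : ∀ᶠ t in 𝓝 (0 : ℂ), fderiv ℂ (fun x => F (x, t)) 0 = 0)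
    (g : Fin n → Fin n → (Fin n → ℂ) × ℂ → ℂ) (hg : ∀ l k, AnalyticAt ℂ (g l k) 0)
    (hg0 : ∀ l k, ∀ t : ℂ, g l k (0, t) = 0)
    (hGF : ∀ᶠ p in 𝓝 (0 : (Fin n → ℂ) × ℂ),
      G p - F p = ∑ l, ∑ k, g l k p * grad F l p * grad F k p) :
    ∃ psi : (Fin n → ℂ) × ℂ → (Fin n → ℂ), AnalyticAt ℂ psi 0 ∧
      (∀ᶠ t in 𝓝 (0 : ℂ), psi (0, t) = 0) ∧
      (∀ᶠ t in 𝓝 (0 : ℂ), fderiv ℂ (fun x => psi (x, t)) 0 = ContinuousLinearMap.id ℂ _) ∧
      ∀ᶠ p in 𝓝 (0 : (Fin n → ℂ) × ℂ), F (psi p, p.2) = G p := by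
  classical
  obtain ⟨H, hH, hTay⟩ := taylor2 hF
  have hD : ∀ k, AnalyticAt ℂ (grad F k) 0 := fun k => an_grad hF k
  have hD0 : ∀ᶠ t in 𝓝 (0 : ℂ), ∀ k, grad F k (0, t) = 0 := by
    filter_upwards [hcrit] with t ht k
    change fderiv ℂ (fun x => F (x, t)) 0 _ = 0
    rw [ht]; rfl
  have hD00 : ∀ k, grad F k 0 = 0 := hD0.self_of_nhds
  -- the map ξ
  let ξ : ((Fin n → ℂ) × ℂ) × (Fin n → Fin n → ℂ) → (Fin n → ℂ) :=
    fun p i => ∑ k, p.2 i k * grad F k p.1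
  have hy : ∀ i k, ∀ p : ((Fin n → ℂ) × ℂ) × (Fin n → Fin n → ℂ),
      AnalyticAt ℂ (fun p : ((Fin n → ℂ) × ℂ) × (Fin n → Fin n → ℂ) => p.2 i k) p := by
    intro i k p
    exact (ContinuousLinearMap.analyticAt
      (((ContinuousLinearMap.proj (R := ℂ) (φ := fun _ : Fin n => ℂ) k).comp
        (ContinuousLinearMap.proj (R := ℂ) (φ := fun _ : Fin n => (Fin n → ℂ)) i)).comp
      (ContinuousLinearMap.snd ℂ ((Fin n → ℂ) × ℂ) (Fin n → Fin n → ℂ))) p)
  have hD1 : ∀ k, AnalyticAt ℂ (fun p : ((Fin n → ℂ) × ℂ) × (Fin n → Fin n → ℂ) =>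
      grad F k p.1) 0 := by
    intro k
    exact AnalyticAt.comp (g := grad F k) (f := Prod.fst) (by exact hD k) analyticAt_fst
  have hξ : AnalyticAt ℂ ξ 0 := by
    refine AnalyticAt.pi fun i => ?_
    exact Finset.analyticAt_fun_sum _ fun k _ => (hy i k 0).mul (hD1 k)
  have hξ0 : ξ 0 = 0 := by
    ext i
    simp [ξ]
  have hpair : AnalyticAt ℂ (fun p : ((Fin n → ℂ) × ℂ) × (Fin n → Fin n → ℂ) =>
      ((p.1, ξ p) : ((Fin n → ℂ) × ℂ) × (Fin n → ℂ))) 0 := analyticAt_fst.prod hξ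
  have hpair0 : (((0 : ((Fin n → ℂ) × ℂ) × (Fin n → Fin n → ℂ)).1, ξ 0) :
      ((Fin n → ℂ) × ℂ) × (Fin n → ℂ)) = 0 := Prod.ext rfl hξ0
  have hHξ : ∀ i j, AnalyticAt ℂ (fun p : ((Fin n → ℂ) × ℂ) × (Fin n → Fin n → ℂ) =>
      H i j (p.1, ξ p)) 0 := by
    intro i j
    refine AnalyticAt.comp (g := H i j) (f := fun p : ((Fin n → ℂ) × ℂ) × (Fin n → Fin n → ℂ) =>
      ((p.1, ξ p) : ((Fin n → ℂ) × ℂ) × (Fin n → ℂ))) ?_ hpair
    rw [hpair0]; exact hH i j
  have hg1 : ∀ l k, AnalyticAt ℂ (fun p : ((Fin n → ℂ) × ℂ) × (Fin n → Fin n → ℂ) =>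
      g l k p.1) 0 := by
    intro l k
    exact AnalyticAt.comp (g := g l k) (f := Prod.fst) (by exact hg l k) analyticAt_fst
  -- the equation
  let Ψ : ((Fin n → ℂ) × ℂ) × (Fin n → Fin n → ℂ) → (Fin n → Fin n → ℂ) :=
    fun p l k => p.2 l k + ∑ i, ∑ j, p.2 i k * p.2 j l * H i j (p.1, ξ p) - g l k p.1
  have hΨ : AnalyticAt ℂ Ψ 0 := by
    refine AnalyticAt.pi fun l => AnalyticAt.pi fun k => ?_
    refine ((hy l k 0).add ?_).sub (hg1 l k)
    exact Finset.analyticAt_fun_sum _ fun i _ => Finset.analyticAt_fun_sum _ fun j _ =>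
      ((hy i k 0).mul (hy j l 0)).mul (hHξ i j)
  have hΨ0 : Ψ 0 = 0 := by
    ext l k
    have := hg0 l k 0
    simp only [Ψ]
    simp only [Prod.fst_zero, Prod.snd_zero, Pi.zero_apply, zero_mul, Finset.sum_const_zero,
      add_zero, zero_sub, neg_eq_zero]
    exact this
  have hinj : ∀ v : Fin n → Fin n → ℂ, fderiv ℂ Ψ 0 (0, v) = 0 → v = 0 := by
    intro v hv
    have hcomp : ∀ l k, HasFDerivAt
        (fun p : ((Fin n → ℂ) × ℂ) × (Fin n → Fin n → ℂ) => Ψ p l k)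
        ((((ContinuousLinearMap.proj (R := ℂ) (φ := fun _ : Fin n => ℂ) k).comp
        (ContinuousLinearMap.proj (R := ℂ) (φ := fun _ : Fin n => (Fin n → ℂ)) l)).comp
        (ContinuousLinearMap.snd ℂ ((Fin n → ℂ) × ℂ) (Fin n → Fin n → ℂ))) + ∑ _i : Fin n, ∑ _j : Fin n, 0 -
        (fderiv ℂ (g l k) 0).comp (ContinuousLinearMap.fst ℂ ((Fin n → ℂ) × ℂ)
          (Fin n → Fin n → ℂ))) 0 := by
      intro l k
      refine HasFDerivAt.fun_sub (HasFDerivAt.fun_add ?_ ?_) ?_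
      · exact ContinuousLinearMap.hasFDerivAt
          (((ContinuousLinearMap.proj (R := ℂ) (φ := fun _ : Fin n => ℂ) k).comp
        (ContinuousLinearMap.proj (R := ℂ) (φ := fun _ : Fin n => (Fin n → ℂ)) l)).comp
        (ContinuousLinearMap.snd ℂ ((Fin n → ℂ) × ℂ) (Fin n → Fin n → ℂ)))
      · refine HasFDerivAt.fun_sum fun i _ => HasFDerivAt.fun_sum fun j _ => ?_
        exact quadD (hy i k 0).differentiableAt (hy j l 0).differentiableAt
          (hHξ i j).differentiableAt rfl rfl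
      · exact HasFDerivAt.comp (g := g l k) (g' := fderiv ℂ (g l k) 0)
          (f := (Prod.fst : ((Fin n → ℂ) × ℂ) × (Fin n → Fin n → ℂ) → (Fin n → ℂ) × ℂ))
          (0 : ((Fin n → ℂ) × ℂ) × (Fin n → Fin n → ℂ))
          ((hg l k).differentiableAt.hasFDerivAt) hasFDerivAt_fst
    ext l k
    have h1 : fderiv ℂ Ψ 0 (0, v) l k = v l k := by
      have h2 : HasFDerivAt (fun p : ((Fin n → ℂ) × ℂ) × (Fin n → Fin n → ℂ) => Ψ p l k)
        (((ContinuousLinearMap.proj (R := ℂ) (φ := fun _ : Fin n => ℂ) k).comp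
        (ContinuousLinearMap.proj (R := ℂ) (φ := fun _ : Fin n => (Fin n → ℂ)) l)).comp
          (fderiv ℂ Ψ 0)) 0 :=
        HasFDerivAt.comp (g := fun y : Fin n → Fin n → ℂ => y l k)
          (g' := (ContinuousLinearMap.proj (R := ℂ) (φ := fun _ : Fin n => ℂ) k).comp
        (ContinuousLinearMap.proj (R := ℂ) (φ := fun _ : Fin n => (Fin n → ℂ)) l)) (f := Ψ)
          (0 : ((Fin n → ℂ) × ℂ) × (Fin n → Fin n → ℂ))
          (ContinuousLinearMap.hasFDerivAt ((ContinuousLinearMap.proj (R := ℂ)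
            (φ := fun _ : Fin n => ℂ) k).comp
        (ContinuousLinearMap.proj (R := ℂ) (φ := fun _ : Fin n => (Fin n → ℂ)) l)))
          hΨ.differentiableAt.hasFDerivAt
      have h3 := h2.unique (hcomp l k)
      have h4 := congrArg (fun L : ((Fin n → ℂ) × ℂ) × (Fin n → Fin n → ℂ) →L[ℂ] ℂ => L (0, v)) h3
      simpa using h4
    rw [← h1, hv]
  obtain ⟨y, hya, hy0, hyΨ, hyu⟩ := implicit_an hΨ hΨ0 hinj
  -- y(0,t) = 0
  have hyt : ∀ᶠ t in 𝓝 (0 : ℂ), y (0, t) = 0 := by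
    have h1 : Tendsto (fun t : ℂ => (((0, t), 0) : ((Fin n → ℂ) × ℂ) × (Fin n → Fin n → ℂ)))
        (𝓝 0) (𝓝 0) := by
      have : Continuous (fun t : ℂ =>
        (((0, t), 0) : ((Fin n → ℂ) × ℂ) × (Fin n → Fin n → ℂ))) := by fun_prop
      exact this.tendsto' _ _ rfl
    filter_upwards [h1.eventually hyu] with t ht
    refine (ht ?_).symm
    ext l k
    simp only [Ψ, Pi.zero_apply, zero_mul, Finset.sum_const_zero, hg0 l k t, add_zero, sub_zero]
  have hya' : ∀ i k, AnalyticAt ℂ (fun z => y z i k) 0 := fun i k =>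
    analyticAt_pi_iff.1 (analyticAt_pi_iff.1 hya i) k
  have hξy : AnalyticAt ℂ (fun z : (Fin n → ℂ) × ℂ => ξ (z, y z)) 0 := by
    refine AnalyticAt.pi fun i => ?_
    exact Finset.analyticAt_fun_sum _ fun k _ => (hya' i k).mul (hD k)
  have hξy0 : ξ ((0 : (Fin n → ℂ) × ℂ), y 0) = 0 := by
    rw [hy0]; exact hξ0
  refine ⟨fun z => z.1 + ξ (z, y z), analyticAt_fst.add hξy, ?_, ?_, ?_⟩
  · filter_upwards [hyt] with t ht
    simp only [ht, zero_add]
    ext i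
    simp [ξ]
  · have hev1 : ∀ᶠ t in 𝓝 (0 : ℂ), ∀ i k, AnalyticAt ℂ (fun z => y z i k) (0, t) :=
      (tendsto_0t (n := n)).eventually (Filter.eventually_all.2 fun i =>
        Filter.eventually_all.2 fun k => (hya' i k).eventually_analyticAt)
    have hev2 : ∀ᶠ t in 𝓝 (0 : ℂ), ∀ k, AnalyticAt ℂ (grad F k) (0, t) :=
      (tendsto_0t (n := n)).eventually (Filter.eventually_all.2 fun k =>
        (hD k).eventually_analyticAt)
    filter_upwards [hyt, hev1, hev2, hD0] with t h1 h2 h3 h4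
    refine HasFDerivAt.fderiv ?_
    have h5 : HasFDerivAt (fun x : Fin n → ℂ => ξ ((x, t), y (x, t)))
        (0 : (Fin n → ℂ) →L[ℂ] (Fin n → ℂ)) 0 := by
      rw [hasFDerivAt_pi']
      intro i
      have h6 : HasFDerivAt (fun x : Fin n → ℂ => ξ ((x, t), y (x, t)) i)
          (∑ k : Fin n, (0 : (Fin n → ℂ) →L[ℂ] ℂ)) 0 := by
        refine HasFDerivAt.fun_sum fun k _ => ?_
        refine prodD ?_ ?_ ?_ (h4 k)
        · exact (an_slice (h2 i k)).differentiableAt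
        · exact (an_slice (h3 k)).differentiableAt
        · rw [h1]; rfl
      refine h6.congr_fderiv ?_
      simp
    have h7 := (hasFDerivAt_id (𝕜 := ℂ) (0 : Fin n → ℂ)).fun_add h5
    refine h7.congr_fderiv ?_
    rw [add_zero]
  · have h1 : Tendsto (fun z : (Fin n → ℂ) × ℂ =>
        ((z, ξ (z, y z)) : ((Fin n → ℂ) × ℂ) × (Fin n → ℂ))) (𝓝 0) (𝓝 0) := by
      have h2 : AnalyticAt ℂ (fun z : (Fin n → ℂ) × ℂ =>
        ((z, ξ (z, y z)) : ((Fin n → ℂ) × ℂ) × (Fin n → ℂ))) 0 := analyticAt_id.prod hξy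
      have h3 := h2.continuousAt.tendsto
      rw [hξy0] at h3
      exact h3
    filter_upwards [h1.eventually hTay, hyΨ, hGF] with z h2 h3 h4
    have h5 : F (z.1 + ξ (z, y z), z.2) = F z + (∑ i, (∑ k, y z i k * grad F k z) * grad F i z +
      ∑ i, ∑ j, (∑ k, y z i k * grad F k z) * (∑ k, y z j k * grad F k z) *
        H i j (z, ξ (z, y z))) := by
      rw [← add_assoc]; exact h2
    rw [h5, tou_alg (y z) (fun k => grad F k z) (fun i j => H i j (z, ξ (z, y z)))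
      (fun l k => g l k z), ← h4]
    · ring
    · intro l k
      have h6 : Ψ (z, y z) l k = 0 := by rw [h3]; rfl
      simp only [Ψ] at h6
      exact sub_eq_zero.1 h6

open Crest.AlgGeometry Crest.AlgGeometry.Germ in
/-- **(TOU)** parametrised Tougeron theorem for `μ`-constant families -/
theorem tou {mu : ℕ} (F G : (Fin n → ℂ) × ℂ → ℂ) (hF : AnalyticAt ℂ F 0) (_hG : AnalyticAt ℂ G 0)
    (hmu : ∀ᶠ t in 𝓝 (0 : ℂ), Module.Finite ℂ (JacobianQuotient n (fun x => F (x, t))) ∧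
      milnorNumber n (fun x => F (x, t)) = mu)
    (hcrit : ∀ᶠ t in 𝓝 (0 : ℂ), fderiv ℂ (fun x => F (x, t)) 0 = 0)
    (q : (Fin (2 * mu + 1) → Fin n) → (Fin n → ℂ) × ℂ → ℂ) (hq : ∀ w, AnalyticAt ℂ (q w) 0)
    (hGF : ∀ᶠ p in 𝓝 (0 : (Fin n → ℂ) × ℂ), G p - F p = ∑ w, (∏ j, p.1 (w j)) * q w p) :
    ∃ psi : (Fin n → ℂ) × ℂ → (Fin n → ℂ), AnalyticAt ℂ psi 0 ∧
      (∀ᶠ t in 𝓝 (0 : ℂ), psi (0, t) = 0) ∧
      (∀ᶠ t in 𝓝 (0 : ℂ), fderiv ℂ (fun x => psi (x, t)) 0 = ContinuousLinearMap.id ℂ _) ∧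
      ∀ᶠ p in 𝓝 (0 : (Fin n → ℂ) × ℂ), F (psi p, p.2) = G p := by
  classical
  have hdim : ∀ᶠ t in 𝓝 (0 : ℂ),
      Module.Finite ℂ (BB n ⧸ Idl (0 : Fin n → ℂ) (fun j x => grad F j (x, t))) ∧
      dimQ (0 : Fin n → ℂ) (fun j x => grad F j (x, t)) = mu := by
    filter_upwards [hmu, (tendsto_0t (n := n)).eventually hF.eventually_analyticAt] with t h12 hFt
    obtain ⟨h1, h2⟩ := h12
    have han : ∀ i, AnalyticAt ℂ (coordDeriv (fun x => F (x, t)) i) (0 : Fin n → ℂ) := by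
      intro i
      rw [coordDeriv_eq]
      exact an_slice (an_grad hFt i)
    obtain ⟨e⟩ := dict han
    refine ⟨Module.Finite.equiv e, ?_⟩
    rw [← h2]
    exact e.finrank_eq.symm
  -- monomials of degree `mu`
  have hui : ∀ u : Fin mu → Fin n, ∃ b : Fin n → (Fin n → ℂ) × ℂ → ℂ,
      (∀ j, AnalyticAt ℂ (b j) 0) ∧
      ∀ᶠ p in 𝓝 (0 : (Fin n → ℂ) × ℂ), ∏ j, p.1 (u j) = ∑ j, b j p * grad F j p := by
    intro u
    obtain ⟨α, hα, hw⟩ := word_mon u
    obtain ⟨b, hb, h⟩ := ui (grad F) (fun j => an_grad hF j) mu hdim α hα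
    refine ⟨b, hb, ?_⟩
    filter_upwards [h] with p hp
    rw [hw, hp]
  choose b hb hbe using hui
  -- words
  let w0 : (Fin (2 * mu + 1) → Fin n) → Fin n := fun w => w 0
  let w1 : (Fin (2 * mu + 1) → Fin n) → Fin mu → Fin n := fun w j => w ⟨1 + j, by omega⟩
  let w2 : (Fin (2 * mu + 1) → Fin n) → Fin mu → Fin n := fun w j => w ⟨1 + (mu + j), by omega⟩
  have hword : ∀ (w : Fin (2 * mu + 1) → Fin n) (x : Fin n → ℂ),
      ∏ j, x (w j) = x (w0 w) * ((∏ j, x (w1 w j)) * (∏ j, x (w2 w j))) := by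
    intro w x
    have e : 1 + (mu + mu) = 2 * mu + 1 := by ring
    have h1 : ∏ j, x (w j) = ∏ j : Fin (1 + (mu + mu)), x (w (Fin.cast e j)) :=
      (Fintype.prod_equiv (finCongr e) _ _ fun j => rfl).symm
    rw [h1, Fin.prod_univ_add, Fin.prod_univ_add]
    congr 1
    simp only [Finset.univ_unique, Fin.default_eq_zero, Fin.isValue, Finset.prod_singleton]
    rfl
  refine tou_core F G hF hcrit
    (fun l k p => ∑ w : Fin (2 * mu + 1) → Fin n, p.1 (w0 w) * (b (w1 w) l p * b (w2 w) k p * q w p))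
    ?_ ?_ ?_
  · intro l k
    exact Finset.analyticAt_fun_sum _ fun w _ => (an_x _ 0).mul
      (((hb (w1 w) l).mul (hb (w2 w) k)).mul (hq w))
  · intro l k t
    simp
  · have hb' : ∀ᶠ p in 𝓝 (0 : (Fin n → ℂ) × ℂ), ∀ u : Fin mu → Fin n,
        ∏ j, p.1 (u j) = ∑ j, b u j p * grad F j p := Filter.eventually_all.2 hbe
    filter_upwards [hGF, hb'] with p h1 h2
    rw [h1]
    have h3 : ∀ w : Fin (2 * mu + 1) → Fin n, (∏ j, p.1 (w j)) * q w p =
        ∑ l, ∑ k, (p.1 (w0 w) * (b (w1 w) l p * b (w2 w) k p * q w p)) * grad F l p *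
          grad F k p := by
      intro w
      rw [hword, h2, h2, Finset.sum_mul_sum, Finset.mul_sum, Finset.sum_mul]
      refine Finset.sum_congr rfl fun l _ => ?_
      rw [Finset.mul_sum, Finset.sum_mul]
      refine Finset.sum_congr rfl fun k _ => ?_
      ring
    rw [Finset.sum_congr rfl fun w _ => h3 w, Finset.sum_comm]
    refine Finset.sum_congr rfl fun l _ => ?_
    rw [Finset.sum_comm]
    refine Finset.sum_congr rfl fun k _ => ?_
    rw [Finset.sum_mul, Finset.sum_mul]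

end Crest.Agent.R257.UI939
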