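import Crest.Agent.R257.PairK6_39

/-!
# Row 257 (S0395), trial metric (helper39), part 1: the data of C-LOG on one level

* `Dta`     : exact pair, systems, inequalities (i), (ii), UP and the resulting bounds on the
  punctured level in a ball
* `data_of` : existence, from helper68's `CLogStmt` and helper938's `upStmt`
-/

set_option autoImplicit false
set_option linter.unusedSectionVars false

open Set Filter Topology Complex MeasureTheory
open scoped ContDiff ComplexConjugate Matrix ComplexOrder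

namespace Crest.Agent.R257.Trl_39

open Crest.Agent.R275.Geo
open Crest.Agent.R257.PN_835 (nsq)
open Crest.Agent.R257.Defs_219 Crest.Agent.R257.KED_952 Crest.Agent.R257.KEG_952
open Crest.Agent.R257.KEU_952
open Crest.Agent.R257.V1Defs_822 (SmL LvlOK lgh XUStmt)
open Crest.Agent.R257.CLogD_39
open Crest.Agent.R257.PairK_39

noncomputable section

/-- the data of C-LOG on the punctured level in the ball of radius `r` -/
structure Dta (f : E3 → ℂ) (r A : ℝ) (u : E3 → ℝ) (k : ℕ) (g h : E3 → ℂ) {L : ℕ}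
    (q : Fin L → E3 → ℂ) (s : Fin L → ℕ) (c B : ℝ) : Prop where
  c_pos : 0 < c
  B_nn : 0 ≤ B
  pr : XPr f k g h
  qok : QOK f r g h q s
  J_pos : ∀ x, f x = 0 → x ≠ 0 → nsq x < r ^ 2 → 0 < J2 f q s x
  a_pos : ∀ x, f x = 0 → x ≠ 0 → nsq x < r ^ 2 → 0 < a2 f g q s x
  i : ∀ x, f x = 0 → x ≠ 0 → nsq x < r ^ 2 →
    c * Real.exp (lgh g h x) * J2 f q s x ≤ a2 f g q s x
  ii : ∀ x, f x = 0 → x ≠ 0 → nsq x < r ^ 2 →
    c * Real.exp (lgh g h x / k) ≤ J2 f q s x
  a_ge : ∀ x, f x = 0 → x ≠ 0 → nsq x < r ^ 2 →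
    c ^ 2 * Real.exp ((1 + 1 / k) * lgh g h x) ≤ a2 f g q s x
  up : ∀ x, f x = 0 → x ≠ 0 → nsq x < r ^ 2 → u x ≤ lgh g h x / k + B
  lg_le : ∀ x, f x = 0 → x ≠ 0 → nsq x < r ^ 2 → |lgh g h x| ≤ B * (A - u x)
  ph_le : ∀ x, f x = 0 → x ≠ 0 → nsq x < r ^ 2 → ∀ l, |phq q s l x| ≤ B * (A - u x)
  lgh_bd : ∀ x, f x = 0 → x ≠ 0 → nsq x < r ^ 2 → lgh g h x ≤ B

theorem lgh_exp {g h : E3 → ℂ} {x : E3} (hx : 0 < ‖g x‖ ^ 2 + ‖h x‖ ^ 2) :
    Real.exp (lgh g h x) = ‖g x‖ ^ 2 + ‖h x‖ ^ 2 := by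
  unfold lgh
  rw [Real.exp_log hx]

theorem Dta.mono {f : E3 → ℂ} {r A : ℝ} {u : E3 → ℝ} {k : ℕ} {g h : E3 → ℂ} {L : ℕ}
    {q : Fin L → E3 → ℂ} {s : Fin L → ℕ} {c B : ℝ} (hD : Dta f r A u k g h q s c B) {r' : ℝ}
    (h0 : 0 ≤ r') (h1 : r' ≤ r) : Dta f r' A u k g h q s c B := by
  have e : ∀ x : E3, nsq x < r' ^ 2 → nsq x < r ^ 2 := fun x hx =>
    hx.trans_le (pow_le_pow_left₀ h0 h1 2)
  exact
    { c_pos := hD.c_pos
      B_nn := hD.B_nn
      pr := hD.pr
      qok := ⟨fun x hx => hD.qok.ang x (e x hx), fun x hx => hD.qok.anh x (e x hx),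
        fun l x hx => hD.qok.anq l x (e x hx), fun x a1 a2 a3 => hD.qok.gh x a1 a2 (e x a3),
        fun x a1 a2 a3 => hD.qok.pos x a1 a2 (e x a3),
        fun x a1 a2 a3 => hD.qok.le x a1 a2 (e x a3)⟩
      J_pos := fun x a1 a2 a3 => hD.J_pos x a1 a2 (e x a3)
      a_pos := fun x a1 a2 a3 => hD.a_pos x a1 a2 (e x a3)
      i := fun x a1 a2 a3 => hD.i x a1 a2 (e x a3)
      ii := fun x a1 a2 a3 => hD.ii x a1 a2 (e x a3)
      a_ge := fun x a1 a2 a3 => hD.a_ge x a1 a2 (e x a3)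
      up := fun x a1 a2 a3 => hD.up x a1 a2 (e x a3)
      lg_le := fun x a1 a2 a3 => hD.lg_le x a1 a2 (e x a3)
      ph_le := fun x a1 a2 a3 => hD.ph_le x a1 a2 (e x a3)
      lgh_bd := fun x a1 a2 a3 => hD.lgh_bd x a1 a2 (e x a3) }

/-- existence of the data, from `XLStmt` -/
theorem data_of_xl (xl : XLStmt) {f : E3 → ℂ} {r A : ℝ} {u : E3 → ℝ} {ν : Measure E3}
    (hiso : Iso f) (hL : LvlOK f 0 r) (hK : KEon f 0 r u) (hν : IsNu f 0 r ν)
    (hm : 0 < mstar f) (hE : Esc f r u A) (hV : ∀ χ, Cut r χ → VOL ν u χ < ⊤) :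
    ∃ (r' : ℝ) (k : ℕ) (g h : E3 → ℂ) (L : ℕ) (q : Fin L → E3 → ℂ) (s : Fin L → ℕ) (c B : ℝ),
      0 < r' ∧ r' < r ∧ Dta f r' A u k g h q s c B := by
  obtain ⟨k, g, h, L, q, s, hX, hju, hC⟩ := xl f hiso hm
  obtain ⟨hg0, hh0⟩ := xpr_zero hiso hm hX
  have hr := hL.pos
  obtain ⟨χ, hχ⟩ := SkelV_952.exists_cut hr
  obtain ⟨C₂, r₂, hr₂, hup⟩ := UpK_938.upStmt f r u ν χ k g h hiso hL hK hν hχ (hV χ hχ) hX.two
    hX.g_an hX.h_an hg0 hh0 hX.fin hju
  obtain ⟨r₀, c₀, N, hr₀, hc₀, hQ⟩ := exists_QOK hiso.an hX.g_an hX.h_an hX.fin hC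
  obtain ⟨K, hK'⟩ := lgh_le hiso.an hX.g_an hX.h_an hg0 hh0 hX.fin
  obtain ⟨r₃, hr₃, hlgh⟩ := ball_of_ev hK'
  obtain ⟨c₄, r₄, hc₄, hr₄, hi⟩ := hC.i
  have hk2 := hX.two
  have hk0 : (0 : ℝ) < k := by exact_mod_cast (by omega : 0 < k)
  -- radius
  set r' : ℝ := min (min r₀ (r / 2)) (min (min r₂ r₃) (min r₄ 1)) with hr'
  have hr'0 : 0 < r' := lt_min (lt_min hr₀ (by positivity))
    (lt_min (lt_min hr₂ hr₃) (lt_min hr₄ one_pos))
  have q0 : r' ≤ r₀ := (min_le_left _ _).trans (min_le_left _ _)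
  have q1 : r' ≤ r / 2 := (min_le_left _ _).trans (min_le_right _ _)
  have q2 : r' ≤ r₂ := (min_le_right _ _).trans ((min_le_left _ _).trans (min_le_left _ _))
  have q3 : r' ≤ r₃ := (min_le_right _ _).trans ((min_le_left _ _).trans (min_le_right _ _))
  have q4 : r' ≤ r₄ := (min_le_right _ _).trans ((min_le_right _ _).trans (min_le_left _ _))
  have q5 : r' ≤ 1 := (min_le_right _ _).trans ((min_le_right _ _).trans (min_le_right _ _))
  have e : ∀ {a : ℝ}, r' ≤ a → ∀ x : E3, nsq x < r' ^ 2 → nsq x < a ^ 2 := fun ha x hx =>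
    hx.trans_le (pow_le_pow_left₀ hr'0.le ha 2)
  obtain ⟨hQ1, hQ2, hQ3⟩ := hQ r' hr'0 q0
  -- constants
  set c : ℝ := min c₀ c₄ with hc
  have hc0 : 0 < c := lt_min hc₀ hc₄
  set K₀ : ℝ := |K| + k * (|C₂| + |A| + 1) with hK₀
  have hK₀0 : 0 ≤ K₀ := by positivity
  set B : ℝ := |C₂| + |K| + K₀ + (|Real.log c₀| + N * K₀) with hB
  have hB0 : 0 ≤ B := by positivity
  have hii : ∀ x, f x = 0 → x ≠ 0 → nsq x < r' ^ 2 →
      c * Real.exp (lgh g h x / k) ≤ J2 f q s x := by
    intro x h1 h2 h3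
    have h4 := hQ2 x h1 h2 h3
    have h5 := hQ1.gh x h1 h2 h3
    have h6 : (‖g x‖ ^ 2 + ‖h x‖ ^ 2) ^ (1 / (k : ℝ)) = Real.exp (lgh g h x / k) := by
      unfold lgh
      rw [Real.rpow_def_of_pos h5]
      congr 1
      ring
    rw [h6] at h4
    refine le_trans ?_ h4
    exact mul_le_mul_of_nonneg_right (min_le_left _ _) (Real.exp_pos _).le
  have hJ : ∀ x, f x = 0 → x ≠ 0 → nsq x < r' ^ 2 → 0 < J2 f q s x := fun x h1 h2 h3 =>
    lt_of_lt_of_le (by positivity) (hii x h1 h2 h3)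
  have hi' : ∀ x, f x = 0 → x ≠ 0 → nsq x < r' ^ 2 →
      c * Real.exp (lgh g h x) * J2 f q s x ≤ a2 f g q s x := by
    intro x h1 h2 h3
    have h4 := hi x (norm_lt_of hr₄ (e q4 x h3)) h1 h2
    have h5 := hJ x h1 h2 h3
    rw [lgh_exp (hQ1.gh x h1 h2 h3)]
    refine le_trans ?_ h4
    have h6 := hQ1.gh x h1 h2 h3
    have h7 : c ≤ c₄ := min_le_right _ _
    gcongr
  have hone := fun x (h1 : f x = 0) (h2 : x ≠ 0) (h3 : nsq x < r' ^ 2) =>
    hE.one x h1 h2 (e (q1.trans (by linarith)) x h3)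
  -- `- log ‖x‖`
  have hlx : ∀ x, f x = 0 → x ≠ 0 → nsq x < r' ^ 2 → - Real.log ‖x‖ ≤ K₀ * (A - u x) := by
    intro x h1 h2 h3
    have hu1 := hup x h1 h2 (e q2 x h3)
    have hl1 := hlgh x (e q3 x h3) h1 h2
    have hone := hone x h1 h2 h3
    have a1 : (k : ℝ) * u x ≤ lgh g h x + k * C₂ := by
      have := mul_le_mul_of_nonneg_left hu1 hk0.le
      have e : (k : ℝ) * (1 / (k : ℝ) * lgh g h x + C₂) = lgh g h x + k * C₂ := by
        field_simp
      linarith
    have a2 : -(2 * Real.log ‖x‖) ≤ K + k * C₂ - k * u x := by linarith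
    have a3 : K ≤ |K| := le_abs_self K
    have a4 : (k : ℝ) * C₂ ≤ k * |C₂| := mul_le_mul_of_nonneg_left (le_abs_self _) hk0.le
    have a5 : -(A) ≤ |A| := neg_le_abs A
    have a7 : K + k * C₂ - k * u x ≤ K₀ * (A - u x) := by
      have b1 : K + k * C₂ - k * u x = K + k * C₂ - k * A + k * (A - u x) := by ring
      have b2 : K + k * C₂ - k * A ≤ |K| + k * |C₂| + k * |A| := by
        have := mul_le_mul_of_nonneg_left a5 hk0.le
        linarith
      have b3 : |K| + k * |C₂| + k * |A| ≤ (|K| + k * |C₂| + k * |A|) * (A - u x) :=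
        le_mul_of_one_le_right (by positivity) hone
      calc K + k * C₂ - k * u x ≤ (|K| + k * |C₂| + k * |A|) * (A - u x) + k * (A - u x) := by
            linarith
        _ = _ := by rw [hK₀]; ring
    have a8 : 0 ≤ K₀ * (A - u x) := mul_nonneg hK₀0 (by linarith)
    linarith
  have hlx0 : ∀ x : E3, x ≠ 0 → nsq x < r' ^ 2 → Real.log ‖x‖ ≤ 0 := by
    intro x h2 h3
    have h4 : ‖x‖ < 1 := norm_lt_of one_pos (e q5 x h3)
    exact Real.log_nonpos (norm_nonneg _) h4.le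
  have hLG : ∀ x, f x = 0 → x ≠ 0 → nsq x < r' ^ 2 → |lgh g h x| ≤ (|K| + K₀) * (A - u x) := by
    intro x h1 h2 h3
    have hu1 := hup x h1 h2 (e q2 x h3)
    have hl1 := hlgh x (e q3 x h3) h1 h2
    have hone := hone x h1 h2 h3
    have h4 := hlx0 x h2 h3
    have a3 : K ≤ |K| := le_abs_self K
    have b0 : |K| ≤ |K| * (A - u x) := le_mul_of_one_le_right (abs_nonneg _) hone
    have b1 : 0 ≤ K₀ * (A - u x) := mul_nonneg hK₀0 (by linarith)
    have b2 : 0 ≤ |K| * (A - u x) := mul_nonneg (abs_nonneg _) (by linarith)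
    rw [abs_le]
    constructor
    · have a1 : (k : ℝ) * u x ≤ lgh g h x + k * C₂ := by
        have := mul_le_mul_of_nonneg_left hu1 hk0.le
        have e : (k : ℝ) * (1 / (k : ℝ) * lgh g h x + C₂) = lgh g h x + k * C₂ := by
          field_simp
        linarith
      have a4 : (k : ℝ) * C₂ ≤ k * |C₂| := mul_le_mul_of_nonneg_left (le_abs_self _) hk0.le
      have a5 : -(k * A) ≤ k * |A| := by
        have := mul_le_mul_of_nonneg_left (neg_le_abs A) hk0.le
        linarith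
      have b3 : k * |C₂| + k * |A| ≤ (k * |C₂| + k * |A|) * (A - u x) :=
        le_mul_of_one_le_right (by positivity) hone
      have e : (|K| + K₀) * (A - u x) = |K| * (A - u x) + |K| * (A - u x) +
          ((k * |C₂| + k * |A|) * (A - u x) + k * (A - u x)) := by
        rw [hK₀]
        ring
      have e2 : (k : ℝ) * (A - u x) = k * A - k * u x := by ring
      linarith
    · have e : (|K| + K₀) * (A - u x) = |K| * (A - u x) + K₀ * (A - u x) := by ring
      linarith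
  have hBle : ∀ {a : ℝ}, a ≤ B → ∀ {y : ℝ}, 0 ≤ y → a * y ≤ B * y := fun ha _ hy =>
    mul_le_mul_of_nonneg_right ha hy
  refine ⟨r', k, g, h, L, q, s, c, B, hr'0, by linarith, ?_⟩
  exact
    { c_pos := hc0
      B_nn := hB0
      pr := hX
      qok := hQ1
      J_pos := hJ
      a_pos := fun x h1 h2 h3 => lt_of_lt_of_le (mul_pos (by positivity) (hJ x h1 h2 h3))
        (hi' x h1 h2 h3)
      i := hi'
      ii := hii
      a_ge := fun x h1 h2 h3 => by
        refine le_trans (le_of_eq ?_) ((mul_le_mul_of_nonneg_left (hii x h1 h2 h3)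
          (by positivity : 0 ≤ c * Real.exp (lgh g h x))).trans (hi' x h1 h2 h3))
        have e : (1 + 1 / (k : ℝ)) * lgh g h x = lgh g h x + lgh g h x / k := by ring
        rw [e, Real.exp_add]
        ring
      up := fun x h1 h2 h3 => by
        have h4 := hup x h1 h2 (e q2 x h3)
        have h5 : C₂ ≤ B := by
          have h6 := le_abs_self C₂
          have h7 : |C₂| ≤ B := by
            rw [hB]
            have : 0 ≤ |K| + K₀ + (|Real.log c₀| + N * K₀) := by positivity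
            linarith
          linarith
        have e : 1 / (k : ℝ) * lgh g h x = lgh g h x / k := by ring
        linarith
      lg_le := fun x h1 h2 h3 => (hLG x h1 h2 h3).trans (hBle (by
        rw [hB]
        have : 0 ≤ |C₂| + (|Real.log c₀| + N * K₀) := by positivity
        linarith) (by linarith [hone x h1 h2 h3]))
      ph_le := fun x h1 h2 h3 l => by
        have h4 := hQ3 x h1 h2 h3 l
        have h5 := hQ1.le x h1 h2 h3 l
        have hxn := norm_pos_iff.2 h2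
        have hone := hone x h1 h2 h3
        have h6 : Real.log c₀ + N * Real.log ‖x‖ ≤ phq q s l x := by
          have := Real.log_le_log (by positivity) h4
          rw [Real.log_mul hc₀.ne' (by positivity), Real.log_pow] at this
          exact this
        have h7 := hlx x h1 h2 h3
        rw [abs_of_nonpos (by linarith)]
        have a1 : -(Real.log c₀) ≤ |Real.log c₀| := neg_le_abs _
        have a2 : (N : ℝ) * (- Real.log ‖x‖) ≤ N * (K₀ * (A - u x)) :=
          mul_le_mul_of_nonneg_left h7 (Nat.cast_nonneg N)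
        have a3 : |Real.log c₀| ≤ |Real.log c₀| * (A - u x) :=
          le_mul_of_one_le_right (abs_nonneg _) hone
        have a4 : 0 ≤ (|C₂| + |K| + K₀) * (A - u x) := mul_nonneg (by positivity) (by linarith)
        calc - phq q s l x ≤ -(Real.log c₀) + N * (- Real.log ‖x‖) := by linarith
          _ ≤ |Real.log c₀| * (A - u x) + N * (K₀ * (A - u x)) := by linarith
          _ ≤ B * (A - u x) := by
            have e : B * (A - u x) = (|C₂| + |K| + K₀) * (A - u x) +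
                (|Real.log c₀| * (A - u x) + N * (K₀ * (A - u x))) := by
              rw [hB]
              ring
            rw [e]
            linarith
      lgh_bd := fun x h1 h2 h3 => by
        have hl1 := hlgh x (e q3 x h3) h1 h2
        have h4 := hlx0 x h2 h3
        have h5 : K ≤ B := by
          have h6 := le_abs_self K
          have h7 : |K| ≤ B := by
            rw [hB]
            have : 0 ≤ |C₂| + K₀ + (|Real.log c₀| + N * K₀) := by positivity
            linarith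
          linarith
        linarith }

/-- **the data of C-LOG on one level** -/
theorem data_of (cl : CLog_68.CLogStmt) {f : E3 → ℂ} {r A : ℝ} {u : E3 → ℝ} {ν : Measure E3}
    (hiso : Iso f) (hL : LvlOK f 0 r) (hK : KEon f 0 r u) (hν : IsNu f 0 r ν)
    (hm : 0 < mstar f) (hE : Esc f r u A) (hV : ∀ χ, Cut r χ → VOL ν u χ < ⊤) :
    ∃ (r' : ℝ) (k : ℕ) (g h : E3 → ℂ) (L : ℕ) (q : Fin L → E3 → ℂ) (s : Fin L → ℕ) (c B : ℝ),
      0 < r' ∧ r' < r ∧ Dta f r' A u k g h q s c B :=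
  data_of_xl (xl_of_clog cl) hiso hL hK hν hm hE hV

end

end Crest.Agent.R257.Trl_39
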