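import Crest.Agent.R257.VLb_218
import Crest.Agent.R257.MsJ5_617
import Crest.Agent.R257.Trl1_39

/-!
R257 / TrA_218 (helper218): assembly of `TrialStmt` (KUP_952), part 1.

* `trl_mk` : the structure `Trl` from the data of C-LOG (`Dta`, helper39), a metric `H` with the dual
  bound, and the function `φ` dominating the second fundamental form
-/

set_option autoImplicit false
set_option linter.unusedSectionVars false

open Topology Filter MeasureTheory Set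
open scoped ENNReal ContDiff Matrix ComplexOrder

noncomputable section

namespace Crest.Agent.R257.TrA_218

open Crest.Agent.R275.Geo
open Crest.Agent.R273
open Crest.Agent.R273.Defs_333 (lev)
open Crest.Agent.R273.YauDefs_635 (cH)
open Crest.Agent.R257.Defs_219 Crest.Agent.R257.KED_952 Crest.Agent.R257.KEG_952
open Crest.Agent.R257.KEU_952
open Crest.Agent.R257.V1Defs_822 (SmL LvlOK lgh)
open Crest.Agent.R257.V1Pe_822
open Crest.Agent.R257.PN_835 (nsq)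
open Crest.Agent.R257.Aff_835 (eta2a)
open Crest.Agent.R257.C2F2_625 (hV bb)
open Crest.Agent.R257.LossA_625 (Lv)
open Crest.Agent.R257.LossD_309 (HO dV)
open Crest.Agent.R257.KUP_952
open Crest.Agent.R257.CLogD_39
open Crest.Agent.R257.Trl_39 (Dta)
open Crest.Agent.R257.VL_218

variable {f : E3 → ℂ} {r A : ℝ} {u : E3 → ℝ} {ν : Measure E3} {k L : ℕ} {g h : E3 → ℂ}
  {q : Fin L → E3 → ℂ} {s : Fin L → ℕ} {c B : ℝ}

/-- the weights: the pair and the systems -/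
def wts (g h : E3 → ℂ) {L : ℕ} (q : Fin L → E3 → ℂ) (s : Fin L → ℕ) : Fin (L + 1) → E3 → ℝ :=
  Fin.cons (lgh g h) (phq q s)

theorem KK_wts (θ : Cn 2 → E3) (z : Cn 2) : KK (wts g h q s) θ z =
    ((Real.exp (-lgh g h (θ z)) : ℝ) : ℂ) • cH (fun y => Real.exp (lgh g h (θ y))) z +
    ∑ l, ((Real.exp (-phq q s l (θ z)) : ℝ) : ℂ) • cH (fun y => Real.exp (phq q s l (θ y))) z := by
  unfold KK wts
  rw [Fin.sum_univ_succ]
  simp only [Fin.cons_zero, Fin.cons_succ]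

theorem ne_of_pos {x : E3} (h0 : 0 < ‖g x‖ ^ 2 + ‖h x‖ ^ 2) : g x ≠ 0 ∨ h x ≠ 0 := by
  by_contra hcon
  push Not at hcon
  rw [hcon.1, hcon.2] at h0
  simp at h0

theorem wts_sm (hD : Dta f r A u k g h q s c B) (j : Fin (L + 1)) : SmL f 0 r (wts g h q s j) := by
  intro θ O hθ
  refine Fin.cases ?_ (fun l => ?_) j
  · intro z hz
    exact (V1W_822.lgh_at hθ hz (hD.qok.ang _ (hθ.lt z hz)) (hD.qok.anh _ (hθ.lt z hz))
      (ne_of_pos (hD.qok.gh _ (hθ.par.lvl z hz) (hθ.ne z hz) (hθ.lt z hz)))).1.contDiffWithinAt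
  · exact MsJ_617.phq_smL hD.qok l θ O hθ

theorem wts_psh (hD : Dta f r A u k g h q s c B) (j : Fin (L + 1)) (θ : Cn 2 → E3)
    (O : Set (Cn 2)) (hθ : PE f 0 r θ O) (z : Cn 2) (hz : z ∈ O) (v : Cn 2) :
    0 ≤ lev (fun z => wts g h q s j (θ z)) z v := by
  refine Fin.cases ?_ (fun l => ?_) j
  · exact (V1W_822.lgh_at hθ hz (hD.qok.ang _ (hθ.lt z hz)) (hD.qok.anh _ (hθ.lt z hz))
      (ne_of_pos (hD.qok.gh _ (hθ.par.lvl z hz) (hθ.ne z hz) (hθ.lt z hz)))).2.1 v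
  · exact MsJ_617.phq_psh hD.qok l θ O hθ z hz v

theorem wts_bd (hD : Dta f r A u k g h q s c B) (j : Fin (L + 1)) (x : E3) (h1 : f x = 0)
    (h2 : x ≠ 0) (h3 : nsq x < r ^ 2) : |wts g h q s j x| ≤ B * (A - u x) ^ 1 := by
  rw [pow_one]
  refine Fin.cases ?_ (fun l => ?_) j
  · exact hD.lg_le x h1 h2 h3
  · exact hD.ph_le x h1 h2 h3 l

/-- **the trial metric** from its pieces -/
theorem trl_mk (hf : LvlOK f 0 r) (hK : KEon f 0 r u) (hE : Esc f r u A) (hν : IsNu f 0 r ν)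
    (hvol : ∀ χ, Cut r χ → VOL ν u χ < ⊤) (hD : Dta f r A u k g h q s c B) {H : Form}
    (mt : Mt f r H)
    (dg : ∀ θ O, PE f 0 r θ O → ∀ z ∈ O, hV (H θ) (dV g θ) z = Real.exp (lgh g h (θ z)))
    (det : ∀ θ O, PE f 0 r θ O → ∀ z ∈ O,
      (H θ z).det.re * eta2a (n := 2) f θ z = Real.exp (-(lgh g h (θ z) / k)))
    {C : ℝ} (hC : 0 ≤ C)
    (dual : ∀ θ O, PE f 0 r θ O → ∀ z ∈ O, ((C : ℂ) •
      (((Real.exp (-lgh g h (θ z)) : ℝ) : ℂ) • cH (fun y => Real.exp (lgh g h (θ y))) z +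
      ∑ l, ((Real.exp (-phq q s l (θ z)) : ℝ) : ℂ) • cH (fun y => Real.exp (phq q s l (θ y))) z) -
        (H θ z)⁻¹).PosSemidef)
    {φ : E3 → ℝ} (φ_sm : SmL f 0 r φ)
    (φ_psh : ∀ θ O, PE f 0 r θ O → ∀ z ∈ O, ∀ v, 0 ≤ lev (fun y => φ (θ y)) z v)
    (φ_int : ∀ χ, Cut r χ → Integrable (fun x => χ x * mxd f u φ x) ν) {B' : ℝ}
    (hbb : ∀ θ O, PE f 0 r θ O → ∀ z ∈ O,
      ((B' : ℂ) • cH (fun y => φ (θ y)) z - bb (H θ) (dV g θ) z).PosSemidef) :
    ∃ V, Trl f r A u ν k g h B' H φ V := by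
  obtain ⟨V, h1, h2, h3, h4⟩ := vpart hf hK hE hν hvol (φ := wts g h q s) (wts_sm hD)
    (wts_psh hD) hD.B_nn (N := 1) (wts_bd hD) (H := H) (ψ := fun x => lgh g h x / k) (C₁ := B) hC
    mt.pos det hD.up (fun θ O hP z hz => by
      rw [KK_wts]
      exact dual θ O hP z hz)
  exact ⟨V,
    { pr := hD.pr
      g_an := hD.qok.ang
      h_an := hD.qok.anh
      nz := fun x hx => ne_of_pos (hD.qok.gh x hx.1 hx.2.1 hx.2.2)
      mt := mt
      dg := dg
      det := det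
      φ_sm := φ_sm
      φ_psh := φ_psh
      φ_int := φ_int
      bb := hbb
      V_nn := h1
      V_me := h2
      cpr := h3
      V_int := h4 }⟩

end Crest.Agent.R257.TrA_218
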