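import Crest.Agent.R273.Piola_5
import Crest.Agent.R273.HessB_333

/-!
# Row 257, leaf (TR) of MASS-DEG (helper578), part A

`G : ℂⁿ → ℂⁿ` holomorphic near `closure Ω` (compact), `G (∂Ω) ∩ D = ∅`, `r` holomorphic near
`closure Ω`.  The distribution `ψ ↦ ∫_Ω ψ(G x) r(x) |J(x)|² dx` on `D` is killed by `∂̄`
(Piola identity + integration by parts).
-/

set_option autoImplicit false
set_option linter.unusedSectionVars false

open Set Filter Topology Complex MeasureTheory
open scoped ContDiff Matrix ComplexConjugate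

noncomputable section

namespace Crest.Agent.R257.Tr_578

open Crest.Agent.R275.Geo Crest.Agent.R275.EDR890 Crest.Agent.R273.HessB_333
open Crest.Agent.R273.Piola_5

variable {n : ℕ}

/-- Jacobian matrix: `jm G x a b = ∂_a G_b` -/
def jm (G : Cn n → Cn n) (x : Cn n) : Matrix (Fin n) (Fin n) ℂ :=
  Matrix.of fun a b => (fderiv ℂ G x (EuclideanSpace.single a 1)) b

theorem jm_apply (G : Cn n → Cn n) (x : Cn n) (a b : Fin n) :
    jm G x a b = (fderiv ℂ G x (EuclideanSpace.single a 1)) b := rfl

/-- the determinant of the Jacobian matrix -/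
theorem det_jm (G : Cn n → Cn n) (x : Cn n) : (jm G x).det = (fderiv ℂ G x).det := by
  have h1 : LinearMap.toMatrix (EuclideanSpace.basisFun (Fin n) ℂ).toBasis
      (EuclideanSpace.basisFun (Fin n) ℂ).toBasis (fderiv ℂ G x : Cn n →ₗ[ℂ] Cn n) = (jm G x)ᵀ := by
    ext a b
    rw [LinearMap.toMatrix_apply, Matrix.transpose_apply, jm_apply]
    simp
  rw [← Matrix.det_transpose, ← h1, LinearMap.det_toMatrix]

/-- the standing data -/
structure Dat (Ω U D : Set (Cn n)) (G : Cn n → Cn n) (r : Cn n → ℂ) : Prop where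
  hΩ : IsOpen Ω
  hc : IsCompact (closure Ω)
  hU : IsOpen U
  hΩU : closure Ω ⊆ U
  hD : IsOpen D
  hG : DifferentiableOn ℂ G U
  hb : ∀ x ∈ frontier Ω, G x ∉ D
  hr : DifferentiableOn ℂ r U

theorem contDiffAt_of_hol {W : Type*} [NormedAddCommGroup W] [NormedSpace ℂ W] [CompleteSpace W]
    {U : Set (Cn n)} (hU : IsOpen U) {f : Cn n → W} (hf : DifferentiableOn ℂ f U) {x : Cn n}
    (hx : x ∈ U) : ContDiffAt ℂ ∞ f x :=
  ((Crest.Agent.R266.SCV.contDiffOn_omega_of_differentiableOn hU hf).of_le le_top).contDiffAt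
    (hU.mem_nhds hx)

theorem hol_jm {U : Set (Cn n)} (hU : IsOpen U) {G : Cn n → Cn n} (hG : DifferentiableOn ℂ G U)
    (a b : Fin n) : DifferentiableOn ℂ (fun x => jm G x a b) U := by
  intro x hx
  have h1 : ContDiffAt ℂ ∞ (fderiv ℂ G) x :=
    (contDiffAt_of_hol hU hG hx).fderiv_right (by simp)
  have h2 : DifferentiableAt ℂ (fderiv ℂ G) x := h1.differentiableAt (by simp)
  have h3 : DifferentiableAt ℂ (fun x => fderiv ℂ G x (EuclideanSpace.single a 1)) x :=
    h2.clm_apply (differentiableAt_const _)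
  exact ((EuclideanSpace.proj b : Cn n →L[ℂ] ℂ).differentiableAt.comp x h3).differentiableWithinAt

theorem hol_det {U : Set (Cn n)} {m : Cn n → Matrix (Fin n) (Fin n) ℂ}
    (hm : ∀ i j, DifferentiableOn ℂ (fun x => m x i j) U) :
    DifferentiableOn ℂ (fun x => (m x).det) U := by
  have h1 : (fun x => (m x).det) = fun x =>
      ∑ σ : Equiv.Perm (Fin n), ((Equiv.Perm.sign σ : ℤ) : ℂ) * ∏ i, m x (σ i) i := by
    funext y; rw [Matrix.det_apply']
  rw [h1]
  refine DifferentiableOn.fun_sum fun σ _ => ?_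
  refine DifferentiableOn.mul (differentiableOn_const _) ?_
  intro x hx
  have h2 : ∀ i ∈ (Finset.univ : Finset (Fin n)), HasFDerivWithinAt
      (fun x => m x (σ i) i) (fderivWithin ℂ (fun x => m x (σ i) i) U x) U x := fun i _ =>
    (hm (σ i) i x hx).hasFDerivWithinAt
  exact (HasFDerivWithinAt.finsetProd h2).differentiableWithinAt

theorem hol_adj {U : Set (Cn n)} {m : Cn n → Matrix (Fin n) (Fin n) ℂ}
    (hm : ∀ i j, DifferentiableOn ℂ (fun x => m x i j) U) (k a : Fin n) :
    DifferentiableOn ℂ (fun x => (m x).adjugate k a) U := by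
  have e1 : (fun x => (m x).adjugate k a) =
      fun x => ((m x).updateRow a (Pi.single k 1)).det := by
    funext w
    rw [Matrix.adjugate_apply]
  rw [e1]
  refine hol_det fun i j => ?_
  by_cases hi : i = a
  · subst hi
    simp only [Matrix.updateRow_self]
    exact differentiableOn_const _
  · simp only [Matrix.updateRow_ne hi]
    exact hm i j

/-- symmetry of second derivatives, in the shape needed by `piola` -/
theorem jm_symm {U : Set (Cn n)} (hU : IsOpen U) {G : Cn n → Cn n} (hG : DifferentiableOn ℂ G U)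
    {x : Cn n} (hx : x ∈ U) (a b c : Fin n) :
    wd (false, c) (fun w => jm G w a b) x = wd (false, a) (fun w => jm G w c b) x := by
  have hGb : DifferentiableOn ℂ (fun w => G w b) U := fun y hy =>
    ((EuclideanSpace.proj b : Cn n →L[ℂ] ℂ).differentiableAt.comp y
      ((hG y hy).differentiableAt (hU.mem_nhds hy))).differentiableWithinAt
  have h1 : ∀ a, (fun w => jm G w a b) =ᶠ[𝓝 x] wd (false, a) (fun w => G w b) := by
    intro a
    filter_upwards [hU.mem_nhds hx] with w hw
    have hGw : DifferentiableAt ℂ G w := (hG w hw).differentiableAt (hU.mem_nhds hw)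
    rw [wd_hol' ((hGb w hw).differentiableAt (hU.mem_nhds hw)), jm_apply]
    have h2 : HasFDerivAt (fun w => G w b)
        ((EuclideanSpace.proj b : Cn n →L[ℂ] ℂ).comp (fderiv ℂ G w)) w :=
      (EuclideanSpace.proj b : Cn n →L[ℂ] ℂ).hasFDerivAt.comp w hGw.hasFDerivAt
    rw [h2.fderiv]
    rfl
  rw [wd_congr (h1 a), wd_congr (h1 c)]
  refine wd_comm ?_ _ _
  exact ((contDiffAt_of_hol hU hGb hx).restrict_scalars ℝ)

theorem wd_conj_hol {f : Cn n → ℂ} {z : Cn n} (hf : DifferentiableAt ℂ f z) (c : Fin n) :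
    wd (true, c) (fun w => conj (f w)) z = conj (wd (false, c) f z) := by
  have h1 : HasFDerivAt f ((fderiv ℂ f z).restrictScalars ℝ) z :=
    hf.hasFDerivAt.restrictScalars ℝ
  have h2 : HasFDerivAt (fun w => conj (f w))
      ((conjCLE : ℂ →L[ℝ] ℂ).comp ((fderiv ℂ f z).restrictScalars ℝ)) z :=
    (conjCLE : ℂ →L[ℝ] ℂ).hasFDerivAt.comp z h1
  have hI : (EuclideanSpace.single c I : Cn n) = I • EuclideanSpace.single c (1 : ℂ) := by
    ext d
    simp [PiLp.single_apply]
  rw [wd_hol' hf, wd, h2.fderiv]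
  simp only [wdL, ContinuousLinearMap.comp_apply, ContinuousLinearMap.coe_restrictScalars', hI,
    map_smul, smul_eq_mul]
  simp only [ContinuousLinearEquiv.coe_coe, conjCLE_apply, map_mul, conj_I, cI_true]
  linear_combination (-(1 / 2 : ℂ) * conj (fderiv ℂ f z (EuclideanSpace.single c 1))) * I_mul_I

/-- integral of a Wirtinger derivative -/
theorem integral_wd_eq_zero {X : Cn n → ℂ} (hX : ContDiff ℝ 1 X) (hs : HasCompactSupport X)
    (s : WI n) : ∫ z, wd s X z = 0 := by
  have hd : Differentiable ℝ X := hX.differentiable (by simp)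
  have hcf : Continuous (fderiv ℝ X) := hX.continuous_fderiv (by simp)
  have hsf : HasCompactSupport (fderiv ℝ X) := hs.fderiv ℝ
  have h1 : ∀ v : Cn n, Integrable fun z => fderiv ℝ X z v := fun v =>
    (hcf.clm_apply continuous_const).integrable_of_hasCompactSupport
      (hsf.comp_left (g := fun L : Cn n →L[ℝ] ℂ => L v) (by simp))
  have h2 : ∀ v : Cn n, ∫ z, fderiv ℝ X z v = 0 := by
    intro v
    have h3 := integral_bilinear_hasLineDerivAt_right_eq_neg_left_of_integrable
      (μ := (volume : Measure (Cn n))) (f := fun _ => (1 : ℝ)) (f' := fun _ => (0 : ℝ)) (g := X)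
      (g' := fun z => fderiv ℝ X z v) (v := v) (B := ContinuousLinearMap.lsmul ℝ ℝ)
      (by simp) (by simpa using h1 v)
      (by simpa using hX.continuous.integrable_of_hasCompactSupport hs)
      (fun x _ => by
        have := (hasFDerivAt_const (𝕜 := ℝ) (1 : ℝ) x).hasLineDerivAt v
        simpa using this)
      (fun x _ => (hd x).hasFDerivAt.hasLineDerivAt v)
    simpa using h3
  have h3 : ∀ z, wd s X z = (1 / 2 : ℂ) * (fderiv ℝ X z (EuclideanSpace.single s.2 1) +
      cI s.1 * fderiv ℝ X z (EuclideanSpace.single s.2 I)) := fun z => rfl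
  simp_rw [h3]
  rw [integral_const_mul, integral_add (h1 _) ((h1 _).const_mul _), integral_const_mul, h2, h2]
  simp

/-- the holomorphic factor of the density -/
def wt (G : Cn n → Cn n) (r : Cn n → ℂ) (x : Cn n) : ℂ :=
  r x * ((jm G x).det * conj (jm G x).det)

/-- the vector field -/
def PX (G : Cn n → Cn n) (r ψ : Cn n → ℂ) (k a : Fin n) (x : Cn n) : ℂ :=
  ψ (G x) * ((r x * (jm G x).det) * conj ((jm G x).adjugate k a))

section T
variable {Ω U D : Set (Cn n)} {G : Cn n → Cn n} {r : Cn n → ℂ}

theorem Dat.holJ (h : Dat Ω U D G r) : DifferentiableOn ℂ (fun x => (jm G x).det) U :=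
  hol_det fun i j => hol_jm h.hU h.hG i j

theorem Dat.holadj (h : Dat Ω U D G r) (k a : Fin n) :
    DifferentiableOn ℂ (fun x => (jm G x).adjugate k a) U :=
  hol_adj (fun i j => hol_jm h.hU h.hG i j) k a

theorem Dat.sm (h : Dat Ω U D G r) {W : Type*} [NormedAddCommGroup W] [NormedSpace ℂ W]
    [CompleteSpace W] {f : Cn n → W} (hf : DifferentiableOn ℂ f U) {x : Cn n} (hx : x ∈ U) :
    ContDiffAt ℝ ∞ f x := (contDiffAt_of_hol h.hU hf hx).restrict_scalars ℝ

theorem Dat.smPX (h : Dat Ω U D G r) {ψ : Cn n → ℂ} (hψ : ContDiff ℝ 1 ψ) (k a : Fin n)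
    {x : Cn n} (hx : x ∈ U) : ContDiffAt ℝ 1 (PX G r ψ k a) x := by
  have h1 : ContDiffAt ℝ 1 (fun x => ψ (G x)) x :=
    hψ.contDiffAt.comp x ((h.sm h.hG hx).of_le (by exact_mod_cast le_top))
  have h2 : ContDiffAt ℝ 1 r x := (h.sm h.hr hx).of_le (by exact_mod_cast le_top)
  have h3 : ContDiffAt ℝ 1 (fun x => (jm G x).det) x :=
    (h.sm h.holJ hx).of_le (by exact_mod_cast le_top)
  have h4 : ContDiffAt ℝ 1 (fun x => conj ((jm G x).adjugate k a)) x :=
    (conjCLE : ℂ →L[ℝ] ℂ).contDiff.contDiffAt.comp x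
      ((h.sm (h.holadj k a) hx).of_le (by exact_mod_cast le_top))
  exact h1.mul ((h2.mul h3).mul h4)

/-- near a point outside `Ω` the function `1_Ω · ψ ∘ G` vanishes -/
theorem Dat.off (h : Dat Ω U D G r) {ψ : Cn n → ℂ} (hsD : tsupport ψ ⊆ D)
    {x : Cn n} (hx : x ∉ Ω) : ∀ᶠ y in 𝓝 x, y ∈ Ω → ψ (G y) = 0 := by
  by_cases hxc : x ∈ closure Ω
  · have hf : x ∈ frontier Ω := ⟨hxc, by rwa [h.hΩ.interior_eq]⟩
    have h1 : G x ∉ tsupport ψ := fun h2 => h.hb x hf (hsD h2)
    have hcont : ContinuousAt G x :=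
      ((h.hG x (h.hΩU hxc)).differentiableAt (h.hU.mem_nhds (h.hΩU hxc))).continuousAt
    filter_upwards [hcont ((isClosed_tsupport ψ).isOpen_compl.mem_nhds h1)] with y hy _
    exact image_eq_zero_of_notMem_tsupport hy
  · filter_upwards [isClosed_closure.isOpen_compl.mem_nhds hxc] with y hy hy'
    exact absurd (subset_closure hy') hy

/-- **`∂̄` of the push-forward vanishes** -/
theorem Dat.T_dbar (h : Dat Ω U D G r) {ψ : Cn n → ℂ} (hψ : ContDiff ℝ 1 ψ)
    (hsD : tsupport ψ ⊆ D) (k : Fin n) :
    ∫ x in Ω, wd (true, k) ψ (G x) * wt G r x = 0 := by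
  classical
  set X : Fin n → Cn n → ℂ := fun a => Ω.indicator (PX G r ψ k a) with hX
  have hin : ∀ a, ∀ x ∈ Ω, X a =ᶠ[𝓝 x] PX G r ψ k a := by
    intro a x hx
    filter_upwards [h.hΩ.mem_nhds hx] with y hy
    exact Set.indicator_of_mem hy _
  have hout : ∀ a, ∀ x ∉ Ω, X a =ᶠ[𝓝 x] fun _ => 0 := by
    intro a x hx
    filter_upwards [h.off hsD hx] with y hy
    by_cases hyΩ : y ∈ Ω
    · simp only [hX, Set.indicator_of_mem hyΩ, PX, hy hyΩ, zero_mul]
    · simp only [hX, Set.indicator_of_notMem hyΩ]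
  have hsm : ∀ a, ContDiff ℝ 1 (X a) := by
    intro a
    rw [contDiff_iff_contDiffAt]
    intro x
    by_cases hx : x ∈ Ω
    · exact (h.smPX hψ k a (h.hΩU (subset_closure hx))).congr_of_eventuallyEq (hin a x hx)
    · exact contDiffAt_const.congr_of_eventuallyEq (hout a x hx)
  have hcs : ∀ a, HasCompactSupport (X a) := by
    intro a
    refine HasCompactSupport.intro h.hc fun x hx => ?_
    exact Set.indicator_of_notMem (fun h' => hx (subset_closure h')) _
  have hsum : ∀ x, ∑ a, wd (true, a) (X a) x =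
      Ω.indicator (fun x => wd (true, k) ψ (G x) * wt G r x) x := by
    intro x
    by_cases hx : x ∈ Ω
    · rw [Set.indicator_of_mem hx]
      have hxU : x ∈ U := h.hΩU (subset_closure hx)
      have hGx : DifferentiableAt ℂ G x := (h.hG x hxU).differentiableAt (h.hU.mem_nhds hxU)
      have hrx : DifferentiableAt ℂ r x := (h.hr x hxU).differentiableAt (h.hU.mem_nhds hxU)
      have hJx : DifferentiableAt ℂ (fun x => (jm G x).det) x :=
        (h.holJ x hxU).differentiableAt (h.hU.mem_nhds hxU)
      have hAx : ∀ a, DifferentiableAt ℂ (fun x => (jm G x).adjugate k a) x := fun a =>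
        (h.holadj k a x hxU).differentiableAt (h.hU.mem_nhds hxU)
      have hψx : DifferentiableAt ℝ ψ (G x) := hψ.differentiable (by simp) _
      have e1 : ∀ a, wd (true, a) (X a) x =
          (∑ b, conj (jm G x a b) * wd (true, b) ψ (G x)) *
            ((r x * (jm G x).det) * conj ((jm G x).adjugate k a)) +
          ψ (G x) * ((r x * (jm G x).det) *
            conj (wd (false, a) (fun x => (jm G x).adjugate k a) x)) := by
        intro a
        rw [wd_congr (hin a x hx)]
        have d1 : DifferentiableAt ℝ (fun x => ψ (G x)) x :=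
          hψx.comp x (hGx.restrictScalars ℝ)
        have d2 : DifferentiableAt ℂ (fun x => r x * (jm G x).det) x := hrx.mul hJx
        have d3 : DifferentiableAt ℝ (fun x => conj ((jm G x).adjugate k a)) x :=
          (conjCLE : ℂ →L[ℝ] ℂ).differentiableAt.comp x ((hAx a).restrictScalars ℝ)
        have d4 : DifferentiableAt ℝ
            (fun x => r x * (jm G x).det * conj ((jm G x).adjugate k a)) x :=
          (d2.restrictScalars ℝ).mul d3
        have e5 : PX G r ψ k a = fun x => ψ (G x) *
            ((r x * (jm G x).det) * conj ((jm G x).adjugate k a)) := rfl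
        rw [e5, wd_mul d1 d4, wd_mul (d2.restrictScalars ℝ) d3,
          wd_hol d2, wd_conj_hol (hAx a), wd_comp hψx hGx]
        simp only [cj_true, smul_eq_mul, zero_mul, zero_add]
        rfl
      simp_rw [e1]
      rw [Finset.sum_add_distrib]
      have e2 : ∑ a, ψ (G x) * ((r x * (jm G x).det) *
          conj (wd (false, a) (fun x => (jm G x).adjugate k a) x)) = 0 := by
        simp_rw [← Finset.mul_sum, ← map_sum]
        rw [piola (m := jm G) (fun i j => ((hol_jm h.hU h.hG i j x hxU).differentiableAt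
            (h.hU.mem_nhds hxU)).restrictScalars ℝ)
          (fun a b c => jm_symm h.hU h.hG hxU a b c) k]
        simp
      rw [e2, add_zero]
      have e3 : ∀ b, ∑ a, conj ((jm G x).adjugate k a) * conj (jm G x a b) =
          if k = b then conj (jm G x).det else 0 := by
        intro b
        simp_rw [← map_mul, ← map_sum]
        have := congrFun (congrFun (Matrix.adjugate_mul (jm G x)) k) b
        rw [Matrix.mul_apply] at this
        rw [this, Matrix.smul_apply, Matrix.one_apply]
        split_ifs <;> simp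
      simp_rw [Finset.sum_mul]
      rw [Finset.sum_comm]
      have e4 : ∀ b, ∑ a, conj (jm G x a b) * wd (true, b) ψ (G x) *
            ((r x * (jm G x).det) * conj ((jm G x).adjugate k a)) =
          wd (true, b) ψ (G x) * (r x * (jm G x).det) *
            (if k = b then conj (jm G x).det else 0) := by
        intro b
        rw [← e3 b, Finset.mul_sum]
        refine Finset.sum_congr rfl fun a _ => ?_
        ring
      simp_rw [e4]
      simp only [mul_ite, mul_zero, Finset.sum_ite_eq, Finset.mem_univ, if_true, wt]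
      ring
    · rw [Set.indicator_of_notMem hx]
      refine Finset.sum_eq_zero fun a _ => ?_
      rw [wd_congr (hout a x hx), wd_const]
  rw [← integral_indicator h.hΩ.measurableSet]
  simp_rw [← hsum]
  have hint : ∀ a, Integrable (fun x => wd (true, a) (X a) x) := by
    intro a
    have hcf : Continuous (fderiv ℝ (X a)) := (hsm a).continuous_fderiv (by simp)
    have hsf : HasCompactSupport (fderiv ℝ (X a)) := (hcs a).fderiv ℝ
    exact ((wdLc (true, a)).continuous.comp hcf).integrable_of_hasCompactSupport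
      (hsf.comp_left (map_zero _))
  rw [integral_finsetSum _ fun a _ => hint a]
  exact Finset.sum_eq_zero fun a _ => integral_wd_eq_zero (hsm a) (hcs a) _

end T

end Crest.Agent.R257.Tr_578
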