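import Crest.Agent.R257.TrA_218
import Crest.Agent.R257.OutD_309

/-!
R257 / TrB_218 (helper218): assembly of `TrialStmt` (KUP_952), part 2.

* `cH_sqs`  : `∂∂̄ ∑ |q_m|² = ∑ ∂q_m ∂q_mᴴ`
* `dual_of` : the dual bound of the trial metric in the form consumed by `trl_mk`
-/

set_option autoImplicit false
set_option linter.unusedSectionVars false

open Topology Filter MeasureTheory Set
open scoped ENNReal ContDiff Matrix ComplexOrder

noncomputable section

namespace Crest.Agent.R257.TrA_218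

open Crest.Agent.R275.Geo
open Crest.Agent.R273
open Crest.Agent.R273.Defs_333 (lev)
open Crest.Agent.R273.YauDefs_635 (cH)
open Crest.Agent.R257.Defs_219 Crest.Agent.R257.KED_952 Crest.Agent.R257.KEG_952
open Crest.Agent.R257.KEU_952
open Crest.Agent.R257.V1Defs_822 (SmL LvlOK lgh)
open Crest.Agent.R257.V1Pe_822
open Crest.Agent.R257.PN_835 (nsq)
open Crest.Agent.R257.Aff_835 (eta2a)
open Crest.Agent.R257.LossD_309 (HO dV)
open Crest.Agent.R257.KUP_952
open Crest.Agent.R257.CLogD_39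
open Crest.Agent.R257.Trl_39 (Dta)
open Crest.Agent.R257.VL_218

variable {f : E3 → ℂ} {r A : ℝ} {u : E3 → ℝ} {ν : Measure E3} {k L : ℕ} {g h : E3 → ℂ}
  {q : Fin L → E3 → ℂ} {s : Fin L → ℕ} {c B : ℝ}

/-- `v vᴴ` -/
def rk (v : Fin 2 → ℂ) : M2 := Matrix.vecMulVec v (star v)

theorem rk_psd (v : Fin 2 → ℂ) : (rk v).PosSemidef := Matrix.posSemidef_vecMulVec_self_star v

/-- `∂∂̄ ∑ |q_m|²` -/
theorem cH_sqs {n : ℕ} {F : Fin n → E3 → ℂ} (hF : ∀ m, ∀ x, nsq x < r ^ 2 → AnalyticAt ℂ (F m) x)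
    {θ : Cn 2 → E3} {O : Set (Cn 2)} (hP : PE f 0 r θ O) {z : Cn 2} (hz : z ∈ O) :
    cH (fun y => ∑ m, ‖F m (θ y)‖ ^ 2) z = ∑ m, rk (dV (F m) θ z) := by
  have hd : ∀ m, DifferentiableOn ℂ (fun y => F m (θ y)) O := fun m w hw => by
    have h1 : DifferentiableAt ℂ θ w := hP.par.hol.differentiableAt (hP.par.isOpen.mem_nhds hw)
    exact (((hF m _ (hP.lt w hw)).differentiableAt).comp w h1).differentiableWithinAt
  have han : ∀ m, AnalyticAt ℂ (fun y => F m (θ y)) z := fun m =>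
    Crest.Agent.R266.SCV.analyticOnNhd_of_differentiableOn hP.par.isOpen (hd m) z hz
  have hsm : ContDiffAt ℝ ∞ (fun y => ∑ m, ‖F m (θ y)‖ ^ 2) z :=
    Levi_145.c2_sumSq (F := fun m y => F m (θ y)) han ∞
  rw [YauMax_635.cH_eq_hess hsm]
  ext a b
  have h2 := FS_333.hess_sq (F := fun y m => F m (θ y)) hP.par.isOpen hd hz a b
  rw [Matrix.sum_apply]
  exact h2

theorem cH_exp_lgh (hD : Dta f r A u k g h q s c B) {θ : Cn 2 → E3} {O : Set (Cn 2)}
    (hP : PE f 0 r θ O) {z : Cn 2} (hz : z ∈ O) :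
    cH (fun y => Real.exp (lgh g h (θ y))) z = rk (dV g θ z) + rk (dV h θ z) := by
  have e1 : (fun y => Real.exp (lgh g h (θ y))) =ᶠ[𝓝 z]
      fun y => ∑ m, ‖(![g, h] : Fin 2 → E3 → ℂ) m (θ y)‖ ^ 2 := by
    filter_upwards [hP.par.isOpen.mem_nhds hz] with y hy
    rw [Trl_39.lgh_exp (hD.qok.gh _ (hP.par.lvl y hy) (hP.ne y hy) (hP.lt y hy)), Fin.sum_univ_two]
    rfl
  rw [KEl_835.cH_congr e1, cH_sqs (F := ![g, h]) (fun m x hx => by
    fin_cases m
    · exact hD.qok.ang x hx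
    · exact hD.qok.anh x hx) hP hz, Fin.sum_univ_two]
  rfl

theorem cH_exp_phq (hD : Dta f r A u k g h q s c B) {θ : Cn 2 → E3} {O : Set (Cn 2)}
    (hP : PE f 0 r θ O) {z : Cn 2} (hz : z ∈ O) (l : Fin L) :
    (cH (fun y => Real.exp (phq q s l (θ y))) z - rk (dV (q l) θ z)).PosSemidef := by
  have e1 : (fun y => Real.exp (phq q s l (θ y))) =ᶠ[𝓝 z]
      fun y => ∑ m, ‖(if s m = s l then q m else fun _ => 0) (θ y)‖ ^ 2 := by
    filter_upwards [hP.par.isOpen.mem_nhds hz] with y hy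
    have h1 := hD.qok.pos _ (hP.par.lvl y hy) (hP.ne y hy) (hP.lt y hy) l
    unfold phq
    rw [Real.exp_log h1]
    unfold sqq fib
    rw [Finset.sum_filter]
    refine Finset.sum_congr rfl fun m _ => ?_
    split_ifs <;> simp
  have e2 := cH_sqs (f := f) (F := fun m => if s m = s l then q m else fun _ => 0)
    (fun m x hx => by
      by_cases hm : s m = s l
      · simp only [hm, if_true]
        exact hD.qok.anq m x hx
      · simp only [hm, if_false]
        exact analyticAt_const) hP hz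
  rw [KEl_835.cH_congr e1, e2, ← Finset.add_sum_erase Finset.univ _ (Finset.mem_univ l)]
  simp only [if_true, add_sub_cancel_left]
  exact Matrix.posSemidef_sum _ fun m _ => rk_psd _

/-- **the dual bound** in the form consumed by `trl_mk` -/
theorem dual_of (hD : Dta f r A u k g h q s c B) {θ : Cn 2 → E3} {O : Set (Cn 2)}
    (hP : PE f 0 r θ O) {z : Cn 2} (hz : z ∈ O) {X : M2}
    (hX : (((Real.exp (-lgh g h (θ z)) : ℝ) : ℂ) • rk (dV g θ z) +
      ((Real.exp ((1 + 1 / k) * lgh g h (θ z)) / a2 f g q s (θ z) : ℝ) : ℂ) •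
        ∑ l, ((Real.exp (-phq q s l (θ z)) : ℝ) : ℂ) • rk (dV (q l) θ z) - X).PosSemidef) :
    (((max 1 (c ^ 2)⁻¹ : ℝ) : ℂ) •
      (((Real.exp (-lgh g h (θ z)) : ℝ) : ℂ) • cH (fun y => Real.exp (lgh g h (θ y))) z +
      ∑ l, ((Real.exp (-phq q s l (θ z)) : ℝ) : ℂ) • cH (fun y => Real.exp (phq q s l (θ y))) z) -
        X).PosSemidef := by
  set C : ℝ := max 1 (c ^ 2)⁻¹ with hC
  have hC1 : 1 ≤ C := le_max_left _ _
  have hC0 : 0 ≤ C := zero_le_one.trans hC1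
  set E : ℝ := Real.exp ((1 + 1 / k) * lgh g h (θ z)) / a2 f g q s (θ z) with hE
  have hap := hD.a_pos _ (hP.par.lvl z hz) (hP.ne z hz) (hP.lt z hz)
  have hE0 : 0 ≤ E := by positivity
  have hEC : E ≤ C := by
    refine le_trans ?_ (le_max_right _ _)
    have h1 := hD.a_ge _ (hP.par.lvl z hz) (hP.ne z hz) (hP.lt z hz)
    have hc2 : 0 < c ^ 2 := pow_pos hD.c_pos 2
    rw [hE, div_le_iff₀ hap, ← div_eq_inv_mul, le_div_iff₀ hc2]
    linarith
  -- the two differences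
  set S₁ : M2 := ((Real.exp (-lgh g h (θ z)) : ℝ) : ℂ) • cH (fun y => Real.exp (lgh g h (θ y))) z
    with hS₁
  set S₂ : M2 := ∑ l, ((Real.exp (-phq q s l (θ z)) : ℝ) : ℂ) •
    cH (fun y => Real.exp (phq q s l (θ y))) z with hS₂
  set R₁ : M2 := ((Real.exp (-lgh g h (θ z)) : ℝ) : ℂ) • rk (dV g θ z) with hR₁
  set R₂ : M2 := ∑ l, ((Real.exp (-phq q s l (θ z)) : ℝ) : ℂ) • rk (dV (q l) θ z) with hR₂
  have d1 : (S₁ - R₁).PosSemidef := by
    have e : S₁ - R₁ = ((Real.exp (-lgh g h (θ z)) : ℝ) : ℂ) • rk (dV h θ z) := by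
      rw [hS₁, hR₁, cH_exp_lgh hD hP hz, smul_add, add_sub_cancel_left]
    rw [e]
    exact smul_psd (rk_psd _) (Real.exp_pos _).le
  have d2 : (S₂ - R₂).PosSemidef := by
    have e : S₂ - R₂ = ∑ l, ((Real.exp (-phq q s l (θ z)) : ℝ) : ℂ) •
        (cH (fun y => Real.exp (phq q s l (θ y))) z - rk (dV (q l) θ z)) := by
      rw [hS₂, hR₂, ← Finset.sum_sub_distrib]
      refine Finset.sum_congr rfl fun l _ => ?_
      rw [smul_sub]
    rw [e]
    exact Matrix.posSemidef_sum _ fun l _ =>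
      smul_psd (cH_exp_phq hD hP hz l) (Real.exp_pos _).le
  have p1 : R₁.PosSemidef := smul_psd (rk_psd _) (Real.exp_pos _).le
  have p2 : R₂.PosSemidef := Matrix.posSemidef_sum _ fun l _ =>
    smul_psd (rk_psd _) (Real.exp_pos _).le
  have h3 := (((smul_psd d1 hC0).add (smul_psd d2 hC0)).add
    ((smul_psd p1 (sub_nonneg.2 hC1)).add (smul_psd p2 (sub_nonneg.2 hEC)))).add hX
  have e : (C : ℂ) • (S₁ - R₁) + (C : ℂ) • (S₂ - R₂) +
      (((C - 1 : ℝ) : ℂ) • R₁ + ((C - E : ℝ) : ℂ) • R₂) + (R₁ + (E : ℂ) • R₂ - X) =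
      (C : ℂ) • (S₁ + S₂) - X := by
    push_cast
    simp only [smul_sub, smul_add, sub_smul, one_smul]
    abel
  rwa [e] at h3

end Crest.Agent.R257.TrA_218
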