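import Crest.Agent.R257.TrA_578
import Crest.Agent.R275.GeoHol_912

/-!
# Row 257, leaf (TR)/(DEG-CONST) (helper578), part B: the mollified push-forward

`K c q y = q^n ρ(q |c-y|²)/c₀`, `hh c q = ∫_Ω K c q (G x) r |J|²`; `hh` is holomorphic in `c` and
does not depend on `q` as long as the support of `K c q` lies in `D`.
-/

set_option autoImplicit false
set_option linter.unusedSectionVars false

open Set Filter Topology Complex MeasureTheory
open scoped ContDiff Matrix ComplexConjugate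

noncomputable section

namespace Crest.Agent.R257.Tr_578

open Crest.Agent.R275.Geo Crest.Agent.R275.EDR890 Crest.Agent.R273.HessB_333
open Crest.Agent.R273.Piola_5

variable {n : ℕ}

/-! ### differentiation under the integral sign -/

/-- parameter integrals over a relatively compact set -/
theorem hasFDerivAt_param {P : Type*} [NormedAddCommGroup P] [NormedSpace ℝ P]
    [FiniteDimensional ℝ P] {Ω : Set (Cn n)} (hΩ : MeasurableSet Ω) (hc : IsCompact (closure Ω))
    {G : Cn n → Cn n} (hG : ContinuousOn G (closure Ω)) {w : Cn n → ℂ}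
    (hw : ContinuousOn w (closure Ω)) {Φ : P → Cn n → ℂ} {O : Set P} (hO : IsOpen O)
    {Φ' : P → Cn n → (P →L[ℝ] ℂ)} (hΦ : ∀ p ∈ O, ∀ y, HasFDerivAt (fun p => Φ p y) (Φ' p y) p)
    (hΦc : ContinuousOn (fun z : P × Cn n => Φ z.1 z.2) (O ×ˢ univ))
    (hΦc' : ContinuousOn (fun z : P × Cn n => Φ' z.1 z.2) (O ×ˢ univ)) {p₀ : P} (hp : p₀ ∈ O) :
    HasFDerivAt (fun p => ∫ x in Ω, Φ p (G x) * w x) (∫ x in Ω, w x • Φ' p₀ (G x)) p₀ := by
  have : ProperSpace P := FiniteDimensional.proper_real P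
  obtain ⟨δ, hδ, hδO⟩ := Metric.isOpen_iff.1 hO p₀ hp
  have hsub : Metric.closedBall p₀ (δ / 2) ⊆ O := fun y hy =>
    hδO (lt_of_le_of_lt hy (half_lt_self hδ))
  have hcomp : IsCompact (Metric.closedBall p₀ (δ / 2) ×ˢ closure Ω) :=
    (isCompact_closedBall _ _).prod hc
  have hmap : ContinuousOn (fun z : P × Cn n => (z.1, G z.2))
      (Metric.closedBall p₀ (δ / 2) ×ˢ closure Ω) :=
    continuousOn_fst.prodMk (hG.comp continuousOn_snd fun z hz => hz.2)
  have hmaps : MapsTo (fun z : P × Cn n => (z.1, G z.2))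
      (Metric.closedBall p₀ (δ / 2) ×ˢ closure Ω) (O ×ˢ univ) :=
    fun z hz => ⟨hsub hz.1, mem_univ _⟩
  have hF'c : ContinuousOn (fun z : P × Cn n => w z.2 • Φ' z.1 (G z.2))
      (Metric.closedBall p₀ (δ / 2) ×ˢ closure Ω) :=
    (hw.comp continuousOn_snd fun z hz => hz.2).smul (hΦc'.comp hmap hmaps)
  obtain ⟨C, hC⟩ := hcomp.exists_bound_of_continuousOn hF'c
  have hfin : volume Ω < ⊤ := (measure_mono subset_closure).trans_lt hc.measure_lt_top
  have : IsFiniteMeasure (volume.restrict Ω : Measure (Cn n)) := ⟨by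
    rw [Measure.restrict_apply_univ]; exact hfin⟩
  have hslice : ∀ p ∈ Metric.closedBall p₀ (δ / 2),
      ContinuousOn (fun x => Φ p (G x) * w x) (closure Ω) := by
    intro p hp'
    refine ContinuousOn.mul ?_ hw
    exact hΦc.comp (f := fun x : Cn n => (p, G x)) (continuousOn_const.prodMk hG)
      fun x hx => ⟨hsub hp', mem_univ _⟩
  have hslice' : ContinuousOn (fun x => w x • Φ' p₀ (G x)) (closure Ω) := by
    refine ContinuousOn.smul hw ?_
    exact hΦc'.comp (f := fun x : Cn n => (p₀, G x)) (continuousOn_const.prodMk hG)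
      fun x hx => ⟨hp, mem_univ _⟩
  refine hasFDerivAt_integral_of_dominated_of_fderiv_le (𝕜 := ℝ)
    (F := fun p x => Φ p (G x) * w x) (F' := fun p x => w x • Φ' p (G x))
    (s := Metric.ball p₀ (δ / 2)) (bound := fun _ => C) (Metric.ball_mem_nhds _ (half_pos hδ))
    ?_ ?_ ?_ ?_ (integrable_const _) ?_
  · filter_upwards [Metric.ball_mem_nhds p₀ (half_pos hδ)] with p hp'
    exact ((hslice p (Metric.ball_subset_closedBall hp')).mono subset_closure).aestronglyMeasurable
      hΩ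
  · exact (((hslice p₀ (Metric.mem_closedBall_self (half_pos hδ).le)).integrableOn_compact
      hc).mono_set subset_closure)
  · exact (hslice'.mono subset_closure).aestronglyMeasurable hΩ
  · filter_upwards [ae_restrict_mem hΩ] with x hx p hp'
    exact hC (p, x) ⟨Metric.ball_subset_closedBall hp', subset_closure hx⟩
  · filter_upwards with x p hp'
    have h1 := (hΦ p (hsub (Metric.ball_subset_closedBall hp')) (G x)).mul_const (w x)
    exact h1

/-! ### the kernel -/

/-- profile -/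
def rho (s : ℝ) : ℝ := Real.smoothTransition (1 - s)

theorem rho_sm : ContDiff ℝ ∞ rho := Real.smoothTransition.contDiff.comp (contDiff_const.sub contDiff_id)

theorem rho_zero {s : ℝ} (h : 1 ≤ s) : rho s = 0 :=
  Real.smoothTransition.zero_of_nonpos (by linarith)

theorem rho_nonneg (s : ℝ) : 0 ≤ rho s := Real.smoothTransition.nonneg _

theorem rho_pos {s : ℝ} (h : s < 1) : 0 < rho s := Real.smoothTransition.pos_of_pos (by linarith)

attribute [irreducible] rho

/-- real kernel -/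
def kr (q : ℝ) (v : Cn n) : ℝ := q ^ n * rho (q * ‖v‖ ^ 2)

/-- kernel -/
def kk (q : ℝ) (v : Cn n) : ℂ := (kr q v : ℂ)

/-- derivative in `q` -/
def dkr (q : ℝ) (v : Cn n) : ℝ :=
  n * q ^ (n - 1) * rho (q * ‖v‖ ^ 2) + q ^ n * (deriv rho (q * ‖v‖ ^ 2) * ‖v‖ ^ 2)

theorem kr_nonneg {q : ℝ} (hq : 0 ≤ q) (v : Cn n) : 0 ≤ kr q v :=
  mul_nonneg (pow_nonneg hq _) (rho_nonneg _)

theorem kr_zero {q : ℝ} (v : Cn n) (h : 1 ≤ q * ‖v‖ ^ 2) : kr q v = 0 := by
  rw [kr, rho_zero h, mul_zero]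

theorem kr_smooth : ContDiff ℝ ∞ (fun z : ℝ × Cn n => kr z.1 z.2) := by
  unfold kr
  have h1 : ContDiff ℝ ∞ (fun z : ℝ × Cn n => z.1 * ‖z.2‖ ^ 2) :=
    contDiff_fst.mul (contDiff_snd.norm_sq ℂ)
  exact (contDiff_fst.pow n).mul (rho_sm.comp h1)

theorem kk_smooth : ContDiff ℝ ∞ (fun z : ℝ × Cn n => kk z.1 z.2) :=
  Complex.ofRealCLM.contDiff.comp kr_smooth

theorem kk_sm (q : ℝ) : ContDiff ℝ ∞ (kk (n := n) q) :=
  kk_smooth.comp (contDiff_const.prodMk contDiff_id)

theorem hasDerivAt_kr (q : ℝ) (v : Cn n) : HasDerivAt (fun q => kr q v) (dkr q v) q := by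
  have h1 : HasDerivAt rho (deriv rho (q * ‖v‖ ^ 2)) (q * ‖v‖ ^ 2) :=
    (rho_sm.differentiable (by simp) _).hasDerivAt
  have h2 : HasDerivAt (fun q : ℝ => q * ‖v‖ ^ 2) (‖v‖ ^ 2) q := by
    simpa using (hasDerivAt_id q).mul_const (‖v‖ ^ 2)
  have h3 : HasDerivAt (fun q : ℝ => rho (q * ‖v‖ ^ 2)) (deriv rho (q * ‖v‖ ^ 2) * ‖v‖ ^ 2) q :=
    h1.comp q h2
  exact (hasDerivAt_pow n q).mul h3

theorem dkr_cont : Continuous (fun z : ℝ × Cn n => dkr z.1 z.2) := by
  unfold dkr
  have h0 : Continuous rho := rho_sm.continuous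
  have h1 : Continuous (deriv rho) := rho_sm.continuous_deriv (by simp)
  fun_prop

/-- `∂̄_a` of the kernel -/
theorem wd_kk (q : ℝ) (v : Cn n) (a : Fin n) :
    wd (true, a) (kk q) v = ((q ^ n * (deriv rho (q * ‖v‖ ^ 2) * q) : ℝ) : ℂ) * v a := by
  have h1 : HasDerivAt rho (deriv rho (q * ‖v‖ ^ 2)) (q * ‖v‖ ^ 2) :=
    (rho_sm.differentiable (by simp) _).hasDerivAt
  have h2 : HasFDerivAt (fun v : Cn n => q * ‖v‖ ^ 2) (q • (2 • (innerSL ℝ v))) v := by
    have h3 := (hasFDerivAt_id (𝕜 := ℝ) v).norm_sq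
    have h4 := h3.const_mul q
    refine h4.congr_fderiv ?_
    ext w
    simp
  have h3 : HasFDerivAt (fun v : Cn n => rho (q * ‖v‖ ^ 2))
      (deriv rho (q * ‖v‖ ^ 2) • (q • (2 • (innerSL ℝ v)))) v := h1.comp_hasFDerivAt v h2
  have h4 : HasFDerivAt (kk (n := n) q) (Complex.ofRealCLM.comp
      (q ^ n • (deriv rho (q * ‖v‖ ^ 2) • (q • (2 • (innerSL ℝ v)))))) v :=
    Complex.ofRealCLM.hasFDerivAt.comp v (h3.const_mul (q ^ n))
  have e0 : ∀ c : ℂ, (inner ℝ v (EuclideanSpace.single a c : Cn n) : ℝ) =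
      (conj (v a) * c).re := by
    intro c
    rw [PiLp.inner_apply, Finset.sum_eq_single a]
    · rw [Complex.inner, PiLp.single_apply, if_pos rfl, mul_comm]
    · intro b _ hb
      rw [PiLp.single_apply, if_neg hb, inner_zero_right]
    · intro h
      exact absurd (Finset.mem_univ a) h
  have e1 : (inner ℝ v (EuclideanSpace.single a (1 : ℂ) : Cn n) : ℝ) = (v a).re := by
    rw [e0]
    simp
  have e2 : (inner ℝ v (EuclideanSpace.single a I : Cn n) : ℝ) = (v a).im := by
    rw [e0]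
    simp
  rw [wd, h4.fderiv]
  simp only [wdL, ContinuousLinearMap.comp_apply, _root_.smul_apply, innerSL_apply_apply, e1, e2,
    Complex.ofRealCLM_apply, cI_true, smul_eq_mul]
  simp only [nsmul_eq_mul]
  push_cast
  linear_combination ((q : ℂ) ^ n * ((deriv rho (q * ‖v‖ ^ 2) : ℝ) : ℂ) * q) *
    Complex.re_add_im (v a)

/-- the field in the `q`-direction -/
def fk (q : ℝ) (a : Fin n) (v : Cn n) : ℂ := conj (v a) * kk q v

theorem fk_sm (q : ℝ) (a : Fin n) : ContDiff ℝ ∞ (fk q a) := by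
  have h1 : ContDiff ℝ ∞ (fun v : Cn n => conj (v a)) :=
    (conjCLE : ℂ →L[ℝ] ℂ).contDiff.comp
      (((EuclideanSpace.proj a : Cn n →L[ℂ] ℂ).restrictScalars ℝ).contDiff)
  exact h1.mul (kk_sm q)

theorem sum_wd_fk (q : ℝ) (v : Cn n) :
    ∑ a, wd (true, a) (fk q a) v = (q : ℂ) * (dkr q v : ℂ) := by
  have e1 : ∀ a, wd (true, a) (fk q a) v = kk q v +
      conj (v a) * (((q ^ n * (deriv rho (q * ‖v‖ ^ 2) * q) : ℝ) : ℂ) * v a) := by
    intro a
    have hp : DifferentiableAt ℂ (fun v : Cn n => v a) v :=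
      (EuclideanSpace.proj a : Cn n →L[ℂ] ℂ).differentiableAt
    have d1 : DifferentiableAt ℝ (fun v : Cn n => conj (v a)) v :=
      (conjCLE : ℂ →L[ℝ] ℂ).differentiableAt.comp v (hp.restrictScalars ℝ)
    have d2 : DifferentiableAt ℝ (kk (n := n) q) v := (kk_sm q).differentiable (by simp) _
    have e2 : fk q a = fun v : Cn n => conj (v a) * kk q v := rfl
    rw [e2, wd_mul d1 d2, wd_conj_hol hp, wd_hol' hp, wd_kk]
    have e3 : fderiv ℂ (fun v : Cn n => v a) v = (EuclideanSpace.proj a : Cn n →L[ℂ] ℂ) :=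
      (EuclideanSpace.proj a : Cn n →L[ℂ] ℂ).fderiv
    rw [e3]
    simp
  simp_rw [e1]
  rw [Finset.sum_add_distrib, Finset.sum_const, Finset.card_univ, Fintype.card_fin]
  have e4 : ∑ a, conj (v a) * (((q ^ n * (deriv rho (q * ‖v‖ ^ 2) * q) : ℝ) : ℂ) * v a) =
      ((q ^ n * (deriv rho (q * ‖v‖ ^ 2) * q) : ℝ) : ℂ) * ((‖v‖ ^ 2 : ℝ) : ℂ) := by
    have e6 : ((‖v‖ ^ 2 : ℝ) : ℂ) = ∑ a, conj (v a) * v a := by
      rw [EuclideanSpace.norm_sq_eq, Complex.ofReal_sum]
      refine Finset.sum_congr rfl fun a _ => ?_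
      rw [Complex.ofReal_pow, ← Complex.mul_conj', mul_comm]
    rw [e6, Finset.mul_sum]
    refine Finset.sum_congr rfl fun a _ => ?_
    ring
  rw [e4]
  unfold dkr kk kr
  have h5 : ((n : ℂ)) * (q : ℂ) ^ (n - 1) * q = n * (q : ℂ) ^ n := by
    rcases Nat.eq_zero_or_pos n with h | h
    · subst h; simp
    · obtain ⟨m, rfl⟩ := Nat.exists_eq_add_of_lt h
      simp only [Nat.zero_add, Nat.add_sub_cancel]
      ring
  simp only [nsmul_eq_mul]
  push_cast
  linear_combination (-((rho (q * ‖v‖ ^ 2) : ℝ) : ℂ)) * h5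

theorem tsupport_kk {q : ℝ} (hq : 0 < q) (c : Cn n) :
    tsupport (fun y => kk q (y - c)) ⊆ Metric.closedBall c (1 / √q) := by
  refine closure_minimal (fun y hy => ?_) Metric.isClosed_closedBall
  rw [Metric.mem_closedBall, dist_eq_norm]
  by_contra hlt
  push Not at hlt
  apply hy
  have h1 : (1 / √q) ^ 2 < ‖y - c‖ ^ 2 := by
    exact pow_lt_pow_left₀ hlt (by positivity) (by norm_num)
  rw [div_pow, Real.sq_sqrt hq.le, one_pow] at h1
  have h2 : 1 ≤ q * ‖y - c‖ ^ 2 := by
    rw [div_lt_iff₀ hq] at h1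
    linarith
  show ((kr q (y - c) : ℝ) : ℂ) = 0
  rw [kr_zero _ h2, Complex.ofReal_zero]

theorem tsupport_fk {q : ℝ} (hq : 0 < q) (c : Cn n) (a : Fin n) :
    tsupport (fun y => fk q a (y - c)) ⊆ Metric.closedBall c (1 / √q) := by
  refine (closure_mono ?_).trans (tsupport_kk hq c)
  intro y hy
  refine fun h0 => hy ?_
  simp only [fk] at h0 ⊢
  rw [h0, mul_zero]

/-! ### the mollified push-forward -/

/-- the mollified push-forward -/
def hh (Ω : Set (Cn n)) (G : Cn n → Cn n) (r : Cn n → ℂ) (c : Cn n) (q : ℝ) : ℂ :=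
  ∫ x in Ω, kk q (G x - c) * wt G r x

section H
variable {Ω U D : Set (Cn n)} {G : Cn n → Cn n} {r : Cn n → ℂ}

theorem Dat.contG (h : Dat Ω U D G r) : ContinuousOn G (closure Ω) :=
  h.hG.continuousOn.mono h.hΩU

theorem Dat.contW (h : Dat Ω U D G r) : ContinuousOn (wt G r) (closure Ω) := by
  have h1 : ContinuousOn (fun x => (jm G x).det) (closure Ω) := h.holJ.continuousOn.mono h.hΩU
  exact (h.hr.continuousOn.mono h.hΩU).mul (h1.mul (continuous_conj.comp_continuousOn h1))

theorem wd_shift (s : WI n) (f : Cn n → ℂ) (c y : Cn n) :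
    wd s (fun y => f (y - c)) y = wd s f (y - c) := by
  unfold wd
  rw [fderiv_comp_sub]

/-- `hh` is holomorphic in `c` -/
theorem Dat.hh_hol (h : Dat Ω U D G r) {q : ℝ} (hq : 0 < q) {c : Cn n}
    (hcD : Metric.closedBall c (1 / √q) ⊆ D) :
    DifferentiableAt ℂ (fun c => hh Ω G r c q) c := by
  have hsm : ContDiff ℝ ∞ (kk (n := n) q) := kk_sm q
  have h1 := hasFDerivAt_param (P := Cn n) h.hΩ.measurableSet h.hc h.contG h.contW
    (Φ := fun c y => kk q (y - c)) (Φ' := fun c y => - fderiv ℝ (kk q) (y - c)) isOpen_univ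
    (fun p _ y => by
      have h2 : HasFDerivAt (kk q) (fderiv ℝ (kk q) (y - p)) (y - p) :=
        (hsm.differentiable (by simp) _).hasFDerivAt
      have h3 : HasFDerivAt (fun p : Cn n => y - p) (-ContinuousLinearMap.id ℝ (Cn n)) p :=
        (hasFDerivAt_id p).const_sub y
      refine (h2.comp p h3).congr_fderiv ?_
      ext v
      simp)
    ((hsm.continuous.comp (continuous_snd.sub continuous_fst)).continuousOn)
    (((hsm.continuous_fderiv (by simp)).comp (continuous_snd.sub continuous_fst)).neg.continuousOn)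
    (mem_univ c)
  refine Crest.Agent.R275.GeoHol912.differentiableAt_of_dbj h1.differentiableAt fun a => ?_
  rw [← wd_true, wd]
  have h2 : fderiv ℝ (fun c => hh Ω G r c q) c =
      ∫ x in Ω, wt G r x • (- fderiv ℝ (kk q) (G x - c)) := h1.fderiv
  rw [h2, ← wdLc_apply]
  have hint : Integrable (fun x => wt G r x • (- fderiv ℝ (kk q) (G x - c)))
      (volume.restrict Ω) := by
    have h3 : ContinuousOn (fun x => wt G r x • (- fderiv ℝ (kk q) (G x - c))) (closure Ω) := by
      refine h.contW.smul ?_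
      refine ContinuousOn.neg ?_
      exact (hsm.continuous_fderiv (by simp)).comp_continuousOn (h.contG.sub continuousOn_const)
    exact (h3.integrableOn_compact h.hc).mono_set subset_closure
  rw [← ContinuousLinearMap.integral_comp_comm _ hint]
  have h4 := h.T_dbar (ψ := fun y => kk q (y - c))
    ((hsm.comp (contDiff_id.sub contDiff_const)).of_le (by exact_mod_cast le_top))
    ((tsupport_kk hq c).trans hcD) a
  have h5 : ∀ x, wdLc (true, a) (wt G r x • (- fderiv ℝ (kk q) (G x - c))) =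
      - (wd (true, a) (fun y => kk q (y - c)) (G x) * wt G r x) := by
    intro x
    rw [wd_shift, wdLc_apply, wdL_smul, ← wdLc_apply, map_neg, wdLc_apply, smul_eq_mul]
    simp only [wd]
    ring
  simp_rw [h5]
  rw [integral_neg, h4, neg_zero]

/-- `hh` has derivative `0` in `q` -/
theorem Dat.hh_deriv (h : Dat Ω U D G r) {q : ℝ} (hq : 0 < q) {c : Cn n}
    (hcD : Metric.closedBall c (1 / √q) ⊆ D) :
    HasDerivAt (fun q => hh Ω G r c q) 0 q := by
  have h1 := hasFDerivAt_param (P := ℝ) h.hΩ.measurableSet h.hc h.contG h.contW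
    (Φ := fun q y => kk q (y - c))
    (Φ' := fun q y => ContinuousLinearMap.smulRight (1 : ℝ →L[ℝ] ℝ) ((dkr q (y - c) : ℝ) : ℂ))
    isOpen_univ
    (fun p _ y => by
      have h2 : HasDerivAt (fun p => kk p (y - c)) ((dkr p (y - c) : ℝ) : ℂ) p :=
        (hasDerivAt_kr p (y - c)).ofReal_comp
      exact h2.hasFDerivAt)
    ((kk_smooth.continuous.comp
      (continuous_fst.prodMk (continuous_snd.sub continuous_const))).continuousOn)
    (by
      refine Continuous.continuousOn ?_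
      have h3 : Continuous fun z : ℝ × Cn n => ((dkr z.1 (z.2 - c) : ℝ) : ℂ) :=
        Complex.continuous_ofReal.comp (dkr_cont.comp
          (continuous_fst.prodMk (continuous_snd.sub continuous_const)))
      exact ((ContinuousLinearMap.smulRightL ℝ ℝ ℂ (1 : ℝ →L[ℝ] ℝ)).continuous.comp h3))
    (mem_univ q)
  have h2 : HasDerivAt (fun q => hh Ω G r c q) _ q := h1.hasDerivAt
  have hint : Integrable (fun x => wt G r x • (ContinuousLinearMap.smulRight (1 : ℝ →L[ℝ] ℝ)
      ((dkr q (G x - c) : ℝ) : ℂ))) (volume.restrict Ω) := by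
    have h3 : ContinuousOn (fun x => wt G r x • (ContinuousLinearMap.smulRight (1 : ℝ →L[ℝ] ℝ)
      ((dkr q (G x - c) : ℝ) : ℂ))) (closure Ω) := by
      refine h.contW.smul ?_
      have h4 : ContinuousOn (fun x => ((dkr q (G x - c) : ℝ) : ℂ)) (closure Ω) :=
        Complex.continuous_ofReal.comp_continuousOn (dkr_cont.comp_continuousOn
          (continuousOn_const.prodMk (h.contG.sub continuousOn_const)))
      exact (ContinuousLinearMap.smulRightL ℝ ℝ ℂ (1 : ℝ →L[ℝ] ℝ)).continuous.comp_continuousOn h4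
    exact (h3.integrableOn_compact h.hc).mono_set subset_closure
  convert h2 using 1
  rw [ContinuousLinearMap.integral_apply hint]
  have h4 : ∀ a, ∫ x in Ω, wd (true, a) (fun y => fk q a (y - c)) (G x) * wt G r x = 0 := fun a =>
    h.T_dbar (ψ := fun y => fk q a (y - c))
      (((fk_sm q a).comp (contDiff_id.sub contDiff_const)).of_le (by exact_mod_cast le_top))
      ((tsupport_fk hq c a).trans hcD) a
  have h5 : ∀ x, (wt G r x • (ContinuousLinearMap.smulRight (1 : ℝ →L[ℝ] ℝ)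
      ((dkr q (G x - c) : ℝ) : ℂ))) 1 =
      (q : ℂ)⁻¹ * ∑ a, wd (true, a) (fun y => fk q a (y - c)) (G x) * wt G r x := by
    intro x
    rw [← Finset.sum_mul]
    simp_rw [wd_shift]
    rw [sum_wd_fk]
    have hqc : (q : ℂ) ≠ 0 := by exact_mod_cast hq.ne'
    simp
    field_simp
  simp_rw [h5]
  have hint2 : ∀ a, Integrable (fun x => wd (true, a) (fun y => fk q a (y - c)) (G x) * wt G r x)
      (volume.restrict Ω) := by
    intro a
    have hc1 : Continuous (wd (true, a) (fk q a)) :=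
      (wdLc (true, a)).continuous.comp ((fk_sm q a).continuous_fderiv (by simp))
    have h6 : ContinuousOn (fun x => wd (true, a) (fun y => fk q a (y - c)) (G x) * wt G r x)
        (closure Ω) := by
      simp_rw [wd_shift]
      exact (hc1.comp_continuousOn (h.contG.sub continuousOn_const)).mul h.contW
    exact (h6.integrableOn_compact h.hc).mono_set subset_closure
  rw [integral_const_mul, integral_finsetSum _ fun a _ => hint2 a]
  simp [h4]

/-- independence of `q` -/
theorem Dat.hh_const (h : Dat Ω U D G r) {q q' : ℝ} (hq : 0 < q) (hqq : q ≤ q') {c : Cn n}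
    (hcD : Metric.closedBall c (1 / √q) ⊆ D) : hh Ω G r c q' = hh Ω G r c q := by
  have hd : ∀ x ∈ Icc q q', HasDerivAt (fun q => hh Ω G r c q) 0 x := by
    intro x hx
    have hx0 : 0 < x := hq.trans_le hx.1
    refine h.hh_deriv hx0 ((Metric.closedBall_subset_closedBall ?_).trans hcD)
    exact one_div_le_one_div_of_le (Real.sqrt_pos.2 hq) (Real.sqrt_le_sqrt hx.1)
  exact constant_of_has_deriv_right_zero (f := fun q => hh Ω G r c q) (a := q) (b := q')
    (fun x hx => (hd x hx).continuousAt.continuousWithinAt)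
    (fun x hx => (hd x ⟨hx.1, hx.2.le⟩).hasDerivWithinAt) q' ⟨hqq, le_rfl⟩

end H

end Crest.Agent.R257.Tr_578
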