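import Crest.Agent.R257.Trl1_39
import Crest.Agent.R257.MsJ5_617

/-!
# Row 257 (S0395), trial metric (helper39), part 2: the psh function `Φ`

* `SSq r a`   : `a` is a finite sum of squares of analytic functions in the ball
* `Phi f g q s = log |a|² + ∑_l φ_l` (`= log ∑_l |{g, q_l}|² ∏_{m ≠ l} |q|²_m` on the level)
* `Phi_smL`, `Phi_psh`, `Phi_le`, `Phi_int`
-/

set_option autoImplicit false
set_option linter.unusedSectionVars false

open Set Filter Topology Complex MeasureTheory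
open scoped ContDiff ComplexConjugate Matrix ComplexOrder

namespace Crest.Agent.R257.Trl_39

open Crest.Agent.R275.Geo
open Crest.Agent.R273
open Crest.Agent.R273.YauDefs_635 (cH lev333_eq_lev145 inC)
open Crest.Agent.R257.PN_835 (nsq)
open Crest.Agent.R257.Defs_219 Crest.Agent.R257.KED_952 Crest.Agent.R257.KEG_952
open Crest.Agent.R257.KEU_952
open Crest.Agent.R257.V1Defs_822 (SmL LvlOK lgh XUStmt)
open Crest.Agent.R257.CLogD_39
open Crest.Agent.R257.PairK_39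

noncomputable section

/-- finite sums of squares of analytic functions in the ball of radius `r` -/
def SSq (r : ℝ) (a : E3 → ℝ) : Prop := ∃ (ι : Type) (_ : Fintype ι) (F : ι → E3 → ℂ),
  (∀ j x, nsq x < r ^ 2 → AnalyticAt ℂ (F j) x) ∧ ∀ x, nsq x < r ^ 2 → a x = ∑ j, ‖F j x‖ ^ 2

section alg

variable {r : ℝ} {a b : E3 → ℝ}

theorem SSq.add (ha : SSq r a) (hb : SSq r b) : SSq r fun x => a x + b x := by
  obtain ⟨ι, _, F, hF, ea⟩ := ha
  obtain ⟨κ, _, G, hG, eb⟩ := hb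
  refine ⟨ι ⊕ κ, inferInstance, Sum.elim F G, ?_, fun x hx => ?_⟩
  · rintro (j | j) x hx
    · exact hF j x hx
    · exact hG j x hx
  · show a x + b x = _
    rw [ea x hx, eb x hx, Fintype.sum_sum_type]
    rfl

theorem SSq.mul (ha : SSq r a) (hb : SSq r b) : SSq r fun x => a x * b x := by
  obtain ⟨ι, _, F, hF, ea⟩ := ha
  obtain ⟨κ, _, G, hG, eb⟩ := hb
  refine ⟨ι × κ, inferInstance, fun p x => F p.1 x * G p.2 x,
    fun p x hx => (hF p.1 x hx).mul (hG p.2 x hx), fun x hx => ?_⟩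
  show a x * b x = _
  rw [ea x hx, eb x hx, Finset.sum_mul_sum, Fintype.sum_prod_type]
  refine Finset.sum_congr rfl fun i _ => Finset.sum_congr rfl fun j _ => ?_
  rw [norm_mul, mul_pow]

theorem SSq.nsq {F : E3 → ℂ} (hF : ∀ x, PN_835.nsq x < r ^ 2 → AnalyticAt ℂ F x) :
    SSq r fun x => ‖F x‖ ^ 2 :=
  ⟨Unit, inferInstance, fun _ => F, fun _ => hF, fun x _ => by simp⟩

theorem SSq.zero : SSq r fun _ => 0 :=
  ⟨Empty, inferInstance, fun j => j.elim, fun j => j.elim, fun x _ => by simp⟩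

theorem SSq.one : SSq r fun _ => 1 :=
  ⟨Unit, inferInstance, fun _ _ => 1, fun _ _ _ => analyticAt_const, fun x _ => by simp⟩

theorem SSq.sum {ι : Type*} (S : Finset ι) {a : ι → E3 → ℝ} (h : ∀ i ∈ S, SSq r (a i)) :
    SSq r fun x => ∑ i ∈ S, a i x := by
  classical
  induction S using Finset.induction_on with
  | empty => simpa using SSq.zero
  | insert i S hi ih =>
    simp only [Finset.sum_insert hi]
    exact (h i (Finset.mem_insert_self i S)).add (ih fun j hj => h j (Finset.mem_insert_of_mem hj))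

theorem SSq.prod {ι : Type*} (S : Finset ι) {a : ι → E3 → ℝ} (h : ∀ i ∈ S, SSq r (a i)) :
    SSq r fun x => ∏ i ∈ S, a i x := by
  classical
  induction S using Finset.induction_on with
  | empty => simpa using SSq.one
  | insert i S hi ih =>
    simp only [Finset.prod_insert hi]
    exact (h i (Finset.mem_insert_self i S)).mul (ih fun j hj => h j (Finset.mem_insert_of_mem hj))

variable {f : E3 → ℂ}

/-- the Levi form of the logarithm of a sum of squares -/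
theorem SSq.log_sm_psh (ha : SSq r a) {θ : Cn 2 → E3} {O : Set (Cn 2)} (hP : PE f 0 r θ O)
    {z : Cn 2} (hz : z ∈ O) (h0 : 0 < a (θ z)) :
    ContDiffAt ℝ ∞ (fun z => Real.log (a (θ z))) z ∧
      ∀ v, 0 ≤ Defs_333.lev (fun y => Real.log (a (θ y))) z v := by
  obtain ⟨ι, _, F, hF, e⟩ := ha
  have hev : (fun y => Real.log (a (θ y))) =ᶠ[𝓝 z]
      fun y => Real.log (Levi_145.sumSq (fun j y => F j (θ y)) y) := by
    filter_upwards [hP.par.isOpen.mem_nhds hz] with y hy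
    rw [e _ (hP.lt y hy)]
    rfl
  have hFa : ∀ j, AnalyticAt ℂ (fun y => F j (θ y)) z := fun j =>
    (hF j _ (hP.lt z hz)).comp (anal_par hP.par hz)
  have hne : ∃ j, F j (θ z) ≠ 0 := by
    by_contra hcon
    push Not at hcon
    rw [e _ (hP.lt z hz)] at h0
    have : ∑ j, ‖F j (θ z)‖ ^ 2 = 0 := Finset.sum_eq_zero fun j _ => by rw [hcon j]; simp
    linarith
  constructor
  · refine ContDiffAt.congr_of_eventuallyEq ?_ hev
    exact (Levi_145.c2_sumSq hFa ∞).log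
      (Levi_145.sumSq_pos (F := fun j y => F j (θ y)) hne).ne'
  · intro v
    rw [lev333_eq_lev145, Levi_145.lev_congr hev]
    have := Levi_145.lev_log_sumSq_nonneg (F := fun j y => F j (θ y)) hFa hne v
    linarith

theorem SSq.continuousOn (ha : SSq r a) : ContinuousOn a {x | PN_835.nsq x < r ^ 2} := by
  obtain ⟨ι, _, F, hF, e⟩ := ha
  refine ContinuousOn.congr ?_ fun x hx => e x hx
  exact continuousOn_finsetSum _ fun j _ x hx =>
    ((hF j x hx).continuousAt.norm.pow 2).continuousWithinAt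

end alg

/-- the function `Φ = log |a|² + ∑_l φ_l` -/
def Phi (f g : E3 → ℂ) {L : ℕ} (q : Fin L → E3 → ℂ) (s : Fin L → ℕ) (x : E3) : ℝ :=
  Real.log (a2 f g q s x) + ∑ l, phq q s l x

/-- `|a|² ∏ |q|²_l` -/
def aP (f g : E3 → ℂ) {L : ℕ} (q : Fin L → E3 → ℂ) (s : Fin L → ℕ) (x : E3) : ℝ :=
  ∑ l, ‖Dt f g (q l) x‖ ^ 2 * ∏ m ∈ Finset.univ.erase l, sqq q s m x

variable {f : E3 → ℂ} {r A : ℝ} {u : E3 → ℝ} {k : ℕ} {g h : E3 → ℂ} {L : ℕ}
  {q : Fin L → E3 → ℂ} {s : Fin L → ℕ} {c B : ℝ}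

theorem aP_eq {x : E3} (h : ∀ l, 0 < sqq q s l x) :
    aP f g q s x = a2 f g q s x * ∏ l, sqq q s l x := by
  unfold aP a2
  rw [Finset.sum_mul]
  refine Finset.sum_congr rfl fun l _ => ?_
  rw [← Finset.mul_prod_erase Finset.univ (fun m => sqq q s m x) (Finset.mem_univ l)]
  have := (h l).ne'
  field_simp

theorem Phi_eq {x : E3} (h : ∀ l, 0 < sqq q s l x) (ha : 0 < a2 f g q s x) :
    0 < aP f g q s x ∧ Phi f g q s x = Real.log (aP f g q s x) := by
  have hp : 0 < ∏ l, sqq q s l x := Finset.prod_pos fun l _ => h l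
  rw [aP_eq h]
  refine ⟨mul_pos ha hp, ?_⟩
  unfold Phi phq
  rw [Real.log_mul ha.ne' hp.ne', Real.log_prod (fun l _ => (h l).ne')]

theorem an_gr {F : E3 → ℂ} {x : E3} (hF : AnalyticAt ℂ F x) (i : Fin 3) :
    AnalyticAt ℂ (fun y => gr F y i) x := by
  have h1 : AnalyticAt ℂ (fderiv ℂ F) x := hF.fderiv
  exact ((ContinuousLinearMap.apply ℂ ℂ (Pi.single i (1 : ℂ) : E3)).analyticAt _).comp h1

theorem an_Dt {F G : E3 → ℂ} {x : E3} (hf : AnalyticAt ℂ f x) (hF : AnalyticAt ℂ F x)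
    (hG : AnalyticAt ℂ G x) : AnalyticAt ℂ (Dt f F G) x := by
  have e : Dt f F G = fun y => gr f y 0 * gr F y 1 * gr G y 2 - gr f y 0 * gr F y 2 * gr G y 1
      - gr f y 1 * gr F y 0 * gr G y 2 + gr f y 1 * gr F y 2 * gr G y 0
      + gr f y 2 * gr F y 0 * gr G y 1 - gr f y 2 * gr F y 1 * gr G y 0 := by
    funext y
    unfold Dt
    rw [Matrix.det_fin_three]
    rfl
  rw [e]
  have af := an_gr hf
  have aF := an_gr hF
  have aG := an_gr hG
  exact (((((((af 0).mul (aF 1)).mul (aG 2)).sub (((af 0).mul (aF 2)).mul (aG 1))).sub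
    (((af 1).mul (aF 0)).mul (aG 2))).add (((af 1).mul (aF 2)).mul (aG 0))).add
    (((af 2).mul (aF 0)).mul (aG 1))).sub (((af 2).mul (aF 1)).mul (aG 0))

theorem ssq_aP (hf : ∀ x, nsq x < r ^ 2 → AnalyticAt ℂ f x)
    (hg : ∀ x, nsq x < r ^ 2 → AnalyticAt ℂ g x)
    (hq : ∀ l x, nsq x < r ^ 2 → AnalyticAt ℂ (q l) x) : SSq r (aP f g q s) := by
  unfold aP
  refine SSq.sum _ fun l _ => (SSq.nsq fun x hx => an_Dt (hf x hx) (hg x hx) (hq l x hx)).mul
    (SSq.prod _ fun m _ => ?_)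
  unfold sqq
  exact SSq.sum _ fun n _ => SSq.nsq (hq n)

theorem Dta.ssq (hD : Dta f r A u k g h q s c B) (hL : LvlOK f 0 r) : SSq r (aP f g q s) :=
  ssq_aP hL.an hD.qok.ang hD.qok.anq

theorem Dta.phi_eq (hD : Dta f r A u k g h q s c B) {x : E3} (h1 : f x = 0) (h2 : x ≠ 0)
    (h3 : nsq x < r ^ 2) :
    0 < aP f g q s x ∧ Phi f g q s x = Real.log (aP f g q s x) :=
  Phi_eq (hD.qok.pos x h1 h2 h3) (hD.a_pos x h1 h2 h3)

theorem Dta.phi_ev (hD : Dta f r A u k g h q s c B) {θ : Cn 2 → E3} {O : Set (Cn 2)}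
    (hP : PE f 0 r θ O) {z : Cn 2} (hz : z ∈ O) :
    (fun y => Phi f g q s (θ y)) =ᶠ[𝓝 z] fun y => Real.log (aP f g q s (θ y)) := by
  filter_upwards [hP.par.isOpen.mem_nhds hz] with y hy
  exact (hD.phi_eq (hP.par.lvl y hy) (hP.ne y hy) (hP.lt y hy)).2

theorem Dta.phi_smL (hD : Dta f r A u k g h q s c B) (hL : LvlOK f 0 r) :
    SmL f 0 r (Phi f g q s) := by
  intro θ O hP z hz
  have h1 := (hD.ssq hL).log_sm_psh hP hz
    (hD.phi_eq (hP.par.lvl z hz) (hP.ne z hz) (hP.lt z hz)).1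
  exact (h1.1.congr_of_eventuallyEq (hD.phi_ev hP hz)).contDiffWithinAt

theorem Dta.phi_psh (hD : Dta f r A u k g h q s c B) (hL : LvlOK f 0 r) (θ : Cn 2 → E3)
    (O : Set (Cn 2)) (hP : PE f 0 r θ O) (z : Cn 2) (hz : z ∈ O) (v : Cn 2) :
    0 ≤ Defs_333.lev (fun y => Phi f g q s (θ y)) z v := by
  have h1 := (hD.ssq hL).log_sm_psh hP hz
    (hD.phi_eq (hP.par.lvl z hz) (hP.ne z hz) (hP.lt z hz)).1
  have h2 := h1.2 v
  rw [lev333_eq_lev145] at h2 ⊢
  rwa [Levi_145.lev_congr (hD.phi_ev hP hz)]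

theorem isCompact_nsq_le (ρ : ℝ) : IsCompact {x : E3 | nsq x ≤ ρ ^ 2} := by
  refine Metric.isCompact_of_isClosed_isBounded
    (isClosed_le PN_835.continuous_nsq continuous_const) ?_
  refine (Metric.isBounded_ball (x := (0 : E3)) (r := |ρ| + 1)).subset fun x hx => ?_
  rw [mem_ball_zero_iff]
  refine norm_lt_of (by positivity) (lt_of_le_of_lt hx ?_)
  rw [← sq_abs ρ]
  nlinarith [abs_nonneg ρ]

theorem Dta.phi_le (hD : Dta f r A u k g h q s c B) (hL : LvlOK f 0 r) {ρ : ℝ} (h0 : 0 ≤ ρ)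
    (hρ : ρ < r) : ∃ C : ℝ, ∀ x, f x = 0 → x ≠ 0 → nsq x < ρ ^ 2 → Phi f g q s x ≤ C := by
  have hsub : {x : E3 | nsq x ≤ ρ ^ 2} ⊆ {x | nsq x < r ^ 2} := fun x hx =>
    lt_of_le_of_lt hx (pow_lt_pow_left₀ hρ h0 two_ne_zero)
  obtain ⟨C, hC⟩ := (isCompact_nsq_le ρ).bddAbove_image ((hD.ssq hL).continuousOn.mono hsub)
  refine ⟨Real.log C, fun x h1 h2 h3 => ?_⟩
  have h4 := hD.phi_eq h1 h2 (hsub h3.le)
  rw [h4.2]
  exact Real.log_le_log h4.1 (hC ⟨x, h3.le, rfl⟩)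

/-- **`∫ χ ∂∂̄u ∧ ∂∂̄Φ < ∞`** -/
theorem Dta.phi_int (hD : Dta f r A u k g h q s c B) (hL : LvlOK f 0 r) (hK : KEon f 0 r u)
    (hE : Esc f r u A) {ν : Measure E3} (hν : IsNu f 0 r ν) {ρ : ℝ} (h0 : 0 < ρ) (hρ : ρ < r) :
    ∀ χ, Cut ρ χ → Integrable (fun x => χ x * mxd f u (Phi f g q s) x)
      (ν.restrict {x | nsq x < ρ ^ 2}) := by
  intro χ hχ
  obtain ⟨C, hC⟩ := hD.phi_le hL h0.le hρ
  have hL' := UpK_938.LvlOK.mono hL h0 hρ.le
  have hD' := hD.mono h0.le hρ.le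
  exact MsJ_617.mass_fin hL' (KEon.mono' hK h0.le hρ.le) (Esc.mono' hE h0.le hρ.le) hχ
    (UpK_938.IsNu.mono hν h0 hρ.le) (hD'.phi_smL hL') (hD'.phi_psh hL') hC

end

end Crest.Agent.R257.Trl_39
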