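import Crest.Agent.R257.TrB_218
import Crest.Agent.R257.SkelG2_952
import Crest.Agent.R257.Trl2_39

/-!
R257 / TrC_218 (helper218): assembly of `TrialStmt` (KUP_952), part 3.

* `MetStmt`  : the trial metric [540, 560, 844]
* `trial_of` : `XLStmt`, `MetStmt` ⟹ `TrialStmt`
-/

set_option autoImplicit false
set_option linter.unusedSectionVars false

open Topology Filter MeasureTheory Set
open scoped ENNReal ContDiff Matrix ComplexOrder

noncomputable section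

namespace Crest.Agent.R257.TrA_218

open Crest.Agent.R275.Geo
open Crest.Agent.R273
open Crest.Agent.R273.Defs_333 (lev)
open Crest.Agent.R273.YauDefs_635 (cH)
open Crest.Agent.R257.Defs_219 Crest.Agent.R257.KED_952 Crest.Agent.R257.KEG_952
open Crest.Agent.R257.KEU_952
open Crest.Agent.R257.V1Defs_822 (SmL LvlOK lgh)
open Crest.Agent.R257.V1Pe_822
open Crest.Agent.R257.PN_835 (nsq)
open Crest.Agent.R257.Aff_835 (eta2a)
open Crest.Agent.R257.C2F2_625 (hV bb)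
open Crest.Agent.R257.LossD_309 (HO dV)
open Crest.Agent.R257.KUP_952
open Crest.Agent.R257.CLogD_39
open Crest.Agent.R257.Trl_39 (Dta data_of_xl Phi)
open Crest.Agent.R257.VL_218

/-- the trial metric of post 3449 [540, 560, 844] -/
def MetStmt : Prop := ∀ (f : E3 → ℂ) (r A : ℝ) (u : E3 → ℝ) (k : ℕ) (g h : E3 → ℂ) (L : ℕ)
  (q : Fin L → E3 → ℂ) (s : Fin L → ℕ) (c B : ℝ), LvlOK f 0 r → Dta f r A u k g h q s c B →
  ∃ (H : Form) (B' : ℝ), Mt f r H ∧
    (∀ θ O, PE f 0 r θ O → ∀ z ∈ O, hV (H θ) (dV g θ) z = Real.exp (lgh g h (θ z))) ∧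
    (∀ θ O, PE f 0 r θ O → ∀ z ∈ O,
      (H θ z).det.re * eta2a (n := 2) f θ z = Real.exp (-(lgh g h (θ z) / k))) ∧
    (∀ θ O, PE f 0 r θ O → ∀ z ∈ O, (((Real.exp (-lgh g h (θ z)) : ℝ) : ℂ) • rk (dV g θ z) +
      ((Real.exp ((1 + 1 / k) * lgh g h (θ z)) / a2 f g q s (θ z) : ℝ) : ℂ) •
        ∑ l, ((Real.exp (-phq q s l (θ z)) : ℝ) : ℂ) • rk (dV (q l) θ z) -
          (H θ z)⁻¹).PosSemidef) ∧
    (∀ θ O, PE f 0 r θ O → ∀ z ∈ O,
      ((B' : ℂ) • cH (fun y => Phi f g q s (θ y)) z - bb (H θ) (dV g θ) z).PosSemidef)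

/-- the coefficient of the bound of the second fundamental form -/
theorem coef_le {f : E3 → ℂ} {r A : ℝ} {u : E3 → ℝ} {k : ℕ} {g h : E3 → ℂ} {L : ℕ}
    {q : Fin L → E3 → ℂ} {s : Fin L → ℕ} {c B : ℝ} (hD : Dta f r A u k g h q s c B) {x : E3}
    (h1 : f x = 0) (h2 : x ≠ 0) (h3 : nsq x < r ^ 2) :
    Real.exp ((2 + 1 / k) * lgh g h x) * J2 f q s x / a2 f g q s x ^ 2 ≤ (c ^ 3)⁻¹ := by
  have hc := hD.c_pos
  have ha := hD.a_pos x h1 h2 h3
  have hJ := hD.J_pos x h1 h2 h3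
  have h4 := hD.i x h1 h2 h3
  have h5 := hD.a_ge x h1 h2 h3
  set E := Real.exp (lgh g h x) with hE
  set F := Real.exp ((1 + 1 / (k : ℝ)) * lgh g h x) with hF
  have hE0 : 0 < E := Real.exp_pos _
  have hF0 : 0 < F := Real.exp_pos _
  have e1 : Real.exp ((2 + 1 / (k : ℝ)) * lgh g h x) = E * F := by
    rw [hE, hF, ← Real.exp_add]
    congr 1
    ring
  rw [e1, div_le_iff₀ (by positivity), ← div_eq_inv_mul, le_div_iff₀ (by positivity)]
  calc E * F * J2 f q s x * c ^ 3 = (c * E * J2 f q s x) * (c ^ 2 * F) := by ring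
    _ ≤ a2 f g q s x * a2 f g q s x := mul_le_mul h4 h5 (by positivity) ha.le
    _ = _ := by ring

/-- **`TrialStmt`** -/
theorem trial_of (xl : XLStmt) (met : MetStmt) : TrialStmt := by
  intro f r C A u ν hiso hf hK _ hν hm hE hvol
  obtain ⟨r', k, g, h, L, q, s, c, B, h0, h1, hD⟩ := data_of_xl xl hiso hf hK hν hm hE hvol
  set ρ : ℝ := r' / 2 with hρ
  have p0 : 0 < ρ := half_pos h0
  have p1 : ρ < r' := half_lt_self h0
  have p2 : ρ ≤ r := (p1.trans h1).le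
  have hDρ : Dta f ρ A u k g h q s c B := hD.mono p0.le p1.le
  have hf' : LvlOK f 0 r' := lvl_mono hf h0 h1.le
  have hfρ : LvlOK f 0 ρ := lvl_mono hf p0 p2
  have hKρ : KEon f 0 ρ u := keon_mono hK p0.le p2
  have hEρ : Esc f ρ u A := SkelG_952.esc_mono p0.le p2 hE
  have hνρ : IsNu f 0 ρ (ν.restrict {x | nsq x < ρ ^ 2}) := SkelG_952.isnu_rs p0.le p2 hν
  have hvolρ : ∀ χ, Cut ρ χ → VOL (ν.restrict {x | nsq x < ρ ^ 2}) u χ < ⊤ := fun χ hχ =>
    lt_of_le_of_lt (lintegral_mono' Measure.restrict_le_self le_rfl)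
      (hvol χ (SkelG_952.cut_mono p2 hχ))
  obtain ⟨H, B', mt, dg, det, dual, hbb⟩ := met f ρ A u k g h L q s c B hfρ hDρ
  have hres : (ν.restrict {x | nsq x < r' ^ 2}).restrict {x | nsq x < ρ ^ 2} =
      ν.restrict {x | nsq x < ρ ^ 2} := by
    rw [Measure.restrict_restrict (SkelG_952.isOpen_bl ρ).measurableSet]
    congr 1
    ext x
    exact ⟨fun hx => hx.1, fun hx => ⟨hx, lt_trans (show nsq x < ρ ^ 2 from hx)
      (pow_lt_pow_left₀ p1 p0.le two_ne_zero)⟩⟩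
  have hphi : ∀ χ, Cut ρ χ → Integrable (fun x => χ x * mxd f u (Phi f g q s) x)
      (ν.restrict {x | nsq x < ρ ^ 2}) := by
    intro χ hχ
    have := hD.phi_int hf' (keon_mono hK h0.le h1.le) (SkelG_952.esc_mono h0.le h1.le hE)
      (SkelG_952.isnu_rs h0.le h1.le hν) p0 p1 χ hχ
    rwa [SkelG_952.rs, hres] at this
  have hC : 0 ≤ max 1 (c ^ 2)⁻¹ := zero_le_one.trans (le_max_left _ _)
  obtain ⟨V, hV⟩ := trl_mk hfρ hKρ hEρ hνρ hvolρ hDρ mt dg det hC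
    (fun θ O hP z hz => dual_of hDρ hP hz (dual θ O hP z hz)) (hDρ.phi_smL hfρ)
    (hDρ.phi_psh hfρ) hphi hbb
  exact ⟨ρ, k, g, h, B', H, Phi f g q s, V, p0, p2, hV⟩

/-- `TrialStmt` from helper68's `CLogStmt` -/
theorem trial_of_clog (cl : CLog_68.CLogStmt) (met : MetStmt) : TrialStmt :=
  trial_of (PairK_39.xl_of_clog cl) met

end Crest.Agent.R257.TrA_218
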