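import Crest.Agent.R257.TrB_578

/-!
# Row 257, leaf (TR)/(DEG-CONST) (helper578), part C: regular values

At a regular value `c` the mollified push-forward is `c₀ * ∑ r(x_i)`.
-/

set_option autoImplicit false
set_option linter.unusedSectionVars false

open Set Filter Topology Complex MeasureTheory
open scoped ContDiff Matrix ComplexConjugate

noncomputable section

namespace Crest.Agent.R257.Tr_578

open Crest.Agent.R275.Geo Crest.Agent.R275.EDR890 Crest.Agent.R273.HessB_333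
open Crest.Agent.R273.Piola_5

variable {n : ℕ}

/-- the normalising constant -/
def c0 (n : ℕ) : ℝ := ∫ v : Cn n, kr 1 v

theorem kr_cont (q : ℝ) : Continuous (kr (n := n) q) :=
  kr_smooth.continuous.comp (continuous_const.prodMk continuous_id)

theorem kr_cs {q : ℝ} (hq : 0 < q) : HasCompactSupport (kr (n := n) q) := by
  refine HasCompactSupport.intro (isCompact_closedBall (0 : Cn n) (1 / √q)) fun v hv => ?_
  by_contra h0
  have h1 : v ∈ tsupport (fun y : Cn n => kk q (y - 0)) := by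
    refine subset_tsupport _ ?_
    simp only [sub_zero]
    show ((kr q v : ℝ) : ℂ) ≠ 0
    exact_mod_cast h0
  exact hv (tsupport_kk hq 0 h1)

theorem kr_int {q : ℝ} (hq : 0 < q) : Integrable (kr (n := n) q) :=
  (kr_cont q).integrable_of_hasCompactSupport (kr_cs hq)

theorem c0_pos (n : ℕ) : 0 < c0 n := by
  refine (kr_cont 1).integral_pos_of_hasCompactSupport_nonneg_nonzero (kr_cs one_pos)
    (fun v => kr_nonneg one_pos.le v) (x := 0) ?_
  have : 0 < rho (1 * ‖(0 : Cn n)‖ ^ 2) := rho_pos (by simp)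
  simp only [kr, one_pow, one_mul] at this ⊢
  exact this.ne'

theorem integral_kr {q : ℝ} (hq : 0 < q) : ∫ v : Cn n, kr q v = c0 n := by
  have h1 : ∀ v : Cn n, kr q v = q ^ n * kr 1 (√q • v) := by
    intro v
    simp only [kr, one_pow, one_mul, norm_smul, Real.norm_eq_abs, mul_pow, sq_abs,
      Real.sq_sqrt hq.le]
  simp_rw [h1]
  rw [integral_const_mul, Measure.integral_comp_smul]
  have h2 : Module.finrank ℝ (Cn n) = 2 * n := by
    rw [← Module.finrank_mul_finrank ℝ ℂ (Cn n)]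
    simp [Complex.finrank_real_complex]
  rw [h2, pow_mul, Real.sq_sqrt hq.le, abs_of_nonneg (by positivity), smul_eq_mul, ← mul_assoc,
    mul_inv_cancel₀ (by positivity), one_mul]
  rfl

theorem integral_kr_sub {q : ℝ} (hq : 0 < q) (c : Cn n) : ∫ v : Cn n, kr q (v - c) = c0 n := by
  rw [integral_sub_right_eq_self (fun v => kr q v) c, integral_kr hq]

theorem kr_sub_zero {q : ℝ} (hq : 0 < q) {c y : Cn n} (h : 1 / √q ≤ ‖y - c‖) :
    kr q (y - c) = 0 := by
  apply kr_zero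
  have h1 : (1 / √q) ^ 2 ≤ ‖y - c‖ ^ 2 := pow_le_pow_left₀ (by positivity) h 2
  rw [div_pow, Real.sq_sqrt hq.le, one_pow, div_le_iff₀ hq] at h1
  linarith

/-- integral over a set containing the support -/
theorem setIntegral_kr {q : ℝ} (hq : 0 < q) {c : Cn n} {V : Set (Cn n)}
    (hV : Metric.ball c (1 / √q) ⊆ V) : ∫ v in V, kr q (v - c) = c0 n := by
  rw [← integral_kr_sub hq c]
  refine setIntegral_eq_integral_of_forall_compl_eq_zero fun y hy => ?_
  refine kr_sub_zero hq ?_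
  by_contra hlt
  push Not at hlt
  exact hy (hV (by rwa [Metric.mem_ball, dist_eq_norm]))

/-- real Jacobian of a complex linear map -/
theorem abs_det_restrict (L : Cn n →L[ℂ] Cn n) :
    |(L.restrictScalars ℝ).det| = ‖L.det‖ ^ 2 := by
  have h1 : (L.restrictScalars ℝ).det = Algebra.norm ℝ (LinearMap.det (L : Cn n →ₗ[ℂ] Cn n)) :=
    LinearMap.det_restrictScalars (R := ℝ) (S := ℂ) (f := (L : Cn n →ₗ[ℂ] Cn n))
  rw [h1, Algebra.norm_complex_apply, Complex.normSq_eq_norm_sq, abs_of_nonneg (by positivity)]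

section H
variable {Ω U D : Set (Cn n)} {G : Cn n → Cn n} {r : Cn n → ℂ}

/-- regular value -/
def Reg (Ω : Set (Cn n)) (G : Cn n → Cn n) (c : Cn n) : Prop :=
  ∀ x ∈ Ω, G x = c → (fderiv ℂ G x).det ≠ 0

/-- fibre -/
def Fib (Ω : Set (Cn n)) (G : Cn n → Cn n) (c : Cn n) : Set (Cn n) := {x ∈ Ω | G x = c}

/-- local injectivity and openness at a nondegenerate point -/
theorem Dat.local (h : Dat Ω U D G r) {x : Cn n} (hx : x ∈ Ω) (hJ : (fderiv ℂ G x).det ≠ 0) :
    ∃ V : Set (Cn n), IsOpen V ∧ x ∈ V ∧ InjOn G V ∧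
      ∀ W : Set (Cn n), IsOpen W → x ∈ W → G '' W ∈ 𝓝 (G x) := by
  have hxU : x ∈ U := h.hΩU (subset_closure hx)
  have h1 : HasStrictFDerivAt G (fderiv ℂ G x) x :=
    ((contDiffAt_of_hol h.hU h.hG hxU).of_le (by exact_mod_cast le_top : (1 : WithTop ℕ∞) ≤ _)
      ).hasStrictFDerivAt (by simp)
  let e' := (fderiv ℂ G x).toContinuousLinearEquivOfDetNeZero hJ
  have he' : (e' : Cn n →L[ℂ] Cn n) = fderiv ℂ G x :=
    ContinuousLinearMap.coe_toContinuousLinearEquivOfDetNeZero _ _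
  have hd : HasStrictFDerivAt G (e' : Cn n →L[ℂ] Cn n) x := by rw [he']; exact h1
  set e := hd.toOpenPartialHomeomorph G with he
  refine ⟨e.source, e.open_source, hd.mem_toOpenPartialHomeomorph_source, ?_, ?_⟩
  · have := e.injOn
    rwa [hd.toOpenPartialHomeomorph_coe] at this
  · intro W hW hxW
    rw [← hd.map_nhds_eq_of_equiv]
    exact image_mem_map (hW.mem_nhds hxW)

theorem Dat.fib_closed (h : Dat Ω U D G r) {c : Cn n} (hc : c ∈ D) : IsCompact (Fib Ω G c) := by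
  have h1 : Fib Ω G c = closure Ω ∩ G ⁻¹' {c} := by
    ext x
    refine ⟨fun hx => ⟨subset_closure hx.1, hx.2⟩, fun hx => ⟨?_, hx.2⟩⟩
    by_contra hxΩ
    have hf : x ∈ frontier Ω := ⟨hx.1, by rwa [h.hΩ.interior_eq]⟩
    exact h.hb x hf (by rw [show G x = c from hx.2]; exact hc)
  have h2 : IsClosed (closure Ω ∩ G ⁻¹' {c}) :=
    h.contG.preimage_isClosed_of_isClosed isClosed_closure isClosed_singleton
  rw [h1]
  exact h.hc.of_isClosed_subset h2 inter_subset_left

theorem Dat.fib_finite (h : Dat Ω U D G r) {c : Cn n} (hc : c ∈ D) (hreg : Reg Ω G c) :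
    (Fib Ω G c).Finite := by
  refine (h.fib_closed hc).finite ?_
  rw [isDiscrete_iff_nhdsWithin]
  intro x hx
  obtain ⟨V, hVo, hxV, hinj, -⟩ := h.local hx.1 (hreg x hx.1 hx.2)
  refine le_antisymm ?_ (pure_le_nhdsWithin hx)
  have h1 : V ∩ Fib Ω G c ∈ 𝓝[Fib Ω G c] x :=
    inter_mem (mem_nhdsWithin_of_mem_nhds (hVo.mem_nhds hxV)) self_mem_nhdsWithin
  refine le_pure_iff.2 (mem_of_superset h1 ?_)
  rintro y ⟨hyV, hy⟩
  exact hinj hyV hxV (hy.2.trans hx.2.symm)

/-- **value at a regular point** -/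
theorem Dat.limit (h : Dat Ω U D G r) {c : Cn n} (hc : c ∈ D) (hreg : Reg Ω G c)
    (hfin : (Fib Ω G c).Finite) {δ : ℝ} (hδ : 0 < δ) :
    ∃ q₀ : ℝ, 0 < q₀ ∧ ∀ q, q₀ ≤ q →
      ‖hh Ω G r c q - (c0 n : ℂ) * ∑ x ∈ hfin.toFinset, r x‖ ≤ hfin.toFinset.card * (δ * c0 n) := by
  classical
  obtain ⟨S, hS, hSd⟩ := hfin.t2_separation
  -- neighbourhoods
  have hnb : ∀ x ∈ Fib Ω G c, ∃ W : Set (Cn n), IsOpen W ∧ x ∈ W ∧ W ⊆ Ω ∧ W ⊆ S x ∧ InjOn G W ∧
      (∀ y ∈ W, ‖r y - r x‖ ≤ δ) ∧ G '' W ∈ 𝓝 c := by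
    intro x hx
    obtain ⟨V, hVo, hxV, hinj, him⟩ := h.local hx.1 (hreg x hx.1 hx.2)
    have hxU : x ∈ U := h.hΩU (subset_closure hx.1)
    have hrc : ContinuousAt r x := (h.hr.continuousOn.continuousAt (h.hU.mem_nhds hxU))
    obtain ⟨V', hV', hV'o, hxV'⟩ := mem_nhds_iff.1
      (hrc (Metric.closedBall_mem_nhds (r x) hδ))
    refine ⟨((V ∩ V') ∩ S x) ∩ Ω, ((hVo.inter hV'o).inter (hS x).2).inter h.hΩ,
      ⟨⟨⟨hxV, hxV'⟩, (hS x).1⟩, hx.1⟩, inter_subset_right, fun y hy => hy.1.2,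
      hinj.mono fun y hy => hy.1.1.1, fun y hy => ?_, ?_⟩
    · have := hV' hy.1.1.2
      rwa [mem_preimage, Metric.mem_closedBall, dist_eq_norm] at this
    · have := him (((V ∩ V') ∩ S x) ∩ Ω) (((hVo.inter hV'o).inter (hS x).2).inter h.hΩ)
        ⟨⟨⟨hxV, hxV'⟩, (hS x).1⟩, hx.1⟩
      rwa [show G x = c from hx.2] at this
  choose! W hWo hxW hWΩ hWS hWi hWr hWn using hnb
  set F : Finset (Cn n) := hfin.toFinset with hF
  have hFm : ∀ x, x ∈ F ↔ x ∈ Fib Ω G c := fun x => by simp [hF]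
  -- complement
  have hWU : IsOpen (⋃ x ∈ F, W x) := isOpen_biUnion fun x hx => hWo x ((hFm x).1 hx)
  have hcomp : IsCompact (closure Ω \ ⋃ x ∈ F, W x) := h.hc.diff hWU
  have hcompne : ∀ y ∈ closure Ω \ ⋃ x ∈ F, W x, G y ≠ c := by
    rintro y ⟨hyc, hyW⟩ hGy
    have hyΩ : y ∈ Ω := by
      by_contra hyΩ
      exact h.hb y ⟨hyc, by rwa [h.hΩ.interior_eq]⟩ (hGy ▸ hc)
    have hyF : y ∈ Fib Ω G c := ⟨hyΩ, hGy⟩
    exact hyW (mem_biUnion ((hFm y).2 hyF) (hxW y hyF))
  obtain ⟨ε₁, hε₁, hε₁'⟩ : ∃ ε > 0, ∀ y ∈ closure Ω \ ⋃ x ∈ F, W x, ε ≤ ‖G y - c‖ := by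
    have hco : ContinuousOn (fun y => ‖G y - c‖) (closure Ω \ ⋃ x ∈ F, W x) :=
      ((h.contG.mono sdiff_subset).sub continuousOn_const).norm
    rcases (closure Ω \ ⋃ x ∈ F, W x).eq_empty_or_nonempty with he | hne
    · exact ⟨1, one_pos, fun y hy => by rw [he] at hy; exact hy.elim⟩
    · obtain ⟨y₀, hy₀, hmin⟩ := hcomp.exists_isMinOn hne hco
      exact ⟨‖G y₀ - c‖, norm_pos_iff.2 (sub_ne_zero.2 (hcompne y₀ hy₀)), fun y hy => hmin hy⟩
  obtain ⟨ε₂, hε₂, hε₂'⟩ : ∃ ε > 0, ∀ x ∈ F, Metric.ball c ε ⊆ G '' W x := by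
    have h1 : (⋂ x ∈ F, G '' W x) ∈ 𝓝 c :=
      (Filter.biInter_finset_mem F).2 fun x hx => hWn x ((hFm x).1 hx)
    obtain ⟨ε, hε, hsub⟩ := Metric.mem_nhds_iff.1 h1
    exact ⟨ε, hε, fun x hx => hsub.trans (biInter_subset_of_mem hx)⟩
  set ε := min ε₁ ε₂ with hε
  have hεp : 0 < ε := lt_min hε₁ hε₂
  refine ⟨1 / ε ^ 2, by positivity, fun q hq => ?_⟩
  have hqp : 0 < q := lt_of_lt_of_le (by positivity) hq
  have hqε : 1 / √q ≤ ε := by
    rw [div_le_iff₀ (Real.sqrt_pos.2 hqp)]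
    have h1 : 1 / ε ≤ √q := by
      rw [Real.le_sqrt' (by positivity), div_pow, one_pow]
      exact hq
    calc (1 : ℝ) = ε * (1 / ε) := by field_simp
      _ ≤ ε * √q := by gcongr
  -- decomposition
  have hcont : ContinuousOn (fun x => kk q (G x - c) * wt G r x) (closure Ω) :=
    ((kk_sm q).continuous.comp_continuousOn (h.contG.sub continuousOn_const)).mul h.contW
  have hdec : hh Ω G r c q = ∑ x ∈ F, ∫ y in W x, kk q (G y - c) * wt G r y := by
    rw [← integral_biUnion_finset F (fun x hx => (hWo x ((hFm x).1 hx)).measurableSet)]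
    · rw [hh]
      refine setIntegral_eq_of_subset_of_forall_sdiff_eq_zero h.hΩ.measurableSet
        (iUnion₂_subset fun x hx => hWΩ x ((hFm x).1 hx)) ?_
      intro y hy
      have h1 : ε₁ ≤ ‖G y - c‖ := hε₁' y ⟨subset_closure hy.1, hy.2⟩
      have h2 : kr q (G y - c) = 0 := kr_sub_zero hqp (hqε.trans ((min_le_left _ _).trans h1))
      show ((kr q (G y - c) : ℝ) : ℂ) * _ = 0
      rw [h2, Complex.ofReal_zero, zero_mul]
    · intro x hx y hy hxy
      refine Disjoint.mono (hWS x ((hFm x).1 hx)) (hWS y ((hFm y).1 hy)) ?_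
      exact hSd ((hFm x).1 hx) ((hFm y).1 hy) hxy
    · intro x hx
      exact (hcont.integrableOn_compact h.hc).mono_set
        ((hWΩ x ((hFm x).1 hx)).trans subset_closure)
  rw [hdec, Finset.mul_sum, ← Finset.sum_sub_distrib]
  refine (norm_sum_le _ _).trans ?_
  rw [← nsmul_eq_mul, ← Finset.sum_const]
  refine Finset.sum_le_sum fun x hx => ?_
  have hxF := (hFm x).1 hx
  have hWxc : W x ⊆ closure Ω := (hWΩ x hxF).trans subset_closure
  -- change of variables
  have hcv : ∫ y in W x, ‖(fderiv ℂ G y).det‖ ^ 2 * kr q (G y - c) = c0 n := by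
    have h1 := integral_image_eq_integral_abs_det_fderiv_smul (volume : Measure (Cn n))
      (hWo x hxF).measurableSet (f := G)
      (f' := fun y => (fderiv ℂ G y).restrictScalars ℝ)
      (fun y hy => by
        have hyU : y ∈ U := h.hΩU (hWxc hy)
        exact (((h.hG y hyU).differentiableAt (h.hU.mem_nhds hyU)).hasFDerivAt.restrictScalars
          ℝ).hasFDerivWithinAt) (hWi x hxF) (fun y => kr q (y - c))
    simp only [abs_det_restrict, smul_eq_mul] at h1
    rw [← h1]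
    refine setIntegral_kr hqp ?_
    exact (Metric.ball_subset_ball (hqε.trans (min_le_right _ _))).trans (hε₂' x hx)
  have hWfin : volume (W x) < ⊤ := (measure_mono hWxc).trans_lt h.hc.measure_lt_top
  have hcJ : ContinuousOn (fun y => (jm G y).det) (closure Ω) := h.holJ.continuousOn.mono h.hΩU
  have hcont2 : ContinuousOn (fun y => ‖(fderiv ℂ G y).det‖ ^ 2 * kr q (G y - c)) (closure Ω) := by
    simp_rw [← det_jm]
    exact (hcJ.norm.pow 2).mul ((kr_cont q).comp_continuousOn (h.contG.sub continuousOn_const))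
  have hcvC : (c0 n : ℂ) * r x = ∫ y in W x, kk q (G y - c) * wt G (fun _ => r x) y := by
    rw [← hcv, ← integral_complex_ofReal, ← integral_mul_const]
    refine integral_congr_ae ?_
    filter_upwards with y
    simp only [wt, kk, det_jm]
    rw [Complex.mul_conj']
    push_cast
    ring
  have hcont3 : ContinuousOn (fun y => kk q (G y - c) * wt G (fun _ => r x) y) (closure Ω) := by
    refine ((kk_sm q).continuous.comp_continuousOn (h.contG.sub continuousOn_const)).mul ?_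
    exact continuousOn_const.mul (hcJ.mul (continuous_conj.comp_continuousOn hcJ))
  rw [hcvC, ← integral_sub ((hcont.integrableOn_compact h.hc).mono_set hWxc)
    ((hcont3.integrableOn_compact h.hc).mono_set hWxc)]
  have hbd : ∀ y ∈ W x, ‖kk q (G y - c) * wt G r y - kk q (G y - c) * wt G (fun _ => r x) y‖ ≤
      δ * (‖(fderiv ℂ G y).det‖ ^ 2 * kr q (G y - c)) := by
    intro y hy
    have e1 : kk q (G y - c) * wt G r y - kk q (G y - c) * wt G (fun _ => r x) y =
        (r y - r x) * ((((‖(fderiv ℂ G y).det‖ ^ 2 * kr q (G y - c) : ℝ)) : ℂ)) := by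
      simp only [wt, kk, det_jm]
      rw [Complex.mul_conj']
      push_cast
      ring
    rw [e1, norm_mul, Complex.norm_real, Real.norm_eq_abs,
      abs_of_nonneg (mul_nonneg (by positivity) (kr_nonneg hqp.le _))]
    exact mul_le_mul_of_nonneg_right (hWr x hxF y hy)
      (mul_nonneg (by positivity) (kr_nonneg hqp.le _))
  have hi2 : IntegrableOn (fun y => δ * (‖(fderiv ℂ G y).det‖ ^ 2 * kr q (G y - c))) (W x) :=
    ((hcont2.integrableOn_compact h.hc).mono_set hWxc).const_mul δ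
  refine (norm_integral_le_of_norm_le hi2 ?_).trans ?_
  · filter_upwards [ae_restrict_mem (hWo x hxF).measurableSet] with y hy
    exact hbd y hy
  · rw [integral_const_mul, hcv]

end H

end Crest.Agent.R257.Tr_578
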