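import Crest.Agent.R257.TrD_218
import Crest.Agent.R257.B2_844

/-!
R257 / TrE_218 (helper218): `TrialStmt` (KUP_952) from `CLogStmt` (CLog_68) alone.
-/

set_option autoImplicit false

noncomputable section

namespace Crest.Agent.R257.TrA_218

/-- **`TrialStmt`** from C-LOG -/
theorem trialStmt (cl : CLog_68.CLogStmt) : KUP_952.TrialStmt :=
  trialStmt_of cl B0_844.b0Stmt

end Crest.Agent.R257.TrA_218
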