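import Crest.Agent.R257.FrmA_547

/-!
# R257 / Typ_201 (task C-TYPES, helper201; (TYPES) of 547 #3898)

For a filter `l` on the `(s, y')`-plane with `s → 0`, `s ≠ 0` eventually, and the coordinates
`wc i k = (y' - φ_i(s^M)) / s^(Mk)` the three types

* `TV l i k w₀` : `k` a level of `i`, `wc i k → w₀`, `w₀` not special;
* `TL l i`      : `wc i (top i) → 0`;
* `TN l i k k'` : `k < k'` consecutive, `wc i k → 0`, `wc i k' → ∞`

are exclusive (`TV_TV`, `TV_TL`, `TV_TN`, `TL_TL`, `TL_TN`, `TN_TN`).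
-/

set_option autoImplicit false
set_option linter.unusedSectionVars false

open Polynomial Set Filter Topology Metric
open Crest.AlgGeometry.Germ Crest.Agent.R257.AJ387 Crest.Agent.R257.T387 Crest.Agent.R257.Frm_547

noncomputable section

namespace Crest.Agent.R257.Typ_201

variable {f : (Fin 3 → ℂ) → ℂ} (T : TB f)

/-- the coordinate of the vertex `(i, k)` -/
def wc (i : Fin T.m) (k : ℕ) (q : ℂ × ℂ) : ℂ := (q.2 - T.φ i (q.1 ^ T.M)) / q.1 ^ (T.M * k)

/-- ordinary point of the vertex `(i, k)` -/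
def TV (l : Filter (ℂ × ℂ)) (i : Fin T.m) (k : ℕ) (w₀ : ℂ) : Prop :=
  k ∈ T.lev i ∧ Tendsto (wc T i k) l (𝓝 w₀) ∧ w₀ ∉ T.Sp i k

/-- on the branch `i` -/
def TL (l : Filter (ℂ × ℂ)) (i : Fin T.m) : Prop := Tendsto (wc T i (T.top i)) l (𝓝 0)

/-- node between the levels `k`, `k'` of the branch `i` -/
def TN (l : Filter (ℂ × ℂ)) (i : Fin T.m) (k k' : ℕ) : Prop :=
  T.Cons i k k' ∧ Tendsto (wc T i k) l (𝓝 0) ∧ Tendsto (wc T i k') l (Bornology.cobounded ℂ)

variable {l : Filter (ℂ × ℂ)}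

/-! ### one branch -/

section one

variable {T} (h0 : Tendsto Prod.fst l (𝓝 0)) (h1 : ∀ᶠ q in l, q.1 ≠ 0)

theorem not_both [l.NeBot] {g : ℂ × ℂ → ℂ} {a : ℂ} (h : Tendsto g l (𝓝 a))
    (h' : Tendsto g l (Bornology.cobounded ℂ)) : False :=
  (h.not_tendsto (Metric.disjoint_nhds_cobounded a)) h'

include h1

theorem wc_eq (i : Fin T.m) {k k' : ℕ} (h : k ≤ k') :
    ∀ᶠ q in l, wc T i k q = wc T i k' q * q.1 ^ (T.M * (k' - k)) := by
  filter_upwards [h1] with q hq
  have e : T.M * k' = T.M * k + T.M * (k' - k) := by rw [← mul_add, Nat.add_sub_cancel' h]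
  unfold wc
  rw [e, pow_add]
  field_simp

include h0

theorem pow_tendsto {n : ℕ} (hn : n ≠ 0) : Tendsto (fun q : ℂ × ℂ => q.1 ^ n) l (𝓝 0) := by
  have := h0.pow n
  rwa [zero_pow hn] at this

theorem down {i : Fin T.m} {k k' : ℕ} (h : k < k') {a : ℂ} (ha : Tendsto (wc T i k') l (𝓝 a)) :
    Tendsto (wc T i k) l (𝓝 0) := by
  have hn : T.M * (k' - k) ≠ 0 := Nat.mul_ne_zero T.M_pos.ne' (by omega)
  have h2 := ha.mul (pow_tendsto h0 h1 hn)
  rw [mul_zero] at h2
  exact h2.congr' ((wc_eq h1 i h.le).mono fun q hq => hq.symm)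

theorem down_le {i : Fin T.m} {k k' : ℕ} (h : k ≤ k') (ha : Tendsto (wc T i k') l (𝓝 0)) :
    Tendsto (wc T i k) l (𝓝 0) := by
  rcases h.lt_or_eq with h | rfl
  · exact down h0 h1 h ha
  · exact ha

theorem up_inf {i : Fin T.m} {k k' : ℕ} (h : k ≤ k')
    (ha : Tendsto (wc T i k) l (Bornology.cobounded ℂ)) :
    Tendsto (wc T i k') l (Bornology.cobounded ℂ) := by
  rw [← tendsto_norm_atTop_iff_cobounded] at ha ⊢
  refine tendsto_atTop_mono' l ?_ ha
  have h2 : ∀ᶠ q in l, ‖q.1‖ < 1 := by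
    have := h0.norm
    rw [norm_zero] at this
    exact this.eventually (gt_mem_nhds one_pos)
  filter_upwards [wc_eq h1 i h, h2] with q hq hq1
  rw [hq, norm_mul, norm_pow]
  exact mul_le_of_le_one_right (norm_nonneg _) (pow_le_one₀ (norm_nonneg _) hq1.le)

theorem up {i : Fin T.m} {k k' : ℕ} (h : k < k') {a : ℂ} (ha : Tendsto (wc T i k) l (𝓝 a))
    (ha0 : a ≠ 0) : Tendsto (wc T i k') l (Bornology.cobounded ℂ) := by
  rw [← tendsto_norm_atTop_iff_cobounded]
  have hn : T.M * (k' - k) ≠ 0 := Nat.mul_ne_zero T.M_pos.ne' (by omega)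
  have h2 := (pow_tendsto h0 h1 hn).norm
  rw [norm_zero] at h2
  have h3 : Tendsto (fun q : ℂ × ℂ => ‖q.1 ^ (T.M * (k' - k))‖⁻¹) l atTop := by
    refine tendsto_inv_nhdsGT_zero.comp ?_
    rw [tendsto_nhdsWithin_iff]
    refine ⟨h2, ?_⟩
    filter_upwards [h1] with q hq
    exact norm_pos_iff.2 (pow_ne_zero _ hq)
  have h4 := Filter.Tendsto.pos_mul_atTop (norm_pos_iff.2 ha0) ha.norm h3
  refine h4.congr' ?_
  filter_upwards [wc_eq h1 i h.le, h1] with q hq hq1
  have h5 : ‖q.1 ^ (T.M * (k' - k))‖ ≠ 0 := norm_ne_zero_iff.2 (pow_ne_zero _ hq1)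
  rw [hq, norm_mul, mul_assoc, mul_inv_cancel₀ h5, mul_one]

end one

/-! ### two branches -/

section two

variable {T} (h0 : Tendsto Prod.fst l (𝓝 0)) (h1 : ∀ᶠ q in l, q.1 ≠ 0)
include h0 h1

theorem wc_shift {i j : Fin T.m} {k : ℕ} (h : Eqv T k i j) :
    ∀ᶠ q in l, wc T j k q = wc T i k q + sh T k i j q.1 := by
  have hs : ∀ᶠ q in l, q.1 ∈ sD T := h0.eventually ((isOpen_sD T).mem_nhds (zero_mem_sD T))
  filter_upwards [h1, hs] with q hq hq1
  have e := φ_sh T h hq1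
  have hp : q.1 ^ (T.M * k) ≠ 0 := pow_ne_zero _ hq
  unfold wc
  rw [e]
  field_simp
  ring

theorem sh_tendsto {i j : Fin T.m} {k : ℕ} :
    Tendsto (fun q : ℂ × ℂ => sh T k i j q.1) l (𝓝 (sh T k i j 0)) :=
  ((sh_an T (k := k) (i := i) (j := j) 0 (zero_mem_sD T)).continuousAt.tendsto).comp h0

theorem shift {i j : Fin T.m} {k : ℕ} (h : Eqv T k i j) {a : ℂ}
    (ha : Tendsto (wc T i k) l (𝓝 a)) : Tendsto (wc T j k) l (𝓝 (a + sh T k i j 0)) :=
  (ha.add (sh_tendsto h0 h1)).congr' ((wc_shift h0 h1 h).mono fun q hq => hq.symm)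

theorem shift_inf {i j : Fin T.m} {k : ℕ} (h : Eqv T k i j)
    (ha : Tendsto (wc T i k) l (Bornology.cobounded ℂ)) :
    Tendsto (wc T j k) l (Bornology.cobounded ℂ) := by
  rw [← tendsto_norm_atTop_iff_cobounded] at ha ⊢
  have h2 : Tendsto (fun q => ‖wc T i k q‖ + -(‖sh T k i j 0‖ + 1)) l atTop :=
    tendsto_atTop_add_const_right l _ ha
  refine tendsto_atTop_mono' l ?_ h2
  have h3 : ∀ᶠ q : ℂ × ℂ in l, ‖sh T k i j q.1‖ < ‖sh T k i j 0‖ + 1 :=
    (sh_tendsto h0 h1 (i := i) (j := j) (k := k)).norm.eventually (gt_mem_nhds (by linarith))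
  filter_upwards [wc_shift h0 h1 h, h3] with q hq hq1
  have h4 : ‖wc T i k q‖ ≤ ‖wc T j k q‖ + ‖sh T k i j q.1‖ := by
    have e : wc T i k q = wc T j k q - sh T k i j q.1 := by rw [hq]; ring
    rw [e]; exact norm_sub_le _ _
  linarith

/-- the other branch: if the coordinate of `j` at the contact order tends to `0`, then the one of
`i` tends to a special point -/
theorem other {i j : Fin T.m} (hij : i ≠ j) (ha : Tendsto (wc T j (T.del i j)) l (𝓝 0)) :
    Tendsto (wc T i (T.del i j)) l (𝓝 (-T.u i j 0)) := by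
  have hE : Eqv T (T.del i j) i j := Or.inr le_rfl
  have h2 := (ha.sub (sh_tendsto h0 h1 (i := i) (j := j) (k := T.del i j)))
  rw [sh_zero_of_eq T hij rfl, zero_sub] at h2
  refine h2.congr' ((wc_shift h0 h1 hE).mono fun _ hq => ?_)
  rw [hq]; ring

end two

theorem zero_mem_Sp (i : Fin T.m) (k : ℕ) : (0 : ℂ) ∈ T.Sp i k := Finset.mem_insert_self _ _

theorem del_mem_lev {i j : Fin T.m} (hij : i ≠ j) : T.del i j ∈ T.lev i := by
  classical
  unfold TB.lev
  exact Finset.mem_insert_of_mem (Finset.mem_image_of_mem _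
    (Finset.mem_erase.2 ⟨Ne.symm hij, Finset.mem_univ _⟩))

theorem le_top {i : Fin T.m} {k : ℕ} (h : k ∈ T.lev i) : k ≤ T.top i := Finset.le_max' _ _ h

theorem u_mem_Sp {i j : Fin T.m} (hij : i ≠ j) : -T.u i j 0 ∈ T.Sp i (T.del i j) := by
  rw [mem_Sp]
  exact ⟨j, Or.inr le_rfl, by rw [sh_zero_of_eq T hij rfl]⟩

/-! ### exclusion -/

section main

variable {T} [l.NeBot] (h0 : Tendsto Prod.fst l (𝓝 0)) (h1 : ∀ᶠ q in l, q.1 ≠ 0)
include h0 h1

/-- `wc j (del i j) → 0` excludes all types at `i` -/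
theorem excl_TV {i j : Fin T.m} (hij : i ≠ j) (ha : Tendsto (wc T j (T.del i j)) l (𝓝 0)) {k : ℕ}
    {w₀ : ℂ} (h : TV T l i k w₀) : False := by
  have h2 := other h0 h1 hij ha
  obtain ⟨hk, hw, hs⟩ := h
  have hne : -T.u i j 0 ≠ 0 := neg_ne_zero.2 (u_ne0 T hij)
  rcases lt_trichotomy k (T.del i j) with h3 | h3 | h3
  · have h4 := tendsto_nhds_unique hw (down h0 h1 h3 h2)
    exact hs (h4 ▸ zero_mem_Sp T i k)
  · subst h3
    have h4 := tendsto_nhds_unique hw h2
    exact hs (h4 ▸ u_mem_Sp T hij)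
  · exact not_both hw (up h0 h1 h3 h2 hne)

theorem excl_TL {i j : Fin T.m} (hij : i ≠ j) (ha : Tendsto (wc T j (T.del i j)) l (𝓝 0))
    (h : TL T l i) : False := by
  have h2 := other h0 h1 hij ha
  have hne : -T.u i j 0 ≠ 0 := neg_ne_zero.2 (u_ne0 T hij)
  exact hne (tendsto_nhds_unique h2 (down_le h0 h1 (le_top T (del_mem_lev T hij)) h))

theorem excl_TN {i j : Fin T.m} (hij : i ≠ j) (ha : Tendsto (wc T j (T.del i j)) l (𝓝 0)) {k k' : ℕ}
    (h : TN T l i k k') : False := by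
  have h2 := other h0 h1 hij ha
  have hne : -T.u i j 0 ≠ 0 := neg_ne_zero.2 (u_ne0 T hij)
  obtain ⟨hc, hw, hw'⟩ := h
  rcases hc.2.2.2 _ (del_mem_lev T hij) with h3 | h3
  · exact hne (tendsto_nhds_unique h2 (down_le h0 h1 h3 hw))
  · exact not_both h2 (up_inf h0 h1 h3 hw')

omit [l.NeBot] in
/-- on the branch `j` all coordinates at the levels tend to `0` -/
theorem TL.zero {j : Fin T.m} (h : TL T l j) {k : ℕ} (hk : k ∈ T.lev j) :
    Tendsto (wc T j k) l (𝓝 0) := down_le h0 h1 (le_top T hk) h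

omit [l.NeBot] in
theorem TL.zero' {i j : Fin T.m} (h : TL T l j) (hij : i ≠ j) :
    Tendsto (wc T j (T.del i j)) l (𝓝 0) := by
  rw [del_symm T i j hij]
  exact h.zero h0 h1 (del_mem_lev T (Ne.symm hij))

/-- **V, V** -/
theorem TV_TV {i i' : Fin T.m} {k k' : ℕ} {w w' : ℂ} (h : TV T l i k w) (h' : TV T l i' k' w') :
    k = k' ∧ Eqv T k i i' := by
  -- the equality of the levels from a non-zero limit
  have key : ∀ {j : Fin T.m} {a : ℂ} {k k' : ℕ} {w' : ℂ}, Tendsto (wc T j k) l (𝓝 a) → a ≠ 0 →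
      TV T l j k' w' → k = k' := by
    intro j a k k' w' ha ha0 hV
    have hw0 : w' ≠ 0 := fun h => hV.2.2 (h ▸ zero_mem_Sp T j k')
    rcases lt_trichotomy k k' with h3 | h3 | h3
    · exact absurd (tendsto_nhds_unique ha (down h0 h1 h3 hV.2.1)) ha0
    · exact h3
    · exact absurd (tendsto_nhds_unique hV.2.1 (down h0 h1 h3 ha)) hw0
  have hw0 : w ≠ 0 := fun e => h.2.2 (e ▸ zero_mem_Sp T i k)
  by_cases hii : i = i'
  · subst hii
    exact ⟨key h.2.1 hw0 h', Or.inl rfl⟩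
  by_cases hk : k ≤ T.del i i'
  · have hE : Eqv T k i i' := Or.inr hk
    refine ⟨key (shift h0 h1 hE h.2.1) ?_ h', hE⟩
    intro e
    apply h.2.2
    rw [mem_Sp]
    exact ⟨i', hE, by linear_combination e⟩
  · exfalso
    rw [not_le] at hk
    refine excl_TV (i := i') (j := i) h0 h1 (Ne.symm hii) ?_ h'
    rw [del_symm T i' i (Ne.symm hii)]
    exact down h0 h1 hk h.2.1

/-- **V, L** -/
theorem TV_TL {i i' : Fin T.m} {k : ℕ} {w : ℂ} (h : TV T l i k w) (h' : TL T l i') : False := by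
  by_cases hii : i = i'
  · subst hii
    have h2 := tendsto_nhds_unique h.2.1 (h'.zero h0 h1 h.1)
    exact h.2.2 (h2 ▸ zero_mem_Sp T i k)
  · exact excl_TV h0 h1 hii (h'.zero' h0 h1 hii) h

/-- **V, N** -/
theorem TV_TN {i i' : Fin T.m} {k a b : ℕ} {w : ℂ} (h : TV T l i k w) (h' : TN T l i' a b) :
    False := by
  have hw0 : w ≠ 0 := fun e => h.2.2 (e ▸ zero_mem_Sp T i k)
  by_cases hii : i = i'
  · subst hii
    rcases h'.1.2.2.2 k h.1 with h3 | h3
    · exact hw0 (tendsto_nhds_unique h.2.1 (down_le h0 h1 h3 h'.2.1))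
    · exact not_both h.2.1 (up_inf h0 h1 h3 h'.2.2)
  · have hd : T.del i i' ∈ T.lev i' := by
      rw [del_symm T i i' hii]; exact del_mem_lev T (Ne.symm hii)
    rcases h'.1.2.2.2 _ hd with h3 | h3
    · exact excl_TV h0 h1 hii (down_le h0 h1 h3 h'.2.1) h
    · -- `b ≤ del i i'`
      have hab : a < b := h'.1.2.2.1
      have ha : Tendsto (wc T i a) l (𝓝 0) := by
        have hE : Eqv T a i' i := Eqv.symm (Or.inr (hab.le.trans h3))
        have h4 := shift h0 h1 hE h'.2.1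
        rwa [sh_zero_of_lt T (by rw [del_symm T i' i (Ne.symm hii)]; omega), zero_add] at h4
      have hb : Tendsto (wc T i b) l (Bornology.cobounded ℂ) :=
        shift_inf h0 h1 (Eqv.symm (Or.inr h3)) h'.2.2
      rcases le_or_gt k a with h4 | h4
      · exact hw0 (tendsto_nhds_unique h.2.1 (down_le h0 h1 h4 ha))
      rcases le_or_gt b k with h5 | h5
      · exact not_both h.2.1 (up_inf h0 h1 h5 hb)
      have h6 : k ∈ T.lev i' := lev_of_eqv T (Or.inr (h5.le.trans h3)) h.1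
      rcases h'.1.2.2.2 k h6 with h7 | h7 <;> omega

/-- **L, L** -/
theorem TL_TL {i i' : Fin T.m} (h : TL T l i) (h' : TL T l i') : i = i' := by
  by_contra hii
  exact excl_TL h0 h1 hii (h'.zero' h0 h1 hii) h

/-- **L, N** -/
theorem TL_TN {i i' : Fin T.m} {a b : ℕ} (h : TL T l i) (h' : TN T l i' a b) : False := by
  by_cases hii : i' = i
  · subst hii
    exact not_both (h.zero h0 h1 h'.1.2.1) h'.2.2
  · exact excl_TN h0 h1 hii (h.zero' h0 h1 hii) h'

theorem TN_TN_same {i : Fin T.m} {k k' a b : ℕ} (h : TN T l i k k') (h' : TN T l i a b) :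
    k = a ∧ k' = b := by
  have key : ∀ {k k' a b : ℕ}, TN T l i k k' → TN T l i a b → a ≤ k := by
    intro k k' a b h h'
    by_contra hlt
    rw [not_le] at hlt
    have ha : a ∈ T.lev i := h'.1.1.resolve_left (by omega)
    rcases h.1.2.2.2 a ha with h3 | h3
    · omega
    · exact not_both (down_le h0 h1 h3 h'.2.1) h.2.2
  have e : k = a := le_antisymm (key h' h) (key h h')
  subst e
  refine ⟨rfl, ?_⟩
  have h3 := h.1.2.2.2 b h'.1.2.1
  have h4 := h'.1.2.2.2 k' h.1.2.1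
  have h5 := h.1.2.2.1
  have h6 := h'.1.2.2.1
  omega

/-- **N, N** -/
theorem TN_TN {i j : Fin T.m} {k k' a b : ℕ} (h : TN T l i k k') (h' : TN T l j a b) :
    k = a ∧ k' = b ∧ Eqv T k' i j := by
  by_cases hij : i = j
  · subst hij
    obtain ⟨e, e'⟩ := TN_TN_same h0 h1 h h'
    exact ⟨e, e', Or.inl rfl⟩
  · -- both nodes are below the contact order
    have hk : k' ≤ T.del i j := by
      rcases h.1.2.2.2 _ (del_mem_lev T hij) with h3 | h3
      · exfalso
        refine excl_TN (i := j) (j := i) h0 h1 (Ne.symm hij) ?_ h'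
        rw [del_symm T j i (Ne.symm hij)]
        exact down_le h0 h1 h3 h.2.1
      · exact h3
    have hE : Eqv T k' i j := Or.inr hk
    have hkk : k < k' := h.1.2.2.1
    have hN : TN T l j k k' := by
      refine ⟨⟨?_, lev_of_eqv T hE h.1.2.1, hkk, fun m hm => ?_⟩, ?_, shift_inf h0 h1 hE h.2.2⟩
      · rcases h.1.1 with h3 | h3
        · exact Or.inl h3
        · exact Or.inr (lev_of_eqv T (hE.mono hkk.le) h3)
      · by_contra hc
        push Not at hc
        have h3 : m ∈ T.lev i := lev_of_eqv T ((hE.mono hc.2.le).symm) hm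
        rcases h.1.2.2.2 m h3 with h4 | h4 <;> omega
      · have h4 := shift h0 h1 (hE.mono hkk.le) h.2.1
        rwa [sh_zero_of_lt T (hkk.trans_le hk), zero_add] at h4
    obtain ⟨e, e'⟩ := TN_TN_same h0 h1 hN h'
    exact ⟨e, e', hE⟩

end main

end Crest.Agent.R257.Typ_201
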