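import Crest.Agent.R275.Loc2C_879

/-!
Row 257 (S0395), leaf UI (helper939), part 1: Weierstrass finiteness for modules over rings of
germs: finitely generated over `OO (z₀,0)` and `W^K M ⊆ s M` with `s` vanishing on the fibre
implies finitely generated over `OO z₀`.
-/

set_option autoImplicit false
set_option linter.unusedSectionVars false

open Set Filter Topology Metric Complex
open Crest.Agent.R275.Loc2879

noncomputable section

namespace Crest.Agent.R257.UI939

universe u v w

/-- `M` is finitely generated over the image of `φ`, in explicit form -/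
def FG {R : Type u} {A : Type v} [CommRing R] [CommRing A] (φ : R →+* A) (M : Type w)
    [AddCommGroup M] [Module A M] : Prop :=
  ∃ (k : ℕ) (g : Fin k → M), ∀ m : M, ∃ c : Fin k → R, m = ∑ i, φ (c i) • g i

section WF

variable {E : Type u} [NormedAddCommGroup E] [NormedSpace ℂ E] [FiniteDimensional ℂ E]
variable {z₀ : E}

theorem FG.mono {R : Type u} {R' : Type*} {A : Type v} [CommRing R] [CommRing R'] [CommRing A]
    {φ : R →+* A} {ψ : R' →+* A} {M : Type w} [AddCommGroup M] [Module A M] (h : FG φ M)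
    (hh : ∀ c : R, ∃ c' : R', ψ c' = φ c) : FG ψ M := by
  obtain ⟨k, g, hg⟩ := h
  refine ⟨k, g, fun m => ?_⟩
  obtain ⟨c, hc⟩ := hg m
  choose f hf using hh
  exact ⟨fun i => f (c i), by simp only [hf]; exact hc⟩

theorem FG.of_index {R : Type u} {A : Type v} [CommRing R] [CommRing A] {φ : R →+* A} {M : Type w}
    [AddCommGroup M] [Module A M] {ι : Type*} [Fintype ι] (g : ι → M)
    (hg : ∀ m : M, ∃ c : ι → R, m = ∑ i, φ (c i) • g i) : FG φ M := by
  classical
  let e := Fintype.equivFin ι
  refine ⟨Fintype.card ι, fun i => g (e.symm i), fun m => ?_⟩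
  obtain ⟨c, hc⟩ := hg m
  refine ⟨fun i => c (e.symm i), ?_⟩
  rw [hc]
  exact (Fintype.sum_equiv e.symm _ _ (fun i => rfl)).symm

/-- **Weierstrass finiteness** -/
theorem wf {A : Type v} [CommRing A] {M : Type w} [AddCommGroup M] [Module A M]
    (φ : OO ((z₀, (0 : ℂ)) : E × ℂ) →+* A) (hM : FG φ M) (K : ℕ)
    (s : OO ((z₀, (0 : ℂ)) : E × ℂ)) (hs : rho z₀ s = 0)
    (h : ∀ m : M, ∃ m' : M, φ (Wv z₀) ^ K • m = φ s • m') : FG (φ.comp (iot z₀)) M := by
  classical
  obtain ⟨k, g, hg⟩ := hM
  -- the matrix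
  choose m' hm' using fun i => h (g i)
  choose c hc using fun i => hg (m' i)
  set N : Matrix (Fin k) (Fin k) (OO ((z₀, (0 : ℂ)) : E × ℂ)) := Matrix.of (fun i j => s * c i j)
    with hN
  set B : Matrix (Fin k) (Fin k) (OO ((z₀, (0 : ℂ)) : E × ℂ)) :=
    (Wv z₀ ^ K) • (1 : Matrix (Fin k) (Fin k) _) - N with hB
  have hBg : ∀ i, ∑ j, φ (B i j) • g j = 0 := by
    intro i
    have e1 : ∑ j, φ (B i j) • g j = φ (Wv z₀) ^ K • g i - ∑ j, φ (s * c i j) • g j := by
      simp only [hB, Matrix.sub_apply, Matrix.smul_apply, Matrix.one_apply, hN, Matrix.of_apply,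
        map_sub, sub_smul, Finset.sum_sub_distrib]
      congr 1
      rw [Finset.sum_eq_single i]
      · simp
      · intro j _ hj
        simp [hj.symm]
      · intro h; exact absurd (Finset.mem_univ _) h
    rw [e1, hm' i, hc i, Finset.smul_sum]
    simp [mul_smul]
  set D := B.det with hD
  have hDg : ∀ i, φ D • g i = 0 := by
    intro i
    have e2 : ∑ l, φ (B.adjugate i l) • ∑ j, φ (B l j) • g j = φ D • g i := by
      simp only [Finset.smul_sum, smul_smul, ← map_mul]
      rw [Finset.sum_comm]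
      have e3 : ∀ j, ∑ l, φ (B.adjugate i l * B l j) • g j = φ ((B.adjugate * B) i j) • g j := by
        intro j
        rw [Matrix.mul_apply, map_sum, Finset.sum_smul]
      simp only [e3, Matrix.adjugate_mul]
      rw [Finset.sum_eq_single i]
      · simp [hD]
      · intro j _ hj
        simp [hj.symm]
      · intro h; exact absurd (Finset.mem_univ _) h
    rw [← e2]
    simp [hBg]
  have hDm : ∀ m : M, φ D • m = 0 := by
    intro m
    obtain ⟨c, hc⟩ := hg m
    rw [hc, Finset.smul_sum]
    refine Finset.sum_eq_zero (fun i _ => ?_)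
    rw [smul_comm, hDg, smul_zero]
  have hReg : Reg D (K * k) := by
    refine ⟨1, ?_⟩
    rw [hD, RingHom.map_det]
    have e4 : (rho z₀).mapMatrix B = (TT 0 ^ K) • (1 : Matrix (Fin k) (Fin k) _) := by
      ext i j : 1
      simp only [RingHom.mapMatrix_apply, Matrix.map_apply, hB, Matrix.sub_apply,
        Matrix.smul_apply, hN, Matrix.of_apply, map_sub, map_mul, hs, zero_mul, sub_zero,
        smul_eq_mul, map_pow, rho_Wv, Matrix.one_apply]
      split_ifs <;> simp
    rw [e4, Matrix.det_smul, Matrix.det_one]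
    simp [pow_mul]
  refine FG.of_index (ι := Fin k × Fin (K * k)) (fun p => φ (Wv z₀ ^ (p.2 : ℕ)) • g p.1)
    (fun m => ?_)
  obtain ⟨a, ha⟩ := hg m
  choose q r hr using fun i => div_exists hReg (a i)
  refine ⟨fun p => r p.1 p.2, ?_⟩
  rw [ha, Fintype.sum_prod_type]
  refine Finset.sum_congr rfl (fun i _ => ?_)
  rw [hr i, map_add, add_smul, map_mul, mul_smul, hDg, smul_zero, zero_add, map_sum,
    Finset.sum_smul]
  refine Finset.sum_congr rfl (fun j _ => ?_)
  simp [mul_smul]

end WF

end Crest.Agent.R257.UI939
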