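import Crest.Agent.R257.UI1_939

/-!
Row 257 (S0395), leaf UI (helper939), part 2: iterated Weierstrass finiteness over
`(Fin n → ℂ) × ℂ`, and Nakayama over the ring of germs in the parameter.
-/

set_option autoImplicit false
set_option linter.unusedSectionVars false

open Set Filter Topology Metric Complex
open Crest.Agent.R275.Loc2879

noncomputable section

namespace Crest.Agent.R257.UI939

universe u v w

variable {n : ℕ}

/-- the ring of germs at the origin of `ℂⁿ × ℂ` -/
abbrev AA (n : ℕ) : Type := OO (0 : (Fin n → ℂ) × ℂ)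

/-- analyticity of coordinates -/
lemma an_x (i : Fin n) (p : (Fin n → ℂ) × ℂ) :
    AnalyticAt ℂ (fun p : (Fin n → ℂ) × ℂ => p.1 i) p :=
  (ContinuousLinearMap.analyticAt
    ((ContinuousLinearMap.proj (R := ℂ) (φ := fun _ : Fin n => ℂ) i).comp
      (ContinuousLinearMap.fst ℂ (Fin n → ℂ) ℂ)) p)

/-- coordinate `x_i` -/
def Xv (i : Fin n) : AA n := gm (fun p => p.1 i) (an_x i _)

/-- the parameter -/
def Tv (n : ℕ) : AA n := gm Prod.snd analyticAt_snd

/-- germs in the parameter -/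
def par (n : ℕ) : OO (0 : ℂ) →+* AA n := pull Prod.snd analyticAt_snd rfl

lemma an_phi (k : ℕ) (h : k ≤ n) (p : (Fin n → ℂ) × ℂ) :
    AnalyticAt ℂ (fun p : (Fin n → ℂ) × ℂ =>
      ((p.2, fun i : Fin k => p.1 (Fin.castLE h i)) : ℂ × (Fin k → ℂ))) p :=
  analyticAt_snd.prod (AnalyticAt.pi fun i => an_x _ p)

/-- germs in the parameter and the first `k` coordinates -/
def phi (k : ℕ) (h : k ≤ n) : OO ((0, 0) : ℂ × (Fin k → ℂ)) →+* AA n :=
  pull _ (an_phi k h 0) rfl

lemma an_theta (k : ℕ) (h : k < n) (p : (Fin n → ℂ) × ℂ) :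
    AnalyticAt ℂ (fun p : (Fin n → ℂ) × ℂ =>
      (((p.2, fun i : Fin k => p.1 (Fin.castLE h.le i)), p.1 ⟨k, h⟩) :
        (ℂ × (Fin k → ℂ)) × ℂ)) p :=
  (an_phi k h.le p).prod (an_x _ p)

def theta (k : ℕ) (h : k < n) : OO (((0, 0), 0) : (ℂ × (Fin k → ℂ)) × ℂ) →+* AA n :=
  pull _ (an_theta k h 0) rfl

lemma theta_comp_iot (k : ℕ) (h : k < n) :
    (theta k h).comp (iot ((0, 0) : ℂ × (Fin k → ℂ))) = phi k h.le := by
  ext x
  obtain ⟨f, hf, rfl⟩ := exists_gm x
  rfl

lemma theta_Wv (k : ℕ) (h : k < n) : theta k h (Wv _) = Xv ⟨k, h⟩ := rfl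

lemma theta_T (k : ℕ) (h : k < n) :
    theta k h (iot _ (gm Prod.fst analyticAt_fst)) = Tv n := rfl

lemma rho_T (k : ℕ) :
    rho ((0, 0) : ℂ × (Fin k → ℂ)) (iot _ (gm Prod.fst analyticAt_fst)) = 0 := by
  rw [rho_iot, evp_gm]
  simp

lemma phi_succ_le (k : ℕ) (h : k < n) (c : OO ((0, 0) : ℂ × (Fin (k + 1) → ℂ))) :
    ∃ c' : OO (((0, 0), 0) : (ℂ × (Fin k → ℂ)) × ℂ), theta k h c' = phi (k + 1) h c := by
  have han : AnalyticAt ℂ (fun q : (ℂ × (Fin k → ℂ)) × ℂ =>
      ((q.1.1, fun i : Fin (k + 1) => Fin.snoc (α := fun _ => ℂ) q.1.2 q.2 i) :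
        ℂ × (Fin (k + 1) → ℂ))) (((0, 0), 0) : (ℂ × (Fin k → ℂ)) × ℂ) := by
    refine AnalyticAt.prod (analyticAt_fst.comp analyticAt_fst) (AnalyticAt.pi fun i => ?_)
    refine Fin.lastCases ?_ (fun j => ?_) i
    · simpa using analyticAt_snd
    · simp only [Fin.snoc_castSucc]
      exact (ContinuousLinearMap.analyticAt
        ((ContinuousLinearMap.proj (R := ℂ) (φ := fun _ : Fin k => ℂ) j).comp
          ((ContinuousLinearMap.snd ℂ ℂ (Fin k → ℂ)).comp
            (ContinuousLinearMap.fst ℂ (ℂ × (Fin k → ℂ)) ℂ))) _)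
  have h0 : (fun q : (ℂ × (Fin k → ℂ)) × ℂ =>
      ((q.1.1, fun i : Fin (k + 1) => Fin.snoc (α := fun _ => ℂ) q.1.2 q.2 i) :
        ℂ × (Fin (k + 1) → ℂ))) (((0, 0), 0) : (ℂ × (Fin k → ℂ)) × ℂ) = (0, 0) := by
    refine Prod.ext rfl (funext fun i => ?_)
    refine Fin.lastCases ?_ (fun j => ?_) i
    · simp
    · simp
  refine ⟨pull _ han h0 c, ?_⟩
  obtain ⟨f, hf, rfl⟩ := exists_gm c
  rw [pull_gm, theta, pull_gm, phi, pull_gm, gm_eq_gm]
  refine Eventually.of_forall (fun p => ?_)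
  simp only [Function.comp_apply]
  congr 1
  refine Prod.ext rfl (funext fun i => ?_)
  refine Fin.lastCases ?_ (fun j => ?_) i
  · change Fin.snoc (α := fun _ => ℂ) (fun i : Fin k => p.1 (Fin.castLE h.le i)) (p.1 ⟨k, h⟩)
      (Fin.last k) = p.1 (Fin.castLE h (Fin.last k))
    rw [Fin.snoc_last]
    rfl
  · simp [Fin.castLE]

/-- **iterated Weierstrass finiteness** -/
theorem fin_all {M : Type w} [AddCommGroup M] [Module (AA n) M] (hM : FG (RingHom.id (AA n)) M)
    (hK : ∀ i : Fin n, ∃ K : ℕ, ∀ m : M, ∃ m' : M, Xv i ^ K • m = Tv n • m') :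
    FG (par n) M := by
  -- descending induction
  have key : ∀ k : ℕ, ∀ h : n - k ≤ n, FG (phi (n - k) h) M := by
    intro k
    induction k with
    | zero =>
      intro h
      refine hM.mono (fun c => ?_)
      obtain ⟨f, hf, rfl⟩ := exists_gm c
      have han : AnalyticAt ℂ (fun q : ℂ × (Fin (n - 0) → ℂ) =>
          (((fun i : Fin n => q.2 i), q.1) : (Fin n → ℂ) × ℂ)) (0, 0) :=
        (AnalyticAt.pi fun i => (ContinuousLinearMap.analyticAt
          ((ContinuousLinearMap.proj (R := ℂ) (φ := fun _ : Fin n => ℂ) i).comp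
            (ContinuousLinearMap.snd ℂ ℂ (Fin n → ℂ))) _)).prod analyticAt_fst
      refine ⟨pull _ han rfl (gm f hf), ?_⟩
      rfl
    | succ k ih =>
      intro h
      rcases Nat.lt_or_ge k n with hk | hk
      · have h1 : n - k = (n - (k + 1)) + 1 := by omega
        have h2 := ih (by omega)
        have h3 : n - (k + 1) < n := by omega
        have h4 : FG (phi ((n - (k + 1)) + 1) h3) M := by
          have := h2
          revert this
          have : ∀ (a b : ℕ) (hab : a = b) (ha : a ≤ n) (hb : b ≤ n),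
              FG (phi a ha) M → FG (phi b hb) M := by
            intro a b hab ha hb hh
            subst hab
            exact hh
          exact this _ _ h1 _ _
        have h5 : FG (theta (n - (k + 1)) h3) M := h4.mono (phi_succ_le _ h3)
        obtain ⟨K, hK'⟩ := hK ⟨n - (k + 1), h3⟩
        have h6 := wf (theta (n - (k + 1)) h3) h5 K (iot _ (gm Prod.fst analyticAt_fst)) (rho_T _)
          (fun m => by
            rw [theta_Wv, theta_T]
            exact hK' m)
        rw [theta_comp_iot] at h6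
        exact h6
      · have h1 : n - (k + 1) = n - k := by omega
        have : ∀ (a b : ℕ) (hab : a = b) (ha : a ≤ n) (hb : b ≤ n),
            FG (phi a ha) M → FG (phi b hb) M := by
          intro a b hab ha hb hh
          subst hab
          exact hh
        exact this _ _ h1.symm (by omega) _ (ih (by omega))
  have h0 := key n (by omega)
  refine h0.mono (fun c => ?_)
  obtain ⟨f, hf, rfl⟩ := exists_gm c
  have han : AnalyticAt ℂ (fun t : ℂ => ((t, fun _ => 0) : ℂ × (Fin (n - n) → ℂ))) (0 : ℂ) :=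
    analyticAt_id.prod analyticAt_const
  refine ⟨pull _ han rfl (gm f hf), ?_⟩
  rw [pull_gm, par, pull_gm, phi, pull_gm, gm_eq_gm]
  refine Eventually.of_forall (fun p => ?_)
  simp only [Function.comp_apply]
  congr 1
  refine Prod.ext rfl (funext fun i => ?_)
  exact absurd i.2 (by omega)

/-- **Nakayama** -/
theorem nak {M : Type w} [AddCommGroup M] [Module (AA n) M] (hM : FG (par n) M)
    {ι : Type*} [Fintype ι] (e : ι → M)
    (he : ∀ m : M, ∃ (c : ι → ℂ) (m' : M), m = ∑ i, algebraMap ℂ (AA n) (c i) • e i + Tv n • m') :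
    ∀ m : M, ∃ c : ι → OO (0 : ℂ), m = ∑ i, par n (c i) • e i := by
  classical
  let _ : Module (OO (0 : ℂ)) M := Module.compHom M (par n)
  have hsm : ∀ (a : OO (0 : ℂ)) (m : M), a • m = par n a • m := fun _ _ => rfl
  have hfg : (⊤ : Submodule (OO (0 : ℂ)) M).FG := by
    obtain ⟨k, g, hg⟩ := hM
    refine ⟨Finset.univ.image g, ?_⟩
    rw [eq_top_iff]
    intro m _
    obtain ⟨c, hc⟩ := hg m
    rw [hc]
    refine Submodule.sum_mem _ (fun i _ => ?_)
    rw [← hsm]
    exact Submodule.smul_mem _ _ (Submodule.subset_span (by simp))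
  have hT : par n (TT 0) = Tv n := by
    rw [par, TT, pull_gm, Tv, gm_eq_gm]
    exact Eventually.of_forall (fun p => by simp)
  have hc : ∀ c : ℂ, par n (algebraMap ℂ _ c) = algebraMap ℂ (AA n) c := fun _ => rfl
  have htop : (⊤ : Submodule (OO (0 : ℂ)) M) ≤ Submodule.span (OO (0 : ℂ)) (Set.range e) := by
    refine Submodule.le_of_le_smul_of_le_jacobson_bot (I := Ideal.span {TT (0 : ℂ)}) hfg ?_ ?_
    · rw [IsLocalRing.jacobson_eq_maximalIdeal ⊥ bot_ne_top, Ideal.span_singleton_le_iff_mem,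
        IsLocalRing.mem_maximalIdeal]
      exact TT_not_unit
    · intro m _
      obtain ⟨c, m', hm⟩ := he m
      rw [hm]
      refine Submodule.add_mem_sup (Submodule.sum_mem _ fun i _ => ?_) ?_
      · rw [← hc, ← hsm]
        exact Submodule.smul_mem _ _ (Submodule.subset_span ⟨i, rfl⟩)
      · rw [← hT, ← hsm]
        exact Submodule.smul_mem_smul (Ideal.mem_span_singleton_self _) Submodule.mem_top
  intro m
  have hm := htop (Submodule.mem_top (x := m))
  rw [Submodule.mem_span_range_iff_exists_fun] at hm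
  obtain ⟨c, hc⟩ := hm
  exact ⟨c, hc.symm⟩

end Crest.Agent.R257.UI939
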