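import Crest.Agent.R257.UI4_939
import Crest.Prelude.Def_GermMilnor

/-!
Row 257 (S0395), leaf UI (helper939), part 5: corollaries of the uniform inclusion:
conservation of number, Lojasiewicz lower bound, dictionary with `Def_GermMilnor`,
and everything for the gradient of the `F` of S0395.
-/

set_option autoImplicit false
set_option linter.unusedSectionVars false

open Set Filter Topology Metric Complex
open Crest.Agent.R275.Loc2879
open Crest.AlgGeometry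

noncomputable section

namespace Crest.Agent.R257.UI939

universe u v w

variable {n : ℕ} {κ : Type*} [Fintype κ]

/-- CONSERVATION OF NUMBER: constant multiplicity implies no other zeros nearby -/
theorem cn (G : κ → (Fin n → ℂ) × ℂ → ℂ) (hG : ∀ j, AnalyticAt ℂ (G j) 0) (μ : ℕ)
    (hdim : ∀ᶠ t in 𝓝 (0 : ℂ),
      Module.Finite ℂ (BB n ⧸ Idl (0 : Fin n → ℂ) (fun j x => G j (x, t))) ∧
      dimQ (0 : Fin n → ℂ) (fun j x => G j (x, t)) = μ) :
    ∀ᶠ p in 𝓝 (0 : (Fin n → ℂ) × ℂ), (∀ j, G j p = 0) → p.1 = 0 := by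
  classical
  have key : ∀ i : Fin n, ∀ᶠ p in 𝓝 (0 : (Fin n → ℂ) × ℂ), (∀ j, G j p = 0) → p.1 i = 0 := by
    intro i
    obtain ⟨b, _, hb⟩ := ui G hG μ hdim (Pi.single i μ) (by simp)
    filter_upwards [hb] with p hp h0
    have e1 : ∏ j, p.1 j ^ (Pi.single i μ : Fin n → ℕ) j = p.1 i ^ μ := by
      rw [Finset.prod_eq_single i]
      · simp
      · intro j _ hj
        simp [Pi.single_eq_of_ne hj]
      · intro h; exact absurd (Finset.mem_univ _) h
    rw [e1] at hp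
    simp only [h0, mul_zero, Finset.sum_const_zero] at hp
    exact eq_zero_of_pow_eq_zero hp
  filter_upwards [Filter.eventually_all.2 key] with p hp h0
  ext i
  exact hp i h0

/-- LOJASIEWICZ LOWER BOUND, with the sup norm on `κ → ℂ` -/
theorem lb [NeZero n] (G : κ → (Fin n → ℂ) × ℂ → ℂ) (hG : ∀ j, AnalyticAt ℂ (G j) 0) (μ : ℕ)
    (hdim : ∀ᶠ t in 𝓝 (0 : ℂ),
      Module.Finite ℂ (BB n ⧸ Idl (0 : Fin n → ℂ) (fun j x => G j (x, t))) ∧
      dimQ (0 : Fin n → ℂ) (fun j x => G j (x, t)) = μ) :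
    ∃ C : ℝ, 0 < C ∧ ∀ᶠ p in 𝓝 (0 : (Fin n → ℂ) × ℂ), ‖p.1‖ ^ μ ≤ C * ‖fun j => G j p‖ := by
  classical
  have key : ∀ i : Fin n, ∃ C : ℝ, 0 < C ∧ ∀ᶠ p in 𝓝 (0 : (Fin n → ℂ) × ℂ),
      ‖p.1 i‖ ^ μ ≤ C * ‖fun j => G j p‖ := by
    intro i
    obtain ⟨b, hb0, hb⟩ := ui G hG μ hdim (Pi.single i μ) (by simp)
    refine ⟨1 + ∑ j, (‖b j 0‖ + 1), by positivity, ?_⟩
    have hbd : ∀ j, ∀ᶠ p in 𝓝 (0 : (Fin n → ℂ) × ℂ), ‖b j p‖ < ‖b j 0‖ + 1 := by
      intro j
      exact (hb0 j).continuousAt.norm.eventually_lt continuousAt_const (by simp)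
    filter_upwards [hb, Filter.eventually_all.2 hbd] with p hp hbp
    have e1 : ∏ j, p.1 j ^ (Pi.single i μ : Fin n → ℕ) j = p.1 i ^ μ := by
      rw [Finset.prod_eq_single i]
      · simp
      · intro j _ hj
        simp [Pi.single_eq_of_ne hj]
      · intro h; exact absurd (Finset.mem_univ _) h
    rw [e1] at hp
    rw [← norm_pow, hp, add_mul, one_mul, Finset.sum_mul]
    have h1 : ‖∑ j, b j p * G j p‖ ≤ ∑ j, (‖b j 0‖ + 1) * ‖fun j => G j p‖ := by
      refine (norm_sum_le _ _).trans (Finset.sum_le_sum fun j _ => ?_)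
      rw [norm_mul]
      exact mul_le_mul (hbp j).le (norm_le_pi_norm (fun j => G j p) j) (norm_nonneg _)
        (by positivity)
    have h2 : 0 ≤ ‖fun j => G j p‖ := norm_nonneg _
    linarith
  choose C hC hCb using key
  refine ⟨∑ i, C i, Finset.sum_pos (fun i _ => hC i) ⟨0, Finset.mem_univ _⟩, ?_⟩
  filter_upwards [Filter.eventually_all.2 hCb] with p hp
  obtain ⟨i, hi⟩ := Finite.exists_max (fun i => ‖p.1 i‖)
  have h1 : ‖p.1‖ ≤ ‖p.1 i‖ := (pi_norm_le_iff_of_nonneg (norm_nonneg _)).2 hi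
  calc ‖p.1‖ ^ μ ≤ ‖p.1 i‖ ^ μ := pow_le_pow_left₀ (norm_nonneg _) h1 _
    _ ≤ C i * ‖fun j => G j p‖ := hp i
    _ ≤ (∑ i, C i) * ‖fun j => G j p‖ := by
      refine mul_le_mul_of_nonneg_right ?_ (norm_nonneg _)
      exact Finset.single_le_sum (fun j _ => (hC j).le) (Finset.mem_univ i)

/-! ### the gradient -/

/-- the partial derivatives in the `x`-variables -/
def grad (F : (Fin n → ℂ) × ℂ → ℂ) (j : Fin n) (p : (Fin n → ℂ) × ℂ) : ℂ :=
  fderiv ℂ (fun x => F (x, p.2)) p.1 (Pi.single j 1)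

lemma grad_eq {F : (Fin n → ℂ) × ℂ → ℂ} {p : (Fin n → ℂ) × ℂ} (hF : DifferentiableAt ℂ F p)
    (j : Fin n) : grad F j p = fderiv ℂ F p (Pi.single j 1, 0) := by
  have h1 : HasFDerivAt (fun x : Fin n → ℂ => F (x, p.2))
      ((fderiv ℂ F (p.1, p.2)).comp (ContinuousLinearMap.inl ℂ (Fin n → ℂ) ℂ)) p.1 :=
    HasFDerivAt.comp p.1 (hF.hasFDerivAt) (hasFDerivAt_prodMk_left p.1 p.2)
  rw [grad, h1.fderiv]
  rfl

lemma an_grad {F : (Fin n → ℂ) × ℂ → ℂ} {p : (Fin n → ℂ) × ℂ} (hF : AnalyticAt ℂ F p)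
    (j : Fin n) : AnalyticAt ℂ (grad F j) p := by
  have h1 : AnalyticAt ℂ (fun q => fderiv ℂ F q (Pi.single j 1, 0)) p := by
    have h2 := hF.fderiv
    exact (ContinuousLinearMap.analyticAt
      (ContinuousLinearMap.apply ℂ ℂ ((Pi.single j 1, 0) : (Fin n → ℂ) × ℂ)) _).comp h2
  refine h1.congr ?_
  filter_upwards [hF.eventually_analyticAt] with q hq
  exact (grad_eq hq.differentiableAt j).symm

lemma coordDeriv_eq (F : (Fin n → ℂ) × ℂ → ℂ) (t : ℂ) (j : Fin n) :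
    Germ.coordDeriv (fun x => F (x, t)) j = fun x => grad F j (x, t) := rfl

/-! ### dictionary -/

lemma prop_an (g : Germ.analyticAtOrigin n) : AnalyticAt ℂ (g : (Fin n → ℂ) → ℂ) 0 := g.2

/-- germs of functions analytic at the origin -/
def toOO (n : ℕ) : Germ.analyticAtOrigin n →ₗ[ℂ] BB n where
  toFun g := gm g.1 (prop_an g)
  map_add' _ _ := rfl
  map_smul' c g := by
    rw [RingHom.id_apply, Algebra.smul_def, Crest.Agent.R275.Loc2879.algebraMap_apply, gm_mul,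
      gm_eq_gm]
    exact Eventually.of_forall fun x => rfl

lemma toOO_apply (g : Germ.analyticAtOrigin n) : toOO n g = gm g.1 (prop_an g) := rfl

theorem dict {f : (Fin n → ℂ) → ℂ} (hf : ∀ i, AnalyticAt ℂ (Germ.coordDeriv f i) 0) :
    Nonempty (Germ.JacobianQuotient n f ≃ₗ[ℂ]
      (BB n ⧸ Idl (0 : Fin n → ℂ) (fun i => Germ.coordDeriv f i))) := by
  set I := Idl (0 : Fin n → ℂ) (fun i => Germ.coordDeriv f i) with hI
  let φ : Germ.analyticAtOrigin n →ₗ[ℂ] (BB n ⧸ I) :=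
    (Ideal.Quotient.mkₐ ℂ I).toLinearMap ∘ₗ toOO n
  have hφ : ∀ g, φ g = Ideal.Quotient.mk I (toOO n g) := fun _ => rfl
  have hsurj : Function.Surjective φ := by
    intro q
    obtain ⟨a, rfl⟩ := Ideal.Quotient.mk_surjective q
    obtain ⟨g, hg, rfl⟩ := exists_gm a
    exact ⟨⟨g, hg⟩, rfl⟩
  have hker : Germ.jacobianGerms n f = LinearMap.ker φ := by
    ext g
    rw [LinearMap.mem_ker, hφ, Ideal.Quotient.eq_zero_iff_mem, hI, mem_Idl hf]
    constructor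
    · rintro ⟨a, ha, hg⟩
      refine ⟨fun i => gm (a i) (ha i), ?_⟩
      obtain ⟨h, e⟩ := exists_sum_gm' Finset.univ a (fun i => Germ.coordDeriv f i) ha hf
      rw [e, toOO_apply, gm_eq_gm]
      exact hg
    · rintro ⟨c, hc⟩
      choose a ha hac using fun i => exists_gm (c i)
      obtain rfl : (fun i => gm (a i) (ha i)) = c := funext hac
      obtain ⟨h, e⟩ := exists_sum_gm' Finset.univ a (fun i => Germ.coordDeriv f i) ha hf
      rw [e, toOO_apply, gm_eq_gm] at hc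
      exact ⟨a, ha, hc⟩
  exact ⟨(Submodule.quotEquivOfEq _ _ hker).trans (φ.quotKerEquivOfSurjective hsurj)⟩

section S0395

variable (R : ℝ) (hR : 0 < R) (F : (Fin n → ℂ) × ℂ → ℂ)
    (hF : ∀ t : ℂ, ‖t‖ < R → AnalyticAt ℂ F (0, t))
    (hμ : ∀ t : ℂ, ‖t‖ < R →
      Module.Finite ℂ (Germ.JacobianQuotient n (fun x => F (x, t))) ∧
      Germ.milnorNumber n (fun x => F (x, t)) = Germ.milnorNumber n (fun x => F (x, 0)))

include hR hF hμ

theorem hdim_of_milnor : ∀ᶠ t in 𝓝 (0 : ℂ),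
      Module.Finite ℂ (BB n ⧸ Idl (0 : Fin n → ℂ) (fun j x => grad F j (x, t))) ∧
      dimQ (0 : Fin n → ℂ) (fun j x => grad F j (x, t)) =
        Germ.milnorNumber n (fun x => F (x, 0)) := by
  have hRt : ∀ᶠ t in 𝓝 (0 : ℂ), ‖t‖ < R := by
    filter_upwards [Metric.ball_mem_nhds (0 : ℂ) hR] with t ht
    simpa using ht
  filter_upwards [hRt] with t ht
  obtain ⟨h1, h2⟩ := hμ t ht
  have han : ∀ i, AnalyticAt ℂ (Germ.coordDeriv (fun x => F (x, t)) i) (0 : Fin n → ℂ) := by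
    intro i
    rw [coordDeriv_eq]
    exact AnalyticAt.comp (g := grad F i) (f := fun x : Fin n → ℂ => (x, t))
      (an_grad (hF t ht) i) (analyticAt_id.prod analyticAt_const)
  obtain ⟨e⟩ := dict han
  refine ⟨Module.Finite.equiv e, ?_⟩
  rw [← h2]
  exact e.finrank_eq.symm

/-- UNIFORM INCLUSION for the gradient of a `μ`-constant family -/
theorem ui_grad (α : Fin n → ℕ) (hα : ∑ i, α i = Germ.milnorNumber n (fun x => F (x, 0))) :
    ∃ b : Fin n → (Fin n → ℂ) × ℂ → ℂ, (∀ j, AnalyticAt ℂ (b j) 0) ∧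
      ∀ᶠ p in 𝓝 (0 : (Fin n → ℂ) × ℂ), ∏ i, p.1 i ^ α i = ∑ j, b j p * grad F j p :=
  ui (grad F) (fun j => an_grad (hF 0 (by simpa using hR)) j) _
    (hdim_of_milnor R hR F hF hμ) α hα

/-- (H1): critical points only on the axis -/
theorem h1_grad : ∀ᶠ p in 𝓝 (0 : (Fin n → ℂ) × ℂ),
    p.1 ≠ 0 → fderiv ℂ (fun x => F (x, p.2)) p.1 ≠ 0 := by
  filter_upwards [cn (grad F) (fun j => an_grad (hF 0 (by simpa using hR)) j) _
    (hdim_of_milnor R hR F hF hμ)] with p hp h0 h1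
  exact h0 (hp fun j => by rw [grad, h1]; rfl)

/-- KEY LOWER BOUND -/
theorem lb_grad [NeZero n] : ∃ C : ℝ, 0 < C ∧ ∀ᶠ p in 𝓝 (0 : (Fin n → ℂ) × ℂ),
    ‖p.1‖ ^ (Germ.milnorNumber n (fun x => F (x, 0))) ≤
      C * ‖fderiv ℂ (fun x => F (x, p.2)) p.1‖ := by
  obtain ⟨C, hC, h⟩ := lb (grad F) (fun j => an_grad (hF 0 (by simpa using hR)) j) _
    (hdim_of_milnor R hR F hF hμ)
  refine ⟨C, hC, ?_⟩
  filter_upwards [h] with p hp
  refine hp.trans (mul_le_mul_of_nonneg_left ?_ hC.le)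
  refine (pi_norm_le_iff_of_nonneg (norm_nonneg _)).2 (fun j => ?_)
  refine (ContinuousLinearMap.le_opNorm _ _).trans ?_
  have : ‖(Pi.single j 1 : Fin n → ℂ)‖ ≤ 1 := by
    rw [Pi.norm_single]; simp
  exact (mul_le_mul_of_nonneg_left this (norm_nonneg _)).trans (by simp)

end S0395

end Crest.Agent.R257.UI939
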