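import Crest.Agent.R257.UI5_939

/-!
Row 257 (S0395), leaf CNF (helper939): semicontinuity of the multiplicity, and the uniform
inclusion / conservation of number from a FREQUENT lower bound for the multiplicity.
-/

set_option autoImplicit false
set_option linter.unusedSectionVars false

open Set Filter Topology Metric Complex
open Crest.Agent.R275.Loc2879

noncomputable section

namespace Crest.Agent.R257.UI939

universe u v w

variable {n : ℕ}

section Alg

variable {A : Type v} [CommRing A] [IsLocalRing A] [Algebra ℂ A]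

open Polynomial in
/-- a nonunit annihilated by a nonzero polynomial modulo `I` is nilpotent modulo `I` -/
lemma pow_mem_of_aeval (x : A) (hx : ¬ IsUnit x) (I : Ideal A) : ∀ (m j : ℕ) (P : ℂ[X]), P ≠ 0 →
    P.natDegree + j ≤ m → x ^ j * aeval x P ∈ I → x ^ m ∈ I := by
  intro m j P
  induction hd : P.natDegree using Nat.strong_induction_on generalizing P j with
  | _ d ih =>
  intro hP hdeg hmem
  by_cases h0 : P.coeff 0 = 0
  · have hPX : P = X * P.divX := by
      conv_lhs => rw [← Polynomial.divX_mul_X_add P, h0, map_zero, add_zero, mul_comm]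
    have hne : P.divX ≠ 0 := by
      intro h; rw [h, mul_zero] at hPX; exact hP hPX
    have hdeg' : P.natDegree = P.divX.natDegree + 1 := by
      conv_lhs => rw [hPX]
      rw [Polynomial.natDegree_X_mul hne]
    refine ih P.divX.natDegree (by omega) (j + 1) P.divX rfl hne (by omega) ?_
    rw [hPX, map_mul, aeval_X, ← mul_assoc, ← pow_succ] at hmem
    exact hmem
  · have hu : IsUnit (aeval x P) := by
      rw [← Polynomial.divX_mul_X_add P, map_add, map_mul, aeval_X, aeval_C]
      by_contra hcon
      have h1 : ¬ IsUnit (aeval x P.divX * x) := fun h => hx (isUnit_of_mul_isUnit_right h)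
      have h2 : IsUnit (algebraMap ℂ A (P.coeff 0)) := (IsUnit.mk0 _ h0).map _
      have h3 : algebraMap ℂ A (P.coeff 0) =
          (aeval x P.divX * x + algebraMap ℂ A (P.coeff 0)) + (-(aeval x P.divX * x)) := by ring
      rw [h3] at h2
      refine IsLocalRing.nonunits_add hcon ?_ h2
      rw [mem_nonunits_iff, IsUnit.neg_iff]
      exact h1
    have h1 : x ^ j ∈ I := by
      obtain ⟨u, hu⟩ := hu
      rw [← hu] at hmem
      have := I.mul_mem_right (↑u⁻¹ : A) hmem
      rwa [mul_assoc, Units.mul_inv, mul_one] at this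
    have h2 : m = j + (m - j) := by omega
    rw [h2, pow_add]
    exact I.mul_mem_right _ h1

/-- finitely many relations bound the multiplicity -/
theorem span_of_rel (x : Fin n → A) (hx : ∀ i, ¬ IsUnit (x i))
    (had : ∀ a : A, ∃ (c : ℂ) (y : Fin n → A), a = algebraMap ℂ A c + ∑ i, y i * x i)
    (I : Ideal A) {N : ℕ} (e : Fin N → A)
    (hrel : ∀ β : Fin n → ℕ, ∑ i, β i ≤ n * N → ∃ c : Fin N → ℂ,
      mon x β - ∑ i, algebraMap ℂ A (c i) * e i ∈ I) :
    ⊤ ≤ Submodule.span ℂ (Set.range fun i => (Ideal.Quotient.mkₐ ℂ I).toLinearMap (e i)) := by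
  classical
  let π : A →ₗ[ℂ] (A ⧸ I) := (Ideal.Quotient.mkₐ ℂ I).toLinearMap
  have hπ : ∀ a, π a = 0 ↔ a ∈ I := fun a => Ideal.Quotient.eq_zero_iff_mem
  have hrel' : ∀ β : Fin n → ℕ, ∑ i, β i ≤ n * N → ∃ c : Fin N → ℂ,
      π (mon x β) = ∑ i, c i • π (e i) := by
    intro β hβ
    obtain ⟨c, hc⟩ := hrel β hβ
    refine ⟨c, ?_⟩
    rw [← hπ, map_sub, sub_eq_zero] at hc
    rw [hc, map_sum]
    refine Finset.sum_congr rfl fun i _ => ?_
    rw [← Algebra.smul_def, map_smul]
  -- powers of the coordinates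
  have hpow : ∀ i : Fin n, x i ^ N ∈ I := by
    intro i
    have hn : 0 < n := Fin.pos i
    have hc1 : ∀ k : Fin (N + 1), ∃ c : Fin N → ℂ, π (x i ^ (k : ℕ)) = ∑ j, c j • π (e j) := by
      intro k
      have h1 : mon x (Pi.single i (k : ℕ)) = x i ^ (k : ℕ) := by
        unfold mon
        rw [Finset.prod_eq_single i]
        · simp
        · intro j _ hj
          simp [Pi.single_eq_of_ne hj]
        · intro h; exact absurd (Finset.mem_univ _) h
      have h2 : ∑ j, (Pi.single i (k : ℕ) : Fin n → ℕ) j ≤ n * N := by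
        simp only [Finset.sum_pi_single', Finset.mem_univ, if_true]
        have := k.2
        nlinarith
      obtain ⟨c, hc⟩ := hrel' _ h2
      exact ⟨c, by rw [← h1]; exact hc⟩
    choose c hc using hc1
    have hdep : ¬ LinearIndependent ℂ c := by
      intro h
      have := h.fintype_card_le_finrank
      simp at this
    rw [Fintype.not_linearIndependent_iff] at hdep
    obtain ⟨g, hg, k0, hk0⟩ := hdep
    let P : Polynomial ℂ := ∑ k : Fin (N + 1), Polynomial.C (g k) * Polynomial.X ^ (k : ℕ)
    have hPc : ∀ k : Fin (N + 1), P.coeff (k : ℕ) = g k := by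
      intro k
      simp only [P, Polynomial.finsetSum_coeff, Polynomial.coeff_C_mul, Polynomial.coeff_X_pow]
      rw [Finset.sum_eq_single k]
      · simp
      · intro j _ hj
        have : (k : ℕ) ≠ (j : ℕ) := fun h => hj (Fin.ext h.symm)
        simp [this]
      · intro h; exact absurd (Finset.mem_univ _) h
    have hP0 : P ≠ 0 := by
      intro h
      apply hk0
      rw [← hPc k0, h, Polynomial.coeff_zero]
    have hPd : P.natDegree ≤ N := by
      refine Polynomial.natDegree_sum_le_of_forall_le _ _ fun k _ => ?_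
      exact (Polynomial.natDegree_C_mul_X_pow_le _ _).trans (Nat.lt_succ_iff.1 k.2)
    refine pow_mem_of_aeval (x i) (hx i) I N 0 P hP0 (by omega) ?_
    rw [pow_zero, one_mul, ← hπ]
    simp only [P, map_sum, map_mul, Polynomial.aeval_C, Polynomial.aeval_X, map_pow]
    have h5 : ∀ k : Fin (N + 1), π (algebraMap ℂ A (g k) * x i ^ (k : ℕ)) =
        ∑ j, (g k * c k j) • π (e j) := by
      intro k
      rw [← Algebra.smul_def, map_smul, hc k, Finset.smul_sum]
      simp only [smul_smul]
    simp only [h5]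
    rw [Finset.sum_comm]
    refine Finset.sum_eq_zero fun j _ => ?_
    rw [← Finset.sum_smul]
    have h6 := congrFun hg j
    simp only [Finset.sum_apply, Pi.smul_apply, smul_eq_mul, Pi.zero_apply] at h6
    rw [h6, zero_smul]
  have hJ : JJ x (n * N + 1) ≤ I := by
    refine Ideal.span_le.2 ?_
    rintro a ⟨β, h1, rfl⟩
    obtain ⟨i, hi⟩ : ∃ i, N ≤ β i := by
      by_contra hcon
      push Not at hcon
      have h2 : ∑ i, β i ≤ ∑ _i : Fin n, N := Finset.sum_le_sum fun i _ => (hcon i).le
      rw [Finset.sum_const, Finset.card_univ, Fintype.card_fin, smul_eq_mul] at h2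
      omega
    have h2 : mon x β = x i ^ β i * ∏ j ∈ Finset.univ.erase i, x j ^ β j :=
      (Finset.mul_prod_erase _ (fun j => x j ^ β j) (Finset.mem_univ i)).symm
    rw [h2]
    refine I.mul_mem_right _ ?_
    have h3 : β i = N + (β i - N) := by omega
    rw [h3, pow_add]
    exact I.mul_mem_right _ (hpow i)
  intro q hq
  clear hq
  obtain ⟨a, rfl⟩ := Ideal.Quotient.mk_surjective q
  change π a ∈ _
  obtain ⟨v, hv, w, hw, rfl⟩ := Submodule.mem_sup.1 (mem_VV_sup x had (n * N + 1) a)
  have hw0 : π w = 0 := (hπ w).2 (hJ hw)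
  rw [map_add, hw0, add_zero]
  clear hw hw0
  unfold VV at hv
  induction hv using Submodule.span_induction with
  | mem z hz =>
    obtain ⟨β, h1, rfl⟩ := hz
    obtain ⟨c, hc⟩ := hrel' β (by omega)
    rw [hc]
    exact Submodule.sum_mem _ fun i _ =>
      Submodule.smul_mem _ _ (Submodule.subset_span ⟨i, rfl⟩)
  | zero => rw [map_zero]; exact Submodule.zero_mem _
  | add y z _ _ h1 h2 => rw [map_add]; exact Submodule.add_mem _ h1 h2
  | smul s z _ hz => rw [map_smul]; exact Submodule.smul_mem _ _ hz

theorem finite_of_span {I : Ideal A} {N : ℕ} {e : Fin N → A}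
    (h : ⊤ ≤ Submodule.span ℂ
      (Set.range fun i => (Ideal.Quotient.mkₐ ℂ I).toLinearMap (e i))) :
    Module.Finite ℂ (A ⧸ I) ∧ Module.finrank ℂ (A ⧸ I) ≤ N := by
  classical
  have h1 : Submodule.span ℂ
      (Set.range fun i => (Ideal.Quotient.mkₐ ℂ I).toLinearMap (e i)) = ⊤ := top_le_iff.1 h
  refine ⟨⟨?_⟩, ?_⟩
  · rw [← h1]
    exact Submodule.fg_span (Set.finite_range _)
  · have h2 := finrank_range_le_card (R := ℂ)
      (b := fun i => (Ideal.Quotient.mkₐ ℂ I).toLinearMap (e i))
    rw [Set.finrank, h1, finrank_top, Fintype.card_fin] at h2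
    exact h2

end Alg

end Crest.Agent.R257.UI939
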