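import Crest.Agent.R257.KUP_952
import Crest.Agent.R257.OutD_309

/-!
# R257 (S0395), leaf UPP-VL (helper351)

* `vlStmt`  : every smooth Hermitian metric on `Ω¹` of the punctured level has a volume function
* `mtOStmt` : the Kaehler-Einstein metric is a metric on `Ω¹`, `c2h = c2d`
-/

set_option autoImplicit false
set_option linter.unusedSectionVars false

open Set Filter Topology Complex MeasureTheory
open scoped ContDiff Matrix ComplexConjugate ComplexOrder ENNReal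

namespace Crest.Agent.R257.UVl_351

open Crest.Agent.R275.Geo Crest.Agent.R275.EDR890
open Crest.Agent.R273.Fock_243 Crest.Agent.R273.Calc_243
open Crest.Agent.R273.Bkn_243 Crest.Agent.R273.Pos_243 Crest.Agent.R273.BochA_101
open Crest.Agent.R273.BochB_101
open Crest.Agent.R273.BochC_101 Crest.Agent.R273.BochD_101
open Crest.Agent.R273.Hess_333 Crest.Agent.R273.HessB_333
open Crest.Agent.R273.Defs_333 (lev)
open Crest.Agent.R273.YauDefs_635 (cH)
open Crest.Agent.R273.YauMax_635 (cH_eq_hess)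
open Crest.Agent.R257.C2F1_625 Crest.Agent.R257.C2F2_625 Crest.Agent.R257.C2F3_625
open Crest.Agent.R257.C2F4_335 Crest.Agent.R257.C2F5_335 Crest.Agent.R257.C2F6_335
open Crest.Agent.R257.Defs_219
open Crest.Agent.R257.PN_835 (nsq)
open Crest.Agent.R257.Aff_835 (eta2a)
open Crest.Agent.R257.KED_952 Crest.Agent.R257.Ked1_397 Crest.Agent.R257.Ked2_397
open Crest.Agent.R257.V1Defs_822 (SmL LvlOK)
open Crest.Agent.R257.OutA_309 Crest.Agent.R257.OutB_309 Crest.Agent.R257.LossD_309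
open Crest.Agent.R257.OutC_309 Crest.Agent.R257.OutD_309
open Crest.Agent.R257.LossA_625 (Lv)
open Crest.Agent.R257.KUP_952

noncomputable section

/-! ### linear algebra -/

/-- a Hermitian `2 × 2` matrix whose form vanishes is zero -/
theorem herm_zero {M : Matrix (Fin 2) (Fin 2) ℂ} (hM : M.IsHermitian)
    (h : ∀ x : Fin 2 → ℂ, (star x ⬝ᵥ (M *ᵥ x)).re = 0) : M = 0 := by
  have h00 := h ![1, 0]
  have h11 := h ![0, 1]
  have h01 := h ![1, 1]
  have h0I := h ![1, I]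
  have e1 : star (M 0 1) = M 1 0 := hM.apply 1 0
  have e2 : star (M 0 0) = M 0 0 := hM.apply 0 0
  have e3 : star (M 1 1) = M 1 1 := hM.apply 1 1
  have i0 : (M 0 0).im = 0 := by
    have := congrArg Complex.im e2
    simp only [Complex.star_def, Complex.conj_im] at this
    linarith
  have i1 : (M 1 1).im = 0 := by
    have := congrArg Complex.im e3
    simp only [Complex.star_def, Complex.conj_im] at this
    linarith
  have r10 : (M 1 0).re = (M 0 1).re := by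
    rw [← e1]; simp
  have i10 : (M 1 0).im = -(M 0 1).im := by
    rw [← e1]; simp
  simp [Matrix.mulVec, dotProduct, Fin.sum_univ_two] at h00 h11 h01 h0I
  have k1 : (M 0 1).re = 0 := by linarith
  have k2 : (M 0 1).im = 0 := by linarith
  ext i j
  fin_cases i <;> fin_cases j
  · exact Complex.ext h00 i0
  · exact Complex.ext k1 k2
  · exact Complex.ext (r10.trans k1) (i10.trans (by rw [k2, neg_zero]; rfl))
  · exact Complex.ext h11 i1

/-- `|Ax|²_H` -/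
theorem form_mul (A H : Matrix (Fin 2) (Fin 2) ℂ) (x : Fin 2 → ℂ) :
    star (A *ᵥ x) ⬝ᵥ (H *ᵥ (A *ᵥ x)) = star x ⬝ᵥ ((Aᴴ * H * A) *ᵥ x) := by
  rw [Matrix.star_mulVec, ← Matrix.dotProduct_mulVec, Matrix.mulVec_mulVec, Matrix.mulVec_mulVec,
    Matrix.mul_assoc]

/-- two Hermitian matrices with the same form -/
theorem herm_eq {A H H' : Matrix (Fin 2) (Fin 2) ℂ} (hH : H.IsHermitian) (hH' : H'.IsHermitian)
    (h : ∀ x : Fin 2 → ℂ,
      (star (A *ᵥ x) ⬝ᵥ (H *ᵥ (A *ᵥ x))).re = (star x ⬝ᵥ (H' *ᵥ x)).re) :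
    Aᴴ * H * A = H' := by
  refine sub_eq_zero.1 (herm_zero ?_ fun x => ?_)
  · refine Matrix.IsHermitian.sub ?_ hH'
    exact Matrix.isHermitian_conjTranspose_mul_mul A hH
  · rw [Matrix.sub_mulVec, dotProduct_sub, Complex.sub_re, ← form_mul, h x, sub_self]

/-! ### linear functions -/

/-- linear functions are analytic -/
theorem lin_an (a : E3) (x : E3) : AnalyticAt ℂ (lin a) x := by
  unfold lin
  exact Finset.analyticAt_fun_sum _ fun i _ => analyticAt_const.mul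
    ((ContinuousLinearMap.proj (R := ℂ) (φ := fun _ : Fin 3 => ℂ) i).analyticAt x)

variable {f : E3 → ℂ} {s : ℂ} {r : ℝ}

theorem dV_lin {θ : Cn 2 → E3} {O : Set (Cn 2)} (hP : Aff_835.Par (n := 2) f s θ O) {z : Cn 2}
    (hz : z ∈ O) (a : E3) (i : Fin 2) :
    dV (lin a) θ z i = ∑ j, a j * fderiv ℂ θ z (EuclideanSpace.single i 1) j := by
  have hd : DifferentiableAt ℂ θ z := hP.diffAt hz
  have h1 : HasFDerivAt (fun w => lin a (θ w))
      (∑ j, a j • (ContinuousLinearMap.proj (R := ℂ) (φ := fun _ : Fin 3 => ℂ) j).comp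
        (fderiv ℂ θ z)) z := by
    unfold lin
    refine HasFDerivAt.fun_sum fun j _ => ?_
    refine HasFDerivAt.const_mul ?_ (a j)
    exact ((ContinuousLinearMap.proj (R := ℂ) (φ := fun _ : Fin 3 => ℂ)
      j).hasFDerivAt (x := θ z)).comp z hd.hasFDerivAt
  show fderiv ℂ (fun w => lin a (θ w)) z (EuclideanSpace.single i 1) = _
  rw [h1.fderiv]
  simp

/-- all covectors at a point are differentials of linear functions -/
theorem dV_lin_surj {θ : Cn 2 → E3} {O : Set (Cn 2)} (hP : Aff_835.Par (n := 2) f s θ O)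
    {z : Cn 2} (hz : z ∈ O) (x : Fin 2 → ℂ) : ∃ a : E3, dV (lin a) θ z = x := by
  -- the matrix of `fderiv θ z`
  set D : Matrix (Fin 2) (Fin 3) ℂ := Matrix.of fun i j =>
    fderiv ℂ θ z (EuclideanSpace.single i 1) j with hD
  have hker : ∀ y : Fin 2 → ℂ, (D * Dᴴ) *ᵥ y = 0 → y = 0 := by
    intro y hy
    have h1 : Dᴴ *ᵥ y = 0 := by
      have h2 : star (Dᴴ *ᵥ y) ⬝ᵥ (Dᴴ *ᵥ y) = 0 := by
        rw [Matrix.star_mulVec, Matrix.conjTranspose_conjTranspose, ← Matrix.dotProduct_mulVec,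
          Matrix.mulVec_mulVec, hy, dotProduct_zero]
      exact dotProduct_star_self_eq_zero.1 h2
    have h3 : fderiv ℂ θ z (WithLp.toLp 2 (star y)) = 0 := by
      have h4 : (WithLp.toLp 2 (star y) : Cn 2) =
          ∑ i, star y i • (EuclideanSpace.single i (1 : ℂ) : Cn 2) := by
        ext b
        fin_cases b <;> simp [Fin.sum_univ_two]
      rw [h4, map_sum]
      funext j
      have h5 := congrFun h1 j
      simp only [Matrix.mulVec, dotProduct, Matrix.conjTranspose_apply, hD, Matrix.of_apply,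
        Pi.zero_apply] at h5
      have h6 := congrArg star h5
      rw [star_sum, star_zero] at h6
      rw [Finset.sum_apply]
      refine Eq.trans (Finset.sum_congr rfl fun i _ => ?_) h6
      rw [map_smul, Pi.smul_apply, smul_eq_mul, star_mul', star_star, mul_comm]
      rfl
    have h7 := hP.imm z hz _ h3
    have h8 : star y = 0 := by
      funext i
      exact congrArg (fun u : Cn 2 => u i) h7
    exact star_eq_zero.1 h8
  have hdet : IsUnit (D * Dᴴ).det := by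
    refine isUnit_iff_ne_zero.2 fun h0 => ?_
    obtain ⟨v, hv0, hv⟩ := Matrix.exists_mulVec_eq_zero_iff.2 h0
    exact hv0 (hker v hv)
  refine ⟨Dᴴ *ᵥ ((D * Dᴴ)⁻¹ *ᵥ x), ?_⟩
  have h1 : ∀ a : E3, dV (lin a) θ z = D *ᵥ a := by
    intro a
    funext i
    rw [dV_lin hP hz a i]
    simp only [Matrix.mulVec, dotProduct, hD, Matrix.of_apply]
    exact Finset.sum_congr rfl fun j _ => mul_comm _ _
  rw [h1, Matrix.mulVec_mulVec, Matrix.mulVec_mulVec, Matrix.mul_nonsing_inv _ hdet,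
    Matrix.one_mulVec]

/-! ### the volume function -/

/-- the metric in two parametrisations -/
theorem mt_trans {H : Form} (L : LvlOK f 0 r) (hH : Mt f r H) {θ θ' : Cn 2 → E3}
    {O O' : Set (Cn 2)} {z z' : Cn 2} (hP : PE f 0 r θ O) (hP' : PE f 0 r θ' O') (hz : z ∈ O)
    (hz' : z' ∈ O') (e : θ z = θ' z') :
    ∃ T : Cn 2 → Cn 2, (∀ᶠ w in 𝓝 z, DifferentiableAt ℂ T w) ∧ T z = z' ∧
      (∀ᶠ w in 𝓝 z, T w ∈ O' ∧ θ w = θ' (T w)) ∧ (Jac T z).det ≠ 0 ∧
      ((Jac T z)ᵀ)ᴴ * H θ z * (Jac T z)ᵀ = H θ' z' := by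
  have hx := L.an _ (hP'.lt z' hz')
  have h0 := L.sm _ (hP'.ne z' hz') (hP'.lt z' hz') (hP'.par.lvl z' hz')
  obtain ⟨T, hT, hTz, hTe⟩ := exists_trans hP.par hP'.par hz hz' e hx.hasStrictFDerivAt h0
  have hdet := det_trans hP.par hP'.par hz hT hTe
  refine ⟨T, hT, hTz, hTe, hdet, ?_⟩
  refine herm_eq (hH.pos θ O hP z hz).isHermitian (hH.pos θ' O' hP' z' hz').isHermitian fun x => ?_
  obtain ⟨a, ha⟩ := dV_lin_surj hP'.par hz' x
  have h1 : dV (lin a) θ z = (Jac T z)ᵀ *ᵥ dV (lin a) θ' (T z) :=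
    dV_trans (r := r) (fun y _ => lin_an a y) hP' hT.self_of_nhds hTe
  rw [hTz, ha] at h1
  have h2 := hH.ind θ O θ' O' z z' hP hP' hz hz' e a
  unfold hV at h2
  rw [h1, ha] at h2
  exact h2

/-- `det H |η|²` -/
def dv (f : E3 → ℂ) (H : Form) (θ : Cn 2 → E3) (z : Cn 2) : ℝ :=
  (H θ z).det.re * eta2a (n := 2) f θ z

theorem dv_pos {H : Form} (L : LvlOK f 0 r) (hH : Mt f r H) {θ : Cn 2 → E3} {O : Set (Cn 2)}
    (hP : PE f 0 r θ O) {z : Cn 2} (hz : z ∈ O) : 0 < dv f H θ z :=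
  mul_pos (det_re_pos'' (hH.pos θ O hP z hz))
    (Loc_835.eta2a_pos hP.par hz (L.sm _ (hP.ne z hz) (hP.lt z hz) (hP.par.lvl z hz)))

theorem dv_eq {H : Form} (L : LvlOK f 0 r) (hH : Mt f r H) {θ θ' : Cn 2 → E3}
    {O O' : Set (Cn 2)} {z z' : Cn 2} (hP : PE f 0 r θ O) (hP' : PE f 0 r θ' O') (hz : z ∈ O)
    (hz' : z' ∈ O') (e : θ z = θ' z') : dv f H θ z = dv f H θ' z' := by
  obtain ⟨T, hT, hTz, hTe, hdet, hM⟩ := mt_trans L hH hP hP' hz hz' e
  have e1 := eta2a_trans hP.par hP'.par hz hT hTe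
  rw [hTz] at e1
  have e2 : (H θ' z').det = ((‖(Jac T z).det‖ ^ 2 : ℝ) : ℂ) * (H θ z).det := by
    rw [← hM, Matrix.det_mul, Matrix.det_mul, Matrix.det_conjTranspose, Matrix.det_transpose]
    have h3 : (Jac T z).det * star (Jac T z).det = ((‖(Jac T z).det‖ ^ 2 : ℝ) : ℂ) := by
      rw [← starRingEnd_apply, Complex.mul_conj, Complex.normSq_eq_norm_sq]
    rw [← h3]
    ring
  unfold dv
  rw [e1, e2, Complex.re_ofReal_mul]
  ring

/-- `|η|²` is smooth -/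
theorem eta2a_smooth (L : LvlOK f 0 r) {θ : Cn 2 → E3} {O : Set (Cn 2)} (hP : PE f 0 r θ O)
    {z : Cn 2} (hz : z ∈ O) : ContDiffAt ℝ ∞ (fun w => eta2a (n := 2) f θ w) z := by
  obtain ⟨q, hq, hq0, hqe⟩ := eta2a_norm (n := 2) hP.par hz (L.an _ (hP.lt z hz))
    (L.sm _ (hP.ne z hz) (hP.lt z hz) (hP.par.lvl z hz))
  have h1 : ContDiffAt ℝ ∞ q z := (hq.contDiffAt (n := ∞)).restrict_scalars ℝ
  exact (h1.norm_sq ℝ).congr_of_eventuallyEq hqe

theorem dv_smooth {H : Form} (L : LvlOK f 0 r) (hH : Mt f r H) {θ : Cn 2 → E3}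
    {O : Set (Cn 2)} (hP : PE f 0 r θ O) {z : Cn 2} (hz : z ∈ O) :
    ContDiffAt ℝ ∞ (fun w => dv f H θ w) z := by
  have hs : ∀ a b, ContDiffAt ℝ ∞ (fun w => H θ w a b) z := fun a b =>
    (hH.sm θ O hP a b).contDiffAt (hP.par.isOpen.mem_nhds hz)
  have h1 : ContDiffAt ℝ ∞ (fun w => (H θ w).det) z := by
    simp only [Matrix.det_fin_two]
    exact ((hs 0 0).mul (hs 1 1)).sub ((hs 0 1).mul (hs 1 0))
  exact (Complex.reCLM.contDiff.contDiffAt.comp z h1).mul (eta2a_smooth L hP hz)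

open Classical in
/-- the volume function -/
def vol (f : E3 → ℂ) (r : ℝ) (H : Form) (x : E3) : ℝ :=
  if h : ∃ p : (Cn 2 → E3) × Set (Cn 2) × Cn 2, PE f 0 r p.1 p.2.1 ∧ p.2.2 ∈ p.2.1 ∧
    p.1 p.2.2 = x then -Real.log (dv f H h.choose.1 h.choose.2.2) else 0

theorem vol_eq {H : Form} (L : LvlOK f 0 r) (hH : Mt f r H) {θ : Cn 2 → E3}
    {O : Set (Cn 2)} (hP : PE f 0 r θ O) {z : Cn 2} (hz : z ∈ O) :
    vol f r H (θ z) = -Real.log (dv f H θ z) := by
  have hex : ∃ p : (Cn 2 → E3) × Set (Cn 2) × Cn 2, PE f 0 r p.1 p.2.1 ∧ p.2.2 ∈ p.2.1 ∧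
    p.1 p.2.2 = θ z := ⟨(θ, O, z), hP, hz, rfl⟩
  unfold vol
  rw [dif_pos hex]
  obtain ⟨h1, h2, h3⟩ := hex.choose_spec
  rw [dv_eq L hH h1 hP h2 hz h3]

/-- **`VlStmt`** -/
theorem vlStmt : VlStmt := by
  intro f r H L hH
  refine ⟨vol f r H, fun θ O hP => ?_, fun θ O hP z hz => ?_⟩
  · intro z hz
    have h1 : (fun w => vol f r H (θ w)) =ᶠ[𝓝 z] fun w => -Real.log (dv f H θ w) := by
      filter_upwards [hP.par.isOpen.mem_nhds hz] with w hw using vol_eq L hH hP hw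
    have h2 : ContDiffAt ℝ ∞ (fun w => -Real.log (dv f H θ w)) z :=
      ((dv_smooth L hH hP hz).log (dv_pos L hH hP hz).ne').neg
    exact (h2.congr_of_eventuallyEq h1).contDiffWithinAt
  · rw [vol_eq L hH hP hz, neg_neg, Real.exp_log (dv_pos L hH hP hz)]
    rfl

/-! ### the Kaehler-Einstein metric -/

theorem HK_det {u : E3 → ℝ} (hu : KEon f 0 r u) {θ : Cn 2 → E3} {O : Set (Cn 2)}
    (hP : PE f 0 r θ O) {z : Cn 2} (hz : z ∈ O) :
    (HK u θ z).det = (((Real.exp (u (θ z)) * eta2a (n := 2) f θ z)⁻¹ : ℝ) : ℂ) := by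
  show (HO u (fun _ => 0) θ z).det = _
  unfold HO
  rw [neg_zero, Real.exp_zero, Complex.ofReal_one, one_smul, Matrix.det_nonsing_inv,
    Ring.inverse_eq_inv', hu.ma θ O hP z hz, Complex.ofReal_inv]

theorem HK_ind (L : LvlOK f 0 r) {u : E3 → ℝ} (hu : KEon f 0 r u) {θ θ' : Cn 2 → E3}
    {O O' : Set (Cn 2)} {z z' : Cn 2} (hP : PE f 0 r θ O) (hP' : PE f 0 r θ' O') (hz : z ∈ O)
    (hz' : z' ∈ O') (e : θ z = θ' z') (a : E3) :
    hV (HK u θ) (dV (lin a) θ) z = hV (HK u θ') (dV (lin a) θ') z' := by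
  have hx := L.an _ (hP'.lt z' hz')
  have h0 := L.sm _ (hP'.ne z' hz') (hP'.lt z' hz') (hP'.par.lvl z' hz')
  obtain ⟨T, hT, hTz, hTe⟩ := exists_trans hP.par hP'.par hz hz' e hx.hasStrictFDerivAt h0
  have hdet := det_trans hP.par hP'.par hz hT hTe
  have h1 : dV (lin a) θ z = (Jac T z)ᵀ *ᵥ dV (lin a) θ' (T z) :=
    dV_trans (r := r) (fun y _ => lin_an a y) hP' hT.self_of_nhds hTe
  have hsm : ContDiffAt ℝ ∞ (fun z => u (θ' z)) (T z) :=
    (hu.sm θ' O' hP').contDiffAt (hP'.par.isOpen.mem_nhds hTe.self_of_nhds.1)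
  obtain ⟨a1, a2⟩ := hess_trans hT hTe (a := u) hsm
  have e1 : cH (fun z => u (θ z)) z = (Jac T z)ᵀ * cH (fun z => u (θ' z)) (T z) *
      ((Jac T z)ᵀ)ᴴ := by
    rw [cH_eq_hess a1, a2, cH_eq_hess hsm]
    rfl
  have hA : IsUnit ((Jac T z)ᵀ).det := by
    rw [Matrix.det_transpose]; exact isUnit_iff_ne_zero.2 hdet
  have hA' : IsUnit (((Jac T z)ᵀ)ᴴ).det := by
    rw [Matrix.det_conjTranspose]
    exact hA.star
  have e2 : ((Jac T z)ᵀ)ᴴ * HK u θ z * (Jac T z)ᵀ = HK u θ' (T z) := by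
    show ((Jac T z)ᵀ)ᴴ * HO u (fun _ => 0) θ z * (Jac T z)ᵀ = HO u (fun _ => 0) θ' (T z)
    unfold HO
    rw [e1, Matrix.mul_inv_rev, Matrix.mul_inv_rev, Matrix.mul_smul, Matrix.smul_mul]
    congr 1
    rw [← Matrix.mul_assoc, Matrix.mul_nonsing_inv _ hA', Matrix.one_mul, Matrix.mul_assoc,
      Matrix.nonsing_inv_mul _ hA, Matrix.mul_one]
  unfold hV
  rw [h1, form_mul, e2, hTz]

/-- **`MtOStmt`** -/
theorem mtOStmt : MtOStmt := by
  intro f r u L hu
  refine ⟨⟨fun θ O hP a b => ?_, fun θ O hP z hz => ?_, ?_⟩, ⟨hu.sm, ?_⟩, fun x hx => ?_⟩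
  · intro z hz
    have h1 : SmM z (Hc (fun z => u (θ z)) (fun z => (fun _ : E3 => (0 : ℝ)) (θ z))) :=
      Hc_smM (ke_pot hu hP hz) (Eventually.of_forall fun _ => contDiffAt_const)
    exact (h1 a b).contDiffWithinAt
  · exact Hc_posDef (ke_pot hu hP hz) (fun z => (fun _ : E3 => (0 : ℝ)) (θ z))
  · intro θ O θ' O' z z' hP hP' hz hz' e a
    exact HK_ind L hu hP hP' hz hz' e a
  · intro θ O hP z hz
    have h0 : 0 < eta2a (n := 2) f θ z :=
      Loc_835.eta2a_pos hP.par hz (L.sm _ (hP.ne z hz) (hP.lt z hz) (hP.par.lvl z hz))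
    rw [HK_det hu hP hz, ofReal_re, mul_inv, mul_assoc, inv_mul_cancel₀ h0.ne', mul_one,
      Real.exp_neg]
  · exact c2x_HO_zero L hu hx.1 hx.2.1 hx.2.2

end

end Crest.Agent.R257.UVl_351
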