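import Mathlib

/-!
R257 / Ub1_472: weighted local algebras with two generators: the Milnor algebras of `X_9` and
`J_10` have dimension at most `9` and `10`.
-/

set_option autoImplicit false
set_option linter.unusedVariables false
set_option linter.unusedSectionVars false

open IsLocalRing
open scoped Pointwise

noncomputable section

namespace Crest.Agent.R257.Ub1_472

variable {A : Type*} [CommRing A]

/-- the weighted ideals -/
def WI (p q : ℕ) (y z : A) (k : ℕ) : Ideal A :=
  Ideal.span {a | ∃ i j : ℕ, k ≤ p * i + q * j ∧ a = y ^ i * z ^ j}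

variable {p q : ℕ} {y z : A} {k l : ℕ}

theorem mono_mem {i j : ℕ} (h : k ≤ p * i + q * j) : y ^ i * z ^ j ∈ WI p q y z k :=
  Ideal.subset_span ⟨i, j, h, rfl⟩

theorem anti (h : k ≤ l) : WI p q y z l ≤ WI p q y z k := by
  refine Ideal.span_mono ?_
  rintro a ⟨i, j, hij, rfl⟩
  exact ⟨i, j, h.trans hij, rfl⟩

theorem zero_eq : WI p q y z 0 = ⊤ := by
  refine (Ideal.eq_top_iff_one _).2 ?_
  have := mono_mem (p := p) (q := q) (y := y) (z := z) (k := 0) (i := 0) (j := 0) (Nat.zero_le _)
  simpa using this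

theorem mul_mem {a b : A} (ha : a ∈ WI p q y z k) (hb : b ∈ WI p q y z l) :
    a * b ∈ WI p q y z (k + l) := by
  have : WI p q y z k * WI p q y z l ≤ WI p q y z (k + l) := by
    unfold WI
    rw [Ideal.span_mul_span']
    refine Ideal.span_le.2 ?_
    rintro s hs
    obtain ⟨a, ⟨i, j, hij, rfl⟩, b, ⟨i', j', hij', rfl⟩, rfl⟩ := hs
    refine Ideal.subset_span ⟨i + i', j + j', ?_, ?_⟩
    · rw [mul_add, mul_add]
      omega
    · ring
  exact this (Ideal.mul_mem_mul ha hb)

theorem y_mem (hp : k ≤ p) : y ∈ WI p q y z k := by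
  have := mono_mem (p := p) (q := q) (y := y) (z := z) (k := k) (i := 1) (j := 0) (by simpa using hp)
  simpa using this

theorem z_mem (hq : k ≤ q) : z ∈ WI p q y z k := by
  have := mono_mem (p := p) (q := q) (y := y) (z := z) (k := k) (i := 0) (j := 1) (by simpa using hq)
  simpa using this

/-- the ideals are finitely generated -/
theorem fg (hp : 1 ≤ p) (hq : 1 ≤ q) : (WI p q y z k).FG := by
  have e : WI p q y z k = Ideal.span ((fun ij : ℕ × ℕ => y ^ ij.1 * z ^ ij.2) ''
      {ij | ij ∈ (Finset.range (k + 1) ×ˢ Finset.range (k + 1)) ∧ k ≤ p * ij.1 + q * ij.2}) := by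
    refine le_antisymm (Ideal.span_le.2 ?_) (Ideal.span_le.2 ?_)
    · rintro a ⟨i, j, hij, rfl⟩
      by_cases hi : i ≤ k
      · by_cases hj : j ≤ k
        · refine Ideal.subset_span ⟨(i, j), ⟨?_, hij⟩, rfl⟩
          rw [Finset.mem_product, Finset.mem_range, Finset.mem_range]
          exact ⟨Nat.lt_succ_of_le hi, Nat.lt_succ_of_le hj⟩
        · have h1 : z ^ k ∈ Ideal.span ((fun ij : ℕ × ℕ => y ^ ij.1 * z ^ ij.2) ''
              {ij | ij ∈ (Finset.range (k + 1) ×ˢ Finset.range (k + 1)) ∧
                k ≤ p * ij.1 + q * ij.2}) := by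
            refine Ideal.subset_span ⟨(0, k), ⟨?_, ?_⟩, by simp⟩
            · rw [Finset.mem_product, Finset.mem_range, Finset.mem_range]
              exact ⟨Nat.succ_pos _, Nat.lt_succ_self _⟩
            · have : 1 * k ≤ q * k := Nat.mul_le_mul_right k hq
              simpa using this
          have e1 : y ^ i * z ^ j = (y ^ i * z ^ (j - k)) * z ^ k := by
            rw [mul_assoc, ← pow_add, Nat.sub_add_cancel (by omega)]
          change y ^ i * z ^ j ∈ _
          rw [e1]
          exact Ideal.mul_mem_left _ _ h1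
      · have h1 : y ^ k ∈ Ideal.span ((fun ij : ℕ × ℕ => y ^ ij.1 * z ^ ij.2) ''
            {ij | ij ∈ (Finset.range (k + 1) ×ˢ Finset.range (k + 1)) ∧
              k ≤ p * ij.1 + q * ij.2}) := by
          refine Ideal.subset_span ⟨(k, 0), ⟨?_, ?_⟩, by simp⟩
          · rw [Finset.mem_product, Finset.mem_range, Finset.mem_range]
            exact ⟨Nat.lt_succ_self _, Nat.succ_pos _⟩
          · have : 1 * k ≤ p * k := Nat.mul_le_mul_right k hp
            simpa using this
        have e1 : y ^ i * z ^ j = (y ^ (i - k) * z ^ j) * y ^ k := by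
          rw [mul_right_comm, ← pow_add, Nat.sub_add_cancel (by omega)]
        change y ^ i * z ^ j ∈ _
        rw [e1]
        exact Ideal.mul_mem_left _ _ h1
    · rintro a ⟨⟨i, j⟩, ⟨h1, h2⟩, rfl⟩
      exact mono_mem h2
  rw [e]
  refine Submodule.fg_span (Set.Finite.image _ ?_)
  exact (Finset.finite_toSet (Finset.range (k + 1) ×ˢ Finset.range (k + 1))).subset
    fun ij h => h.1

variable [IsLocalRing A]

local notation "M" => maximalIdeal A

theorem nak {I : Ideal A} (hfg : I.FG) (h : I ≤ M * I) : I = ⊥ := by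
  refine Submodule.eq_bot_of_le_smul_of_le_jacobson_bot M I hfg h ?_
  rw [IsLocalRing.jacobson_eq_maximalIdeal ⊥ bot_ne_top]

theorem max_mul (hM : M = Ideal.span {y, z}) (hp : 1 ≤ p) (hq : 1 ≤ q) :
    M * WI p q y z k ≤ WI p q y z (k + 1) := by
  refine Ideal.mul_le.2 fun r hr s hs => ?_
  have hr' : r ∈ WI p q y z 1 := by
    have : M ≤ WI p q y z 1 := by
      rw [hM]
      refine Ideal.span_le.2 ?_
      rintro s hs
      simp only [Set.mem_insert_iff, Set.mem_singleton_iff] at hs
      rcases hs with rfl | rfl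
      · exact y_mem hp
      · exact z_mem hq
    exact this hr
  rw [add_comm]
  exact mul_mem hr' hs

theorem le_max (hM : M = Ideal.span {y, z}) (hk : 1 ≤ k) : WI p q y z k ≤ M := by
  refine Ideal.span_le.2 ?_
  rintro s ⟨i, j, hij, rfl⟩
  have hy : y ∈ M := by rw [hM]; exact Ideal.subset_span (by simp)
  have hz : z ∈ M := by rw [hM]; exact Ideal.subset_span (by simp)
  rcases Nat.eq_zero_or_pos i with rfl | hi
  · rcases Nat.eq_zero_or_pos j with rfl | hj
    · simp at hij
      omega
    · exact Ideal.mul_mem_left _ _ (Ideal.pow_mem_of_mem _ hz _ hj)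
  · exact Ideal.mul_mem_right _ _ (Ideal.pow_mem_of_mem _ hy _ hi)

/-- Nakayama: the ideals vanish from `K` on, if every monomial of weight `K`, …, `K + L - 1` has
larger weight -/
theorem eq_bot (hM : M = Ideal.span {y, z}) (hp : 1 ≤ p) (hq : 1 ≤ q) {K L : ℕ} (hpL : p ≤ L)
    (hqL : q ≤ L) (h : ∀ k, K ≤ k → k < K + L → ∀ i j, p * i + q * j = k →
      y ^ i * z ^ j ∈ WI p q y z (k + 1)) : WI p q y z K = ⊥ := by
  have hy : y ∈ M := by rw [hM]; exact Ideal.subset_span (by simp)
  have hz : z ∈ M := by rw [hM]; exact Ideal.subset_span (by simp)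
  have h1 : ∀ m, m ≤ L → WI p q y z K ≤ WI p q y z (K + m) := by
    intro m
    induction m with
    | zero => intro _; exact le_rfl
    | succ m ih =>
      intro hm
      refine (ih (by omega)).trans ?_
      refine Ideal.span_le.2 ?_
      rintro s ⟨i, j, hij, rfl⟩
      rcases Nat.lt_or_ge (K + m) (p * i + q * j) with h2 | h2
      · exact mono_mem (by omega)
      · exact h (K + m) (by omega) (by omega) i j (by omega)
  refine nak (fg hp hq) ((h1 L le_rfl).trans ?_)
  refine Ideal.span_le.2 ?_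
  rintro s ⟨i, j, hij, rfl⟩
  rcases Nat.eq_zero_or_pos i with rfl | hi
  · rcases Nat.eq_zero_or_pos j with rfl | hj
    · simp at hij
      omega
    · obtain ⟨j, rfl⟩ : ∃ j', j = j' + 1 := ⟨j - 1, by omega⟩
      have e : y ^ 0 * z ^ (j + 1) = z * (y ^ 0 * z ^ j) := by ring
      change y ^ 0 * z ^ (j + 1) ∈ _
      rw [e]
      refine Ideal.mul_mem_mul hz (mono_mem ?_)
      rw [mul_add] at hij
      omega
  · obtain ⟨i, rfl⟩ : ∃ i', i = i' + 1 := ⟨i - 1, by omega⟩
    have e : y ^ (i + 1) * z ^ j = y * (y ^ i * z ^ j) := by ring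
    change y ^ (i + 1) * z ^ j ∈ _
    rw [e]
    refine Ideal.mul_mem_mul hy (mono_mem ?_)
    rw [mul_add] at hij
    omega

/-- powers of the maximal ideal -/
theorem pow_le (hM : M = Ideal.span {y, z}) (k : ℕ) : M ^ k ≤ WI 1 1 y z k := by
  induction k with
  | zero => rw [zero_eq]; exact le_top
  | succ k ih =>
    rw [pow_succ, mul_comm]
    exact (Ideal.mul_mono_right ih).trans (max_mul hM le_rfl le_rfl)

variable [Algebra ℂ A]

local notation "κ" => algebraMap ℂ A

/-- one layer -/
theorem layer (hres : ∀ a : A, ∃ c : ℂ, a - κ c ∈ M) (hM : M = Ideal.span {y, z}) (hp : 1 ≤ p)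
    (hq : 1 ≤ q) (W : Submodule ℂ A) (h1 : ∀ a ∈ WI p q y z (k + 1), a ∈ W)
    (h0 : ∀ i j, p * i + q * j = k → y ^ i * z ^ j ∈ W) : ∀ a ∈ WI p q y z k, a ∈ W := by
  intro a ha
  induction ha using Submodule.span_induction with
  | mem a ha =>
    obtain ⟨i, j, hij, rfl⟩ := ha
    rcases Nat.lt_or_ge k (p * i + q * j) with h2 | h2
    · exact h1 _ (mono_mem h2)
    · exact h0 i j (by omega)
  | zero => exact W.zero_mem
  | add a b _ _ ha hb => exact W.add_mem ha hb
  | smul r a ha' ha =>
    obtain ⟨c, hc⟩ := hres r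
    have e : r • a = c • a + (r - κ c) * a := by
      rw [smul_eq_mul, Algebra.smul_def]
      ring
    rw [e]
    exact W.add_mem (W.smul_mem c ha) (h1 _ (max_mul hM hp hq (Ideal.mul_mem_mul hc ha')))

theorem mulW {W : Submodule ℂ A} {a : A} (c : ℂ) (h : a ∈ W) : κ c * a ∈ W := by
  rw [← Algebra.smul_def]
  exact W.smul_mem c h

theorem unscaleW {W : Submodule ℂ A} {c : ℂ} (hc : c ≠ 0) {a : A} (h : κ c * a ∈ W) : a ∈ W := by
  have : a = c⁻¹ • (κ c * a) := by
    rw [Algebra.smul_def, ← mul_assoc, ← map_mul, inv_mul_cancel₀ hc, map_one, one_mul]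
  rw [this]
  exact W.smul_mem _ h

theorem finish {n : ℕ} (B : Fin n → A) (h : ∀ a : A, a ∈ Submodule.span ℂ (Set.range B)) :
    Module.Finite ℂ A ∧ Module.finrank ℂ A ≤ n := by
  classical
  have htop : Submodule.span ℂ (Set.range B) = ⊤ := by
    rw [eq_top_iff]
    intro a _
    exact h a
  refine ⟨Module.Finite.of_fg_top ⟨Finset.univ.image B, by
    rw [Finset.coe_image, Finset.coe_univ, Set.image_univ, htop]⟩, ?_⟩
  have := finrank_range_le_card (R := ℂ) (b := B)
  rw [Set.finrank, htop, finrank_top] at this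
  simpa using this

end Crest.Agent.R257.Ub1_472
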