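import Crest.Agent.R257.Ub1_472

/-!
R257 / Ub2_472: the Milnor algebra of `J_10` (weights `2, 1`, weighted `6`-part
`a y³ + b y² z² + c y z⁴ + d z⁶` without multiple root) has dimension at most `10`.
-/

set_option autoImplicit false
set_option linter.unusedVariables false
set_option linter.unusedSectionVars false
set_option linter.unusedSimpArgs false

open IsLocalRing
open scoped Pointwise

noncomputable section

namespace Crest.Agent.R257.Ub2_472

open Crest.Agent.R257.Ub1_472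

variable {A : Type*} [CommRing A] [IsLocalRing A] [Algebra ℂ A]

local notation "M" => maximalIdeal A

local notation "κ" => algebraMap ℂ A

theorem unscaleI {c : ℂ} (hc : c ≠ 0) {a : A} {I : Ideal A} (h : κ c * a ∈ I) : a ∈ I := by
  have : a = κ c⁻¹ * (κ c * a) := by
    rw [← mul_assoc, ← map_mul, inv_mul_cancel₀ hc, map_one, one_mul]
  rw [this]
  exact I.mul_mem_left _ h

/-- `J_10` -/
theorem le10 (hres : ∀ a : A, ∃ c : ℂ, a - κ c ∈ M) {y z : A} (hM : M = Ideal.span {y, z})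
    (a b c d : ℂ) (ha : a ≠ 0)
    (hR : 3 * a * (9 * a * d - b * c) ^ 2 - 2 * b * (6 * a * c - 2 * b ^ 2) * (9 * a * d - b * c) +
      c * (6 * a * c - 2 * b ^ 2) ^ 2 ≠ 0)
    (E1 : 3 * κ a * y ^ 2 + 2 * κ b * (y * z ^ 2) + κ c * z ^ 4 ∈ WI 2 1 y z 5)
    (E2 : κ b * (y ^ 2 * z) + 2 * κ c * (y * z ^ 3) + 3 * κ d * z ^ 5 ∈ WI 2 1 y z 6) :
    Module.Finite ℂ A ∧ Module.finrank ℂ A ≤ 10 := by
  set P : ℂ := 6 * a * c - 2 * b ^ 2 with hP
  set R : ℂ := 9 * a * d - b * c with hRdef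
  have kP : κ P = 6 * κ a * κ c - 2 * κ b ^ 2 := by
    rw [hP]; simp only [map_sub, map_mul, map_pow, map_ofNat]
  have kR : κ R = 9 * κ a * κ d - κ b * κ c := by
    rw [hRdef]; simp only [map_sub, map_mul, map_pow, map_ofNat]
  have hy2 : y ∈ WI 2 1 y z 2 := y_mem le_rfl
  have hz1 : z ∈ WI 2 1 y z 1 := z_mem le_rfl
  have mulz : ∀ {k : ℕ} {t : A}, t ∈ WI 2 1 y z k → t * z ∈ WI 2 1 y z (k + 1) :=
    fun h => mul_mem h hz1
  have muly : ∀ {k : ℕ} {t : A}, t ∈ WI 2 1 y z k → t * y ∈ WI 2 1 y z (k + 2) :=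
    fun h => mul_mem h hy2
  -- the reduced relation of weight 5
  have S1 : κ P * (y * z ^ 3) + κ R * z ^ 5 ∈ WI 2 1 y z 6 := by
    have h := (WI 2 1 y z 6).sub_mem ((WI 2 1 y z 6).mul_mem_left (3 * κ a) E2)
      ((WI 2 1 y z 6).mul_mem_left (κ b) (mulz E1))
    convert h using 1
    rw [kP, kR]
    ring
  have S2 : κ P * (y * z ^ 4) + κ R * z ^ 6 ∈ WI 2 1 y z 7 := by
    convert mulz S1 using 1
    ring
  -- weight 7
  have V1 : 3 * κ a * (y ^ 2 * z ^ 3) + 2 * κ b * (y * z ^ 5) + κ c * z ^ 7 ∈ WI 2 1 y z 8 := by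
    convert mulz (mulz (mulz E1)) using 1
    ring
  have V2 : κ P * (y * z ^ 5) + κ R * z ^ 7 ∈ WI 2 1 y z 8 := by
    convert mulz S2 using 1
    ring
  have V3 : κ P * (y ^ 2 * z ^ 3) + κ R * (y * z ^ 5) ∈ WI 2 1 y z 8 := by
    convert muly S1 using 1
    ring
  have I8 := WI 2 1 y z 8
  have w2 : y * z ^ 5 ∈ WI 2 1 y z 8 := by
    refine unscaleI hR ?_
    have h := (WI 2 1 y z 8).add_mem ((WI 2 1 y z 8).mul_mem_left (κ R)
      ((WI 2 1 y z 8).sub_mem ((WI 2 1 y z 8).mul_mem_left (3 * κ a) V3)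
        ((WI 2 1 y z 8).mul_mem_left (κ P) V1)))
      ((WI 2 1 y z 8).mul_mem_left (κ c * κ P) V2)
    convert h using 1
    simp only [map_sub, map_mul, map_pow, map_add, map_ofNat]
    ring
  have w3 : z ^ 7 ∈ WI 2 1 y z 8 := by
    refine unscaleI hR ?_
    have h := (WI 2 1 y z 8).sub_mem ((WI 2 1 y z 8).mul_mem_left (3 * κ a * κ R - 2 * κ b * κ P) V2)
      ((WI 2 1 y z 8).mul_mem_left (κ P)
      ((WI 2 1 y z 8).sub_mem ((WI 2 1 y z 8).mul_mem_left (3 * κ a) V3)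
        ((WI 2 1 y z 8).mul_mem_left (κ P) V1)))
    convert h using 1
    simp only [map_sub, map_mul, map_pow, map_add, map_ofNat]
    ring
  have w1 : y ^ 2 * z ^ 3 ∈ WI 2 1 y z 8 := by
    refine unscaleI (c := 3 * a) (by simpa using ha) ?_
    have h := (WI 2 1 y z 8).sub_mem V1 ((WI 2 1 y z 8).add_mem
      ((WI 2 1 y z 8).mul_mem_left (2 * κ b) w2) ((WI 2 1 y z 8).mul_mem_left (κ c) w3))
    convert h using 1
    simp only [map_sub, map_mul, map_pow, map_add, map_ofNat]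
    ring
  have w0 : y ^ 3 * z ∈ WI 2 1 y z 8 := by
    refine unscaleI (c := 3 * a) (by simpa using ha) ?_
    have h := (WI 2 1 y z 8).sub_mem (muly (mulz E1)) ((WI 2 1 y z 8).add_mem
      ((WI 2 1 y z 8).mul_mem_left (2 * κ b) w1) ((WI 2 1 y z 8).mul_mem_left (κ c) w2))
    convert h using 1
    simp only [map_sub, map_mul, map_pow, map_add, map_ofNat]
    ring
  -- weight 8
  have x0 : y ^ 4 ∈ WI 2 1 y z 9 := by
    refine unscaleI (c := 3 * a) (by simpa using ha) ?_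
    have h := (WI 2 1 y z 9).sub_mem (muly (muly E1)) ((WI 2 1 y z 9).add_mem
      ((WI 2 1 y z 9).mul_mem_left (2 * κ b) (mulz w0))
      ((WI 2 1 y z 9).mul_mem_left (κ c) (mulz w1)))
    convert h using 1
    simp only [map_sub, map_mul, map_pow, map_add, map_ofNat]
    ring
  have bot7 : WI 2 1 y z 7 = ⊥ := by
    refine eq_bot (L := 2) hM (by norm_num) le_rfl le_rfl (by norm_num) ?_
    intro k h1 h2 i j hij
    obtain rfl | rfl : k = 7 ∨ k = 8 := by omega
    · obtain ⟨rfl, rfl⟩ | ⟨rfl, rfl⟩ | ⟨rfl, rfl⟩ | ⟨rfl, rfl⟩ :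
        (i = 0 ∧ j = 7) ∨ (i = 1 ∧ j = 5) ∨ (i = 2 ∧ j = 3) ∨ (i = 3 ∧ j = 1) := by omega
      · simpa using w3
      · simpa using w2
      · exact w1
      · simpa using w0
    · obtain ⟨rfl, rfl⟩ | ⟨rfl, rfl⟩ | ⟨rfl, rfl⟩ | ⟨rfl, rfl⟩ | ⟨rfl, rfl⟩ :
        (i = 0 ∧ j = 8) ∨ (i = 1 ∧ j = 6) ∨ (i = 2 ∧ j = 4) ∨ (i = 3 ∧ j = 2) ∨
          (i = 4 ∧ j = 0) := by omega
      · convert mulz w3 using 1; ring
      · convert mulz w2 using 1; ring
      · convert mulz w1 using 1; ring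
      · convert mulz w0 using 1; ring
      · simpa using x0
  -- the remaining element of weight 5
  obtain ⟨s, t, hst⟩ : ∃ s t : ℂ, P * t - R * s ≠ 0 := by
    by_cases hP0 : P = 0
    · refine ⟨1, 0, ?_⟩
      intro h0
      apply hR
      have : R = 0 := by linear_combination -h0
      rw [this, hP0]
      ring
    · exact ⟨0, 1, by simpa using hP0⟩
  let B : Fin 10 → A := ![1, z, y, z ^ 2, y * z, z ^ 3, y * z ^ 2, z ^ 4,
    κ s * (y * z ^ 3) + κ t * z ^ 5, κ s * (y * z ^ 4) + κ t * z ^ 6]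
  refine finish B ?_
  set W : Submodule ℂ A := Submodule.span ℂ (Set.range B) with hW
  have hB : ∀ i, B i ∈ W := fun i => Submodule.subset_span ⟨i, rfl⟩
  have hB0 : (1 : A) ∈ W := hB 0
  have hB1 : z ∈ W := hB 1
  have hB2 : y ∈ W := hB 2
  have hB3 : z ^ 2 ∈ W := hB 3
  have hB4 : y * z ∈ W := hB 4
  have hB5 : z ^ 3 ∈ W := hB 5
  have hB6 : y * z ^ 2 ∈ W := hB 6
  have hB7 : z ^ 4 ∈ W := hB 7
  have hB8 : κ s * (y * z ^ 3) + κ t * z ^ 5 ∈ W := hB 8
  have hB9 : κ s * (y * z ^ 4) + κ t * z ^ 6 ∈ W := hB 9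
  have L7 : ∀ a ∈ WI 2 1 y z 7, a ∈ W := by
    rw [bot7]
    intro a ha
    rw [(Submodule.mem_bot A).1 ha]
    exact W.zero_mem
  have L6 : ∀ a ∈ WI 2 1 y z 6, a ∈ W := by
    have hS := L7 _ S2
    have u1 : y * z ^ 4 ∈ W := by
      refine unscaleW hst ?_
      have h := W.sub_mem (mulW t hS) (mulW R hB9)
      convert h using 1
      simp only [map_sub, map_mul]
      ring
    have u2 : z ^ 6 ∈ W := by
      refine unscaleW hst ?_
      have h := W.sub_mem (mulW P hB9) (mulW s hS)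
      convert h using 1
      simp only [map_sub, map_mul]
      ring
    have u3 : y ^ 2 * z ^ 2 ∈ W := by
      refine unscaleW (c := 3 * a) (by simpa using ha) ?_
      have h := W.sub_mem (L7 _ (mulz (mulz E1))) (W.add_mem (mulW (2 * b) u1) (mulW c u2))
      convert h using 1
      simp only [map_sub, map_mul, map_pow, map_add, map_ofNat]
      ring
    have u4 : y ^ 3 ∈ W := by
      refine unscaleW (c := 3 * a) (by simpa using ha) ?_
      have h := W.sub_mem (L7 _ (muly E1)) (W.add_mem (mulW (2 * b) u3) (mulW c u1))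
      convert h using 1
      simp only [map_sub, map_mul, map_pow, map_add, map_ofNat]
      ring
    refine layer hres hM (by norm_num) le_rfl W L7 fun i j hij => ?_
    obtain ⟨rfl, rfl⟩ | ⟨rfl, rfl⟩ | ⟨rfl, rfl⟩ | ⟨rfl, rfl⟩ :
      (i = 0 ∧ j = 6) ∨ (i = 1 ∧ j = 4) ∨ (i = 2 ∧ j = 2) ∨ (i = 3 ∧ j = 0) := by omega
    · simpa using u2
    · simpa using u1
    · exact u3
    · simpa using u4
  have L5 : ∀ a ∈ WI 2 1 y z 5, a ∈ W := by
    have hS := L6 _ S1
    have u1 : y * z ^ 3 ∈ W := by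
      refine unscaleW hst ?_
      have h := W.sub_mem (mulW t hS) (mulW R hB8)
      convert h using 1
      simp only [map_sub, map_mul]
      ring
    have u2 : z ^ 5 ∈ W := by
      refine unscaleW hst ?_
      have h := W.sub_mem (mulW P hB8) (mulW s hS)
      convert h using 1
      simp only [map_sub, map_mul]
      ring
    have u3 : y ^ 2 * z ∈ W := by
      refine unscaleW (c := 3 * a) (by simpa using ha) ?_
      have h := W.sub_mem (L6 _ (mulz E1)) (W.add_mem (mulW (2 * b) u1) (mulW c u2))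
      convert h using 1
      simp only [map_sub, map_mul, map_pow, map_add, map_ofNat]
      ring
    refine layer hres hM (by norm_num) le_rfl W L6 fun i j hij => ?_
    obtain ⟨rfl, rfl⟩ | ⟨rfl, rfl⟩ | ⟨rfl, rfl⟩ :
      (i = 0 ∧ j = 5) ∨ (i = 1 ∧ j = 3) ∨ (i = 2 ∧ j = 1) := by omega
    · simpa using u2
    · simpa using u1
    · simpa using u3
  have L4 : ∀ a ∈ WI 2 1 y z 4, a ∈ W := by
    have u3 : y ^ 2 ∈ W := by
      refine unscaleW (c := 3 * a) (by simpa using ha) ?_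
      have h := W.sub_mem (L5 _ E1) (W.add_mem (mulW (2 * b) hB6) (mulW c hB7))
      convert h using 1
      simp only [map_sub, map_mul, map_pow, map_add, map_ofNat]
      ring
    refine layer hres hM (by norm_num) le_rfl W L5 fun i j hij => ?_
    obtain ⟨rfl, rfl⟩ | ⟨rfl, rfl⟩ | ⟨rfl, rfl⟩ :
      (i = 0 ∧ j = 4) ∨ (i = 1 ∧ j = 2) ∨ (i = 2 ∧ j = 0) := by omega
    · simpa using hB7
    · simpa using hB6
    · simpa using u3
  have L3 : ∀ a ∈ WI 2 1 y z 3, a ∈ W := by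
    refine layer hres hM (by norm_num) le_rfl W L4 fun i j hij => ?_
    obtain ⟨rfl, rfl⟩ | ⟨rfl, rfl⟩ : (i = 0 ∧ j = 3) ∨ (i = 1 ∧ j = 1) := by omega
    · simpa using hB5
    · simpa using hB4
  have L2 : ∀ a ∈ WI 2 1 y z 2, a ∈ W := by
    refine layer hres hM (by norm_num) le_rfl W L3 fun i j hij => ?_
    obtain ⟨rfl, rfl⟩ | ⟨rfl, rfl⟩ : (i = 0 ∧ j = 2) ∨ (i = 1 ∧ j = 0) := by omega
    · simpa using hB3
    · simpa using hB2
  have L1 : ∀ a ∈ WI 2 1 y z 1, a ∈ W := by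
    refine layer hres hM (by norm_num) le_rfl W L2 fun i j hij => ?_
    obtain ⟨rfl, rfl⟩ : i = 0 ∧ j = 1 := by omega
    simpa using hB1
  have L0 : ∀ a ∈ WI 2 1 y z 0, a ∈ W := by
    refine layer hres hM (by norm_num) le_rfl W L1 fun i j hij => ?_
    obtain ⟨rfl, rfl⟩ : i = 0 ∧ j = 0 := by omega
    simpa using hB0
  intro e
  exact L0 e (by rw [zero_eq]; exact Submodule.mem_top)

end Crest.Agent.R257.Ub2_472
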