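import Crest.Agent.R257.Ub2_472
import Crest.Agent.R257.P8c_472

/-!
R257 / Ub3_472: the Milnor algebra of `X_9` (quartic without multiple root) has dimension at most
`9`.
-/

set_option autoImplicit false
set_option linter.unusedVariables false
set_option linter.unusedSectionVars false
set_option linter.unusedSimpArgs false

open IsLocalRing
open scoped Pointwise

noncomputable section

namespace Crest.Agent.R257.Ub3_472

open Crest.Agent.R257.Ub1_472 Crest.Agent.R257.Ub2_472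

variable {A : Type*} [CommRing A] [IsLocalRing A] [Algebra ℂ A]

local notation "M" => maximalIdeal A

local notation "κ" => algebraMap ℂ A

/-- `X_9`, quartic `y z (a y² + b y z + c z²)` -/
theorem le9' (hres : ∀ a : A, ∃ c : ℂ, a - κ c ∈ M) {y z : A} (hM : M = Ideal.span {y, z})
    (a b c : ℂ) (ha : a ≠ 0) (hc : c ≠ 0) (hR : 4 * a * c - b ^ 2 ≠ 0)
    (E1 : 3 * κ a * (y ^ 2 * z) + 2 * κ b * (y * z ^ 2) + κ c * z ^ 3 ∈ WI 1 1 y z 4)
    (E2 : κ a * y ^ 3 + 2 * κ b * (y ^ 2 * z) + 3 * κ c * (y * z ^ 2) ∈ WI 1 1 y z 4) :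
    Module.Finite ℂ A ∧ Module.finrank ℂ A ≤ 9 := by
  have mulz : ∀ {k : ℕ} {t : A}, t ∈ WI 1 1 y z k → t * z ∈ WI 1 1 y z (k + 1) :=
    fun h => mul_mem h (z_mem le_rfl)
  have muly : ∀ {k : ℕ} {t : A}, t ∈ WI 1 1 y z k → t * y ∈ WI 1 1 y z (k + 1) :=
    fun h => mul_mem h (y_mem le_rfl)
  -- the relations of degree 4
  have T1 : κ b * (y ^ 2 * z ^ 2) + 2 * κ c * (y * z ^ 3) ∈ WI 1 1 y z 5 := by
    refine unscaleI (c := 4) (by norm_num) ?_
    have h := (WI 1 1 y z 5).sub_mem ((WI 1 1 y z 5).mul_mem_left 3 (mulz E2)) (muly E1)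
    convert h using 1
    simp only [map_ofNat]
    ring
  have T2 : 2 * κ a * (y ^ 3 * z) + κ b * (y ^ 2 * z ^ 2) ∈ WI 1 1 y z 5 := by
    refine unscaleI (c := 4) (by norm_num) ?_
    have h := (WI 1 1 y z 5).sub_mem ((WI 1 1 y z 5).mul_mem_left 3 (muly E1)) (mulz E2)
    convert h using 1
    simp only [map_ofNat]
    ring
  -- degree 5
  have w3 : y ^ 2 * z ^ 3 ∈ WI 1 1 y z 6 := by
    refine unscaleI hR ?_
    have h := (WI 1 1 y z 6).sub_mem ((WI 1 1 y z 6).mul_mem_left (2 * κ a) (muly T1))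
      ((WI 1 1 y z 6).mul_mem_left (κ b) (mulz T2))
    convert h using 1
    simp only [map_sub, map_mul, map_pow, map_add, map_ofNat]
    ring
  have w2 : y ^ 3 * z ^ 2 ∈ WI 1 1 y z 6 := by
    refine unscaleI (c := 2 * a) (by simpa using ha) ?_
    have h := (WI 1 1 y z 6).sub_mem (mulz T2) ((WI 1 1 y z 6).mul_mem_left (κ b) w3)
    convert h using 1
    simp only [map_sub, map_mul, map_pow, map_add, map_ofNat]
    ring
  have w4 : y * z ^ 4 ∈ WI 1 1 y z 6 := by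
    refine unscaleI (c := 2 * c) (by simpa using hc) ?_
    have h := (WI 1 1 y z 6).sub_mem (mulz T1) ((WI 1 1 y z 6).mul_mem_left (κ b) w3)
    convert h using 1
    simp only [map_sub, map_mul, map_pow, map_add, map_ofNat]
    ring
  have w1 : y ^ 4 * z ∈ WI 1 1 y z 6 := by
    refine unscaleI (c := 2 * a) (by simpa using ha) ?_
    have h := (WI 1 1 y z 6).sub_mem (muly T2) ((WI 1 1 y z 6).mul_mem_left (κ b) w2)
    convert h using 1
    simp only [map_sub, map_mul, map_pow, map_add, map_ofNat]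
    ring
  have w5 : z ^ 5 ∈ WI 1 1 y z 6 := by
    refine unscaleI hc ?_
    have h := (WI 1 1 y z 6).sub_mem (mulz (mulz E1)) ((WI 1 1 y z 6).add_mem
      ((WI 1 1 y z 6).mul_mem_left (3 * κ a) w3) ((WI 1 1 y z 6).mul_mem_left (2 * κ b) w4))
    convert h using 1
    ring
  have w0 : y ^ 5 ∈ WI 1 1 y z 6 := by
    refine unscaleI ha ?_
    have h := (WI 1 1 y z 6).sub_mem (muly (muly E2)) ((WI 1 1 y z 6).add_mem
      ((WI 1 1 y z 6).mul_mem_left (2 * κ b) w1) ((WI 1 1 y z 6).mul_mem_left (3 * κ c) w2))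
    convert h using 1
    ring
  have bot5 : WI 1 1 y z 5 = ⊥ := by
    refine eq_bot (L := 1) hM le_rfl le_rfl le_rfl le_rfl ?_
    intro k h1 h2 i j hij
    obtain rfl : k = 5 := by omega
    obtain ⟨rfl, rfl⟩ | ⟨rfl, rfl⟩ | ⟨rfl, rfl⟩ | ⟨rfl, rfl⟩ | ⟨rfl, rfl⟩ | ⟨rfl, rfl⟩ :
      (i = 0 ∧ j = 5) ∨ (i = 1 ∧ j = 4) ∨ (i = 2 ∧ j = 3) ∨ (i = 3 ∧ j = 2) ∨ (i = 4 ∧ j = 1) ∨
        (i = 5 ∧ j = 0) := by omega
    · simpa using w5
    · simpa using w4
    · exact w3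
    · exact w2
    · simpa using w1
    · simpa using w0
  let B : Fin 9 → A := ![1, y, z, y ^ 2, y * z, z ^ 2, y ^ 2 * z, y * z ^ 2, y ^ 2 * z ^ 2]
  refine finish B ?_
  set W : Submodule ℂ A := Submodule.span ℂ (Set.range B) with hW
  have hB : ∀ i, B i ∈ W := fun i => Submodule.subset_span ⟨i, rfl⟩
  have hB0 : (1 : A) ∈ W := hB 0
  have hB1 : y ∈ W := hB 1
  have hB2 : z ∈ W := hB 2
  have hB3 : y ^ 2 ∈ W := hB 3
  have hB4 : y * z ∈ W := hB 4
  have hB5 : z ^ 2 ∈ W := hB 5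
  have hB6 : y ^ 2 * z ∈ W := hB 6
  have hB7 : y * z ^ 2 ∈ W := hB 7
  have hB8 : y ^ 2 * z ^ 2 ∈ W := hB 8
  have L5 : ∀ a ∈ WI 1 1 y z 5, a ∈ W := by
    rw [bot5]
    intro a ha
    rw [(Submodule.mem_bot A).1 ha]
    exact W.zero_mem
  have L4 : ∀ a ∈ WI 1 1 y z 4, a ∈ W := by
    have u3 : y * z ^ 3 ∈ W := by
      refine unscaleW (c := 2 * c) (by simpa using hc) ?_
      have h := W.sub_mem (L5 _ T1) (mulW b hB8)
      convert h using 1
      simp only [map_sub, map_mul, map_pow, map_add, map_ofNat]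
      ring
    have u1 : y ^ 3 * z ∈ W := by
      refine unscaleW (c := 2 * a) (by simpa using ha) ?_
      have h := W.sub_mem (L5 _ T2) (mulW b hB8)
      convert h using 1
      simp only [map_sub, map_mul, map_pow, map_add, map_ofNat]
      ring
    have u4 : z ^ 4 ∈ W := by
      refine unscaleW hc ?_
      have h := W.sub_mem (L5 _ (mulz E1)) (W.add_mem (mulW (3 * a) hB8) (mulW (2 * b) u3))
      convert h using 1
      simp only [map_sub, map_mul, map_pow, map_add, map_ofNat]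
      ring
    have u0 : y ^ 4 ∈ W := by
      refine unscaleW ha ?_
      have h := W.sub_mem (L5 _ (muly E2)) (W.add_mem (mulW (2 * b) u1) (mulW (3 * c) hB8))
      convert h using 1
      simp only [map_sub, map_mul, map_pow, map_add, map_ofNat]
      ring
    refine layer hres hM le_rfl le_rfl W L5 fun i j hij => ?_
    obtain ⟨rfl, rfl⟩ | ⟨rfl, rfl⟩ | ⟨rfl, rfl⟩ | ⟨rfl, rfl⟩ | ⟨rfl, rfl⟩ :
      (i = 0 ∧ j = 4) ∨ (i = 1 ∧ j = 3) ∨ (i = 2 ∧ j = 2) ∨ (i = 3 ∧ j = 1) ∨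
        (i = 4 ∧ j = 0) := by omega
    · simpa using u4
    · simpa using u3
    · exact hB8
    · simpa using u1
    · simpa using u0
  have L3 : ∀ a ∈ WI 1 1 y z 3, a ∈ W := by
    have u3 : z ^ 3 ∈ W := by
      refine unscaleW hc ?_
      have h := W.sub_mem (L4 _ E1) (W.add_mem (mulW (3 * a) hB6) (mulW (2 * b) hB7))
      convert h using 1
      simp only [map_sub, map_mul, map_pow, map_add, map_ofNat]
      ring
    have u0 : y ^ 3 ∈ W := by
      refine unscaleW ha ?_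
      have h := W.sub_mem (L4 _ E2) (W.add_mem (mulW (2 * b) hB6) (mulW (3 * c) hB7))
      convert h using 1
      simp only [map_sub, map_mul, map_pow, map_add, map_ofNat]
      ring
    refine layer hres hM le_rfl le_rfl W L4 fun i j hij => ?_
    obtain ⟨rfl, rfl⟩ | ⟨rfl, rfl⟩ | ⟨rfl, rfl⟩ | ⟨rfl, rfl⟩ :
      (i = 0 ∧ j = 3) ∨ (i = 1 ∧ j = 2) ∨ (i = 2 ∧ j = 1) ∨ (i = 3 ∧ j = 0) := by omega
    · simpa using u3
    · simpa using hB7
    · simpa using hB6
    · simpa using u0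
  have L2 : ∀ a ∈ WI 1 1 y z 2, a ∈ W := by
    refine layer hres hM le_rfl le_rfl W L3 fun i j hij => ?_
    obtain ⟨rfl, rfl⟩ | ⟨rfl, rfl⟩ | ⟨rfl, rfl⟩ :
      (i = 0 ∧ j = 2) ∨ (i = 1 ∧ j = 1) ∨ (i = 2 ∧ j = 0) := by omega
    · simpa using hB5
    · simpa using hB4
    · simpa using hB3
  have L1 : ∀ a ∈ WI 1 1 y z 1, a ∈ W := by
    refine layer hres hM le_rfl le_rfl W L2 fun i j hij => ?_
    obtain ⟨rfl, rfl⟩ | ⟨rfl, rfl⟩ : (i = 0 ∧ j = 1) ∨ (i = 1 ∧ j = 0) := by omega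
    · simpa using hB2
    · simpa using hB1
  have L0 : ∀ a ∈ WI 1 1 y z 0, a ∈ W := by
    refine layer hres hM le_rfl le_rfl W L1 fun i j hij => ?_
    obtain ⟨rfl, rfl⟩ : i = 0 ∧ j = 0 := by omega
    simpa using hB0
  intro e
  exact L0 e (by rw [zero_eq]; exact Submodule.mem_top)

section Forms

variable {R : Type*} [CommRing R]

/-- a binary quartic -/
def Q4 (q : Fin 5 → R) (u v : R) : R :=
  q 0 * u ^ 4 + q 1 * (u ^ 3 * v) + q 2 * (u ^ 2 * v ^ 2) + q 3 * (u * v ^ 3) + q 4 * v ^ 4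

/-- its partial derivatives -/
def Qy (q : Fin 5 → R) (u v : R) : R :=
  4 * q 0 * u ^ 3 + 3 * q 1 * (u ^ 2 * v) + 2 * q 2 * (u * v ^ 2) + q 3 * v ^ 3

def Qz (q : Fin 5 → R) (u v : R) : R :=
  q 1 * u ^ 3 + 2 * q 2 * (u ^ 2 * v) + 3 * q 3 * (u * v ^ 2) + 4 * q 4 * v ^ 3

/-- the middle coefficient after a linear change -/
def Q2 (q : Fin 5 → R) (p r s t : R) : R :=
  6 * q 0 * p ^ 2 * s ^ 2 + 3 * q 1 * (p ^ 2 * s * t + p * s ^ 2 * r) +
    q 2 * (p ^ 2 * t ^ 2 + 4 * p * s * r * t + s ^ 2 * r ^ 2) +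
    3 * q 3 * (r ^ 2 * t * s + r * t ^ 2 * p) + 6 * q 4 * r ^ 2 * t ^ 2

theorem chgY (q : Fin 5 → R) (p r s t Y Z : R) :
    p * Qy q (p * Y + s * Z) (r * Y + t * Z) + r * Qz q (p * Y + s * Z) (r * Y + t * Z) =
      4 * Q4 q p r * Y ^ 3 + 3 * (s * Qy q p r + t * Qz q p r) * (Y ^ 2 * Z) +
        2 * Q2 q p r s t * (Y * Z ^ 2) + (p * Qy q s t + r * Qz q s t) * Z ^ 3 := by
  unfold Qy Qz Q4 Q2
  ring

theorem chgZ (q : Fin 5 → R) (p r s t Y Z : R) :
    s * Qy q (p * Y + s * Z) (r * Y + t * Z) + t * Qz q (p * Y + s * Z) (r * Y + t * Z) =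
      (s * Qy q p r + t * Qz q p r) * Y ^ 3 + 2 * Q2 q p r s t * (Y ^ 2 * Z) +
        3 * (p * Qy q s t + r * Qz q s t) * (Y * Z ^ 2) + 4 * Q4 q s t * Z ^ 3 := by
  unfold Qy Qz Q4 Q2
  ring

theorem expand (q : Fin 5 → R) (p r s t X : R) :
    Q4 q (X * p + s) (X * r + t) = Q4 q p r * X ^ 4 + (s * Qy q p r + t * Qz q p r) * X ^ 3 +
      Q2 q p r s t * X ^ 2 + (p * Qy q s t + r * Qz q s t) * X + Q4 q s t := by
  unfold Qy Qz Q4 Q2
  ring

theorem euler (q : Fin 5 → R) (p r : R) : p * Qy q p r + r * Qz q p r = 4 * Q4 q p r := by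
  unfold Qy Qz Q4
  ring

end Forms

/-- no multiple root -/
def NoMult (q : Fin 5 → ℂ) : Prop := ∀ u v : ℂ, Qy q u v = 0 → Qz q u v = 0 → u = 0 ∧ v = 0

/-- a root -/
theorem exists_root (q : Fin 5 → ℂ) : ∃ p r : ℂ, (p ≠ 0 ∨ r ≠ 0) ∧ Q4 q p r = 0 := by
  by_cases h0 : q 0 = 0
  · exact ⟨1, 0, Or.inl one_ne_zero, by simp [Q4, h0]⟩
  · let P : Polynomial ℂ := Polynomial.C (q 0) * Polynomial.X ^ 4 +
      Polynomial.C (q 1) * Polynomial.X ^ 3 + Polynomial.C (q 2) * Polynomial.X ^ 2 +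
      Polynomial.C (q 3) * Polynomial.X + Polynomial.C (q 4)
    have hP : P.degree = 4 := by
      simp only [P]
      compute_degree!
    obtain ⟨s, hs⟩ := IsAlgClosed.exists_root P (by rw [hP]; norm_num)
    refine ⟨s, 1, Or.inr one_ne_zero, ?_⟩
    simp only [P, Polynomial.IsRoot, Polynomial.eval_add, Polynomial.eval_mul, Polynomial.eval_C,
      Polynomial.eval_pow, Polynomial.eval_X] at hs
    simp only [Q4]
    linear_combination hs

theorem ne_of {q : Fin 5 → ℂ} (hq : NoMult q) {p r s t : ℂ} (hpr : p ≠ 0 ∨ r ≠ 0)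
    (h0 : Q4 q p r = 0) (hD : p * t - s * r ≠ 0) : s * Qy q p r + t * Qz q p r ≠ 0 := by
  intro h1
  have h2 := euler q p r
  rw [h0, mul_zero] at h2
  have h3 : Qy q p r = 0 := by
    have : (p * t - s * r) * Qy q p r = 0 := by linear_combination t * h2 - r * h1
    exact (mul_eq_zero.1 this).resolve_left hD
  have h4 : Qz q p r = 0 := by
    have : (p * t - s * r) * Qz q p r = 0 := by linear_combination p * h1 - s * h2
    exact (mul_eq_zero.1 this).resolve_left hD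
  obtain ⟨h5, h6⟩ := hq p r h3 h4
  rcases hpr with h | h
  · exact h h5
  · exact h h6

/-- two independent roots -/
theorem exists_two {q : Fin 5 → ℂ} (hq : NoMult q) : ∃ p r s t : ℂ, p * t - s * r ≠ 0 ∧
    Q4 q p r = 0 ∧ Q4 q s t = 0 := by
  obtain ⟨p, r, hpr, h0⟩ := exists_root q
  obtain ⟨s, t, hD⟩ : ∃ s t : ℂ, p * t - s * r ≠ 0 := by
    rcases hpr with h | h
    · exact ⟨0, 1, by simpa using h⟩
    · exact ⟨1, 0, by simpa using h⟩
  have h1 := ne_of hq hpr h0 hD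
  obtain ⟨X, hX⟩ := P8c_472.root3 (b := Q2 q p r s t) (c := p * Qy q s t + r * Qz q s t)
    (d := Q4 q s t) h1
  refine ⟨p, r, X * p + s, X * r + t, ?_, h0, ?_⟩
  · intro h
    apply hD
    linear_combination h
  · rw [expand, h0]
    linear_combination hX

theorem WI_eq {y z : A} (hM : M = Ideal.span {y, z}) (k : ℕ) : WI 1 1 y z k = M ^ k := by
  have hy : y ∈ M := by rw [hM]; exact Ideal.subset_span (by simp)
  have hz : z ∈ M := by rw [hM]; exact Ideal.subset_span (by simp)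
  refine le_antisymm (Ideal.span_le.2 ?_) (pow_le hM k)
  rintro a ⟨i, j, hij, rfl⟩
  refine Ideal.pow_le_pow_right (n := i + j) (by omega) ?_
  rw [pow_add]
  exact Ideal.mul_mem_mul (Ideal.pow_mem_pow hy i) (Ideal.pow_mem_pow hz j)

/-- **`X_9`** -/
theorem le9 (hres : ∀ a : A, ∃ c : ℂ, a - κ c ∈ M) {y z : A} (hM : M = Ideal.span {y, z})
    {q : Fin 5 → ℂ} (hq : NoMult q) (E1 : Qy (fun i => κ (q i)) y z ∈ M ^ 4)
    (E2 : Qz (fun i => κ (q i)) y z ∈ M ^ 4) :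
    Module.Finite ℂ A ∧ Module.finrank ℂ A ≤ 9 := by
  obtain ⟨p, r, s, t, hD, h0, h1⟩ := exists_two hq
  have hpr : p ≠ 0 ∨ r ≠ 0 := by
    by_contra hcon
    push Not at hcon
    apply hD
    rw [hcon.1, hcon.2]
    ring
  have hst : s ≠ 0 ∨ t ≠ 0 := by
    by_contra hcon
    push Not at hcon
    apply hD
    rw [hcon.1, hcon.2]
    ring
  have na := ne_of hq hpr h0 hD
  have nc : p * Qy q s t + r * Qz q s t ≠ 0 :=
    ne_of hq hst h1 (by intro h; apply hD; linear_combination -h)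
  set a : ℂ := s * Qy q p r + t * Qz q p r with ha
  set b : ℂ := Q2 q p r s t with hb
  set c : ℂ := p * Qy q s t + r * Qz q s t with hc
  have cY : ∀ Y Z : ℂ, p * Qy q (p * Y + s * Z) (r * Y + t * Z) +
      r * Qz q (p * Y + s * Z) (r * Y + t * Z) =
      3 * a * (Y ^ 2 * Z) + 2 * b * (Y * Z ^ 2) + c * Z ^ 3 := fun Y Z => by
    rw [chgY, h0, ← ha, ← hb, ← hc]
    ring
  have cZ : ∀ Y Z : ℂ, s * Qy q (p * Y + s * Z) (r * Y + t * Z) +
      t * Qz q (p * Y + s * Z) (r * Y + t * Z) =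
      a * Y ^ 3 + 2 * b * (Y ^ 2 * Z) + 3 * c * (Y * Z ^ 2) := fun Y Z => by
    rw [chgZ, h1, ← ha, ← hb, ← hc]
    ring
  have nR : 4 * a * c - b ^ 2 ≠ 0 := by
    intro hR
    have e1 := cY b (-2 * a)
    have e2 := cZ b (-2 * a)
    have e3 : 3 * a * (b ^ 2 * (-2 * a)) + 2 * b * (b * (-2 * a) ^ 2) + c * (-2 * a) ^ 3 = 0 := by
      linear_combination (-2 * a ^ 2) * hR
    have e4 : a * b ^ 3 + 2 * b * (b ^ 2 * (-2 * a)) + 3 * c * (b * (-2 * a) ^ 2) = 0 := by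
      linear_combination (3 * a * b) * hR
    rw [e3] at e1
    rw [e4] at e2
    set U := Qy q (p * b + s * (-2 * a)) (r * b + t * (-2 * a))
    set V := Qz q (p * b + s * (-2 * a)) (r * b + t * (-2 * a))
    have hU : U = 0 := by
      have : (p * t - s * r) * U = 0 := by linear_combination t * e1 - r * e2
      exact (mul_eq_zero.1 this).resolve_left hD
    have hV : V = 0 := by
      have : (p * t - s * r) * V = 0 := by linear_combination p * e2 - s * e1
      exact (mul_eq_zero.1 this).resolve_left hD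
    obtain ⟨g1, g2⟩ := hq _ _ hU hV
    have : (p * t - s * r) * a = 0 := by linear_combination (r / 2) * g1 - (p / 2) * g2
    exact na ((mul_eq_zero.1 this).resolve_left hD)
  -- the new generators
  have kD : κ (p * t - s * r)⁻¹ * (κ p * κ t - κ s * κ r) = 1 := by
    rw [← map_mul, ← map_mul, ← map_sub, ← map_mul, inv_mul_cancel₀ hD, map_one]
  obtain ⟨Y, hY⟩ : ∃ Y : A, Y = κ (p * t - s * r)⁻¹ * (κ t * y - κ s * z) := ⟨_, rfl⟩
  obtain ⟨Z, hZ⟩ : ∃ Z : A, Z = κ (p * t - s * r)⁻¹ * (κ p * z - κ r * y) := ⟨_, rfl⟩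
  have ey : κ p * Y + κ s * Z = y := by
    rw [hY, hZ]
    linear_combination y * kD
  have ez : κ r * Y + κ t * Z = z := by
    rw [hY, hZ]
    linear_combination z * kD
  have hM' : M = Ideal.span {Y, Z} := by
    rw [hM]
    refine le_antisymm (Ideal.span_le.2 ?_) (Ideal.span_le.2 ?_)
    · rintro x hx
      simp only [Set.mem_insert_iff, Set.mem_singleton_iff] at hx
      have hY' : Y ∈ Ideal.span {Y, Z} := Ideal.subset_span (by simp)
      have hZ' : Z ∈ Ideal.span {Y, Z} := Ideal.subset_span (by simp)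
      rcases hx with rfl | rfl
      · rw [← ey]
        exact Ideal.add_mem _ (Ideal.mul_mem_left _ _ hY') (Ideal.mul_mem_left _ _ hZ')
      · rw [← ez]
        exact Ideal.add_mem _ (Ideal.mul_mem_left _ _ hY') (Ideal.mul_mem_left _ _ hZ')
    · rintro x hx
      simp only [Set.mem_insert_iff, Set.mem_singleton_iff] at hx
      have hy' : y ∈ Ideal.span {y, z} := Ideal.subset_span (by simp)
      have hz' : z ∈ Ideal.span {y, z} := Ideal.subset_span (by simp)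
      rcases hx with rfl | rfl
      · rw [hY]
        exact Ideal.mul_mem_left _ _ (Ideal.sub_mem _ (Ideal.mul_mem_left _ _ hy')
          (Ideal.mul_mem_left _ _ hz'))
      · rw [hZ]
        exact Ideal.mul_mem_left _ _ (Ideal.sub_mem _ (Ideal.mul_mem_left _ _ hz')
          (Ideal.mul_mem_left _ _ hy'))
  -- the coefficients in `A`
  have kQ4 : ∀ u v : ℂ, κ (Q4 q u v) = Q4 (fun i => κ (q i)) (κ u) (κ v) := fun u v => by
    simp only [Q4, map_add, map_mul, map_pow]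
  have kQy : ∀ u v : ℂ, κ (Qy q u v) = Qy (fun i => κ (q i)) (κ u) (κ v) := fun u v => by
    simp only [Qy, map_add, map_mul, map_pow, map_ofNat]
  have kQz : ∀ u v : ℂ, κ (Qz q u v) = Qz (fun i => κ (q i)) (κ u) (κ v) := fun u v => by
    simp only [Qz, map_add, map_mul, map_pow, map_ofNat]
  have kQ2 : κ b = Q2 (fun i => κ (q i)) (κ p) (κ r) (κ s) (κ t) := by
    rw [hb]
    simp only [Q2, map_add, map_mul, map_pow, map_ofNat]
  have ka : κ a = κ s * Qy (fun i => κ (q i)) (κ p) (κ r) +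
      κ t * Qz (fun i => κ (q i)) (κ p) (κ r) := by
    rw [ha, map_add, map_mul, map_mul, kQy, kQz]
  have kc : κ c = κ p * Qy (fun i => κ (q i)) (κ s) (κ t) +
      κ r * Qz (fun i => κ (q i)) (κ s) (κ t) := by
    rw [hc, map_add, map_mul, map_mul, kQy, kQz]
  have k0 : Q4 (fun i => κ (q i)) (κ p) (κ r) = 0 := by rw [← kQ4, h0, map_zero]
  have k1 : Q4 (fun i => κ (q i)) (κ s) (κ t) = 0 := by rw [← kQ4, h1, map_zero]
  refine le9' hres hM' a b c na nc nR ?_ ?_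
  · rw [WI_eq hM']
    have h := (M ^ 4).add_mem ((M ^ 4).mul_mem_left (κ p) E1) ((M ^ 4).mul_mem_left (κ r) E2)
    have e := chgY (fun i => κ (q i)) (κ p) (κ r) (κ s) (κ t) Y Z
    rw [ey, ez, k0, ← ka, ← kQ2, ← kc] at e
    rw [e] at h
    convert h using 1
    ring
  · rw [WI_eq hM']
    have h := (M ^ 4).add_mem ((M ^ 4).mul_mem_left (κ s) E1) ((M ^ 4).mul_mem_left (κ t) E2)
    have e := chgZ (fun i => κ (q i)) (κ p) (κ r) (κ s) (κ t) Y Z
    rw [ey, ez, k1, ← ka, ← kQ2, ← kc] at e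
    rw [e] at h
    convert h using 1
    ring

end Crest.Agent.R257.Ub3_472
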