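import Crest.Agent.R257.Ub3_472
import Crest.Agent.R257.P8d_472
import Crest.Agent.R257.Inv_939

/-!
R257 / Ub4_472: the local algebra `O_3 / (G_0, G_1, G_2)` and the classes of analytic germs.
-/

set_option autoImplicit false
set_option linter.unusedVariables false
set_option linter.unusedSectionVars false
set_option linter.unusedSimpArgs false

open Set Filter Topology IsLocalRing
open Crest.Agent.R275.Loc2879
open Crest.Agent.R257.Defs_219 Crest.Agent.R257.UI939

noncomputable section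

namespace Crest.Agent.R257.Ub4_472

/-- the quotient algebra -/
abbrev QG (G : Fin 3 → E3 → ℂ) : Type := BB 3 ⧸ Idl (0 : Fin 3 → ℂ) G

/-- the class of a germ -/
def cl (G : Fin 3 → E3 → ℂ) (g : E3 → ℂ) : QG G :=
  Ideal.Quotient.mk (Idl (0 : Fin 3 → ℂ) G) (gz g)

variable {G : Fin 3 → E3 → ℂ} {g h : E3 → ℂ}

theorem cl_congr (e : g =ᶠ[𝓝 0] h) : cl G g = cl G h := by
  unfold cl
  rw [gz_congr e]

theorem cl_add (hg : AnalyticAt ℂ g 0) (hh : AnalyticAt ℂ h 0) :
    cl G (fun x => g x + h x) = cl G g + cl G h := by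
  unfold cl
  rw [← map_add, gz_eq hg, gz_eq hh, gm_add, gz_eq (hg.fun_add hh)]
  rfl

theorem cl_mul (hg : AnalyticAt ℂ g 0) (hh : AnalyticAt ℂ h 0) :
    cl G (fun x => g x * h x) = cl G g * cl G h := by
  unfold cl
  rw [← map_mul, gz_eq hg, gz_eq hh, gm_mul, gz_eq (hg.fun_mul hh)]
  rfl

theorem cl_const (c : ℂ) : cl G (fun _ => c) = algebraMap ℂ (QG G) c := by
  unfold cl
  rw [gz_eq analyticAt_const]
  rfl

theorem cl_pow (hg : AnalyticAt ℂ g 0) (k : ℕ) : cl G (fun x => g x ^ k) = cl G g ^ k := by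
  induction k with
  | zero =>
    simp only [pow_zero]
    rw [cl_const, map_one]
  | succ k ih =>
    rw [pow_succ, ← ih, ← cl_mul (hg.fun_pow k) hg]
    exact cl_congr (Eventually.of_forall fun x => pow_succ (g x) k)

theorem cl_const_mul (hg : AnalyticAt ℂ g 0) (c : ℂ) :
    cl G (fun x => c * g x) = algebraMap ℂ (QG G) c * cl G g := by
  rw [← cl_const]
  exact cl_mul analyticAt_const hg

theorem cl_sub (hg : AnalyticAt ℂ g 0) (hh : AnalyticAt ℂ h 0) :
    cl G (fun x => g x - h x) = cl G g - cl G h := by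
  have h1 : (fun x => g x - h x) = fun x => g x + (-1 : ℂ) * h x := by funext x; ring
  rw [h1, cl_add hg (h := fun x => (-1 : ℂ) * h x) (analyticAt_const.mul hh), cl_const_mul hh]
  simp [sub_eq_add_neg]

theorem cl_gen (hG : ∀ i, AnalyticAt ℂ (G i) 0) (i : Fin 3) : cl G (G i) = 0 := by
  unfold cl
  rw [Ideal.Quotient.eq_zero_iff_mem]
  exact Ideal.subset_span ⟨i, rfl⟩

/-- coordinates -/
def co (i : Fin 3) (x : E3) : ℂ := x i

theorem an_co (i : Fin 3) : AnalyticAt ℂ (co i) 0 := an_coord i 0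

theorem mem_max_iff {a : BB 3} : a ∈ maximalIdeal (BB 3) ↔ evp 0 a = 0 := by
  rw [IsLocalRing.mem_maximalIdeal, mem_nonunits_iff, Crest.Agent.R275.Loc2879.isUnit_iff, not_not]

theorem idl_le (hG : ∀ i, AnalyticAt ℂ (G i) 0) (h0 : ∀ i, G i 0 = 0) :
    Idl (0 : Fin 3 → ℂ) G ≤ maximalIdeal (BB 3) := by
  refine Ideal.span_le.2 ?_
  rintro a ⟨i, rfl⟩
  change gz (G i) ∈ maximalIdeal (BB 3)
  rw [mem_max_iff, gz_eq (hG i)]
  exact h0 i

/-- **the quotient is a local algebra** with residue field `ℂ` and maximal ideal `(x,y,z)` -/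
theorem setup (hG : ∀ i, AnalyticAt ℂ (G i) 0) (h0 : ∀ i, G i 0 = 0) :
    ∃ _ : IsLocalRing (QG G), (∀ a : QG G, ∃ c : ℂ, a - algebraMap ℂ (QG G) c ∈
      maximalIdeal (QG G)) ∧ maximalIdeal (QG G) = Ideal.span {cl G (co 0), cl G (co 1),
        cl G (co 2)} ∧ (∀ g : E3 → ℂ, AnalyticAt ℂ g 0 → g 0 = 0 → cl G g ∈ maximalIdeal (QG G)) ∧
      (∀ g : E3 → ℂ, AnalyticAt ℂ g 0 → g 0 ≠ 0 → IsUnit (cl G g)) := by
  set I : Ideal (BB 3) := Idl (0 : Fin 3 → ℂ) G with hI
  have hIle : I ≤ maximalIdeal (BB 3) := idl_le hG h0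
  have hIne : I ≠ ⊤ := fun h => (Ideal.IsPrime.ne_top'
    (I := maximalIdeal (BB 3))) (top_le_iff.1 (h ▸ hIle))
  have : Nontrivial (BB 3 ⧸ I) := Ideal.Quotient.nontrivial_iff.2 hIne
  have inst : IsLocalRing (BB 3 ⧸ I) :=
    IsLocalRing.of_surjective' (Ideal.Quotient.mk I) Ideal.Quotient.mk_surjective
  have hmk : ∀ a : BB 3, a ∈ maximalIdeal (BB 3) →
      Ideal.Quotient.mk I a ∈ maximalIdeal (BB 3 ⧸ I) := by
    intro a ha
    rw [IsLocalRing.mem_maximalIdeal]
    intro hu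
    obtain ⟨b, hb⟩ := hu.exists_right_inv
    obtain ⟨b, rfl⟩ := Ideal.Quotient.mk_surjective b
    rw [← map_mul, ← map_one (Ideal.Quotient.mk I), Ideal.Quotient.eq] at hb
    have h1 := hIle hb
    have h2 : a * b ∈ maximalIdeal (BB 3) := Ideal.mul_mem_right _ _ ha
    have h3 : (1 : BB 3) ∈ maximalIdeal (BB 3) := by
      have := Ideal.sub_mem _ h2 h1
      simpa using this
    exact (Ideal.ne_top_iff_one _).1 (maximalIdeal.isMaximal (BB 3)).ne_top h3
  have hmk' : ∀ a : BB 3, Ideal.Quotient.mk I a ∈ maximalIdeal (BB 3 ⧸ I) →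
      a ∈ maximalIdeal (BB 3) := by
    intro a ha
    rw [IsLocalRing.mem_maximalIdeal] at ha ⊢
    intro hu
    exact ha (hu.map (Ideal.Quotient.mk I))
  have hco : ∀ i, cl G (co i) = Ideal.Quotient.mk I (xB i) := fun i => by
    unfold cl
    rw [gz_eq (an_co i)]
    rfl
  have hcm : ∀ g : E3 → ℂ, AnalyticAt ℂ g 0 → g 0 = 0 → cl G g ∈ maximalIdeal (BB 3 ⧸ I) := by
    intro g hg hg0
    refine hmk _ ?_
    rw [mem_max_iff, gz_eq hg]
    exact hg0
  refine ⟨inst, ?_, ?_, hcm, ?_⟩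
  · intro b
    obtain ⟨a, rfl⟩ := Ideal.Quotient.mk_surjective b
    refine ⟨evp 0 a, ?_⟩
    have h1 : algebraMap ℂ (BB 3 ⧸ I) (evp 0 a) =
        Ideal.Quotient.mk I (algebraMap ℂ (BB 3) (evp 0 a)) := rfl
    change Ideal.Quotient.mk I a - algebraMap ℂ (BB 3 ⧸ I) (evp 0 a) ∈ maximalIdeal (BB 3 ⧸ I)
    rw [h1, ← map_sub]
    refine hmk _ ?_
    rw [mem_max_iff, map_sub]
    have : evp (0 : Fin 3 → ℂ) (algebraMap ℂ (BB 3) (evp 0 a)) = evp 0 a := rfl
    rw [this, sub_self]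
  · refine le_antisymm ?_ ?_
    · intro b hb
      obtain ⟨a, rfl⟩ := Ideal.Quotient.mk_surjective b
      have h1 := hmk' a hb
      rw [P8d_472.max_eq] at h1
      have h2 := Ideal.mem_map_of_mem (Ideal.Quotient.mk I) h1
      rw [Ideal.map_span] at h2
      rw [Set.image_insert_eq, Set.image_insert_eq, Set.image_singleton, ← hco, ← hco, ← hco] at h2
      exact h2
    · refine Ideal.span_le.2 ?_
      intro s hs
      simp only [Set.mem_insert_iff, Set.mem_singleton_iff] at hs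
      rcases hs with rfl | rfl | rfl
      · exact hcm _ (an_co 0) rfl
      · exact hcm _ (an_co 1) rfl
      · exact hcm _ (an_co 2) rfl
  · intro g hg hg0
    have h1 : IsUnit (gz g : BB 3) := by
      rw [Crest.Agent.R275.Loc2879.isUnit_iff, gz_eq hg]
      exact hg0
    exact h1.map (Ideal.Quotient.mk I)

end Crest.Agent.R257.Ub4_472
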