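import Crest.Agent.R257.Ub4_472
import Crest.Agent.R257.LcxA_759

/-!
R257 / Ub5_472: Taylor expansion of plane germs with remainder in `m^n`, and its image in the local
algebra.
-/

set_option autoImplicit false
set_option linter.unusedVariables false
set_option linter.unusedSectionVars false
set_option linter.unusedSimpArgs false

open Set Filter Topology IsLocalRing
open Crest.AlgGeometry.Germ
open Crest.Agent.R275.Loc2879
open Crest.Agent.R257.Defs_219 Crest.Agent.R257.UI939 Crest.Agent.R257.Ub4_472
open Crest.Agent.R257.LcxDefs_759 Crest.Agent.R257.LcxA_759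

noncomputable section

namespace Crest.Agent.R257.Ub5_472

abbrev E2 : Type := Fin 2 → ℂ

theorem cd_const (c : ℂ) (i : Fin 2) : coordDeriv (fun _ : E2 => c) i = fun _ => 0 := by
  funext x
  unfold coordDeriv
  simp

theorem nd_const (i : Fin 2) (k : ℕ) (c : ℂ) : nd i (k + 1) (fun _ : E2 => c) = fun _ => 0 := by
  induction k with
  | zero =>
    funext x
    simp only [nd, cd_const]
    simp
  | succ k ih =>
    funext x
    rw [nd]
    simp only [ih, cd_const]
    simp

theorem nd_zero (i : Fin 2) (k : ℕ) : nd i k (fun _ : E2 => (0 : ℂ)) = fun _ => 0 := by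
  cases k with
  | zero => rfl
  | succ k => exact nd_const i k 0

theorem cd_co (i j : Fin 2) : coordDeriv (fun x : E2 => x i) j = fun _ => if i = j then 1 else 0 := by
  funext x
  unfold coordDeriv
  have h : HasFDerivAt (fun x : E2 => x i) (ContinuousLinearMap.proj (R := ℂ)
      (φ := fun _ : Fin 2 => ℂ) i) x := (ContinuousLinearMap.proj (R := ℂ)
      (φ := fun _ : Fin 2 => ℂ) i).hasFDerivAt
  rw [h.fderiv, ContinuousLinearMap.proj_apply, Pi.single_apply]

/-- Taylor coefficients of the coordinates -/
theorem cf_x0 (i j : ℕ) : cf (fun x : E2 => x 0) i j = if i = 1 ∧ j = 0 then 1 else 0 := by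
  unfold cf
  rcases i with _ | _ | i
  · rcases j with _ | j
    · simp [nd]
    · have h1 : nd 1 (j + 1) (fun x : E2 => x 0) = fun _ => 0 := by
        induction j with
        | zero =>
          funext x
          simp only [nd, cd_co]
          simp
        | succ j ih =>
          funext x
          rw [nd]
          simp only [ih, cd_const]
          simp
      change nd 1 (j + 1) (fun x : E2 => x 0) 0 = _
      rw [h1]
      simp
  · have h1 : nd 0 (0 + 1) (fun x : E2 => x 0) = fun _ => 1 := by
      funext x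
      simp only [nd, cd_co]
      simp
    rw [h1]
    rcases j with _ | j
    · simp [nd]
    · rw [nd_const]
      simp
  · have h1 : nd 0 (i + 1 + 1) (fun x : E2 => x 0) = fun _ => 0 := by
      induction i with
      | zero =>
        funext x
        simp only [nd, cd_co]
        simp [cd_const]
      | succ i ih =>
        funext x
        rw [nd]
        simp only [ih, cd_const]
        simp
    rw [h1, nd_zero]
    simp

theorem cf_x1 (i j : ℕ) : cf (fun x : E2 => x 1) i j = if i = 0 ∧ j = 1 then 1 else 0 := by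
  unfold cf
  rcases i with _ | i
  · rcases j with _ | _ | j
    · simp [nd]
    · simp only [nd, cd_co]
      simp
    · have h1 : nd 1 (j + 1 + 1) (fun x : E2 => x 1) = fun _ => 0 := by
        induction j with
        | zero =>
          funext x
          simp only [nd, cd_co]
          simp [cd_const]
        | succ j ih =>
          funext x
          rw [nd]
          simp only [ih, cd_const]
          simp
      change nd 1 (j + 1 + 1) (fun x : E2 => x 1) 0 = _
      rw [h1]
      simp
  · have h1 : nd 0 (i + 1) (fun x : E2 => x 1) = fun _ => 0 := by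
      induction i with
      | zero =>
        funext x
        simp only [nd, cd_co]
        simp
      | succ i ih =>
        funext x
        rw [nd]
        simp only [ih, cd_const]
        simp
    rw [h1, nd_zero]
    simp

theorem an_x (i : Fin 2) : AnalyticAt ℂ (fun x : E2 => x i) 0 := an_coord i 0

theorem cf_x0_mul {a : E2 → ℂ} (ha : AnalyticAt ℂ a 0) (i j : ℕ) :
    cf (fun x => x 0 * a x) (i + 1) j = cf a i j ∧ cf (fun x => x 0 * a x) 0 j = 0 := by
  constructor
  · rw [cf_mul (an_x 0) ha, Finset.sum_eq_single (1, i), Finset.sum_eq_single (0, j)]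
    · simp [cf_x0]
    · intro b hb hne
      rw [cf_x0, if_neg, zero_mul]
      rintro ⟨-, h0⟩
      apply hne
      rw [Finset.HasAntidiagonal.mem_antidiagonal] at hb
      ext
      · exact h0
      · simp only at h0 ⊢
        omega
    · intro h
      exfalso
      apply h
      rw [Finset.HasAntidiagonal.mem_antidiagonal]
      simp
    · intro b hb hne
      refine Finset.sum_eq_zero fun c _ => ?_
      rw [cf_x0, if_neg, zero_mul]
      rintro ⟨h0, -⟩
      apply hne
      rw [Finset.HasAntidiagonal.mem_antidiagonal] at hb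
      ext
      · exact h0
      · simp only at h0 ⊢
        omega
    · intro h
      exfalso
      apply h
      rw [Finset.HasAntidiagonal.mem_antidiagonal]
      simp only
      omega
  · rw [cf_mul (an_x 0) ha]
    refine Finset.sum_eq_zero fun b hb => Finset.sum_eq_zero fun c _ => ?_
    rw [cf_x0, if_neg, zero_mul]
    rintro ⟨h0, -⟩
    rw [Finset.HasAntidiagonal.mem_antidiagonal] at hb
    omega

theorem cf_x1_mul {a : E2 → ℂ} (ha : AnalyticAt ℂ a 0) (i j : ℕ) :
    cf (fun x => x 1 * a x) i (j + 1) = cf a i j ∧ cf (fun x => x 1 * a x) i 0 = 0 := by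
  constructor
  · rw [cf_mul (an_x 1) ha, Finset.sum_eq_single (0, i), Finset.sum_eq_single (1, j)]
    · simp [cf_x1]
    · intro b hb hne
      rw [cf_x1, if_neg, zero_mul]
      rintro ⟨-, h0⟩
      apply hne
      rw [Finset.HasAntidiagonal.mem_antidiagonal] at hb
      ext
      · exact h0
      · simp only at h0 ⊢
        omega
    · intro h
      exfalso
      apply h
      rw [Finset.HasAntidiagonal.mem_antidiagonal]
      simp only
      omega
    · intro b hb hne
      refine Finset.sum_eq_zero fun c _ => ?_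
      rw [cf_x1, if_neg, zero_mul]
      rintro ⟨h0, -⟩
      apply hne
      rw [Finset.HasAntidiagonal.mem_antidiagonal] at hb
      ext
      · exact h0
      · simp only at h0 ⊢
        omega
    · intro h
      exfalso
      apply h
      rw [Finset.HasAntidiagonal.mem_antidiagonal]
      simp
  · rw [cf_mul (an_x 1) ha]
    refine Finset.sum_eq_zero fun b hb => Finset.sum_eq_zero fun c hc => ?_
    rw [cf_x1, if_neg, zero_mul]
    rintro ⟨-, h0⟩
    rw [Finset.HasAntidiagonal.mem_antidiagonal] at hc
    omega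

/-- the homogeneous part of degree `k` -/
def Hk (f : E2 → ℂ) (k : ℕ) : BB 2 :=
  ∑ a ∈ Finset.HasAntidiagonal.antidiagonal k, algebraMap ℂ (BB 2) (cf f a.1 a.2) *
    (xB 0 ^ a.1 * xB 1 ^ a.2)

theorem Hk_zero (f : E2 → ℂ) : Hk f 0 = algebraMap ℂ (BB 2) (f 0) := by
  unfold Hk
  simp [cf_zero_zero]

theorem Hk_succ {c : ℂ} {f a b : E2 → ℂ} (ha : AnalyticAt ℂ a 0) (hb : AnalyticAt ℂ b 0)
    (he : ∀ᶠ x in 𝓝 0, f x = c + (x 0 * a x + x 1 * b x)) (k : ℕ) :
    Hk f (k + 1) = xB 0 * Hk a k + xB 1 * Hk b k := by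
  have ha' : AnalyticAt ℂ (fun x : E2 => x 0 * a x) 0 := (an_x 0).fun_mul ha
  have hb' : AnalyticAt ℂ (fun x : E2 => x 1 * b x) 0 := (an_x 1).fun_mul hb
  have e1 : ∀ i j, i + j = k + 1 → cf f i j = cf (fun x => x 0 * a x) i j +
      cf (fun x => x 1 * b x) i j := by
    intro i j hij
    rw [cf_congr he, cf_add analyticAt_const (ha'.fun_add hb'), cf_add ha' hb']
    have : cf (fun _ : E2 => c) i j = 0 := by
      unfold cf
      rcases i with _ | i
      · obtain ⟨j, rfl⟩ : ∃ j', j = j' + 1 := ⟨k, by omega⟩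
        change nd 1 (j + 1) (fun _ : E2 => c) 0 = 0
        rw [nd_const]
      · rw [nd_const, nd_zero]
    rw [this, zero_add]
  have e2 : Hk f (k + 1) = (∑ p ∈ Finset.HasAntidiagonal.antidiagonal (k + 1),
      algebraMap ℂ (BB 2) (cf (fun x => x 0 * a x) p.1 p.2) * (xB 0 ^ p.1 * xB 1 ^ p.2)) +
      ∑ p ∈ Finset.HasAntidiagonal.antidiagonal (k + 1),
      algebraMap ℂ (BB 2) (cf (fun x => x 1 * b x) p.1 p.2) * (xB 0 ^ p.1 * xB 1 ^ p.2) := by
    unfold Hk
    rw [← Finset.sum_add_distrib]
    refine Finset.sum_congr rfl fun p hp => ?_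
    rw [e1 p.1 p.2 (Finset.HasAntidiagonal.mem_antidiagonal.1 hp), map_add]
    ring
  rw [e2, Finset.Nat.sum_antidiagonal_succ, Finset.Nat.sum_antidiagonal_succ']
  rw [(cf_x0_mul ha 0 (k + 1)).2, (cf_x1_mul hb (k + 1) 0).2, map_zero, zero_mul, zero_add,
    zero_mul, zero_add]
  unfold Hk
  rw [Finset.mul_sum, Finset.mul_sum]
  congr 1
  · refine Finset.sum_congr rfl fun p _ => ?_
    rw [(cf_x0_mul ha p.1 p.2).1]
    ring
  · refine Finset.sum_congr rfl fun p _ => ?_
    rw [(cf_x1_mul hb p.1 p.2).1]
    ring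

theorem x_mem_max (i : Fin 2) : (xB i : BB 2) ∈ maximalIdeal (BB 2) := by
  rw [IsLocalRing.mem_maximalIdeal]
  intro hu
  exact (Crest.Agent.R275.Loc2879.isUnit_iff.1 hu) rfl

/-- **Taylor expansion** -/
theorem taylor (n : ℕ) : ∀ {f : E2 → ℂ} (hf : AnalyticAt ℂ f 0),
    gm f hf - ∑ k ∈ Finset.range n, Hk f k ∈ maximalIdeal (BB 2) ^ n := by
  induction n with
  | zero =>
    intro f hf
    simp
  | succ n ih =>
    intro f hf
    obtain ⟨c, y, hy⟩ := hadamard (gm f hf)
    obtain ⟨a, ha, ha'⟩ := exists_gm (y 0)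
    obtain ⟨b, hb, hb'⟩ := exists_gm (y 1)
    rw [Fin.sum_univ_two, ← ha', ← hb'] at hy
    have he : ∀ᶠ x in 𝓝 0, f x = c + (x 0 * a x + x 1 * b x) := by
      have h1 : gm f hf = gm (fun x : E2 => c + (x 0 * a x + x 1 * b x))
          (analyticAt_const.fun_add (((an_x 0).fun_mul ha).fun_add ((an_x 1).fun_mul hb))) := by
        rw [hy]
        have h2 : ∀ i : Fin 2, (xB i : BB 2) = gm (fun x : E2 => x i) (an_x i) := fun i => rfl
        rw [h2, h2, mul_comm (gm a ha), mul_comm (gm b hb), gm_mul, gm_mul]
        rfl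
      exact gm_eq_gm.1 h1
    have hc : f 0 = c := by
      have := he.self_of_nhds
      simpa using this
    rw [Finset.sum_range_succ', Hk_zero, hc]
    have h3 : ∀ k ∈ Finset.range n, Hk f (k + 1) = xB 0 * Hk a k + xB 1 * Hk b k :=
      fun k _ => Hk_succ ha hb he k
    rw [Finset.sum_congr rfl h3, Finset.sum_add_distrib, ← Finset.mul_sum, ← Finset.mul_sum]
    have h4 : gm f hf - (xB 0 * ∑ k ∈ Finset.range n, Hk a k + xB 1 * ∑ k ∈ Finset.range n, Hk b k +
        algebraMap ℂ (BB 2) c) = xB 0 * (gm a ha - ∑ k ∈ Finset.range n, Hk a k) +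
        xB 1 * (gm b hb - ∑ k ∈ Finset.range n, Hk b k) := by
      rw [hy]
      ring
    rw [h4, pow_succ, mul_comm]
    exact Ideal.add_mem _ (Ideal.mul_mem_mul (x_mem_max 0) (ih ha))
      (Ideal.mul_mem_mul (x_mem_max 1) (ih hb))

end Crest.Agent.R257.Ub5_472
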