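import Crest.Agent.R257.Ub5_472

/-!
R257 / Ub6_472: `col ≤ 9` for germs `x² u + x v(y,z) + w(y,z)` with `w ∈ m⁴` and discriminant
quartic without multiple root (`X_9`).
-/

set_option autoImplicit false
set_option linter.unusedVariables false
set_option linter.unusedSectionVars false
set_option linter.unusedSimpArgs false

open Set Filter Topology IsLocalRing
open Crest.AlgGeometry.Germ
open Crest.Agent.R275.Loc2879
open Crest.Agent.R257.Defs_219 Crest.Agent.R257.UI939 Crest.Agent.R257.Ub4_472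
open Crest.Agent.R257.LcxDefs_759 Crest.Agent.R257.LcxA_759 Crest.Agent.R257.Ub5_472

noncomputable section

namespace Crest.Agent.R257.Ub6_472

/-- the projection `(x,y,z) ↦ (y,z)` -/
def tl : E3 →L[ℂ] E2 := ContinuousLinearMap.pi fun i => ContinuousLinearMap.proj i.succ

theorem tl_apply (x : E3) : tl x = Fin.tail x := rfl

theorem an_tl {a : E2 → ℂ} (ha : AnalyticAt ℂ a 0) : AnalyticAt ℂ (fun x : E3 => a (Fin.tail x)) 0 := by
  have h : AnalyticAt ℂ a (tl 0) := by rw [map_zero]; exact ha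
  exact AnalyticAt.fun_comp (g := a) (f := tl) h (tl.analyticAt 0)

theorem cd_tl0 {a : E2 → ℂ} {x : E3} (ha : AnalyticAt ℂ a (Fin.tail x)) :
    coordDeriv (fun x : E3 => a (Fin.tail x)) 0 x = 0 := by
  unfold coordDeriv
  have h : HasFDerivAt (fun x : E3 => a (Fin.tail x)) ((fderiv ℂ a (Fin.tail x)).comp tl) x :=
    HasFDerivAt.comp (g := a) (f := tl) x ha.differentiableAt.hasFDerivAt tl.hasFDerivAt
  rw [h.fderiv, ContinuousLinearMap.comp_apply]
  have : tl (Pi.single 0 1) = 0 := by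
    ext i
    simp [tl, Pi.single_apply]
  rw [this, map_zero]

theorem cd_tl {a : E2 → ℂ} {x : E3} (ha : AnalyticAt ℂ a (Fin.tail x)) (i : Fin 2) :
    coordDeriv (fun x : E3 => a (Fin.tail x)) i.succ x = coordDeriv a i (Fin.tail x) := by
  unfold coordDeriv
  have h : HasFDerivAt (fun x : E3 => a (Fin.tail x)) ((fderiv ℂ a (Fin.tail x)).comp tl) x :=
    HasFDerivAt.comp (g := a) (f := tl) x ha.differentiableAt.hasFDerivAt tl.hasFDerivAt
  rw [h.fderiv, ContinuousLinearMap.comp_apply]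
  have : tl (Pi.single i.succ 1) = Pi.single i 1 := by
    ext j
    simp [tl, Pi.single_apply]
  rw [this]

section Ring

variable {G : Fin 3 → E3 → ℂ}

/-- the ring homomorphism from plane germs to the local algebra -/
def Pm (G : Fin 3 → E3 → ℂ) : BB 2 →+* QG G :=
  (Ideal.Quotient.mk (Idl (0 : Fin 3 → ℂ) G)).comp (pull tl (tl.analyticAt 0) (map_zero tl))

theorem Pm_gm {a : E2 → ℂ} (ha : AnalyticAt ℂ a 0) :
    Pm G (gm a ha) = cl G (fun x => a (Fin.tail x)) := by
  unfold Pm cl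
  rw [gz_eq (an_tl ha)]
  rfl

theorem Pm_x0 : Pm G (xB 0) = cl G (co 1) := by
  unfold Pm cl
  rw [gz_eq (an_co 1)]
  rfl

theorem Pm_x1 : Pm G (xB 1) = cl G (co 2) := by
  unfold Pm cl
  rw [gz_eq (an_co 2)]
  rfl

theorem Pm_c (c : ℂ) : Pm G (algebraMap ℂ (BB 2) c) = algebraMap ℂ (QG G) c := rfl

/-- the ideal of the origin -/
def MM (G : Fin 3 → E3 → ℂ) : Ideal (QG G) := Ideal.span {cl G (co 0), cl G (co 1), cl G (co 2)}

theorem x_mem : cl G (co 0) ∈ MM G := Ideal.subset_span (by simp)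

theorem y_mem : cl G (co 1) ∈ MM G := Ideal.subset_span (by simp)

theorem z_mem : cl G (co 2) ∈ MM G := Ideal.subset_span (by simp)

theorem max_le : (maximalIdeal (BB 2)).map (Pm G) ≤ MM G := by
  rw [Ideal.map_le_iff_le_comap]
  intro a ha
  obtain ⟨c, y, hy⟩ := hadamard a
  have h1 : evp 0 a = 0 := by
    by_contra hne
    have : IsUnit a := Crest.Agent.R275.Loc2879.isUnit_iff.2 hne
    exact (IsLocalRing.mem_maximalIdeal a).1 ha this
  have h2 : ∀ i, evp (0 : E2) (xB i) = 0 := fun i => rfl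
  have h3 : c = 0 := by
    have := congrArg (evp (0 : E2)) hy
    rw [h1, map_add, map_sum] at this
    simp only [map_mul, h2, mul_zero, Finset.sum_const_zero, add_zero] at this
    exact this.symm
  rw [Ideal.mem_comap, hy, h3, map_zero, zero_add, Fin.sum_univ_two, map_add, map_mul, map_mul,
    Pm_x0, Pm_x1]
  exact Ideal.add_mem _ (Ideal.mul_mem_left _ _ y_mem) (Ideal.mul_mem_left _ _ z_mem)

/-- Taylor expansion in the local algebra -/
theorem taylorQ {a : E2 → ℂ} (ha : AnalyticAt ℂ a 0) (n : ℕ) :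
    cl G (fun x => a (Fin.tail x)) - ∑ k ∈ Finset.range n,
      ∑ p ∈ Finset.HasAntidiagonal.antidiagonal k, algebraMap ℂ (QG G) (cf a p.1 p.2) *
        (cl G (co 1) ^ p.1 * cl G (co 2) ^ p.2) ∈ MM G ^ n := by
  have h1 := Ideal.mem_map_of_mem (Pm G) (taylor n ha)
  rw [Ideal.map_pow, map_sub, Pm_gm, map_sum] at h1
  have h2 := Ideal.pow_right_mono (max_le (G := G)) n h1
  have h3 : ∀ k, Pm G (Hk a k) = ∑ p ∈ Finset.HasAntidiagonal.antidiagonal k,
      algebraMap ℂ (QG G) (cf a p.1 p.2) * (cl G (co 1) ^ p.1 * cl G (co 2) ^ p.2) := fun k => by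
    unfold Hk
    rw [map_sum]
    refine Finset.sum_congr rfl fun p _ => ?_
    rw [map_mul, map_mul, map_pow, map_pow, Pm_x0, Pm_x1, Pm_c]
  simp only [h3] at h2
  exact h2

end Ring

end Crest.Agent.R257.Ub6_472
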