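import Crest.Agent.R257.Ub6_472

/-!
R257 / Ub7_472: `col ≤ 9` for germs `x² u + x v(y,z) + w(y,z)` with `w ∈ m⁴` and discriminant
quartic without multiple root (`X_9`).
-/

set_option autoImplicit false
set_option linter.unusedVariables false
set_option linter.unusedSectionVars false
set_option linter.unusedSimpArgs false

open Set Filter Topology IsLocalRing
open Crest.AlgGeometry.Germ
open Crest.Agent.R275.Loc2879
open Crest.Agent.R257.Defs_219 Crest.Agent.R257.UI939 Crest.Agent.R257.Ub4_472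
open Crest.Agent.R257.LcxDefs_759 Crest.Agent.R257.LcxA_759 Crest.Agent.R257.Ub5_472
open Crest.Agent.R257.Ub6_472

noncomputable section

namespace Crest.Agent.R257.Ub7_472

/-! ### Taylor coefficients -/

theorem cf_mul_lead {a w : E2 → ℂ} (ha : AnalyticAt ℂ a 0) (hw : AnalyticAt ℂ w 0) {n : ℕ}
    (h : ∀ i j, i + j < n → cf w i j = 0) {i j : ℕ} (hij : i + j = n) :
    cf (fun x => a x * w x) i j = a 0 * cf w i j := by
  rw [cf_mul ha hw, Finset.sum_eq_single (0, i), Finset.sum_eq_single (0, j)]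
  · simp [cf_zero_zero]
  · intro b hb hne
    rw [Finset.HasAntidiagonal.mem_antidiagonal] at hb
    rw [h i b.2, mul_zero]
    by_contra hcon
    apply hne
    ext
    · simp only
      omega
    · simp only
      omega
  · intro hb
    exfalso
    apply hb
    rw [Finset.HasAntidiagonal.mem_antidiagonal]
    simp
  · intro b hb hne
    rw [Finset.HasAntidiagonal.mem_antidiagonal] at hb
    refine Finset.sum_eq_zero fun c hc => ?_
    rw [Finset.HasAntidiagonal.mem_antidiagonal] at hc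
    rw [h b.2 c.2, mul_zero]
    by_contra hcon
    apply hne
    ext
    · simp only
      omega
    · simp only
      omega
  · intro hb
    exfalso
    apply hb
    rw [Finset.HasAntidiagonal.mem_antidiagonal]
    simp

theorem an_cons {u : E3 → ℂ} (hu : AnalyticAt ℂ u 0) :
    AnalyticAt ℂ (fun p : E2 => u (Fin.cons 0 p)) 0 := by
  have h0 : (Fin.cons 0 (0 : E2) : E3) = 0 := by
    ext i
    refine Fin.cases ?_ (fun j => ?_) i <;> simp
  have h1 : AnalyticAt ℂ (fun p : E2 => (Fin.cons 0 p : E3)) 0 := by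
    rw [analyticAt_pi_iff]
    intro i
    refine Fin.cases ?_ (fun j => ?_) i
    · simpa using analyticAt_const
    · simpa using an_coord j (0 : E2)
  have h2 : AnalyticAt ℂ u ((fun p : E2 => (Fin.cons 0 p : E3)) 0) := by
    change AnalyticAt ℂ u (Fin.cons 0 (0 : E2))
    rw [h0]
    exact hu
  exact AnalyticAt.fun_comp (g := u) (f := fun p : E2 => (Fin.cons 0 p : E3)) h2 h1

theorem cons_zero : (Fin.cons 0 (0 : E2) : E3) = 0 := by
  ext i
  refine Fin.cases ?_ (fun j => ?_) i <;> simp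

theorem cf_Dsc {u : E3 → ℂ} {v w : E2 → ℂ} (hu : AnalyticAt ℂ u 0) (hv : AnalyticAt ℂ v 0)
    (hw : AnalyticAt ℂ w 0) (h : ∀ i j, i + j < 4 → cf w i j = 0) {i j : ℕ} (hij : i + j = 4) :
    cf (Dsc u v w) i j = 4 * u 0 * cf w i j - cf (fun p => v p * v p) i j := by
  have ha : AnalyticAt ℂ (fun p : E2 => 4 * u (Fin.cons 0 p)) 0 :=
    analyticAt_const.fun_mul (an_cons hu)
  have e : Dsc u v w = fun p => (4 * u (Fin.cons 0 p)) * w p - v p * v p := by
    funext p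
    simp only [Dsc]
    ring
  rw [e, cf_sub (ha.fun_mul hw) (hv.fun_mul hv), cf_mul_lead ha hw h hij, cons_zero]

/-- the coefficients of the square -/
theorem cf_sq {v : E2 → ℂ} (hv : AnalyticAt ℂ v 0) (h : ∀ i j, i + j ≤ 1 → cf v i j = 0) :
    cf (fun p => v p * v p) 4 0 = cf v 2 0 ^ 2 ∧
    cf (fun p => v p * v p) 3 1 = 2 * cf v 2 0 * cf v 1 1 ∧
    cf (fun p => v p * v p) 2 2 = cf v 1 1 ^ 2 + 2 * cf v 2 0 * cf v 0 2 ∧
    cf (fun p => v p * v p) 1 3 = 2 * cf v 1 1 * cf v 0 2 ∧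
    cf (fun p => v p * v p) 0 4 = cf v 0 2 ^ 2 := by
  have h00 := h 0 0 (by norm_num)
  have h10 := h 1 0 (by norm_num)
  have h01 := h 0 1 (by norm_num)
  refine ⟨?_, ?_, ?_, ?_, ?_⟩ <;> rw [cf_mul hv hv] <;>
    simp [Finset.Nat.antidiagonal_succ, h00, h10, h01] <;> ring

/-! ### the germ -/

/-- the germ `x² u + x v + w` -/
def gf (u : E3 → ℂ) (v w : E2 → ℂ) (x : E3) : ℂ :=
  x 0 ^ 2 * u x + x 0 * v (Fin.tail x) + w (Fin.tail x)

theorem an_gf {u : E3 → ℂ} {v w : E2 → ℂ} (hu : AnalyticAt ℂ u 0) (hv : AnalyticAt ℂ v 0)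
    (hw : AnalyticAt ℂ w 0) : AnalyticAt ℂ (gf u v w) 0 :=
  ((((an_co 0).fun_pow 2).fun_mul hu).fun_add ((an_co 0).fun_mul (an_tl hv))).fun_add (an_tl hw)

theorem cd_co3 (i j : Fin 3) (x : E3) : coordDeriv (co i) j x = if i = j then 1 else 0 := by
  unfold coordDeriv
  have h : HasFDerivAt (co i) (ContinuousLinearMap.proj (R := ℂ)
      (φ := fun _ : Fin 3 => ℂ) i) x := (ContinuousLinearMap.proj (R := ℂ)
      (φ := fun _ : Fin 3 => ℂ) i).hasFDerivAt
  rw [h.fderiv, ContinuousLinearMap.proj_apply, Pi.single_apply]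

theorem tail_tendsto : Tendsto (fun x : E3 => Fin.tail x) (𝓝 0) (𝓝 (0 : E2)) := by
  have := tl.continuous.tendsto 0
  rw [map_zero] at this
  exact this

theorem cd_gf {u : E3 → ℂ} {v w : E2 → ℂ} (hu : AnalyticAt ℂ u 0) (hv : AnalyticAt ℂ v 0)
    (hw : AnalyticAt ℂ w 0) (i : Fin 3) :
    coordDeriv (gf u v w) i =ᶠ[𝓝 0] fun x => 2 * (if i = 0 then 1 else 0) * x 0 * u x +
      x 0 ^ 2 * coordDeriv u i x + (if i = 0 then 1 else 0) * v (Fin.tail x) +
      x 0 * coordDeriv (fun x : E3 => v (Fin.tail x)) i x +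
      coordDeriv (fun x : E3 => w (Fin.tail x)) i x := by
  filter_upwards [hu.eventually_analyticAt, (an_tl hv).eventually_analyticAt,
    (an_tl hw).eventually_analyticAt] with x h1 h2 h3
  have hc : AnalyticAt ℂ (fun x : E3 => x 0) x := an_coord 0 x
  have hd : coordDeriv (fun x : E3 => x 0) i x = if i = 0 then 1 else 0 := by
    have h0 := cd_co3 0 i x
    by_cases hi : i = 0
    · rw [if_pos hi]
      rw [if_pos hi.symm] at h0
      exact h0
    · rw [if_neg hi]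
      rw [if_neg (Ne.symm hi)] at h0
      exact h0
  have e1 : coordDeriv (fun x : E3 => x 0 ^ 2 * u x) i x =
      2 * (if i = 0 then 1 else 0) * x 0 * u x + x 0 ^ 2 * coordDeriv u i x := by
    have e2 : (fun x : E3 => x 0 ^ 2 * u x) = fun x => x 0 * (x 0 * u x) := by
      funext x; ring
    rw [e2, cd_mul hc (hc.fun_mul h1), cd_mul hc h1, hd]
    ring
  have e3 : coordDeriv (fun x : E3 => x 0 * v (Fin.tail x)) i x =
      (if i = 0 then 1 else 0) * v (Fin.tail x) +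
        x 0 * coordDeriv (fun x : E3 => v (Fin.tail x)) i x := by
    rw [cd_mul hc h2, hd]
  have e4 : gf u v w = fun x => (x 0 ^ 2 * u x + x 0 * v (Fin.tail x)) + w (Fin.tail x) := rfl
  rw [e4, cd_add (((hc.fun_pow 2).fun_mul h1).fun_add (hc.fun_mul h2)) h3,
    cd_add ((hc.fun_pow 2).fun_mul h1) (hc.fun_mul h2), e1, e3]
  ring

theorem cd_gf0 {u : E3 → ℂ} {v w : E2 → ℂ} (hu : AnalyticAt ℂ u 0) (hv : AnalyticAt ℂ v 0)
    (hw : AnalyticAt ℂ w 0) : coordDeriv (gf u v w) 0 =ᶠ[𝓝 0] fun x =>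
      x 0 * (2 * u x + x 0 * coordDeriv u 0 x) + v (Fin.tail x) := by
  filter_upwards [cd_gf hu hv hw 0, tail_tendsto.eventually hv.eventually_analyticAt,
    tail_tendsto.eventually hw.eventually_analyticAt] with x h1 h2 h3
  rw [h1, cd_tl0 h2, cd_tl0 h3]
  simp only [if_true]
  ring

theorem cd_gfs {u : E3 → ℂ} {v w : E2 → ℂ} (hu : AnalyticAt ℂ u 0) (hv : AnalyticAt ℂ v 0)
    (hw : AnalyticAt ℂ w 0) (i : Fin 2) : coordDeriv (gf u v w) i.succ =ᶠ[𝓝 0] fun x =>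
      x 0 ^ 2 * coordDeriv u i.succ x + x 0 * coordDeriv v i (Fin.tail x) +
        coordDeriv w i (Fin.tail x) := by
  filter_upwards [cd_gf hu hv hw i.succ, tail_tendsto.eventually hv.eventually_analyticAt,
    tail_tendsto.eventually hw.eventually_analyticAt] with x h1 h2 h3
  rw [h1, cd_tl h2, cd_tl h3, if_neg (Fin.succ_ne_zero i)]
  ring

/-! ### the local algebra -/

section Ring

variable {A : Type*} [CommRing A] [IsLocalRing A] [Algebra ℂ A]

local notation "M" => maximalIdeal A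

local notation "κ" => algebraMap ℂ A

theorem ring9 (hres : ∀ a : A, ∃ c : ℂ, a - κ c ∈ M) {x y z : A} (hM : M = Ideal.span {x, y, z})
    {U V U0 U1 U2 V0 V1 W0 W1 : A} {u0 c20 c11 c02 w40 w31 w22 w13 w04 : ℂ} (hu0 : u0 ≠ 0)
    (E0 : x * (2 * U + x * U0) + V = 0) (E1 : x ^ 2 * U1 + x * V0 + W0 = 0)
    (E2 : x ^ 2 * U2 + x * V1 + W1 = 0) (mU : U - κ u0 ∈ M)
    (TV : V - (κ c20 * y ^ 2 + κ c11 * (y * z) + κ c02 * z ^ 2) ∈ M ^ 3)
    (TV0 : V0 - (2 * κ c20 * y + κ c11 * z) ∈ M ^ 2)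
    (TV1 : V1 - (κ c11 * y + 2 * κ c02 * z) ∈ M ^ 2)
    (TW0 : W0 - (4 * κ w40 * y ^ 3 + 3 * κ w31 * (y ^ 2 * z) + 2 * κ w22 * (y * z ^ 2) +
      κ w13 * z ^ 3) ∈ M ^ 4)
    (TW1 : W1 - (κ w31 * y ^ 3 + 2 * κ w22 * (y ^ 2 * z) + 3 * κ w13 * (y * z ^ 2) +
      4 * κ w04 * z ^ 3) ∈ M ^ 4)
    {q : Fin 5 → ℂ} (hq : Ub3_472.NoMult q) (q0 : q 0 = 4 * u0 * w40 - c20 ^ 2)
    (q1 : q 1 = 4 * u0 * w31 - 2 * c20 * c11) (q2 : q 2 = 4 * u0 * w22 - (c11 ^ 2 + 2 * c20 * c02))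
    (q3 : q 3 = 4 * u0 * w13 - 2 * c11 * c02) (q4 : q 4 = 4 * u0 * w04 - c02 ^ 2) :
    Module.Finite ℂ A ∧ Module.finrank ℂ A ≤ 9 := by
  have mx : x ∈ M := by rw [hM]; exact Ideal.subset_span (by simp)
  have my : y ∈ M := by rw [hM]; exact Ideal.subset_span (by simp)
  have mz : z ∈ M := by rw [hM]; exact Ideal.subset_span (by simp)
  have mpow : ∀ {a b : A} {i j k : ℕ}, a ∈ M ^ i → b ∈ M ^ j → i + j = k → a * b ∈ M ^ k := by
    intro a b i j k ha hb h
    rw [← h, pow_add]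
    exact Ideal.mul_mem_mul ha hb
  have one : ∀ {a : A}, a ∈ M → a ∈ M ^ 1 := fun h => by rwa [pow_one]
  have my2 : y ^ 2 ∈ M ^ 2 := Ideal.pow_mem_pow my 2
  have mz2 : z ^ 2 ∈ M ^ 2 := Ideal.pow_mem_pow mz 2
  have myz : y * z ∈ M ^ 2 := mpow (one my) (one mz) rfl
  have le32 : M ^ 3 ≤ M ^ 2 := Ideal.pow_le_pow_right (by norm_num)
  have le43 : M ^ 4 ≤ M ^ 3 := Ideal.pow_le_pow_right (by norm_num)
  have V2 : V ∈ M ^ 2 := by
    have h := (M ^ 2).add_mem (le32 TV) ((M ^ 2).add_mem ((M ^ 2).add_mem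
      ((M ^ 2).mul_mem_left (κ c20) my2) ((M ^ 2).mul_mem_left (κ c11) myz))
      ((M ^ 2).mul_mem_left (κ c02) mz2))
    convert h using 1
    ring
  -- `x ∈ M²`
  have hux : IsUnit (2 * U + x * U0) := by
    by_contra hcon
    have h1 : 2 * U + x * U0 ∈ M := (IsLocalRing.mem_maximalIdeal _).2 hcon
    have h2 : κ (2 * u0) ∈ M := by
      have h := Ideal.sub_mem _ (Ideal.sub_mem _ h1 (Ideal.mul_mem_right U0 _ mx))
        (Ideal.mul_mem_left _ 2 mU)
      convert h using 1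
      rw [map_mul, map_ofNat]
      ring
    have h3 : IsUnit (κ (2 * u0)) := (IsUnit.mk0 (2 * u0) (by simpa using hu0)).map κ
    exact (IsLocalRing.mem_maximalIdeal _).1 h2 h3
  have x2 : x ∈ M ^ 2 := by
    obtain ⟨e, he⟩ := hux.exists_right_inv
    have h1 : x = -(V * e) := by linear_combination (-x) * he + e * E0
    rw [h1]
    exact (M ^ 2).neg_mem ((M ^ 2).mul_mem_right e V2)
  have hM2 : M = Ideal.span {y, z} := P8b_472.two_gens hM x2
  -- `2 u₀ x ≡ - v₂`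
  have D0 : 2 * κ u0 * x + (κ c20 * y ^ 2 + κ c11 * (y * z) + κ c02 * z ^ 2) ∈ M ^ 3 := by
    have h1 : x * (U - κ u0) ∈ M ^ 3 := mpow x2 (one mU) rfl
    have h2 : x * x ∈ M ^ 3 := le43 (mpow x2 x2 rfl)
    have h := (M ^ 3).sub_mem ((M ^ 3).sub_mem ((M ^ 3).mul_mem_left (-2) h1)
      ((M ^ 3).mul_mem_right U0 h2)) TV
    convert h using 1
    linear_combination E0
  have x4 : x * x ∈ M ^ 4 := mpow x2 x2 rfl
  have mV0 : 2 * κ c20 * y + κ c11 * z ∈ M ^ 1 :=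
    one (Ideal.add_mem _ (Ideal.mul_mem_left _ _ my) (Ideal.mul_mem_left _ _ mz))
  have mV1 : κ c11 * y + 2 * κ c02 * z ∈ M ^ 1 :=
    one (Ideal.add_mem _ (Ideal.mul_mem_left _ _ my) (Ideal.mul_mem_left _ _ mz))
  refine Ub3_472.le9 hres hM2 hq ?_ ?_
  · have h := (M ^ 4).sub_mem ((M ^ 4).sub_mem ((M ^ 4).mul_mem_left (-4 * κ u0) TW0)
      ((M ^ 4).add_mem ((M ^ 4).mul_mem_left (4 * κ u0 * U1) x4)
      ((M ^ 4).mul_mem_left (4 * κ u0) (mpow x2 TV0 rfl))))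
      ((M ^ 4).mul_mem_left 2 (mpow D0 mV0 rfl))
    convert h using 1
    simp only [Ub3_472.Qy, q0, q1, q2, q3, map_sub, map_mul, map_pow, map_add, map_ofNat]
    linear_combination (4 * κ u0) * E1
  · have h := (M ^ 4).sub_mem ((M ^ 4).sub_mem ((M ^ 4).mul_mem_left (-4 * κ u0) TW1)
      ((M ^ 4).add_mem ((M ^ 4).mul_mem_left (4 * κ u0 * U2) x4)
      ((M ^ 4).mul_mem_left (4 * κ u0) (mpow x2 TV1 rfl))))
      ((M ^ 4).mul_mem_left 2 (mpow D0 mV1 rfl))
    convert h using 1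
    simp only [Ub3_472.Qz, q1, q2, q3, q4, map_sub, map_mul, map_pow, map_add, map_ofNat]
    linear_combination (4 * κ u0) * E2

end Ring

end Crest.Agent.R257.Ub7_472
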