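import Crest.Agent.R257.Ub7_472

/-!
R257 / Ub8_472: **`X_9`**: `col (par f) ≤ 9` for a germ `f` with `f ∘ A = x² u + x v + w`, `w ∈ m⁴`,
discriminant quartic without multiple root (leaf MU of LcxDefs_759).
-/

set_option autoImplicit false
set_option linter.unusedVariables false
set_option linter.unusedSectionVars false
set_option linter.unusedSimpArgs false

open Set Filter Topology IsLocalRing
open Crest.AlgGeometry.Germ
open Crest.Agent.R275.Loc2879
open Crest.Agent.R257.Defs_219 Crest.Agent.R257.UI939 Crest.Agent.R257.Ub4_472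
open Crest.Agent.R257.LcxDefs_759 Crest.Agent.R257.LcxA_759 Crest.Agent.R257.Ub5_472
open Crest.Agent.R257.Ub6_472 Crest.Agent.R257.Ub7_472

noncomputable section

namespace Crest.Agent.R257.Ub8_472

variable {G : Fin 3 → E3 → ℂ} {u : E3 → ℂ} {v w : E2 → ℂ}

theorem germ9 (hG : ∀ i, AnalyticAt ℂ (G i) 0) (hu : AnalyticAt ℂ u 0) (hv : AnalyticAt ℂ v 0)
    (hw : AnalyticAt ℂ w 0) (hu0 : u 0 ≠ 0) (hv0 : ∀ i j, i + j ≤ 1 → cf v i j = 0)
    (hw0 : ∀ i j, i + j < 4 → cf w i j = 0)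
    (e0 : G 0 =ᶠ[𝓝 0] fun x => x 0 * (2 * u x + x 0 * coordDeriv u 0 x) + v (Fin.tail x))
    (es : ∀ i : Fin 2, G i.succ =ᶠ[𝓝 0] fun x => x 0 ^ 2 * coordDeriv u i.succ x +
      x 0 * coordDeriv v i (Fin.tail x) + coordDeriv w i (Fin.tail x))
    (hq : Ub3_472.NoMult ![cf (Dsc u v w) 4 0, cf (Dsc u v w) 3 1, cf (Dsc u v w) 2 2,
      cf (Dsc u v w) 1 3, cf (Dsc u v w) 0 4]) : ColFin G ∧ col G ≤ 9 := by
  have v00 : v 0 = 0 := by rw [← cf_zero_zero v]; exact hv0 0 0 (by norm_num)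
  have hvd : ∀ i : Fin 2, AnalyticAt ℂ (coordDeriv v i) 0 := fun i => an_cd hv i
  have hwd : ∀ i : Fin 2, AnalyticAt ℂ (coordDeriv w i) 0 := fun i => an_cd hw i
  have hud : ∀ i : Fin 3, AnalyticAt ℂ (coordDeriv u i) 0 := fun i => an_cd hu i
  have tail0 : Fin.tail (0 : E3) = (0 : E2) := rfl
  have wd0 : ∀ i : Fin 2, coordDeriv w i 0 = 0 := fun i => by
    rw [← cf_zero_zero (coordDeriv w i)]
    fin_cases i
    · change cf (coordDeriv w 0) 0 0 = 0
      rw [cf_cd0 hw, hw0 _ _ (by norm_num), mul_zero]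
    · change cf (coordDeriv w 1) 0 0 = 0
      rw [cf_cd1 hw, hw0 _ _ (by norm_num), mul_zero]
  have hG0 : ∀ i, G i 0 = 0 := fun i => by
    refine Fin.cases ?_ (fun i => ?_) i
    · rw [e0.self_of_nhds]
      simp only [Pi.zero_apply, tail0, v00]
      ring
    · rw [(es i).self_of_nhds]
      simp only [Pi.zero_apply, tail0, wd0]
      ring
  obtain ⟨inst, hres, hM, hmem, hunit⟩ := setup hG hG0
  have hMM : maximalIdeal (QG G) = MM G := hM
  -- the three relations
  have a2U : AnalyticAt ℂ (fun x : E3 => 2 * u x + x 0 * coordDeriv u 0 x) 0 :=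
    (analyticAt_const.fun_mul hu).fun_add ((an_co 0).fun_mul (hud 0))
  have E0 : cl G (co 0) * (2 * cl G u + cl G (co 0) * cl G (coordDeriv u 0)) +
      cl G (fun x => v (Fin.tail x)) = 0 := by
    have h1 : cl G (G 0) = 0 := cl_gen hG 0
    rw [cl_congr e0] at h1
    have h2 : cl G (fun x : E3 => x 0 * (2 * u x + x 0 * coordDeriv u 0 x) + v (Fin.tail x)) =
        cl G (fun x : E3 => x 0 * (2 * u x + x 0 * coordDeriv u 0 x)) +
          cl G (fun x => v (Fin.tail x)) := cl_add ((an_co 0).fun_mul a2U) (an_tl hv)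
    have h3 : cl G (fun x : E3 => x 0 * (2 * u x + x 0 * coordDeriv u 0 x)) =
        cl G (co 0) * cl G (fun x : E3 => 2 * u x + x 0 * coordDeriv u 0 x) :=
      cl_mul (an_co 0) a2U
    have h4 : cl G (fun x : E3 => 2 * u x + x 0 * coordDeriv u 0 x) =
        cl G (fun x => 2 * u x) + cl G (fun x : E3 => x 0 * coordDeriv u 0 x) :=
      cl_add (analyticAt_const.fun_mul hu) ((an_co 0).fun_mul (hud 0))
    have h5 : cl G (fun x : E3 => x 0 * coordDeriv u 0 x) = cl G (co 0) * cl G (coordDeriv u 0) :=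
      cl_mul (an_co 0) (hud 0)
    rw [h2, h3, h4, h5, cl_const_mul hu, map_ofNat] at h1
    exact h1
  have Es : ∀ i : Fin 2, cl G (co 0) ^ 2 * cl G (coordDeriv u i.succ) +
      cl G (co 0) * cl G (fun x => coordDeriv v i (Fin.tail x)) +
      cl G (fun x => coordDeriv w i (Fin.tail x)) = 0 := fun i => by
    have h1 : cl G (G i.succ) = 0 := cl_gen hG i.succ
    have a1 : AnalyticAt ℂ (fun x : E3 => x 0 ^ 2 * coordDeriv u i.succ x) 0 :=
      ((an_co 0).fun_pow 2).fun_mul (hud i.succ)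
    have a2 : AnalyticAt ℂ (fun x : E3 => x 0 * coordDeriv v i (Fin.tail x)) 0 :=
      (an_co 0).fun_mul (an_tl (hvd i))
    rw [cl_congr (es i)] at h1
    have h2 : cl G (fun x : E3 => x 0 ^ 2 * coordDeriv u i.succ x +
        x 0 * coordDeriv v i (Fin.tail x) + coordDeriv w i (Fin.tail x)) =
        cl G (fun x : E3 => x 0 ^ 2 * coordDeriv u i.succ x +
        x 0 * coordDeriv v i (Fin.tail x)) + cl G (fun x => coordDeriv w i (Fin.tail x)) :=
      cl_add (a1.fun_add a2) (an_tl (hwd i))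
    have h3 : cl G (fun x : E3 => x 0 ^ 2 * coordDeriv u i.succ x) =
        cl G (co 0) ^ 2 * cl G (coordDeriv u i.succ) := by
      rw [← cl_pow (an_co 0)]
      exact cl_mul ((an_co 0).fun_pow 2) (hud i.succ)
    have h4 : cl G (fun x : E3 => x 0 * coordDeriv v i (Fin.tail x)) =
        cl G (co 0) * cl G (fun x => coordDeriv v i (Fin.tail x)) :=
      cl_mul (an_co 0) (an_tl (hvd i))
    rw [h2, cl_add a1 a2, h3, h4] at h1
    exact h1
  have mU : cl G u - algebraMap ℂ (QG G) (u 0) ∈ maximalIdeal (QG G) := by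
    have h1 : cl G (fun x => u x - u 0) ∈ maximalIdeal (QG G) :=
      hmem _ (hu.fun_sub analyticAt_const) (sub_self _)
    rw [cl_sub hu (h := fun _ => u 0) analyticAt_const, cl_const] at h1
    exact h1
  -- Taylor expansions
  have v1' := hv0 0 0 (by norm_num)
  have v2' := hv0 1 0 (by norm_num)
  have v3' := hv0 0 1 (by norm_num)
  have TV : cl G (fun x => v (Fin.tail x)) - (algebraMap ℂ (QG G) (cf v 2 0) * cl G (co 1) ^ 2 +
      algebraMap ℂ (QG G) (cf v 1 1) * (cl G (co 1) * cl G (co 2)) +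
      algebraMap ℂ (QG G) (cf v 0 2) * cl G (co 2) ^ 2) ∈ maximalIdeal (QG G) ^ 3 := by
    have h1 := taylorQ (G := G) hv 3
    rw [hMM]
    simp only [Finset.sum_range_succ, Finset.sum_range_zero, Finset.Nat.antidiagonal_succ,
      Finset.Nat.antidiagonal_zero, Finset.map_singleton, Finset.map_cons, Finset.sum_cons,
      Finset.sum_singleton, Function.Embedding.prodMap, Function.Embedding.coeFn_mk, Prod.map,
      Nat.succ_eq_add_one, Function.Embedding.refl_apply, zero_add, v1', v2', v3', map_zero,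
      zero_mul, pow_zero, mul_one, one_mul, pow_one, Nat.reduceAdd] at h1
    convert h1 using 1
    ring
  have TV0 : cl G (fun x => coordDeriv v 0 (Fin.tail x)) -
      (2 * algebraMap ℂ (QG G) (cf v 2 0) * cl G (co 1) +
      algebraMap ℂ (QG G) (cf v 1 1) * cl G (co 2)) ∈ maximalIdeal (QG G) ^ 2 := by
    have h1 := taylorQ (G := G) (hvd 0) 2
    rw [hMM]
    simp only [Finset.sum_range_succ, Finset.sum_range_zero, Finset.Nat.antidiagonal_succ,
      Finset.Nat.antidiagonal_zero, Finset.map_singleton, Finset.map_cons, Finset.sum_cons,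
      Finset.sum_singleton, Function.Embedding.prodMap, Function.Embedding.coeFn_mk, Prod.map,
      Nat.succ_eq_add_one, Function.Embedding.refl_apply, zero_add, v1', v2', v3', map_zero,
      zero_mul, pow_zero, mul_one, one_mul, pow_one, Nat.reduceAdd, cf_cd0 hv] at h1
    convert h1 using 1
    simp
    ring
  have TV1 : cl G (fun x => coordDeriv v 1 (Fin.tail x)) -
      (algebraMap ℂ (QG G) (cf v 1 1) * cl G (co 1) +
      2 * algebraMap ℂ (QG G) (cf v 0 2) * cl G (co 2)) ∈ maximalIdeal (QG G) ^ 2 := by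
    have h1 := taylorQ (G := G) (hvd 1) 2
    rw [hMM]
    simp only [Finset.sum_range_succ, Finset.sum_range_zero, Finset.Nat.antidiagonal_succ,
      Finset.Nat.antidiagonal_zero, Finset.map_singleton, Finset.map_cons, Finset.sum_cons,
      Finset.sum_singleton, Function.Embedding.prodMap, Function.Embedding.coeFn_mk, Prod.map,
      Nat.succ_eq_add_one, Function.Embedding.refl_apply, zero_add, v1', v2', v3', map_zero,
      zero_mul, pow_zero, mul_one, one_mul, pow_one, Nat.reduceAdd, mul_zero, add_zero, cf_cd1 hv] at h1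
    convert h1 using 1
    simp
    ring
  have k2 : algebraMap ℂ (QG G) 2 = 2 := map_ofNat _ 2
  have k3 : algebraMap ℂ (QG G) 3 = 3 := map_ofNat _ 3
  have w00 := hw0 0 0 (by norm_num)
  have w10 := hw0 1 0 (by norm_num)
  have w01 := hw0 0 1 (by norm_num)
  have w20 := hw0 2 0 (by norm_num)
  have w11 := hw0 1 1 (by norm_num)
  have w02 := hw0 0 2 (by norm_num)
  have w30 := hw0 3 0 (by norm_num)
  have w21 := hw0 2 1 (by norm_num)
  have w12 := hw0 1 2 (by norm_num)
  have w03 := hw0 0 3 (by norm_num)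
  have TW0 : cl G (fun x => coordDeriv w 0 (Fin.tail x)) -
      (4 * algebraMap ℂ (QG G) (cf w 4 0) * cl G (co 1) ^ 3 +
      3 * algebraMap ℂ (QG G) (cf w 3 1) * (cl G (co 1) ^ 2 * cl G (co 2)) +
      2 * algebraMap ℂ (QG G) (cf w 2 2) * (cl G (co 1) * cl G (co 2) ^ 2) +
      algebraMap ℂ (QG G) (cf w 1 3) * cl G (co 2) ^ 3) ∈ maximalIdeal (QG G) ^ 4 := by
    have h1 := taylorQ (G := G) (hwd 0) 4
    rw [hMM]
    simp only [Finset.sum_range_succ, Finset.sum_range_zero, Finset.Nat.antidiagonal_succ,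
      Finset.Nat.antidiagonal_zero, Finset.map_singleton, Finset.map_cons, Finset.sum_cons,
      Finset.sum_singleton, Function.Embedding.prodMap, Function.Embedding.coeFn_mk, Prod.map,
      Nat.succ_eq_add_one, Function.Embedding.refl_apply, zero_add, w00, w10, w01, w20, w11, w02, w30,
      w21, w12, w03, map_zero,
      zero_mul, pow_zero, mul_one, one_mul, pow_one, Nat.reduceAdd, mul_zero, add_zero, cf_cd0 hw] at h1
    convert h1 using 1
    simp
    rw [k2, k3]
    ring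
  have TW1 : cl G (fun x => coordDeriv w 1 (Fin.tail x)) -
      (algebraMap ℂ (QG G) (cf w 3 1) * cl G (co 1) ^ 3 +
      2 * algebraMap ℂ (QG G) (cf w 2 2) * (cl G (co 1) ^ 2 * cl G (co 2)) +
      3 * algebraMap ℂ (QG G) (cf w 1 3) * (cl G (co 1) * cl G (co 2) ^ 2) +
      4 * algebraMap ℂ (QG G) (cf w 0 4) * cl G (co 2) ^ 3) ∈ maximalIdeal (QG G) ^ 4 := by
    have h1 := taylorQ (G := G) (hwd 1) 4
    rw [hMM]
    simp only [Finset.sum_range_succ, Finset.sum_range_zero, Finset.Nat.antidiagonal_succ,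
      Finset.Nat.antidiagonal_zero, Finset.map_singleton, Finset.map_cons, Finset.sum_cons,
      Finset.sum_singleton, Function.Embedding.prodMap, Function.Embedding.coeFn_mk, Prod.map,
      Nat.succ_eq_add_one, Function.Embedding.refl_apply, zero_add, w00, w10, w01, w20, w11, w02, w30,
      w21, w12, w03, map_zero,
      zero_mul, pow_zero, mul_one, one_mul, pow_one, Nat.reduceAdd, mul_zero, add_zero, cf_cd1 hw] at h1
    convert h1 using 1
    simp
    rw [k2, k3]
    ring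
  obtain ⟨s0, s1, s2, s3, s4⟩ := cf_sq hv hv0
  have key := ring9 hres hM hu0 E0 (Es 0) (Es 1) mU TV TV0 TV1 TW0 TW1 hq
    (by simp [cf_Dsc hu hv hw hw0 (i := 4) (j := 0) rfl, s0])
    (by simp [cf_Dsc hu hv hw hw0 (i := 3) (j := 1) rfl, s1])
    (by simp [cf_Dsc hu hv hw hw0 (i := 2) (j := 2) rfl, s2])
    (by simp [cf_Dsc hu hv hw hw0 (i := 1) (j := 3) rfl, s3])
    (by simp [cf_Dsc hu hv hw hw0 (i := 0) (j := 4) rfl, s4])
  exact ⟨(colFin_iff hG).2 key.1, by rw [col_eq hG]; exact key.2⟩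

/-- **`X_9`** -/
theorem quart_mu' {f : E3 → ℂ} (hf : AnalyticAt ℂ f 0) (A : E3 ≃L[ℂ] E3)
    (hD : Dcp (fun x => f (A x)) u v w) (h3 : ∀ i j, i + j = 3 → cf w i j = 0)
    (hq : Ub3_472.NoMult ![cf (Dsc u v w) 4 0, cf (Dsc u v w) 3 1, cf (Dsc u v w) 2 2,
      cf (Dsc u v w) 1 3, cf (Dsc u v w) 0 4]) : ColFin (par f) ∧ col (par f) ≤ 9 := by
  have hw0 : ∀ i j, i + j < 4 → cf w i j = 0 := by
    intro i j hij
    rcases Nat.lt_or_ge (i + j) 3 with h | h
    · exact hD.w0 i j (by omega)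
    · exact h3 i j (by omega)
  have hfA : AnalyticAt ℂ (fun x => f (A x)) 0 :=
    (an_gf hD.au hD.av hD.aw).congr (hD.eq.mono fun x hx => hx.symm)
  have hc := LCa_472.par_comp (f := fun x => f (A x)) (g := f) (θ := A) hf
    (A.toContinuousLinearMap.analyticAt 0) (map_zero A) (by
      rw [A.fderiv]
      exact A.injective) hfA (Eventually.of_forall fun x => rfl)
  have hcd : ∀ i, par (fun x => f (A x)) i =ᶠ[𝓝 0] coordDeriv (gf u v w) i := fun i =>
    cd_congr (hD.eq.mono fun x hx => hx) i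
  have hG : ∀ i, AnalyticAt ℂ (par (fun x => f (A x)) i) 0 := fun i => an_cd hfA i
  have key := germ9 hG hD.au hD.av hD.aw hD.u0 hD.v0 hw0
    ((hcd 0).trans (cd_gf0 hD.au hD.av hD.aw))
    (fun i => (hcd i.succ).trans (cd_gfs hD.au hD.av hD.aw i)) hq
  exact ⟨hc.1.2 key.1, by rw [hc.2]; exact key.2⟩

theorem quart_mu {f : E3 → ℂ} (hf : Iso f) (A : E3 ≃L[ℂ] E3)
    (hD : Dcp (fun x => f (A x)) u v w) (h3 : ∀ i j, i + j = 3 → cf w i j = 0)
    (hq : Ub3_472.NoMult ![cf (Dsc u v w) 4 0, cf (Dsc u v w) 3 1, cf (Dsc u v w) 2 2,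
      cf (Dsc u v w) 1 3, cf (Dsc u v w) 0 4]) : col (par f) ≤ 9 :=
  (quart_mu' hf.an A hD h3 hq).2

end Crest.Agent.R257.Ub8_472
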