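import Crest.Agent.R257.Ub8_472

/-!
R257 / Ub9_472: `col ≤ 10` for `U(y³ + z⁴ b(z) y + z⁶ c(z)) + x² Q`, `4 b(0)³ + 27 c(0)² ≠ 0`
(`J_10`), in the coordinates `(x,y,z) = (x 0, x 1, x 2)`.
-/

set_option autoImplicit false
set_option linter.unusedVariables false
set_option linter.unusedSectionVars false
set_option linter.unusedSimpArgs false

open Set Filter Topology IsLocalRing
open Crest.AlgGeometry.Germ
open Crest.Agent.R275.Loc2879
open Crest.Agent.R257.Defs_219 Crest.Agent.R257.UI939 Crest.Agent.R257.Ub4_472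
open Crest.Agent.R257.LcxDefs_759 Crest.Agent.R257.LcxA_759 Crest.Agent.R257.Ub5_472
open Crest.Agent.R257.Ub6_472 Crest.Agent.R257.Ub7_472
open Crest.Agent.R257.Ub1_472 (WI mono_mem)

noncomputable section

namespace Crest.Agent.R257.Ub9_472

section Ring

variable {A : Type*} [CommRing A] [IsLocalRing A] [Algebra ℂ A]

local notation "M" => maximalIdeal A

local notation "κ" => algebraMap ℂ A

theorem unit_cancel {I : Ideal A} {u a : A} (hu : IsUnit u) (h : u * a ∈ I) : a ∈ I := by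
  obtain ⟨e, he⟩ := hu.exists_left_inv
  have : a = e * (u * a) := by rw [← mul_assoc, he, one_mul]
  rw [this]
  exact I.mul_mem_left _ h

theorem ring10 (hres : ∀ a : A, ∃ c : ℂ, a - κ c ∈ M) {x y z : A} (hM : M = Ideal.span {x, y, z})
    {P Uu D1 D2 Q1 Q2 B B' B1 C C' C1 : A} {b0 c0 : ℂ} (hd : 4 * b0 ^ 3 + 27 * c0 ^ 2 ≠ 0)
    (hP : IsUnit P) (hU : IsUnit Uu) (E0 : x * P = 0)
    (E1 : D1 * (y ^ 3 + z ^ 4 * B * y + z ^ 6 * C) + Uu * (3 * y ^ 2 + z ^ 4 * B) + x ^ 2 * Q1 = 0)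
    (E2 : D2 * (y ^ 3 + z ^ 4 * B * y + z ^ 6 * C) + Uu * (4 * z ^ 3 * B * y + z ^ 4 * B' * y +
      6 * z ^ 5 * C + z ^ 6 * C') + x ^ 2 * Q2 = 0) (hB : B = κ b0 + z * B1)
    (hC : C = κ c0 + z * C1) : Module.Finite ℂ A ∧ Module.finrank ℂ A ≤ 10 := by
  have x0 : x = 0 := by
    obtain ⟨e, he⟩ := hP.exists_right_inv
    linear_combination (-x) * he + e * E0
  have hM2 : M = Ideal.span {y, z} := by
    rw [hM, x0, Ideal.span_insert_zero]
  have w6 : ∀ {i j : ℕ}, 6 ≤ 2 * i + 1 * j → y ^ i * z ^ j ∈ WI 2 1 y z 6 := fun h => mono_mem h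
  have hN : y ^ 3 + z ^ 4 * B * y + z ^ 6 * C ∈ WI 2 1 y z 6 := by
    have h := (WI 2 1 y z 6).add_mem ((WI 2 1 y z 6).add_mem (w6 (i := 3) (j := 0) (by norm_num))
      ((WI 2 1 y z 6).mul_mem_left B (w6 (i := 1) (j := 4) (by norm_num))))
      ((WI 2 1 y z 6).mul_mem_left C (w6 (i := 0) (j := 6) (by norm_num)))
    convert h using 1
    ring
  have F1 : 3 * y ^ 2 + z ^ 4 * B ∈ WI 2 1 y z 6 := by
    refine unit_cancel hU ?_
    have h := (WI 2 1 y z 6).mul_mem_left (-D1) hN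
    convert h using 1
    rw [x0] at E1
    linear_combination E1
  have F2 : 4 * z ^ 3 * B * y + z ^ 4 * B' * y + 6 * z ^ 5 * C + z ^ 6 * C' ∈ WI 2 1 y z 6 := by
    refine unit_cancel hU ?_
    have h := (WI 2 1 y z 6).mul_mem_left (-D2) hN
    convert h using 1
    rw [x0] at E2
    linear_combination E2
  refine Ub2_472.le10 hres hM2 1 0 b0 c0 one_ne_zero ?_ ?_ ?_
  · intro h
    apply hd
    linear_combination (1 / 9) * h
  · have h := (WI 2 1 y z 5).sub_mem (Ub1_472.anti (by norm_num : 5 ≤ 6) F1)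
      ((WI 2 1 y z 5).mul_mem_left B1 (mono_mem (i := 0) (j := 5) (by norm_num)))
    convert h using 1
    rw [hB]
    simp only [map_one, map_zero]
    ring
  · refine Ub2_472.unscaleI (c := 2) two_ne_zero ?_
    have h := (WI 2 1 y z 6).sub_mem F2 ((WI 2 1 y z 6).add_mem ((WI 2 1 y z 6).add_mem
      ((WI 2 1 y z 6).mul_mem_left (4 * B1 + B') (w6 (i := 1) (j := 4) (by norm_num)))
      ((WI 2 1 y z 6).mul_mem_left (6 * C1) (w6 (i := 0) (j := 6) (by norm_num))))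
      ((WI 2 1 y z 6).mul_mem_left C' (w6 (i := 0) (j := 6) (by norm_num))))
    convert h using 1
    rw [hB, hC]
    simp only [map_zero, map_ofNat]
    ring

end Ring

/-! ### the germ -/

/-- `y³ + z⁴ b(z) y + z⁶ c(z)` -/
def Nf (b c : ℂ → ℂ) (x : E3) : ℂ := x 1 ^ 3 + x 2 ^ 4 * b (x 2) * x 1 + x 2 ^ 6 * c (x 2)

/-- the germ -/
def gj (U Q : E3 → ℂ) (b c : ℂ → ℂ) (x : E3) : ℂ := U x * Nf b c x + x 0 ^ 2 * Q x

theorem an_c {b : ℂ → ℂ} (hb : AnalyticAt ℂ b 0) : AnalyticAt ℂ (fun x : E3 => b (x 2)) 0 :=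
  AnalyticAt.fun_comp (g := b) (f := fun x : E3 => x 2) hb (an_co 2)

theorem an_Nf {b c : ℂ → ℂ} (hb : AnalyticAt ℂ b 0) (hc : AnalyticAt ℂ c 0) :
    AnalyticAt ℂ (Nf b c) 0 :=
  (((an_co 1).fun_pow 3).fun_add ((((an_co 2).fun_pow 4).fun_mul (an_c hb)).fun_mul
    (an_co 1))).fun_add (((an_co 2).fun_pow 6).fun_mul (an_c hc))

theorem an_gj {U Q : E3 → ℂ} {b c : ℂ → ℂ} (hU : AnalyticAt ℂ U 0) (hQ : AnalyticAt ℂ Q 0)
    (hb : AnalyticAt ℂ b 0) (hc : AnalyticAt ℂ c 0) : AnalyticAt ℂ (gj U Q b c) 0 :=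
  (hU.fun_mul (an_Nf hb hc)).fun_add (((an_co 0).fun_pow 2).fun_mul hQ)

theorem hasF_co (i : Fin 3) (x : E3) : HasFDerivAt (fun x : E3 => x i)
    (ContinuousLinearMap.proj (R := ℂ) (φ := fun _ : Fin 3 => ℂ) i) x :=
  (ContinuousLinearMap.proj (R := ℂ) (φ := fun _ : Fin 3 => ℂ) i).hasFDerivAt

theorem cd_c {b : ℂ → ℂ} {x : E3} (hb : AnalyticAt ℂ b (x 2)) (i : Fin 3) :
    coordDeriv (fun x : E3 => b (x 2)) i x = if i = 2 then deriv b (x 2) else 0 := by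
  unfold coordDeriv
  have h : HasFDerivAt (fun x : E3 => b (x 2)) ((deriv b (x 2)) •
      (ContinuousLinearMap.proj (R := ℂ) (φ := fun _ : Fin 3 => ℂ) 2)) x :=
    (hb.differentiableAt.hasDerivAt).comp_hasFDerivAt x (hasF_co 2 x)
  rw [h.fderiv]
  fin_cases i <;> simp [Pi.single_apply]

theorem cd_pow (j i : Fin 3) (k : ℕ) (x : E3) :
    coordDeriv (fun x : E3 => x j ^ k) i x = if i = j then k * x j ^ (k - 1) else 0 := by
  unfold coordDeriv
  have h : HasFDerivAt (fun x : E3 => x j ^ k) ((k * x j ^ (k - 1)) •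
      (ContinuousLinearMap.proj (R := ℂ) (φ := fun _ : Fin 3 => ℂ) j)) x :=
    (hasDerivAt_pow k (x j)).comp_hasFDerivAt x (hasF_co j x)
  rw [h.fderiv]
  simp only [smul_apply, ContinuousLinearMap.proj_apply, Pi.single_apply,
    smul_eq_mul]
  by_cases hij : i = j
  · rw [if_pos hij, if_pos hij.symm, mul_one]
  · rw [if_neg hij, if_neg (Ne.symm hij), mul_zero]

theorem cd_Nf {b c : ℂ → ℂ} (hb : AnalyticAt ℂ b 0) (hc : AnalyticAt ℂ c 0) (i : Fin 3) :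
    ∀ᶠ x : E3 in 𝓝 0, coordDeriv (Nf b c) i x =
      (if i = 1 then 3 * x 1 ^ 2 + x 2 ^ 4 * b (x 2) else 0) +
      (if i = 2 then 4 * x 2 ^ 3 * b (x 2) * x 1 + x 2 ^ 4 * deriv b (x 2) * x 1 +
        6 * x 2 ^ 5 * c (x 2) + x 2 ^ 6 * deriv c (x 2) else 0) := by
  have t2 : Tendsto (fun x : E3 => x 2) (𝓝 0) (𝓝 0) := (an_co 2).continuousAt
  filter_upwards [t2.eventually hb.eventually_analyticAt,
    t2.eventually hc.eventually_analyticAt] with x h1 h2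
  have a0 : ∀ j, AnalyticAt ℂ (fun x : E3 => x j) x := fun j => an_coord j x
  have ab : AnalyticAt ℂ (fun x : E3 => b (x 2)) x :=
    AnalyticAt.fun_comp (g := b) (f := fun x : E3 => x 2) h1 (a0 2)
  have ac : AnalyticAt ℂ (fun x : E3 => c (x 2)) x :=
    AnalyticAt.fun_comp (g := c) (f := fun x : E3 => x 2) h2 (a0 2)
  have e : Nf b c = fun x => (x 1 ^ 3 + (x 2 ^ 4 * b (x 2)) * x 1) + x 2 ^ 6 * c (x 2) := rfl
  have hx1 : coordDeriv (fun x : E3 => x 1) i x = if i = 1 then 1 else 0 := by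
    have := cd_pow 1 i 1 x
    simpa using this
  rw [e, cd_add (((a0 1).fun_pow 3).fun_add ((((a0 2).fun_pow 4).fun_mul ab).fun_mul (a0 1)))
    (((a0 2).fun_pow 6).fun_mul ac), cd_add ((a0 1).fun_pow 3)
    ((((a0 2).fun_pow 4).fun_mul ab).fun_mul (a0 1)),
    cd_mul (((a0 2).fun_pow 4).fun_mul ab) (a0 1), cd_mul ((a0 2).fun_pow 4) ab,
    cd_mul ((a0 2).fun_pow 6) ac, cd_pow, cd_pow, cd_pow, cd_c h1, cd_c h2, hx1]
  fin_cases i
  · simp
  · simp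
  · simp
    ring

theorem cd_gj {U Q : E3 → ℂ} {b c : ℂ → ℂ} (hU : AnalyticAt ℂ U 0) (hQ : AnalyticAt ℂ Q 0)
    (hb : AnalyticAt ℂ b 0) (hc : AnalyticAt ℂ c 0) (i : Fin 3) :
    ∀ᶠ x : E3 in 𝓝 0, coordDeriv (gj U Q b c) i x = coordDeriv U i x * Nf b c x +
      U x * coordDeriv (Nf b c) i x + (if i = 0 then 2 * x 0 * Q x else 0) +
        x 0 ^ 2 * coordDeriv Q i x := by
  filter_upwards [hU.eventually_analyticAt, hQ.eventually_analyticAt,
    (an_Nf hb hc).eventually_analyticAt] with x h1 h2 h3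
  have a0 : ∀ j, AnalyticAt ℂ (fun x : E3 => x j) x := fun j => an_coord j x
  have e : gj U Q b c = fun x => U x * Nf b c x + x 0 ^ 2 * Q x := rfl
  rw [e, cd_add (h1.fun_mul h3) (((a0 0).fun_pow 2).fun_mul h2), cd_mul h1 h3,
    cd_mul ((a0 0).fun_pow 2) h2, cd_pow]
  by_cases hi : i = 0
  · subst hi
    simp
    ring
  · simp [hi]

end Crest.Agent.R257.Ub9_472
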