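import Crest.Agent.R257.Fin_554

/-!
Row 257 (S0395), leaf E-GLOB, part 2 (helper554): the uniform ideal lemma (U).
`G_1..G_m` analytic near `(0,0)` in `ℂⁿ × ℂ`, `dim O_{n,0}/(G(.,t)) = μ` finite for all small `t`.
Then all monomials of degree `μ` in `x` lie in the ideal `(G_1..G_m)` of `O_{n+1,(0,0)}`.
-/

set_option autoImplicit false

open Set Filter Topology
open Crest.Agent.R275.Loc2879
open scoped Polynomial

noncomputable section

namespace Crest.Agent.R257.Uni554

open Crest.Agent.R257.Fin554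

universe u

section Had

variable {E : Type u} [NormedAddCommGroup E] [NormedSpace ℂ E]

lemma analyticAt_coord {n : ℕ} (i : Fin n) (p : (Fin n → ℂ) × E) :
    AnalyticAt ℂ (fun p : (Fin n → ℂ) × E => p.1 i) p :=
  (((ContinuousLinearMap.proj (R := ℂ) (φ := fun _ : Fin n => ℂ) i).comp
    (ContinuousLinearMap.fst ℂ (Fin n → ℂ) E)).analyticAt p)

/-- the coordinates -/
def Xc (n : ℕ) (z₀ : E) (i : Fin n) : OO (((0 : Fin n → ℂ), z₀)) :=
  gm (fun p => p.1 i) (analyticAt_coord i _)

lemma sndR_gm {n : ℕ} {z₀ : E} {f : E → ℂ} (hf : AnalyticAt ℂ f z₀) :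
    sndR n z₀ (gm f hf) = gm (p := ((0 : Fin n → ℂ), z₀)) (fun p => f p.2)
      (AnalyticAt.comp (g := f) (f := Prod.snd) hf analyticAt_snd) := rfl

theorem hadG [FiniteDimensional ℂ E] (z₀ : E) : ∀ (n : ℕ) (b : OO (((0 : Fin n → ℂ), z₀))),
    ∃ (c : OO z₀) (q : Fin n → OO (((0 : Fin n → ℂ), z₀))),
      b = sndR n z₀ c + ∑ i, Xc n z₀ i * q i
  | 0, b => by
    obtain ⟨f, hf, rfl⟩ := exists_gm b
    have h1 : AnalyticAt ℂ (fun z : E => f (0, z)) z₀ :=
      AnalyticAt.comp (g := f) (f := fun z : E => ((0 : Fin 0 → ℂ), z)) hf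
        (analyticAt_const.prod analyticAt_id)
    refine ⟨gm _ h1, 0, ?_⟩
    rw [Fintype.sum_empty, add_zero, sndR_gm, gm_eq_gm]
    refine Eventually.of_forall (fun p => ?_)
    have : p.1 = 0 := Subsingleton.elim _ _
    simp only
    rw [← this]
  | n + 1, b => by
    have hreg : Reg (Wv ((0 : Fin n → ℂ), z₀)) 1 := ⟨1, by simp⟩
    obtain ⟨q', c', h⟩ := div_exists hreg (cR n z₀ b)
    obtain ⟨c, q, hc⟩ := hadG z₀ n (c' 0)
    refine ⟨c, Fin.cons ((cR n z₀).symm q') (fun i => (cR n z₀).symm (iot _ (q i))), ?_⟩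
    have h2 : b = (cR n z₀).symm (cR n z₀ b) := ((cR n z₀).symm_apply_apply b).symm
    have hX0 : (cR n z₀).symm (Wv ((0 : Fin n → ℂ), z₀)) = Xc (n + 1) z₀ 0 := rfl
    have hXs : ∀ i : Fin n, (cR n z₀).symm (iot _ (Xc n z₀ i)) = Xc (n + 1) z₀ i.succ :=
      fun i => rfl
    have hs : (cR n z₀).symm (iot _ (sndR n z₀ c)) = sndR (n + 1) z₀ c := by
      rw [sndR_succ]; rfl
    rw [h2, h, Fin.sum_univ_succ, map_add, map_mul, hX0]
    simp only [Finset.univ_eq_empty, Finset.sum_empty, add_zero, Fin.val_zero, pow_zero,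
      mul_one]
    rw [hc, map_add, map_add, hs, map_sum, map_sum, Fin.sum_univ_succ]
    simp only [map_mul, hXs, Fin.cons_zero, Fin.cons_succ]
    ring

end Had

section Loc

variable {n : ℕ}

/-- the local ring of `ℂⁿ` at the origin -/
abbrev On (n : ℕ) := OO (0 : Fin n → ℂ)

/-- the local ring of `ℂⁿ × ℂ` at the origin -/
abbrev Bn (n : ℕ) := OO (((0 : Fin n → ℂ), (0 : ℂ)))

lemma analyticAt_coord' (i : Fin n) (p : Fin n → ℂ) :
    AnalyticAt ℂ (fun p : Fin n → ℂ => p i) p :=
  (ContinuousLinearMap.proj (R := ℂ) (φ := fun _ : Fin n => ℂ) i).analyticAt p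

/-- the coordinates -/
def Xo (i : Fin n) : On n := gm (fun p => p i) (analyticAt_coord' i _)

/-- restriction to `t = 0` -/
def rr (n : ℕ) : Bn n →+* On n :=
  pull (fun x => (x, 0)) (analyticAt_id.prod analyticAt_const) rfl

/-- functions of `x` as functions of `(x,t)` -/
def ll (n : ℕ) : On n →+* Bn n := pull Prod.fst analyticAt_fst rfl

@[simp] lemma rr_ll (x : On n) : rr n (ll n x) = x := by
  obtain ⟨f, hf, rfl⟩ := exists_gm x
  rfl

lemma rr_surj : Function.Surjective (rr n) := fun x => ⟨ll n x, rr_ll x⟩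

@[simp] lemma rr_sndR (a : OO (0 : ℂ)) : rr n (sndR n 0 a) = algebraMap ℂ _ (evp 0 a) := by
  obtain ⟨f, hf, rfl⟩ := exists_gm a
  rfl

@[simp] lemma rr_Xc (i : Fin n) : rr n (Xc n (0 : ℂ) i) = Xo i := rfl

lemma Xo_mem (i : Fin n) : Xo i ∈ IsLocalRing.maximalIdeal (On n) := by
  rw [IsLocalRing.mem_maximalIdeal, mem_nonunits_iff, Xo, isUnit_gm]
  simp

/-- the parameter -/
def Tv (n : ℕ) : Bn n := sndR n 0 (TT 0)

/-- the kernel of the restriction is generated by `t` -/
lemma ker_rr {b : Bn n} (hb : rr n b = 0) : ∃ q, b = Tv n * q := by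
  have hreg : Reg (Wv (0 : Fin n → ℂ)) 1 := ⟨1, by simp⟩
  obtain ⟨q, c, h⟩ := div_exists hreg b
  rw [Fin.sum_univ_succ] at h
  simp only [Finset.univ_eq_empty, Finset.sum_empty, add_zero, Fin.val_zero, pow_zero,
    mul_one] at h
  have hT : Wv (0 : Fin n → ℂ) = Tv n := by
    rw [Wv, Tv, TT, sndR_gm, gm_eq_gm]
    exact Eventually.of_forall (fun w => by simp)
  have h1 : rr n (iot 0 (c 0)) = c 0 := by
    obtain ⟨f, hf, hfc⟩ := exists_gm (c 0)
    rw [← hfc]; rfl
  have h2 : rr n (Tv n) = 0 := by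
    rw [Tv, rr_sndR, TT, evp_gm]; simp
  have h3 := congrArg (rr n) h
  rw [hb, map_add, map_mul, hT, h2, mul_zero, zero_add, h1] at h3
  refine ⟨q, ?_⟩
  rw [h, ← h3, map_zero, add_zero, hT, mul_comm]

/-- expansion at the origin -/
lemma had (g : On n) : ∃ q : Fin n → On n, g = algebraMap ℂ _ (evp 0 g) + ∑ i, Xo i * q i := by
  obtain ⟨c, q, h⟩ := hadG (0 : ℂ) n (ll n g)
  have h1 := congrArg (rr n) h
  rw [rr_ll, map_add, rr_sndR, map_sum] at h1
  simp only [map_mul, rr_Xc] at h1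
  have h2 : evp 0 c = evp 0 g := by
    rw [h1, map_add, evp_algebraMap, map_sum]
    have : ∀ i : Fin n, evp 0 (Xo i * rr n (q i)) = 0 := by
      intro i
      rw [map_mul, Xo, evp_gm]; simp
    simp [this]
  refine ⟨fun i => rr n (q i), ?_⟩
  rw [← h2]; exact h1

/-- the maximal ideal of a finite dimensional quotient is nilpotent -/
lemma pow_le {R : Type*} [CommRing R] [IsLocalRing R] [IsNoetherianRing R] [Algebra ℂ R]
    (J : Ideal R) {μ : ℕ} (hfin : Module.Finite ℂ (R ⧸ J)) (hμ : Module.finrank ℂ (R ⧸ J) = μ) :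
    (IsLocalRing.maximalIdeal R) ^ μ ≤ J := by
  set m := IsLocalRing.maximalIdeal R with hm
  by_contra hcon
  let V : ℕ → Submodule ℂ (R ⧸ J) := fun k =>
    Submodule.restrictScalars ℂ ((m ^ k).map (Ideal.Quotient.mk J))
  have hlt : ∀ k ≤ μ, V (k + 1) < V k := by
    intro k hk
    refine lt_of_le_of_ne ?_ ?_
    · intro x hx
      exact (Ideal.map_mono (Ideal.pow_le_pow_right (Nat.le_succ k))) hx
    · intro h
      apply hcon
      have h1 : m ^ k ≤ J ⊔ m • (m ^ k) := by
        intro x hx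
        have h2 : Ideal.Quotient.mk J x ∈ V k := Ideal.mem_map_of_mem _ hx
        rw [← h] at h2
        obtain ⟨y, hy, hyx⟩ := (Ideal.mem_map_iff_of_surjective _
          Ideal.Quotient.mk_surjective).1 (show Ideal.Quotient.mk J x ∈
            (m ^ (k + 1)).map (Ideal.Quotient.mk J) from h2)
        have h3 : x - y ∈ J := by
          rw [← Ideal.Quotient.eq]; exact hyx.symm
        have h4 : x = (x - y) + y := by ring
        rw [h4]
        refine Submodule.add_mem_sup h3 ?_
        rw [smul_eq_mul, ← pow_succ']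
        exact hy
      have h5 : m ^ k ≤ J :=
        Submodule.le_of_le_smul_of_le_jacobson_bot (IsNoetherian.noetherian _)
          (IsLocalRing.maximalIdeal_le_jacobson _) h1
      exact (Ideal.pow_le_pow_right hk).trans h5
  have hk : ∀ k ≤ μ + 1, Module.finrank ℂ (V k) + k ≤ μ := by
    intro k
    induction k with
    | zero =>
      intro _
      rw [add_zero, ← hμ]
      exact Submodule.finrank_le _
    | succ k ih =>
      intro hk
      have h1 := ih (by omega)
      have h2 := Submodule.finrank_lt_finrank_of_lt (hlt k (by omega))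
      omega
  have := hk (μ + 1) le_rfl
  omega

/-- a subspace containing `1` and stable under the coordinates is everything -/
lemma span_top (J : Ideal (On n)) (hfin : Module.Finite ℂ (On n ⧸ J))
    (S : Submodule ℂ (On n ⧸ J)) (h1 : (1 : On n ⧸ J) ∈ S)
    (hX : ∀ s ∈ S, ∀ i : Fin n, Ideal.Quotient.mk J (Xo i) * s ∈ S) : S = ⊤ := by
  set m := IsLocalRing.maximalIdeal (On n) with hm
  have key : ∀ (k : ℕ) (g : On n), ∃ s ∈ S, ∃ y ∈ m ^ k,
      Ideal.Quotient.mk J g = s + Ideal.Quotient.mk J y := by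
    intro k
    induction k with
    | zero => exact fun g => ⟨0, S.zero_mem, g, by simp, by simp⟩
    | succ k ih =>
      intro g
      obtain ⟨q, hq⟩ := had g
      choose s hs y hy hsy using fun i => ih (q i)
      refine ⟨(evp 0 g) • 1 + ∑ i, Ideal.Quotient.mk J (Xo i) * s i,
        S.add_mem (S.smul_mem _ h1) (S.sum_mem (fun i _ => hX _ (hs i) i)),
        ∑ i, Xo i * y i, ?_, ?_⟩
      · refine Ideal.sum_mem _ (fun i _ => ?_)
        rw [pow_succ']
        exact Ideal.mul_mem_mul (Xo_mem i) (hy i)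
      · conv_lhs => rw [hq]
        rw [map_add, map_sum, map_sum, add_assoc, ← Finset.sum_add_distrib]
        congr 1
        · rw [Algebra.smul_def, mul_one]; rfl
        · refine Finset.sum_congr rfl (fun i _ => ?_)
          rw [map_mul, hsy, map_mul]; ring
  rw [eq_top_iff]
  intro x _
  obtain ⟨g, rfl⟩ := Ideal.Quotient.mk_surjective x
  obtain ⟨s, hs, y, hy, h⟩ := key (Module.finrank ℂ (On n ⧸ J)) g
  rw [h, Ideal.Quotient.eq_zero_iff_mem.2 (pow_le J hfin rfl hy), add_zero]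
  exact hs

end Loc

end Crest.Agent.R257.Uni554
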