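import Mathlib

/-!
# R257 (S0395), leaf E-UP (helper938), part 1: a convex function `N` on the line

* `mb`  : a smooth bump, `0 ≤ mb`, zero off `(1/4, 3/4)`, integral one
* `Tb`  : its primitive, `0` for `τ ≤ 1/4`, `1` for `τ ≥ 3/4`
* `Nb`  : primitive of `Tb` with `Nb τ = τ` for `τ ≥ 3/4`; smooth, `1/4 ≤ Nb`, `τ Tb ≤ Nb`
* `persp_le` : `ε² Nb (t/ε²) ≤ r² Nb (t/r²)` for `0 < ε ≤ r`, `0 ≤ t`
* `rh`  : `2 G' + τ G''` for `G = -1/Nb`; `0 ≤ rh`, zero for `τ ≥ 1`, bounded, `0 < rh (1/2)`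
-/

set_option autoImplicit false

open Set Filter Topology MeasureTheory intervalIntegral
open scoped ContDiff

namespace Crest.Agent.R257.Up1_938

noncomputable section

/-- the bump -/
def bb : ContDiffBump (1 / 2 : ℝ) := ⟨1 / 8, 1 / 4, by norm_num, by norm_num⟩

/-- the normalised bump -/
def mb : ℝ → ℝ := bb.normed volume

theorem mb_contDiff : ContDiff ℝ ∞ mb := bb.contDiff_normed

theorem mb_cont : Continuous mb := mb_contDiff.continuous

theorem mb_nonneg (t : ℝ) : 0 ≤ mb t := bb.nonneg_normed t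

theorem mb_zero {t : ℝ} (h : t ∉ Ioo (1 / 4 : ℝ) (3 / 4)) : mb t = 0 := by
  have h1 : Function.support mb = Metric.ball (1 / 2 : ℝ) (1 / 4) := bb.support_normed_eq
  by_contra h2
  have h3 : t ∈ Function.support mb := h2
  rw [h1, Metric.mem_ball, Real.dist_eq, abs_lt] at h3
  exact h ⟨by linarith [h3.1], by linarith [h3.2]⟩

theorem mb_pos : 0 < mb (1 / 2) := by
  have h1 : Function.support mb = Metric.ball (1 / 2 : ℝ) (1 / 4) := bb.support_normed_eq
  have h2 : (1 / 2 : ℝ) ∈ Function.support mb := by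
    rw [h1]; exact Metric.mem_ball_self (by norm_num)
  exact lt_of_le_of_ne (mb_nonneg _) (Ne.symm h2)

theorem mb_integral : ∫ t, mb t = 1 := bb.integral_normed

/-- the primitive of the bump -/
def Tb (t : ℝ) : ℝ := ∫ s in (0 : ℝ)..t, mb s

theorem hasDerivAt_Tb (t : ℝ) : HasDerivAt Tb (mb t) t :=
  intervalIntegral.integral_hasDerivAt_right (mb_cont.intervalIntegrable _ _)
    (mb_cont.stronglyMeasurableAtFilter _ _) mb_cont.continuousAt

theorem Tb_contDiff : ContDiff ℝ ∞ Tb := by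
  rw [contDiff_infty_iff_deriv]
  refine ⟨fun t => (hasDerivAt_Tb t).differentiableAt, ?_⟩
  have h : deriv Tb = mb := funext fun t => (hasDerivAt_Tb t).deriv
  rw [h]
  exact mb_contDiff

theorem Tb_mono : Monotone Tb :=
  monotone_of_deriv_nonneg (fun t => (hasDerivAt_Tb t).differentiableAt) fun t => by
    rw [(hasDerivAt_Tb t).deriv]; exact mb_nonneg t

theorem Tb_zero {t : ℝ} (h : t ≤ 1 / 4) : Tb t = 0 := by
  unfold Tb
  rw [intervalIntegral.integral_congr (g := fun _ => (0 : ℝ)), intervalIntegral.integral_zero]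
  intro s hs
  refine mb_zero fun hs2 => ?_
  rcases le_total 0 t with h0 | h0
  · rw [uIcc_of_le h0] at hs
    linarith [hs.2, hs2.1]
  · rw [uIcc_of_ge h0] at hs
    linarith [hs.2, hs2.1]

theorem Tb_one {t : ℝ} (h : 3 / 4 ≤ t) : Tb t = 1 := by
  rw [← mb_integral]
  unfold Tb
  rw [intervalIntegral.integral_of_le (by linarith),
    ← MeasureTheory.integral_indicator measurableSet_Ioc]
  refine integral_congr_ae (Eventually.of_forall fun s => ?_)
  by_cases hs : s ∈ Ioc 0 t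
  · simp only [indicator_of_mem hs]
  · simp only [indicator_of_notMem hs]
    refine (mb_zero fun hs2 => hs ⟨by linarith [hs2.1], by linarith [hs2.2]⟩).symm

theorem Tb_nonneg (t : ℝ) : 0 ≤ Tb t := by
  rcases le_total t (1 / 4) with h | h
  · rw [Tb_zero h]
  · rw [← Tb_zero (le_refl (1 / 4 : ℝ))]; exact Tb_mono h

theorem Tb_le_one (t : ℝ) : Tb t ≤ 1 := by
  rcases le_total (3 / 4) t with h | h
  · rw [Tb_one h]
  · rw [← Tb_one (le_refl (3 / 4 : ℝ))]; exact Tb_mono h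

/-- the convex function -/
def Nb (t : ℝ) : ℝ := 1 + ∫ s in (1 : ℝ)..t, Tb s

theorem hasDerivAt_Nb (t : ℝ) : HasDerivAt Nb (Tb t) t :=
  (intervalIntegral.integral_hasDerivAt_right (Tb_contDiff.continuous.intervalIntegrable _ _)
    (Tb_contDiff.continuous.stronglyMeasurableAtFilter _ _)
    Tb_contDiff.continuous.continuousAt).const_add 1

theorem Nb_contDiff : ContDiff ℝ ∞ Nb := by
  rw [contDiff_infty_iff_deriv]
  refine ⟨fun t => (hasDerivAt_Nb t).differentiableAt, ?_⟩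
  have h : deriv Nb = Tb := funext fun t => (hasDerivAt_Nb t).deriv
  rw [h]
  exact Tb_contDiff

theorem Nb_eq {t : ℝ} (h : 3 / 4 ≤ t) : Nb t = t := by
  unfold Nb
  rw [intervalIntegral.integral_congr (g := fun _ => (1 : ℝ)), intervalIntegral.integral_const,
    smul_eq_mul]
  · ring
  · intro s hs
    refine Tb_one ?_
    rcases le_total 1 t with h0 | h0
    · rw [uIcc_of_le h0] at hs
      linarith [hs.1]
    · rw [uIcc_of_ge h0] at hs
      linarith [hs.1]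

/-- `Nb t - t` is antitone -/
theorem Nb_sub_anti : Antitone fun t => Nb t - t :=
  antitone_of_deriv_nonpos
    (fun t => ((hasDerivAt_Nb t).sub (hasDerivAt_id t)).differentiableAt) fun t => by
      have h : HasDerivAt (fun t => Nb t - t) (Tb t - 1) t :=
        (hasDerivAt_Nb t).sub (hasDerivAt_id t)
      rw [h.deriv]; linarith [Tb_le_one t]

theorem Nb_mono : Monotone Nb :=
  monotone_of_deriv_nonneg (fun t => (hasDerivAt_Nb t).differentiableAt) fun t => by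
    rw [(hasDerivAt_Nb t).deriv]; exact Tb_nonneg t

theorem le_Nb (t : ℝ) : t ≤ Nb t := by
  rcases le_total t 1 with h | h
  · have h1 := Nb_sub_anti h
    simp only [Nb_eq (show (3 / 4 : ℝ) ≤ 1 by norm_num)] at h1
    linarith
  · exact (Nb_eq (by linarith)).ge

theorem quarter_le_Nb (t : ℝ) : 1 / 4 ≤ Nb t := by
  rcases le_total (1 / 4) t with h | h
  · exact h.trans (le_Nb t)
  · have h1 : Nb (1 / 4) - Nb t = ∫ s in t..(1 / 4 : ℝ), Tb s := by
      unfold Nb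
      have h2 := intervalIntegral.integral_add_adjacent_intervals
        (Tb_contDiff.continuous.intervalIntegrable (μ := volume) 1 t)
        (Tb_contDiff.continuous.intervalIntegrable (μ := volume) t (1 / 4))
      linarith
    have h3 : ∫ s in t..(1 / 4 : ℝ), Tb s = 0 := by
      rw [intervalIntegral.integral_congr (g := fun _ => (0 : ℝ)), intervalIntegral.integral_zero]
      intro s hs
      rw [uIcc_of_le h] at hs
      exact Tb_zero hs.2
    have h4 := le_Nb (1 / 4)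
    linarith

theorem Nb_pos (t : ℝ) : 0 < Nb t := lt_of_lt_of_le (by norm_num) (quarter_le_Nb t)

theorem mul_Tb_le {t : ℝ} (h0 : 0 ≤ t) : t * Tb t ≤ Nb t :=
  le_trans (mul_le_of_le_one_right h0 (Tb_le_one t)) (le_Nb t)

/-- `Nb τ / τ` is antitone -/
theorem div_anti {a b : ℝ} (ha : 0 < a) (hab : a ≤ b) : Nb b / b ≤ Nb a / a := by
  have hd : ∀ t ∈ Ioi (0 : ℝ), HasDerivAt (fun t => Nb t / t) ((Tb t * t - Nb t * 1) / t ^ 2) t :=
    fun t ht => (hasDerivAt_Nb t).div (hasDerivAt_id t) (ne_of_gt ht)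
  have h := antitoneOn_of_deriv_nonpos (convex_Ioi (0 : ℝ)) (f := fun t => Nb t / t)
    (fun t ht => (hd t ht).continuousAt.continuousWithinAt)
    (fun t ht => by
      rw [interior_Ioi] at ht
      exact (hd t ht).differentiableAt.differentiableWithinAt)
    (fun t ht => by
      rw [interior_Ioi] at ht
      rw [(hd t ht).deriv]
      refine div_nonpos_of_nonpos_of_nonneg ?_ (by positivity)
      have := mul_Tb_le (le_of_lt ht)
      linarith)
  exact h ha (lt_of_lt_of_le ha hab : (0 : ℝ) < b) hab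

theorem persp_le {e r t : ℝ} (he : 0 < e) (her : e ≤ r) (ht : 0 ≤ t) :
    e ^ 2 * Nb (t / e ^ 2) ≤ r ^ 2 * Nb (t / r ^ 2) := by
  have hr : 0 < r := lt_of_lt_of_le he her
  rcases ht.eq_or_lt with h0 | h0
  · rw [← h0, zero_div, zero_div]
    exact mul_le_mul_of_nonneg_right (by gcongr) (Nb_pos 0).le
  · have h1 : t / r ^ 2 ≤ t / e ^ 2 := by gcongr
    have h2 := div_anti (show 0 < t / r ^ 2 by positivity) h1
    have h3 : e ^ 2 * Nb (t / e ^ 2) = t * (Nb (t / e ^ 2) / (t / e ^ 2)) := by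
      field_simp
    have h4 : r ^ 2 * Nb (t / r ^ 2) = t * (Nb (t / r ^ 2) / (t / r ^ 2)) := by
      field_simp
    rw [h3, h4]
    exact mul_le_mul_of_nonneg_left h2 h0.le

/-! ### the functions `G` -/

/-- `G_e(t) = -1 / (e² Nb (t/e²))` -/
def Gs (e t : ℝ) : ℝ := -(e ^ 2 * Nb (t / e ^ 2))⁻¹

/-- first derivative -/
def G1 (e t : ℝ) : ℝ := Tb (t / e ^ 2) / (e ^ 2 * Nb (t / e ^ 2)) ^ 2

/-- second derivative -/
def G2 (e t : ℝ) : ℝ := mb (t / e ^ 2) / e ^ 2 / (e ^ 2 * Nb (t / e ^ 2)) ^ 2 -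
  2 * Tb (t / e ^ 2) ^ 2 / (e ^ 2 * Nb (t / e ^ 2)) ^ 3

theorem hasDerivAt_D {e : ℝ} (he : e ≠ 0) (t : ℝ) :
    HasDerivAt (fun t => e ^ 2 * Nb (t / e ^ 2)) (Tb (t / e ^ 2)) t := by
  have h1 : HasDerivAt (fun t : ℝ => t / e ^ 2) (1 / e ^ 2) t := (hasDerivAt_id t).div_const _
  have h2 := ((hasDerivAt_Nb (t / e ^ 2)).comp t h1).const_mul (e ^ 2)
  have e1 : e ^ 2 * (Tb (t / e ^ 2) * (1 / e ^ 2)) = Tb (t / e ^ 2) := by field_simp
  rw [e1] at h2
  exact h2

theorem D_pos {e : ℝ} (he : e ≠ 0) (t : ℝ) : 0 < e ^ 2 * Nb (t / e ^ 2) :=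
  mul_pos (by positivity) (Nb_pos _)

theorem hasDerivAt_Gs {e : ℝ} (he : e ≠ 0) (t : ℝ) : HasDerivAt (Gs e) (G1 e t) t := by
  have h := ((hasDerivAt_D he t).inv (D_pos he t).ne').neg
  have e1 : -(-Tb (t / e ^ 2) / (e ^ 2 * Nb (t / e ^ 2)) ^ 2) = G1 e t := by
    unfold G1; ring
  rw [e1] at h
  exact h

theorem hasDerivAt_G1 {e : ℝ} (he : e ≠ 0) (t : ℝ) : HasDerivAt (G1 e) (G2 e t) t := by
  have h1 : HasDerivAt (fun t : ℝ => t / e ^ 2) (1 / e ^ 2) t := (hasDerivAt_id t).div_const _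
  have h2 : HasDerivAt (fun t => Tb (t / e ^ 2)) (mb (t / e ^ 2) * (1 / e ^ 2)) t :=
    HasDerivAt.comp (h₂ := Tb) t (hasDerivAt_Tb (t / e ^ 2)) h1
  have hD := D_pos he t
  have h3 : HasDerivAt (fun t => (e ^ 2 * Nb (t / e ^ 2)) ^ 2)
      (2 * (e ^ 2 * Nb (t / e ^ 2)) * Tb (t / e ^ 2)) t := by
    have h := (hasDerivAt_D he t).fun_pow 2
    refine h.congr_deriv ?_
    norm_num
  have h4 : HasDerivAt (G1 e) ((mb (t / e ^ 2) * (1 / e ^ 2) * (e ^ 2 * Nb (t / e ^ 2)) ^ 2 -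
      Tb (t / e ^ 2) * (2 * (e ^ 2 * Nb (t / e ^ 2)) * Tb (t / e ^ 2))) /
        ((e ^ 2 * Nb (t / e ^ 2)) ^ 2) ^ 2) t :=
    h2.div h3 (pow_ne_zero 2 hD.ne')
  refine h4.congr_deriv ?_
  unfold G2
  have hN := Nb_pos (t / e ^ 2)
  field_simp

theorem Gs_contDiff {e : ℝ} (he : e ≠ 0) : ContDiff ℝ ∞ (Gs e) := by
  unfold Gs
  refine (ContDiff.inv ?_ fun t => (D_pos he t).ne').neg
  exact contDiff_const.mul (Nb_contDiff.comp (contDiff_id.div_const _))

/-- for `0 < e ≤ r`, `0 ≤ t` -/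
theorem Gs_mono {e r t : ℝ} (he : 0 < e) (her : e ≤ r) (ht : 0 ≤ t) : Gs e t ≤ Gs r t := by
  unfold Gs
  have h := persp_le he her ht
  have h0 := D_pos he.ne' t
  exact neg_le_neg (inv_anti₀ h0 h)

theorem Gs_eq {e t : ℝ} (he : 0 < e) (ht : e ^ 2 ≤ t) : Gs e t = -t⁻¹ := by
  unfold Gs
  rw [Nb_eq]
  · congr 2
    field_simp
  · have h1 : 1 ≤ t / e ^ 2 := (one_le_div (by positivity)).2 ht
    linarith

/-! ### the kernel -/

/-- `2 G' + τ G''` -/
def rh (t : ℝ) : ℝ := 2 * (Tb t / Nb t ^ 2) + t * (mb t / Nb t ^ 2 - 2 * Tb t ^ 2 / Nb t ^ 3)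

theorem rh_cont : Continuous rh := by
  unfold rh
  have hN : Continuous Nb := Nb_contDiff.continuous
  have hT : Continuous Tb := Tb_contDiff.continuous
  have h2 : ∀ t, Nb t ^ 2 ≠ 0 := fun t => pow_ne_zero 2 (Nb_pos t).ne'
  have h3 : ∀ t, Nb t ^ 3 ≠ 0 := fun t => pow_ne_zero 3 (Nb_pos t).ne'
  exact (continuous_const.mul (hT.div (hN.pow 2) h2)).add (continuous_id.mul
    ((mb_cont.div (hN.pow 2) h2).sub ((continuous_const.mul (hT.pow 2)).div (hN.pow 3) h3)))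

theorem rh_nonneg {t : ℝ} (ht : 0 ≤ t) : 0 ≤ rh t := by
  have hN := Nb_pos t
  have h1 : rh t = (2 * Tb t * (Nb t - t * Tb t) + t * Nb t * mb t) / Nb t ^ 3 := by
    unfold rh
    field_simp
    ring
  rw [h1]
  have h2 := mul_Tb_le ht
  have h3 := Tb_nonneg t
  have h4 := mb_nonneg t
  have h5 : 0 ≤ 2 * Tb t * (Nb t - t * Tb t) := mul_nonneg (by positivity) (by linarith)
  positivity

theorem rh_zero {t : ℝ} (ht : 3 / 4 ≤ t) : rh t = 0 := by
  unfold rh
  rw [Tb_one ht, Nb_eq ht, mb_zero fun h => absurd h.2 (not_lt.2 ht)]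
  have : t ≠ 0 := by linarith
  field_simp
  ring

theorem rh_pos_half : 0 < rh (1 / 2) := by
  have hN := Nb_pos (1 / 2)
  have h1 : rh (1 / 2) = (2 * Tb (1 / 2) * (Nb (1 / 2) - (1 / 2) * Tb (1 / 2)) +
      (1 / 2) * Nb (1 / 2) * mb (1 / 2)) / Nb (1 / 2) ^ 3 := by
    unfold rh
    field_simp
    ring
  rw [h1]
  have h2 := mul_Tb_le (show (0 : ℝ) ≤ 1 / 2 by norm_num)
  have h3 := Tb_nonneg (1 / 2)
  have h4 := mb_pos
  have h5 : 0 ≤ 2 * Tb (1 / 2) * (Nb (1 / 2) - (1 / 2) * Tb (1 / 2)) :=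
    mul_nonneg (by positivity) (by linarith)
  positivity

theorem exists_rh_le : ∃ B : ℝ, 0 ≤ B ∧ ∀ t, 0 ≤ t → rh t ≤ B := by
  obtain ⟨C, hC⟩ := isCompact_Icc.exists_bound_of_continuousOn (s := Icc (0 : ℝ) 1)
    rh_cont.continuousOn
  refine ⟨|C|, abs_nonneg _, fun t ht => ?_⟩
  rcases le_total t 1 with h | h
  · exact (le_abs_self _).trans ((hC t ⟨ht, h⟩).trans (le_abs_self _))
  · rw [rh_zero (by linarith)]; exact abs_nonneg _

theorem rho_eq {e : ℝ} (he : e ≠ 0) (t : ℝ) :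
    2 * G1 e t + t * G2 e t = rh (t / e ^ 2) / e ^ 4 := by
  unfold G1 G2 rh
  have hN := Nb_pos (t / e ^ 2)
  field_simp

end

end Crest.Agent.R257.Up1_938
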