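import Crest.Agent.R257.Up1_938
import Crest.Agent.R273.FIa0_597
import Crest.Agent.R273.FS_333
import Crest.Agent.R273.GreenG_5
import Crest.Agent.R273.MassA_5

/-!
# R257 (S0395), leaf E-UP (helper938), part 2: Green's formula and the pulled back kernel

* `green_sym` : `∫ φ tr(adj(∂∂̄w) ∂∂̄f) = ∫ f tr(adj(∂∂̄w) ∂∂̄φ)` (real parts), `φ` with compact support
* `trace_eq`  : `tr(adj(∂∂̄|F|²) ∂∂̄ G_e(|F-y|²)) = |det ∂F|² rh(|F-y|²/e²)/e⁴`
-/

set_option autoImplicit false
set_option linter.unusedSectionVars false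

open Set Filter Topology Complex MeasureTheory
open scoped ContDiff Matrix ComplexConjugate ComplexOrder

namespace Crest.Agent.R257.Up2_938

open Crest.Agent.R275 Crest.Agent.R275.Geo Crest.Agent.R275.Core144 Crest.Agent.R275.EDR890
open Crest.Agent.R275.Pai323 Crest.Agent.R275.C1d194
open Crest.Agent.R275.SerG398 (lint dens)
open Crest.Agent.R275.OmT75 (dj dl)
open Crest.Agent.R273.Defs_333 Crest.Agent.R273.Hess_333 Crest.Agent.R273.HessB_333
open Crest.Agent.R273.Kah_333 Crest.Agent.R273.StV_37 Crest.Agent.R273.Green_5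
open Crest.Agent.R273.GreenM_5 Crest.Agent.R273.GreenG_5 Crest.Agent.R273.FS_333
open Crest.Agent.R273.FIa0_597 (hess_comp_real)
open Crest.Agent.R273.MassA_5 (qa_conj)
open Crest.Agent.R257.Up1_938

noncomputable section

section green

variable {n : ℕ} {M : Type} [TopologicalSpace M] {A : Atl n M} [T2Space M]
variable {g : A.ι → M → Matrix (Fin n) (Fin n) ℂ}

open Classical in
/-- **Green's formula**, `u` supported in the compact set `K` -/
theorem green_u (P : Part A) (hg : CF A g) {φ u : M → ℂ} (hφ : ∀ i, A.SmAt i φ)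
    (hu : ∀ i, A.SmAt i u) {K : Set M} (hK : IsCompact K) {F : Finset A.ι} (hF : Fn P hK ⊆ F)
    (h0 : ∀ x ∉ K, u x = 0) :
    tot P F (fun i x => φ x * ((g i x).adjugate * hm A u i x).trace) =
      - tot P F (grd g φ u) := by
  set Y : A.ι → M → Fin n → ℂ := fun i x a =>
    if x ∈ (A.e i).source then adjY A g φ u i x a else 0 with hY
  have hv := v10_adj hg hφ hu
  have hYe : ∀ i, ∀ x ∈ (A.e i).source, ∀ a, Y i x a = adjY A g φ u i x a :=
    fun i x hx a => by simp only [hY, if_pos hx]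
  have hvY : V10 A Y := by
    refine ⟨fun i a => (hv.sm i a).congr fun z hz => hYe i _ ((A.e i).map_target hz) a,
      fun i j x hx b => ?_⟩
    rw [Finset.sum_congr rfl fun a _ => by rw [hYe i x hx.1 a], hYe j x hx.2 b]
    exact hv.tr i j x hx b
  have h1 := stokes10 P hvY hK hF fun i x hx => by
    funext a
    by_cases hxi : x ∈ (A.e i).source
    · rw [hYe i x hxi]
      have h2 : u =ᶠ[𝓝 x] 0 := by
        filter_upwards [hK.isClosed.isOpen_compl.mem_nhds hx] with y hy
        exact h0 y hy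
      unfold adjY
      rw [Finset.sum_eq_zero fun b _ => by rw [db_zero_of hxi h2, mul_zero], mul_zero]
      rfl
    · simp only [hY, if_neg hxi]
      rfl
  have h2 : tot P F (fun i x => ∑ a, dl A i a (fun y => Y i y a) x) =
      tot P F (fun i x => φ x * ((g i x).adjugate * hm A u i x).trace + grd g φ u i x) := by
    refine tot_congr P F fun i _ x hx => ?_
    rw [show φ x * ((g i x).adjugate * hm A u i x).trace + grd g φ u i x =
      ∑ a, dl A i a (fun y => adjY A g φ u i y a) x from (div_adjY hg (hφ i) (hu i) hx).symm]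
    refine Finset.sum_congr rfl fun a _ => ?_
    unfold OmT75.dl
    refine OmT75.dj_congr ?_
    filter_upwards [(A.e i).open_target.mem_nhds ((A.e i).map_source hx)] with z hz
    rw [hYe i _ ((A.e i).map_target hz)]
  rw [h2, tot_add P F (f := fun i x => φ x * ((g i x).adjugate * hm A u i x).trace)
      (g := grd g φ u)
      (fun i => (hφ i).mul (smAt_tr hg (hu i))) (fun i => smAt_grd hg hφ hu i)] at h1
  exact eq_neg_of_add_eq_zero_left h1

theorem hsf_isHerm {w : M → ℝ} (hw : A.Sm w) {i : A.ι} {x : M} (hx : x ∈ (A.e i).source) :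
    (hsf A w i x).IsHermitian := hsf_herm hw hx

/-- symmetry of the gradient term -/
theorem grd_symm {w : M → ℝ} (hw : A.Sm w) (f φ : M → ℝ) {i : A.ι} {x : M}
    (hx : x ∈ (A.e i).source) :
    grd (hsf A w) (fun y => (f y : ℂ)) (fun y => (φ y : ℂ)) i x =
      conj (grd (hsf A w) (fun y => (φ y : ℂ)) (fun y => (f y : ℂ)) i x) := by
  rw [grd_qa, grd_qa]
  have h1 : ∀ u : M → ℝ, (fun b => A.db i b (fun y => (u y : ℂ)) x) =
      fun b => conj (dl A i b (fun y => (u y : ℂ)) x) := fun u => funext fun b => db_ofReal u i b x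
  rw [h1 f, h1 φ, qa_conj (hsf_isHerm hw hx).adjugate]

theorem green_sym (P : Part A) {w f φ : M → ℝ} (hw : A.Sm w) (hf : A.Sm f) (hφ : A.Sm φ)
    {K : Set M} (hK : IsCompact K) {F : Finset A.ι} (hF : Fn P hK ⊆ F) (h0 : ∀ x ∉ K, φ x = 0) :
    (tot P F (fun i x => (φ x : ℂ) * ((hsf A w i x).adjugate * hsf A f i x).trace)).re =
      (tot P F (fun i x => (f x : ℂ) * ((hsf A w i x).adjugate * hsf A φ i x).trace)).re := by
  have hfc : ∀ i, A.SmAt i (fun x => (f x : ℂ)) := fun i => smAt_ofReal (hf i)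
  have hφc : ∀ i, A.SmAt i (fun x => (φ x : ℂ)) := fun i => smAt_ofReal (hφ i)
  have h0c : ∀ x ∉ K, (φ x : ℂ) = 0 := fun x hx => by rw [h0 x hx, ofReal_zero]
  have h1 := green P (hsf_cf hw) hφc hfc hK hF h0c
  have h2 := green_u P (hsf_cf hw) hfc hφc hK hF h0c
  have e1 : tot P F (fun i x => (φ x : ℂ) * ((hsf A w i x).adjugate * hsf A f i x).trace) =
      tot P F (fun i x => (φ x : ℂ) *
        ((hsf A w i x).adjugate * hm A (fun y => (f y : ℂ)) i x).trace) :=
    tot_congr P F fun i _ x hx => by rw [hm_ofReal f i hx]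
  have e2 : tot P F (fun i x => (f x : ℂ) * ((hsf A w i x).adjugate * hsf A φ i x).trace) =
      tot P F (fun i x => (f x : ℂ) *
        ((hsf A w i x).adjugate * hm A (fun y => (φ y : ℂ)) i x).trace) :=
    tot_congr P F fun i _ x hx => by rw [hm_ofReal φ i hx]
  have e3 : tot P F (grd (hsf A w) (fun y => (f y : ℂ)) (fun y => (φ y : ℂ))) =
      conj (tot P F (grd (hsf A w) (fun y => (φ y : ℂ)) (fun y => (f y : ℂ)))) := by
    rw [← tot_conj]
    exact tot_congr P F fun i _ x hx => grd_symm hw f φ hx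
  rw [e1, e2, h1, h2, e3, neg_re, neg_re, conj_re]
  rfl

end green

/-! ### the local computation -/

section LA2

theorem tr_g {g : Matrix (Fin 2) (Fin 2) ℂ} : (g.adjugate * g).trace = 2 * g.det := by
  simp only [Matrix.trace_fin_two, Matrix.adjugate_fin_two, Matrix.mul_apply, Fin.sum_univ_two,
    Matrix.det_fin_two, Matrix.of_apply, Matrix.cons_val', Matrix.cons_val_zero,
    Matrix.cons_val_one, Matrix.cons_val_fin_one]
  ring

/-- the trace with `∂∂̄|F|²` -/
theorem tr_local (D : Matrix (Fin 2) (Fin 2) ℂ) (v : Fin 2 → ℂ) (a b : ℂ)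
    (g H : Matrix (Fin 2) (Fin 2) ℂ) (hg : ∀ p q, g p q = ∑ k, D k p * conj (D k q))
    (hH : ∀ p q, H p q = a * g p q + b * ((∑ k, D k p * conj (v k)) * ∑ k, v k * conj (D k q))) :
    (g.adjugate * H).trace =
      (D.det * conj D.det) * (2 * a + b * ∑ k, v k * conj (v k)) := by
  simp only [Matrix.trace_fin_two, Matrix.adjugate_fin_two, Matrix.mul_apply, Fin.sum_univ_two,
    Matrix.det_fin_two, Matrix.of_apply, Matrix.cons_val', Matrix.cons_val_zero,
    Matrix.cons_val_one, Matrix.cons_val_fin_one, hH, hg, map_sub, map_mul]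
  ring

end LA2

section Local

/-- Jacobian matrix of `F : Cn 2 → ℂ²` -/
def DF (F : Cn 2 → Fin 2 → ℂ) (z : Cn 2) : Matrix (Fin 2) (Fin 2) ℂ :=
  Matrix.of fun k a => fderiv ℂ (fun z => F z k) z (EuclideanSpace.single a 1)

theorem trace_eq {F : Cn 2 → Fin 2 → ℂ} {U : Set (Cn 2)} (hU : IsOpen U)
    (hF : ∀ k, DifferentiableOn ℂ (fun z => F z k) U) {z : Cn 2} (hz : z ∈ U) (y : Fin 2 → ℂ)
    {e : ℝ} (he : e ≠ 0) :
    ((hess (sq F) z).adjugate * hess (fun w => Gs e (sq (fun w k => F w k - y k) w)) z).trace =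
      ((‖(DF F z).det‖ ^ 2 * (rh (sq (fun w k => F w k - y k) z / e ^ 2) / e ^ 4) : ℝ) : ℂ) := by
  set F' : Cn 2 → Fin 2 → ℂ := fun w k => F w k - y k with hF'
  have hFd : ∀ k, DifferentiableOn ℂ (fun z => F' z k) U := fun k => (hF k).sub_const _
  have hfd : ∀ k, ∀ w, fderiv ℂ (fun z => F' z k) w = fderiv ℂ (fun z => F z k) w := fun k w =>
    fderiv_sub_const _
  have hsm : ContDiffAt ℝ ∞ (sq F') z :=
    ContDiffAt.sum fun k _ => (contDiffAt_of_hol hU (hFd k) hz).norm_sq ℝ
  have h1 := fun a b => hess_comp_real (φ := Gs e) (φ' := G1 e) (d2 := G2 e (sq F' z)) hsm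
    (Eventually.of_forall fun s => hasDerivAt_Gs he s) (hasDerivAt_G1 he _) a b
  have hg : ∀ p q, hess (sq F) z p q = ∑ k, DF F z k p * conj (DF F z k q) := fun p q =>
    hess_sq hU hF hz p q
  have hg' : ∀ p q, hess (sq F') z p q = hess (sq F) z p q := fun p q => by
    rw [hess_sq hU hFd hz p q, hess_sq hU hF hz p q]
    simp only [hfd]
  have hH : ∀ p q, hess (fun w => Gs e (sq F' w)) z p q = (G1 e (sq F' z) : ℂ) * hess (sq F) z p q +
      (G2 e (sq F' z) : ℂ) * ((∑ k, DF F z k p * conj (F' z k)) *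
        ∑ k, F' z k * conj (DF F z k q)) := by
    intro p q
    rw [h1 p q, hg' p q, wd_sq' hU hFd hz p, wd_sq hU hFd hz q]
    simp only [hfd]
    rfl
  rw [tr_local (DF F z) (F' z) _ _ _ _ hg hH]
  have h2 : ∑ k, F' z k * conj (F' z k) = ((sq F' z : ℝ) : ℂ) := by
    have := congrFun (cu_sq F') z
    simp only [cu] at this
    exact this.symm
  rw [h2, Complex.mul_conj, Complex.normSq_eq_norm_sq]
  rw [← rho_eq he]
  push_cast
  ring

end Local

end

end Crest.Agent.R257.Up2_938
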