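import Crest.Agent.R257.Up3_938
import Crest.Agent.R257.Atl5_941

/-!
# R257 (S0395), leaf E-UP (helper938), part 4: the local lower bound

* `c0`, `c0_pos`, `lint_ker` : the mass of the kernel
* `lower` : `a c0 ≤ ∫ f |∂F|² ρ_e(F - F x0)` for `e` small, `a < f(x0)`, `det ∂F (x0) ≠ 0`
-/

set_option autoImplicit false
set_option linter.unusedSectionVars false

open Set Filter Topology Complex MeasureTheory Module
open scoped ContDiff Matrix ComplexConjugate ComplexOrder ENNReal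

namespace Crest.Agent.R257.Up4_938

open Crest.Agent.R275 Crest.Agent.R275.Geo Crest.Agent.R275.Core144 Crest.Agent.R275.EDR890
open Crest.Agent.R275.Pai323 Crest.Agent.R275.C1d194
open Crest.Agent.R273.Defs_333 Crest.Agent.R273.HM_333 Crest.Agent.R273.Map_835
open Crest.Agent.R273.Vm_333 Crest.Agent.R273.GreenM_5
open Crest.Agent.R257.Atl_941 (det_mt hasFDerivAt_rc exists_invFun')
open Crest.Agent.R257.Up1_938 Crest.Agent.R257.Up2_938 Crest.Agent.R257.Up3_938

noncomputable section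

/-! ### the kernel in `ℝ⁴` -/

/-- `∑ z_p²` -/
def nsq (z : RI 2 → ℝ) : ℝ := ∑ p, z p ^ 2

theorem nsq_cont : Continuous nsq :=
  continuous_finsetSum _ fun p _ => (continuous_apply p).pow 2

theorem nsq_nonneg (z : RI 2 → ℝ) : 0 ≤ nsq z := Finset.sum_nonneg fun _ _ => sq_nonneg _

theorem nsq_smul (c : ℝ) (z : RI 2 → ℝ) : nsq (c • z) = c ^ 2 * nsq z := by
  unfold nsq
  rw [Finset.mul_sum]
  refine Finset.sum_congr rfl fun p _ => ?_
  rw [Pi.smul_apply, smul_eq_mul, mul_pow]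

theorem norm_sq_le (z : RI 2 → ℝ) : ‖z‖ ^ 2 ≤ nsq z := by
  have h1 : ‖z‖ ≤ √(nsq z) := by
    rw [pi_norm_le_iff_of_nonneg (Real.sqrt_nonneg _)]
    intro p
    rw [Real.norm_eq_abs]
    refine Real.abs_le_sqrt ?_
    exact Finset.single_le_sum (f := fun p => z p ^ 2) (fun _ _ => sq_nonneg _) (Finset.mem_univ p)
  calc ‖z‖ ^ 2 ≤ √(nsq z) ^ 2 := pow_le_pow_left₀ (norm_nonneg _) h1 2
    _ = nsq z := Real.sq_sqrt (nsq_nonneg z)

/-- the kernel -/
def ker (z : RI 2 → ℝ) : ℝ := rh (nsq z)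

theorem ker_cont : Continuous ker := rh_cont.comp nsq_cont

theorem ker_nonneg (z : RI 2 → ℝ) : 0 ≤ ker z := rh_nonneg (nsq_nonneg z)

theorem ker_zero {z : RI 2 → ℝ} (h : 1 ≤ nsq z) : ker z = 0 := rh_zero (by linarith)

theorem ker_cs : HasCompactSupport ker := by
  refine HasCompactSupport.intro (isCompact_closedBall (0 : RI 2 → ℝ) 1) fun z hz => ?_
  refine ker_zero ?_
  have h1 : 1 < ‖z‖ := by
    rw [Metric.mem_closedBall, dist_zero_right, not_le] at hz
    exact hz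
  nlinarith [norm_sq_le z]

theorem ker_integrable : Integrable ker := ker_cont.integrable_of_hasCompactSupport ker_cs

/-- the mass of the kernel -/
def c0 : ℝ := ∫ z, ker z

theorem c0_pos : 0 < c0 := by
  refine ker_cont.integral_pos_of_hasCompactSupport_nonneg_nonzero (x := Pi.single (0, 0) √(1 / 2))
    ker_cs ker_nonneg ?_
  have h1 : nsq (Pi.single (0, 0) √(1 / 2)) = 1 / 2 := by
    unfold nsq
    rw [Finset.sum_eq_single (0, 0)]
    · rw [Pi.single_eq_same, Real.sq_sqrt (by norm_num)]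
    · intro p _ hp
      rw [Pi.single_eq_of_ne hp]
      norm_num
    · intro h
      exact absurd (Finset.mem_univ _) h
  unfold ker
  rw [h1]
  exact rh_pos_half.ne'

/-- the kernel with centre `p` and radius `e` -/
def kerE (p : RI 2 → ℝ) (e : ℝ) (z : RI 2 → ℝ) : ℝ := rh (nsq (z - p) / e ^ 2) / e ^ 4

theorem kerE_eq (p : RI 2 → ℝ) (e : ℝ) (z : RI 2 → ℝ) :
    kerE p e z = (e ^ 4)⁻¹ * ker (e⁻¹ • (z - p)) := by
  unfold kerE ker
  rw [nsq_smul, div_eq_mul_inv (nsq (z - p)), mul_comm (nsq (z - p)), inv_pow, div_eq_inv_mul]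

theorem kerE_nonneg (p : RI 2 → ℝ) (e : ℝ) (z : RI 2 → ℝ) : 0 ≤ kerE p e z := by
  rw [kerE_eq]
  exact mul_nonneg (by positivity) (ker_nonneg _)

theorem kerE_zero {p : RI 2 → ℝ} {e : ℝ} (he : 0 < e) {z : RI 2 → ℝ}
    (h : e ^ 2 ≤ nsq (z - p)) : kerE p e z = 0 := by
  unfold kerE
  rw [rh_zero, zero_div]
  have : 1 ≤ nsq (z - p) / e ^ 2 := (one_le_div (by positivity)).2 h
  linarith

theorem kerE_cont (p : RI 2 → ℝ) (e : ℝ) : Continuous (kerE p e) := by
  have h : kerE p e = fun z => (e ^ 4)⁻¹ * ker (e⁻¹ • (z - p)) := funext (kerE_eq p e)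
  rw [h]
  exact continuous_const.mul (ker_cont.comp
    (by fun_prop : Continuous fun z : RI 2 → ℝ => e⁻¹ • (z - p)))

theorem integrable_kerE (p : RI 2 → ℝ) {e : ℝ} (he : 0 < e) : Integrable (kerE p e) := by
  have h : kerE p e = fun z => (e ^ 4)⁻¹ * ker (e⁻¹ • (z - p)) := funext (kerE_eq p e)
  rw [h]
  refine Integrable.const_mul ?_ _
  exact (ker_integrable.comp_smul (inv_ne_zero he.ne')).comp_sub_right p

theorem integral_kerE (p : RI 2 → ℝ) {e : ℝ} (he : 0 < e) : ∫ z, kerE p e z = c0 := by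
  have h : kerE p e = fun z => (e ^ 4)⁻¹ * ker (e⁻¹ • (z - p)) := funext (kerE_eq p e)
  rw [h, integral_const_mul]
  have h1 : ∫ z : RI 2 → ℝ, ker (e⁻¹ • (z - p)) = ∫ z, ker (e⁻¹ • z) :=
    integral_sub_right_eq_self (fun z => ker (e⁻¹ • z)) p
  rw [h1, Measure.integral_comp_inv_smul_of_nonneg volume ker he.le]
  have h2 : finrank ℝ (RI 2 → ℝ) = 4 := by
    rw [finrank_pi]
    rfl
  rw [h2, smul_eq_mul, ← mul_assoc, inv_mul_cancel₀ (by positivity), one_mul]
  rfl

theorem lint_ker (p : RI 2 → ℝ) {e : ℝ} (he : 0 < e) :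
    ∫⁻ z, ENNReal.ofReal (kerE p e z) = ENNReal.ofReal c0 := by
  rw [← ofReal_integral_eq_lintegral_ofReal (integrable_kerE p he)
    (Eventually.of_forall (kerE_nonneg p e)), integral_kerE p he]

/-! ### the lower bound -/

variable {M : Type} [TopologicalSpace M] {A : Atl 2 M}

/-- `F` in the chart `i` as a map to `Cn 2` -/
def GG (A : Atl 2 M) (F : M → Fin 2 → ℂ) (i : A.ι) (z : Cn 2) : Cn 2 :=
  WithLp.toLp 2 (F ((A.e i).symm z))

theorem GG_apply (F : M → Fin 2 → ℂ) (i : A.ι) (z : Cn 2) (k : Fin 2) :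
    GG A F i z k = F ((A.e i).symm z) k := rfl

theorem GG_diff {F : M → Fin 2 → ℂ} (hF : HolM A F) (i : A.ι) :
    DifferentiableOn ℂ (GG A F i) (A.e i).target := by
  rw [differentiableOn_euclidean]
  exact fun k => hF i k

theorem mt_GG {F : M → Fin 2 → ℂ} (hF : HolM A F) {i : A.ι} {z : Cn 2} (hz : z ∈ (A.e i).target) :
    mt (fderiv ℂ (GG A F i) z) = DF (fun z => F ((A.e i).symm z)) z := by
  have h1 := (GG_diff hF i).differentiableAt ((A.e i).open_target.mem_nhds hz)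
  ext b a
  have h2 : HasFDerivAt (fun z => GG A F i z b)
      ((EuclideanSpace.proj b : Cn 2 →L[ℂ] ℂ).comp (fderiv ℂ (GG A F i) z)) z :=
    (EuclideanSpace.proj b : Cn 2 →L[ℂ] ℂ).hasFDerivAt.comp z h1.hasFDerivAt
  have h3 : fderiv ℂ (fun z => F ((A.e i).symm z) b) z =
      (EuclideanSpace.proj b : Cn 2 →L[ℂ] ℂ).comp (fderiv ℂ (GG A F i) z) := h2.fderiv
  change (fderiv ℂ (GG A F i) z (EuclideanSpace.single a 1)) b =
    fderiv ℂ (fun z => F ((A.e i).symm z) b) z (EuclideanSpace.single a 1)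
  rw [h3]
  rfl

theorem sqM_nsq (F : M → Fin 2 → ℂ) (i : A.ι) (x0 : M) (z0 : Cn 2)
    (hz0 : ∀ k, z0 k = F x0 k) (y : RI 2 → ℝ) :
    sqM F (F x0) (sg A i y) = nsq (rc (GG A F i (cc y)) - rc z0) := by
  unfold sqM nsq
  rw [Fintype.sum_prod_type]
  refine Finset.sum_congr rfl fun k _ => ?_
  rw [Fin.sum_univ_two]
  simp only [Pi.sub_apply, rc, if_true, one_ne_zero, if_false]
  rw [GG_apply, hz0, ← Complex.sub_re, ← Complex.sub_im, ← Complex.normSq_eq_norm_sq,
    Complex.normSq_apply]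
  unfold sg
  ring

section meas

variable [T2Space M] [MeasurableSpace M] [BorelSpace M] [Countable A.ι]

theorem lower (h : HM (KB A)⁻¹) {F : M → Fin 2 → ℂ} (hF : HolM A F) {f : M → ℝ}
    (hf : Continuous f) {i : A.ι} {x0 : M} (hx0 : x0 ∈ (A.e i).source)
    (hdet : (DM A F i x0).det ≠ 0) {a : ℝ} (ha0 : 0 ≤ a) (ha : a < f x0) :
    ∃ e0 : ℝ, 0 < e0 ∧ ∀ e, 0 < e → e < e0 →
      ENNReal.ofReal a * ENNReal.ofReal c0 ≤
        ∫⁻ x, ENNReal.ofReal (f x * (J2 h F x * rhE F (F x0) e x)) ∂(vm h) := by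
  set z0 := A.e i x0 with hz0
  have hz0t : z0 ∈ (A.e i).target := (A.e i).map_source hx0
  have hGd := GG_diff hF i
  have hmt := mt_GG hF hz0t
  have hD : (fderiv ℂ (GG A F i) z0).det ≠ 0 := by
    change LinearMap.det (fderiv ℂ (GG A F i) z0 : Cn 2 →ₗ[ℂ] Cn 2) ≠ 0
    rw [← det_mt, hmt]
    exact hdet
  obtain ⟨R, hzR, hRs, hRG, -⟩ := exists_invFun' (A.e i).open_target hGd hz0t
    ((fderiv ℂ (GG A F i) z0).toContinuousLinearEquivOfDetNeZero hD) (by
      rw [ContinuousLinearMap.coe_toContinuousLinearEquivOfDetNeZero]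
      exact (hGd.differentiableAt ((A.e i).open_target.mem_nhds hz0t)).hasFDerivAt)
  set G := GG A F i with hG
  -- the open set
  set O : Set (Cn 2) := R.source ∩ ((A.e i).target ∩ (A.e i).symm ⁻¹' {x | a < f x}) with hO
  have hOo : IsOpen O := by
    refine R.open_source.inter ?_
    exact (A.e i).symm.isOpen_inter_preimage (isOpen_lt continuous_const hf)
  have hz0O : z0 ∈ O := by
    refine ⟨hzR, hz0t, ?_⟩
    change a < f ((A.e i).symm (A.e i x0))
    rwa [(A.e i).left_inv hx0]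
  have hRO : IsOpen (R '' O) := R.isOpen_image_of_subset_source hOo fun z hz => hz.1
  set S : Set (RI 2 → ℝ) := (fun y => cc y) ⁻¹' O with hS
  have hSo : IsOpen S := hOo.preimage continuous_cc
  have hSU : S ⊆ Ui A i := fun y hy => hy.2.1
  set Ψ : (RI 2 → ℝ) → (RI 2 → ℝ) := fun y => rc (G (cc y)) with hΨ
  set p0 : RI 2 → ℝ := rc (G z0) with hp0
  have himg : Ψ '' S = (fun w => cc w) ⁻¹' (R '' O) := by
    ext w
    constructor
    · rintro ⟨y, hy, rfl⟩
      refine ⟨cc y, hy, ?_⟩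
      change R (cc y) = cc (rc (G (cc y)))
      rw [cc_rc, hRG]
    · rintro ⟨z, hz, hzw⟩
      refine ⟨rc z, ?_, ?_⟩
      · change cc (rc z) ∈ O
        rw [cc_rc]; exact hz
      · change rc (G (cc (rc z))) = w
        rw [cc_rc, ← hRG, hzw]
        exact rc_cc w
  have hVo : IsOpen (Ψ '' S) := by rw [himg]; exact hRO.preimage continuous_cc
  have hp0V : p0 ∈ Ψ '' S := by
    refine ⟨rc z0, ?_, ?_⟩
    · change cc (rc z0) ∈ O
      rw [cc_rc]; exact hz0O
    · change rc (G (cc (rc z0))) = p0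
      rw [cc_rc]
  obtain ⟨e0, he0, hball⟩ := Metric.isOpen_iff.1 hVo p0 hp0V
  have hinj : InjOn Ψ S := by
    intro y hy y' hy' hyy
    have h1 : G (cc y) = G (cc y') := by
      have := congrArg (cc : (RI 2 → ℝ) → Cn 2) hyy
      change cc (rc (G (cc y))) = cc (rc (G (cc y'))) at this
      rwa [cc_rc, cc_rc] at this
    rw [← hRG] at h1
    have h2 := R.injOn hy.1 hy'.1 h1
    have h3 := congrArg (rc : Cn 2 → RI 2 → ℝ) h2
    rwa [rc_cc, rc_cc] at h3
  have hL : ∀ y : RI 2 → ℝ, ∃ L : (RI 2 → ℝ) →L[ℝ] (RI 2 → ℝ), y ∈ S →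
      (HasFDerivAt Ψ L y ∧ |L.det| = ‖(DM A F i (sg A i y)).det‖ ^ 2) := by
    intro y
    by_cases hy : y ∈ S
    · obtain ⟨L, hL1, hL2⟩ := hasFDerivAt_rc
        (hGd.differentiableAt ((A.e i).open_target.mem_nhds (hSU hy)))
      refine ⟨L, fun _ => ⟨hL1, ?_⟩⟩
      rw [hL2, hG, mt_GG hF (hSU hy)]
      unfold DM sg
      rw [(A.e i).right_inv (hSU hy)]
    · exact ⟨0, fun h => absurd h hy⟩
  choose L hL using hL
  refine ⟨e0, he0, fun e he hee => ?_⟩
  have hcont : Continuous fun x => f x * (J2 h F x * rhE F (F x0) e x) :=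
    hf.mul ((J2_cont h hF).mul (rhE_cont hF (F x0) e))
  have hz00 : ∀ k, G z0 k = F x0 k := by
    intro k
    rw [hG, GG_apply, hz0, (A.e i).left_inv hx0]
  have hrh : ∀ y, rhE F (F x0) e (sg A i y) = kerE p0 e (Ψ y) := by
    intro y
    unfold rhE kerE
    rw [sqM_nsq F i x0 (G z0) hz00 y]
  calc ENNReal.ofReal a * ENNReal.ofReal c0
      = ENNReal.ofReal a * ∫⁻ w in Ψ '' S, ENNReal.ofReal (kerE p0 e w) := by
        rw [← lint_ker p0 he]
        congr 1
        symm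
        refine setLIntegral_eq_of_support_subset ?_
        intro w hw
        by_contra hwV
        refine hw ?_
        change ENNReal.ofReal (kerE p0 e w) = 0
        rw [kerE_zero he, ENNReal.ofReal_zero]
        by_contra hlt
        rw [not_le] at hlt
        refine hwV (hball ?_)
        rw [Metric.mem_ball, dist_eq_norm]
        have h1 := norm_sq_le (w - p0)
        have h2 : ‖w - p0‖ ^ 2 < e0 ^ 2 := by nlinarith
        exact lt_of_pow_lt_pow_left₀ 2 he0.le h2
    _ = ENNReal.ofReal a * ∫⁻ y in S, ENNReal.ofReal |(L y).det| *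
          ENNReal.ofReal (kerE p0 e (Ψ y)) := by
        rw [lintegral_image_eq_lintegral_abs_det_fderiv_mul volume hSo.measurableSet
          (fun y hy => (hL y hy).1.hasFDerivWithinAt) hinj]
    _ = ∫⁻ y in S, ENNReal.ofReal a * (ENNReal.ofReal |(L y).det| *
          ENNReal.ofReal (kerE p0 e (Ψ y))) := by
        rw [lintegral_const_mul' _ _ ENNReal.ofReal_ne_top]
    _ ≤ ∫⁻ y in S, Crest.Agent.R273.Vm_333.dn h i y *
          ENNReal.ofReal (f (sg A i y) * (J2 h F (sg A i y) * rhE F (F x0) e (sg A i y))) := by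
        refine setLIntegral_mono' hSo.measurableSet fun y hy => ?_
        have hyU := hSU hy
        have hxs := sg_mem hyU
        have hw := h.pos i _ hxs
        have hfa : a < f (sg A i y) := hy.2.2
        rw [(hL y hy).2, ← w_mul_J2 h hF hxs]
        unfold Crest.Agent.R273.Vm_333.dn
        rw [← ENNReal.ofReal_mul (mul_nonneg hw.le (J2_nonneg h F _)), ← ENNReal.ofReal_mul ha0,
          ← ENNReal.ofReal_mul hw.le]
        refine ENNReal.ofReal_le_ofReal ?_
        rw [hrh]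
        have h1 : 0 ≤ h.w i (sg A i y) * J2 h F (sg A i y) * kerE p0 e (Ψ y) :=
          mul_nonneg (mul_nonneg hw.le (J2_nonneg h F _)) (kerE_nonneg _ _ _)
        nlinarith
    _ ≤ ∫⁻ y in Ui A i, Crest.Agent.R273.Vm_333.dn h i y *
          ENNReal.ofReal (f (sg A i y) * (J2 h F (sg A i y) * rhE F (F x0) e (sg A i y))) :=
        lintegral_mono_set hSU
    _ = ∫⁻ x in (A.e i).source,
          ENNReal.ofReal (f x * (J2 h F x * rhE F (F x0) e x)) ∂(vm h) := by
        rw [setLIntegral_vm h i hcont.measurable.ennreal_ofReal]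
    _ ≤ _ := setLIntegral_le_lintegral _ _

end meas

end

end Crest.Agent.R257.Up4_938
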