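import Crest.Agent.R257.Up4_938

/-!
# R257 (S0395), leaf E-UP (helper938), part 5: the upper bound

`up` : `M` surface, `F : M → ℂ²` holomorphic and proper over `{0 < |y|² < δ}`, `u` psh,
`∫ e^u dm ≤ M0`, `|det ∂F|²/h ≤ C1 |F|^{2q}` ⟹ `e^u ≤ K(q) C1 M0 |F|^{2(q-2)}`
where `|F|² < 4δ/9`.  (`dm = vm h`; `q = 2 + 1/k`: `u ≤ (1/k) log |F|² + C`.)
-/

set_option autoImplicit false
set_option linter.unusedSectionVars false

open Set Filter Topology Complex MeasureTheory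
open scoped ContDiff Matrix ComplexConjugate ComplexOrder ENNReal

namespace Crest.Agent.R257.Up5_938

open Crest.Agent.R275 Crest.Agent.R275.Geo Crest.Agent.R275.Core144 Crest.Agent.R275.EDR890
open Crest.Agent.R275.Pai323 Crest.Agent.R275.C1d194
open Crest.Agent.R273.Defs_333 Crest.Agent.R273.HM_333 Crest.Agent.R273.Kah_333
open Crest.Agent.R273.Vm_333 Crest.Agent.R273.GreenM_5
open Crest.Agent.R257.Up1_938 Crest.Agent.R257.Up2_938 Crest.Agent.R257.Up3_938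
open Crest.Agent.R257.Up4_938

noncomputable section

variable {M : Type} [TopologicalSpace M] {A : Atl 2 M}

theorem sqM_norm (F : M → Fin 2 → ℂ) (y : Fin 2 → ℂ) (x : M) :
    sqM F y x = ‖(WithLp.toLp 2 (F x) : Cn 2) - WithLp.toLp 2 y‖ ^ 2 := by
  rw [EuclideanSpace.norm_sq_eq]
  rfl

theorem sqM_norm0 (F : M → Fin 2 → ℂ) (x : M) :
    sqM F 0 x = ‖(WithLp.toLp 2 (F x) : Cn 2)‖ ^ 2 := by
  rw [sqM_norm]
  congr 2
  ext k
  simp

theorem sqM_range (F : M → Fin 2 → ℂ) {x0 x : M} (h : sqM F (F x0) x ≤ sqM F 0 x0 / 4) :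
    sqM F 0 x0 / 4 ≤ sqM F 0 x ∧ sqM F 0 x ≤ 9 / 4 * sqM F 0 x0 := by
  rw [sqM_norm] at h
  rw [sqM_norm0, sqM_norm0] at *
  set a : Cn 2 := WithLp.toLp 2 (F x) with ha
  set b : Cn 2 := WithLp.toLp 2 (F x0) with hb
  have h1 : ‖a - b‖ ≤ ‖b‖ / 2 := by
    refine le_of_sq_le_sq ?_ (by positivity)
    nlinarith
  have h2 : ‖a‖ ≤ ‖a - b‖ + ‖b‖ := by
    have := norm_add_le (a - b) b
    rwa [sub_add_cancel] at this
  have h3 : ‖b‖ ≤ ‖a - b‖ + ‖a‖ := by
    have := norm_add_le (b - a) a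
    rw [sub_add_cancel, norm_sub_rev] at this
    exact this
  have h4 := norm_nonneg a
  have h5 := norm_nonneg b
  constructor
  · nlinarith
  · nlinarith

/-- a bound of `rh` -/
def Brh : ℝ := exists_rh_le.choose

theorem Brh_nonneg : 0 ≤ Brh := exists_rh_le.choose_spec.1

theorem rh_le {t : ℝ} (ht : 0 ≤ t) : rh t ≤ Brh := exists_rh_le.choose_spec.2 t ht

/-- the constant -/
def Kup (q : ℝ) : ℝ := 16 * (Brh + 1) * (9 / 4) ^ q / c0

theorem Kup_pos (q : ℝ) : 0 < Kup q := by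
  have := c0_pos
  have := Brh_nonneg
  unfold Kup
  positivity

section meas

variable [T2Space M] [MeasurableSpace M] [BorelSpace M] [Countable A.ι]

theorem J2_ne {h : HM (KB A)⁻¹} {F : M → Fin 2 → ℂ} {x : M} (hx : J2 h F x ≠ 0) :
    (DM A F (ci A x) x).det ≠ 0 := by
  intro h0
  refine hx ?_
  unfold J2
  rw [h0, norm_zero]
  simp

/-- the bound at a point where `F` is a local coordinate system -/
theorem up_at (h : HM (KB A)⁻¹) (P : Part A) {F : M → Fin 2 → ℂ} (hF : HolM A F)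
    {u : M → ℝ} (hu : A.Sm u) (hpsh : ∀ i, ∀ x ∈ (A.e i).source, (hsf A u i x).PosSemidef)
    {q C1 M0 δ : ℝ} (hq : 0 ≤ q) (hC1 : 0 ≤ C1) (hM : 0 ≤ M0)
    (hM0 : ∫⁻ x in {x | sqM F 0 x < δ}, ENNReal.ofReal (Real.exp (u x)) ∂(vm h) ≤
      ENNReal.ofReal M0)
    (hJ : ∀ x, 0 < sqM F 0 x → sqM F 0 x < δ → J2 h F x ≤ C1 * (sqM F 0 x) ^ q)
    {x0 : M} (hd : J2 h F x0 ≠ 0) (hs0 : 0 < sqM F 0 x0) (hs : 9 / 4 * sqM F 0 x0 < δ)
    (hK : IsCompact {x | sqM F 0 x0 / 4 ≤ sqM F 0 x ∧ sqM F 0 x ≤ 9 / 4 * sqM F 0 x0}) :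
    Real.exp (u x0) ≤ Kup q * C1 * M0 * (sqM F 0 x0) ^ (q - 2) := by
  set s := sqM F 0 x0 with hsd
  set r : ℝ := √s / 2 with hr
  have hr0 : 0 < r := by positivity
  have hr2 : r ^ 2 = s / 4 := by
    rw [hr, div_pow, Real.sq_sqrt hs0.le]
    norm_num
  have hr4 : r ^ 4 = s ^ 2 / 16 := by
    have : r ^ 4 = (r ^ 2) ^ 2 := by ring
    rw [this, hr2]
    ring
  have hKr : IsCompact {x | sqM F (F x0) x ≤ r ^ 2} := by
    refine hK.of_isClosed_subset
      (isClosed_le (sm_continuous (sqM_sm hF (F x0))) continuous_const) fun x hx => ?_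
    have hx' : sqM F (F x0) x ≤ s / 4 := by rw [← hr2]; exact hx
    exact sqM_range F hx'
  set f : M → ℝ := fun x => Real.exp (u x) with hfd
  have hfs : A.Sm f := exp_sm hu
  have hfc : Continuous f := sm_continuous hfs
  have hfp : ∀ x, 0 < f x := fun x => Real.exp_pos _
  have hcont : ∀ e, Continuous fun x => f x * (J2 h F x * rhE F (F x0) e x) := fun e =>
    hfc.mul ((J2_cont h hF).mul (rhE_cont hF (F x0) e))
  have hnn : ∀ e x, 0 ≤ f x * (J2 h F x * rhE F (F x0) e x) := fun e x =>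
    mul_nonneg (hfp x).le (mul_nonneg (J2_nonneg h F x) (rhE_nonneg F (F x0) e x))
  have hint : ∀ e, 0 < e → e ≤ r →
      Integrable (fun x => f x * (J2 h F x * rhE F (F x0) e x)) (vm h) := by
    intro e he her
    refine integrable_cs h (hcont e) hKr fun x hx => ?_
    rw [rhE_zero he (lt_of_le_of_lt (pow_le_pow_left₀ he.le her 2) (not_le.1 hx)), mul_zero,
      mul_zero]
  set Cc : ℝ := C1 * (9 / 4 * s) ^ q * ((Brh + 1) / r ^ 4) with hCc
  have hB := Brh_nonneg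
  have hCc0 : 0 ≤ Cc := by positivity
  -- the upper bound
  have hub : ∫⁻ x, ENNReal.ofReal (f x * (J2 h F x * rhE F (F x0) r x)) ∂(vm h) ≤
      ENNReal.ofReal (Cc * M0) := by
    have h1 : ∀ x, ENNReal.ofReal (f x * (J2 h F x * rhE F (F x0) r x)) ≤
        ({x | sqM F 0 x < δ} : Set M).indicator
          (fun x => ENNReal.ofReal Cc * ENNReal.ofReal (Real.exp (u x))) x := by
      intro x
      by_cases hx : sqM F (F x0) x ≤ r ^ 2
      · have hx' : sqM F (F x0) x ≤ s / 4 := by rw [← hr2]; exact hx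
        obtain ⟨hlo, hhi⟩ := sqM_range F hx'
        have hxδ : sqM F 0 x < δ := lt_of_le_of_lt hhi hs
        rw [indicator_of_mem (show x ∈ {x | sqM F 0 x < δ} from hxδ), ← ENNReal.ofReal_mul hCc0]
        refine ENNReal.ofReal_le_ofReal ?_
        have h2 : J2 h F x ≤ C1 * (9 / 4 * s) ^ q :=
          (hJ x (lt_of_lt_of_le (by positivity) hlo) hxδ).trans (mul_le_mul_of_nonneg_left
            (Real.rpow_le_rpow (sqM_nonneg F 0 x) hhi hq) hC1)
        have h3 : rhE F (F x0) r x ≤ (Brh + 1) / r ^ 4 := by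
          unfold rhE
          refine div_le_div_of_nonneg_right ?_ (by positivity)
          linarith [rh_le (t := sqM F (F x0) x / r ^ 2)
            (div_nonneg (sqM_nonneg F (F x0) x) (sq_nonneg r))]
        have h4 : J2 h F x * rhE F (F x0) r x ≤ Cc :=
          mul_le_mul h2 h3 (rhE_nonneg F (F x0) r x) (by positivity)
        calc f x * (J2 h F x * rhE F (F x0) r x) ≤ f x * Cc :=
              mul_le_mul_of_nonneg_left h4 (hfp x).le
          _ = Cc * Real.exp (u x) := mul_comm _ _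
      · rw [rhE_zero hr0 (not_le.1 hx), mul_zero, mul_zero, ENNReal.ofReal_zero]
        exact zero_le
    have hms : MeasurableSet {x | sqM F 0 x < δ} :=
      (isOpen_lt (sm_continuous (sqM_sm hF 0)) continuous_const).measurableSet
    calc ∫⁻ x, ENNReal.ofReal (f x * (J2 h F x * rhE F (F x0) r x)) ∂(vm h)
        ≤ ∫⁻ x, ({x | sqM F 0 x < δ} : Set M).indicator
          (fun x => ENNReal.ofReal Cc * ENNReal.ofReal (Real.exp (u x))) x ∂(vm h) :=
          lintegral_mono h1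
      _ = ∫⁻ x in {x | sqM F 0 x < δ},
          ENNReal.ofReal Cc * ENNReal.ofReal (Real.exp (u x)) ∂(vm h) := lintegral_indicator hms _
      _ = ENNReal.ofReal Cc * ∫⁻ x in {x | sqM F 0 x < δ},
          ENNReal.ofReal (Real.exp (u x)) ∂(vm h) := lintegral_const_mul' _ _ ENNReal.ofReal_ne_top
      _ ≤ ENNReal.ofReal Cc * ENNReal.ofReal M0 := mul_le_mul_right hM0 _
      _ = ENNReal.ofReal (Cc * M0) := (ENNReal.ofReal_mul hCc0).symm
  -- the main inequality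
  have hmain : ∀ a, 0 ≤ a → a < f x0 → a * c0 ≤ Cc * M0 := by
    intro a ha0 ha
    obtain ⟨e0, he0, hlow⟩ := lower h hF hfc (mem_ci x0) (J2_ne hd) ha0 ha
    set e : ℝ := min (e0 / 2) r with hed
    have he : 0 < e := lt_min (by positivity) hr0
    have h1 := hlow e he (lt_of_le_of_lt (min_le_left _ _) (by linarith))
    have her : e ≤ r := min_le_right _ _
    have h2 := mono_int h P hF hfs (fun i x hx => hsf_exp_psd hu hx (hpsh i x hx)) (F x0) he her
      hKr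
    have h3 : ∀ t, 0 < t → t ≤ r →
        ∫⁻ x, ENNReal.ofReal (f x * (J2 h F x * rhE F (F x0) t x)) ∂(vm h) =
        ENNReal.ofReal (∫ x, f x * (J2 h F x * rhE F (F x0) t x) ∂(vm h)) := fun t ht htr =>
      (ofReal_integral_eq_lintegral_ofReal (hint t ht htr)
        (Eventually.of_forall (hnn t))).symm
    rw [h3 e he her] at h1
    rw [h3 r hr0 le_rfl] at hub
    have h4 := h1.trans ((ENNReal.ofReal_le_ofReal h2).trans hub)
    rw [← ENNReal.ofReal_mul ha0] at h4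
    exact (ENNReal.ofReal_le_ofReal_iff (mul_nonneg hCc0 hM)).1 h4
  have hc := c0_pos
  have hfin : f x0 * c0 ≤ Cc * M0 := by
    by_contra hlt
    rw [not_le] at hlt
    have h1 : Cc * M0 / c0 < f x0 := (div_lt_iff₀ hc).2 hlt
    have h0 : 0 ≤ Cc * M0 / c0 := by positivity
    have h2 := hmain ((Cc * M0 / c0 + f x0) / 2) (by linarith) (by linarith)
    have h3 : Cc * M0 / c0 * c0 = Cc * M0 := div_mul_cancel₀ _ hc.ne'
    have h4 : (Cc * M0 / c0 + f x0) / 2 * c0 = (Cc * M0 + f x0 * c0) / 2 := by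
      rw [← h3]
      field_simp
    rw [h4] at h2
    linarith
  have hpow : s ^ q = s ^ (q - 2) * s ^ 2 := by
    rw [← Real.rpow_natCast s 2, ← Real.rpow_add hs0]
    congr 1
    norm_num
  calc Real.exp (u x0) = f x0 := rfl
    _ ≤ Cc * M0 / c0 := (le_div_iff₀ hc).2 hfin
    _ = Kup q * C1 * M0 * s ^ (q - 2) := by
        rw [hCc, hr4, Real.mul_rpow (by norm_num) hs0.le, hpow]
        unfold Kup
        have : s ≠ 0 := hs0.ne'
        field_simp

/-- **(UP)** the upper bound -/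
theorem up (h : HM (KB A)⁻¹) (P : Part A) {F : M → Fin 2 → ℂ} (hF : HolM A F)
    {u : M → ℝ} (hu : A.Sm u) (hpsh : ∀ i, ∀ x ∈ (A.e i).source, (hsf A u i x).PosSemidef)
    {q C1 M0 δ : ℝ} (hq : 0 ≤ q) (hC1 : 0 ≤ C1) (hM : 0 ≤ M0)
    (hM0 : ∫⁻ x in {x | sqM F 0 x < δ}, ENNReal.ofReal (Real.exp (u x)) ∂(vm h) ≤
      ENNReal.ofReal M0)
    (hJ : ∀ x, 0 < sqM F 0 x → sqM F 0 x < δ → J2 h F x ≤ C1 * (sqM F 0 x) ^ q)
    (hK : ∀ a b, 0 < a → b < δ → IsCompact {x | a ≤ sqM F 0 x ∧ sqM F 0 x ≤ b})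
    (hd : Dense {x | J2 h F x ≠ 0}) {x : M} (hs0 : 0 < sqM F 0 x)
    (hs : 9 / 4 * sqM F 0 x < δ) :
    Real.exp (u x) ≤ Kup q * C1 * M0 * (sqM F 0 x) ^ (q - 2) := by
  set U : Set M := {x | 0 < sqM F 0 x ∧ 9 / 4 * sqM F 0 x < δ} with hU
  have hc := sm_continuous (sqM_sm hF 0)
  have hUo : IsOpen U := (isOpen_lt continuous_const hc).inter
    (isOpen_lt (continuous_const.mul hc) continuous_const)
  have hxc : x ∈ closure (U ∩ {x | J2 h F x ≠ 0}) :=
    hd.open_subset_closure_inter hUo ⟨hs0, hs⟩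
  refine ContinuousWithinAt.closure_le (f := fun x => Real.exp (u x))
    (g := fun x => Kup q * C1 * M0 * (sqM F 0 x) ^ (q - 2)) hxc ?_ ?_ ?_
  · exact (sm_continuous (exp_sm hu)).continuousWithinAt
  · exact (continuousAt_const.mul (hc.continuousAt.rpow_const (Or.inl hs0.ne'))).continuousWithinAt
  · rintro y ⟨⟨hy0, hy1⟩, hy2⟩
    exact up_at h P hF hu hpsh hq hC1 hM hM0 hJ hy2 hy0 hy1 (hK _ _ (by positivity) hy1)

/-- logarithmic form -/
theorem up_log (h : HM (KB A)⁻¹) (P : Part A) {F : M → Fin 2 → ℂ} (hF : HolM A F)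
    {u : M → ℝ} (hu : A.Sm u) (hpsh : ∀ i, ∀ x ∈ (A.e i).source, (hsf A u i x).PosSemidef)
    {q C1 M0 δ : ℝ} (hq : 0 ≤ q) (hC1 : 0 < C1) (hM : 0 < M0)
    (hM0 : ∫⁻ x in {x | sqM F 0 x < δ}, ENNReal.ofReal (Real.exp (u x)) ∂(vm h) ≤
      ENNReal.ofReal M0)
    (hJ : ∀ x, 0 < sqM F 0 x → sqM F 0 x < δ → J2 h F x ≤ C1 * (sqM F 0 x) ^ q)
    (hK : ∀ a b, 0 < a → b < δ → IsCompact {x | a ≤ sqM F 0 x ∧ sqM F 0 x ≤ b})
    (hd : Dense {x | J2 h F x ≠ 0}) {x : M} (hs0 : 0 < sqM F 0 x)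
    (hs : 9 / 4 * sqM F 0 x < δ) :
    u x ≤ (q - 2) * Real.log (sqM F 0 x) + Real.log (Kup q * C1 * M0) := by
  have h1 := up h P hF hu hpsh hq hC1.le hM.le hM0 hJ hK hd hs0 hs
  have hk := Kup_pos q
  have h2 : 0 < Kup q * C1 * M0 := by positivity
  have h3 := Real.log_le_log (Real.exp_pos _) h1
  rw [Real.log_exp, Real.log_mul h2.ne' (Real.rpow_pos_of_pos hs0 _).ne', Real.log_rpow hs0] at h3
  linarith

end meas

end

end Crest.Agent.R257.Up5_938
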