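import Crest.Agent.R257.KUP_952
import Crest.Agent.R257.LossB_625
import Crest.Agent.R257.V3B_218
import Crest.Agent.R257.SkelG2_952

/-!
R257 / UpA1_952: assembly of `UppStmt`, part 1: test functions `χ cv((A-u)/R)`, behaviour away from
the puncture as `R → ∞`.
-/

set_option autoImplicit false
set_option linter.unusedSectionVars false

open Topology Filter MeasureTheory Set
open scoped ENNReal ContDiff Matrix ComplexOrder

noncomputable section

namespace Crest.Agent.R257.UpA_952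

open Crest.Agent.R275.Geo
open Crest.Agent.R257.Defs_219
open Crest.Agent.R257.KED_952 Crest.Agent.R257.KEG_952 Crest.Agent.R257.KEU_952
open Crest.Agent.R257.KUP_952
open Crest.Agent.R257.V1Defs_822 (SmL LvlOK lgh)
open Crest.Agent.R257.V1Pe_822
open Crest.Agent.R273.Defs_333 (lev)
open Crest.Agent.R273.YauDefs_635 (cH)
open Crest.Agent.R257.PN_835 (nsq)
open Crest.Agent.R257.Aff_835 (eta2a nga)
open Crest.Agent.R257.C2F1_625 (pd c2)
open Crest.Agent.R257.C2F2_625 (hV bb)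
open Crest.Agent.R257.OutB_309 (Gm)
open Crest.Agent.R257.LossA_625 (fx hS Psd Lv pe_lv dns_cases fx_add fx_sub fx_mul fx_congr fx_const
  ev_pe fx_nonneg fx_abs_le cv cv_sm cv_nonneg cv_zero cv_anti cv_aff cv_le_one sc sc_pos
  mxd_eq_fx)
open Crest.Agent.R257.LossB_625 (Cs Sh exists_sh exists_xi smL_mul smL_add smL_const smL_smul
  smL_comp smL_amb ae_lv off_ev)
open Crest.Agent.R257.LossD_309 (HO dV oxd)

variable {f : E3 → ℂ} {r A : ℝ} {u : E3 → ℝ} {ν : Measure E3} {χ : E3 → ℝ}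

/-- the cut-off at scale `R` -/
def cR (A : ℝ) (u : E3 → ℝ) (R : ℝ) (x : E3) : ℝ := cv ((A - u x) / R)

/-- the test functions -/
def tR (A : ℝ) (u χ : E3 → ℝ) (R : ℝ) (x : E3) : ℝ := χ x * cR A u R x

/-- `W = A - u` -/
def wA (A : ℝ) (u : E3 → ℝ) (x : E3) : ℝ := A - u x

theorem smL_wA (hu : SmL f 0 r u) : SmL f 0 r (wA A u) := fun θ O h =>
  contDiffOn_const.sub (hu θ O h)

theorem smL_cR (hu : SmL f 0 r u) (R : ℝ) : SmL f 0 r (cR A u R) := fun θ O h =>
  cv_sm.comp_contDiffOn ((contDiffOn_const.sub (hu θ O h)).div_const R)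

theorem smL_tR (hu : SmL f 0 r u) (hχ : SmL f 0 r χ) (R : ℝ) : SmL f 0 r (tR A u χ R) :=
  smL_mul hχ (smL_cR hu R)

theorem cR_nonneg (R : ℝ) (x : E3) : 0 ≤ cR A u R x := cv_nonneg _

theorem cR_le {R : ℝ} (hR : 0 < R) {x : E3} (h : 0 ≤ A - u x) : cR A u R x ≤ 1 :=
  cv_le_one (div_nonneg h hR.le)

theorem cR_zero {R : ℝ} (hR : 0 < R) {x : E3} (h : R ≤ A - u x) : cR A u R x = 0 :=
  cv_zero ((one_le_div hR).2 h)

theorem cR_aff {R : ℝ} (hR : 0 < R) {x : E3} (h : A - u x ≤ R / 2) :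
    cR A u R x = 1 - sc / R * (A - u x) := by
  unfold cR
  rw [cv_aff (by rw [div_le_iff₀ hR]; linarith)]
  ring

/-- test functions vanish near the puncture -/
theorem tst_tR (hE : Esc f r u A) (hu : SmL f 0 r u) (hχ : Cut r χ) {R : ℝ} (hR : 0 < R) :
    KUP_952.Tst f r (tR A u χ R) := by
  refine ⟨smL_tR hu (cut_smL hχ) R, ?_⟩
  obtain ⟨δ, h1, h2⟩ := hE.inf (A - R)
  obtain ⟨ρ, h3, h4, h5⟩ := hχ.supp
  refine ⟨δ / 2, ρ, by positivity, h3, h4, fun x hx hx2 => ?_⟩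
  rcases hx2 with hx2 | hx2
  · have h6 : u x < A - R := h2 x hx.1 hx.2.1 (hx2.trans_lt (by nlinarith))
    unfold tR
    rw [cR_zero hR (by linarith), mul_zero]
  · unfold tR
    rw [h5 x hx2, zero_mul]

/-- `KUP` test functions are `Cs` -/
theorem cs_of_tst {a : E3 → ℝ} (h : KUP_952.Tst f r a) : Cs f r a := by
  obtain ⟨r₁, r₂, h1, h2, h3, h4⟩ := h.supp
  exact ⟨r₁, r₂, h1, h2.le, h3, fun x hx hx2 => h4 x hx (by
    rcases hx2 with h | h
    · exact Or.inl h.le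
    · exact Or.inr h.le)⟩

/-- `Cs` functions are test functions -/
theorem tst_of_cs (hr : 0 < r) {a : E3 → ℝ} (hs : SmL f 0 r a) (h : Cs f r a) :
    KUP_952.Tst f r a := by
  obtain ⟨r₁, r₂, h1, h2, h3, h4⟩ := h
  refine ⟨hs, r₁ / 2, (r₂ + r) / 2, by positivity, by linarith, by linarith, fun x hx hx2 =>
    h4 x hx ?_⟩
  rcases hx2 with h | h
  · exact Or.inl (h.trans_lt (by nlinarith))
  · refine Or.inr (lt_of_lt_of_le ?_ h)
    have : r₂ < (r₂ + r) / 2 := by linarith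
    exact pow_lt_pow_left₀ this h2 two_ne_zero

/-! ### away from the puncture -/

/-- bound of `A - u` away from the puncture -/
theorem exists_W (hf : LvlOK f 0 r) (hu : SmL f 0 r u) {d r₂ : ℝ} (hd : 0 < d) (h2 : 0 ≤ r₂)
    (h3 : r₂ < r) : ∃ W₀ : ℝ, 0 < W₀ ∧ ∀ x ∈ Lv f r, d ^ 2 ≤ nsq x → nsq x ≤ r₂ ^ 2 →
      A - u x ≤ W₀ := by
  obtain ⟨B, hB⟩ := V3_218.lower_on hf hu (a := d ^ 2) (b := r₂ ^ 2) (by positivity)
    (pow_lt_pow_left₀ h3 h2 two_ne_zero)
  refine ⟨|A + B| + 1, by positivity, fun x hx h4 h5 => ?_⟩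
  have := hB x hx.1 h4 h5
  have := le_abs_self (A + B)
  linarith

/-- pointwise, away from the puncture, for large `R` -/
theorem fx_out (hf : LvlOK f 0 r) (hu : SmL f 0 r u) (hχ : Cut r χ) {d : ℝ} (hd : 0 < d)
    (S : Form) : ∃ R₀ : ℝ, 0 < R₀ ∧ ∀ R, R₀ ≤ R → ∀ x ∈ Lv f r, d ^ 2 ≤ nsq x →
      fx f S (tR A u χ R) x = fx f S χ x - sc / R * fx f S (fun y => χ y * wA A u y) x := by
  obtain ⟨r₁, r₂, hs⟩ := exists_sh hχ
  set b := (r₂ + r) / 2 with hb
  have hb0 : 0 ≤ b := by have := hs.p2; have := hf.pos; rw [hb]; linarith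
  have hbr : b < r := by have := hs.lt; rw [hb]; linarith
  have hrb : r₂ < b := by have := hs.lt; rw [hb]; linarith
  obtain ⟨W₀, hW0, hW⟩ := exists_W (A := A) hf hu (d := d / 2) (by positivity) hb0 hbr
  have hχs : SmL f 0 r χ := cut_smL hχ
  refine ⟨2 * W₀, by positivity, fun R hR x hx hxd => ?_⟩
  have hRp : 0 < R := by linarith
  by_cases h : r₂ ^ 2 < nsq x
  · have e0 : ∀ {a : E3 → ℝ}, fx f S (fun y => χ y * a y) x = 0 := by
      intro a
      refine fx_const (c := 0) hf hx fun θ O hP z hz hzx => ?_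
      filter_upwards [ev_pe (hs.zero x h) hP hz hzx] with y hy
      rw [hy, zero_mul]
    have e1 : fx f S χ x = 0 :=
      fx_const (c := 0) hf hx fun θ O hP z hz hzx => ev_pe (hs.zero x h) hP hz hzx
    have e2 : fx f S (tR A u χ R) x = 0 := e0
    rw [e2, e1, e0, mul_zero, sub_zero]
  · rw [not_lt] at h
    have key : fx f S (tR A u χ R) x =
        fx f S (fun y => χ y - sc / R * (χ y * wA A u y)) x := by
      refine fx_congr hf hx fun θ O hP z hz hzx => ?_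
      have h1 : ∀ᶠ y in 𝓝 x, (d / 2) ^ 2 < nsq y :=
        continuousAt_const.eventually_lt continuous_nsq3.continuousAt (by nlinarith)
      have h2 : ∀ᶠ y in 𝓝 x, nsq y < b ^ 2 :=
        continuous_nsq3.continuousAt.eventually_lt continuousAt_const
          (h.trans_lt (pow_lt_pow_left₀ hrb hs.p2 two_ne_zero))
      filter_upwards [ev_pe (h1.and h2) hP hz hzx, hP.par.isOpen.mem_nhds hz] with y hy hyO
      have h3 := hW _ (pe_lv hP hyO) hy.1.le hy.2.le
      show χ (θ y) * cR A u R (θ y) = _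
      rw [cR_aff hRp (by linarith)]
      unfold wA
      ring
    rw [key, fx_sub hf hχs (smL_smul _ (smL_mul hχs (smL_wA hu))) hx,
      fx_mul hf (smL_mul hχs (smL_wA hu)) _ hx]

/-- integrability away from the puncture -/
theorem int_out (hf : LvlOK f 0 r) (hν : IsNu f 0 r ν) (hχ : Cut r χ) {d : ℝ} (hd : 0 < d)
    {S : Form} (hI : ∀ a, KUP_952.Tst f r a → Integrable (fx f S a) ν) {b : E3 → ℝ}
    (hb : SmL f 0 r b) :
    Integrable (fun x => {x | d ^ 2 ≤ nsq x}.indicator (fx f S fun y => χ y * b y) x) ν := by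
  obtain ⟨r₁, r₂, hs⟩ := exists_sh hχ
  obtain ⟨ξ, hξ, -, -, hξ1, a, c, ha, hc, hcr, hξ0⟩ := exists_xi hd hs.p2 hs.lt
  have hχs : SmL f 0 r χ := cut_smL hχ
  have hsm : SmL f 0 r fun y => ξ y * (χ y * b y) := smL_mul (smL_amb hξ) (smL_mul hχs hb)
  have hT : KUP_952.Tst f r fun y => ξ y * (χ y * b y) := tst_of_cs hf.pos hsm
    ⟨a, c, ha, hc, hcr, fun x _ hx => by
      show ξ x * _ = 0
      rw [hξ0 x hx, zero_mul]⟩
  have hme : MeasurableSet {x : E3 | d ^ 2 ≤ nsq x} :=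
    (isClosed_le continuous_const continuous_nsq3).measurableSet
  refine ((hI _ hT).indicator hme).congr (ae_lv hν fun x hx => ?_)
  show indicator _ _ x = indicator _ _ x
  by_cases h : x ∈ {x : E3 | d ^ 2 ≤ nsq x}
  · rw [indicator_of_mem h, indicator_of_mem h]
    by_cases h2 : r₂ ^ 2 < nsq x
    · have e0 : ∀ {g : E3 → ℝ}, (∀ᶠ y in 𝓝 x, g y = 0) → fx f S g x = 0 := fun {g} hg =>
        fx_const (c := 0) hf hx fun θ O hP z hz hzx => ev_pe hg hP hz hzx
      rw [e0, e0]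
      · filter_upwards [hs.zero x h2] with y hy
        rw [hy, zero_mul]
      · filter_upwards [hs.zero x h2] with y hy
        rw [hy, zero_mul, mul_zero]
    · exact fx_congr hf hx fun θ O hP z hz hzx => by
        filter_upwards [ev_pe (hξ1 x h (not_lt.1 h2)) hP hz hzx] with y hy
        rw [hy, one_mul]
  · rw [indicator_of_notMem h, indicator_of_notMem h]

/-- **the part away from the puncture** -/
theorem lim_out (hf : LvlOK f 0 r) (hν : IsNu f 0 r ν) (hu : SmL f 0 r u) (hχ : Cut r χ)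
    {d : ℝ} (hd : 0 < d) {S : Form} (hI : ∀ a, KUP_952.Tst f r a → Integrable (fx f S a) ν) :
    Tendsto (fun R : ℝ => ∫ x in {x | d ^ 2 ≤ nsq x}, fx f S (tR A u χ R) x ∂ν) atTop
      (𝓝 (∫ x in {x | d ^ 2 ≤ nsq x}, fx f S χ x ∂ν)) := by
  have hme : MeasurableSet {x : E3 | d ^ 2 ≤ nsq x} :=
    (isClosed_le continuous_const continuous_nsq3).measurableSet
  obtain ⟨R₀, hR0, hR⟩ := fx_out (A := A) hf hu hχ hd S
  have i1 : Integrable (fun x => {x | d ^ 2 ≤ nsq x}.indicator (fx f S χ) x) ν := by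
    have := int_out hf hν hχ hd hI (b := fun _ => 1) (smL_const 1)
    simpa using this
  have i2 := int_out hf hν hχ hd hI (b := wA A u) (smL_wA hu)
  have j1 : IntegrableOn (fx f S χ) {x | d ^ 2 ≤ nsq x} ν := (integrable_indicator_iff hme).1 i1
  have j2 : IntegrableOn (fx f S fun y => χ y * wA A u y) {x | d ^ 2 ≤ nsq x} ν :=
    (integrable_indicator_iff hme).1 i2
  have key : ∀ R, R₀ ≤ R → ∫ x in {x | d ^ 2 ≤ nsq x}, fx f S (tR A u χ R) x ∂ν =
      ∫ x in {x | d ^ 2 ≤ nsq x}, fx f S χ x ∂ν -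
        sc / R * ∫ x in {x | d ^ 2 ≤ nsq x}, fx f S (fun y => χ y * wA A u y) x ∂ν := by
    intro R hRR
    rw [← integral_const_mul, ← integral_sub j1 (j2.const_mul _)]
    refine setIntegral_congr_ae hme ?_
    filter_upwards [ae_lv hν (p := fun x => x ∈ Lv f r) fun x hx => hx] with x hx hxd
    exact hR R hRR x hx hxd
  have h1 : Tendsto (fun R : ℝ => ∫ x in {x | d ^ 2 ≤ nsq x}, fx f S χ x ∂ν -
        sc / R * ∫ x in {x | d ^ 2 ≤ nsq x}, fx f S (fun y => χ y * wA A u y) x ∂ν) atTop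
      (𝓝 (∫ x in {x | d ^ 2 ≤ nsq x}, fx f S χ x ∂ν - 0 *
        ∫ x in {x | d ^ 2 ≤ nsq x}, fx f S (fun y => χ y * wA A u y) x ∂ν)) :=
    tendsto_const_nhds.sub ((tendsto_const_nhds.div_atTop tendsto_id).mul_const _)
  rw [zero_mul, sub_zero] at h1
  refine h1.congr' ?_
  filter_upwards [eventually_ge_atTop R₀] with R hRR
  exact (key R hRR).symm

end Crest.Agent.R257.UpA_952
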