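import Crest.Agent.R257.UpA1_952
import Crest.Agent.R257.SkelG5_952

/-!
R257 / UpA2_952: assembly of `UppStmt`, part 2: Levi form of the cut-off, the form `Γ` of the trial
metric, the part near the puncture.
-/

set_option autoImplicit false
set_option linter.unusedSectionVars false

open Topology Filter MeasureTheory Set
open scoped ENNReal ContDiff Matrix ComplexOrder

noncomputable section

namespace Crest.Agent.R257.UpA_952

open Crest.Agent.R275.Geo
open Crest.Agent.R257.Defs_219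
open Crest.Agent.R257.KED_952 Crest.Agent.R257.KEG_952 Crest.Agent.R257.KEU_952
open Crest.Agent.R257.KUP_952
open Crest.Agent.R257.V1Defs_822 (SmL LvlOK lgh)
open Crest.Agent.R257.V1Pe_822
open Crest.Agent.R273.Defs_333 (lev)
open Crest.Agent.R273.YauDefs_635 (cH lev333_eq_lev145)
open Crest.Agent.R273.YauMax_635 (cH_eq_hess)
open Crest.Agent.R273.Hess_333 (hess)
open Crest.Agent.R273.HessB_333 (hess_congr hess_add hess_neg hess_const_mul hess_log_norm)
open Crest.Agent.R257.PN_835 (nsq)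
open Crest.Agent.R257.Aff_835 (eta2a nga)
open Crest.Agent.R257.C2F1_625 (pd c2)
open Crest.Agent.R257.C2F2_625 (hV bb)
open Crest.Agent.R257.OutB_309 (Gm)
open Crest.Agent.R257.LossA_625 (fx hS Psd Lv pe_lv dns_cases fx_add fx_sub fx_mul fx_congr fx_const
  ev_pe fx_nonneg fx_abs_le cv cv_sm cv_nonneg cv_zero cv_anti cv_aff cv_le_one sc sc_pos
  mxd_eq_fx gg gg_sm gg_nonneg gg_one gg_zero hasDerivAt_cv hasDerivAt_gg dgg_nonpos psd_cH)
open Crest.Agent.R257.LossB_625 (Cs Sh exists_sh exists_xi smL_mul smL_add smL_const smL_smul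
  smL_comp smL_amb ae_lv off_ev stk3 comm_lv)
open Crest.Agent.R257.LossD_309 (HO dV oxd)

/-! ### bound of the second derivative of the cut-off function -/

theorem exists_K : ∃ K : ℝ, 0 < K ∧ ∀ t, -deriv gg t ≤ K := by
  have hc : Continuous (deriv gg) := gg_sm.continuous_deriv (by simp)
  obtain ⟨M, hM⟩ := isCompact_Icc.exists_bound_of_continuousOn (s := Icc (0 : ℝ) 2)
    hc.continuousOn
  have hM0 : 0 ≤ M := (norm_nonneg _).trans (hM 0 (by simp))
  refine ⟨M + 1, by linarith, fun t => ?_⟩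
  by_cases h : t ∈ Icc (0 : ℝ) 2
  · have h1 := hM t h
    rw [Real.norm_eq_abs] at h1
    have := neg_abs_le (deriv gg t)
    linarith
  · have h0 : deriv gg t = 0 := by
      have h2 : t < 0 ∨ 2 < t := by
        by_contra hcon
        push Not at hcon
        exact h ⟨hcon.1, hcon.2⟩
      rcases h2 with h2 | h2
      · have : gg =ᶠ[𝓝 t] fun _ => 1 := by
          filter_upwards [gt_mem_nhds h2] with y hy
          exact gg_one (by linarith)
        rw [this.deriv_eq, deriv_const]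
      · have : gg =ᶠ[𝓝 t] fun _ => 0 := by
          filter_upwards [lt_mem_nhds h2] with y hy
          exact gg_zero (by linarith)
        rw [this.deriv_eq, deriv_const]
    rw [h0]
    linarith

/-- the bound -/
def KK : ℝ := exists_K.choose

theorem KK_pos : 0 < KK := exists_K.choose_spec.1

theorem KK_le (t : ℝ) : -deriv gg t ≤ KK := exists_K.choose_spec.2 t

/-- `gg' = 0` off `[1/2, 1]` -/
theorem dgg_zero {t : ℝ} (h : t < 1 / 2 ∨ 1 < t) : deriv gg t = 0 := by
  rcases h with h2 | h2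
  · have : gg =ᶠ[𝓝 t] fun _ => 1 := by
      filter_upwards [gt_mem_nhds h2] with y hy
      exact gg_one hy.le
    rw [this.deriv_eq, deriv_const]
  · have : gg =ᶠ[𝓝 t] fun _ => 0 := by
      filter_upwards [lt_mem_nhds h2] with y hy
      exact gg_zero hy.le
    rw [this.deriv_eq, deriv_const]

open Classical in
/-- bound of the Levi form of `cR` -/
def qR (A : ℝ) (u : E3 → ℝ) (R : ℝ) (x : E3) : ℝ :=
  if A - u x ≤ R then sc / R + (if R / 2 ≤ A - u x then 2 * sc * KK * A else 0) else 0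

theorem qR_nonneg {A : ℝ} {u : E3 → ℝ} {R : ℝ} (hR : 0 < R) (hA : 0 < A) (x : E3) :
    0 ≤ qR A u R x := by
  have := sc_pos
  have := KK_pos
  unfold qR
  split_ifs <;> positivity

section lev

variable {w : Cn 2 → ℝ} {z : Cn 2} {A R : ℝ}

theorem lev_cR (hR : 0 < R) (hw : ContDiffAt ℝ ∞ w z) (v : Cn 2) :
    Crest.Agent.R273.Levi_145.lev (fun y => cv ((A - w y) / R)) z v =
      (sc * gg ((A - w z) / R) / R) * Crest.Agent.R273.Levi_145.lev w z v +
      (-(sc * deriv gg ((A - w z) / R) / R ^ 2)) *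
        ‖Crest.Agent.R273.Levi_145.gr w z v‖ ^ 2 := by
  have h1 : ∀ t, HasDerivAt (fun t => cv ((A - t) / R)) (sc * gg ((A - t) / R) / R) t := by
    intro t
    have h2 : HasDerivAt (fun t => (A - t) / R) (-1 / R) t := by
      simpa using ((hasDerivAt_id t).const_sub A).div_const R
    have h3 := (hasDerivAt_cv ((A - t) / R)).comp t h2
    refine h3.congr_deriv ?_
    ring
  have h2 : HasDerivAt (fun t => sc * gg ((A - t) / R) / R)
      (-(sc * deriv gg ((A - w z) / R) / R ^ 2)) (w z) := by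
    have h2 : HasDerivAt (fun t => (A - t) / R) (-1 / R) (w z) := by
      simpa using ((hasDerivAt_id (w z)).const_sub A).div_const R
    have h3 := (((hasDerivAt_gg ((A - w z) / R)).comp (w z) h2).const_mul sc).div_const R
    refine h3.congr_deriv ?_
    field_simp
  have h3 := Crest.Agent.R273.Levi_145.lev_comp_real (χ := fun t => cv ((A - t) / R))
    (χ' := fun t => sc * gg ((A - t) / R) / R) (hw.of_le two_le_inf)
    (Eventually.of_forall h1) h2 v
  rw [h3]
  ring

/-- the bound -/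
theorem lev_cR_le (hR : 0 < R) (hA0 : 0 < A) (hw : ContDiffAt ℝ ∞ w z) (hA : w z + 1 ≤ A)
    (h0 : ∀ v, 0 ≤ lev w z v)
    (hC : ∀ v, (fderiv ℝ w z v) ^ 2 ≤ A * (A - w z) ^ 2 * lev w z v) (v : Cn 2) :
    0 ≤ lev (fun y => cv ((A - w y) / R)) z v ∧
    lev (fun y => cv ((A - w y) / R)) z v ≤
      (if A - w z ≤ R then sc / R + (if R / 2 ≤ A - w z then 2 * sc * KK * A else 0) else 0) *
        lev w z v := by
  have hsc := sc_pos
  have hK := KK_pos
  have hl : ∀ v, 0 ≤ Crest.Agent.R273.Levi_145.lev w z v := fun v => by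
    have := h0 v
    rw [lev333_eq_lev145] at this
    linarith
  have hI : lev w z (Complex.I • v) = lev w z v := by
    rw [lev333_eq_lev145, lev333_eq_lev145,
      Crest.Agent.R273.Levi_145.lev_smul (hw.of_le two_le_inf)]
    simp
  have hg : ‖Crest.Agent.R273.Levi_145.gr w z v‖ ^ 2 ≤
      (2 * A) * ((A - w z) ^ 2 * Crest.Agent.R273.Levi_145.lev w z v) := by
    rw [Crest.Agent.R273.Levi_145.norm_gr_sq
      (Crest.Agent.R273.Levi_145.c2_diff (hw.of_le two_le_inf))]
    have h1 := hC v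
    have h2 := hC (Complex.I • v)
    rw [hI] at h2
    rw [lev333_eq_lev145] at h1 h2
    linarith
  set L := Crest.Agent.R273.Levi_145.lev w z v with hL
  have hL0 : 0 ≤ L := hl v
  have hW : 1 ≤ A - w z := by linarith
  set t := (A - w z) / R with ht
  have hd : 0 ≤ -(sc * deriv gg t / R ^ 2) := by
    have := dgg_nonpos t
    have h6 : 0 ≤ sc * (-deriv gg t) / R ^ 2 :=
      div_nonneg (mul_nonneg hsc.le (by linarith)) (by positivity)
    have h7 : sc * (-deriv gg t) / R ^ 2 = -(sc * deriv gg t / R ^ 2) := by ring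
    rwa [h7] at h6
  have hg0 : 0 ≤ sc * gg t / R := div_nonneg (mul_nonneg hsc.le (gg_nonneg _)) hR.le
  have hgg1 : gg t ≤ 1 := Real.smoothTransition.le_one _
  rw [lev333_eq_lev145, lev333_eq_lev145, lev_cR hR hw v, ← ht, ← hL]
  have hgr0 : 0 ≤ ‖Crest.Agent.R273.Levi_145.gr w z v‖ ^ 2 := by positivity
  refine ⟨by positivity, ?_⟩
  by_cases h1 : A - w z ≤ R
  · rw [if_pos h1]
    have a1 : sc * gg t / R * L ≤ sc / R * L := by
      have : sc * gg t / R ≤ sc / R := by
        apply div_le_div_of_nonneg_right _ hR.le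
        nlinarith
      gcongr
    by_cases h2 : R / 2 ≤ A - w z
    · rw [if_pos h2]
      have a2 : -(sc * deriv gg t / R ^ 2) * ‖Crest.Agent.R273.Levi_145.gr w z v‖ ^ 2 ≤
          2 * sc * KK * A * L := by
        have b1 : -(sc * deriv gg t / R ^ 2) ≤ sc * KK / R ^ 2 := by
          have h7 : sc * (-deriv gg t) / R ^ 2 = -(sc * deriv gg t / R ^ 2) := by ring
          rw [← h7]
          have := KK_le t
          gcongr
        calc -(sc * deriv gg t / R ^ 2) * ‖Crest.Agent.R273.Levi_145.gr w z v‖ ^ 2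
            ≤ (sc * KK / R ^ 2) * ((2 * A) * ((A - w z) ^ 2 * L)) := by gcongr
          _ ≤ (sc * KK / R ^ 2) * ((2 * A) * (R ^ 2 * L)) := by gcongr
          _ = 2 * sc * KK * A * L := by field_simp
      linarith
    · rw [if_neg h2, add_zero]
      have e : deriv gg t = 0 := dgg_zero (Or.inl (by
        rw [ht, div_lt_iff₀ hR]; linarith))
      rw [e, mul_zero, zero_div, neg_zero, zero_mul, add_zero]
      linarith
  · rw [if_neg h1]
    have ht1 : 1 < t := by rw [ht, lt_div_iff₀ hR]; linarith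
    have e : deriv gg t = 0 := dgg_zero (Or.inr ht1)
    rw [e, gg_zero ht1.le]
    simp

end lev

variable {f : E3 → ℂ} {r A : ℝ} {u : E3 → ℝ} {ν : Measure E3} {χ : E3 → ℝ}

/-- on the level -/
theorem lev_cR_pe (hK : KEon f 0 r u) (hE : Esc f r u A) {R : ℝ} (hR : 0 < R)
    {θ : Cn 2 → E3} {O : Set (Cn 2)} (hθ : PE f 0 r θ O) {z : Cn 2} (hz : z ∈ O) (v : Cn 2) :
    0 ≤ lev (fun y => cR A u R (θ y)) z v ∧
    lev (fun y => cR A u R (θ y)) z v ≤ qR A u R (θ z) * lev (fun y => u (θ y)) z v := by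
  have hx := pe_lv hθ hz
  exact lev_cR_le (w := fun y => u (θ y)) hR hE.pos (smAt (a := u) hK.sm hθ hz)
    (by have := hE.one _ hx.1 hx.2.1 hx.2.2; linarith)
    (fun v => SkelG_952.lev_nn hK hθ hz v) (fun v => hE.grad θ O hθ z hz v) v

/-! ### forms -/

theorem fx_smul_form (hf : LvlOK f 0 r) {b : E3 → ℝ} {S : Form} {a : E3 → ℝ} {x : E3}
    (hx : x ∈ Lv f r) : fx f (fun θ z => ((b (θ z) : ℝ) : ℂ) • S θ z) a x = b x * fx f S a x := by
  obtain ⟨θ, O, z, h1, h2, h3, -, h4⟩ := dns_cases hf hx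
  unfold fx
  rw [h4, h4, C2F1_625.pd_smul, Complex.re_ofReal_mul, h3, mul_div_assoc]

/-- `b ∂∂̄c` as a form -/
def bS (b c : E3 → ℝ) : Form := fun θ z => ((b (θ z) : ℝ) : ℂ) • hS c θ z

theorem fx_bS (hf : LvlOK f 0 r) {b c a : E3 → ℝ} {x : E3} (hx : x ∈ Lv f r) :
    fx f (bS b c) a x = b x * mxd f c a x := by
  unfold bS
  rw [fx_smul_form hf hx, ← mxd_eq_fx, comm_lv hf hx]

theorem int_bS (hf : LvlOK f 0 r) (hν : IsNu f 0 r ν) {b c : E3 → ℝ} (hb : SmL f 0 r b)
    (hc : SmL f 0 r c) (a : E3 → ℝ) (ha : KUP_952.Tst f r a) : Integrable (fx f (bS b c) a) ν := by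
  refine ((stk3 hf hν hb hc ha.sm (cs_of_tst ha)).1).congr (ae_lv hν fun x hx => ?_)
  exact (fx_bS hf hx).symm

end Crest.Agent.R257.UpA_952
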