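import Crest.Agent.R257.UpA2_952

/-!
R257 / UpA3_952: assembly of `UppStmt`, part 3: the form `Γ` of the trial metric; limits near the
puncture.
-/

set_option autoImplicit false
set_option linter.unusedSectionVars false

open Topology Filter MeasureTheory Set
open scoped ENNReal ContDiff Matrix ComplexOrder

noncomputable section

namespace Crest.Agent.R257.UpA_952

open Crest.Agent.R275.Geo
open Crest.Agent.R257.Defs_219
open Crest.Agent.R257.KED_952 Crest.Agent.R257.KEG_952 Crest.Agent.R257.KEU_952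
open Crest.Agent.R257.KUP_952
open Crest.Agent.R257.V1Defs_822 (SmL LvlOK lgh)
open Crest.Agent.R257.V1Pe_822
open Crest.Agent.R273.Defs_333 (lev)
open Crest.Agent.R273.YauDefs_635 (cH lev333_eq_lev145)
open Crest.Agent.R273.YauMax_635 (cH_eq_hess)
open Crest.Agent.R273.Hess_333 (hess)
open Crest.Agent.R273.HessB_333 (hess_congr hess_add hess_neg hess_const_mul hess_log_norm)
open Crest.Agent.R257.PN_835 (nsq)
open Crest.Agent.R257.Aff_835 (eta2a nga)
open Crest.Agent.R257.C2F1_625 (pd c2)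
open Crest.Agent.R257.C2F2_625 (hV bb)
open Crest.Agent.R257.OutB_309 (Gm)
open Crest.Agent.R257.LossA_625 (fx hS Psd Lv pe_lv dns_cases fx_add fx_sub fx_mul fx_congr fx_const
  ev_pe fx_nonneg fx_abs_le cv cv_sm cv_nonneg cv_zero cv_anti cv_aff cv_le_one sc sc_pos
  mxd_eq_fx psd_cH)
open Crest.Agent.R257.LossB_625 (Cs Sh exists_sh exists_xi smL_mul smL_add smL_const smL_smul
  smL_comp smL_amb ae_lv off_ev stk3 comm_lv)
open Crest.Agent.R257.LossD_309 (HO dV oxd)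

variable {f : E3 → ℂ} {r A : ℝ} {u : E3 → ℝ} {ν : Measure E3} {χ : E3 → ℝ} {k : ℕ}
  {g h : E3 → ℂ} {B : ℝ} {H : Form} {φ V : E3 → ℝ}

/-- `ψ` -/
theorem smL_psi (hT : Trl f r A u ν k g h B H φ V) : SmL f 0 r (lgh g h) := by
  have h1 := (V1W_822.wt (f := f) (s := 0) (r := r) (g := g) (h := h) hT.g_an hT.h_an
    (fun x h1 h2 h3 => hT.nz x ⟨h1, h2, h3⟩) (c := 1) zero_le_one).1
  simpa using h1

theorem mxd_psi (hf : LvlOK f 0 r) (hT : Trl f r A u ν k g h B H φ V) {x : E3} (hx : x ∈ Lv f r) :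
    mxd f (lgh g h) (lgh g h) x = 0 := by
  have h1 := (V1W_822.wt (f := f) (s := 0) (r := r) (g := g) (h := h) hT.g_an hT.h_an
    (fun x h1 h2 h3 => hT.nz x ⟨h1, h2, h3⟩) (c := 1) zero_le_one).2.2
  refine SkelG_952.mxd_self_zero hf (smL_psi hT) (fun θ O hθ z hz => ?_) hx.2.1 hx.2.2 hx.1
  have := h1 θ O hθ z hz
  simpa using this

/-- the second fundamental form of the trial metric -/
def Sb (H : Form) (g : E3 → ℂ) : Form := fun θ z => bb (H θ) (dV g θ) z

/-- `hess log |η|² = 0` -/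
theorem hess_eta (hf : LvlOK f 0 r) {θ : Cn 2 → E3} {O : Set (Cn 2)} (hθ : PE f 0 r θ O)
    {z : Cn 2} (hz : z ∈ O) : hess (fun y => Real.log (eta2a (n := 2) f θ y)) z = 0 ∧
      ContDiffAt ℝ ∞ (fun y => Real.log (eta2a (n := 2) f θ y)) z := by
  obtain ⟨q, hq, hq0, hqe⟩ := Ked2_397.eta2a_norm (n := 2) hθ.par hz (hf.an _ (hθ.lt z hz))
    (hf.sm _ (hθ.ne z hz) (hθ.lt z hz) (hθ.par.lvl z hz))
  have hqd : ∀ᶠ w in 𝓝 z, DifferentiableAt ℂ q w :=
    hq.eventually_analyticAt.mono fun w hw => hw.differentiableAt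
  have e : (fun y => Real.log (eta2a (n := 2) f θ y)) =ᶠ[𝓝 z] fun w => Real.log (‖q w‖ ^ 2) := by
    filter_upwards [hqe] with y hy
    have h1 : eta2a (n := 2) f θ y = ‖q y‖ ^ 2 := hy
    rw [h1]
  refine ⟨by rw [hess_congr e, hess_log_norm hqd hq0], ?_⟩
  exact (KEl_835.c2_log hq hq0 ∞).congr_of_eventuallyEq e

/-- **`Γ` of the trial metric** -/
theorem gm_trial (hf : LvlOK f 0 r) (hT : Trl f r A u ν k g h B H φ V) {θ : Cn 2 → E3}
    {O : Set (Cn 2)} (hθ : PE f 0 r θ O) {z : Cn 2} (hz : z ∈ O) :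
    Gm (H θ) (dV g θ) z = ((-(1 + 1 / k) * lgh g h (θ z) : ℝ) : ℂ) •
      cH (fun y => lgh g h (θ y)) z + bb (H θ) (dV g θ) z := by
  have hO := hθ.par.isOpen.mem_nhds hz
  have hψ : ContDiffAt ℝ ∞ (fun y => lgh g h (θ y)) z := smAt (smL_psi hT) hθ hz
  obtain ⟨e0, s0⟩ := hess_eta hf hθ hz
  have e1 : (fun y => Real.log (hV (H θ) (dV g θ) y)) =ᶠ[𝓝 z] fun y => lgh g h (θ y) := by
    filter_upwards [hO] with y hy
    rw [hT.dg θ O hθ y hy, Real.log_exp]
  have e2 : (fun y => Real.log (H θ y).det.re) =ᶠ[𝓝 z] fun y =>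
      -((1 / (k : ℝ)) * lgh g h (θ y) + Real.log (eta2a (n := 2) f θ y)) := by
    filter_upwards [hO] with y hy
    have h1 := hT.det θ O hθ y hy
    have h2 : 0 < eta2a (n := 2) f θ y := Loc_835.eta2a_pos hθ.par hy
      (hf.sm _ (hθ.ne y hy) (hθ.lt y hy) (hθ.par.lvl y hy))
    have h3 : (H θ y).det.re = Real.exp (-(lgh g h (θ y) / k)) / eta2a (n := 2) f θ y := by
      rw [eq_div_iff h2.ne', h1]
    rw [h3, Real.log_div (Real.exp_pos _).ne' h2.ne', Real.log_exp]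
    ring
  unfold Gm
  rw [hess_congr e1, hess_congr e2, hess_neg ((contDiffAt_const.mul hψ).add s0),
    hess_add (contDiffAt_const.mul hψ) s0, hess_const_mul _ hψ, e0, ← cH_eq_hess hψ,
    hT.dg θ O hθ z hz, Real.log_exp]
  congr 1
  ext i j
  simp only [Matrix.smul_apply, Matrix.sub_apply, Matrix.neg_apply, Matrix.add_apply,
    Matrix.zero_apply, smul_eq_mul]
  push_cast
  ring

/-- the density of `∂∂̄a ∧ Γ` for the trial metric -/
theorem gd_trial (hf : LvlOK f 0 r) (hT : Trl f r A u ν k g h B H φ V) {a : E3 → ℝ} {x : E3}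
    (hx : x ∈ Lv f r) : Gd f H g a x =
      -(1 + 1 / k) * (lgh g h x * mxd f (lgh g h) a x) + fx f (Sb H g) a x := by
  have h2 : mxd f (lgh g h) a x = fx f (hS (lgh g h)) a x := by
    rw [comm_lv hf hx, mxd_eq_fx]
  obtain ⟨θ, O, z, h1, hz, h3, -, h4⟩ := dns_cases hf hx
  rw [h2]
  unfold Gd fx Sb hS
  rw [h4, h4, h4]
  beta_reduce
  rw [gm_trial hf hT h1 hz, C2F1_625.pd_add, C2F1_625.pd_smul, Complex.add_re,
    Complex.re_ofReal_mul, h3, add_div]
  ring

/-- the second fundamental form is `≥ 0` and `≤ B ∂∂̄φ` -/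
theorem fx_Sb (hf : LvlOK f 0 r) (hK : KEon f 0 r u) (hE : Esc f r u A)
    (hT : Trl f r A u ν k g h B H φ V) (hb : Psd f r (Sb H g)) {R : ℝ} (hR : 0 < R) {x : E3}
    (hx : x ∈ Lv f r) : 0 ≤ fx f (Sb H g) (cR A u R) x ∧
      fx f (Sb H g) (cR A u R) x ≤ qR A u R x * (B * mxd f u φ x) := by
  have hus : SmL f 0 r u := hK.sm
  have h0 : 0 ≤ fx f (Sb H g) (cR A u R) x := fx_nonneg hf hb (smL_cR hus R) hx
    fun θ O hP z hz _ v => (lev_cR_pe hK hE hR hP hz v).1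
  refine ⟨h0, ?_⟩
  have hq := qR_nonneg (A := A) (u := u) hR hE.pos x
  have h1 : fx f (Sb H g) (cR A u R) x ≤ qR A u R x * fx f (Sb H g) u x := by
    have := fx_abs_le hf hb (smL_cR hus R) hus hx (c := qR A u R x) fun θ O hP z hz hzx v => by
      have h2 := lev_cR_pe hK hE hR hP hz v
      rw [hzx] at h2
      rw [abs_of_nonneg h2.1]
      exact h2.2
    exact (le_abs_self _).trans this
  have h2 : fx f (Sb H g) u x ≤ B * mxd f u φ x := by
    have h5 : B * mxd f u φ x = B * fx f (hS φ) u x := by rw [mxd_eq_fx]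
    rw [h5]
    obtain ⟨θ, O, z, h1, hz, h3, he, h4⟩ := dns_cases hf hx
    unfold fx Sb hS
    rw [h4, h4, ← mul_div_assoc]
    refine div_le_div_of_nonneg_right ?_ he.le
    have a1 := hT.bb θ O h1 z hz
    have a2 : (cH (fun y => u (θ y)) z).PosSemidef :=
      psd_cH (smAt hus h1 hz) fun v => SkelG_952.lev_nn hK h1 hz v
    have a3 := GBLcut_844.pd_nonneg a2 a1
    rw [C2F1_625.pd_sub, C2F1_625.pd_smul, Complex.sub_re, Complex.re_ofReal_mul] at a3
    linarith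
  exact h1.trans (mul_le_mul_of_nonneg_left h2 hq)

end Crest.Agent.R257.UpA_952
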