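import Crest.Agent.R257.UpA3_952

/-!
R257 / UpA4_952: assembly of `UppStmt`, part 4: limits of the integrals near the puncture.
-/

set_option autoImplicit false
set_option linter.unusedSectionVars false

open Topology Filter MeasureTheory Set
open scoped ENNReal ContDiff Matrix ComplexOrder

noncomputable section

namespace Crest.Agent.R257.UpA_952

open Crest.Agent.R275.Geo
open Crest.Agent.R257.Defs_219
open Crest.Agent.R257.KED_952 Crest.Agent.R257.KEG_952 Crest.Agent.R257.KEU_952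
open Crest.Agent.R257.KUP_952
open Crest.Agent.R257.V1Defs_822 (SmL LvlOK lgh)
open Crest.Agent.R257.V1Pe_822
open Crest.Agent.R273.Defs_333 (lev)
open Crest.Agent.R273.YauDefs_635 (cH lev333_eq_lev145)
open Crest.Agent.R273.YauMax_635 (cH_eq_hess)
open Crest.Agent.R273.Hess_333 (hess)
open Crest.Agent.R257.PN_835 (nsq)
open Crest.Agent.R257.Aff_835 (eta2a nga)
open Crest.Agent.R257.C2F1_625 (pd c2)
open Crest.Agent.R257.C2F2_625 (hV bb)
open Crest.Agent.R257.OutB_309 (Gm)
open Crest.Agent.R257.LossA_625 (fx hS Psd Lv pe_lv dns_cases fx_add fx_sub fx_mul fx_congr fx_const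
  ev_pe fx_nonneg fx_abs_le cv cv_sm cv_nonneg cv_zero cv_anti cv_aff cv_le_one sc sc_pos
  mxd_eq_fx psd_cH)
open Crest.Agent.R257.LossB_625 (Cs Sh exists_sh exists_xi smL_mul smL_add smL_const smL_smul
  smL_comp smL_amb ae_lv off_ev stk3 comm_lv)
open Crest.Agent.R257.LossD_309 (HO dV oxd)

variable {f : E3 → ℂ} {r A : ℝ} {u : E3 → ℝ} {ν : Measure E3} {χ : E3 → ℝ} {k : ℕ}
  {g h : E3 → ℂ} {B : ℝ} {H : Form} {φ V : E3 → ℝ}

/-- the closed outer region -/
def Ou (d : ℝ) : Set E3 := {x | d ^ 2 ≤ nsq x}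

/-- the open inner region -/
def In (d : ℝ) : Set E3 := {x | nsq x < d ^ 2}

theorem meas_Ou (d : ℝ) : MeasurableSet (Ou d) :=
  (isClosed_le continuous_const continuous_nsq3).measurableSet

theorem meas_In (d : ℝ) : MeasurableSet (In d) :=
  (isOpen_lt continuous_nsq3 continuous_const).measurableSet

theorem compl_Ou (d : ℝ) : (Ou d)ᶜ = In d := by
  ext x
  simp [Ou, In]

theorem split_int {F : E3 → ℝ} (hF : Integrable F ν) (d : ℝ) :
    ∫ x, F x ∂ν = ∫ x in In d, F x ∂ν + ∫ x in Ou d, F x ∂ν := by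
  rw [← integral_add_compl (meas_Ou d) hF, compl_Ou, add_comm]

/-- densities of `χ cR` in the inner region -/
theorem fx_tR_in (hf : LvlOK f 0 r) {S : Form} {R d : ℝ}
    (hχ : ∀ x, nsq x < d ^ 2 → ∀ᶠ y in 𝓝 x, χ y = 1) {x : E3} (hx : x ∈ Lv f r) (hd : x ∈ In d) :
    fx f S (tR A u χ R) x = fx f S (cR A u R) x :=
  fx_congr hf hx fun θ O hP z hz hzx => by
    filter_upwards [ev_pe (hχ x hd) hP hz hzx] with y hy
    show χ (θ y) * _ = _
    rw [hy, one_mul]

theorem fx_chi_in (hf : LvlOK f 0 r) {S : Form} {d : ℝ}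
    (hχ : ∀ x, nsq x < d ^ 2 → ∀ᶠ y in 𝓝 x, χ y = 1) {x : E3} (hx : x ∈ Lv f r) (hd : x ∈ In d) :
    fx f S χ x = 0 := fx_const (c := 1) hf hx fun _ _ hP _ hz hzx => ev_pe (hχ x hd) hP hz hzx

theorem int_Ou_chi (hf : LvlOK f 0 r) (hν : IsNu f 0 r ν) {S : Form} {d : ℝ}
    (hχ : ∀ x, nsq x < d ^ 2 → ∀ᶠ y in 𝓝 x, χ y = 1) :
    ∫ x in Ou d, fx f S χ x ∂ν = ∫ x, fx f S χ x ∂ν := by
  refine setIntegral_eq_integral_of_ae_compl_eq_zero (ae_lv hν fun x hx hxd => ?_)
  exact fx_chi_in hf hχ hx (by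
    rw [← compl_Ou]
    exact hxd)

/-- **`∫_{In} ψ ∂∂̄ψ ∧ ∂∂̄cR → - TOT ψ χ`** -/
theorem lim_psi (hf : LvlOK f 0 r) (hν : IsNu f 0 r ν) (hK : KEon f 0 r u) (hE : Esc f r u A)
    (hT : Trl f r A u ν k g h B H φ V) (hχ : Cut r χ) {d : ℝ} (hd : 0 < d)
    (hχd : ∀ x, nsq x < d ^ 2 → ∀ᶠ y in 𝓝 x, χ y = 1) :
    Tendsto (fun R : ℝ => ∫ x in In d, fx f (bS (lgh g h) (lgh g h)) (tR A u χ R) x ∂ν) atTop
      (𝓝 (-TOT ν f (lgh g h) χ)) := by
  have hψ := smL_psi hT
  have hus : SmL f 0 r u := hK.sm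
  have hI := fun a ha => int_bS (f := f) (r := r) (ν := ν) hf hν hψ hψ a ha
  have h1 := lim_out (A := A) hf hν hus hχ hd hI
  have e1 : ∫ x in {x | d ^ 2 ≤ nsq x}, fx f (bS (lgh g h) (lgh g h)) χ x ∂ν =
      TOT ν f (lgh g h) χ := by
    have h2 := int_Ou_chi (S := bS (lgh g h) (lgh g h)) hf hν hχd
    unfold Ou at h2
    rw [h2]
    unfold TOT
    exact integral_congr_ae (ae_lv hν fun x hx => fx_bS hf hx)
  rw [e1] at h1
  refine h1.neg.congr' ?_
  filter_upwards [eventually_gt_atTop 0] with R hR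
  have ht := tst_tR (χ := χ) hE hus hχ hR
  have h2 := split_int (hI _ ht) d
  have h3 : ∫ x, fx f (bS (lgh g h) (lgh g h)) (tR A u χ R) x ∂ν = 0 := by
    have h4 := (stk3 hf hν hψ hψ ht.sm (cs_of_tst ht)).2.2
    have h5 : ∫ x, fx f (bS (lgh g h) (lgh g h)) (tR A u χ R) x ∂ν =
        ∫ x, lgh g h x * mxd f (lgh g h) (tR A u χ R) x ∂ν :=
      integral_congr_ae (ae_lv hν fun x hx => fx_bS hf hx)
    rw [h5, h4, ← integral_zero E3 ℝ (μ := ν)]
    refine integral_congr_ae (ae_lv hν fun x hx => ?_)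
    show _ * mxd f (lgh g h) (lgh g h) x = 0
    rw [mxd_psi hf hT hx, mul_zero]
  rw [h3] at h2
  unfold Ou at h2
  linarith

/-- pointwise limit of `qR` -/
theorem qR_lim {x : E3} : Tendsto (fun R : ℝ => qR A u R x) atTop (𝓝 0) := by
  have h1 : Tendsto (fun R : ℝ => sc / R) atTop (𝓝 0) := tendsto_const_nhds.div_atTop tendsto_id
  refine h1.congr' ?_
  filter_upwards [eventually_gt_atTop (2 * (A - u x)), eventually_gt_atTop 0] with R h2 h3
  unfold qR
  rw [if_pos (by linarith), if_neg (by linarith), add_zero]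

theorem qR_le {R : ℝ} (hR : 1 ≤ R) (hA : 0 < A) (x : E3) :
    qR A u R x ≤ sc + 2 * sc * KK * A := by
  have h1 := sc_pos
  have h2 := KK_pos
  have h3 : sc / R ≤ sc := div_le_self h1.le hR
  have h4 : 0 ≤ 2 * sc * KK * A := by positivity
  unfold qR
  split_ifs <;> linarith

/-- **the second fundamental form does not contribute** -/
theorem lim_bb (hf : LvlOK f 0 r) (hν : IsNu f 0 r ν) (hK : KEon f 0 r u) (hE : Esc f r u A)
    (hT : Trl f r A u ν k g h B H φ V) (hb : Psd f r (Sb H g)) (hχ : Cut r χ) {d : ℝ}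
    (hχd : ∀ x, nsq x < d ^ 2 → ∀ᶠ y in 𝓝 x, χ y = 1)
    (hme : ∀ R, 1 ≤ R → AEStronglyMeasurable
      (fun x => (In d).indicator (fx f (Sb H g) (cR A u R)) x) ν) :
    Tendsto (fun R : ℝ => ∫ x in In d, fx f (Sb H g) (cR A u R) x ∂ν) atTop (𝓝 0) := by
  have e0 : ∀ R, ∫ x in In d, fx f (Sb H g) (cR A u R) x ∂ν =
      ∫ x, (In d).indicator (fx f (Sb H g) (cR A u R)) x ∂ν := fun R =>
    (integral_indicator (meas_In d)).symm
  simp only [e0]
  have e1 : (0 : ℝ) = ∫ x, (0 : ℝ) ∂ν := by simp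
  rw [e1]
  have hA := hE.pos
  refine tendsto_integral_filter_of_dominated_convergence
    (fun x => (sc + 2 * sc * KK * A) * (|B| * (χ x * mxd f u φ x)))
    ?_ ?_ (((hT.φ_int χ hχ).const_mul _).const_mul _) ?_
  · filter_upwards [eventually_ge_atTop 1] with R hR using hme R hR
  · filter_upwards [eventually_ge_atTop 1] with R hR
    refine ae_lv hν fun x hx => ?_
    have hsc := sc_pos
    have hKK := KK_pos
    have hC : 0 ≤ sc + 2 * sc * KK * A := by positivity
    have hm : 0 ≤ mxd f u φ x := by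
      rw [comm_lv hf hx, mxd_eq_fx]
      refine fx_nonneg hf (fun θ O h1 z hz => psd_cH (smAt hK.sm h1 hz)
        fun v => SkelG_952.lev_nn hK h1 hz v) hT.φ_sm hx fun θ O h1 z hz _ v =>
          hT.φ_psh θ O h1 z hz v
    by_cases hxd : x ∈ In d
    · rw [indicator_of_mem hxd]
      obtain ⟨a1, a2⟩ := fx_Sb hf hK hE hT hb (by linarith : 0 < R) hx
      rw [Real.norm_eq_abs, abs_of_nonneg a1, (hχd x hxd).self_of_nhds, one_mul]
      calc _ ≤ _ := a2
        _ ≤ qR A u R x * (|B| * mxd f u φ x) := by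
            have := le_abs_self B
            have := qR_nonneg (A := A) (u := u) (by linarith : 0 < R) hA x
            gcongr
        _ ≤ _ := by
            have := qR_le (A := A) (u := u) hR hA x
            gcongr
    · rw [indicator_of_notMem hxd, norm_zero]
      have := hχ.nn x
      positivity
  · refine ae_lv hν fun x hx => ?_
    by_cases hxd : x ∈ In d
    · have e2 : (fun R => (In d).indicator (fx f (Sb H g) (cR A u R)) x) =
          fun R => fx f (Sb H g) (cR A u R) x := by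
        funext R
        rw [indicator_of_mem hxd]
      rw [e2]
      have h3 : Tendsto (fun R => qR A u R x * (B * mxd f u φ x)) atTop (𝓝 0) := by
        have := (qR_lim (A := A) (u := u) (x := x)).mul_const (B * mxd f u φ x)
        rwa [zero_mul] at this
      refine tendsto_of_tendsto_of_tendsto_of_le_of_le' tendsto_const_nhds h3 ?_ ?_
      · filter_upwards [eventually_gt_atTop 0] with R hR
        exact (fx_Sb hf hK hE hT hb hR hx).1
      · filter_upwards [eventually_gt_atTop 0] with R hR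
        exact (fx_Sb hf hK hE hT hb hR hx).2
    · have e2 : (fun R => (In d).indicator (fx f (Sb H g) (cR A u R)) x) = fun _ => 0 := by
        funext R
        rw [indicator_of_notMem hxd]
      rw [e2]
      exact tendsto_const_nhds

end Crest.Agent.R257.UpA_952
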