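import Crest.Agent.R257.UpA4_952
import Crest.Agent.R257.GBL4_625
import Crest.Agent.R257.OutD_309

/-!
R257 / UpA5_952: assembly of `UppStmt`, part 5: the glued metric.
-/

set_option autoImplicit false
set_option linter.unusedSectionVars false

open Topology Filter MeasureTheory Set
open scoped ENNReal ContDiff Matrix ComplexOrder

noncomputable section

namespace Crest.Agent.R257.UpA_952

open Crest.Agent.R275.Geo
open Crest.Agent.R257.Defs_219
open Crest.Agent.R257.KED_952 Crest.Agent.R257.KEG_952 Crest.Agent.R257.KEU_952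
open Crest.Agent.R257.KUP_952
open Crest.Agent.R257.V1Defs_822 (SmL LvlOK lgh)
open Crest.Agent.R257.V1Pe_822
open Crest.Agent.R273.Defs_333 (lev)
open Crest.Agent.R273.YauDefs_635 (cH lev333_eq_lev145)
open Crest.Agent.R273.YauMax_635 (cH_eq_hess)
open Crest.Agent.R273.Hess_333 (hess)
open Crest.Agent.R257.PN_835 (nsq)
open Crest.Agent.R257.Aff_835 (eta2a nga)
open Crest.Agent.R257.C2F1_625 (pd c2)
open Crest.Agent.R257.C2F2_625 (hV bb)
open Crest.Agent.R257.OutB_309 (Gm)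
open Crest.Agent.R257.LossA_625 (fx hS Psd Lv pe_lv dns_cases fx_add fx_sub fx_mul fx_congr fx_const
  ev_pe fx_nonneg fx_abs_le cv cv_sm cv_nonneg cv_zero cv_anti cv_aff cv_le_one sc sc_pos
  mxd_eq_fx psd_cH)
open Crest.Agent.R257.LossB_625 (Cs Sh exists_sh exists_xi smL_mul smL_add smL_const smL_smul
  smL_comp smL_amb ae_lv off_ev stk3 comm_lv)
open Crest.Agent.R257.LossD_309 (HO dV oxd)

variable {f : E3 → ℂ} {r A : ℝ} {u : E3 → ℝ} {ν : Measure E3} {χ ζ : E3 → ℝ} {k : ℕ}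
  {g h : E3 → ℂ} {B : ℝ} {H H' : Form} {φ V : E3 → ℝ}

/-- the glued metric -/
def gl (ζ : E3 → ℝ) (H H' : Form) : Form := fun θ z =>
  ((ζ (θ z) : ℝ) : ℂ) • H θ z + ((1 - ζ (θ z) : ℝ) : ℂ) • H' θ z

theorem hV_gl {θ : Cn 2 → E3} {z : Cn 2} (W : Cn 2 → Fin 2 → ℂ) :
    hV (gl ζ H H' θ) W z = ζ (θ z) * hV (H θ) W z + (1 - ζ (θ z)) * hV (H' θ) W z := by
  unfold hV gl
  rw [Matrix.add_mulVec, Matrix.smul_mulVec, Matrix.smul_mulVec, dotProduct_add,
    dotProduct_smul, dotProduct_smul, Complex.add_re, smul_eq_mul, smul_eq_mul,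
    Complex.re_ofReal_mul, Complex.re_ofReal_mul]

/-- the glued metric is a metric -/
theorem mt_gl (hζ : ContDiff ℝ ∞ ζ) (h0 : ∀ x, 0 ≤ ζ x) (h1 : ∀ x, ζ x ≤ 1) (hH : Mt f r H)
    (hH' : Mt f r H') : Mt f r (gl ζ H H') := by
  refine ⟨fun θ O hP a b => ?_, fun θ O hP z hz => ?_, ?_⟩
  · have e : (fun z => gl ζ H H' θ z a b) = fun z =>
        ((ζ (θ z) : ℝ) : ℂ) * H θ z a b + ((1 - ζ (θ z) : ℝ) : ℂ) * H' θ z a b := by
      funext z
      simp [gl]
    rw [e]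
    have hs : ContDiffOn ℝ ∞ (fun z => ζ (θ z)) O := smL_amb (f := f) (r := r) hζ θ O hP
    have hc : ContDiffOn ℝ ∞ (fun z => ((ζ (θ z) : ℝ) : ℂ)) O :=
      Complex.ofRealCLM.contDiff.comp_contDiffOn hs
    have hc' : ContDiffOn ℝ ∞ (fun z => ((1 - ζ (θ z) : ℝ) : ℂ)) O :=
      Complex.ofRealCLM.contDiff.comp_contDiffOn (contDiffOn_const.sub hs)
    exact (hc.mul (hH.sm θ O hP a b)).add (hc'.mul (hH'.sm θ O hP a b))
  · have p1 := hH.pos θ O hP z hz
    have p2 := hH'.pos θ O hP z hz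
    rcases (h0 (θ z)).lt_or_eq with h | h
    · have q1 : (((ζ (θ z) : ℝ) : ℂ) • H θ z).PosDef :=
        p1.smul (by exact_mod_cast h)
      have q2 : (((1 - ζ (θ z) : ℝ) : ℂ) • H' θ z).PosSemidef :=
        p2.posSemidef.smul (by
          have := h1 (θ z)
          exact_mod_cast sub_nonneg.2 this)
      exact q1.add_posSemidef q2
    · have e : gl ζ H H' θ z = H' θ z := by
        unfold gl
        rw [← h]
        simp
      rw [e]
      exact p2
  · intro θ O θ' O' z z' h1 h2 hz hz' e a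
    rw [hV_gl, hV_gl, e, hH.ind θ O θ' O' z z' h1 h2 hz hz' e a,
      hH'.ind θ O θ' O' z z' h1 h2 hz hz' e a]

theorem gl_one {θ : Cn 2 → E3} {z : Cn 2} (h : ζ (θ z) = 1) : gl ζ H H' θ z = H θ z := by
  unfold gl
  rw [h]
  simp

theorem gl_zero {θ : Cn 2 → E3} {z : Cn 2} (h : ζ (θ z) = 0) : gl ζ H H' θ z = H' θ z := by
  unfold gl
  rw [h]
  simp

theorem eqn_gl {x : E3} (h : ∀ᶠ y in 𝓝 x, ζ y = 0) : EqN f r u (gl ζ H (HK u)) x := by
  filter_upwards [h] with y hy θ O hP z hz e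
  exact gl_zero (by rw [e, hy])

/-- comparison of the glued metric -/
theorem cpr_gl (h0 : ∀ x, 0 ≤ ζ x) (h1 : ∀ x, ζ x ≤ 1) {θ : Cn 2 → E3} {z : Cn 2}
    (hK : (HK u θ z).PosDef) (hV : 0 ≤ V (θ z)) (hc : Cpr u H V θ z) :
    Cpr u (gl ζ H (HK u)) V θ z := by
  have hz0 : (0 : ℂ) ≤ ((ζ (θ z) : ℝ) : ℂ) := by exact_mod_cast h0 (θ z)
  have he : (0 : ℂ) ≤ (((1 - ζ (θ z)) * (Real.exp (V (θ z)) - 1) : ℝ) : ℂ) := by
    have a1 : 0 ≤ 1 - ζ (θ z) := sub_nonneg.2 (h1 _)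
    have a2 : 0 ≤ Real.exp (V (θ z)) - 1 := by
      have := Real.one_le_exp hV
      linarith
    exact_mod_cast mul_nonneg a1 a2
  constructor
  · have e : (((Real.exp (V (θ z)) : ℝ) : ℂ) • HK u θ z - gl ζ H (HK u) θ z) =
        ((ζ (θ z) : ℝ) : ℂ) • (((Real.exp (V (θ z)) : ℝ) : ℂ) • HK u θ z - H θ z) +
        (((1 - ζ (θ z)) * (Real.exp (V (θ z)) - 1) : ℝ) : ℂ) • HK u θ z := by
      unfold gl
      ext i j
      simp only [Matrix.add_apply, Matrix.sub_apply, Matrix.smul_apply, smul_eq_mul]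
      push_cast
      ring
    rw [e]
    exact (hc.1.smul hz0).add (hK.posSemidef.smul he)
  · have e : (((Real.exp (V (θ z)) : ℝ) : ℂ) • gl ζ H (HK u) θ z - HK u θ z) =
        ((ζ (θ z) : ℝ) : ℂ) • (((Real.exp (V (θ z)) : ℝ) : ℂ) • H θ z - HK u θ z) +
        (((1 - ζ (θ z)) * (Real.exp (V (θ z)) - 1) : ℝ) : ℂ) • HK u θ z := by
      unfold gl
      ext i j
      simp only [Matrix.add_apply, Matrix.sub_apply, Matrix.smul_apply, smul_eq_mul]
      push_cast
      ring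
    rw [e]
    exact (hc.2.smul hz0).add (hK.posSemidef.smul he)

/-- `dV g` is a nonvanishing holomorphic covector -/
theorem noz_of_trl (hT : Trl f r A u ν k g h B H φ V) : NoZ f r g := by
  intro θ O hP z hz h0
  have h1 := hT.dg θ O hP z hz
  have h2 : dV g θ z = 0 := by
    funext i
    unfold dV
    rw [h0]
    rfl
  unfold hV at h1
  rw [h2] at h1
  simp at h1
  exact absurd h1.symm (Real.exp_pos _).ne'

theorem psd_Sb (hT : Trl f r A u ν k g h B H φ V) : Psd f r (Sb H g) := by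
  intro θ O hP z hz
  have hO := hP.par.isOpen
  obtain ⟨w, hw⟩ := C2F2_625.bb_rank (H := H θ) (V := dV g θ) (z := z)
    (by
      filter_upwards [hO.mem_nhds hz] with y hy a b
      exact (hT.mt.sm θ O hP a b).contDiffAt (hO.mem_nhds hy))
    (by filter_upwards [hO.mem_nhds hz] with y hy using hT.mt.pos θ O hP y hy)
    (fun i => by
      filter_upwards [hO.mem_nhds hz] with y hy
      exact (OutD_309.dV_hol hT.g_an hP i).differentiableAt (hO.mem_nhds hy))
    (by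
      intro h0
      refine noz_of_trl hT θ O hP z hz ?_
      ext w
      rw [OutD_309.fderiv_eq_dV, h0]
      simp)
  exact GBL4_625.psd_rank hw

end Crest.Agent.R257.UpA_952
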