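import Crest.Agent.R257.UpA5_952
import Crest.Agent.R257.SQ_636
import Crest.Agent.R257.UVl_351
import Crest.Agent.R257.KedM3_941
import Crest.Agent.R257.Ked4_397

/-!
R257 / UpA6_952: assembly of `UppStmt`, part 6: limits of the terms of the Bott-Chern inequality.
-/

set_option autoImplicit false
set_option linter.unusedSectionVars false

open Topology Filter MeasureTheory Set
open scoped ENNReal ContDiff Matrix ComplexOrder

noncomputable section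

namespace Crest.Agent.R257.UpA_952

open Crest.Agent.R275.Geo
open Crest.Agent.R257.Defs_219
open Crest.Agent.R257.KED_952 Crest.Agent.R257.KEG_952 Crest.Agent.R257.KEU_952
open Crest.Agent.R257.KUP_952
open Crest.Agent.R257.V1Defs_822 (SmL LvlOK lgh)
open Crest.Agent.R257.V1Pe_822
open Crest.Agent.R273.Defs_333 (lev)
open Crest.Agent.R273.YauDefs_635 (cH lev333_eq_lev145)
open Crest.Agent.R273.YauMax_635 (cH_eq_hess)
open Crest.Agent.R273.Hess_333 (hess)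
open Crest.Agent.R273.HessB_333 (hess_congr)
open Crest.Agent.R257.PN_835 (nsq)
open Crest.Agent.R257.Aff_835 (eta2a nga)
open Crest.Agent.R257.C2F1_625 (pd c2)
open Crest.Agent.R257.C2F2_625 (hV bb)
open Crest.Agent.R257.OutB_309 (Gm)
open Crest.Agent.R257.LossA_625 (fx hS Psd Lv pe_lv dns_cases fx_add fx_sub fx_mul fx_congr fx_const
  ev_pe fx_nonneg fx_abs_le cv cv_sm cv_nonneg cv_zero cv_anti cv_aff cv_le_one sc sc_pos
  mxd_eq_fx psd_cH)
open Crest.Agent.R257.LossB_625 (Cs Sh exists_sh exists_xi smL_mul smL_add smL_const smL_smul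
  smL_comp smL_amb ae_lv off_ev stk3 comm_lv)
open Crest.Agent.R257.LossD_309 (HO dV oxd)

/-- the situation -/
structure Sit (f : E3 → ℂ) (r A : ℝ) (u : E3 → ℝ) (ν : Measure E3) (k : ℕ) (g h : E3 → ℂ)
    (B : ℝ) (H : Form) (φ V χ ζ : E3 → ℝ) (d d₁ d₂ : ℝ) (U : E3 → ℝ) : Prop where
  hf : LvlOK f 0 r
  hK : KEon f 0 r u
  hE : Esc f r u A
  hν : IsNu f 0 r ν
  hT : Trl f r A u ν k g h B H φ V
  hχ : Cut r χ
  ζs : ContDiff ℝ ∞ ζ
  ζ0 : ∀ x, 0 ≤ ζ x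
  ζ1 : ∀ x, ζ x ≤ 1
  dp : 0 < d
  d1 : d ≤ d₁
  dr : d₁ ≤ r
  d2p : 0 ≤ d₂
  d2 : d₂ < d₁
  in1 : ∀ x, nsq x < d ^ 2 → ∀ᶠ y in 𝓝 x, ζ y = 1
  out1 : ∀ x, d₂ ^ 2 < nsq x → ∀ᶠ y in 𝓝 x, ζ y = 0
  chi : ∀ x, nsq x < d₁ ^ 2 → ∀ᶠ y in 𝓝 x, χ y = 1
  hU : Vl f r (gl ζ H (HK u)) U

/-- locality of `Γ` -/
theorem gm_congr {H H' : Cn 2 → Matrix (Fin 2) (Fin 2) ℂ} {V : Cn 2 → Fin 2 → ℂ} {z : Cn 2}
    (h : H =ᶠ[𝓝 z] H') : Gm H V z = Gm H' V z := by
  have h1 : (fun y => Real.log (H y).det.re) =ᶠ[𝓝 z] fun y => Real.log (H' y).det.re := by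
    filter_upwards [h] with y hy
    rw [hy]
  have h2 : (fun y => Real.log (hV H V y)) =ᶠ[𝓝 z] fun y => Real.log (hV H' V y) := by
    filter_upwards [h] with y hy
    unfold hV
    rw [hy]
  have h3 : hV H V z = hV H' V z := by
    unfold hV
    rw [h.self_of_nhds]
  have h4 : bb H V z = bb H' V z := by
    unfold bb
    ext c d
    simp only [Matrix.of_apply]
    rw [hess_congr h2, C2F2_625.rm_congr h, h3]
  unfold Gm
  rw [h3, h4, hess_congr h1, hess_congr h2]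

theorem bS_pt {f : E3 → ℂ} {r : ℝ} (hf : LvlOK f 0 r) {b c a : E3 → ℝ} {x : E3} (hx : x ∈ Lv f r)
    {m : ℝ} (h1 : ∀ᶠ y in 𝓝 x, y ∈ Lv f r → b y = m * c y) (hc : SmL f 0 r c) :
    fx f (bS b b) a x = m ^ 2 * fx f (bS c c) a x := by
  rw [fx_bS hf hx, fx_bS hf hx, h1.self_of_nhds hx]
  have e : mxd f b a x = mxd f (fun y => m * c y) a x := by
    rw [comm_lv hf hx, comm_lv (a := fun y => m * c y) hf hx]
    obtain ⟨θ, O, z, p1, p2, p3, -, p4⟩ := dns_cases hf hx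
    have e2 : ∀ c : E3 → ℝ, mxd f a c x = _ := fun c => p4 (fun θ z =>
      (pd (cH (fun y => a (θ y)) z) (cH (fun y => c (θ y)) z)).re)
    rw [e2, e2]
    have e3 : (fun y => b (θ y)) =ᶠ[𝓝 z] fun y => m * c (θ y) := by
      filter_upwards [ev_pe h1 p1 p2 p3, p1.par.isOpen.mem_nhds p2] with y h2 h3
      exact h2 (pe_lv p1 h3)
    rw [KEl_835.cH_congr e3]
  rw [e, mxd_mul hf hc m hx.2.1 hx.2.2 hx.1]
  ring

variable {f : E3 → ℂ} {r A : ℝ} {u : E3 → ℝ} {ν : Measure E3} {χ ζ : E3 → ℝ} {k : ℕ}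
  {g h : E3 → ℂ} {B : ℝ} {H : Form} {φ V U : E3 → ℝ} {d d₁ d₂ : ℝ}

namespace Sit

variable (S : Sit f r A u ν k g h B H φ V χ ζ d d₁ d₂ U)
include S

theorem mtK : Mt f r (HK u) := (UVl_351.mtOStmt f r u S.hf S.hK).1

theorem mt : Mt f r (gl ζ H (HK u)) := mt_gl S.ζs S.ζ0 S.ζ1 S.hT.mt S.mtK

theorem psi : SmL f 0 r (lgh g h) := smL_psi S.hT

theorem us : SmL f 0 r u := S.hK.sm

/-- `U = ψ/k` inside -/
theorem U_in {x : E3} (hx : x ∈ Lv f r) (hd : nsq x < d ^ 2) : U x = 1 / k * lgh g h x := by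
  obtain ⟨θ, O, z, h1, h2, h3, -⟩ := exists_pe S.hf hx.2.1 hx.2.2 hx.1
  have e1 := S.hU.eq θ O h1 z h2
  have e2 := S.hT.det θ O h1 z h2
  rw [gl_one (by rw [h3]; exact (S.in1 x hd).self_of_nhds), e2, h3] at e1
  have := Real.exp_injective e1
  have e3 : lgh g h x / k = 1 / k * lgh g h x := by ring
  linarith

/-- `U = u` outside -/
theorem U_out {x : E3} (hx : x ∈ Lv f r) (hd : d₂ ^ 2 < nsq x) : U x = u x := by
  obtain ⟨θ, O, z, h1, h2, h3, -⟩ := exists_pe S.hf hx.2.1 hx.2.2 hx.1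
  have e1 := S.hU.eq θ O h1 z h2
  have e2 := (UVl_351.mtOStmt f r u S.hf S.hK).2.1.eq θ O h1 z h2
  rw [gl_zero (by rw [h3]; exact (S.out1 x hd).self_of_nhds), e2, h3] at e1
  have := Real.exp_injective e1
  linarith

/-- `∂∂̄χ = 0` or `H₀ = HK`, `U = u` -/
theorem dich {x : E3} : (∀ᶠ y in 𝓝 x, χ y = 1) ∨ d₂ ^ 2 < nsq x := by
  by_cases h1 : nsq x < d₁ ^ 2
  · exact Or.inl (S.chi x h1)
  · rw [not_lt] at h1
    exact Or.inr (lt_of_lt_of_le (pow_lt_pow_left₀ S.d2 S.d2p two_ne_zero) h1)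

theorem nearIn {x : E3} (hd : nsq x < d ^ 2) : ∀ᶠ y in 𝓝 x, nsq y < d ^ 2 :=
  continuous_nsq3.continuousAt.eventually_lt continuousAt_const hd

theorem nearOut {x : E3} (hd : d₂ ^ 2 < nsq x) : ∀ᶠ y in 𝓝 x, d₂ ^ 2 < nsq y :=
  continuousAt_const.eventually_lt continuous_nsq3.continuousAt hd

theorem chid : ∀ x, nsq x < d ^ 2 → ∀ᶠ y in 𝓝 x, χ y = 1 := fun x hx =>
  S.chi x (hx.trans_le (pow_le_pow_left₀ S.dp.le S.d1 2))

theorem sq_glued (a : E3 → ℝ) (ha : KUP_952.Tst f r a) :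
    Integrable (fun x => a x * c2h f (gl ζ H (HK u)) x) ν ∧
    Integrable (Gd f (gl ζ H (HK u)) g a) ν ∧
    ∫ x, a x * c2h f (gl ζ H (HK u)) x ∂ν = ∫ x, Gd f (gl ζ H (HK u)) g a x ∂ν :=
  SQ_636.sqStmt f r _ S.hf S.mt ν S.hν g S.hT.g_an (noz_of_trl S.hT) a ha

theorem sq_trl (a : E3 → ℝ) (ha : KUP_952.Tst f r a) : Integrable (Gd f H g a) ν :=
  (SQ_636.sqStmt f r _ S.hf S.hT.mt ν S.hν g S.hT.g_an (noz_of_trl S.hT) a ha).2.1

theorem gd_in {x : E3} (hx : x ∈ Lv f r) (hd : nsq x < d ^ 2) (a : E3 → ℝ) :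
    Gd f (gl ζ H (HK u)) g a x = Gd f H g a x := by
  obtain ⟨θ, O, z, h1, h2, h3, -, h4⟩ := dns_cases S.hf hx
  unfold Gd fx
  rw [h4, h4]
  beta_reduce
  rw [gm_congr (H := gl ζ H (HK u) θ) (H' := H θ)]
  filter_upwards [ev_pe (S.in1 x hd) h1 h2 h3] with y hy
  exact gl_one hy

theorem gd_out {x : E3} (hx : x ∈ Lv f r) (hd : d₂ ^ 2 < nsq x) (a : E3 → ℝ) :
    Gd f (gl ζ H (HK u)) g a x = Gd f (HK u) g a x := by
  obtain ⟨θ, O, z, h1, h2, h3, -, h4⟩ := dns_cases S.hf hx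
  unfold Gd fx
  rw [h4, h4]
  beta_reduce
  rw [gm_congr (H := gl ζ H (HK u) θ) (H' := HK u θ)]
  filter_upwards [ev_pe (S.out1 x hd) h1 h2 h3] with y hy
  exact gl_zero hy

theorem gd_chi {x : E3} (hx : x ∈ Lv f r) :
    Gd f (gl ζ H (HK u)) g χ x = oxd f u (fun _ => 0) g χ x := by
  have e : oxd f u (fun _ => 0) g χ x = Gd f (HK u) g χ x := rfl
  rw [e]
  rcases S.dich (x := x) with h1 | h1
  · have e1 : ∀ H' : Form, Gd f H' g χ x = 0 := fun H' =>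
      fx_const (c := 1) S.hf hx fun _ _ hP _ hz hzx => ev_pe h1 hP hz hzx
    rw [e1, e1]
  · exact S.gd_out hx h1 χ

/-- measurability of the second fundamental form -/
theorem me_bb {R : ℝ} (hR : 0 < R) : AEStronglyMeasurable
    (fun x => (In d).indicator (fx f (Sb H g) (cR A u R)) x) ν := by
  have ht := tst_tR (χ := χ) S.hE S.us S.hχ hR
  have h1 := (S.sq_trl _ ht).aestronglyMeasurable
  have h2 := (int_bS (ν := ν) S.hf S.hν S.psi S.psi _ ht).aestronglyMeasurable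
  have h3 := (h1.add (h2.const_mul (1 + 1 / (k : ℝ)))).indicator (meas_In d)
  refine h3.congr (ae_lv S.hν fun x hx => ?_)
  show indicator _ _ x = indicator _ _ x
  by_cases hd : x ∈ In d
  · rw [indicator_of_mem hd, indicator_of_mem hd, Pi.add_apply]
    rw [gd_trial S.hf S.hT hx, fx_bS S.hf hx, ← fx_tR_in (χ := χ) S.hf S.chid hx hd]
    ring
  · rw [indicator_of_notMem hd, indicator_of_notMem hd]

/-- **limit of `∫ a c₂(H₀)`** -/
theorem lim_G : Tendsto (fun R : ℝ => ∫ x, tR A u χ R x * c2h f (gl ζ H (HK u)) x ∂ν) atTop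
    (𝓝 (∫ x, oxd f u (fun _ => 0) g χ x ∂ν + (1 + 1 / k) * TOT ν f (lgh g h) χ)) := by
  have h1 := lim_out (A := A) S.hf S.hν S.us S.hχ S.dp
    (S := fun θ z => Gm (gl ζ H (HK u) θ) (dV g θ) z) fun a ha => (S.sq_glued a ha).2.1
  have h2 := lim_psi S.hf S.hν S.hK S.hE S.hT S.hχ S.dp S.chid
  have h3 := lim_bb S.hf S.hν S.hK S.hE S.hT (psd_Sb S.hT) S.hχ S.chid
    (fun R hR => S.me_bb (by linarith))
  have e1 : ∫ x in {x | d ^ 2 ≤ nsq x}, fx f (fun θ z => Gm (gl ζ H (HK u) θ) (dV g θ) z) χ x ∂ν =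
      ∫ x, oxd f u (fun _ => 0) g χ x ∂ν := by
    have h4 := int_Ou_chi (S := fun θ z => Gm (gl ζ H (HK u) θ) (dV g θ) z) S.hf S.hν S.chid
    unfold Ou at h4
    rw [h4]
    exact integral_congr_ae (ae_lv S.hν fun x hx => S.gd_chi hx)
  rw [e1] at h1
  have h5 := h1.add ((h2.const_mul (-(1 + 1 / (k : ℝ)))).add h3)
  have e2 : -(1 + 1 / (k : ℝ)) * -TOT ν f (lgh g h) χ + 0 =
      (1 + 1 / k) * TOT ν f (lgh g h) χ := by ring
  rw [e2] at h5
  refine h5.congr' ?_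
  filter_upwards [eventually_gt_atTop 0] with R hR
  have ht := tst_tR (χ := χ) S.hE S.us S.hχ hR
  rw [(S.sq_glued _ ht).2.2, split_int (S.sq_glued _ ht).2.1 d, add_comm]
  congr 1
  have i1 := (int_bS (ν := ν) S.hf S.hν S.psi S.psi _ ht).integrableOn (s := In d)
  have i2 : IntegrableOn (fx f (Sb H g) (cR A u R)) (In d) ν := by
    have j1 := (S.sq_trl _ ht).integrableOn (s := In d)
    have j2 := j1.add (i1.const_mul (1 + 1 / (k : ℝ)))
    refine j2.congr ?_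
    refine (ae_restrict_iff' (meas_In d)).2 (ae_lv S.hν fun x hx hd => ?_)
    rw [Pi.add_apply, gd_trial S.hf S.hT hx, fx_bS S.hf hx,
      ← fx_tR_in (χ := χ) S.hf S.chid hx hd]
    ring
  rw [← integral_const_mul, ← integral_add (i1.const_mul _) i2]
  refine setIntegral_congr_ae (meas_In d) (ae_lv S.hν fun x hx hd => ?_)
  rw [S.gd_in hx hd, gd_trial S.hf S.hT hx, fx_bS S.hf hx, ← fx_tR_in (χ := χ) S.hf S.chid hx hd]

/-- **limit of `∫ a c₁²(H₀)`** -/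
theorem lim_U : Tendsto (fun R : ℝ => ∫ x, tR A u χ R x * mxd f U U x ∂ν) atTop
    (𝓝 (TOT ν f u χ - TOT ν f (lgh g h) χ / k ^ 2)) := by
  have hUs := S.hU.sm
  have h1 := lim_out (A := A) S.hf S.hν S.us S.hχ S.dp
    (S := bS U U) fun a ha => int_bS S.hf S.hν hUs hUs a ha
  have h2 := lim_psi S.hf S.hν S.hK S.hE S.hT S.hχ S.dp S.chid
  have e1 : ∫ x in {x | d ^ 2 ≤ nsq x}, fx f (bS U U) χ x ∂ν = TOT ν f u χ := by
    have h4 := int_Ou_chi (S := bS U U) S.hf S.hν S.chid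
    unfold Ou at h4
    rw [h4]
    unfold TOT
    refine integral_congr_ae (ae_lv S.hν fun x hx => ?_)
    show fx f (bS U U) χ x = u x * mxd f u χ x
    rw [← fx_bS (b := u) (c := u) S.hf hx]
    rcases S.dich (x := x) with h1 | h1
    · have e1 : ∀ H' : Form, fx f H' χ x = 0 := fun H' =>
        fx_const (c := 1) S.hf hx fun _ _ hP _ hz hzx => ev_pe h1 hP hz hzx
      rw [e1, e1]
    · have := bS_pt (a := χ) (m := 1) S.hf hx (b := U) (c := u) (by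
        filter_upwards [S.nearOut h1] with y hy hyL
        rw [S.U_out hyL hy, one_mul]) S.us
      rw [this]
      ring
  rw [e1] at h1
  have h5 := h1.add (h2.const_mul ((1 / (k : ℝ)) ^ 2))
  have e2 : TOT ν f u χ + (1 / (k : ℝ)) ^ 2 * -TOT ν f (lgh g h) χ =
      TOT ν f u χ - TOT ν f (lgh g h) χ / k ^ 2 := by ring
  rw [e2] at h5
  refine h5.congr' ?_
  filter_upwards [eventually_gt_atTop 0] with R hR
  have ht := tst_tR (χ := χ) S.hE S.us S.hχ hR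
  have e3 : ∫ x, tR A u χ R x * mxd f U U x ∂ν = ∫ x, fx f (bS U U) (tR A u χ R) x ∂ν := by
    rw [← (stk3 S.hf S.hν hUs hUs ht.sm (cs_of_tst ht)).2.2]
    exact (integral_congr_ae (ae_lv S.hν fun x hx => fx_bS S.hf hx)).symm
  rw [e3, split_int (int_bS (ν := ν) S.hf S.hν hUs hUs _ ht) d, add_comm]
  congr 1
  rw [← integral_const_mul]
  refine setIntegral_congr_ae (meas_In d) (ae_lv S.hν fun x hx hd => ?_)
  exact (bS_pt (m := 1 / (k : ℝ)) S.hf hx (b := U) (c := lgh g h) (by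
    filter_upwards [S.nearIn hd] with y hy hyL
    exact S.U_in hyL hy) S.psi).symm

end Sit

end Crest.Agent.R257.UpA_952
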