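import Crest.Agent.R257.UpA6_952
import Crest.Agent.R257.SkelG6_952

/-!
R257 / UpA7_952: assembly of `UppStmt`, part 7: the limit of the left side; the error term.
-/

set_option autoImplicit false
set_option linter.unusedSectionVars false

open Topology Filter MeasureTheory Set
open scoped ENNReal ContDiff Matrix ComplexOrder

noncomputable section

namespace Crest.Agent.R257.UpA_952

open Crest.Agent.R275.Geo
open Crest.Agent.R257.Defs_219
open Crest.Agent.R257.KED_952 Crest.Agent.R257.KEG_952 Crest.Agent.R257.KEU_952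
open Crest.Agent.R257.KUP_952
open Crest.Agent.R257.V1Defs_822 (SmL LvlOK lgh)
open Crest.Agent.R257.V1Pe_822
open Crest.Agent.R273.Defs_333 (lev)
open Crest.Agent.R257.PN_835 (nsq)
open Crest.Agent.R257.LossA_625 (Lv sc sc_pos cv_sm)
open Crest.Agent.R257.LossB_625 (ae_lv)
open Crest.Agent.R257.SkelV_952 Crest.Agent.R257.SkelG_952

variable {f : E3 → ℂ} {r A : ℝ} {u : E3 → ℝ} {ν : Measure E3} {χ ζ : E3 → ℝ} {k : ℕ}
  {g h : E3 → ℂ} {B : ℝ} {H : Form} {φ V U : E3 → ℝ} {d d₁ d₂ : ℝ}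

theorem me_u (hf : LvlOK f 0 r) (hν : IsNu f 0 r ν) (hK : KEon f 0 r u) : AEMeasurable u ν :=
  KedM_941.measStmt f 0 r hf.pos hf.an hf.sm ν hν _ (ctl_ke hK)

theorem me_c (hf : LvlOK f 0 r) (hν : IsNu f 0 r ν) (hK : KEon f 0 r u) :
    AEMeasurable (c2d f u) ν :=
  KedM_941.measStmt f 0 r hf.pos hf.an hf.sm ν hν _
    (Ked4_397.ctDStmt f 0 r hf.pos hf.an hf.sm u hK).1

theorem c_nn (hf : LvlOK f 0 r) (hK : KEon f 0 r u) {x : E3} (hx : x ∈ Lv f r) :
    0 ≤ c2d f u x := by
  have h1 := Ked2_397.bmyStmt f 0 r u hf.pos hf.an hf.sm hK x hx.1 hx.2.1 hx.2.2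
  have := Real.exp_pos (u x)
  linarith

/-! ### the left side -/

/-- pointwise limit of the cut-off -/
theorem cR_lim {x : E3} : Tendsto (fun R : ℝ => cR A u R x) atTop (𝓝 1) := by
  have h1 : Tendsto (fun R : ℝ => 1 - sc / R * (A - u x)) atTop (𝓝 (1 - 0 * (A - u x))) :=
    tendsto_const_nhds.sub ((tendsto_const_nhds.div_atTop tendsto_id).mul_const _)
  rw [zero_mul, sub_zero] at h1
  refine h1.congr' ?_
  filter_upwards [eventually_gt_atTop (2 * (A - u x)), eventually_gt_atTop 0] with R h2 h3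
  exact (cR_aff h3 (by linarith)).symm

theorem me_cR (hf : LvlOK f 0 r) (hν : IsNu f 0 r ν) (hK : KEon f 0 r u) (R : ℝ) :
    AEMeasurable (cR A u R) ν := by
  have h1 := me_u hf hν hK
  exact cv_sm.continuous.measurable.comp_aemeasurable ((aemeasurable_const.sub h1).div_const R)

/-- dominated convergence for the cut-offs -/
theorem lim_dom (hf : LvlOK f 0 r) (hν : IsNu f 0 r ν) (hK : KEon f 0 r u) (hE : Esc f r u A)
    {F : E3 → ℝ} (hF : Integrable F ν) :
    Tendsto (fun R : ℝ => ∫ x, cR A u R x * F x ∂ν) atTop (𝓝 (∫ x, F x ∂ν)) := by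
  refine tendsto_integral_filter_of_dominated_convergence (fun x => ‖F x‖) ?_ ?_ hF.norm ?_
  · exact Eventually.of_forall fun R =>
      (me_cR hf hν hK R).aestronglyMeasurable.mul hF.aestronglyMeasurable
  · filter_upwards [eventually_gt_atTop 0] with R hR
    refine ae_lv hν fun x hx => ?_
    have h1 := cR_nonneg (A := A) (u := u) R x
    have h2 : cR A u R x ≤ 1 := cR_le hR (by
      have := hE.one x hx.1 hx.2.1 hx.2.2
      linarith)
    rw [norm_mul, Real.norm_eq_abs, abs_of_nonneg h1]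
    have := norm_nonneg (F x)
    nlinarith
  · refine Eventually.of_forall fun x => ?_
    have := (cR_lim (A := A) (u := u) (x := x)).mul_const (F x)
    rwa [one_mul] at this

namespace Sit

variable (S : Sit f r A u ν k g h B H φ V χ ζ d d₁ d₂ U)
include S

theorem lim_L (hfin : C2I ν f u χ ≠ ⊤) :
    Tendsto (fun R : ℝ => ∫ x, tR A u χ R x * (2 * c2d f u x - mxd f u u x) ∂ν) atTop
      (𝓝 (2 * (C2I ν f u χ).toReal - 2 * (VOL ν u χ).toReal)) := by
  obtain ⟨i1, e1⟩ := c2i_int KedM_941.measStmt Ked4_397.ctDStmt Ked2_397.bmyStmt S.hf S.hν S.hK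
    S.hχ hfin
  have i2 := int_vol KedM_941.measStmt S.hf S.hν S.hK S.hχ hfin
  have e2 : ∫ x, χ x * Real.exp (u x) ∂ν = (VOL ν u χ).toReal := by
    rw [integral_eq_lintegral_of_nonneg_ae
      (Eventually.of_forall fun x => mul_nonneg (S.hχ.nn x) (Real.exp_pos _).le)
      i2.aestronglyMeasurable]
    rfl
  have h1 := lim_dom S.hf S.hν S.hK S.hE ((i1.const_mul 2).sub (i2.const_mul 2))
  have e3 : ∫ x, 2 * (χ x * c2d f u x) - 2 * (χ x * Real.exp (u x)) ∂ν =
      2 * (C2I ν f u χ).toReal - 2 * (VOL ν u χ).toReal := by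
    rw [integral_sub (i1.const_mul 2) (i2.const_mul 2), integral_const_mul, integral_const_mul,
      e1, e2]
  have e4 : ∫ x, ((fun x => 2 * (χ x * c2d f u x)) - fun x => 2 * (χ x * Real.exp (u x))) x ∂ν =
      2 * (C2I ν f u χ).toReal - 2 * (VOL ν u χ).toReal := e3
  rw [e4] at h1
  refine h1.congr fun R => integral_congr_ae (ae_lv S.hν fun x hx => ?_)
  simp only [Pi.sub_apply]
  rw [mxd_ke S.hf S.hK hx.2.1 hx.2.2 hx.1]
  unfold tR
  ring

end Sit

/-! ### the error term -/

/-- AM-GM -/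
theorem amgm {l v c e : ℝ} (hl : 0 < l) (hc : 0 ≤ c) (he : 0 ≤ e) :
    v * Real.sqrt (c * e) ≤ (l * (v ^ 2 * e) + c / l) / 2 := by
  rw [Real.sqrt_mul hc]
  have h1 := Real.sq_sqrt hc
  have h2 := Real.sq_sqrt he
  set b := Real.sqrt c
  set a := Real.sqrt e
  rw [← h1, ← h2]
  have h3 : 0 ≤ (l * (v * a) - b) ^ 2 / (2 * l) := by positivity
  have h4 : (l * (v * a) - b) ^ 2 / (2 * l) = (l * (v ^ 2 * a ^ 2) + b ^ 2 / l) / 2 -
      v * (b * a) := by
    field_simp
    ring
  linarith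

/-- the sum of the weights -/
theorem sum_exp (j n : ℕ) (h : j ≤ n) :
    ∑ i ∈ Finset.Ico j n, Real.exp (-(i : ℝ)) ≤ 2 * (Real.exp (-(j : ℝ)) - Real.exp (-(n : ℝ))) := by
  induction n, h using Nat.le_induction with
  | base => simp
  | succ n hn ih =>
    rw [Finset.sum_Ico_succ_top hn]
    have h1 : 2 * Real.exp (-((n + 1 : ℕ) : ℝ)) ≤ Real.exp (-(n : ℝ)) := by
      have h2 : Real.exp (-(n : ℝ)) = Real.exp 1 * Real.exp (-((n + 1 : ℕ) : ℝ)) := by
        rw [← Real.exp_add]
        congr 1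
        push_cast
        ring
      rw [h2]
      have h3 : (2 : ℝ) ≤ Real.exp 1 := by
        have := Real.add_one_le_exp (1 : ℝ)
        linarith
      have := Real.exp_pos (-((n + 1 : ℕ) : ℝ))
      nlinarith
    linarith

open Classical in
/-- at most one scale is active -/
theorem sum_ind {W M : ℝ} (hM : 0 ≤ M) (j n : ℕ) :
    ∑ i ∈ Finset.Ico j n, (if W ≤ Real.exp (i : ℝ) then
      (if Real.exp (i : ℝ) / 2 ≤ W then M else 0) else 0) ≤
      if Real.exp (j : ℝ) / 2 ≤ W then M else 0 := by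
  by_cases hex : ∃ i ∈ Finset.Ico j n, W ≤ Real.exp (i : ℝ) ∧ Real.exp (i : ℝ) / 2 ≤ W
  · obtain ⟨i₀, h1, h2, h3⟩ := hex
    have hji : j ≤ i₀ := (Finset.mem_Ico.1 h1).1
    have h4 : Real.exp (j : ℝ) ≤ Real.exp (i₀ : ℝ) := by gcongr
    rw [if_pos (by linarith : Real.exp (j : ℝ) / 2 ≤ W)]
    rw [Finset.sum_eq_single i₀, if_pos h2, if_pos h3]
    · intro i _ hne
      by_cases a1 : W ≤ Real.exp (i : ℝ)
      · rw [if_pos a1]
        by_cases a2 : Real.exp (i : ℝ) / 2 ≤ W
        · exfalso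
          have hE : (2 : ℝ) < Real.exp 1 := by
            have := Real.exp_one_gt_d9
            linarith
          have key : ∀ a b : ℕ, a < b → Real.exp (b : ℝ) / 2 ≤ Real.exp (a : ℝ) → False := by
            intro a b hab hle
            have h5 : Real.exp ((a : ℝ) + 1) ≤ Real.exp (b : ℝ) := by
              apply Real.exp_le_exp.2
              exact_mod_cast hab
            rw [Real.exp_add] at h5
            have := Real.exp_pos (a : ℝ)
            nlinarith
          rcases lt_or_gt_of_ne hne with h | h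
          · exact key i i₀ h (h3.trans a1)
          · exact key i₀ i h (a2.trans h2)
        · rw [if_neg a2]
      · rw [if_neg a1]
    · intro h
      exact absurd h1 h
  · have h0 : ∑ i ∈ Finset.Ico j n, (if W ≤ Real.exp (i : ℝ) then
      (if Real.exp (i : ℝ) / 2 ≤ W then M else 0) else 0) = 0 := by
      refine Finset.sum_eq_zero fun i hi => ?_
      by_cases a1 : W ≤ Real.exp (i : ℝ)
      · rw [if_pos a1]
        by_cases a2 : Real.exp (i : ℝ) / 2 ≤ W
        · exact absurd ⟨i, hi, a1, a2⟩ hex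
        · rw [if_neg a2]
      · rw [if_neg a1]
    rw [h0]
    split_ifs
    · exact hM
    · exact le_rfl

/-- the constant -/
def MM (A : ℝ) : ℝ := 2 * sc * KK * A

theorem MM_nn (hA : 0 < A) : 0 ≤ MM A := by
  have := sc_pos
  have := KK_pos
  unfold MM
  positivity

open Classical in
/-- **sum of the Levi bounds** -/
theorem sum_qR (hA : 0 < A) (j : ℕ) (x : E3) :
    ∑ i ∈ Finset.Ico j (2 * j), qR A u (Real.exp (i : ℝ)) x ≤
      2 * sc * Real.exp (-(j : ℝ)) * (if A - u x ≤ Real.exp ((2 * j : ℕ) : ℝ) then 1 else 0) +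
      MM A * (if A - u x ≤ Real.exp ((2 * j : ℕ) : ℝ) then
        (if Real.exp (j : ℝ) / 2 ≤ A - u x then 1 else 0) else 0) := by
  have hsc := sc_pos
  by_cases hW : A - u x ≤ Real.exp ((2 * j : ℕ) : ℝ)
  · rw [if_pos hW, if_pos hW, mul_one]
    have h1 : ∀ i : ℕ, qR A u (Real.exp (i : ℝ)) x ≤ sc * Real.exp (-(i : ℝ)) +
        (if A - u x ≤ Real.exp (i : ℝ) then
          (if Real.exp (i : ℝ) / 2 ≤ A - u x then MM A else 0) else 0) := by
      intro i
      unfold qR MM
      have h2 : sc / Real.exp (i : ℝ) = sc * Real.exp (-(i : ℝ)) := by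
        rw [Real.exp_neg]
        rfl
      split_ifs
      · rw [h2]
      · rw [h2]
      · positivity
    calc ∑ i ∈ Finset.Ico j (2 * j), qR A u (Real.exp (i : ℝ)) x ≤
        ∑ i ∈ Finset.Ico j (2 * j), (sc * Real.exp (-(i : ℝ)) +
        (if A - u x ≤ Real.exp (i : ℝ) then
          (if Real.exp (i : ℝ) / 2 ≤ A - u x then MM A else 0) else 0)) :=
          Finset.sum_le_sum fun i _ => h1 i
      _ ≤ 2 * sc * Real.exp (-(j : ℝ)) +
          (if Real.exp (j : ℝ) / 2 ≤ A - u x then MM A else 0) := by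
          rw [Finset.sum_add_distrib, ← Finset.mul_sum]
          have h3 := sum_exp j (2 * j) (by omega)
          have h4 := sum_ind (W := A - u x) (MM_nn hA) j (2 * j)
          have h5 : sc * ∑ i ∈ Finset.Ico j (2 * j), Real.exp (-(i : ℝ)) ≤
              sc * (2 * Real.exp (-(j : ℝ))) := by
            have := Real.exp_pos (-((2 * j : ℕ) : ℝ))
            have h6 : ∑ i ∈ Finset.Ico j (2 * j), Real.exp (-(i : ℝ)) ≤
              2 * Real.exp (-(j : ℝ)) := by linarith
            gcongr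
          linarith
      _ ≤ _ := by
          split_ifs <;> simp
  · rw [if_neg hW, if_neg hW, mul_zero, mul_zero, add_zero]
    refine le_of_eq (Finset.sum_eq_zero fun i hi => ?_)
    unfold qR
    rw [if_neg]
    rw [not_le] at hW ⊢
    refine lt_of_le_of_lt ?_ hW
    have : (i : ℝ) ≤ ((2 * j : ℕ) : ℝ) := by exact_mod_cast (Finset.mem_Ico.1 hi).2.le
    exact Real.exp_le_exp.2 this

end Crest.Agent.R257.UpA_952
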