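import Crest.Agent.R257.UpA7_952

/-!
R257 / UpA8_952: assembly of `UppStmt`, part 8: the error term tends to `0` along a sequence of
scales.
-/

set_option autoImplicit false
set_option linter.unusedSectionVars false

open Topology Filter MeasureTheory Set
open scoped ENNReal ContDiff Matrix ComplexOrder

noncomputable section

namespace Crest.Agent.R257.UpA_952

open Crest.Agent.R275.Geo
open Crest.Agent.R257.Defs_219
open Crest.Agent.R257.KED_952 Crest.Agent.R257.KEG_952 Crest.Agent.R257.KEU_952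
open Crest.Agent.R257.KUP_952
open Crest.Agent.R257.V1Defs_822 (SmL LvlOK lgh)
open Crest.Agent.R257.V1Pe_822
open Crest.Agent.R257.PN_835 (nsq)
open Crest.Agent.R257.LossA_625 (Lv sc sc_pos cv_sm)
open Crest.Agent.R257.LossB_625 (ae_lv)
open Crest.Agent.R257.SkelV_952 Crest.Agent.R257.SkelG_952

variable {f : E3 → ℂ} {r A : ℝ} {u : E3 → ℝ} {ν : Measure E3} {χ ζ : E3 → ℝ} {k : ℕ}
  {g h : E3 → ℂ} {B : ℝ} {H : Form} {φ V U : E3 → ℝ} {d d₁ d₂ : ℝ}

open Classical in
/-- truncated weight -/
def vv (A : ℝ) (u χ V : E3 → ℝ) (ρ : ℝ) (x : E3) : ℝ :=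
  if Real.log (A - u x) ≤ ρ then χ x * V x ^ 2 * Real.exp (u x) else 0

open Classical in
/-- tail of the second Chern form -/
def tt (f : E3 → ℂ) (A : ℝ) (u χ : E3 → ℝ) (b : ℝ) (x : E3) : ℝ :=
  if b ≤ A - u x then χ x * c2d f u x else 0

/-- the summands of the error -/
def er (f : E3 → ℂ) (A : ℝ) (u V : E3 → ℝ) (d₁ R : ℝ) (x : E3) : ℝ :=
  (In d₁).indicator (qR A u R) x * V x * Real.sqrt (c2d f u x * Real.exp (u x))

namespace Sit

variable (S : Sit f r A u ν k g h B H φ V χ ζ d d₁ d₂ U)
include S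

theorem exists_C : ∃ C : ℝ, 0 ≤ C ∧ ∀ ρ : ℝ, 1 ≤ ρ → Integrable (vv A u χ V ρ) ν ∧
    ∫ x, vv A u χ V ρ x ∂ν ≤ C * ρ ^ 2 := by
  obtain ⟨C, hC⟩ := S.hT.V_int χ S.hχ
  refine ⟨max C 0, le_max_right _ _, fun ρ hρ => ?_⟩
  have hnn : ∀ x, 0 ≤ χ x * V x ^ 2 * Real.exp (u x) := fun x => by
    have := S.hχ.nn x
    positivity
  have hnn' : ∀ x, 0 ≤ vv A u χ V ρ x := fun x => by
    unfold vv
    split_ifs
    · exact hnn x
    · exact le_rfl
  have mu := me_u S.hf S.hν S.hK
  have hme : AEMeasurable (vv A u χ V ρ) ν := by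
    have h1 : AEMeasurable (fun x => χ x * V x ^ 2 * Real.exp (u x)) ν :=
      ((S.hχ.sm.continuous.measurable.aemeasurable).mul (S.hT.V_me.pow_const 2)).mul
        (Real.measurable_exp.comp_aemeasurable mu)
    have h2 : AEMeasurable (fun x => (Iic ρ).indicator (fun _ => (1 : ℝ))
        (Real.log (A - u x))) ν :=
      (measurable_const.indicator measurableSet_Iic).comp_aemeasurable
        (Real.measurable_log.comp_aemeasurable (aemeasurable_const.sub mu))
    refine (h2.mul h1).congr (Eventually.of_forall fun x => ?_)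
    show (Iic ρ).indicator (fun _ => (1 : ℝ)) (Real.log (A - u x)) *
      (χ x * V x ^ 2 * Real.exp (u x)) = vv A u χ V ρ x
    unfold vv
    by_cases h : Real.log (A - u x) ≤ ρ
    · rw [if_pos h, indicator_of_mem (by exact h), one_mul]
    · rw [if_neg h, indicator_of_notMem (by exact h), zero_mul]
  have key : ∫⁻ x, ENNReal.ofReal (vv A u χ V ρ x) ∂ν ≤ ENNReal.ofReal (C * ρ ^ 2) := by
    refine le_trans ?_ (hC ρ hρ)
    refine le_trans ?_ (lintegral_indicator_le _ _)
    refine lintegral_mono fun x => ?_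
    unfold vv
    by_cases h : Real.log (A - u x) ≤ ρ
    · rw [if_pos h, indicator_of_mem (by exact h)]
    · rw [if_neg h, indicator_of_notMem (by exact h)]
      simp
  constructor
  · refine ⟨hme.aestronglyMeasurable, ?_⟩
    rw [hasFiniteIntegral_iff_ofReal (Eventually.of_forall hnn')]
    exact key.trans_lt ENNReal.ofReal_lt_top
  · rw [integral_eq_lintegral_of_nonneg_ae (Eventually.of_forall hnn') hme.aestronglyMeasurable]
    refine ENNReal.toReal_le_of_le_ofReal (by positivity) (key.trans ?_)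
    apply ENNReal.ofReal_le_ofReal
    have := le_max_left C 0
    gcongr

theorem int_c (hfin : C2I ν f u χ ≠ ⊤) : Integrable (fun x => χ x * c2d f u x) ν :=
  (c2i_int KedM_941.measStmt Ked4_397.ctDStmt Ked2_397.bmyStmt S.hf S.hν S.hK S.hχ hfin).1

theorem me_tt (b : ℝ) : AEMeasurable (tt f A u χ b) ν := by
  have mu := me_u S.hf S.hν S.hK
  have h1 : AEMeasurable (fun x => χ x * c2d f u x) ν :=
    (S.hχ.sm.continuous.measurable.aemeasurable).mul (me_c S.hf S.hν S.hK)
  have h2 : AEMeasurable (fun x => (Ici b).indicator (fun _ => (1 : ℝ)) (A - u x)) ν :=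
    (measurable_const.indicator measurableSet_Ici).comp_aemeasurable (aemeasurable_const.sub mu)
  refine (h2.mul h1).congr (Eventually.of_forall fun x => ?_)
  show (Ici b).indicator (fun _ => (1 : ℝ)) (A - u x) * (χ x * c2d f u x) = tt f A u χ b x
  unfold tt
  by_cases h : b ≤ A - u x
  · rw [if_pos h, indicator_of_mem (by exact h), one_mul]
  · rw [if_neg h, indicator_of_notMem (by exact h), zero_mul]

theorem tt_bd (b : ℝ) : ∀ᵐ x ∂ν, 0 ≤ tt f A u χ b x ∧ tt f A u χ b x ≤ χ x * c2d f u x := by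
  refine ae_lv S.hν fun x hx => ?_
  have h1 := mul_nonneg (S.hχ.nn x) (c_nn S.hf S.hK hx)
  unfold tt
  split_ifs
  · exact ⟨h1, le_rfl⟩
  · exact ⟨le_rfl, h1⟩

theorem int_tt (hfin : C2I ν f u χ ≠ ⊤) (b : ℝ) : Integrable (tt f A u χ b) ν := by
  refine (S.int_c hfin).mono' (S.me_tt b).aestronglyMeasurable ?_
  filter_upwards [S.tt_bd b] with x hx
  rw [Real.norm_eq_abs, abs_of_nonneg hx.1]
  exact hx.2

theorem lim_tt (hfin : C2I ν f u χ ≠ ⊤) :
    Tendsto (fun b : ℝ => ∫ x, tt f A u χ b x ∂ν) atTop (𝓝 0) := by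
  have e1 : (0 : ℝ) = ∫ x, (0 : ℝ) ∂ν := by simp
  rw [e1]
  refine tendsto_integral_filter_of_dominated_convergence (fun x => χ x * c2d f u x)
    ?_ ?_ (S.int_c hfin) ?_
  · exact Eventually.of_forall fun b => (S.me_tt b).aestronglyMeasurable
  · refine Eventually.of_forall fun b => ?_
    filter_upwards [S.tt_bd b] with x hx
    rw [Real.norm_eq_abs, abs_of_nonneg hx.1]
    exact hx.2
  · refine Eventually.of_forall fun x => ?_
    refine tendsto_const_nhds.congr' ?_
    filter_upwards [eventually_gt_atTop (A - u x)] with b hb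
    unfold tt
    rw [if_neg (by linarith)]

theorem me_er (R : ℝ) : AEMeasurable (er f A u V d₁ R) ν := by
  have mu := me_u S.hf S.hν S.hK
  have h1 : AEMeasurable (fun x => Real.sqrt (c2d f u x * Real.exp (u x))) ν :=
    Real.continuous_sqrt.measurable.comp_aemeasurable
      ((me_c S.hf S.hν S.hK).mul (Real.measurable_exp.comp_aemeasurable mu))
  have h2 : AEMeasurable (qR A u R) ν := by
    have hm : Measurable fun t : ℝ => (Iic R).indicator (fun t => sc / R +
        (Ici (R / 2)).indicator (fun _ => 2 * sc * KK * A) t) t :=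
      (measurable_const.add (measurable_const.indicator measurableSet_Ici)).indicator
        measurableSet_Iic
    have mW : AEMeasurable (fun x => A - u x) ν := aemeasurable_const.sub mu
    refine (hm.comp_aemeasurable mW).congr (Eventually.of_forall fun x => ?_)
    show (Iic R).indicator (fun t => sc / R +
        (Ici (R / 2)).indicator (fun _ => 2 * sc * KK * A) t) (A - u x) = qR A u R x
    unfold qR
    by_cases h : A - u x ≤ R
    · rw [if_pos h, indicator_of_mem (by exact h)]
      by_cases h' : R / 2 ≤ A - u x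
      · rw [if_pos h', indicator_of_mem (by exact h')]
      · rw [if_neg h', indicator_of_notMem (by exact h')]
    · rw [if_neg h, indicator_of_notMem (by exact h)]
  exact ((h2.indicator (meas_In d₁)).mul S.hT.V_me).mul h1

theorem er_nn {R : ℝ} (hR : 0 < R) (x : E3) : 0 ≤ er f A u V d₁ R x := by
  unfold er
  refine mul_nonneg (mul_nonneg ?_ (S.hT.V_nn x)) (Real.sqrt_nonneg _)
  refine indicator_nonneg (fun y _ => qR_nonneg hR S.hE.pos y) x

open Classical in
/-- pointwise bound of the sum of the errors -/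
theorem sum_er (j : ℕ) {l : ℝ} (hl : 0 < l) {x : E3} (hx : x ∈ Lv f r) :
    ∑ i ∈ Finset.Ico j (2 * j), er f A u V d₁ (Real.exp (i : ℝ)) x ≤
      sc * Real.exp (-(j : ℝ)) * (vv A u χ V ((2 * j : ℕ) : ℝ) x + χ x * c2d f u x) +
      MM A / 2 * (l * vv A u χ V ((2 * j : ℕ) : ℝ) x +
        tt f A u χ (Real.exp (j : ℝ) / 2) x / l) := by
  have hsc := sc_pos
  have hM := MM_nn S.hE.pos
  have hc := c_nn S.hf S.hK hx
  have hχ := S.hχ.nn x
  have hWp : 0 < A - u x := by
    have := S.hE.one x hx.1 hx.2.1 hx.2.2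
    linarith
  have hv0 : 0 ≤ vv A u χ V ((2 * j : ℕ) : ℝ) x := by
    unfold vv
    split_ifs
    · positivity
    · exact le_rfl
  have ht0 : 0 ≤ tt f A u χ (Real.exp (j : ℝ) / 2) x := by
    unfold tt
    split_ifs
    · positivity
    · exact le_rfl
  have hRHS : 0 ≤ sc * Real.exp (-(j : ℝ)) * (vv A u χ V ((2 * j : ℕ) : ℝ) x + χ x * c2d f u x) +
      MM A / 2 * (l * vv A u χ V ((2 * j : ℕ) : ℝ) x +
        tt f A u χ (Real.exp (j : ℝ) / 2) x / l) := by
    have := mul_nonneg hχ hc
    positivity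
  unfold er
  simp only [mul_assoc]
  rw [← Finset.sum_mul]
  by_cases hd : x ∈ In d₁
  · simp only [indicator_of_mem hd]
    have hχ1 : χ x = 1 := (S.chi x hd).self_of_nhds
    have h1 := sum_qR (u := u) S.hE.pos j x
    have h2 : 0 ≤ V x * Real.sqrt (c2d f u x * Real.exp (u x)) :=
      mul_nonneg (S.hT.V_nn x) (Real.sqrt_nonneg _)
    refine (mul_le_mul_of_nonneg_right h1 h2).trans ?_
    by_cases hW : A - u x ≤ Real.exp ((2 * j : ℕ) : ℝ)
    · rw [if_pos hW, if_pos hW, mul_one]
      have hlog : Real.log (A - u x) ≤ ((2 * j : ℕ) : ℝ) := (Real.log_le_iff_le_exp hWp).2 hW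
      have ev : vv A u χ V ((2 * j : ℕ) : ℝ) x = V x ^ 2 * Real.exp (u x) := by
        unfold vv
        rw [if_pos hlog, hχ1, one_mul]
      have b1 := amgm (v := V x) (c := c2d f u x) (e := Real.exp (u x)) (one_pos) hc
        (Real.exp_pos _).le
      have b2 := amgm (v := V x) (c := c2d f u x) (e := Real.exp (u x)) hl hc (Real.exp_pos _).le
      rw [one_mul, div_one] at b1
      have c1 : 2 * sc * Real.exp (-(j : ℝ)) * (V x * Real.sqrt (c2d f u x * Real.exp (u x))) ≤
          sc * Real.exp (-(j : ℝ)) * (V x ^ 2 * Real.exp (u x) + c2d f u x) := by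
        have : 2 * (V x * Real.sqrt (c2d f u x * Real.exp (u x))) ≤
          V x ^ 2 * Real.exp (u x) + c2d f u x := by linarith
        calc _ = sc * Real.exp (-(j : ℝ)) *
              (2 * (V x * Real.sqrt (c2d f u x * Real.exp (u x)))) := by ring
          _ ≤ _ := by gcongr
      by_cases hW2 : Real.exp (j : ℝ) / 2 ≤ A - u x
      · rw [if_pos hW2, mul_one]
        have et : tt f A u χ (Real.exp (j : ℝ) / 2) x = c2d f u x := by
          unfold tt
          rw [if_pos hW2, hχ1, one_mul]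
        rw [ev, et, hχ1, one_mul, add_mul]
        have c2 : MM A * (V x * Real.sqrt (c2d f u x * Real.exp (u x))) ≤
            MM A / 2 * (l * (V x ^ 2 * Real.exp (u x)) + c2d f u x / l) := by
          calc _ ≤ MM A * ((l * (V x ^ 2 * Real.exp (u x)) + c2d f u x / l) / 2) := by gcongr
            _ = _ := by ring
        simp only [mul_assoc] at c1 c2 ⊢
        linarith
      · rw [if_neg hW2, mul_zero, add_zero, ev, hχ1, one_mul]
        have c3 : 0 ≤ MM A / 2 * (l * (V x ^ 2 * Real.exp (u x)) +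
            tt f A u χ (Real.exp (j : ℝ) / 2) x / l) := by positivity
        simp only [mul_assoc] at c1 c3 ⊢
        linarith
    · rw [if_neg hW, if_neg hW, mul_zero, mul_zero, add_zero, zero_mul]
      simpa only [mul_assoc] using hRHS
  · simp only [indicator_of_notMem hd, Finset.sum_const_zero, zero_mul]
    simpa only [mul_assoc] using hRHS

end Sit

end Crest.Agent.R257.UpA_952
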