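import Crest.Agent.R257.BrI_822
import Crest.Agent.R257.BCUB_532
import Crest.Agent.R257.Ptw3_617

/-!
# R257 (S0395), part (GB): `UpperStmt` closed (helper822 + 532 + 617)
-/

namespace Crest.Agent.R257.Upp_822

/-- The Donaldson type upper bound (leaf `UpperStmt` of KUP_952). -/
theorem upperStmt : KUP_952.UpperStmt :=
  BrI_822.upperStmt_of BCUB_532.lgStmt Ptw_617.ptwStmt

end Crest.Agent.R257.Upp_822
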