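import Crest.Agent.R257.UpA8_952
import Crest.Agent.R257.Upp_822
import Crest.Agent.R257.KEl_835

/-!
R257 / UpA9_952: assembly of `UppStmt`, part 9: the error term is small at some scales; the
inequality for the cone.
-/

set_option autoImplicit false
set_option linter.unusedSectionVars false

open Topology Filter MeasureTheory Set
open scoped ENNReal ContDiff Matrix ComplexOrder

noncomputable section

namespace Crest.Agent.R257.UpA_952

open Crest.Agent.R275.Geo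
open Crest.Agent.R257.Defs_219
open Crest.Agent.R257.KED_952 Crest.Agent.R257.KEG_952 Crest.Agent.R257.KEU_952
open Crest.Agent.R257.KUP_952
open Crest.Agent.R257.V1Defs_822 (SmL LvlOK lgh)
open Crest.Agent.R257.V1Pe_822
open Crest.Agent.R273.Defs_333 (lev)
open Crest.Agent.R257.PN_835 (nsq)
open Crest.Agent.R257.LossA_625 (Lv sc sc_pos cv_sm pe_lv ev_pe)
open Crest.Agent.R257.LossB_625 (ae_lv stk3)
open Crest.Agent.R257.LossD_309 (oxd)
open Crest.Agent.R257.SkelV_952 Crest.Agent.R257.SkelG_952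

variable {f : E3 → ℂ} {r A : ℝ} {u : E3 → ℝ} {ν : Measure E3} {χ ζ : E3 → ℝ} {k : ℕ}
  {g h : E3 → ℂ} {B : ℝ} {H : Form} {φ V U : E3 → ℝ} {d d₁ d₂ : ℝ}

namespace Sit

variable (S : Sit f r A u ν k g h B H φ V χ ζ d d₁ d₂ U)
include S

theorem int_er (hfin : C2I ν f u χ ≠ ⊤) {i : ℕ} (hi : 1 ≤ i) :
    Integrable (er f A u V d₁ (Real.exp (i : ℝ))) ν := by
  obtain ⟨C, hC0, hC⟩ := S.exists_C
  have hsc := sc_pos
  have hM := MM_nn S.hE.pos
  have i1 : Integrable (vv A u χ V ((2 * i : ℕ) : ℝ)) ν := (hC _ (by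
    have : (1 : ℝ) ≤ i := by exact_mod_cast hi
    push_cast
    linarith)).1
  have i2 := S.int_c hfin
  have i3 := S.int_tt hfin (Real.exp (i : ℝ) / 2)
  have i4 := ((i1.add i2).const_mul (sc * Real.exp (-(i : ℝ)))).add
    (((i1.const_mul 1).add (i3.div_const 1)).const_mul (MM A / 2))
  refine i4.mono' (S.me_er _).aestronglyMeasurable (ae_lv S.hν fun x hx => ?_)
  have h1 := S.sum_er i one_pos hx
  have h2 : er f A u V d₁ (Real.exp (i : ℝ)) x ≤
      ∑ i' ∈ Finset.Ico i (2 * i), er f A u V d₁ (Real.exp (i' : ℝ)) x :=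
    Finset.single_le_sum (f := fun i' : ℕ => er f A u V d₁ (Real.exp (i' : ℝ)) x)
      (fun i' _ => S.er_nn (Real.exp_pos _) x) (Finset.mem_Ico.2 ⟨le_rfl, by omega⟩)
  rw [Real.norm_eq_abs, abs_of_nonneg (S.er_nn (Real.exp_pos _) x)]
  exact h2.trans h1

theorem sum_int (hfin : C2I ν f u χ ≠ ⊤) {C : ℝ}
    (hC : ∀ ρ : ℝ, 1 ≤ ρ → Integrable (vv A u χ V ρ) ν ∧ ∫ x, vv A u χ V ρ x ∂ν ≤ C * ρ ^ 2)
    {j : ℕ} (hj : 1 ≤ j) {l : ℝ} (hl : 0 < l) :
    ∑ i ∈ Finset.Ico j (2 * j), ∫ x, er f A u V d₁ (Real.exp (i : ℝ)) x ∂ν ≤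
      sc * Real.exp (-(j : ℝ)) * (C * (2 * j) ^ 2 + ∫ x, χ x * c2d f u x ∂ν) +
      MM A / 2 * (l * (C * (2 * j) ^ 2) +
        (∫ x, tt f A u χ (Real.exp (j : ℝ) / 2) x ∂ν) / l) := by
  have hsc := sc_pos
  have hM := MM_nn S.hE.pos
  have h2j : (1 : ℝ) ≤ ((2 * j : ℕ) : ℝ) := by
    have : (1 : ℝ) ≤ j := by exact_mod_cast hj
    push_cast
    linarith
  obtain ⟨i1, e1⟩ := hC _ h2j
  have i2 := S.int_c hfin
  have i3 := S.int_tt hfin (Real.exp (j : ℝ) / 2)
  have j1 := (i1.add i2).const_mul (sc * Real.exp (-(j : ℝ)))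
  have j2 := ((i1.const_mul l).add (i3.div_const l)).const_mul (MM A / 2)
  rw [← integral_finsetSum _ fun i hi => S.int_er hfin (hj.trans (Finset.mem_Ico.1 hi).1)]
  calc ∫ x, ∑ i ∈ Finset.Ico j (2 * j), er f A u V d₁ (Real.exp (i : ℝ)) x ∂ν ≤
      ∫ x, (sc * Real.exp (-(j : ℝ)) * (vv A u χ V ((2 * j : ℕ) : ℝ) x + χ x * c2d f u x) +
      MM A / 2 * (l * vv A u χ V ((2 * j : ℕ) : ℝ) x +
        tt f A u χ (Real.exp (j : ℝ) / 2) x / l)) ∂ν := by
        refine integral_mono_ae (integrable_finsetSum _ fun i hi =>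
          S.int_er hfin (hj.trans (Finset.mem_Ico.1 hi).1)) (j1.add j2)
          (ae_lv S.hν fun x hx => S.sum_er j hl hx)
    _ = sc * Real.exp (-(j : ℝ)) * (∫ x, vv A u χ V ((2 * j : ℕ) : ℝ) x ∂ν +
          ∫ x, χ x * c2d f u x ∂ν) +
        MM A / 2 * (l * ∫ x, vv A u χ V ((2 * j : ℕ) : ℝ) x ∂ν +
        (∫ x, tt f A u χ (Real.exp (j : ℝ) / 2) x ∂ν) / l) := by
        have a1 : ∫ x, (sc * Real.exp (-(j : ℝ)) *
            (vv A u χ V ((2 * j : ℕ) : ℝ) x + χ x * c2d f u x)) ∂ν =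
            sc * Real.exp (-(j : ℝ)) * (∫ x, vv A u χ V ((2 * j : ℕ) : ℝ) x ∂ν +
              ∫ x, χ x * c2d f u x ∂ν) := by
          rw [integral_const_mul, integral_add i1 i2]
        have a2 : ∫ x, (MM A / 2 * (l * vv A u χ V ((2 * j : ℕ) : ℝ) x +
            tt f A u χ (Real.exp (j : ℝ) / 2) x / l)) ∂ν =
            MM A / 2 * (l * ∫ x, vv A u χ V ((2 * j : ℕ) : ℝ) x ∂ν +
            (∫ x, tt f A u χ (Real.exp (j : ℝ) / 2) x ∂ν) / l) := by
          rw [integral_const_mul, integral_add (i1.const_mul l) (i3.div_const l),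
            integral_const_mul, integral_div]
        rw [← a1, ← a2]
        exact integral_add j1 j2
    _ ≤ _ := by
        have e2 : C * ((2 * j : ℕ) : ℝ) ^ 2 = C * (2 * j) ^ 2 := by push_cast; ring
        rw [e2] at e1
        gcongr

/-- **the error is small at some scales** -/
theorem exists_small (hfin : C2I ν f u χ ≠ ⊤) {ε : ℝ} (hε : 0 < ε) (N : ℕ) :
    ∃ i : ℕ, N ≤ i ∧ 1 ≤ i ∧ ∫ x, er f A u V d₁ (Real.exp (i : ℝ)) x ∂ν ≤ ε := by
  obtain ⟨C, hC0, hC⟩ := S.exists_C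
  have hsc := sc_pos
  have hM := MM_nn S.hE.pos
  have hc0 : 0 ≤ ∫ x, χ x * c2d f u x ∂ν :=
    integral_nonneg_of_ae (ae_lv S.hν fun x hx => mul_nonneg (S.hχ.nn x) (c_nn S.hf S.hK hx))
  set C2 := ∫ x, χ x * c2d f u x ∂ν with hC2
  set δ := ε / (8 * (MM A * C + 1)) with hδ
  have hδ0 : 0 < δ := by positivity
  have hδ1 : 2 * (MM A * C) * δ ≤ ε / 4 := by
    rw [hδ, mul_div_assoc']
    rw [div_le_iff₀ (by positivity)]
    nlinarith [mul_nonneg hM hC0]
  have t1 : Tendsto (fun j : ℕ => MM A / (2 * δ) *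
      ∫ x, tt f A u χ (Real.exp (j : ℝ) / 2) x ∂ν) atTop (𝓝 0) := by
    have h1 : Tendsto (fun j : ℕ => Real.exp (j : ℝ) / 2) atTop atTop :=
      (Real.tendsto_exp_atTop.comp tendsto_natCast_atTop_atTop).atTop_div_const (by norm_num)
    have h2 := ((S.lim_tt hfin).comp h1).const_mul (MM A / (2 * δ))
    rw [mul_zero] at h2
    exact h2
  have t2 : Tendsto (fun j : ℕ => sc * Real.exp (-(j : ℝ)) * (C * (2 * j) ^ 2 + C2)) atTop
      (𝓝 0) := by
    have h1 := (Real.tendsto_pow_mul_exp_neg_atTop_nhds_zero 2).comp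
      (tendsto_natCast_atTop_atTop (R := ℝ))
    have h2 := (Real.tendsto_pow_mul_exp_neg_atTop_nhds_zero 0).comp
      (tendsto_natCast_atTop_atTop (R := ℝ))
    have h3 := (h1.const_mul (sc * C * 4)).add (h2.const_mul (sc * C2))
    rw [mul_zero, mul_zero, add_zero] at h3
    refine h3.congr fun j => ?_
    simp only [Function.comp]
    ring
  obtain ⟨j, h1, h2, h3⟩ := ((t1.eventually (gt_mem_nhds (by linarith : (0 : ℝ) < ε / 4))).and
    ((t2.eventually (gt_mem_nhds (by linarith : (0 : ℝ) < ε / 4))).and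
      (eventually_ge_atTop (max N 1)))).exists
  have hj1 : 1 ≤ j := (le_max_right _ _).trans h3
  have hjR : (1 : ℝ) ≤ j := by exact_mod_cast hj1
  have h4 := S.sum_int hfin hC hj1 (l := δ / j) (by positivity)
  have h5 : ∑ i ∈ Finset.Ico j (2 * j), ∫ x, er f A u V d₁ (Real.exp (i : ℝ)) x ∂ν ≤
      ∑ i ∈ Finset.Ico j (2 * j), ε := by
    rw [Finset.sum_const, Nat.card_Ico, nsmul_eq_mul]
    have e : ((2 * j - j : ℕ) : ℝ) = j := by
      have : 2 * j - j = j := by omega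
      rw [this]
    rw [e]
    refine h4.trans ?_
    have e2 : MM A / 2 * (δ / j * (C * (2 * j) ^ 2) +
        (∫ x, tt f A u χ (Real.exp (j : ℝ) / 2) x ∂ν) / (δ / j)) =
        (2 * (MM A * C) * δ + MM A / (2 * δ) * ∫ x, tt f A u χ (Real.exp (j : ℝ) / 2) x ∂ν) *
          j := by
      field_simp
    rw [e2]
    have e3 : (2 * (MM A * C) * δ + MM A / (2 * δ) *
        ∫ x, tt f A u χ (Real.exp (j : ℝ) / 2) x ∂ν) * j ≤ (ε / 4 + ε / 4) * j := by
      gcongr
    nlinarith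
  obtain ⟨i, hi, hi2⟩ := Finset.exists_le_of_sum_le
    (Finset.nonempty_Ico.2 (by omega : j < 2 * j)) h5
  have hji := (Finset.mem_Ico.1 hi).1
  exact ⟨i, ((le_max_left _ _).trans h3).trans hji, hj1.trans hji, hi2⟩

/-- **the inequality for the cone** -/
theorem ineq (hfin : C2I ν f u χ ≠ ⊤) :
    2 * (C2I ν f u χ).toReal - 2 * (VOL ν u χ).toReal ≤
      2 * (∫ x, oxd f u (fun _ => 0) g χ x ∂ν + (1 + 1 / k) * TOT ν f (lgh g h) χ) -
        (TOT ν f u χ - TOT ν f (lgh g h) χ / k ^ 2) := by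
  obtain ⟨C₀, hC0, hup⟩ := Upp_822.upperStmt
  have t1 := S.lim_L hfin
  have t2 := (S.lim_G.const_mul 2).sub S.lim_U
  have t3 := (t1.sub t2).comp (Real.tendsto_exp_atTop.comp
    (tendsto_natCast_atTop_atTop (R := ℝ)))
  rw [← sub_nonpos]
  refine le_of_forall_pos_le_add fun ε hε => ?_
  rw [zero_add]
  refine le_of_tendsto_of_frequently t3 (frequently_atTop.2 fun N => ?_)
  obtain ⟨i, h1, h2, h3⟩ := S.exists_small hfin (ε := ε / (C₀ + 1)) (by positivity) N
  refine ⟨i, h1, ?_⟩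
  simp only [Function.comp]
  set R := Real.exp (i : ℝ) with hR
  have hRp : 0 < R := Real.exp_pos _
  have ht := tst_tR (χ := χ) S.hE S.us S.hχ hRp
  have h4 := hup f r u (gl ζ H (HK u)) U ν (tR A u χ R) ((In d₁).indicator (qR A u R)) V S.hf S.hK
    S.mt S.hU S.hν ht (fun x => indicator_nonneg (fun y _ => qR_nonneg hRp S.hE.pos y) x)
    S.hT.V_nn (S.int_er hfin h2) (fun x hx => by
      by_cases hd : x ∈ In d₁
      · right
        intro θ O hP z hz hzx
        rw [indicator_of_mem hd]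
        refine ⟨fun v => ?_, cpr_gl S.ζ0 S.ζ1 (S.mtK.pos θ O hP z hz) (S.hT.V_nn _)
          (S.hT.cpr θ O hP z hz)⟩
        have e : (fun y => tR A u χ R (θ y)) =ᶠ[𝓝 z] fun y => cR A u R (θ y) := by
          filter_upwards [ev_pe (S.chi x hd) hP hz hzx] with y hy
          show χ (θ y) * _ = _
          rw [hy, one_mul]
        rw [KEl_835.lev_congr e]
        have h5 := lev_cR_pe S.hK S.hE hRp hP hz v
        rwa [hzx] at h5
      · left
        refine eqn_gl (S.out1 x ?_)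
        have h5 : d₁ ^ 2 ≤ nsq x := not_lt.1 hd
        exact lt_of_lt_of_le (pow_lt_pow_left₀ S.d2 S.d2p two_ne_zero) h5)
  have e1 : ∫ x, tR A u χ R x * (2 * c2h f (gl ζ H (HK u)) x - mxd f U U x) ∂ν =
      2 * ∫ x, tR A u χ R x * c2h f (gl ζ H (HK u)) x ∂ν -
        ∫ x, tR A u χ R x * mxd f U U x ∂ν := by
    have j1 := (S.sq_glued _ ht).1
    have j2 : Integrable (fun x => tR A u χ R x * mxd f U U x) ν :=
      (stk3 S.hf S.hν S.hU.sm S.hU.sm ht.sm (cs_of_tst ht)).2.1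
    rw [← integral_const_mul, ← integral_sub (j1.const_mul 2) j2]
    refine integral_congr_ae (Eventually.of_forall fun x => ?_)
    show _ = _
    ring
  rw [e1] at h4
  have h6 : C₀ * ∫ x, er f A u V d₁ R x ∂ν ≤ ε := by
    calc C₀ * ∫ x, er f A u V d₁ R x ∂ν ≤ C₀ * (ε / (C₀ + 1)) := by gcongr
      _ ≤ ε := by
        rw [mul_div_assoc', div_le_iff₀ (by positivity)]
        nlinarith
  have h7 : ∫ x, (In d₁).indicator (qR A u R) x * V x * Real.sqrt (c2d f u x * Real.exp (u x)) ∂ν =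
      ∫ x, er f A u V d₁ R x ∂ν := rfl
  rw [h7] at h4
  linarith

end Sit

end Crest.Agent.R257.UpA_952
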