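import Crest.Agent.R257.UpK1_938
import Crest.Agent.R257.CNS_939
import Crest.Agent.R257.Up5_938

/-!
# R257 (S0395), UPStmt (helper938), part 2: preliminaries

* `inf_fibre`    : `{G, H} = 0` on an open set ⟹ some fibre of `(G, H)` is infinite
* `isolated`     : `ColFin G` ⟹ the common zero is isolated
* `IsNu.mono`, `PE.mono`
-/

set_option autoImplicit false
set_option linter.unusedSectionVars false

open Set Filter Topology Complex MeasureTheory
open scoped ContDiff Matrix ComplexConjugate ENNReal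

namespace Crest.Agent.R257.UpK_938

open Crest.Agent.R275.Geo Crest.Agent.R275.Core144 Crest.Agent.R275.EDR890
open Crest.Agent.R275.Pai323 Crest.Agent.R275.C1d194
open Crest.Agent.R273.Defs_333 Crest.Agent.R273.Vm_333
open Crest.Agent.R257.Defs_219 Crest.Agent.R257.KED_952 Crest.Agent.R257.V1Defs_822
open Crest.Agent.R257.PN_835 (nsq)
open Crest.Agent.R257.Aff_835 (eta2a)
open Crest.Agent.R257.Jac_39 (jc ee)

open Crest.Agent.R257.Atl_941 (exists_invFun')

noncomputable section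

/-! ### infinite fibres -/

theorem v_eq (v : Cn 2) : v = v 0 • ee 0 + v 1 • ee 1 := by
  ext k
  fin_cases k <;> simp [ee]

theorem ker_jc {G H : Cn 2 → ℂ} {z : Cn 2} (hG : fderiv ℂ G z ≠ 0) (hJ : jc G H z = 0) {v : Cn 2}
    (hv : fderiv ℂ G z v = 0) : fderiv ℂ H z v = 0 := by
  have h1 : fderiv ℂ G z v = v 0 * fderiv ℂ G z (ee 0) + v 1 * fderiv ℂ G z (ee 1) := by
    conv_lhs => rw [v_eq v, map_add, map_smul, map_smul, smul_eq_mul, smul_eq_mul]
  have h2 : fderiv ℂ H z v = v 0 * fderiv ℂ H z (ee 0) + v 1 * fderiv ℂ H z (ee 1) := by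
    conv_lhs => rw [v_eq v, map_add, map_smul, map_smul, smul_eq_mul, smul_eq_mul]
  unfold jc at hJ
  rw [h1] at hv
  rw [h2]
  set a := fderiv ℂ G z (ee 0) with ha
  set b := fderiv ℂ G z (ee 1) with hb
  set c := fderiv ℂ H z (ee 0) with hc
  set d := fderiv ℂ H z (ee 1) with hd
  by_cases h3 : a = 0
  · have h4 : b ≠ 0 := by
      intro h4
      apply hG
      ext w
      rw [v_eq w, map_add, map_smul, map_smul, ← ha, ← hb, h3, h4]
      simp
    rw [h3] at hv hJ
    have h5 : v 1 = 0 := by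
      have : v 1 * b = 0 := by linear_combination hv
      exact (mul_eq_zero.1 this).resolve_right h4
    have h6 : c = 0 := by
      have : b * c = 0 := by linear_combination -hJ
      exact (mul_eq_zero.1 this).resolve_left h4
    rw [h5, h6]
    ring
  · have h4 : a * (v 0 * c + v 1 * d) = 0 := by linear_combination c * hv + v 1 * hJ
    exact (mul_eq_zero.1 h4).resolve_left h3

/-- at a point where `dG ≠ 0` -/
theorem inf_fibre_aux {G H : Cn 2 → ℂ} {U : Set (Cn 2)} (hU : IsOpen U)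
    (hG : DifferentiableOn ℂ G U) (hH : DifferentiableOn ℂ H U) (hJ : ∀ z ∈ U, jc G H z = 0)
    {p : Cn 2} (hp : p ∈ U) (hd : fderiv ℂ G p ≠ 0) :
    {z ∈ U | G z = G p ∧ H z = H p}.Infinite := by
  -- the direction
  obtain ⟨j, hj⟩ : ∃ j : Fin 2, fderiv ℂ G p (ee j) ≠ 0 := by
    by_contra hcon
    push Not at hcon
    apply hd
    ext w
    rw [v_eq w, map_add, map_smul, map_smul, hcon 0, hcon 1]
    simp
  set l : Fin 2 := 1 - j with hl
  have hlj : l ≠ j := by
    rw [hl]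
    fin_cases j <;> decide
  have hjl : ∀ k : Fin 2, k = j ∨ k = l := by
    rw [hl]
    intro k
    fin_cases j <;> fin_cases k <;> decide
  -- the coordinates
  set Φ : Cn 2 → Cn 2 := fun z => WithLp.toLp 2 (fun k => if k = j then G z else z l) with hΦ
  have hΦj : ∀ z, Φ z j = G z := fun z => by simp [hΦ]
  have hΦl : ∀ z, Φ z l = z l := fun z => by simp [hΦ, hlj]
  have hΦd : DifferentiableOn ℂ Φ U := by
    rw [differentiableOn_euclidean]
    intro k
    rcases hjl k with rfl | rfl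
    · simp only [hΦj]
      exact hG
    · simp only [hΦl]
      exact (EuclideanSpace.proj l : Cn 2 →L[ℂ] ℂ).differentiable.differentiableOn
  have hcomp : ∀ z ∈ U, ∀ v : Cn 2, (fderiv ℂ Φ z v) j = fderiv ℂ G z v ∧
      (fderiv ℂ Φ z v) l = v l := by
    intro z hz v
    have h1 := (hΦd.differentiableAt (hU.mem_nhds hz)).hasFDerivAt
    constructor
    · have h2 := (EuclideanSpace.proj j : Cn 2 →L[ℂ] ℂ).hasFDerivAt.comp z h1
      have h3 : HasFDerivAt G ((EuclideanSpace.proj j : Cn 2 →L[ℂ] ℂ).comp (fderiv ℂ Φ z)) z := by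
        refine h2.congr_of_eventuallyEq (Eventually.of_forall fun w => ?_)
        exact (hΦj w).symm
      rw [h3.fderiv]
      rfl
    · have h2 := (EuclideanSpace.proj l : Cn 2 →L[ℂ] ℂ).hasFDerivAt.comp z h1
      have h3 : HasFDerivAt (fun z : Cn 2 => z l)
          ((EuclideanSpace.proj l : Cn 2 →L[ℂ] ℂ).comp (fderiv ℂ Φ z)) z := by
        refine h2.congr_of_eventuallyEq (Eventually.of_forall fun w => ?_)
        exact (hΦl w).symm
      have h4 := h3.unique (EuclideanSpace.proj l : Cn 2 →L[ℂ] ℂ).hasFDerivAt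
      exact congrArg (fun L : Cn 2 →L[ℂ] ℂ => L v) h4
  have hinj : ∀ v, fderiv ℂ Φ p v = 0 → v = 0 := by
    intro v hv
    obtain ⟨h1, h2⟩ := hcomp p hp v
    rw [hv] at h1 h2
    have h3 : v l = 0 := h2.symm
    have h4 : v j = 0 := by
      have h5 : v = v j • ee j := by
        ext k
        rcases hjl k with rfl | rfl
        · simp [ee]
        · simp [ee, h3, hlj]
      rw [h5, map_smul, smul_eq_mul] at h1
      have h6 : v j * fderiv ℂ G p (ee j) = 0 := h1.symm
      exact (mul_eq_zero.1 h6).resolve_right hj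
    ext k
    rcases hjl k with rfl | rfl
    · exact h4
    · exact h3
  have hD : (fderiv ℂ Φ p).det ≠ 0 := by
    change LinearMap.det (fderiv ℂ Φ p : Cn 2 →ₗ[ℂ] Cn 2) ≠ 0
    intro h0
    have h1 := LinearMap.bot_lt_ker_of_det_eq_zero h0
    obtain ⟨v, hv, hv0⟩ := (Submodule.ne_bot_iff _).1 h1.ne'
    exact hv0 (hinj v hv)
  obtain ⟨R, hpR, hRU, hRΦ, hRd⟩ := exists_invFun' hU hΦd hp
    ((fderiv ℂ Φ p).toContinuousLinearEquivOfDetNeZero hD) (by
      rw [ContinuousLinearMap.coe_toContinuousLinearEquivOfDetNeZero]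
      exact (hΦd.differentiableAt (hU.mem_nhds hp)).hasFDerivAt)
  -- a ball in the target and where `dG ≠ 0`
  have hdc : ContinuousOn (fderiv ℂ G) U :=
    (Crest.Agent.R266.SCV.analyticOnNhd_of_differentiableOn hU hG).fderiv.continuousOn
  have hO : IsOpen (R.target ∩ R.symm ⁻¹' (U ∩ fderiv ℂ G ⁻¹' {0}ᶜ)) :=
    R.symm.isOpen_inter_preimage (hdc.isOpen_inter_preimage hU isOpen_compl_singleton)
  have hpO : R p ∈ R.target ∩ R.symm ⁻¹' (U ∩ fderiv ℂ G ⁻¹' {0}ᶜ) := by
    refine ⟨R.map_source hpR, ?_⟩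
    rw [mem_preimage, R.left_inv hpR]
    exact ⟨hp, hd⟩
  obtain ⟨ε, hε, hball⟩ := Metric.isOpen_iff.1 hO _ hpO
  set c : ℂ → Cn 2 := fun t => R.symm (R p + t • ee l) with hc
  have hin : ∀ t ∈ Metric.ball (0 : ℂ) ε, R p + t • ee l ∈ Metric.ball (R p) ε := by
    intro t ht
    rw [Metric.mem_ball, dist_eq_norm] at ht ⊢
    rw [add_sub_cancel_left, norm_smul]
    have : ‖(ee l : Cn 2)‖ = 1 := by simp [ee]
    rw [this, mul_one]
    simpa using ht
  have hcd : ∀ t ∈ Metric.ball (0 : ℂ) ε, ∃ c' : Cn 2, HasDerivAt c c' t ∧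
      fderiv ℂ Φ (c t) c' = ee l := by
    intro t ht
    have h1 := hball (hin t ht)
    have h2 : HasFDerivAt R.symm (fderiv ℂ R.symm (R p + t • ee l)) (R p + t • ee l) :=
      (hRd.differentiableAt (R.open_target.mem_nhds h1.1)).hasFDerivAt
    have h3 : HasDerivAt (fun t : ℂ => R p + t • ee l) (ee l : Cn 2) t := by
      have := ((hasDerivAt_id t).smul_const (ee l : Cn 2)).const_add (R p)
      simpa using this
    have h4 := h2.comp_hasDerivAt t h3
    refine ⟨_, h4, ?_⟩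
    have hct : c t ∈ U := h1.2.1
    have h5 := ((hΦd.differentiableAt (hU.mem_nhds hct)).hasFDerivAt).comp_hasDerivAt t h4
    have h6 : (fun t : ℂ => Φ (c t)) =ᶠ[𝓝 t] fun t => R p + t • ee l := by
      filter_upwards [Metric.isOpen_ball.mem_nhds ht] with s hs
      exact (congrFun hRΦ (c s)).symm.trans (R.right_inv (hball (hin s hs)).1)
    have h7 : HasDerivAt (fun t : ℂ => Φ (c t)) (ee l : Cn 2) t := h3.congr_of_eventuallyEq h6
    exact h5.unique h7
  have hGc : ∀ t ∈ Metric.ball (0 : ℂ) ε, G (c t) = G p := by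
    intro t ht
    have h1 := R.right_inv (hball (hin t ht)).1
    have h2 : Φ (c t) = Φ p + t • ee l := by
      rw [← congrFun hRΦ p]
      exact (congrFun hRΦ (c t)).symm.trans h1
    have h3 := congrArg (fun w : Cn 2 => w j) h2
    simp only [PiLp.add_apply, PiLp.smul_apply, hΦj] at h3
    rw [h3]
    simp [ee, hlj.symm]
  have hHc : ∀ t ∈ Metric.ball (0 : ℂ) ε, H (c t) = H p := by
    have h0 : ∀ t ∈ Metric.ball (0 : ℂ) ε, HasDerivAt (fun t => H (c t)) 0 t := by
      intro t ht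
      obtain ⟨c', h1, h2⟩ := hcd t ht
      have hct := (hball (hin t ht)).2
      have h3 := ((hH.differentiableAt (hU.mem_nhds hct.1)).hasFDerivAt).comp_hasDerivAt t h1
      have h4 : fderiv ℂ G (c t) c' = 0 := by
        rw [← (hcomp (c t) hct.1 c').1, h2]
        simp [ee, hlj.symm]
      rw [ker_jc hct.2 (hJ (c t) hct.1) h4] at h3
      exact h3
    intro t ht
    have h1 : H (c t) = H (c 0) := by
      refine Metric.isOpen_ball.is_const_of_deriv_eq_zero
        (convex_ball (0 : ℂ) ε).isPreconnected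
        (f := fun t => H (c t)) (fun t ht => (h0 t ht).differentiableAt.differentiableWithinAt)
        (fun t ht => (h0 t ht).deriv) ht (Metric.mem_ball_self hε)
    have h2 : c 0 = p := by
      simp only [hc, zero_smul, add_zero]
      exact R.left_inv hpR
    rw [h1, h2]
  -- infinitely many points
  have hinf : (c '' Metric.ball (0 : ℂ) ε).Infinite := by
    refine (infinite_of_mem_nhds (0 : ℂ) (Metric.ball_mem_nhds 0 hε)).image ?_
    intro t ht t' ht' htt
    have h1 := R.symm.injOn (hball (hin t ht)).1 (hball (hin t' ht')).1 htt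
    have h2 := congrArg (fun w : Cn 2 => w l) (add_left_cancel h1)
    simpa [ee] using h2
  refine hinf.mono ?_
  rintro _ ⟨t, ht, rfl⟩
  exact ⟨(hball (hin t ht)).2.1, hGc t ht, hHc t ht⟩

theorem jc_swap (G H : Cn 2 → ℂ) (z : Cn 2) : jc H G z = - jc G H z := by
  unfold jc
  ring

theorem inf_fibre {G H : Cn 2 → ℂ} {U : Set (Cn 2)} (hU : IsOpen U) (hne : U.Nonempty)
    (hG : DifferentiableOn ℂ G U) (hH : DifferentiableOn ℂ H U) (hJ : ∀ z ∈ U, jc G H z = 0) :
    ∃ p ∈ U, {z ∈ U | G z = G p ∧ H z = H p}.Infinite := by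
  by_cases h1 : ∃ p ∈ U, fderiv ℂ G p ≠ 0
  · obtain ⟨p, hp, hd⟩ := h1
    exact ⟨p, hp, inf_fibre_aux hU hG hH hJ hp hd⟩
  by_cases h2 : ∃ p ∈ U, fderiv ℂ H p ≠ 0
  · obtain ⟨p, hp, hd⟩ := h2
    refine ⟨p, hp, ?_⟩
    have := inf_fibre_aux hU hH hG (fun z hz => by rw [jc_swap, hJ z hz, neg_zero]) hp hd
    refine this.mono ?_
    rintro z ⟨hz, h3, h4⟩
    exact ⟨hz, h4, h3⟩
  push Not at h1 h2
  obtain ⟨p, hp⟩ := hne
  obtain ⟨ε, hε, hball⟩ := Metric.isOpen_iff.1 hU p hp
  refine ⟨p, hp, ?_⟩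
  refine (infinite_of_mem_nhds p (Metric.ball_mem_nhds p hε)).mono fun z hz => ⟨hball hz, ?_, ?_⟩
  · exact Metric.isOpen_ball.is_const_of_fderiv_eq_zero (𝕜 := ℂ)
      (convex_ball p ε).isPreconnected (hG.mono hball)
      (fun w hw => h1 w (hball hw)) hz (Metric.mem_ball_self hε)
  · exact Metric.isOpen_ball.is_const_of_fderiv_eq_zero (𝕜 := ℂ)
      (convex_ball p ε).isPreconnected (hH.mono hball)
      (fun w hw => h2 w (hball hw)) hz (Metric.mem_ball_self hε)

/-! ### isolated zeros -/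

theorem isolated {n m : ℕ} {G : Fin m → (Fin n → ℂ) → ℂ} (hG : ∀ j, AnalyticAt ℂ (G j) 0)
    (h : ColFin G) : ∀ᶠ x in 𝓝 (0 : Fin n → ℂ), (∀ j, G j x = 0) → x = 0 := by
  have hGG : ∀ j, AnalyticAt ℂ (fun p : (Fin n → ℂ) × ℂ => G j p.1) 0 := fun j =>
    AnalyticAt.fun_comp (g := G j) (f := Prod.fst) (hG j) analyticAt_fst
  have h1 := UI939.cn (fun j (p : (Fin n → ℂ) × ℂ) => G j p.1) hGG (col G)
    (Eventually.of_forall fun t => ⟨(UI939.colFin_iff hG).1 h, (UI939.col_eq hG).symm⟩)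
  have h2 : Tendsto (fun x : Fin n → ℂ => ((x, 0) : (Fin n → ℂ) × ℂ)) (𝓝 0) (𝓝 0) :=
    (continuous_id.prodMk continuous_const).tendsto' _ _ rfl
  exact h2.eventually h1

/-! ### smaller radius -/

theorem PE.mono {f : E3 → ℂ} {s : ℂ} {r r' : ℝ} {θ : Cn 2 → E3} {O : Set (Cn 2)}
    (h : PE f s r' θ O) (h0 : 0 < r') (h1 : r' ≤ r) : PE f s r θ O :=
  ⟨h.par, h.ne, fun z hz => lt_of_lt_of_le (h.lt z hz) (pow_le_pow_left₀ h0.le h1 2)⟩

theorem IsNu.mono {f : E3 → ℂ} {s : ℂ} {r r' : ℝ} {ν : Measure E3} (h : IsNu f s r ν)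
    (h0 : 0 < r') (h1 : r' ≤ r) : IsNu f s r' (ν.restrict {x | nsq x < r' ^ 2}) where
  null := by
    have hm : MeasurableSet {x : E3 | nsq x < r' ^ 2} :=
      (isOpen_lt nsq_cont continuous_const).measurableSet
    rw [Measure.restrict_apply' hm]
    refine measure_mono_null ?_ h.null
    rintro x ⟨hx1, hx2⟩ ⟨h2, h3, h4⟩
    exact hx1 ⟨h2, h3, hx2⟩
  par θ O hθ hinj Φ hΦ := by
    have hm : MeasurableSet {x : E3 | nsq x < r' ^ 2} :=
      (isOpen_lt nsq_cont continuous_const).measurableSet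
    have h2 : θ '' O ∩ {x : E3 | nsq x < r' ^ 2} = θ '' O := by
      refine inter_eq_left.2 ?_
      rintro _ ⟨z, hz, rfl⟩
      exact hθ.lt z hz
    rw [Measure.restrict_restrict' hm, h2]
    exact h.par θ O (PE.mono hθ h0 h1) hinj Φ hΦ

end

end Crest.Agent.R257.UpK_938
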