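import Crest.Agent.R257.BCUB_532
import Crest.Agent.R257.BrI_822
import Crest.Agent.R257.Ptw3_617

/-!
# R257 (S0395), part (GB): `UpperStmt` of KUP_952 (532, 617, 822)
-/

namespace Crest.Agent.R257.Upper_532

/-- **the signed Bott-Chern inequality** -/
theorem upperStmt : Crest.Agent.R257.KUP_952.UpperStmt :=
  Crest.Agent.R257.BrI_822.upperStmt_of Crest.Agent.R257.BCUB_532.lgStmt
    Crest.Agent.R257.Ptw_617.ptwStmt

end Crest.Agent.R257.Upper_532
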