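import Crest.Agent.R257.LossD_309
import Crest.Agent.R257.LossA_625
import Crest.Agent.R257.OutA_309

/-!
# R257 (S0395), leaf V0Stmt, part a (helper417): the bundle `(Ω¹ ⊗ L_φ, e^{-φ} ω⁻¹)` on a level

* `bv`      : metric `HO u φ θ` and section `dV h θ` in a parametrisation (`BV` of OutB_309)
* `chg`     : change of parametrisation (`Chg` of OutB_309)
* `oxd_eq`  : `oxd` in a parametrisation
* `c2_HO`   : `c2 (HO u 0 θ) = c2 ((cH (u ∘ θ))ᵀ)`
-/

set_option autoImplicit false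
set_option linter.unusedSectionVars false

open Set Filter Topology Complex MeasureTheory
open scoped ContDiff Matrix ComplexConjugate ComplexOrder ENNReal

namespace Crest.Agent.R257.V0a_417

open Crest.Agent.R275.Geo Crest.Agent.R275.EDR890
open Crest.Agent.R273.Fock_243 Crest.Agent.R273.Calc_243
open Crest.Agent.R273.Bkn_243 Crest.Agent.R273.Pos_243 Crest.Agent.R273.BochA_101
open Crest.Agent.R273.BochB_101
open Crest.Agent.R273.BochC_101 Crest.Agent.R273.BochD_101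
open Crest.Agent.R273.Hess_333 Crest.Agent.R273.HessB_333
open Crest.Agent.R273.Defs_333 (lev)
open Crest.Agent.R273.YauDefs_635 (cH)
open Crest.Agent.R273.YauMax_635 (cH_eq_hess)
open Crest.Agent.R257.C2F1_625 Crest.Agent.R257.C2F2_625 Crest.Agent.R257.C2F3_625
open Crest.Agent.R257.C2F4_335 Crest.Agent.R257.C2F5_335
open Crest.Agent.R257.Defs_219
open Crest.Agent.R257.PN_835 (nsq)
open Crest.Agent.R257.Aff_835 (eta2a)
open Crest.Agent.R257.KED_952 Crest.Agent.R257.KEG_952 Crest.Agent.R257.Ked1_397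
open Crest.Agent.R257.Ked2_397
open Crest.Agent.R257.V1Defs_822 (SmL LvlOK)
open Crest.Agent.R257.V1Pe_822 (smAt)
open Crest.Agent.R257.OutB_309 Crest.Agent.R257.LossD_309

noncomputable section

variable {f : E3 → ℂ} {s : ℂ} {r : ℝ} {u φ : E3 → ℝ} {h : E3 → ℂ} {θ : Cn 2 → E3}
  {O : Set (Cn 2)} {z : Cn 2}

theorem posDef_cH (hK : KEon f s r u) (hθ : PE f s r θ O) (hz : z ∈ O) :
    (cH (fun z => u (θ z)) z).PosDef := by
  rw [cH_eq_hess (smAt (a := u) hK.sm hθ hz)]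
  exact posDef_hess (smAt (a := u) hK.sm hθ hz) (hK.pos θ O hθ z hz)

theorem smM_cH {a : E3 → ℝ} (ha : SmL f s r a) (hθ : PE f s r θ O) (hz : z ∈ O) :
    SmM z (fun y => cH (fun z => a (θ z)) y) := fun p q =>
  (Crest.Agent.R273.YauLoc_635.contDiffOn_cH hθ.par.isOpen (ha θ O hθ) p q).contDiffAt
    (hθ.par.isOpen.mem_nhds hz)

theorem posDef_HO (hK : KEon f s r u) (hθ : PE f s r θ O) (hz : z ∈ O) :
    (HO u φ θ z).PosDef :=
  (posDef_cH hK hθ hz).inv.smul (Complex.zero_lt_real.2 (Real.exp_pos _))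

theorem smM_HO (hK : KEon f s r u) (hφ : SmL f s r φ) (hθ : PE f s r θ O) (hz : z ∈ O) :
    SmM z (HO u φ θ) := by
  intro p q
  have h1 : SmM z (fun y => (cH (fun z => u (θ z)) y)⁻¹) :=
    SmM.inv (smM_cH (a := u) hK.sm hθ hz) (posDef_cH hK hθ hz).det_pos.ne'
  have h2 : Sm z (fun y => ((Real.exp (-φ (θ y)) : ℝ) : ℂ)) :=
    contDiffAt_cu (smAt hφ hθ hz).neg.exp
  exact h2.mul (h1 p q)

/-- the section is holomorphic -/
theorem an_hθ (hh : ∀ x, nsq x < r ^ 2 → AnalyticAt ℂ h x)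
    (hθ : PE f s r θ O) (hz : z ∈ O) : AnalyticAt ℂ (fun z => h (θ z)) z :=
  (hh _ (hθ.lt z hz)).comp (GradE_537.anal_th hθ.par hz)

theorem an_dV (hh : ∀ x, nsq x < r ^ 2 → AnalyticAt ℂ h x)
    (hθ : PE f s r θ O) (hz : z ∈ O) (i : Fin 2) : AnalyticAt ℂ (fun w => dV h θ w i) z := by
  have h1 := (an_hθ hh hθ hz).fderiv
  exact ((ContinuousLinearMap.apply ℂ ℂ (EuclideanSpace.single i (1 : ℂ) : Cn 2)).analyticAt
    _).comp h1

theorem bv (hK : KEon f s r u) (hφ : SmL f s r φ)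
    (hh : ∀ x, nsq x < r ^ 2 → AnalyticAt ℂ h x) (hθ : PE f s r θ O) (hz : z ∈ O) :
    BV (HO u φ θ) (dV h θ) z where
  mH := by
    filter_upwards [hθ.par.isOpen.mem_nhds hz] with y hy
    exact smM_HO hK hφ hθ hy
  mP := by
    filter_upwards [hθ.par.isOpen.mem_nhds hz] with y hy
    exact posDef_HO hK hθ hy
  mV := fun i => by
    filter_upwards [hθ.par.isOpen.mem_nhds hz] with y hy
    exact (an_dV hh hθ hy i).differentiableAt

/-- `dV` under a change of parametrisation -/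
theorem dV_trans (hh : ∀ x, nsq x < r ^ 2 → AnalyticAt ℂ h x)
    (hθ : PE f s r θ O) {θ' : Cn 2 → E3} {z' : Cn 2} {T : Cn 2 → Cn 2}
    (hT : DifferentiableAt ℂ T z') (hTe : ∀ᶠ w in 𝓝 z', T w ∈ O ∧ θ' w = θ (T w)) :
    dV h θ' z' = (Jac T z')ᵀ *ᵥ dV h θ (T z') := by
  have h0 : T z' ∈ O := hTe.self_of_nhds.1
  have h1 : DifferentiableAt ℂ (fun z => h (θ z)) (T z') := (an_hθ hh hθ h0).differentiableAt
  have h2 : HasFDerivAt (fun w => h (θ' w))
      ((fderiv ℂ (fun z => h (θ z)) (T z')).comp (fderiv ℂ T z')) z' := by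
    have h3 := HasFDerivAt.comp z' (g := fun z => h (θ z)) h1.hasFDerivAt hT.hasFDerivAt
    refine h3.congr_of_eventuallyEq ?_
    filter_upwards [hTe] with w hw
    show h (θ' w) = h (θ (T w))
    rw [hw.2]
  funext i
  show fderiv ℂ (fun z => h (θ' z)) z' (EuclideanSpace.single i 1) = _
  rw [h2.fderiv, ContinuousLinearMap.comp_apply]
  have hsum : fderiv ℂ T z' (EuclideanSpace.single i 1) =
      ∑ b, Jac T z' b i • (EuclideanSpace.single b (1 : ℂ) : Cn 2) := by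
    ext c
    fin_cases c <;> simp [Jac]
  rw [hsum, map_sum, Matrix.mulVec, dotProduct]
  refine Finset.sum_congr rfl fun b _ => ?_
  rw [map_smul, smul_eq_mul]
  rfl

/-- holomorphic inverse of the transposed Jacobian -/
theorem holM_inv {T : Cn 2 → Cn 2} {z' : Cn 2} (hT : ∀ᶠ w in 𝓝 z', DifferentiableAt ℂ T w)
    (hdet : (Jac T z').det ≠ 0) : HolM z' (fun w => ((Jac T w)ᵀ)⁻¹) := by
  have hJ : ∀ a c : Fin 2, ∀ᶠ y in 𝓝 z', DifferentiableAt ℂ (fun w => Jac T w a c) y :=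
    fun a c => J_hol hT a c
  have hd : ∀ᶠ y in 𝓝 z', DifferentiableAt ℂ (fun w => (Jac T w).det) y := by
    have e : (fun w => (Jac T w).det) =
        fun w => Jac T w 0 0 * Jac T w 1 1 - Jac T w 0 1 * Jac T w 1 0 :=
      funext fun w => Matrix.det_fin_two _
    rw [e]
    filter_upwards [hJ 0 0, hJ 0 1, hJ 1 0, hJ 1 1] with y a0 a1 a2 a3
    exact (a0.fun_mul a3).fun_sub (a1.fun_mul a2)
  have hne : ∀ᶠ y in 𝓝 z', (Jac T y).det ≠ 0 := hd.self_of_nhds.continuousAt.eventually_ne hdet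
  have hinv : ∀ w, ((Jac T w)ᵀ)⁻¹ = ((Jac T w).det)⁻¹ •
      !![Jac T w 1 1, -Jac T w 1 0; -Jac T w 0 1, Jac T w 0 0] := by
    intro w
    rw [Matrix.inv_def, Ring.inverse_eq_inv', Matrix.det_transpose, Matrix.adjugate_fin_two]
    rfl
  intro a b
  filter_upwards [hJ 0 0, hJ 0 1, hJ 1 0, hJ 1 1, hd, hne] with y a0 a1 a2 a3 a4 a5
  have e : (fun w => ((Jac T w)ᵀ)⁻¹ a b) = fun w => ((Jac T w).det)⁻¹ *
      (!![Jac T w 1 1, -Jac T w 1 0; -Jac T w 0 1, Jac T w 0 0] : Matrix (Fin 2) (Fin 2) ℂ) a b :=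
    funext fun w => by rw [hinv]; rfl
  rw [e]
  refine (a4.fun_inv a5).fun_mul ?_
  fin_cases a <;> fin_cases b
  · exact a3
  · exact a2.fun_neg
  · exact a1.fun_neg
  · exact a0

theorem chg (hK : KEon f s r u) (hh : ∀ x, nsq x < r ^ 2 → AnalyticAt ℂ h x)
    (hθ : PE f s r θ O) {θ' : Cn 2 → E3} {z' : Cn 2} {T : Cn 2 → Cn 2}
    (hT : ∀ᶠ w in 𝓝 z', DifferentiableAt ℂ T w)
    (hTe : ∀ᶠ w in 𝓝 z', T w ∈ O ∧ θ' w = θ (T w)) (hdet : (Jac T z').det ≠ 0) :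
    Chg (HO u φ θ') (dV h θ') (HO u φ θ) (dV h θ) T (fun w => ((Jac T w)ᵀ)⁻¹) z' where
  T_hol := hT
  F_hol := holM_inv hT hdet
  F_ne := by
    rw [Matrix.det_nonsing_inv, Ring.inverse_eq_inv', Matrix.det_transpose]
    exact inv_ne_zero hdet
  eH := by
    filter_upwards [hTe.eventually_nhds, hT.eventually_nhds] with w h1 h2
    obtain ⟨a1, a2⟩ := hess_trans h2 h1 (a := u) (smAt (a := u) hK.sm hθ h1.self_of_nhds.1)
    have e1 : cH (fun z => u (θ' z)) w =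
        (Jac T w)ᵀ * cH (fun z => u (θ z)) (T w) * (Jac T w).map conj := by
      rw [cH_eq_hess a1, a2, cH_eq_hess (smAt (a := u) hK.sm hθ h1.self_of_nhds.1)]
      rfl
    have e2 : ((Jac T w).map conj)⁻¹ = (((Jac T w)ᵀ)⁻¹)ᴴ := by
      rw [Matrix.conjTranspose_nonsing_inv]
      rfl
    show ((Real.exp (-φ (θ' w)) : ℝ) : ℂ) • (cH (fun z => u (θ' z)) w)⁻¹ =
      (((Jac T w)ᵀ)⁻¹)ᴴ * (((Real.exp (-φ (θ (T w))) : ℝ) : ℂ) •
        (cH (fun z => u (θ z)) (T w))⁻¹) * ((Jac T w)ᵀ)⁻¹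
    rw [e1, Matrix.mul_inv_rev, Matrix.mul_inv_rev, e2, h1.self_of_nhds.2, Matrix.mul_smul,
      Matrix.smul_mul, Matrix.mul_assoc]
  eV := by
    have hJ : ∀ a c : Fin 2, ∀ᶠ y in 𝓝 z', DifferentiableAt ℂ (fun w => Jac T w a c) y :=
      fun a c => J_hol hT a c
    have hne : ∀ᶠ y in 𝓝 z', (Jac T y).det ≠ 0 := by
      have e : (fun w => (Jac T w).det) =
          fun w => Jac T w 0 0 * Jac T w 1 1 - Jac T w 0 1 * Jac T w 1 0 :=
        funext fun w => Matrix.det_fin_two _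
      have hd : ContinuousAt (fun w => (Jac T w).det) z' := by
        rw [e]
        exact ((hJ 0 0).self_of_nhds.continuousAt.mul (hJ 1 1).self_of_nhds.continuousAt).sub
          ((hJ 0 1).self_of_nhds.continuousAt.mul (hJ 1 0).self_of_nhds.continuousAt)
      exact hd.eventually_ne hdet
    filter_upwards [hTe.eventually_nhds, hT, hne] with w h1 h2 h3
    show dV h θ (T w) = ((Jac T w)ᵀ)⁻¹ *ᵥ dV h θ' w
    rw [dV_trans hh hθ h2 h1, Matrix.mulVec_mulVec, Matrix.nonsing_inv_mul, Matrix.one_mulVec]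
    rw [Matrix.det_transpose]
    exact isUnit_iff_ne_zero.2 h3

/-- the symplectic matrix -/
def JJ : Matrix (Fin 2) (Fin 2) ℂ := !![0, 1; -1, 0]

theorem inv_eq_JJ (G : Matrix (Fin 2) (Fin 2) ℂ) : G⁻¹ = JJᴴ * (G.det⁻¹ • Gᵀ) * JJ := by
  rw [Matrix.inv_def, Ring.inverse_eq_inv', Matrix.adjugate_fin_two]
  ext i j
  fin_cases i <;> fin_cases j <;>
    simp [JJ, Matrix.mul_apply, Fin.sum_univ_two, Matrix.conjTranspose_apply]

/-- the dual bundle has the same second Chern form -/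
theorem c2_HO (hK : KEon f s r u) (hθ : PE f s r θ O) (hz : z ∈ O) :
    c2 (HO u (fun _ => 0) θ) z = c2 (fun y => (cH (fun z => u (θ z)) y)ᵀ) z := by
  set K : Cn 2 → Matrix (Fin 2) (Fin 2) ℂ := fun y => (cH (fun z => u (θ z)) y)ᵀ with hKd
  have hKs : ∀ y ∈ O, SmM y K := fun y hy p q => smM_cH (a := u) hK.sm hθ hy q p
  have hKp : ∀ y ∈ O, (K y).PosDef := fun y hy => (posDef_cH hK hθ hy).transpose
  have eO : ∀ᶠ y in 𝓝 z, y ∈ O := hθ.par.isOpen.mem_nhds hz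
  set ψ : Cn 2 → ℝ := fun y => Real.log (K y).det.re with hψ
  have hd : ∀ y ∈ O, 0 < (K y).det.re := fun y hy => det_re_pos'' (hKp y hy)
  have hψs : ContDiffAt ℝ ∞ ψ z :=
    (Complex.reCLM.contDiff.contDiffAt.comp z (SmM.det (hKs z hz))).log (hd z hz).ne'
  have e : HO u (fun _ => 0) θ =ᶠ[𝓝 z] fun y =>
      (JJ)ᴴ * (((Real.exp (-ψ y) : ℝ) : ℂ) • K y) * JJ := by
    filter_upwards [eO] with y hy
    have h1 : (((K y).det.re : ℝ) : ℂ) = (K y).det := herm_det_im (hKp y hy).isHermitian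
    have h2 : ((Real.exp (-ψ y) : ℝ) : ℂ) = (cH (fun z => u (θ z)) y).det⁻¹ := by
      rw [Real.exp_neg, hψ]
      simp only
      rw [Real.exp_log (hd y hy), Complex.ofReal_inv, h1, hKd]
      simp only
      rw [Matrix.det_transpose]
    rw [h2]
    show ((Real.exp (-0) : ℝ) : ℂ) • (cH (fun z => u (θ z)) y)⁻¹ = _
    rw [neg_zero, Real.exp_zero, Complex.ofReal_one, one_smul, inv_eq_JJ]
  have hsm : ∀ᶠ y in 𝓝 z, SmM y fun y => ((Real.exp (-ψ y) : ℝ) : ℂ) • K y := by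
    filter_upwards [eO] with y hy p q
    have h1 : ContDiffAt ℝ ∞ ψ y :=
      (Complex.reCLM.contDiff.contDiffAt.comp y (SmM.det (hKs y hy))).log (hd y hy).ne'
    have h2 : Sm y (fun y => ((Real.exp (-ψ y) : ℝ) : ℂ)) := contDiffAt_cu h1.neg.exp
    exact h2.mul (hKs y hy p q)
  have hne : (((Real.exp (-ψ z) : ℝ) : ℂ) • K z).det ≠ 0 := by
    rw [Matrix.det_smul]
    exact mul_ne_zero (pow_ne_zero _ (Complex.ofReal_ne_zero.2 (Real.exp_pos _).ne'))
      (hKp z hz).det_pos.ne'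
  have h3 : c2 (fun y => (JJ)ᴴ * (((Real.exp (-ψ y) : ℝ) : ℂ) • K y) * JJ) z =
      c2 (fun y => ((Real.exp (-ψ y) : ℝ) : ℂ) • K y) z := by
    refine c2_frame (F := fun _ => JJ) hsm hne (fun S T => ?_) ?_
    · exact Eventually.of_forall fun y => differentiableAt_const _
    · simp [JJ]
  have h4 : hess ψ z = - Matrix.of (ric K z) := by
    ext a b
    have h5 := hess_neg_log_det (hKs z hz) (eO.mono fun y hy => (hKp y hy).isHermitian)
      (hd z hz) a b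
    rw [Matrix.neg_apply, Matrix.of_apply, ← h5, hess_neg hψs, Matrix.neg_apply, neg_neg]
  rw [c2_congr e, h3, c2_twist (hKs z hz) (hKp z hz).det_pos.ne' hψs, h4]
  simp only [pd_neg, neg_pd]
  ring

/-- **`oxd` in a parametrisation** -/
theorem oxd_eq (hf : LvlOK f s r) (hK : KEon f s r u) (hφ : SmL f s r φ)
    (hh : ∀ x, nsq x < r ^ 2 → AnalyticAt ℂ h x) (hθ : PE f s r θ O) (hz : z ∈ O)
    (h0 : dV h θ z ≠ 0) {c : E3 → ℝ} (hc : ContDiffAt ℝ ∞ (fun z => c (θ z)) z) :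
    oxd f u φ h c (θ z) * eta2a (n := 2) f θ z =
      (pd (cH (fun z => c (θ z)) z) (Gm (HO u φ θ) (dV h θ) z)).re := by
  refine dns_eq (D := fun θ z =>
    (pd (cH (fun z => c (θ z)) z) (Gm (HO u φ θ) (dV h θ) z)).re) hθ.par hz
    (hf.an _ (hθ.lt z hz)) (hf.sm _ (hθ.ne z hz) (hθ.lt z hz) (hθ.par.lvl z hz)) ?_
  intro θ' z' T hT hTz hTe hdet
  obtain ⟨a1, a2⟩ := hess_trans hT hTe (a := c) (by rw [hTz]; exact hc)
  have hb : BV (HO u φ θ) (dV h θ) (T z') := by rw [hTz]; exact bv hK hφ hh hθ hz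
  have e3 := (chg (φ := φ) hK hh hθ hT hTe hdet).gm_eq hb (by rw [hTz]; exact h0)
  show (pd (cH (fun z => c (θ' z)) z') (Gm (HO u φ θ') (dV h θ') z')).re = _
  rw [cH_eq_hess a1, a2, e3, pd_pbk, hTz, Complex.mul_conj, Complex.normSq_eq_norm_sq,
    Complex.re_ofReal_mul, cH_eq_hess hc]

end

end Crest.Agent.R257.V0a_417
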