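import Crest.Agent.R257.V0a_417

/-!
# R257 (S0395), leaf V0Stmt, part b (helper417): (P1)

* `oxd_int` : `∫ c c₂(ω) = ∫ ∂∂̄c ∧ Γ` for `c` with compact support on the punctured level
-/

set_option autoImplicit false
set_option linter.unusedSectionVars false

open Set Filter Topology Complex MeasureTheory
open scoped ContDiff Matrix ComplexConjugate ComplexOrder ENNReal

namespace Crest.Agent.R257.V0b_417

open Crest.Agent.R275.Geo Crest.Agent.R275.EDR890
open Crest.Agent.R273.Fock_243 Crest.Agent.R273.Calc_243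
open Crest.Agent.R273.Bkn_243 Crest.Agent.R273.Pos_243 Crest.Agent.R273.BochA_101
open Crest.Agent.R273.BochB_101
open Crest.Agent.R273.BochC_101 Crest.Agent.R273.BochD_101
open Crest.Agent.R273.Hess_333 Crest.Agent.R273.HessB_333
open Crest.Agent.R273.Defs_333 (lev)
open Crest.Agent.R273.YauDefs_635 (cH)
open Crest.Agent.R273.YauMax_635 (cH_eq_hess)
open Crest.Agent.R257.C2F1_625 Crest.Agent.R257.C2F2_625 Crest.Agent.R257.C2F3_625
open Crest.Agent.R257.C2F4_335 Crest.Agent.R257.C2F5_335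
open Crest.Agent.R257.Defs_219
open Crest.Agent.R257.PN_835 (nsq)
open Crest.Agent.R257.Aff_835 (eta2a)
open Crest.Agent.R257.KED_952 Crest.Agent.R257.KEG_952
open Crest.Agent.R257.V1Defs_822 (SmL LvlOK)
open Crest.Agent.R257.V1Pe_822 (smAt)
open Crest.Agent.R257.OutA_309 Crest.Agent.R257.OutB_309 Crest.Agent.R257.LossD_309
open Crest.Agent.R257.Idx1_761 (CS hs hs_cu)
open Crest.Agent.R257.LossA_625 (fx Lv Psd dns_cases fx_add fx_congr fx_const ev_pe)
open Crest.Agent.R257.V0a_417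

noncomputable section

/-- the identity on an open set without zeros -/
theorem loc0 {H : Cn 2 → Matrix (Fin 2) (Fin 2) ℂ} {V : Cn 2 → Fin 2 → ℂ} {U : Set (Cn 2)}
    (hb : ∀ z ∈ U, BV H V z ∧ V z ≠ 0) {κ : Cn 2 → ℂ} (hκ : CS U κ) :
    Integrable (fun z => κ z * c2 H z) ∧ Integrable (fun z => pd (hs κ z) (Gm H V z)) ∧
      ∫ z, κ z * c2 H z = ∫ z, pd (hs κ z) (Gm H V z) := by
  have hG : ∀ z ∈ U, SmM z (Gm H V) := fun z hz => (hb z hz).1.sm_Gm (hb z hz).2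
  have e1 : (fun z => κ z * c2 H z) = fun z => κ z * ddm (Gm H V) z := by
    funext z
    by_cases hz : z ∈ U
    · rw [(hb z hz).1.c2_ddm (hb z hz).2]
    · rw [hκ.zero_off hz, zero_mul, zero_mul]
  have j1 : ∀ (s t : ℂ) (c d i j : Fin 2),
      Integrable fun z => κ z * dS s c (dS t d (fun y => Gm H V y i j)) z :=
    fun s t c d i j => (hκ.mul (fun z hz => ((hG z hz i j).dS t d).dS s c)).integrable
  have j2 : ∀ (s t : ℂ) (c d i j : Fin 2), Integrable fun z => dS s c (dS t d κ) z * Gm H V z i j :=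
    fun s t c d i j => (((hκ.dS t d).dS s c).mul (fun z hz => hG z hz i j)).integrable
  rw [e1]
  refine ⟨?_, ?_, Idx1_761.parts_ddm hκ hG⟩
  · have := (((j1 (-I) I 0 0 1 1).add (j1 (-I) I 1 1 0 0)).sub (j1 (-I) I 0 1 1 0)).sub
      (j1 (-I) I 1 0 0 1)
    refine this.congr (Eventually.of_forall fun z => ?_)
    simp only [Pi.sub_apply, Pi.add_apply, ddm]
    ring
  · have := (((j2 (-I) I 0 0 1 1).add (j2 (-I) I 1 1 0 0)).sub (j2 (-I) I 0 1 1 0)).sub
      (j2 (-I) I 1 0 0 1)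
    refine this.congr (Eventually.of_forall fun z => ?_)
    simp only [Pi.sub_apply, Pi.add_apply, pd, hs, Matrix.of_apply]

variable {f : E3 → ℂ} {r : ℝ} {u : E3 → ℝ} {h : E3 → ℂ}

/-- the form `Γ` on the level -/
def SG (u : E3 → ℝ) (h : E3 → ℂ) : LossA_625.Frm := fun θ z => Gm (HO u (fun _ => 0) θ) (dV h θ) z

theorem oxd_eq_fx (f : E3 → ℂ) (u : E3 → ℝ) (h : E3 → ℂ) (c : E3 → ℝ) :
    oxd f u (fun _ => 0) h c = fx f (SG u h) c := rfl

theorem smL_zero : SmL f 0 r (fun _ => 0) := fun _ _ _ => contDiffOn_const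

theorem dV_ne (hN : NoZ f r h) {θ : Cn 2 → E3} {O : Set (Cn 2)} (hθ : PE f 0 r θ O) {z : Cn 2}
    (hz : z ∈ O) : dV h θ z ≠ 0 := by
  intro h0
  refine hN θ O hθ z hz (ContinuousLinearMap.ext fun v => ?_)
  have hsum : v = ∑ a, v a • (EuclideanSpace.single a (1 : ℂ) : Cn 2) := by
    ext b
    fin_cases b <;> simp
  rw [hsum, map_sum]
  simp only [map_smul]
  have h1 : ∀ a : Fin 2, fderiv ℂ (fun z => h (θ z)) z (EuclideanSpace.single a 1) = 0 :=
    fun a => congrFun h0 a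
  simp only [h1]
  simp

/-- the local statement -/
def PP1 (f : E3 → ℂ) (u : E3 → ℝ) (h : E3 → ℂ) (c : E3 → ℝ) (ν : Measure E3) (φ : E3 → ℝ) : Prop :=
  Integrable (fun x => (φ x * c x) * c2d f u x) ν ∧
  Integrable (oxd f u (fun _ => 0) h (fun x => φ x * c x)) ν ∧
  ∫ x, (φ x * c x) * c2d f u x ∂ν = ∫ x, oxd f u (fun _ => 0) h (fun x => φ x * c x) x ∂ν

theorem ae_lv {ν : Measure E3} (hν : IsNu f 0 r ν) : ∀ᵐ x ∂ν, x ∈ Lv f r := by
  rw [ae_iff]
  exact hν.null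

theorem smL_mul {a b : E3 → ℝ} (ha : ContDiff ℝ ∞ a) (hb : SmL f 0 r b) :
    SmL f 0 r (fun x => a x * b x) := fun θ O hθ => by
  have h1 : ContDiffOn ℝ ∞ θ O :=
    ((Crest.Agent.R266.SCV.contDiffOn_omega_of_differentiableOn hθ.par.isOpen
      hθ.par.hol).restrict_scalars ℝ).of_le le_top
  exact (ha.comp_contDiffOn h1).mul (hb θ O hθ)

theorem oxd_off (hf : LvlOK f 0 r) {a : E3 → ℝ} {x : E3} (hx : x ∈ Lv f r)
    (h0 : ∀ᶠ y in 𝓝 x, a y = 0) : oxd f u (fun _ => 0) h a x = 0 := by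
  rw [oxd_eq_fx]
  exact fx_const (c := 0) hf hx fun θ O hθ z hz hzx => ev_pe h0 hθ hz hzx

theorem oxd_add (hf : LvlOK f 0 r) {a b : E3 → ℝ} (ha : SmL f 0 r a) (hb : SmL f 0 r b) {x : E3}
    (hx : x ∈ Lv f r) : oxd f u (fun _ => 0) h (fun y => a y + b y) x =
      oxd f u (fun _ => 0) h a x + oxd f u (fun _ => 0) h b x := by
  rw [oxd_eq_fx, oxd_eq_fx, oxd_eq_fx]
  exact fx_add hf ha hb hx

theorem off_tsup {φ : E3 → ℝ} {c : E3 → ℝ} {x : E3} (hx : x ∉ tsupport φ) :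
    ∀ᶠ y in 𝓝 x, φ y * c y = 0 := by
  filter_upwards [notMem_tsupport_iff_eventuallyEq.1 hx] with y hy
  rw [hy]
  simp

theorem local_lv (hf : LvlOK f 0 r) (hK : KEon f 0 r u)
    (hh : ∀ x, nsq x < r ^ 2 → AnalyticAt ℂ h x) (hN : NoZ f r h) {ν : Measure E3}
    (hν : IsNu f 0 r ν) {c : E3 → ℝ} (hc : SmL f 0 r c) {p : E3} (hp : p ∈ Lv f r) :
    ∃ W : Set E3, IsOpen W ∧ p ∈ W ∧ ∀ φ : E3 → ℝ, ContDiff ℝ ∞ φ →
      HasCompactSupport φ → tsupport φ ⊆ W → PP1 f u h c ν φ := by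
  obtain ⟨θ, ρ, q, N₀, hL₀⟩ := exists_lc (hf.an p hp.2.2) (hf.sm p hp.2.1 hp.2.2 hp.1) hp.1 hp.2.1
    hp.2.2
  have hWo : IsOpen {x : E3 | nsq x < r ^ 2} := isOpen_lt continuous_nsq continuous_const
  have hL := hL₀.shrink hL₀.pos le_rfl hWo hp.2.2
  set N := N₀ ∩ (q ⁻¹' Metric.ball 0 ρ ∩ {x : E3 | nsq x < r ^ 2}) with hNd
  have hNr : ∀ x ∈ N, nsq x < r ^ 2 := fun x hx => hx.2.2
  refine ⟨N, hL.No, hL.Np, fun φ hφ hφc hφN => ?_⟩
  set B := Metric.ball (0 : Cn 2) ρ with hB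
  have hθ := hL.pe
  obtain ⟨k1, k2, k3⟩ := hL.cut hf.an hNr hφ hφc hφN (hc θ _ hθ)
  set κ₀ : Cn 2 → ℝ := rdc θ ρ fun x => φ x * c x with hκ₀
  have hκ : CS B (cu κ₀) := by
    refine ⟨?_, ?_, ?_⟩
    · exact Complex.ofRealCLM.contDiff.comp k1
    · refine k2.comp_left (g := fun t : ℝ => (t : ℂ)) ?_
      simp
    · refine (closure_mono ?_).trans k3
      intro z hz hz'
      exact hz (by show ((κ₀ z : ℝ) : ℂ) = 0; rw [hz']; simp)
  have hb : ∀ z ∈ B, BV (HO u (fun _ => 0) θ) (dV h θ) z ∧ dV h θ z ≠ 0 := fun z hz =>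
    ⟨bv hK smL_zero hh hθ hz, dV_ne hN hθ hz⟩
  obtain ⟨i1, i2, i3⟩ := loc0 hb hκ
  have hden := Crest.Agent.R257.Ked2_397.denStmt f 0 r hf.pos hf.an hf.sm θ _ hθ
  have hφcs : SmL f 0 r (fun x => φ x * c x) := smL_mul hφ hc
  -- first integral
  have A1 := hL.integral hν hf.an hf.sm (F := fun x => (φ x * c x) * c2d f u x)
    (G := fun z => (cu κ₀ z * c2 (HO u (fun _ => 0) θ) z).re) i1.re (fun z hz => by
      have e1 := hden.2 u hK z hz
      rw [← c2_HO hK hθ hz] at e1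
      show (φ (θ z) * c (θ z)) * c2d f u (θ z) * eta2a (n := 2) f θ z =
        (((κ₀ z : ℝ) : ℂ) * c2 (HO u (fun _ => 0) θ) z).re
      rw [Complex.re_ofReal_mul, mul_assoc, e1, hκ₀, rdc_in hz])
    (fun z hz => by
      show (((κ₀ z : ℝ) : ℂ) * c2 (HO u (fun _ => 0) θ) z).re = 0
      rw [hκ₀, rdc_off hz]
      simp)
    (fun x _ _ _ hxN => by
      have : φ x = 0 := image_eq_zero_of_notMem_tsupport fun hx => hxN (hφN hx)
      show (φ x * c x) * c2d f u x = 0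
      rw [this, zero_mul, zero_mul])
  have A2 := hL.integral hν hf.an hf.sm (F := oxd f u (fun _ => 0) h (fun x => φ x * c x))
    (G := fun z => (pd (hs (cu κ₀) z) (Gm (HO u (fun _ => 0) θ) (dV h θ) z)).re) i2.re
    (fun z hz => by
      rw [oxd_eq hf hK smL_zero hh hθ hz (dV_ne hN hθ hz) (smAt hφcs hθ hz), hs_cu,
        hess_congr (rdc_ev hz), cH_eq_hess (smAt hφcs hθ hz)])
    (fun z hz => by
      have h1 : z ∉ tsupport κ₀ := fun h2 => hz (k3 h2)
      have h2 : κ₀ =ᶠ[𝓝 z] fun _ => (0 : ℝ) := notMem_tsupport_iff_eventuallyEq.1 h1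
      have h3 : hess (fun _ : Cn 2 => (0 : ℝ)) z = 0 := by
        have h4 : ContDiffAt ℝ ∞ (fun _ : Cn 2 => (0 : ℝ)) z := contDiffAt_const
        have h5 := hess_sub h4 h4
        simpa using h5
      rw [hs_cu, hess_congr h2, h3]
      simp [pd])
    (fun x h1 h2 h3 hxN =>
      oxd_off hf ⟨h1, h2, h3⟩ (off_tsup fun hx => hxN (hφN hx)))
  refine ⟨A1.1, A2.1, ?_⟩
  rw [A1.2, A2.2]
  have e1 : ∫ z, (cu κ₀ z * c2 (HO u (fun _ => 0) θ) z).re =
      (∫ z, cu κ₀ z * c2 (HO u (fun _ => 0) θ) z).re := by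
    have := integral_re i1
    simpa using this
  have e2 : ∫ z, (pd (hs (cu κ₀) z) (Gm (HO u (fun _ => 0) θ) (dV h θ) z)).re =
      (∫ z, pd (hs (cu κ₀) z) (Gm (HO u (fun _ => 0) θ) (dV h θ) z)).re := by
    have := integral_re i2
    simpa using this
  rw [e1, e2, i3]

/-- off the level nothing happens -/
theorem local_off (hf : LvlOK f 0 r) {ν : Measure E3}
    (hν : IsNu f 0 r ν) {c : E3 → ℝ} {p : E3} (hp0 : f p ≠ 0)
    (hpr : nsq p < r ^ 2) :
    ∃ W : Set E3, IsOpen W ∧ p ∈ W ∧ ∀ φ : E3 → ℝ, ContDiff ℝ ∞ φ →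
      HasCompactSupport φ → tsupport φ ⊆ W → PP1 f u h c ν φ := by
  have hWo : IsOpen {x : E3 | nsq x < r ^ 2} := isOpen_lt continuous_nsq continuous_const
  have hfc : ContinuousOn f {x : E3 | nsq x < r ^ 2} := fun x hx =>
    (hf.an x hx).continuousAt.continuousWithinAt
  refine ⟨{x : E3 | nsq x < r ^ 2} ∩ f ⁻¹' {0}ᶜ, hfc.isOpen_inter_preimage hWo
    isOpen_compl_singleton, ⟨hpr, hp0⟩, fun φ hφ hφc hφW => ?_⟩
  have hx0 : ∀ x ∈ Lv f r, x ∉ tsupport φ := fun x hx h1 => (hφW h1).2 hx.1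
  have z1 : (fun x => (φ x * c x) * c2d f u x) =ᵐ[ν] fun _ => 0 := by
    filter_upwards [ae_lv hν] with x hx
    rw [image_eq_zero_of_notMem_tsupport (hx0 x hx), zero_mul, zero_mul]
  have z2 : oxd f u (fun _ => 0) h (fun x => φ x * c x) =ᵐ[ν] fun _ => 0 := by
    filter_upwards [ae_lv hν] with x hx
    exact oxd_off hf hx (off_tsup (hx0 x hx))
  refine ⟨(integrable_zero E3 ℝ ν).congr z1.symm, (integrable_zero E3 ℝ ν).congr z2.symm, ?_⟩
  rw [integral_congr_ae z1, integral_congr_ae z2]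

/-- **(P1)** -/
theorem oxd_int (hf : LvlOK f 0 r) (hK : KEon f 0 r u)
    (hh : ∀ x, nsq x < r ^ 2 → AnalyticAt ℂ h x) (hN : NoZ f r h) {ν : Measure E3}
    (hν : IsNu f 0 r ν) {c : E3 → ℝ} (hc : SmL f 0 r c)
    (h0 : ∃ r₁ r₂ : ℝ, 0 < r₁ ∧ 0 < r₂ ∧ r₂ < r ∧
      ∀ x ∈ Lv f r, nsq x < r₁ ^ 2 ∨ r₂ ^ 2 < nsq x → c x = 0) :
    Integrable (fun x => c x * c2d f u x) ν ∧ Integrable (oxd f u (fun _ => 0) h c) ν ∧
    ∫ x, c x * c2d f u x ∂ν = ∫ x, oxd f u (fun _ => 0) h c x ∂ν := by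
  obtain ⟨r₁, r₂, hr1, hr2, hr3, h0⟩ := h0
  set r₃ : ℝ := (r₂ + r) / 2 with hr₃
  have h23 : r₂ < r₃ := by rw [hr₃]; linarith
  have h3r : r₃ < r := by rw [hr₃]; linarith
  have h3p : 0 < r₃ := hr2.trans h23
  have hq1 : (r₁ / 2) ^ 2 < r₁ ^ 2 := by nlinarith
  have hq2 : r₂ ^ 2 < r₃ ^ 2 := pow_lt_pow_left₀ h23 hr2.le two_ne_zero
  have hq3 : r₃ ^ 2 < r ^ 2 := pow_lt_pow_left₀ h3r h3p.le two_ne_zero
  set U : Set E3 := {x | (r₁ / 2) ^ 2 < nsq x ∧ nsq x < r₃ ^ 2} with hU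
  set A : Set E3 := {x | r₁ ^ 2 ≤ nsq x ∧ nsq x ≤ r₂ ^ 2} with hA
  have hUo : IsOpen U :=
    (isOpen_lt continuous_const continuous_nsq).inter (isOpen_lt continuous_nsq continuous_const)
  have hAc : IsClosed A :=
    (isClosed_le continuous_const continuous_nsq).inter
      (isClosed_le continuous_nsq continuous_const)
  obtain ⟨η, hη, hηU, hη1, -, -⟩ := exists_cutoff hUo hAc (fun x hx =>
    ⟨hq1.trans_le hx.1, hx.2.trans_lt hq2⟩)
  set K : Set E3 := {x | (r₁ / 2) ^ 2 ≤ nsq x ∧ nsq x ≤ r₃ ^ 2} with hKd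
  have hKc : IsCompact K := by
    have hc1 : IsCompact {x : E3 | nsq x ≤ r₃ ^ 2} := by
      refine Metric.isCompact_of_isClosed_isBounded
        (isClosed_le continuous_nsq continuous_const) ?_
      refine (Metric.isBounded_closedBall (x := (0 : E3)) (r := r₃)).subset fun x hx => ?_
      rw [mem_closedBall_zero_iff, pi_norm_le_iff_of_nonneg h3p.le]
      intro k
      exact le_of_sq_le_sq ((Crest.Agent.R257.PN_835.sq_le_nsq x k).trans hx) h3p.le
    refine hc1.of_isClosed_subset ?_ fun x hx => hx.2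
    exact (isClosed_le continuous_const continuous_nsq).inter
      (isClosed_le continuous_nsq continuous_const)
  have hηK : tsupport η ⊆ K := fun x hx => ⟨(hηU hx).1.le, (hηU hx).2.le⟩
  have hηc : HasCompactSupport η := hKc.of_isClosed_subset (isClosed_tsupport η) hηK
  have main : PP1 f u h c ν η := by
    refine glob (P := PP1 f u h c ν) ?_ ?_ hKc ?_ hη hηc hηK
    · have z2 : oxd f u (fun _ => 0) h (fun x => (0 : ℝ) * c x) =ᵐ[ν] fun _ => 0 := by
        filter_upwards [ae_lv hν] with x hx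
        exact oxd_off hf hx (Eventually.of_forall fun y => zero_mul _)
      refine ⟨?_, (integrable_zero E3 ℝ ν).congr z2.symm, ?_⟩
      · simp only [zero_mul]
        exact integrable_zero _ _ _
      · rw [integral_congr_ae z2]
        simp
    · rintro φ φ' hφ hφ' - - ⟨a1, a2, a3⟩ ⟨b1, b2, b3⟩
      have e1 : (fun x => ((φ x + φ' x) * c x) * c2d f u x) =
          fun x => (φ x * c x) * c2d f u x + (φ' x * c x) * c2d f u x := by
        funext x; ring
      have e2 : oxd f u (fun _ => 0) h (fun x => (φ x + φ' x) * c x) =ᵐ[ν]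
          fun x => oxd f u (fun _ => 0) h (fun x => φ x * c x) x +
            oxd f u (fun _ => 0) h (fun x => φ' x * c x) x := by
        filter_upwards [ae_lv hν] with x hx
        have h1 : (fun x => (φ x + φ' x) * c x) = fun x => φ x * c x + φ' x * c x := by
          funext y; ring
        rw [h1]
        exact oxd_add hf (smL_mul hφ hc) (smL_mul hφ' hc) hx
      refine ⟨?_, (a2.add b2).congr e2.symm, ?_⟩
      · rw [e1]
        exact a1.add b1
      · rw [e1, integral_congr_ae e2, integral_add a1 b1, integral_add a2 b2, a3, b3]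
    · intro p hp
      have hp0 : p ≠ 0 := by
        rintro rfl
        have h1 : nsq (0 : E3) = 0 := Crest.Agent.R257.V1Pe_822.nsq_zero3
        have h2 : (r₁ / 2) ^ 2 ≤ nsq (0 : E3) := hp.1
        rw [h1] at h2
        have : 0 < (r₁ / 2) ^ 2 := by positivity
        linarith
      have hpr : nsq p < r ^ 2 := hp.2.trans_lt hq3
      by_cases hfp : f p = 0
      · exact local_lv hf hK hh hN hν hc ⟨hfp, hp0, hpr⟩
      · exact local_off hf hν hfp hpr
  obtain ⟨m1, m2, m3⟩ := main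
  have ce : ∀ x ∈ Lv f r, η x * c x = c x := by
    intro x hx
    by_cases hxA : x ∈ A
    · rw [(hη1 x hxA).self_of_nhds, one_mul]
    · have : c x = 0 := by
        refine h0 x hx ?_
        by_contra hcon
        push Not at hcon
        exact hxA hcon
      rw [this, mul_zero]
  have e1 : (fun x => (η x * c x) * c2d f u x) =ᵐ[ν] fun x => c x * c2d f u x := by
    filter_upwards [ae_lv hν] with x hx
    rw [ce x hx]
  have e2 : oxd f u (fun _ => 0) h (fun x => η x * c x) =ᵐ[ν] oxd f u (fun _ => 0) h c := by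
    filter_upwards [ae_lv hν] with x hx
    rw [oxd_eq_fx, oxd_eq_fx]
    refine fx_congr hf hx fun θ O hθ z hz hzx => ?_
    filter_upwards [hθ.par.isOpen.mem_nhds hz] with y hy
    exact ce _ (LossA_625.pe_lv hθ hy)
  refine ⟨m1.congr e1, m2.congr e2, ?_⟩
  rw [← integral_congr_ae e1, ← integral_congr_ae e2, m3]

end

end Crest.Agent.R257.V0b_417
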