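import Crest.Agent.R257.CmpL_822

/-!
R257 / V1Top2_822 (helper822): `V1Stmt` from (XU), (UP), (VOL), (M3) only.
-/

set_option autoImplicit false

open Topology Filter MeasureTheory Set
open scoped ENNReal ContDiff Matrix ComplexOrder

noncomputable section

namespace Crest.Agent.R257.V1Top2_822

open Crest.Agent.R275.Geo
open Crest.Agent.R257.Defs_219 Crest.Agent.R257.KED_952 Crest.Agent.R257.V1Defs_822
open Crest.Agent.R257.V1Pe_822 Crest.Agent.R257.V1W_822 Crest.Agent.R257.V1Top_822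
open Crest.Agent.R257.UpK_938 Crest.Agent.R257.Bridge_822 Crest.Agent.R257.CmpL_822
open Crest.Agent.R257.PN_835 (nsq)

variable {f : E3 → ℂ} {s : ℂ} {r : ℝ}

/-- the residual mass does not depend on the cut-off -/
theorem mas_cut' (hL : LvlOK f s r) {ν : Measure E3} (hν : IsNu f s r ν) {u χ χ' : E3 → ℝ}
    (hu : KEon f s r u) (hχ : Cut r χ) (hχ' : Cut r χ') (hV : VOL ν u χ < ⊤)
    (hV' : VOL ν u χ' < ⊤) : mas ν f u χ = mas ν f u χ' := by
  have P := (LX hL).part 0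
  have j1 := (tot_bridge hL hν (a := u) hu.sm hχ P).1
  have j2 := (tot_bridge hL hν (a := u) hu.sm hχ' P).1
  have e1 : TOT ν f u χ - TOT ν f u χ' = ∫ x, u x * mxd f u (fun y => χ y - χ' y) x ∂ν := by
    unfold TOT
    rw [← integral_sub j1 j2]
    refine integral_congr_ae (isNu_ae hν fun x h1 h2 h3 => ?_)
    show _ = u x * mxd f u (fun y => χ y - χ' y) x
    rw [mxd_sub hL (cut_smL hχ) (cut_smL hχ') h1 h2 h3]
    ring
  obtain ⟨r₁, ρ, h1, h2, h3, h4, h5, h6⟩ := cut_rad hχ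
  obtain ⟨r₁', ρ', h1', h2', h3', h4', h5', h6'⟩ := cut_rad hχ'
  have e2 := (stokes_lvl hL hν (u := u) (c := fun y => χ y - χ' y) hu.sm
    (smL_sub' (cut_smL hχ) (cut_smL hχ')) (r₁ := min r₁ r₁') (r₂ := max ρ ρ') (lt_min h1 h1')
    (h2.le.trans (le_max_left _ _)) (max_lt h3 h3') (fun x hx => by
      rcases hx with hx | hx
      · have b1 : nsq x < r₁ ^ 2 :=
          hx.trans_le (pow_le_pow_left₀ (lt_min h1 h1').le (min_le_left _ _) 2)
        have b2 : nsq x < r₁' ^ 2 :=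
          hx.trans_le (pow_le_pow_left₀ (lt_min h1 h1').le (min_le_right _ _) 2)
        show χ x - χ' x = 0
        rw [(h4 x b1).self_of_nhds, (h4' x b2).self_of_nhds, sub_self]
      · have b1 : ρ ^ 2 ≤ nsq x := ((pow_le_pow_left₀ h2.le (le_max_left _ _) 2).trans_lt hx).le
        have b2 : ρ' ^ 2 ≤ nsq x := ((pow_le_pow_left₀ h2'.le (le_max_right _ _) 2).trans_lt hx).le
        show χ x - χ' x = 0
        rw [h5 x b1, h5' x b2, sub_self])).2.2
  obtain ⟨k1, k2⟩ := int_exp hL hν (u := u) hu.sm hχ hV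
  obtain ⟨k3, k4⟩ := int_exp hL hν (u := u) hu.sm hχ' hV'
  have e3 : ∫ x, (χ x - χ' x) * mxd f u u x ∂ν =
      2 * ((VOL ν u χ).toReal - (VOL ν u χ').toReal) := by
    rw [← k2, ← k4, ← integral_sub k1 k3, ← integral_const_mul]
    refine integral_congr_ae (isNu_ae hν fun x h1 h2 h3 => ?_)
    show (χ x - χ' x) * mxd f u u x = _
    rw [mxd_ke hL hu h1 h2 h3]
    ring
  unfold mas
  have e4 : TOT ν f u χ - TOT ν f u χ' = 2 * ((VOL ν u χ).toReal - (VOL ν u χ').toReal) := by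
    rw [e1, ← e3]
    exact e2
  have e5 : TOT ν f u χ - 2 * (VOL ν u χ).toReal = TOT ν f u χ' - 2 * (VOL ν u χ').toReal := by
    linarith
  rw [e5]

/-- **`V1Stmt` from (XU), (UP), (VOL), (M3)** -/
theorem v1' (xu : XUStmt) (up : UPStmt) (vol : VolStmt) (m3 : M3Stmt) : V1Stmt := by
  intro Φ τ₀ l r C w u hS f hf hm χ hχ ν hν
  have hiso : Iso f := by rw [hf]; exact hS.iso
  have hL : LvlOK f 0 r := by
    rw [hf]
    exact ⟨hS.r_pos, fun x hx => (hS.an x hx.le).curry_left,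
      fun x h0 hx h1 => hS.sm0 x h0 hx.le h1⟩
  have hu : KEon f 0 r u := by rw [hf]; exact hS.ke0.1
  obtain ⟨k, g, h, hk, hg, hh, hfin, hcol, hJU⟩ := xu f hiso hm
  have hk0 : (0 : ℝ) < k := by exact_mod_cast (by omega : 0 < k)
  have hG : ∀ j, AnalyticAt ℂ ((![f, g, h] : Fin 3 → E3 → ℂ) j) 0 := by
    intro j
    fin_cases j
    · exact hiso.an
    · exact hg
    · exact hh
  have hcol0 : col ![f, g, h] ≠ 0 := by
    intro h0
    rw [h0, Nat.cast_zero] at hcol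
    have : 0 < (k : ℝ) ^ 2 * mstar f := by positivity
    linarith
  have g0 : g 0 = 0 := by
    by_contra hcon
    exact hcol0 (Skel_219.col_eq_zero (G := ![f, g, h]) (j := 1) hg hcon)
  have h0 : h 0 = 0 := by
    by_contra hcon
    exact hcol0 (Skel_219.col_eq_zero (G := ![f, g, h]) (j := 2) hh hcon)
  obtain ⟨ρ₁, hρ₁, hz⟩ := nsq_lt_of (iso_zero hG hfin)
  obtain ⟨ρ₂, hρ₂, hga⟩ := nsq_lt_of hg.eventually_analyticAt
  obtain ⟨ρ₃, hρ₃, hha⟩ := nsq_lt_of hh.eventually_analyticAt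
  have hV := vol Φ τ₀ l r C w u hS f hf χ hχ ν hν
  obtain ⟨C', ρ₄, hρ₄, hup⟩ := up f r u ν χ k g h hiso hL hu hν hχ hV hk hg hh g0 h0 hfin hJU
  obtain ⟨ρ₅, hρ₅, hm3⟩ := m3 f g h hiso hg hh g0 h0 hfin
  obtain ⟨r', hr', l0, l1, l2, l3, l4, l5⟩ : ∃ r' : ℝ, 0 < r' ∧ r' ≤ r ∧ r' ≤ ρ₁ ∧ r' ≤ ρ₂ ∧
      r' ≤ ρ₃ ∧ r' ≤ ρ₄ ∧ r' ≤ ρ₅ := by
    refine ⟨min r (min ρ₁ (min ρ₂ (min ρ₃ (min ρ₄ ρ₅)))), ?_, ?_, ?_, ?_, ?_, ?_, ?_⟩
    · exact lt_min hL.pos (lt_min hρ₁ (lt_min hρ₂ (lt_min hρ₃ (lt_min hρ₄ hρ₅))))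
    · exact min_le_left _ _
    · exact (min_le_right _ _).trans (min_le_left _ _)
    · exact (min_le_right _ _).trans ((min_le_right _ _).trans (min_le_left _ _))
    · exact (min_le_right _ _).trans ((min_le_right _ _).trans ((min_le_right _ _).trans
        (min_le_left _ _)))
    · exact (min_le_right _ _).trans ((min_le_right _ _).trans ((min_le_right _ _).trans
        ((min_le_right _ _).trans (min_le_left _ _))))
    · exact (min_le_right _ _).trans ((min_le_right _ _).trans ((min_le_right _ _).trans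
        ((min_le_right _ _).trans (min_le_right _ _))))
  have mono : ∀ {a : ℝ}, r' ≤ a → ∀ {x : E3}, nsq x < r' ^ 2 → nsq x < a ^ 2 :=
    fun ha _ hx => hx.trans_le (pow_le_pow_left₀ hr'.le ha 2)
  have hL' : LvlOK f 0 r' := lvl_mono hL hr' l0
  have hν' := isNu_restr hν hr' l0
  set ν' : Measure E3 := ν.restrict {x | nsq x < r' ^ 2} with hν'd
  obtain ⟨χ', hχ'⟩ := exists_cut hr'
  have hχ'r : Cut r χ' := cut_mono hχ' l0
  have hV' := vol Φ τ₀ l r C w u hS f hf χ' hχ'r ν hν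
  have hu' : KEon f 0 r' u := keon_mono hu hr'.le l0
  have hV'' : VOL ν' u χ' < ⊤ := by rw [hν'd, ← VOL_restr hχ']; exact hV'
  have e1 : mas ν f u χ = mas ν' f u χ' := by
    rw [mas_cut' hL hν hu hχ hχ'r hV hV']
    unfold mas
    rw [hν'd, ← VOL_restr hχ', ← TOT_restr hχ']
  have hne : ∀ x, f x = 0 → x ≠ 0 → nsq x < r' ^ 2 → g x ≠ 0 ∨ h x ≠ 0 := by
    intro x hx1 hx2 hx3
    by_contra hcon
    push Not at hcon
    refine hx2 (hz x (mono l1 hx3) fun j => ?_)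
    fin_cases j
    · exact hx1
    · exact hcon.1
    · exact hcon.2
  have hk1 : (0 : ℝ) < 1 / k := by positivity
  obtain ⟨w1, w2, w3⟩ := wt (f := f) (s := 0) (fun x hx => hga x (mono l2 hx))
    (fun x hx => hha x (mono l3 hx)) hne hk1.le
  have w4 := wt_inf (f := f) (s := 0) hg hh g0 h0 hr' hne hk1
  have e2 := cmpStmt f 0 r' ν' χ' u (fun x => 1 / (k : ℝ) * lgh g h x) C' hL' hν' hχ' hu' w1 w2 w3
    w4 (fun x hx1 hx2 hx3 => hup x hx1 hx2 (mono l4 hx3)) hV''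
  have e3 : TOT ν' f (fun x => 1 / (k : ℝ) * lgh g h x) χ' =
      (1 / (k : ℝ)) ^ 2 * TOT ν' f (lgh g h) χ' := by
    unfold TOT
    rw [← integral_const_mul]
    refine integral_congr_ae (isNu_ae hν' fun x a1 a2 a3 => ?_)
    have hsm : SmL f 0 r' (lgh g h) := by
      have := (wt (f := f) (s := 0) (c := 1) (fun x hx => hga x (mono l2 hx))
        (fun x hx => hha x (mono l3 hx)) hne zero_le_one).1
      simpa using this
    show 1 / (k : ℝ) * lgh g h x * mxd f (fun x => 1 / (k : ℝ) * lgh g h x) χ' x = _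
    rw [mxd_mul hL' hsm _ a1 a2 a3]
    ring
  rw [e3, hm3 r' l5 hL' ν' hν' χ' hχ', hcol] at e2
  have e4 : (1 / (k : ℝ)) ^ 2 * (Real.pi ^ 2 * ((k : ℝ) ^ 2 * mstar f)) =
      Real.pi ^ 2 * mstar f := by
    field_simp
  rw [e4] at e2
  rw [e1]
  unfold mas
  have hπ : 0 < Real.pi ^ 2 := by positivity
  rw [le_div_iff₀ hπ]
  linarith

end Crest.Agent.R257.V1Top2_822
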