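import Crest.Agent.R257.UpK1_938
import Crest.Agent.R257.Up3_938
import Crest.Agent.R257.V1Top_822
import Crest.Agent.R257.MassLe_218

/-!
R257 / V3A_218 (helper218): integrals of densities on the atlas of helper941/938 (`LX`) and integrals
against `ν` on the level.

* `rs hL a`   : the restriction of `a : E3 → ℝ` to the level
* `pd_rs`     : `(pd (∂∂̄b) (∂∂̄c)).re = mxd f b c * |η|²`
* `intD_nu`   : `Re intD P F = ∫ φ dν` for a density `F` with `Re F = φ |η|²`, compact support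
* `bri`       : `Re intD P (a pd(∂∂̄b)(∂∂̄c)) = ∫ a mxd f b c dν`
-/

set_option autoImplicit false
set_option linter.unusedSectionVars false

open Set Filter Topology Complex MeasureTheory
open scoped ContDiff Matrix ComplexConjugate ComplexOrder ENNReal

namespace Crest.Agent.R257.V3_218

open Crest.Agent.R275 Crest.Agent.R275.Geo Crest.Agent.R275.Core144 Crest.Agent.R275.EDR890
open Crest.Agent.R275.Pai323 Crest.Agent.R275.C1d194
open Crest.Agent.R273.Defs_333 Crest.Agent.R273.Hess_333 Crest.Agent.R273.HessB_333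
open Crest.Agent.R273.HM_333 Crest.Agent.R273.Kah_333 Crest.Agent.R273.Vol_333
open Crest.Agent.R273.Vm_333
open Crest.Agent.R273.StokesV_332 (Den OffK intD intD_eq_sum intD_congr)
open Crest.Agent.R273.StV_37 Crest.Agent.R273.Green_5 Crest.Agent.R273.GreenM_5 Crest.Agent.R273.GreenG_5
open Crest.Agent.R273.YauDefs_635 (cH)
open Crest.Agent.R273.Mass_5 (fH fH_div sm_fH)
open Crest.Agent.R257.Defs_219 Crest.Agent.R257.KED_952 Crest.Agent.R257.V1Defs_822
open Crest.Agent.R257.PN_835 (nsq)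
open Crest.Agent.R257.Aff_835 (eta2a)
open Crest.Agent.R257.C2F1_625 (pd)
open Crest.Agent.R257.UpK_938 Crest.Agent.R257.Up3_938
open Crest.Agent.R257.MassLe218

noncomputable section

variable {f : E3 → ℂ} {s : ℂ} {r : ℝ} (hL : LvlOK f s r)

/-- functions on the level -/
def rs (a : E3 → ℝ) : (LX hL).M 0 → ℝ := fun x => a x.1

theorem rs_sm {a : E3 → ℝ} (ha : SmL f s r a) : ((LX hL).A 0).Sm (rs hL a) :=
  fun i => ha _ _ (pe_chart hL i)

theorem hsf_rs {a : E3 → ℝ} (ha : SmL f s r a) {i : ((LX hL).A 0).ι} {x : (LX hL).M 0}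
    (hx : x ∈ (((LX hL).A 0).e i).source) :
    hsf ((LX hL).A 0) (rs hL a) i x = cH (fun z => a (thc hL i z)) (((LX hL).A 0).e i x) := by
  have hz := (((LX hL).A 0).e i).map_source hx
  have h1 : ContDiffAt ℝ ∞ (fun z => a (thc hL i z)) (((LX hL).A 0).e i x) :=
    (ha _ _ (pe_chart hL i)).contDiffAt ((((LX hL).A 0).e i).open_target.mem_nhds hz)
  rw [Crest.Agent.R273.YauMax_635.cH_eq_hess h1]
  rfl

theorem e2_eta' {i : ((LX hL).A 0).ι} {x : (LX hL).M 0}
    (hx : x ∈ (((LX hL).A 0).e i).source) :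
    ((LX hL).eta 0).w i x = eta2a (n := 2) f (thc hL i) (((LX hL).A 0).e i x) := by
  have h1 := e2_eta hL ((((LX hL).A 0).e i).map_source hx)
  rwa [(((LX hL).A 0).e i).left_inv hx] at h1

theorem pd_rs (den : DenStmt) {b c : E3 → ℝ} (hb : SmL f s r b) (hc : SmL f s r c)
    {i : ((LX hL).A 0).ι} {x : (LX hL).M 0} (hx : x ∈ (((LX hL).A 0).e i).source) :
    (pd (hsf ((LX hL).A 0) (rs hL b) i x) (hsf ((LX hL).A 0) (rs hL c) i x)).re =
      mxd f b c x.1 * ((LX hL).eta 0).w i x := by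
  have hz := (((LX hL).A 0).e i).map_source hx
  have h1 := (den f s r hL.pos hL.an hL.sm _ _ (pe_chart hL i)).1 b c (hb _ _ (pe_chart hL i))
    (hc _ _ (pe_chart hL i)) _ hz
  rw [thc_eq hL hx] at h1
  rw [e2_eta' hL hx, h1, hsf_rs hL hb hx, hsf_rs hL hc hx]

/-- the integral of a density with compact support -/
theorem intD_nu {ν : Measure E3} (hν : IsNu f s r ν) (P : Part ((LX hL).A 0))
    {F : ((LX hL).A 0).ι → (LX hL).M 0 → ℂ} (hF : Dn ((LX hL).A 0) F)
    (hs : ∀ i, ((LX hL).A 0).SmAt i (F i)) {K : Set ((LX hL).M 0)} (hK : IsCompact K)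
    (h0 : OffK ((LX hL).A 0) F K) {φ : E3 → ℝ}
    (hφ : ∀ i, ∀ x ∈ (((LX hL).A 0).e i).source,
      (F i x).re = φ x.1 * ((LX hL).eta 0).w i x) :
    (intD P F).re = ∫ x, φ x ∂ν := by
  have := (LX hL).countable 0
  set h := (LX hL).eta 0 with hh
  have e0 : ∀ x ∉ K, fH h F x = 0 := by
    intro x hx
    have h1 := mem_ci (A := (LX hL).A 0) x
    rw [fH_div h hF h1, h0 _ x h1 hx, zero_div]
  have e1 : intD P F = tot P (Fn P hK) F := intD_eq_sum P hK (Finset.Subset.refl _) h0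
  rw [e1, tot_eq h P hF hs hK (Finset.Subset.refl _) e0]
  have hi : Integrable (fH h F) (vm h) :=
    integrable_cs h (sm_continuous (sm_fH h hF hs)) hK e0
  have h3 := integral_re hi
  change ∫ x, (fH h F x).re ∂(vm h) = (∫ x, fH h F x ∂(vm h)).re at h3
  rw [← h3]
  have h4 : (fun x => (fH h F x).re) = fun x : (LX hL).M 0 => φ x.1 := by
    funext x
    have h1 := mem_ci (A := (LX hL).A 0) x
    rw [fH_div h hF h1, Complex.div_ofReal_re, hφ _ x h1]
    have h2 := h.pos _ x h1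
    field_simp
  rw [h4]
  have h5 : ∫ x, φ x ∂ν = ∫ x, φ x.1 ∂((LX hL).vol 0) := by
    rw [← nu_eq hL hν]
    unfold Crest.Agent.R257.Atl_941.SFam.nu
    have hme : MeasurableEmbedding (Subtype.val : (LX hL).M 0 → E3) :=
      MeasurableEmbedding.subtype_coe (meas_lvl hL)
    rw [hme.integral_map]
  rw [h5]
  rfl

/-- **the bridge** -/
theorem bri (den : DenStmt) {ν : Measure E3} (hν : IsNu f s r ν) (P : Part ((LX hL).A 0))
    {a b c : E3 → ℝ} (ha : SmL f s r a) (hb : SmL f s r b) (hc : SmL f s r c)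
    {K : Set ((LX hL).M 0)} (hK : IsCompact K)
    (h0 : ∀ i, ∀ x ∈ (((LX hL).A 0).e i).source, x ∉ K → (rs hL a x : ℂ) *
      pd (hsf ((LX hL).A 0) (rs hL b) i x) (hsf ((LX hL).A 0) (rs hL c) i x) = 0) :
    (intD P (fun i x => (rs hL a x : ℂ) *
      pd (hsf ((LX hL).A 0) (rs hL b) i x) (hsf ((LX hL).A 0) (rs hL c) i x))).re =
      ∫ x, a x * mxd f b c x ∂ν := by
  refine intD_nu hL hν P ?_ ?_ hK h0 ?_
  · have h1 := (den_mx (A := (LX hL).A 0) (rs_sm hL hb) (rs_sm hL hc)).tr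
    intro i j x hx
    have h2 := h1 i j x hx
    rw [mx_eq_pd, mx_eq_pd] at h2
    change (rs hL a x : ℂ) * pd (hsf ((LX hL).A 0) (rs hL b) i x)
      (hsf ((LX hL).A 0) (rs hL c) i x) = _
    rw [h2]
    ring
  · intro i
    have h1 := (den_mx (A := (LX hL).A 0) (rs_sm hL hb) (rs_sm hL hc)).sm i
    have h2 : (fun x => (rs hL a x : ℂ) * pd (hsf ((LX hL).A 0) (rs hL b) i x)
        (hsf ((LX hL).A 0) (rs hL c) i x)) = fun x => (rs hL a x : ℂ) *
        mx ((LX hL).A 0) (rs hL b) (rs hL c) i x := by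
      funext x
      rw [mx_eq_pd]
    rw [h2]
    exact (smAt_ofReal (rs_sm hL ha i)).mul h1
  · intro i x hx
    rw [Complex.re_ofReal_mul, pd_rs hL den hb hc hx]
    change a x.1 * (mxd f b c x.1 * _) = a x.1 * mxd f b c x.1 * _
    ring

end

end Crest.Agent.R257.V3_218
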