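import Crest.Agent.R257.V3B_218
import Crest.Agent.R257.CmpL_822

/-!
R257 / V3C_218 (helper218): MASS-LE on a level.

* `mass_lvl` : `TOT u ≤ TOT w + 2 VOL u` for a Kaehler-Einstein weight `u` with `Esc` and a smooth psh
  `w` with `∫ χ e^w < ∞`, `w → -∞` at the puncture
-/

set_option autoImplicit false
set_option linter.unusedSectionVars false

open Set Filter Topology Complex MeasureTheory
open scoped ContDiff Matrix ComplexConjugate ComplexOrder ENNReal

namespace Crest.Agent.R257.V3_218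

open Crest.Agent.R275 Crest.Agent.R275.Geo Crest.Agent.R275.Core144 Crest.Agent.R275.EDR890
open Crest.Agent.R275.Pai323 Crest.Agent.R275.C1d194
open Crest.Agent.R275.OmT75 (dj dl)
open Crest.Agent.R273.Defs_333 Crest.Agent.R273.Hess_333 Crest.Agent.R273.HessB_333
open Crest.Agent.R273.HM_333 Crest.Agent.R273.Kah_333 Crest.Agent.R273.Vol_333
open Crest.Agent.R273.Vm_333
open Crest.Agent.R273.StokesV_332 (Den OffK intD intD_eq_sum intD_congr)
open Crest.Agent.R273.StV_37 Crest.Agent.R273.Green_5 Crest.Agent.R273.GreenM_5 Crest.Agent.R273.GreenG_5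
open Crest.Agent.R273.YauDefs_635 (cH)
open Crest.Agent.R257.Defs_219 Crest.Agent.R257.KED_952 Crest.Agent.R257.V1Defs_822
open Crest.Agent.R257.V1Pe_822 (mxd_ke mxd_comm mxd_sub cut_smL isNu_ae lvl_mono keon_mono smL_mono)
open Crest.Agent.R257.PN_835 (nsq)
open Crest.Agent.R257.Aff_835 (eta2a)
open Crest.Agent.R257.C2F1_625 (pd)
open Crest.Agent.R257.UpK_938
open Crest.Agent.R257.MassLe218
open Crest.Agent.R257.KEG_952 (Esc)
open Crest.Agent.R257.Bridge_822 Crest.Agent.R257.CmpL_822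

noncomputable section

variable {f : E3 → ℂ} {s : ℂ} {r : ℝ}

theorem mx_ke (hL : LvlOK f s r) {u : E3 → ℝ} (hu : KEon f s r u) (A₀ : ℝ)
    {i : ((LX hL).A 0).ι} {x : (LX hL).M 0} (hx : x ∈ (((LX hL).A 0).e i).source) :
    mx ((LX hL).A 0) (rs hL fun y => u y - A₀) (rs hL fun y => u y - A₀) i x =
      ((((LX hL).eta 0).w i x * (2 * Real.exp (u x.1)) : ℝ) : ℂ) := by
  obtain ⟨h1, h2, h3⟩ := mem_M hL x
  rw [mx_eq_pd, hsf_sub_const hL hu.sm A₀ hx, ← mxd_ke hL hu h2 h3 h1]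
  exact dens_chart hL hu.sm hu.sm hx

/-- bound of the energy of a cut-off -/
theorem eng_le (hL : LvlOK f s r) {ν : Measure E3} (hν : IsNu f s r ν) (P : Part ((LX hL).A 0))
    {u w χ : E3 → ℝ} (hu : KEon f s r u) (A₀ : ℝ) (hw : SmL f s r w) (hχ : Cut r χ)
    (hV : VOL ν w χ < ⊤) {c : ℝ} (hc : 0 ≤ c) {q : (LX hL).M 0 → ℝ}
    (hq : ∀ x : (LX hL).M 0, q x * (2 * Real.exp (u x.1)) = c * Real.exp (w x.1))
    {ζ : (LX hL).M 0 → ℝ} (hζ : ((LX hL).A 0).Sm ζ) (ζ1 : ∀ x, ζ x ≤ rs hL χ x) (hcs : ∃ K : Set ((LX hL).M 0), IsCompact K ∧ ∀ x ∉ K, ζ x = 0) :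
    (intD P (fun i x => ((ζ x * q x : ℝ) : ℂ) *
      mx ((LX hL).A 0) (rs hL fun y => u y - A₀) (rs hL fun y => u y - A₀) i x)).re ≤
      c * (VOL ν w χ).toReal := by
  have := (LX hL).countable 0
  obtain ⟨K, hK, h0⟩ := hcs
  set h := (LX hL).eta 0 with hh
  set F : (LX hL).M 0 → ℂ := fun x => ((ζ x * (c * Real.exp (w x.1)) : ℝ) : ℂ) with hF
  have cζ : Continuous ζ := smc hζ
  have cw : Continuous fun x : (LX hL).M 0 => w x.1 := cont_val hL (smL_ctl hw)
  have cF : Continuous fun x => ζ x * (c * Real.exp (w x.1)) :=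
    cζ.mul (continuous_const.mul (Real.continuous_exp.comp cw))
  have iR : Integrable (fun x => ζ x * (c * Real.exp (w x.1))) ((LX hL).vol 0) :=
    integrable_vol hL cF hK fun x hx => by rw [h0 x hx, zero_mul]
  have iF : Integrable F (vm h) := iR.ofReal
  have e1 := integral_vm_intD (h := h) P iF hK fun x hx => by
    simp only [hF, h0 x hx, zero_mul, Complex.ofReal_zero]
  have e2 : intD P (fun i x => ((ζ x * q x : ℝ) : ℂ) *
      mx ((LX hL).A 0) (rs hL fun y => u y - A₀) (rs hL fun y => u y - A₀) i x) =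
      intD P (fun i x => (h.w i x : ℂ) * F x) := by
    refine intD_congr P fun i x hx => ?_
    rw [mx_ke hL hu A₀ hx]
    simp only [hF]
    rw [← Complex.ofReal_mul, ← Complex.ofReal_mul]
    congr 1
    rw [← hq x]
    ring
  rw [e2, ← e1]
  have e3 : (∫ x, F x ∂(vm h)) = ((∫ x, ζ x * (c * Real.exp (w x.1)) ∂((LX hL).vol 0) : ℝ) : ℂ) :=
    integral_ofReal
  rw [e3, Complex.ofReal_re]
  obtain ⟨i4, e4⟩ := int_exp hL hν hw hχ hV
  have i5 : Integrable (fun x : (LX hL).M 0 => χ x.1 * Real.exp (w x.1)) ((LX hL).vol 0) := by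
    rw [← nu_eq hL hν] at i4
    exact (val_emb hL).integrable_map_iff.1 i4
  rw [← e4, int_nu hL hν, ← integral_const_mul]
  refine integral_mono iR (i5.const_mul c) fun x => ?_
  have h1 := Real.exp_pos (w x.1)
  have h2 := ζ1 x
  change ζ x * (c * Real.exp (w x.1)) ≤ c * (χ x.1 * Real.exp (w x.1))
  calc ζ x * (c * Real.exp (w x.1)) = ζ x * (c * Real.exp (w x.1)) := rfl
    _ ≤ χ x.1 * (c * Real.exp (w x.1)) := mul_le_mul_of_nonneg_right h2 (by positivity)
    _ = _ := by ring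

/-- `∫ ∂∂̄u ∧ ∂∂̄χ = 0` -/
theorem int_mxd_cut (hL : LvlOK f s r) {ν : Measure E3} (hν : IsNu f s r ν) {u χ : E3 → ℝ}
    (hu : SmL f s r u) (hχ : Cut r χ) :
    Integrable (fun x => mxd f u χ x) ν ∧ ∫ x, mxd f u χ x ∂ν = 0 := by
  obtain ⟨r₁, ρ, h1, h2, h3, h4, h5, h6⟩ := cut_rad hχ
  have P := (LX hL).part 0
  have hK := ann_compact hL h1 h2.le h3
  have hx7 : ∀ x : (LX hL).M 0, x ∉ {x : (LX hL).M 0 | r₁ ^ 2 ≤ nsq x.1 ∧ nsq x.1 ≤ ρ ^ 2} →
      nsq x.1 < r₁ ^ 2 ∨ ρ ^ 2 < nsq x.1 := by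
    intro x hx
    by_contra hcon
    push Not at hcon
    exact hx hcon
  obtain ⟨i1, e1⟩ := bridge hL hν (φ := fun _ => 1) hu (cut_smL hχ) P hK
    (continuous_const.mul (cont_mxd hL hu (cut_smL hχ))) fun x hx => by
      rcases hx7 x hx with h7 | h7
      · rw [V1Top_822.mxd_const (h4 _ h7), mul_zero]
      · rw [V1Pe_822.mxd_zero (h6 _ h7), mul_zero]
  have hg := greenD P (A := (LX hL).A 0) (hsf_cf (sm_val hL hu)) (φ := fun _ => 1)
    (u := fun x => χ x.1) (fun i => contDiffOn_const) (sm_val hL (cut_smL hχ)) hK fun x hx => by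
      right
      rcases hx7 x hx with h7 | h7
      · exact ⟨1, evconst_val hL (h4 _ h7)⟩
      · exact ⟨0, evconst_val hL (h6 _ h7)⟩
  have e2 : intD P (fun i x => ((1 : ℝ) : ℂ) * pd (hsf ((LX hL).A 0) (fun x => u x.1) i x)
        (hsf ((LX hL).A 0) (fun x => χ x.1) i x)) = 0 := by
    have e3 : intD P (fun i x => ((1 : ℝ) : ℂ) * pd (hsf ((LX hL).A 0) (fun x => u x.1) i x)
        (hsf ((LX hL).A 0) (fun x => χ x.1) i x)) = intD P (fun i x => ((1 : ℝ) : ℂ) *
        ((hsf ((LX hL).A 0) (fun x => u x.1) i x).adjugate *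
          hsf ((LX hL).A 0) (fun x => χ x.1) i x).trace) := by
      refine intD_congr P fun i x _ => ?_
      have := mx_eq_pd (A := (LX hL).A 0) (fun x => u x.1) (fun x => χ x.1) i x
      rw [← this]
      rfl
    rw [e3, hg]
    have e4 : intD P (grd (fun i x => hsf ((LX hL).A 0) (fun x => u x.1) i x)
        (fun y => ((1 : ℝ) : ℂ)) (fun y => ((χ y.1 : ℝ) : ℂ))) = intD P (fun _ _ => 0) := by
      refine intD_congr P fun i x hx => ?_
      unfold grd
      refine Finset.sum_eq_zero fun a _ => Finset.sum_eq_zero fun b _ => ?_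
      rw [dl_evconst (c := ((1 : ℝ) : ℂ)) hx (Eventually.of_forall fun _ => rfl) a, mul_zero,
        zero_mul]
    have e5 := Crest.Agent.R273.StokesV_332.intD_zero P
    rw [e5] at e4
    exact neg_eq_zero.2 e4
  rw [e2] at e1
  simp only [one_mul] at i1 e1
  exact ⟨i1, by exact_mod_cast e1⟩

theorem cont_rs (hL : LvlOK f s r) {v : E3 → ℝ} (hv : SmL f s r v) : Continuous (rs hL v) :=
  cont_val hL (smL_ctl hv)

/-- **MASS-LE on a level** -/
theorem mass_lvl {R : ℝ} (hR : LvlOK f 0 R) (h0 : 0 < r) (hrR : r < R) {u : E3 → ℝ}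
    (hu : KEon f 0 R u) {A₀ : ℝ} (hE : Esc f R u A₀) {w : E3 → ℝ} (hw : SmL f 0 R w)
    (pw : ∀ θ O, PE f 0 R θ O → ∀ z ∈ O, ∀ v, 0 ≤ lev (fun z => w (θ z)) z v)
    (wi : ∀ c : ℝ, ∃ ρ : ℝ, 0 < ρ ∧ ∀ x, f x = 0 → x ≠ 0 → nsq x < ρ ^ 2 → w x < c)
    {ν : Measure E3} (hν : IsNu f 0 r ν) {χ : E3 → ℝ} (hχ : Cut r χ) (hV : VOL ν u χ < ⊤)
    (hI : VOL ν w χ < ⊤) : TOT ν f u χ ≤ TOT ν f w χ + 2 * (VOL ν u χ).toReal := by
  have hL : LvlOK f 0 r := lvl_mono hR h0 hrR.le
  have hu' : KEon f 0 r u := keon_mono hu h0.le hrR.le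
  have hw' : SmL f 0 r w := smL_mono hw h0.le hrR.le
  have hr2 : r ^ 2 < R ^ 2 := pow_lt_pow_left₀ hrR h0.le two_ne_zero
  obtain ⟨r₁, ρ, h1, h2, h3, h4, h5, h6⟩ := cut_rad hχ
  have P := (LX hL).part 0
  have hE' : Esc f r u A₀ := ⟨hE.pos, fun x a b c => hE.one x a b (c.trans hr2), hE.inf,
    fun θ O hθ => hE.grad θ O (V1Pe_822.pe_mono hθ h0.le hrR.le)⟩
  have su1 : SmL f 0 r fun y => u y - A₀ := fun θ O hθ => (hu'.sm θ O hθ).sub contDiffOn_const
  have su1R : SmL f 0 R fun y => u y - A₀ := fun θ O hθ => (hu.sm θ O hθ).sub contDiffOn_const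
  obtain ⟨B₁, hB₁⟩ := lower_on hR su1R (a := r₁ ^ 2) (b := r ^ 2) (by positivity) hr2
  obtain ⟨B₂, hB₂⟩ := lower_on hR hw (a := r₁ ^ 2) (b := r ^ 2) (by positivity) hr2
  have hts : ∀ x ∈ tsupport (rs hL χ), nsq x.1 ≤ ρ ^ 2 := by
    intro x hx
    have cn : Continuous fun x : (LX hL).M 0 => nsq x.1 := cont_nsq3.comp continuous_subtype_val
    have : tsupport (rs hL χ) ⊆ {x | nsq x.1 ≤ ρ ^ 2} := by
      refine closure_minimal (fun y hy => ?_) (isClosed_le cn continuous_const)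
      by_contra hcon
      exact hy (h5 _ (not_le.1 hcon).le)
    exact this hx
  have hχne : ∀ x : (LX hL).M 0, rs hL χ x ≠ 1 → r₁ ^ 2 ≤ nsq x.1 := by
    intro x hx
    by_contra hcon
    exact hx (h4 _ (not_le.1 hcon)).self_of_nhds
  have D : Dat P (rs hL fun y => u y - A₀) (rs hL w) (rs hL χ) (max B₁ B₂) (A₀ / 2) 0
      (2 * (VOL ν u χ).toReal) (2 * Real.exp A₀ * (VOL ν w χ).toReal) := by
    refine
      { hu := rs_sm hL su1
        hw := rs_sm hL hw'
        hχ := rs_sm hL (cut_smL hχ)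
        χ0 := fun x => hχ.nn _
        χ1 := fun x => hχ.le _
        pu := fun i x hx => ?_
        pw := fun i x hx => posSemi_rs hL hw'
          (fun θ O hθ => pw θ O (V1Pe_822.pe_mono hθ h0.le hrR.le)) hx
        u0 := fun x => ?_
        cpt := fun T => ?_
        outw := fun x hx => ?_
        outu := fun x hx => ?_
        deep := fun l => ?_
        C0 := by have := hE.pos; positivity
        grad := fun i x hx _ => grd_rs hL hu' hE' hx
        vol := fun ζ hζ ζ0 ζ1 hcs => ?_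
        eng := fun ζ hζ ζ0 ζ1 hcs => ?_ }
    · rw [hsf_sub_const hL hu'.sm A₀ hx]
      exact (posDef_rs hL hu' hx).posSemidef
    · obtain ⟨m1, m2, m3⟩ := mem_M hL x
      have := hE'.one x.1 m1 m2 m3
      change u x.1 - A₀ ≤ 0
      linarith
    · obtain ⟨δ, hδ, hδ2⟩ := hE'.inf (A₀ - T)
      refine (ann_compact hL hδ h2.le h3).of_isClosed_subset
        ((isClosed_tsupport _).inter (isClosed_le continuous_const (cont_rs hL su1))) ?_
      rintro x ⟨hx1, hx2⟩
      refine ⟨?_, hts x hx1⟩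
      by_contra hcon
      obtain ⟨m1, m2, m3⟩ := mem_M hL x
      have := hδ2 x.1 m1 m2 (not_le.1 hcon)
      have h7 : -T ≤ u x.1 - A₀ := hx2
      linarith
    · obtain ⟨m1, m2, m3⟩ := mem_M hL x
      have := hB₂ x.1 m1 (hχne x hx) m3.le
      have h7 := le_max_right B₁ B₂
      change -(max B₁ B₂) ≤ w x.1
      linarith
    · obtain ⟨m1, m2, m3⟩ := mem_M hL x
      have := hB₁ x.1 m1 (hχne x hx) m3.le
      have h7 := le_max_left B₁ B₂
      change -(max B₁ B₂) ≤ u x.1 - A₀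
      linarith
    · obtain ⟨δ, hδ, hδ2⟩ := wi (-l)
      obtain ⟨T, hT⟩ := lower_on hR su1R (a := δ ^ 2) (b := r ^ 2) (by positivity) hr2
      refine ⟨T, fun x hx => ?_⟩
      obtain ⟨m1, m2, m3⟩ := mem_M hL x
      refine hδ2 x.1 m1 m2 ?_
      by_contra hcon
      have := hT x.1 m1 (not_lt.1 hcon) m3.le
      have h7 : u x.1 - A₀ < -T := hx
      linarith
    · have h7 := eng_le hL hν P hu' A₀ hu'.sm hχ hV (c := 2) (by norm_num) (q := fun _ => 1)
        (fun x => by ring) hζ ζ1 hcs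
      simp only [mul_one] at h7
      exact h7
    · exact eng_le hL hν P hu' A₀ hw' hχ hI (c := 2 * Real.exp A₀) (by positivity)
        (q := fun x => Real.exp (rs hL w x - rs hL (fun y => u y - A₀) x)) (fun x => by
          change Real.exp (w x.1 - (u x.1 - A₀)) * (2 * Real.exp (u x.1)) = _
          have e1 : w x.1 - (u x.1 - A₀) + u x.1 = w x.1 + A₀ := by ring
          calc Real.exp (w x.1 - (u x.1 - A₀)) * (2 * Real.exp (u x.1))
              = 2 * (Real.exp (w x.1 - (u x.1 - A₀)) * Real.exp (u x.1)) := by ring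
            _ = 2 * Real.exp (w x.1 + A₀) := by rw [← Real.exp_add, e1]
            _ = _ := by rw [Real.exp_add]; ring) hζ ζ1 hcs
  have key := mass_le_pd D
  have e1 := (tot_bridge hL hν su1 hχ P).2
  have e2 := (tot_bridge hL hν hw' hχ P).2
  have k1 : TOT ν f (fun y => u y - A₀) χ ≤ TOT ν f w χ + 2 * (VOL ν u χ).toReal := by
    have e3 : (intD P (fun i x => (rs hL (fun y => u y - A₀) x : ℂ) *
        pd (hsf ((LX hL).A 0) (rs hL fun y => u y - A₀) i x)
          (hsf ((LX hL).A 0) (rs hL χ) i x))).re = TOT ν f (fun y => u y - A₀) χ := by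
      rw [← Complex.ofReal_re (TOT ν f (fun y => u y - A₀) χ), e1]
      rfl
    have e4 : (intD P (fun i x => (rs hL w x : ℂ) * pd (hsf ((LX hL).A 0) (rs hL w) i x)
          (hsf ((LX hL).A 0) (rs hL χ) i x))).re = TOT ν f w χ := by
      rw [← Complex.ofReal_re (TOT ν f w χ), e2]
      rfl
    rw [e3, e4] at key
    exact key
  obtain ⟨i5, e5⟩ := int_mxd_cut hL hν hu'.sm hχ
  have i6 := (tot_bridge hL hν hu'.sm hχ P).1
  have k2 : TOT ν f (fun y => u y - A₀) χ = TOT ν f u χ := by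
    unfold TOT
    have e6 : ∫ x, (u x - A₀) * mxd f (fun y => u y - A₀) χ x ∂ν =
        ∫ x, (u x * mxd f u χ x - A₀ * mxd f u χ x) ∂ν := by
      refine integral_congr_ae (isNu_ae hν fun x m2 m3 m1 => ?_)
      have e7 : mxd f (fun y => u y - A₀) χ x = mxd f u χ x := by
        rw [mxd_comm hL m2 m3 m1, mxd_comm hL (a := u) m2 m3 m1]
        rw [mxd_sub hL (a := χ) (b := u) (b' := fun _ => A₀) hu'.sm
          (fun θ O hθ => contDiffOn_const) m2 m3 m1,
          V1Top_822.mxd_const (c := A₀) (Eventually.of_forall fun _ => rfl), sub_zero]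
      change (u x - A₀) * mxd f (fun y => u y - A₀) χ x = _
      rw [e7]
      ring
    rw [e6, integral_sub i6 (i5.const_mul A₀), integral_const_mul, e5, mul_zero, sub_zero]
  rwa [k2] at k1

end

end Crest.Agent.R257.V3_218
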