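import Crest.Agent.R257.V3C_218
import Crest.Agent.R257.V1Top2_822
import Crest.Agent.R257.Vol_397
import Crest.Agent.R257.MsNe_980

/-!
R257 / V3D_218 (helper218): **MASS-LE in the language of the interface**: `V31Stmt`.

* `JnuStmt` : `g ∈ J_p(f)` ⟹ `∫ |g|^(2/p) dν < ∞` near `0`
* `v31_of`  : `JnuStmt → EscStmt → V31Stmt`
-/

set_option autoImplicit false
set_option linter.unusedSectionVars false

open Set Filter Topology Complex MeasureTheory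
open scoped ContDiff Matrix ComplexConjugate ComplexOrder ENNReal

namespace Crest.Agent.R257.V3_218

open Crest.Agent.R275.Geo
open Crest.Agent.R273.Defs_333 (lev)
open Crest.Agent.R257.Defs_219 Crest.Agent.R257.KED_952 Crest.Agent.R257.V1Defs_822
open Crest.Agent.R257.V1Pe_822 Crest.Agent.R257.V1W_822 Crest.Agent.R257.V1Top_822
open Crest.Agent.R257.V1Top2_822
open Crest.Agent.R257.PN_835 (nsq)
open Crest.Agent.R257.KEG_952 (Esc EscStmt V31Stmt)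
open Crest.Agent.R257.M3_5 (wpq m3_mass)

noncomputable section

/-- `g ∈ J_p(f)` gives the integrability of `|g|^(2/p)` on the level -/
def JnuStmt : Prop := ∀ (f g : E3 → ℂ) (r p : ℝ) (ν : Measure E3), Iso f → LvlOK f 0 r →
  IsNu f 0 r ν → 1 ≤ p → AnalyticAt ℂ g 0 → InJ p f g →
  ∃ δ : ℝ, 0 < δ ∧ ∫⁻ x in {x | nsq x < δ ^ 2}, ENNReal.ofReal (‖g x‖ ^ (2 / p)) ∂ν < ⊤

/-- subadditivity -/
theorem rpow_add_le {x y z : ℝ} (hx : 0 ≤ x) (hy : 0 ≤ y) (h0 : 0 ≤ z) (h1 : z ≤ 1) :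
    (x + y) ^ z ≤ x ^ z + y ^ z := by
  have h := NNReal.rpow_add_le_add_rpow ⟨x, hx⟩ ⟨y, hy⟩ h0 h1
  exact_mod_cast h

/-- the exponents -/
theorem pw_le {t a : ℝ} {p N : ℕ} (ht0 : 0 ≤ t) (ht1 : t ≤ 1) (ha : 0 < a) (hN : 0 < N)
    (hp : 1 / a ≤ (p : ℝ) / N) : (t ^ (2 * p)) ^ ((N : ℝ)⁻¹) ≤ t ^ (2 / a) := by
  have hN' : (0 : ℝ) < N := by exact_mod_cast hN
  have e1 : (t ^ (2 * p)) ^ ((N : ℝ)⁻¹) = t ^ (2 * ((p : ℝ) / N)) := by
    rw [← Real.rpow_natCast, ← Real.rpow_mul ht0]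
    congr 1
    push_cast
    ring
  rw [e1]
  refine Real.rpow_le_rpow_of_exponent_ge' ht0 ht1 (by positivity) ?_
  have e2 : 2 / a = 2 * (1 / a) := by ring
  rw [e2]
  linarith

/-- the pointwise bound of `e^w` -/
theorem exp_wpq_le {g h : E3 → ℂ} {x : E3} {a b : ℝ} {p q N : ℕ} (hg : ‖g x‖ ≤ 1)
    (hh : ‖h x‖ ≤ 1) (hne : g x ≠ 0 ∨ h x ≠ 0) (ha : 0 < a) (hb : 0 < b) (hN : 0 < N)
    (hp : 1 / a ≤ (p : ℝ) / N) (hq : 1 / b ≤ (q : ℝ) / N) :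
    Real.exp (wpq g h p q N x) ≤ ‖g x‖ ^ (2 / a) + ‖h x‖ ^ (2 / b) := by
  have hN' : (0 : ℝ) < N := by exact_mod_cast hN
  have hy : 0 < ‖g x‖ ^ (2 * p) + ‖h x‖ ^ (2 * q) := by
    rcases hne with h1 | h1
    · have := norm_pos_iff.2 h1; positivity
    · have := norm_pos_iff.2 h1; positivity
  have e1 : Real.exp (wpq g h p q N x) = (‖g x‖ ^ (2 * p) + ‖h x‖ ^ (2 * q)) ^ ((N : ℝ)⁻¹) := by
    rw [Real.rpow_def_of_pos hy]
    unfold wpq
    rw [mul_comm]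
  rw [e1]
  have h1 : (N : ℝ)⁻¹ ≤ 1 := inv_le_one_of_one_le₀ (by exact_mod_cast hN)
  refine (rpow_add_le (by positivity) (by positivity) (by positivity) h1).trans ?_
  exact add_le_add (pw_le (norm_nonneg _) hg ha hN hp) (pw_le (norm_nonneg _) hh hb hN hq)

theorem wpq_lgh (g h : E3 → ℂ) (p q : ℕ) (c : ℝ) :
    wpq g h p q c = fun x => c⁻¹ * lgh (fun x => g x ^ p) (fun x => h x ^ q) x := by
  funext x
  unfold wpq lgh
  simp only [norm_pow]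
  rw [← pow_mul, ← pow_mul, mul_comm p 2, mul_comm q 2]

/-- **`V31Stmt`** -/
theorem v31_of (jnu : JnuStmt) (esc : EscStmt) : V31Stmt := by
  intro Φ τ₀ l r C w u hS f hf hm χ hχ ν hν
  have hiso : Iso f := by rw [hf]; exact hS.iso
  have hL : LvlOK f 0 r := by
    rw [hf]
    exact ⟨hS.r_pos, fun x hx => (hS.an x hx.le).curry_left,
      fun x h0 hx h1 => hS.sm0 x h0 hx.le h1⟩
  have hu : KEon f 0 r u := by rw [hf]; exact hS.ke0.1
  refine le_csInf (MsNe_980.mset_nonempty hiso) fun c hc => ?_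
  have hcm : mstar f ≤ c := csInf_le (bddBelow_mset f) hc
  obtain ⟨a, b, ha, hb, g, h, hg, hh, hgJ, hhJ, hfin, hce⟩ := hc
  have ha0 : 0 < a := by linarith
  have hb0 : 0 < b := by linarith
  have hcol0 : col ![f, g, h] ≠ 0 := by
    intro h0
    rw [h0, Nat.cast_zero, zero_div] at hce
    linarith
  have hG : ∀ j, AnalyticAt ℂ ((![f, g, h] : Fin 3 → E3 → ℂ) j) 0 := by
    intro j
    fin_cases j
    · exact hiso.an
    · exact hg
    · exact hh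
  have g0 : g 0 = 0 := by
    by_contra hcon
    exact hcol0 (Skel_219.col_eq_zero (G := ![f, g, h]) (j := 1) hg hcon)
  have h0 : h 0 = 0 := by
    by_contra hcon
    exact hcol0 (Skel_219.col_eq_zero (G := ![f, g, h]) (j := 2) hh hcon)
  obtain ⟨ρ₀, A₀, hρ₀, -, hE⟩ := esc Φ τ₀ l r C w u hS f hf hm
  obtain ⟨ρ₁, hρ₁, hz⟩ := nsq_lt_of (iso_zero hG hfin)
  obtain ⟨ρ₂, hρ₂, hga⟩ := nsq_lt_of hg.eventually_analyticAt
  obtain ⟨ρ₃, hρ₃, hha⟩ := nsq_lt_of hh.eventually_analyticAt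
  obtain ⟨δ₁, hδ₁, hi1⟩ := jnu f g r a ν hiso hL hν ha hg hgJ
  obtain ⟨δ₂, hδ₂, hi2⟩ := jnu f h r b ν hiso hL hν hb hh hhJ
  obtain ⟨ρ₄, hρ₄, hm3⟩ := m3_mass hiso.an hg hh hiso.zero g0 h0 hfin
  obtain ⟨ρ₅, hρ₅, hb1⟩ := nsq_lt_of (p := fun x => ‖g x‖ ≤ 1 ∧ ‖h x‖ ≤ 1) (by
    have e1 : ∀ᶠ x in 𝓝 (0 : E3), ‖g x‖ < 1 :=
      hg.continuousAt.norm.eventually_lt continuousAt_const (by simp [g0])
    have e2 : ∀ᶠ x in 𝓝 (0 : E3), ‖h x‖ < 1 :=
      hh.continuousAt.norm.eventually_lt continuousAt_const (by simp [h0])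
    filter_upwards [e1, e2] with x k1 k2
    exact ⟨k1.le, k2.le⟩)
  obtain ⟨R, hR0, l0, l1, l2, l3, l4, l5, l6, l7, l8⟩ : ∃ R : ℝ, 0 < R ∧ R ≤ r ∧ R ≤ ρ₀ ∧ R ≤ ρ₁ ∧
      R ≤ ρ₂ ∧ R ≤ ρ₃ ∧ R ≤ ρ₄ ∧ R ≤ ρ₅ ∧ R ≤ δ₁ ∧ R ≤ δ₂ := by
    refine ⟨min r (min ρ₀ (min ρ₁ (min ρ₂ (min ρ₃ (min ρ₄ (min ρ₅ (min δ₁ δ₂))))))), ?_⟩
    refine ⟨?_, ?_⟩
    · exact lt_min hL.pos (lt_min hρ₀ (lt_min hρ₁ (lt_min hρ₂ (lt_min hρ₃ (lt_min hρ₄
        (lt_min hρ₅ (lt_min hδ₁ hδ₂)))))))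
    · simp only [min_le_iff, le_refl, true_or, or_true, and_true]
  obtain ⟨r', hr', hr'R⟩ : ∃ r' : ℝ, 0 < r' ∧ r' < R := ⟨R / 2, by positivity, by linarith⟩
  have mono : ∀ {a : ℝ}, R ≤ a → ∀ {x : E3}, nsq x < R ^ 2 → nsq x < a ^ 2 :=
    fun ha _ hx => hx.trans_le (pow_le_pow_left₀ hR0.le ha 2)
  have mono' : ∀ {x : E3}, nsq x < r' ^ 2 → nsq x < R ^ 2 :=
    fun hx => hx.trans_le (pow_le_pow_left₀ hr'.le hr'R.le 2)
  have hr'r : r' ≤ r := hr'R.le.trans l0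
  have hLR : LvlOK f 0 R := lvl_mono hL hR0 l0
  have hL' : LvlOK f 0 r' := lvl_mono hL hr' hr'r
  have huR : KEon f 0 R u := keon_mono hu hR0.le l0
  have hER : Esc f R u A₀ := ⟨hE.pos, fun x k1 k2 k3 => hE.one x k1 k2 (mono l1 k3), hE.inf,
    fun θ O hθ => hE.grad θ O (pe_mono hθ hR0.le l1)⟩
  have hν' := isNu_restr hν hr' hr'r
  set ν' : Measure E3 := ν.restrict {x | nsq x < r' ^ 2} with hν'd
  obtain ⟨χ', hχ'⟩ := exists_cut hr'
  have hχ'r : Cut r χ' := cut_mono hχ' hr'r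
  have hV := Vol_397.volStmt Φ τ₀ l r C w u hS f hf χ hχ ν hν
  have hV' := Vol_397.volStmt Φ τ₀ l r C w u hS f hf χ' hχ'r ν hν
  have hV'' : VOL ν' u χ' < ⊤ := by rw [hν'd, ← VOL_restr hχ']; exact hV'
  have e1 : mas ν f u χ = mas ν' f u χ' := by
    rw [mas_cut' hL hν hu hχ hχ'r hV hV']
    unfold mas
    rw [hν'd, ← VOL_restr hχ', ← TOT_restr hχ']
  have hne : ∀ x, f x = 0 → x ≠ 0 → nsq x < R ^ 2 → g x ≠ 0 ∨ h x ≠ 0 := by
    intro x hx1 hx2 hx3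
    by_contra hcon
    push Not at hcon
    refine hx2 (hz x (mono l2 hx3) fun j => ?_)
    fin_cases j
    · exact hx1
    · exact hcon.1
    · exact hcon.2
  have hmeas : MeasurableSet {x : E3 | nsq x < r' ^ 2} :=
    (isOpen_lt continuous_nsq3 continuous_const).measurableSet
  -- the two integrals on the small ball
  have hj : ∀ {δ : ℝ}, R ≤ δ → ∀ {k : E3 → ℂ} {t : ℝ},
      ∫⁻ x in {x | nsq x < δ ^ 2}, ENNReal.ofReal (‖k x‖ ^ (2 / t)) ∂ν < ⊤ →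
      ∫⁻ x, ENNReal.ofReal (‖k x‖ ^ (2 / t)) ∂ν' < ⊤ := by
    intro δ hδ k t hk
    refine lt_of_le_of_lt (lintegral_mono' (Measure.restrict_mono ?_ le_rfl) le_rfl) hk
    intro x hx
    exact mono hδ (mono' hx)
  -- the inequality with rational exponents
  have key : ∀ (p q N : ℕ), 0 < N → 1 / a ≤ (p : ℝ) / N → 1 / b ≤ (q : ℝ) / N →
      mas ν f u χ ≤ ((p : ℝ) / N) * ((q : ℝ) / N) * col ![f, g, h] := by
    intro p q N hN hp hq
    have hN' : (0 : ℝ) < N := by exact_mod_cast hN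
    have hp0 : 0 < p := by
      rcases Nat.eq_zero_or_pos p with h1 | h1
      · rw [h1, Nat.cast_zero, zero_div] at hp
        have : 0 < 1 / a := by positivity
        linarith
      · exact h1
    have hq0 : 0 < q := by
      rcases Nat.eq_zero_or_pos q with h1 | h1
      · rw [h1, Nat.cast_zero, zero_div] at hq
        have : 0 < 1 / b := by positivity
        linarith
      · exact h1
    have hne' : ∀ x, f x = 0 → x ≠ 0 → nsq x < R ^ 2 → g x ^ p ≠ 0 ∨ h x ^ q ≠ 0 := by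
      intro x k1 k2 k3
      rcases hne x k1 k2 k3 with k4 | k4
      · exact Or.inl (pow_ne_zero _ k4)
      · exact Or.inr (pow_ne_zero _ k4)
    have hgp : ∀ x, nsq x < R ^ 2 → AnalyticAt ℂ (fun x => g x ^ p) x :=
      fun x hx => (hga x (mono l3 hx)).pow p
    have hhq : ∀ x, nsq x < R ^ 2 → AnalyticAt ℂ (fun x => h x ^ q) x :=
      fun x hx => (hha x (mono l4 hx)).pow q
    obtain ⟨w1, w2, w3⟩ := wt (f := f) (s := 0) hgp hhq hne' (c := (N : ℝ)⁻¹) (by positivity)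
    have w4 := wt_inf (f := f) (s := 0) (g := fun x => g x ^ p) (h := fun x => h x ^ q)
      (hg.pow p) (hh.pow q) (by simp [g0, hp0.ne']) (by simp [h0, hq0.ne']) hR0 hne'
      (k := (N : ℝ)⁻¹) (by positivity)
    rw [← wpq_lgh g h p q N] at w1
    have w2' : ∀ θ O, PE f 0 R θ O → ∀ z ∈ O, ∀ v, 0 ≤ lev (fun z => wpq g h p q N (θ z)) z v := by
      intro θ O hθ z hz v
      rw [wpq_lgh]
      exact w2 θ O hθ z hz v
    have w4' : ∀ c : ℝ, ∃ ρ : ℝ, 0 < ρ ∧ ∀ x, f x = 0 → x ≠ 0 → nsq x < ρ ^ 2 →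
        wpq g h p q N x < c := by
      rw [wpq_lgh]
      exact w4
    have hI : VOL ν' (wpq g h p q N) χ' < ⊤ := by
      have k1 : VOL ν' (wpq g h p q N) χ' ≤ ∫⁻ x, (ENNReal.ofReal (‖g x‖ ^ (2 / a)) +
          ENNReal.ofReal (‖h x‖ ^ (2 / b))) ∂ν' := by
        unfold VOL
        refine lintegral_mono_ae (isNu_ae hν' fun x m2 m3 m1 => ?_)
        rw [← ENNReal.ofReal_add (by positivity) (by positivity)]
        refine ENNReal.ofReal_le_ofReal ?_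
        have m4 := mono' m3
        obtain ⟨b1, b2⟩ := hb1 x (mono l6 m4)
        have k2 := exp_wpq_le (p := p) (q := q) b1 b2 (hne x m1 m2 m4) ha0 hb0 hN hp hq
        calc χ' x * Real.exp (wpq g h p q N x) ≤ 1 * Real.exp (wpq g h p q N x) :=
              mul_le_mul_of_nonneg_right (hχ'.le x) (Real.exp_pos _).le
          _ = Real.exp (wpq g h p q N x) := one_mul _
          _ ≤ _ := k2
      refine lt_of_le_of_lt k1 ?_
      have hme : AEMeasurable (fun x => ENNReal.ofReal (‖g x‖ ^ (2 / a))) ν' := by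
        have hc : ContinuousOn (fun x => ‖g x‖ ^ (2 / a)) {x : E3 | nsq x < r' ^ 2} := by
          refine ContinuousOn.rpow_const (fun x hx => ?_) fun x _ => Or.inr (by positivity)
          exact (hga x (mono l3 (mono' hx))).continuousAt.norm.continuousWithinAt
        exact (hc.aemeasurable hmeas).ennreal_ofReal
      rw [lintegral_add_left' hme]
      exact ENNReal.add_lt_top.2 ⟨hj l7 hi1, hj l8 hi2⟩
    have e2 := mass_lvl hLR hr' hr'R huR hER w1 w2' w4' hν' hχ' hV'' hI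
    have e3 := hm3 r' (hr'R.le.trans l5) hL' ν' hν' χ' hχ' p q N hp0 hq0 hN'.ne'
    rw [e3] at e2
    rw [e1]
    unfold mas
    have hπ : 0 < Real.pi ^ 2 := by positivity
    rw [div_le_iff₀ hπ]
    have e4 : Real.pi ^ 2 * ((p : ℝ) * q * col ![f, g, h]) / (N : ℝ) ^ 2 =
        (p : ℝ) / N * ((q : ℝ) / N) * col ![f, g, h] * Real.pi ^ 2 := by
      field_simp
    rw [e4] at e2
    linarith
  -- the limit
  have t1 : ∀ t : ℝ, 0 < t → Tendsto (fun n : ℕ => (⌈1 / t * ((n + 1 : ℕ) : ℝ)⌉₊ : ℝ) /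
      ((n + 1 : ℕ) : ℝ)) atTop (𝓝 (1 / t)) := by
    intro t ht
    have h1 := tendsto_nat_ceil_mul_div_atTop (R := ℝ) (a := 1 / t) (by positivity)
    exact h1.comp (tendsto_natCast_atTop_atTop.comp (tendsto_add_atTop_nat 1))
  have t2 : Tendsto (fun n : ℕ => (⌈1 / a * ((n + 1 : ℕ) : ℝ)⌉₊ : ℝ) / ((n + 1 : ℕ) : ℝ) *
      ((⌈1 / b * ((n + 1 : ℕ) : ℝ)⌉₊ : ℝ) / ((n + 1 : ℕ) : ℝ)) * col ![f, g, h]) atTop
      (𝓝 (1 / a * (1 / b) * col ![f, g, h])) := ((t1 a ha0).mul (t1 b hb0)).mul_const _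
  have t3 : mas ν f u χ ≤ 1 / a * (1 / b) * col ![f, g, h] := by
    refine ge_of_tendsto t2 (Eventually.of_forall fun n => ?_)
    have hn : (0 : ℝ) < ((n + 1 : ℕ) : ℝ) := by positivity
    refine key _ _ (n + 1) (Nat.succ_pos n) ?_ ?_
    · rw [le_div_iff₀ hn]
      exact Nat.le_ceil _
    · rw [le_div_iff₀ hn]
      exact Nat.le_ceil _
  rw [hce]
  refine t3.trans (le_of_eq ?_)
  field_simp

end

end Crest.Agent.R257.V3_218
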