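import Crest.Agent.R257.C2F1_625

/-!
R257 / VLa_218 (helper218): comparison of two Hermitian metrics on `ℂ²` (pointwise).

* `inv_anti` : inversion is antitone
* `adj_psd`  : the adjugate of a positive semidefinite `2 × 2` matrix
* `le_tr`    : `K ≤ tr (G⁻¹ K) G`
* `cmp2`     : `H⁻¹ ≤ c K`, `K ≤ T G` ⟹ `G⁻¹ ≤ c T H`, `H ≤ c T det G det H G⁻¹`
-/

set_option autoImplicit false

open scoped Matrix ComplexOrder ComplexConjugate

noncomputable section

namespace Crest.Agent.R257.VL_218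

open Matrix
open Crest.Agent.R257.C2F1_625 (pd)

/-- inversion is antitone on positive definite matrices -/
theorem inv_anti {e : Type*} [Fintype e] [DecidableEq e] {X Y : Matrix e e ℂ} (hX : X.PosDef)
    (hXY : (Y - X).PosSemidef) : (X⁻¹ - Y⁻¹).PosSemidef := by
  have hY : Y.PosDef := by
    have := hX.add_posSemidef hXY
    simpa using this
  have hXi : X⁻¹.PosDef := hX.inv
  have : Invertible X⁻¹ := hXi.isUnit.invertible
  have : Invertible Y := hY.isUnit.invertible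
  have hdet : IsUnit X.det := (Matrix.isUnit_iff_isUnit_det _).1 hX.isUnit
  have h1 : (fromBlocks X⁻¹ (1 : Matrix e e ℂ) (1 : Matrix e e ℂ)ᴴ Y).PosSemidef := by
    rw [PosDef.fromBlocks₁₁ 1 Y hXi]
    simpa [Matrix.nonsing_inv_nonsing_inv _ hdet] using hXY
  rw [PosDef.fromBlocks₂₂ X⁻¹ 1 hY] at h1
  simpa using h1

abbrev M2 : Type := Matrix (Fin 2) (Fin 2) ℂ

/-- the adjugate of a positive semidefinite `2 × 2` matrix -/
theorem adj_psd {P : M2} (hP : P.PosSemidef) : P.adjugate.PosSemidef := by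
  have h1 := hP.transpose.conjTranspose_mul_mul_same (!![0, 1; -1, 0] : M2)
  have h2 : (!![0, 1; -1, 0] : M2)ᴴ * Pᵀ * (!![0, 1; -1, 0] : M2) = P.adjugate := by
    rw [Matrix.adjugate_fin_two]
    ext i j
    fin_cases i <;> fin_cases j <;>
      simp [Matrix.mul_apply, Fin.sum_univ_two, Matrix.conjTranspose_apply]
  rwa [h2] at h1

theorem det_real {G : M2} (hG : G.PosDef) : ((G.det.re : ℝ) : ℂ) = G.det ∧ 0 < G.det.re := by
  have h := hG.det_pos
  have h1 := Complex.lt_def.1 h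
  refine ⟨?_, h1.1⟩
  apply Complex.ext
  · simp
  · simpa using h1.2

theorem key2 (G K : M2) : (pd G K) • G - G.det • K = G * K.adjugate * G := by
  rw [Matrix.adjugate_fin_two, Matrix.det_fin_two]
  ext i j
  fin_cases i <;> fin_cases j <;>
    simp [Matrix.mul_apply, Fin.sum_univ_two, pd] <;> ring

/-- `K ≤ tr (G⁻¹ K) G` -/
theorem le_tr {G K : M2} (hG : G.PosDef) (hK : K.PosSemidef) {T : ℝ}
    (hT : pd G K = ((T * G.det.re : ℝ) : ℂ)) : ((T : ℂ) • G - K).PosSemidef := by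
  obtain ⟨e1, e2⟩ := det_real hG
  have h1 := (adj_psd hK).conjTranspose_mul_mul_same G
  rw [hG.isHermitian.eq, ← key2, hT] at h1
  have h2 : (T : ℂ) • G - K = (((G.det.re)⁻¹ : ℝ) : ℂ) •
      ((((T * G.det.re : ℝ) : ℂ)) • G - G.det • K) := by
    have h3 : (G.det.re : ℂ) ≠ 0 := by exact_mod_cast e2.ne'
    rw [← e1]
    simp only [Complex.ofReal_re, smul_sub, smul_smul, Complex.ofReal_mul, Complex.ofReal_inv]
    congr 1
    · congr 1
      field_simp
    · rw [inv_mul_cancel₀ h3, one_smul]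
  rw [h2]
  exact h1.smul (by exact_mod_cast (inv_pos.2 e2).le)

theorem smul_psd {P : M2} (hP : P.PosSemidef) {t : ℝ} (ht : 0 ≤ t) : ((t : ℂ) • P).PosSemidef :=
  hP.smul (by exact_mod_cast ht)

theorem adj_eq {X : M2} (hu : IsUnit X.det) : X.adjugate = X.det • X⁻¹ := by
  rw [Matrix.inv_def, smul_smul, Ring.mul_inverse_cancel _ hu, one_smul]

theorem adj_inv {H : M2} (hH : H.PosDef) : (H⁻¹).adjugate = (((H.det.re)⁻¹ : ℝ) : ℂ) • H := by
  obtain ⟨e1, e2⟩ := det_real hH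
  have hu : IsUnit H.det := (Matrix.isUnit_iff_isUnit_det _).1 hH.isUnit
  have h3 : (H⁻¹)⁻¹ = H := Matrix.nonsing_inv_nonsing_inv _ hu
  have h4 : (H⁻¹).adjugate = (H⁻¹).det • (H⁻¹)⁻¹ :=
    adj_eq ((Matrix.isUnit_iff_isUnit_det _).1 hH.inv.isUnit)
  rw [h4, h3, Matrix.det_nonsing_inv, Ring.inverse_eq_inv', ← e1]
  simp

theorem adj_pos {G : M2} (hG : G.PosDef) : G.adjugate = ((G.det.re : ℝ) : ℂ) • G⁻¹ := by
  obtain ⟨e1, e2⟩ := det_real hG
  have hu : IsUnit G.det := (Matrix.isUnit_iff_isUnit_det _).1 hG.isUnit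
  rw [e1, Matrix.inv_def, smul_smul, Ring.mul_inverse_cancel _ hu, one_smul]

/-- **comparison** -/
theorem cmp2 {G H K : M2} (hG : G.PosDef) (hH : H.PosDef) (hK : K.PosSemidef) {c T : ℝ}
    (hc : 0 ≤ c) (h1 : ((c : ℂ) • K - H⁻¹).PosSemidef)
    (hT : pd G K = ((T * G.det.re : ℝ) : ℂ)) :
    (((c * T : ℝ) : ℂ) • H - G⁻¹).PosSemidef ∧
      (((c * T * (G.det.re * H.det.re) : ℝ) : ℂ) • G⁻¹ - H).PosSemidef := by
  obtain ⟨e1, e2⟩ := det_real hG
  obtain ⟨e3, e4⟩ := det_real hH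
  have h2 := le_tr hG hK hT
  -- `H⁻¹ ≤ c T G`
  have h3 : (((c * T : ℝ) : ℂ) • G - H⁻¹).PosSemidef := by
    have := (smul_psd h2 hc).add h1
    have e : ((c : ℂ) • ((T : ℂ) • G - K) + ((c : ℂ) • K - H⁻¹)) =
        ((c * T : ℝ) : ℂ) • G - H⁻¹ := by
      rw [smul_sub, smul_smul, Complex.ofReal_mul]
      abel
    rwa [e] at this
  -- `c T > 0`
  have hcT : 0 < c * T := by
    by_contra hcon
    push Not at hcon
    have h4 : (-(H⁻¹)).PosSemidef := by
      have h5 := (smul_psd hG.posSemidef (by linarith : 0 ≤ -(c * T))).add h3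
      have e : (((-(c * T) : ℝ) : ℂ) • G + (((c * T : ℝ) : ℂ) • G - H⁻¹)) = -(H⁻¹) := by
        rw [Complex.ofReal_neg, neg_smul]
        abel
      rwa [e] at h5
    have h6 := hH.inv.diag_pos (i := 0)
    have h7 := h4.diag_nonneg (i := 0)
    rw [Matrix.neg_apply] at h7
    have h8 := (Complex.lt_def.1 h6).1
    have h9 := (Complex.le_def.1 h7).1
    simp only [Complex.zero_re, Complex.neg_re] at h8 h9
    linarith
  constructor
  · have hGt : (((c * T : ℝ) : ℂ) • G).PosDef := hG.smul (by exact_mod_cast hcT)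
    have h4 := inv_anti hH.inv h3
    have hu : IsUnit H.det := (Matrix.isUnit_iff_isUnit_det _).1 hH.isUnit
    rw [Matrix.nonsing_inv_nonsing_inv _ hu] at h4
    have h5 : (((c * T : ℝ) : ℂ) • G)⁻¹ = (((c * T)⁻¹ : ℝ) : ℂ) • G⁻¹ := by
      refine Matrix.inv_eq_left_inv ?_
      rw [Matrix.smul_mul, Matrix.mul_smul, smul_smul, ← Complex.ofReal_mul,
        inv_mul_cancel₀ hcT.ne', Complex.ofReal_one, one_smul,
        Matrix.nonsing_inv_mul _ ((Matrix.isUnit_iff_isUnit_det _).1 hG.isUnit)]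
    rw [h5] at h4
    have h6 := smul_psd h4 hcT.le
    have e : (((c * T : ℝ) : ℂ) • (H - (((c * T)⁻¹ : ℝ) : ℂ) • G⁻¹)) =
        ((c * T : ℝ) : ℂ) • H - G⁻¹ := by
      rw [smul_sub, smul_smul, ← Complex.ofReal_mul, mul_inv_cancel₀ hcT.ne', Complex.ofReal_one,
        one_smul]
    rwa [e] at h6
  · have h4 := adj_psd h3
    have h5 : (((c * T : ℝ) : ℂ) • G - H⁻¹).adjugate =
        ((c * T : ℝ) : ℂ) • G.adjugate - (H⁻¹).adjugate := by
      rw [Matrix.adjugate_fin_two, Matrix.adjugate_fin_two, Matrix.adjugate_fin_two]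
      ext i j
      fin_cases i <;> fin_cases j <;> simp <;> ring
    rw [h5, adj_pos hG, adj_inv hH] at h4
    have h6 := smul_psd h4 e4.le
    have e : (((H.det.re : ℝ) : ℂ) • (((c * T : ℝ) : ℂ) • (((G.det.re : ℝ) : ℂ) • G⁻¹) -
        (((H.det.re)⁻¹ : ℝ) : ℂ) • H)) =
        ((c * T * (G.det.re * H.det.re) : ℝ) : ℂ) • G⁻¹ - H := by
      rw [smul_sub, smul_smul, smul_smul, smul_smul, ← Complex.ofReal_mul, ← Complex.ofReal_mul,
        ← Complex.ofReal_mul, mul_inv_cancel₀ e4.ne', Complex.ofReal_one, one_smul]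
      congr 3
      ring
    rwa [e] at h6

end Crest.Agent.R257.VL_218
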