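import Crest.Agent.R257.VLa_218
import Crest.Agent.R257.MsJ4_617
import Crest.Agent.R257.KUP_952

/-!
R257 / VLb_218 (helper218): comparison of the Kaehler-Einstein metric and of a trial metric.

* `TT f u φ` : `∑_j tr_ω (e^{-φ_j} ∂∂̄e^{φ_j})`
* `cpr_at`   : `H⁻¹ ≤ C ∑_j e^{-φ_j} ∂∂̄e^{φ_j}`, `det H |η|² = e^{-ψ}`, `u ≤ ψ + C₁` ⟹
  `e^{-V} H₁ ≤ H ≤ e^V H₁`, `V = log (e + C' T)`
* `cum`      : cumulative Jensen inequality
* `vpart`    : the function `V` of `TrialStmt`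
-/

set_option autoImplicit false
set_option linter.unusedSectionVars false

open Topology Filter MeasureTheory Set
open scoped ENNReal ContDiff Matrix ComplexOrder

noncomputable section

namespace Crest.Agent.R257.VL_218

open Crest.Agent.R275.Geo
open Crest.Agent.R273
open Crest.Agent.R273.Defs_333 (lev)
open Crest.Agent.R273.YauDefs_635 (cH lev333_eq_lev145)
open Crest.Agent.R257.Defs_219 Crest.Agent.R257.KED_952 Crest.Agent.R257.KEG_952
open Crest.Agent.R257.V1Defs_822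
open Crest.Agent.R257.V1Pe_822 Crest.Agent.R257.UpK_938
open Crest.Agent.R257.Bridge_822 (pd_real)
open Crest.Agent.R257.PN_835 (nsq)
open Crest.Agent.R257.Aff_835 (eta2a)
open Crest.Agent.R257.C2F1_625 (pd)
open Crest.Agent.R257.LossA_625 (Lv psd_cH)
open Crest.Agent.R257.LossD_309 (HO dV)
open Crest.Agent.R257.KUP_952
open Crest.Agent.R257.MsJ_617
open Crest.Agent.R257.KedM_941 (aem_of_ctL)

variable {f : E3 → ℂ} {r A : ℝ} {u : E3 → ℝ}

/-- `∑_j tr_ω (e^{-φ_j} ∂∂̄e^{φ_j})` -/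
def TT (f : E3 → ℂ) (u : E3 → ℝ) {m : ℕ} (φ : Fin m → E3 → ℝ) (x : E3) : ℝ :=
  ∑ j, Real.exp (-φ j x) * mxd f u (fun y => Real.exp (φ j y)) x * Real.exp (-u x)

theorem posDef_cH (hK : KEon f 0 r u) {θ : Cn 2 → E3} {O : Set (Cn 2)} (hP : PE f 0 r θ O)
    {z : Cn 2} (hz : z ∈ O) : (cH (fun y => u (θ y)) z).PosDef := by
  rw [YauMax_635.cH_eq_hess (smAt (a := u) hK.sm hP hz)]
  exact HessB_333.posDef_hess (smAt (a := u) hK.sm hP hz) (hK.pos θ O hP z hz)

/-- `e^φ` is psh -/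
theorem exp_psh {φ : E3 → ℝ} (hφ : SmL f 0 r φ)
    (hp : ∀ θ O, PE f 0 r θ O → ∀ z ∈ O, ∀ v, 0 ≤ lev (fun z => φ (θ z)) z v)
    {θ : Cn 2 → E3} {O : Set (Cn 2)} (hP : PE f 0 r θ O) {z : Cn 2} (hz : z ∈ O) (v : Cn 2) :
    0 ≤ lev (fun y => Real.exp (φ (θ y))) z v := by
  have h1 : ContDiffAt ℝ ∞ (fun y => φ (θ y)) z := smAt hφ hP hz
  have h2 := hp θ O hP z hz v
  rw [lev333_eq_lev145] at h2 ⊢
  rw [Levi_145.lev_comp_real (χ := Real.exp) (χ' := Real.exp)
    (h1.of_le (WithTop.coe_le_coe.2 (le_top : (2 : ℕ∞) ≤ ⊤)))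
    (Eventually.of_forall fun t => Real.hasDerivAt_exp t) (Real.hasDerivAt_exp _) v]
  have h3 := Real.exp_pos (φ (θ z))
  have h4 : 0 ≤ Levi_145.lev (fun y => φ (θ y)) z v := by linarith
  positivity

theorem smL_exp {φ : E3 → ℝ} (hφ : SmL f 0 r φ) : SmL f 0 r (fun y => Real.exp (φ y)) :=
  smL_comp Real.contDiff_exp hφ

/-- the form `∑_j e^{-φ_j} ∂∂̄e^{φ_j}` -/
def KK {m : ℕ} (φ : Fin m → E3 → ℝ) (θ : Cn 2 → E3) (z : Cn 2) : M2 :=
  ∑ j, ((Real.exp (-φ j (θ z)) : ℝ) : ℂ) • cH (fun y => Real.exp (φ j (θ y))) z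

section

variable {m : ℕ} {φ : Fin m → E3 → ℝ} (hφ : ∀ j, SmL f 0 r (φ j))
  (hp : ∀ j, ∀ θ O, PE f 0 r θ O → ∀ z ∈ O, ∀ v, 0 ≤ lev (fun z => φ j (θ z)) z v)

include hφ hp in
theorem KK_psd {θ : Cn 2 → E3} {O : Set (Cn 2)} (hP : PE f 0 r θ O) {z : Cn 2} (hz : z ∈ O) :
    (KK φ θ z).PosSemidef := by
  unfold KK
  refine Matrix.posSemidef_sum _ fun j _ => ?_
  exact smul_psd (psd_cH (smAt (smL_exp (hφ j)) hP hz) (exp_psh (hφ j) (hp j) hP hz))
    (Real.exp_pos _).le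

theorem pd_sum' {m : ℕ} (G : M2) (F : Fin m → M2) : pd G (∑ j, F j) = ∑ j, pd G (F j) := by
  induction m with
  | zero => simp [pd]
  | succ n ih => rw [Fin.sum_univ_succ, Fin.sum_univ_succ, C2F1_625.pd_add, ih]

include hφ hp in
theorem pd_KK (hf : LvlOK f 0 r) (hK : KEon f 0 r u) {θ : Cn 2 → E3} {O : Set (Cn 2)}
    (hP : PE f 0 r θ O) {z : Cn 2} (hz : z ∈ O) :
    pd (cH (fun y => u (θ y)) z) (KK φ θ z) =
      ((TT f u φ (θ z) * (cH (fun y => u (θ y)) z).det.re : ℝ) : ℂ) := by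
  have hG := posDef_cH hK hP hz
  have hd : (cH (fun y => u (θ y)) z).det.re = Real.exp (u (θ z)) * eta2a (n := 2) f θ z := by
    rw [hK.ma θ O hP z hz, Complex.ofReal_re]
  unfold KK TT
  rw [pd_sum', Finset.sum_mul, Complex.ofReal_sum]
  refine Finset.sum_congr rfl fun j _ => ?_
  have h1 := (Crest.Agent.R257.Ked2_397.denStmt f 0 r hf.pos hf.an hf.sm _ _ hP).1 u
    (fun y => Real.exp (φ j y)) (hK.sm θ O hP) (smL_exp (hφ j) θ O hP) z hz
  have h2 : (cH (fun y => Real.exp (φ j (θ y))) z).IsHermitian :=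
    (psd_cH (smAt (smL_exp (hφ j)) hP hz) (exp_psh (hφ j) (hp j) hP hz)).isHermitian
  rw [C2F1_625.pd_smul, pd_real hG.isHermitian h2, ← Complex.ofReal_mul]
  congr 1
  have h1' : (pd (cH (fun y => u (θ y)) z) (cH (fun y => Real.exp (φ j (θ y))) z)).re =
      mxd f u (fun y => Real.exp (φ j y)) (θ z) * eta2a (n := 2) f θ z := h1.symm
  rw [h1', hd]
  have e5 : Real.exp (-u (θ z)) * Real.exp (u (θ z)) = 1 := by
    rw [← Real.exp_add]
    simp
  linear_combination (-(Real.exp (-φ j (θ z)) * mxd f u (fun y => Real.exp (φ j y)) (θ z) *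
    eta2a (n := 2) f θ z)) * e5

include hφ hp in
theorem TT_nonneg (hf : LvlOK f 0 r) (hK : KEon f 0 r u) {x : E3} (hx : x ≠ 0)
    (hr : nsq x < r ^ 2) (hfx : f x = 0) : 0 ≤ TT f u φ x := by
  unfold TT
  refine Finset.sum_nonneg fun j _ => ?_
  have := mxd_nonneg hf hK (smL_exp (hφ j)) (fun θ O hP z hz v => exp_psh (hφ j) (hp j) hP hz v)
    hx hr hfx
  positivity

theorem psd_mono {X Y : M2} (hX : X.PosSemidef) {a b : ℝ} (hab : a ≤ b)
    (h : ((a : ℂ) • X - Y).PosSemidef) : ((b : ℂ) • X - Y).PosSemidef := by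
  have h1 := (smul_psd hX (sub_nonneg.2 hab)).add h
  have e : ((b - a : ℝ) : ℂ) • X + ((a : ℂ) • X - Y) = (b : ℂ) • X - Y := by
    rw [Complex.ofReal_sub, sub_smul]
    abel
  rwa [e] at h1

theorem HK_eq (u : E3 → ℝ) (θ : Cn 2 → E3) (z : Cn 2) :
    HK u θ z = (cH (fun y => u (θ y)) z)⁻¹ := by
  simp [HO]

include hφ hp in
/-- **the comparison** -/
theorem cpr_at (hf : LvlOK f 0 r) (hK : KEon f 0 r u) {H : Form} {ψ : E3 → ℝ} {C C₁ : ℝ}
    (hC : 0 ≤ C) {θ : Cn 2 → E3} {O : Set (Cn 2)} (hP : PE f 0 r θ O) {z : Cn 2} (hz : z ∈ O)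
    (hH : (H θ z).PosDef) (hdet : (H θ z).det.re * eta2a (n := 2) f θ z = Real.exp (-ψ (θ z)))
    (hup : u (θ z) ≤ ψ (θ z) + C₁) (hdual : ((C : ℂ) • KK φ θ z - (H θ z)⁻¹).PosSemidef)
    {V : E3 → ℝ} (hV : C * Real.exp |C₁| * |TT f u φ (θ z)| ≤ Real.exp (V (θ z))) :
    Cpr u H V θ z := by
  have hG := posDef_cH hK hP hz
  have hd : (cH (fun y => u (θ y)) z).det.re = Real.exp (u (θ z)) * eta2a (n := 2) f θ z := by
    rw [hK.ma θ O hP z hz, Complex.ofReal_re]
  obtain ⟨h1, h2⟩ := cmp2 hG hH (KK_psd hφ hp hP hz) hC hdual (pd_KK hφ hp hf hK hP hz)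
  have hT0 : 0 ≤ TT f u φ (θ z) :=
    TT_nonneg hφ hp hf hK (hP.ne z hz) (hP.lt z hz) (hP.par.lvl z hz)
  rw [abs_of_nonneg hT0] at hV
  have hCT : 0 ≤ C * TT f u φ (θ z) := mul_nonneg hC hT0
  have e1 : 1 ≤ Real.exp |C₁| := Real.one_le_exp (abs_nonneg _)
  unfold Cpr
  rw [HK_eq]
  constructor
  · refine psd_mono hG.inv.posSemidef ?_ h2
    have e2 : (cH (fun y => u (θ y)) z).det.re * (H θ z).det.re =
        Real.exp (u (θ z) - ψ (θ z)) := by
      rw [hd, sub_eq_add_neg, Real.exp_add, ← hdet]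
      ring
    rw [e2]
    have e3 : Real.exp (u (θ z) - ψ (θ z)) ≤ Real.exp |C₁| := by
      refine Real.exp_le_exp.2 ?_
      have := le_abs_self C₁
      linarith
    calc C * TT f u φ (θ z) * Real.exp (u (θ z) - ψ (θ z)) ≤
        C * TT f u φ (θ z) * Real.exp |C₁| := mul_le_mul_of_nonneg_left e3 hCT
      _ = C * Real.exp |C₁| * TT f u φ (θ z) := by ring
      _ ≤ _ := hV
  · refine psd_mono hH.posSemidef ?_ h1
    calc C * TT f u φ (θ z) = C * TT f u φ (θ z) * 1 := by ring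
      _ ≤ C * TT f u φ (θ z) * Real.exp |C₁| := mul_le_mul_of_nonneg_left e1 hCT
      _ = C * Real.exp |C₁| * TT f u φ (θ z) := by ring
      _ ≤ _ := hV

end

/-- **cumulative Jensen inequality** -/
theorem cum {ν : Measure E3} (hu : AEMeasurable u ν) {χ : E3 → ℝ} (hχ0 : ∀ x, 0 ≤ χ x)
    (hχu : AEMeasurable (fun x => χ x) ν) (hV : VOL ν u χ < ⊤) {T : E3 → ℝ}
    (hT : AEMeasurable T ν) (hT0 : ∀ x, 0 ≤ T x) (hone : ∀ᵐ x ∂ν, 1 ≤ A - u x) {C : ℝ} {N : ℕ}
    (hC : 0 ≤ C)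
    (hM : ∀ R : ℝ, 1 ≤ R → ∫⁻ x in {x | A - u x ≤ R},
      ENNReal.ofReal (χ x * (T x * Real.exp (u x))) ∂ν ≤ ENNReal.ofReal (C * R ^ N)) :
    ∃ C' : ℝ, ∀ R : ℝ, 1 ≤ R → ∫⁻ x in {x | Real.log (A - u x) ≤ R},
      ENNReal.ofReal (χ x * Real.log (Real.exp 1 + T x) ^ 2 * Real.exp (u x)) ∂ν ≤
        ENNReal.ofReal (C' * R ^ 2) := by
  set v : ℝ := (VOL ν u χ).toReal with hv
  have hv' : VOL ν u χ = ENNReal.ofReal v := (ENNReal.ofReal_toReal hV.ne).symm
  have hv0 : 0 ≤ v := ENNReal.toReal_nonneg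
  refine ⟨2 * (N + 2) ^ 2 * v + 8 * C, fun R hR => ?_⟩
  have hR0 : 0 < R := by linarith
  set m : ℝ := Real.exp (N * R) with hm
  have hm0 : 0 < m := Real.exp_pos _
  have hχe : AEMeasurable (fun x => ENNReal.ofReal (χ x * Real.exp (u x))) ν :=
    (hχu.mul (Real.measurable_exp.comp_aemeasurable hu)).ennreal_ofReal
  have hTe : AEMeasurable (fun x => ENNReal.ofReal (χ x * (T x * Real.exp (u x)))) ν :=
    (hχu.mul (hT.mul (Real.measurable_exp.comp_aemeasurable hu))).ennreal_ofReal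
  have hS : ({x | Real.log (A - u x) ≤ R} : Set E3) ≤ᵐ[ν] {x | A - u x ≤ Real.exp R} := by
    filter_upwards [hone] with x hx h
    have h1 : 0 < A - u x := by linarith
    exact (Real.log_le_iff_le_exp h1).1 h
  have h1R : 1 ≤ Real.exp R := Real.one_le_exp hR0.le
  calc ∫⁻ x in {x | Real.log (A - u x) ≤ R},
        ENNReal.ofReal (χ x * Real.log (Real.exp 1 + T x) ^ 2 * Real.exp (u x)) ∂ν
      ≤ ∫⁻ x in {x | A - u x ≤ Real.exp R},
        ENNReal.ofReal (χ x * Real.log (Real.exp 1 + T x) ^ 2 * Real.exp (u x)) ∂ν :=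
        lintegral_mono_set' hS
    _ ≤ ∫⁻ x in {x | A - u x ≤ Real.exp R},
        (ENNReal.ofReal (2 * Real.log (Real.exp 1 + m) ^ 2) *
          ENNReal.ofReal (χ x * Real.exp (u x)) +
          ENNReal.ofReal (8 / m) * ENNReal.ofReal (χ x * (T x * Real.exp (u x)))) ∂ν := by
        refine lintegral_mono fun x => ?_
        show _ ≤ ENNReal.ofReal (2 * Real.log (Real.exp 1 + m) ^ 2) *
          ENNReal.ofReal (χ x * Real.exp (u x)) +
          ENNReal.ofReal (8 / m) * ENNReal.ofReal (χ x * (T x * Real.exp (u x)))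
        have hx := hT0 x
        rw [← ENNReal.ofReal_mul (by positivity), ← ENNReal.ofReal_mul (by positivity),
          ← ENNReal.ofReal_add
            (mul_nonneg (by positivity) (mul_nonneg (hχ0 x) (Real.exp_pos _).le))
            (mul_nonneg (by positivity)
              (mul_nonneg (hχ0 x) (mul_nonneg hx (Real.exp_pos _).le)))]
        refine ENNReal.ofReal_le_ofReal ?_
        have h2 := log_sq_le hx hm0
        have h3 : 0 ≤ χ x * Real.exp (u x) := mul_nonneg (hχ0 x) (Real.exp_pos _).le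
        calc χ x * Real.log (Real.exp 1 + T x) ^ 2 * Real.exp (u x)
            = Real.log (Real.exp 1 + T x) ^ 2 * (χ x * Real.exp (u x)) := by ring
          _ ≤ (2 * Real.log (Real.exp 1 + m) ^ 2 + 8 * (T x / m)) * (χ x * Real.exp (u x)) :=
              mul_le_mul_of_nonneg_right h2 h3
          _ = _ := by ring
    _ = ENNReal.ofReal (2 * Real.log (Real.exp 1 + m) ^ 2) *
          ∫⁻ x in {x | A - u x ≤ Real.exp R}, ENNReal.ofReal (χ x * Real.exp (u x)) ∂ν +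
          ENNReal.ofReal (8 / m) * ∫⁻ x in {x | A - u x ≤ Real.exp R},
            ENNReal.ofReal (χ x * (T x * Real.exp (u x))) ∂ν := by
        rw [lintegral_add_left' (hχe.const_mul _).restrict, lintegral_const_mul'' _ hχe.restrict,
          lintegral_const_mul'' _ hTe.restrict]
    _ ≤ ENNReal.ofReal (2 * Real.log (Real.exp 1 + m) ^ 2) * ENNReal.ofReal v +
          ENNReal.ofReal (8 / m) * ENNReal.ofReal (C * Real.exp R ^ N) := by
        gcongr
        · rw [← hv']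
          exact setLIntegral_le_lintegral _ _
        · exact hM _ h1R
    _ = ENNReal.ofReal (2 * Real.log (Real.exp 1 + m) ^ 2 * v + 8 / m * (C * Real.exp R ^ N)) := by
        rw [← ENNReal.ofReal_mul (by positivity), ← ENNReal.ofReal_mul (by positivity),
          ← ENNReal.ofReal_add (by positivity) (by positivity)]
    _ ≤ ENNReal.ofReal ((2 * (N + 2) ^ 2 * v + 8 * C) * R ^ 2) := by
        refine ENNReal.ofReal_le_ofReal ?_
        have e2 : Real.exp R ^ N = m := by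
          rw [hm, ← Real.exp_nat_mul]
        have e3 : 8 / m * (C * Real.exp R ^ N) = 8 * C := by
          rw [e2]
          field_simp
        have hNR : 0 ≤ (N : ℝ) * R := by positivity
        have h5 : Real.log (Real.exp 1 + m) ≤ N * R + 2 := log_exp_add hNR
        have h6 : 0 ≤ Real.log (Real.exp 1 + m) := by
          have := one_le_log hm0.le
          linarith
        have h7 : Real.log (Real.exp 1 + m) ^ 2 ≤ ((N + 2) * R) ^ 2 := by
          refine pow_le_pow_left₀ h6 (h5.trans ?_) 2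
          nlinarith
        have h8 : 1 ≤ R ^ 2 := one_le_pow₀ hR
        rw [e3]
        have h9 : 2 * Real.log (Real.exp 1 + m) ^ 2 * v ≤ 2 * ((N + 2) * R) ^ 2 * v := by
          gcongr
        have h10 : 8 * C ≤ 8 * C * R ^ 2 := le_mul_of_one_le_right (by positivity) h8
        calc _ ≤ 2 * ((N + 2) * R) ^ 2 * v + 8 * C * R ^ 2 := add_le_add h9 h10
          _ = _ := by ring

/-- **the function `V` of `TrialStmt`** -/
theorem vpart (hf : LvlOK f 0 r) (hK : KEon f 0 r u) (hE : Esc f r u A) {ν : Measure E3}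
    (hν : IsNu f 0 r ν) (hV : ∀ χ, Cut r χ → VOL ν u χ < ⊤) {m : ℕ} {φ : Fin m → E3 → ℝ}
    (hφ : ∀ j, SmL f 0 r (φ j))
    (hp : ∀ j, ∀ θ O, PE f 0 r θ O → ∀ z ∈ O, ∀ v, 0 ≤ lev (fun z => φ j (θ z)) z v)
    {B : ℝ} {N : ℕ} (hB : 0 ≤ B)
    (hb : ∀ j, ∀ x, f x = 0 → x ≠ 0 → nsq x < r ^ 2 → |φ j x| ≤ B * (A - u x) ^ N)
    {H : Form} {ψ : E3 → ℝ} {C C₁ : ℝ} (hC : 0 ≤ C)
    (hH : ∀ θ O, PE f 0 r θ O → ∀ z ∈ O, (H θ z).PosDef)
    (hdet : ∀ θ O, PE f 0 r θ O → ∀ z ∈ O,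
      (H θ z).det.re * eta2a (n := 2) f θ z = Real.exp (-ψ (θ z)))
    (hup : ∀ x, f x = 0 → x ≠ 0 → nsq x < r ^ 2 → u x ≤ ψ x + C₁)
    (hdual : ∀ θ O, PE f 0 r θ O → ∀ z ∈ O, ((C : ℂ) • KK φ θ z - (H θ z)⁻¹).PosSemidef) :
    ∃ V : E3 → ℝ, (∀ x, 0 ≤ V x) ∧ AEMeasurable V ν ∧
      (∀ θ O, PE f 0 r θ O → ∀ z ∈ O, Cpr u H V θ z) ∧
      ∀ χ, Cut r χ → ∃ C : ℝ, ∀ R : ℝ, 1 ≤ R →
        ∫⁻ x in {x | Real.log (A - u x) ≤ R},
          ENNReal.ofReal (χ x * V x ^ 2 * Real.exp (u x)) ∂ν ≤ ENNReal.ofReal (C * R ^ 2) := by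
  set c : ℝ := C * Real.exp |C₁| with hc
  have hc0 : 0 ≤ c := mul_nonneg hC (Real.exp_pos _).le
  set T : E3 → ℝ := fun x => c * |TT f u φ x| with hT
  have hT0 : ∀ x, 0 ≤ T x := fun x => mul_nonneg hc0 (abs_nonneg _)
  have hum : AEMeasurable u ν := aem_of_ctL (gd hf) hν fun θ O hθ => (hK.sm θ O hθ).continuousOn
  have hmx : ∀ j, AEMeasurable (mxd f u fun y => Real.exp (φ j y)) ν := fun j =>
    aem_of_ctL (gd hf) hν (V1Top_822.ctl_mxd Crest.Agent.R257.Ked2_397.denStmt hf hK hK.sm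
      (smL_exp (hφ j)))
  have hφm : ∀ j, AEMeasurable (φ j) ν := fun j =>
    aem_of_ctL (gd hf) hν fun θ O hθ => (hφ j θ O hθ).continuousOn
  have hTTm : AEMeasurable (TT f u φ) ν := by
    unfold TT
    refine Finset.aemeasurable_fun_sum _ fun j _ => ?_
    exact ((Real.measurable_exp.comp_aemeasurable (hφm j).neg).mul (hmx j)).mul
      (Real.measurable_exp.comp_aemeasurable hum.neg)
  have hTm : AEMeasurable T ν := (continuous_abs.measurable.comp_aemeasurable hTTm).const_mul c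
  have hone : ∀ᵐ x ∂ν, 1 ≤ A - u x := isNu_ae hν fun x h1 h2 h3 => hE.one x h3 h1 h2
  refine ⟨fun x => Real.log (Real.exp 1 + T x), fun x => ?_, ?_, ?_, ?_⟩
  · have := one_le_log (hT0 x)
    linarith
  · exact Real.measurable_log.comp_aemeasurable (aemeasurable_const.add hTm)
  · intro θ O hP z hz
    refine cpr_at hφ hp hf hK hC hP hz (hH θ O hP z hz) (hdet θ O hP z hz)
      (hup _ (hP.par.lvl z hz) (hP.ne z hz) (hP.lt z hz)) (hdual θ O hP z hz) ?_
    have h1 := hT0 (θ z)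
    rw [Real.exp_log (by positivity)]
    have := Real.exp_pos 1
    show T (θ z) ≤ _
    linarith
  · intro χ hχ
    have hχm : AEMeasurable (fun x => χ x) ν := hχ.sm.continuous.measurable.aemeasurable
    have key : ∀ j, ∃ C : ℝ, 0 ≤ C ∧ ∀ R : ℝ, 1 ≤ R →
        ∫⁻ x in {x | A - u x ≤ R}, ENNReal.ofReal
          (χ x * (Real.exp (-φ j x) * mxd f u (fun y => Real.exp (φ j y)) x)) ∂ν ≤
          ENNReal.ofReal (C * R ^ (2 * N)) := fun j =>
      mass_two hf hK hE hχ hν (hφ j) (hp j) hB (hb j)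
    choose D hD0 hD using key
    refine cum hum hχ.nn hχm (hV χ hχ) hTm hT0 hone (C := c * ∑ j, D j) (N := 2 * N)
      (mul_nonneg hc0 (Finset.sum_nonneg fun j _ => hD0 j)) fun R hR => ?_
    have hF : ∀ j, AEMeasurable (fun x => ENNReal.ofReal
        (χ x * (Real.exp (-φ j x) * mxd f u (fun y => Real.exp (φ j y)) x))) ν := fun j =>
      (hχm.mul ((Real.measurable_exp.comp_aemeasurable (hφm j).neg).mul (hmx j))).ennreal_ofReal
    calc ∫⁻ x in {x | A - u x ≤ R}, ENNReal.ofReal (χ x * (T x * Real.exp (u x))) ∂ν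
        ≤ ∫⁻ x in {x | A - u x ≤ R}, ENNReal.ofReal c * ∑ j, ENNReal.ofReal
          (χ x * (Real.exp (-φ j x) * mxd f u (fun y => Real.exp (φ j y)) x)) ∂ν := by
          refine lintegral_mono_ae (ae_restrict_of_ae ?_)
          refine isNu_ae hν fun x hx0 hxr hx => ?_
          have h1 := TT_nonneg hφ hp hf hK hx0 hxr hx
          have h2 : ∀ j ∈ Finset.univ, 0 ≤
              χ x * (Real.exp (-φ j x) * mxd f u (fun y => Real.exp (φ j y)) x) := fun j _ => by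
            have h3 := mxd_nonneg hf hK (smL_exp (hφ j))
              (fun θ O hP z hz v => exp_psh (hφ j) (hp j) hP hz v) hx0 hxr hx
            have h4 := hχ.nn x
            positivity
          rw [← ENNReal.ofReal_sum_of_nonneg h2, ← ENNReal.ofReal_mul hc0]
          refine ENNReal.ofReal_le_ofReal (le_of_eq ?_)
          simp only [hT]
          rw [abs_of_nonneg h1]
          unfold TT
          have e5 : Real.exp (-u x) * Real.exp (u x) = 1 := by
            rw [← Real.exp_add]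
            simp
          rw [show χ x * (c * (∑ j, Real.exp (-φ j x) * mxd f u (fun y => Real.exp (φ j y)) x *
            Real.exp (-u x)) * Real.exp (u x)) = c * (χ x * ((∑ j, Real.exp (-φ j x) *
              mxd f u (fun y => Real.exp (φ j y)) x * Real.exp (-u x)) * Real.exp (u x))) by ring,
            Finset.sum_mul, Finset.mul_sum]
          congr 1
          refine Finset.sum_congr rfl fun j _ => ?_
          rw [mul_assoc (Real.exp (-φ j x) * mxd f u (fun y => Real.exp (φ j y)) x), e5, mul_one]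
      _ = ENNReal.ofReal c * ∑ j, ∫⁻ x in {x | A - u x ≤ R}, ENNReal.ofReal
          (χ x * (Real.exp (-φ j x) * mxd f u (fun y => Real.exp (φ j y)) x)) ∂ν := by
          rw [lintegral_const_mul'' _ (Finset.aemeasurable_fun_sum _ fun j _ => (hF j).restrict),
            lintegral_finsetSum' _ fun j _ => (hF j).restrict]
      _ ≤ ENNReal.ofReal c * ∑ j, ENNReal.ofReal (D j * R ^ (2 * N)) := by
          gcongr with j _
          exact hD j R hR
      _ = ENNReal.ofReal (c * (∑ j, D j) * R ^ (2 * N)) := by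
          rw [← ENNReal.ofReal_sum_of_nonneg (fun j _ => mul_nonneg (hD0 j) (by positivity)),
            ← ENNReal.ofReal_mul hc0, ← Finset.sum_mul]
          congr 1
          ring

end Crest.Agent.R257.VL_218
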