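import Mathlib

set_option autoImplicit false

open Filter Topology Metric Set Complex
open scoped Real

namespace Crest.Agent.R257.Wind_648

/-- the winding number of `g` on the circle of radius `r` around `0` -/
noncomputable def wind (g : ℂ → ℂ) (r : ℝ) : ℂ :=
  (2 * π * I)⁻¹ * ∮ z in C(0, r), deriv g z / g z

lemma two_pi_I_ne : (2 * π * I : ℂ) ≠ 0 := Complex.two_pi_I_ne_zero

/-- the closed annulus -/
def Ann (r₁ r₂ : ℝ) : Set ℂ := {z | r₁ ≤ ‖z‖ ∧ ‖z‖ ≤ r₂}

lemma mem_sphere_norm {r : ℝ} {z : ℂ} : z ∈ sphere (0 : ℂ) r ↔ ‖z‖ = r := by simp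

theorem wind_annulus {g : ℂ → ℂ} {U : Set ℂ} (hU : IsOpen U) {r₁ r₂ : ℝ} (h1 : 0 < r₁) (h12 : r₁ ≤ r₂)
    (hA : Ann r₁ r₂ ⊆ U) (hg : DifferentiableOn ℂ g U) (h0 : ∀ z ∈ Ann r₁ r₂, g z ≠ 0) :
    wind g r₂ = wind g r₁ := by
  unfold wind
  congr 1
  have hd : ∀ z ∈ Ann r₁ r₂, DifferentiableAt ℂ (fun z => deriv g z / g z) z := by
    intro z hz
    have hz' : U ∈ 𝓝 z := hU.mem_nhds (hA hz)
    exact ((hg.deriv hU).differentiableAt hz').div (hg.differentiableAt hz') (h0 z hz)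
  have hsub : closedBall (0 : ℂ) r₂ \ ball 0 r₁ ⊆ Ann r₁ r₂ := by
    intro z hz
    simp only [Set.mem_sdiff, mem_closedBall, dist_zero_right, mem_ball, not_lt] at hz
    exact ⟨hz.2, hz.1⟩
  refine Complex.circleIntegral_eq_of_differentiable_on_annulus_off_countable h1 h12
    Set.countable_empty ?_ ?_
  · intro z hz
    exact (hd z (hsub hz)).continuousAt.continuousWithinAt
  · intro z hz
    refine hd z ?_
    simp only [Set.mem_sdiff, mem_closedBall, dist_zero_right, mem_ball, not_le] at hz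
    exact ⟨hz.1.2.le, hz.1.1.le⟩

theorem wind_mul {g h : ℂ → ℂ} {U : Set ℂ} (hU : IsOpen U) {r : ℝ} (hr : 0 < r)
    (hS : ∀ z : ℂ, ‖z‖ = r → z ∈ U) (hg : DifferentiableOn ℂ g U) (hh : DifferentiableOn ℂ h U)
    (hg0 : ∀ z : ℂ, ‖z‖ = r → g z ≠ 0) (hh0 : ∀ z : ℂ, ‖z‖ = r → h z ≠ 0) :
    wind (fun z => g z * h z) r = wind g r + wind h r := by
  unfold wind
  rw [← mul_add]
  congr 1
  have hci : ∀ {k : ℂ → ℂ}, DifferentiableOn ℂ k U → (∀ z : ℂ, ‖z‖ = r → k z ≠ 0) →
      CircleIntegrable (fun z => deriv k z / k z) 0 r := by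
    intro k hk hk0
    refine ContinuousOn.circleIntegrable hr.le ?_
    intro z hz
    have hz1 : ‖z‖ = r := mem_sphere_norm.1 hz
    have hz' : U ∈ 𝓝 z := hU.mem_nhds (hS z hz1)
    exact (((hk.deriv hU).differentiableAt hz').div (hk.differentiableAt hz')
      (hk0 z hz1)).continuousAt.continuousWithinAt
  rw [← circleIntegral.integral_add (hci hg hg0) (hci hh hh0)]
  refine circleIntegral.integral_congr hr.le ?_
  intro z hz
  have hz1 : ‖z‖ = r := mem_sphere_norm.1 hz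
  have hz' : U ∈ 𝓝 z := hU.mem_nhds (hS z hz1)
  have e1 := hg0 z hz1
  have e2 := hh0 z hz1
  have : deriv (fun z => g z * h z) z = deriv g z * h z + g z * deriv h z :=
    deriv_fun_mul (hg.differentiableAt hz') (hh.differentiableAt hz')
  simp only [this]
  field_simp

theorem wind_congr {g h : ℂ → ℂ} {U : Set ℂ} (hU : IsOpen U) {r : ℝ} (hr : 0 < r)
    (hS : ∀ z : ℂ, ‖z‖ = r → z ∈ U) (hgh : ∀ z ∈ U, g z = h z) : wind g r = wind h r := by
  unfold wind
  congr 1
  refine circleIntegral.integral_congr hr.le ?_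
  intro z hz
  have hz1 : ‖z‖ = r := mem_sphere_norm.1 hz
  have hz' : U ∈ 𝓝 z := hU.mem_nhds (hS z hz1)
  have he : g =ᶠ[𝓝 z] h := by
    filter_upwards [hz'] with w hw using hgh w hw
  simp only [he.deriv_eq, he.eq_of_nhds]

theorem wind_sub_in {z₀ : ℂ} {r : ℝ} (h : ‖z₀‖ < r) : wind (fun z => z - z₀) r = 1 := by
  unfold wind
  have : (∮ z in C(0, r), deriv (fun z => z - z₀) z / (z - z₀)) = ∮ z in C(0, r), (z - z₀)⁻¹ := by
    congr 1
    ext z
    simp [div_eq_mul_inv]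
  rw [this, circleIntegral.integral_sub_inv_of_mem_ball (by simpa using h)]
  exact inv_mul_cancel₀ two_pi_I_ne

theorem wind_zero_of_ball {h : ℂ → ℂ} {U : Set ℂ} (hU : IsOpen U) {r : ℝ} (hr : 0 < r)
    (hB : closedBall (0 : ℂ) r ⊆ U) (hh : DifferentiableOn ℂ h U)
    (h0 : ∀ z ∈ closedBall (0 : ℂ) r, h z ≠ 0) : wind h r = 0 := by
  unfold wind
  have hd : ∀ z ∈ closedBall (0 : ℂ) r, DifferentiableAt ℂ (fun z => deriv h z / h z) z := by
    intro z hz
    have hz' : U ∈ 𝓝 z := hU.mem_nhds (hB hz)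
    exact ((hh.deriv hU).differentiableAt hz').div (hh.differentiableAt hz') (h0 z hz)
  rw [Complex.circleIntegral_eq_zero_of_differentiable_on_off_countable hr.le Set.countable_empty
    (fun z hz => (hd z hz).continuousAt.continuousWithinAt)
    (fun z hz => hd z (ball_subset_closedBall hz.1)), mul_zero]

theorem wind_sub_out {z₀ : ℂ} {r : ℝ} (hr : 0 < r) (h : r < ‖z₀‖) : wind (fun z => z - z₀) r = 0 := by
  refine wind_zero_of_ball isOpen_univ hr (subset_univ _)
    ((differentiable_id.sub_const z₀).differentiableOn) ?_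
  intro z hz hz0
  have : z = z₀ := sub_eq_zero.1 hz0
  subst this
  simp at hz
  linarith

theorem wind_pow {g : ℂ → ℂ} {U : Set ℂ} (hU : IsOpen U) {r : ℝ} (hr : 0 < r)
    (hS : ∀ z : ℂ, ‖z‖ = r → z ∈ U) (hg : DifferentiableOn ℂ g U)
    (hg0 : ∀ z : ℂ, ‖z‖ = r → g z ≠ 0) (m : ℕ) :
    wind (fun z => g z ^ m) r = m * wind g r := by
  induction m with
  | zero =>
    have : wind (fun _ : ℂ => (1 : ℂ)) r = 0 :=
      wind_zero_of_ball isOpen_univ hr (subset_univ _) (differentiableOn_const _) (by simp)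
    simpa using this
  | succ m ih =>
    have h1 : wind (fun z => g z ^ (m + 1)) r = wind (fun z => g z ^ m * g z) r := by
      congr 1
    rw [h1, wind_mul (g := fun z => g z ^ m) (h := g) hU hr hS (hg.fun_pow m) hg
      (fun z hz => pow_ne_zero _ (hg0 z hz)) hg0, ih]
    push_cast
    ring

/-- factor out a zero of order `m` -/
theorem exists_factor {g : ℂ → ℂ} {U : Set ℂ} (hU : IsOpen U) (hg : DifferentiableOn ℂ g U)
    {z₀ : ℂ} (hz₀ : z₀ ∈ U) {m : ℕ} (hm : analyticOrderAt g z₀ = m) :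
    ∃ h : ℂ → ℂ, DifferentiableOn ℂ h U ∧ h z₀ ≠ 0 ∧ (∀ z ∈ U, g z = (z - z₀) ^ m * h z) ∧
      ∀ z ∈ U, z ≠ z₀ → (h z = 0 ↔ g z = 0) := by
  have hga : AnalyticAt ℂ g z₀ := hg.analyticAt (hU.mem_nhds hz₀)
  obtain ⟨h₀, h₀a, h₀n, h₀e⟩ := (hga.analyticOrderAt_eq_natCast).1 hm
  classical
  refine ⟨fun z => if z = z₀ then h₀ z₀ else g z / (z - z₀) ^ m, ?_, ?_, ?_, ?_⟩
  · intro z hz
    by_cases hzz : z = z₀
    · subst hzz
      have : (fun w => if w = z then h₀ z else g w / (w - z) ^ m) =ᶠ[𝓝 z] h₀ := by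
        filter_upwards [h₀e] with w hw
        by_cases hwz : w = z
        · simp [hwz]
        · simp only [hwz, if_false]
          rw [hw, smul_eq_mul, mul_comm, mul_div_assoc, div_self (pow_ne_zero _ (sub_ne_zero.2 hwz)),
            mul_one]
      exact (this.differentiableAt_iff.2 h₀a.differentiableAt).differentiableWithinAt
    · have : (fun w => if w = z₀ then h₀ z₀ else g w / (w - z₀) ^ m) =ᶠ[𝓝 z]
          fun w => g w / (w - z₀) ^ m := by
        filter_upwards [isOpen_ne.mem_nhds hzz] with w hw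
        simp only [hw, if_false]
      refine (this.differentiableAt_iff.2 ?_).differentiableWithinAt
      exact (hg.differentiableAt (hU.mem_nhds hz)).div
        ((differentiableAt_id.sub_const z₀).pow m) (pow_ne_zero _ (sub_ne_zero.2 hzz))
  · simpa using h₀n
  · intro z hz
    by_cases hzz : z = z₀
    · subst hzz
      simp only [if_true, sub_self]
      have := h₀e.self_of_nhds
      simpa using this
    · simp only [hzz, if_false]
      field_simp [sub_ne_zero.2 hzz]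
  · intro z hz hzz
    simp only [hzz, if_false, div_eq_zero_iff, or_iff_left_iff_imp]
    intro h
    exact absurd h (pow_ne_zero _ (sub_ne_zero.2 hzz))

/-- crossing a single zero of order `m` -/
theorem wind_cross {g : ℂ → ℂ} {U : Set ℂ} (hU : IsOpen U) {r₁ r₂ : ℝ} (h1 : 0 < r₁)
    (hA : Ann r₁ r₂ ⊆ U) (hg : DifferentiableOn ℂ g U) {z₀ : ℂ} (hr₁ : r₁ < ‖z₀‖) (hr₂ : ‖z₀‖ < r₂)
    {m : ℕ} (hm : analyticOrderAt g z₀ = m) (h0 : ∀ z ∈ Ann r₁ r₂, z ≠ z₀ → g z ≠ 0) :
    wind g r₂ = wind g r₁ + m := by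
  have hz₀A : z₀ ∈ Ann r₁ r₂ := ⟨hr₁.le, hr₂.le⟩
  obtain ⟨h, hh, hh0, hgh, hz⟩ := exists_factor hU hg (hA hz₀A) hm
  have hne : ∀ z ∈ Ann r₁ r₂, h z ≠ 0 := by
    intro z hzA
    by_cases hzz : z = z₀
    · rw [hzz]; exact hh0
    · intro hc
      exact h0 z hzA hzz ((hz z (hA hzA) hzz).1 hc)
  have key : ∀ r, r₁ ≤ r → r ≤ r₂ → r ≠ ‖z₀‖ → wind g r = m * wind (fun z => z - z₀) r + wind h r := by
    intro r hr hr' hrne
    have hrpos : 0 < r := lt_of_lt_of_le h1 hr
    have hS : ∀ z : ℂ, ‖z‖ = r → z ∈ U := fun z hz => hA ⟨by rw [hz]; exact hr, by rw [hz]; exact hr'⟩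
    have hsub : ∀ z : ℂ, ‖z‖ = r → z - z₀ ≠ 0 := by
      intro z hz hc
      apply hrne
      rw [← hz, sub_eq_zero.1 hc]
    have hid : DifferentiableOn ℂ (fun z : ℂ => z - z₀) U :=
      (differentiable_id.sub_const z₀).differentiableOn
    rw [wind_congr hU hrpos hS hgh, wind_mul (g := fun z => (z - z₀) ^ m) (h := h) hU hrpos hS
      (hid.fun_pow m) hh
      (fun z hz => pow_ne_zero _ (hsub z hz))
      (fun z hz => hne z ⟨by rw [hz]; exact hr, by rw [hz]; exact hr'⟩),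
      wind_pow (g := fun z => z - z₀) hU hrpos hS hid hsub m]
  have h12 : r₁ ≤ r₂ := (hr₁.trans hr₂).le
  rw [key r₂ h12 le_rfl hr₂.ne', key r₁ le_rfl h12 hr₁.ne, wind_sub_in hr₂, wind_sub_out h1 hr₁,
    wind_annulus hU h1 h12 hA hh hne]
  ring

/-- a function with a zero of order `n` at the origin and no other zero in the closed disc -/
theorem wind_disc {g : ℂ → ℂ} {U : Set ℂ} (hU : IsOpen U) {r : ℝ} (hr : 0 < r)
    (hB : closedBall (0 : ℂ) r ⊆ U) (hg : DifferentiableOn ℂ g U) {n : ℕ}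
    (hn : analyticOrderAt g 0 = n) (h0 : ∀ z : ℂ, z ≠ 0 → ‖z‖ ≤ r → g z ≠ 0) :
    wind g r = n := by
  have h0U : (0 : ℂ) ∈ U := hB (by simp [hr.le])
  obtain ⟨h, hh, hh0, hgh, hz⟩ := exists_factor hU hg h0U hn
  have hS : ∀ z : ℂ, ‖z‖ = r → z ∈ U := fun z hz => hB (by simp [hz])
  have hsub : ∀ z : ℂ, ‖z‖ = r → z - 0 ≠ 0 := by
    intro z hz hc
    rw [sub_zero] at hc
    subst hc
    simp at hz
    linarith
  have hne : ∀ z ∈ closedBall (0 : ℂ) r, h z ≠ 0 := by
    intro z hzA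
    by_cases hzz : z = 0
    · rw [hzz]; exact hh0
    · intro hc
      exact h0 z hzz (by simpa using hzA) ((hz z (hB hzA) hzz).1 hc)
  have hid : DifferentiableOn ℂ (fun z : ℂ => z - 0) U :=
      (differentiable_id.sub_const (0 : ℂ)).differentiableOn
  rw [wind_congr hU hr hS hgh, wind_mul (g := fun z => (z - 0) ^ n) (h := h) hU hr hS
      (hid.fun_pow n) hh
      (fun z hz => pow_ne_zero _ (hsub z hz))
      (fun z hz => hne z (by simp [hz]))]
  have e1 : wind (fun z : ℂ => (z - 0) ^ n) r = n * wind (fun z : ℂ => z - 0) r :=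
    wind_pow hU hr hS hid hsub n
  have e2 : wind (fun z : ℂ => z - 0) r = 1 := wind_sub_in (by simpa using hr)
  have e3 : wind h r = 0 := wind_zero_of_ball hU hr hB hh hne
  rw [e1, e2, e3]; ring

/-- continuity under locally uniform convergence -/
theorem wind_tendsto {ι : Type*} {l : Filter ι} [l.NeBot] {G : ι → ℂ → ℂ} {g : ℂ → ℂ} {U : Set ℂ}
    (hU : IsOpen U) {r : ℝ} (hr : 0 < r) (hS : ∀ z : ℂ, ‖z‖ = r → z ∈ U)
    (hG : ∀ᶠ i in l, DifferentiableOn ℂ (G i) U) (hlim : TendstoLocallyUniformlyOn G g l U)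
    (h0 : ∀ z : ℂ, ‖z‖ = r → g z ≠ 0) :
    Tendsto (fun i => wind (G i) r) l (𝓝 (wind g r)) := by
  unfold wind
  refine Tendsto.const_mul _ ?_
  have hd : TendstoLocallyUniformlyOn (deriv ∘ G) (deriv g) l U := hlim.deriv hG hU
  have hK : IsCompact (sphere (0 : ℂ) r) := isCompact_sphere 0 r
  have hKU : sphere (0 : ℂ) r ⊆ U := fun z hz => hS z (mem_sphere_norm.1 hz)
  have u1 : TendstoUniformlyOn G g l (sphere 0 r) :=
    (tendstoLocallyUniformlyOn_iff_tendstoUniformlyOn_of_compact hK).1 (hlim.mono hKU)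
  have u2 : TendstoUniformlyOn (deriv ∘ G) (deriv g) l (sphere 0 r) :=
    (tendstoLocallyUniformlyOn_iff_tendstoUniformlyOn_of_compact hK).1 (hd.mono hKU)
  have hgd : DifferentiableOn ℂ g U := hlim.differentiableOn hG hU
  have hgc : ContinuousOn g (sphere 0 r) := (hgd.continuousOn).mono hKU
  have hgc' : ContinuousOn (deriv g) (sphere 0 r) := ((hgd.deriv hU).continuousOn).mono hKU
  -- bounds
  obtain ⟨c, hc, hcb⟩ : ∃ c > 0, ∀ z ∈ sphere (0 : ℂ) r, c ≤ ‖g z‖ := by
    have hne : (sphere (0 : ℂ) r).Nonempty := ⟨(r : ℂ), by simp [abs_of_pos hr]⟩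
    obtain ⟨z₁, hz₁, hmin⟩ := hK.exists_isMinOn hne hgc.norm
    exact ⟨‖g z₁‖, norm_pos_iff.2 (h0 z₁ (mem_sphere_norm.1 hz₁)), fun z hz => hmin hz⟩
  obtain ⟨M, hM⟩ := hK.exists_bound_of_continuousOn hgc'
  rw [Metric.tendsto_nhds]
  intro ε hε
  have hM0 : 0 ≤ M := by
    have hne : (r : ℂ) ∈ sphere (0 : ℂ) r := by simp [abs_of_pos hr]
    exact (norm_nonneg _).trans (hM _ hne)
  set B : ℝ := M + 1
  have hB : 0 < B := by
    have : B = M + 1 := rfl
    linarith
  set N : ℝ := ε / (2 * (2 * π * r)) with hN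
  have hNpos : 0 < N := by positivity
  -- choose δ
  set δ : ℝ := min (c / 2) (min 1 (N * (c * c / 2) / (‖(1:ℝ)‖ * (B + M + c + 1)))) with hδ
  have hδpos : 0 < δ := by
    rw [norm_one, one_mul] at hδ
    rw [hδ]
    positivity
  filter_upwards [Metric.tendstoUniformlyOn_iff.1 u1 δ hδpos, Metric.tendstoUniformlyOn_iff.1 u2 δ hδpos,
    hG] with i h1 h2 h3
  have hci : ContinuousOn (G i) (sphere 0 r) := (h3.continuousOn).mono hKU
  have hci' : ContinuousOn (deriv (G i)) (sphere 0 r) := ((h3.deriv hU).continuousOn).mono hKU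
  have hlow : ∀ z ∈ sphere (0 : ℂ) r, c / 2 ≤ ‖G i z‖ := by
    intro z hz
    have a1 := h1 z hz
    rw [dist_eq_norm] at a1
    have a2 : δ ≤ c / 2 := min_le_left _ _
    have a3 := hcb z hz
    have a4 : ‖g z‖ - ‖G i z‖ ≤ ‖g z - G i z‖ := norm_sub_norm_le _ _
    linarith
  have hdiff : ∀ z ∈ sphere (0 : ℂ) r, ‖deriv (G i) z / G i z - deriv g z / g z‖ ≤ N := by
    intro z hz
    have gz : g z ≠ 0 := h0 z (mem_sphere_norm.1 hz)
    have Gz : G i z ≠ 0 := by
      intro hc0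
      have := hlow z hz
      rw [hc0, norm_zero] at this
      linarith
    have a1 := h1 z hz
    have a2 := h2 z hz
    rw [dist_eq_norm] at a1 a2
    simp only [Function.comp] at a2
    have e : deriv (G i) z / G i z - deriv g z / g z =
        ((deriv (G i) z - deriv g z) * g z - deriv g z * (G i z - g z)) / (G i z * g z) := by
      field_simp
      ring
    rw [e, norm_div, norm_mul]
    have a3 := hcb z hz
    have a5 := hlow z hz
    have hden : c / 2 * ‖g z‖ ≤ ‖G i z‖ * ‖g z‖ := mul_le_mul_of_nonneg_right a5 (norm_nonneg _)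
    have gpos : 0 < ‖g z‖ := norm_pos_iff.2 gz
    have hnum : ‖(deriv (G i) z - deriv g z) * g z - deriv g z * (G i z - g z)‖ ≤
        δ * ‖g z‖ + M * δ := by
      refine (norm_sub_le _ _).trans ?_
      rw [norm_mul, norm_mul]
      have b1 : ‖deriv (G i) z - deriv g z‖ ≤ δ := by rw [norm_sub_rev]; exact a2.le
      have b2 : ‖G i z - g z‖ ≤ δ := by rw [norm_sub_rev]; exact a1.le
      have b3 : ‖deriv g z‖ ≤ M := hM z hz
      gcongr
    rw [div_le_iff₀ (by positivity)]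
    refine hnum.trans ?_
    have hδ3 : δ ≤ N * (c * c / 2) / (‖(1:ℝ)‖ * (B + M + c + 1)) :=
      (min_le_right _ _).trans (min_le_right _ _)
    rw [norm_one, one_mul, le_div_iff₀ (by positivity)] at hδ3
    -- δ (‖g‖ + M) ≤ N * c/2 * ‖g‖
    have hk : δ * (‖g z‖ + M) ≤ N * (c / 2 * ‖g z‖) := by
      have q1 : δ * M * c ≤ δ * M * ‖g z‖ := by gcongr
      have q2 : δ * (1 + M + M + c + 1) * ‖g z‖ ≤ N * (c * c / 2) * ‖g z‖ := by
        have : B = M + 1 := rfl
        rw [this] at hδ3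
        have : δ * (1 + M + M + c + 1) = δ * (M + 1 + M + c + 1) := by ring
        rw [this]
        gcongr
      have q3 : c * (δ * (‖g z‖ + M)) ≤ c * (N * (c / 2 * ‖g z‖)) := by
        have : c * (δ * (‖g z‖ + M)) = δ * c * ‖g z‖ + δ * M * c := by ring
        rw [this]
        have : c * (N * (c / 2 * ‖g z‖)) = N * (c * c / 2) * ‖g z‖ := by ring
        rw [this]
        have : δ * c * ‖g z‖ + δ * M * ‖g z‖ ≤ δ * (1 + M + M + c + 1) * ‖g z‖ := by
          have : δ * (1 + M + M + c + 1) * ‖g z‖ = δ * c * ‖g z‖ + δ * M * ‖g z‖ +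
            (δ * (2 + M) * ‖g z‖) := by ring
          rw [this]
          have : 0 ≤ δ * (2 + M) * ‖g z‖ := by positivity
          linarith
        linarith
      exact le_of_mul_le_mul_left q3 hc
    calc δ * ‖g z‖ + M * δ = δ * (‖g z‖ + M) := by ring
      _ ≤ N * (c / 2 * ‖g z‖) := hk
      _ ≤ N * (‖G i z‖ * ‖g z‖) := by gcongr
  have hint1 : CircleIntegrable (fun z => deriv (G i) z / G i z) 0 r := by
    refine ContinuousOn.circleIntegrable hr.le (hci'.div hci ?_)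
    intro z hz hc0
    have := hlow z hz
    rw [hc0, norm_zero] at this
    linarith
  have hint2 : CircleIntegrable (fun z => deriv g z / g z) 0 r :=
    ContinuousOn.circleIntegrable hr.le (hgc'.div hgc (fun z hz => h0 z (mem_sphere_norm.1 hz)))
  rw [dist_eq_norm, ← circleIntegral.integral_sub hint1 hint2]
  have := circleIntegral.norm_integral_le_of_norm_le_const (f := fun z => deriv (G i) z / G i z -
    deriv g z / g z) (c := 0) (R := r) (C := N) hr.le hdiff
  refine this.trans_lt ?_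
  rw [hN]
  have : 2 * π * r * (ε / (2 * (2 * π * r))) = ε / 2 := by
    field_simp
  rw [this]
  linarith

/-- scaling of the variable -/
theorem wind_scale (g : ℂ → ℂ) {a r : ℝ} (ha : 0 < a) (hr : 0 < r) (c : ℂ) (hc : c ≠ 0) :
    wind (fun z => c * g (a * z)) r = wind g (a * r) := by
  unfold wind
  congr 1
  simp only [circleIntegral, circleMap_zero]
  refine intervalIntegral.integral_congr ?_
  intro θ _
  have hd : ∀ z : ℂ, deriv (fun z => c * g (a * z)) z = c * (a * deriv g (a * z)) := by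
    intro z
    rw [deriv_const_mul_field]
    congr 1
    have := deriv_comp_mul_left (a : ℂ) g z
    simpa [smul_eq_mul] using this
  simp only [hd, deriv_circleMap, circleMap_zero, smul_eq_mul]
  have e : (a : ℂ) * (r * exp (θ * I)) = ((a * r : ℝ) : ℂ) * exp (θ * I) := by
    push_cast; ring
  rw [e]
  by_cases hz : g (((a * r : ℝ) : ℂ) * exp (θ * I)) = 0
  · rw [hz]; simp
  · have ha' : (a : ℂ) ≠ 0 := by exact_mod_cast ha.ne'
    field_simp
    push_cast
    ring

end Crest.Agent.R257.Wind_648
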