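import Crest.Agent.R257.XFDefs_157
import Crest.Agent.R257.SkelA_219

/-!
R257 / XFin_157: an exact pair gives `XStmt` and `XUStmt`.
-/

set_option autoImplicit false

open Topology Filter MeasureTheory Set
open scoped ENNReal
open Crest.AlgGeometry.Germ

noncomputable section

namespace Crest.Agent.R257.XFin_157

open Crest.Agent.R257.Defs_219 Crest.Agent.R257.Skel_219 Crest.Agent.R257.XF_157

section algebra

variable {n m l : ℕ}

theorem gens_le_of_mem {G : Fin m → (Fin n → ℂ) → ℂ} {G' : Fin l → (Fin n → ℂ) → ℂ}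
    (h : ∀ j, ∃ i, G j = G' i) : gens G ≤ gens G' := by
  refine gens_le fun j => ?_
  obtain ⟨i, hi⟩ := h j
  refine ⟨fun k => if k = i then fun _ => 1 else fun _ => 0, fun k => ?_, ?_⟩
  · dsimp only
    split_ifs <;> exact analyticAt_const
  · refine Eventually.of_forall fun x => ?_
    rw [hi]
    dsimp only
    rw [Finset.sum_eq_single i]
    · simp
    · intro b _ hb
      simp [hb]
    · intro h'
      exact absurd (Finset.mem_univ i) h'

theorem gens_swap (f g h : E3 → ℂ) : gens ![f, g, h] = gens ![f, h, g] := by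
  refine le_antisymm (gens_le_of_mem fun j => ?_) (gens_le_of_mem fun j => ?_) <;>
  · fin_cases j
    · exact ⟨0, rfl⟩
    · exact ⟨2, rfl⟩
    · exact ⟨1, rfl⟩

theorem col_swap (f g h : E3 → ℂ) : col ![f, g, h] = col ![f, h, g] := col_congr (gens_swap f g h)

theorem colFin_swap (f g h : E3 → ℂ) : ColFin ![f, g, h] ↔ ColFin ![f, h, g] :=
  colFin_congr (gens_swap f g h)

variable {f g h : E3 → ℂ}

theorem pow_right (mul : MulStmt) (hf : AnalyticAt ℂ f 0) (hg : AnalyticAt ℂ g 0)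
    (hh : AnalyticAt ℂ h 0) (f0 : f 0 = 0) (g0 : g 0 = 0) (h0 : h 0 = 0)
    (hfin : ColFin ![f, g, h]) (n : ℕ) :
    ColFin ![f, g, h ^ (n + 1)] ∧ col ![f, g, h ^ (n + 1)] = (n + 1) * col ![f, g, h] := by
  induction n with
  | zero => simpa using hfin
  | succ n ih =>
    have h1 : (h ^ (n + 1)) 0 = 0 := by simp [h0]
    have := mul f g (h ^ (n + 1)) h hf hg (hh.pow _) hh f0 g0 h1 h0 ih.1 hfin
    rw [pow_succ h (n + 1)]
    refine ⟨this.1, ?_⟩
    rw [this.2, ih.2]; ring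

theorem pow_both (mul : MulStmt) (hf : AnalyticAt ℂ f 0) (hg : AnalyticAt ℂ g 0)
    (hh : AnalyticAt ℂ h 0) (f0 : f 0 = 0) (g0 : g 0 = 0) (h0 : h 0 = 0)
    (hfin : ColFin ![f, g, h]) {a b : ℕ} (ha : a ≠ 0) (hb : b ≠ 0) :
    ColFin ![f, g ^ a, h ^ b] ∧ col ![f, g ^ a, h ^ b] = a * b * col ![f, g, h] := by
  obtain ⟨a, rfl⟩ := Nat.exists_eq_succ_of_ne_zero ha
  obtain ⟨b, rfl⟩ := Nat.exists_eq_succ_of_ne_zero hb
  have h1 := pow_right mul hf hg hh f0 g0 h0 hfin b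
  have h2 : ColFin ![f, h ^ (b + 1), g] := (colFin_swap _ _ _).1 h1.1
  have h3 : (h ^ (b + 1)) 0 = 0 := by simp [h0]
  have h4 := pow_right mul hf (hh.pow (b + 1)) hg f0 h3 g0 h2 a
  refine ⟨(colFin_swap _ _ _).1 h4.1, ?_⟩
  rw [col_swap, h4.2, ← col_swap, h1.2]
  simp only [Nat.succ_eq_add_one]; push_cast; ring

end algebra

/-- `k`-th roots of the inequalities of `Exact.e2` -/
theorem root {S Q C a : ℝ} {k : ℕ} (hk : k ≠ 0) (hS : 0 ≤ S) (hQ : 0 ≤ Q)
    (h : Q ^ k ≤ C * S ^ a) : Q ≤ (max C 0) ^ (1 / (k : ℝ)) * S ^ (a / k) := by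
  have hk' : (0 : ℝ) < k := by exact_mod_cast Nat.pos_of_ne_zero hk
  have h1 : Q ^ k ≤ max C 0 * S ^ a :=
    h.trans (mul_le_mul_of_nonneg_right (le_max_left _ _) (Real.rpow_nonneg hS _))
  have h2 : Q = (Q ^ k) ^ (1 / (k : ℝ)) := by
    rw [← Real.rpow_natCast, ← Real.rpow_mul hQ]
    rw [mul_one_div_cancel hk'.ne', Real.rpow_one]
  rw [h2]
  calc (Q ^ k) ^ (1 / (k : ℝ)) ≤ (max C 0 * S ^ a) ^ (1 / (k : ℝ)) :=
        Real.rpow_le_rpow (pow_nonneg hQ _) h1 (by positivity)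
    _ = _ := by
        rw [Real.mul_rpow (le_max_right _ _) (Real.rpow_nonneg hS _), ← Real.rpow_mul hS]
        congr 2
        ring

variable {f g h : E3 → ℂ} {k : ℕ}

theorem _root_.Crest.Agent.R257.XF_157.Exact.dom (E : Exact f k g h) {a : ℝ} (ha : 1 ≤ a) {q : E3 → ℂ} (hq : AnalyticAt ℂ q 0)
    (h1 : a = 1 → InJ 1 f q) (h2 : ∀ p : ℝ, 1 ≤ p → p < a → InJ p f q) :
    ∃ C r : ℝ, 0 < r ∧ ∀ x, ‖x‖ < r → f x = 0 → ‖q x‖ ≤ C * (‖g x‖ + ‖h x‖) ^ (a / k) := by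
  obtain ⟨C, r, hr, hC⟩ := E.e2 a ha q hq h1 h2
  refine ⟨(max C 0) ^ (1 / (k : ℝ)), r, hr, fun x hx hfx => ?_⟩
  have hk : k ≠ 0 := by have := E.k2; omega
  exact root hk (by positivity) (norm_nonneg _) (hC x hx hfx)

/-- monotonicity of `InJ` in the exponent, from a larger exponent to a smaller one -/
theorem InJ.mono {a p : ℝ} (hp : 1 ≤ p) (hpa : p ≤ a) {q : E3 → ℂ} (hq : AnalyticAt ℂ q 0)
    (hJ : InJ a f q) : InJ p f q := by
  obtain ⟨r, hr, hJr⟩ := hJ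
  -- bound of `q`
  obtain ⟨B, hB1, hB⟩ : ∃ B : ℝ, 1 ≤ B ∧ ∀ᶠ x in 𝓝 (0 : E3), ‖q x‖ ≤ B := by
    refine ⟨‖q 0‖ + 1, by linarith [norm_nonneg (q 0)], ?_⟩
    have := hq.continuousAt.norm
    exact (this.eventually (gt_mem_nhds (by linarith : ‖q 0‖ < ‖q 0‖ + 1))).mono
      fun x hx => le_of_lt hx
  obtain ⟨s, hs, hBs⟩ := Metric.eventually_nhds_iff.1 hB
  set ρ : ℝ := min r s with hρ
  have hρ0 : 0 < ρ := lt_min hr hs
  refine ⟨ρ, hρ0, ?_⟩
  have ha0 : (0 : ℝ) < a := by linarith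
  have hp0 : (0 : ℝ) < p := by linarith
  have he : 2 / a ≤ 2 / p := div_le_div_of_nonneg_left (by norm_num) hp0 hpa
  have key : Jint p (fun _ => ρ) f q ≤
      ENNReal.ofReal (B ^ (2 / p - 2 / a)) * Jint a (fun _ => r) f q := by
    unfold Jint
    rw [← MeasureTheory.lintegral_const_mul' _ _ ENNReal.ofReal_ne_top]
    have hsub : {x' : Fin 2 → ℂ | ∀ i, ‖x' i‖ < ρ} ⊆ {x' : Fin 2 → ℂ | ∀ i, ‖x' i‖ < r} :=
      fun x' hx' i => (hx' i).trans_le (min_le_left _ _)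
    refine (MeasureTheory.setLIntegral_mono' ?_ ?_).trans
      (MeasureTheory.lintegral_mono_set hsub)
    · have : {x' : Fin 2 → ℂ | ∀ i, ‖x' i‖ < ρ} = Metric.ball 0 ρ := by
        ext x'
        simp only [Set.mem_ofPred_eq, Metric.mem_ball, dist_zero_right]
        exact (pi_norm_lt_iff hρ0).symm
      rw [this]; exact measurableSet_ball
    intro x' hx'
    rw [← ENNReal.tsum_mul_left]
    let ψ : {z : ℂ // ‖z‖ < ρ ∧ f (Fin.cons z x') = 0 ∧ coordDeriv f 0 (Fin.cons z x') ≠ 0} →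
        {z : ℂ // ‖z‖ < r ∧ f (Fin.cons z x') = 0 ∧ coordDeriv f 0 (Fin.cons z x') ≠ 0} :=
      fun z => ⟨z.1, z.2.1.trans_le (min_le_left _ _), z.2.2⟩
    have hψ : Function.Injective ψ := by
      intro z w hzw
      have h3 : (ψ z).1 = (ψ w).1 := congrArg Subtype.val hzw
      exact Subtype.ext h3
    refine le_trans ?_ (ENNReal.tsum_comp_le_tsum_of_injective hψ _)
    refine ENNReal.tsum_le_tsum fun z => ?_
    rw [← ENNReal.ofReal_mul (by positivity)]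
    refine ENNReal.ofReal_le_ofReal ?_
    have hz : ‖q (Fin.cons z.1 x')‖ ≤ B := by
      refine hBs ?_
      rw [dist_zero_right]
      refine (pi_norm_lt_iff hs).2 fun i => ?_
      refine Fin.cases ?_ (fun j => ?_) i
      · simpa using z.2.1.trans_le (min_le_right _ _)
      · simpa using (hx' j).trans_le (min_le_right _ _)
    have hN : 0 ≤ ‖q (Fin.cons z.1 x')‖ := norm_nonneg _
    rw [← mul_div_assoc]
    refine div_le_div_of_nonneg_right ?_ (by positivity)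
    show ‖q (Fin.cons z.1 x')‖ ^ (2 / p) ≤ B ^ (2 / p - 2 / a) * ‖q (Fin.cons z.1 x')‖ ^ (2 / a)
    rcases hN.eq_or_lt with h0 | h0
    · rw [← h0, Real.zero_rpow (by positivity), Real.zero_rpow (by positivity), mul_zero]
    · have e1 : ‖q (Fin.cons z.1 x')‖ ^ (2 / p) = ‖q (Fin.cons z.1 x')‖ ^ (2 / p - 2 / a) *
          ‖q (Fin.cons z.1 x')‖ ^ (2 / a) := by
        rw [← Real.rpow_add h0]; congr 1; ring
      rw [e1]
      exact mul_le_mul_of_nonneg_right (Real.rpow_le_rpow hN hz (by linarith))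
        (Real.rpow_nonneg hN _)
  refine lt_of_le_of_lt key (ENNReal.mul_lt_top ENNReal.ofReal_lt_top hJr)

theorem _root_.Crest.Agent.R257.XF_157.Exact.dom' (E : Exact f k g h) {a : ℝ} (ha : 1 ≤ a) {q : E3 → ℂ} (hq : AnalyticAt ℂ q 0)
    (hJ : InJ a f q) :
    ∃ C r : ℝ, 0 < r ∧ ∀ x, ‖x‖ < r → f x = 0 → ‖q x‖ ≤ C * (‖g x‖ + ‖h x‖) ^ (a / k) := by
  refine Exact.dom E ha hq (fun h1 => h1 ▸ hJ) fun p hp hpa => InJ.mono hp hpa.le hq hJ

theorem _root_.Crest.Agent.R257.XF_157.Exact.colFin (E : Exact f k g h) (isf : IsoFinStmt) (hf : AnalyticAt ℂ f 0) :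
    ColFin ![f, g, h] := by
  refine isf _ (fun j => ?_) ?_
  · fin_cases j
    · exact hf
    · exact E.ang
    · exact E.anh
  · filter_upwards [E.e4] with x hx hj
    exact hx (hj 0) (hj 1) (hj 2)

theorem _root_.Crest.Agent.R257.XF_157.Exact.colFin' (E : Exact f k g h) (isf : IsoFinStmt) (hf : AnalyticAt ℂ f 0) :
    ColFin ![f, g, Dt f g h] := by
  obtain ⟨C, r, hr, hC⟩ := E.e3
  refine isf _ (fun j => ?_) ?_
  · fin_cases j
    · exact hf
    · exact E.ang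
    · exact analyticAt_Dt hf E.ang E.anh
  · filter_upwards [E.e4, Metric.ball_mem_nhds (0 : E3) hr] with x hx hxr hj
    have h0 : f x = 0 := hj 0
    have h1 : g x = 0 := hj 1
    have h2 : Dt f g h x = 0 := hj 2
    refine hx h0 h1 ?_
    have h3 := hC x (by simpa using hxr) h0
    have hk : k ≠ 0 := by have := E.k2; omega
    rw [h1, h2, norm_zero, zero_pow hk, zero_pow (by omega)] at h3
    have h4 : ‖h x‖ ^ (2 * k + 1) = 0 := le_antisymm (by simpa using h3) (by positivity)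
    exact norm_eq_zero.1 (pow_eq_zero_iff (by omega) |>.1 h4)

theorem lim_le {k : ℕ} (hk : 2 ≤ k) {m I : ℝ} (H : ∀ p : ℝ, 1 ≤ p → p < k → p * p * m ≤ I) :
    (k : ℝ) ^ 2 * m ≤ I := by
  have h1 : Tendsto (fun p : ℝ => p * p * m) (𝓝[<] (k : ℝ)) (𝓝 ((k : ℝ) * k * m)) := by
    refine Tendsto.mono_left ?_ nhdsWithin_le_nhds
    exact (Continuous.tendsto (by fun_prop) _)
  have hk' : (2 : ℝ) ≤ k := by exact_mod_cast hk
  have h2 : ∀ᶠ p in 𝓝[<] (k : ℝ), p * p * m ≤ I := by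
    have h3 : ∀ᶠ p in 𝓝[<] (k : ℝ), (1 : ℝ) < p :=
      (eventually_nhdsWithin_of_eventually_nhds (lt_mem_nhds (by linarith)))
    filter_upwards [h3, self_mem_nhdsWithin] with p hp hpk
    exact H p hp.le hpk
  have := le_of_tendsto h1 h2
  rw [sq]; exact this

/-- the colength of an exact pair -/
theorem _root_.Crest.Agent.R257.XF_157.Exact.col_eq (E : Exact f k g h) (cmp : CmpStmt) (isf : IsoFinStmt) (hI : Iso f)
    (hpos : 0 < mstar f) : (col ![f, g, h] : ℝ) = (k : ℝ) ^ 2 * mstar f := by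
  have hk2 := E.k2
  have hkR : (2 : ℝ) ≤ k := by exact_mod_cast hk2
  have hk0 : (0 : ℝ) < k := by linarith
  have hfin := E.colFin isf hI.an
  refine le_antisymm ?_ ?_
  · -- upper bound
    have hne : (mset f).Nonempty := ⟨_, 1, 1, le_rfl, le_rfl, g, h, E.ang, E.anh,
      (E.e1 1 le_rfl (by linarith)).1, (E.e1 1 le_rfl (by linarith)).2, hfin, rfl⟩
    have : (col ![f, g, h] : ℝ) / (k : ℝ) ^ 2 ≤ mstar f := by
      refine le_csInf hne ?_
      rintro c ⟨a, b, ha, hb, p, q, hp, hq, hpJ, hqJ, hpq, rfl⟩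
      -- `p 0 = 0` and `q 0 = 0`
      have hle : mstar f ≤ (col ![f, p, q] : ℝ) / (a * b) :=
        csInf_le (bddBelow_mset f) ⟨a, b, ha, hb, p, q, hp, hq, hpJ, hqJ, hpq, rfl⟩
      have hcol : col ![f, p, q] ≠ 0 := by
        intro h0
        rw [h0] at hle
        simp at hle
        linarith
      have hp0 : p 0 = 0 := by
        by_contra hne
        exact hcol (col_eq_zero (G := ![f, p, q]) (j := 1) hp hne)
      have hq0 : q 0 = 0 := by
        by_contra hne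
        exact hcol (col_eq_zero (G := ![f, p, q]) (j := 2) hq hne)
      obtain ⟨C1, r1, hr1, h1⟩ := Exact.dom' E ha hp hpJ
      obtain ⟨C2, r2, hr2, h2⟩ := Exact.dom' E hb hq hqJ
      have key := cmp f p q g h hI.an hp hq E.ang E.anh hI.zero hp0 hq0 E.g0 E.h0 hfin hpq
        (a / k) (b / k) (by positivity) (by positivity)
        ⟨max C1 C2, min r1 r2, lt_min hr1 hr2, fun x hx hfx => ⟨?_, ?_⟩⟩
      · have hab : 0 < a * b := by positivity
        rw [div_le_div_iff₀ (by positivity) hab]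
        have : a / k * (b / k) * (col ![f, g, h] : ℝ) = (col ![f, g, h] : ℝ) * (a * b) / k ^ 2 := by
          field_simp
        rw [this, div_le_iff₀ (by positivity)] at key
        linarith
      · exact (h1 x (hx.trans_le (min_le_left _ _)) hfx).trans
          (mul_le_mul_of_nonneg_right (le_max_left _ _) (by positivity))
      · exact (h2 x (hx.trans_le (min_le_right _ _)) hfx).trans
          (mul_le_mul_of_nonneg_right (le_max_right _ _) (by positivity))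
    rw [div_le_iff₀ (by positivity)] at this
    linarith
  · refine lim_le hk2 fun p hp hpk => ?_
    exact mul_mstar_le hp hp E.ang E.anh (E.e1 p hp hpk).1 (E.e1 p hp hpk).2 hfin

/-- `Dt ∈ J_q` for all `q < 2k + 1` -/
theorem _root_.Crest.Agent.R257.XF_157.Exact.det_mem (E : Exact f k g h) (det : DetStmt) (isf : IsoFinStmt)
    (hf : AnalyticAt ℂ f 0) {q : ℝ} (hq : 1 ≤ q) (hqk : q < 2 * k + 1) :
    InJ q f (Dt f g h) := by
  have hkR : (2 : ℝ) ≤ k := by exact_mod_cast E.k2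
  set s : ℝ := ((q - 1) / 2 + k) / 2 with hs
  have hs1 : 1 ≤ s := by rw [hs]; linarith
  have hsk : s < k := by rw [hs]; linarith
  have hsq : q < s + s + 1 := by rw [hs]; linarith
  exact det f g h hf E.ang E.anh (E.colFin isf hf) s s q hs1 hs1 hq hsq (E.e1 s hs1 hsk).1
    (E.e1 s hs1 hsk).2

theorem _root_.Crest.Agent.R257.XF_157.Exact.det_le (E : Exact f k g h) (det : DetStmt) (isf : IsoFinStmt)
    (hf : AnalyticAt ℂ f 0) : ∃ C r : ℝ, 0 < r ∧ ∀ x, ‖x‖ < r → f x = 0 →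
    ‖Dt f g h x‖ ≤ C * (‖g x‖ + ‖h x‖) ^ ((2 * (k : ℝ) + 1) / k) := by
  have hkR : (2 : ℝ) ≤ k := by exact_mod_cast E.k2
  refine Exact.dom E (by linarith) (analyticAt_Dt hf E.ang E.anh) (fun h1 => ?_) fun p hp hpk => ?_
  · linarith
  · exact E.det_mem det isf hf hp hpk

theorem Dt_zero (hI : Iso f) (g h : E3 → ℂ) : Dt f g h 0 = 0 := by
  rw [Dt_eq]
  simp [hI.crit]

theorem _root_.Crest.Agent.R257.XF_157.Exact.col_eq' (E : Exact f k g h) (cmp : CmpStmt) (mul : MulStmt) (isf : IsoFinStmt)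
    (det : DetStmt) (hI : Iso f) (hpos : 0 < mstar f) :
    (col ![f, g, Dt f g h] : ℝ) = (2 * (k : ℝ) ^ 2 + k) * mstar f := by
  have hkR : (2 : ℝ) ≤ k := by exact_mod_cast E.k2
  have hk0 : (0 : ℝ) < k := by linarith
  have hfin := E.colFin isf hI.an
  have hfin' := E.colFin' isf hI.an
  have hD := analyticAt_Dt hI.an E.ang E.anh
  have hD0 := Dt_zero hI g h
  have hcol := E.col_eq cmp isf hI hpos
  refine le_antisymm ?_ ?_
  · -- upper bound by (E3)
    obtain ⟨C, r, hr, hC⟩ := E.e3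
    have hkn : k ≠ 0 := by have := E.k2; omega
    have hp := pow_both mul hI.an E.ang hD hI.zero E.g0 hD0 hfin' (a := 2 * k + 1) (b := k)
      (by omega) hkn
    set α : ℝ := 1 / ((2 * k + 1 : ℕ) : ℝ) with hα
    have hk21 : (0 : ℝ) < ((2 * k + 1 : ℕ) : ℝ) := by positivity
    have hα0 : 0 < α := by positivity
    have e1 : ∀ x : E3, ‖(g ^ (2 * k + 1)) x‖ + ‖(Dt f g h ^ k) x‖
        = ‖g x‖ ^ (2 * k + 1) + ‖Dt f g h x‖ ^ k := by
      intro x; simp [norm_pow]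
    have e2 : ∀ y : ℝ, 0 ≤ y → (y ^ (2 * k + 1)) ^ α = y := by
      intro y hy
      rw [hα, ← Real.rpow_natCast, ← Real.rpow_mul hy, mul_one_div_cancel hk21.ne', Real.rpow_one]
    have key := cmp f g h (g ^ (2 * k + 1)) (Dt f g h ^ k) hI.an E.ang E.anh (E.ang.pow _)
      (hD.pow _) hI.zero E.g0 E.h0 (by simp [E.g0]) (by simp [hD0, hkn]) hp.1 hfin α α hα0 hα0
      ⟨max 1 ((max C 0) ^ α), r, hr, fun x hx hfx => ?_⟩
    · rw [hp.2] at key
      push_cast at key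
      have e3 : α * α * ((2 * (k : ℝ) + 1) * k * (col ![f, g, Dt f g h] : ℝ))
          = k * (col ![f, g, Dt f g h] : ℝ) / (2 * (k : ℝ) + 1) := by
        rw [hα]; push_cast; field_simp
      rw [e3, hcol, div_le_iff₀ (by positivity)] at key
      have : (k : ℝ) * (col ![f, g, Dt f g h] : ℝ) ≤ k * ((2 * (k : ℝ) ^ 2 + k) * mstar f) := by
        calc _ ≤ _ := key
          _ = _ := by ring
      exact le_of_mul_le_mul_left this hk0
    · rw [e1]
      have hS : 0 ≤ ‖g x‖ ^ (2 * k + 1) + ‖Dt f g h x‖ ^ k := by positivity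
      have hSα : 0 ≤ (‖g x‖ ^ (2 * k + 1) + ‖Dt f g h x‖ ^ k) ^ α := Real.rpow_nonneg hS _
      refine ⟨?_, ?_⟩
      · calc ‖g x‖ = (‖g x‖ ^ (2 * k + 1)) ^ α := (e2 _ (norm_nonneg _)).symm
          _ ≤ (‖g x‖ ^ (2 * k + 1) + ‖Dt f g h x‖ ^ k) ^ α :=
            Real.rpow_le_rpow (by positivity) (by linarith [pow_nonneg (norm_nonneg (Dt f g h x)) k])
              hα0.le
          _ ≤ _ := le_mul_of_one_le_left hSα (le_max_left _ _)
      · calc ‖h x‖ = (‖h x‖ ^ (2 * k + 1)) ^ α := (e2 _ (norm_nonneg _)).symm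
          _ ≤ (max C 0 * (‖g x‖ ^ (2 * k + 1) + ‖Dt f g h x‖ ^ k)) ^ α := by
            refine Real.rpow_le_rpow (by positivity) ((hC x hx hfx).trans ?_) hα0.le
            exact mul_le_mul_of_nonneg_right (le_max_left _ _) hS
          _ = (max C 0) ^ α * (‖g x‖ ^ (2 * k + 1) + ‖Dt f g h x‖ ^ k) ^ α :=
            Real.mul_rpow (le_max_right _ _) hS
          _ ≤ _ := mul_le_mul_of_nonneg_right (le_max_right _ _) hSα
  · -- lower bound by (E2)
    obtain ⟨C, r, hr, hC⟩ := E.det_le det isf hI.an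
    have key := cmp f g (Dt f g h) g h hI.an E.ang hD E.ang E.anh hI.zero E.g0 hD0 E.g0 E.h0
      hfin hfin' 1 ((2 * (k : ℝ) + 1) / k) one_pos (by positivity)
      ⟨max 1 C, r, hr, fun x hx hfx => ⟨?_, ?_⟩⟩
    · rw [hcol] at key
      calc (2 * (k : ℝ) ^ 2 + k) * mstar f
          = 1 * ((2 * (k : ℝ) + 1) / k) * ((k : ℝ) ^ 2 * mstar f) := by field_simp
        _ ≤ _ := key
    · rw [Real.rpow_one]
      have h1 : ‖g x‖ ≤ ‖g x‖ + ‖h x‖ := by linarith [norm_nonneg (h x)]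
      exact h1.trans (le_mul_of_one_le_left (by positivity) (le_max_left _ _))
    · exact (hC x hx hfx).trans (mul_le_mul_of_nonneg_right (le_max_right _ _) (by positivity))

/-- `XStmt` from the existence of exact pairs -/
theorem xStmt (ep : EPStmt) (cmp : CmpStmt) (mul : MulStmt) (isf : IsoFinStmt) (det : DetStmt) :
    XStmt := by
  intro f hI hpos
  obtain ⟨k, g, h, E⟩ := ep f hI hpos
  exact ⟨k, g, h, E.k2, E.ang, E.anh, E.e1, E.colFin isf hI.an, E.col_eq cmp isf hI hpos,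
    E.colFin' isf hI.an, E.col_eq' cmp mul isf det hI hpos⟩

/-- (JU) for an exact pair -/
theorem _root_.Crest.Agent.R257.XF_157.Exact.ju (E : Exact f k g h) (det : DetStmt) (isf : IsoFinStmt)
    (hf : AnalyticAt ℂ f 0) : ∃ C r : ℝ, 0 < r ∧ ∀ x, ‖x‖ < r → f x = 0 →
      ‖Dt f g h x‖ ^ 2 ≤ C * (‖g x‖ ^ 2 + ‖h x‖ ^ 2) ^ (2 + 1 / (k : ℝ)) := by
  obtain ⟨C, r, hr, hC⟩ := E.det_le det isf hf
  have hkR : (2 : ℝ) ≤ k := by exact_mod_cast E.k2
  set κ : ℝ := (2 * (k : ℝ) + 1) / k with hκ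
  have hκ' : 2 + 1 / (k : ℝ) = κ := by rw [hκ]; field_simp
  have hκ0 : 0 ≤ κ := by rw [hκ]; positivity
  refine ⟨(max C 0) ^ 2 * 2 ^ κ, r, hr, fun x hx hfx => ?_⟩
  rw [hκ']
  set S : ℝ := ‖g x‖ + ‖h x‖ with hS
  have hS0 : 0 ≤ S := by positivity
  have h1 : ‖Dt f g h x‖ ≤ max C 0 * S ^ κ :=
    (hC x hx hfx).trans (mul_le_mul_of_nonneg_right (le_max_left _ _) (Real.rpow_nonneg hS0 _))
  have h2 : ‖Dt f g h x‖ ^ 2 ≤ (max C 0 * S ^ κ) ^ 2 :=
    pow_le_pow_left₀ (norm_nonneg _) h1 2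
  have h3 : (S ^ κ) ^ 2 = (S ^ 2) ^ κ := by
    rw [← Real.rpow_natCast, ← Real.rpow_natCast, ← Real.rpow_mul hS0, ← Real.rpow_mul hS0,
      mul_comm]
  have h4 : S ^ 2 ≤ 2 * (‖g x‖ ^ 2 + ‖h x‖ ^ 2) := by
    rw [hS]; nlinarith [sq_nonneg (‖g x‖ - ‖h x‖)]
  have h5 : (S ^ 2) ^ κ ≤ 2 ^ κ * (‖g x‖ ^ 2 + ‖h x‖ ^ 2) ^ κ := by
    rw [← Real.mul_rpow (by norm_num) (by positivity)]
    exact Real.rpow_le_rpow (by positivity) h4 hκ0
  calc ‖Dt f g h x‖ ^ 2 ≤ (max C 0 * S ^ κ) ^ 2 := h2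
    _ = (max C 0) ^ 2 * (S ^ 2) ^ κ := by rw [mul_pow, h3]
    _ ≤ (max C 0) ^ 2 * (2 ^ κ * (‖g x‖ ^ 2 + ‖h x‖ ^ 2) ^ κ) :=
      mul_le_mul_of_nonneg_left h5 (by positivity)
    _ = _ := by ring

/-- `XUStmt` from the existence of exact pairs -/
theorem xuStmt (ep : EPStmt) (cmp : CmpStmt) (isf : IsoFinStmt) (det : DetStmt) : XUStmt := by
  intro f hI hpos
  obtain ⟨k, g, h, E⟩ := ep f hI hpos
  exact ⟨k, g, h, E.k2, E.ang, E.anh, E.colFin isf hI.an, E.col_eq cmp isf hI hpos,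
    E.ju det isf hI.an⟩

end Crest.Agent.R257.XFin_157
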